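import Mathlib

/-!
# Row 164, Part 7: Borel-Cantelli
-/

set_option autoImplicit false

namespace Crest.Agent.RI

open MeasureTheory ProbabilityTheory Filter

/-- BOREL-CANTELLI.  PROOF.  `Σ_N ∫ X_N^4 < ∞`, so `Σ_N X_N^4 < ∞` a.s. (`lintegral_tsum`), so `X_N → 0` a.s. -/
theorem as_of_fourth {Ω : Type*} [MeasurableSpace Ω] {P : Measure Ω} [IsProbabilityMeasure P]
    (X : ℕ → Ω → ℝ) (hX : ∀ N, Measurable (X N)) (hi : ∀ N, Integrable (fun ω => X N ω ^ 4) P)
    (C : ℝ) (h : ∀ᶠ N : ℕ in atTop, ∫ ω, X N ω ^ 4 ∂P ≤ C / (N : ℝ) ^ 2) :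
    ∀ᵐ ω ∂P, Tendsto (fun N => X N ω) atTop (nhds 0) := by
  have h4 : ∀ N ω, 0 ≤ X N ω ^ 4 := fun N ω => by positivity
  have hs : Summable (fun N => ∫ ω, X N ω ^ 4 ∂P) := by
    have hg : Summable (fun N : ℕ => C / (N : ℝ) ^ 2) := by
      simp only [div_eq_mul_inv]
      exact (Real.summable_nat_pow_inv.mpr one_lt_two).mul_left C
    refine Summable.of_norm_bounded_eventually_nat (g := fun N : ℕ => C / (N : ℝ) ^ 2) hg ?_
    filter_upwards [h] with N hN
    rw [Real.norm_eq_abs, abs_of_nonneg (integral_nonneg (fun ω => h4 N ω))]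
    exact hN
  have hm : ∀ N, Measurable (fun ω => ENNReal.ofReal (X N ω ^ 4)) := fun N =>
    ENNReal.measurable_ofReal.comp ((hX N).pow_const 4)
  have hl : ∫⁻ ω, ∑' N, ENNReal.ofReal (X N ω ^ 4) ∂P ≠ ⊤ := by
    rw [lintegral_tsum (fun N => (hm N).aemeasurable)]
    have h1 : ∀ N, ∫⁻ ω, ENNReal.ofReal (X N ω ^ 4) ∂P = ENNReal.ofReal (∫ ω, X N ω ^ 4 ∂P) :=
      fun N => (ofReal_integral_eq_lintegral_ofReal (hi N)
        (Eventually.of_forall (fun ω => h4 N ω))).symm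
    simp only [h1]
    rw [← ENNReal.ofReal_tsum_of_nonneg (fun N => integral_nonneg (fun ω => h4 N ω)) hs]
    exact ENNReal.ofReal_ne_top
  have hae := ae_lt_top (Measurable.tsum hm) hl
  filter_upwards [hae] with ω hω
  have h1 := ENNReal.tendsto_atTop_zero_of_tsum_ne_top hω.ne
  have h2 : Tendsto (fun N => X N ω ^ 4) atTop (nhds 0) := by
    have h3 := (ENNReal.tendsto_toReal ENNReal.zero_ne_top).comp h1
    simp only [ENNReal.toReal_zero] at h3
    refine h3.congr (fun N => ?_)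
    simp [Function.comp, ENNReal.toReal_ofReal (h4 N ω)]
  have h5 : Tendsto (fun N => Real.sqrt (Real.sqrt (X N ω ^ 4))) atTop (nhds 0) := by
    have h6 := (Real.continuous_sqrt.comp Real.continuous_sqrt).tendsto 0
    simp only [Function.comp, Real.sqrt_zero] at h6
    exact h6.comp h2
  rw [tendsto_zero_iff_abs_tendsto_zero]
  refine h5.congr (fun N => ?_)
  have h7 : X N ω ^ 4 = (X N ω ^ 2) ^ 2 := by ring
  rw [h7, Real.sqrt_sq (by positivity), Real.sqrt_sq_eq_abs]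
  rfl

end Crest.Agent.RI
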