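import Crest.Agent.RI.ConcP
import Crest.Agent.RI.BCfour

/-!
# Row 164, Part 7: almost sure convergence of the pressure (H5)
-/

set_option autoImplicit false

namespace Crest.Agent.RI

open MeasureTheory ProbabilityTheory Filter

variable {N : ℕ}

/-- (H5) ALMOST SURE CONVERGENCE for block models with proportions bounded below: only the laws of the `Us N` matter.
PROOF.  `X_N ω = P_N(Us N ω) - E P_N`; integrals over `P` are integrals over `P.map (Us N)` (`integral_map`), `pressure_four` for large `N` with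
`D = max |d l|` (or `Σ |d l|`), `as_of_fourth` (integrability: bounded on orthogonal arrays, `abs_logZP_le`, `|c N a| ≤ Σ_a |c N a|`). -/
theorem pressure_as {K : ℕ} (κ : (N : ℕ) → Fin N → Fin K) (d : Fin K → ℝ) (c : (N : ℕ) → Fin N → ℝ)
    {A : ℝ} (hA : ∀ᶠ N : ℕ in atTop, ∀ b,
      (N : ℝ) ≤ A * ((Finset.univ.filter (fun a => κ N a = κ N b)).card : ℝ))
    {Ω : Type*} [MeasurableSpace Ω] (P : Measure Ω) [IsProbabilityMeasure P]
    (Us : (N : ℕ) → Ω → (Fin N → Fin N → ℝ)) (hmeas : ∀ N, Measurable (Us N))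
    (hHaar : ∀ N, IsHaar (P.map (Us N))) :
    ∀ᵐ ω ∂P, Tendsto (fun N =>
      Crest.ProbabilityR.InvariantGlass.pressureFieldN (fun a => d (κ N a)) (Matrix.of (Us N ω)) (c N) -
      ∫ ω', Crest.ProbabilityR.InvariantGlass.pressureFieldN (fun a => d (κ N a))
        (Matrix.of (Us N ω')) (c N) ∂P) atTop (nhds 0) := by
  set p : (N : ℕ) → (Fin N → Fin N → ℝ) → ℝ := fun N O =>
    Crest.ProbabilityR.InvariantGlass.pressureFieldN (fun a => d (κ N a)) (Matrix.of O) (c N) with hp
  have hpm : ∀ N, Measurable (p N) := by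
    intro N
    have : p N = fun O => (1 / (N : ℝ)) * Real.log (ZP (fun a => d (κ N a)) (c N) O) := by
      funext O; exact pressureFieldN_eq _ _ _
    rw [this]
    exact (measurable_logZP _ _).const_mul _
  set D : ℝ := ∑ l, |d l| with hDdef
  have hD0 : 0 ≤ D := Finset.sum_nonneg (fun _ _ => abs_nonneg _)
  have hD : ∀ l, |d l| ≤ D := fun l =>
    Finset.single_le_sum (f := fun l => |d l|) (fun _ _ => abs_nonneg _) (Finset.mem_univ l)
  refine as_of_fourth (fun N ω => p N (Us N ω) - ∫ ω', p N (Us N ω') ∂P) ?_ ?_ (cstP D A) ?_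
  · intro N
    exact ((hpm N).comp (hmeas N)).sub_const _
  · intro N
    set C : ℝ := ∑ a, |c N a| with hCdef
    have hC : ∀ a, |c N a| ≤ C := fun a =>
      Finset.single_le_sum (f := fun a => |c N a|) (fun _ _ => abs_nonneg _) (Finset.mem_univ a)
    have hO : ∀ᵐ ω ∂P, IsO (Us N ω) := ae_of_ae_map (hmeas N).aemeasurable (hHaar N).orth
    set m : ℝ := ∫ ω', p N (Us N ω') ∂P with hm
    set B : ℝ := |1 / (N : ℝ)| * (N * (D / 2 + C)) + |m| with hB
    have hmeasX : Measurable (fun ω => (p N (Us N ω) - m) ^ 4) :=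
      (((hpm N).comp (hmeas N)).sub_const _).pow_const 4
    refine Integrable.of_bound hmeasX.aestronglyMeasurable (B ^ 4) ?_
    filter_upwards [hO] with ω hω
    have h1 : |p N (Us N ω)| ≤ |1 / (N : ℝ)| * (N * (D / 2 + C)) := by
      have h2 : p N (Us N ω) = (1 / (N : ℝ)) * Real.log (ZP (fun a => d (κ N a)) (c N) (Us N ω)) :=
        pressureFieldN_eq _ _ _
      rw [h2, abs_mul]
      exact mul_le_mul_of_nonneg_left (abs_logZP_le (fun a => hD _) hC hω) (abs_nonneg _)
    have h3 : |p N (Us N ω) - m| ≤ B := (abs_sub _ _).trans (by rw [hB]; linarith)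
    rw [Real.norm_eq_abs, abs_pow]
    exact pow_le_pow_left₀ (abs_nonneg _) h3 4
  · filter_upwards [hA, eventually_gt_atTop 0] with N hAN hN
    have h1 := pressure_four (κ N) d (c N) (hHaar N) hD0 hD hN hAN
    have h2 : ∫ O', p N O' ∂(P.map (Us N)) = ∫ ω', p N (Us N ω') ∂P :=
      integral_map (hmeas N).aemeasurable (hpm N).aestronglyMeasurable
    have h3 : ∫ O, (p N O - ∫ ω', p N (Us N ω') ∂P) ^ 4 ∂(P.map (Us N)) =
        ∫ ω, (p N (Us N ω) - ∫ ω', p N (Us N ω') ∂P) ^ 4 ∂P :=
      integral_map (hmeas N).aemeasurable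
        (((hpm N).sub_const _).pow_const 4).aestronglyMeasurable
    rw [← h3, ← h2]
    exact h1

end Crest.Agent.RI
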