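import Crest.Agent.RI.HaarCav

/-!
# Row 164, Part 7: transfer between Haar laws on arrays (`IsHaar`) and on the subtype `ON N` (`HaarO`)
-/

set_option autoImplicit false

namespace Crest.Agent.RI

open MeasureTheory ProbabilityTheory

variable {N : ℕ}

theorem measurableEmbedding_val : MeasurableEmbedding (Subtype.val : ON N → Fin N → Fin N → ℝ) :=
  MeasurableEmbedding.subtype_coe measurableSet_isO

theorem HaarON_mul_val (U V : ON N) : (ON.mul U V).1 = amul U.1 V.1 :=
  (amul_eq U.1 V.1).symm

theorem HaarON_inj {μ ν : Measure (ON N)}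
    (h : μ.map (Subtype.val : ON N → _) = ν.map (Subtype.val : ON N → _)) : μ = ν := by
  rw [← measurableEmbedding_val.comap_map μ, ← measurableEmbedding_val.comap_map ν, h]

theorem measurable_ONmul : Measurable (fun x : ON N × ON N => ON.mul x.1 x.2) := by
  refine measurableEmbedding_val.measurable_comp_iff.1 ?_
  have h : (Subtype.val : ON N → _) ∘ (fun x : ON N × ON N => ON.mul x.1 x.2) =
      (fun p : (Fin N → Fin N → ℝ) × (Fin N → Fin N → ℝ) => amul p.1 p.2) ∘
        (fun x : ON N × ON N => (x.1.1, x.2.1)) := by
    funext x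
    exact HaarON_mul_val x.1 x.2
  rw [h]
  exact measurable_amul.comp ((measurable_subtype_coe.comp measurable_fst).prodMk
    (measurable_subtype_coe.comp measurable_snd))

theorem HaarON_mul_left (R : ON N) : Measurable (fun U : ON N => ON.mul R U) :=
  measurable_ONmul.comp (measurable_const.prodMk measurable_id)

theorem HaarON_mul_right (R : ON N) : Measurable (fun U : ON N => ON.mul U R) :=
  measurable_ONmul.comp (measurable_id.prodMk measurable_const)

theorem HaarON_map_comap {P : Measure (Fin N → Fin N → ℝ)} (hP : IsHaar P) :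
    (P.comap (Subtype.val : ON N → _)).map (Subtype.val : ON N → _) = P := by
  rw [measurableEmbedding_val.map_comap]
  refine Measure.restrict_eq_self_of_ae_mem ?_
  filter_upwards [hP.orth] with U hU
  exact ⟨⟨U, hU⟩, rfl⟩

/-- PROOF.  `P.comap val` is a probability measure since `P` is carried by the measurable set of orthogonal arrays; invariance from `IsHaar.left`,
`IsHaar.right` (`(P.comap val).map val = P.restrict (range val) = P`). -/
theorem IsHaar.haarO {P : Measure (Fin N → Fin N → ℝ)} (hP : IsHaar P) :
    HaarO (P.comap (Subtype.val : ON N → _)) := by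
  have hm := HaarON_map_comap hP
  refine ⟨⟨?_⟩, fun R => HaarON_inj ?_, fun R => HaarON_inj ?_⟩
  · have := hP.prob
    have h1 : (P.comap (Subtype.val : ON N → _)).map (Subtype.val : ON N → _) Set.univ = 1 := by
      rw [hm]; exact measure_univ
    rw [Measure.map_apply measurable_subtype_coe MeasurableSet.univ] at h1
    simpa using h1
  · rw [Measure.map_map measurable_subtype_coe (HaarON_mul_left R)]
    have h : (Subtype.val : ON N → _) ∘ (fun U : ON N => ON.mul R U) =
        (fun V => amul R.1 V) ∘ (Subtype.val : ON N → _) := by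
      funext x
      exact HaarON_mul_val R x
    rw [h, ← Measure.map_map (measurable_amul_left _) measurable_subtype_coe, hm]
    exact hP.left R.2
  · rw [Measure.map_map measurable_subtype_coe (HaarON_mul_right R)]
    have h : (Subtype.val : ON N → _) ∘ (fun U : ON N => ON.mul U R) =
        (fun V => amul V R.1) ∘ (Subtype.val : ON N → _) := by
      funext x
      exact HaarON_mul_val x R
    rw [h, ← Measure.map_map (measurable_amul_right _) measurable_subtype_coe, hm]
    exact hP.right R.2

theorem HaarO.isHaar {Q : Measure (ON N)} (hQ : HaarO Q) :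
    IsHaar (Q.map (Subtype.val : ON N → _)) := by
  have := hQ.prob
  refine ⟨Measure.isProbabilityMeasure_map measurable_subtype_coe.aemeasurable, ?_, ?_⟩
  · exact (ae_map_iff measurable_subtype_coe.aemeasurable measurableSet_isO).2
      (Filter.Eventually.of_forall fun U => U.2)
  · intro O hO
    have e : (fun V : Fin N → Fin N → ℝ => amul V (fun i j => O i j)) =
        fun U => fun i j => (Matrix.of U * O) i j := by
      funext V
      exact amul_eq V (fun i j => O i j)
    rw [← e]
    set R : ON N := ⟨fun i j => O i j, hO⟩ with hR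
    have h : (fun V => amul V (fun i j => O i j)) ∘ (Subtype.val : ON N → _) =
        (Subtype.val : ON N → _) ∘ (fun U : ON N => ON.mul U R) := by
      funext x
      exact (HaarON_mul_val x R).symm
    rw [Measure.map_map (measurable_amul_right _) measurable_subtype_coe, h,
      ← Measure.map_map measurable_subtype_coe (HaarON_mul_right R), hQ.right R]

theorem HaarO.unique {Q Q' : Measure (ON N)} (hQ : HaarO Q) (hQ' : HaarO Q') : Q = Q' :=
  HaarON_inj (hQ.isHaar.unique hQ'.isHaar)

theorem exists_haarO (N : ℕ) : ∃ Q : Measure (ON N), HaarO Q := by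
  obtain ⟨P, hP⟩ := exists_isHaar N
  exact ⟨_, hP.haarO⟩

theorem HaarO.integral_map_val {Q : Measure (ON N)} (f : (Fin N → Fin N → ℝ) → ℝ) :
    ∫ U, f U ∂(Q.map (Subtype.val : ON N → _)) = ∫ U : ON N, f U.1 ∂Q :=
  measurableEmbedding_val.integral_map f

/-- integrals -/
theorem IsHaar.integral_comap {P : Measure (Fin N → Fin N → ℝ)} (hP : IsHaar P)
    (f : (Fin N → Fin N → ℝ) → ℝ) :
    ∫ U : ON N, f U.1 ∂(P.comap (Subtype.val : ON N → _)) = ∫ U, f U ∂P := by
  rw [← HaarO.integral_map_val, HaarON_map_comap hP]

/-- transpose -/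
def ON.tr (U : ON N) : ON N := ⟨atr U.1, IsO.tr U.2⟩

theorem HaarO.transpose {Q : Measure (ON N)} (hQ : HaarO Q) : Q.map ON.tr = Q := by
  have hm : Measurable (ON.tr : ON N → ON N) := by
    refine measurableEmbedding_val.measurable_comp_iff.1 ?_
    exact measurable_atr.comp measurable_subtype_coe
  refine HaarON_inj ?_
  rw [Measure.map_map measurable_subtype_coe hm]
  have h : (Subtype.val : ON N → _) ∘ (ON.tr : ON N → ON N) =
      atr ∘ (Subtype.val : ON N → _) := rfl
  rw [h, ← Measure.map_map measurable_atr measurable_subtype_coe]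
  exact hQ.isHaar.transpose

/-- the reflection as an element of `ON N` (identity if `q` is not unit-or-zero) -/
noncomputable def ON.refl (q : Fin N → ℝ) : ON N :=
  haveI := Classical.dec (UZ q)
  if h : UZ q then ⟨Crest.Agent.RI.refl q, isO_refl h⟩ else ⟨aone N, isO_one⟩

theorem ON.refl_val {q : Fin N → ℝ} (h : UZ q) : (ON.refl q).1 = Crest.Agent.RI.refl q := by
  unfold ON.refl
  rw [dif_pos h]

theorem HaarON_refl_neg {q : Fin N → ℝ} (h : ¬ UZ q) : (ON.refl q).1 = aone N := by
  unfold ON.refl
  rw [dif_neg h]

theorem ON.refl_mul_self (q : Fin N → ℝ) (U : ON N) :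
    ON.mul (ON.refl q) (ON.mul (ON.refl q) U) = U := by
  apply Subtype.ext
  rw [HaarON_mul_val, HaarON_mul_val]
  by_cases h : UZ q
  · rw [ON.refl_val h, ← amul_assoc, refl_refl h, aone_amul]
  · rw [HaarON_refl_neg h, aone_amul, aone_amul]

theorem measurable_ONrefl : Measurable (ON.refl : (Fin N → ℝ) → ON N) := by
  classical
  refine measurableEmbedding_val.measurable_comp_iff.1 ?_
  have hip : Measurable (fun q : Fin N → ℝ => ip q q) :=
    measurable_ip.comp (measurable_id.prodMk measurable_id)
  have hset : MeasurableSet {q : Fin N → ℝ | UZ q} := by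
    have h1 : MeasurableSet {q : Fin N → ℝ | ip q q = 1} := hip (measurableSet_singleton 1)
    have h2 : MeasurableSet {q : Fin N → ℝ | q = 0} := measurableSet_singleton 0
    exact h1.union h2
  have h : (Subtype.val : ON N → _) ∘ (ON.refl : (Fin N → ℝ) → ON N) =
      fun q => if UZ q then Crest.Agent.RI.refl q else aone N := by
    funext q
    by_cases hq : UZ q
    · simp only [Function.comp, ON.refl_val hq, if_pos hq]
    · simp only [Function.comp, HaarON_refl_neg hq, if_neg hq]
  rw [h]
  exact Measurable.ite hset measurable_refl measurable_const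

/-- `1 ⊕ O` -/
def ON.oneSum (O : ON N) : ON (N + 1) := ⟨Crest.Agent.RI.oneSum O.1, oneSum_isO O.2⟩

theorem measurable_ONoneSum : Measurable (ON.oneSum : ON N → ON (N + 1)) := by
  refine measurableEmbedding_val.measurable_comp_iff.1 ?_
  exact measurable_oneSum.comp measurable_subtype_coe

/-- the cavity matrix: new row and new column have index `0` -/
noncomputable def ON.cav (ξ : Fin (N + 1) → ℝ) (O : ON N) : ON (N + 1) :=
  ON.mul (ON.refl (qv 0 (nrm ξ))) (ON.oneSum O)

theorem measurable_cav :
    Measurable (fun x : (Fin (N + 1) → ℝ) × ON N => ON.cav x.1 x.2) := by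
  have h : Measurable (fun x : (Fin (N + 1) → ℝ) × ON N =>
      ((ON.refl (qv 0 (nrm x.1)) : ON (N + 1)), ON.oneSum x.2)) :=
    (measurable_ONrefl.comp ((measurable_qv 0).comp (measurable_nrm.comp measurable_fst))).prodMk
      (measurable_ONoneSum.comp measurable_snd)
  exact measurable_ONmul.comp h

/-- (H3) on the subtype -/
theorem HaarO.cavity {Q : Measure (ON N)} (hQ : HaarO Q) :
    HaarO (((gvec (N + 1)).prod Q).map (fun x => ON.cav x.1 x.2)) := by
  have := hQ.prob
  have h1 := haar_cavity hQ.isHaar
  have hQ' : IsProbabilityMeasure (Q.map (Subtype.val : ON N → _)) := hQ.isHaar.prob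
  have h2 : (gvec (N + 1)).prod (Q.map (Subtype.val : ON N → _)) =
      ((gvec (N + 1)).prod Q).map (Prod.map id (Subtype.val : ON N → _)) := by
    have h := Measure.map_prod_map (gvec (N + 1)) Q measurable_id
      (measurable_subtype_coe : Measurable (Subtype.val : ON N → _))
    rw [Measure.map_id] at h
    exact h
  have h3 : (((gvec (N + 1)).prod Q).map (fun x => ON.cav x.1 x.2)).map
      (Subtype.val : ON (N + 1) → _) =
      ((gvec (N + 1)).prod (Q.map (Subtype.val : ON N → _))).map
        (fun x => amul (Crest.Agent.RI.refl (qv 0 (nrm x.1))) (Crest.Agent.RI.oneSum x.2)) := by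
    rw [h2, Measure.map_map measurable_subtype_coe measurable_cav,
      Measure.map_map HaarCav_meas (measurable_id.prodMap measurable_subtype_coe)]
    congr 1
    funext x
    show (ON.mul (ON.refl (qv 0 (nrm x.1))) (ON.oneSum x.2)).1 = _
    rw [HaarON_mul_val, ON.refl_val (uz_qv _ _)]
    rfl
  rw [← h3] at h1
  have h4 := h1.haarO
  rwa [measurableEmbedding_val.comap_map] at h4

/-- integral form of (H3) -/
theorem HaarO.integral_cavity {Q : Measure (ON N)} (hQ : HaarO Q) {Q' : Measure (ON (N + 1))}
    (hQ' : HaarO Q') {f : ON (N + 1) → ℝ} (hf : Measurable f) :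
    ∫ U, f U ∂Q' = ∫ x, f (ON.cav x.1 x.2) ∂((gvec (N + 1)).prod Q) := by
  rw [hQ'.unique hQ.cavity, integral_map measurable_cav.aemeasurable hf.aestronglyMeasurable]

end Crest.Agent.RI
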