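import Crest.Prelude.Def_InvariantGlass

/-!
# Row 164, Part 0.6, file b: the edge-extended R-transform of a general law; stability
-/

set_option autoImplicit false

namespace Crest.Agent.RI

open MeasureTheory Set Filter
open Crest.ProbabilityR.InvariantGlass

variable {μ : Measure ℝ} [IsProbabilityMeasure μ] {lo hi : ℝ}

/-- resolvent -/
noncomputable def P06G (μ : Measure ℝ) (b : ℝ) : ℝ := ∫ lam, (b - lam)⁻¹ ∂μ

theorem P06_ae (h : μ (Icc lo hi) = 1) : ∀ᵐ x ∂μ, lo ≤ x ∧ x ≤ hi := by
  have := (prob_compl_eq_zero_iff measurableSet_Icc).2 h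
  exact this

theorem P06G_integrable (h : μ (Icc lo hi) = 1) {b : ℝ} (hb : hi < b) :
    Integrable (fun lam => (b - lam)⁻¹) μ := by
  refine Integrable.of_bound ((measurable_const.sub measurable_id).inv.aestronglyMeasurable)
    ((b - hi)⁻¹) ?_
  filter_upwards [P06_ae h] with x hx
  have h1 : 0 < b - hi := by linarith
  have h2 : 0 < b - x := by linarith
  rw [Real.norm_eq_abs, abs_of_pos (inv_pos.2 h2)]
  exact inv_anti₀ h1 (by linarith)

theorem P06G_le (h : μ (Icc lo hi) = 1) {b : ℝ} (hb : hi < b) : P06G μ b ≤ (b - hi)⁻¹ := by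
  have h1 : 0 < b - hi := by linarith
  calc P06G μ b ≤ ∫ _lam, (b - hi)⁻¹ ∂μ := by
        refine integral_mono_ae (P06G_integrable h hb) (integrable_const _) ?_
        filter_upwards [P06_ae h] with x hx
        exact inv_anti₀ h1 (by linarith)
    _ = (b - hi)⁻¹ := by simp

theorem P06G_ge (h : μ (Icc lo hi) = 1) {b : ℝ} (hb : hi < b) : (b - lo)⁻¹ ≤ P06G μ b := by
  calc (b - lo)⁻¹ = ∫ _lam, (b - lo)⁻¹ ∂μ := by simp
    _ ≤ P06G μ b := by
        refine integral_mono_ae (integrable_const _) (P06G_integrable h hb) ?_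
        filter_upwards [P06_ae h] with x hx
        exact inv_anti₀ (by linarith) (by linarith)

omit [IsProbabilityMeasure μ] in
theorem P06_le (h : μ (Icc lo hi) = 1) : lo ≤ hi := by
  by_contra hne
  rw [Icc_eq_empty hne] at h
  simp at h

theorem P06G_lt (h : μ (Icc lo hi) = 1) {b b' : ℝ} (hb : hi < b) (hbb : b < b') :
    P06G μ b' < P06G μ b := by
  have hlh := P06_le h
  have hb' : hi < b' := hb.trans hbb
  have h1 : (b' - b) / ((b - lo) * (b' - lo)) ≤ P06G μ b - P06G μ b' := by
    unfold P06G
    rw [← integral_sub (P06G_integrable h hb) (P06G_integrable h hb')]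
    calc (b' - b) / ((b - lo) * (b' - lo)) = ∫ _lam, (b' - b) / ((b - lo) * (b' - lo)) ∂μ := by simp
      _ ≤ _ := by
          refine integral_mono_ae (integrable_const _)
            ((P06G_integrable h hb).sub (P06G_integrable h hb')) ?_
          filter_upwards [P06_ae h] with x hx
          have e1 : 0 < b - x := by linarith
          have e2 : 0 < b' - x := by linarith
          have e3 : (b - x)⁻¹ - (b' - x)⁻¹ = (b' - b) / ((b - x) * (b' - x)) := by
            field_simp
            ring
          rw [e3]
          apply div_le_div_of_nonneg_left (by linarith) (by positivity)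
          exact mul_le_mul (by linarith) (by linarith) e2.le (by linarith)
  have h2 : 0 < (b' - b) / ((b - lo) * (b' - lo)) := by
    apply div_pos (by linarith)
    exact mul_pos (by linarith) (by linarith)
  linarith

theorem P06G_le_of_le (h : μ (Icc lo hi) = 1) {b b' : ℝ} (hb : hi < b) (hbb : b ≤ b') :
    P06G μ b' ≤ P06G μ b := by
  rcases hbb.eq_or_lt with rfl | hlt
  · exact le_rfl
  · exact (P06G_lt h hb hlt).le

theorem P06G_continuousOn (h : μ (Icc lo hi) = 1) : ContinuousOn (P06G μ) (Ioi hi) := by
  intro b0 hb0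
  apply ContinuousAt.continuousWithinAt
  rw [mem_Ioi] at hb0
  unfold P06G
  have hm : (b0 + hi) / 2 < b0 := by linarith
  refine continuousAt_of_dominated (bound := fun _ => ((b0 - hi) / 2)⁻¹) ?_ ?_ (integrable_const _) ?_
  · exact Eventually.of_forall fun b => (measurable_const.sub measurable_id).inv.aestronglyMeasurable
  · filter_upwards [lt_mem_nhds hm] with b hb
    filter_upwards [P06_ae h] with x hx
    have e1 : 0 < (b0 - hi) / 2 := by linarith
    have e2 : 0 < b - x := by linarith
    rw [Real.norm_eq_abs, abs_of_pos (inv_pos.2 e2)]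
    exact inv_anti₀ e1 (by linarith)
  · filter_upwards [P06_ae h] with x hx
    have e2 : b0 - x ≠ 0 := by
      have : 0 < b0 - x := by linarith
      exact this.ne'
    exact ((continuousAt_id.sub continuousAt_const).inv₀ e2)

/-- the set of points where the resolvent is at most `x` -/
def P06S (μ : Measure ℝ) (hi x : ℝ) : Set ℝ := {b : ℝ | hi < b ∧ P06G μ b ≤ x}

theorem P06S_mem (h : μ (Icc lo hi) = 1) {x : ℝ} (hx : 0 < x) : hi + 1 / x ∈ P06S μ hi x := by
  have h1 : hi < hi + 1 / x := by
    have := one_div_pos.2 hx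
    linarith
  refine ⟨h1, (P06G_le h h1).trans (le_of_eq ?_)⟩
  rw [add_sub_cancel_left, one_div, inv_inv]

theorem P06S_bddBelow (μ : Measure ℝ) (hi x : ℝ) : BddBelow (P06S μ hi x) :=
  ⟨hi, fun _ hb => hb.1.le⟩

/-- monotone description of the edge-extended inverse resolvent. -/
theorem P06_resolventPoint (h : μ (Icc lo hi) = 1) {x : ℝ} (hx : 0 < x) :
    resolventPoint μ hi x = sInf (P06S μ hi x) := by
  unfold resolventPoint
  by_cases hex : ∃ b : ℝ, hi < b ∧ ∫ lam, (b - lam)⁻¹ ∂μ = x
  · simp only [if_pos hex]
    obtain ⟨b0, hb0, hG⟩ := hex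
    have hG' : P06G μ b0 = x := hG
    have h1 : {b : ℝ | hi < b ∧ ∫ lam, (b - lam)⁻¹ ∂μ = x} = {b0} := by
      ext b
      simp only [mem_ofPred_eq, mem_singleton_iff]
      constructor
      · rintro ⟨hb, hb2⟩
        have hb2' : P06G μ b = x := hb2
        rcases lt_trichotomy b b0 with hlt | heq | hgt
        · have := P06G_lt h hb hlt
          rw [hG', hb2'] at this
          exact absurd this (lt_irrefl _)
        · exact heq
        · have := P06G_lt h hb0 hgt
          rw [hG', hb2'] at this
          exact absurd this (lt_irrefl _)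
      · rintro rfl
        exact ⟨hb0, hG⟩
    have h2 : P06S μ hi x = Ici b0 := by
      ext b
      simp only [P06S, mem_ofPred_eq, mem_Ici]
      constructor
      · rintro ⟨hb, hb2⟩
        by_contra hne
        push Not at hne
        have := P06G_lt h hb hne
        rw [hG'] at this
        linarith
      · intro hb
        refine ⟨lt_of_lt_of_le hb0 hb, ?_⟩
        rw [← hG']
        exact P06G_le_of_le h hb0 hb
    rw [h1, h2, csInf_singleton, csInf_Ici]
  · simp only [if_neg hex]
    have h2 : P06S μ hi x = Ioi hi := by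
      ext b
      simp only [P06S, mem_ofPred_eq, mem_Ioi]
      refine ⟨fun hb => hb.1, fun hb => ⟨hb, ?_⟩⟩
      by_contra hne
      push Not at hne
      -- intermediate value theorem
      obtain ⟨hc1, hc2⟩ := P06S_mem h hx
      have hle : b ≤ hi + 1 / x := by
        by_contra hlt
        push Not at hlt
        have := P06G_le_of_le h hc1 hlt.le
        linarith
      have hcont : ContinuousOn (P06G μ) (Icc b (hi + 1 / x)) :=
        (P06G_continuousOn h).mono fun y hy => lt_of_lt_of_le hb hy.1
      have hiv := intermediate_value_Icc' hle hcont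
      obtain ⟨y, hy, hy2⟩ := hiv ⟨hc2, hne.le⟩
      exact hex ⟨y, lt_of_lt_of_le hb hy.1, hy2⟩
    rw [h2, csInf_Ioi]

theorem P06_rT_bound (h : μ (Icc lo hi) = 1) (x : ℝ) :
    lo ≤ rTransform μ hi x ∧ rTransform μ hi x ≤ hi := by
  unfold rTransform
  by_cases hx : 0 < x
  · simp only [if_pos hx]
    rw [P06_resolventPoint h hx]
    constructor
    · have : lo + 1 / x ≤ sInf (P06S μ hi x) := by
        refine le_csInf ⟨_, P06S_mem h hx⟩ fun b hb => ?_
        have h1 := (P06G_ge h hb.1).trans hb.2
        have h2 : 0 < b - lo := by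
          have := P06_le h
          have := hb.1
          linarith
        have h3 : 1 / x ≤ b - lo := by
          rw [div_le_iff₀ hx]
          rw [inv_le_iff_one_le_mul₀ h2] at h1
          linarith
        linarith
      linarith
    · have := csInf_le (P06S_bddBelow μ hi x) (P06S_mem h hx)
      linarith
  · simp only [if_neg hx]
    have hint : Integrable (fun lam : ℝ => lam) μ := by
      refine Integrable.of_bound measurable_id.aestronglyMeasurable (max |lo| |hi|) ?_
      filter_upwards [P06_ae h] with y hy
      exact abs_le_max_abs_abs hy.1 hy.2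
    constructor
    · calc lo = ∫ _lam, lo ∂μ := by simp
        _ ≤ _ := integral_mono_ae (integrable_const _) hint (by
            filter_upwards [P06_ae h] with y hy using hy.1)
    · calc _ ≤ ∫ _lam, hi ∂μ := integral_mono_ae hint (integrable_const _) (by
            filter_upwards [P06_ae h] with y hy using hy.2)
        _ = hi := by simp

theorem P06_rT_measurable (h : μ (Icc lo hi) = 1) : Measurable (rTransform μ hi) := by
  have h1 : Antitone fun t : ℝ => resolventPoint μ hi (Real.exp t) := by
    intro s t hst
    simp only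
    rw [P06_resolventPoint h (Real.exp_pos s), P06_resolventPoint h (Real.exp_pos t)]
    apply csInf_le_csInf (P06S_bddBelow _ _ _) ⟨_, P06S_mem h (Real.exp_pos s)⟩
    intro b hb
    exact ⟨hb.1, hb.2.trans (Real.exp_le_exp.2 hst)⟩
  have h2 : rTransform μ hi = fun x => if 0 < x then
      resolventPoint μ hi (Real.exp (Real.log x)) - 1 / x else ∫ lam, lam ∂μ := by
    funext x
    unfold rTransform
    by_cases hx : 0 < x
    · simp only [if_pos hx, Real.exp_log hx]
    · simp only [if_neg hx]
  rw [h2]
  refine Measurable.ite measurableSet_Ioi ?_ measurable_const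
  exact (h1.measurable.comp Real.measurable_log).sub (measurable_const.div measurable_id)

/-- STABILITY of the R-transform under an `η`-perturbation of the law and of the edge. -/
theorem P06_rT_stable (h : μ (Icc lo hi) = 1) {ν : Measure ℝ} [IsProbabilityMeasure ν]
    {lo' hi' : ℝ} (h' : ν (Icc lo' hi') = 1) {ρ : ℝ → ℝ} (hρ : Measurable ρ) (hν : ν = μ.map ρ)
    {η : ℝ} (hη : ∀ᵐ x ∂μ, |ρ x - x| ≤ η) (hedge : |hi' - hi| ≤ η) (x : ℝ) :
    |rTransform μ hi x - rTransform ν hi' x| ≤ η := by
  have hη0 : 0 ≤ η := (abs_nonneg _).trans hedge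
  have hGν : ∀ b, P06G ν b = ∫ lam, (b - ρ lam)⁻¹ ∂μ := by
    intro b
    unfold P06G
    rw [hν, integral_map hρ.aemeasurable]
    exact (measurable_const.sub measurable_id).inv.aestronglyMeasurable
  have hae' : ∀ᵐ x ∂μ, lo' ≤ ρ x ∧ ρ x ≤ hi' := by
    have h1 := P06_ae h'
    rw [hν] at h1
    exact ae_of_ae_map hρ.aemeasurable h1
  have hintν : ∀ b, hi' < b → Integrable (fun lam => (b - ρ lam)⁻¹) μ := by
    intro b hb
    refine Integrable.of_bound ((measurable_const.sub hρ).inv.aestronglyMeasurable)
      ((b - hi')⁻¹) ?_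
    filter_upwards [hae'] with y hy
    have h1 : 0 < b - hi' := by linarith
    have h2 : 0 < b - ρ y := by linarith
    rw [Real.norm_eq_abs, abs_of_pos (inv_pos.2 h2)]
    exact inv_anti₀ h1 (by linarith)
  rw [abs_le] at hedge
  unfold rTransform
  by_cases hx : 0 < x
  · simp only [if_pos hx]
    rw [P06_resolventPoint h hx, P06_resolventPoint h' hx]
    have h1 : sInf (P06S μ hi x) - η ≤ sInf (P06S ν hi' x) := by
      refine le_csInf ⟨_, P06S_mem h' hx⟩ fun b hb => ?_
      have hb1 : hi < b + η := by
        have := hb.1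
        linarith
      have hb2 : P06G μ (b + η) ≤ P06G ν b := by
        rw [hGν]
        refine integral_mono_ae (P06G_integrable h hb1) (hintν b hb.1) ?_
        filter_upwards [hη, hae', P06_ae h] with y hy1 hy2 hy3
        rw [abs_le] at hy1
        have := hb.1
        exact inv_anti₀ (by linarith) (by linarith)
      have := csInf_le (P06S_bddBelow μ hi x)
        (show b + η ∈ P06S μ hi x from ⟨hb1, hb2.trans hb.2⟩)
      linarith
    have h2 : sInf (P06S ν hi' x) - η ≤ sInf (P06S μ hi x) := by
      refine le_csInf ⟨_, P06S_mem h hx⟩ fun b hb => ?_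
      have hb1 : hi' < b + η := by
        have := hb.1
        linarith
      have hb2 : P06G ν (b + η) ≤ P06G μ b := by
        rw [hGν]
        refine integral_mono_ae (hintν _ hb1) (P06G_integrable h hb.1) ?_
        filter_upwards [hη, hae', P06_ae h] with y hy1 hy2 hy3
        rw [abs_le] at hy1
        have := hb.1
        exact inv_anti₀ (by linarith) (by linarith)
      have := csInf_le (P06S_bddBelow ν hi' x)
        (show b + η ∈ P06S ν hi' x from ⟨hb1, hb2.trans hb.2⟩)
      linarith
    rw [abs_le]
    constructor <;> linarith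
  · simp only [if_neg hx]
    have hint : Integrable (fun lam : ℝ => lam) μ := by
      refine Integrable.of_bound measurable_id.aestronglyMeasurable (max |lo| |hi|) ?_
      filter_upwards [P06_ae h] with y hy
      exact abs_le_max_abs_abs hy.1 hy.2
    have hintρ : Integrable (fun lam : ℝ => ρ lam) μ := by
      refine Integrable.of_bound hρ.aestronglyMeasurable (max |lo'| |hi'|) ?_
      filter_upwards [hae'] with y hy
      exact abs_le_max_abs_abs hy.1 hy.2
    have e1 : ∫ lam, lam ∂ν = ∫ lam, ρ lam ∂μ := by
      rw [hν, integral_map hρ.aemeasurable]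
      exact measurable_id.aestronglyMeasurable
    rw [e1, ← integral_sub hint hintρ]
    calc |∫ a, a - ρ a ∂μ| ≤ ∫ a, |a - ρ a| ∂μ := abs_integral_le_integral_abs
      _ ≤ ∫ _a, η ∂μ := by
          refine integral_mono_ae (hint.sub hintρ).abs (integrable_const _) ?_
          filter_upwards [hη] with y hy
          rw [abs_sub_comm] at hy
          exact hy
      _ = η := by simp

theorem P06_deficit_measurable {p : ℝ → ℝ} (hp : IsTrialPath p) : Measurable (deficit p) := by
  have hint : ∀ r : ℝ, IntegrableOn (fun s => max (p s - r) 0) (Ioo 0 1) := by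
    intro r
    have hm : Measurable fun s => max (p s - r) 0 := (hp.1.sub measurable_const).max measurable_const
    refine Measure.integrableOn_of_bounded (M := 1 + |r|) (by simp) hm.aestronglyMeasurable ?_
    rw [ae_restrict_iff' measurableSet_Ioo]
    refine Eventually.of_forall fun s hs => ?_
    have h1 := hp.2.2 s hs
    have h2 := neg_abs_le r
    have h3 := abs_nonneg r
    rw [Real.norm_eq_abs, abs_of_nonneg (le_max_right _ _)]
    exact max_le (by linarith) (by linarith)
  have hanti : Antitone fun r : ℝ => ∫ s in Ioo (0 : ℝ) 1, max (p s - r) 0 := by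
    intro r r' hr
    refine setIntegral_mono (hint r') (hint r) fun s => ?_
    exact max_le_max (by linarith) le_rfl
  unfold deficit
  exact (measurable_const.sub measurable_id).sub hanti.measurable

theorem P06_rT_integrable (h : μ (Icc lo hi) = 1) {p : ℝ → ℝ} (hp : IsTrialPath p) :
    IntegrableOn (fun r => rTransform μ hi (deficit p r)) (Ioo 0 1) := by
  have hm := (P06_rT_measurable h).comp (P06_deficit_measurable hp)
  refine Measure.integrableOn_of_bounded (M := max |lo| |hi|) (by simp) hm.aestronglyMeasurable ?_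
  refine Eventually.of_forall fun s => ?_
  have := P06_rT_bound h (deficit p s)
  exact abs_le_max_abs_abs this.1 this.2

/-- STABILITY of the spectral part. -/
theorem P06_spectral_stable (h : μ (Icc lo hi) = 1) {ν : Measure ℝ} [IsProbabilityMeasure ν]
    {lo' hi' : ℝ} (h' : ν (Icc lo' hi') = 1) {ρ : ℝ → ℝ} (hρ : Measurable ρ) (hν : ν = μ.map ρ)
    {η : ℝ} (hη : ∀ᵐ x ∂μ, |ρ x - x| ≤ η) (hedge : |hi' - hi| ≤ η) {p : ℝ → ℝ}
    (hp : IsTrialPath p) :
    |spectralPart μ hi p - spectralPart ν hi' p| ≤ η := by
  have hη0 : 0 ≤ η := (abs_nonneg _).trans hedge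
  unfold spectralPart
  rw [← mul_sub, ← integral_sub (P06_rT_integrable h hp) (P06_rT_integrable h' hp), abs_mul,
    abs_of_nonneg (by norm_num : (0:ℝ) ≤ 1 / 2)]
  have h1 : |∫ a in Ioo (0:ℝ) 1, (rTransform μ hi (deficit p a) - rTransform ν hi' (deficit p a))| ≤
      η := by
    calc _ ≤ ∫ a in Ioo (0:ℝ) 1, |rTransform μ hi (deficit p a) - rTransform ν hi' (deficit p a)| :=
          abs_integral_le_integral_abs
      _ ≤ ∫ _a in Ioo (0:ℝ) 1, η := by
          refine setIntegral_mono
            ((P06_rT_integrable h hp).sub (P06_rT_integrable h' hp)).abs (by simp) fun s => ?_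
          exact P06_rT_stable h h' hρ hν hη (abs_le.2 (abs_le.1 hedge)) _
      _ = η := by simp
  linarith

end Crest.Agent.RI
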