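import Crest.Prelude.Def_InvariantGlass

/-!
# Row 164, Part 0.6, file c: grids with null boundaries and the law of large numbers for cells
-/

set_option autoImplicit false

namespace Crest.Agent.RI

open MeasureTheory Set Filter
open Crest.ProbabilityR.InvariantGlass

/-- index of the cell of `x` in the grid `θ + ηℤ` -/
noncomputable def P06idx (θ η x : ℝ) : ℤ := ⌊(x - θ) / η⌋

theorem P06idx_iff {θ η : ℝ} (hη : 0 < η) (x : ℝ) (k : ℤ) :
    P06idx θ η x = k ↔ θ + k * η ≤ x ∧ x < θ + (k + 1) * η := by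
  unfold P06idx
  rw [Int.floor_eq_iff, le_div_iff₀ hη, div_lt_iff₀ hη]
  constructor
  · rintro ⟨h1, h2⟩
    constructor <;> linarith
  · rintro ⟨h1, h2⟩
    constructor <;> linarith

theorem P06idx_le {θ η : ℝ} (hη : 0 < η) (x : ℝ) : θ + (P06idx θ η x) * η ≤ x :=
  ((P06idx_iff hη x _).1 rfl).1

theorem P06idx_lt {θ η : ℝ} (hη : 0 < η) (x : ℝ) : x < θ + (P06idx θ η x + 1) * η :=
  ((P06idx_iff hη x _).1 rfl).2

theorem P06idx_mono {θ η : ℝ} (hη : 0 < η) : Monotone (P06idx θ η) := by
  intro x y hxy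
  unfold P06idx
  apply Int.floor_le_floor
  exact div_le_div_of_nonneg_right (by linarith) hη.le

theorem P06idx_measurable (θ η : ℝ) : Measurable (P06idx θ η) := by
  unfold P06idx
  exact Int.measurable_floor.comp ((measurable_id.sub measurable_const).div_const _)

/-- the grid points -/
def P06grid (θ η : ℝ) : Set ℝ := ⋃ k : ℤ, {θ + k * η}

theorem P06_frontier {θ η : ℝ} (hη : 0 < η) (T : Set ℤ) :
    frontier (P06idx θ η ⁻¹' T) ⊆ P06grid θ η := by
  intro x hx
  by_contra hne
  have h1 := P06idx_le hη x (θ := θ)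
  have h2 := P06idx_lt hη x (θ := θ)
  have h3 : θ + (P06idx θ η x) * η < x := by
    rcases h1.lt_or_eq with h | h
    · exact h
    · exfalso
      apply hne
      unfold P06grid
      rw [mem_iUnion]
      exact ⟨P06idx θ η x, h.symm⟩
  have hopen : IsOpen (Ioo (θ + (P06idx θ η x) * η) (θ + (P06idx θ η x + 1) * η)) := isOpen_Ioo
  have hmem : x ∈ Ioo (θ + (P06idx θ η x) * η) (θ + (P06idx θ η x + 1) * η) := ⟨h3, h2⟩
  have hconst : ∀ y ∈ Ioo (θ + (P06idx θ η x) * η) (θ + (P06idx θ η x + 1) * η),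
      P06idx θ η y = P06idx θ η x := fun y hy => (P06idx_iff hη y _).2 ⟨hy.1.le, hy.2⟩
  by_cases hT : P06idx θ η x ∈ T
  · have : x ∈ interior (P06idx θ η ⁻¹' T) := by
      rw [mem_interior]
      refine ⟨_, ?_, hopen, hmem⟩
      intro y hy
      rw [mem_preimage, hconst y hy]
      exact hT
    exact (hx.2 this)
  · have : x ∉ closure (P06idx θ η ⁻¹' T) := by
      rw [mem_closure_iff]
      push Not
      refine ⟨_, hopen, hmem, ?_⟩
      rw [eq_empty_iff_forall_notMem]
      rintro y ⟨hy, hy2⟩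
      rw [mem_preimage, hconst y hy] at hy2
      exact hT hy2
    exact this hx.1

/-- a grid with null points avoiding two given points -/
theorem P06_exists_grid (μ : Measure ℝ) [IsProbabilityMeasure μ] {η : ℝ} (a b : ℝ) :
    ∃ θ : ℝ, μ (P06grid θ η) = 0 ∧ a ∉ P06grid θ η ∧ b ∉ P06grid θ η := by
  have h1 : Set.Countable {t : ℝ | 0 < μ {x : ℝ | x = t}} :=
    Measure.countable_meas_level_set_pos (g := fun x : ℝ => x) measurable_id
  set A : Set ℝ := {t : ℝ | 0 < μ {x : ℝ | x = t}} ∪ {a, b} with hA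
  have hAc : A.Countable := h1.union (by simp)
  have h2 : (⋃ k : ℤ, (fun x : ℝ => x - k * η) '' A).Countable :=
    countable_iUnion fun k => hAc.image _
  obtain ⟨θ, hθ⟩ := (h2.dense_compl ℝ).nonempty
  rw [mem_compl_iff, mem_iUnion] at hθ
  push Not at hθ
  have h3 : ∀ k : ℤ, θ + k * η ∉ A := by
    intro k hk
    apply hθ k
    exact ⟨θ + k * η, hk, by ring⟩
  refine ⟨θ, ?_, ?_, ?_⟩
  · unfold P06grid
    rw [measure_iUnion_null_iff]
    intro k
    have := h3 k
    rw [hA, mem_union, not_or] at this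
    have h4 := this.1
    rw [mem_ofPred_eq, not_lt, nonpos_iff_eq_zero] at h4
    have h5 : {x : ℝ | x = θ + k * η} = {θ + k * η} := by
      ext x
      simp
    rw [← h5]
    exact h4
  · unfold P06grid
    rw [mem_iUnion]
    rintro ⟨k, hk⟩
    rw [mem_singleton_iff] at hk
    apply h3 k
    rw [← hk, hA]
    simp
  · unfold P06grid
    rw [mem_iUnion]
    rintro ⟨k, hk⟩
    rw [mem_singleton_iff] at hk
    apply h3 k
    rw [← hk, hA]
    simp

/-- empirical measure of a nonempty vector is a probability measure -/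
theorem P06_emp_prob {N : ℕ} (hN : N ≠ 0) (x : Fin N → ℝ) : IsProbabilityMeasure (empiricalLaw x) := by
  constructor
  unfold empiricalLaw
  rw [Measure.smul_apply, Measure.finsetSum_apply]
  simp only [measure_univ, Finset.sum_const, Finset.card_univ, Fintype.card_fin, nsmul_eq_mul,
    mul_one, smul_eq_mul]
  exact ENNReal.inv_mul_cancel (by exact_mod_cast hN) (ENNReal.natCast_ne_top N)

theorem P06_emp_integral {N : ℕ} (x : Fin N → ℝ) (f : ℝ → ℝ) :
    ∫ y, f y ∂(empiricalLaw x) = (1 / (N : ℝ)) * ∑ i, f (x i) := by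
  unfold empiricalLaw
  rw [integral_smul_measure, integral_finsetSum_measure]
  · simp only [integral_dirac, smul_eq_mul, ENNReal.toReal_inv, ENNReal.toReal_natCast, one_div]
  · intro i _
    exact integrable_dirac (by simp)

theorem P06_emp_apply {N : ℕ} (hN : N ≠ 0) (x : Fin N → ℝ) {E : Set ℝ} (hE : MeasurableSet E)
    [DecidablePred fun i => x i ∈ E] :
    (empiricalLaw x E).toReal = ((Finset.univ.filter fun i => x i ∈ E).card : ℝ) / (N : ℝ) := by
  unfold empiricalLaw
  rw [Measure.smul_apply, Measure.finsetSum_apply, smul_eq_mul, ENNReal.toReal_mul,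
    ENNReal.toReal_inv, ENNReal.toReal_natCast]
  have h1 : ∑ i, (Measure.dirac (x i)) E = ((Finset.univ.filter fun i => x i ∈ E).card : ENNReal) := by
    rw [Finset.card_filter]
    push_cast
    refine Finset.sum_congr rfl fun i _ => ?_
    rw [Measure.dirac_apply' _ hE]
    by_cases h : x i ∈ E
    · simp [h]
    · simp [h]
  rw [h1, ENNReal.toReal_natCast]
  ring

/-- convergence of the proportions of unions of cells -/
theorem P06_cells {μ : Measure ℝ} [IsProbabilityMeasure μ] {eig : (N : ℕ) → Fin N → ℝ}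
    (hweak : ∀ φ : ℝ → ℝ, Continuous φ → (∃ C : ℝ, ∀ x, |φ x| ≤ C) →
      Filter.Tendsto (fun N : ℕ => (1 / (N : ℝ)) * ∑ i : Fin N, φ (eig N i)) Filter.atTop
        (nhds (∫ x, φ x ∂μ))) {E : Set ℝ} (hE : MeasurableSet E) (hfr : μ (frontier E) = 0)
    [∀ N, DecidablePred fun i => eig N i ∈ E] :
    Tendsto (fun N : ℕ => ((Finset.univ.filter fun i => eig N i ∈ E).card : ℝ) / (N : ℝ)) atTop
      (nhds (μ E).toReal) := by
  rw [← tendsto_add_atTop_iff_nat 1]
  let μs : ℕ → ProbabilityMeasure ℝ := fun n =>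
    ⟨empiricalLaw (eig (n + 1)), P06_emp_prob (Nat.succ_ne_zero n) _⟩
  let μ0 : ProbabilityMeasure ℝ := ⟨μ, inferInstance⟩
  have h1 : Tendsto μs atTop (nhds μ0) := by
    rw [ProbabilityMeasure.tendsto_iff_forall_integral_tendsto]
    intro f
    have h2 := hweak f f.continuous ⟨‖f‖, fun x => f.norm_coe_le_norm x⟩
    rw [← tendsto_add_atTop_iff_nat 1] at h2
    refine h2.congr fun n => ?_
    exact (P06_emp_integral (eig (n + 1)) f).symm
  have h2 := ProbabilityMeasure.tendsto_measure_of_null_frontier_of_tendsto' h1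
    (E := E) (by exact hfr)
  have h3 := (ENNReal.tendsto_toReal (measure_ne_top (μ0 : Measure ℝ) E)).comp h2
  refine h3.congr fun n => ?_
  exact P06_emp_apply (Nat.succ_ne_zero n) (eig (n + 1)) hE

end Crest.Agent.RI
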