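import Crest.Agent.RI.Site
import Crest.Agent.RI.P06b
import Crest.Agent.RI.P06c

/-!
# Row 164, Part 0.6, file d: rounding a general spectrum to a block spectrum
-/

set_option autoImplicit false

namespace Crest.Agent.RI

open MeasureTheory Set Filter
open Crest.ProbabilityR.InvariantGlass

section
variable {μ : Measure ℝ} [IsProbabilityMeasure μ] {lamMinus lamPlus θ η : ℝ}

/-- indices of the cells of positive mass -/
noncomputable def P06Pos (μ : Measure ℝ) (lamMinus lamPlus θ η : ℝ) : Finset ℤ :=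
  open Classical in
  (Finset.Icc (P06idx θ η lamMinus) (P06idx θ η lamPlus)).filter
    fun k => μ (P06idx θ η ⁻¹' {k}) ≠ 0

theorem P06_meas (θ η : ℝ) (T : Set ℤ) : MeasurableSet (P06idx θ η ⁻¹' T) :=
  P06idx_measurable θ η (MeasurableSet.of_discrete)

/-- cells outside the positive ones are null -/
theorem P06_null (hη : 0 < η) (hsupp : μ (Icc lamMinus lamPlus) = 1) :
    μ (P06idx θ η ⁻¹' ((P06Pos μ lamMinus lamPlus θ η : Finset ℤ) : Set ℤ)ᶜ) = 0 := by
  have h1 : P06idx θ η ⁻¹' ((P06Pos μ lamMinus lamPlus θ η : Finset ℤ) : Set ℤ)ᶜ ⊆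
      (Icc lamMinus lamPlus)ᶜ ∪ ⋃ k : ℤ, if μ (P06idx θ η ⁻¹' {k}) = 0 then
        P06idx θ η ⁻¹' {k} else ∅ := by
    intro x hx
    by_cases hx2 : x ∈ Icc lamMinus lamPlus
    · right
      rw [mem_iUnion]
      refine ⟨P06idx θ η x, ?_⟩
      rw [if_pos]
      · exact rfl
      · by_contra hne
        apply hx
        unfold P06Pos
        rw [Finset.mem_coe, Finset.mem_filter, Finset.mem_Icc]
        exact ⟨⟨P06idx_mono hη hx2.1, P06idx_mono hη hx2.2⟩, hne⟩
    · left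
      exact hx2
  refine measure_mono_null h1 ?_
  rw [measure_union_null_iff]
  refine ⟨(prob_compl_eq_zero_iff measurableSet_Icc).2 hsupp, ?_⟩
  rw [measure_iUnion_null_iff]
  intro k
  split_ifs with h
  · exact h
  · exact measure_empty

theorem P06_preimage (hη : 0 < η) (hsupp : μ (Icc lamMinus lamPlus) = 1) (T : Set ℤ) :
    μ (P06idx θ η ⁻¹' T) = open Classical in ∑ k ∈ P06Pos μ lamMinus lamPlus θ η,
      if k ∈ T then μ (P06idx θ η ⁻¹' {k}) else 0 := by
  classical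
  have h1 : μ (P06idx θ η ⁻¹' T) =
      μ (P06idx θ η ⁻¹' (T ∩ (P06Pos μ lamMinus lamPlus θ η : Finset ℤ))) := by
    apply le_antisymm
    · calc μ (P06idx θ η ⁻¹' T) ≤ μ (P06idx θ η ⁻¹' (T ∩ (P06Pos μ lamMinus lamPlus θ η : Finset ℤ)) ∪
            P06idx θ η ⁻¹' ((P06Pos μ lamMinus lamPlus θ η : Finset ℤ) : Set ℤ)ᶜ) := by
            apply measure_mono
            intro x hx
            by_cases h : P06idx θ η x ∈ ((P06Pos μ lamMinus lamPlus θ η : Finset ℤ) : Set ℤ)
            · left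
              exact ⟨hx, h⟩
            · right
              exact h
        _ ≤ _ := (measure_union_le _ _).trans (by rw [P06_null hη hsupp, add_zero])
    · apply measure_mono
      intro x hx
      exact hx.1
  have h2 : P06idx θ η ⁻¹' (T ∩ (P06Pos μ lamMinus lamPlus θ η : Finset ℤ)) =
      ⋃ k ∈ (P06Pos μ lamMinus lamPlus θ η).filter (fun k => k ∈ T), P06idx θ η ⁻¹' {k} := by
    ext x
    simp only [mem_preimage, mem_inter_iff, Finset.mem_coe, mem_iUnion, Finset.mem_filter,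
      mem_singleton_iff, exists_prop]
    constructor
    · rintro ⟨h1, h2⟩
      exact ⟨_, ⟨h2, h1⟩, rfl⟩
    · rintro ⟨k, ⟨h2, h1⟩, h3⟩
      rw [h3]
      exact ⟨h1, h2⟩
  rw [h1, h2, measure_biUnion_finset]
  · rw [Finset.sum_filter]
  · intro k _ k' _ hkk
    rw [Function.onFun, Set.disjoint_left]
    intro x hx hx'
    rw [mem_preimage, mem_singleton_iff] at hx hx'
    exact hkk (hx.symm.trans hx')
  · intro k _
    exact P06_meas θ η _

omit [IsProbabilityMeasure μ] in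
theorem P06_kp_mem (hη : 0 < η) (hle : lamMinus ≤ lamPlus)
    (hedge : ∀ ε : ℝ, 0 < ε →
      0 < μ (Set.Icc lamMinus (lamMinus + ε)) ∧ 0 < μ (Set.Icc (lamPlus - ε) lamPlus))
    (hp : lamPlus ∉ P06grid θ η) : P06idx θ η lamPlus ∈ P06Pos μ lamMinus lamPlus θ η := by
  unfold P06Pos
  rw [Finset.mem_filter, Finset.mem_Icc]
  refine ⟨⟨P06idx_mono hη hle, le_rfl⟩, ?_⟩
  have h1 := P06idx_le hη lamPlus (θ := θ)
  have h2 := P06idx_lt hη lamPlus (θ := θ)
  have h3 : θ + (P06idx θ η lamPlus) * η < lamPlus := by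
    rcases h1.lt_or_eq with h | h
    · exact h
    · exfalso
      apply hp
      unfold P06grid
      rw [mem_iUnion]
      exact ⟨_, h.symm⟩
  have h4 := (hedge (lamPlus - (θ + (P06idx θ η lamPlus) * η)) (by linarith)).2
  have h5 : Icc (lamPlus - (lamPlus - (θ + (P06idx θ η lamPlus) * η))) lamPlus ⊆
      P06idx θ η ⁻¹' {P06idx θ η lamPlus} := by
    intro y hy
    rw [mem_preimage, mem_singleton_iff, P06idx_iff hη]
    exact ⟨by have := hy.1; linarith, lt_of_le_of_lt hy.2 h2⟩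
  exact (lt_of_lt_of_le h4 (measure_mono h5)).ne'

omit [IsProbabilityMeasure μ] in
theorem P06_km_mem (hη : 0 < η) (hle : lamMinus ≤ lamPlus)
    (hedge : ∀ ε : ℝ, 0 < ε →
      0 < μ (Set.Icc lamMinus (lamMinus + ε)) ∧ 0 < μ (Set.Icc (lamPlus - ε) lamPlus)) :
    P06idx θ η lamMinus ∈ P06Pos μ lamMinus lamPlus θ η := by
  unfold P06Pos
  rw [Finset.mem_filter, Finset.mem_Icc]
  refine ⟨⟨le_rfl, P06idx_mono hη hle⟩, ?_⟩
  have h1 := P06idx_le hη lamMinus (θ := θ)
  have h2 := P06idx_lt hη lamMinus (θ := θ)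
  have h4 := (hedge ((θ + (P06idx θ η lamMinus + 1) * η - lamMinus) / 2) (by linarith)).1
  have h5 : Icc lamMinus (lamMinus + (θ + (P06idx θ η lamMinus + 1) * η - lamMinus) / 2) ⊆
      P06idx θ η ⁻¹' {P06idx θ η lamMinus} := by
    intro y hy
    rw [mem_preimage, mem_singleton_iff, P06idx_iff hη]
    exact ⟨h1.trans hy.1, lt_of_le_of_lt hy.2 (by linarith)⟩
  exact (lt_of_lt_of_le h4 (measure_mono h5)).ne'

omit [IsProbabilityMeasure μ] in
theorem P06_Pos_le {k : ℤ} (hk : k ∈ P06Pos μ lamMinus lamPlus θ η) :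
    P06idx θ η lamMinus ≤ k ∧ k ≤ P06idx θ η lamPlus := by
  unfold P06Pos at hk
  rw [Finset.mem_filter, Finset.mem_Icc] at hk
  exact hk.1

/-- the block data: cell values `θ + (k + s) η`, `s` a real shift. -/
noncomputable def P06Blk (μ : Measure ℝ) [IsProbabilityMeasure μ] {lamMinus lamPlus θ η : ℝ}
    (hη : 0 < η) (hsupp : μ (Icc lamMinus lamPlus) = 1) (s : ℝ) : Blk where
  K := (P06Pos μ lamMinus lamPlus θ η).card
  d := fun l => θ + (((P06Pos μ lamMinus lamPlus θ η).equivFin.symm l : ℤ) + s) * η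
  α := fun l => (μ (P06idx θ η ⁻¹' {((P06Pos μ lamMinus lamPlus θ η).equivFin.symm l : ℤ)})).toReal
  inj := by
    intro l l' h
    have h1 : (((P06Pos μ lamMinus lamPlus θ η).equivFin.symm l : ℤ) : ℝ) =
        ((P06Pos μ lamMinus lamPlus θ η).equivFin.symm l' : ℤ) := by
      have h2 : (((P06Pos μ lamMinus lamPlus θ η).equivFin.symm l : ℤ) + s) * η =
          (((P06Pos μ lamMinus lamPlus θ η).equivFin.symm l' : ℤ) + s) * η := by
        have := h
        simp only at this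
        linarith
      have h3 := mul_right_cancel₀ hη.ne' h2
      linarith
    have h2 : ((P06Pos μ lamMinus lamPlus θ η).equivFin.symm l : ℤ) =
        ((P06Pos μ lamMinus lamPlus θ η).equivFin.symm l' : ℤ) := by exact_mod_cast h1
    exact (P06Pos μ lamMinus lamPlus θ η).equivFin.symm.injective (Subtype.ext h2)
  pos := by
    intro l
    have h1 := ((P06Pos μ lamMinus lamPlus θ η).equivFin.symm l).2
    unfold P06Pos at h1
    rw [Finset.mem_filter] at h1
    exact ENNReal.toReal_pos h1.2 (measure_ne_top _ _)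
  sum := by
    have h1 := P06_preimage (μ := μ) (θ := θ) hη hsupp univ
    rw [preimage_univ, measure_univ] at h1
    simp only [mem_univ, if_true] at h1
    have h2 : ∑ l : Fin (P06Pos μ lamMinus lamPlus θ η).card,
        (μ (P06idx θ η ⁻¹' {((P06Pos μ lamMinus lamPlus θ η).equivFin.symm l : ℤ)})).toReal =
        ∑ k : {k // k ∈ P06Pos μ lamMinus lamPlus θ η}, (μ (P06idx θ η ⁻¹' {(k : ℤ)})).toReal :=
      Equiv.sum_comp (P06Pos μ lamMinus lamPlus θ η).equivFin.symm
        (fun k : {k // k ∈ P06Pos μ lamMinus lamPlus θ η} => (μ (P06idx θ η ⁻¹' {(k : ℤ)})).toReal)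
    rw [h2, Finset.sum_coe_sort (P06Pos μ lamMinus lamPlus θ η)
      (fun k => (μ (P06idx θ η ⁻¹' {k})).toReal), ← ENNReal.toReal_sum]
    · rw [← h1]
      rfl
    · intro k _
      exact measure_ne_top _ _

theorem P06Blk_mu (hη : 0 < η) (hsupp : μ (Icc lamMinus lamPlus) = 1) (s : ℝ) :
    (P06Blk μ (θ := θ) hη hsupp s).mu = μ.map (fun x => θ + ((P06idx θ η x : ℝ) + s) * η) := by
  classical
  have hm : Measurable (fun x => θ + ((P06idx θ η x : ℝ) + s) * η) := by
    have : Measurable (fun x => ((P06idx θ η x : ℤ) : ℝ)) :=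
      (measurable_from_top (f := fun k : ℤ => (k : ℝ))).comp (P06idx_measurable θ η)
    exact ((this.add_const s).mul_const η).const_add θ
  ext A hA
  rw [Measure.map_apply hm hA]
  have h1 : (fun x => θ + ((P06idx θ η x : ℝ) + s) * η) ⁻¹' A =
      P06idx θ η ⁻¹' {k : ℤ | θ + ((k : ℝ) + s) * η ∈ A} := rfl
  rw [h1, P06_preimage (μ := μ) hη hsupp]
  unfold Blk.mu
  rw [Measure.finsetSum_apply]
  have h2 : ∀ l : Fin (P06Blk μ (θ := θ) hη hsupp s).K,
      (ENNReal.ofReal ((P06Blk μ (θ := θ) hη hsupp s).α l) •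
        Measure.dirac ((P06Blk μ (θ := θ) hη hsupp s).d l)) A =
      (fun k : {k // k ∈ P06Pos μ lamMinus lamPlus θ η} =>
        if (k : ℤ) ∈ {k : ℤ | θ + ((k : ℝ) + s) * η ∈ A} then μ (P06idx θ η ⁻¹' {(k : ℤ)}) else 0)
        ((P06Pos μ lamMinus lamPlus θ η).equivFin.symm l) := by
    intro l
    rw [Measure.smul_apply, Measure.dirac_apply' _ hA, smul_eq_mul]
    simp only [P06Blk, mem_ofPred_eq]
    rw [ENNReal.ofReal_toReal (measure_ne_top _ _)]
    by_cases h : θ + ((((P06Pos μ lamMinus lamPlus θ η).equivFin.symm l : ℤ) : ℝ) + s) * η ∈ A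
    · rw [indicator_of_mem h, if_pos h, Pi.one_apply, mul_one]
    · rw [indicator_of_notMem h, if_neg h, mul_zero]
  refine (Finset.sum_congr rfl fun l _ => h2 l).trans ?_
  refine (Equiv.sum_comp (P06Pos μ lamMinus lamPlus θ η).equivFin.symm
    (fun k : {k // k ∈ P06Pos μ lamMinus lamPlus θ η} =>
        if (k : ℤ) ∈ {k : ℤ | θ + ((k : ℝ) + s) * η ∈ A} then
          μ (P06idx θ η ⁻¹' {(k : ℤ)}) else 0)).trans ?_
  refine (Finset.sum_coe_sort (P06Pos μ lamMinus lamPlus θ η) (fun k =>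
        if k ∈ {k : ℤ | θ + ((k : ℝ) + s) * η ∈ A} then
          μ (P06idx θ η ⁻¹' {k}) else 0)).trans ?_
  refine Finset.sum_congr rfl fun k _ => ?_
  congr

theorem P06Blk_top (hη : 0 < η) (hsupp : μ (Icc lamMinus lamPlus) = 1) (s : ℝ)
    (hkp : P06idx θ η lamPlus ∈ P06Pos μ lamMinus lamPlus θ η) :
    (P06Blk μ (θ := θ) hη hsupp s).top = θ + ((P06idx θ η lamPlus : ℝ) + s) * η := by
  unfold Blk.top
  let l0 : Fin (P06Pos μ lamMinus lamPlus θ η).card :=
    (P06Pos μ lamMinus lamPlus θ η).equivFin ⟨_, hkp⟩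
  have : Nonempty (Fin (P06Blk μ (θ := θ) hη hsupp s).K) := ⟨l0⟩
  apply le_antisymm
  · refine ciSup_le fun l => ?_
    have h1 := (P06_Pos_le ((P06Pos μ lamMinus lamPlus θ η).equivFin.symm l).2).2
    have h2 : (((P06Pos μ lamMinus lamPlus θ η).equivFin.symm l : ℤ) : ℝ) ≤
        (P06idx θ η lamPlus : ℝ) := by exact_mod_cast h1
    show θ + ((((P06Pos μ lamMinus lamPlus θ η).equivFin.symm l : ℤ) : ℝ) + s) * η ≤ _
    have := mul_le_mul_of_nonneg_right (add_le_add_left h2 s) hη.le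
    linarith
  · have h1 := le_ciSup (f := (P06Blk μ (θ := θ) hη hsupp s).d) (Set.finite_range _).bddAbove l0
    refine le_trans (le_of_eq ?_) h1
    show _ = θ + ((((P06Pos μ lamMinus lamPlus θ η).equivFin.symm l0 : ℤ) : ℝ) + s) * η
    rw [Equiv.symm_apply_apply]

/-- the block spectral part is close. -/
theorem P06Blk_spectral (hη : 0 < η) (hsupp : μ (Icc lamMinus lamPlus) = 1) {s : ℝ} (hs0 : 0 ≤ s)
    (hs1 : s ≤ 1) (hkp : P06idx θ η lamPlus ∈ P06Pos μ lamMinus lamPlus θ η) {p : ℝ → ℝ}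
    (hp : IsTrialPath p) :
    |spectralPart μ lamPlus p -
      spectralPart (P06Blk μ (θ := θ) hη hsupp s).mu (P06Blk μ (θ := θ) hη hsupp s).top p| ≤ η := by
  have hm : Measurable (fun x => θ + ((P06idx θ η x : ℝ) + s) * η) := by
    have : Measurable (fun x => ((P06idx θ η x : ℤ) : ℝ)) :=
      (measurable_from_top (f := fun k : ℤ => (k : ℝ))).comp (P06idx_measurable θ η)
    exact ((this.add_const s).mul_const η).const_add θ
  have hclose : ∀ x, |(θ + ((P06idx θ η x : ℝ) + s) * η) - x| ≤ η := by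
    intro x
    have h1 := P06idx_le hη x (θ := θ)
    have h2 := P06idx_lt hη x (θ := θ)
    have h3 : 0 ≤ s * η := mul_nonneg hs0 hη.le
    have h4 : s * η ≤ η := mul_le_of_le_one_left hη.le hs1
    rw [abs_le]
    constructor <;> nlinarith
  have hmu := P06Blk_mu (μ := μ) (θ := θ) hη hsupp s
  have htop := P06Blk_top (μ := μ) (θ := θ) hη hsupp s hkp
  have : IsProbabilityMeasure (P06Blk μ (θ := θ) hη hsupp s).mu := by
    rw [hmu]
    exact Measure.isProbabilityMeasure_map hm.aemeasurable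
  refine P06_spectral_stable (lo := lamMinus) (lo' := θ + ((P06idx θ η lamMinus : ℝ) + s) * η)
    hsupp ?_ hm hmu (Eventually.of_forall hclose) ?_ hp
  · rw [htop, hmu, Measure.map_apply hm measurableSet_Icc]
    rw [← prob_compl_eq_zero_iff (hm measurableSet_Icc)]
    refine measure_mono_null ?_ ((prob_compl_eq_zero_iff measurableSet_Icc).2 hsupp)
    apply compl_subset_compl.2
    intro x hx
    have h1 : (P06idx θ η lamMinus : ℝ) ≤ P06idx θ η x := by exact_mod_cast P06idx_mono hη hx.1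
    have h2 : (P06idx θ η x : ℝ) ≤ P06idx θ η lamPlus := by exact_mod_cast P06idx_mono hη hx.2
    constructor
    · have := mul_le_mul_of_nonneg_right (add_le_add_left h1 s) hη.le
      linarith
    · have := mul_le_mul_of_nonneg_right (add_le_add_left h2 s) hη.le
      linarith
  · rw [htop]
    exact hclose lamPlus

/-- labels given by a retraction `sel` of `ℤ` onto the positive cells. -/
theorem P06_labels {eig : (N : ℕ) → Fin N → ℝ}
    (hweak : ∀ φ : ℝ → ℝ, Continuous φ → (∃ C : ℝ, ∀ x, |φ x| ≤ C) →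
      Filter.Tendsto (fun N : ℕ => (1 / (N : ℝ)) * ∑ i : Fin N, φ (eig N i)) Filter.atTop
        (nhds (∫ x, φ x ∂μ)))
    (hη : 0 < η) (hsupp : μ (Icc lamMinus lamPlus) = 1) (hgrid : μ (P06grid θ η) = 0) (s : ℝ)
    (sel : ℤ → ℤ) (hsel : ∀ k, sel k ∈ P06Pos μ lamMinus lamPlus θ η)
    (hsel2 : ∀ k ∈ P06Pos μ lamMinus lamPlus θ η, sel k = k) :
    ∃ κ : (N : ℕ) → Fin N → Fin (P06Blk μ (θ := θ) hη hsupp s).K,
      (∀ l, Filter.Tendsto (fun N : ℕ =>
        ((Finset.univ.filter (fun a => κ N a = l)).card : ℝ) / (N : ℝ)) Filter.atTop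
        (nhds ((P06Blk μ (θ := θ) hη hsupp s).α l))) ∧
      ∀ N i, (P06Blk μ (θ := θ) hη hsupp s).d (κ N i) =
        θ + ((sel (P06idx θ η (eig N i)) : ℝ) + s) * η := by
  classical
  refine ⟨fun N i => (P06Pos μ lamMinus lamPlus θ η).equivFin ⟨sel (P06idx θ η (eig N i)), hsel _⟩,
    fun l => ?_, fun N i => ?_⟩
  · set kl : ℤ := ((P06Pos μ lamMinus lamPlus θ η).equivFin.symm l : ℤ) with hkl
    have hklm : kl ∈ P06Pos μ lamMinus lamPlus θ η :=
      ((P06Pos μ lamMinus lamPlus θ η).equivFin.symm l).2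
    set T : Set ℤ := {k : ℤ | sel k = kl} with hT
    have h1 := P06_cells hweak (P06_meas θ η T)
      (measure_mono_null (P06_frontier hη T) hgrid)
    have h2 : (μ (P06idx θ η ⁻¹' T)).toReal = (P06Blk μ (θ := θ) hη hsupp s).α l := by
      rw [P06_preimage (μ := μ) hη hsupp T, Finset.sum_eq_single kl]
      · rw [if_pos]
        · rfl
        · exact hsel2 kl hklm
      · intro k hk hne
        rw [if_neg]
        intro hkT
        apply hne
        have : sel k = kl := hkT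
        rw [hsel2 k hk] at this
        exact this
      · intro h
        exact absurd hklm h
    rw [h2] at h1
    refine h1.congr fun N => ?_
    congr 2
    congr 1
    ext i
    simp only [Finset.mem_filter, Finset.mem_univ, true_and, mem_preimage, hT, mem_ofPred_eq]
    constructor
    · intro h
      exact ((P06Pos μ lamMinus lamPlus θ η).equivFin.eq_symm_apply).1 (Subtype.ext h)
    · intro h
      have h' : (P06Pos μ lamMinus lamPlus θ η).equivFin
        ⟨sel (P06idx θ η (eig N i)), hsel _⟩ = (l : Fin (P06Pos μ lamMinus lamPlus θ η).card) := h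
      exact congrArg Subtype.val
        (((P06Pos μ lamMinus lamPlus θ η).equivFin.eq_symm_apply).2 h')
  · show θ + ((((P06Pos μ lamMinus lamPlus θ η).equivFin.symm
      ((P06Pos μ lamMinus lamPlus θ η).equivFin
        ⟨sel (P06idx θ η (eig N i)), hsel _⟩) : ℤ) : ℝ) + s) * η = _
    rw [Equiv.symm_apply_apply]

omit [IsProbabilityMeasure μ] in
/-- next positive cell -/
theorem P06_next (hkp : P06idx θ η lamPlus ∈ P06Pos μ lamMinus lamPlus θ η) :
    ∃ sel : ℤ → ℤ, (∀ k, sel k ∈ P06Pos μ lamMinus lamPlus θ η) ∧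
      (∀ k ∈ P06Pos μ lamMinus lamPlus θ η, sel k = k) ∧
      ∀ k, k ≤ P06idx θ η lamPlus → k ≤ sel k := by
  classical
  have hne : ∀ k : ℤ, ((P06Pos μ lamMinus lamPlus θ η).filter
      (fun s => min k (P06idx θ η lamPlus) ≤ s)).Nonempty := fun k =>
    ⟨_, Finset.mem_filter.2 ⟨hkp, min_le_right _ _⟩⟩
  have hmem := fun k => Finset.min'_mem _ (hne k)
  simp only [Finset.mem_filter] at hmem
  refine ⟨fun k => Finset.min' _ (hne k), fun k => (hmem k).1, fun k hk => ?_, fun k hk => ?_⟩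
  · apply le_antisymm
    · exact Finset.min'_le _ _ (Finset.mem_filter.2 ⟨hk, min_le_left _ _⟩)
    · have h1 := (hmem k).2
      exact (min_eq_left (P06_Pos_le hk).2).ge.trans h1
  · have h1 := (hmem k).2
    exact (min_eq_left hk).ge.trans h1

omit [IsProbabilityMeasure μ] in
/-- previous positive cell -/
theorem P06_prev (hkm : P06idx θ η lamMinus ∈ P06Pos μ lamMinus lamPlus θ η) :
    ∃ sel : ℤ → ℤ, (∀ k, sel k ∈ P06Pos μ lamMinus lamPlus θ η) ∧
      (∀ k ∈ P06Pos μ lamMinus lamPlus θ η, sel k = k) ∧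
      ∀ k, P06idx θ η lamMinus ≤ k → sel k ≤ k := by
  classical
  have hne : ∀ k : ℤ, ((P06Pos μ lamMinus lamPlus θ η).filter
      (fun s => s ≤ max k (P06idx θ η lamMinus))).Nonempty := fun k =>
    ⟨_, Finset.mem_filter.2 ⟨hkm, le_max_right _ _⟩⟩
  have hmem := fun k => Finset.max'_mem _ (hne k)
  simp only [Finset.mem_filter] at hmem
  refine ⟨fun k => Finset.max' _ (hne k), fun k => (hmem k).1, fun k hk => ?_, fun k hk => ?_⟩
  · apply le_antisymm
    · have h1 := (hmem k).2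
      exact h1.trans (max_eq_left (P06_Pos_le hk).1).le
    · exact Finset.le_max' _ _ (Finset.mem_filter.2 ⟨hk, le_max_left _ _⟩)
  · have h1 := (hmem k).2
    exact h1.trans (max_eq_left hk).le

end

/-- ROUNDING UP -/
theorem P06_up (μ : Measure ℝ) [IsProbabilityMeasure μ] (lamMinus lamPlus : ℝ)
    (hle : lamMinus ≤ lamPlus) (hsupp : μ (Set.Icc lamMinus lamPlus) = 1)
    (hedge : ∀ ε : ℝ, 0 < ε →
      0 < μ (Set.Icc lamMinus (lamMinus + ε)) ∧ 0 < μ (Set.Icc (lamPlus - ε) lamPlus))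
    (eig : (N : ℕ) → Fin N → ℝ)
    (hweak : ∀ φ : ℝ → ℝ, Continuous φ → (∃ C : ℝ, ∀ x, |φ x| ≤ C) →
      Filter.Tendsto (fun N : ℕ => (1 / (N : ℝ)) * ∑ i : Fin N, φ (eig N i)) Filter.atTop
        (nhds (∫ x, φ x ∂μ)))
    (hext : ∀ ε : ℝ, 0 < ε → ∀ᶠ N : ℕ in Filter.atTop, ∀ i : Fin N,
      lamMinus - ε ≤ eig N i ∧ eig N i ≤ lamPlus + ε) {η : ℝ} (hη : 0 < η) :
    ∃ (D : Blk) (κ : (N : ℕ) → Fin N → Fin D.K),
      (∀ l, Filter.Tendsto (fun N : ℕ =>
        ((Finset.univ.filter (fun a => κ N a = l)).card : ℝ) / (N : ℝ)) Filter.atTop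
        (nhds (D.α l))) ∧
      (∀ᶠ N : ℕ in atTop, ∀ i, eig N i ≤ D.d (κ N i)) ∧
      ∀ p, IsTrialPath p → |spectralPart μ lamPlus p - spectralPart D.mu D.top p| ≤ η := by
  obtain ⟨θ, hgrid, hm, hp⟩ := P06_exists_grid μ (η := η) lamMinus lamPlus
  have hkp := P06_kp_mem (μ := μ) (θ := θ) hη hle hedge hp
  obtain ⟨sel, h1, h2, h3⟩ := P06_next hkp
  obtain ⟨κ, h4, h5⟩ := P06_labels hweak hη hsupp hgrid 1 sel h1 h2
  refine ⟨_, κ, h4, ?_, fun p hp' => P06Blk_spectral hη hsupp zero_le_one le_rfl hkp hp'⟩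
  have h6 := P06idx_lt hη lamPlus (θ := θ)
  filter_upwards [hext ((θ + (P06idx θ η lamPlus + 1) * η - lamPlus) / 2) (by linarith)] with N hN i
  rw [h5]
  have h7 := (hN i).2
  have h8 : P06idx θ η (eig N i) ≤ P06idx θ η lamPlus := by
    have h9 : eig N i < θ + (P06idx θ η lamPlus + 1) * η := by linarith
    by_contra hne
    push Not at hne
    have h10 : ((P06idx θ η lamPlus + 1 : ℤ) : ℝ) ≤ (P06idx θ η (eig N i) : ℝ) := by
      exact_mod_cast hne
    push_cast at h10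
    have h11 := P06idx_le hη (eig N i) (θ := θ)
    have h12 := mul_le_mul_of_nonneg_right h10 hη.le
    linarith
  have h9 := h3 _ h8
  have h10 : (P06idx θ η (eig N i) : ℝ) ≤ sel (P06idx θ η (eig N i)) := by exact_mod_cast h9
  have h11 := P06idx_lt hη (eig N i) (θ := θ)
  have h12 := mul_le_mul_of_nonneg_right (add_le_add_left h10 1) hη.le
  linarith

/-- ROUNDING DOWN -/
theorem P06_down (μ : Measure ℝ) [IsProbabilityMeasure μ] (lamMinus lamPlus : ℝ)
    (hle : lamMinus ≤ lamPlus) (hsupp : μ (Set.Icc lamMinus lamPlus) = 1)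
    (hedge : ∀ ε : ℝ, 0 < ε →
      0 < μ (Set.Icc lamMinus (lamMinus + ε)) ∧ 0 < μ (Set.Icc (lamPlus - ε) lamPlus))
    (eig : (N : ℕ) → Fin N → ℝ)
    (hweak : ∀ φ : ℝ → ℝ, Continuous φ → (∃ C : ℝ, ∀ x, |φ x| ≤ C) →
      Filter.Tendsto (fun N : ℕ => (1 / (N : ℝ)) * ∑ i : Fin N, φ (eig N i)) Filter.atTop
        (nhds (∫ x, φ x ∂μ)))
    (hext : ∀ ε : ℝ, 0 < ε → ∀ᶠ N : ℕ in Filter.atTop, ∀ i : Fin N,
      lamMinus - ε ≤ eig N i ∧ eig N i ≤ lamPlus + ε) {η : ℝ} (hη : 0 < η) :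
    ∃ (D : Blk) (κ : (N : ℕ) → Fin N → Fin D.K),
      (∀ l, Filter.Tendsto (fun N : ℕ =>
        ((Finset.univ.filter (fun a => κ N a = l)).card : ℝ) / (N : ℝ)) Filter.atTop
        (nhds (D.α l))) ∧
      (∀ᶠ N : ℕ in atTop, ∀ i, D.d (κ N i) ≤ eig N i) ∧
      ∀ p, IsTrialPath p → |spectralPart μ lamPlus p - spectralPart D.mu D.top p| ≤ η := by
  obtain ⟨θ, hgrid, hm, hp⟩ := P06_exists_grid μ (η := η) lamMinus lamPlus
  have hkp := P06_kp_mem (μ := μ) (θ := θ) hη hle hedge hp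
  have hkm := P06_km_mem (μ := μ) (θ := θ) hη hle hedge
  obtain ⟨sel, h1, h2, h3⟩ := P06_prev hkm
  obtain ⟨κ, h4, h5⟩ := P06_labels hweak hη hsupp hgrid 0 sel h1 h2
  refine ⟨_, κ, h4, ?_, fun p hp' => P06Blk_spectral hη hsupp le_rfl zero_le_one hkp hp'⟩
  have h6 := P06idx_le hη lamMinus (θ := θ)
  have h6' : θ + (P06idx θ η lamMinus) * η < lamMinus := by
    rcases h6.lt_or_eq with h | h
    · exact h
    · exfalso
      apply hm
      unfold P06grid
      rw [mem_iUnion]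
      exact ⟨_, h.symm⟩
  filter_upwards [hext (lamMinus - (θ + (P06idx θ η lamMinus) * η)) (by linarith)] with N hN i
  rw [h5]
  have h7 := (hN i).1
  have h8 : P06idx θ η lamMinus ≤ P06idx θ η (eig N i) := by
    by_contra hne
    push Not at hne
    have h10 : ((P06idx θ η (eig N i) + 1 : ℤ) : ℝ) ≤ (P06idx θ η lamMinus : ℝ) := by
      exact_mod_cast hne
    push_cast at h10
    have h11 := P06idx_lt hη (eig N i) (θ := θ)
    have h12 := mul_le_mul_of_nonneg_right h10 hη.le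
    linarith
  have h9 := h3 _ h8
  have h10 : (sel (P06idx θ η (eig N i)) : ℝ) ≤ P06idx θ η (eig N i) := by exact_mod_cast h9
  have h11 := P06idx_le hη (eig N i) (θ := θ)
  have h12 := mul_le_mul_of_nonneg_right h10 hη.le
  linarith

end Crest.Agent.RI
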