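import Crest.Agent.RI.P06a
import Crest.Agent.RI.P06d

/-!
# Row 164, Part 0.6: S0248 for general spectra from the block version
-/

set_option autoImplicit false

namespace Crest.Agent.RI

open MeasureTheory Set Filter
open Crest.ProbabilityR.InvariantGlass

/-- Block version of S0248 (the statement of `Interface.block_field`). -/
def BlockField : Prop :=
  ∀ (D : Blk) (κ : (N : ℕ) → Fin N → Fin D.K)
    (_ : ∀ l, Filter.Tendsto (fun N : ℕ =>
      ((Finset.univ.filter (fun a => κ N a = l)).card : ℝ) / (N : ℝ)) Filter.atTop (nhds (D.α l)))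
    (J : ℕ) (cval : Fin J → ℝ) (γ : Fin J → ℚ) (_ : ∀ j, 0 < γ j) (_ : ∑ j, γ j = 1)
    (lab : (N : ℕ) → Fin N → Fin J)
    (_ : ∀ j : Fin J, Filter.Tendsto
      (fun N : ℕ => ((Finset.univ.filter fun r : Fin N => lab N r = j).card : ℝ) / (N : ℝ))
      Filter.atTop (nhds ((γ j : ℚ) : ℝ)))
    (Ω : Type) [MeasurableSpace Ω] (P : Measure Ω) [IsProbabilityMeasure P]
    (Us : (N : ℕ) → Ω → (Fin N → Fin N → ℝ)) (_ : ∀ N, Measurable (Us N))
    (_ : ∀ N, ∀ᵐ ω ∂P, Matrix.of (Us N ω) ∈ Matrix.orthogonalGroup (Fin N) ℝ)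
    (_ : ∀ (N : ℕ) (O : Matrix (Fin N) (Fin N) ℝ), O ∈ Matrix.orthogonalGroup (Fin N) ℝ →
      P.map (fun ω => fun i j => (Matrix.of (Us N ω) * O) i j) = P.map (Us N)),
    ∃ F : ℝ, magneticValue D.mu D.top cval γ = (F : EReal) ∧
      Filter.Tendsto (fun N : ℕ => ∫ ω, pressureFieldN (fun a => D.d (κ N a)) (Matrix.of (Us N ω))
          (fun r => cval (lab N r)) ∂P) Filter.atTop (nhds F) ∧
      ∀ᵐ ω ∂P, Filter.Tendsto (fun N : ℕ => pressureFieldN (fun a => D.d (κ N a))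
          (Matrix.of (Us N ω)) (fun r => cval (lab N r))) Filter.atTop (nhds F)

/-- the finite-alphabet value is stable -/
theorem P06_mag_le {μ ν : Measure ℝ} {hi hi' η : ℝ} {J : ℕ} (c : Fin J → ℝ) (γ : Fin J → ℚ)
    (h : ∀ p, IsTrialPath p → spectralPart μ hi p ≤ spectralPart ν hi' p + η) :
    magneticValue μ hi c γ ≤ magneticValue ν hi' c γ + (η : EReal) := by
  unfold magneticValue
  refine iSup₂_le fun m hm => ?_
  have h1 : (⨅ (p : ℝ → ℝ) (_ : IsTrialPath p),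
        constrainedEntropyPart γ m p + ((spectralPart μ hi p : ℝ) : EReal)) ≤
      (⨅ (p : ℝ → ℝ) (_ : IsTrialPath p),
        constrainedEntropyPart γ m p + ((spectralPart ν hi' p : ℝ) : EReal)) + (η : EReal) := by
    rw [← EReal.sub_le_iff_le_add (Or.inl (EReal.coe_ne_bot η)) (Or.inl (EReal.coe_ne_top η))]
    refine le_iInf₂ fun p hp => ?_
    apply EReal.sub_le_of_le_add
    refine (iInf₂_le p hp).trans ?_
    rw [add_assoc, ← EReal.coe_add]
    exact add_le_add le_rfl (EReal.coe_le_coe_iff.2 (h p hp))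
  refine (add_le_add le_rfl h1).trans ?_
  rw [← add_assoc]
  refine add_le_add ?_ le_rfl
  exact le_iSup₂ (f := fun (m : Fin J → ℚ) (_ : ∀ j, (-1 : ℚ) < m j ∧ m j < 1) =>
    ((∑ j : Fin J, ((γ j : ℚ) : ℝ) * c j * ((m j : ℚ) : ℝ) : ℝ) : EReal) +
      ⨅ (p : ℝ → ℝ) (_ : IsTrialPath p),
        constrainedEntropyPart γ m p + ((spectralPart ν hi' p : ℝ) : EReal)) m hm

/-- squeezing -/
theorem P06_squeeze {x : ℕ → ℝ} {l u : ℕ → ℕ → ℝ} {a b : ℕ → ℝ} {F : ℝ}
    (hl : ∀ n, ∀ᶠ N in atTop, l n N ≤ x N) (hu : ∀ n, ∀ᶠ N in atTop, x N ≤ u n N)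
    (hla : ∀ n, Tendsto (l n) atTop (nhds (a n))) (hub : ∀ n, Tendsto (u n) atTop (nhds (b n)))
    (ha : ∀ n : ℕ, F - 1 / ((n : ℝ) + 1) ≤ a n) (hb : ∀ n : ℕ, b n ≤ F + 1 / ((n : ℝ) + 1)) :
    Tendsto x atTop (nhds F) := by
  rw [tendsto_order]
  constructor
  · intro y hy
    obtain ⟨n, hn⟩ := exists_nat_one_div_lt (sub_pos.2 hy)
    have h1 : y < a n := by
      have := ha n
      linarith
    filter_upwards [hl n, (hla n).eventually (lt_mem_nhds h1)] with N h2 h3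
    exact lt_of_lt_of_le h3 h2
  · intro y hy
    obtain ⟨n, hn⟩ := exists_nat_one_div_lt (sub_pos.2 hy)
    have h1 : b n < y := by
      have := hb n
      linarith
    filter_upwards [hu n, (hub n).eventually (gt_mem_nhds h1)] with N h2 h3
    exact lt_of_le_of_lt h2 h3

/-- S0248 from the block version. -/
theorem S0248_of_block (hB : BlockField) (μ : MeasureTheory.Measure ℝ)
    [MeasureTheory.IsProbabilityMeasure μ] (lamMinus lamPlus : ℝ) (hle : lamMinus ≤ lamPlus)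
    (hsupp : μ (Set.Icc lamMinus lamPlus) = 1)
    (hedge : ∀ ε : ℝ, 0 < ε →
      0 < μ (Set.Icc lamMinus (lamMinus + ε)) ∧ 0 < μ (Set.Icc (lamPlus - ε) lamPlus))
    (eig : (N : ℕ) → Fin N → ℝ)
    (hweak : ∀ φ : ℝ → ℝ, Continuous φ → (∃ C : ℝ, ∀ x, |φ x| ≤ C) →
      Filter.Tendsto (fun N : ℕ => (1 / (N : ℝ)) * ∑ i : Fin N, φ (eig N i)) Filter.atTop
        (nhds (∫ x, φ x ∂μ)))
    (hext : ∀ ε : ℝ, 0 < ε → ∀ᶠ N : ℕ in Filter.atTop, ∀ i : Fin N,
      lamMinus - ε ≤ eig N i ∧ eig N i ≤ lamPlus + ε)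
    (J : ℕ) (cval : Fin J → ℝ)
    (γ : Fin J → ℚ) (hγpos : ∀ j, 0 < γ j) (hγsum : ∑ j, γ j = 1)
    (lab : (N : ℕ) → Fin N → Fin J)
    (hprop : ∀ j : Fin J, Filter.Tendsto
      (fun N : ℕ => ((Finset.univ.filter fun r : Fin N => lab N r = j).card : ℝ) / (N : ℝ))
      Filter.atTop (nhds ((γ j : ℚ) : ℝ)))
    (Ω : Type) [MeasurableSpace Ω] (P : MeasureTheory.Measure Ω) [MeasureTheory.IsProbabilityMeasure P]
    (Us : (N : ℕ) → Ω → (Fin N → Fin N → ℝ)) (hmeas : ∀ N, Measurable (Us N))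
    (horth : ∀ N, ∀ᵐ ω ∂P, Matrix.of (Us N ω) ∈ Matrix.orthogonalGroup (Fin N) ℝ)
    (hHaar : ∀ (N : ℕ) (O : Matrix (Fin N) (Fin N) ℝ), O ∈ Matrix.orthogonalGroup (Fin N) ℝ →
      P.map (fun ω => fun i j => (Matrix.of (Us N ω) * O) i j) = P.map (Us N)) :
    ∃ F : ℝ, magneticValue μ lamPlus cval γ = (F : EReal) ∧
      Filter.Tendsto (fun N : ℕ => ∫ ω, pressureFieldN (eig N) (Matrix.of (Us N ω))
          (fun r => cval (lab N r)) ∂P) Filter.atTop (nhds F) ∧
      ∀ᵐ ω ∂P, Filter.Tendsto (fun N : ℕ => pressureFieldN (eig N) (Matrix.of (Us N ω))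
          (fun r => cval (lab N r))) Filter.atTop (nhds F) := by
  have hpos : ∀ n : ℕ, (0 : ℝ) < 1 / ((n : ℝ) + 1) := fun n => by positivity
  choose Du κu hu1 hu2 hu3 using fun n : ℕ =>
    P06_up μ lamMinus lamPlus hle hsupp hedge eig hweak hext (hpos n)
  choose Dd κd hd1 hd2 hd3 using fun n : ℕ =>
    P06_down μ lamMinus lamPlus hle hsupp hedge eig hweak hext (hpos n)
  choose Fu hFu hEu hau using fun n : ℕ =>
    hB (Du n) (κu n) (hu1 n) J cval γ hγpos hγsum lab hprop Ω P Us hmeas horth hHaar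
  choose Fd hFd hEd had using fun n : ℕ =>
    hB (Dd n) (κd n) (hd1 n) J cval γ hγpos hγsum lab hprop Ω P Us hmeas horth hHaar
  -- comparison of the values
  have hu4 : ∀ n, magneticValue μ lamPlus cval γ ≤ ((Fu n + 1 / ((n : ℝ) + 1) : ℝ) : EReal) := by
    intro n
    have := P06_mag_le (μ := μ) (ν := (Du n).mu) (hi := lamPlus) (hi' := (Du n).top)
      (η := 1 / ((n : ℝ) + 1)) cval γ (fun p hp => by
        have := (abs_le.1 (hu3 n p hp)).2
        linarith)
    rwa [hFu n, ← EReal.coe_add] at this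
  have hu5 : ∀ n, ((Fu n : ℝ) : EReal) ≤
      magneticValue μ lamPlus cval γ + ((1 / ((n : ℝ) + 1) : ℝ) : EReal) := by
    intro n
    have := P06_mag_le (μ := (Du n).mu) (ν := μ) (hi := (Du n).top) (hi' := lamPlus)
      (η := 1 / ((n : ℝ) + 1)) cval γ (fun p hp => by
        have := (abs_le.1 (hu3 n p hp)).1
        linarith)
    rwa [hFu n] at this
  have hd4 : ∀ n, magneticValue μ lamPlus cval γ ≤ ((Fd n + 1 / ((n : ℝ) + 1) : ℝ) : EReal) := by
    intro n
    have := P06_mag_le (μ := μ) (ν := (Dd n).mu) (hi := lamPlus) (hi' := (Dd n).top)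
      (η := 1 / ((n : ℝ) + 1)) cval γ (fun p hp => by
        have := (abs_le.1 (hd3 n p hp)).2
        linarith)
    rwa [hFd n, ← EReal.coe_add] at this
  have htop : magneticValue μ lamPlus cval γ ≠ ⊤ := by
    intro h
    have := hu4 0
    rw [h] at this
    exact (EReal.coe_lt_top _).not_ge this
  have hbot : magneticValue μ lamPlus cval γ ≠ ⊥ := by
    intro h
    have := hu5 0
    rw [h, EReal.bot_add] at this
    exact (EReal.bot_lt_coe _).not_ge this
  obtain ⟨F, hF⟩ : ∃ F : ℝ, magneticValue μ lamPlus cval γ = (F : EReal) :=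
    ⟨_, (EReal.coe_toReal htop hbot).symm⟩
  have ha : ∀ n : ℕ, F - 1 / ((n : ℝ) + 1) ≤ Fd n := by
    intro n
    have := hd4 n
    rw [hF, EReal.coe_le_coe_iff] at this
    linarith
  have hb : ∀ n : ℕ, Fu n ≤ F + 1 / ((n : ℝ) + 1) := by
    intro n
    have := hu5 n
    rw [hF, ← EReal.coe_add, EReal.coe_le_coe_iff] at this
    exact this
  refine ⟨F, hF, ?_, ?_⟩
  · refine P06_squeeze (fun n => ?_) (fun n => ?_) hEd hEu ha hb
    · filter_upwards [hd2 n] with N hN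
      exact integral_mono (P06_integrable _ _ P (Us N) (hmeas N) (horth N))
        (P06_integrable _ _ P (Us N) (hmeas N) (horth N)) fun ω => pressureFieldN_mono hN _ _
    · filter_upwards [hu2 n] with N hN
      exact integral_mono (P06_integrable _ _ P (Us N) (hmeas N) (horth N))
        (P06_integrable _ _ P (Us N) (hmeas N) (horth N)) fun ω => pressureFieldN_mono hN _ _
  · filter_upwards [ae_all_iff.2 hau, ae_all_iff.2 had] with ω h1 h2
    refine P06_squeeze (fun n => ?_) (fun n => ?_) h2 h1 ha hb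
    · filter_upwards [hd2 n] with N hN
      exact pressureFieldN_mono hN _ _
    · filter_upwards [hu2 n] with N hN
      exact pressureFieldN_mono hN _ _

end Crest.Agent.RI
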