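import Crest.Agent.RI.UBField
import Crest.Agent.RI.ConcAS
import Crest.Agent.RI.HaarON
import Crest.Agent.RI.P06

/-!
# Row 164: block version of S0248 (helper50)
-/

set_option autoImplicit false

namespace Crest.Agent.RI

open MeasureTheory ProbabilityTheory
open Crest.ProbabilityR.InvariantGlass

/-- The law of the `N`-th matrix is a Haar law. -/
theorem isHaar_map {Ω : Type*} [MeasurableSpace Ω] (P : Measure Ω) [IsProbabilityMeasure P]
    {N : ℕ} {U : Ω → (Fin N → Fin N → ℝ)} (hmeas : Measurable U)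
    (horth : ∀ᵐ ω ∂P, Matrix.of (U ω) ∈ Matrix.orthogonalGroup (Fin N) ℝ)
    (hHaar : ∀ (O : Matrix (Fin N) (Fin N) ℝ), O ∈ Matrix.orthogonalGroup (Fin N) ℝ →
      P.map (fun ω => fun i j => (Matrix.of (U ω) * O) i j) = P.map U) : IsHaar (P.map U) := by
  refine ⟨Measure.isProbabilityMeasure_map hmeas.aemeasurable, ?_, ?_⟩
  · exact (ae_map_iff hmeas.aemeasurable measurableSet_isO).2 horth
  · intro O hO
    have hm : Measurable (fun V : Fin N → Fin N → ℝ => fun i j => (Matrix.of V * O) i j) := by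
      have e : (fun V : Fin N → Fin N → ℝ => fun i j => (Matrix.of V * O) i j) =
          fun V : Fin N → Fin N → ℝ => amul V (fun i j => O i j) := by
        funext V
        exact (amul_eq V (fun i j => O i j)).symm
      rw [e]
      exact measurable_amul_right _
    rw [Measure.map_map hm hmeas]
    exact hHaar O hO

theorem GLip.bound {D : Blk} {C : ℝ} (hG : GLip D C) {p : ℝ → ℝ} (hp : IsTrialPath p) :
    |D.G p| ≤ |D.G (fun _ => 0)| + C := by
  have h1 : PDist p (fun _ => 0) 1 := by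
    intro s hs
    apply abs_integral_Ioo_le hs zero_le_one
    intro u hu
    have hu' : u ∈ Set.Ioo (0 : ℝ) 1 := ⟨lt_of_le_of_lt hs.1 hu.1, hu.2⟩
    have h2 := hp.2.2 u hu'
    rw [sub_zero, abs_of_nonneg h2.1]
    exact h2.2
  have h2 := hG.2 p (fun _ => 0) hp isTrialPath_zero 1 zero_le_one h1
  have h3 : |D.G p| - |D.G (fun _ => 0)| ≤ |D.G p - D.G (fun _ => 0)| := abs_sub_abs_le_abs_sub _ _
  linarith

theorem close_eventually (D : Blk) {κ : (N : ℕ) → Fin N → Fin D.K}
    (hκ : ∀ l, Filter.Tendsto (fun N : ℕ =>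
      ((Finset.univ.filter (fun a => κ N a = l)).card : ℝ) / (N : ℝ)) Filter.atTop (nhds (D.α l)))
    {η : ℝ} (hη : 0 < η) : ∀ᶠ N : ℕ in Filter.atTop, D.Close η (κ N) := by
  unfold Blk.Close
  rw [Filter.eventually_all]
  intro l
  have h := (hκ l).sub_const (D.α l)
  rw [sub_self] at h
  have h2 := h.abs
  rw [abs_zero] at h2
  exact h2.eventually_le_const hη

theorem prop_lower (D : Blk) {κ : (N : ℕ) → Fin N → Fin D.K}
    (hκ : ∀ l, Filter.Tendsto (fun N : ℕ =>
      ((Finset.univ.filter (fun a => κ N a = l)).card : ℝ) / (N : ℝ)) Filter.atTop (nhds (D.α l))) :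
    ∀ᶠ N : ℕ in Filter.atTop, ∀ b, (N : ℝ) ≤ (∑ l, 2 / D.α l) *
      ((Finset.univ.filter (fun a => κ N a = κ N b)).card : ℝ) := by
  have h1 : ∀ᶠ N : ℕ in Filter.atTop, ∀ l,
      D.α l / 2 < ((Finset.univ.filter (fun a => κ N a = l)).card : ℝ) / (N : ℝ) := by
    rw [Filter.eventually_all]
    intro l
    exact (hκ l).eventually_const_lt (by linarith [D.pos l])
  filter_upwards [h1, Filter.eventually_gt_atTop 0] with N hN hN0 b
  have hN' : (0 : ℝ) < N := by exact_mod_cast hN0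
  have hα := D.pos (κ N b)
  have h2 := hN (κ N b)
  rw [lt_div_iff₀ hN'] at h2
  have h3 : 2 / D.α (κ N b) ≤ ∑ l, 2 / D.α l :=
    Finset.single_le_sum (f := fun l => 2 / D.α l) (fun l _ => by have := D.pos l; positivity)
      (Finset.mem_univ _)
  set c : ℝ := ((Finset.univ.filter (fun a => κ N a = κ N b)).card : ℝ) with hc
  have hc0 : 0 ≤ c := by positivity
  calc (N : ℝ) = (2 / D.α (κ N b)) * (D.α (κ N b) / 2 * N) := by field_simp
    _ ≤ (2 / D.α (κ N b)) * c := mul_le_mul_of_nonneg_left h2.le (by positivity)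
    _ ≤ _ := mul_le_mul_of_nonneg_right h3 hc0

/-- Block version of S0248. -/
theorem block_field_of (hUB : ∀ D, UBmainStmt D) (hLB : ∀ D, LBmainStmt D)
    (hG : ∀ D, ∃ C, GLip D C) : BlockField := by
  intro D κ hκ J cval γ hγpos hγsum lab hprop Ω _ P _ Us hmeas horth hHaar
  obtain ⟨C, hC⟩ := hG D
  have hγ' : ∀ j, (0 : ℝ) < ((γ j : ℚ) : ℝ) := fun j => by exact_mod_cast hγpos j
  have hs' : ∑ j, ((γ j : ℚ) : ℝ) = 1 := by exact_mod_cast hγsum
  -- the value is real
  have hmabs : ∀ m : Fin J → ℚ, (∀ j, (-1 : ℚ) < m j ∧ m j < 1) → ∀ j, |((m j : ℚ) : ℝ)| < 1 := by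
    intro m hm j
    rw [abs_lt]
    constructor
    · exact_mod_cast (hm j).1
    · exact_mod_cast (hm j).2
  set C' : ℝ := |D.G (fun _ => 0)| + C with hC'
  have hreal : ∀ m : Fin J → ℚ, (∀ j, (-1 : ℚ) < m j ∧ m j < 1) →
      ∃ v : ℝ, innerV D.mu D.top γ m = (v : EReal) ∧ - Real.log 2 - C' ≤ v ∧ v ≤ C' := by
    intro m hm
    exact innerV_real D (fun j => (hγpos j).le) hγsum (fun j => (hmabs m hm j).le)
      (fun p hp => hC.bound hp)
  have hle_top : magneticValue D.mu D.top cval γ ≤ ((∑ j, |cval j| + C' : ℝ) : EReal) := by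
    rw [magneticValue_eq]
    refine iSup₂_le fun m hm => ?_
    obtain ⟨v, hv, _, hv2⟩ := hreal m hm
    rw [hv, ← EReal.coe_add, EReal.coe_le_coe_iff]
    have h1 : ∑ j, ((γ j : ℚ) : ℝ) * cval j * ((m j : ℚ) : ℝ) ≤ ∑ j, |cval j| := by
      apply Finset.sum_le_sum
      intro j _
      have hγ1 : ((γ j : ℚ) : ℝ) ≤ 1 := by
        rw [← hs']
        exact Finset.single_le_sum (f := fun j => ((γ j : ℚ) : ℝ)) (fun i _ => (hγ' i).le)
          (Finset.mem_univ j)
      refine (le_abs_self _).trans ?_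
      rw [abs_mul, abs_mul, abs_of_pos (hγ' j)]
      have h2 := (hmabs m hm j).le
      calc ((γ j : ℚ) : ℝ) * |cval j| * |((m j : ℚ) : ℝ)| ≤ 1 * |cval j| * 1 := by
            apply mul_le_mul (mul_le_mul_of_nonneg_right hγ1 (abs_nonneg _)) h2 (abs_nonneg _)
            positivity
        _ = |cval j| := by ring
    linarith
  have hbot : (⊥ : EReal) < magneticValue D.mu D.top cval γ := by
    rw [magneticValue_eq]
    have hm0 : ∀ j : Fin J, (-1 : ℚ) < (fun _ => (0 : ℚ)) j ∧ (fun _ : Fin J => (0 : ℚ)) j < 1 :=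
      fun j => by norm_num
    obtain ⟨v, hv, _, _⟩ := hreal (fun _ => 0) hm0
    refine lt_of_lt_of_le ?_ (le_iSup₂_of_le (fun _ => (0 : ℚ)) hm0 le_rfl)
    rw [hv, ← EReal.coe_add]
    exact EReal.bot_lt_coe _
  have htop : magneticValue D.mu D.top cval γ < ⊤ := lt_of_le_of_lt hle_top (EReal.coe_lt_top _)
  set F : ℝ := (magneticValue D.mu D.top cval γ).toReal with hF
  have hFe : magneticValue D.mu D.top cval γ = (F : EReal) := (EReal.coe_toReal htop.ne hbot.ne').symm
  have hFle : ∀ m : Fin J → ℚ, (∀ j, (-1 : ℚ) < m j ∧ m j < 1) → ∀ V : ℝ,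
      VLe D (fun j => ((γ j : ℚ) : ℝ)) (fun j => ((m j : ℚ) : ℝ)) V →
      ∑ j, ((γ j : ℚ) : ℝ) * cval j * ((m j : ℚ) : ℝ) + V ≤ F := by
    intro m hm V hV
    rw [← le_innerV_iff D (fun j => (hmabs m hm j).le)] at hV
    have h1 : ((∑ j, ((γ j : ℚ) : ℝ) * cval j * ((m j : ℚ) : ℝ) + V : ℝ) : EReal) ≤
        magneticValue D.mu D.top cval γ := by
      rw [magneticValue_eq, EReal.coe_add]
      refine le_iSup₂_of_le m hm ?_
      exact add_le_add le_rfl hV
    rw [hFe, EReal.coe_le_coe_iff] at h1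
    exact h1
  -- Haar laws
  have hH : ∀ N, IsHaar (P.map (Us N)) := fun N => isHaar_map P (hmeas N) (horth N) (hHaar N)
  have hint : ∀ N, ∫ ω, pressureFieldN (fun a => D.d (κ N a)) (Matrix.of (Us N ω))
      (fun r => cval (lab N r)) ∂P =
      ∫ U, pressureFieldN (fun a => D.d (κ N a)) (Matrix.of U) (fun r => cval (lab N r))
        ∂(P.map (Us N)) := by
    intro N
    exact (integral_map (hmeas N).aemeasurable
      (pressureField_continuous (fun a => D.d (κ N a))
        (fun r => cval (lab N r))).measurable.aestronglyMeasurable).symm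
  have hlab : ∀ η : ℝ, 0 < η → ∀ᶠ N : ℕ in Filter.atTop, ∀ j,
      |((Finset.univ.filter (fun r => lab N r = j)).card : ℝ) / (N : ℝ) - ((γ j : ℚ) : ℝ)| ≤ η := by
    intro η hη
    rw [Filter.eventually_all]
    intro j
    have h := (hprop j).sub_const ((γ j : ℚ) : ℝ)
    rw [sub_self] at h
    have h2 := h.abs
    rw [abs_zero] at h2
    exact h2.eventually_le_const hη
  -- expectation
  have hexp : Filter.Tendsto (fun N : ℕ => ∫ ω, pressureFieldN (fun a => D.d (κ N a))
      (Matrix.of (Us N ω)) (fun r => cval (lab N r)) ∂P) Filter.atTop (nhds F) := by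
    rw [Metric.tendsto_atTop']
    intro ε hε
    -- upper bound
    obtain ⟨N₁, η₁, hη₁, hU⟩ := UBfield D (hUB D) hC (fun j => ((γ j : ℚ) : ℝ)) hγ' hs' cval
      (half_pos hε) hFle
    -- lower bound
    obtain ⟨m, hm, v, hv, hmv⟩ : ∃ m : Fin J → ℚ, ∃ _ : ∀ j, (-1 : ℚ) < m j ∧ m j < 1,
        ∃ v : ℝ, innerV D.mu D.top γ m = (v : EReal) ∧
          F - ε / 4 < ∑ j, ((γ j : ℚ) : ℝ) * cval j * ((m j : ℚ) : ℝ) + v := by
      have h1 : ((F - ε / 4 : ℝ) : EReal) < magneticValue D.mu D.top cval γ := by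
        rw [hFe, EReal.coe_lt_coe_iff]
        linarith
      rw [magneticValue_eq, lt_iSup_iff] at h1
      obtain ⟨m, h1⟩ := h1
      rw [lt_iSup_iff] at h1
      obtain ⟨hm, h1⟩ := h1
      obtain ⟨v, hv, _, _⟩ := hreal m hm
      refine ⟨m, hm, v, hv, ?_⟩
      rw [hv, ← EReal.coe_add, EReal.coe_lt_coe_iff] at h1
      exact h1
    have hVLe : VLe D (fun j => ((γ j : ℚ) : ℝ)) (fun j => ((m j : ℚ) : ℝ)) v := by
      rw [← le_innerV_iff D (fun j => (hmabs m hm j).le), hv]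
    obtain ⟨N₂, η₂, hη₂, hL⟩ := hLB D (fun j => ((γ j : ℚ) : ℝ)) cval (fun j => ((m j : ℚ) : ℝ))
      hγ' hs' (hmabs m hm) (show 0 < ε / 4 by positivity) hVLe
    have hev : ∀ᶠ N : ℕ in Filter.atTop,
        dist (∫ ω, pressureFieldN (fun a => D.d (κ N a))
          (Matrix.of (Us N ω)) (fun r => cval (lab N r)) ∂P) F < ε := by
      filter_upwards [close_eventually D hκ hη₁, close_eventually D hκ hη₂, hlab η₁ hη₁,
        hlab η₂ hη₂, Filter.eventually_ge_atTop N₁, Filter.eventually_ge_atTop N₂]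
        with N h1 h2 h3 h4 h5 h6
      have hu := hU N h5 (κ N) h1 (lab N) h3 (P.map (Us N)) (hH N)
      have hl := hL N h6 (κ N) h2 (lab N) h4 (P.map (Us N)) (hH N)
      rw [hint N, Real.dist_eq, abs_lt]
      constructor <;> linarith
    obtain ⟨N₀, hN₀⟩ := Filter.eventually_atTop.1 hev
    exact ⟨N₀, fun N hN => hN₀ N hN.le⟩
  refine ⟨F, hFe, hexp, ?_⟩
  -- almost sure convergence
  have has := pressure_as κ D.d (fun N r => cval (lab N r)) (prop_lower D hκ) P Us hmeas hH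
  filter_upwards [has] with ω hω
  have h1 := hω.add hexp
  rw [zero_add] at h1
  refine h1.congr fun N => ?_
  ring

end Crest.Agent.RI
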