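import Mathlib

/-!
# Row 164: abstract conditional calculus (helper44)

`Calc P` = an algebra `G` of observables on path space, an expectation `E`, conditional expectations
`C r` (given the first `r` coordinates).  SYNC and the loop equations are proved in this abstract
setting; the concrete tower is an instance.
-/

set_option autoImplicit false

namespace Crest.Agent.RI

/-- Abstract conditional calculus. -/
structure Calc (P : Type*) where
  G : Subalgebra ℝ (P → ℝ)
  E : G →ₗ[ℝ] ℝ
  C : ℕ → (G →ₗ[ℝ] G)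
  E_one : E 1 = 1
  E_nonneg : ∀ f : G, (∀ p, 0 ≤ f.1 p) → 0 ≤ E f
  E_C : ∀ r f, E (C r f) = E f
  C_one : ∀ r, C r 1 = 1
  C_nonneg : ∀ r (f : G), (∀ p, 0 ≤ f.1 p) → ∀ p, 0 ≤ (C r f).1 p
  C_C : ∀ r r' f, C r (C r' f) = C (min r r') f
  C_pull : ∀ r f g, C r (f * C r g) = C r f * C r g

namespace Calc

variable {P : Type*} (S : Calc P)

theorem E_mono {f g : S.G} (h : ∀ p, f.1 p ≤ g.1 p) : S.E f ≤ S.E g := by
  have := S.E_nonneg (g - f) (fun p => by
    have := h p
    simp only [AddSubgroupClass.coe_sub, Pi.sub_apply]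
    linarith)
  rw [map_sub] at this
  linarith

theorem C_mono (r : ℕ) {f g : S.G} (h : ∀ p, f.1 p ≤ g.1 p) (p : P) :
    (S.C r f).1 p ≤ (S.C r g).1 p := by
  have := S.C_nonneg r (g - f) (fun p => by
    have := h p
    simp only [AddSubgroupClass.coe_sub, Pi.sub_apply]
    linarith) p
  rw [map_sub] at this
  simp only [AddSubgroupClass.coe_sub, Pi.sub_apply] at this
  linarith

theorem E_abs_le_one {f : S.G} (h : ∀ p, |f.1 p| ≤ 1) : |S.E f| ≤ 1 := by
  rw [abs_le]
  constructor
  · have := S.E_mono (f := -1) (g := f) (fun p => by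
      have := (abs_le.1 (h p)).1
      simpa using this)
    rw [map_neg, S.E_one] at this
    exact this
  · have := S.E_mono (f := f) (g := 1) (fun p => by
      have := (abs_le.1 (h p)).2
      simpa using this)
    rw [S.E_one] at this
    exact this

theorem C_pull_left (r : ℕ) (f g : S.G) : S.C r (S.C r g * f) = S.C r g * S.C r f := by
  rw [mul_comm, S.C_pull, mul_comm]

/-- `C r'` pulls out functions of the first `r ≤ r'` coordinates. -/
theorem C_pull_le {r r' : ℕ} (h : r ≤ r') (f g : S.G) :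
    S.C r' (f * S.C r g) = S.C r' f * S.C r g := by
  have hg : S.C r g = S.C r' (S.C r g) := by rw [S.C_C, min_eq_right h]
  rw [hg, S.C_pull]

theorem C_pull_le_left {r r' : ℕ} (h : r ≤ r') (f g : S.G) :
    S.C r' (S.C r g * f) = S.C r g * S.C r' f := by
  rw [mul_comm, S.C_pull_le h, mul_comm]

/-- Self-adjointness. -/
theorem E_mul_C (r : ℕ) (f g : S.G) : S.E (f * S.C r g) = S.E (S.C r f * S.C r g) := by
  rw [← S.E_C r (f * S.C r g), S.C_pull]

theorem E_C_mul (r : ℕ) (f g : S.G) : S.E (S.C r f * g) = S.E (S.C r f * S.C r g) := by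
  rw [← S.E_C r (S.C r f * g), S.C_pull_left]

theorem E_C_swap (r : ℕ) (f g : S.G) : S.E (S.C r f * g) = S.E (f * S.C r g) := by
  rw [S.E_C_mul, ← S.E_mul_C]

/-- Conditional Jensen: `(C f)² ≤ C (f²)` pointwise. -/
theorem C_sq_le (r : ℕ) (f : S.G) (p : P) :
    (S.C r f).1 p ^ 2 ≤ (S.C r (f * f)).1 p := by
  have h := S.C_nonneg r ((f - S.C r f) * (f - S.C r f)) (fun p => by
    simp only [MulMemClass.coe_mul, Pi.mul_apply]
    exact mul_self_nonneg _) p
  have e : S.C r ((f - S.C r f) * (f - S.C r f)) = S.C r (f * f) - S.C r f * S.C r f := by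
    have : (f - S.C r f) * (f - S.C r f) =
      f * f - f * S.C r f - f * S.C r f + S.C r f * S.C r f := by ring
    rw [this, map_add, map_sub, map_sub, S.C_pull, S.C_pull, S.C_C, min_self]
    ring
  rw [e] at h
  simp only [AddSubgroupClass.coe_sub, MulMemClass.coe_mul, Pi.sub_apply, Pi.mul_apply] at h
  nlinarith

/-- Positivity of `Σ_{αβ} C(u_α u_β) C(v_α v_β)` (pointwise). -/
theorem psd_pt {ι : Type*} [Fintype ι] (r : ℕ) (u v : ι → S.G) (p : P) :
    0 ≤ ∑ α, ∑ β, (S.C r (u α * u β)).1 p * (S.C r (v α * v β)).1 p := by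
  -- the function `q ↦ Σ C(u_α u_β)(p) v_α(q) v_β(q)` is nonnegative
  set F : S.G := ∑ α, ∑ β, (S.C r (u α * u β)).1 p • (v α * v β) with hF
  have hco : ∀ (f : ι → S.G), (∑ α, f α).1 = ∑ α, (f α).1 := by
    intro f
    exact map_sum S.G.val f Finset.univ
  have hpos : ∀ q, 0 ≤ F.1 q := by
    intro q
    have h1 := S.C_nonneg r ((∑ α, (v α).1 q • u α) * (∑ α, (v α).1 q • u α)) (fun p => by
      simp only [MulMemClass.coe_mul, Pi.mul_apply]
      exact mul_self_nonneg _) p
    have e : (∑ α, (v α).1 q • u α) * (∑ α, (v α).1 q • u α) =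
        ∑ α, ∑ β, ((v α).1 q * (v β).1 q) • (u α * u β) := by
      rw [Finset.sum_mul_sum]
      refine Finset.sum_congr rfl fun α _ => Finset.sum_congr rfl fun β _ => ?_
      rw [smul_mul_smul_comm]
    rw [e, map_sum, hco] at h1
    simp only [map_sum, map_smul, Finset.sum_apply] at h1
    rw [hF, hco]
    simp only [Finset.sum_apply]
    refine h1.trans_eq (Finset.sum_congr rfl fun α _ => ?_)
    rw [hco, hco, Finset.sum_apply, Finset.sum_apply]
    refine Finset.sum_congr rfl fun β _ => ?_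
    simp only [SetLike.val_smul, Pi.smul_apply, smul_eq_mul, MulMemClass.coe_mul, Pi.mul_apply]
    ring
  have h2 := S.C_nonneg r F hpos p
  rw [hF, map_sum, hco, Finset.sum_apply] at h2
  refine h2.trans_eq (Finset.sum_congr rfl fun α _ => ?_)
  rw [map_sum, hco, Finset.sum_apply]
  refine Finset.sum_congr rfl fun β _ => ?_
  rw [map_smul]
  simp only [SetLike.val_smul, Pi.smul_apply, smul_eq_mul]

theorem psd {ι : Type*} [Fintype ι] (r : ℕ) (u v : ι → S.G) :
    0 ≤ ∑ α, ∑ β, S.E (S.C r (u α * u β) * S.C r (v α * v β)) := by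
  have : ∑ α, ∑ β, S.E (S.C r (u α * u β) * S.C r (v α * v β)) =
      S.E (∑ α, ∑ β, S.C r (u α * u β) * S.C r (v α * v β)) := by
    rw [map_sum]
    exact Finset.sum_congr rfl fun α _ => (map_sum _ _ _).symm
  rw [this]
  apply S.E_nonneg
  intro p
  have hco : ∀ (f : ι → S.G), (∑ α, f α).1 = ∑ α, (f α).1 := by
    intro f
    exact map_sum S.G.val f Finset.univ
  rw [hco, Finset.sum_apply]
  refine (S.psd_pt r u v p).trans_eq (Finset.sum_congr rfl fun α _ => ?_)
  rw [hco, Finset.sum_apply]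
  rfl

end Calc

end Crest.Agent.RI
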