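import Crest.Agent.RI.Calc

/-!
# Row 164: abstract system (helper44): overlaps, second moment inequalities
-/

set_option autoImplicit false

namespace Crest.Agent.RI

namespace Calc

variable {P : Type*} (S : Calc P)

/-- `f` is a function of the first `r` coordinates. -/
def Ms (r : ℕ) (f : S.G) : Prop := S.C r f = f

variable {S}

theorem Ms.C (r : ℕ) (f : S.G) : S.Ms r (S.C r f) := by
  unfold Ms; rw [S.C_C, min_self]

theorem Ms.mono {r r' : ℕ} {f : S.G} (hf : S.Ms r f) (h : r ≤ r') : S.Ms r' f := by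
  unfold Ms at *
  conv_lhs => rw [← hf]
  rw [S.C_C, min_eq_right h, hf]

theorem Ms.mul {r : ℕ} {f g : S.G} (hf : S.Ms r f) (hg : S.Ms r g) : S.Ms r (f * g) := by
  unfold Ms at *
  conv_lhs => rw [← hg, S.C_pull, hf, hg]

theorem Ms.add {r : ℕ} {f g : S.G} (hf : S.Ms r f) (hg : S.Ms r g) : S.Ms r (f + g) := by
  unfold Ms at *
  rw [map_add, hf, hg]

theorem Ms.smul {r : ℕ} {f : S.G} (hf : S.Ms r f) (c : ℝ) : S.Ms r (c • f) := by
  unfold Ms at *
  rw [map_smul, hf]

theorem Ms.sum {r : ℕ} {ι : Type*} (s : Finset ι) {f : ι → S.G} (hf : ∀ i ∈ s, S.Ms r (f i)) :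
    S.Ms r (∑ i ∈ s, f i) := by
  unfold Ms at *
  rw [map_sum]
  exact Finset.sum_congr rfl hf

theorem Ms.one (r : ℕ) : S.Ms r 1 := S.C_one r

theorem Ms.E_mul {r : ℕ} {g : S.G} (hg : S.Ms r g) (f : S.G) :
    S.E (f * g) = S.E (S.C r f * g) := by
  unfold Ms at hg
  conv_lhs => rw [← hg]
  rw [S.E_mul_C, hg]

theorem Ms.C_mul {r : ℕ} {g : S.G} (hg : S.Ms r g) (f : S.G) :
    S.C r (f * g) = S.C r f * g := by
  unfold Ms at hg
  conv_lhs => rw [← hg]
  rw [S.C_pull, hg]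

variable (S)

theorem coe_sum {ι : Type*} (s : Finset ι) (f : ι → S.G) (p : P) :
    (∑ α ∈ s, f α).1 p = ∑ α ∈ s, (f α).1 p := by
  have : (∑ α ∈ s, f α).1 = ∑ α ∈ s, (f α).1 := map_sum S.G.val f s
  rw [this, Finset.sum_apply]

/-! ### the bilinear second moment -/

variable {N : ℕ}

/-- `Σ_{ab} c_a c'_b E[C(u_a u_b) C(v_a v_b)]` -/
noncomputable def BB (r : ℕ) (u v : Fin N → S.G) (c c' : Fin N → ℝ) : ℝ :=
  ∑ a, ∑ b, c a * c' b * S.E (S.C r (u a * u b) * S.C r (v a * v b))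

/-- `Σ_a c_a E[C(u_a) C(v_a)]` -/
noncomputable def LL (r : ℕ) (u v : Fin N → S.G) (c : Fin N → ℝ) : ℝ :=
  ∑ a, c a * S.E (S.C r (u a) * S.C r (v a))

theorem BB_comm (r : ℕ) (u v : Fin N → S.G) (c c' : Fin N → ℝ) :
    S.BB r u v c c' = S.BB r u v c' c := by
  unfold BB
  rw [Finset.sum_comm]
  refine Finset.sum_congr rfl fun b _ => Finset.sum_congr rfl fun a _ => ?_
  rw [mul_comm (u a), mul_comm (v a)]
  ring

theorem LL_sq_le (r : ℕ) (u v : Fin N → S.G) (c : Fin N → ℝ) :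
    S.LL r u v c ^ 2 ≤ S.BB r u v c c := by
  set L := S.LL r u v c with hL
  have h := S.psd r (fun o : Option (Fin N) => o.elim (1 : S.G) u)
    (fun o : Option (Fin N) => o.elim ((-L) • (1 : S.G)) (fun a => c a • v a))
  simp only [Fintype.sum_option, Option.elim] at h
  have e1 : S.E (S.C r ((1 : S.G) * 1) * S.C r ((-L) • (1 : S.G) * (-L) • (1 : S.G))) = L ^ 2 := by
    rw [mul_one, S.C_one, one_mul, smul_mul_smul_comm, map_smul, mul_one, S.C_one, map_smul,
      S.E_one]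
    simp only [smul_eq_mul]; ring
  have e2 : ∀ b, S.E (S.C r (1 * u b) * S.C r ((-L) • (1 : S.G) * c b • v b)) =
      -L * (c b * S.E (S.C r (u b) * S.C r (v b))) := by
    intro b
    rw [one_mul, smul_mul_smul_comm, one_mul, map_smul, mul_smul_comm, map_smul]
    simp only [smul_eq_mul]; ring
  have e3 : ∀ a, S.E (S.C r (u a * 1) * S.C r (c a • v a * (-L) • (1 : S.G))) =
      -L * (c a * S.E (S.C r (u a) * S.C r (v a))) := by
    intro a
    rw [mul_one, smul_mul_smul_comm, mul_one, map_smul, mul_smul_comm, map_smul]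
    simp only [smul_eq_mul]; ring
  have e4 : ∀ a b, S.E (S.C r (u a * u b) * S.C r (c a • v a * c b • v b)) =
      c a * c b * S.E (S.C r (u a * u b) * S.C r (v a * v b)) := by
    intro a b
    rw [smul_mul_smul_comm, map_smul, mul_smul_comm, map_smul]
    simp only [smul_eq_mul]
  simp only [e1, e2, e3, e4, Finset.sum_add_distrib, ← Finset.mul_sum] at h
  have hL' : ∑ a, c a * S.E (S.C r (u a) * S.C r (v a)) = L := rfl
  rw [hL'] at h
  have hB : ∑ a, ∑ b, c a * c b * S.E (S.C r (u a * u b) * S.C r (v a * v b)) = S.BB r u v c c := rfl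
  simp only [mul_assoc, Finset.mul_sum] at h hB
  nlinarith [h, hB]

theorem BB_add_add (r : ℕ) (u v : Fin N → S.G) (c c' : Fin N → ℝ) (t : ℝ) :
    S.BB r u v (fun a => c a + t * c' a) (fun a => c a + t * c' a) =
      S.BB r u v c c + 2 * t * S.BB r u v c c' + t ^ 2 * S.BB r u v c' c' := by
  have h : S.BB r u v (fun a => c a + t * c' a) (fun a => c a + t * c' a) =
      S.BB r u v c c + t * S.BB r u v c c' + t * S.BB r u v c' c + t ^ 2 * S.BB r u v c' c' := by
    unfold BB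
    simp only [Finset.mul_sum, ← Finset.sum_add_distrib]
    refine Finset.sum_congr rfl fun b _ => Finset.sum_congr rfl fun a _ => ?_
    ring
  rw [h, S.BB_comm r u v c' c]; ring

theorem LL_add (r : ℕ) (u v : Fin N → S.G) (c c' : Fin N → ℝ) (t : ℝ) :
    S.LL r u v (fun a => c a + t * c' a) = S.LL r u v c + t * S.LL r u v c' := by
  unfold LL
  simp only [Finset.mul_sum, ← Finset.sum_add_distrib]
  refine Finset.sum_congr rfl fun a _ => ?_
  ring

/-- `|BB(c,c') - L(c)L(c')| ≤ ½ (Var c + Var c')`. -/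
theorem BB_cov (r : ℕ) (u v : Fin N → S.G) (c c' : Fin N → ℝ) :
    |S.BB r u v c c' - S.LL r u v c * S.LL r u v c'| ≤
      (1 / 2) * ((S.BB r u v c c - S.LL r u v c ^ 2) + (S.BB r u v c' c' - S.LL r u v c' ^ 2)) := by
  have h1 := S.LL_sq_le r u v (fun a => c a + 1 * c' a)
  have h2 := S.LL_sq_le r u v (fun a => c a + (-1) * c' a)
  rw [S.BB_add_add, S.LL_add] at h1 h2
  rw [abs_le]
  constructor <;> nlinarith

end Calc

end Crest.Agent.RI
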