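import Crest.Agent.RI.CavD

/-!
# Row 164, Part 8.2: density of the truncated tower
-/

set_option autoImplicit false

namespace Crest.Agent.RI

open MeasureTheory ProbabilityTheory

variable {N K J k : ℕ}

/-- constants added to the Hamiltonian do not change the path expectation -/
private theorem CavB_pathE_addc {E : Type} [MeasurableSpace E] {m : Measure E}
    [IsProbabilityMeasure m] {β : E → ℝ} {ζ : ℕ → ℝ} (hβ : Dom m β) (hζ : Exps ζ) (c : ℝ) (n : ℕ) :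
    ∀ (i : ℕ) {H : (Fin n → E) → ℝ} (_ : Ham β H) (Φ : (Fin n → E) → ℝ),
    pathE m ζ n i (fun ω => H ω + c) Φ = pathE m ζ n i H Φ := by
  induction n with
  | zero => intro i H _ Φ; rfl
  | succ n ih =>
    intro i H hH Φ
    show ∫ e, wgt m ζ n i (fun ω => H ω + c) e * pathE m ζ n (i + 1)
        (fun ω => H (Fin.cons e ω) + c) (fun ω => Φ (Fin.cons e ω)) ∂m =
      ∫ e, wgt m ζ n i H e * pathE m ζ n (i + 1)
        (fun ω => H (Fin.cons e ω)) (fun ω => Φ (Fin.cons e ω)) ∂m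
    refine integral_congr_ae (Filter.Eventually.of_forall fun e => ?_)
    simp only
    rw [ih (i + 1) (hH.cons hβ e)]
    congr 1
    unfold wgt
    rw [nest_add_const hβ hζ (n + 1) i hH c, nest_add_const hβ hζ n (i + 1) (hH.cons hβ e) c]
    congr 1
    ring

private theorem CavB_tame_of_le {E : Type} [MeasurableSpace E] {β : E → ℝ} {n : ℕ}
    {Φ Ψ : (Fin n → E) → ℝ} (hm : Measurable Φ) (hΨ : Tame β Ψ) (h : ∀ ω, |Φ ω| ≤ Ψ ω) :
    Tame β Φ := by
  obtain ⟨C, hC, hb⟩ := hΨ.bound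
  exact ⟨hm, C, hC, fun ω => (h ω).trans ((le_abs_self _).trans (hb ω))⟩

private theorem CavB_tame_abs {E : Type} [MeasurableSpace E] {β : E → ℝ} {n : ℕ}
    {Φ : (Fin n → E) → ℝ} (hΦ : Tame β Φ) : Tame β (fun ω => |Φ ω|) := by
  obtain ⟨C, hC, hb⟩ := hΦ.bound
  refine ⟨?_, C, hC, fun ω => by rw [abs_abs]; exact hb ω⟩
  have := hΦ.meas
  fun_prop

private theorem CavB_HU0 (D : Blk) (L : LBd J) (s : ℝ)
    (x : XI k D.K J → ℝ) (κ : Fin N → Fin D.K) (lab : Fin N → Fin J) (l0 : Fin D.K) (j0 : Fin J)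
    (τ : Fin J → ℝ) (A t v : ℝ) (i0 : Fin k) :
    HU0 D L s x κ lab l0 j0 τ A t v i0 = fun ω => (H1 D L s x κ lab (bb L τ j0 + t) v i0 ω +
      chi A (DInf D l0 (zx κ ω) (ep ω))) + cc L τ := by
  funext ω
  unfold HU0 H1
  rw [dB_eq]
  ring

private theorem CavB_hamU (D : Blk) (x : XI k D.K J → ℝ) (κ : Fin N → Fin D.K)
    (lab : Fin N → Fin J) (τ : Fin J → ℝ) (l0 : Fin D.K) {A : ℝ} (hA : 0 ≤ A) :
    Ham (βC (N := N)) (fun ω : Fin (k + 1) → EC N => chi A (DInf D l0 (zx κ ω) (ep ω))) := by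
  have hZ := (tame_pieces (k := k) D x κ lab τ l0).2.2.2.2
  refine ⟨(measurable_chi A).1.comp hZ.meas, A, hA, fun ω => (chi_abs hA _).trans ?_⟩
  have h1 : 0 ≤ ∑ i, βC (ω i) := Finset.sum_nonneg fun i _ => by
    unfold βC βC1 βX βN
    positivity
  nlinarith

private theorem CavB_mono (k : ℕ) : Monotone (ζLB k) := by
  intro i j hij
  unfold ζLB
  have : (i : ℝ) ≤ (j : ℝ) := by exact_mod_cast hij
  gcongr

private theorem CavB_last {k : ℕ} (hk : 0 < k) : ζLB k (0 + k) = 1 := by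
  unfold ζLB
  have : (k : ℝ) ≠ 0 := by exact_mod_cast hk.ne'
  rw [zero_add, div_self this, min_self]

/-- (b) density of the truncated tower with respect to the product law.  PROOF: `HU0 = (H1 with field bb + t) + cc + χ_A(DInf)`; `pathE_density_le`
(constants added to the Hamiltonian do not change `pathE`, or use `U = χ_A + cc` minus constant). -/
theorem EU0_le {P : Measure (ON N)} (hP : HaarO P) (hk : 0 < k) (D : Blk) (L : LBd J) (s : ℝ)
    (x : XI k D.K J → ℝ) (κ : Fin N → Fin D.K) (lab : Fin N → Fin J) (l0 : Fin D.K) (j0 : Fin J)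
    (τ : Fin J → ℝ) {A : ℝ} (hA : 0 ≤ A) (t v : ℝ) (i0 : Fin k) {Φ : (Fin (k + 1) → EC N) → ℝ}
    (hΦ : Tame (βC (N := N)) Φ) (h0 : ∀ ω, 0 ≤ Φ ω) :
    pathE (mC P) (ζLB k) (k + 1) 0 (HU0 D L s x κ lab l0 j0 τ A t v i0) Φ ≤
      Real.exp (2 * A) * EH1 P D L k s x κ lab (bb L τ j0 + t) v i0 Φ := by
  have := prob_mC hP
  have hD := dom_mC hP
  have hζ := exps_LB k
  have hH := H1_ham (N := N) D L s x κ lab (bb L τ j0 + t) v i0
  have hU := CavB_hamU (N := N) D x κ lab τ l0 hA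
  rw [CavB_HU0, CavB_pathE_addc hD hζ (cc L τ) (k + 1) 0 (Ham.add hD hH hU) Φ]
  exact pathE_density_le hD hζ (CavB_mono k) (k + 1) 0 hH hU hΦ h0 (fun ω => chi_abs hA _)

/-- (c) the truncation error from below.  PROOF: `pathE_density_sq` with `U = χ_A(DInf)`, `Φ = max (χ_A - DInf) 0`; `Φ² e^{2U} ≤ 2 e^{-2A} (e^{-A} + |DInf|³/A)`
(`chi_key`), `e^{-2U} ≤ e^{2A}` (`chi_abs`), `momL_D3`. -/
theorem EU0_trunc (D : Blk) (bm : ℝ) (hbm : 0 ≤ bm) : ∃ C : ℝ, 0 ≤ C ∧ ∀ A ≥ 2, ∀ {N J k : ℕ}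
    {P : Measure (ON N)}, 1 ≤ N → HaarO P → 0 < k → ∀ (L : LBd J) (s : ℝ) (x : XI k D.K J → ℝ)
      (κ : Fin N → Fin D.K) (lab : Fin N → Fin J) (l0 : Fin D.K) (j0 : Fin J) (τ : Fin J → ℝ)
      (t v : ℝ) (i0 : Fin k), |bb L τ j0 + t| ≤ bm → 0 ≤ v → v ≤ 1 →
      pathE (mC P) (ζLB k) (k + 1) 0 (HU0 D L s x κ lab l0 j0 τ A t v i0)
        (fun ω => max (chi A (DInf D l0 (zx κ ω) (ep ω)) - DInf D l0 (zx κ ω) (ep ω)) 0) ≤
        C * Real.sqrt (Real.exp (-A) + 1 / A) := by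
  obtain ⟨C₃, hC₃, hD3⟩ := momL_D3 D
  refine ⟨Real.sqrt (2 * (1 + C₃ * Real.exp (2 * bm))), Real.sqrt_nonneg _, ?_⟩
  intro A hA2 N J k P hN hP hk L s x κ lab l0 j0 τ t v i0 hb hv0 hv1
  have hA : 0 ≤ A := by linarith
  have hA0 : 0 < A := by linarith
  have := prob_mC hP
  have hD := dom_mC hP
  have hζ := exps_LB k
  have hH := H1_ham (N := N) D L s x κ lab (bb L τ j0 + t) v i0
  have hU := CavB_hamU (N := N) D x κ lab τ l0 hA
  have hZ := (tame_pieces (k := k) D x κ lab τ l0).2.2.2.2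
  set Z : (Fin (k + 1) → EC N) → ℝ := fun ω => DInf D l0 (zx κ ω) (ep ω) with hZd
  have hZa := CavB_tame_abs hZ
  have hZ3 : Tame (βC (N := N)) (fun ω : Fin (k + 1) → EC N => |Z ω| ^ 3) := by
    have h1 := Tame.mul hD (Tame.mul hD hZa hZa) hZa
    have h2 : (fun ω : Fin (k + 1) → EC N => |Z ω| ^ 3) = fun ω => |Z ω| * |Z ω| * |Z ω| := by
      funext ω; ring
    rw [h2]
    exact h1
  set Φ : (Fin (k + 1) → EC N) → ℝ := fun ω => max (chi A (Z ω) - Z ω) 0 with hΦd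
  have hΦ0 : ∀ ω, 0 ≤ Φ ω := fun ω => le_max_right _ _
  have hΦ : Tame (βC (N := N)) Φ := by
    refine CavB_tame_of_le ?_ (Tame.add hD (Tame.const hD A) hZa) (fun ω => ?_)
    · exact (hU.meas.sub hZ.meas).max measurable_const
    · rw [abs_of_nonneg (hΦ0 ω)]
      refine max_le ?_ (by positivity)
      have h1 := (abs_le.1 (chi_abs hA (Z ω))).2
      have h2 := neg_abs_le (Z ω)
      linarith
  have e1 : pathE (mC P) (ζLB k) (k + 1) 0 (HU0 D L s x κ lab l0 j0 τ A t v i0) Φ =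
      pathE (mC P) (ζLB k) (k + 1) 0 (fun ω => H1 D L s x κ lab (bb L τ j0 + t) v i0 ω +
        chi A (Z ω)) Φ := by
    rw [CavB_HU0, CavB_pathE_addc hD hζ (cc L τ) (k + 1) 0 (Ham.add hD hH hU) Φ]
  set p := pathE (mC P) (ζLB k) (k + 1) 0 (HU0 D L s x κ lab l0 j0 τ A t v i0) Φ with hp
  have hsq := pathE_density_sq hD hζ (CavB_mono k) k 0 (CavB_last hk) hH hU hΦ hΦ0
  rw [← e1] at hsq
  have hE1 : pathE (mC P) (ζLB k) (k + 1) 0 (H1 D L s x κ lab (bb L τ j0 + t) v i0)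
      (fun ω => Φ ω ^ 2 * Real.exp (2 * chi A (Z ω))) ≤
      (2 * Real.exp (-(2 * A))) * (Real.exp (-A) + C₃ * Real.exp (2 * bm) / A) := by
    have t1 : Tame (βC (N := N)) (fun ω => Φ ω ^ 2 * Real.exp (2 * chi A (Z ω))) :=
      Tame.mul hD (TVar_tame_sq hD hΦ) (Tame.exp hD (Ham.const_mul 2 hU))
    have t3 : Tame (βC (N := N)) (fun ω : Fin (k + 1) → EC N => A⁻¹ * |Z ω| ^ 3) :=
      TVar_tame_cmul hD _ hZ3
    have t2' : Tame (βC (N := N)) (fun ω : Fin (k + 1) → EC N =>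
        Real.exp (-A) + A⁻¹ * |Z ω| ^ 3) :=
      Tame.add hD (Tame.const hD _) t3
    have t2 : Tame (βC (N := N)) (fun ω : Fin (k + 1) → EC N => (2 * Real.exp (-(2 * A))) *
        (Real.exp (-A) + A⁻¹ * |Z ω| ^ 3)) := TVar_tame_cmul hD _ t2'
    have h1 := pathE_mono hD hζ (k + 1) 0 hH t1 t2 (fun ω => by
      have h2 := chi_key (A := A) (x := Z ω) hA2
      have h3 : Real.exp (2 * chi A (Z ω) + 2 * A) =
          Real.exp (2 * chi A (Z ω)) * Real.exp (2 * A) := Real.exp_add _ _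
      rw [h3] at h2
      have h4 : Real.exp (2 * A) * Real.exp (-(2 * A)) = 1 := by
        rw [← Real.exp_add, add_neg_cancel, Real.exp_zero]
      calc Φ ω ^ 2 * Real.exp (2 * chi A (Z ω)) =
            (Φ ω ^ 2 * (Real.exp (2 * chi A (Z ω)) * Real.exp (2 * A))) *
              Real.exp (-(2 * A)) := by
            linear_combination (-(Φ ω ^ 2 * Real.exp (2 * chi A (Z ω)))) * h4
        _ ≤ (2 * (Real.exp (-A) + |Z ω| ^ 3 / A)) * Real.exp (-(2 * A)) :=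
            mul_le_mul_of_nonneg_right h2 (Real.exp_pos _).le
        _ = (2 * Real.exp (-(2 * A))) * (Real.exp (-A) + A⁻¹ * |Z ω| ^ 3) := by
            rw [div_eq_inv_mul]; ring)
    refine h1.trans ?_
    rw [pathE_mul, pathE_add hD hζ (k + 1) 0 hH (Tame.const hD _) t3, pathE_mul,
      pathE_const hD hζ (k + 1) 0 hH]
    refine mul_le_mul_of_nonneg_left ?_ (by positivity)
    have h5 := hD3 hN hP L hk s x κ lab (bb L τ j0 + t) v i0 hv0 hv1 l0
    have h6 : pathE (mC P) (ζLB k) (k + 1) 0 (H1 D L s x κ lab (bb L τ j0 + t) v i0)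
        (fun ω => |Z ω| ^ 3) ≤ C₃ * Real.exp (2 * bm) := by
      refine le_trans h5 (mul_le_mul_of_nonneg_left (Real.exp_le_exp.2 ?_) hC₃)
      linarith
    have h7 : A⁻¹ * pathE (mC P) (ζLB k) (k + 1) 0 (H1 D L s x κ lab (bb L τ j0 + t) v i0)
        (fun ω => |Z ω| ^ 3) ≤ C₃ * Real.exp (2 * bm) / A := by
      rw [div_eq_inv_mul]
      exact mul_le_mul_of_nonneg_left h6 (by positivity)
    linarith
  have hE2 : pathE (mC P) (ζLB k) (k + 1) 0 (H1 D L s x κ lab (bb L τ j0 + t) v i0)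
      (fun ω => Real.exp (-2 * chi A (Z ω))) ≤ Real.exp (2 * A) := by
    have h1 := pathE_const hD hζ (k + 1) 0 hH (Real.exp (2 * A))
    conv_rhs => rw [← h1]
    refine pathE_mono hD hζ (k + 1) 0 hH (Tame.exp hD (Ham.const_mul (-2) hU))
      (Tame.const hD _) (fun ω => Real.exp_le_exp.2 ?_)
    have := (abs_le.1 (chi_abs hA (Z ω))).1
    linarith
  have hE2' : 0 ≤ pathE (mC P) (ζLB k) (k + 1) 0 (H1 D L s x κ lab (bb L τ j0 + t) v i0)
      (fun ω => Real.exp (-2 * chi A (Z ω))) :=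
    TVar_pathE_nonneg hD hζ (k + 1) 0 hH (Tame.exp hD (Ham.const_mul (-2) hU))
      (fun ω => (Real.exp_pos _).le)
  have hmain : p ^ 2 ≤ (2 * (1 + C₃ * Real.exp (2 * bm))) * (Real.exp (-A) + 1 / A) := by
    calc p ^ 2 ≤ _ := hsq
      _ ≤ ((2 * Real.exp (-(2 * A))) * (Real.exp (-A) + C₃ * Real.exp (2 * bm) / A)) *
          Real.exp (2 * A) := mul_le_mul hE1 hE2 hE2' (by positivity)
      _ = 2 * (Real.exp (-A) + C₃ * Real.exp (2 * bm) / A) := by
          have h4 : Real.exp (-(2 * A)) * Real.exp (2 * A) = 1 := by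
            rw [← Real.exp_add, neg_add_cancel, Real.exp_zero]
          linear_combination (2 * (Real.exp (-A) + C₃ * Real.exp (2 * bm) / A)) * h4
      _ ≤ (2 * (1 + C₃ * Real.exp (2 * bm))) * (Real.exp (-A) + 1 / A) := by
          have h5 : 0 ≤ C₃ * Real.exp (2 * bm) := by positivity
          have h6 : C₃ * Real.exp (2 * bm) / A = C₃ * Real.exp (2 * bm) * (1 / A) := by ring
          have h7 : 0 ≤ 1 / A := by positivity
          have h8 := Real.exp_pos (-A)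
          rw [h6]
          nlinarith [mul_nonneg h5 h8.le]
  have hsqrt : p ≤ Real.sqrt ((2 * (1 + C₃ * Real.exp (2 * bm))) * (Real.exp (-A) + 1 / A)) :=
    Real.le_sqrt_of_sq_le hmain
  rwa [Real.sqrt_mul (by positivity)] at hsqrt

end Crest.Agent.RI
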