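import Crest.Agent.RI.CavD

/-!
# Row 164, Part 8: crude bounds for the increment
-/

set_option autoImplicit false

namespace Crest.Agent.RI

open MeasureTheory ProbabilityTheory

variable {N K J k : ℕ}

private theorem CavCr_entry {M : ℕ} {A : Fin M → Fin M → ℝ} (h : IsO A) (i j : Fin M) :
    |A i j| ≤ 1 := by
  rw [isO_iff_rows] at h
  have h1 := h i i
  rw [if_pos rfl] at h1
  have h2 : A i j * A i j ≤ ∑ a, A i a * A i a :=
    Finset.single_le_sum (f := fun a => A i a * A i a) (fun a _ => mul_self_nonneg _)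
      (Finset.mem_univ j)
  rw [h1] at h2
  rw [← sq_le_one_iff_abs_le_one]
  nlinarith

private theorem CavCr_avec {M : ℕ} {A : Fin M → Fin M → ℝ} (h : IsO A) (y : Fin M → ℝ) :
    ∑ a, |avec A y a| ≤ (M : ℝ) * ∑ a, |y a| := by
  calc ∑ a, |avec A y a| ≤ ∑ _a : Fin M, ∑ j, |y j| := by
        refine Finset.sum_le_sum fun a _ => ?_
        unfold avec
        refine (Finset.abs_sum_le_sum_abs _ _).trans (Finset.sum_le_sum fun j _ => ?_)
        rw [abs_mul]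
        have h1 := CavCr_entry h a j
        have h2 := abs_nonneg (y j)
        nlinarith
    _ = (M : ℝ) * ∑ a, |y a| := by
        rw [Finset.sum_const, Finset.card_univ, Fintype.card_fin, nsmul_eq_mul]

private theorem CavCr_Tc (e y : EC N) : βN (Tc e y) ≤ ((N : ℝ) + 3) * βC y := by
  have h1 : ∑ a, |(Fin.cons y.2.1 y.1.1.2.1 : Fin (N + 1) → ℝ) a| =
      |y.2.1| + ∑ a, |y.1.1.2.1 a| := by
    rw [Fin.sum_univ_succ]
    simp
  have h2 : ∑ a, |(Fin.cons y.1.2.2 y.1.1.2.2.1 : Fin (N + 1) → ℝ) a| =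
      |y.1.2.2| + ∑ a, |y.1.1.2.2.1 a| := by
    rw [Fin.sum_univ_succ]
    simp
  have h3 := CavCr_avec (cM_isO e.1.2.1) (Fin.cons y.1.2.2 y.1.1.2.2.1 : Fin (N + 1) → ℝ)
  rw [h2] at h3
  have h4 : βN (Tc e y) = ∑ a, |(Fin.cons y.2.1 y.1.1.2.1 : Fin (N + 1) → ℝ) a| +
      ∑ a, |avec (cM e.1.2.1) (Fin.cons y.1.2.2 y.1.1.2.2.1 : Fin (N + 1) → ℝ) a| := rfl
  rw [h4, h1]
  have h5 : βC y = (∑ a, |y.1.1.2.1 a| + ∑ a, |y.1.1.2.2.1 a|) +
      (∑ a, |y.1.2.1 a| + |y.1.2.2|) + |y.2.1| := rfl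
  rw [h5]
  have p1 : 0 ≤ ∑ a, |y.1.1.2.1 a| := Finset.sum_nonneg fun _ _ => abs_nonneg _
  have p2 : 0 ≤ ∑ a, |y.1.1.2.2.1 a| := Finset.sum_nonneg fun _ _ => abs_nonneg _
  have p3 : 0 ≤ ∑ a, |y.1.2.1 a| := Finset.sum_nonneg fun _ _ => abs_nonneg _
  have p4 := abs_nonneg y.1.2.2
  have p5 := abs_nonneg y.2.1
  have p6 : (0 : ℝ) ≤ N := Nat.cast_nonneg N
  push_cast at h3
  nlinarith [mul_nonneg p6 p1, mul_nonneg p6 p2, mul_nonneg p6 p3, mul_nonneg p6 p4,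
    mul_nonneg p6 p5]

private theorem CavCr_ham_cp {H : (Fin (k + 1) → EN (N + 1)) → ℝ}
    (hH : Ham (βN (N := N + 1)) H) : Ham (βC (N := N)) (fun ω => H (cp ω)) := by
  obtain ⟨C, hC, hb⟩ := hH.bound
  refine ⟨hH.meas.comp measurable_cp, C * ((N : ℝ) + 3), by positivity, fun ω => ?_⟩
  refine (hb _).trans ?_
  have h1 : ∑ i, βN (cp ω i) ≤ ((N : ℝ) + 3) * ∑ i, βC (ω i) := by
    rw [Finset.mul_sum]
    exact Finset.sum_le_sum fun i _ => CavCr_Tc (ω 0) (ω i)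
  have p6 : (0 : ℝ) ≤ N := Nat.cast_nonneg N
  calc C * (1 + ∑ i, βN (cp ω i)) ≤ C * (1 + ((N : ℝ) + 3) * ∑ i, βC (ω i)) :=
        mul_le_mul_of_nonneg_left (by linarith) hC
    _ ≤ C * (((N : ℝ) + 3) * (1 + ∑ i, βC (ω i))) :=
        mul_le_mul_of_nonneg_left (by nlinarith) hC
    _ = C * ((N : ℝ) + 3) * (1 + ∑ i, βC (ω i)) := by ring

private theorem CavCr_ham_b0 {H : (Fin (k + 1) → EN N) → ℝ}
    (hH : Ham (βN (N := N)) H) : Ham (βC (N := N)) (fun ω => H (b0 ω)) := by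
  obtain ⟨C, hC, hb⟩ := hH.bound
  refine ⟨hH.meas.comp measurable_b0, C, hC, fun ω => ?_⟩
  refine (hb _).trans (mul_le_mul_of_nonneg_left ?_ hC)
  have h1 : ∑ i, βN (b0 ω i) ≤ ∑ i, βC (ω i) := by
    refine Finset.sum_le_sum fun i _ => ?_
    have p3 : 0 ≤ ∑ a, |(ω i).1.2.1 a| := Finset.sum_nonneg fun _ _ => abs_nonneg _
    have p4 := abs_nonneg (ω i).1.2.2
    have p5 := abs_nonneg (ω i).2.1
    show βN (ω i).1.1 ≤ (βN (ω i).1.1 + (∑ a, |(ω i).1.2.1 a| + |(ω i).1.2.2|)) + |(ω i).2.1|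
    linarith
  linarith

private theorem CavCr_M1_nonneg (D : Blk) (κ : Fin N → Fin D.K) (ω : Fin (k + 1) → EC N) :
    0 ≤ M1 D κ ω := by
  unfold M1
  positivity

/-- CRUDE BOUNDS.  PROOF: `nest_tangent` in both directions between `H_S(b0)` and `H_S(b0) + Uc` (`FLW` with `t = v = 0` is `FL`), `coup_crude`, `momL_M` (`b = v = 0`),
`momUC_M`.  The lower bound does not need `Typ`. -/
theorem cav_crude (D : Blk) (J : ℕ) (Km c₀ Ty : ℝ) (hKm : 0 ≤ Km) (hc₀ : 0 ≤ c₀) (hTy : 0 ≤ Ty) :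
    ∃ C : ℝ, 0 ≤ C ∧ ∀ k : ℕ, 0 < k → ∀ N : ℕ, 1 ≤ N → ∀ (P : Measure (ON N))
      (P' : Measure (ON (N + 1))), HaarO P → HaarO P' → ∀ (L : LBd J), LOK L Km c₀ →
      ∀ (s : ℝ), 0 ≤ s → s * (1 + k) ≤ 1 →
      ∀ (x : XI k D.K J → ℝ), XOK x → ∀ (κ : Fin N → Fin D.K) (lab : Fin N → Fin J),
      ∀ (l0 : Fin D.K) (j0 : Fin J),
      FL P D L k s x κ lab - C ≤ FL P' D L k s x (kc l0 κ) (Fin.cons j0 lab) ∧
      (Typ Ty (kc l0 κ) (Fin.cons j0 lab : Fin (N + 1) → Fin J) →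
        FL P' D L k s x (kc l0 κ) (Fin.cons j0 lab) ≤ FL P D L k s x κ lab + C) := by
  obtain ⟨C1, hC1, h1⟩ := coup_crude D J Km c₀ hKm hc₀
  obtain ⟨C2, hC2, h2⟩ := momL_M D J
  obtain ⟨C3, hC3, h3⟩ := momUC_M D J Ty hTy
  refine ⟨C1 * (2 * C2 + 2 * C3), by positivity, ?_⟩
  intro k hk N hN P P' hP hP' L hL s hs0 hs1 x hx κ lab l0 j0
  have hk' : (0 : ℝ) ≤ k := Nat.cast_nonneg k
  have hs : s ≤ 1 := by nlinarith
  have := prob_mC hP
  have hd : Dom (mC P) (βC (N := N)) := dom_mC hP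
  have hζ := exps_LB k
  set H : (Fin (k + 1) → EC N) → ℝ := fun ω => HN k (θL D L k s x κ lab) (b0 ω) with hHdef
  set H' : (Fin (k + 1) → EC N) → ℝ :=
    fun ω => HN k (θL' D L k s x κ lab l0 j0) (cp ω) with hH'def
  have hH : Ham (βC (N := N)) H := CavCr_ham_b0 (HN_ham k _)
  have hH' : Ham (βC (N := N)) H' := CavCr_ham_cp (HN_ham k _)
  have hU : Ham (βC (N := N)) (fun ω => Uc D L s x κ lab l0 j0 ω) := by
    have := hH'.add hd (hH.const_mul (-1))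
    have e : (fun ω => Uc D L s x κ lab l0 j0 ω) = fun ω => H' ω + -1 * H ω := by
      funext ω
      unfold Uc
      simp only [hHdef, hH'def]
      ring
    rw [e]
    exact this
  have hUn : Ham (βC (N := N)) (fun ω => -1 * Uc D L s x κ lab l0 j0 ω) := hU.const_mul (-1)
  -- the two values
  have eF : FL P D L k s x κ lab = nest (mC P) (ζLB k) (k + 1) 0 H := by
    unfold FL
    rw [← nest_b0 hP (ζLB k) (HN_ham k _).meas]
  have eF' : FL P' D L k s x (kc l0 κ) (Fin.cons j0 lab) =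
      nest (mC P) (ζLB k) (k + 1) 0 H' := by
    unfold FL
    rw [← nest_coup hP hP' (ζLB k) (HN_ham k _).meas]
    rfl
  have e1 : (fun ω => H ω + Uc D L s x κ lab l0 j0 ω) = H' := by
    funext ω
    simp only [hHdef, hH'def]
    unfold Uc
    ring
  have e2 : (fun ω => H' ω + -1 * Uc D L s x κ lab l0 j0 ω) = H := by
    funext ω
    simp only [hHdef, hH'def]
    unfold Uc
    ring
  -- tameness
  have hT := tame_pieces (N := N) (k := k) D x κ lab (fun _ => 0) l0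
  have tM1 : Tame (βC (N := N)) (fun ω : Fin (k + 1) → EC N => M1 D κ ω) := hT.1
  have tM2 : Tame (βC (N := N)) (fun ω : Fin (k + 1) → EC N => M2 D x κ ω) := hT.2.1
  have tsM2 : Tame (βC (N := N)) (fun ω : Fin (k + 1) → EC N => s * M2 D x κ ω) :=
    (Tame.const hd s).mul hd tM2
  have tS : Tame (βC (N := N)) (fun ω : Fin (k + 1) → EC N => M1 D κ ω + s * M2 D x κ ω) :=
    tM1.add hd tsM2
  have tCS : Tame (βC (N := N))
      (fun ω : Fin (k + 1) → EC N => C1 * (M1 D κ ω + s * M2 D x κ ω)) :=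
    (Tame.const hd C1).mul hd tS
  have tCSn : Tame (βC (N := N))
      (fun ω : Fin (k + 1) → EC N => -1 * (C1 * (M1 D κ ω + s * M2 D x κ ω))) :=
    (Tame.const hd (-1)).mul hd tCS
  have hpt : ∀ ω : Fin (k + 1) → EC N,
      |Uc D L s x κ lab l0 j0 ω| ≤ C1 * (M1 D κ ω + s * M2 D x κ ω) := fun ω =>
    h1 hN L hL.k0 hL.k1 hL.gm hL.c s hs0 hs x hx κ lab l0 j0 ω
  -- the upper bound of the moment expression in a tower
  have key : ∀ (G : (Fin (k + 1) → EC N) → ℝ), Ham (βC (N := N)) G → ∀ c : ℝ, 0 ≤ c →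
      pathE (mC P) (ζLB k) (k + 1) 0 G (fun ω => M1 D κ ω) ≤ c →
      pathE (mC P) (ζLB k) (k + 1) 0 G (fun ω => M2 D x κ ω) ≤ c * (1 + k) →
      pathE (mC P) (ζLB k) (k + 1) 0 G
        (fun ω => C1 * (M1 D κ ω + s * M2 D x κ ω)) ≤ C1 * (2 * c) := by
    intro G hG c hc g1 g2
    rw [pathE_mul, pathE_add hd hζ (k + 1) 0 hG tM1 tsM2, pathE_mul]
    refine mul_le_mul_of_nonneg_left ?_ hC1
    have h5 : s * pathE (mC P) (ζLB k) (k + 1) 0 G (fun ω => M2 D x κ ω) ≤ s * (c * (1 + k)) :=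
      mul_le_mul_of_nonneg_left g2 hs0
    have h6 : s * (c * (1 + k)) = c * (s * (1 + k)) := by ring
    have h7 : c * (s * (1 + k)) ≤ c * 1 := mul_le_mul_of_nonneg_left hs1 hc
    linarith
  let i0 : Fin k := ⟨0, hk⟩
  constructor
  · -- lower bound
    have ht := nest_tangent (m := mC P) hd hζ (k + 1) 0 hH hU
    rw [e1] at ht
    have hm := h2 hN hP L hk s hs0 hs x hx κ lab 0 0 i0 le_rfl zero_le_one
    have eH1 : H1 D L s x κ lab 0 0 i0 = H := by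
      funext ω
      simp only [hHdef]
      unfold H1
      ring
    unfold EH1 at hm
    rw [eH1] at hm
    simp only [abs_zero, mul_zero, Real.exp_zero, mul_one] at hm
    have hb := key H hH C2 hC2 hm.1 hm.2
    have hlow : pathE (mC P) (ζLB k) (k + 1) 0 H
        (fun ω => -1 * (C1 * (M1 D κ ω + s * M2 D x κ ω))) ≤
        pathE (mC P) (ζLB k) (k + 1) 0 H (fun ω => Uc D L s x κ lab l0 j0 ω) :=
      pathE_mono hd hζ (k + 1) 0 hH tCSn (hU.tame hd) fun ω => by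
        have := (abs_le.1 (hpt ω)).1
        linarith
    rw [pathE_mul] at hlow
    rw [eF, eF']
    have : 0 ≤ C1 * (2 * C3) := by positivity
    have : C1 * (2 * C2 + 2 * C3) = C1 * (2 * C2) + C1 * (2 * C3) := by ring
    linarith
  · intro hTyp
    have ht := nest_tangent (m := mC P) hd hζ (k + 1) 0 hH' hUn
    rw [e2] at ht
    have hm := h3 hN hP hP' L hk s hs0 hs x hx κ lab l0 j0 hTyp 0 0 i0 (by simp) le_rfl zero_le_one
    unfold EH2 at hm
    have eH2 : (fun ω : Fin (k + 1) → EC N =>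
        HN k (θL' D L k s x κ lab l0 j0) (cp ω) + Wf k 0 0 i0 (cp ω)) = H' := by
      funext ω
      simp only [hH'def]
      unfold Wf
      ring
    rw [eH2] at hm
    have hb := key H' hH' C3 hC3 hm.1 hm.2
    have hlow : pathE (mC P) (ζLB k) (k + 1) 0 H'
        (fun ω => -1 * (C1 * (M1 D κ ω + s * M2 D x κ ω))) ≤
        pathE (mC P) (ζLB k) (k + 1) 0 H' (fun ω => -1 * Uc D L s x κ lab l0 j0 ω) :=
      pathE_mono hd hζ (k + 1) 0 hH' tCSn (hUn.tame hd) fun ω => by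
        have := (abs_le.1 (hpt ω)).2
        linarith
    rw [pathE_mul] at hlow
    rw [eF, eF']
    have : 0 ≤ C1 * (2 * C2) := by positivity
    have : C1 * (2 * C2 + 2 * C3) = C1 * (2 * C2) + C1 * (2 * C3) := by ring
    linarith

end Crest.Agent.RI
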