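import Crest.Agent.RI.MomL

/-!
# Row 164, Part 8.3: moments in the coupled tower of the bigger system
-/

set_option autoImplicit false

namespace Crest.Agent.RI

open MeasureTheory ProbabilityTheory

variable {N K J k : ℕ}

/-- expectation in the coupled tower, Hamiltonian `H_{S'}(cp ω) + Wf(cp ω)` -/
noncomputable def EH2 (P : Measure (ON N)) (D : Blk) (L : LBd J) (k : ℕ) (s : ℝ)
    (x : XI k D.K J → ℝ) (κ : Fin N → Fin D.K) (lab : Fin N → Fin J) (l0 : Fin D.K) (j0 : Fin J)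
    (t v : ℝ) (i0 : Fin k) (Φ : (Fin (k + 1) → EC N) → ℝ) : ℝ :=
  pathE (mC P) (ζLB k) (k + 1) 0
    (fun ω => HN k (θL' D L k s x κ lab l0 j0) (cp ω) + Wf k t v i0 (cp ω)) Φ

/-! ### auxiliary lemmas -/

theorem MomUC_βN0 {n : ℕ} (x : EN n) : 0 ≤ βN x := by
  unfold βN
  positivity

theorem MomUC_βC0 (x : EC N) : 0 ≤ βC x := by
  unfold βC βC1 βX
  have := MomUC_βN0 x.1.1
  positivity

theorem MomUC_O_abs {n : ℕ} (O : ON n) (a r : Fin n) : |O.1 a r| ≤ 1 :=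
  IsO.abs_le O.2 a r

theorem MomUC_avec (ξ v : Fin (N + 1) → ℝ) (a : Fin (N + 1)) : |avec (cM ξ) v a| ≤ ∑ b, |v b| := by
  unfold avec
  refine (Finset.abs_sum_le_sum_abs _ _).trans (Finset.sum_le_sum fun b _ => ?_)
  rw [abs_mul]
  have h := IsO.abs_le (cM_isO ξ) a b
  have h2 := abs_nonneg (v b)
  nlinarith

theorem MomUC_βTc (e x : EC N) : βN (Tc e x) ≤ (N + 1) * βC x := by
  have h1 : ∑ a, |(Tc e x).2.1 a| = |x.2.1| + ∑ a, |x.1.1.2.1 a| := by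
    unfold Tc
    rw [Fin.sum_univ_succ]
    simp
  have h2 : ∑ b, |(Fin.cons x.1.2.2 x.1.1.2.2.1 : Fin (N + 1) → ℝ) b| =
      |x.1.2.2| + ∑ a, |x.1.1.2.2.1 a| := by
    rw [Fin.sum_univ_succ]
    simp
  have h3 : ∑ a, |(Tc e x).2.2.1 a| ≤ (N + 1) * (|x.1.2.2| + ∑ a, |x.1.1.2.2.1 a|) := by
    have : ∀ a ∈ (Finset.univ : Finset (Fin (N + 1))), |(Tc e x).2.2.1 a| ≤
        |x.1.2.2| + ∑ a, |x.1.1.2.2.1 a| := by
      intro a _
      have := MomUC_avec e.1.2.1 (Fin.cons x.1.2.2 x.1.1.2.2.1 : Fin (N + 1) → ℝ) a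
      rw [h2] at this
      exact this
    have h4 := Finset.sum_le_sum this
    rw [Finset.sum_const, Finset.card_univ, Fintype.card_fin, nsmul_eq_mul] at h4
    push_cast at h4
    exact h4
  unfold βN at *
  rw [h1]
  unfold βC βC1 βX βN
  have e1 : 0 ≤ ∑ a, |x.1.1.2.1 a| := by positivity
  have e2 : 0 ≤ ∑ a, |x.1.1.2.2.1 a| := by positivity
  have e3 : 0 ≤ |x.1.2.2| := by positivity
  have e4 : 0 ≤ ∑ a, |x.1.2.1 a| := by positivity
  have e5 : 0 ≤ |x.2.1| := by positivity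
  have e6 : (0 : ℝ) ≤ N := by positivity
  nlinarith [mul_nonneg e6 e1, mul_nonneg e6 e2, mul_nonneg e6 e3, mul_nonneg e6 e4,
    mul_nonneg e6 e5]

theorem MomUC_sum (ω : Fin (k + 1) → EC N) :
    ∑ i, βN (cp ω i) ≤ (N + 1) * ∑ i, βC (ω i) := by
  rw [Finset.mul_sum]
  exact Finset.sum_le_sum fun i _ => MomUC_βTc _ _

theorem MomUC_ham_cp {H : (Fin (k + 1) → EN (N + 1)) → ℝ} (h : Ham (βN (N := N + 1)) H) :
    Ham (βC (N := N)) (fun ω => H (cp ω)) := by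
  refine ⟨h.meas.comp measurable_cp, ?_⟩
  obtain ⟨C, hC, hb⟩ := h.bound
  refine ⟨C * (N + 1), by positivity, fun ω => (hb _).trans ?_⟩
  have h1 := MomUC_sum ω
  have e6 : (0 : ℝ) ≤ N := by positivity
  rw [mul_assoc]
  refine mul_le_mul_of_nonneg_left ?_ hC
  nlinarith

theorem MomUC_tame_cp {H : (Fin (k + 1) → EN (N + 1)) → ℝ} (h : Tame (βN (N := N + 1)) H) :
    Tame (βC (N := N)) (fun ω => H (cp ω)) := by
  refine ⟨h.meas.comp measurable_cp, ?_⟩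
  obtain ⟨C, hC, hb⟩ := h.bound
  refine ⟨C * (N + 1), by positivity, fun ω => (hb _).trans ?_⟩
  have h1 := MomUC_sum ω
  have e6 : (0 : ℝ) ≤ N := by positivity
  have h2 : Real.exp (C * ∑ i, βN (cp ω i)) ≤ Real.exp (C * (N + 1) * ∑ i, βC (ω i)) := by
    apply Real.exp_le_exp.mpr
    rw [mul_assoc]
    exact mul_le_mul_of_nonneg_left h1 hC
  refine mul_le_mul ?_ h2 (Real.exp_pos _).le (by positivity)
  nlinarith

theorem MomUC_meas_spin : Measurable spin := measurable_of_finite _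

theorem MomUC_ham_W (t v : ℝ) (i0 : Fin k) :
    Ham (βN (N := N + 1)) (Wf (N := N) k t v i0) := by
  constructor
  · unfold Wf cfg
    refine Measurable.mul ?_ (MomUC_meas_spin.comp ?_)
    · have h1 : Measurable (fun ω : Fin (k + 1) → EN (N + 1) => (ω i0.castSucc).2.1 0) :=
        (measurable_pi_apply 0).comp (measurable_snd.comp (measurable_pi_apply i0.castSucc)).fst
      exact measurable_const.add (measurable_const.mul h1)
    · exact (measurable_pi_apply 0).comp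
        (measurable_snd.comp (measurable_pi_apply (Fin.last k))).snd.snd
  · refine ⟨|t| + |v|, by positivity, fun ω => ?_⟩
    unfold Wf
    rw [abs_mul, abs_spin, mul_one]
    refine (abs_add_le _ _).trans ?_
    rw [abs_mul]
    have h1 : |(ω i0.castSucc).2.1 0| ≤ ∑ i, βN (ω i) := by
      have a1 : |(ω i0.castSucc).2.1 0| ≤ βN (ω i0.castSucc) := by
        unfold βN
        have := Finset.single_le_sum (f := fun a => |(ω i0.castSucc).2.1 a|)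
          (fun i _ => abs_nonneg _) (Finset.mem_univ 0)
        have h3 : 0 ≤ ∑ a, |(ω i0.castSucc).2.2.1 a| := by positivity
        linarith
      exact a1.trans (Finset.single_le_sum (f := fun i => βN (ω i))
        (fun i _ => MomUC_βN0 _) (Finset.mem_univ _))
    have h0 : 0 ≤ ∑ i, βN (ω i) := Finset.sum_nonneg fun i _ => MomUC_βN0 _
    have ht := abs_nonneg t
    have hv := abs_nonneg v
    nlinarith [mul_le_mul_of_nonneg_left h1 hv, mul_nonneg ht h0]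

theorem MomUC_ham_H (D : Blk) (L : LBd J) (s : ℝ) (x : XI k D.K J → ℝ) (κ : Fin N → Fin D.K)
    (lab : Fin N → Fin J) (l0 : Fin D.K) (j0 : Fin J) (t v : ℝ) (i0 : Fin k) :
    Ham (βN (N := N + 1))
      (fun ω => HN k (θL' D L k s x κ lab l0 j0) ω + Wf k t v i0 ω) :=
  Ham.add0 MomUC_βN0 (HN_ham k _) (MomUC_ham_W t v i0)

/-- `Wf (cp ω) = (t + v g^{i0}_0) ε` -/
theorem Wf_cp (t v : ℝ) (i0 : Fin k) (ω : Fin (k + 1) → EC N) :
    Wf k t v i0 (cp ω) = (t + v * (ω i0.castSucc).2.1) * ep ω := by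
  unfold Wf
  rw [cfg_coup]
  unfold cp Tc ep
  simp

/-- PROOF: `pathE_coup` -/
theorem EH2_cp {P : Measure (ON N)} (hP : HaarO P) {P' : Measure (ON (N + 1))} (hP' : HaarO P')
    (D : Blk) (L : LBd J) (s : ℝ) (x : XI k D.K J → ℝ) (κ : Fin N → Fin D.K)
    (lab : Fin N → Fin J) (l0 : Fin D.K) (j0 : Fin J) (t v : ℝ) (i0 : Fin k)
    {Φ : (Fin (k + 1) → EN (N + 1)) → ℝ} (hΦ : Measurable Φ) :
    EH2 P D L k s x κ lab l0 j0 t v i0 (fun ω => Φ (cp ω)) =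
      ELW P' D L k s x (kc l0 κ) (Fin.cons j0 lab) t v i0 Φ := by
  unfold EH2 ELW
  exact pathE_coup hP hP' (ζLB k) (MomUC_ham_H D L s x κ lab l0 j0 t v i0).meas hΦ

theorem MomUC_int_xi {P : Measure (ON N)} (hP : HaarO P) (F : (Fin (N + 1) → ℝ) → ℝ) :
    ∫ e, F e.1.2.1 ∂(mC P) = ∫ ξ, F ξ ∂(gvec (N + 1)) := by
  have := prob_mC1 hP
  have := prob_mN hP (unifA N)
  have h1 : ∫ e, F e.1.2.1 ∂(mC P) = ∫ y : EC1 N, F y.2.1 ∂(mC1 P) := by
    unfold mC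
    rw [integral_fun_fst (fun y : EC1 N => F y.2.1)]
    simp
  have h2 : ∫ y : EC1 N, F y.2.1 ∂(mC1 P) =
      ∫ p : (Fin (N + 1) → ℝ) × ℝ, F p.1 ∂((gvec (N + 1)).prod (gaussianReal 0 1)) := by
    unfold mC1
    rw [integral_fun_snd (fun p : (Fin (N + 1) → ℝ) × ℝ => F p.1)]
    simp
  rw [h1, h2, integral_fun_fst (fun ξ => F ξ)]
  simp

/-- level-0 functions -/
theorem EH2_xi {P : Measure (ON N)} (hP : HaarO P) (D : Blk) (L : LBd J) (hk : 0 < k) (s : ℝ)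
    (x : XI k D.K J → ℝ) (κ : Fin N → Fin D.K)
    (lab : Fin N → Fin J) (l0 : Fin D.K) (j0 : Fin J) (t v : ℝ) (i0 : Fin k)
    (F : (Fin (N + 1) → ℝ) → ℝ) :
    EH2 P D L k s x κ lab l0 j0 t v i0 (fun ω => F (xi ω)) = ∫ ξ, F ξ ∂(gvec (N + 1)) := by
  have := prob_mC hP
  unfold EH2
  have h0 : ζLB k 0 = 0 := by
    unfold ζLB
    simp
  have h1 := pathE_level0 (dom_mC hP) (exps_LB k) k 0 h0
    (MomUC_ham_cp (MomUC_ham_H D L s x κ lab l0 j0 t v i0)) (fun e : EC N => F e.1.2.1)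
  exact h1.trans (MomUC_int_xi hP F)

/-! ### good test functions of the bigger system -/

/-- tame, nonnegative, independent of the main field at the spin `0` -/
structure MomUC_Good (Φ : (Fin (k + 1) → EN (N + 1)) → ℝ) : Prop where
  tame : Tame (βN (N := N + 1)) Φ
  nonneg : ∀ ω, 0 ≤ Φ ω
  nog : NoG Φ

theorem MomUC_Good.add {Φ Ψ : (Fin (k + 1) → EN (N + 1)) → ℝ} {P' : Measure (ON (N + 1))}
    (hP' : HaarO P') (h : MomUC_Good Φ) (h' : MomUC_Good Ψ) :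
    MomUC_Good (fun ω => Φ ω + Ψ ω) := by
  have := prob_mN hP' (unifA (N + 1))
  exact ⟨Tame.add (dom_mN hP' (unifA (N + 1))) h.tame h'.tame,
    fun ω => add_nonneg (h.nonneg ω) (h'.nonneg ω),
    fun ω ω' hh => by rw [h.nog ω ω' hh, h'.nog ω ω' hh]⟩

theorem MomUC_Good.const {P' : Measure (ON (N + 1))} (hP' : HaarO P') {c : ℝ} (hc : 0 ≤ c) :
    MomUC_Good (fun _ : Fin (k + 1) → EN (N + 1) => c) := by
  have := prob_mN hP' (unifA (N + 1))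
  exact ⟨Tame.const (dom_mN hP' (unifA (N + 1))) c, fun _ => hc, fun _ _ _ => rfl⟩

theorem MomUC_Good.smul {Φ : (Fin (k + 1) → EN (N + 1)) → ℝ} {P' : Measure (ON (N + 1))}
    (hP' : HaarO P') {c : ℝ} (hc : 0 ≤ c) (h : MomUC_Good Φ) :
    MomUC_Good (fun ω => c * Φ ω) := by
  have := prob_mN hP' (unifA (N + 1))
  exact ⟨Tame.mul (dom_mN hP' (unifA (N + 1))) (Tame.const (dom_mN hP' (unifA (N + 1))) c) h.tame,
    fun ω => mul_nonneg hc (h.nonneg ω), fun ω ω' hh => by rw [h.nog ω ω' hh]⟩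

theorem MomUC_Good.sum {ι : Type} {P' : Measure (ON (N + 1))}
    (hP' : HaarO P') (s : Finset ι) {Φ : ι → (Fin (k + 1) → EN (N + 1)) → ℝ}
    (h : ∀ i, MomUC_Good (Φ i)) : MomUC_Good (fun ω => ∑ i ∈ s, Φ i ω) := by
  classical
  induction s using Finset.induction_on with
  | empty => simpa using MomUC_Good.const hP' le_rfl
  | insert a s ha ih =>
    have := MomUC_Good.add hP' (h a) ih
    simpa [Finset.sum_insert ha] using this

theorem MomUC_Good.sq {P' : Measure (ON (N + 1))} (hP' : HaarO P')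
    {Φ : (Fin (k + 1) → EN (N + 1)) → ℝ} (h : Tame (βN (N := N + 1)) Φ) (hn : NoG Φ) :
    MomUC_Good (fun ω => Φ ω ^ 2) := by
  have := prob_mN hP' (unifA (N + 1))
  refine ⟨?_, fun ω => sq_nonneg _, fun ω ω' hh => by rw [hn ω ω' hh]⟩
  have := Tame.mul (dom_mN hP' (unifA (N + 1))) h h
  simpa [pow_two] using this

theorem MomUC_Good.four {P' : Measure (ON (N + 1))} (hP' : HaarO P')
    {Φ : (Fin (k + 1) → EN (N + 1)) → ℝ} (h : Tame (βN (N := N + 1)) Φ) (hn : NoG Φ) :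
    MomUC_Good (fun ω => Φ ω ^ 4) := by
  have := prob_mN hP' (unifA (N + 1))
  refine ⟨?_, fun ω => by positivity, fun ω ω' hh => by rw [hn ω ω' hh]⟩
  have h2 := (MomUC_Good.sq hP' h hn).tame
  have := Tame.mul (dom_mN hP' (unifA (N + 1))) h2 h2
  have e : (fun ω => Φ ω ^ 2 * Φ ω ^ 2) = fun ω => Φ ω ^ 4 := by
    funext ω
    ring
  rwa [e] at this

/-! ### the pieces -/

theorem MomUC_nog_y (b : Fin (N + 1)) : NoG (fun ω : Fin (k + 1) → EN (N + 1) => yv k ω b) := by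
  intro ω ω' h
  show yv k ω b = yv k ω' b
  unfold yv
  rw [(h 0).1, (h (Fin.last k)).2]

theorem MomUC_nog_g (i : Fin k) (b : Fin (N + 1)) :
    NoG (fun ω : Fin (k + 1) → EN (N + 1) => (ω i.castSucc).2.2.1 b) := by
  intro ω ω' h
  show (ω i.castSucc).2.2.1 b = (ω' i.castSucc).2.2.1 b
  rw [(h i.castSucc).2]

theorem MomUC_nog_L {K : ℕ} (κ' : Fin (N + 1) → Fin K) (f : Fin K → ℝ) (r : Fin (N + 1)) :
    NoG (Lf (k := k) κ' f r) := by
  intro ω ω' h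
  unfold Lf yv
  rw [(h 0).1, (h (Fin.last k)).2]

theorem MomUC_nog_G {K : ℕ} (κ' : Fin (N + 1) → Fin K) (f : Fin K → ℝ) (i : Fin k)
    (r : Fin (N + 1)) : NoG (Gf (k := k) κ' f i r) := by
  intro ω ω' h
  unfold Gf
  rw [(h 0).1, (h i.castSucc).2]

theorem MomUC_meas_O {n : ℕ} (a r : Fin n) :
    Measurable (fun ω : Fin (k + 1) → EN n => (ω 0).1.1 a r) := by
  have h1 : Measurable (fun ω : Fin (k + 1) → EN n => (ω 0).1.1) :=
    measurable_subtype_coe.comp (measurable_fst.comp (measurable_pi_apply 0))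
  exact (measurable_pi_apply r).comp ((measurable_pi_apply a).comp h1)

theorem MomUC_meas_g {n : ℕ} (i : Fin (k + 1)) (b : Fin n) :
    Measurable (fun ω : Fin (k + 1) → EN n => (ω i).2.2.1 b) :=
  (measurable_pi_apply b).comp (measurable_snd.comp (measurable_pi_apply i)).snd.fst

theorem MomUC_g_le {n : ℕ} (i : Fin (k + 1)) (b : Fin n) (ω : Fin (k + 1) → EN n) :
    |(ω i).2.2.1 b| ≤ ∑ j, βN (ω j) := by
  have a1 : |(ω i).2.2.1 b| ≤ βN (ω i) := by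
    unfold βN
    have := Finset.single_le_sum (f := fun a => |(ω i).2.2.1 a|)
      (fun i _ => abs_nonneg _) (Finset.mem_univ b)
    have h3 : 0 ≤ ∑ a, |(ω i).2.1 a| := by positivity
    linarith
  exact a1.trans (Finset.single_le_sum (f := fun i => βN (ω i))
    (fun i _ => MomUC_βN0 _) (Finset.mem_univ _))

theorem MomUC_ham_y {n : ℕ} (b : Fin n) :
    Ham (βN (N := n)) (fun ω : Fin (k + 1) → EN n => yv k ω b) := by
  refine ⟨measurable_yv k b, n, by positivity, fun ω => (abs_yv_le k ω b).trans ?_⟩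
  have h0 : 0 ≤ ∑ i, βN (ω i) := Finset.sum_nonneg fun i _ => MomUC_βN0 _
  have h1 : (0 : ℝ) ≤ n := by positivity
  nlinarith

theorem MomUC_ham_g {n : ℕ} (i : Fin k) (b : Fin n) :
    Ham (βN (N := n)) (fun ω : Fin (k + 1) → EN n => (ω i.castSucc).2.2.1 b) := by
  refine ⟨MomUC_meas_g i.castSucc b, 1, by positivity, fun ω => ?_⟩
  have := MomUC_g_le i.castSucc b ω
  linarith

theorem MomUC_ham_L {n K : ℕ} (κ' : Fin n → Fin K) (f : Fin K → ℝ) (r : Fin n) :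
    Ham (βN (N := n)) (Lf (k := k) κ' f r) := by
  unfold Lf
  refine Ham.sum MomUC_βN0 _ fun a _ => ?_
  refine ⟨(measurable_const.mul (MomUC_meas_O a r)).mul (measurable_yv k a), |f (κ' a)| * n,
    by positivity, fun ω => ?_⟩
  rw [abs_mul, abs_mul]
  have h1 := MomUC_O_abs (ω 0).1 a r
  have h2 := abs_yv_le k ω a
  have h0 : 0 ≤ ∑ i, βN (ω i) := Finset.sum_nonneg fun i _ => MomUC_βN0 _
  have h3 : |f (κ' a)| * |(ω 0).1.1 a r| ≤ |f (κ' a)| := by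
    have := mul_le_mul_of_nonneg_left h1 (abs_nonneg (f (κ' a)))
    linarith
  have h4 : |f (κ' a)| * |(ω 0).1.1 a r| * |yv k ω a| ≤ |f (κ' a)| * n :=
    mul_le_mul h3 h2 (abs_nonneg _) (abs_nonneg _)
  have h5 : 0 ≤ |f (κ' a)| * n := by positivity
  nlinarith

theorem MomUC_ham_G {n K : ℕ} (κ' : Fin n → Fin K) (f : Fin K → ℝ) (i : Fin k) (r : Fin n) :
    Ham (βN (N := n)) (Gf (k := k) κ' f i r) := by
  unfold Gf
  refine Ham.sum MomUC_βN0 _ fun a _ => ?_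
  refine ⟨(measurable_const.mul (MomUC_meas_O a r)).mul (MomUC_meas_g i.castSucc a), |f (κ' a)|,
    by positivity, fun ω => ?_⟩
  rw [abs_mul, abs_mul]
  have h1 := MomUC_O_abs (ω 0).1 a r
  have h2 := MomUC_g_le i.castSucc a ω
  have h0 : 0 ≤ ∑ i, βN (ω i) := Finset.sum_nonneg fun i _ => MomUC_βN0 _
  have h3 : |f (κ' a)| * |(ω 0).1.1 a r| ≤ |f (κ' a)| := by
    have := mul_le_mul_of_nonneg_left h1 (abs_nonneg (f (κ' a)))
    linarith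
  have h4 : |f (κ' a)| * |(ω 0).1.1 a r| * |(ω i.castSucc).2.2.1 a| ≤
      |f (κ' a)| * ∑ j, βN (ω j) :=
    mul_le_mul h3 h2 (abs_nonneg _) (abs_nonneg _)
  have h5 := abs_nonneg (f (κ' a))
  nlinarith

/-! ### integration over the bigger system -/

theorem MomUC_le {P : Measure (ON N)} (hP : HaarO P) {P' : Measure (ON (N + 1))} (hP' : HaarO P')
    (D : Blk) (L : LBd J) (s : ℝ) (x : XI k D.K J → ℝ) (κ : Fin N → Fin D.K)
    (lab : Fin N → Fin J) (l0 : Fin D.K) (j0 : Fin J) {t v : ℝ} (ht : |t| ≤ 1) (hv0 : 0 ≤ v)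
    (hv1 : v ≤ 1) (i0 : Fin k) {Ψ : (Fin (k + 1) → EC N) → ℝ}
    (hΨ : Tame (βC (N := N)) Ψ) {Φ : (Fin (k + 1) → EN (N + 1)) → ℝ}
    (hΦ : MomUC_Good Φ) (h : ∀ ω, Ψ ω ≤ Φ (cp ω)) :
    EH2 P D L k s x κ lab l0 j0 t v i0 Ψ ≤
      400 * EL P' D L k s x (kc l0 κ) (Fin.cons j0 lab) Φ := by
  have := prob_mC hP
  have h1 : EH2 P D L k s x κ lab l0 j0 t v i0 Ψ ≤
      EH2 P D L k s x κ lab l0 j0 t v i0 (fun ω => Φ (cp ω)) :=
    pathE_mono (dom_mC hP) (exps_LB k) (k + 1) 0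
      (MomUC_ham_cp (MomUC_ham_H D L s x κ lab l0 j0 t v i0)) hΨ (MomUC_tame_cp hΦ.tame) h
  rw [EH2_cp hP hP' D L s x κ lab l0 j0 t v i0 hΦ.tame.meas] at h1
  exact h1.trans (ELW_le hP' D L s x (kc l0 κ) (Fin.cons j0 lab) ht hv0 hv1 i0 hΦ.tame
    hΦ.nonneg hΦ.nog)

theorem MomUC_EL_add {P' : Measure (ON (N + 1))} (hP' : HaarO P')
    (D : Blk) (L : LBd J) (s : ℝ) (x : XI k D.K J → ℝ) (κ : Fin (N + 1) → Fin D.K)
    (lab : Fin (N + 1) → Fin J) {Φ Ψ : (Fin (k + 1) → EN (N + 1)) → ℝ}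
    (hΦ : MomUC_Good Φ) (hΨ : MomUC_Good Ψ) :
    EL P' D L k s x κ lab (fun ω => Φ ω + Ψ ω) =
      EL P' D L k s x κ lab Φ + EL P' D L k s x κ lab Ψ := by
  have := prob_mN hP' (unifA (N + 1))
  exact pathE_add (dom_mN hP' (unifA (N + 1))) (exps_LB k) (k + 1) 0 (HN_ham k _) hΦ.tame hΨ.tame

theorem MomUC_EL_const {P' : Measure (ON (N + 1))} (hP' : HaarO P')
    (D : Blk) (L : LBd J) (s : ℝ) (x : XI k D.K J → ℝ) (κ : Fin (N + 1) → Fin D.K)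
    (lab : Fin (N + 1) → Fin J) (c : ℝ) :
    EL P' D L k s x κ lab (fun _ => c) = c := by
  have := prob_mN hP' (unifA (N + 1))
  exact pathE_const (dom_mN hP' (unifA (N + 1))) (exps_LB k) (k + 1) 0 (HN_ham k _) c

theorem MomUC_EL_mul {P' : Measure (ON (N + 1))} (hP' : HaarO P')
    (D : Blk) (L : LBd J) (s : ℝ) (x : XI k D.K J → ℝ) (κ : Fin (N + 1) → Fin D.K)
    (lab : Fin (N + 1) → Fin J) (c : ℝ) (Φ : (Fin (k + 1) → EN (N + 1)) → ℝ) :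
    EL P' D L k s x κ lab (fun ω => c * Φ ω) = c * EL P' D L k s x κ lab Φ := by
  have := prob_mN hP' (unifA (N + 1))
  exact pathE_mul (k + 1) 0 _ Φ c

theorem MomUC_EL_sum {ι : Type} {P' : Measure (ON (N + 1))} (hP' : HaarO P')
    (D : Blk) (L : LBd J) (s : ℝ) (x : XI k D.K J → ℝ) (κ : Fin (N + 1) → Fin D.K)
    (lab : Fin (N + 1) → Fin J) (S : Finset ι) {Φ : ι → (Fin (k + 1) → EN (N + 1)) → ℝ}
    (hΦ : ∀ i, MomUC_Good (Φ i)) :
    EL P' D L k s x κ lab (fun ω => ∑ i ∈ S, Φ i ω) = ∑ i ∈ S, EL P' D L k s x κ lab (Φ i) := by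
  classical
  induction S using Finset.induction_on with
  | empty => simpa using MomUC_EL_const hP' D L s x κ lab 0
  | insert a S ha ih =>
    rw [Finset.sum_insert ha, ← ih, ← MomUC_EL_add hP' D L s x κ lab (hΦ a)
      (MomUC_Good.sum hP' S hΦ)]
    simp only [Finset.sum_insert ha]

/-! ### pointwise bounds -/

theorem MomUC_r1 {a y : ℝ} (h : |a| ≤ |y| + 1) : a ^ 4 ≤ 8 * (y ^ 4 + 1) := by
  have h1 : a ^ 4 = |a| ^ 4 := by rw [← abs_pow, abs_of_nonneg (by positivity)]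
  have h2 : y ^ 4 = |y| ^ 4 := by rw [← abs_pow, abs_of_nonneg (by positivity)]
  rw [h1, h2]
  have h3 : |a| ^ 4 ≤ (|y| + 1) ^ 4 := pow_le_pow_left₀ (abs_nonneg a) h 4
  refine h3.trans ?_
  have h4 : (|y| + 1) ^ 2 ≤ 2 * (|y| ^ 2 + 1) := by nlinarith [sq_nonneg (|y| - 1)]
  have h5 : (|y| + 1) ^ 4 ≤ (2 * (|y| ^ 2 + 1)) ^ 2 := by
    have := pow_le_pow_left₀ (by positivity) h4 2
    calc (|y| + 1) ^ 4 = ((|y| + 1) ^ 2) ^ 2 := by ring
      _ ≤ _ := this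
  nlinarith [sq_nonneg (|y| ^ 2 - 1)]

theorem MomUC_r3 {a y : ℝ} (h : |a| ≤ |y| + 1) : a ^ 2 ≤ 2 * (y ^ 4 + 2) := by
  have h1 : a ^ 2 = |a| ^ 2 := (sq_abs a).symm
  have h2 : |a| ^ 2 ≤ (|y| + 1) ^ 2 := pow_le_pow_left₀ (abs_nonneg a) h 2
  have h4 : (|y| + 1) ^ 2 ≤ 2 * (|y| ^ 2 + 1) := by nlinarith [sq_nonneg (|y| - 1)]
  rw [h1]
  rw [sq_abs] at h4
  nlinarith [sq_nonneg (y ^ 2 - 1)]

theorem MomUC_r2 {a l y C : ℝ} (hC : 0 ≤ C) (h : |a| ≤ |l| + 3 * C * (|y| + 1)) :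
    a ^ 2 ≤ 2 * l ^ 2 + 36 * C ^ 2 * (y ^ 4 + 2) := by
  have h1 : a ^ 2 = |a| ^ 2 := (sq_abs a).symm
  have h2 : |a| ^ 2 ≤ (|l| + 3 * C * (|y| + 1)) ^ 2 := pow_le_pow_left₀ (abs_nonneg a) h 2
  have h3 : (|l| + 3 * C * (|y| + 1)) ^ 2 ≤ 2 * |l| ^ 2 + 18 * C ^ 2 * (|y| + 1) ^ 2 := by
    nlinarith [sq_nonneg (|l| - 3 * C * (|y| + 1))]
  have h4 : (|y| + 1) ^ 2 ≤ 2 * (y ^ 4 + 2) := by
    have : |(|y| + 1)| ≤ |y| + 1 := (abs_of_nonneg (by positivity)).le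
    exact MomUC_r3 this
  have h5 : 18 * C ^ 2 * (|y| + 1) ^ 2 ≤ 18 * C ^ 2 * (2 * (y ^ 4 + 2)) :=
    mul_le_mul_of_nonneg_left h4 (by positivity)
  rw [h1]
  rw [sq_abs l] at h3
  linarith

theorem MomUC_r4 {a b g e C : ℝ} (h : |a| ≤ |b| + 3 * C * (|g| + |e|)) :
    a ^ 2 ≤ 3 * b ^ 2 + 27 * C ^ 2 * (1 + g ^ 4) + 27 * C ^ 2 * e ^ 2 := by
  have h1 : a ^ 2 = |a| ^ 2 := (sq_abs a).symm
  have h2 : |a| ^ 2 ≤ (|b| + 3 * C * (|g| + |e|)) ^ 2 := pow_le_pow_left₀ (abs_nonneg a) h 2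
  have h3 : (|b| + 3 * C * (|g| + |e|)) ^ 2 ≤
      3 * |b| ^ 2 + 27 * C ^ 2 * |g| ^ 2 + 27 * C ^ 2 * |e| ^ 2 := by
    nlinarith [sq_nonneg (|b| - 3 * C * |g|), sq_nonneg (|b| - 3 * C * |e|),
      sq_nonneg (3 * C * |g| - 3 * C * |e|)]
  have h4 : 27 * C ^ 2 * g ^ 2 ≤ 27 * C ^ 2 * (1 + g ^ 4) :=
    mul_le_mul_of_nonneg_left (by nlinarith [sq_nonneg (g ^ 2 - 1), sq_nonneg (g ^ 2)])
      (by positivity)
  rw [h1]
  rw [sq_abs b, sq_abs g, sq_abs e] at h3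
  linarith

theorem MomUC_pt1 (D : Blk) (l0 : Fin D.K) (κ : Fin N → Fin D.K) {Dm : ℝ} (hD0 : 0 ≤ Dm)
    (hD : ∀ l, |D.d l| ≤ Dm) (ω : Fin (k + 1) → EC N) :
    M1 D κ ω ≤ ((9 + 72 * Dm ^ 2) + (8 + 36 * Dm ^ 2) * yv k (cp ω) 0 ^ 4) +
      2 * Lf (kc l0 κ) D.d 0 (cp ω) ^ 2 := by
  unfold M1
  have h1 := MomUC_r1 (Aw_one_le κ ω)
  have h2 := MomUC_r2 hD0 (Aw_le l0 κ D.d hD ω)
  linarith

theorem MomUC_pt2a (D : Blk) (x : XI k D.K J → ℝ) (hx : XOK x) (l0 : Fin D.K)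
    (κ : Fin N → Fin D.K) (ω : Fin (k + 1) → EC N) :
    1 + Aw κ (fun _ => 1) ω ^ 2 + Aw κ (fun l => x (Sum.inl l)) ω ^ 2 ≤
      (653 + 326 * yv k (cp ω) 0 ^ 4) +
      2 * Lf (kc l0 κ) (fun l => x (Sum.inl l)) 0 (cp ω) ^ 2 := by
  have hx3 : ∀ l, |(fun l => x (Sum.inl l)) l| ≤ 3 := fun l => by
    rw [abs_of_nonneg (hx _).1]
    exact (hx _).2
  have h1 := MomUC_r3 (Aw_one_le κ ω)
  have h2 := MomUC_r2 (by norm_num : (0 : ℝ) ≤ 3) (Aw_le l0 κ (fun l => x (Sum.inl l)) hx3 ω)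
  linarith

theorem MomUC_pt2b (D : Blk) (x : XI k D.K J → ℝ) (hx : XOK x) (l0 : Fin D.K)
    (κ : Fin N → Fin D.K) (i : Fin k) (ω : Fin (k + 1) → EC N) :
    1 + Aw κ (fun _ => 1) ω ^ 2 +
      Aw κ (fun l => x (Sum.inr (Sum.inr (i, l)))) ω ^ 2 + Gw κ (fun _ => 1) i ω ^ 2 +
      Gw κ (fun l => x (Sum.inr (Sum.inr (i, l)))) i ω ^ 2 + G0 i ω ^ 2 ≤
      ((((923 + 326 * yv k (cp ω) 0 ^ 4) +
      2 * Lf (kc l0 κ) (fun l => x (Sum.inr (Sum.inr (i, l)))) 0 (cp ω) ^ 2) +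
      274 * Gf (kc l0 κ) (fun _ => 1) i 0 (cp ω) ^ 2) +
      3 * Gf (kc l0 κ) (fun l => x (Sum.inr (Sum.inr (i, l)))) i 0 (cp ω) ^ 2) +
      270 * (cp ω i.castSucc).2.2.1 0 ^ 4 := by
  have hx3 : ∀ l, |(fun l => x (Sum.inr (Sum.inr (i, l)))) l| ≤ 3 := fun l => by
    rw [abs_of_nonneg (hx _).1]
    exact (hx _).2
  have h1 := MomUC_r3 (Aw_one_le κ ω)
  have h2 := MomUC_r2 (by norm_num : (0 : ℝ) ≤ 3)
    (Aw_le l0 κ (fun l => x (Sum.inr (Sum.inr (i, l)))) hx3 ω)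
  have h3 := MomUC_r4 (Gw_le (C := 1) l0 κ (fun _ => 1) (fun _ => by simp) i ω)
  have h4 := MomUC_r4 (Gw_le l0 κ (fun l => x (Sum.inr (Sum.inr (i, l)))) hx3 i ω)
  have h5 := G0_eq (kc l0 κ) i ω
  rw [h5]
  linarith

/-- MOMENTS.  PROOF: `Aw_one_le`, `Aw_le`, `G0_eq`, `Gw_le` (monotonicity), `EH2_cp`, `ELW_le`, `momU_y4`, `momU_L`, `momU_g4`, `momU_G`. -/
theorem momUC_M (D : Blk) (J : ℕ) (A₀ : ℝ) (hA : 0 ≤ A₀) : ∃ C : ℝ, 0 ≤ C ∧ ∀ {N k : ℕ}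
    {P : Measure (ON N)} {P' : Measure (ON (N + 1))}, 1 ≤ N → HaarO P → HaarO P' →
    ∀ (L : LBd J), 0 < k → ∀ (s : ℝ), 0 ≤ s → s ≤ 1 → ∀ (x : XI k D.K J → ℝ), XOK x →
    ∀ (κ : Fin N → Fin D.K) (lab : Fin N → Fin J) (l0 : Fin D.K) (j0 : Fin J),
    Typ A₀ (kc l0 κ) (Fin.cons j0 lab : Fin (N + 1) → Fin J) → ∀ (t v : ℝ) (i0 : Fin k), |t| ≤ 1 →
    0 ≤ v → v ≤ 1 →
      EH2 P D L k s x κ lab l0 j0 t v i0 (M1 D κ) ≤ C ∧
      EH2 P D L k s x κ lab l0 j0 t v i0 (M2 D x κ) ≤ C * (1 + k) := by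
  set Dm : ℝ := ∑ l, |D.d l| with hDm
  have hD0 : 0 ≤ Dm := Finset.sum_nonneg fun _ _ => abs_nonneg _
  have hD : ∀ l, |D.d l| ≤ Dm := fun l =>
    Finset.single_le_sum (f := fun l => |D.d l|) (fun _ _ => abs_nonneg _) (Finset.mem_univ l)
  obtain ⟨Cg, hCg, hg⟩ := momU_g4 Dm A₀ hA
  obtain ⟨CG, hCG, hG⟩ := momU_G Dm A₀ hA
  set C1 : ℝ := 9 + 72 * Dm ^ 2 + (8 + 36 * Dm ^ 2) * (3 * A₀ ^ 2) + 2 * (Dm ^ 2 * A₀) with hC1
  set C2 : ℝ := 923 + 326 * (3 * A₀ ^ 2) + 2 * (3 ^ 2 * A₀) + 274 * (CG * 1 ^ 2) +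
    3 * (CG * 3 ^ 2) + 270 * Cg with hC2
  have hC10 : 0 ≤ C1 := by positivity
  have hC20 : 0 ≤ C2 := by positivity
  refine ⟨400 * (C1 + C2), by positivity, ?_⟩
  intro N k P P' _ hP hP' L hk s hs0 hs1 x hx κ lab l0 j0 hT t v i0 ht hv0 hv1
  have hCOK : COK D Dm s x := ⟨hD, hs0, hs1, hx⟩
  have hy := momU_y4 hP' D L hk s x (kc l0 κ) (Fin.cons j0 lab) hT 0
  have gy : MomUC_Good (fun ω : Fin (k + 1) → EN (N + 1) => yv k ω 0 ^ 4) :=
    MomUC_Good.four hP' ((MomUC_ham_y 0).tame0 MomUC_βN0) (MomUC_nog_y 0)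
  have gL : ∀ f : Fin D.K → ℝ, MomUC_Good (fun ω : Fin (k + 1) → EN (N + 1) =>
      Lf (kc l0 κ) f 0 ω ^ 2) := fun f =>
    MomUC_Good.sq hP' ((MomUC_ham_L (kc l0 κ) f 0).tame0 MomUC_βN0) (MomUC_nog_L (kc l0 κ) f 0)
  have gG : ∀ (i : Fin k) (f : Fin D.K → ℝ), MomUC_Good (fun ω : Fin (k + 1) → EN (N + 1) =>
      Gf (kc l0 κ) f i 0 ω ^ 2) := fun i f =>
    MomUC_Good.sq hP' ((MomUC_ham_G (kc l0 κ) f i 0).tame0 MomUC_βN0)
      (MomUC_nog_G (kc l0 κ) f i 0)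
  have gg : ∀ i : Fin k, MomUC_Good (fun ω : Fin (k + 1) → EN (N + 1) =>
      (ω i.castSucc).2.2.1 0 ^ 4) := fun i =>
    MomUC_Good.four hP' ((MomUC_ham_g i 0).tame0 MomUC_βN0) (MomUC_nog_g i 0)
  have gc : ∀ c : ℝ, 0 ≤ c → MomUC_Good (fun _ : Fin (k + 1) → EN (N + 1) => c) := fun c hc =>
    MomUC_Good.const hP' hc
  have base : ∀ (c0 c1 : ℝ) (f : Fin D.K → ℝ) (Cf : ℝ), 0 ≤ c0 → 0 ≤ c1 → (∀ l, |f l| ≤ Cf) →
      MomUC_Good (fun ω : Fin (k + 1) → EN (N + 1) =>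
        (c0 + c1 * yv k ω 0 ^ 4) + 2 * Lf (kc l0 κ) f 0 ω ^ 2) ∧
      EL P' D L k s x (kc l0 κ) (Fin.cons j0 lab)
        (fun ω => (c0 + c1 * yv k ω 0 ^ 4) + 2 * Lf (kc l0 κ) f 0 ω ^ 2) ≤
        c0 + c1 * (3 * A₀ ^ 2) + 2 * (Cf ^ 2 * A₀) := by
    intro c0 c1 f Cf h0 h1 hf
    have g1 := (gc c0 h0).add hP' (gy.smul hP' h1)
    have g2 := (gL f).smul hP' (by norm_num : (0 : ℝ) ≤ 2)
    refine ⟨g1.add hP' g2, ?_⟩
    rw [MomUC_EL_add hP' D L s x (kc l0 κ) (Fin.cons j0 lab) g1 g2,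
      MomUC_EL_add hP' D L s x (kc l0 κ) (Fin.cons j0 lab) (gc c0 h0) (gy.smul hP' h1),
      MomUC_EL_const hP', MomUC_EL_mul hP', MomUC_EL_mul hP']
    have h3 := momU_L hP' D L s x (kc l0 κ) (Fin.cons j0 lab) hT f hf 0
    have h4 := mul_le_mul_of_nonneg_left hy h1
    linarith
  have tp := tame_pieces D x κ lab (fun _ => 0) l0
  constructor
  · obtain ⟨g, hE⟩ := base (9 + 72 * Dm ^ 2) (8 + 36 * Dm ^ 2) D.d Dm (by positivity)
      (by positivity) hD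
    have h1 := MomUC_le hP hP' D L s x κ lab l0 j0 ht hv0 hv1 i0 tp.1 g
      (fun ω => MomUC_pt1 D l0 κ hD0 hD ω)
    have h2 := mul_le_mul_of_nonneg_left hE (by norm_num : (0 : ℝ) ≤ 400)
    refine (h1.trans h2).trans ?_
    nlinarith
  · have hx3 : ∀ i, |x i| ≤ 3 := fun i => by
      rw [abs_of_nonneg (hx _).1]
      exact (hx _).2
    obtain ⟨ga, hEa⟩ := base 653 326 (fun l => x (Sum.inl l)) 3 (by norm_num) (by norm_num)
      (fun l => hx3 _)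
    have lev : ∀ i : Fin k, MomUC_Good (fun ω : Fin (k + 1) → EN (N + 1) =>
          ((((923 + 326 * yv k ω 0 ^ 4) +
          2 * Lf (kc l0 κ) (fun l => x (Sum.inr (Sum.inr (i, l)))) 0 ω ^ 2) +
          274 * Gf (kc l0 κ) (fun _ => 1) i 0 ω ^ 2) +
          3 * Gf (kc l0 κ) (fun l => x (Sum.inr (Sum.inr (i, l)))) i 0 ω ^ 2) +
          270 * (ω i.castSucc).2.2.1 0 ^ 4) ∧
        EL P' D L k s x (kc l0 κ) (Fin.cons j0 lab) (fun ω =>
          ((((923 + 326 * yv k ω 0 ^ 4) +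
          2 * Lf (kc l0 κ) (fun l => x (Sum.inr (Sum.inr (i, l)))) 0 ω ^ 2) +
          274 * Gf (kc l0 κ) (fun _ => 1) i 0 ω ^ 2) +
          3 * Gf (kc l0 κ) (fun l => x (Sum.inr (Sum.inr (i, l)))) i 0 ω ^ 2) +
          270 * (ω i.castSucc).2.2.1 0 ^ 4) ≤ C2 := by
      intro i
      obtain ⟨gb, hEb⟩ := base 923 326 (fun l => x (Sum.inr (Sum.inr (i, l)))) 3 (by norm_num)
        (by norm_num) (fun l => hx3 _)
      have g1 := (gG i (fun _ => 1)).smul hP' (by norm_num : (0 : ℝ) ≤ 274)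
      have g2 := (gG i (fun l => x (Sum.inr (Sum.inr (i, l))))).smul hP'
        (by norm_num : (0 : ℝ) ≤ 3)
      have g3 := (gg i).smul hP' (by norm_num : (0 : ℝ) ≤ 270)
      have s1 := gb.add hP' g1
      have s2 := s1.add hP' g2
      have s3 := s2.add hP' g3
      refine ⟨s3, ?_⟩
      rw [MomUC_EL_add hP' D L s x (kc l0 κ) (Fin.cons j0 lab) s2 g3,
        MomUC_EL_add hP' D L s x (kc l0 κ) (Fin.cons j0 lab) s1 g2,
        MomUC_EL_add hP' D L s x (kc l0 κ) (Fin.cons j0 lab) gb g1,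
        MomUC_EL_mul hP', MomUC_EL_mul hP', MomUC_EL_mul hP']
      have e1 := hG hP' D L hk s x hCOK (kc l0 κ) (Fin.cons j0 lab) hT i 0 (fun _ => 1) 1
        (fun _ => by simp)
      have e2 := hG hP' D L hk s x hCOK (kc l0 κ) (Fin.cons j0 lab) hT i 0
        (fun l => x (Sum.inr (Sum.inr (i, l)))) 3 (fun _ => hx3 _)
      have e3 := hg hP' D L hk s x hCOK (kc l0 κ) (Fin.cons j0 lab) hT i 0
      rw [hC2]
      linarith
    have gs := MomUC_Good.sum hP' (Finset.univ : Finset (Fin k)) (fun i => (lev i).1)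
    have h1 := MomUC_le hP hP' D L s x κ lab l0 j0 ht hv0 hv1 i0 tp.2.1 (ga.add hP' gs)
      (fun ω => by
        unfold M2
        exact add_le_add (MomUC_pt2a D x hx l0 κ ω)
          (Finset.sum_le_sum fun i _ => MomUC_pt2b D x hx l0 κ i ω))
    rw [MomUC_EL_add hP' D L s x (kc l0 κ) (Fin.cons j0 lab) ga gs,
      MomUC_EL_sum hP' D L s x (kc l0 κ) (Fin.cons j0 lab) Finset.univ
        (fun i => (lev i).1)] at h1
    have h3 : ∑ i : Fin k, EL P' D L k s x (kc l0 κ) (Fin.cons j0 lab) (fun ω =>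
          ((((923 + 326 * yv k ω 0 ^ 4) +
          2 * Lf (kc l0 κ) (fun l => x (Sum.inr (Sum.inr (i, l)))) 0 ω ^ 2) +
          274 * Gf (kc l0 κ) (fun _ => 1) i 0 ω ^ 2) +
          3 * Gf (kc l0 κ) (fun l => x (Sum.inr (Sum.inr (i, l)))) i 0 ω ^ 2) +
          270 * (ω i.castSucc).2.2.1 0 ^ 4) ≤ k * C2 := by
      have := Finset.sum_le_sum (s := (Finset.univ : Finset (Fin k))) fun i _ => (lev i).2
      simpa using this
    have h4 : 653 + 326 * (3 * A₀ ^ 2) + 2 * (3 ^ 2 * A₀) ≤ C2 := by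
      rw [hC2]
      nlinarith
    have hk0 : (0 : ℝ) ≤ k := by positivity
    nlinarith [mul_nonneg hk0 hC10, mul_nonneg hk0 hC20]

theorem MomUC_ptT (hN : 1 ≤ N) (lab : Fin N → Fin J) (j0 j : Fin J) (τ : ℝ)
    (ω : Fin (k + 1) → EC N) :
    |TJ lab j (cfg k (b0 ω)) / (N : ℝ) - τ| ≤
      |TJ (Fin.cons j0 lab : Fin (N + 1) → Fin J) j (cfg k (cp ω)) / ((N : ℝ) + 1) - τ| +
        2 / (N : ℝ) := by
  have hN0 : (1 : ℝ) ≤ N := by exact_mod_cast hN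
  rw [cfg_coup, TJ_cons]
  set T : ℝ := TJ lab j (cfg k (b0 ω)) with hT
  have hTa : |T| ≤ N := TJ_abs lab j _
  set δ : ℝ := if j = j0 then spin (ω (Fin.last k)).2.2 else 0 with hδ
  have hδa : |δ| ≤ 1 := by
    rw [hδ]
    split_ifs
    · rw [abs_spin]
    · simp
  have h1 : |T / (N : ℝ) - (T + δ) / ((N : ℝ) + 1)| ≤ 2 / (N : ℝ) := by
    have e : T / (N : ℝ) - (T + δ) / ((N : ℝ) + 1) = (T - N * δ) / (N * (N + 1)) := by
      field_simp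
      ring
    rw [e, abs_div, abs_of_pos (by positivity : (0 : ℝ) < N * (N + 1)),
      div_le_div_iff₀ (by positivity) (by positivity)]
    have h2 : |T - N * δ| ≤ 2 * N := by
      refine (abs_sub _ _).trans ?_
      rw [abs_mul, abs_of_nonneg (by positivity : (0 : ℝ) ≤ N)]
      nlinarith
    nlinarith [mul_le_mul_of_nonneg_right h2 (by positivity : (0 : ℝ) ≤ N)]
  have h3 : T / (N : ℝ) - τ = (T / (N : ℝ) - (T + δ) / ((N : ℝ) + 1)) +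
      ((T + δ) / ((N : ℝ) + 1) - τ) := by ring
  rw [h3]
  refine (abs_add_le _ _).trans ?_
  linarith

/-- magnetisations: `|T_j(b0)/N - T'_j/(N+1)| ≤ 2/N` -/
theorem momUC_T {P : Measure (ON N)} (hP : HaarO P) {P' : Measure (ON (N + 1))} (hP' : HaarO P')
    (hN : 1 ≤ N) (D : Blk) (L : LBd J) (s : ℝ) (x : XI k D.K J → ℝ) (κ : Fin N → Fin D.K)
    (lab : Fin N → Fin J) (l0 : Fin D.K) (j0 : Fin J) {t v : ℝ} (ht : |t| ≤ 1) (hv0 : 0 ≤ v)
    (hv1 : v ≤ 1) (i0 : Fin k) (τ : Fin J → ℝ) :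
    EH2 P D L k s x κ lab l0 j0 t v i0 (Tdev lab τ) ≤
      400 * ∑ j, EL P' D L k s x (kc l0 κ) (Fin.cons j0 lab)
        (fun ω => |TJ (Fin.cons j0 lab : Fin (N + 1) → Fin J) j (cfg k ω) / ((N : ℝ) + 1) - τ j|) +
      2 * J / (N : ℝ) := by
  have := prob_mC hP
  have := prob_mN hP' (unifA (N + 1))
  have good : ∀ j, MomUC_Good (fun ω : Fin (k + 1) → EN (N + 1) =>
      |TJ (Fin.cons j0 lab : Fin (N + 1) → Fin J) j (cfg k ω) / ((N : ℝ) + 1) - τ j|) := by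
    intro j
    have hm : Measurable (fun σ : Fin (N + 1) → Bool =>
        |TJ (Fin.cons j0 lab : Fin (N + 1) → Fin J) j σ / ((N : ℝ) + 1) - τ j|) :=
      measurable_of_finite _
    have hc : Measurable (fun ω : Fin (k + 1) → EN (N + 1) => cfg k ω) := by
      unfold cfg
      exact (measurable_snd.comp (measurable_pi_apply (Fin.last k))).snd.snd
    refine ⟨Ham.tame0 MomUC_βN0 ⟨hm.comp hc, 1 + |τ j|, by positivity, fun ω => ?_⟩,
      fun ω => abs_nonneg _, fun ω ω' h => ?_⟩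
    · have h1 := TJ_abs (Fin.cons j0 lab : Fin (N + 1) → Fin J) j (cfg k ω)
      have h2 : |TJ (Fin.cons j0 lab : Fin (N + 1) → Fin J) j (cfg k ω) / ((N : ℝ) + 1)| ≤ 1 := by
        rw [abs_div, abs_of_pos (by positivity : (0 : ℝ) < (N : ℝ) + 1),
          div_le_one (by positivity)]
        push_cast at h1
        exact h1
      have h3 := abs_sub (TJ (Fin.cons j0 lab : Fin (N + 1) → Fin J) j (cfg k ω) /
        ((N : ℝ) + 1)) (τ j)
      have h0 : 0 ≤ ∑ i, βN (ω i) := Finset.sum_nonneg fun i _ => MomUC_βN0 _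
      show |(|TJ (Fin.cons j0 lab : Fin (N + 1) → Fin J) j (cfg k ω) / ((N : ℝ) + 1) - τ j|)| ≤ _
      rw [abs_abs]
      have h4 := abs_nonneg (τ j)
      nlinarith [mul_nonneg (add_nonneg zero_le_one h4) h0]
    · have : cfg k ω = cfg k ω' := by
        unfold cfg
        rw [(h (Fin.last k)).2]
      show |TJ (Fin.cons j0 lab : Fin (N + 1) → Fin J) j (cfg k ω) / ((N : ℝ) + 1) - τ j| =
        |TJ (Fin.cons j0 lab : Fin (N + 1) → Fin J) j (cfg k ω') / ((N : ℝ) + 1) - τ j|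
      rw [this]
  have gs := MomUC_Good.sum hP' (Finset.univ : Finset (Fin J)) good
  have hH := MomUC_ham_cp (MomUC_ham_H D L s x κ lab l0 j0 t v i0)
  have h1 : EH2 P D L k s x κ lab l0 j0 t v i0 (Tdev lab τ) ≤
      EH2 P D L k s x κ lab l0 j0 t v i0 (fun ω =>
        (∑ j, |TJ (Fin.cons j0 lab : Fin (N + 1) → Fin J) j (cfg k (cp ω)) / ((N : ℝ) + 1) - τ j|)
          + 2 * J / (N : ℝ)) := by
    refine pathE_mono (dom_mC hP) (exps_LB k) (k + 1) 0 hH (tame_pieces D x κ lab τ l0).2.2.1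
      (Tame.add (dom_mC hP) (MomUC_tame_cp gs.tame) (Tame.const (dom_mC hP) _)) fun ω => ?_
    have e : ∑ j : Fin J, (2 / (N : ℝ)) = 2 * J / (N : ℝ) := by
      simp
      ring
    rw [← e, ← Finset.sum_add_distrib]
    exact Finset.sum_le_sum fun j _ => MomUC_ptT hN lab j0 j (τ j) ω
  refine h1.trans ?_
  have h2 : EH2 P D L k s x κ lab l0 j0 t v i0 (fun ω =>
        (∑ j, |TJ (Fin.cons j0 lab : Fin (N + 1) → Fin J) j (cfg k (cp ω)) / ((N : ℝ) + 1) - τ j|)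
          + 2 * J / (N : ℝ)) =
      EH2 P D L k s x κ lab l0 j0 t v i0 (fun ω =>
        (∑ j, |TJ (Fin.cons j0 lab : Fin (N + 1) → Fin J) j (cfg k (cp ω)) / ((N : ℝ) + 1) - τ j|))
          + 2 * J / (N : ℝ) := by
    unfold EH2
    rw [pathE_add (dom_mC hP) (exps_LB k) (k + 1) 0 hH (MomUC_tame_cp gs.tame)
      (Tame.const (dom_mC hP) _), pathE_const (dom_mC hP) (exps_LB k) (k + 1) 0 hH]
  rw [h2]
  have h3 := MomUC_le hP hP' D L s x κ lab l0 j0 ht hv0 hv1 i0 (MomUC_tame_cp gs.tame) gs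
    (fun ω => le_rfl)
  rw [MomUC_EL_sum hP' D L s x (kc l0 κ) (Fin.cons j0 lab) Finset.univ good] at h3
  exact add_le_add h3 le_rfl

end Crest.Agent.RI
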