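import Crest.Agent.RI.MidD
import Crest.Agent.RI.MomUC

/-!
# Row 164, Part 8.2: admissible data, the coupled form of `FLW`
-/

set_option autoImplicit false

namespace Crest.Agent.RI

open MeasureTheory ProbabilityTheory

variable {N K J k : ℕ}

/-- admissible magnetic data -/
structure LOK (L : LBd J) (Km c₀ : ℝ) : Prop where
  k0 : 0 ≤ L.kap
  k1 : L.kap ≤ Km
  gm : ∀ j, |L.γ j * L.m j| ≤ 1
  c : ∀ j, |L.c j| ≤ c₀

/-- (a) `FLW = nest (H_S∘b0 + Uc + W)` on the coupled tower.  PROOF: `nest_coup`, `Wf_cp`. -/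
theorem FLW_coup {P : Measure (ON N)} (hP : HaarO P) {P' : Measure (ON (N + 1))} (hP' : HaarO P')
    (D : Blk) (L : LBd J) (s : ℝ) (x : XI k D.K J → ℝ) (κ : Fin N → Fin D.K)
    (lab : Fin N → Fin J) (l0 : Fin D.K) (j0 : Fin J) (t v : ℝ) (i0 : Fin k) :
    FLW P' D L k s x (kc l0 κ) (Fin.cons j0 lab) t v i0 =
      nest (mC P) (ζLB k) (k + 1) 0 (fun ω => HN k (θL' D L k s x κ lab l0 j0) (cp ω) +
        Wf k t v i0 (cp ω)) := by
  have hW : Measurable (fun ω : Fin (k + 1) → EN (N + 1) => Wf k t v i0 ω) := by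
    unfold Wf cfg
    have h1 : Measurable (fun ω : Fin (k + 1) → EN (N + 1) => (ω i0.castSucc).2.1 0) :=
      (measurable_pi_apply 0).comp ((measurable_fst.comp measurable_snd).comp
        (measurable_pi_apply i0.castSucc))
    have h2 : Measurable (fun ω : Fin (k + 1) → EN (N + 1) =>
        spin ((ω (Fin.last k)).2.2.2 0)) :=
      (measurable_of_countable spin).comp ((measurable_pi_apply 0).comp
        ((measurable_snd.comp (measurable_snd.comp measurable_snd)).comp
          (measurable_pi_apply (Fin.last k))))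
    exact ((h1.const_mul v).const_add t).mul h2
  exact (nest_coup hP hP' (ζLB k) (H := fun ω => HN k (θL' D L k s x κ lab l0 j0) ω +
    Wf k t v i0 ω) ((HN_ham k _).meas.add hW)).symm

end Crest.Agent.RI
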