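import Crest.Agent.RI.MidD

/-!
# Row 164, Part 8.4: independent towers at the second field
-/

set_option autoImplicit false

namespace Crest.Agent.RI

open MeasureTheory ProbabilityTheory

variable {N K J k : ℕ}

theorem MidB_one (c : ℝ) : Integrable (fun x : ℝ => Real.exp (c * |x|)) (gaussianReal 0 1) :=
  integrable_exp_mul_abs (X := fun x : ℝ => x) (t := c)
    (integrable_exp_mul_gaussianReal c) (integrable_exp_mul_gaussianReal (-c))

theorem MidB_dg (n : ℕ) : Dom (gvec n) (fun x : Fin n → ℝ => ∑ a, |x a|) where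
  meas := by fun_prop
  nonneg := fun x => by positivity
  int := fun c => by
    have h := Integrable.fintype_prod (ι := Fin n) (E := ℝ) (𝕜 := ℝ)
      (f := fun _ x => Real.exp (c * |x|)) (μ := fun _ => gaussianReal 0 1) (fun _ => MidB_one c)
    have e : (fun x : Fin n → ℝ => ∏ i, Real.exp (c * |x i|)) =
        fun x : Fin n → ℝ => Real.exp (c * ∑ a, |x a|) := by
      funext x
      rw [← Real.exp_sum, Finset.mul_sum]
    rw [e] at h
    exact h

instance MidB_prob_mT (K : ℕ) : IsProbabilityMeasure (mT K) := by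
  unfold mT; infer_instance

theorem MidB_dom_mT (K : ℕ) : Dom (mT K) (βT (K := K)) where
  meas := by unfold βT; fun_prop
  nonneg := fun x => by unfold βT; positivity
  int := fun c => by
    refine (((MidB_dg K).int c).mul_prod (dom_mX.int c)).congr
      (Filter.Eventually.of_forall (fun p => ?_))
    simp only
    rw [← Real.exp_add]
    congr 1
    unfold βT βX
    ring

theorem MidB_T_mp {P : Measure (ON N)} (hP : HaarO P) (K : ℕ) :
    MeasurePreserving (fun x : E2 (EM N) N K => ((x.1.1, (x.2.2, x.1.2)) : EN N × ET K))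
      (m2 (mM P) N K) ((mN P (unifA N)).prod (mT K)) := by
  have := prob_mN hP (unifA N)
  have s1 : MeasurePreserving
      (Prod.map (id : EM N → EM N) (Prod.snd : (Fin N → ℝ) × (Fin K → ℝ) → (Fin K → ℝ)))
      ((mM P).prod ((gvec N).prod (gvec K))) ((mM P).prod (gvec K)) := by
    have : IsProbabilityMeasure (mM P) := by unfold mM; infer_instance
    exact (MeasurePreserving.id _).prod measurePreserving_snd
  have s2 := measurePreserving_prodAssoc (mN P (unifA N)) mX (gvec K)
  have s3 : MeasurePreserving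
      (Prod.map (id : EN N → EN N) (Prod.swap : (ℝ × Bool) × (Fin K → ℝ) → _))
      ((mN P (unifA N)).prod (mX.prod (gvec K))) ((mN P (unifA N)).prod ((gvec K).prod mX)) :=
    (MeasurePreserving.id _).prod Measure.measurePreserving_swap
  exact (s3.comp s2).comp s1

theorem MidB_measurable_spin : Measurable spin := measurable_of_countable spin

theorem MidB_meas_DInf (D : Blk) (l0 : Fin D.K) :
    Measurable (fun p : (Fin D.K → ℝ) × ℝ => DInf D l0 p.1 p.2) := by
  unfold DInf DI
  fun_prop

theorem MidB_ham_HT (D : Blk) (l0 : Fin D.K) {A : ℝ} (hA : 0 ≤ A) (b v : ℝ) (i0 : Fin k)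
    (r : ℕ → Fin D.K → ℝ) : Ham (βT (K := D.K)) (HT D l0 A b v i0 r) := by
  refine ⟨?_, A + |b| + |v|, by positivity, fun ω => ?_⟩
  · have h1 : Measurable (fun ω : Fin (k + 1) → ET D.K => zT r ω) := by
      unfold zT
      fun_prop
    have h2 : Measurable (fun ω : Fin (k + 1) → ET D.K => epT ω) := by
      unfold epT
      exact MidB_measurable_spin.comp (by fun_prop)
    have h3 : Measurable (fun ω : Fin (k + 1) → ET D.K => DInf D l0 (zT r ω) (epT ω)) :=
      (MidB_meas_DInf D l0).comp (h1.prodMk h2)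
    have h4 := (measurable_chi A).1.comp h3
    unfold HT
    refine h4.add (Measurable.mul ?_ h2)
    fun_prop
  · have h1 : |chi A (DInf D l0 (zT r ω) (epT ω))| ≤ A := chi_abs hA _
    have h2 : |epT ω| = 1 := abs_spin _
    have h3 : |(ω i0.castSucc).2.1| ≤ ∑ i, βT (ω i) := by
      have h4 : |(ω i0.castSucc).2.1| ≤ βT (ω i0.castSucc) := by
        have : 0 ≤ ∑ l, |(ω i0.castSucc).1 l| := Finset.sum_nonneg fun _ _ => abs_nonneg _
        unfold βT
        linarith
      refine h4.trans ?_
      exact Finset.single_le_sum (f := fun i => βT (ω i))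
        (fun i _ => (MidB_dom_mT D.K).nonneg (ω i)) (Finset.mem_univ _)
    have h5 : 0 ≤ ∑ i, βT (ω i) := (abs_nonneg _).trans h3
    unfold HT
    calc |chi A (DInf D l0 (zT r ω) (epT ω)) + (b + v * (ω i0.castSucc).2.1) * epT ω|
        ≤ |chi A (DInf D l0 (zT r ω) (epT ω))| + |(b + v * (ω i0.castSucc).2.1) * epT ω| :=
          abs_add_le _ _
      _ ≤ A + (|b| + |v| * |(ω i0.castSucc).2.1|) := by
          rw [abs_mul, h2, mul_one, ← abs_mul]
          exact add_le_add h1 (abs_add_le _ _)
      _ ≤ A + (|b| + |v| * ∑ i, βT (ω i)) := by gcongr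
      _ ≤ (A + |b| + |v|) * (1 + ∑ i, βT (ω i)) := by
          nlinarith [mul_nonneg hA h5, mul_nonneg (abs_nonneg b) h5, abs_nonneg v]

/-- (b) at the field `z2` the tower is a sum of independent towers.  PROOF: measure preserving rearrangement
`E2 (EM N) N K = (EN N × (ℝ × Bool)) × (Fin N → ℝ) × (Fin K → ℝ) → EN N × ET K`, `nest_map`, `nest_indep`. -/
theorem nest_z2 {P : Measure (ON N)} (hP : HaarO P) (D : Blk) (L : LBd J) (s : ℝ)
    (x : XI k D.K J → ℝ) (κ : Fin N → Fin D.K) (lab : Fin N → Fin J) (l0 : Fin D.K)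
    {A : ℝ} (hA : 0 ≤ A) (b v : ℝ) (i0 : Fin k) (r : ℕ → Fin D.K → ℝ) :
    nest (m2 (mM P) N D.K) (ζLB k) (k + 1) 0 (fun ω => HM D L s x κ lab b v i0 (bp ω) +
        UM D l0 A (z2 r ω) (bp ω)) =
      FL P D L k s x κ lab + TTA D l0 A b v i0 r := by
  have := prob_mN hP (unifA N)
  have : IsProbabilityMeasure (mM P) := by unfold mM; infer_instance
  have : IsProbabilityMeasure (m2 (mM P) N D.K) := by unfold m2; infer_instance
  have hβ := dom_mN hP (unifA N)
  have hH := HN_ham k (θL D L k s x κ lab)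
  have hH' := MidB_ham_HT (k := k) D l0 hA b v i0 r
  have h1 := nest_indep hβ (MidB_dom_mT D.K) (exps_LB k) (k + 1) 0 hH hH'
  have hm : Measurable (fun ω : Fin (k + 1) → EN N × ET D.K =>
      HN k (θL D L k s x κ lab) (fun j => (ω j).1) + HT D l0 A b v i0 r (fun j => (ω j).2)) := by
    refine Measurable.add ?_ ?_
    · exact hH.meas.comp (by fun_prop)
    · exact hH'.meas.comp (by fun_prop)
  have h2 := nest_map (ζ := ζLB k) (MidB_T_mp hP D.K) (k + 1) 0 hm
  unfold FL TTA
  rw [← h1, ← h2]
  congr 1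
  funext ω
  unfold HM UM HT bp z2 epT zT
  ring

end Crest.Agent.RI
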