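import Crest.Agent.RI.MidD

/-!
# Row 164, Part 8.4: the decoupling error
-/

set_option autoImplicit false

namespace Crest.Agent.RI

open MeasureTheory ProbabilityTheory

variable {N K J k : ℕ}

theorem MidC_cv (κ : Fin N → Fin K) (l : Fin K) (ω ω' : Fin (k + 1) → EM N) :
    cv κ (qM (N := N) (k := k)) l ω ω' =
      ovl k κ l (fun j => (ω j).1) (fun j => (ω' j).1) := by
  unfold cv qM ovl
  rw [Finset.mul_sum]
  refine Finset.sum_congr rfl fun a _ => ?_
  split_ifs
  · have h1 : (Real.sqrt N)⁻¹ * (Real.sqrt N)⁻¹ = 1 / (N : ℝ) := by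
      rw [← mul_inv, Real.mul_self_sqrt (Nat.cast_nonneg N), one_div]
    rw [← h1]
    ring
  · rw [mul_zero]

theorem MidC_ham (b v : ℝ) (i0 : Fin k) : Ham βX
    (fun ω : Fin (k + 1) → ℝ × Bool => (b + v * (ω i0.castSucc).1) * spin (ω (Fin.last k)).2) := by
  have hs : Measurable spin := measurable_of_countable spin
  refine ⟨?_, |b| + |v|, by positivity, fun ω => ?_⟩
  · exact ((((measurable_fst.comp (measurable_pi_apply i0.castSucc)).const_mul v).const_add b)).mul
      (hs.comp (measurable_snd.comp (measurable_pi_apply (Fin.last k))))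
  · rw [abs_mul, abs_spin, mul_one]
    have h1 : βX (ω i0.castSucc) ≤ ∑ i, βX (ω i) :=
      Finset.single_le_sum (f := fun i => βX (ω i)) (fun i _ => abs_nonneg _) (Finset.mem_univ _)
    have h2 : |(ω i0.castSucc).1| ≤ ∑ i, βX (ω i) := h1
    have h3 : 0 ≤ ∑ i, βX (ω i) := Finset.sum_nonneg fun i _ => abs_nonneg _
    calc |b + v * (ω i0.castSucc).1| ≤ |b| + |v| * |(ω i0.castSucc).1| := by
          rw [← abs_mul]; exact abs_add_le _ _
      _ ≤ |b| + |v| * ∑ i, βX (ω i) :=
          add_le_add le_rfl (mul_le_mul_of_nonneg_left h2 (abs_nonneg v))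
      _ ≤ (|b| + |v|) * (1 + ∑ i, βX (ω i)) := by
          have := mul_nonneg (abs_nonneg b) h3
          have := abs_nonneg v
          nlinarith

theorem MidC_tame2 (κ : Fin N → Fin K) (l : Fin K) (c : ℝ) :
    Tame2 (βN (N := N)) (fun ω ω' : Fin (k + 1) → EN N => |ovl k κ l ω ω' - c|) := by
  refine ⟨measurable_abs.comp ((measurable_ovl k κ l).sub_const c), 1 + |c|, by positivity,
    fun ω ω' => ?_⟩
  have hβ : ∀ x : EN N, 0 ≤ βN x := fun x => by unfold βN; positivity
  have h1 : |(|ovl k κ l ω ω' - c|)| ≤ 1 + |c| := by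
    rw [abs_abs]
    exact (abs_sub _ _).trans (add_le_add (abs_ovl_le k κ l ω ω') le_rfl)
  refine h1.trans (le_mul_of_one_le_right (by positivity) (Real.one_le_exp ?_))
  have : 0 ≤ ∑ i, (βN (ω i) + βN (ω' i)) := Finset.sum_nonneg fun i _ => add_nonneg (hβ _) (hβ _)
  positivity

theorem MidC_tame (κ : Fin N → Fin K) (l : Fin K) (c : ℝ) :
    Tame (βN (N := N)) (fun ω : Fin (k + 1) → EN N => |ovl k κ l ω ω - c|) := by
  have hm0 : Measurable (fun ω : Fin (k + 1) → EN N => (ω, ω)) :=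
    Measurable.prodMk measurable_id measurable_id
  have hm : Measurable (fun ω : Fin (k + 1) → EN N => ovl k κ l ω ω) :=
    Measurable.comp (g := fun x : (Fin (k + 1) → EN N) × (Fin (k + 1) → EN N) =>
      ovl k κ l x.1 x.2) (f := fun ω => (ω, ω)) (measurable_ovl k κ l) hm0
  refine ⟨measurable_abs.comp (hm.sub_const c), 1 + |c|, by positivity, fun ω => ?_⟩
  have hβ : ∀ x : EN N, 0 ≤ βN x := fun x => by unfold βN; positivity
  have h1 : |(|ovl k κ l ω ω - c|)| ≤ 1 + |c| := by
    rw [abs_abs]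
    exact (abs_sub _ _).trans (add_le_add (abs_ovl_le k κ l ω ω) le_rfl)
  refine h1.trans (le_mul_of_one_le_right (by positivity) (Real.one_le_exp ?_))
  have : 0 ≤ ∑ i, βN (ω i) := Finset.sum_nonneg fun i _ => hβ _
  positivity

/-- (c) the decoupling error is `errS`.  PROOF: `cv κ qM l = ovl k κ l` of the system paths; `pathE_indep_fst`, `pairE_indep_fst`; `ζ_{j+1} - ζ_j = 1/k`. -/
theorem decS_eq {P : Measure (ON N)} (hP : HaarO P) (hN : 1 ≤ N) (hk : 0 < k) (D : Blk)
    (L : LBd J) (s : ℝ) (x : XI k D.K J → ℝ) (κ : Fin N → Fin D.K) (lab : Fin N → Fin J)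
    (b v : ℝ) (i0 : Fin k) (r : ℕ → Fin D.K → ℝ) :
    decS (mM P) (ζLB k) (HM D L s x κ lab b v i0) κ (qM (N := N) (k := k)) r =
      errS P D L k s x κ lab r := by
  have i1 : IsProbabilityMeasure (mN P (unifA N)) := prob_mN hP (unifA N)
  have hβ : Dom (mN P (unifA N)) (βN (N := N)) := dom_mN hP (unifA N)
  have hζ : Exps (ζLB k) := exps_LB k
  have hH : Ham (βN (N := N)) (HN k (θL D L k s x κ lab)) := HN_ham k _
  have hH' := MidC_ham b v i0
  unfold decS errS EL EL2 HM
  congr 1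
  · refine Finset.sum_congr rfl fun l _ => ?_
    have h1 := pathE_indep_fst hβ dom_mX hζ (k + 1) 0 hH hH' (MidC_tame κ l (c2 r k l))
    simp only [MidC_cv]
    exact h1
  · refine Finset.sum_congr rfl fun j hj => ?_
    have hj' := Finset.mem_range.1 hj
    have hk' : (0 : ℝ) < k := by exact_mod_cast hk
    have hz : ζLB k (j + 1) - ζLB k j = 1 / (k : ℝ) := by
      unfold ζLB
      rw [min_eq_right, min_eq_right]
      · push_cast; field_simp; ring
      · rw [div_le_one hk']; exact_mod_cast hj'.le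
      · rw [div_le_one hk']; exact_mod_cast hj'
    rw [hz]
    congr 1
    refine Finset.sum_congr rfl fun l _ => ?_
    have h1 := pairE_indep_fst hβ dom_mX hζ (j + 1) (k + 1) 0 hH hH' (MidC_tame2 κ l (c2 r j l))
    simp only [MidC_cv]
    exact h1

end Crest.Agent.RI
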