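import Crest.Agent.RI.MidA
import Crest.Agent.RI.MidB
import Crest.Agent.RI.MidC

/-!
# Row 164, Part 8.4: value of the truncated cavity functional
-/

set_option autoImplicit false

namespace Crest.Agent.RI

open MeasureTheory ProbabilityTheory

variable {N K J k : ℕ}

private theorem Mid_prob {P : Measure (ON N)} (hP : HaarO P) : IsProbabilityMeasure (mM P) := by
  have := prob_mN hP (unifA N)
  unfold mM
  infer_instance

private theorem Mid_ham {P : Measure (ON N)} (hP : HaarO P) (D : Blk) (L : LBd J) (s : ℝ)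
    (x : XI k D.K J → ℝ) (κ : Fin N → Fin D.K) (lab : Fin N → Fin J) (l0 : Fin D.K)
    {A : ℝ} (hA : 0 ≤ A) (b v : ℝ) (i0 : Fin k) :
    Ham (βC (N := N)) (fun ω : Fin (k + 1) → EC N => HN k (θL D L k s x κ lab) (b0 ω) +
        chi A (DInf D l0 (zx κ ω) (ep ω)) + (b + v * (ω i0.castSucc).2.1) * ep ω) := by
  have hd := dom_mC hP
  have h0 : ∀ e, 0 ≤ βC (N := N) e := hd.nonneg
  have hmep : Measurable (fun ω : Fin (k + 1) → EC N => ep ω) := by
    unfold ep
    exact (measurable_of_countable spin).comp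
      (measurable_snd.comp (measurable_snd.comp (measurable_pi_apply _)))
  have hep : ∀ ω : Fin (k + 1) → EC N, |ep ω| = 1 := fun ω => abs_spin _
  -- the Hamiltonian of the system
  have h1 : Ham (βC (N := N)) (fun ω : Fin (k + 1) → EC N =>
      HN k (θL D L k s x κ lab) (b0 ω)) := by
    have h := HN_ham k (θL D L k s x κ lab)
    obtain ⟨C, hC, hb⟩ := h.bound
    refine ⟨h.meas.comp measurable_b0, C, hC, fun ω => (hb _).trans ?_⟩
    refine mul_le_mul_of_nonneg_left ?_ hC
    refine add_le_add le_rfl (Finset.sum_le_sum fun j _ => ?_)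
    unfold βC βC1 βX b0
    have e1 : 0 ≤ ∑ a, |(ω j).1.2.1 a| := Finset.sum_nonneg fun _ _ => abs_nonneg _
    have e2 := abs_nonneg (ω j).1.2.2
    have e3 := abs_nonneg (ω j).2.1
    linarith
  -- the truncated term
  have h2 : Ham (βC (N := N)) (fun ω : Fin (k + 1) → EC N =>
      chi A (DInf D l0 (zx κ ω) (ep ω))) := by
    refine ⟨?_, A, hA, fun ω => (chi_abs hA _).trans ?_⟩
    · refine (measurable_chi A).1.comp ?_
      have hzx : ∀ l, Measurable (fun ω : Fin (k + 1) → EC N => zx κ ω l) := by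
        intro l
        unfold zx xi
        refine (Finset.measurable_sum _ fun a _ => ?_).const_mul _
        by_cases ha : κ a = l
        · simp only [if_pos ha]
          refine Measurable.mul ?_ ?_
          · exact (measurable_pi_apply _).comp (measurable_fst.comp
              (measurable_snd.comp (measurable_fst.comp (measurable_pi_apply _))))
          · exact (measurable_yv k a).comp measurable_b0
        · simp only [if_neg ha]
          exact measurable_const
      unfold DInf DI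
      have m1 : Measurable (fun ω : Fin (k + 1) → EC N => ∑ l, zx κ ω l) :=
        Finset.measurable_sum _ fun l _ => hzx l
      have m2 : Measurable (fun ω : Fin (k + 1) → EC N => ∑ l, D.d l * zx κ ω l) :=
        Finset.measurable_sum _ fun l _ => (hzx l).const_mul _
      exact ((measurable_const.add (hmep.mul (m2.sub (m1.const_mul _)))).sub (m1.mul m2)).add
        ((m1.pow_const 2).const_mul _)
    · have h3 : 0 ≤ ∑ i, βC (ω i) := Finset.sum_nonneg fun i _ => h0 _
      nlinarith [mul_nonneg hA h3]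
  -- the external field
  have h3 : Ham (βC (N := N)) (fun ω : Fin (k + 1) → EC N =>
      (b + v * (ω i0.castSucc).2.1) * ep ω) := by
    have hm : Measurable (fun ω : Fin (k + 1) → EC N => (ω i0.castSucc).2.1) :=
      measurable_fst.comp (measurable_snd.comp (measurable_pi_apply _))
    refine ⟨((hm.const_mul v).const_add b).mul hmep, |b| + |v|, by positivity, fun ω => ?_⟩
    rw [abs_mul, hep, mul_one]
    have e1 : |(ω i0.castSucc).2.1| ≤ ∑ i, βC (ω i) := by
      have e2 : |(ω i0.castSucc).2.1| ≤ βC (ω i0.castSucc) := by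
        unfold βC βX
        have := (dom_mC1 hP).nonneg (ω i0.castSucc).1
        linarith
      exact e2.trans (Finset.single_le_sum (f := fun i => βC (ω i)) (fun i _ => h0 _)
        (Finset.mem_univ _))
    have e3 : |b + v * (ω i0.castSucc).2.1| ≤ |b| + |v| * |(ω i0.castSucc).2.1| := by
      rw [← abs_mul]; exact abs_add_le _ _
    have e4 := abs_nonneg b
    have e5 := abs_nonneg v
    have e6 : 0 ≤ ∑ i, βC (ω i) := Finset.sum_nonneg fun i _ => h0 _
    nlinarith [mul_le_mul_of_nonneg_left e1 e5, mul_nonneg e4 e6]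
  exact (h1.add0 h0 h2).add0 h0 h3

/-- (d) VALUE OF THE TRUNCATED FUNCTIONAL.  PROOF: `nest_add_const` (`cc`), (a), `dec_main` with `decInst`, (b), (c). -/
theorem mid_value (D : Blk) (A : ℝ) (hA : 0 ≤ A) : ∃ C : ℝ, 0 ≤ C ∧ ∀ {N J k : ℕ}
    {P : Measure (ON N)}, 1 ≤ N → HaarO P → 0 < k → ∀ (L : LBd J) (s : ℝ) (x : XI k D.K J → ℝ)
      (κ : Fin N → Fin D.K) (lab : Fin N → Fin J) (l0 : Fin D.K) (j0 : Fin J) (τ : Fin J → ℝ)
      (t v : ℝ) (i0 : Fin k) (r : ℕ → Fin D.K → ℝ), (∀ i l, 0 ≤ r i l) → (∀ l, c2 r k l ≤ 1) →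
      |nest (mC P) (ζLB k) (k + 1) 0 (HU0 D L s x κ lab l0 j0 τ A t v i0) -
        (FL P D L k s x κ lab + TTA D l0 A (bb L τ j0 + t) v i0 r + cc L τ)| ≤
        C * Real.sqrt (errS P D L k s x κ lab r) := by
  obtain ⟨B, hB, h⟩ := decInst D
  refine ⟨Real.exp (4 * A) * (200 * (B + B ^ 2) * ((D.K : ℝ) + 1) ^ 3), by positivity, ?_⟩
  intro N J k P hN hP hk L s x κ lab l0 j0 τ t v i0 r hr0 hr1
  have hm := Mid_prob hP
  have hD := h hN hP hk L s x κ lab (bb L τ j0 + t) v i0 l0 A hA r hr0 hr1
  have e1 : nest (mC P) (ζLB k) (k + 1) 0 (HU0 D L s x κ lab l0 j0 τ A t v i0) =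
      nest (mC P) (ζLB k) (k + 1) 0 (fun ω : Fin (k + 1) → EC N =>
        HN k (θL D L k s x κ lab) (b0 ω) + chi A (DInf D l0 (zx κ ω) (ep ω)) +
          ((bb L τ j0 + t) + v * (ω i0.castSucc).2.1) * ep ω) + cc L τ := by
    have hmC := prob_mC hP
    rw [← nest_add_const (dom_mC hP) (exps_LB k) _ _
      (Mid_ham hP D L s x κ lab l0 hA (bb L τ j0 + t) v i0)]
    congr 1
    funext ω
    unfold HU0
    rw [dB_eq]
    ring
  have e2 := dec_main hD
  rw [decS_eq hP hN hk] at e2
  rw [e1, nest_EC_z1 hP, ← nest_z2 hP D L s x κ lab l0 hA (bb L τ j0 + t) v i0 r,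
    add_sub_add_right_eq_sub]
  exact e2

end Crest.Agent.RI
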