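import Crest.Agent.RI.UBTow

/-!
# Row 164: the mean overlaps: nonnegative, monotone, sum one
-/

set_option autoImplicit false

namespace Crest.Agent.RI

open MeasureTheory ProbabilityTheory

section abs
variable {E : Type} [MeasurableSpace E]
variable {m : Measure E} [IsProbabilityMeasure m] {ζ : ℕ → ℝ} {β : E → ℝ}

theorem tame_fsum (hβ : Dom m β) {n : ℕ} {ι : Type*} (s : Finset ι) {f : ι → (Fin n → E) → ℝ}
    (h : ∀ j ∈ s, Tame β (f j)) : Tame β (fun ω => ∑ j ∈ s, f j ω) := by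
  classical
  induction s using Finset.induction_on with
  | empty => simpa using (Tame.const (n := n) hβ (0 : ℝ))
  | insert a s ha ih =>
    have e : (fun ω => ∑ j ∈ insert a s, f j ω) = (fun ω => f a ω + ∑ j ∈ s, f j ω) := by
      funext ω
      rw [Finset.sum_insert ha]
    rw [e]
    exact Tame.add hβ (h a (Finset.mem_insert_self _ _))
      (ih fun j hj => h j (Finset.mem_insert_of_mem hj))

theorem pathE_fsum (hβ : Dom m β) (hζ : Exps ζ) (n i : ℕ) {H : (Fin n → E) → ℝ}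
    (hH : Ham β H) {ι : Type*} (s : Finset ι) {f : ι → (Fin n → E) → ℝ}
    (h : ∀ j ∈ s, Tame β (f j)) :
    pathE m ζ n i H (fun ω => ∑ j ∈ s, f j ω) = ∑ j ∈ s, pathE m ζ n i H (f j) := by
  classical
  induction s using Finset.induction_on with
  | empty => simpa using pathE_const hβ hζ n i hH 0
  | insert a s ha ih =>
    have e : (fun ω => ∑ j ∈ insert a s, f j ω) = (fun ω => f a ω + ∑ j ∈ s, f j ω) := by
      funext ω
      rw [Finset.sum_insert ha]
    rw [e, pathE_add hβ hζ n i hH (h a (Finset.mem_insert_self _ _))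
      (tame_fsum hβ s fun j hj => h j (Finset.mem_insert_of_mem hj)), Finset.sum_insert ha,
      ih fun j hj => h j (Finset.mem_insert_of_mem hj)]

theorem tame2_fsum (hβ : Dom m β) {n : ℕ} {ι : Type*} (s : Finset ι)
    {f : ι → (Fin n → E) → (Fin n → E) → ℝ} (h : ∀ j ∈ s, Tame2 β (f j)) :
    Tame2 β (fun ω ω' => ∑ j ∈ s, f j ω ω') := by
  classical
  induction s using Finset.induction_on with
  | empty =>
    refine ⟨by simpa [Function.uncurry_def] using measurable_const, 0, le_rfl, fun ω ω' => ?_⟩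
    simp
  | insert a s ha ih =>
    have e : (fun ω ω' => ∑ j ∈ insert a s, f j ω ω') =
        (fun ω ω' => f a ω ω' + ∑ j ∈ s, f j ω ω') := by
      funext ω ω'
      rw [Finset.sum_insert ha]
    rw [e]
    have h1 := h a (Finset.mem_insert_self _ _)
    have h2 := ih fun j hj => h j (Finset.mem_insert_of_mem hj)
    obtain ⟨C1, hC1, b1⟩ := h1.bound
    obtain ⟨C2, hC2, b2⟩ := h2.bound
    refine ⟨h1.meas.add h2.meas, C1 + C2, by positivity, fun ω ω' => ?_⟩
    have hs : 0 ≤ ∑ i, (β (ω i) + β (ω' i)) :=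
      Finset.sum_nonneg fun i _ => add_nonneg (hβ.nonneg _) (hβ.nonneg _)
    have e1 : Real.exp (C1 * ∑ i, (β (ω i) + β (ω' i))) ≤
        Real.exp ((C1 + C2) * ∑ i, (β (ω i) + β (ω' i))) :=
      Real.exp_le_exp.2 (by nlinarith)
    have e2 : Real.exp (C2 * ∑ i, (β (ω i) + β (ω' i))) ≤
        Real.exp ((C1 + C2) * ∑ i, (β (ω i) + β (ω' i))) :=
      Real.exp_le_exp.2 (by nlinarith)
    calc |f a ω ω' + ∑ j ∈ s, f j ω ω'| ≤ |f a ω ω'| + |∑ j ∈ s, f j ω ω'| := abs_add_le _ _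
      _ ≤ C1 * Real.exp (C1 * ∑ i, (β (ω i) + β (ω' i))) +
          C2 * Real.exp (C2 * ∑ i, (β (ω i) + β (ω' i))) := add_le_add (b1 ω ω') (b2 ω ω')
      _ ≤ C1 * Real.exp ((C1 + C2) * ∑ i, (β (ω i) + β (ω' i))) +
          C2 * Real.exp ((C1 + C2) * ∑ i, (β (ω i) + β (ω' i))) :=
          add_le_add (mul_le_mul_of_nonneg_left e1 hC1) (mul_le_mul_of_nonneg_left e2 hC2)
      _ = _ := by ring

theorem pairE_fsum (hβ : Dom m β) (hζ : Exps ζ) (r n i : ℕ) {H : (Fin n → E) → ℝ}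
    (hH : Ham β H) {ι : Type*} (s : Finset ι) {f : ι → (Fin n → E) → (Fin n → E) → ℝ}
    (h : ∀ j ∈ s, Tame2 β (f j)) :
    pairE m ζ r n i H (fun ω ω' => ∑ j ∈ s, f j ω ω') = ∑ j ∈ s, pairE m ζ r n i H (f j) := by
  classical
  induction s using Finset.induction_on with
  | empty =>
    simp only [Finset.sum_empty]
    have := pairE_cmul (m := m) (ζ := ζ) r n i H (fun _ _ => (0 : ℝ)) 0
    simpa using this
  | insert a s ha ih =>
    have e : (fun ω ω' => ∑ j ∈ insert a s, f j ω ω') =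
        (fun ω ω' => f a ω ω' + ∑ j ∈ s, f j ω ω') := by
      funext ω ω'
      rw [Finset.sum_insert ha]
    rw [e, pairE_add hβ hζ r n i hH (h a (Finset.mem_insert_self _ _))
      (tame2_fsum hβ s fun j hj => h j (Finset.mem_insert_of_mem hj)), Finset.sum_insert ha,
      ih fun j hj => h j (Finset.mem_insert_of_mem hj)]

/-- second moments of conditional expectations increase -/
theorem condE_sq_mono (hβ : Dom m β) (hζ : Exps ζ) {j j' : ℕ} (hj : j ≤ j') (n i : ℕ)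
    {H V : (Fin n → E) → ℝ} (hH : Ham β H) (hV : Tame β V) :
    pathE m ζ n i H (fun ω => condE m ζ j n i H V ω ^ 2) ≤
      pathE m ζ n i H (fun ω => condE m ζ j' n i H V ω ^ 2) := by
  induction j', hj using Nat.le_induction with
  | base => exact le_rfl
  | succ j' _ ih =>
    refine ih.trans ?_
    have h1 := TVar_incr_sq hβ hζ j' n i hH hV
    have h2 := TVar_pathE_nonneg hβ hζ n i hH (TVar_tame_sq hβ (TVar_tame_incr hβ hζ j' n i hH hV))
      (fun ω => sq_nonneg _)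
    linarith

end abs

variable {N K : ℕ} {P : Measure (ON N)} {A : Measure (Fin N → Bool)} {ζ : ℕ → ℝ} {k : ℕ}

theorem βN_nonneg' (x : EN N) : 0 ≤ βN x := by
  unfold βN
  positivity

theorem yv_tame (k : ℕ) (a : Fin N) :
    Tame (βN (N := N)) (fun ω : Fin (k + 1) → EN N => yv k ω a) := by
  refine ⟨measurable_yv k a, N, Nat.cast_nonneg N, fun ω => ?_⟩
  have h1 : (1 : ℝ) ≤ Real.exp ((N : ℝ) * ∑ i, βN (ω i)) :=
    Real.one_le_exp (mul_nonneg (Nat.cast_nonneg N) (Finset.sum_nonneg fun i _ => βN_nonneg' _))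
  calc |yv k ω a| ≤ N := abs_yv_le k ω a
    _ = N * 1 := (mul_one _).symm
    _ ≤ _ := mul_le_mul_of_nonneg_left h1 (Nat.cast_nonneg N)

theorem yv_tame2 (k : ℕ) (a : Fin N) :
    Tame2 (βN (N := N)) (fun ω ω' : Fin (k + 1) → EN N => yv k ω a * yv k ω' a) := by
  refine ⟨?_, (N : ℝ) ^ 2, by positivity, fun ω ω' => ?_⟩
  · exact ((measurable_yv k a).comp measurable_fst).mul ((measurable_yv k a).comp measurable_snd)
  · have h1 : (1 : ℝ) ≤ Real.exp ((N : ℝ) ^ 2 * ∑ i, (βN (ω i) + βN (ω' i))) :=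
      Real.one_le_exp (mul_nonneg (by positivity)
        (Finset.sum_nonneg fun i _ => add_nonneg (βN_nonneg' _) (βN_nonneg' _)))
    rw [abs_mul]
    calc |yv k ω a| * |yv k ω' a| ≤ N * N :=
          mul_le_mul (abs_yv_le k ω a) (abs_yv_le k ω' a) (abs_nonneg _) (Nat.cast_nonneg N)
      _ = (N : ℝ) ^ 2 * 1 := by ring
      _ ≤ _ := mul_le_mul_of_nonneg_left h1 (by positivity)

theorem tame_ovl_self (k : ℕ) (κ : Fin N → Fin K) (l : Fin K) :
    Tame (βN (N := N)) (fun ω : Fin (k + 1) → EN N => ovl k κ l ω ω) := by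
  refine ⟨(ham_ovl_self k κ l).meas, 1, zero_le_one, fun ω => ?_⟩
  have h1 : (1 : ℝ) ≤ Real.exp ((1 : ℝ) * ∑ i, βN (ω i)) :=
    Real.one_le_exp (mul_nonneg zero_le_one (Finset.sum_nonneg fun i _ => βN_nonneg' _))
  calc |ovl k κ l ω ω| ≤ 1 := abs_ovl_le k κ l ω ω
    _ ≤ Real.exp ((1 : ℝ) * ∑ i, βN (ω i)) := h1
    _ = _ := (one_mul _).symm

/-- `c_l` in terms of `y` -/
theorem selfOv_eq (hP : HaarO P) [IsProbabilityMeasure A] (hζ : Exps ζ) (θ : Par N K) (l : Fin K) :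
    selfOv P A ζ k θ l = (1 / (N : ℝ)) * ∑ a, if θ.κ a = l then
      pathE (mN P A) ζ (k + 1) 0 (HN k θ) (fun ω => yv k ω a ^ 2) else 0 := by
  have := prob_mN hP A
  have hβ := dom_mN hP A
  have hH := HN_ham k θ
  have e : (fun ω : Fin (k + 1) → EN N => ovl k θ.κ l ω ω) =
      (fun ω => (1 / (N : ℝ)) * ∑ a, (if θ.κ a = l then (1 : ℝ) else 0) * yv k ω a ^ 2) := by
    funext ω
    unfold ovl
    congr 1
    refine Finset.sum_congr rfl fun a _ => ?_
    split_ifs <;> ring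
  have ht : ∀ a ∈ (Finset.univ : Finset (Fin N)), Tame (βN (N := N))
      (fun ω : Fin (k + 1) → EN N => (if θ.κ a = l then (1 : ℝ) else 0) * yv k ω a ^ 2) := fun a _ =>
    TVar_tame_cmul hβ _ (TVar_tame_sq hβ (yv_tame k a))
  unfold selfOv
  rw [e, pathE_mul, pathE_fsum hβ hζ (k + 1) 0 hH Finset.univ ht]
  congr 1
  refine Finset.sum_congr rfl fun a _ => ?_
  rw [pathE_mul]
  split_ifs <;> simp

/-- `ρ_{l,j}` in terms of conditional expectations of `y` -/
theorem rhoOv_eq (hP : HaarO P) [IsProbabilityMeasure A] (hζ : Exps ζ) (θ : Par N K) (l : Fin K)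
    (j : ℕ) :
    rhoOv P A ζ k θ l j = (1 / (N : ℝ)) * ∑ a, if θ.κ a = l then
      pathE (mN P A) ζ (k + 1) 0 (HN k θ) (fun ω =>
        condE (mN P A) ζ (j + 1) (k + 1) 0 (HN k θ) (fun ω => yv k ω a) ω ^ 2) else 0 := by
  have := prob_mN hP A
  have hβ := dom_mN hP A
  have hH := HN_ham k θ
  have e : (fun ω ω' : Fin (k + 1) → EN N => ovl k θ.κ l ω ω') =
      (fun ω ω' => ∑ a, ((1 / (N : ℝ)) * (if θ.κ a = l then (1 : ℝ) else 0)) *
        (yv k ω a * yv k ω' a)) := by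
    funext ω ω'
    unfold ovl
    rw [Finset.mul_sum]
    refine Finset.sum_congr rfl fun a _ => ?_
    split_ifs <;> ring
  have ht : ∀ a ∈ (Finset.univ : Finset (Fin N)), Tame2 (βN (N := N))
      (fun ω ω' : Fin (k + 1) → EN N => ((1 / (N : ℝ)) * (if θ.κ a = l then (1 : ℝ) else 0)) *
        (yv k ω a * yv k ω' a)) := by
    intro a _
    obtain ⟨hm, C, hC, hb⟩ := yv_tame2 (N := N) k a
    set c : ℝ := (1 / (N : ℝ)) * (if θ.κ a = l then (1 : ℝ) else 0) with hc
    refine ⟨hm.const_mul c, C + |c| * C, by positivity, fun ω ω' => ?_⟩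
    have hs : 0 ≤ ∑ i, (βN (ω i) + βN (ω' i)) :=
      Finset.sum_nonneg fun i _ => add_nonneg (βN_nonneg' _) (βN_nonneg' _)
    have e1 : Real.exp (C * ∑ i, (βN (ω i) + βN (ω' i))) ≤
        Real.exp ((C + |c| * C) * ∑ i, (βN (ω i) + βN (ω' i))) := by
      apply Real.exp_le_exp.2
      apply mul_le_mul_of_nonneg_right _ hs
      have : 0 ≤ |c| * C := by positivity
      linarith
    rw [abs_mul]
    calc |c| * |yv k ω a * yv k ω' a| ≤ |c| * (C * Real.exp (C * ∑ i, (βN (ω i) + βN (ω' i)))) :=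
          mul_le_mul_of_nonneg_left (hb ω ω') (abs_nonneg c)
      _ ≤ |c| * (C * Real.exp ((C + |c| * C) * ∑ i, (βN (ω i) + βN (ω' i)))) :=
          mul_le_mul_of_nonneg_left (mul_le_mul_of_nonneg_left e1 hC) (abs_nonneg c)
      _ = (|c| * C) * Real.exp ((C + |c| * C) * ∑ i, (βN (ω i) + βN (ω' i))) := by ring
      _ ≤ (C + |c| * C) * Real.exp ((C + |c| * C) * ∑ i, (βN (ω i) + βN (ω' i))) :=
          mul_le_mul_of_nonneg_right (by linarith) (Real.exp_pos _).le
  unfold rhoOv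
  rw [e, pairE_fsum hβ hζ (j + 1) (k + 1) 0 hH Finset.univ ht, Finset.mul_sum]
  refine Finset.sum_congr rfl fun a _ => ?_
  rw [pairE_cmul, pairE_mul hβ hζ (j + 1) (k + 1) 0 hH (yv_tame k a) (yv_tame k a)]
  split_ifs
  · rw [mul_one]
    congr 1
    congr 1
    funext ω
    ring
  · simp

theorem self_nonneg (hP : HaarO P) [IsProbabilityMeasure A] (hζ : Exps ζ) (θ : Par N K) (l : Fin K) :
    0 ≤ selfOv P A ζ k θ l := by
  have := prob_mN hP A
  exact TVar_pathE_nonneg (dom_mN hP A) hζ (k + 1) 0 (HN_ham k θ) (tame_ovl_self k θ.κ l)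
    (fun ω => ovl_self_nonneg k θ.κ l ω)

theorem sum_self (hN : 0 < N) (hP : HaarO P) [IsProbabilityMeasure A] (hζ : Exps ζ) (θ : Par N K) :
    ∑ l, selfOv P A ζ k θ l = 1 := by
  have := prob_mN hP A
  have hβ := dom_mN hP A
  have hH := HN_ham k θ
  unfold selfOv
  rw [← pathE_fsum hβ hζ (k + 1) 0 hH Finset.univ (fun l _ => tame_ovl_self k θ.κ l)]
  have e : (fun ω : Fin (k + 1) → EN N => ∑ l, ovl k θ.κ l ω ω) = fun _ => 1 := by
    funext ω
    exact sum_ovl_self hN k θ.κ ω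
  rw [e, pathE_one hβ hζ (k + 1) 0 hH]

theorem rho_nonneg (hP : HaarO P) [IsProbabilityMeasure A] (hζ : Exps ζ) (θ : Par N K) (l : Fin K)
    {i : ℕ} (_hi : i < k) : 0 ≤ rhoOv P A ζ k θ l i := by
  have := prob_mN hP A
  have hβ := dom_mN hP A
  have hH := HN_ham k θ
  rw [rhoOv_eq hP hζ]
  refine mul_nonneg (by positivity) (Finset.sum_nonneg fun a _ => ?_)
  split_ifs
  · exact TVar_pathE_nonneg hβ hζ (k + 1) 0 hH
      (TVar_tame_sq hβ (condE_tame hβ hζ (i + 1) (k + 1) 0 hH (yv_tame k a))) fun ω => sq_nonneg _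
  · exact le_rfl

theorem rho_mono (hP : HaarO P) [IsProbabilityMeasure A] (hζ : Exps ζ) (θ : Par N K) (l : Fin K)
    {i j : ℕ} (hij : i ≤ j) (_hj : j < k) : rhoOv P A ζ k θ l i ≤ rhoOv P A ζ k θ l j := by
  have := prob_mN hP A
  have hβ := dom_mN hP A
  have hH := HN_ham k θ
  rw [rhoOv_eq hP hζ, rhoOv_eq hP hζ]
  refine mul_le_mul_of_nonneg_left (Finset.sum_le_sum fun a _ => ?_) (by positivity)
  split_ifs
  · exact condE_sq_mono hβ hζ (by omega) (k + 1) 0 hH (yv_tame k a)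
  · exact le_rfl

theorem rho_le_self (hP : HaarO P) [IsProbabilityMeasure A] (hζ : Exps ζ) (θ : Par N K) (l : Fin K)
    {i : ℕ} (hi : i < k) : rhoOv P A ζ k θ l i ≤ selfOv P A ζ k θ l := by
  have := prob_mN hP A
  have hβ := dom_mN hP A
  have hH := HN_ham k θ
  rw [rhoOv_eq hP hζ, selfOv_eq hP hζ]
  refine mul_le_mul_of_nonneg_left (Finset.sum_le_sum fun a _ => ?_) (by positivity)
  split_ifs
  · have h := condE_sq_mono hβ hζ (show i + 1 ≤ k + 1 by omega) (k + 1) 0 hH (yv_tame k a)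
    refine h.trans (le_of_eq ?_)
    congr 1
    funext ω
    rw [condE_all (k + 1) 0 _ _ (k + 1) le_rfl ω]
  · exact le_rfl

end Crest.Agent.RI
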