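import Crest.Agent.RI.CavB
import Crest.Agent.RI.Mid
import Crest.Agent.RI.RhoFacts

/-!
# Row 164, Part 8.2: lower bound for the increment
-/

set_option autoImplicit false

namespace Crest.Agent.RI

open MeasureTheory ProbabilityTheory

variable {N K J k : ℕ}

theorem CavLow_βN_nonneg (x : EN N) : 0 ≤ βN x := by
  unfold βN
  positivity

theorem CavLow_βC_nonneg (x : EC N) : 0 ≤ βC x := by
  unfold βC βC1 βX
  have := CavLow_βN_nonneg x.1.1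
  positivity

theorem CavLow_β_Tc (e x : EC N) : βN (Tc e x) ≤ ((N : ℝ) + 2) * βC x := by
  have h1 : ∑ a, |(Tc e x).2.1 a| = |x.2.1| + ∑ a, |x.1.1.2.1 a| := by
    show ∑ a, |(Fin.cons x.2.1 x.1.1.2.1 : Fin (N + 1) → ℝ) a| = _
    rw [Fin.sum_univ_succ]
    simp
  have h2 : ∑ j, |(Fin.cons x.1.2.2 x.1.1.2.2.1 : Fin (N + 1) → ℝ) j| =
      |x.1.2.2| + ∑ a, |x.1.1.2.2.1 a| := by
    rw [Fin.sum_univ_succ]
    simp
  have h3 : ∀ a, |(Tc e x).2.2.1 a| ≤ |x.1.2.2| + ∑ a, |x.1.1.2.2.1 a| := by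
    intro a
    show |avec (cM e.1.2.1) (Fin.cons x.1.2.2 x.1.1.2.2.1 : Fin (N + 1) → ℝ) a| ≤ _
    rw [← h2]
    unfold avec
    refine (Finset.abs_sum_le_sum_abs _ _).trans (Finset.sum_le_sum fun j _ => ?_)
    rw [abs_mul]
    have := (cM_isO e.1.2.1).abs_le a j
    have h0 := abs_nonneg ((Fin.cons x.1.2.2 x.1.1.2.2.1 : Fin (N + 1) → ℝ) j)
    nlinarith
  have h4 : ∑ a, |(Tc e x).2.2.1 a| ≤ ((N : ℝ) + 1) * (|x.1.2.2| + ∑ a, |x.1.1.2.2.1 a|) := by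
    refine (Finset.sum_le_sum fun a _ => h3 a).trans (le_of_eq ?_)
    rw [Finset.sum_const, Finset.card_univ, Fintype.card_fin, nsmul_eq_mul]
    push_cast
    ring
  have hA : 0 ≤ ∑ a, |x.1.1.2.1 a| := by positivity
  have hB : 0 ≤ ∑ a, |x.1.1.2.2.1 a| := by positivity
  have hC : 0 ≤ ∑ a, |x.1.2.1 a| := by positivity
  have hD := abs_nonneg x.1.2.2
  have hE := abs_nonneg x.2.1
  have hN : (0 : ℝ) ≤ N := Nat.cast_nonneg N
  have e1 : βN (Tc e x) = ∑ a, |(Tc e x).2.1 a| + ∑ a, |(Tc e x).2.2.1 a| := rfl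
  have e2 : βC x = (∑ a, |x.1.1.2.1 a| + ∑ a, |x.1.1.2.2.1 a|) +
      (∑ a, |x.1.2.1 a| + |x.1.2.2|) + |x.2.1| := rfl
  rw [e1, e2, h1]
  nlinarith [mul_nonneg hN hA, mul_nonneg hN hB, mul_nonneg hN hC, mul_nonneg hN hD,
    mul_nonneg hN hE]

theorem CavLow_ham_cp {H : (Fin (k + 1) → EN (N + 1)) → ℝ} (hH : Ham (βN (N := N + 1)) H) :
    Ham (βC (N := N)) (fun ω : Fin (k + 1) → EC N => H (cp ω)) := by
  obtain ⟨C, hC, hb⟩ := hH.bound
  refine ⟨hH.meas.comp measurable_cp, C * ((N : ℝ) + 2), by positivity, fun ω => ?_⟩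
  refine (hb (cp ω)).trans ?_
  have h1 : ∑ i, βN (cp ω i) ≤ ((N : ℝ) + 2) * ∑ i, βC (ω i) := by
    rw [Finset.mul_sum]
    exact Finset.sum_le_sum fun i _ => CavLow_β_Tc (ω 0) (ω i)
  have h2 : (0 : ℝ) ≤ N := Nat.cast_nonneg N
  rw [mul_assoc]
  refine mul_le_mul_of_nonneg_left ?_ hC
  nlinarith

theorem CavLow_ham_b0 {H : (Fin (k + 1) → EN N) → ℝ} (hH : Ham (βN (N := N)) H) :
    Ham (βC (N := N)) (fun ω : Fin (k + 1) → EC N => H (b0 ω)) := by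
  obtain ⟨C, hC, hb⟩ := hH.bound
  refine ⟨hH.meas.comp measurable_b0, C, hC, fun ω => ?_⟩
  refine (hb (b0 ω)).trans (mul_le_mul_of_nonneg_left ?_ hC)
  have : ∑ i, βN (b0 ω i) ≤ ∑ i, βC (ω i) := by
    refine Finset.sum_le_sum fun i _ => ?_
    show βN (ω i).1.1 ≤ βC (ω i)
    unfold βC βC1 βX
    have h1 : 0 ≤ ∑ a, |(ω i).1.2.1 a| := by positivity
    have h2 := abs_nonneg (ω i).1.2.2
    have h3 := abs_nonneg (ω i).2.1
    linarith
  linarith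

theorem CavLow_ham_bdd {n : ℕ} {H : (Fin n → EC N) → ℝ} (hm : Measurable H) {C : ℝ}
    (hC : ∀ ω, |H ω| ≤ C) : Ham (βC (N := N)) H := by
  refine ⟨hm, |C|, abs_nonneg C, fun ω => ?_⟩
  have h1 : 0 ≤ ∑ i, βC (ω i) := Finset.sum_nonneg fun i _ => CavLow_βC_nonneg _
  have h2 := hC ω
  have h3 := le_abs_self C
  have h4 := abs_nonneg C
  nlinarith

theorem CavLow_ham_sub {n : ℕ} {U V : (Fin n → EC N) → ℝ} (hU : Ham (βC (N := N)) U)
    (hV : Ham (βC (N := N)) V) : Ham (βC (N := N)) (fun ω => U ω - V ω) := by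
  obtain ⟨C, hC, hb⟩ := hU.bound
  obtain ⟨C', hC', hb'⟩ := hV.bound
  refine ⟨hU.meas.sub hV.meas, C + C', by positivity, fun ω => ?_⟩
  have h1 := hb ω
  have h2 := hb' ω
  have h3 := abs_sub (U ω) (V ω)
  calc |U ω - V ω| ≤ |U ω| + |V ω| := h3
    _ ≤ (C + C') * (1 + ∑ i, βC (ω i)) := by linarith

theorem CavLow_tame_abs {n : ℕ} {Φ : (Fin n → EC N) → ℝ} (h : Tame (βC (N := N)) Φ) :
    Tame (βC (N := N)) (fun ω => |Φ ω|) := by
  obtain ⟨C, hC, hb⟩ := h.bound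
  exact ⟨continuous_abs.measurable.comp h.meas, C, hC, fun ω => by rw [abs_abs]; exact hb ω⟩

theorem CavLow_tame_le {n : ℕ} {Φ Ψ : (Fin n → EC N) → ℝ} (h : Tame (βC (N := N)) Ψ)
    (hm : Measurable Φ) (hb : ∀ ω, |Φ ω| ≤ |Ψ ω|) : Tame (βC (N := N)) Φ := by
  obtain ⟨C, hC, hb'⟩ := h.bound
  exact ⟨hm, C, hC, fun ω => (hb ω).trans (hb' ω)⟩

theorem CavLow_tame_mul {P : Measure (ON N)} (hP : HaarO P) {n : ℕ} {Φ : (Fin n → EC N) → ℝ}
    (h : Tame (βC (N := N)) Φ) (c : ℝ) : Tame (βC (N := N)) (fun ω => c * Φ ω) := by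
  have := prob_mC hP
  exact (Tame.const (dom_mC hP) c).mul (dom_mC hP) h

theorem CavLow_meas_ep : Measurable (fun ω : Fin (k + 1) → EC N => ep ω) := by
  have h1 : Measurable (fun b : Bool => spin b) := measurable_of_finite _
  exact h1.comp (measurable_snd.comp (measurable_snd.comp (measurable_pi_apply (Fin.last k))))

theorem CavLow_abs_ep (ω : Fin (k + 1) → EC N) : |ep ω| = 1 := abs_spin _

theorem CavLow_ham_Uc (D : Blk) (L : LBd J) (s : ℝ) (x : XI k D.K J → ℝ) (κ : Fin N → Fin D.K)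
    (lab : Fin N → Fin J) (l0 : Fin D.K) (j0 : Fin J) :
    Ham (βC (N := N)) (fun ω : Fin (k + 1) → EC N => Uc D L s x κ lab l0 j0 ω) :=
  CavLow_ham_sub (CavLow_ham_cp (HN_ham k _)) (CavLow_ham_b0 (HN_ham k _))

theorem CavLow_meas_chi (D : Blk) (A : ℝ) (κ : Fin N → Fin D.K) (l0 : Fin D.K) :
    Measurable (fun ω : Fin (k + 1) → EC N => DInf D l0 (zx κ ω) (ep ω)) ∧
    Measurable (fun ω : Fin (k + 1) → EC N => chi A (DInf D l0 (zx κ ω) (ep ω))) := by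
  have h := (tame_pieces (J := 1) (N := N) (k := k) D (fun _ => 0) κ (fun _ => 0) (fun _ => 0)
    l0).2.2.2.2.meas
  exact ⟨h, (measurable_chi A).1.comp h⟩

theorem CavLow_ham_HU0 (D : Blk) (L : LBd J) (s : ℝ) (x : XI k D.K J → ℝ) (κ : Fin N → Fin D.K)
    (lab : Fin N → Fin J) (l0 : Fin D.K) (j0 : Fin J) (τ : Fin J → ℝ) {A : ℝ} (hA : 0 ≤ A)
    (t v : ℝ) (i0 : Fin k) :
    Ham (βC (N := N)) (HU0 D L s x κ lab l0 j0 τ A t v i0) := by
  have h1 := H1_ham D L s x κ lab (bb L τ j0 + t) v i0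
  have h2 : Ham (βC (N := N)) (fun ω : Fin (k + 1) → EC N =>
      -(chi A (DInf D l0 (zx κ ω) (ep ω)) + cc L τ)) := by
    refine CavLow_ham_bdd (((CavLow_meas_chi D A κ l0).2.add_const _).neg) (C := A + |cc L τ|) ?_
    intro ω
    rw [abs_neg]
    exact (abs_add_le _ _).trans (add_le_add (chi_abs hA _) le_rfl)
  have h3 := CavLow_ham_sub h1 h2
  have e : HU0 D L s x κ lab l0 j0 τ A t v i0 = fun ω : Fin (k + 1) → EC N =>
      H1 D L s x κ lab (bb L τ j0 + t) v i0 ω - -(chi A (DInf D l0 (zx κ ω) (ep ω)) + cc L τ) := by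
    funext ω
    unfold HU0 H1
    rw [dB_eq]
    ring
  rw [e]
  exact h3

theorem CavLow_main {P : Measure (ON N)} (hP : HaarO P) {P' : Measure (ON (N + 1))}
    (hP' : HaarO P') (hk : 0 < k) (D : Blk) (L : LBd J) (s : ℝ) (x : XI k D.K J → ℝ)
    (κ : Fin N → Fin D.K) (lab : Fin N → Fin J) (l0 : Fin D.K) (j0 : Fin J) (τ : Fin J → ℝ)
    {A : ℝ} (hA : 0 ≤ A) (t v : ℝ) (i0 : Fin k) {G : (Fin (k + 1) → EC N) → ℝ}
    (hG : Tame (βC (N := N)) G)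
    (hb : ∀ ω, |Uc D L s x κ lab l0 j0 ω - (DInf D l0 (zx κ ω) (ep ω) + dB L τ j0 (ep ω))| ≤ G ω) :
    nest (mC P) (ζLB k) (k + 1) 0 (HU0 D L s x κ lab l0 j0 τ A t v i0) -
      Real.exp (2 * A) * EH1 P D L k s x κ lab (bb L τ j0 + t) v i0 G -
      pathE (mC P) (ζLB k) (k + 1) 0 (HU0 D L s x κ lab l0 j0 τ A t v i0)
        (fun ω => max (chi A (DInf D l0 (zx κ ω) (ep ω)) - DInf D l0 (zx κ ω) (ep ω)) 0) ≤
      FLW P' D L k s x (kc l0 κ) (Fin.cons j0 lab) t v i0 := by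
  have := prob_mC hP
  have hβ := dom_mC hP
  have hζ := exps_LB k
  have hH := CavLow_ham_HU0 D L s x κ lab l0 j0 τ hA t v i0
  obtain ⟨hmD, hmc⟩ := CavLow_meas_chi (k := k) D A κ l0
  have hU : Ham (βC (N := N)) (fun ω : Fin (k + 1) → EC N => Uc D L s x κ lab l0 j0 ω -
      (chi A (DInf D l0 (zx κ ω) (ep ω)) + dB L τ j0 (ep ω))) := by
    refine CavLow_ham_sub (CavLow_ham_Uc D L s x κ lab l0 j0) ?_
    refine CavLow_ham_bdd (C := A + (|bb L τ j0| + |cc L τ|)) ?_ ?_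
    · refine hmc.add ?_
      simp only [dB_eq]
      exact (CavLow_meas_ep.const_mul _).add_const _
    · intro ω
      refine (abs_add_le _ _).trans (add_le_add (chi_abs hA _) ?_)
      rw [dB_eq]
      refine (abs_add_le _ _).trans (add_le_add ?_ le_rfl)
      rw [abs_mul, CavLow_abs_ep, mul_one]
  have e : FLW P' D L k s x (kc l0 κ) (Fin.cons j0 lab) t v i0 =
      nest (mC P) (ζLB k) (k + 1) 0 (fun ω => HU0 D L s x κ lab l0 j0 τ A t v i0 ω +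
        (Uc D L s x κ lab l0 j0 ω -
          (chi A (DInf D l0 (zx κ ω) (ep ω)) + dB L τ j0 (ep ω)))) := by
    rw [FLW_coup hP hP' D L s x κ lab l0 j0 t v i0]
    congr 1
    funext ω
    rw [Wf_cp]
    unfold HU0 Uc
    ring
  have h1 := nest_tangent hβ hζ (k + 1) 0 hH hU
  rw [← e] at h1
  set M : (Fin (k + 1) → EC N) → ℝ := fun ω =>
    max (chi A (DInf D l0 (zx κ ω) (ep ω)) - DInf D l0 (zx κ ω) (ep ω)) 0 with hM
  have hDt := (tame_pieces (k := k) D x κ lab τ l0).2.2.2.2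
  have hct : Tame (βC (N := N)) (fun ω : Fin (k + 1) → EC N =>
      chi A (DInf D l0 (zx κ ω) (ep ω))) :=
    (CavLow_ham_bdd hmc (fun ω => chi_abs hA _)).tame hβ
  have hMt : Tame (βC (N := N)) M := by
    have h2 : Tame (βC (N := N)) (fun ω : Fin (k + 1) → EC N =>
      chi A (DInf D l0 (zx κ ω) (ep ω)) + (-1) * DInf D l0 (zx κ ω) (ep ω)) :=
      hct.add hβ (CavLow_tame_mul hP hDt (-1))
    refine CavLow_tame_le h2 ((hmc.sub hmD).max measurable_const) fun ω => ?_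
    have e2 : chi A (DInf D l0 (zx κ ω) (ep ω)) + (-1) * DInf D l0 (zx κ ω) (ep ω) =
      chi A (DInf D l0 (zx κ ω) (ep ω)) - DInf D l0 (zx κ ω) (ep ω) := by ring
    rw [e2, abs_of_nonneg (le_max_right _ _)]
    exact max_le (le_abs_self _) (abs_nonneg _)
  have hGM := CavLow_tame_mul hP (hG.add hβ hMt) (-1)
  have h3 := pathE_mono hβ hζ (k + 1) 0 hH hGM (hU.tame hβ) (fun ω => by
    have h4 := (abs_le.1 (hb ω)).1
    have h5 : chi A (DInf D l0 (zx κ ω) (ep ω)) - DInf D l0 (zx κ ω) (ep ω) ≤ M ω :=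
      le_max_left _ _
    linarith)
  rw [pathE_mul, pathE_add hβ hζ (k + 1) 0 hH hG hMt] at h3
  have h6 := EU0_le hP hk D L s x κ lab l0 j0 τ hA t v i0 hG
    (fun ω => (abs_nonneg _).trans (hb ω))
  linarith

theorem CavLow_tame_T (lab : Fin N → Fin J) (j : Fin J) (c : ℝ) :
    Tame (βN (N := N)) (fun ω : Fin (k + 1) → EN N => |TJ lab j (cfg k ω) / (N : ℝ) - c|) := by
  have hm : Measurable (fun ω : Fin (k + 1) → EN N => |TJ lab j (cfg k ω) / (N : ℝ) - c|) := by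
    have h1 : Measurable (fun σ : Fin N → Bool => |TJ lab j σ / (N : ℝ) - c|) :=
      measurable_of_finite _
    exact h1.comp (measurable_snd.comp (measurable_snd.comp
      (measurable_snd.comp (measurable_pi_apply (Fin.last k)))))
  refine ⟨hm, 1 + |c|, by positivity, fun ω => ?_⟩
  rw [abs_abs]
  have h1 : |TJ lab j (cfg k ω) / (N : ℝ)| ≤ 1 := by
    rw [abs_div, Nat.abs_cast]
    exact div_le_one_of_le₀ (TJ_abs lab j _) (Nat.cast_nonneg N)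
  have h2 : |TJ lab j (cfg k ω) / (N : ℝ) - c| ≤ 1 + |c| := (abs_sub _ _).trans (by linarith)
  have h3 : (1 : ℝ) ≤ Real.exp ((1 + |c|) * ∑ i, βN (ω i)) :=
    Real.one_le_exp (mul_nonneg (by positivity) (Finset.sum_nonneg fun i _ => CavLow_βN_nonneg _))
  have h4 : 0 ≤ 1 + |c| := by positivity
  nlinarith

theorem CavLow_Tdev {P : Measure (ON N)} (hP : HaarO P) (D : Blk) (L : LBd J) (s : ℝ)
    (x : XI k D.K J → ℝ) (κ : Fin N → Fin D.K) (lab : Fin N → Fin J) (τ : Fin J → ℝ)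
    (b v : ℝ) (i0 : Fin k) :
    EH1 P D L k s x κ lab b v i0 (fun ω => Tdev lab τ ω) =
      ∑ j, EL P D L k s x κ lab (fun ω => |TJ lab j (cfg k ω) / (N : ℝ) - τ j|) := by
  have := prob_mN hP (unifA N)
  have hβ := dom_mN hP (unifA N)
  have h1 : ∀ j ∈ Finset.univ, Tame (βN (N := N)) (fun ω : Fin (k + 1) → EN N =>
      |TJ lab j (cfg k ω) / (N : ℝ) - τ j|) := fun j _ => CavLow_tame_T lab j (τ j)
  have h2 := EH1_b0 hP D L s x κ lab b v i0 (tame_fsum hβ Finset.univ h1)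
  unfold Tdev
  rw [h2]
  unfold EL
  exact pathE_fsum hβ (exps_LB k) (k + 1) 0 (HN_ham k _) Finset.univ h1

theorem CavLow_G {P : Measure (ON N)} (hP : HaarO P) (D : Blk) (L : LBd J) {s : ℝ}
    (hs : 0 ≤ s) (x : XI k D.K J → ℝ) (κ : Fin N → Fin D.K) (lab : Fin N → Fin J) (l0 : Fin D.K)
    (τ : Fin J → ℝ) (b v : ℝ) (i0 : Fin k) {η C a1 a2 a3 : ℝ} (hη : 0 ≤ η) (hC : 0 ≤ C)
    (h1 : EH1 P D L k s x κ lab b v i0 (M1 D κ) ≤ a1)
    (h2 : EH1 P D L k s x κ lab b v i0 (M2 D x κ) ≤ a2)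
    (h3 : EH1 P D L k s x κ lab b v i0 (fun ω => dev κ D.d D.dbar (xi ω) ^ 4) ≤ a3) :
    Tame (βC (N := N)) (fun ω : Fin (k + 1) → EC N => η * M1 D κ ω +
      C * (dev κ D.d D.dbar (xi ω) ^ 4 + Tdev lab τ ω + 1 / (N : ℝ) + s * M2 D x κ ω)) ∧
    EH1 P D L k s x κ lab b v i0 (fun ω => η * M1 D κ ω +
      C * (dev κ D.d D.dbar (xi ω) ^ 4 + Tdev lab τ ω + 1 / (N : ℝ) + s * M2 D x κ ω)) ≤
      η * a1 + C * (a3 + ∑ j, EL P D L k s x κ lab (fun ω => |TJ lab j (cfg k ω) / (N : ℝ) - τ j|) +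
        1 / (N : ℝ) + s * a2) := by
  have := prob_mC hP
  have hβ := dom_mC hP
  have hζ := exps_LB k
  have hH := H1_ham D L s x κ lab b v i0
  obtain ⟨t1, t2, t3, t4, -⟩ := tame_pieces (k := k) D x κ lab τ l0
  have u1 := CavLow_tame_mul hP t1 η
  have u2 := CavLow_tame_mul hP t2 s
  have u3 := t4.add hβ t3
  have u0 := Tame.const (β := βC (N := N)) (n := k + 1) hβ (1 / (N : ℝ))
  have u4 := u3.add hβ u0
  have u5 := u4.add hβ u2
  have u6 := CavLow_tame_mul hP u5 C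
  refine ⟨u1.add hβ u6, ?_⟩
  have e := CavLow_Tdev hP D L s x κ lab τ b v i0
  unfold EH1 at h1 h2 h3 e ⊢
  rw [pathE_add hβ hζ (k + 1) 0 hH u1 u6, pathE_mul, pathE_mul,
    pathE_add hβ hζ (k + 1) 0 hH u4 u2, pathE_add hβ hζ (k + 1) 0 hH u3 u0,
    pathE_add hβ hζ (k + 1) 0 hH t4 t3, pathE_mul, pathE_const hβ hζ (k + 1) 0 hH, e]
  have v1 := mul_le_mul_of_nonneg_left h1 hη
  have v2 := mul_le_mul_of_nonneg_left h2 hs
  have v3 := mul_le_mul_of_nonneg_left (add_le_add (add_le_add (add_le_add h3 (le_refl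
    (∑ j, EL P D L k s x κ lab (fun ω => |TJ lab j (cfg k ω) / (N : ℝ) - τ j|))))
    (le_refl (1 / (N : ℝ)))) v2) hC
  exact add_le_add v1 v3

theorem CavLow_close (D : Blk) {η : ℝ} {κ : Fin N → Fin D.K} (h : D.Close η κ) :
    |(1 / (N : ℝ)) * ∑ a : Fin N, D.d (κ a) - D.dbar| ≤ (∑ l, |D.d l|) * η := by
  have h1 : ∑ a : Fin N, D.d (κ a) =
      ∑ l, ((Finset.univ.filter (fun a => κ a = l)).card : ℝ) * D.d l := by
    rw [← Finset.sum_fiberwise (s := Finset.univ) (g := κ) (f := fun a => D.d (κ a))]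
    refine Finset.sum_congr rfl fun l _ => ?_
    rw [Finset.sum_congr rfl (g := fun _ => D.d l)]
    · simp
    · intro a ha
      rw [(Finset.mem_filter.1 ha).2]
  have h2 : (1 / (N : ℝ)) * ∑ a : Fin N, D.d (κ a) - D.dbar =
      ∑ l, (((Finset.univ.filter (fun a => κ a = l)).card : ℝ) / (N : ℝ) - D.α l) * D.d l := by
    rw [h1, Finset.mul_sum]
    unfold Blk.dbar
    rw [← Finset.sum_sub_distrib]
    refine Finset.sum_congr rfl fun l _ => ?_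
    ring
  rw [h2, Finset.sum_mul]
  refine (Finset.abs_sum_le_sum_abs _ _).trans (Finset.sum_le_sum fun l _ => ?_)
  rw [abs_mul, mul_comm]
  exact mul_le_mul_of_nonneg_left (h l) (abs_nonneg _)

theorem CavLow_frac {X e : ℝ} (hX : 0 ≤ X) (he : 0 < e) : 0 < e / (X + 1) ∧ X * (e / (X + 1)) ≤ e := by
  refine ⟨by positivity, ?_⟩
  rw [mul_div_assoc', div_le_iff₀ (by positivity)]
  nlinarith

theorem CavLow_sqrt {C e x : ℝ} (hC : 0 ≤ C) (he : 0 < e) (hx : x ≤ (e / (C + 1)) ^ 2) :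
    C * Real.sqrt x ≤ e := by
  obtain ⟨h0, h1⟩ := CavLow_frac hC he
  have h2 : Real.sqrt x ≤ e / (C + 1) := by
    rw [← Real.sqrt_sq h0.le]
    exact Real.sqrt_le_sqrt hx
  exact (mul_le_mul_of_nonneg_left h2 hC).trans h1

theorem CavLow_bb {Km c₀ : ℝ} {L : LBd J} (hL : LOK L Km c₀) {τ : Fin J → ℝ}
    (hτ : ∀ j, |τ j| ≤ 1) (j0 : Fin J) {t : ℝ} (ht : |t| ≤ 1) :
    |bb L τ j0 + t| ≤ c₀ + 4 * Km + 1 := by
  unfold bb
  have h1 := abs_le.1 (hL.c j0)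
  have h2 := abs_le.1 (hL.gm j0)
  have h3 := abs_le.1 (hτ j0)
  have h4 := abs_le.1 ht
  have h5 := hL.k0
  have h6 := hL.k1
  rw [abs_le]
  constructor
  · nlinarith
  · nlinarith

theorem CavLow_sum {E C1 C2E C3 k1 η' s N ε T p : ℝ} (hE : 0 ≤ E) (hC1 : 0 ≤ C1)
    (hC3 : 0 ≤ C3) (hN : 1 ≤ N)
    (h1 : E * C2E * η' ≤ ε / 8) (h2 : E * C1 * T ≤ ε / 8)
    (h3 : E * C1 * (C2E * k1) * s ≤ ε / 8)
    (h4 : E * C1 * (C3 + 1) * (1 / N) ≤ ε / 16) (h5 : E * C1 * C3 * p ≤ ε / 16) :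
    E * (η' * C2E + C1 * (C3 * (1 / N ^ 2 + p) + T + 1 / N + s * (C2E * k1))) ≤ ε / 2 := by
  have h6 : 1 / N ^ 2 ≤ 1 / N := by
    apply one_div_le_one_div_of_le (by linarith)
    nlinarith
  have h7 : E * C1 * C3 * (1 / N ^ 2) ≤ E * C1 * C3 * (1 / N) :=
    mul_le_mul_of_nonneg_left h6 (by positivity)
  have e : E * (η' * C2E + C1 * (C3 * (1 / N ^ 2 + p) + T + 1 / N + s * (C2E * k1))) =
      E * C2E * η' + E * C1 * C3 * (1 / N ^ 2) + E * C1 * C3 * p + E * C1 * T +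
        E * C1 * (1 / N) + E * C1 * (C2E * k1) * s := by ring
  have e2 : E * C1 * (C3 + 1) * (1 / N) = E * C1 * C3 * (1 / N) + E * C1 * (1 / N) := by ring
  rw [e]
  linarith

/-- (d) LOWER BOUND.  PROOF: (a), `nest_tangent` at `HU0` with `U = Uc - (χ_A(DInf) + dB)`, so `FLW ≥ nest HU0 - E_{HU0}[|Uc - (DInf + dB)| + max (χ_A - DInf) 0]`;
`coup_pt1` with `η` small depending on `A`, (b), `momL_M`, `EH1_xi` + `dev_mom`, `EH1_b0` (for `Tdev`), (c), `mid_value`.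
`|N⁻¹ Σ d(κ a) - dbar| ≤ C η`. -/
theorem cav_low (D : Blk) (J : ℕ) (Km c₀ : ℝ) (hKm : 0 ≤ Km) (hc₀ : 0 ≤ c₀) {ε : ℝ} (hε : 0 < ε) :
    ∃ A₀ : ℝ, ∀ A ≥ A₀, ∃ δ₁ : ℝ, 0 < δ₁ ∧ ∀ k : ℕ, 0 < k → ∃ (s₀ : ℝ) (N₀ : ℕ) (η : ℝ),
      0 < s₀ ∧ 0 < η ∧ ∀ N ≥ N₀, ∀ (P : Measure (ON N)) (P' : Measure (ON (N + 1))), HaarO P →
      HaarO P' → ∀ (L : LBd J), LOK L Km c₀ → ∀ (s : ℝ), 0 ≤ s → s ≤ s₀ →
      ∀ (x : XI k D.K J → ℝ), XOK x → ∀ (κ : Fin N → Fin D.K) (lab : Fin N → Fin J), D.Close η κ →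
      ∀ (l0 : Fin D.K) (j0 : Fin J) (τ : Fin J → ℝ), (∀ j, |τ j| ≤ 1) →
      ∀ (t v : ℝ) (i0 : Fin k), |t| ≤ 1 → 0 ≤ v → v ≤ 1 →
      ∀ r : ℕ → Fin D.K → ℝ, (∀ i l, 0 ≤ r i l) → (∀ l, c2 r k l ≤ 1) →
      errS P D L k s x κ lab r ≤ δ₁ →
      ∑ j, EL P D L k s x κ lab (fun ω => |TJ lab j (cfg k ω) / (N : ℝ) - τ j|) ≤ δ₁ →
      FL P D L k s x κ lab + TTA D l0 A (bb L τ j0 + t) v i0 r + cc L τ - ε ≤
        FLW P' D L k s x (kc l0 κ) (Fin.cons j0 lab) t v i0 := by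
  set bm : ℝ := c₀ + 4 * Km + 1 with hbm
  have hbm0 : 0 ≤ bm := by positivity
  set Dd : ℝ := ∑ l, |D.d l| with hDd
  have hDd0 : 0 ≤ Dd := Finset.sum_nonneg fun l _ => abs_nonneg _
  obtain ⟨C2, hC2, hM⟩ := momL_M D J
  obtain ⟨C3, hC3, hdev⟩ := dev_mom Dd hDd0
  obtain ⟨C4, hC4, htr⟩ := EU0_trunc D bm hbm0
  set E2b : ℝ := Real.exp (2 * bm) with hE2b
  have hE2b0 : 0 < E2b := Real.exp_pos _
  refine ⟨max 2 (2 / (ε / 4 / (C4 + 1)) ^ 2), fun A hA => ?_⟩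
  have hA2 : 2 ≤ A := (le_max_left _ _).trans hA
  have hA0 : 0 ≤ A := by linarith
  have hAe : 2 / (ε / 4 / (C4 + 1)) ^ 2 ≤ A := (le_max_right _ _).trans hA
  set E : ℝ := Real.exp (2 * A) with hE
  have hE0 : 0 < E := Real.exp_pos _
  obtain ⟨C5, hC5, hmid⟩ := mid_value D A hA0
  obtain ⟨hη'0, hη'⟩ := CavLow_frac (X := E * (C2 * E2b)) (e := ε / 8) (by positivity) (by positivity)
  set η' : ℝ := ε / 8 / (E * (C2 * E2b) + 1) with hη'd
  obtain ⟨C1, hC1, hpt⟩ := coup_pt1 D J Km hKm hη'0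
  obtain ⟨hδ0, hδ⟩ := CavLow_frac (X := E * C1) (e := ε / 8) (by positivity) (by positivity)
  set δa : ℝ := ε / 8 / (E * C1 + 1) with hδad
  have hδb0 : 0 < (ε / 4 / (C5 + 1)) ^ 2 := by positivity
  refine ⟨min δa ((ε / 4 / (C5 + 1)) ^ 2), lt_min hδ0 hδb0, fun k hk => ?_⟩
  obtain ⟨hs0, hs⟩ := CavLow_frac (X := E * C1 * (C2 * E2b * (1 + (k : ℝ)))) (e := ε / 8)
    (by positivity) (by positivity)
  set sa : ℝ := ε / 8 / (E * C1 * (C2 * E2b * (1 + (k : ℝ))) + 1) with hsad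
  obtain ⟨hη0, hη⟩ := CavLow_frac (X := E * C1 * C3 * Dd ^ 4) (e := ε / 16)
    (by positivity) (by positivity)
  set ηa : ℝ := ε / 16 / (E * C1 * C3 * Dd ^ 4 + 1) with hηad
  refine ⟨min 1 sa, max 1 ⌈E * C1 * (C3 + 1) / (ε / 16)⌉₊, min 1 ηa, lt_min one_pos hs0,
    lt_min one_pos hη0, ?_⟩
  intro N hN P P' hP hP' L hL s hs1 hs2 x hx κ lab hκ l0 j0 τ hτ t v i0 ht hv0 hv1 r hr0 hr1 herr hT
  have hN1 : 1 ≤ N := (le_max_left _ _).trans hN
  have hN1r : (1 : ℝ) ≤ N := by exact_mod_cast hN1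
  have hN2 : E * C1 * (C3 + 1) / (ε / 16) ≤ N :=
    (Nat.le_ceil _).trans (by exact_mod_cast (le_max_right _ _).trans hN)
  have hs3 : s ≤ 1 := hs2.trans (min_le_left _ _)
  have hs4 : s ≤ sa := hs2.trans (min_le_right _ _)
  have hb := CavLow_bb hL hτ j0 ht
  set b : ℝ := bb L τ j0 + t with hbd
  have hEb : Real.exp (2 * |b|) ≤ E2b := Real.exp_le_exp.2 (by linarith)
  -- moments
  obtain ⟨m1, m2⟩ := hM hN1 hP L hk s hs1 hs3 x hx κ lab b v i0 hv0 hv1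
  have m1' : EH1 P D L k s x κ lab b v i0 (M1 D κ) ≤ C2 * E2b :=
    m1.trans (mul_le_mul_of_nonneg_left hEb hC2)
  have m2' : EH1 P D L k s x κ lab b v i0 (M2 D x κ) ≤ C2 * E2b * (1 + (k : ℝ)) :=
    m2.trans (mul_le_mul_of_nonneg_right (mul_le_mul_of_nonneg_left hEb hC2) (by positivity))
  have hκ' := CavLow_close D hκ
  set q : ℝ := (1 / (N : ℝ)) * ∑ a : Fin N, D.d (κ a) - D.dbar with hqd
  have hq4 : |q| ^ 4 ≤ Dd ^ 4 * (min 1 ηa) := by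
    have h1 : |q| ^ 4 ≤ (Dd * min 1 ηa) ^ 4 := pow_le_pow_left₀ (abs_nonneg _) hκ' 4
    have h2 : 0 ≤ min 1 ηa := (lt_min one_pos hη0).le
    have h3 : min 1 ηa ≤ 1 := min_le_left _ _
    have h4 : (min 1 ηa) ^ 4 ≤ min 1 ηa := pow_le_of_le_one h2 h3 (by norm_num)
    rw [mul_pow] at h1
    exact h1.trans (mul_le_mul_of_nonneg_left h4 (by positivity))
  have m3 : EH1 P D L k s x κ lab b v i0 (fun ω => dev κ D.d D.dbar (xi ω) ^ 4) ≤
      C3 * (1 / (N : ℝ) ^ 2 + |q| ^ 4) := by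
    rw [EH1_xi hP D L hk s x κ lab b v i0 (fun ξ => dev κ D.d D.dbar ξ ^ 4)]
    exact (hdev hN1 κ D.d D.dbar (fun l =>
      Finset.single_le_sum (f := fun l => |D.d l|) (fun _ _ => abs_nonneg _)
        (Finset.mem_univ l))).2
  obtain ⟨hGt, hG⟩ := CavLow_G hP D L hs1 x κ lab l0 τ b v i0 hη'0.le hC1 m1' m2' m3
  have hpt' := hpt (N := N) (k := k) hN1 L hL.k0 hL.k1 hL.gm s hs1 hs3 x hx κ lab l0 j0 τ hτ
  have hmain := CavLow_main hP hP' hk D L s x κ lab l0 j0 τ hA0 t v i0 hGt hpt'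
  rw [← hbd] at hmain
  have htr' := htr A hA2 hN1 hP hk L s x κ lab l0 j0 τ t v i0 hb hv0 hv1
  have hmid' := abs_le.1 (hmid hN1 hP hk L s x κ lab l0 j0 τ t v i0 r hr0 hr1)
  have f1 : C5 * Real.sqrt (errS P D L k s x κ lab r) ≤ ε / 4 :=
    CavLow_sqrt hC5 (by positivity) (herr.trans (min_le_right _ _))
  have f2 : C4 * Real.sqrt (Real.exp (-A) + 1 / A) ≤ ε / 4 := by
    refine CavLow_sqrt hC4 (by positivity) ?_
    have hAp : 0 < A := by linarith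
    have h1 : Real.exp (-A) ≤ 1 / A := by
      rw [Real.exp_neg, one_div]
      have h2 := Real.add_one_le_exp A
      exact inv_anti₀ hAp (by linarith)
    have h3 : 0 < (ε / 4 / (C4 + 1)) ^ 2 := by positivity
    have h4 : 2 / A ≤ (ε / 4 / (C4 + 1)) ^ 2 := by
      rw [div_le_iff₀ hAp]
      rw [div_le_iff₀ h3] at hAe
      linarith
    have h5 : 2 / A = 1 / A + 1 / A := by ring
    linarith
  have f3 : E * (η' * (C2 * E2b) + C1 * (C3 * (1 / (N : ℝ) ^ 2 + |q| ^ 4) +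
      (∑ j, EL P D L k s x κ lab (fun ω => |TJ lab j (cfg k ω) / (N : ℝ) - τ j|)) +
      1 / (N : ℝ) + s * (C2 * E2b * (1 + (k : ℝ))))) ≤ ε / 2 := by
    refine CavLow_sum hE0.le hC1 hC3 hN1r hη' ?_ ?_ ?_ ?_
    · exact (mul_le_mul_of_nonneg_left (hT.trans (min_le_left _ _)) (by positivity)).trans hδ
    · exact (mul_le_mul_of_nonneg_left hs4 (by positivity)).trans hs
    · rw [mul_one_div, div_le_iff₀ (by linarith)]
      rw [div_le_iff₀ (by positivity)] at hN2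
      linarith
    · refine le_trans ?_ hη
      have h1 : |q| ^ 4 ≤ Dd ^ 4 * ηa :=
        hq4.trans (mul_le_mul_of_nonneg_left (min_le_right _ _) (by positivity))
      have h2 := mul_le_mul_of_nonneg_left h1 (show 0 ≤ E * C1 * C3 by positivity)
      linarith
  have f4 := mul_le_mul_of_nonneg_left hG hE0.le
  linarith [hmid'.1]

end Crest.Agent.RI
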