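import Crest.Agent.RI.CavD
import Crest.Agent.RI.Mid

/-!
# Row 164, Part 8.3: upper bound for the increment
-/

set_option autoImplicit false

namespace Crest.Agent.RI

open MeasureTheory ProbabilityTheory

variable {N K J k : ℕ}

private theorem CavUp_βnn (x : EC N) : 0 ≤ βC x := by
  unfold βC βC1 βX βN
  positivity

private theorem CavUp_β1 (x : EC N) :
    ∑ a, |(Fin.cons x.2.1 x.1.1.2.1 : Fin (N + 1) → ℝ) a| ≤ βC x := by
  rw [Fin.sum_univ_succ]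
  simp only [Fin.cons_zero, Fin.cons_succ]
  unfold βC βC1 βX βN
  have h1 : 0 ≤ ∑ a, |x.1.1.2.2.1 a| := Finset.sum_nonneg fun _ _ => abs_nonneg _
  have h2 : 0 ≤ ∑ a, |x.1.2.1 a| := Finset.sum_nonneg fun _ _ => abs_nonneg _
  have h3 := abs_nonneg x.1.2.2
  linarith

private theorem CavUp_β2 (x : EC N) :
    ∑ a, |(Fin.cons x.1.2.2 x.1.1.2.2.1 : Fin (N + 1) → ℝ) a| ≤ βC x := by
  rw [Fin.sum_univ_succ]
  simp only [Fin.cons_zero, Fin.cons_succ]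
  unfold βC βC1 βX βN
  have h1 : 0 ≤ ∑ a, |x.1.1.2.1 a| := Finset.sum_nonneg fun _ _ => abs_nonneg _
  have h2 : 0 ≤ ∑ a, |x.1.2.1 a| := Finset.sum_nonneg fun _ _ => abs_nonneg _
  have h3 := abs_nonneg x.2.1
  linarith

private theorem CavUp_β (e x : EC N) : βN (Tc e x) ≤ (N + 2) * βC x := by
  have h1 := CavUp_β1 x
  have h2 := CavUp_β2 x
  have h0 := CavUp_βnn x
  set v : Fin (N + 1) → ℝ := Fin.cons x.1.2.2 x.1.1.2.2.1 with hv
  have h3 : ∑ a, |avec (cM e.1.2.1) v a| ≤ ((N : ℝ) + 1) * ∑ b, |v b| := by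
    have h4 : ∀ a, |avec (cM e.1.2.1) v a| ≤ ∑ b, |v b| := by
      intro a
      unfold avec
      refine (Finset.abs_sum_le_sum_abs _ _).trans (Finset.sum_le_sum fun b _ => ?_)
      rw [abs_mul]
      have h5 := (cM_isO e.1.2.1).abs_le a b
      have h6 := abs_nonneg (v b)
      nlinarith
    refine (Finset.sum_le_sum fun a _ => h4 a).trans (le_of_eq ?_)
    simp
  have h7 : βN (Tc e x) = ∑ a, |(Fin.cons x.2.1 x.1.1.2.1 : Fin (N + 1) → ℝ) a| +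
      ∑ a, |avec (cM e.1.2.1) v a| := rfl
  rw [h7]
  have h8 : (0 : ℝ) ≤ N := Nat.cast_nonneg N
  nlinarith

private theorem CavUp_ham_cp {H : (Fin (k + 1) → EN (N + 1)) → ℝ}
    (hH : Ham (βN (N := N + 1)) H) : Ham (βC (N := N)) (fun ω => H (cp ω)) := by
  obtain ⟨C, h0, h1⟩ := hH.bound
  refine ⟨hH.meas.comp measurable_cp, C * (N + 2), by positivity, fun ω => ?_⟩
  have h2 : ∑ i, βN (cp ω i) ≤ ((N : ℝ) + 2) * ∑ i, βC (ω i) := by
    rw [Finset.mul_sum]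
    exact Finset.sum_le_sum fun i _ => CavUp_β (ω 0) (ω i)
  have h3 : (0 : ℝ) ≤ N := Nat.cast_nonneg N
  calc |H (cp ω)| ≤ C * (1 + ∑ i, βN (cp ω i)) := h1 _
    _ ≤ C * (((N : ℝ) + 2) * (1 + ∑ i, βC (ω i))) := by
        refine mul_le_mul_of_nonneg_left ?_ h0
        nlinarith
    _ = C * (N + 2) * (1 + ∑ i, βC (ω i)) := by ring

private theorem CavUp_meas_ep : Measurable (fun ω : Fin (k + 1) → EC N => ep ω) := by
  unfold ep
  exact (measurable_of_countable spin).comp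
    ((measurable_snd.comp measurable_snd).comp (measurable_pi_apply (Fin.last k)))

private theorem CavUp_ham_bdd {n : ℕ} {H : (Fin n → EC N) → ℝ} (hm : Measurable H) (C : ℝ)
    (hC : 0 ≤ C) (hb : ∀ ω, |H ω| ≤ C) : Ham (βC (N := N)) H := by
  refine ⟨hm, C, hC, fun ω => (hb ω).trans ?_⟩
  have h1 : 0 ≤ ∑ i, βC (ω i) := Finset.sum_nonneg fun i _ => CavUp_βnn _
  nlinarith [mul_nonneg hC h1]

private theorem CavUp_ep (ω : Fin (k + 1) → EC N) : |ep ω| = 1 := abs_spin _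

/-- the field on the new spin -/
private theorem CavUp_ham_W (t v : ℝ) (i0 : Fin k) : Ham (βC (N := N))
    (fun ω : Fin (k + 1) → EC N => (t + v * (ω i0.castSucc).2.1) * ep ω) := by
  refine ⟨?_, |t| + |v|, by positivity, fun ω => ?_⟩
  · refine Measurable.mul ?_ CavUp_meas_ep
    exact measurable_const.add (((measurable_fst.comp measurable_snd).comp
      (measurable_pi_apply i0.castSucc)).const_mul v)
  · rw [abs_mul, CavUp_ep, mul_one]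
    have h1 : |(ω i0.castSucc).2.1| ≤ βC (ω i0.castSucc) := by
      unfold βC βC1 βX βN
      have h1 : 0 ≤ ∑ a, |(ω i0.castSucc).1.1.2.1 a| := Finset.sum_nonneg fun _ _ => abs_nonneg _
      have h2 : 0 ≤ ∑ a, |(ω i0.castSucc).1.2.1 a| := Finset.sum_nonneg fun _ _ => abs_nonneg _
      have h3 : 0 ≤ ∑ a, |(ω i0.castSucc).1.1.2.2.1 a| := Finset.sum_nonneg fun _ _ => abs_nonneg _
      have h4 := abs_nonneg (ω i0.castSucc).1.2.2
      linarith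
    have h2 : βC (ω i0.castSucc) ≤ ∑ j, βC (ω j) :=
      Finset.single_le_sum (f := fun j => βC (ω j)) (fun j _ => CavUp_βnn _) (Finset.mem_univ _)
    have h3 : |t + v * (ω i0.castSucc).2.1| ≤ |t| + |v| * |(ω i0.castSucc).2.1| := by
      rw [← abs_mul]; exact abs_add_le _ _
    have h4 : |v| * |(ω i0.castSucc).2.1| ≤ |v| * ∑ j, βC (ω j) :=
      mul_le_mul_of_nonneg_left (h1.trans h2) (abs_nonneg _)
    have h5 : 0 ≤ |t| * ∑ j, βC (ω j) :=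
      mul_nonneg (abs_nonneg _) (Finset.sum_nonneg fun j _ => CavUp_βnn _)
    have h6 := abs_nonneg v
    nlinarith

private theorem CavUp_ham_H2 (D : Blk) (L : LBd J) (s : ℝ) (x : XI k D.K J → ℝ)
    (κ : Fin N → Fin D.K) (lab : Fin N → Fin J) (l0 : Fin D.K) (j0 : Fin J) (t v : ℝ)
    (i0 : Fin k) : Ham (βC (N := N)) (fun ω : Fin (k + 1) → EC N =>
      HN k (θL' D L k s x κ lab l0 j0) (cp ω) + Wf k t v i0 (cp ω)) := by
  have h1 := (CavUp_ham_cp (HN_ham k (θL' D L k s x κ lab l0 j0))).add0 CavUp_βnn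
    (CavUp_ham_W t v i0)
  have h2 : (fun ω : Fin (k + 1) → EC N => HN k (θL' D L k s x κ lab l0 j0) (cp ω) +
      Wf k t v i0 (cp ω)) = fun ω => HN k (θL' D L k s x κ lab l0 j0) (cp ω) +
      (t + v * (ω i0.castSucc).2.1) * ep ω := by
    funext ω
    rw [Wf_cp]
  rw [h2]
  exact h1

private theorem CavUp_ham_HU0 (D : Blk) (L : LBd J) (s : ℝ) (x : XI k D.K J → ℝ)
    (κ : Fin N → Fin D.K) (lab : Fin N → Fin J) (l0 : Fin D.K) (j0 : Fin J) (τ : Fin J → ℝ)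
    {A : ℝ} (hA : 0 ≤ A) (t v : ℝ) (i0 : Fin k) :
    Ham (βC (N := N)) (HU0 D L s x κ lab l0 j0 τ A t v i0) := by
  have h1 := H1_ham (N := N) D L s x κ lab t v i0
  have h2 : Ham (βC (N := N)) (fun ω : Fin (k + 1) → EC N =>
      chi A (DInf D l0 (zx κ ω) (ep ω))) := by
    refine CavUp_ham_bdd ((measurable_chi A).1.comp
      (tame_pieces D x κ lab τ l0).2.2.2.2.meas) A hA fun ω => chi_abs hA _
  have h3 : Ham (βC (N := N)) (fun ω : Fin (k + 1) → EC N => dB L τ j0 (ep ω)) := by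
    refine CavUp_ham_bdd ?_ (|bb L τ j0| + |cc L τ|) (by positivity) fun ω => ?_
    · unfold dB
      exact ((CavUp_meas_ep.const_mul _).add_const _).add_const _
    · rw [dB_eq]
      refine (abs_add_le _ _).trans ?_
      rw [abs_mul, CavUp_ep, mul_one]
  have h4 := (h1.add0 CavUp_βnn h2).add0 CavUp_βnn h3
  have h5 : HU0 D L s x κ lab l0 j0 τ A t v i0 = fun ω : Fin (k + 1) → EC N =>
      H1 D L s x κ lab t v i0 ω + chi A (DInf D l0 (zx κ ω) (ep ω)) + dB L τ j0 (ep ω) := by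
    funext ω
    unfold HU0 H1
    ring
  rw [h5]
  exact h4

private theorem CavUp_close (D : Blk) {η : ℝ} (hN : 1 ≤ N) (κ : Fin N → Fin D.K)
    (h : D.Close η κ) :
    |(1 / (N : ℝ)) * ∑ a : Fin N, D.d (κ a) - D.dbar| ≤ η * ∑ l, |D.d l| := by
  have hN0 : (0 : ℝ) < N := by exact_mod_cast hN
  have h1 : (1 / (N : ℝ)) * ∑ a : Fin N, D.d (κ a) - D.dbar =
      ∑ l, (((Finset.univ.filter (fun a => κ a = l)).card : ℝ) / (N : ℝ) - D.α l) * D.d l := by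
    have h2 : ∑ a : Fin N, D.d (κ a) =
        ∑ l, ((Finset.univ.filter (fun a => κ a = l)).card : ℝ) * D.d l := by
      rw [← Finset.sum_fiberwise_of_maps_to (s := Finset.univ) (t := Finset.univ) (g := κ)
        (fun a _ => Finset.mem_univ _)]
      refine Finset.sum_congr rfl fun l _ => ?_
      rw [Finset.sum_congr rfl (g := fun _ => D.d l) fun a ha => by
        rw [(Finset.mem_filter.1 ha).2]]
      rw [Finset.sum_const, nsmul_eq_mul]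
    rw [h2, Finset.mul_sum]
    unfold Blk.dbar
    rw [← Finset.sum_sub_distrib]
    refine Finset.sum_congr rfl fun l _ => ?_
    ring
  rw [h1, Finset.mul_sum]
  refine (Finset.abs_sum_le_sum_abs _ _).trans (Finset.sum_le_sum fun l _ => ?_)
  rw [abs_mul]
  exact mul_le_mul_of_nonneg_right (h l) (abs_nonneg _)

private theorem CavUp_fr {c ε : ℝ} (hc : 0 ≤ c) (hε : 0 < ε) : c * (ε / (8 * (c + 1))) ≤ ε / 8 := by
  have e1 : c * (ε / (8 * (c + 1))) = ε / 8 * (c / (c + 1)) := by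
    field_simp
  rw [e1]
  have e2 : c / (c + 1) ≤ 1 := (div_le_one (by positivity)).2 (by linarith)
  nlinarith

private theorem CavUp_a1 {c ε E : ℝ} (hc : 0 ≤ c) (hε : 0 < ε) (hE : E ≤ c) :
    2 * (ε / (16 * (c + 1))) * E ≤ ε / 8 := by
  refine (mul_le_mul_of_nonneg_left hE (by positivity)).trans ?_
  refine le_trans (le_of_eq ?_) (CavUp_fr hc hε)
  field_simp
  ring

private theorem CavUp_a2 {c ε E : ℝ} (hc : 0 ≤ c) (hε : 0 < ε)
    (hE : E ≤ (ε / (8 * (c + 1))) ^ 2) : c * Real.sqrt E ≤ ε / 8 := by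
  have e3 : Real.sqrt E ≤ ε / (8 * (c + 1)) := by
    rw [show ε / (8 * (c + 1)) = Real.sqrt ((ε / (8 * (c + 1))) ^ 2) from
      (Real.sqrt_sq (by positivity)).symm]
    exact Real.sqrt_le_sqrt hE
  exact (mul_le_mul_of_nonneg_left e3 hc).trans (CavUp_fr hc hε)

private theorem CavUp_a3 {c ε E S R : ℝ} (hc : 0 ≤ c) (hε : 0 < ε) (hE : E ≤ 400 * S + R)
    (hS : S ≤ ε / (3200 * (c + 1))) : c * E ≤ ε / 8 + c * R := by
  refine (mul_le_mul_of_nonneg_left hE hc).trans ?_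
  rw [mul_add]
  refine add_le_add ?_ le_rfl
  refine (mul_le_mul_of_nonneg_left (mul_le_mul_of_nonneg_left hS (by norm_num)) hc).trans ?_
  refine le_trans (le_of_eq ?_) (CavUp_fr hc hε)
  field_simp
  ring

private theorem CavUp_a4 {c c' ε E s k : ℝ} (hc : 0 ≤ c) (hc' : 0 ≤ c') (hk : 0 ≤ k) (hs0 : 0 ≤ s)
    (hε : 0 < ε) (hE : E ≤ c' * (1 + k)) (hs : s ≤ ε / (8 * (c * c' * (1 + k) + 1))) :
    c * s * E ≤ ε / 8 := by
  refine (mul_le_mul_of_nonneg_left hE (by positivity)).trans ?_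
  have e4 : c * s * (c' * (1 + k)) = c * c' * (1 + k) * s := by ring
  rw [e4]
  have e5 : 0 ≤ c * c' * (1 + k) := by positivity
  exact (mul_le_mul_of_nonneg_left hs e5).trans (CavUp_fr e5 hε)

private theorem CavUp_a5 {c c' D₀ ε E X n : ℝ} (hc : 0 ≤ c) (hc' : 0 ≤ c') (hD : 0 ≤ D₀)
    (hε : 0 < ε) (hn : 1 ≤ n) (hX0 : 0 ≤ X) (hE : E ≤ c' * (1 / n ^ 2 + X ^ 4))
    (hX : X ≤ min 1 (ε / 8) / ((D₀ + 1) * (c * c' + 1)) * D₀) :
    c * E ≤ c * c' * (1 / n) + ε / 8 := by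
  refine (mul_le_mul_of_nonneg_left hE hc).trans ?_
  have q0 : 0 < min (1 : ℝ) (ε / 8) := lt_min one_pos (by positivity)
  have q1 : 0 ≤ c * c' := by positivity
  have e3 : X ≤ min 1 (ε / 8) / (c * c' + 1) := by
    refine hX.trans ?_
    have e4 : min 1 (ε / 8) / ((D₀ + 1) * (c * c' + 1)) * D₀ =
        min 1 (ε / 8) / (c * c' + 1) * (D₀ / (D₀ + 1)) := by
      field_simp
    rw [e4]
    have e5 : D₀ / (D₀ + 1) ≤ 1 := (div_le_one (by positivity)).2 (by linarith)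
    have e6 : 0 ≤ min 1 (ε / 8) / (c * c' + 1) := by positivity
    nlinarith
  have e7 : min 1 (ε / 8) / (c * c' + 1) ≤ min 1 (ε / 8) :=
    div_le_self q0.le (by linarith)
  have e8 : X ≤ 1 := e3.trans (e7.trans (min_le_left _ _))
  have e9 : X ^ 4 ≤ X := pow_le_of_le_one hX0 e8 (by norm_num)
  have e10 : c * c' * X ≤ ε / 8 := by
    have e11 : X ≤ ε / (8 * (c * c' + 1)) := by
      refine e3.trans ?_
      rw [← div_div]
      exact div_le_div_of_nonneg_right (min_le_right _ _) (by positivity)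
    exact (mul_le_mul_of_nonneg_left e11 q1).trans (CavUp_fr q1 hε)
  have e15 : 1 / n ^ 2 ≤ 1 / n := by
    apply one_div_le_one_div_of_le (by linarith)
    nlinarith
  calc c * (c' * (1 / n ^ 2 + X ^ 4)) = c * c' * (1 / n ^ 2) + c * c' * X ^ 4 := by ring
    _ ≤ c * c' * (1 / n) + c * c' * X :=
        add_le_add (mul_le_mul_of_nonneg_left e15 q1) (mul_le_mul_of_nonneg_left e9 q1)
    _ ≤ _ := by linarith

private theorem CavUp_fin {F V W T E1 E2 E3 E4 C1 C12 c n ε J η₀ s C4 S : ℝ}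
    (htan : F + T ≤ W) (p1 : |T| ≤ S)
    (p0 : S ≤ 2 * η₀ * E1 + (C12 * E2 + (C1 * E3 + (C1 * s * E4 + C1 * (1 / n)))))
    (m6 : |W - V| ≤ c) (a2 : c ≤ ε / 8) (a1 : 2 * η₀ * E1 ≤ ε / 8)
    (a3 : C1 * E3 ≤ ε / 8 + C1 * (2 * J / n)) (a4 : C1 * s * E4 ≤ ε / 8)
    (a5 : C12 * E2 ≤ C12 * C4 * (1 / n) + ε / 8) (hε : 0 < ε)
    (a6 : (C12 * C4 + C1 * (2 * J + 1)) * (1 / n) ≤ ε / 8) : F ≤ V + ε := by
  have a7 : (C12 * C4 + C1 * (2 * J + 1)) * (1 / n) = C12 * C4 * (1 / n) + C1 * (2 * J / n) +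
      C1 * (1 / n) := by
    ring
  have b1 := (abs_le.1 p1).1
  have b2 := (abs_le.1 m6).2
  linarith

/-- UPPER BOUND.  PROOF: `nest_tangent` at `H_{S'}(cp) + W` with `U = χ_A(DInf) + dB - Uc`: `nest HU0 ≥ FLW - E_{S',W}|Uc - (DInf + dB)| - E_{S',W}|DInf - χ_A(DInf)|`;
`coup_pt1`, `coup_pt2`, `momUC_M`, `EH2_xi` + `dev_mom`, `momUC_T`, `mid_value`. -/
theorem cav_up (D : Blk) (J : ℕ) (Km c₀ Ty : ℝ) (hKm : 0 ≤ Km) (hc₀ : 0 ≤ c₀) (hTy : 0 ≤ Ty)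
    {ε : ℝ} (hε : 0 < ε) :
    ∃ A₀ : ℝ, ∀ A ≥ A₀, ∃ δ₁ : ℝ, 0 < δ₁ ∧ ∀ k : ℕ, 0 < k → ∃ (s₀ : ℝ) (N₀ : ℕ) (η : ℝ),
      0 < s₀ ∧ 0 < η ∧ ∀ N ≥ N₀, ∀ (P : Measure (ON N)) (P' : Measure (ON (N + 1))), HaarO P →
      HaarO P' → ∀ (L : LBd J), LOK L Km c₀ → ∀ (s : ℝ), 0 ≤ s → s ≤ s₀ →
      ∀ (x : XI k D.K J → ℝ), XOK x → ∀ (κ : Fin N → Fin D.K) (lab : Fin N → Fin J), D.Close η κ →
      ∀ (l0 : Fin D.K) (j0 : Fin J), Typ Ty (kc l0 κ) (Fin.cons j0 lab : Fin (N + 1) → Fin J) →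
      ∀ (τ : Fin J → ℝ), (∀ j, |τ j| ≤ 1) →
      ∀ (t v : ℝ) (i0 : Fin k), |t| ≤ 1 → 0 ≤ v → v ≤ 1 →
      ∀ r : ℕ → Fin D.K → ℝ, (∀ i l, 0 ≤ r i l) → (∀ l, c2 r k l ≤ 1) →
      errS P D L k s x κ lab r ≤ δ₁ →
      ∑ j, EL P' D L k s x (kc l0 κ) (Fin.cons j0 lab)
        (fun ω => |TJ (Fin.cons j0 lab : Fin (N + 1) → Fin J) j (cfg k ω) / ((N : ℝ) + 1) - τ j|) ≤
        δ₁ →
      FLW P' D L k s x (kc l0 κ) (Fin.cons j0 lab) t v i0 ≤
        FL P D L k s x κ lab + TTA D l0 A (bb L τ j0 + t) v i0 r + cc L τ + ε := by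
  obtain ⟨C3, hC3, h3⟩ := momUC_M D J Ty hTy
  have hη₀p : 0 < ε / (16 * (C3 + 1)) := by positivity
  obtain ⟨C1, hC1, h1⟩ := coup_pt1 D J Km hKm hη₀p
  obtain ⟨A₀, C2, hA₀, hC2, h2⟩ := coup_pt2 D hη₀p
  obtain ⟨D₀, hD₀⟩ : ∃ D₀ : ℝ, D₀ = ∑ l, |D.d l| := ⟨_, rfl⟩
  have hD₀p : 0 ≤ D₀ := by rw [hD₀]; exact Finset.sum_nonneg fun _ _ => abs_nonneg _
  obtain ⟨C4, hC4, h4⟩ := dev_mom D₀ hD₀p
  refine ⟨A₀, fun A hA => ?_⟩
  have hA2 : 2 ≤ A := hA₀.trans hA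
  have hA0 : 0 ≤ A := by linarith
  obtain ⟨C5, hC5, h5⟩ := mid_value D A hA0
  refine ⟨min ((ε / (8 * (C5 + 1))) ^ 2) (ε / (3200 * (C1 + 1))),
    lt_min (by positivity) (by positivity), fun k hk => ?_⟩
  obtain ⟨N₀, hN₀⟩ := exists_nat_gt (8 * ((C1 + C2) * C4 + C1 * (2 * J + 1)) / ε)
  have hηp : 0 < min 1 (ε / 8) / ((D₀ + 1) * ((C1 + C2) * C4 + 1)) := by
    have : 0 < min (1 : ℝ) (ε / 8) := lt_min one_pos (by positivity)
    positivity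
  refine ⟨min 1 (ε / (8 * (C1 * C3 * (1 + k) + 1))), N₀ + 1,
    min 1 (ε / 8) / ((D₀ + 1) * ((C1 + C2) * C4 + 1)), lt_min one_pos (by positivity), hηp, ?_⟩
  intro N hN P P' hP hP' L hL s hs0 hs x hx κ lab hκ l0 j0 hTyp τ hτ t v i0 ht hv0 hv1 r hr0 hr1
    herr hT
  have hN1 : 1 ≤ N := by omega
  have hNr : (1 : ℝ) ≤ N := by exact_mod_cast hN1
  have hN0 : (0 : ℝ) < N := by linarith
  have hs1 : s ≤ 1 := hs.trans (min_le_left _ _)
  have := prob_mC hP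
  have hβ := dom_mC hP
  have hζ := exps_LB k
  -- Hamiltonians
  have hH2 := CavUp_ham_H2 (N := N) D L s x κ lab l0 j0 t v i0
  have hHU := CavUp_ham_HU0 (N := N) D L s x κ lab l0 j0 τ hA0 t v i0
  obtain ⟨tM1, tM2, tT, tdev, tD⟩ := tame_pieces (N := N) D x κ lab τ l0
  set H2 : (Fin (k + 1) → EC N) → ℝ := fun ω => HN k (θL' D L k s x κ lab l0 j0) (cp ω) +
    Wf k t v i0 (cp ω) with hH2d
  set HU : (Fin (k + 1) → EC N) → ℝ := HU0 D L s x κ lab l0 j0 τ A t v i0 with hHUd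
  have hU : Ham (βC (N := N)) (fun ω => HU ω - H2 ω) := by
    have h6 := hHU.add0 CavUp_βnn (hH2.smul (-1))
    have h7 : (fun ω => HU ω - H2 ω) = fun ω => HU ω + -1 * H2 ω := by
      funext ω; ring
    rw [h7]
    exact h6
  have htan := nest_tangent hβ hζ (k + 1) 0 hH2 hU
  have e1 : (fun ω => H2 ω + (HU ω - H2 ω)) = HU := by
    funext ω; ring
  rw [e1] at htan
  have hUabs : ∀ ω, |HU ω - H2 ω| ≤ 2 * (ε / (16 * (C3 + 1))) * M1 D κ ω +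
      ((C1 + C2) * dev κ D.d D.dbar (xi ω) ^ 4 + (C1 * Tdev lab τ ω + (C1 * s * M2 D x κ ω +
        C1 * (1 / (N : ℝ))))) := by
    intro ω
    have e2 : HU ω - H2 ω = -(Uc D L s x κ lab l0 j0 ω - (DInf D l0 (zx κ ω) (ep ω) +
        dB L τ j0 (ep ω))) - (DInf D l0 (zx κ ω) (ep ω) - chi A (DInf D l0 (zx κ ω) (ep ω))) := by
      simp only [hHUd, hH2d]
      rw [Wf_cp]
      unfold HU0 Uc
      ring
    rw [e2]
    have h6 := h1 hN1 L hL.k0 hL.k1 hL.gm s hs0 hs1 x hx κ lab l0 j0 τ hτ ω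
    have h7 := h2 A hA hN1 κ l0 ω
    refine (abs_sub _ _).trans ?_
    rw [abs_neg]
    refine (add_le_add h6 h7).trans (le_of_eq ?_)
    ring
  have tU : Tame (βC (N := N)) (fun ω => |HU ω - H2 ω|) := by
    obtain ⟨C, hC, hb⟩ := (hU.tame hβ).bound
    exact ⟨(hU.tame hβ).meas.abs, C, hC, fun ω => by rw [abs_abs]; exact hb ω⟩
  have tc : ∀ (c : ℝ) {Φ : (Fin (k + 1) → EC N) → ℝ}, Tame (βC (N := N)) Φ →
      Tame (βC (N := N)) (fun ω => c * Φ ω) := fun c Φ h => (Tame.const hβ c).mul hβ h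
  have t4 : Tame (βC (N := N)) (fun ω : Fin (k + 1) → EC N => C1 * s * M2 D x κ ω +
      C1 * (1 / (N : ℝ))) := (tc _ tM2).add hβ (Tame.const hβ _)
  have t3 : Tame (βC (N := N)) (fun ω : Fin (k + 1) → EC N => C1 * Tdev lab τ ω +
      (C1 * s * M2 D x κ ω + C1 * (1 / (N : ℝ)))) := (tc _ tT).add hβ t4
  have t2 : Tame (βC (N := N)) (fun ω : Fin (k + 1) → EC N =>
      (C1 + C2) * dev κ D.d D.dbar (xi ω) ^ 4 + (C1 * Tdev lab τ ω +
      (C1 * s * M2 D x κ ω + C1 * (1 / (N : ℝ))))) := (tc _ tdev).add hβ t3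
  have t1 : Tame (βC (N := N)) (fun ω : Fin (k + 1) → EC N => 2 * (ε / (16 * (C3 + 1))) * M1 D κ ω +
      ((C1 + C2) * dev κ D.d D.dbar (xi ω) ^ 4 + (C1 * Tdev lab τ ω +
      (C1 * s * M2 D x κ ω + C1 * (1 / (N : ℝ)))))) := (tc _ tM1).add hβ t2
  have p0 := pathE_mono hβ hζ (k + 1) 0 hH2 tU t1 hUabs
  rw [pathE_add hβ hζ (k + 1) 0 hH2 (tc _ tM1) t2, pathE_add hβ hζ (k + 1) 0 hH2 (tc _ tdev) t3,
    pathE_add hβ hζ (k + 1) 0 hH2 (tc _ tT) t4,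
    pathE_add hβ hζ (k + 1) 0 hH2 (tc _ tM2) (Tame.const hβ _), pathE_const hβ hζ (k + 1) 0 hH2,
    pathE_mul, pathE_mul, pathE_mul, pathE_mul] at p0
  have p1 := pathE_abs_le hβ hζ (k + 1) 0 hH2 (hU.tame hβ)
  -- moments
  obtain ⟨m1, m2⟩ := h3 hN1 hP hP' L hk s hs0 hs1 x hx κ lab l0 j0 hTyp t v i0 ht hv0 hv1
  have m3 := EH2_xi hP D L hk s x κ lab l0 j0 t v i0 (fun ξ => dev κ D.d D.dbar ξ ^ 4)
  have m4 := (h4 hN1 κ D.d D.dbar (fun l => by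
    rw [hD₀]
    exact Finset.single_le_sum (f := fun l => |D.d l|) (fun j _ => abs_nonneg _)
      (Finset.mem_univ l))).2
  have m5 := momUC_T hP hP' hN1 D L s x κ lab l0 j0 ht hv0 hv1 i0 τ
  unfold EH2 at m1 m2 m3 m5
  have m6 := h5 hN1 hP hk L s x κ lab l0 j0 τ t v i0 r hr0 hr1
  have m7 := CavUp_close D hN1 κ hκ
  rw [← hD₀] at m7
  have m8 := FLW_coup hP hP' D L s x κ lab l0 j0 t v i0
  rw [m8]
  have a1 := CavUp_a1 hC3 hε m1
  have a2 := CavUp_a2 hC5 hε (herr.trans (min_le_left _ _))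
  have a3 := CavUp_a3 hC1 hε m5 (hT.trans (min_le_right _ _))
  have a4 := CavUp_a4 hC1 hC3 (Nat.cast_nonneg k) hs0 hε m2 (hs.trans (min_le_right _ _))
  rw [← m3] at m4
  have a5 := CavUp_a5 (add_nonneg hC1 hC2) hC4 hD₀p hε hNr (abs_nonneg _) m4 m7
  have a6 : ((C1 + C2) * C4 + C1 * (2 * J + 1)) * (1 / (N : ℝ)) ≤ ε / 8 := by
    have e3 : 8 * ((C1 + C2) * C4 + C1 * (2 * J + 1)) / ε < N := by
      have : (N₀ : ℝ) ≤ N := by
        have : N₀ ≤ N := by omega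
        exact_mod_cast this
      linarith
    rw [div_lt_iff₀ hε] at e3
    rw [mul_one_div, div_le_iff₀ hN0]
    linarith
  exact CavUp_fin htan p1 p0 m6 a2 a1 a3 a4 a5 hε a6

end Crest.Agent.RI
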