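import Mathlib

/-!
# Row 164, Part 8: the soft clamp `χ_A`

`χ_A(x) = ½ log(e^{2x} + e^{-2A}) - ½ log(1 + e^{2(x-A)})`: smooth, odd, nondecreasing, `|χ_A| ≤ A`,
`χ_A(x) ≈ x` for `|x| < A`.
-/

set_option autoImplicit false

namespace Crest.Agent.RI

/-- the soft clamp -/
noncomputable def chi (A x : ℝ) : ℝ :=
  (1 / 2) * Real.log (Real.exp (2 * x) + Real.exp (-(2 * A))) -
    (1 / 2) * Real.log (1 + Real.exp (2 * (x - A)))

/-- first derivative -/
noncomputable def chi1 (A x : ℝ) : ℝ :=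
  Real.exp (2 * x) / (Real.exp (2 * x) + Real.exp (-(2 * A))) -
    Real.exp (2 * (x - A)) / (1 + Real.exp (2 * (x - A)))

/-- second derivative -/
noncomputable def chi2 (A x : ℝ) : ℝ :=
  2 * (Real.exp (2 * x) * Real.exp (-(2 * A))) / (Real.exp (2 * x) + Real.exp (-(2 * A))) ^ 2 -
    2 * Real.exp (2 * (x - A)) / (1 + Real.exp (2 * (x - A))) ^ 2

private theorem Clamp_pos1 (A x : ℝ) : 0 < Real.exp (2 * x) + Real.exp (-(2 * A)) := by
  positivity

private theorem Clamp_pos2 (A x : ℝ) : 0 < 1 + Real.exp (2 * (x - A)) := by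
  positivity

theorem chi_deriv (A x : ℝ) : HasDerivAt (chi A) (chi1 A x) x := by
  have h0 : HasDerivAt (fun x : ℝ => 2 * x) 2 x := by
    simpa using (hasDerivAt_id x).const_mul (2 : ℝ)
  have h0' : HasDerivAt (fun x : ℝ => 2 * (x - A)) 2 x := by
    simpa using ((hasDerivAt_id x).sub_const A).const_mul (2 : ℝ)
  have h1 : HasDerivAt (fun x : ℝ => Real.exp (2 * x) + Real.exp (-(2 * A)))
      (Real.exp (2 * x) * 2) x := h0.exp.add_const _
  have h2 : HasDerivAt (fun x : ℝ => 1 + Real.exp (2 * (x - A)))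
      (Real.exp (2 * (x - A)) * 2) x := h0'.exp.const_add _
  have h3 := ((h1.log (Clamp_pos1 A x).ne').const_mul (1 / 2 : ℝ)).sub
    ((h2.log (Clamp_pos2 A x).ne').const_mul (1 / 2 : ℝ))
  have h4 : (1 / 2 : ℝ) * (Real.exp (2 * x) * 2 / (Real.exp (2 * x) + Real.exp (-(2 * A)))) -
      1 / 2 * (Real.exp (2 * (x - A)) * 2 / (1 + Real.exp (2 * (x - A)))) = chi1 A x := by
    unfold chi1
    ring
  rw [h4] at h3
  exact h3

theorem chi1_deriv (A x : ℝ) : HasDerivAt (chi1 A) (chi2 A x) x := by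
  have h0 : HasDerivAt (fun x : ℝ => 2 * x) 2 x := by
    simpa using (hasDerivAt_id x).const_mul (2 : ℝ)
  have h0' : HasDerivAt (fun x : ℝ => 2 * (x - A)) 2 x := by
    simpa using ((hasDerivAt_id x).sub_const A).const_mul (2 : ℝ)
  have h1 : HasDerivAt (fun x : ℝ => Real.exp (2 * x) + Real.exp (-(2 * A)))
      (Real.exp (2 * x) * 2) x := h0.exp.add_const _
  have h2 : HasDerivAt (fun x : ℝ => 1 + Real.exp (2 * (x - A)))
      (Real.exp (2 * (x - A)) * 2) x := h0'.exp.const_add _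
  have h3 := (h0.exp.div h1 (Clamp_pos1 A x).ne').sub (h0'.exp.div h2 (Clamp_pos2 A x).ne')
  have h4 : (Real.exp (2 * x) * 2 * (Real.exp (2 * x) + Real.exp (-(2 * A))) -
        Real.exp (2 * x) * (Real.exp (2 * x) * 2)) /
          (Real.exp (2 * x) + Real.exp (-(2 * A))) ^ 2 -
      (Real.exp (2 * (x - A)) * 2 * (1 + Real.exp (2 * (x - A))) -
        Real.exp (2 * (x - A)) * (Real.exp (2 * (x - A)) * 2)) /
          (1 + Real.exp (2 * (x - A))) ^ 2 = chi2 A x := by
    unfold chi2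
    congr 1
    · congr 1
      ring
    · congr 1
      ring
  rw [h4] at h3
  exact h3

theorem measurable_chi (A : ℝ) : Measurable (chi A) ∧ Measurable (chi1 A) ∧ Measurable (chi2 A) := by
  have h1 : Measurable (fun x : ℝ => Real.exp (2 * x)) := by fun_prop
  have h2 : Measurable (fun x : ℝ => Real.exp (2 * (x - A))) := by fun_prop
  refine ⟨?_, ?_, ?_⟩
  · exact (continuous_iff_continuousAt.2 fun x => (chi_deriv A x).continuousAt).measurable
  · exact (continuous_iff_continuousAt.2 fun x => (chi1_deriv A x).continuousAt).measurable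
  · unfold chi2
    fun_prop

/-- PROOF: with `S(y) = 1/(1+e^{-2y})` (increasing) `chi1 A x = S(x+A) - S(x-A)`. -/
theorem chi1_mem {A : ℝ} (hA : 0 ≤ A) (x : ℝ) : 0 ≤ chi1 A x ∧ chi1 A x ≤ 1 := by
  have e1 : Real.exp (2 * (x - A)) = Real.exp (2 * x) * Real.exp (-(2 * A)) := by
    rw [← Real.exp_add]; congr 1; ring
  have ha : 0 < Real.exp (2 * x) := Real.exp_pos _
  have hb : 0 < Real.exp (-(2 * A)) := Real.exp_pos _
  have hb1 : Real.exp (-(2 * A)) ≤ 1 := Real.exp_le_one_iff.2 (by linarith)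
  unfold chi1
  rw [e1]
  generalize Real.exp (2 * x) = a at *
  generalize Real.exp (-(2 * A)) = b at *
  have h1 : 0 < a + b := by positivity
  have h2 : 0 < 1 + a * b := by positivity
  constructor
  · rw [sub_nonneg, div_le_div_iff₀ h2 h1]
    nlinarith [mul_pos ha hb, mul_nonneg ha.le (mul_nonneg (sub_nonneg.2 hb1) (by linarith : 0 ≤ 1 + b))]
  · have h3 : a / (a + b) ≤ 1 := (div_le_one h1).2 (by linarith)
    have h4 : 0 ≤ a * b / (1 + a * b) := by positivity
    linarith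

/-- each of the two terms is `2ab/(a+b)² ∈ [0, 1/2]` -/
theorem chi2_abs (A x : ℝ) : |chi2 A x| ≤ 1 := by
  have key : ∀ a b : ℝ, 0 < a → 0 < b → 0 ≤ 2 * (a * b) / (a + b) ^ 2 ∧
      2 * (a * b) / (a + b) ^ 2 ≤ 1 := by
    intro a b ha hb
    have h1 : 0 < (a + b) ^ 2 := by positivity
    refine ⟨by positivity, (div_le_one h1).2 ?_⟩
    nlinarith
  have k1 := key _ _ (Real.exp_pos (2 * x)) (Real.exp_pos (-(2 * A)))
  have k2 := key 1 _ one_pos (Real.exp_pos (2 * (x - A)))
  rw [one_mul] at k2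
  unfold chi2
  rw [abs_le]
  constructor <;> linarith [k1.1, k1.2, k2.1, k2.2]

theorem chi_odd (A x : ℝ) : chi A (-x) = -chi A x := by
  have e1 : Real.exp (2 * -x) + Real.exp (-(2 * A)) =
      Real.exp (-(2 * x)) * (1 + Real.exp (2 * (x - A))) := by
    rw [mul_add, mul_one, ← Real.exp_add]
    congr 2 <;> ring
  have e2 : 1 + Real.exp (2 * (-x - A)) =
      Real.exp (-(2 * x)) * (Real.exp (2 * x) + Real.exp (-(2 * A))) := by
    rw [mul_add, ← Real.exp_add, ← Real.exp_add]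
    congr 1
    · rw [neg_add_cancel, Real.exp_zero]
    · congr 1; ring
  unfold chi
  rw [e1, e2, Real.log_mul (Real.exp_pos _).ne' (Clamp_pos2 A x).ne',
    Real.log_mul (Real.exp_pos _).ne' (Clamp_pos1 A x).ne', Real.log_exp]
  ring

theorem chi_zero (A : ℝ) : chi A 0 = 0 := by
  have h := chi_odd A 0
  rw [neg_zero] at h
  linarith

private theorem Clamp_mono {A : ℝ} (hA : 0 ≤ A) : Monotone (chi A) :=
  monotone_of_hasDerivAt_nonneg (fun x => chi_deriv A x) (fun x => (chi1_mem hA x).1)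

private theorem Clamp_mono' {A : ℝ} (hA : 0 ≤ A) : Monotone (fun x => x - chi A x) :=
  monotone_of_hasDerivAt_nonneg (fun x => (hasDerivAt_id x).sub (chi_deriv A x))
    (fun x => sub_nonneg.2 (chi1_mem hA x).2)

theorem chi_abs {A : ℝ} (hA : 0 ≤ A) (x : ℝ) : |chi A x| ≤ A := by
  have key : ∀ x, chi A x ≤ A := by
    intro x
    unfold chi
    have h1 : Real.log (Real.exp (2 * x) + Real.exp (-(2 * A))) ≤
        2 * A + Real.log (1 + Real.exp (2 * (x - A))) := by
      rw [← Real.log_exp (2 * A), ← Real.log_mul (Real.exp_pos _).ne' (Clamp_pos2 A x).ne',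
        Real.log_exp]
      refine Real.log_le_log (Clamp_pos1 A x) ?_
      rw [mul_add, mul_one, ← Real.exp_add]
      have e1 : 2 * A + 2 * (x - A) = 2 * x := by ring
      rw [e1, add_comm]
      exact add_le_add (Real.exp_le_exp.2 (by linarith)) le_rfl
    linarith
  rw [abs_le]
  have h := key (-x)
  rw [chi_odd] at h
  exact ⟨by linarith, key x⟩

theorem chi_lip {A : ℝ} (hA : 0 ≤ A) (x y : ℝ) : |chi A x - chi A y| ≤ |x - y| := by
  rcases le_total x y with h | h
  · have h1 := Clamp_mono hA h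
    have h2 := Clamp_mono' hA h
    simp only at h2
    rw [abs_of_nonpos (by linarith), abs_of_nonpos (by linarith)]
    linarith
  · have h1 := Clamp_mono hA h
    have h2 := Clamp_mono' hA h
    simp only at h2
    rw [abs_of_nonneg (by linarith), abs_of_nonneg (by linarith)]
    linarith

/-- `x ↦ x - χ(x)` is `1`-Lipschitz -/
theorem chi_sub_lip {A : ℝ} (hA : 0 ≤ A) (x y : ℝ) : |(x - chi A x) - (y - chi A y)| ≤ |x - y| := by
  rcases le_total x y with h | h
  · have h1 := Clamp_mono hA h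
    have h2 := Clamp_mono' hA h
    simp only at h2
    rw [abs_of_nonpos (by linarith), abs_of_nonpos (by linarith)]
    linarith
  · have h1 := Clamp_mono hA h
    have h2 := Clamp_mono' hA h
    simp only at h2
    rw [abs_of_nonneg (by linarith), abs_of_nonneg (by linarith)]
    linarith

/-- `0 ≤ x - χ(x) ≤ x` for `x ≥ 0` (`0 ≤ χ' ≤ 1`, `χ(0) = 0`) and oddness -/
theorem chi_sub_abs {A : ℝ} (hA : 0 ≤ A) (x : ℝ) : |x - chi A x| ≤ |x| := by
  have h := chi_sub_lip hA x 0
  rwa [chi_zero, sub_zero, sub_zero, sub_zero] at h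

private theorem Clamp_nonneg {A x : ℝ} (hA : 0 ≤ A) (hx : 0 ≤ x) : 0 ≤ x - chi A x := by
  have h := Clamp_mono' hA hx
  simp only [chi_zero, sub_zero] at h
  exact h

/-- `x - χ(x) ≤ ½ log (1 + e^{2(x-A)})` -/
private theorem Clamp_upper (A x : ℝ) :
    x - chi A x ≤ (1 / 2) * Real.log (1 + Real.exp (2 * (x - A))) := by
  unfold chi
  have h1 : 2 * x ≤ Real.log (Real.exp (2 * x) + Real.exp (-(2 * A))) := by
    conv_lhs => rw [← Real.log_exp (2 * x)]
    exact Real.log_le_log (Real.exp_pos _) (by linarith [Real.exp_pos (-(2 * A))])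
  linarith

private theorem Clamp_upper' (A x : ℝ) : x - chi A x ≤ (1 / 2) * Real.exp (2 * (x - A)) := by
  have h1 := Clamp_upper A x
  have h2 := Real.log_le_sub_one_of_pos (Clamp_pos2 A x)
  linarith

/-- for `0 ≤ x`: `x - χ(x) ≤ ½ log (1 + e^{2(x-A)}) ≤ ½ e^{2(x-A)}` -/
theorem chi_sub_small {A x : ℝ} (hA : 0 ≤ A) (hx : |x| ≤ A / 2) : |x - chi A x| ≤ Real.exp (-A) := by
  have key : ∀ y, 0 ≤ y → y ≤ A / 2 → |y - chi A y| ≤ Real.exp (-A) := by
    intro y h0 hy
    rw [abs_of_nonneg (Clamp_nonneg hA h0)]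
    have h1 := Clamp_upper' A y
    have h2 : Real.exp (2 * (y - A)) ≤ Real.exp (-A) := Real.exp_le_exp.2 (by linarith)
    have h3 := Real.exp_pos (-A)
    linarith
  rcases le_total 0 x with h | h
  · exact key x h (by rwa [abs_of_nonneg h] at hx)
  · have h1 := key (-x) (by linarith) (by rwa [abs_of_nonpos h] at hx)
    rw [chi_odd] at h1
    have h2 : -x - -chi A x = -(x - chi A x) := by ring
    rwa [h2, abs_neg] at h1

/-- KEY BOUND.  PROOF: zero if `x ≥ 0`.  For `x < 0`, `y = -x`: `χ(x) - x = y - χ(y) ≤ ½ log(1+e^{2(y-A)})` and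
`exp(2χ(x) + 2A) = exp(-2χ(y) + 2A) ≤ e^{2(A-y)} + 1` (because `χ(y) ≥ y - ½ log(1+e^{2(y-A)})`).
`y ≤ A/2`: product `≤ ¼e^{4(y-A)}(e^{2(A-y)}+1) ≤ ½ e^{-A}`.  `A/2 < y ≤ A`: product `≤ ½ ≤ y³/A` (`y > A/2 ≥ 1`).
`y > A`: `½ log(1+e^{2(y-A)}) ≤ (y-A) + ½ log 2 ≤ y`, product `≤ 2y² ≤ 2y³/A`. -/
theorem chi_key {A x : ℝ} (hA : 2 ≤ A) :
    (max (chi A x - x) 0) ^ 2 * Real.exp (2 * chi A x + 2 * A) ≤
      2 * (Real.exp (-A) + |x| ^ 3 / A) := by
  have hA0 : 0 ≤ A := by linarith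
  have hE : 0 < Real.exp (-A) := Real.exp_pos _
  have hR : 0 ≤ |x| ^ 3 / A := by positivity
  rcases le_total 0 x with hx | hx
  · have h1 := Clamp_nonneg hA0 hx
    rw [max_eq_right (by linarith)]
    simp only [ne_eq, OfNat.ofNat_ne_zero, not_false_eq_true, zero_pow, zero_mul]
    positivity
  · obtain ⟨y, rfl⟩ : ∃ y, x = -y := ⟨-x, by ring⟩
    have hy : 0 ≤ y := by linarith
    rw [chi_odd, abs_neg, abs_of_nonneg hy]
    have h1 := Clamp_nonneg hA0 hy
    have h2 := Clamp_upper A y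
    have h2' := Clamp_upper' A y
    rw [max_eq_left (by linarith)]
    have e1 : -chi A y - -y = y - chi A y := by ring
    rw [e1]
    obtain ⟨u, hu⟩ : ∃ u, u = y - chi A y := ⟨_, rfl⟩
    rw [← hu] at h1 h2 h2' ⊢
    -- the exponential
    have h3 : Real.exp (2 * -chi A y + 2 * A) ≤ Real.exp (2 * (A - y)) + 1 := by
      have e2 : 2 * -chi A y + 2 * A = 2 * (A - y) + 2 * u := by rw [hu]; ring
      have e3 : Real.exp (2 * u) ≤ 1 + Real.exp (2 * (y - A)) := by
        rw [← Real.le_log_iff_exp_le (Clamp_pos2 A y)]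
        linarith
      rw [e2, Real.exp_add]
      calc Real.exp (2 * (A - y)) * Real.exp (2 * u)
          ≤ Real.exp (2 * (A - y)) * (1 + Real.exp (2 * (y - A))) :=
            mul_le_mul_of_nonneg_left e3 (Real.exp_pos _).le
        _ = Real.exp (2 * (A - y)) + 1 := by
            rw [mul_add, mul_one, ← Real.exp_add]
            have : 2 * (A - y) + 2 * (y - A) = 0 := by ring
            rw [this, Real.exp_zero]
    have h4 : u ^ 2 * Real.exp (2 * -chi A y + 2 * A) ≤ u ^ 2 * (Real.exp (2 * (A - y)) + 1) :=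
      mul_le_mul_of_nonneg_left h3 (sq_nonneg _)
    refine h4.trans ?_
    rcases le_or_gt y A with hyA | hyA
    · -- `y ≤ A`
      obtain ⟨e, he⟩ : ∃ e, e = Real.exp (2 * (y - A)) := ⟨_, rfl⟩
      have he0 : 0 < e := by rw [he]; exact Real.exp_pos _
      have he1 : e ≤ 1 := by rw [he]; exact Real.exp_le_one_iff.2 (by linarith)
      have he2 : Real.exp (2 * (A - y)) = e⁻¹ := by
        rw [he, ← Real.exp_neg]; congr 1; ring
      rw [← he] at h2'
      rw [he2]
      have h5 : u ^ 2 ≤ (1 / 2 * e) ^ 2 := pow_le_pow_left₀ h1 h2' 2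
      have h6 : u ^ 2 * (e⁻¹ + 1) ≤ 1 / 2 * e := by
        calc u ^ 2 * (e⁻¹ + 1) ≤ (1 / 2 * e) ^ 2 * (e⁻¹ + 1) :=
              mul_le_mul_of_nonneg_right h5 (by positivity)
          _ = 1 / 4 * (e + e ^ 2) := by field_simp; ring
          _ ≤ 1 / 2 * e := by nlinarith
      rcases le_or_gt y (A / 2) with hy2 | hy2
      · have h7 : e ≤ Real.exp (-A) := by rw [he]; exact Real.exp_le_exp.2 (by linarith)
        have h8 : 0 ≤ y ^ 3 / A := by positivity
        linarith
      · have h7 : 1 / 2 ≤ y ^ 3 / A := by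
          rw [le_div_iff₀ (by linarith)]
          have h8 : 1 ≤ y := by linarith
          have h9 : 1 ≤ y ^ 2 := by nlinarith
          nlinarith
        linarith
    · -- `y > A`
      have h5 : u ≤ y := by
        have := chi_sub_abs hA0 y
        rw [← hu, abs_of_nonneg h1, abs_of_nonneg hy] at this
        exact this
      have h6 : Real.exp (2 * (A - y)) ≤ 1 := Real.exp_le_one_iff.2 (by linarith)
      have h7 : u ^ 2 * (Real.exp (2 * (A - y)) + 1) ≤ y ^ 2 * 2 :=
        mul_le_mul (pow_le_pow_left₀ h1 h5 2) (by linarith) (by positivity) (by positivity)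
      have h8 : y ^ 2 ≤ y ^ 3 / A := by
        rw [le_div_iff₀ (by linarith)]
        nlinarith [sq_nonneg y]
      linarith

end Crest.Agent.RI
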