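import Crest.Agent.RI.FlowA

/-!
# Row 164: general integration by parts for a one-coordinate flow (GIBP)
-/

set_option autoImplicit false
set_option linter.unusedSectionVars false

namespace Crest.Agent.RI

open MeasureTheory

variable {E : Type} [MeasurableSpace E]
variable {m : Measure E} [IsProbabilityMeasure m] {ζ : ℕ → ℝ} {β : E → ℝ}
variable {φ : ℝ → E → E} {δ : E → ℝ}

theorem FlowB_isD_zero {n : ℕ} {H V : (Fin (n + 1) → E) → ℝ} (h : IsD φ 0 H V) (e : E)
    (ω : Fin n → E) (t : ℝ) :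
    HasDerivAt (fun s => H (Fin.cons (φ s e) ω)) (V (Fin.cons (φ t e) ω)) t := by
  have h1 := h (Fin.cons e ω) t
  simpa only [Fin.cons_zero, Fin.update_cons_zero] using h1

theorem FlowB_isD_succ {n : ℕ} {j : Fin n} {H V : (Fin (n + 1) → E) → ℝ} (h : IsD φ j.succ H V)
    (e : E) : IsD φ j (fun ω => H (Fin.cons e ω)) (fun ω => V (Fin.cons e ω)) := by
  intro ω t
  have h1 := h (Fin.cons e ω) t
  simpa only [Fin.cons_succ, Fin.cons_update] using h1

theorem FlowB_measurable_nest {n : ℕ} (i : ℕ) {H : (Fin (n + 1) → E) → ℝ} (hH : Measurable H) :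
    Measurable (fun e => nest m ζ n i (fun ω => H (Fin.cons e ω))) :=
  measurable_nest m ζ n i (TDerA_uncurry_cons hH)

/-- functions `w(e) E_Q[X | e]` are tame -/
theorem FlowB_tame1 (hβ : Dom m β) (hζ : Exps ζ) (n i : ℕ) {H X : (Fin (n + 1) → E) → ℝ}
    (hH : Ham β H) (hX : Tame β X) :
    Tame1 β (fun e => wgt m ζ n i H e * pathE m ζ n (i + 1) (fun ω => H (Fin.cons e ω))
      (fun ω => X (Fin.cons e ω))) := by
  obtain ⟨A, hA, hHc⟩ := hH.c
  obtain ⟨B, hB, hXc⟩ := hX.c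
  obtain ⟨K1, hK1, hb1⟩ := TDerA_g_bound (m := m) (β := β) hβ n hA
  obtain ⟨K2, hK2, hb2⟩ := TDerA_v_bound (m := m) (β := β) hβ n hA hB
  obtain ⟨K3, hK3, hb3⟩ := nest_bound (m := m) hβ (n + 1) A hA
  refine ⟨?_, ?_⟩
  · refine Measurable.mul ?_ ?_
    · unfold wgt
      exact Real.measurable_exp.comp
        (((FlowB_measurable_nest (i + 1) hHc.meas).sub measurable_const).const_mul _)
    · exact measurable_pathE m ζ n (i + 1) (TDerA_uncurry_cons hHc.meas)
        (TDerA_uncurry_cons hXc.meas)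
  · have hM0 : 0 ≤ Real.exp (A + K1 + (A + K3)) * (B * K2) := by positivity
    refine ⟨Real.exp (A + K1 + (A + K3)) * (B * K2) + (A + (B + K2 * A)), by positivity,
      fun e => ?_⟩
    have h3 := hβ.nonneg e
    have hw : wgt m ζ n i H e ≤ Real.exp (A + K1 + (A + K3) + A * β e) := by
      unfold wgt
      apply Real.exp_le_exp.2
      have h4 := hb1 ζ hζ (i + 1) H hHc e
      have h5 := hb3 ζ hζ i A hA H hHc.meas (fun ω => (hHc.bound ω).trans (le_of_eq (by ring)))
      set x := nest m ζ n (i + 1) fun ω => H (Fin.cons e ω)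
      set y := nest m ζ (n + 1) i H
      have h6 : |x - y| ≤ |x| + |y| := abs_sub _ _
      calc ζ i * (x - y) ≤ ζ i * |x - y| :=
            mul_le_mul_of_nonneg_left (le_abs_self _) (hζ i).1
        _ ≤ 1 * |x - y| := mul_le_mul_of_nonneg_right (hζ i).2 (abs_nonneg _)
        _ ≤ _ := by linarith
    have hp := hb2 ζ hζ (i + 1) B hB H X hHc hXc.meas hXc.bound e
    rw [abs_mul, abs_of_pos (wgt_pos m ζ n i H e)]
    calc wgt m ζ n i H e * |pathE m ζ n (i + 1) (fun ω => H (Fin.cons e ω))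
          (fun ω => X (Fin.cons e ω))| ≤
        Real.exp (A + K1 + (A + K3) + A * β e) * (B * K2 * Real.exp ((B + K2 * A) * β e)) :=
          mul_le_mul hw hp (abs_nonneg _) (Real.exp_pos _).le
      _ = Real.exp (A + K1 + (A + K3)) * (B * K2) * Real.exp ((A + (B + K2 * A)) * β e) := by
          rw [add_mul A (B + K2 * A), Real.exp_add (A * β e), Real.exp_add (A + K1 + (A + K3))]
          ring
      _ ≤ _ := by
          have h7 : 0 ≤ A + (B + K2 * A) := by positivity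
          exact mul_le_mul (by linarith) (Real.exp_le_exp.2
            (mul_le_mul_of_nonneg_right (by linarith) h3)) (Real.exp_pos _).le (by linarith)

/-- derivative of `w(e) E_Q[Φ | e]` along the flow -/
theorem FlowB_deriv (hβ : Dom m β) (hζ : Exps ζ) (hφ : CFlow m β φ δ) (n i : ℕ)
    {H V Φ Φ' : (Fin (n + 1) → E) → ℝ} (hH : Ham β H) (hV : Tame β V) (hΦ : Tame β Φ)
    (hΦ' : Tame β Φ') (hHV : IsD φ 0 H V) (hΦΦ : IsD φ 0 Φ Φ') (e : E) (t : ℝ) :
    HasDerivAt (fun s => wgt m ζ n i H (φ s e) * pathE m ζ n (i + 1)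
        (fun ω => H (Fin.cons (φ s e) ω)) (fun ω => Φ (Fin.cons (φ s e) ω)))
      (wgt m ζ n i H (φ t e) * pathE m ζ n (i + 1) (fun ω => H (Fin.cons (φ t e) ω))
        (fun ω => (fun ω => Φ' ω + Φ ω * (ζ i * condE m ζ 1 (n + 1) i H V ω +
          sAfter m ζ 1 (n + 1) i H V ω)) (Fin.cons (φ t e) ω))) t := by
  obtain ⟨A, hA, hHc⟩ := hH.c
  obtain ⟨B, hB, hVc⟩ := hV.c
  obtain ⟨D, hD, hΦc⟩ := hΦ.c
  obtain ⟨F, hF, hΦ'c⟩ := hΦ'.c
  obtain ⟨G, hG, hgr⟩ := hφ.growth
  have hbt : ∀ u ∈ Set.Ioo (t - 1) (t + 1), β (φ u e) ≤ G * (1 + β (φ t e)) := by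
    intro u hu
    have h1 : φ u e = φ (u - t) (φ t e) := by
      rw [← hφ.add]
      congr 1
      ring
    rw [h1]
    refine hgr _ _ ?_
    rw [abs_le]
    constructor <;> linarith [hu.1, hu.2]
  set b : ℝ := G * (1 + β (φ t e)) with hb
  have hβt := hβ.nonneg (φ t e)
  have hb0 : 0 ≤ b := by positivity
  set C : ℝ := A * (1 + b) + B * Real.exp (B * b) + D * Real.exp (D * b) + F * Real.exp (F * b)
    with hCdef
  have hC1 : 0 ≤ A * (1 + b) := by positivity
  have hC2 : 0 ≤ B * Real.exp (B * b) := by positivity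
  have hC3 : 0 ≤ D * Real.exp (D * b) := by positivity
  have hC4 : 0 ≤ F * Real.exp (F * b) := by positivity
  have hC : 0 ≤ C := by positivity
  have ht : t ∈ Set.Ioo (t - 1) (t + 1) := ⟨by linarith, by linarith⟩
  have hexp : ∀ (x : ℝ), 0 ≤ x → ∀ u ∈ Set.Ioo (t - 1) (t + 1),
      x * Real.exp (x * β (φ u e)) ≤ x * Real.exp (x * b) := by
    intro x hx u hu
    have := hbt u hu
    gcongr
  have hHs : ∀ u ∈ Set.Ioo (t - 1) (t + 1), HamC C β (fun ω : Fin n → E => H (Fin.cons (φ u e) ω)) :=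
    fun u hu => TDerA_hamC_cons hβ hA hHc _ (by
      have : A * (1 + β (φ u e)) ≤ A * (1 + b) := by
        have := hbt u hu
        gcongr
      linarith)
  have hVs : ∀ u ∈ Set.Ioo (t - 1) (t + 1),
      TameC C β (fun ω : Fin n → E => V (Fin.cons (φ u e) ω)) :=
    fun u hu => TDerA_tameC_cons hβ hB hVc _ (by linarith [hexp B hB u hu])
  have hΦs : ∀ u ∈ Set.Ioo (t - 1) (t + 1),
      TameC C β (fun ω : Fin n → E => Φ (Fin.cons (φ u e) ω)) :=
    fun u hu => TDerA_tameC_cons hβ hD hΦc _ (by linarith [hexp D hD u hu])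
  have hΦ's : ∀ u ∈ Set.Ioo (t - 1) (t + 1),
      TameC C β (fun ω : Fin n → E => Φ' (Fin.cons (φ u e) ω)) :=
    fun u hu => TDerA_tameC_cons hβ hF hΦ'c _ (by linarith [hexp F hF u hu])
  have hd1 := nest_hasDerivAt' hβ hζ n (i + 1) (H := fun s ω => H (Fin.cons (φ s e) ω))
    (V := fun s ω => V (Fin.cons (φ s e) ω)) hC ht hHs hVs
    (fun u _ ω => FlowB_isD_zero hHV e ω u)
  have hd2 := pathE_hasDerivAt' hβ hζ n (i + 1) (H := fun s ω => H (Fin.cons (φ s e) ω))
    (V := fun s ω => V (Fin.cons (φ s e) ω)) (Φ := fun s ω => Φ (Fin.cons (φ s e) ω))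
    (Φ' := fun s ω => Φ' (Fin.cons (φ s e) ω)) hC ht hHs hVs hΦs hΦ's
    (fun u _ ω => FlowB_isD_zero hHV e ω u) (fun u _ ω => FlowB_isD_zero hΦΦ e ω u)
  have hw : HasDerivAt (fun s => wgt m ζ n i H (φ s e))
      (wgt m ζ n i H (φ t e) * (ζ i * pathE m ζ n (i + 1) (fun ω => H (Fin.cons (φ t e) ω))
        (fun ω => V (Fin.cons (φ t e) ω)))) t := by
    have := ((hd1.sub_const (nest m ζ (n + 1) i H)).const_mul (ζ i)).exp
    exact this
  refine (hw.mul hd2).congr_deriv ?_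
  set x := φ t e with hx
  have hHh : Ham β (fun ω : Fin n → E => H (Fin.cons x ω)) := hH.cons hβ x
  have hVt : Tame β (fun ω : Fin n → E => V (Fin.cons x ω)) := hV.cons hβ x
  have hΦt : Tame β (fun ω : Fin n → E => Φ (Fin.cons x ω)) := hΦ.cons hβ x
  have hΦ't : Tame β (fun ω : Fin n → E => Φ' (Fin.cons x ω)) := hΦ'.cons hβ x
  have hst' : Tame β (score m ζ n (i + 1) (fun ω => H (Fin.cons x ω))
      (fun ω => V (Fin.cons x ω))) := by
    have h1 := sAfter_tame hβ hζ 0 n (i + 1) hHh hVt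
    have h2 : sAfter m ζ 0 n (i + 1) (fun ω => H (Fin.cons x ω)) (fun ω => V (Fin.cons x ω)) =
        score m ζ n (i + 1) (fun ω => H (Fin.cons x ω)) (fun ω => V (Fin.cons x ω)) := by
      funext ω
      exact sAfter_zero _ _ _ _ _
    rwa [h2] at h1
  set v := pathE m ζ n (i + 1) (fun ω => H (Fin.cons x ω)) (fun ω => V (Fin.cons x ω)) with hv
  have e2 : (fun ω : Fin n → E => (fun ω => Φ' ω + Φ ω * (ζ i * condE m ζ 1 (n + 1) i H V ω +
          sAfter m ζ 1 (n + 1) i H V ω)) (Fin.cons x ω)) = fun ω => Φ' (Fin.cons x ω) +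
        (ζ i * v * Φ (Fin.cons x ω) + Φ (Fin.cons x ω) *
          score m ζ n (i + 1) (fun ω => H (Fin.cons x ω)) (fun ω => V (Fin.cons x ω)) ω) := by
    funext ω
    have h3 : condE m ζ 1 (n + 1) i H V (Fin.cons x ω) = v := by
      rw [TDerA_condE_cons]
      rfl
    have h4 : sAfter m ζ 1 (n + 1) i H V (Fin.cons x ω) =
        score m ζ n (i + 1) (fun ω => H (Fin.cons x ω)) (fun ω => V (Fin.cons x ω)) ω := by
      rw [← sAfter_zero, sAfter_succ, Fin.tail_cons]
      rfl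
    simp only
    rw [h3, h4]
    ring
  rw [e2, pathE_add hβ hζ n (i + 1) hHh hΦ't
    (((Tame.const hβ _).mul hβ hΦt).add hβ (hΦt.mul hβ hst')),
    pathE_add hβ hζ n (i + 1) hHh ((Tame.const hβ _).mul hβ hΦt) (hΦt.mul hβ hst'),
    pathE_mul]
  ring

/-- (GIBP) `E_Q[δ(ω_j) Φ] = E_Q[Φ'] + E_Q[Φ (ζ_j C_{j+1} V + Σ_{q>j} ζ_q (C_{q+1} V - C_q V))]`.

PROOF: induction on `n`, peeling the first level.
`j = j'+1`: both sides are `∫ wgt(e) · (inner identity)`; induction hypothesis for the inner tower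
(`i+1`), linearity (`integrable_wgt_pathE`, `pathE_add`), `sAfter_succ`, `condE (j+2) (n+1) = condE (j+1) n` inner.
`j = 0`: `F e := wgt(e) G(e)`, `G e := pathE n (i+1) (H (cons e ·)) (Φ (cons e ·))`; along the flow
`F' e = wgt(e) (ζ_i (pathE_inner V)(e) G(e) + pathE_inner Φ' (e) + pathE_inner (Φ score_inner V)(e))`
by `nest_hasDerivAt'`, `pathE_hasDerivAt'` (families `H (cons (φ s e) ·)` on the interval `(t-1,t+1)`, growth of `β`
along the flow), `F, F'` are `Tame1` (`nest_bound`, `pathE_bound`, measurability from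
`measurable_nest`, `measurable_pathE`), then `CFlow.base` and re-assembly
(`condE 1 (n+1) i H V (cons e ω) = pathE n (i+1) (H (cons e ·)) (V (cons e ·))`, `sAfter 1 (n+1) = score` of the inner tower). -/
theorem gibp (hβ : Dom m β) (hζ : Exps ζ) (hφ : CFlow m β φ δ) (n : ℕ) :
    ∀ (i : ℕ) (j : Fin n) {H V Φ Φ' : (Fin n → E) → ℝ}, Ham β H → Tame β V → Tame β Φ →
      Tame β Φ' → IsD φ j H V → IsD φ j Φ Φ' →
      pathE m ζ n i H (fun ω => δ (ω j) * Φ ω) = pathE m ζ n i H Φ' +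
        pathE m ζ n i H (fun ω => Φ ω * (ζ (i + j) * condE m ζ (j + 1) n i H V ω +
          sAfter m ζ (j + 1) n i H V ω)) := by
  induction n with
  | zero => intro i j; exact j.elim0
  | succ n ih =>
    intro i j H V Φ Φ' hH hV hΦ hΦ' hHV hΦΦ
    have hXt : Tame β (fun ω => Φ ω * (ζ (i + j) * condE m ζ (j + 1) (n + 1) i H V ω +
          sAfter m ζ (j + 1) (n + 1) i H V ω)) :=
      hΦ.mul hβ (((Tame.const hβ _).mul hβ (condE_tame hβ hζ _ _ _ hH hV)).add hβ
        (sAfter_tame hβ hζ _ _ _ hH hV))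
    induction j using Fin.cases with
    | zero =>
      have h1 : pathE m ζ (n + 1) i H (fun ω => δ (ω 0) * Φ ω) =
          ∫ e, δ e * (wgt m ζ n i H e * pathE m ζ n (i + 1) (fun ω => H (Fin.cons e ω))
            (fun ω => Φ (Fin.cons e ω))) ∂m := by
        show ∫ e, wgt m ζ n i H e * pathE m ζ n (i + 1) (fun ω => H (Fin.cons e ω))
          (fun ω => δ e * Φ (Fin.cons e ω)) ∂m = _
        congr 1
        funext e
        rw [pathE_mul]
        ring
      have hbase := hφ.base _ _ (FlowB_tame1 (m := m) hβ hζ n i hH hΦ)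
        (FlowB_tame1 (m := m) hβ hζ n i hH (hΦ'.add hβ hXt))
        (fun e t => FlowB_deriv hβ hζ hφ n i hH hV hΦ hΦ' hHV hΦΦ e t)
      rw [h1, ← hbase, ← pathE_add hβ hζ (n + 1) i hH hΦ' hXt]
      rfl
    | succ j =>
      have h1 : ∀ e, pathE m ζ n (i + 1) (fun ω => H (Fin.cons e ω))
          (fun ω => δ ((Fin.cons e ω : Fin (n + 1) → E) j.succ) * Φ (Fin.cons e ω)) =
          pathE m ζ n (i + 1) (fun ω => H (Fin.cons e ω)) (fun ω => Φ' (Fin.cons e ω)) +
          pathE m ζ n (i + 1) (fun ω => H (Fin.cons e ω)) (fun ω => (fun ω => Φ ω *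
            (ζ (i + (j.succ : ℕ)) * condE m ζ ((j.succ : ℕ) + 1) (n + 1) i H V ω +
              sAfter m ζ ((j.succ : ℕ) + 1) (n + 1) i H V ω)) (Fin.cons e ω)) := by
        intro e
        have h2 := ih (i + 1) j (hH.cons hβ e) (hV.cons hβ e) (hΦ.cons hβ e) (hΦ'.cons hβ e)
          (FlowB_isD_succ hHV e) (FlowB_isD_succ hΦΦ e)
        simp only [Fin.cons_succ]
        rw [h2]
        congr 2
        funext ω
        have h3 : condE m ζ ((j.succ : ℕ) + 1) (n + 1) i H V (Fin.cons e ω) =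
            condE m ζ ((j : ℕ) + 1) n (i + 1) (fun ω => H (Fin.cons e ω))
              (fun ω => V (Fin.cons e ω)) ω := by
          rw [TDerA_condE_cons, Fin.val_succ]
        have h4 : sAfter m ζ ((j.succ : ℕ) + 1) (n + 1) i H V (Fin.cons e ω) =
            sAfter m ζ ((j : ℕ) + 1) n (i + 1) (fun ω => H (Fin.cons e ω))
              (fun ω => V (Fin.cons e ω)) ω := by
          rw [sAfter_succ, Fin.tail_cons, Fin.val_succ]
          rfl
        have h5 : i + (j.succ : ℕ) = i + 1 + (j : ℕ) := by rw [Fin.val_succ]; omega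
        rw [h3, h4, h5]
      show ∫ e, wgt m ζ n i H e * pathE m ζ n (i + 1) (fun ω => H (Fin.cons e ω))
          (fun ω => δ ((Fin.cons e ω : Fin (n + 1) → E) j.succ) * Φ (Fin.cons e ω)) ∂m = _
      simp only [h1, mul_add]
      rw [integral_add]
      · simp only [← mul_add]
        rfl
      · exact integrable_wgt_pathE hβ hζ n i hH hΦ'
      · have := integrable_wgt_pathE hβ hζ n i hH hXt
        simpa only [mul_add] using this

end Crest.Agent.RI
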