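import Crest.Agent.RI.Tower

/-!
# Row 164, tower: closure properties of the classes `Ham`, `Tame`.
-/

set_option autoImplicit false

namespace Crest.Agent.RI
open MeasureTheory ProbabilityTheory

variable {E : Type} [MeasurableSpace E]
variable {m : Measure E} [IsProbabilityMeasure m] {ζ : ℕ → ℝ} {β : E → ℝ}

theorem Ham.c {n : ℕ} {H : (Fin n → E) → ℝ} (h : Ham β H) : ∃ C, 0 ≤ C ∧ HamC C β H := by
  obtain ⟨C, h0, h1⟩ := h.bound
  exact ⟨C, h0, h.meas, h1⟩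

theorem HamC.ham {n : ℕ} {C : ℝ} (h0 : 0 ≤ C) {H : (Fin n → E) → ℝ} (h : HamC C β H) : Ham β H :=
  ⟨h.meas, C, h0, h.bound⟩

theorem Tame.c {n : ℕ} {H : (Fin n → E) → ℝ} (h : Tame β H) : ∃ C, 0 ≤ C ∧ TameC C β H := by
  obtain ⟨C, h0, h1⟩ := h.bound
  exact ⟨C, h0, h.meas, h1⟩

theorem TameC.tame {n : ℕ} {C : ℝ} (h0 : 0 ≤ C) {H : (Fin n → E) → ℝ} (h : TameC C β H) : Tame β H :=
  ⟨h.meas, C, h0, h.bound⟩

private theorem TMeasB_S_nonneg {n : ℕ} (hβ : Dom m β) (ω : Fin n → E) : 0 ≤ ∑ i, β (ω i) :=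
  Finset.sum_nonneg fun _ _ => hβ.nonneg _

private theorem TMeasB_aux {A B S x : ℝ} (hA : 0 ≤ A) (hB : 0 ≤ B) (hS : 0 ≤ S)
    (h : x ≤ A * Real.exp (B * S)) : x ≤ (A + B) * Real.exp ((A + B) * S) := by
  refine h.trans ?_
  apply mul_le_mul (by linarith) _ (Real.exp_pos _).le (by linarith)
  apply Real.exp_le_exp.2
  nlinarith

private theorem TMeasB_cons_meas {n : ℕ} (e : E) :
    Measurable (fun ω : Fin n → E => (Fin.cons e ω : Fin (n + 1) → E)) := by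
  refine measurable_pi_lambda _ (fun i => ?_)
  refine Fin.cases ?_ (fun j => ?_) i
  · simp
  · simpa using measurable_pi_apply j

private theorem TMeasB_cons_sum {n : ℕ} (e : E) (ω : Fin n → E) :
    ∑ i, β ((Fin.cons e ω : Fin (n + 1) → E) i) = β e + ∑ i, β (ω i) := by
  rw [Fin.sum_univ_succ]; simp

/-- closure of the classes -/
theorem Tame.add {n : ℕ} {Φ Ψ : (Fin n → E) → ℝ} (hβ : Dom m β) (h : Tame β Φ) (h' : Tame β Ψ) :
    Tame β (fun ω => Φ ω + Ψ ω) := by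
  obtain ⟨C, h0, h1⟩ := h.bound
  obtain ⟨C', h0', h1'⟩ := h'.bound
  refine ⟨h.meas.add h'.meas, C + C', by linarith, fun ω => ?_⟩
  have hS := TMeasB_S_nonneg hβ ω
  have e1 : Real.exp (C * ∑ i, β (ω i)) ≤ Real.exp ((C + C') * ∑ i, β (ω i)) :=
    Real.exp_le_exp.2 (by nlinarith)
  have e2 : Real.exp (C' * ∑ i, β (ω i)) ≤ Real.exp ((C + C') * ∑ i, β (ω i)) :=
    Real.exp_le_exp.2 (by nlinarith)
  calc |Φ ω + Ψ ω| ≤ |Φ ω| + |Ψ ω| := abs_add_le _ _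
    _ ≤ C * Real.exp (C * ∑ i, β (ω i)) + C' * Real.exp (C' * ∑ i, β (ω i)) :=
        add_le_add (h1 ω) (h1' ω)
    _ ≤ C * Real.exp ((C + C') * ∑ i, β (ω i)) + C' * Real.exp ((C + C') * ∑ i, β (ω i)) :=
        add_le_add (mul_le_mul_of_nonneg_left e1 h0) (mul_le_mul_of_nonneg_left e2 h0')
    _ = (C + C') * Real.exp ((C + C') * ∑ i, β (ω i)) := by ring

theorem Tame.mul {n : ℕ} {Φ Ψ : (Fin n → E) → ℝ} (hβ : Dom m β) (h : Tame β Φ) (h' : Tame β Ψ) :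
    Tame β (fun ω => Φ ω * Ψ ω) := by
  obtain ⟨C, h0, h1⟩ := h.bound
  obtain ⟨C', h0', h1'⟩ := h'.bound
  refine ⟨h.meas.mul h'.meas, C * C' + (C + C'), by positivity, fun ω => ?_⟩
  have hS := TMeasB_S_nonneg hβ ω
  apply TMeasB_aux (by positivity) (by positivity) hS
  rw [abs_mul]
  calc |Φ ω| * |Ψ ω| ≤ (C * Real.exp (C * ∑ i, β (ω i))) * (C' * Real.exp (C' * ∑ i, β (ω i))) :=
        mul_le_mul (h1 ω) (h1' ω) (abs_nonneg _) (by positivity)
    _ = C * C' * (Real.exp (C * ∑ i, β (ω i)) * Real.exp (C' * ∑ i, β (ω i))) := by ring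
    _ = C * C' * Real.exp ((C + C') * ∑ i, β (ω i)) := by
        rw [← Real.exp_add, ← add_mul]

theorem Tame.const {n : ℕ} (hβ : Dom m β) (c : ℝ) : Tame β (fun _ : Fin n → E => c) := by
  refine ⟨measurable_const, |c|, abs_nonneg _, fun ω => ?_⟩
  have hS := TMeasB_S_nonneg hβ ω
  have h1 : 1 ≤ Real.exp (|c| * ∑ i, β (ω i)) := Real.one_le_exp (by positivity)
  have h2 := abs_nonneg c
  nlinarith

theorem Tame.exp {n : ℕ} {H : (Fin n → E) → ℝ} (hβ : Dom m β) (h : Ham β H) :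
    Tame β (fun ω => Real.exp (H ω)) := by
  obtain ⟨C, h0, h1⟩ := h.bound
  refine ⟨Real.measurable_exp.comp h.meas, Real.exp C + C, by positivity, fun ω => ?_⟩
  have hS := TMeasB_S_nonneg hβ ω
  apply TMeasB_aux (by positivity) h0 hS
  rw [abs_of_pos (Real.exp_pos _), ← Real.exp_add]
  apply Real.exp_le_exp.2
  have := (le_abs_self _).trans (h1 ω)
  linarith

theorem Ham.tame {n : ℕ} {H : (Fin n → E) → ℝ} (hβ : Dom m β) (h : Ham β H) : Tame β H := by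
  obtain ⟨C, h0, h1⟩ := h.bound
  refine ⟨h.meas, C + 1, by linarith, fun ω => ?_⟩
  have hS := TMeasB_S_nonneg hβ ω
  apply TMeasB_aux h0 zero_le_one hS
  refine (h1 ω).trans (mul_le_mul_of_nonneg_left ?_ h0)
  rw [one_mul]
  have := Real.add_one_le_exp (∑ i, β (ω i))
  linarith

theorem Ham.add {n : ℕ} {H H' : (Fin n → E) → ℝ} (hβ : Dom m β) (h : Ham β H) (h' : Ham β H') :
    Ham β (fun ω => H ω + H' ω) := by
  obtain ⟨C, h0, h1⟩ := h.bound
  obtain ⟨C', h0', h1'⟩ := h'.bound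
  refine ⟨h.meas.add h'.meas, C + C', by linarith, fun ω => ?_⟩
  calc |H ω + H' ω| ≤ |H ω| + |H' ω| := abs_add_le _ _
    _ ≤ C * (1 + ∑ i, β (ω i)) + C' * (1 + ∑ i, β (ω i)) := add_le_add (h1 ω) (h1' ω)
    _ = (C + C') * (1 + ∑ i, β (ω i)) := by ring

theorem Ham.const_mul {n : ℕ} {H : (Fin n → E) → ℝ} (c : ℝ) (h : Ham β H) :
    Ham β (fun ω => c * H ω) := by
  obtain ⟨C, h0, h1⟩ := h.bound
  refine ⟨h.meas.const_mul c, |c| * C, by positivity, fun ω => ?_⟩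
  rw [abs_mul, mul_assoc]
  exact mul_le_mul_of_nonneg_left (h1 ω) (abs_nonneg _)

/-- fixing the first coordinate -/
theorem Ham.cons {n : ℕ} {H : (Fin (n + 1) → E) → ℝ} (hβ : Dom m β) (h : Ham β H) (e : E) :
    Ham β (fun ω => H (Fin.cons e ω)) := by
  obtain ⟨C, h0, h1⟩ := h.bound
  have hb := hβ.nonneg e
  refine ⟨h.meas.comp (TMeasB_cons_meas e), C * (1 + β e), by positivity, fun ω => ?_⟩
  have hS := TMeasB_S_nonneg hβ ω
  refine (h1 _).trans ?_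
  rw [TMeasB_cons_sum, mul_assoc]
  apply mul_le_mul_of_nonneg_left _ h0
  nlinarith [mul_nonneg hb hS]

theorem Tame.cons {n : ℕ} {H : (Fin (n + 1) → E) → ℝ} (hβ : Dom m β) (h : Tame β H) (e : E) :
    Tame β (fun ω => H (Fin.cons e ω)) := by
  obtain ⟨C, h0, h1⟩ := h.bound
  have hb := hβ.nonneg e
  refine ⟨h.meas.comp (TMeasB_cons_meas e), C * Real.exp (C * β e) + C, by positivity, fun ω => ?_⟩
  have hS := TMeasB_S_nonneg hβ ω
  apply TMeasB_aux (by positivity) h0 hS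
  refine (h1 _).trans ?_
  rw [TMeasB_cons_sum, mul_add, Real.exp_add, mul_assoc]

end Crest.Agent.RI
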