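import Crest.Agent.RI.TMeasA
import Crest.Agent.RI.TMeasB

/-!
# Row 164, tower: a priori bounds, integrability.
-/

set_option autoImplicit false

namespace Crest.Agent.RI
open MeasureTheory ProbabilityTheory

variable {E : Type} [MeasurableSpace E]
variable {m : Measure E} [IsProbabilityMeasure m] {ζ : ℕ → ℝ} {β : E → ℝ}

private theorem TMeasC_cons_meas (n : ℕ) :
    Measurable (fun p : E × (Fin n → E) => (Fin.cons p.1 p.2 : Fin (n + 1) → E)) := by
  rw [measurable_pi_iff]
  intro i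
  refine Fin.cases ?_ (fun j => ?_) i
  · simp only [Fin.cons_zero]
    exact measurable_fst
  · simp only [Fin.cons_succ]
    exact (measurable_pi_apply j).comp measurable_snd

private theorem TMeasC_uncurry {n : ℕ} {H : (Fin (n + 1) → E) → ℝ} (hH : Measurable H) :
    Measurable (Function.uncurry
      (fun (e : E) (ω : Fin n → E) => H (Fin.cons e ω : Fin (n + 1) → E))) :=
  hH.comp (TMeasC_cons_meas n)

private theorem TMeasC_cons_meas' {n : ℕ} {H : (Fin (n + 1) → E) → ℝ} (hH : Measurable H) (e : E) :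
    Measurable (fun ω : Fin n → E => H (Fin.cons e ω)) :=
  hH.comp ((TMeasC_cons_meas n).comp measurable_prodMk_left)

private theorem TMeasC_int_beta (hβ : Dom m β) : Integrable β m := by
  refine (hβ.int 1).mono' hβ.meas.aestronglyMeasurable (Filter.Eventually.of_forall fun e => ?_)
  rw [Real.norm_eq_abs, abs_of_nonneg (hβ.nonneg e), one_mul]
  have := Real.add_one_le_exp (β e)
  linarith

private theorem TMeasC_int_exp (hβ : Dom m β) {A C ζ : ℝ} (h0 : 0 ≤ ζ) (h1 : ζ ≤ 1)
    {f : E → ℝ} (hf : Measurable f) (hb : ∀ e, |f e| ≤ A + C * β e) :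
    Integrable (fun e => Real.exp (ζ * f e)) m := by
  refine ((hβ.int C).const_mul (Real.exp A)).mono'
    ((hf.const_mul ζ).exp).aestronglyMeasurable (Filter.Eventually.of_forall fun e => ?_)
  rw [Real.norm_eq_abs, abs_of_pos (Real.exp_pos _), ← Real.exp_add]
  apply Real.exp_le_exp.mpr
  calc ζ * f e ≤ |ζ * f e| := le_abs_self _
    _ = ζ * |f e| := by rw [abs_mul, abs_of_nonneg h0]
    _ ≤ 1 * |f e| := by gcongr
    _ ≤ A + C * β e := by rw [one_mul]; exact hb e

private theorem TMeasC_int_f (hβ : Dom m β) {A C : ℝ}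
    {f : E → ℝ} (hf : Measurable f) (hb : ∀ e, |f e| ≤ A + C * β e) :
    Integrable f m := by
  refine ((integrable_const A).add ((TMeasC_int_beta hβ).const_mul C)).mono'
    hf.aestronglyMeasurable (Filter.Eventually.of_forall fun e => ?_)
  simpa using hb e

private theorem TMeasC_TT_bound (hβ : Dom m β) (C : ℝ) (hC : 0 ≤ C) :
    ∃ L : ℝ, 0 ≤ L ∧ ∀ ζ : ℝ, 0 ≤ ζ → ζ ≤ 1 → ∀ A : ℝ, ∀ f : E → ℝ, Measurable f →
      (∀ e, |f e| ≤ A + C * β e) → |TT m ζ f| ≤ A + L := by
  have hM : 0 ≤ ∫ e, Real.exp (2 * C * β e) ∂m :=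
    integral_nonneg fun e => (Real.exp_pos _).le
  have hI : 0 ≤ ∫ e, β e ∂m := integral_nonneg hβ.nonneg
  refine ⟨(∫ e, Real.exp (2 * C * β e) ∂m) + C * ∫ e, β e ∂m, by positivity, ?_⟩
  intro ζ h0 h1 A f hf hb
  have hfi := TMeasC_int_f hβ hf hb
  have hlow : |∫ e, f e ∂m| ≤ A + C * ∫ e, β e ∂m := by
    calc |∫ e, f e ∂m| ≤ ∫ e, |f e| ∂m := abs_integral_le_integral_abs
      _ ≤ ∫ e, (A + C * β e) ∂m :=
        integral_mono hfi.abs ((integrable_const A).add ((TMeasC_int_beta hβ).const_mul C)) hb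
      _ = A + C * ∫ e, β e ∂m := by
        rw [integral_add (integrable_const A) ((TMeasC_int_beta hβ).const_mul C),
          integral_const_mul]
        simp
  unfold TT
  split_ifs with hz
  · linarith
  · have hzp : 0 < ζ := lt_of_le_of_ne h0 (Ne.symm hz)
    have hei := TMeasC_int_exp hβ h0 h1 hf hb
    have hpos : 0 < ∫ e, Real.exp (ζ * f e) ∂m := by
      have := integral_exp_pos hei
      exact this
    -- lower bound
    have hJ : Real.exp (ζ * ∫ e, f e ∂m) ≤ ∫ e, Real.exp (ζ * f e) ∂m := by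
      set c : ℝ := ζ * ∫ e, f e ∂m with hc
      have h2 : ∫ e, (Real.exp c * (1 + (ζ * f e - c))) ∂m ≤ ∫ e, Real.exp (ζ * f e) ∂m := by
        refine integral_mono ?_ hei ?_
        · exact ((integrable_const 1).add
            ((hfi.const_mul ζ).sub (integrable_const c))).const_mul _
        · intro e
          have h3 := Real.add_one_le_exp (ζ * f e - c)
          calc Real.exp c * (1 + (ζ * f e - c)) ≤ Real.exp c * Real.exp (ζ * f e - c) := by
                gcongr
                linarith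
            _ = Real.exp (ζ * f e) := by rw [← Real.exp_add]; ring_nf
      have h4 : ∫ e, (Real.exp c * (1 + (ζ * f e - c))) ∂m = Real.exp c := by
        have i2 : Integrable (fun e => ζ * f e) m := hfi.const_mul ζ
        have i1 : Integrable (fun e => ζ * f e - c) m := i2.sub (integrable_const c)
        rw [integral_const_mul, integral_add (integrable_const 1) i1,
          integral_sub i2 (integrable_const c), integral_const_mul]
        simp [hc]
      rw [h4] at h2
      exact h2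
    have hup : ∫ e, Real.exp (ζ * f e) ∂m ≤
        Real.exp (ζ * A) * (1 + ζ * ∫ e, Real.exp (2 * C * β e) ∂m) := by
      calc ∫ e, Real.exp (ζ * f e) ∂m
          ≤ ∫ e, Real.exp (ζ * A) * (1 + ζ * Real.exp (2 * C * β e)) ∂m := by
            refine integral_mono hei
              (((integrable_const 1).add ((hβ.int (2 * C)).const_mul ζ)).const_mul _) ?_
            intro e
            have hx : 0 ≤ C * β e := mul_nonneg hC (hβ.nonneg e)
            have h5 : ζ * f e ≤ ζ * A + ζ * (C * β e) := by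
              have := (le_abs_self (f e)).trans (hb e)
              nlinarith
            have h6 : Real.exp (ζ * (C * β e)) ≤ 1 + ζ * Real.exp (2 * C * β e) := by
              have hy : 0 ≤ ζ * (C * β e) := by positivity
              have h7 : Real.exp (ζ * (C * β e)) * (1 - ζ * (C * β e)) ≤ 1 := by
                have h8 := Real.add_one_le_exp (-(ζ * (C * β e)))
                calc Real.exp (ζ * (C * β e)) * (1 - ζ * (C * β e))
                    ≤ Real.exp (ζ * (C * β e)) * Real.exp (-(ζ * (C * β e))) := by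
                      gcongr
                      linarith
                  _ = 1 := by rw [← Real.exp_add]; simp
              have h9 : Real.exp (ζ * (C * β e)) ≤ Real.exp (C * β e) := by
                apply Real.exp_le_exp.mpr
                nlinarith
              have h10 : C * β e ≤ Real.exp (C * β e) := by
                have := Real.add_one_le_exp (C * β e)
                linarith
              have h11 : (C * β e) * Real.exp (ζ * (C * β e)) ≤ Real.exp (2 * C * β e) := by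
                calc (C * β e) * Real.exp (ζ * (C * β e))
                    ≤ Real.exp (C * β e) * Real.exp (C * β e) := by
                      gcongr
                  _ = Real.exp (2 * C * β e) := by rw [← Real.exp_add]; ring_nf
              nlinarith
            calc Real.exp (ζ * f e) ≤ Real.exp (ζ * A + ζ * (C * β e)) :=
                  Real.exp_le_exp.mpr h5
              _ = Real.exp (ζ * A) * Real.exp (ζ * (C * β e)) := Real.exp_add _ _
              _ ≤ Real.exp (ζ * A) * (1 + ζ * Real.exp (2 * C * β e)) :=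
                  mul_le_mul_of_nonneg_left h6 (Real.exp_pos _).le
        _ = _ := by
            rw [integral_const_mul, integral_add (integrable_const 1)
              ((hβ.int (2 * C)).const_mul ζ), integral_const_mul]
            simp
    rw [abs_le]
    constructor
    · have h12 : ζ * ∫ e, f e ∂m ≤ Real.log (∫ e, Real.exp (ζ * f e) ∂m) := by
        rw [Real.le_log_iff_exp_le hpos]
        exact hJ
      have h13 : ∫ e, f e ∂m ≤ ζ⁻¹ * Real.log (∫ e, Real.exp (ζ * f e) ∂m) := by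
        rw [inv_mul_eq_div, le_div_iff₀ hzp]
        linarith
      have h14 := (abs_le.mp hlow).1
      linarith
    · have hM1 : 0 < 1 + ζ * ∫ e, Real.exp (2 * C * β e) ∂m := by positivity
      have h12 : Real.log (∫ e, Real.exp (ζ * f e) ∂m) ≤
          ζ * A + ζ * ∫ e, Real.exp (2 * C * β e) ∂m := by
        rw [Real.log_le_iff_le_exp hpos]
        refine hup.trans ?_
        rw [Real.exp_add]
        gcongr
        have := Real.add_one_le_exp (ζ * ∫ e, Real.exp (2 * C * β e) ∂m)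
        linarith
      have h13 : ζ⁻¹ * Real.log (∫ e, Real.exp (ζ * f e) ∂m) ≤
          A + ∫ e, Real.exp (2 * C * β e) ∂m := by
        rw [inv_mul_eq_div, div_le_iff₀ hzp]
        linarith
      have : 0 ≤ C * ∫ e, β e ∂m := by positivity
      linarith

private theorem TMeasC_cons_bd {n : ℕ} {a C : ℝ} {H : (Fin (n + 1) → E) → ℝ}
    (hb : ∀ ω, |H ω| ≤ a + C * ∑ j, β (ω j)) (e : E) (ω : Fin n → E) :
    |H (Fin.cons e ω)| ≤ (a + C * β e) + C * ∑ j, β (ω j) := by
  have := hb (Fin.cons e ω)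
  rw [Fin.sum_univ_succ] at this
  simp only [Fin.cons_zero, Fin.cons_succ] at this
  linarith

/-- `|nest H| ≤ a + K` if `|H| ≤ a + C Σ β`.  PROOF: induction: `g e = nest (H (cons e ·))` satisfies
`|g e| ≤ a + C β e + K_n`; `TT ζ g ≤ a + K_n + max (∫ Cβ) (log ∫ exp (C β))` (for `0<ζ≤1`:
`(1/ζ) log ∫ exp(ζ C β) ≤ log ∫ exp (Cβ)` by Jensen, or simply bound `exp(ζ C β)` moments:
`(∫ exp(ζCβ)) ≤ (∫ exp(Cβ))^ζ`), `TT ζ g ≥ - a - K_n - C ∫ β` by Jensen. -/
theorem nest_bound (hβ : Dom m β) (n : ℕ) (C : ℝ) (hC : 0 ≤ C) :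
    ∃ K : ℝ, 0 ≤ K ∧ ∀ (ζ : ℕ → ℝ), Exps ζ → ∀ (i : ℕ) (a : ℝ), 0 ≤ a → ∀ H : (Fin n → E) → ℝ,
      Measurable H → (∀ ω, |H ω| ≤ a + C * ∑ j, β (ω j)) → |nest m ζ n i H| ≤ a + K := by
  obtain ⟨L, hL0, hL⟩ := TMeasC_TT_bound hβ C hC
  induction n with
  | zero =>
    refine ⟨0, le_rfl, ?_⟩
    intro ζ _ i a _ H _ hb
    have := hb Fin.elim0
    simpa [nest] using this
  | succ n ih =>
    obtain ⟨K, hK0, hK⟩ := ih
    refine ⟨K + L, by positivity, ?_⟩
    intro ζ hζ i a ha H hH hb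
    have hg : Measurable (fun e => nest m ζ n (i + 1) (fun ω => H (Fin.cons e ω))) :=
      measurable_nest m ζ n (i + 1) (TMeasC_uncurry hH)
    have hgb : ∀ e, |nest m ζ n (i + 1) (fun ω => H (Fin.cons e ω))| ≤ (a + K) + C * β e := by
      intro e
      have := hK ζ hζ (i + 1) (a + C * β e) (add_nonneg ha (mul_nonneg hC (hβ.nonneg e)))
        (fun ω => H (Fin.cons e ω)) (TMeasC_cons_meas' hH e) (TMeasC_cons_bd hb e)
      linarith
    have := hL (ζ i) (hζ i).1 (hζ i).2 (a + K) _ hg hgb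
    simp only [nest]
    linarith

/-- weights: `0 ≤ wgt`, `∫ wgt = 1`.  (`wgt e = exp (ζ g e) / ∫ exp (ζ g)`, `g e = nest (H (cons e ·))`,
integrable by `nest_bound`.) -/
theorem wgt_pos (m : Measure E) (ζ : ℕ → ℝ) (n i : ℕ) (H : (Fin (n + 1) → E) → ℝ) (e : E) :
    0 < wgt m ζ n i H e := Real.exp_pos _

private theorem TMeasC_ham_bd {n : ℕ} {H : (Fin n → E) → ℝ} (hH : Ham β H) :
    ∃ C, 0 ≤ C ∧ ∀ ω, |H ω| ≤ C + C * ∑ j, β (ω j) := by
  obtain ⟨C, h0, h1⟩ := hH.bound
  refine ⟨C, h0, fun ω => ?_⟩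
  have := h1 ω
  linarith

private theorem TMeasC_g (hβ : Dom m β) (hζ : Exps ζ) (n i : ℕ) {H : (Fin (n + 1) → E) → ℝ}
    (hH : Ham β H) :
    Integrable (fun e => Real.exp (ζ i * nest m ζ n (i + 1) (fun ω => H (Fin.cons e ω)))) m := by
  obtain ⟨C, h0, hb⟩ := TMeasC_ham_bd hH
  obtain ⟨K, hK0, hK⟩ := nest_bound hβ n C h0
  have hg : Measurable (fun e => nest m ζ n (i + 1) (fun ω => H (Fin.cons e ω))) :=
    measurable_nest m ζ n (i + 1) (TMeasC_uncurry hH.meas)
  have hgb : ∀ e, |nest m ζ n (i + 1) (fun ω => H (Fin.cons e ω))| ≤ (C + K) + C * β e := by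
    intro e
    have := hK ζ hζ (i + 1) (C + C * β e) (add_nonneg h0 (mul_nonneg h0 (hβ.nonneg e)))
      (fun ω => H (Fin.cons e ω)) (TMeasC_cons_meas' hH.meas e) (TMeasC_cons_bd hb e)
    linarith
  exact TMeasC_int_exp hβ (hζ i).1 (hζ i).2 hg hgb

/-- the weight as a quotient -/
private theorem TMeasC_wgt_eq (hβ : Dom m β) (hζ : Exps ζ) (n i : ℕ) {H : (Fin (n + 1) → E) → ℝ}
    (hH : Ham β H) (e : E) : wgt m ζ n i H e =
      Real.exp (ζ i * nest m ζ n (i + 1) (fun ω => H (Fin.cons e ω))) /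
        ∫ e, Real.exp (ζ i * nest m ζ n (i + 1) (fun ω => H (Fin.cons e ω))) ∂m := by
  have hi := TMeasC_g hβ hζ n i hH
  have hpos : 0 < ∫ e, Real.exp (ζ i * nest m ζ n (i + 1) (fun ω => H (Fin.cons e ω))) ∂m :=
    integral_exp_pos hi
  by_cases hz : ζ i = 0
  · simp [wgt, hz]
  · have h1 : ζ i * nest m ζ (n + 1) i H =
        Real.log (∫ e, Real.exp (ζ i * nest m ζ n (i + 1) (fun ω => H (Fin.cons e ω))) ∂m) := by
      simp only [nest, TT, hz, if_false]
      rw [mul_inv_cancel_left₀ hz]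
    rw [wgt, mul_sub, h1, Real.exp_sub, Real.exp_log hpos]

theorem wgt_integral (hβ : Dom m β) (hζ : Exps ζ) (n i : ℕ) {H : (Fin (n + 1) → E) → ℝ}
    (hH : Ham β H) : Integrable (wgt m ζ n i H) m ∧ ∫ e, wgt m ζ n i H e ∂m = 1 := by
  have hi := TMeasC_g hβ hζ n i hH
  have hpos : 0 < ∫ e, Real.exp (ζ i * nest m ζ n (i + 1) (fun ω => H (Fin.cons e ω))) ∂m :=
    integral_exp_pos hi
  have he : wgt m ζ n i H = fun e =>
      Real.exp (ζ i * nest m ζ n (i + 1) (fun ω => H (Fin.cons e ω))) /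
        ∫ e, Real.exp (ζ i * nest m ζ n (i + 1) (fun ω => H (Fin.cons e ω))) ∂m := by
    funext e
    exact TMeasC_wgt_eq hβ hζ n i hH e
  rw [he]
  refine ⟨hi.div_const _, ?_⟩
  rw [integral_div, div_self hpos.ne']

/-- the weight as a quotient -/
theorem wgt_eq (hβ : Dom m β) (hζ : Exps ζ) (n i : ℕ) {H : (Fin (n + 1) → E) → ℝ}
    (hH : Ham β H) (e : E) : wgt m ζ n i H e =
      Real.exp (ζ i * nest m ζ n (i + 1) (fun ω => H (Fin.cons e ω))) /
        ∫ e, Real.exp (ζ i * nest m ζ n (i + 1) (fun ω => H (Fin.cons e ω))) ∂m :=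
  TMeasC_wgt_eq hβ hζ n i hH e

private theorem TMeasC_wgt_meas {n : ℕ} (ζ : ℕ → ℝ) (i : ℕ) {H : (Fin (n + 1) → E) → ℝ}
    (hH : Measurable H) : Measurable (wgt m ζ n i H) := by
  have hg : Measurable (fun e => nest m ζ n (i + 1) (fun ω => H (Fin.cons e ω))) :=
    measurable_nest m ζ n (i + 1) (TMeasC_uncurry hH)
  unfold wgt
  exact ((hg.sub_const _).const_mul _).exp

private theorem TMeasC_prod_meas {n : ℕ} (ζ : ℕ → ℝ) (i : ℕ) {H Φ : (Fin (n + 1) → E) → ℝ}
    (hH : Measurable H) (hΦ : Measurable Φ) :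
    Measurable (fun e => wgt m ζ n i H e *
      pathE m ζ n (i + 1) (fun ω => H (Fin.cons e ω)) (fun ω => Φ (Fin.cons e ω))) :=
  (TMeasC_wgt_meas ζ i hH).mul
    (measurable_pathE m ζ n (i + 1) (TMeasC_uncurry hH) (TMeasC_uncurry hΦ))

/-- weight bound -/
private theorem TMeasC_wgt_le (hβ : Dom m β) (n : ℕ) (C : ℝ) (hC : 0 ≤ C) :
    ∃ K : ℝ, 0 ≤ K ∧ ∀ (ζ : ℕ → ℝ), Exps ζ → ∀ (i : ℕ) (a : ℝ), 0 ≤ a →
      ∀ H : (Fin (n + 1) → E) → ℝ, Measurable H → (∀ ω, |H ω| ≤ a + C * ∑ j, β (ω j)) →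
      ∀ e, wgt m ζ n i H e ≤ Real.exp (2 * a + K + C * β e) := by
  obtain ⟨K, hK0, hK⟩ := nest_bound hβ n C hC
  obtain ⟨K', hK0', hK'⟩ := nest_bound hβ (n + 1) C hC
  refine ⟨K + K', by positivity, ?_⟩
  intro ζ hζ i a ha H hH hb e
  have h1 := hK ζ hζ (i + 1) (a + C * β e) (add_nonneg ha (mul_nonneg hC (hβ.nonneg e)))
    (fun ω => H (Fin.cons e ω)) (TMeasC_cons_meas' hH e) (TMeasC_cons_bd hb e)
  have h2 := hK' ζ hζ i a ha H hH hb
  unfold wgt
  apply Real.exp_le_exp.mpr
  have h3 : |nest m ζ n (i + 1) (fun ω => H (Fin.cons e ω)) - nest m ζ (n + 1) i H| ≤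
      2 * a + (K + K') + C * β e := by
    refine (abs_sub _ _).trans ?_
    linarith
  calc ζ i * (nest m ζ n (i + 1) (fun ω => H (Fin.cons e ω)) - nest m ζ (n + 1) i H)
      ≤ |ζ i * (nest m ζ n (i + 1) (fun ω => H (Fin.cons e ω)) - nest m ζ (n + 1) i H)| :=
        le_abs_self _
    _ = ζ i * |nest m ζ n (i + 1) (fun ω => H (Fin.cons e ω)) - nest m ζ (n + 1) i H| := by
        rw [abs_mul, abs_of_nonneg (hζ i).1]
    _ ≤ 1 * |nest m ζ n (i + 1) (fun ω => H (Fin.cons e ω)) - nest m ζ (n + 1) i H| := by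
        gcongr
        exact (hζ i).2
    _ ≤ _ := by rw [one_mul]; exact h3

private theorem TMeasC_cons_bd' {n : ℕ} {b B : ℝ} {Φ : (Fin (n + 1) → E) → ℝ}
    (hb : ∀ ω, |Φ ω| ≤ b * Real.exp (B * ∑ j, β (ω j))) (e : E) (ω : Fin n → E) :
    |Φ (Fin.cons e ω)| ≤ (b * Real.exp (B * β e)) * Real.exp (B * ∑ j, β (ω j)) := by
  have := hb (Fin.cons e ω)
  rw [Fin.sum_univ_succ] at this
  simp only [Fin.cons_zero, Fin.cons_succ] at this
  rw [mul_assoc, ← Real.exp_add, ← mul_add]
  exact this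

/-- `|E_Q Φ| ≤ b K exp (K a)` if `|H| ≤ a + C Σ β`, `|Φ| ≤ b exp (B Σ β)`.  PROOF: induction,
`wgt e ≤ exp (K' (1 + a + β e))`. -/
theorem pathE_bound (hβ : Dom m β) (n : ℕ) (C B : ℝ) (hC : 0 ≤ C) (hB : 0 ≤ B) :
    ∃ K : ℝ, 0 ≤ K ∧ ∀ (ζ : ℕ → ℝ), Exps ζ → ∀ (i : ℕ) (a b : ℝ), 0 ≤ a → 0 ≤ b →
      ∀ H Φ : (Fin n → E) → ℝ, Measurable H → Measurable Φ →
      (∀ ω, |H ω| ≤ a + C * ∑ j, β (ω j)) → (∀ ω, |Φ ω| ≤ b * Real.exp (B * ∑ j, β (ω j))) →
      |pathE m ζ n i H Φ| ≤ b * (K * Real.exp (K * a)) := by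
  induction n with
  | zero =>
    refine ⟨1, zero_le_one, ?_⟩
    intro ζ _ i a b ha hb H Φ _ _ _ hΦ
    have h1 := hΦ Fin.elim0
    simp only [Finset.univ_eq_empty, Finset.sum_empty, mul_zero, Real.exp_zero, mul_one] at h1
    simp only [pathE, one_mul]
    refine h1.trans ?_
    have : 1 ≤ Real.exp a := Real.one_le_exp ha
    nlinarith
  | succ n ih =>
    obtain ⟨K, hK0, hK⟩ := ih
    obtain ⟨L, hL0, hL⟩ := TMeasC_wgt_le hβ n C hC
    set M : ℝ := ∫ e, Real.exp ((B + K * C + C) * β e) ∂m with hM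
    have hM0 : 0 ≤ M := integral_nonneg fun e => (Real.exp_pos _).le
    refine ⟨K * Real.exp L * M + K + 2, by positivity, ?_⟩
    intro ζ hζ i a b ha hb H Φ hH hΦ hHb hΦb
    have hin : ∀ e, |wgt m ζ n i H e * pathE m ζ n (i + 1) (fun ω => H (Fin.cons e ω))
        (fun ω => Φ (Fin.cons e ω))| ≤
        (b * (K * Real.exp L * Real.exp ((K + 2) * a))) *
          Real.exp ((B + K * C + C) * β e) := by
      intro e
      have h1 := hK ζ hζ (i + 1) (a + C * β e) (b * Real.exp (B * β e))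
        (add_nonneg ha (mul_nonneg hC (hβ.nonneg e))) (by positivity)
        (fun ω => H (Fin.cons e ω)) (fun ω => Φ (Fin.cons e ω))
        (TMeasC_cons_meas' hH e) (TMeasC_cons_meas' hΦ e)
        (TMeasC_cons_bd hHb e) (TMeasC_cons_bd' hΦb e)
      have h2 := hL ζ hζ i a ha H hH hHb e
      rw [abs_mul, abs_of_pos (wgt_pos m ζ n i H e)]
      calc wgt m ζ n i H e * |pathE m ζ n (i + 1) (fun ω => H (Fin.cons e ω))
            (fun ω => Φ (Fin.cons e ω))|
          ≤ Real.exp (2 * a + L + C * β e) *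
            (b * Real.exp (B * β e) * (K * Real.exp (K * (a + C * β e)))) := by
            gcongr
        _ = b * K * (Real.exp (2 * a + L + C * β e) * Real.exp (B * β e) *
              Real.exp (K * (a + C * β e))) := by ring
        _ = b * K * (Real.exp L * Real.exp ((K + 2) * a) *
              Real.exp ((B + K * C + C) * β e)) := by
            rw [← Real.exp_add, ← Real.exp_add, ← Real.exp_add, ← Real.exp_add]
            ring_nf
        _ = _ := by ring
    have hint : Integrable (fun e => (b * (K * Real.exp L * Real.exp ((K + 2) * a))) *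
          Real.exp ((B + K * C + C) * β e)) m := (hβ.int _).const_mul _
    have h3 : |pathE m ζ (n + 1) i H Φ| ≤ ∫ e, (b * (K * Real.exp L * Real.exp ((K + 2) * a))) *
          Real.exp ((B + K * C + C) * β e) ∂m := by
      simp only [pathE]
      exact norm_integral_le_of_norm_le hint (Filter.Eventually.of_forall fun e => by
        rw [Real.norm_eq_abs]; exact hin e)
    refine h3.trans ?_
    rw [integral_const_mul, ← hM]
    have h4 : Real.exp ((K + 2) * a) ≤ Real.exp ((K * Real.exp L * M + K + 2) * a) := by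
      apply Real.exp_le_exp.mpr
      have : 0 ≤ K * Real.exp L * M := by positivity
      nlinarith
    calc b * (K * Real.exp L * Real.exp ((K + 2) * a)) * M
        = b * ((K * Real.exp L * M) * Real.exp ((K + 2) * a)) := by ring
      _ ≤ b * ((K * Real.exp L * M + K + 2) *
            Real.exp ((K * Real.exp L * M + K + 2) * a)) := by
          gcongr
          linarith

private theorem TMeasC_condE_bound (hβ : Dom m β) (n : ℕ) (C B : ℝ) (hC : 0 ≤ C) (hB : 0 ≤ B) :
    ∃ K : ℝ, 0 ≤ K ∧ ∀ (ζ : ℕ → ℝ), Exps ζ → ∀ (r i : ℕ) (a b : ℝ), 0 ≤ a → 0 ≤ b →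
      ∀ H Φ : (Fin n → E) → ℝ, Measurable H → Measurable Φ →
      (∀ ω, |H ω| ≤ a + C * ∑ j, β (ω j)) → (∀ ω, |Φ ω| ≤ b * Real.exp (B * ∑ j, β (ω j))) →
      ∀ ω, |condE m ζ r n i H Φ ω| ≤
        b * (K * Real.exp (K * a)) * Real.exp (K * ∑ j, β (ω j)) := by
  induction n with
  | zero =>
    refine ⟨1, zero_le_one, ?_⟩
    intro ζ _ r i a b ha hb H Φ _ _ _ hΦ ω
    have h1 := hΦ ω
    simp only [Finset.univ_eq_empty, Finset.sum_empty, mul_zero, Real.exp_zero, mul_one] at h1 ⊢
    have h2 : condE m ζ r 0 i H Φ ω = Φ ω := by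
      cases r with
      | zero => simp only [condE, pathE]; congr 1; exact Subsingleton.elim _ _
      | succ r => simp only [condE]
    rw [h2, one_mul, one_mul]
    refine h1.trans ?_
    have : 1 ≤ Real.exp a := Real.one_le_exp ha
    nlinarith
  | succ n ih =>
    obtain ⟨K, hK0, hK⟩ := ih
    obtain ⟨L, hL0, hL⟩ := pathE_bound hβ (n + 1) C B hC hB
    refine ⟨K + L + (B + K * C), by positivity, ?_⟩
    intro ζ hζ r i a b ha hb H Φ hH hΦ hHb hΦb ω
    have hS : 0 ≤ ∑ j, β (ω j) := Finset.sum_nonneg fun j _ => hβ.nonneg _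
    have hKC : 0 ≤ K * C := mul_nonneg hK0 hC
    cases r with
    | zero =>
      simp only [condE]
      have h1 := hL ζ hζ i a b ha hb H Φ hH hΦ hHb hΦb
      refine h1.trans ?_
      have h2 : 1 ≤ Real.exp ((K + L + (B + K * C)) * ∑ j, β (ω j)) :=
        Real.one_le_exp (by positivity)
      calc b * (L * Real.exp (L * a))
          ≤ b * ((K + L + (B + K * C)) * Real.exp ((K + L + (B + K * C)) * a)) := by
            gcongr
            · linarith
            · linarith
        _ = b * ((K + L + (B + K * C)) * Real.exp ((K + L + (B + K * C)) * a)) * 1 := by ring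
        _ ≤ _ := by gcongr
    | succ r =>
      simp only [condE]
      have h1 := hK ζ hζ r (i + 1) (a + C * β (ω 0)) (b * Real.exp (B * β (ω 0)))
        (add_nonneg ha (mul_nonneg hC (hβ.nonneg _))) (by positivity)
        (fun ω' => H (Fin.cons (ω 0) ω')) (fun ω' => Φ (Fin.cons (ω 0) ω'))
        (TMeasC_cons_meas' hH _) (TMeasC_cons_meas' hΦ _)
        (TMeasC_cons_bd hHb _) (TMeasC_cons_bd' hΦb _) (Fin.tail ω)
      refine h1.trans ?_
      have hT : 0 ≤ ∑ j, β (Fin.tail ω j) := Finset.sum_nonneg fun j _ => hβ.nonneg _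
      have hsum : ∑ j, β (ω j) = β (ω 0) + ∑ j, β (Fin.tail ω j) := by
        rw [Fin.sum_univ_succ]; rfl
      have h0 : 0 ≤ β (ω 0) := hβ.nonneg _
      calc b * Real.exp (B * β (ω 0)) * (K * Real.exp (K * (a + C * β (ω 0)))) *
            Real.exp (K * ∑ j, β (Fin.tail ω j))
          = b * (K * (Real.exp (B * β (ω 0)) * Real.exp (K * (a + C * β (ω 0))) *
            Real.exp (K * ∑ j, β (Fin.tail ω j)))) := by ring
        _ = b * (K * Real.exp (K * a + ((B + K * C) * β (ω 0) +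
              K * ∑ j, β (Fin.tail ω j)))) := by
            rw [← Real.exp_add, ← Real.exp_add]
            ring_nf
        _ ≤ b * ((K + L + (B + K * C)) * Real.exp ((K + L + (B + K * C)) * a +
              (K + L + (B + K * C)) * ∑ j, β (ω j))) := by
            have hle : K * a + ((B + K * C) * β (ω 0) + K * ∑ j, β (Fin.tail ω j)) ≤
                (K + L + (B + K * C)) * a + (K + L + (B + K * C)) * ∑ j, β (ω j) := by
              rw [hsum, mul_add]
              have q1 : K * a ≤ (K + L + (B + K * C)) * a :=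
                mul_le_mul_of_nonneg_right (by linarith) ha
              have q2 : (B + K * C) * β (ω 0) ≤ (K + L + (B + K * C)) * β (ω 0) :=
                mul_le_mul_of_nonneg_right (by linarith) h0
              have q3 : K * ∑ j, β (Fin.tail ω j) ≤
                  (K + L + (B + K * C)) * ∑ j, β (Fin.tail ω j) :=
                mul_le_mul_of_nonneg_right (by linarith) hT
              linarith
            have hexp := Real.exp_le_exp.mpr hle
            have hK1 : K ≤ K + L + (B + K * C) := by linarith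
            exact mul_le_mul_of_nonneg_left
              (mul_le_mul hK1 hexp (Real.exp_pos _).le (hK0.trans hK1)) hb
        _ = _ := by rw [Real.exp_add]; ring

/-- conditional expectations of tame functions are tame; uniform version -/
theorem condE_tameC (hβ : Dom m β) (n : ℕ) (C : ℝ) (hC : 0 ≤ C) :
    ∃ K : ℝ, 0 ≤ K ∧ ∀ (ζ : ℕ → ℝ), Exps ζ → ∀ (r i : ℕ) (H Φ : (Fin n → E) → ℝ),
      HamC C β H → TameC C β Φ → TameC K β (condE m ζ r n i H Φ) := by
  obtain ⟨K, hK0, hK⟩ := TMeasC_condE_bound hβ n C C hC hC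
  refine ⟨C * (K * Real.exp (K * C)) + K, by positivity, ?_⟩
  intro ζ hζ r i H Φ hH hΦ
  refine ⟨?_, ?_⟩
  · have h1 := measurable_condE m ζ n r i (A := Unit) (H := fun _ => H) (Φ := fun _ => Φ)
      (hH.meas.comp measurable_snd) (hΦ.meas.comp measurable_snd)
    exact h1.comp (measurable_prodMk_left (x := ()))
  · intro ω
    have h1 := hK ζ hζ r i C C hC hC H Φ hH.meas hΦ.meas
      (fun ω => by have := hH.bound ω; linarith) hΦ.bound ω
    refine h1.trans ?_
    have hS : 0 ≤ ∑ j, β (ω j) := Finset.sum_nonneg fun j _ => hβ.nonneg _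
    have h2 : 0 ≤ C * (K * Real.exp (K * C)) := by positivity
    gcongr
    · linarith
    · linarith

theorem condE_tame (hβ : Dom m β) (hζ : Exps ζ) (r n i : ℕ) {H Φ : (Fin n → E) → ℝ} (hH : Ham β H)
    (hΦ : Tame β Φ) : Tame β (condE m ζ r n i H Φ) := by
  obtain ⟨C₁, h1, hH'⟩ := hH.bound
  obtain ⟨C₂, h2, hΦ'⟩ := hΦ.bound
  obtain ⟨K, hK0, hK⟩ := condE_tameC hβ n (C₁ + C₂) (add_nonneg h1 h2)
  have hA : HamC (C₁ + C₂) β H := by
    refine ⟨hH.meas, fun ω => ?_⟩
    have hS : 0 ≤ ∑ j, β (ω j) := Finset.sum_nonneg fun j _ => hβ.nonneg _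
    refine (hH' ω).trans ?_
    gcongr
    linarith
  have hB : TameC (C₁ + C₂) β Φ := by
    refine ⟨hΦ.meas, fun ω => ?_⟩
    have hS : 0 ≤ ∑ j, β (ω j) := Finset.sum_nonneg fun j _ => hβ.nonneg _
    refine (hΦ' ω).trans ?_
    gcongr
    · linarith
    · linarith
  have h3 := hK ζ hζ r i H Φ hA hB
  exact ⟨h3.meas, K, hK0, h3.bound⟩

/-- integrability needed in every induction step -/
theorem integrable_wgt_pathE (hβ : Dom m β) (hζ : Exps ζ) (n i : ℕ) {H Φ : (Fin (n + 1) → E) → ℝ}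
    (hH : Ham β H) (hΦ : Tame β Φ) :
    Integrable (fun e => wgt m ζ n i H e *
      pathE m ζ n (i + 1) (fun ω => H (Fin.cons e ω)) (fun ω => Φ (Fin.cons e ω))) m := by
  obtain ⟨C, h0, hb⟩ := TMeasC_ham_bd hH
  obtain ⟨B, hB, hΦb⟩ := hΦ.bound
  obtain ⟨K, hK0, hK⟩ := pathE_bound hβ n C B h0 hB
  obtain ⟨L, hL0, hL⟩ := TMeasC_wgt_le hβ n C h0
  have hint : Integrable (fun e => (B * (K * Real.exp L * Real.exp ((K + 2) * C))) *
          Real.exp ((B + K * C + C) * β e)) m := (hβ.int _).const_mul _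
  refine hint.mono' (TMeasC_prod_meas ζ i hH.meas hΦ.meas).aestronglyMeasurable
    (Filter.Eventually.of_forall fun e => ?_)
  have h1 := hK ζ hζ (i + 1) (C + C * β e) (B * Real.exp (B * β e))
    (add_nonneg h0 (mul_nonneg h0 (hβ.nonneg e))) (by positivity)
    (fun ω => H (Fin.cons e ω)) (fun ω => Φ (Fin.cons e ω))
    (TMeasC_cons_meas' hH.meas e) (TMeasC_cons_meas' hΦ.meas e)
    (TMeasC_cons_bd hb e) (TMeasC_cons_bd' hΦb e)
  have h2 := hL ζ hζ i C h0 H hH.meas hb e
  rw [Real.norm_eq_abs, abs_mul, abs_of_pos (wgt_pos m ζ n i H e)]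
  calc wgt m ζ n i H e * |pathE m ζ n (i + 1) (fun ω => H (Fin.cons e ω))
        (fun ω => Φ (Fin.cons e ω))|
      ≤ Real.exp (2 * C + L + C * β e) *
        (B * Real.exp (B * β e) * (K * Real.exp (K * (C + C * β e)))) := by
        gcongr
    _ = B * K * (Real.exp (2 * C + L + C * β e) * Real.exp (B * β e) *
          Real.exp (K * (C + C * β e))) := by ring
    _ = B * K * (Real.exp L * Real.exp ((K + 2) * C) *
          Real.exp ((B + K * C + C) * β e)) := by
        rw [← Real.exp_add, ← Real.exp_add, ← Real.exp_add, ← Real.exp_add]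
        ring_nf
    _ = _ := by ring

end Crest.Agent.RI
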