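import Crest.Agent.RI.FlowDefs
import Crest.Agent.RI.TMeasC

/-!
# Row 164: Gaussian coordinate shift as a flow; algebra of `IsD`
-/

set_option autoImplicit false

namespace Crest.Agent.RI

open MeasureTheory ProbabilityTheory

variable {E : Type} [MeasurableSpace E]
variable {m : Measure E} [IsProbabilityMeasure m] {β : E → ℝ}

private theorem FlowC_int_exp_abs (c : ℝ) :
    Integrable (fun x : ℝ => Real.exp (c * |x|)) (gaussianReal 0 1) := by
  refine ((integrable_exp_mul_gaussianReal c).add (integrable_exp_mul_gaussianReal (-c))).mono'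
    (by fun_prop) (Filter.Eventually.of_forall fun x => ?_)
  rw [Real.norm_eq_abs, abs_of_pos (Real.exp_pos _)]
  simp only [Pi.add_apply]
  rcases abs_cases x with h | h
  · rw [h.1]
    have := Real.exp_pos (-c * x)
    linarith
  · rw [h.1]
    have e : c * -x = -c * x := by ring
    rw [e]
    have := Real.exp_pos (c * x)
    linarith

private theorem FlowC_int_iff (f : ℝ → ℝ) :
    Integrable f (gaussianReal 0 1) ↔ Integrable (fun x => gaussianPDFReal 0 1 x * f x) := by
  rw [gaussianReal_of_var_ne_zero 0 one_ne_zero,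
    integrable_withDensity_iff_integrable_smul' (measurable_gaussianPDF 0 1)
      (Filter.Eventually.of_forall fun x => gaussianPDF_lt_top)]
  simp only [toReal_gaussianPDF, smul_eq_mul]

/-- One-dimensional Gaussian integration by parts for functions of exponential growth.
PROOF: `integral_mul_deriv_eq_deriv_mul_of_integrable` (or the version with the density
`gaussianPDFReal 0 1 x = (√(2π))⁻¹ exp(-x²/2)`, whose derivative is `-x` times itself). -/
theorem stein_one {f f' : ℝ → ℝ} {C : ℝ} (hf : ∀ x, HasDerivAt f (f' x) x)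
    (hf'm : Measurable f') (hb : ∀ x, |f x| ≤ C * Real.exp (C * |x|))
    (hb' : ∀ x, |f' x| ≤ C * Real.exp (C * |x|)) :
    ∫ x, f' x ∂(gaussianReal 0 1) = ∫ x, x * f x ∂(gaussianReal 0 1) := by
  have hfc : Continuous f := continuous_iff_continuousAt.2 fun x => (hf x).continuousAt
  have hC : 0 ≤ C := by
    have h := (abs_nonneg _).trans (hb 0)
    by_contra hc
    push Not at hc
    have := mul_neg_of_neg_of_pos hc (Real.exp_pos (C * |(0:ℝ)|))
    linarith
  -- integrability
  have hi : Integrable f (gaussianReal 0 1) :=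
    ((FlowC_int_exp_abs C).const_mul C).mono' hfc.aestronglyMeasurable
      (Filter.Eventually.of_forall hb)
  have hi' : Integrable f' (gaussianReal 0 1) :=
    ((FlowC_int_exp_abs C).const_mul C).mono' hf'm.aestronglyMeasurable
      (Filter.Eventually.of_forall hb')
  have hxi : Integrable (fun x => x * f x) (gaussianReal 0 1) := by
    refine ((FlowC_int_exp_abs (C + 1)).const_mul C).mono'
      (continuous_id.mul hfc).aestronglyMeasurable (Filter.Eventually.of_forall fun x => ?_)
    rw [Real.norm_eq_abs, abs_mul]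
    have h1 : |x| ≤ Real.exp |x| := by
      have := Real.add_one_le_exp |x|
      linarith
    calc |x| * |f x| ≤ Real.exp |x| * (C * Real.exp (C * |x|)) :=
          mul_le_mul h1 (hb x) (abs_nonneg _) (Real.exp_pos _).le
      _ = C * Real.exp ((C + 1) * |x|) := by
          rw [add_mul, Real.exp_add, one_mul]; ring
  rw [FlowC_int_iff] at hi hi' hxi
  -- derivative of the density
  have hpdf : ∀ x : ℝ, HasDerivAt (gaussianPDFReal 0 1) (-x * gaussianPDFReal 0 1 x) x := by
    intro x
    have e1 : gaussianPDFReal 0 1 = fun x : ℝ => (√(2 * Real.pi * 1))⁻¹ * Real.exp (-(x - 0) ^ 2 / (2 * 1)) := by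
      ext x
      rw [gaussianPDFReal_def]
      simp
    rw [e1]
    have h1 : HasDerivAt (fun x : ℝ => -(x - 0) ^ 2 / (2 * 1)) (-x) x := by
      have h2 : HasDerivAt (fun x : ℝ => x ^ 2) (2 * x) x := by
        simpa using hasDerivAt_pow 2 x
      have h3 := (h2.neg).div_const 2
      have e2 : (fun x : ℝ => -(x - 0) ^ 2 / (2 * 1)) = fun x : ℝ => (-x ^ 2) / 2 := by
        ext x; simp
      rw [e2]
      have e3 : -x = -(2 * x) / 2 := by ring
      rw [e3]
      exact h3
    have h4 := (h1.exp).const_mul (√(2 * Real.pi * 1))⁻¹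
    have e4 : -x * (√(2 * Real.pi * 1))⁻¹ * Real.exp (-(x - 0) ^ 2 / (2 * 1)) =
        (√(2 * Real.pi * 1))⁻¹ * (Real.exp (-(x - 0) ^ 2 / (2 * 1)) * -x) := by ring
    simp only [← mul_assoc] at e4 ⊢
    rw [e4]
    simpa only [mul_assoc] using h4
  have key := integral_mul_deriv_eq_deriv_mul_of_integrable (u := f) (u' := f')
    (v := gaussianPDFReal 0 1) (v' := fun x => -x * gaussianPDFReal 0 1 x)
    (fun x _ => hf x) (fun x _ => hpdf x)
    (by
      have := hxi.neg
      refine this.congr (Filter.Eventually.of_forall fun x => ?_)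
      simp only [Pi.neg_apply, Pi.mul_apply]
      ring)
    (by
      refine hi'.congr (Filter.Eventually.of_forall fun x => ?_)
      simp only [Pi.mul_apply]
      ring)
    (by
      refine hi.congr (Filter.Eventually.of_forall fun x => ?_)
      simp only [Pi.mul_apply]
      ring)
  rw [integral_gaussianReal_eq_integral_smul one_ne_zero,
    integral_gaussianReal_eq_integral_smul one_ne_zero]
  simp only [smul_eq_mul]
  have k1 : ∫ x, gaussianPDFReal 0 1 x * f' x = ∫ x, f' x * gaussianPDFReal 0 1 x :=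
    integral_congr_ae (Filter.Eventually.of_forall fun x => mul_comm _ _)
  have k2 : ∫ x, gaussianPDFReal 0 1 x * (x * f x) = -∫ x, f x * (-x * gaussianPDFReal 0 1 x) := by
    rw [← integral_neg]
    exact integral_congr_ae (Filter.Eventually.of_forall fun x => by ring_nf)
  rw [k1, k2, key, neg_neg]

/-- Shift of a Gaussian coordinate.  PROOF of `base`: `m = (m.prod γ).map (uncurry set)`,
`∫ F' dm = ∫∫ F' (set e x) dγ(x) dm(e)`, `d/dx F (set e x) = F' (set e x)` (hypothesis at `set e x`, `t = 0`, and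
`set (set e x) (x + s) = set e (x + s)`), `stein_one`, back. -/
theorem GCoord.cflow (hβ : Dom m β) {g : E → ℝ} {set : E → ℝ → E} (h : GCoord m β g set) :
    CFlow m β (fun t e => set e (g e + t)) g := by
  obtain ⟨c, hc, hg, hs⟩ := h.bd
  refine ⟨fun e => ?_, fun s t e => ?_, fun t => ?_, ⟨1 + c * c + c, by positivity, ?_⟩, h.gm,
    ⟨c, hc, hg⟩, ?_⟩
  · simp only [add_zero, h.set_g]
  · simp only [h.g_set, h.set_set]
    congr 1
    ring
  · exact h.sm.comp (measurable_id.prodMk (h.gm.add_const t))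
  · intro t e ht
    have hβ0 := hβ.nonneg e
    have h1 : |g e + t| ≤ c * (1 + β e) + 1 :=
      (abs_add_le _ _).trans (add_le_add (hg e) ht)
    have h2 := mul_le_mul_of_nonneg_left h1 hc
    have h3 := hs e (g e + t)
    nlinarith [mul_nonneg hc hβ0]
  · intro F F' hF hF' hd
    obtain ⟨C, hC, hCb⟩ := hF.bound
    obtain ⟨C', hC', hCb'⟩ := hF'.bound
    have hcomp : ∀ (G : E → ℝ), Measurable G →
        ∫ e, G e ∂m = ∫ p, G (set p.1 p.2) ∂(m.prod (gaussianReal 0 1)) := by
      intro G hG
      conv_lhs => rw [← h.law]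
      rw [integral_map h.sm.aemeasurable hG.aestronglyMeasurable]
      rfl
    have hint : ∀ (G : E → ℝ), Integrable G m →
        Integrable (fun p : E × ℝ => G (set p.1 p.2)) (m.prod (gaussianReal 0 1)) := by
      intro G hG
      rw [← h.law] at hG
      exact hG.comp_measurable h.sm
    have hF'i : Integrable F' m :=
      ((hβ.int C').const_mul C').mono' hF'.meas.aestronglyMeasurable
        (Filter.Eventually.of_forall hCb')
    have hgF : Integrable (fun e => g e * F e) m := by
      refine ((hβ.int (C + 1)).const_mul (c * C)).mono'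
        (h.gm.mul hF.meas).aestronglyMeasurable (Filter.Eventually.of_forall fun e => ?_)
      rw [Real.norm_eq_abs, abs_mul]
      have h1 : 1 + β e ≤ Real.exp (β e) := by
        have := Real.add_one_le_exp (β e)
        linarith
      calc |g e| * |F e| ≤ (c * Real.exp (β e)) * (C * Real.exp (C * β e)) :=
            mul_le_mul ((hg e).trans (mul_le_mul_of_nonneg_left h1 hc)) (hCb e) (abs_nonneg _)
              (mul_nonneg hc (Real.exp_pos _).le)
        _ = c * C * Real.exp ((C + 1) * β e) := by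
            rw [add_mul, Real.exp_add, one_mul]; ring
    rw [hcomp F' hF'.meas, hcomp (fun e => g e * F e) (h.gm.mul hF.meas), integral_prod _ (hint _ hF'i),
      integral_prod _ (hint _ hgF)]
    refine integral_congr_ae (Filter.Eventually.of_forall fun e => ?_)
    simp only [h.g_set]
    have hβ0 := hβ.nonneg e
    -- constants
    have hK : ∀ (G : E → ℝ) (D K : ℝ), 0 ≤ D → (∀ e, |G e| ≤ D * Real.exp (D * β e)) →
        D * Real.exp (D * β e) ≤ K → D * c ≤ K →
        ∀ x, |G (set e x)| ≤ K * Real.exp (K * |x|) := by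
      intro G D K hD hG h1 h2 x
      have h0 : 0 ≤ D * Real.exp (D * β e) := mul_nonneg hD (Real.exp_pos _).le
      calc |G (set e x)| ≤ D * Real.exp (D * β (set e x)) := hG _
        _ ≤ D * Real.exp (D * (β e + c * |x|)) := by
            refine mul_le_mul_of_nonneg_left (Real.exp_le_exp.2 ?_) hD
            exact mul_le_mul_of_nonneg_left (hs e x) hD
        _ = D * Real.exp (D * β e) * Real.exp (D * c * |x|) := by
            rw [mul_add, Real.exp_add]; ring_nf
        _ ≤ K * Real.exp (K * |x|) := by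
            refine mul_le_mul h1 (Real.exp_le_exp.2 ?_) (Real.exp_pos _).le (h0.trans h1)
            exact mul_le_mul_of_nonneg_right h2 (abs_nonneg _)
    have hA : 0 ≤ C * Real.exp (C * β e) := mul_nonneg hC (Real.exp_pos _).le
    have hA' : 0 ≤ C' * Real.exp (C' * β e) := mul_nonneg hC' (Real.exp_pos _).le
    have hB : 0 ≤ C * c := mul_nonneg hC hc
    have hB' : 0 ≤ C' * c := mul_nonneg hC' hc
    refine stein_one (f := fun x => F (set e x)) (f' := fun x => F' (set e x))
      (C := C * Real.exp (C * β e) + C' * Real.exp (C' * β e) + C * c + C' * c)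
      (fun x => ?_) (hF'.meas.comp (h.sm.comp measurable_prodMk_left))
      (hK F C _ hC hCb (by linarith) (by linarith))
      (hK F' C' _ hC' hCb' (by linarith) (by linarith))
    have h1 := hd e (x - g e)
    have h2 := HasDerivAt.comp_sub_const x (g e) h1
    simpa using h2

variable {φ : ℝ → E → E} {n : ℕ} {j : Fin n}

theorem IsD.add {Φ Φ' Ψ Ψ' : (Fin n → E) → ℝ} (h : IsD φ j Φ Φ') (h' : IsD φ j Ψ Ψ') :
    IsD φ j (fun ω => Φ ω + Ψ ω) (fun ω => Φ' ω + Ψ' ω) := fun ω t => (h ω t).add (h' ω t)

theorem IsD.sub {Φ Φ' Ψ Ψ' : (Fin n → E) → ℝ} (h : IsD φ j Φ Φ') (h' : IsD φ j Ψ Ψ') :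
    IsD φ j (fun ω => Φ ω - Ψ ω) (fun ω => Φ' ω - Ψ' ω) := fun ω t => (h ω t).sub (h' ω t)

theorem IsD.mul {Φ Φ' Ψ Ψ' : (Fin n → E) → ℝ} (h : IsD φ j Φ Φ') (h' : IsD φ j Ψ Ψ') :
    IsD φ j (fun ω => Φ ω * Ψ ω) (fun ω => Φ' ω * Ψ ω + Φ ω * Ψ' ω) :=
  fun ω t => (h ω t).mul (h' ω t)

theorem IsD.const_mul (c : ℝ) {Φ Φ' : (Fin n → E) → ℝ} (h : IsD φ j Φ Φ') :
    IsD φ j (fun ω => c * Φ ω) (fun ω => c * Φ' ω) := fun ω t => (h ω t).const_mul c

theorem IsD.const (c : ℝ) : IsD φ j (fun _ : Fin n → E => c) (fun _ => 0) :=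
  fun _ t => hasDerivAt_const t c

theorem IsD.sum {ι : Type*} (s : Finset ι) {Φ Φ' : ι → (Fin n → E) → ℝ}
    (h : ∀ i ∈ s, IsD φ j (Φ i) (Φ' i)) :
    IsD φ j (fun ω => ∑ i ∈ s, Φ i ω) (fun ω => ∑ i ∈ s, Φ' i ω) := fun ω t =>
  HasDerivAt.fun_sum fun i hi => h i hi ω t

/-- a function not depending on coordinate `j` -/
theorem IsD.of_indep {Φ : (Fin n → E) → ℝ} (h : ∀ ω x, Φ (Function.update ω j x) = Φ ω) :
    IsD φ j Φ (fun _ => 0) := fun ω t => by
  simp only [h]
  exact hasDerivAt_const t _

end Crest.Agent.RI
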