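import Crest.Agent.RI.System
import Crest.Agent.RI.FlowC

/-!
# Row 164: concrete flows on the level space `EN N`: Gaussian coordinates
-/

set_option autoImplicit false

namespace Crest.Agent.RI

open MeasureTheory ProbabilityTheory

variable {N K : ℕ}

/-- replace the coordinate `a` of the perturbation Gaussian -/
def setG (a : Fin N) (x : EN N) (t : ℝ) : EN N := (x.1, x.2.1, Function.update x.2.2.1 a t, x.2.2.2)

/-- replace the coordinate `r` of the main Gaussian -/
def setM (r : Fin N) (x : EN N) (t : ℝ) : EN N := (x.1, Function.update x.2.1 r t, x.2.2)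

private theorem law_right {α γ : Type*} [MeasurableSpace α] [MeasurableSpace γ]
    {μ : Measure α} {ν : Measure γ} [IsProbabilityMeasure μ] [IsProbabilityMeasure ν]
    {f : α × ℝ → α} (hf : Measurable f) (h : (μ.prod (gaussianReal 0 1)).map f = μ) :
    ((ν.prod μ).prod (gaussianReal 0 1)).map (fun p => (p.1.1, f (p.1.2, p.2))) = ν.prod μ := by
  have e : (fun p : (γ × α) × ℝ => (p.1.1, f (p.1.2, p.2))) =
      (Prod.map id f) ∘ (MeasurableEquiv.prodAssoc : (γ × α) × ℝ ≃ᵐ γ × (α × ℝ)) := rfl
  rw [e, ← Measure.map_map (measurable_id.prodMap hf) MeasurableEquiv.prodAssoc.measurable,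
    Measure.prodAssoc_prod, ← Measure.map_prod_map ν _ measurable_id hf, h, Measure.map_id]

private theorem law_left {α γ : Type*} [MeasurableSpace α] [MeasurableSpace γ]
    {μ : Measure α} {ν : Measure γ} [IsProbabilityMeasure μ] [IsProbabilityMeasure ν]
    {f : α × ℝ → α} (hf : Measurable f) (h : (μ.prod (gaussianReal 0 1)).map f = μ) :
    ((μ.prod ν).prod (gaussianReal 0 1)).map (fun p => (f (p.1.1, p.2), p.1.2)) = μ.prod ν := by
  have e : (fun p : (α × γ) × ℝ => (f (p.1.1, p.2), p.1.2)) =
      Prod.swap ∘ (fun p : (γ × α) × ℝ => (p.1.1, f (p.1.2, p.2))) ∘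
        (Prod.map (Prod.swap : α × γ → γ × α) (id : ℝ → ℝ)) := rfl
  have m1 : Measurable (fun p : (γ × α) × ℝ => (p.1.1, f (p.1.2, p.2))) := by fun_prop
  rw [e, ← Measure.map_map measurable_swap (m1.comp (measurable_swap.prodMap measurable_id)),
    ← Measure.map_map m1 (measurable_swap.prodMap measurable_id),
    ← Measure.map_prod_map _ _ measurable_swap measurable_id, Measure.prod_swap, Measure.map_id,
    law_right hf h, Measure.prod_swap]

private theorem measurable_upd (a : Fin N) :
    Measurable (fun p : (Fin N → ℝ) × ℝ => Function.update p.1 a p.2) := by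
  refine measurable_pi_lambda _ fun b => ?_
  by_cases h : b = a
  · subst h
    simp only [Function.update_self]
    exact measurable_snd
  · simp only [Function.update_of_ne h]
    fun_prop

private theorem law_upd (a : Fin N) :
    ((gvec N).prod (gaussianReal 0 1)).map (fun p => Function.update p.1 a p.2) = gvec N := by
  unfold gvec
  symm
  refine Measure.pi_eq fun s hs => ?_
  rw [Measure.map_apply (measurable_upd a) (MeasurableSet.univ_pi hs)]
  have e : (fun p : (Fin N → ℝ) × ℝ => Function.update p.1 a p.2) ⁻¹' (Set.univ.pi s) =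
      (Set.univ.pi (Function.update s a Set.univ)) ×ˢ (s a) := by
    ext p
    simp only [Set.mem_preimage, Set.mem_univ_pi, Set.mem_prod]
    constructor
    · intro h
      refine ⟨fun i => ?_, by simpa using h a⟩
      by_cases hi : i = a
      · subst hi; simp
      · have := h i
        rw [Function.update_of_ne hi] at this
        rwa [Function.update_of_ne hi]
    · rintro ⟨h, h'⟩ i
      by_cases hi : i = a
      · subst hi; simpa using h'
      · have := h i
        rw [Function.update_of_ne hi] at this
        rwa [Function.update_of_ne hi]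
  rw [e, Measure.prod_prod, Measure.pi_pi, ← Finset.mul_prod_erase _ _ (Finset.mem_univ a),
    ← Finset.mul_prod_erase Finset.univ (fun i => (gaussianReal 0 1) (s i)) (Finset.mem_univ a)]
  have e2 : ∏ x ∈ Finset.univ.erase a, (gaussianReal 0 1) (Function.update s a Set.univ x) =
      ∏ x ∈ Finset.univ.erase a, (gaussianReal 0 1) (s x) :=
    Finset.prod_congr rfl fun x hx => by rw [Function.update_of_ne (Finset.ne_of_mem_erase hx)]
  rw [e2, Function.update_self, measure_univ, one_mul, mul_comm]

private theorem abs_le_sum (x : Fin N → ℝ) (a : Fin N) : |x a| ≤ ∑ b, |x b| :=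
  Finset.single_le_sum (f := fun b => |x b|) (fun _ _ => abs_nonneg _) (Finset.mem_univ a)

private theorem sum_abs_upd (x : Fin N → ℝ) (a : Fin N) (t : ℝ) :
    ∑ b, |Function.update x a t b| ≤ ∑ b, |x b| + |t| := by
  rw [← Finset.add_sum_erase _ _ (Finset.mem_univ a),
    ← Finset.add_sum_erase Finset.univ (fun b => |x b|) (Finset.mem_univ a)]
  have e2 : ∑ b ∈ Finset.univ.erase a, |Function.update x a t b| =
      ∑ b ∈ Finset.univ.erase a, |x b| :=
    Finset.sum_congr rfl fun b hb => by rw [Function.update_of_ne (Finset.ne_of_mem_erase hb)]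
  rw [e2, Function.update_self]
  have := abs_nonneg (x a)
  linarith

private theorem isProb_gvec : IsProbabilityMeasure (gvec N) := by
  unfold gvec; infer_instance

theorem gcoord_setG {P : Measure (ON N)} {A : Measure (Fin N → Bool)} [IsProbabilityMeasure P]
    [IsProbabilityMeasure A] (a : Fin N) :
    GCoord (mN P A) βN (fun x => x.2.2.1 a) (setG a) := by
  have := isProb_gvec (N := N)
  refine ⟨?_, ?_, ?_, ?_, ?_, ?_, ?_⟩
  · exact (measurable_pi_apply a).comp (measurable_fst.comp (measurable_snd.comp measurable_snd))
  · have h1 : Measurable (fun p : EN N × ℝ => Function.update p.1.2.2.1 a p.2) :=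
      (measurable_upd a).comp (Measurable.prodMk (measurable_fst.comp
        (measurable_snd.comp (measurable_snd.comp measurable_fst))) measurable_snd)
    exact Measurable.prodMk (measurable_fst.comp measurable_fst)
      (Measurable.prodMk (measurable_fst.comp (measurable_snd.comp measurable_fst))
        (Measurable.prodMk h1
          (measurable_snd.comp (measurable_snd.comp (measurable_snd.comp measurable_fst)))))
  · intro x t
    simp [setG]
  · intro x
    simp [setG]
  · intro x t t'
    simp [setG]
  · have m0 := measurable_upd (N := N) a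
    have h0 := law_upd (N := N) a
    have h1 := law_left (ν := A) m0 h0
    have m1 : Measurable (fun p : ((Fin N → ℝ) × (Fin N → Bool)) × ℝ =>
        ((Function.update p.1.1 a p.2, p.1.2) : (Fin N → ℝ) × (Fin N → Bool))) :=
      Measurable.prodMk (m0.comp (Measurable.prodMk (measurable_fst.comp measurable_fst)
        measurable_snd)) (measurable_snd.comp measurable_fst)
    have h2 := law_right (ν := gvec N) m1 h1
    have m2 : Measurable (fun p : ((Fin N → ℝ) × ((Fin N → ℝ) × (Fin N → Bool))) × ℝ =>
        ((p.1.1, (Function.update p.1.2.1 a p.2, p.1.2.2)) :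
          (Fin N → ℝ) × ((Fin N → ℝ) × (Fin N → Bool)))) :=
      Measurable.prodMk (measurable_fst.comp measurable_fst) (m1.comp (Measurable.prodMk
        (measurable_snd.comp measurable_fst) measurable_snd))
    exact law_right (ν := P) m2 h2
  · refine ⟨1, zero_le_one, fun x => ?_, fun x t => ?_⟩
    · have h1 := abs_le_sum x.2.2.1 a
      have h2 : 0 ≤ ∑ b, |x.2.1 b| := Finset.sum_nonneg fun _ _ => abs_nonneg _
      unfold βN
      linarith
    · have h1 := sum_abs_upd x.2.2.1 a t
      unfold βN setG
      simp only
      linarith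

theorem gcoord_setM {P : Measure (ON N)} {A : Measure (Fin N → Bool)} [IsProbabilityMeasure P]
    [IsProbabilityMeasure A] (r : Fin N) :
    GCoord (mN P A) βN (fun x => x.2.1 r) (setM r) := by
  have := isProb_gvec (N := N)
  refine ⟨?_, ?_, ?_, ?_, ?_, ?_, ?_⟩
  · exact (measurable_pi_apply r).comp (measurable_fst.comp measurable_snd)
  · have h1 : Measurable (fun p : EN N × ℝ => Function.update p.1.2.1 r p.2) :=
      (measurable_upd r).comp (Measurable.prodMk (measurable_fst.comp
        (measurable_snd.comp measurable_fst)) measurable_snd)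
    exact Measurable.prodMk (measurable_fst.comp measurable_fst)
      (Measurable.prodMk h1 (measurable_snd.comp (measurable_snd.comp measurable_fst)))
  · intro x t
    simp [setM]
  · intro x
    simp [setM]
  · intro x t t'
    simp [setM]
  · have m0 := measurable_upd (N := N) r
    have h0 := law_upd (N := N) r
    have h1 := law_left (ν := (gvec N).prod A) m0 h0
    have m1 : Measurable (fun p : ((Fin N → ℝ) × ((Fin N → ℝ) × (Fin N → Bool))) × ℝ =>
        ((Function.update p.1.1 r p.2, p.1.2) : (Fin N → ℝ) × ((Fin N → ℝ) × (Fin N → Bool)))) :=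
      Measurable.prodMk (m0.comp (Measurable.prodMk (measurable_fst.comp measurable_fst)
        measurable_snd)) (measurable_snd.comp measurable_fst)
    exact law_right (ν := P) m1 h1
  · refine ⟨1, zero_le_one, fun x => ?_, fun x t => ?_⟩
    · have h1 := abs_le_sum x.2.1 r
      have h2 : 0 ≤ ∑ b, |x.2.2.1 b| := Finset.sum_nonneg fun _ _ => abs_nonneg _
      unfold βN
      linarith
    · have h1 := sum_abs_upd x.2.1 r t
      unfold βN setM
      simp only
      linarith

section upd

variable {n : ℕ} (ω : Fin n → EN N) (j l : Fin n) (a b : Fin N) (u : ℝ)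

private theorem updG_1 : (Function.update ω j (setG a (ω j) u) l).1 = (ω l).1 := by
  by_cases h : l = j
  · subst h; simp [setG]
  · rw [Function.update_of_ne h]

private theorem updG_21 : (Function.update ω j (setG a (ω j) u) l).2.1 = (ω l).2.1 := by
  by_cases h : l = j
  · subst h; simp [setG]
  · rw [Function.update_of_ne h]

private theorem updG_222 : (Function.update ω j (setG a (ω j) u) l).2.2.2 = (ω l).2.2.2 := by
  by_cases h : l = j
  · subst h; simp [setG]
  · rw [Function.update_of_ne h]

private theorem updG_221 : (Function.update ω j (setG a (ω j) ((ω j).2.2.1 a + u)) l).2.2.1 b =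
    (ω l).2.2.1 b + (if l = j then (if b = a then u else 0) else 0) := by
  by_cases h : l = j
  · subst h
    by_cases hb : b = a
    · subst hb; simp [setG]
    · simp [setG, hb]
  · rw [Function.update_of_ne h, if_neg h, add_zero]

private theorem updM_1 : (Function.update ω j (setM a (ω j) u) l).1 = (ω l).1 := by
  by_cases h : l = j
  · subst h; simp [setM]
  · rw [Function.update_of_ne h]

private theorem updM_22 : (Function.update ω j (setM a (ω j) u) l).2.2 = (ω l).2.2 := by
  by_cases h : l = j
  · subst h; simp [setM]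
  · rw [Function.update_of_ne h]

private theorem updM_21 : (Function.update ω j (setM a (ω j) ((ω j).2.1 a + u)) l).2.1 b =
    (ω l).2.1 b + (if l = j then (if b = a then u else 0) else 0) := by
  by_cases h : l = j
  · subst h
    by_cases hb : b = a
    · subst hb; simp [setM]
    · simp [setM, hb]
  · rw [Function.update_of_ne h, if_neg h, add_zero]

end upd

private theorem yv_updG (k : ℕ) (ω : Fin (k + 1) → EN N) (j : Fin (k + 1)) (a b : Fin N) (u : ℝ) :
    yv k (Function.update ω j (setG a (ω j) u)) b = yv k ω b := by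
  unfold yv
  rw [updG_1, updG_222]

private theorem yv_updM (k : ℕ) (ω : Fin (k + 1) → EN N) (j : Fin (k + 1)) (a b : Fin N) (u : ℝ) :
    yv k (Function.update ω j (setM a (ω j) u)) b = yv k ω b := by
  unfold yv
  rw [updM_1, updM_22]

private theorem sum_ite2 {k : ℕ} (f : Fin k → Fin N → ℝ) (i : Fin k) (a : Fin N) (u : ℝ) :
    ∑ i' : Fin k, ∑ b : Fin N, f i' b * (if i'.castSucc = i.castSucc then
      (if b = a then u else 0) else 0) = f i a * u := by
  rw [Finset.sum_eq_single i, Finset.sum_eq_single a]
  · simp
  · intro b _ hb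
    simp [hb]
  · intro h; exact absurd (Finset.mem_univ _) h
  · intro i' _ hi
    refine Finset.sum_eq_zero fun b _ => ?_
    rw [if_neg (fun h => hi (Fin.castSucc_injective k h)), mul_zero]
  · intro h; exact absurd (Finset.mem_univ _) h

/-- derivative of the Hamiltonian along the shift of `g̃^i_a`: `c_{i,κ a} y_a` -/
theorem HN_isD_G (k : ℕ) (θ : Par N K) (i : Fin k) (a : Fin N) :
    IsD (fun t (x : EN N) => setG a x (x.2.2.1 a + t)) i.castSucc (HN k θ)
      (fun ω => θ.c i (θ.κ a) * yv k ω a) := by
  intro ω t
  have key : (fun s => HN k θ (Function.update ω i.castSucc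
      (setG a (ω i.castSucc) ((ω i.castSucc).2.2.1 a + s)))) =
      fun s => HN k θ ω + θ.c i (θ.κ a) * yv k ω a * s := by
    funext s
    have h := sum_ite2 (fun (i' : Fin k) b => θ.c i' (θ.κ b) * yv k ω b) i a s
    unfold HN
    simp only [yv_updG, updG_21, updG_222, updG_221]
    rw [← h]
    have e : ∀ i' : Fin k, ∀ b : Fin N, θ.c i' (θ.κ b) * ((ω i'.castSucc).2.2.1 b +
        (if i'.castSucc = i.castSucc then (if b = a then s else 0) else 0)) * yv k ω b =
        θ.c i' (θ.κ b) * (ω i'.castSucc).2.2.1 b * yv k ω b + θ.c i' (θ.κ b) * yv k ω b *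
        (if i'.castSucc = i.castSucc then (if b = a then s else 0) else 0) := by
      intro i' b; ring
    simp only [e, Finset.sum_add_distrib]
    ring
  simp only [key, yv_updG]
  simpa using ((hasDerivAt_id t).const_mul (θ.c i (θ.κ a) * yv k ω a)).const_add (HN k θ ω)

/-- derivative of the Hamiltonian along the shift of `g^i_r`: `v_i σ_r` -/
theorem HN_isD_M (k : ℕ) (θ : Par N K) (i : Fin k) (r : Fin N) :
    IsD (fun t (x : EN N) => setM r x (x.2.1 r + t)) i.castSucc (HN k θ)
      (fun ω => θ.v i * spin ((ω (Fin.last k)).2.2.2 r)) := by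
  intro ω t
  have key : (fun s => HN k θ (Function.update ω i.castSucc
      (setM r (ω i.castSucc) ((ω i.castSucc).2.1 r + s)))) =
      fun s => HN k θ ω + θ.v i * spin ((ω (Fin.last k)).2.2.2 r) * s := by
    funext s
    have h := sum_ite2 (fun (i' : Fin k) b => θ.v i' * spin ((ω (Fin.last k)).2.2.2 b)) i r s
    unfold HN
    simp only [yv_updM, updM_22, updM_21]
    rw [← h]
    have e : ∀ i' : Fin k, θ.v i' * ∑ b : Fin N, ((ω i'.castSucc).2.1 b +
        (if i'.castSucc = i.castSucc then (if b = r then s else 0) else 0)) *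
          spin ((ω (Fin.last k)).2.2.2 b) =
        θ.v i' * ∑ b : Fin N, (ω i'.castSucc).2.1 b * spin ((ω (Fin.last k)).2.2.2 b) +
        ∑ b : Fin N, θ.v i' * spin ((ω (Fin.last k)).2.2.2 b) *
        (if i'.castSucc = i.castSucc then (if b = r then s else 0) else 0) := by
      intro i'
      rw [Finset.mul_sum, Finset.mul_sum, ← Finset.sum_add_distrib]
      exact Finset.sum_congr rfl fun b _ => by ring
    simp only [e, Finset.sum_add_distrib]
    ring
  simp only [key, updM_22]
  simpa using ((hasDerivAt_id t).const_mul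
    (θ.v i * spin ((ω (Fin.last k)).2.2.2 r))).const_add (HN k θ ω)

/-- `y` does not depend on the Gaussians -/
theorem yv_isD_G (k : ℕ) (i : Fin k) (a b : Fin N) :
    IsD (fun t (x : EN N) => setG a x (x.2.2.1 a + t)) i.castSucc (fun ω => yv k ω b)
      (fun _ => 0) := by
  intro ω t
  simp only [yv_updG]
  exact hasDerivAt_const t _

theorem yv_isD_M (k : ℕ) (i : Fin k) (r b : Fin N) :
    IsD (fun t (x : EN N) => setM r x (x.2.1 r + t)) i.castSucc (fun ω => yv k ω b)
      (fun _ => 0) := by
  intro ω t
  simp only [yv_updM]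
  exact hasDerivAt_const t _

theorem spin_isD_M (k : ℕ) (i : Fin k) (r b : Fin N) :
    IsD (fun t (x : EN N) => setM r x (x.2.1 r + t)) i.castSucc
      (fun ω => spin ((ω (Fin.last k)).2.2.2 b)) (fun _ => 0) := by
  intro ω t
  simp only [updM_22]
  exact hasDerivAt_const t _

/-- derivative of `g̃^i_a` itself -/
theorem g_isD_G (k : ℕ) (i : Fin k) (a : Fin N) :
    IsD (fun t (x : EN N) => setG a x (x.2.2.1 a + t)) i.castSucc
      (fun ω : Fin (k + 1) → EN N => (ω i.castSucc).2.2.1 a) (fun _ => 1) := by
  intro ω t
  simp only [updG_221, if_true]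
  exact (hasDerivAt_id t).const_add _

end Crest.Agent.RI
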