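import Crest.Agent.RI.RhoFacts
import Crest.Agent.RI.FlowB
import Crest.Agent.RI.FlowD

/-!
# Row 164: Gaussian integration by parts for the main field and the perturbation field
-/

set_option autoImplicit false

namespace Crest.Agent.RI

open MeasureTheory ProbabilityTheory

theorem abel_S (S ζ : ℕ → ℝ) {i k : ℕ} (hi : i ≤ k) :
    ζ i * S (i + 1) + ∑ q ∈ Finset.Ico (i + 1) (k + 1), ζ q * (S (q + 1) - S q) =
      ζ k * S (k + 1) - ∑ j ∈ Finset.Ico i k, (ζ (j + 1) - ζ j) * S (j + 1) := by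
  induction k, hi using Nat.le_induction with
  | base => simp
  | succ k hk ih =>
    rw [Finset.sum_Ico_succ_top (by omega), Finset.sum_Ico_succ_top hk, ← add_assoc, ih]
    ring

section abs
variable {E : Type} [MeasurableSpace E]
variable {m : Measure E} [IsProbabilityMeasure m] {ζ : ℕ → ℝ} {β : E → ℝ}
variable {φ : ℝ → E → E} {δ : E → ℝ}

theorem ibp_core (hβ : Dom m β) (hζ : Exps ζ) (hφ : CFlow m β φ δ) {k : ℕ} (i : Fin k)
    {H Y : (Fin (k + 1) → E) → ℝ} {c : ℝ} (hH : Ham β H) (hY : Tame β Y)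
    (h1 : IsD φ i.castSucc H (fun ω => c * Y ω)) (h2 : IsD φ i.castSucc Y (fun _ => 0)) :
    pathE m ζ (k + 1) 0 H (fun ω => δ (ω i.castSucc) * Y ω) =
      c * (ζ k * pathE m ζ (k + 1) 0 H (fun ω => Y ω ^ 2) -
        ∑ j ∈ Finset.Ico (i : ℕ) k, (ζ (j + 1) - ζ j) *
          pathE m ζ (k + 1) 0 H (fun ω => condE m ζ (j + 1) (k + 1) 0 H Y ω ^ 2)) := by
  have hV : Tame β (fun ω => c * Y ω) := TVar_tame_cmul hβ c hY
  have h0 : Tame β (fun _ : Fin (k + 1) → E => (0 : ℝ)) := Tame.const hβ 0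
  rw [gibp hβ hζ hφ (k + 1) 0 i.castSucc hH hV hY h0 h1 h2, pathE_const hβ hζ (k + 1) 0 hH, zero_add]
  set S : ℕ → ℝ := fun r => pathE m ζ (k + 1) 0 H (fun ω => condE m ζ r (k + 1) 0 H Y ω ^ 2) with hS
  have hcond : ∀ r ω, condE m ζ r (k + 1) 0 H (fun ω => c * Y ω) ω =
      c * condE m ζ r (k + 1) 0 H Y ω := fun r ω => condE_mul r (k + 1) 0 H Y c ω
  have hYC : ∀ r, pathE m ζ (k + 1) 0 H (fun ω => Y ω * condE m ζ r (k + 1) 0 H Y ω) = S r :=
    fun r => TVar_mul_condE hβ hζ r (k + 1) 0 hH hY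
  have hi : (i.castSucc : ℕ) = i := rfl
  have e : (fun ω => Y ω * (ζ (0 + (i.castSucc : ℕ)) *
      condE m ζ ((i.castSucc : ℕ) + 1) (k + 1) 0 H (fun ω => c * Y ω) ω +
      sAfter m ζ ((i.castSucc : ℕ) + 1) (k + 1) 0 H (fun ω => c * Y ω) ω)) =
      fun ω => (c * ζ i) * (Y ω * condE m ζ ((i : ℕ) + 1) (k + 1) 0 H Y ω) +
        ∑ q ∈ Finset.Ico ((i : ℕ) + 1) (k + 1), (c * ζ q) *
          (Y ω * condE m ζ (q + 1) (k + 1) 0 H Y ω - Y ω * condE m ζ q (k + 1) 0 H Y ω) := by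
    funext ω
    unfold sAfter
    rw [mul_add, Finset.mul_sum, hi]
    simp only [hcond, zero_add]
    congr 1
    · ring
    · refine Finset.sum_congr rfl fun q _ => ?_
      ring
  rw [e]
  have t1 : ∀ r, Tame β (fun ω => Y ω * condE m ζ r (k + 1) 0 H Y ω) := fun r =>
    Tame.mul hβ hY (condE_tame hβ hζ r (k + 1) 0 hH hY)
  have t2 : ∀ q ∈ Finset.Ico ((i : ℕ) + 1) (k + 1), Tame β (fun ω => (c * ζ q) *
      (Y ω * condE m ζ (q + 1) (k + 1) 0 H Y ω - Y ω * condE m ζ q (k + 1) 0 H Y ω)) := fun q _ =>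
    TVar_tame_cmul hβ _ (TVar_tame_sub hβ (t1 _) (t1 _))
  rw [pathE_add hβ hζ (k + 1) 0 hH (TVar_tame_cmul hβ _ (t1 _)) (tame_fsum hβ _ t2), pathE_mul, hYC,
    pathE_fsum hβ hζ (k + 1) 0 hH _ t2]
  have e2 : ∀ q ∈ Finset.Ico ((i : ℕ) + 1) (k + 1), pathE m ζ (k + 1) 0 H (fun ω => (c * ζ q) *
      (Y ω * condE m ζ (q + 1) (k + 1) 0 H Y ω - Y ω * condE m ζ q (k + 1) 0 H Y ω)) =
      c * (ζ q * (S (q + 1) - S q)) := by
    intro q _
    rw [pathE_mul, TVar_pathE_sub hβ hζ (k + 1) 0 hH (t1 _) (t1 _), hYC, hYC]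
    ring
  rw [Finset.sum_congr rfl e2, ← Finset.mul_sum]
  have hSk : S (k + 1) = pathE m ζ (k + 1) 0 H (fun ω => Y ω ^ 2) := by
    simp only [hS]
    congr 1
    funext ω
    rw [condE_all (k + 1) 0 H Y (k + 1) le_rfl ω]
  have h3 := abel_S S ζ (show (i : ℕ) ≤ k from i.2.le)
  rw [hSk] at h3
  have h4 : ∑ j ∈ Finset.Ico (i : ℕ) k, (ζ (j + 1) - ζ j) *
          pathE m ζ (k + 1) 0 H (fun ω => condE m ζ (j + 1) (k + 1) 0 H Y ω ^ 2) =
      ∑ j ∈ Finset.Ico (i : ℕ) k, (ζ (j + 1) - ζ j) * S (j + 1) := rfl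
  rw [h4, ← h3]
  ring

end abs

variable {N K : ℕ} {P : Measure (ON N)} {A : Measure (Fin N → Bool)} {ζ : ℕ → ℝ} {k : ℕ}

/-- (helper44) Gaussian integration by parts for the perturbation field. -/
theorem pathE_gy (hP : HaarO P) [IsProbabilityMeasure A] (hζ : Exps ζ) (hk : ζ k = 1) (θ : Par N K)
    (i : Fin k) (l : Fin K) : pathE (mN P A) ζ (k + 1) 0 (HN k θ) (gy k θ.κ i l) =
      θ.c i l * (selfOv P A ζ k θ l -
        ∑ j ∈ Finset.Ico (i : ℕ) k, (ζ (j + 1) - ζ j) * rhoOv P A ζ k θ l j) := by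
  have := prob_mN hP A
  have := hP.prob
  have hβ := dom_mN hP A
  have hH := HN_ham k θ
  have hga : ∀ a : Fin N, Tame (βN (N := N))
      (fun ω : Fin (k + 1) → EN N => (ω i.castSucc).2.2.1 a * yv k ω a) := by
    intro a
    refine Tame.mul hβ ?_ (yv_tame k a)
    refine ⟨(measurable_pi_apply a).comp (measurable_fst.comp (measurable_snd.comp
      (measurable_snd.comp (measurable_pi_apply i.castSucc)))), 1, zero_le_one, fun ω => ?_⟩
    have h1 : |(ω i.castSucc).2.2.1 a| ≤ βN (ω i.castSucc) := by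
      unfold βN
      have h1 := Finset.single_le_sum (f := fun b => |(ω i.castSucc).2.2.1 b|)
        (fun b _ => abs_nonneg _) (Finset.mem_univ a)
      have h2 : 0 ≤ ∑ b, |(ω i.castSucc).2.1 b| := Finset.sum_nonneg fun _ _ => abs_nonneg _
      linarith
    have h2 : βN (ω i.castSucc) ≤ ∑ j, βN (ω j) :=
      Finset.single_le_sum (f := fun j => βN (ω j)) (fun j _ => βN_nonneg' _)
        (Finset.mem_univ i.castSucc)
    have h3 := Real.add_one_le_exp (∑ j, βN (ω j))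
    rw [one_mul, one_mul]
    linarith
  have e : gy k θ.κ i l = fun ω => ∑ a, ((1 / (N : ℝ)) * (if θ.κ a = l then (1 : ℝ) else 0)) *
      ((ω i.castSucc).2.2.1 a * yv k ω a) := by
    funext ω
    unfold gy
    rw [Finset.mul_sum]
    refine Finset.sum_congr rfl fun a _ => ?_
    split_ifs <;> ring
  rw [e, pathE_fsum hβ hζ (k + 1) 0 hH Finset.univ (fun a _ => TVar_tame_cmul hβ _ (hga a))]
  have e1 : ∀ a : Fin N, pathE (mN P A) ζ (k + 1) 0 (HN k θ)
      (fun ω => (ω i.castSucc).2.2.1 a * yv k ω a) =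
      θ.c i (θ.κ a) * (pathE (mN P A) ζ (k + 1) 0 (HN k θ) (fun ω => yv k ω a ^ 2) -
        ∑ j ∈ Finset.Ico (i : ℕ) k, (ζ (j + 1) - ζ j) *
          pathE (mN P A) ζ (k + 1) 0 (HN k θ)
            (fun ω => condE (mN P A) ζ (j + 1) (k + 1) 0 (HN k θ) (fun ω => yv k ω a) ω ^ 2)) := by
    intro a
    have h := ibp_core (m := mN P A) (ζ := ζ) hβ hζ ((gcoord_setG (P := P) (A := A) a).cflow hβ) i hH
      (yv_tame k a) (HN_isD_G k θ i a) (yv_isD_G k i a a)
    rw [hk, one_mul] at h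
    exact h
  rw [selfOv_eq hP hζ]
  simp only [rhoOv_eq hP hζ]
  have e2 : ∑ j ∈ Finset.Ico (i : ℕ) k, (ζ (j + 1) - ζ j) * ((1 / (N : ℝ)) * ∑ a, if θ.κ a = l then
      pathE (mN P A) ζ (k + 1) 0 (HN k θ) (fun ω =>
        condE (mN P A) ζ (j + 1) (k + 1) 0 (HN k θ) (fun ω => yv k ω a) ω ^ 2) else 0) =
      ∑ a, (1 / (N : ℝ)) * (if θ.κ a = l then ∑ j ∈ Finset.Ico (i : ℕ) k, (ζ (j + 1) - ζ j) *
        pathE (mN P A) ζ (k + 1) 0 (HN k θ) (fun ω =>
        condE (mN P A) ζ (j + 1) (k + 1) 0 (HN k θ) (fun ω => yv k ω a) ω ^ 2) else 0) := by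
    simp only [Finset.mul_sum]
    rw [Finset.sum_comm]
    refine Finset.sum_congr rfl fun a _ => ?_
    split_ifs
    · rw [Finset.mul_sum]
      refine Finset.sum_congr rfl fun j _ => ?_
      ring
    · simp
  rw [e2, Finset.mul_sum, ← Finset.sum_sub_distrib, Finset.mul_sum]
  refine Finset.sum_congr rfl fun a _ => ?_
  rw [pathE_mul, e1 a]
  split_ifs with h
  · rw [h]; ring
  · ring

/-- `⟨Oσ, Oσ'⟩ = ⟨σ, σ'⟩` -/
theorem sum_rot_mul (O : ON N) (σ σ' : Fin N → Bool) :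
    ∑ a, rot O σ a * rot O σ' a = ∑ r, spin (σ r) * spin (σ' r) := by
  have hO : (Matrix.of O.1).transpose * Matrix.of O.1 = 1 := by
    have h := (Matrix.mem_orthogonalGroup_iff' (Fin N) ℝ).1 O.2
    simpa [Matrix.star_eq_conjTranspose] using h
  have hentry : ∀ r r' : Fin N, ∑ a, O.1 a r * O.1 a r' = if r = r' then 1 else 0 := by
    intro r r'
    have h := congrFun (congrFun hO r) r'
    simpa [Matrix.mul_apply, Matrix.one_apply] using h
  calc ∑ a, rot O σ a * rot O σ' a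
      = ∑ a, ∑ r : Fin N, ∑ r' : Fin N,
          (spin (σ r) * spin (σ' r')) * (O.1 a r * O.1 a r') := by
        refine Finset.sum_congr rfl fun a _ => ?_
        unfold rot
        rw [Finset.sum_mul_sum]
        refine Finset.sum_congr rfl fun r _ => Finset.sum_congr rfl fun r' _ => ?_
        ring
    _ = ∑ r : Fin N, ∑ r' : Fin N, (spin (σ r) * spin (σ' r')) * ∑ a, O.1 a r * O.1 a r' := by
        rw [Finset.sum_comm]
        refine Finset.sum_congr rfl fun r _ => ?_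
        rw [Finset.sum_comm]
        refine Finset.sum_congr rfl fun r' _ => ?_
        rw [Finset.mul_sum]
    _ = ∑ r : Fin N, ∑ r' : Fin N, (spin (σ r) * spin (σ' r')) * (if r = r' then 1 else 0) := by
        refine Finset.sum_congr rfl fun r _ => Finset.sum_congr rfl fun r' _ => ?_
        rw [hentry]
    _ = ∑ r : Fin N, spin (σ r) * spin (σ' r) := by
        refine Finset.sum_congr rfl fun r _ => ?_
        simp

/-- the spin `r` of the configuration -/
noncomputable def svk (k : ℕ) (r : Fin N) (ω : Fin (k + 1) → EN N) : ℝ :=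
  spin ((ω (Fin.last k)).2.2.2 r)

theorem measurable_svk (k : ℕ) (r : Fin N) : Measurable (svk (N := N) k r) := by
  have h1 : Measurable (fun b : Bool => spin b) := measurable_of_finite _
  exact h1.comp ((measurable_pi_apply r).comp (measurable_snd.comp (measurable_snd.comp
    (measurable_snd.comp (measurable_pi_apply (Fin.last k))))))

theorem abs_svk (k : ℕ) (r : Fin N) (ω : Fin (k + 1) → EN N) : |svk k r ω| = 1 := abs_spin _

theorem svk_sq (k : ℕ) (r : Fin N) (ω : Fin (k + 1) → EN N) : svk k r ω ^ 2 = 1 := spin_sq _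

theorem svk_tame (k : ℕ) (r : Fin N) : Tame (βN (N := N)) (svk (N := N) k r) := by
  refine ⟨measurable_svk k r, 1, zero_le_one, fun ω => ?_⟩
  have h1 : (1 : ℝ) ≤ Real.exp ((1 : ℝ) * ∑ i, βN (ω i)) :=
    Real.one_le_exp (mul_nonneg zero_le_one (Finset.sum_nonneg fun i _ => βN_nonneg' _))
  rw [abs_svk, one_mul]
  exact h1

theorem tame2_of_bounded {n : ℕ} {Φ : (Fin n → EN N) → (Fin n → EN N) → ℝ}
    (hm : Measurable (Function.uncurry Φ)) {C : ℝ} (hC : 0 ≤ C) (hb : ∀ ω ω', |Φ ω ω'| ≤ C) :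
    Tame2 (βN (N := N)) Φ := by
  refine ⟨hm, C, hC, fun ω ω' => ?_⟩
  have h1 : (1 : ℝ) ≤ Real.exp (C * ∑ i, (βN (ω i) + βN (ω' i))) :=
    Real.one_le_exp (mul_nonneg hC
      (Finset.sum_nonneg fun i _ => add_nonneg (βN_nonneg' _) (βN_nonneg' _)))
  calc |Φ ω ω'| ≤ C := hb ω ω'
    _ = C * 1 := (mul_one C).symm
    _ ≤ _ := mul_le_mul_of_nonneg_left h1 hC

/-- `p^N_j` in terms of the spins -/
theorem pN_eq (hP : HaarO P) [IsProbabilityMeasure A] (hζ : Exps ζ) (θ : Par N K) (j : ℕ) :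
    pN P A ζ k θ j = (1 / (N : ℝ)) * ∑ r, pathE (mN P A) ζ (k + 1) 0 (HN k θ) (fun ω =>
      condE (mN P A) ζ (j + 1) (k + 1) 0 (HN k θ) (svk k r) ω ^ 2) := by
  have := prob_mN hP A
  have hβ := dom_mN hP A
  have hH := HN_ham k θ
  unfold pN rhoOv
  have ht : ∀ l ∈ (Finset.univ : Finset (Fin K)), Tame2 (βN (N := N))
      (fun ω ω' : Fin (k + 1) → EN N => ovl k θ.κ l ω ω') := fun l _ =>
    tame2_of_bounded (measurable_ovl k θ.κ l) zero_le_one (fun ω ω' => abs_ovl_le k θ.κ l ω ω')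
  rw [← pairE_fsum hβ hζ (j + 1) (k + 1) 0 hH Finset.univ ht]
  have e : pairE (mN P A) ζ (j + 1) (k + 1) 0 (HN k θ) (fun ω ω' => ∑ l, ovl k θ.κ l ω ω') =
      pairE (mN P A) ζ (j + 1) (k + 1) 0 (HN k θ)
        (fun ω ω' => (1 / (N : ℝ)) * ∑ r, svk k r ω * svk k r ω') := by
    refine pairE_shared (j + 1) (k + 1) 0 _ _ _ (fun ω ω' h => ?_)
    have h0 : ω 0 = ω' 0 := h 0 (Nat.succ_pos j)
    unfold ovl
    rw [← Finset.mul_sum, Finset.sum_comm]
    congr 1
    have e1 : ∀ a : Fin N, ∑ l, (if θ.κ a = l then yv k ω a * yv k ω' a else 0) =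
        yv k ω a * yv k ω' a := by
      intro a
      simp
    simp only [e1]
    unfold yv
    rw [← h0]
    exact sum_rot_mul _ _ _
  rw [e, pairE_cmul]
  congr 1
  have ht2 : ∀ r ∈ (Finset.univ : Finset (Fin N)), Tame2 (βN (N := N))
      (fun ω ω' : Fin (k + 1) → EN N => svk k r ω * svk k r ω') := fun r _ =>
    tame2_of_bounded (((measurable_svk k r).comp measurable_fst).mul
      ((measurable_svk k r).comp measurable_snd)) zero_le_one (fun ω ω' => by
        rw [abs_mul, abs_svk, abs_svk, one_mul])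
  rw [pairE_fsum hβ hζ (j + 1) (k + 1) 0 hH Finset.univ ht2]
  refine Finset.sum_congr rfl fun r _ => ?_
  rw [pairE_mul hβ hζ (j + 1) (k + 1) 0 hH (svk_tame k r) (svk_tame k r)]
  congr 1
  funext ω
  ring

/-- (helper44) Gaussian integration by parts for the main field. -/
theorem pathE_gs (hP : HaarO P) [IsProbabilityMeasure A] (hζ : Exps ζ) (hk : ζ k = 1) (θ : Par N K)
    (i : Fin k) : pathE (mN P A) ζ (k + 1) 0 (HN k θ) (gs k i) =
      θ.v i * N * (1 - ∑ j ∈ Finset.Ico (i : ℕ) k, (ζ (j + 1) - ζ j) * pN P A ζ k θ j) := by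
  have := prob_mN hP A
  have := hP.prob
  have hβ := dom_mN hP A
  have hH := HN_ham k θ
  rcases Nat.eq_zero_or_pos N with hN | hN
  · subst hN
    have e : (gs k i : (Fin (k + 1) → EN 0) → ℝ) = fun _ => 0 := by
      funext ω
      simp [gs]
    rw [e, pathE_const hβ hζ (k + 1) 0 hH]
    simp
  have hNR : (N : ℝ) ≠ 0 := by exact_mod_cast hN.ne'
  have hga : ∀ r : Fin N, Tame (βN (N := N))
      (fun ω : Fin (k + 1) → EN N => (ω i.castSucc).2.1 r * svk k r ω) := by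
    intro a
    refine Tame.mul hβ ?_ (svk_tame k a)
    refine ⟨(measurable_pi_apply a).comp (measurable_fst.comp (measurable_snd.comp
      (measurable_pi_apply i.castSucc))), 1, zero_le_one, fun ω => ?_⟩
    have h1 : |(ω i.castSucc).2.1 a| ≤ βN (ω i.castSucc) := by
      unfold βN
      have h1 := Finset.single_le_sum (f := fun b => |(ω i.castSucc).2.1 b|)
        (fun b _ => abs_nonneg _) (Finset.mem_univ a)
      have h2 : 0 ≤ ∑ b, |(ω i.castSucc).2.2.1 b| := Finset.sum_nonneg fun _ _ => abs_nonneg _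
      linarith
    have h2 : βN (ω i.castSucc) ≤ ∑ j, βN (ω j) :=
      Finset.single_le_sum (f := fun j => βN (ω j)) (fun j _ => βN_nonneg' _)
        (Finset.mem_univ i.castSucc)
    have h3 := Real.add_one_le_exp (∑ j, βN (ω j))
    rw [one_mul, one_mul]
    linarith
  have e : (gs k i : (Fin (k + 1) → EN N) → ℝ) =
      fun ω => ∑ r, (ω i.castSucc).2.1 r * svk k r ω := rfl
  rw [e, pathE_fsum hβ hζ (k + 1) 0 hH Finset.univ (fun a _ => hga a)]
  have e1 : ∀ r : Fin N, pathE (mN P A) ζ (k + 1) 0 (HN k θ)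
      (fun ω => (ω i.castSucc).2.1 r * svk k r ω) =
      θ.v i * (1 - ∑ j ∈ Finset.Ico (i : ℕ) k, (ζ (j + 1) - ζ j) *
          pathE (mN P A) ζ (k + 1) 0 (HN k θ)
            (fun ω => condE (mN P A) ζ (j + 1) (k + 1) 0 (HN k θ) (svk k r) ω ^ 2)) := by
    intro r
    have h := ibp_core (m := mN P A) (ζ := ζ) hβ hζ ((gcoord_setM (P := P) (A := A) r).cflow hβ) i hH
      (svk_tame k r) (HN_isD_M k θ i r) (spin_isD_M k i r r)
    have h1 : pathE (mN P A) ζ (k + 1) 0 (HN k θ) (fun ω => svk k r ω ^ 2) = 1 := by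
      simp only [svk_sq]
      exact pathE_one hβ hζ (k + 1) 0 hH
    rw [hk, one_mul, h1] at h
    exact h
  simp only [e1, pN_eq hP hζ]
  rw [← Finset.mul_sum, Finset.sum_sub_distrib, Finset.sum_comm, mul_assoc]
  congr 1
  rw [mul_sub, mul_one]
  congr 1
  · simp
  · rw [Finset.mul_sum]
    refine Finset.sum_congr rfl fun j _ => ?_
    rw [← Finset.mul_sum]
    field_simp

end Crest.Agent.RI
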