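import Crest.Agent.RI.CoupH

/-!
# Row 164, Part 8.3: the quantities of the coupling in the variables of the bigger system
-/

set_option autoImplicit false

namespace Crest.Agent.RI

open MeasureTheory ProbabilityTheory

variable {N K k : ℕ}

/-- `Σ_a f(κ' a) O'_{a0} y'_a` (local field of the spin `0`) -/
noncomputable def Lf (κ' : Fin N → Fin K) (f : Fin K → ℝ) (r : Fin N) (ω : Fin (k + 1) → EN N) : ℝ :=
  ∑ a, f (κ' a) * (ω 0).1.1 a r * yv k ω a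

/-- `Σ_a f(κ' a) O'_{a0} g̃'^i_a` -/
noncomputable def Gf (κ' : Fin N → Fin K) (f : Fin K → ℝ) (i : Fin k) (r : Fin N)
    (ω : Fin (k + 1) → EN N) : ℝ :=
  ∑ a, f (κ' a) * (ω 0).1.1 a r * (ω i.castSucc).2.2.1 a

/-! ### auxiliary lemmas -/

theorem CoupInv_sg_sq (ξ : Fin (N + 1) → ℝ) : sg ξ * sg ξ = 1 := by
  unfold sg
  split_ifs <;> norm_num

theorem CoupInv_uv (ξ : Fin (N + 1) → ℝ) : uv ξ = 0 ∨ ip (uv ξ) (uv ξ) = 1 := by
  unfold uv
  set v : Fin (N + 1) → ℝ := Fin.cons (-|ξ 0|) (Fin.tail ξ) with hv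
  by_cases h : ip v v = 0
  · left
    funext i
    simp [nrm, h]
  · right
    have h0 := ip_nonneg v
    have hs : Real.sqrt (ip v v) ≠ 0 := by
      intro h2
      exact h ((Real.sqrt_eq_zero h0).1 h2)
    have : ip (nrm v) (nrm v) = ip v v / (Real.sqrt (ip v v) * Real.sqrt (ip v v)) := by
      conv_lhs => unfold ip nrm
      rw [ip, Finset.sum_div]
      refine Finset.sum_congr rfl fun i _ => ?_
      rw [div_mul_div_comm]
    rw [this, Real.mul_self_sqrt h0, div_self h]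

theorem CoupInv_u0 (ξ : Fin (N + 1) → ℝ) : uv ξ 0 ≤ 0 := by
  unfold uv nrm
  refine div_nonpos_of_nonpos_of_nonneg ?_ (Real.sqrt_nonneg _)
  simp

theorem CoupInv_col {ξ : Fin (N + 1) → ℝ} (h : ip (uv ξ) (uv ξ) = 1) (a : Fin (N + 1)) :
    cM ξ a 0 = sg ξ * uv ξ a := by
  have h1 := refl_qv_ev (a := (0 : Fin (N + 1))) h
  rw [avec_ev] at h1
  have h2 := congrFun h1 a
  unfold cM qc
  rw [← h2]

theorem CoupInv_avec (ξ X : Fin (N + 1) → ℝ) (a : Fin (N + 1)) :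
    avec (cM ξ) X a = sg ξ * (X a - 2 * ip (qc ξ) X * qc ξ a) := by
  have h := congrFun (avec_refl (qc ξ) X) a
  rw [← h]
  simp only [avec, cM, Finset.mul_sum]
  exact Finset.sum_congr rfl fun j _ => by ring

theorem CoupInv_inv (ξ X : Fin (N + 1) → ℝ) (a : Fin (N + 1)) :
    X a = sg ξ * (avec (cM ξ) X a - 2 * ip (qc ξ) (avec (cM ξ) X) * qc ξ a) := by
  have hs := CoupInv_sg_sq ξ
  have h1 : avec (cM ξ) (avec (cM ξ) X) = X := by
    rw [← avec_amul]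
    have h2 : amul (cM ξ) (cM ξ) = aone (N + 1) := by
      rw [← refl_refl (uz_qv 0 (uv ξ))]
      funext i j
      simp only [amul, cM, qc]
      refine Finset.sum_congr rfl fun l _ => ?_
      linear_combination (refl (qv 0 (uv ξ)) i l * refl (qv 0 (uv ξ)) l j) * hs
    rw [h2, avec_aone]
  have h3 := CoupInv_avec ξ (avec (cM ξ) X) a
  rw [h1] at h3
  exact h3

theorem CoupInv_uY {ξ : Fin (N + 1) → ℝ} (h : ip (uv ξ) (uv ξ) = 1) (X : Fin (N + 1) → ℝ) :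
    ip (uv ξ) (avec (cM ξ) X) = sg ξ * X 0 := by
  have h1 := (cM_isO ξ).ip_avec (ev 0) X
  rw [avec_ev] at h1
  have h2 : ip (ev 0) X = X 0 := by simp [ip, ev]
  rw [h2] at h1
  have h3 : ip (fun i => cM ξ i 0) (avec (cM ξ) X) = sg ξ * ip (uv ξ) (avec (cM ξ) X) := by
    simp only [ip, CoupInv_col h, Finset.mul_sum]
    exact Finset.sum_congr rfl fun j _ => by ring
  rw [h3] at h1
  have hs := CoupInv_sg_sq ξ
  calc ip (uv ξ) (avec (cM ξ) X) = sg ξ * sg ξ * ip (uv ξ) (avec (cM ξ) X) := by rw [hs, one_mul]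
    _ = sg ξ * (sg ξ * ip (uv ξ) (avec (cM ξ) X)) := by ring
    _ = sg ξ * X 0 := by rw [h1]

theorem CoupInv_abs_sg (ξ : Fin (N + 1) → ℝ) (x : ℝ) : |sg ξ * x| = |x| := by
  unfold sg
  split_ifs <;> simp

theorem CoupInv_u0_abs {ξ : Fin (N + 1) → ℝ} (h : ip (uv ξ) (uv ξ) = 1) : |uv ξ 0| ≤ 1 := by
  have h2 : uv ξ 0 * uv ξ 0 ≤ ip (uv ξ) (uv ξ) :=
    Finset.single_le_sum (f := fun k => uv ξ k * uv ξ k) (fun k _ => mul_self_nonneg _)
      (Finset.mem_univ 0)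
  rw [h] at h2
  exact abs_le_one_iff_mul_self_le_one.2 h2

theorem CoupInv_q {ξ : Fin (N + 1) → ℝ} (h : ip (uv ξ) (uv ξ) = 1) (Y : Fin (N + 1) → ℝ) :
    |ip (qc ξ) Y| ≤ |Y 0| + |ip (uv ξ) Y| := by
  set s := ip (fun j => ev 0 j - uv ξ j) (fun j => ev 0 j - uv ξ j) with hs
  have h1 : s = 2 - 2 * uv ξ 0 := by
    have e : s = ∑ j, (ev 0 j * ev 0 j - 2 * (ev 0 j * uv ξ j) + uv ξ j * uv ξ j) := by
      rw [hs, ip]
      exact Finset.sum_congr rfl fun j _ => by ring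
    rw [e, Finset.sum_add_distrib, Finset.sum_sub_distrib, ← Finset.mul_sum]
    have e1 : ∑ j, ev (0 : Fin (N + 1)) j * ev 0 j = 1 := by simp [ev]
    have e2 : ∑ j, ev (0 : Fin (N + 1)) j * uv ξ j = uv ξ 0 := by simp [ev]
    have e3 : ∑ j, uv ξ j * uv ξ j = 1 := h
    rw [e1, e2, e3]
    ring
  have h2 : 1 ≤ Real.sqrt s := by
    rw [Real.one_le_sqrt, h1]
    have := CoupInv_u0 ξ
    linarith
  have h3 : ip (qc ξ) Y = (Y 0 - ip (uv ξ) Y) / Real.sqrt s := by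
    have e : ip (qc ξ) Y = ∑ j, (ev 0 j * Y j - uv ξ j * Y j) / Real.sqrt s := by
      rw [ip]
      refine Finset.sum_congr rfl fun j _ => ?_
      unfold qc qv
      rw [← hs]
      ring
    rw [e, ← Finset.sum_div, Finset.sum_sub_distrib]
    have e1 : ∑ j, ev (0 : Fin (N + 1)) j * Y j = Y 0 := by simp [ev]
    rw [e1]
    rfl
  rw [h3, abs_div, abs_of_nonneg (Real.sqrt_nonneg s)]
  calc |Y 0 - ip (uv ξ) Y| / Real.sqrt s ≤ |Y 0 - ip (uv ξ) Y| :=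
        div_le_self (abs_nonneg _) h2
    _ ≤ |Y 0| + |ip (uv ξ) Y| := abs_sub _ _

theorem CoupInv_Fuq {ξ : Fin (N + 1) → ℝ} (h : ip (uv ξ) (uv ξ) = 1) (g : Fin (N + 1) → ℝ) {C : ℝ}
    (hC : 0 ≤ C) (hg : ∀ a, |g a| ≤ C) : |∑ a, g a * uv ξ a * qc ξ a| ≤ C := by
  have hq : ip (qc ξ) (qc ξ) ≤ 1 := by
    rcases uz_qv 0 (uv ξ) with h | h
    · exact h.le
    · unfold qc
      rw [h]
      simp [ip]
  calc |∑ a, g a * uv ξ a * qc ξ a| ≤ ∑ a, |g a * uv ξ a * qc ξ a| :=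
        Finset.abs_sum_le_sum_abs _ _
    _ ≤ ∑ a, C * ((uv ξ a * uv ξ a + qc ξ a * qc ξ a) / 2) := by
        refine Finset.sum_le_sum fun a _ => ?_
        rw [mul_assoc, abs_mul]
        refine mul_le_mul (hg a) ?_ (abs_nonneg _) hC
        rw [abs_le]
        constructor
        · nlinarith [sq_nonneg (uv ξ a + qc ξ a)]
        · nlinarith [sq_nonneg (uv ξ a - qc ξ a)]
    _ = C * ((ip (uv ξ) (uv ξ) + ip (qc ξ) (qc ξ)) / 2) := by
        rw [← Finset.mul_sum, ← Finset.sum_div, Finset.sum_add_distrib]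
        rfl
    _ ≤ C := by
        rw [h]
        nlinarith

theorem CoupInv_main (l0 : Fin K) (κ : Fin N → Fin K) (f : Fin K → ℝ) {C : ℝ}
    (hf : ∀ l, |f l| ≤ C) (ξ X : Fin (N + 1) → ℝ) :
    |∑ a : Fin N, f (κ a) * uv ξ a.succ * X a.succ| ≤
      |∑ a, f (kc l0 κ a) * cM ξ a 0 * avec (cM ξ) X a| +
        3 * C * (|avec (cM ξ) X 0| + |X 0|) := by
  have hC : 0 ≤ C := (abs_nonneg _).trans (hf l0)
  rcases CoupInv_uv ξ with h | h
  · simp only [h, Pi.zero_apply, mul_zero, zero_mul, Finset.sum_const_zero, abs_zero]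
    positivity
  · set Y := avec (cM ξ) X with hY
    have hs := CoupInv_sg_sq ξ
    have e1 : ∑ a : Fin N, f (κ a) * uv ξ a.succ * X a.succ
        = ∑ a, f (kc l0 κ a) * uv ξ a * X a - f l0 * uv ξ 0 * X 0 := by
      rw [Fin.sum_univ_succ]
      simp [kc]
    have e2 : ∑ a, f (kc l0 κ a) * uv ξ a * X a
        = sg ξ * ∑ a, f (kc l0 κ a) * uv ξ a * Y a
          - sg ξ * (2 * ip (qc ξ) Y * ∑ a, f (kc l0 κ a) * uv ξ a * qc ξ a) := by
      rw [← mul_sub, Finset.mul_sum, ← Finset.sum_sub_distrib, Finset.mul_sum]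
      refine Finset.sum_congr rfl fun a _ => ?_
      rw [CoupInv_inv ξ X a, ← hY]
      ring
    have e3 : ∑ a, f (kc l0 κ a) * cM ξ a 0 * Y a = sg ξ * ∑ a, f (kc l0 κ a) * uv ξ a * Y a := by
      rw [Finset.mul_sum]
      refine Finset.sum_congr rfl fun a _ => ?_
      rw [CoupInv_col h]
      ring
    rw [e1, e2, ← e3]
    have b1 : |ip (qc ξ) Y| ≤ |Y 0| + |X 0| := by
      have := CoupInv_q h Y
      rw [hY, CoupInv_uY h X, CoupInv_abs_sg] at this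
      exact this
    have b2 := CoupInv_Fuq h (fun a => f (kc l0 κ a)) hC (fun a => hf _)
    have b3 := CoupInv_u0_abs h
    have b4 : |sg ξ * (2 * ip (qc ξ) Y * ∑ a, f (kc l0 κ a) * uv ξ a * qc ξ a)|
        ≤ 2 * (|Y 0| + |X 0|) * C := by
      rw [CoupInv_abs_sg, abs_mul, abs_mul, abs_two]
      refine mul_le_mul (mul_le_mul_of_nonneg_left b1 (by norm_num)) b2 (abs_nonneg _) ?_
      positivity
    have b5 : |f l0 * uv ξ 0 * X 0| ≤ C * |X 0| := by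
      rw [abs_mul, abs_mul]
      refine mul_le_mul_of_nonneg_right ?_ (abs_nonneg _)
      calc |f l0| * |uv ξ 0| ≤ C * 1 := mul_le_mul (hf l0) b3 (abs_nonneg _) hC
        _ = C := mul_one C
    set L := ∑ a, f (kc l0 κ a) * cM ξ a 0 * Y a
    set Z := sg ξ * (2 * ip (qc ξ) Y * ∑ a, f (kc l0 κ a) * uv ξ a * qc ξ a)
    calc |L - Z - f l0 * uv ξ 0 * X 0| ≤ |L - Z| + |f l0 * uv ξ 0 * X 0| := abs_sub _ _
      _ ≤ |L| + |Z| + |f l0 * uv ξ 0 * X 0| := by gcongr; exact abs_sub _ _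
      _ ≤ |L| + 2 * (|Y 0| + |X 0|) * C + C * |X 0| := by gcongr
      _ ≤ |L| + 3 * C * (|Y 0| + |X 0|) := by nlinarith [abs_nonneg (Y 0), abs_nonneg (X 0)]

theorem CoupInv_one (ξ X : Fin (N + 1) → ℝ) :
    |∑ a : Fin N, uv ξ a.succ * X a.succ| ≤ |avec (cM ξ) X 0| + |X 0| := by
  rcases CoupInv_uv ξ with h | h
  · simp only [h, Pi.zero_apply, zero_mul, Finset.sum_const_zero, abs_zero]
    positivity
  · have e1 : avec (cM ξ) X 0 = sg ξ * (uv ξ 0 * X 0 + ∑ a : Fin N, uv ξ a.succ * X a.succ) := by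
      rw [← Fin.sum_univ_succ (fun a => uv ξ a * X a), Finset.mul_sum]
      unfold avec
      refine Finset.sum_congr rfl fun a _ => ?_
      have h2 : cM ξ 0 a = cM ξ a 0 := by
        have := congrFun (congrFun (atr_refl (qc ξ)) a) 0
        simp only [cM]
        rw [← this]
        rfl
      rw [h2, CoupInv_col h]
      ring
    have b3 := CoupInv_u0_abs h
    rw [e1, CoupInv_abs_sg]
    have b5 : |uv ξ 0 * X 0| ≤ |X 0| := by
      rw [abs_mul]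
      nlinarith [abs_nonneg (X 0)]
    calc |∑ a : Fin N, uv ξ a.succ * X a.succ|
        = |(uv ξ 0 * X 0 + ∑ a : Fin N, uv ξ a.succ * X a.succ) - uv ξ 0 * X 0| := by
          congr 1; ring
      _ ≤ |uv ξ 0 * X 0 + ∑ a : Fin N, uv ξ a.succ * X a.succ| + |uv ξ 0 * X 0| := abs_sub _ _
      _ ≤ _ := by gcongr

theorem CoupInv_abs_ep (ω : Fin (k + 1) → EC N) : |ep ω| = 1 := by
  have h := ep_sq ω
  rw [← sq_abs] at h
  nlinarith [abs_nonneg (ep ω)]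

theorem CoupInv_cp0 (ω : Fin (k + 1) → EC N) (a : Fin (N + 1)) :
    (cp ω 0).1.1 a 0 = cM (xi ω) a 0 := by
  show amul (cM (xi ω)) (Crest.Agent.RI.oneSum (ω 0).1.1.1.1) a 0 = cM (xi ω) a 0
  unfold amul
  rw [Finset.sum_eq_single 0]
  · simp [oneSum]
  · intro b _ hb
    have : Crest.Agent.RI.oneSum (ω 0).1.1.1.1 b 0 = 0 := by
      obtain ⟨c, rfl⟩ := Fin.exists_succ_eq.2 hb
      simp [oneSum]
    rw [this, mul_zero]
  · intro h; exact absurd (Finset.mem_univ _) h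

/-- PROOF: `y'_0 = <e_0, cM X> = <cM^T e_0, X> = sg <u, X>` (`refl (qv 0 u) e_0 = u` if `ip u u = 1`), `<u,X> = u_0 ε + Aw 1`, `|u_0| ≤ 1`.
If `ξ = 0` then `u = 0` and `Aw = 0`. -/
theorem Aw_one_le (κ : Fin N → Fin K) (ω : Fin (k + 1) → EC N) :
    |Aw κ (fun _ => 1) ω| ≤ |yv k (cp ω) 0| + 1 := by
  have h := CoupInv_one (xi ω) (Xv ω)
  rw [← yv_coup] at h
  have h0 : Xv ω 0 = ep ω := rfl
  rw [h0, CoupInv_abs_ep] at h
  refine le_trans (le_of_eq ?_) h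
  unfold Aw
  congr 1
  refine Finset.sum_congr rfl fun a _ => ?_
  have : Xv ω a.succ = yv k (b0 ω) a := rfl
  rw [this]
  ring

/-- PROOF (blueprint 8.3): with `F' = blk (kc l0 κ) f`: `Aw f = <u, F' X> - u_0 f_{l0} ε`, `X = sg (y' - 2<q,y'> q)`,
`<u,F'X> = sg (<u,F'y'> - 2 <u,F'q> <q,y'>)`, `sg <u, F' y'> = Lf f 0 (cp ω)` (the column `0` of `O'` is `sg u`), `|<u,F'q>| ≤ C`, and
`|<q,y'>| ≤ |y'_0 - <u,y'>| = |y'_0 - sg ε| ≤ |y'_0| + 1` (`|e_0 - u|² ≥ 2`; `<u,y'> = sg ε`). -/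
theorem Aw_le (l0 : Fin K) (κ : Fin N → Fin K) (f : Fin K → ℝ) {C : ℝ} (hf : ∀ l, |f l| ≤ C)
    (ω : Fin (k + 1) → EC N) :
    |Aw κ f ω| ≤ |Lf (kc l0 κ) f 0 (cp ω)| + 3 * C * (|yv k (cp ω) 0| + 1) := by
  have h := CoupInv_main l0 κ f hf (xi ω) (Xv ω)
  rw [← yv_coup] at h
  have h0 : Xv ω 0 = ep ω := rfl
  rw [h0, CoupInv_abs_ep] at h
  have h1 : Lf (kc l0 κ) f 0 (cp ω)
      = ∑ a, f (kc l0 κ a) * cM (xi ω) a 0 * yv k (cp ω) a := by
    unfold Lf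
    exact Finset.sum_congr rfl fun a _ => by rw [CoupInv_cp0]
  rw [h1]
  exact h

/-- PROOF: `O'ᵀ g̃' = (1 ⊕ O)ᵀ ĝ`, component `0` is `g̃_0`. -/
theorem G0_eq (κ' : Fin (N + 1) → Fin K) (i : Fin k) (ω : Fin (k + 1) → EC N) :
    G0 i ω = Gf κ' (fun _ => 1) i 0 (cp ω) := by
  have h1 := (cM_isO (xi ω)).ip_avec (ev 0) (gh i ω)
  rw [avec_ev] at h1
  have h2 : ip (ev 0) (gh i ω) = G0 i ω := by
    have : gh i ω 0 = G0 i ω := rfl
    rw [← this]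
    simp [ip, ev]
  rw [h2] at h1
  rw [← h1, Gf, ip, gt_coup]
  refine Finset.sum_congr rfl fun a _ => ?_
  rw [CoupInv_cp0, one_mul]

/-- PROOF: as `Aw_le` with `g̃'` in place of `y'`: `|<q,g̃'>| ≤ |g̃'_0| + |<u,g̃'>|`, `|<u,g̃'>| = |Gf 1|`. -/
theorem Gw_le (l0 : Fin K) (κ : Fin N → Fin K) (f : Fin K → ℝ) {C : ℝ} (hf : ∀ l, |f l| ≤ C)
    (i : Fin k) (ω : Fin (k + 1) → EC N) :
    |Gw κ f i ω| ≤ |Gf (kc l0 κ) f i 0 (cp ω)| +
      3 * C * (|(cp ω i.castSucc).2.2.1 0| + |Gf (kc l0 κ) (fun _ => 1) i 0 (cp ω)|) := by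
  have h := CoupInv_main l0 κ f hf (xi ω) (gh i ω)
  rw [← gt_coup] at h
  have h0 : gh i ω 0 = G0 i ω := rfl
  rw [h0, G0_eq (kc l0 κ) i ω] at h
  have h1 : Gf (kc l0 κ) f i 0 (cp ω)
      = ∑ a, f (kc l0 κ a) * cM (xi ω) a 0 * (cp ω i.castSucc).2.2.1 a := by
    unfold Gf
    exact Finset.sum_congr rfl fun a _ => by rw [CoupInv_cp0]
  rw [h1]
  exact h

end Crest.Agent.RI
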