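import Crest.Agent.RI.TIndep

/-!
# Row 164, tower: density bound for an extra independent field; level-0 functions
-/

set_option autoImplicit false

namespace Crest.Agent.RI
open MeasureTheory ProbabilityTheory

variable {E : Type} [MeasurableSpace E]
variable {m : Measure E} [IsProbabilityMeasure m] {ζ : ℕ → ℝ} {β : E → ℝ}
variable {E' : Type} [MeasurableSpace E'] {m' : Measure E'} [IsProbabilityMeasure m'] {β' : E' → ℝ}

omit [MeasurableSpace E] [MeasurableSpace E'] in
private theorem TExtra_cons_fst {n : ℕ} (p : E × E') (ω : Fin n → E × E') :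
    (fun j => ((Fin.cons p ω : Fin (n + 1) → E × E') j).1) =
      (Fin.cons p.1 (fun j => (ω j).1) : Fin (n + 1) → E) := by
  funext j
  refine Fin.cases ?_ (fun j => ?_) j <;> simp

private theorem TExtra_dom (hβ : Dom m β) (hβ' : Dom m' β') :
    Dom (m.prod m') (fun p : E × E' => β p.1 + β' p.2) where
  meas := (hβ.meas.comp measurable_fst).add (hβ'.meas.comp measurable_snd)
  nonneg := fun e => add_nonneg (hβ.nonneg _) (hβ'.nonneg _)
  int := fun c => by
    refine ((hβ.int c).mul_prod (hβ'.int c)).congr (Filter.Eventually.of_forall (fun p => ?_))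
    simp only
    rw [← Real.exp_add]; congr 1; ring

private theorem TExtra_meas_fst {n : ℕ} :
    Measurable (fun ω : Fin n → E × E' => (fun j => (ω j).1 : Fin n → E)) :=
  measurable_pi_iff.2 (fun j => measurable_fst.comp (measurable_pi_apply j))

private theorem TExtra_ham_fst (hβ' : Dom m' β') {n : ℕ} {H : (Fin n → E) → ℝ} (hH : Ham β H) :
    Ham (fun p : E × E' => β p.1 + β' p.2)
      (fun ω : Fin n → E × E' => H (fun j => (ω j).1)) := by
  obtain ⟨C, hC, hCb⟩ := hH.bound
  refine ⟨hH.meas.comp TExtra_meas_fst, C, hC, fun ω => (hCb _).trans ?_⟩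
  refine mul_le_mul_of_nonneg_left ?_ hC
  have : ∑ j, β (ω j).1 ≤ ∑ j, (β (ω j).1 + β' (ω j).2) :=
    Finset.sum_le_sum (fun j _ => le_add_of_nonneg_right (hβ'.nonneg _))
  linarith

private theorem TExtra_tame_fst (hβ' : Dom m' β') {n : ℕ} {H : (Fin n → E) → ℝ} (hH : Tame β H) :
    Tame (fun p : E × E' => β p.1 + β' p.2)
      (fun ω : Fin n → E × E' => H (fun j => (ω j).1)) := by
  obtain ⟨C, hC, hCb⟩ := hH.bound
  refine ⟨hH.meas.comp TExtra_meas_fst, C, hC, fun ω => (hCb _).trans ?_⟩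
  refine mul_le_mul_of_nonneg_left (Real.exp_le_exp.2 (mul_le_mul_of_nonneg_left ?_ hC)) hC
  exact Finset.sum_le_sum (fun j _ => le_add_of_nonneg_right (hβ'.nonneg _))

/-- functions of one coordinate are of class `Ham` -/
private theorem TExtra_ham_coord (hβ : Dom m β) {n : ℕ} (i0 : Fin n) {a : E → ℝ}
    (ham : Measurable a) {c : ℝ} (hac : ∀ e, |a e| ≤ c * (1 + β e)) :
    Ham β (fun ω : Fin n → E => a (ω i0)) := by
  refine ⟨ham.comp (measurable_pi_apply i0), |c|, abs_nonneg _, fun ω => ?_⟩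
  have h1 : β (ω i0) ≤ ∑ j, β (ω j) :=
    Finset.single_le_sum (f := fun j => β (ω j)) (fun j _ => hβ.nonneg _) (Finset.mem_univ i0)
  have h0 := hβ.nonneg (ω i0)
  calc |a (ω i0)| ≤ c * (1 + β (ω i0)) := hac _
    _ ≤ |c| * (1 + β (ω i0)) := mul_le_mul_of_nonneg_right (le_abs_self _) (by linarith)
    _ ≤ |c| * (1 + ∑ j, β (ω j)) := mul_le_mul_of_nonneg_left (by linarith) (abs_nonneg _)

private theorem TExtra_int_exp (hβ : Dom m β) {a : E → ℝ} (ham : Measurable a) {c : ℝ}
    (hac : ∀ e, |a e| ≤ c * (1 + β e)) (z : ℝ) : Integrable (fun e => Real.exp (z * a e)) m := by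
  refine ((hβ.int (|z| * |c|)).const_mul (Real.exp (|z| * |c|))).mono'
    (by fun_prop) (Filter.Eventually.of_forall (fun e => ?_))
  rw [Real.norm_eq_abs, abs_of_pos (Real.exp_pos _), ← Real.exp_add]
  apply Real.exp_le_exp.2
  have h0 := hβ.nonneg e
  calc z * a e ≤ |z * a e| := le_abs_self _
    _ = |z| * |a e| := abs_mul _ _
    _ ≤ |z| * (|c| * (1 + β e)) := mul_le_mul_of_nonneg_left ((hac e).trans
        (mul_le_mul_of_nonneg_right (le_abs_self _) (by linarith))) (abs_nonneg _)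
    _ = _ := by ring

private theorem TExtra_int (hβ : Dom m β) {a : E → ℝ} (ham : Measurable a) {c : ℝ}
    (hac : ∀ e, |a e| ≤ c * (1 + β e)) : Integrable a m := by
  refine ((hβ.int 1).const_mul |c|).mono' ham.aestronglyMeasurable
    (Filter.Eventually.of_forall (fun e => ?_))
  rw [Real.norm_eq_abs]
  have h0 := hβ.nonneg e
  have h1 := Real.add_one_le_exp (1 * β e)
  calc |a e| ≤ c * (1 + β e) := hac e
    _ ≤ |c| * (1 + β e) := mul_le_mul_of_nonneg_right (le_abs_self _) (by linarith)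
    _ ≤ |c| * Real.exp (1 * β e) := mul_le_mul_of_nonneg_left (by linarith) (abs_nonneg _)

private theorem TExtra_jensen {f : E → ℝ} (hf : Integrable f m)
    (he : Integrable (fun e => Real.exp (f e)) m) :
    ∫ e, f e ∂m ≤ Real.log (∫ e, Real.exp (f e) ∂m) := by
  set S := ∫ e, Real.exp (f e) ∂m with hS
  have hS0 : 0 < S := integral_exp_pos he
  have hSL : Real.exp (Real.log S) = S := Real.exp_log hS0
  have h1 : ∀ e, f e ≤ Real.exp (f e) / S + (Real.log S - 1) := by
    intro e
    have := Real.add_one_le_exp (f e - Real.log S)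
    rw [Real.exp_sub, hSL] at this
    linarith
  have h2 : ∫ e, f e ∂m ≤ ∫ e, (Real.exp (f e) / S + (Real.log S - 1)) ∂m :=
    integral_mono hf ((he.div_const S).add (integrable_const _)) h1
  rw [integral_add (he.div_const S) (integrable_const _), integral_div, ← hS,
    div_self hS0.ne'] at h2
  simp at h2
  linarith

private theorem TExtra_TT_le {a : E → ℝ} {z : ℝ} (hz0 : 0 ≤ z) (hz1 : z ≤ 1) (ha : Integrable a m)
    (he : Integrable (fun e => Real.exp (a e)) m)
    (hze : Integrable (fun e => Real.exp (z * a e)) m) :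
    TT m z a ≤ Real.log (∫ e, Real.exp (a e) ∂m) := by
  by_cases hz : z = 0
  · unfold TT
    rw [if_pos hz]
    exact TExtra_jensen ha he
  unfold TT
  rw [if_neg hz]
  set S := ∫ e, Real.exp (a e) ∂m with hS
  have hS0 : 0 < S := integral_exp_pos he
  set L := Real.log S with hL
  have hSL : Real.exp L = S := Real.exp_log hS0
  have hzp : 0 < z := lt_of_le_of_ne hz0 (Ne.symm hz)
  have h1 : ∀ e, Real.exp (z * a e) ≤
      Real.exp (z * L) * (z * (Real.exp (a e) / S) + (1 - z)) := by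
    intro e
    have h2 : Real.exp (z * (a e - L)) ≤ z * Real.exp (a e - L) + (1 - z) := by
      have := convexOn_exp.2 (Set.mem_univ (a e - L)) (Set.mem_univ 0) hz0 (sub_nonneg.2 hz1)
        (by ring)
      simpa using this
    rw [Real.exp_sub, hSL] at h2
    have h3 : Real.exp (z * a e) = Real.exp (z * L) * Real.exp (z * (a e - L)) := by
      rw [← Real.exp_add]; congr 1; ring
    rw [h3]
    exact mul_le_mul_of_nonneg_left h2 (Real.exp_pos _).le
  have h2 : ∫ e, Real.exp (z * a e) ∂m ≤ Real.exp (z * L) := by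
    calc ∫ e, Real.exp (z * a e) ∂m ≤
        ∫ e, Real.exp (z * L) * (z * (Real.exp (a e) / S) + (1 - z)) ∂m :=
          integral_mono hze ((((he.div_const S).const_mul z).add
            (integrable_const _)).const_mul _) h1
      _ = Real.exp (z * L) := by
          rw [integral_const_mul, integral_add ((he.div_const S).const_mul z)
            (integrable_const _), integral_const_mul, integral_div, ← hS, div_self hS0.ne']
          simp
  have h3 : Real.log (∫ e, Real.exp (z * a e) ∂m) ≤ z * L := by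
    rw [← Real.log_exp (z * L)]
    exact Real.log_le_log (integral_exp_pos hze) h2
  calc z⁻¹ * Real.log (∫ e, Real.exp (z * a e) ∂m) ≤ z⁻¹ * (z * L) :=
        mul_le_mul_of_nonneg_left h3 (inv_nonneg.2 hz0)
    _ = L := by field_simp

private theorem TExtra_TT_ge {a : E → ℝ} {z : ℝ} (hz0 : 0 ≤ z) (ha : Integrable a m)
    (hze : Integrable (fun e => Real.exp (z * a e)) m) :
    ∫ e, a e ∂m ≤ TT m z a := by
  unfold TT
  by_cases hz : z = 0
  · rw [if_pos hz]
  · rw [if_neg hz]
    have hzp : 0 < z := lt_of_le_of_ne hz0 (Ne.symm hz)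
    have h1 := TExtra_jensen (m := m) (ha.const_mul z) hze
    rw [integral_const_mul] at h1
    calc ∫ e, a e ∂m = z⁻¹ * (z * ∫ e, a e ∂m) := by field_simp
      _ ≤ _ := mul_le_mul_of_nonneg_left h1 (inv_nonneg.2 hz0)

private theorem TExtra_TT_const (z c : ℝ) : TT m z (fun _ => c) = c := by
  unfold TT
  by_cases hz : z = 0
  · rw [if_pos hz]; simp
  · rw [if_neg hz]; simp [hz]

private theorem TExtra_nest_const (n i : ℕ) (c : ℝ) : nest m ζ n i (fun _ => c) = c := by
  induction n generalizing i with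
  | zero => rfl
  | succ n ih =>
    show TT m (ζ i) (fun e => nest m ζ n (i + 1) (fun _ => c)) = c
    simp only [ih]
    exact TExtra_TT_const _ _

private theorem TExtra_nest_coord (n i : ℕ) (i0 : Fin n) (a : E → ℝ) :
    nest m ζ n i (fun ω => a (ω i0)) = TT m (ζ (i + i0)) a := by
  induction n generalizing i with
  | zero => exact i0.elim0
  | succ n ih =>
    refine Fin.cases ?_ (fun i1 => ?_) i0
    · show TT m (ζ i) (fun e => nest m ζ n (i + 1)
        (fun ω => a ((Fin.cons e ω : Fin (n + 1) → E) 0))) = _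
      simp only [Fin.cons_zero, TExtra_nest_const]
      rfl
    · show TT m (ζ i) (fun e => nest m ζ n (i + 1)
        (fun ω => a ((Fin.cons e ω : Fin (n + 1) → E) i1.succ))) = _
      simp only [Fin.cons_succ, ih (i + 1) i1, TExtra_TT_const, Fin.val_succ]
      congr 2
      omega

/-- the first level is not tilted if its exponent is `0` -/
theorem pathE_level0 (hβ : Dom m β) (hζ : Exps ζ) (n i : ℕ) (h0 : ζ i = 0)
    {H : (Fin (n + 1) → E) → ℝ} (hH : Ham β H) (F : E → ℝ) :
    pathE m ζ (n + 1) i H (fun ω => F (ω 0)) = ∫ e, F e ∂m := by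
  show ∫ e, wgt m ζ n i H e * pathE m ζ n (i + 1) (fun ω => H (Fin.cons e ω))
    (fun ω => F ((Fin.cons e ω : Fin (n + 1) → E) 0)) ∂m = _
  refine integral_congr_ae (Filter.Eventually.of_forall fun e => ?_)
  simp only [Fin.cons_zero]
  rw [pathE_const hβ hζ n (i + 1) (hH.cons hβ e)]
  unfold wgt
  rw [h0]
  simp

/-- (aux) nested functionals of a Hamiltonian changed by `W`, `|W| ≤ b + a(ω_{i0})` where the coordinate `ω_{i0}` of the SECOND component is seen only by `W`:
the difference at a level `r ≤ i0` is at most `b + log ∫ exp a`.  PROOF: `H - b - ..`: by monotonicity the difference is bounded by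
`± nestAt (H∘fst ± (b + a))` and `nest (H∘fst + a(ω_{i0})) = nest H + nest (a(ω_{i0}))` (`nest_indep`, `nest_fst`), `0 ≤ nest (a ∘ ω_{i0}) = TT ζ_{i+i0} a ≤ log ∫ exp a`
(`TT` is nondecreasing in the exponent; the other levels see a constant), `nest (-a) ≥ -∫ a ≥ - log ∫ exp a`. -/
theorem extra_nest (hβ : Dom m β) (hβ' : Dom m' β') (hζ : Exps ζ) (n i : ℕ) (i0 : Fin n)
    {H : (Fin n → E) → ℝ} (hH : Ham β H) {W : (Fin n → E × E') → ℝ}
    (hW : Ham (fun p : E × E' => β p.1 + β' p.2) W) {a : E' → ℝ} (ha0 : ∀ e, 0 ≤ a e)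
    (ham : Measurable a) {c : ℝ} (hac : ∀ e, a e ≤ c * (1 + β' e)) {b : ℝ}
    (hb : ∀ ω, |W ω| ≤ b + a (ω i0).2) :
    |nest (m.prod m') ζ n i (fun ω => H (fun j => (ω j).1) + W ω) - nest m ζ n i H| ≤
      b + Real.log (∫ e, Real.exp (a e) ∂m') := by
  have hD := TExtra_dom hβ hβ'
  have hHf := TExtra_ham_fst (E := E) (β := β) hβ' hH
  have hac' : ∀ e, |a e| ≤ c * (1 + β' e) := fun e => by rw [abs_of_nonneg (ha0 e)]; exact hac e
  have hac2 : ∀ e, |-a e| ≤ c * (1 + β' e) := fun e => by rw [abs_neg]; exact hac' e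
  have hA : Ham β' (fun ω : Fin n → E' => a (ω i0)) := TExtra_ham_coord hβ' i0 ham hac'
  have hA2 : Ham β' (fun ω : Fin n → E' => -a (ω i0)) :=
    TExtra_ham_coord (a := fun e => -a e) hβ' i0 ham.neg hac2
  have hAb : Ham β' (fun ω : Fin n → E' => a (ω i0) + b) := hA.add hβ' (TConvB_ham_const hβ' b)
  have hA2b : Ham β' (fun ω : Fin n → E' => -a (ω i0) + -b) :=
    hA2.add hβ' (TConvB_ham_const hβ' (-b))
  have hsnd : ∀ {X : (Fin n → E') → ℝ}, Ham β' X → Ham (fun p : E × E' => β p.1 + β' p.2)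
      (fun ω : Fin n → E × E' => X (fun j => (ω j).2)) := by
    intro X hX
    obtain ⟨C, hC, hCb⟩ := hX.bound
    refine ⟨hX.meas.comp (measurable_pi_iff.2
      (fun j => measurable_snd.comp (measurable_pi_apply j))), C, hC, fun ω => (hCb _).trans ?_⟩
    refine mul_le_mul_of_nonneg_left ?_ hC
    have : ∑ j, β' (ω j).2 ≤ ∑ j, (β (ω j).1 + β' (ω j).2) :=
      Finset.sum_le_sum (fun j _ => le_add_of_nonneg_left (hβ.nonneg _))
    linarith
  have hz := hζ (i + i0)
  have hi := TExtra_int hβ' ham hac'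
  have hi2 := TExtra_int (a := fun e => -a e) hβ' ham.neg hac2
  have he : Integrable (fun e => Real.exp (a e)) m' := by
    simpa using TExtra_int_exp hβ' ham hac' 1
  have up : nest (m.prod m') ζ n i (fun ω => H (fun j => (ω j).1) + W ω) ≤
      nest m ζ n i H + (TT m' (ζ (i + i0)) a + b) := by
    have h1 := nest_mono hD hζ n i (hHf.add hD hW) (hHf.add hD (hsnd hAb)) (fun ω => by
      have := (abs_le.1 (hb ω)).2
      linarith)
    rw [nest_indep hβ hβ' hζ n i hH hAb, nest_add_const hβ' hζ n i hA b, TExtra_nest_coord] at h1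
    exact h1
  have low : nest m ζ n i H + (TT m' (ζ (i + i0)) (fun e => -a e) + -b) ≤
      nest (m.prod m') ζ n i (fun ω => H (fun j => (ω j).1) + W ω) := by
    have h1 := nest_mono hD hζ n i (hHf.add hD (hsnd hA2b)) (hHf.add hD hW) (fun ω => by
      have := (abs_le.1 (hb ω)).1
      linarith)
    rw [nest_indep hβ hβ' hζ n i hH hA2b, nest_add_const hβ' hζ n i hA2 (-b),
      TExtra_nest_coord n i i0 (fun e => -a e)] at h1
    exact h1
  have t1 := TExtra_TT_le (m := m') hz.1 hz.2 hi he (TExtra_int_exp hβ' ham hac' _)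
  have t2 := TExtra_TT_ge (m := m') hz.1 hi2 (TExtra_int_exp (a := fun e => -a e) hβ' ham.neg hac2 _)
  rw [integral_neg] at t2
  have t3 := TExtra_jensen (m := m') hi he
  rw [abs_le]
  constructor <;> linarith

/-- bounded perturbation: `nestAt` -/
private theorem TExtra_nestAt_bdd (hβ : Dom m β) (hζ : Exps ζ) (r : ℕ) : ∀ (n i : ℕ)
    {H U : (Fin n → E) → ℝ} (_ : Ham β H) (_ : Ham β U) {A : ℝ} (_ : ∀ ω, |U ω| ≤ A)
    (ω : Fin n → E),
    |nestAt m ζ r n i (fun ω => H ω + U ω) ω - nestAt m ζ r n i H ω| ≤ A := by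
  induction r with
  | zero =>
    intro n i H U hH hU A hA ω
    rw [TConvB_nestAt_zero, TConvB_nestAt_zero]
    exact TConvB_nest_diff_le hβ hζ n i hH hU hA
  | succ r ih =>
    intro n i H U hH hU A hA ω
    cases n with
    | zero =>
      rw [TConvB_nestAt_all 0 _ _ _ (Nat.zero_le _), TConvB_nestAt_all 0 _ _ _ (Nat.zero_le _)]
      simpa using hA ω
    | succ n =>
      obtain ⟨e, ω', rfl⟩ : ∃ e ω', ω = (Fin.cons e ω' : Fin (n + 1) → E) :=
        ⟨ω 0, Fin.tail ω, (Fin.cons_self_tail ω).symm⟩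
      rw [TConvB_nestAt_cons, TConvB_nestAt_cons]
      exact ih n (i + 1) (hH.cons hβ e) (hU.cons hβ e) (fun ω => hA _) ω'

private theorem TExtra_nestAt_le (hβ : Dom m β) (hβ' : Dom m' β') (hζ : Exps ζ) {a : E' → ℝ}
    (ha0 : ∀ e, 0 ≤ a e)
    (ham : Measurable a) {c : ℝ} (hac : ∀ e, a e ≤ c * (1 + β' e)) {b : ℝ} (r : ℕ) :
    ∀ (n i : ℕ) (i0 : Fin n) {H : (Fin n → E) → ℝ} (_ : Ham β H) {W : (Fin n → E × E') → ℝ}
    (_ : Ham (fun p : E × E' => β p.1 + β' p.2) W)
    (_ : ∀ ω, |W ω| ≤ b + a (ω i0).2) (ω : Fin n → E × E'),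
    |nestAt (m.prod m') ζ r n i (fun ω => H (fun j => (ω j).1) + W ω) ω -
      nestAt (m.prod m') ζ r n i (fun ω => H (fun j => (ω j).1)) ω| ≤
      if (i0 : ℕ) < r then b + a (ω i0).2 else b + Real.log (∫ e, Real.exp (a e) ∂m') := by
  have hD := TExtra_dom hβ hβ'
  induction r with
  | zero =>
    intro n i i0 H hH W hW hb ω
    rw [TConvB_nestAt_zero, TConvB_nestAt_zero, if_neg (Nat.not_lt_zero _),
      nest_fst n i hH.meas]
    exact extra_nest hβ hβ' hζ n i i0 hH hW ha0 ham hac hb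
  | succ r ih =>
    intro n i i0 H hH W hW hb ω
    cases n with
    | zero => exact i0.elim0
    | succ n =>
      obtain ⟨p, ω', rfl⟩ : ∃ p ω', ω = (Fin.cons p ω' : Fin (n + 1) → E × E') :=
        ⟨ω 0, Fin.tail ω, (Fin.cons_self_tail ω).symm⟩
      rw [TConvB_nestAt_cons, TConvB_nestAt_cons]
      revert hb
      refine Fin.cases ?_ (fun i1 => ?_) i0
      · intro hb
        rw [if_pos (by simp)]
        simp only [Fin.cons_zero]
        have hHf := TExtra_ham_fst (E := E) (β := β) hβ' hH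
        exact TExtra_nestAt_bdd hD hζ r n (i + 1) (hHf.cons hD p) (hW.cons hD p)
          (A := b + a p.2) (fun ω => by simpa using hb (Fin.cons p ω)) ω'
      · intro hb
        have h1 := ih n (i + 1) i1 (hH.cons hβ p.1) (hW.cons hD p)
          (fun ω => by simpa using hb (Fin.cons p ω)) ω'
        simp only [TExtra_cons_fst, Fin.cons_succ, Fin.val_succ, Nat.add_lt_add_iff_right]
        exact h1

/-- DENSITY BOUND.  PROOF: `pathE_change` (for the tower on `E × E'`, `H∘fst` and `U = W`): the density is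
`exp (Σ_j ζ_{i+j} (δ_{j+1} - δ_j))`, Abel summation (`ζ` nondecreasing, `ζ ≤ 1`): `≤ exp (|δ_n| + max_{j<n} |δ_j|)`, with
`|δ_j| ≤ b + a(ω_{i0})` for `j > i0` (`nest_lip`-type bound, `a(ω_{i0})` is then a constant) and `|δ_j| ≤ b + log ∫ exp a` for `j ≤ i0` (`extra_nest` for the inner towers);
so the density is `≤ exp (2b + 2 a(ω_{i0})) ∫ exp a`.  Then `pathE_prod`: `E[Φ(ω.1) exp (2a((ω i0).2))] = E Φ · ∫ exp (2a)`. -/
theorem extra_density (hβ : Dom m β) (hβ' : Dom m' β') (hζ : Exps ζ) (hmono : Monotone ζ)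
    (n i : ℕ) (i0 : Fin n)
    {H Φ : (Fin n → E) → ℝ} (hH : Ham β H) (hΦ : Tame β Φ) (h0 : ∀ ω, 0 ≤ Φ ω)
    {W : (Fin n → E × E') → ℝ}
    (hW : Ham (fun p : E × E' => β p.1 + β' p.2) W) {a : E' → ℝ} (ha0 : ∀ e, 0 ≤ a e)
    (ham : Measurable a) {c : ℝ} (hac : ∀ e, a e ≤ c * (1 + β' e)) {b : ℝ}
    (hb : ∀ ω, |W ω| ≤ b + a (ω i0).2) :
    pathE (m.prod m') ζ n i (fun ω => H (fun j => (ω j).1) + W ω) (fun ω => Φ (fun j => (ω j).1)) ≤
      Real.exp (2 * b) * (∫ e, Real.exp (a e) ∂m') * (∫ e, Real.exp (2 * a e) ∂m') *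
        pathE m ζ n i H Φ := by
  have hD := TExtra_dom hβ hβ'
  have hHf := TExtra_ham_fst (E := E) (β := β) hβ' hH
  have hΦf := TExtra_tame_fst (E := E) (β := β) hβ' hΦ
  have hac' : ∀ e, |a e| ≤ c * (1 + β' e) := fun e => by rw [abs_of_nonneg (ha0 e)]; exact hac e
  have he : Integrable (fun e => Real.exp (a e)) m' := by
    simpa using TExtra_int_exp hβ' ham hac' 1
  set S := ∫ e, Real.exp (a e) ∂m' with hS
  have hS0 : 0 < S := integral_exp_pos he
  set L := Real.log S with hL
  have hSL : Real.exp L = S := Real.exp_log hS0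
  have hS1 : 1 ≤ S := by
    have h1 : ∫ _ : E', (1 : ℝ) ∂m' ≤ ∫ e, Real.exp (a e) ∂m' :=
      integral_mono (integrable_const _) he (fun e => Real.one_le_exp (ha0 e))
    simpa using h1
  have hL0 : 0 ≤ L := Real.log_nonneg hS1
  obtain ⟨n, rfl⟩ : ∃ n', n = n' + 1 := ⟨n - 1, by have := i0.2; omega⟩
  have hδ := fun r => TExtra_nestAt_le hβ hβ' hζ ha0 ham hac r (n + 1) i i0 hH hW hb
  rw [pathE_change hD hζ (n + 1) i hHf hW hΦf]
  have hexp : ∀ ω : Fin (n + 1) → E × E', ∑ j ∈ Finset.range (n + 1), ζ (i + j) *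
      ((nestAt (m.prod m') ζ (j + 1) (n + 1) i (fun ω => H (fun j => (ω j).1) + W ω) ω -
          nestAt (m.prod m') ζ (j + 1) (n + 1) i (fun ω => H (fun j => (ω j).1)) ω) -
        (nestAt (m.prod m') ζ j (n + 1) i (fun ω => H (fun j => (ω j).1) + W ω) ω -
          nestAt (m.prod m') ζ j (n + 1) i (fun ω => H (fun j => (ω j).1)) ω)) ≤
      2 * b + L + 2 * a (ω i0).2 := by
    intro ω
    have h1 := TConvB_abel ζ (fun j =>
      nestAt (m.prod m') ζ j (n + 1) i (fun ω => H (fun j => (ω j).1) + W ω) ω -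
          nestAt (m.prod m') ζ j (n + 1) i (fun ω => H (fun j => (ω j).1)) ω) i n
    rw [h1]
    set d : ℕ → ℝ := fun j =>
      nestAt (m.prod m') ζ j (n + 1) i (fun ω => H (fun j => (ω j).1) + W ω) ω -
          nestAt (m.prod m') ζ j (n + 1) i (fun ω => H (fun j => (ω j).1)) ω with hd
    have hba : 0 ≤ b + a (ω i0).2 := (abs_nonneg _).trans (hb ω)
    have ha := ha0 (ω i0).2
    have hz := hζ (i + n)
    have hdn : |d (n + 1)| ≤ b + a (ω i0).2 := by
      have := hδ (n + 1) ω
      rw [if_pos i0.2] at this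
      exact this
    have hdj : ∀ j, |d j| ≤ b + a (ω i0).2 + L := by
      intro j
      have := hδ j ω
      refine this.trans ?_
      split_ifs <;> linarith
    have e1 : ζ (i + n) * d (n + 1) ≤ b + a (ω i0).2 := by
      calc ζ (i + n) * d (n + 1) ≤ ζ (i + n) * (b + a (ω i0).2) :=
            mul_le_mul_of_nonneg_left ((le_abs_self _).trans hdn) hz.1
        _ ≤ 1 * (b + a (ω i0).2) := mul_le_mul_of_nonneg_right hz.2 hba
        _ = _ := one_mul _
    have e2 : -∑ j ∈ Finset.range (n + 1), TConvB_w ζ i j * d j ≤ b + a (ω i0).2 + L := by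
      rw [← Finset.sum_neg_distrib]
      calc ∑ j ∈ Finset.range (n + 1), -(TConvB_w ζ i j * d j) ≤
          ∑ j ∈ Finset.range (n + 1), TConvB_w ζ i j * (b + a (ω i0).2 + L) := by
            refine Finset.sum_le_sum fun j _ => ?_
            rw [← mul_neg]
            exact mul_le_mul_of_nonneg_left ((neg_le_abs _).trans (hdj j))
              (TConvB_w_nonneg hζ hmono i j)
        _ = ζ (i + n) * (b + a (ω i0).2 + L) := by
            rw [← Finset.sum_mul, TConvB_w_sum]
        _ ≤ 1 * (b + a (ω i0).2 + L) := mul_le_mul_of_nonneg_right hz.2 (by linarith)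
        _ = _ := one_mul _
    linarith
  have hA2 : Ham β' (fun ω : Fin (n + 1) → E' => a (ω i0)) := TExtra_ham_coord hβ' i0 ham hac'
  have hA3 : Ham (fun p : E × E' => β p.1 + β' p.2)
      (fun ω : Fin (n + 1) → E × E' => 2 * b + L + 2 * a (ω i0).2) := by
    have h1 : Ham (fun p : E × E' => β p.1 + β' p.2)
        (fun ω : Fin (n + 1) → E × E' => a (ω i0).2) := by
      refine TExtra_ham_coord (a := fun p : E × E' => a p.2) (c := |c|) hD i0
        (ham.comp measurable_snd) (fun p => ?_)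
      have h2 := hac' p.2
      have h3 := hβ.nonneg p.1
      have h4 := hβ'.nonneg p.2
      calc |a p.2| ≤ c * (1 + β' p.2) := h2
        _ ≤ |c| * (1 + β' p.2) := mul_le_mul_of_nonneg_right (le_abs_self _) (by linarith)
        _ ≤ |c| * (1 + (β p.1 + β' p.2)) := mul_le_mul_of_nonneg_left (by linarith) (abs_nonneg _)
    exact (TConvB_ham_const hD _).add hD (h1.const_mul 2)
  have hsum : Ham (fun p : E × E' => β p.1 + β' p.2)
      (fun ω : Fin (n + 1) → E × E' => ∑ j ∈ Finset.range (n + 1), ζ (i + j) *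
      ((nestAt (m.prod m') ζ (j + 1) (n + 1) i (fun ω => H (fun j => (ω j).1) + W ω) ω -
          nestAt (m.prod m') ζ (j + 1) (n + 1) i (fun ω => H (fun j => (ω j).1)) ω) -
        (nestAt (m.prod m') ζ j (n + 1) i (fun ω => H (fun j => (ω j).1) + W ω) ω -
          nestAt (m.prod m') ζ j (n + 1) i (fun ω => H (fun j => (ω j).1)) ω))) := by
    refine TConvB_ham_sum hD _ _ fun j => Ham.const_mul _ ?_
    have n1 := fun r => TConvB_ham_nestAt hD hζ r (n + 1) i (hHf.add hD hW)
    have n2 := fun r => TConvB_ham_nestAt hD hζ r (n + 1) i hHf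
    exact TConvB_ham_sub hD (TConvB_ham_sub hD (n1 _) (n2 _)) (TConvB_ham_sub hD (n1 _) (n2 _))
  have hT1 := hΦf.mul hD (Tame.exp hD hsum)
  have hT2 := hΦf.mul hD (Tame.exp hD hA3)
  refine (pathE_mono hD hζ (n + 1) i hHf hT1 hT2 (fun ω => mul_le_mul_of_nonneg_left
    (Real.exp_le_exp.2 (hexp ω)) (h0 _))).trans (le_of_eq ?_)
  rw [pathE_prod hβ hβ' hζ (n + 1) i hH hT2]
  have hint : ∀ ω : Fin (n + 1) → E, ∫ y : Fin (n + 1) → E',
      Φ (fun j => ((fun j => (ω j, y j) : Fin (n + 1) → E × E') j).1) *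
        Real.exp (2 * b + L + 2 * a ((fun j => (ω j, y j) : Fin (n + 1) → E × E') i0).2)
        ∂(Measure.pi (fun _ => m')) =
      (Real.exp (2 * b) * S * (∫ e, Real.exp (2 * a e) ∂m')) * Φ ω := by
    intro ω
    have h1 : ∀ y : Fin (n + 1) → E',
        Φ (fun j => ((fun j => (ω j, y j) : Fin (n + 1) → E × E') j).1) *
        Real.exp (2 * b + L + 2 * a ((fun j => (ω j, y j) : Fin (n + 1) → E × E') i0).2) =
        (Real.exp (2 * b) * S * Φ ω) * Real.exp (2 * a (y i0)) := by
      intro y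
      simp only
      rw [Real.exp_add, Real.exp_add, hSL]
      ring
    simp_rw [h1]
    rw [integral_const_mul]
    have h2 : ∫ y : Fin (n + 1) → E', Real.exp (2 * a (y i0)) ∂(Measure.pi (fun _ => m')) =
        ∫ e, Real.exp (2 * a e) ∂m' := by
      have h3 := measurePreserving_eval (fun _ : Fin (n + 1) => m') i0
      have h4 := h3.map_eq
      conv_rhs => rw [← h4]
      rw [integral_map (measurable_pi_apply i0).aemeasurable (by fun_prop)]
    rw [h2]
    ring
  simp_rw [hint]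
  rw [pathE_mul]

end Crest.Agent.RI
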