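import Crest.Agent.RI.HaarExist

/-!
# Row 164, Part 7: Haar laws, API (H1)
-/

set_option autoImplicit false

namespace Crest.Agent.RI

open MeasureTheory ProbabilityTheory

variable {N : ℕ}

/-- PROOF: `isHaarS_of_right`, `fixes_univ`, `amul_eq`. -/
theorem IsHaar.isHaarS {P : Measure (Fin N → Fin N → ℝ)} (hP : IsHaar P) :
    IsHaarS Finset.univ P := by
  refine isHaarS_of_right _ P hP.prob ?_ ?_
  · filter_upwards [hP.orth] with V hV
    exact fixes_univ.2 hV
  · intro W hW
    have hW' : IsO W := fixes_univ.1 hW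
    have h := hP.inv (Matrix.of W) hW'
    have e : (fun V => amul V W) = fun U => fun i j => (Matrix.of U * Matrix.of W) i j := by
      funext V
      exact amul_eq V W
    rw [e]
    exact h

theorem IsHaarS.isHaar {P : Measure (Fin N → Fin N → ℝ)} (hP : IsHaarS Finset.univ P) :
    IsHaar P := by
  refine ⟨hP.prob, ?_, ?_⟩
  · filter_upwards [hP.fix] with V hV
    exact fixes_univ.1 hV
  · intro O hO
    have h := hP.right (fun i j => O i j) (fixes_univ.2 hO)
    have e : (fun V => amul V (fun i j => O i j)) =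
        fun U => fun i j => (Matrix.of U * O) i j := by
      funext V
      exact amul_eq V (fun i j => O i j)
    rw [e] at h
    exact h

/-- (H1) existence of the Haar law on `O(N)` -/
theorem exists_isHaar (N : ℕ) : ∃ P : Measure (Fin N → Fin N → ℝ), IsHaar P := by
  obtain ⟨P, hP⟩ := exists_isHaarS (N := N) Finset.univ
  exact ⟨P, hP.isHaar⟩

/-- (H1) left invariance -/
theorem IsHaar.left {P : Measure (Fin N → Fin N → ℝ)} (hP : IsHaar P) {W : Fin N → Fin N → ℝ}
    (hW : IsO W) : P.map (fun V => amul W V) = P :=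
  hP.isHaarS.left W (fixes_univ.2 hW)

/-- (H1) right invariance, array form -/
theorem IsHaar.right {P : Measure (Fin N → Fin N → ℝ)} (hP : IsHaar P) {W : Fin N → Fin N → ℝ}
    (hW : IsO W) : P.map (fun V => amul V W) = P :=
  hP.isHaarS.right W (fixes_univ.2 hW)

/-- (H1) transposition invariance -/
theorem IsHaar.transpose {P : Measure (Fin N → Fin N → ℝ)} (hP : IsHaar P) : P.map atr = P :=
  hP.isHaarS.transpose

/-- (H1) uniqueness -/
theorem IsHaar.unique {P P' : Measure (Fin N → Fin N → ℝ)} (hP : IsHaar P) (hP' : IsHaar P') :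
    P = P' :=
  hP.isHaarS.unique hP'.isHaarS

/-- left invariance for integrals -/
theorem IsHaarS.integral_left {S : Finset (Fin N)} {μ : Measure (Fin N → Fin N → ℝ)}
    (h : IsHaarS S μ) {W : Fin N → Fin N → ℝ} (hW : Fixes S W) {f : (Fin N → Fin N → ℝ) → ℝ}
    (hf : Measurable f) : ∫ V, f (amul W V) ∂μ = ∫ V, f V ∂μ := by
  conv_rhs => rw [← h.left W hW]
  rw [integral_map (measurable_amul_left W).aemeasurable hf.aestronglyMeasurable]

/-- right invariance for integrals -/
theorem IsHaarS.integral_right {S : Finset (Fin N)} {μ : Measure (Fin N → Fin N → ℝ)}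
    (h : IsHaarS S μ) {W : Fin N → Fin N → ℝ} (hW : Fixes S W) {f : (Fin N → Fin N → ℝ) → ℝ}
    (hf : Measurable f) : ∫ V, f (amul V W) ∂μ = ∫ V, f V ∂μ := by
  conv_rhs => rw [← h.right W hW]
  rw [integral_map (measurable_amul_right W).aemeasurable hf.aestronglyMeasurable]

theorem IsHaar.integral_left {P : Measure (Fin N → Fin N → ℝ)} (hP : IsHaar P)
    {W : Fin N → Fin N → ℝ} (hW : IsO W) {f : (Fin N → Fin N → ℝ) → ℝ}
    (hf : Measurable f) : ∫ V, f (amul W V) ∂P = ∫ V, f V ∂P :=
  hP.isHaarS.integral_left (fixes_univ.2 hW) hf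

theorem IsHaar.integral_right {P : Measure (Fin N → Fin N → ℝ)} (hP : IsHaar P)
    {W : Fin N → Fin N → ℝ} (hW : IsO W) {f : (Fin N → Fin N → ℝ) → ℝ}
    (hf : Measurable f) : ∫ V, f (amul V W) ∂P = ∫ V, f V ∂P :=
  hP.isHaarS.integral_right (fixes_univ.2 hW) hf

end Crest.Agent.RI
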