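import Crest.Agent.RI.Khin
import Crest.Agent.RI.HaarEx

/-!
# Row 164, Part 7: moments of Haar rotated vectors
-/

set_option autoImplicit false

namespace Crest.Agent.RI

open MeasureTheory ProbabilityTheory

variable {N : ℕ}

private theorem hm_ip_avec_smul (V : Fin N → Fin N → ℝ) (r : ℝ) (y z : Fin N → ℝ) :
    ip (avec V (fun i => r * y i)) z = r * ip (avec V y) z := by
  simp only [ip, avec, Finset.mul_sum, Finset.sum_mul]
  refine Finset.sum_congr rfl (fun i _ => Finset.sum_congr rfl (fun j _ => ?_))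
  ring

private theorem hm_measurable (u z : Fin N → ℝ) (k : ℕ) :
    Measurable (fun V : Fin N → Fin N → ℝ => ip (avec V u) z ^ k) := by
  refine Measurable.pow_const ?_ k
  simp only [ip, avec]
  refine Finset.measurable_sum _ (fun i _ => Measurable.mul_const ?_ _)
  refine Finset.measurable_sum _ (fun j _ => Measurable.mul_const ?_ _)
  exact (measurable_pi_apply j).comp (measurable_pi_apply i)

private theorem hm_bound {V : Fin N → Fin N → ℝ} (hV : IsO V) (u z : Fin N → ℝ) (k : ℕ) :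
    ‖ip (avec V u) z ^ k‖ ≤ (∑ i, (∑ j, |u j|) * |z i|) ^ k := by
  rw [norm_pow]
  refine pow_le_pow_left₀ (norm_nonneg _) ?_ k
  simp only [ip, avec]
  refine (norm_sum_le _ _).trans (Finset.sum_le_sum (fun i _ => ?_))
  rw [norm_mul, Real.norm_eq_abs, Real.norm_eq_abs]
  refine mul_le_mul_of_nonneg_right ?_ (abs_nonneg _)
  refine (Finset.abs_sum_le_sum_abs _ _).trans (Finset.sum_le_sum (fun j _ => ?_))
  rw [abs_mul]
  have := hV.abs_le i j
  nlinarith [abs_nonneg (u j), abs_nonneg (V i j)]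

private theorem hm_integrable {S : Finset (Fin N)} {μ : Measure (Fin N → Fin N → ℝ)}
    (h : IsHaarS S μ) (u z : Fin N → ℝ) (k : ℕ) :
    Integrable (fun V => ip (avec V u) z ^ k) μ := by
  haveI := h.prob
  refine Integrable.of_bound (hm_measurable u z k).aestronglyMeasurable
    ((∑ i, (∑ j, |u j|) * |z i|) ^ k) ?_
  filter_upwards [h.fix] with V hV
  exact hm_bound hV.1 u z k

/-- moments of a Haar rotated vector, general even exponent -/
private theorem hm_aux {S : Finset (Fin N)} {μ : Measure (Fin N → Fin N → ℝ)} (h : IsHaarS S μ)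
    (hS : S.Nonempty) (m : ℕ) (C : ℝ)
    (hK : ∀ a : Fin N → ℝ, (1 / 2 : ℝ) ^ N * ∑ σ : Fin N → Bool, (∑ i, spin (σ i) * a i) ^ (2 * m)
      ≤ C * (∑ i, a i ^ 2) ^ m)
    {y : Fin N → ℝ} (hy : ∀ i ∉ S, y i = 0) (z : Fin N → ℝ) :
    ∫ V, ip (avec V y) z ^ (2 * m) ∂μ ≤
      C * ip y y ^ m * (∑ i ∈ S, z i ^ 2) ^ m / (S.card : ℝ) ^ m := by
  haveI := h.prob
  obtain ⟨a, ha⟩ := hS
  have hcard : (0 : ℝ) < S.card := by exact_mod_cast Finset.card_pos.2 ⟨a, ha⟩
  set r : ℝ := Real.sqrt (ip y y) with hr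
  have hr2 : r ^ 2 = ip y y := Real.sq_sqrt (ip_nonneg y)
  -- unit vector in the direction of `y`
  obtain ⟨y', hy'1, hy'S, hyy'⟩ : ∃ y' : Fin N → ℝ, ip y' y' = 1 ∧ (∀ i ∉ S, y' i = 0) ∧
      y = fun i => r * y' i := by
    by_cases h0 : ip y y = 0
    · refine ⟨ev a, ?_, ?_, ?_⟩
      · simp [ip, ev]
      · intro i hi
        have : i ≠ a := fun h => hi (h ▸ ha)
        simp [ev, this]
      · have hr0 : r = 0 := by rw [hr, h0, Real.sqrt_zero]
        have hy0 : ∀ i, y i = 0 := by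
          intro i
          have h1 : ∑ i, y i * y i = 0 := h0
          have h2 := (Finset.sum_eq_zero_iff_of_nonneg (fun i _ => mul_self_nonneg (y i))).1 h1 i
            (Finset.mem_univ i)
          exact mul_self_eq_zero.1 h2
        funext i
        rw [hr0, hy0 i, zero_mul]
    · have hrpos : 0 < r := Real.sqrt_pos.2 (lt_of_le_of_ne (ip_nonneg y) (Ne.symm h0))
      refine ⟨fun i => y i / r, ?_, ?_, ?_⟩
      · have : ip (fun i => y i / r) (fun i => y i / r) = ip y y / r ^ 2 := by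
          simp only [ip, Finset.sum_div]
          refine Finset.sum_congr rfl (fun i _ => ?_)
          field_simp
        rw [this, hr2, div_self h0]
      · intro i hi; simp [hy i hi]
      · funext i
        field_simp
  -- sign vectors
  set u : (Fin N → Bool) → Fin N → ℝ := fun σ i => if i ∈ S then spin (σ i) / Real.sqrt S.card else 0
    with hu
  have hspin : ∀ b : Bool, spin b * spin b = 1 := by intro b; cases b <;> simp [spin]
  have hsq : Real.sqrt (S.card : ℝ) * Real.sqrt (S.card : ℝ) = S.card :=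
    Real.mul_self_sqrt hcard.le
  have hsqpos : 0 < Real.sqrt (S.card : ℝ) := Real.sqrt_pos.2 hcard
  have hu1 : ∀ σ, ip (u σ) (u σ) = 1 := by
    intro σ
    have h1 : ∀ i, u σ i * u σ i = if i ∈ S then 1 / (S.card : ℝ) else 0 := by
      intro i
      by_cases hi : i ∈ S
      · simp only [hu, hi, if_true]
        rw [div_mul_div_comm, hspin, hsq]
      · simp [hu, hi]
    simp only [ip]
    rw [Finset.sum_congr rfl (fun i _ => h1 i), ← Finset.sum_filter]
    rw [Finset.filter_mem_eq_inter, Finset.univ_inter, Finset.sum_const, nsmul_eq_mul,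
      mul_one_div, div_self hcard.ne']
  have huS : ∀ σ, ∀ i ∉ S, u σ i = 0 := by intro σ i hi; simp [hu, hi]
  have hqS : ∀ w : Fin N → ℝ, (∀ i ∉ S, w i = 0) → ∀ i ∉ S, qv a w i = 0 := by
    intro w hw i hi
    have hia : i ≠ a := fun h => hi (h ▸ ha)
    simp [qv, ev, hia, hw i hi]
  have hrot : ∀ σ, ∫ V, ip (avec V y') z ^ (2 * m) ∂μ = ∫ V, ip (avec V (u σ)) z ^ (2 * m) ∂μ := by
    intro σ
    set R := amul (refl (qv a y')) (refl (qv a (u σ))) with hR
    have hRf : Fixes S R := (fixes_refl (uz_qv a y') (hqS y' hy'S)).mul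
      (fixes_refl (uz_qv a (u σ)) (hqS (u σ) (huS σ)))
    have hRu : avec R (u σ) = y' := by
      rw [hR, avec_amul, refl_qv_self (hu1 σ), refl_qv_ev hy'1]
    have h1 := h.integral_right hRf (hm_measurable (u σ) z (2 * m))
    rw [← h1]
    refine integral_congr_ae (Filter.Eventually.of_forall (fun V => ?_))
    simp only [avec_amul, hRu]
  have hrot' : ∀ σ, ∫ V, ip (avec V y) z ^ (2 * m) ∂μ =
      ip y y ^ m * ∫ V, ip (avec V (u σ)) z ^ (2 * m) ∂μ := by
    intro σ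
    rw [← hrot σ, ← integral_const_mul]
    refine integral_congr_ae (Filter.Eventually.of_forall (fun V => ?_))
    simp only
    rw [hyy', hm_ip_avec_smul, mul_pow, pow_mul, hr2, ← hyy']
  have hN : (1 / 2 : ℝ) ^ N * ∑ _σ : Fin N → Bool, (1 : ℝ) = 1 := by
    rw [Finset.sum_const, Finset.card_univ, Fintype.card_fun, Fintype.card_bool, Fintype.card_fin,
      nsmul_eq_mul]
    push_cast
    rw [mul_one, ← mul_pow]
    norm_num
  have hmain : ∫ V, (1 / 2 : ℝ) ^ N * ∑ σ, ip (avec V (u σ)) z ^ (2 * m) ∂μ ≤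
      C * (∑ i ∈ S, z i ^ 2) ^ m / (S.card : ℝ) ^ m := by
    have hb : ∀ᵐ V ∂μ, (1 / 2 : ℝ) ^ N * ∑ σ, ip (avec V (u σ)) z ^ (2 * m) ≤
        C * (∑ i ∈ S, z i ^ 2) ^ m / (S.card : ℝ) ^ m := by
      filter_upwards [h.fix] with V hV
      set b : Fin N → ℝ := fun i => if i ∈ S then avec (atr V) z i else 0 with hb
      have h1 : ∀ σ, ip (avec V (u σ)) z ^ (2 * m) =
          (∑ i, spin (σ i) * b i) ^ (2 * m) / (S.card : ℝ) ^ m := by
        intro σ
        have h2 : ip (avec V (u σ)) z = (∑ i, spin (σ i) * b i) / Real.sqrt S.card := by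
          rw [ip_avec]
          simp only [ip, Finset.sum_div]
          refine Finset.sum_congr rfl (fun i _ => ?_)
          by_cases hi : i ∈ S
          · simp only [hu, hb, hi, if_true]; ring
          · simp [hu, hb, hi]
        rw [h2, div_pow, pow_mul (Real.sqrt _), Real.sq_sqrt hcard.le]
      rw [Finset.sum_congr rfl (fun σ _ => h1 σ), ← Finset.sum_div, ← mul_div_assoc]
      refine div_le_div_of_nonneg_right ?_ (pow_nonneg hcard.le m)
      refine (hK b).trans (le_of_eq ?_)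
      have h3 : ∑ i, b i ^ 2 = ∑ i ∈ S, avec (atr V) z i ^ 2 := by
        rw [← Finset.sum_filter_add_sum_filter_not Finset.univ (fun i => i ∈ S)]
        have h4 : ∑ i ∈ Finset.univ.filter (fun i => ¬ i ∈ S), b i ^ 2 = 0 := by
          refine Finset.sum_eq_zero (fun i hi => ?_)
          have := (Finset.mem_filter.1 hi).2
          simp [hb, this]
        rw [h4, add_zero, Finset.filter_mem_eq_inter, Finset.univ_inter]
        refine Finset.sum_congr rfl (fun i hi => ?_)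
        simp [hb, hi]
      rw [h3, hV.tr.sum_sq]
    calc ∫ V, (1 / 2 : ℝ) ^ N * ∑ σ, ip (avec V (u σ)) z ^ (2 * m) ∂μ
        ≤ ∫ _V, C * (∑ i ∈ S, z i ^ 2) ^ m / (S.card : ℝ) ^ m ∂μ := by
          refine integral_mono_ae ?_ (integrable_const _) hb
          exact (integrable_finsetSum _ (fun σ _ => hm_integrable h (u σ) z (2 * m))).const_mul _
      _ = C * (∑ i ∈ S, z i ^ 2) ^ m / (S.card : ℝ) ^ m := by simp
  have hfin : ∫ V, ip (avec V y) z ^ (2 * m) ∂μ =
      ip y y ^ m * ∫ V, (1 / 2 : ℝ) ^ N * ∑ σ, ip (avec V (u σ)) z ^ (2 * m) ∂μ := by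
    rw [integral_const_mul, integral_finsetSum _ (fun σ _ => hm_integrable h (u σ) z (2 * m))]
    calc ∫ V, ip (avec V y) z ^ (2 * m) ∂μ
        = ((1 / 2 : ℝ) ^ N * ∑ _σ : Fin N → Bool, (1 : ℝ)) * ∫ V, ip (avec V y) z ^ (2 * m) ∂μ := by
          rw [hN, one_mul]
      _ = (1 / 2 : ℝ) ^ N * ∑ σ : Fin N → Bool, ∫ V, ip (avec V y) z ^ (2 * m) ∂μ := by
          rw [mul_assoc, Finset.sum_mul]
          simp
      _ = (1 / 2 : ℝ) ^ N * ∑ σ : Fin N → Bool,
            ip y y ^ m * ∫ V, ip (avec V (u σ)) z ^ (2 * m) ∂μ := by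
          rw [Finset.sum_congr rfl (fun σ _ => hrot' σ)]
      _ = ip y y ^ m * ((1 / 2 : ℝ) ^ N * ∑ σ : Fin N → Bool,
            ∫ V, ip (avec V (u σ)) z ^ (2 * m) ∂μ) := by
          rw [← Finset.mul_sum]; ring
  rw [hfin]
  have := mul_le_mul_of_nonneg_left hmain (pow_nonneg (ip_nonneg y) m)
  refine this.trans (le_of_eq ?_)
  ring

/-- PROOF.  If `y = 0` trivial.  Let `n = |S|`.  For signs `ε` put `u_ε i = ε_i/√n` for `i ∈ S`, `0` else; a unit vector supported in `S`.  There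
is `R ∈ Fixes S` with `R u_ε = y/|y|`: `R = refl q`, `q = (u_ε - y/|y|)/norm` (or `0`), `fixes_refl`.  By right invariance
`∫ <V y, z>^8 = |y|^8 ∫ <V R u_ε, z>^8 = |y|^8 ∫ <V u_ε, z>^8 = |y|^8 ∫ (Σ_{c∈S} ε_c (Vᵀ z)_c)^8 / n^4`.  Average over the signs (`khintchine8` for
the vector `(Vᵀz)_c 1_{c ∈ S}`) and use `Fixes.sum_sq` for `Vᵀ`: `Σ_{c∈S} (Vᵀz)_c² = Σ_{c∈S} z_c²`. -/
theorem IsHaarS.mom8 {S : Finset (Fin N)} {μ : Measure (Fin N → Fin N → ℝ)} (h : IsHaarS S μ)
    (hS : S.Nonempty) {y : Fin N → ℝ} (hy : ∀ i ∉ S, y i = 0) (z : Fin N → ℝ) :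
    ∫ V, ip (avec V y) z ^ 8 ∂μ ≤ 105 * ip y y ^ 4 * (∑ i ∈ S, z i ^ 2) ^ 4 / (S.card : ℝ) ^ 4 :=
  hm_aux h hS 4 105 khintchine8 hy z

/-- same proof with `khintchine4` -/
theorem IsHaarS.mom4 {S : Finset (Fin N)} {μ : Measure (Fin N → Fin N → ℝ)} (h : IsHaarS S μ)
    (hS : S.Nonempty) {y : Fin N → ℝ} (hy : ∀ i ∉ S, y i = 0) (z : Fin N → ℝ) :
    ∫ V, ip (avec V y) z ^ 4 ∂μ ≤ 3 * ip y y ^ 2 * (∑ i ∈ S, z i ^ 2) ^ 2 / (S.card : ℝ) ^ 2 :=
  hm_aux h hS 2 3 khintchine4 hy z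

private theorem hm_coord {S : Finset (Fin N)} {b : Fin N} (hb : b ∈ S) (y : Fin N → ℝ)
    {V : Fin N → Fin N → ℝ} (hV : Fixes S V) :
    avec V y b = ip (avec V (fun i => if i ∈ S then y i else 0)) (ev b) := by
  have h1 : ip (avec V (fun i => if i ∈ S then y i else 0)) (ev b) =
      avec V (fun i => if i ∈ S then y i else 0) b := by
    simp [ip, ev]
  rw [h1]
  simp only [avec]
  refine Finset.sum_congr rfl (fun j _ => ?_)
  by_cases hj : j ∈ S
  · simp [hj]
  · have h2 : V b j = aone N b j := ((hV.2 j hj b).2)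
    have hbj : b ≠ j := fun h => hj (h ▸ hb)
    simp [hj, h2, aone, hbj]

private theorem hm_trunc (S : Finset (Fin N)) (y : Fin N → ℝ) :
    ip (fun i => if i ∈ S then y i else 0) (fun i => if i ∈ S then y i else 0) =
      ∑ i ∈ S, y i ^ 2 := by
  simp only [ip]
  rw [← Finset.sum_filter_add_sum_filter_not Finset.univ (fun i => i ∈ S)]
  have h4 : ∑ i ∈ Finset.univ.filter (fun i => ¬ i ∈ S),
      (if i ∈ S then y i else 0) * (if i ∈ S then y i else 0) = 0 := by
    refine Finset.sum_eq_zero (fun i hi => ?_)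
    have := (Finset.mem_filter.1 hi).2
    simp [this]
  rw [h4, add_zero, Finset.filter_mem_eq_inter, Finset.univ_inter]
  refine Finset.sum_congr rfl (fun i hi => ?_)
  simp [hi, sq]

private theorem hm_ev {S : Finset (Fin N)} {b : Fin N} (hb : b ∈ S) :
    ∑ i ∈ S, (ev b i) ^ 2 = 1 := by
  rw [Finset.sum_eq_single b]
  · simp [ev]
  · intro i _ hi; simp [ev, hi]
  · intro h; exact absurd hb h

/-- coordinate of a rotated vector.  PROOF.  For `b ∈ S`, `V ∈ Fixes S`: `(V y)_b = <V y', e_b>` with `y' = y 1_S`; `mom8` with `z = e_b`. -/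
theorem IsHaarS.coord8 {S : Finset (Fin N)} {μ : Measure (Fin N → Fin N → ℝ)} (h : IsHaarS S μ)
    {b : Fin N} (hb : b ∈ S) (y : Fin N → ℝ) :
    ∫ V, avec V y b ^ 8 ∂μ ≤ 105 * (∑ i ∈ S, y i ^ 2) ^ 4 / (S.card : ℝ) ^ 4 := by
  have h1 := h.mom8 ⟨b, hb⟩ (y := fun i => if i ∈ S then y i else 0)
    (fun i hi => by simp [hi]) (ev b)
  rw [hm_trunc, hm_ev hb, one_pow, mul_one] at h1
  refine le_trans (le_of_eq (integral_congr_ae ?_)) h1
  filter_upwards [h.fix] with V hV
  rw [hm_coord hb y hV]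

theorem IsHaarS.coord4 {S : Finset (Fin N)} {μ : Measure (Fin N → Fin N → ℝ)} (h : IsHaarS S μ)
    {b : Fin N} (hb : b ∈ S) (y : Fin N → ℝ) :
    ∫ V, avec V y b ^ 4 ∂μ ≤ 3 * (∑ i ∈ S, y i ^ 2) ^ 2 / (S.card : ℝ) ^ 2 := by
  have h1 := h.mom4 ⟨b, hb⟩ (y := fun i => if i ∈ S then y i else 0)
    (fun i hi => by simp [hi]) (ev b)
  rw [hm_trunc, hm_ev hb, one_pow, mul_one] at h1
  refine le_trans (le_of_eq (integral_congr_ae ?_)) h1
  filter_upwards [h.fix] with V hV
  rw [hm_coord hb y hV]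

end Crest.Agent.RI
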