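import Crest.Agent.RI.TowMomA
import Crest.Agent.RI.HaarMom

/-!
# Row 164, Part 7 (H6): block rotation moments
-/

set_option autoImplicit false

namespace Crest.Agent.RI

open MeasureTheory ProbabilityTheory

variable {N K : ℕ}

private noncomputable def TowMomB_clip (V : Fin N → Fin N → ℝ) : Fin N → Fin N → ℝ :=
  fun i j => max (-1) (min 1 (V i j))

private theorem TowMomB_clip_abs (V : Fin N → Fin N → ℝ) (i j : Fin N) :
    |TowMomB_clip V i j| ≤ 1 := by
  unfold TowMomB_clip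
  rw [abs_le]
  exact ⟨le_max_left _ _, max_le (by norm_num) (min_le_left _ _)⟩

private theorem TowMomB_clip_eq {V : Fin N → Fin N → ℝ} (hV : IsO V) : TowMomB_clip V = V := by
  funext i j
  have h := abs_le.1 (hV.abs_le i j)
  unfold TowMomB_clip
  rw [min_eq_right h.2, max_eq_right h.1]

private theorem TowMomB_clip_meas :
    Measurable (fun V : Fin N → Fin N → ℝ => TowMomB_clip V) := by
  unfold TowMomB_clip
  rw [measurable_pi_iff]
  intro i
  rw [measurable_pi_iff]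
  intro j
  have h : Measurable (fun V : Fin N → Fin N → ℝ => V i j) :=
    (measurable_pi_apply j).comp (measurable_pi_apply i)
  exact measurable_const.max (measurable_const.min h)

private theorem TowMomB_four {w M S : ℝ} (hM : 0 ≤ M) (hS : 0 ≤ S) (h : w ≤ M * (1 + S) ^ 4) :
    w ≤ (24 * Real.exp 1 * M + 1) * Real.exp ((24 * Real.exp 1 * M + 1) * S) := by
  have h3 := Real.pow_div_factorial_le_exp (1 + S) (by linarith) 4
  have h4 : ((4 : ℕ).factorial : ℝ) = 24 := by norm_num [Nat.factorial]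
  rw [h4, div_le_iff₀ (by norm_num), Real.exp_add] at h3
  have he : 0 ≤ 24 * Real.exp 1 * M := by positivity
  have h5 : Real.exp S ≤ Real.exp ((24 * Real.exp 1 * M + 1) * S) :=
    Real.exp_le_exp.2 (by nlinarith)
  calc w ≤ M * (1 + S) ^ 4 := h
    _ ≤ M * (Real.exp 1 * Real.exp S * 24) := mul_le_mul_of_nonneg_left h3 hM
    _ = (24 * Real.exp 1 * M) * Real.exp S := by ring
    _ ≤ (24 * Real.exp 1 * M + 1) * Real.exp S :=
        mul_le_mul_of_nonneg_right (by linarith) (Real.exp_pos _).le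
    _ ≤ _ := mul_le_mul_of_nonneg_left h5 (by linarith)

private theorem TowMomB_avec {C S : ℝ} (hC : 0 ≤ C) (hS : 0 ≤ S) (V : Fin N → Fin N → ℝ)
    (hV : ∀ i j, |V i j| ≤ 1) (x : Fin N → ℝ) (hx : ∀ a, |x a| ≤ C * (1 + S)) (b : Fin N) :
    |avec V x b ^ 4| ≤ (N * C) ^ 4 * (1 + S) ^ 4 := by
  have h1 : |avec V x b| ≤ (N * C) * (1 + S) := by
    unfold avec
    calc |∑ j, V b j * x j| ≤ ∑ j, |V b j * x j| := Finset.abs_sum_le_sum_abs _ _
      _ ≤ ∑ _j : Fin N, C * (1 + S) := by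
          refine Finset.sum_le_sum fun j _ => ?_
          rw [abs_mul]
          calc |V b j| * |x j| ≤ 1 * |x j| := mul_le_mul_of_nonneg_right (hV b j) (abs_nonneg _)
            _ ≤ _ := by rw [one_mul]; exact hx j
      _ = (N * C) * (1 + S) := by
          rw [Finset.sum_const, Finset.card_univ, Fintype.card_fin, nsmul_eq_mul]
          ring
  rw [abs_pow, ← mul_pow]
  exact pow_le_pow_left₀ (abs_nonneg _) h1 4

private theorem TowMomB_sq {C S : ℝ} (hC : 0 ≤ C) (hS : 0 ≤ S) (T : Finset (Fin N))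
    (x : Fin N → ℝ) (hx : ∀ a, |x a| ≤ C * (1 + S)) :
    |(∑ a ∈ T, x a ^ 2) ^ 2| ≤ ((N * C ^ 2) ^ 2) * (1 + S) ^ 4 := by
  have h1 : ∑ a ∈ T, x a ^ 2 ≤ (N * C ^ 2) * (1 + S) ^ 2 := by
    calc ∑ a ∈ T, x a ^ 2 ≤ ∑ a, x a ^ 2 :=
          Finset.sum_le_sum_of_subset_of_nonneg (Finset.subset_univ _) fun _ _ _ => sq_nonneg _
      _ ≤ ∑ _a : Fin N, (C * (1 + S)) ^ 2 := by
          refine Finset.sum_le_sum fun a _ => ?_
          rw [← sq_abs]
          exact pow_le_pow_left₀ (abs_nonneg _) (hx a) 2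
      _ = _ := by
          rw [Finset.sum_const, Finset.card_univ, Fintype.card_fin, nsmul_eq_mul]
          ring
  have h0 : 0 ≤ ∑ a ∈ T, x a ^ 2 := Finset.sum_nonneg fun _ _ => sq_nonneg _
  rw [abs_of_nonneg (by positivity)]
  calc (∑ a ∈ T, x a ^ 2) ^ 2 ≤ ((N * C ^ 2) * (1 + S) ^ 2) ^ 2 := pow_le_pow_left₀ h0 h1 2
    _ = _ := by ring

private theorem TowMomB_avec_meas {X : Type} [MeasurableSpace X] {V : X → Fin N → Fin N → ℝ}
    {z : X → Fin N → ℝ} (hV : Measurable V) (hz : Measurable z) (b : Fin N) :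
    Measurable (fun x => avec (V x) (z x) b) := by
  unfold avec
  refine Finset.measurable_sum _ fun j _ => ?_
  have h1 : Measurable (fun x => V x b j) :=
    (measurable_pi_apply j).comp ((measurable_pi_apply b).comp hV)
  exact h1.mul ((measurable_pi_apply j).comp hz)

set_option maxHeartbeats 400000 in
private theorem TowMomB_gen {P : Measure (ON N)} (hP : HaarO P) (A : Measure (Fin N → Bool))
    [IsProbabilityMeasure A] {ζ : ℕ → ℝ} (hζ : Exps ζ) (k : ℕ) (θ : Par N K) (b : Fin N)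
    (z : ON N → (Fin k → EN N) → Fin N → ℝ)
    (hz : Measurable (fun x : ON N × (Fin k → EN N) => z x.1 x.2))
    (hrot : ∀ V U ω, z (ON.mul V U) (fun j => rotL V.1 (ω j)) = avec V.1 (z U ω))
    {C : ℝ} (hC : 0 ≤ C) (hzb : ∀ U ω a, |z U ω a| ≤ C * (1 + ∑ i, βN (ω i)))
    {Q : ℝ} (hQ : ∀ U, pathE (mN P A) ζ k 1 (HU k θ U) (fun ω => (∑ a, z U ω a ^ 2) ^ 2) ≤ Q) :
    ∫ U, pathE (mN P A) ζ k 1 (HU k θ U) (fun ω => z U ω b ^ 4) ∂P ≤
      3 * Q / ((Finset.univ.filter (fun a => θ.κ a = θ.κ b)).card : ℝ) ^ 2 := by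
  have := hP.prob
  have := prob_mN hP A
  have hβ := dom_mN hP A
  set m := mN P A with hm
  set S := Finset.univ.filter (fun a => θ.κ a = θ.κ b) with hSdef
  have hbS : b ∈ S := by simp [hSdef]
  obtain ⟨μ, hμ⟩ := exists_isHaarS S
  have := hμ.prob
  have hS0 : ∀ ω : Fin k → EN N, 0 ≤ ∑ i, βN (ω i) := fun ω =>
    Finset.sum_nonneg fun i _ => hβ.nonneg _
  -- measurability of `z U` for fixed `U`
  have hzU : ∀ U, Measurable (z U) := fun U => hz.comp measurable_prodMk_left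
  -- the function of (U, V)
  obtain ⟨Φ, hΦ⟩ : ∃ Φ : (ON N × (Fin N → Fin N → ℝ)) → (Fin k → EN N) → ℝ,
      ∀ p ω, Φ p ω = avec (TowMomB_clip p.2) (z p.1 ω) b ^ 4 := ⟨_, fun _ _ => rfl⟩
  have hΦm : Measurable (fun q : (ON N × (Fin N → Fin N → ℝ)) × (Fin k → EN N) => Φ q.1 q.2) := by
    simp only [hΦ]
    refine Measurable.pow_const ?_ 4
    refine TowMomB_avec_meas (X := (ON N × (Fin N → Fin N → ℝ)) × (Fin k → EN N))
      (V := fun q => TowMomB_clip q.1.2) (z := fun q => z q.1.1 q.2) ?_ ?_ b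
    · exact TowMomB_clip_meas.comp (measurable_snd.comp measurable_fst)
    · have h1 : Measurable (fun q : (ON N × (Fin N → Fin N → ℝ)) × (Fin k → EN N) =>
          ((q.1.1, q.2) : ON N × (Fin k → EN N))) :=
        (measurable_fst.comp measurable_fst).prodMk measurable_snd
      exact hz.comp h1
  have hΦp : ∀ p, Measurable (Φ p) := fun p => by
    have h1 : Measurable (fun ω : Fin k → EN N =>
        ((p, ω) : (ON N × (Fin N → Fin N → ℝ)) × (Fin k → EN N))) := measurable_prodMk_left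
    exact hΦm.comp h1
  set M : ℝ := (N * C) ^ 4 with hM
  have hM0 : 0 ≤ M := by positivity
  set C4 : ℝ := 24 * Real.exp 1 * M + 1 with hC4
  have hC40 : 0 ≤ C4 := by positivity
  have hΦb : ∀ p ω, |Φ p ω| ≤ C4 * Real.exp (C4 * ∑ i, βN (ω i)) := fun p ω => by
    rw [hΦ]
    exact TowMomB_four hM0 (hS0 ω)
      (TowMomB_avec hC (hS0 ω) _ (TowMomB_clip_abs p.2) _ (hzb p.1 ω) b)
  obtain ⟨CH, hCH0, hCH⟩ := HU_bound k θ
  have hHm : Measurable (fun x : ON N × (Fin k → EN N) => HU k θ x.1 x.2) := measurable_HU k θ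
  have hHU : ∀ U, Ham (βN (N := N)) (HU k θ U) := fun U => HU_ham k θ U
  have hblk : ∀ (V : Fin N → Fin N → ℝ) (hV : Fixes S V) (U : ON N) (ω : Fin k → EN N),
      HU k θ (ON.mul ⟨V, hV.1⟩ U) (fun j => rotL V (ω j)) = HU k θ U ω := fun V hV U ω =>
    HU_block k θ b ⟨V, hV.1⟩ U hV ω
  generalize HU k θ = HH at *
  have hHm' : Measurable (fun q : (ON N × (Fin N → Fin N → ℝ)) × (Fin k → EN N) =>
      HH q.1.1 q.2) := by
    have h1 : Measurable (fun q : (ON N × (Fin N → Fin N → ℝ)) × (Fin k → EN N) =>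
      ((q.1.1, q.2) : ON N × (Fin k → EN N))) :=
      (measurable_fst.comp measurable_fst).prodMk measurable_snd
    exact hHm.comp h1
  have hFm : Measurable (fun p : ON N × (Fin N → Fin N → ℝ) => pathE m ζ k 1 (HH p.1) (Φ p)) :=
    measurable_pathE m ζ k 1 (A := ON N × (Fin N → Fin N → ℝ)) (H := fun p => HH p.1)
      (Φ := Φ) hHm' hΦm
  obtain ⟨KK, hKK0, hKK⟩ := pathE_bound hβ k CH C4 hCH0 hC40
  have hFb : ∀ p : ON N × (Fin N → Fin N → ℝ), |pathE m ζ k 1 (HH p.1) (Φ p)| ≤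
      C4 * (KK * Real.exp (KK * CH)) := by
    intro p
    refine hKK ζ hζ 1 CH C4 hCH0 hC40 _ _ (hHU p.1).meas (hΦp p) (fun ω => ?_) (hΦb p)
    have := hCH p.1 ω
    linarith
  have hFi : Integrable (fun p : ON N × (Fin N → Fin N → ℝ) => pathE m ζ k 1 (HH p.1) (Φ p))
      (P.prod μ) :=
    Integrable.of_bound hFm.aestronglyMeasurable (C4 * (KK * Real.exp (KK * CH)))
      (Filter.Eventually.of_forall fun p => by rw [Real.norm_eq_abs]; exact hFb p)
  -- the original function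
  have hF0m : Measurable (fun U : ON N => pathE m ζ k 1 (HH U) (fun ω => z U ω b ^ 4)) := by
    have h1 : Measurable (Function.uncurry (fun (U : ON N) (ω : Fin k → EN N) => z U ω b ^ 4)) :=
      ((measurable_pi_apply b).comp hz).pow_const 4
    exact measurable_pathE m ζ k 1 (A := ON N) (H := fun U => HH U)
      (Φ := fun U ω => z U ω b ^ 4) hHm h1
  -- rotation
  have hstep : ∀ (V : Fin N → Fin N → ℝ) (hV : Fixes S V), ∀ U,
      pathE m ζ k 1 (HH U) (Φ (U, V)) =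
      pathE m ζ k 1 (HH (ON.mul ⟨V, hV.1⟩ U)) (fun ω => z (ON.mul ⟨V, hV.1⟩ U) ω b ^ 4) := by
    intro V hV U
    have hT : MeasurePreserving (rotL V) m m := rotL_mp hP A hV.1
    have h1 := pathE_map (ζ := ζ) hT k 1 (H := HH (ON.mul ⟨V, hV.1⟩ U))
      (Φ := fun ω => z (ON.mul ⟨V, hV.1⟩ U) ω b ^ 4) (hHU _).meas
      (((measurable_pi_apply b).comp (hzU _)).pow_const 4)
    rw [← h1]
    congr 1
    · funext ω
      exact (hblk V hV U ω).symm
    · funext ω
      rw [hΦ]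
      simp only
      rw [TowMomB_clip_eq hV.1, hrot ⟨V, hV.1⟩ U ω]
  -- invariance
  have hinv : ∀ (V : Fin N → Fin N → ℝ), Fixes S V →
      ∫ U, pathE m ζ k 1 (HH U) (Φ (U, V)) ∂P =
      ∫ U, pathE m ζ k 1 (HH U) (fun ω => z U ω b ^ 4) ∂P := by
    intro V hV
    have h1 : ∫ U, pathE m ζ k 1 (HH U) (Φ (U, V)) ∂P =
        ∫ U, (fun U => pathE m ζ k 1 (HH U) (fun ω => z U ω b ^ 4)) (ON.mul ⟨V, hV.1⟩ U) ∂P :=
      integral_congr_ae (Filter.Eventually.of_forall fun U => hstep V hV U)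
    rw [h1, ← integral_map (HaarON_mul_left _).aemeasurable hF0m.aestronglyMeasurable,
      hP.left ⟨V, hV.1⟩]
  have hswap : ∫ U, pathE m ζ k 1 (HH U) (fun ω => z U ω b ^ 4) ∂P =
      ∫ U, ∫ V, pathE m ζ k 1 (HH U) (Φ (U, V)) ∂μ ∂P := by
    rw [integral_integral_swap (f := fun U V => pathE m ζ k 1 (HH U) (Φ (U, V))) hFi]
    have h1 : ∫ V, ∫ U, pathE m ζ k 1 (HH U) (Φ (U, V)) ∂P ∂μ =
        ∫ _V, (∫ U, pathE m ζ k 1 (HH U) (fun ω => z U ω b ^ 4) ∂P) ∂μ := by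
      refine integral_congr_ae ?_
      filter_upwards [hμ.fix] with V hV
      exact hinv V hV
    rw [h1]
    simp
  -- bound for fixed `U`
  have hcard : 0 < (S.card : ℝ) := by
    exact_mod_cast Finset.card_pos.2 ⟨b, hbS⟩
  set M2 : ℝ := (N * C ^ 2) ^ 2 with hM2
  have hM20 : 0 ≤ M2 := by positivity
  have htame : ∀ (T : Finset (Fin N)) (U : ON N),
      Tame (βN (N := N)) (fun ω : Fin k → EN N => (∑ a ∈ T, z U ω a ^ 2) ^ 2) := by
    intro T U
    refine ⟨?_, 24 * Real.exp 1 * M2 + 1, by positivity, fun ω => ?_⟩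
    · refine Measurable.pow_const ?_ 2
      exact Finset.measurable_sum _ fun a _ => ((measurable_pi_apply a).comp (hzU U)).pow_const 2
    · exact TowMomB_four hM20 (hS0 ω) (TowMomB_sq hC (hS0 ω) T _ (hzb U ω))
  have hU : ∀ U, ∫ V, pathE m ζ k 1 (HH U) (Φ (U, V)) ∂μ ≤ 3 * Q / (S.card : ℝ) ^ 2 := by
    intro U
    have h1 := pathE_integral_swap hβ hζ μ k 1 (hHU U) (F := fun V => Φ (U, V))
      (C := C4) (by
        have h2 : Measurable (fun q : (Fin N → Fin N → ℝ) × (Fin k → EN N) =>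
            (((U, q.1), q.2) : (ON N × (Fin N → Fin N → ℝ)) × (Fin k → EN N))) :=
          (measurable_const.prodMk measurable_fst).prodMk measurable_snd
        exact hΦm.comp h2) hC40 (fun V ω => hΦb (U, V) ω)
    rw [← h1]
    have h3 : ∀ ω : Fin k → EN N, ∫ V, Φ (U, V) ω ∂μ ≤
        (3 / (S.card : ℝ) ^ 2) * (∑ a, z U ω a ^ 2) ^ 2 := by
      intro ω
      have h4 : ∫ V, Φ (U, V) ω ∂μ = ∫ V, avec V (z U ω) b ^ 4 ∂μ := by
        refine integral_congr_ae ?_
        filter_upwards [hμ.fix] with V hV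
        rw [hΦ]
        simp only
        rw [TowMomB_clip_eq hV.1]
      rw [h4]
      refine (hμ.coord4 hbS (z U ω)).trans ?_
      rw [div_mul_eq_mul_div]
      refine div_le_div_of_nonneg_right ?_ (by positivity)
      have h5 : ∑ a ∈ S, z U ω a ^ 2 ≤ ∑ a, z U ω a ^ 2 :=
        Finset.sum_le_sum_of_subset_of_nonneg (Finset.subset_univ _) fun _ _ _ => sq_nonneg _
      have h6 : 0 ≤ ∑ a ∈ S, z U ω a ^ 2 := Finset.sum_nonneg fun _ _ => sq_nonneg _
      have h7 := pow_le_pow_left₀ h6 h5 2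
      linarith
    have hΦU : Tame (βN (N := N)) (fun ω : Fin k → EN N => ∫ V, Φ (U, V) ω ∂μ) := by
      refine ⟨?_, C4, hC40, fun ω => ?_⟩
      · have h2 : Measurable (fun q : (Fin k → EN N) × (Fin N → Fin N → ℝ) =>
            (((U, q.2), q.1) : (ON N × (Fin N → Fin N → ℝ)) × (Fin k → EN N))) :=
          (measurable_const.prodMk measurable_snd).prodMk measurable_fst
        have h5 : Measurable (fun q : (Fin k → EN N) × (Fin N → Fin N → ℝ) => Φ (U, q.2) q.1) :=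
          hΦm.comp h2
        exact h5.stronglyMeasurable.integral_prod_right'.measurable
      · have h5 : ‖∫ V, Φ (U, V) ω ∂μ‖ ≤ C4 * Real.exp (C4 * ∑ i, βN (ω i)) := by
          have := norm_integral_le_of_norm_le_const (μ := μ) (f := fun V => Φ (U, V) ω)
            (C := C4 * Real.exp (C4 * ∑ i, βN (ω i)))
            (Filter.Eventually.of_forall fun V => by rw [Real.norm_eq_abs]; exact hΦb (U, V) ω)
          simpa using this
        rwa [Real.norm_eq_abs] at h5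
    have h8 : pathE m ζ k 1 (HH U) (fun ω => ∫ V, Φ (U, V) ω ∂μ) ≤
        pathE m ζ k 1 (HH U) (fun ω => (3 / (S.card : ℝ) ^ 2) * (∑ a, z U ω a ^ 2) ^ 2) := by
      refine pathE_mono hβ hζ k 1 (hHU U) hΦU ?_ h3
      exact Tame.mul hβ (Tame.const hβ _) (htame Finset.univ U)
    refine h8.trans ?_
    rw [pathE_mul]
    have h9 := hQ U
    have h10 : (3 / (S.card : ℝ) ^ 2) * Q = 3 * Q / (S.card : ℝ) ^ 2 := by ring
    rw [← h10]
    exact mul_le_mul_of_nonneg_left h9 (by positivity)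
  rw [hswap]
  have hlast : ∫ U, ∫ V, pathE m ζ k 1 (HH U) (Φ (U, V)) ∂μ ∂P ≤
      ∫ _U, 3 * Q / (S.card : ℝ) ^ 2 ∂P :=
    integral_mono hFi.integral_prod_left (integrable_const _) hU
  refine hlast.trans (le_of_eq ?_)
  simp

private theorem TowMomB_cons (k : ℕ) :
    Measurable (fun x : ON N × (Fin k → EN N) => (Fin.cons (e0 x.1) x.2 : Fin (k + 1) → EN N)) := by
  rw [measurable_pi_iff]
  intro j
  refine Fin.cases ?_ (fun j => ?_) j
  · have h1 : Measurable (fun U : ON N => e0 U) := by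
      unfold e0
      exact measurable_id.prodMk measurable_const
    exact h1.comp measurable_fst
  · exact (measurable_pi_apply j).comp measurable_snd

private theorem TowMomB_yU_meas (k : ℕ) :
    Measurable (fun x : ON N × (Fin k → EN N) => yU k x.1 x.2) := by
  rw [measurable_pi_iff]
  intro a
  exact (measurable_yv k a).comp (TowMomB_cons k)

private theorem TowMomB_gU_meas (k : ℕ) (i : Fin k) :
    Measurable (fun x : ON N × (Fin k → EN N) => gU k i x.1 x.2) := by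
  have h1 : Measurable (fun ω : Fin (k + 1) → EN N => (ω i.castSucc).2.2.1) :=
    (measurable_fst.comp (measurable_snd.comp measurable_snd)).comp
      (measurable_pi_apply i.castSucc)
  exact h1.comp (TowMomB_cons k)

private theorem TowMomB_gU_bound (k : ℕ) (i : Fin k) (U : ON N) (ω : Fin k → EN N) (a : Fin N) :
    |gU k i U ω a| ≤ 1 * (1 + ∑ j, βN (ω j)) := by
  have hβ0 : ∀ e : EN N, 0 ≤ βN e := fun e => by unfold βN; positivity
  have hS : 0 ≤ ∑ j, βN (ω j) := Finset.sum_nonneg fun j _ => hβ0 _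
  have key : ∀ j : Fin (k + 1), |((Fin.cons (e0 U) ω : Fin (k + 1) → EN N) j).2.2.1 a| ≤
      1 * (1 + ∑ j, βN (ω j)) := by
    intro j
    refine Fin.cases ?_ (fun j => ?_) j
    · simp only [Fin.cons_zero, e0, abs_zero]
      linarith
    · simp only [Fin.cons_succ]
      have h1 : |(ω j).2.2.1 a| ≤ βN (ω j) := by
        have h2 : |(ω j).2.2.1 a| ≤ ∑ a, |(ω j).2.2.1 a| :=
          Finset.single_le_sum (f := fun a => |(ω j).2.2.1 a|) (fun _ _ => abs_nonneg _)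
            (Finset.mem_univ a)
        have h3 : 0 ≤ ∑ a, |(ω j).2.1 a| := Finset.sum_nonneg fun _ _ => abs_nonneg _
        unfold βN
        linarith
      have h4 : βN (ω j) ≤ ∑ j, βN (ω j) :=
        Finset.single_le_sum (f := fun j => βN (ω j)) (fun _ _ => hβ0 _) (Finset.mem_univ j)
      linarith
  exact key i.castSucc

private theorem TowMomB_card {A₀ : ℝ} {c M : ℝ} (hc : 0 < c) (hN : (N : ℝ) ≤ A₀ * c)
    (hM : 0 ≤ M) : 3 * ((N : ℝ) ^ 2 * M) / c ^ 2 ≤ 3 * A₀ ^ 2 * M := by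
  rw [div_le_iff₀ (by positivity)]
  have h1 : (N : ℝ) ^ 2 ≤ (A₀ * c) ^ 2 := pow_le_pow_left₀ (by positivity) hN 2
  calc 3 * ((N : ℝ) ^ 2 * M) ≤ 3 * ((A₀ * c) ^ 2 * M) := by gcongr
    _ = _ := by ring

private theorem TowMomB_cpos (θ : Par N K) (b : Fin N) :
    0 < ((Finset.univ.filter (fun a => θ.κ a = θ.κ b)).card : ℝ) := by
  have : b ∈ Finset.univ.filter (fun a => θ.κ a = θ.κ b) := by simp
  exact_mod_cast Finset.card_pos.2 ⟨b, this⟩

/-- BLOCK ROTATION MOMENTS.  PROOF.  `S = {a | κ a = κ b}`, `μ` Haar on `Fixes S`.  For `V ∈ Fixes S`, with `F(U) = pathE (HU U) (z_b^4)`: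
`F(V U) = pathE (HU (VU) ∘ rotL V) (z_b^4 ∘ rotL V) = pathE (HU U) ((V z)_b^4)` (`pathE_map` with `rotL_mp`, `HU_block`, `yU_rot`).  Average over `V ~ μ` and
`U ~ P` (left invariance of `P`), `pathE_integral_swap`, `coord4`: `≤ ∫ pathE (HU U) (3 (Σ_{a∈S} y_a²)²/|S|²) ≤ 3 N²/|S|² ≤ 3 A₀²`. -/
theorem tow_y4 {P : Measure (ON N)} (hP : HaarO P) (A : Measure (Fin N → Bool))
    [IsProbabilityMeasure A] {ζ : ℕ → ℝ} (hζ : Exps ζ) (k : ℕ) (θ : Par N K) {A₀ : ℝ}
    (b : Fin N) (hA : (N : ℝ) ≤ A₀ * ((Finset.univ.filter (fun a => θ.κ a = θ.κ b)).card : ℝ)) :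
    ∫ U, pathE (mN P A) ζ k 1 (HU k θ U) (fun ω => yU k U ω b ^ 4) ∂P ≤ 3 * A₀ ^ 2 := by
  have := hP.prob
  have := prob_mN hP A
  have hβ := dom_mN hP A
  have h1 := TowMomB_gen hP A hζ k θ b (yU k) (TowMomB_yU_meas k)
    (fun V U ω => yU_rot k V U ω) (C := N) (by positivity)
    (fun U ω a => by
      have h2 : |yU k U ω a| ≤ N := abs_yv_le k _ a
      have h3 : 0 ≤ ∑ j, βN (ω j) := Finset.sum_nonneg fun j _ => hβ.nonneg _
      have h4 : (0 : ℝ) ≤ N := by positivity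
      nlinarith)
    (Q := (N : ℝ) ^ 2) (fun U => by
      have h2 : (fun ω : Fin k → EN N => (∑ a, yU k U ω a ^ 2) ^ 2) = fun _ => (N : ℝ) ^ 2 := by
        funext ω
        rw [sum_yU_sq]
      rw [h2, pathE_const hβ hζ k 1 (HU_ham k θ U)])
  refine h1.trans ?_
  have h2 := TowMomB_card (N := N) (M := 1) (TowMomB_cpos θ b) hA zero_le_one
  rw [mul_one, mul_one] at h2
  exact h2

/-- same with the fields; `pathE_gU4` at the end.  (`64 * (2 * ((3 D² + 2) N)² + 4) ≤ 64 * (2 * (3 D² + 2)² + 4) * N²`.) -/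
theorem tow_g4 {P : Measure (ON N)} (hP : HaarO P) (A : Measure (Fin N → Bool))
    [IsProbabilityMeasure A] {ζ : ℕ → ℝ} (hζ : Exps ζ) (k : ℕ) (θ : Par N K) {D : ℝ} (hD0 : 0 ≤ D)
    (hc : ∀ (i : ℕ) l, |θ.c i l| ≤ D) {A₀ : ℝ} (i : Fin k)
    (b : Fin N) (hA : (N : ℝ) ≤ A₀ * ((Finset.univ.filter (fun a => θ.κ a = θ.κ b)).card : ℝ)) :
    ∫ U, pathE (mN P A) ζ k 1 (HU k θ U) (fun ω => gU k i U ω b ^ 4) ∂P ≤
      3 * A₀ ^ 2 * (64 * (2 * (3 * D ^ 2 + 2) ^ 2 + 4)) := by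
  have h1 := TowMomB_gen hP A hζ k θ b (gU k i) (TowMomB_gU_meas k i)
    (fun V U ω => gU_rot k i V U ω) (C := 1) zero_le_one (TowMomB_gU_bound k i)
    (Q := (N : ℝ) ^ 2 * (64 * (2 * (3 * D ^ 2 + 2) ^ 2 + 4))) (fun U => by
      refine (pathE_gU4 hP A hζ k θ hD0 hc i U).trans ?_
      have hN : (1 : ℝ) ≤ (N : ℝ) ^ 2 := by
        have h2 : (1 : ℝ) ≤ N := by exact_mod_cast (Nat.succ_le_of_lt (Nat.lt_of_le_of_lt (Nat.zero_le _) b.2))
        nlinarith
      nlinarith)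
  exact h1.trans (TowMomB_card (TowMomB_cpos θ b) hA (by positivity))

end Crest.Agent.RI
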