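import Crest.Agent.RI.Exch
import Crest.Agent.RI.CoupInv
import Crest.Agent.RI.TowMomB
import Crest.Agent.RI.TExtra

/-!
# Row 164, Part 8.3: definitions for the moments of the bigger system
-/

set_option autoImplicit false

namespace Crest.Agent.RI

open MeasureTheory ProbabilityTheory

variable {N K J k : ℕ}

/-- sizes of all blocks and classes are at least `N/A₀` -/
structure Typ (A₀ : ℝ) (κ : Fin N → Fin K) (lab : Fin N → Fin J) : Prop where
  row : ∀ b, (N : ℝ) ≤ A₀ * ((Finset.univ.filter (fun a => κ a = κ b)).card : ℝ)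
  col : ∀ b, (N : ℝ) ≤ A₀ * ((Finset.univ.filter (fun r => lab r = lab b)).card : ℝ)

/-- bounds of the coefficients: `|D.d l| ≤ Dm`, `0 ≤ s ≤ 1`, `XOK x` -/
structure COK (D : Blk) (Dm s : ℝ) (x : XI k D.K J → ℝ) : Prop where
  d : ∀ l, |D.d l| ≤ Dm
  s0 : 0 ≤ s
  s1 : s ≤ 1
  x : XOK x

/-- expectation with the additional field `W` on the spin `0` -/
noncomputable def ELW {N : ℕ} (P : Measure (ON (N + 1))) (D : Blk) (L : LBd J) (k : ℕ) (s : ℝ)
    (x : XI k D.K J → ℝ) (κ : Fin (N + 1) → Fin D.K) (lab : Fin (N + 1) → Fin J)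
    (t v : ℝ) (i0 : Fin k) (Φ : (Fin (k + 1) → EN (N + 1)) → ℝ) : ℝ :=
  pathE (mN P (unifA (N + 1))) (ζLB k) (k + 1) 0
    (fun ω => HN k (θL D L k s x κ lab) ω + Wf k t v i0 ω) Φ

/-- `Φ` does not depend on the main field component `0` of any level -/
def NoG {N : ℕ} (Φ : (Fin (k + 1) → EN (N + 1)) → ℝ) : Prop :=
  ∀ ω ω' : Fin (k + 1) → EN (N + 1), (∀ j, (ω j).1 = (ω' j).1 ∧ (ω j).2.2 = (ω' j).2.2) → Φ ω = Φ ω'

end Crest.Agent.RI
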