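import Crest.Agent.RI.CoupDefs
import Crest.Agent.RI.Clamp

/-!
# Row 164, Part 8.4/8.5: the decoupled one-step functional and the closure values, definitions
-/

set_option autoImplicit false

namespace Crest.Agent.RI

open MeasureTheory ProbabilityTheory

variable {K k : ℕ}

/-- level space of the decoupled functional: `η ∈ ℝ^K`, (`η'`, `ε`) -/
abbrev ET (K : ℕ) : Type := (Fin K → ℝ) × (ℝ × Bool)

noncomputable def mT (K : ℕ) : Measure (ET K) := (gvec K).prod mX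

noncomputable def βT (x : ET K) : ℝ := ∑ l, |x.1 l| + |x.2.1|

/-- the decoupled field `z_l = Σ_{i ≤ k} √r_{i,l} η^i_l` -/
noncomputable def zT (r : ℕ → Fin K → ℝ) (ω : Fin (k + 1) → ET K) (l : Fin K) : ℝ :=
  ∑ i : Fin (k + 1), Real.sqrt (r i l) * (ω i).1 l

/-- the spin -/
noncomputable def epT (ω : Fin (k + 1) → ET K) : ℝ := spin (ω (Fin.last k)).2.2

/-- Hamiltonian `χ_A(Δ^∞(z,ε)) + (b + v η'_{i0}) ε` -/
noncomputable def HT (D : Blk) (l0 : Fin D.K) (A b v : ℝ) (i0 : Fin k) (r : ℕ → Fin D.K → ℝ)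
    (ω : Fin (k + 1) → ET D.K) : ℝ :=
  chi A (DInf D l0 (zT r ω) (epT ω)) + (b + v * (ω i0.castSucc).2.1) * epT ω

/-- the truncated one-step functional -/
noncomputable def TTA (D : Blk) (l0 : Fin D.K) (A b v : ℝ) (i0 : Fin k) (r : ℕ → Fin D.K → ℝ) : ℝ :=
  nest (mT D.K) (ζLB k) (k + 1) 0 (HT D l0 A b v i0 r)

/-! ### closure values of a `k`-step path `p` (equal steps, values `p 0 ≤ … ≤ p (k-1)` in `[0,1]`) -/

/-- `ρ^c_{l,i} = ∫_0^{p_i} f_l'(D_p(u)) du` -/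
noncomputable def rhoC (D : Blk) (k : ℕ) (p : ℕ → ℝ) (l : Fin D.K) (i : ℕ) : ℝ :=
  ∫ u in Set.Ioo (0 : ℝ) (p i),
    D.f' l (Crest.ProbabilityR.InvariantGlass.deficit (stepK k p) u)

/-- `c^c_l = ∫_0^1 f_l'(D_p(u)) du` -/
noncomputable def cC (D : Blk) (k : ℕ) (p : ℕ → ℝ) (l : Fin D.K) : ℝ :=
  ∫ u in Set.Ioo (0 : ℝ) 1, D.f' l (Crest.ProbabilityR.InvariantGlass.deficit (stepK k p) u)

/-- increments: `r_{i,l} = ρ^c_{l,i} - ρ^c_{l,i-1}` (`i < k`), `r_{k,l} = c^c_l - ρ^c_{l,k-1}` -/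
noncomputable def rC (D : Blk) (k : ℕ) (p : ℕ → ℝ) (i : ℕ) (l : Fin D.K) : ℝ :=
  if i < k then rhoC D k p l i - (if i = 0 then 0 else rhoC D k p l (i - 1))
  else if i = k then cC D k p l - (if i = 0 then 0 else rhoC D k p l (i - 1)) else 0

/-- `R'(x) = 1/x² - 1/g2(x)`, `R'(0)` = variance -/
noncomputable def Blk.R' (D : Blk) (x : ℝ) : ℝ :=
  if 0 < x then 1 / x ^ 2 - 1 / D.g2 x else ∑ l, D.α l * D.d l ^ 2 - D.dbar ^ 2

/-- `h*_i(p) = ∫_0^{p_i} R'(D_p(u)) du` -/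
noncomputable def hC (D : Blk) (k : ℕ) (p : ℕ → ℝ) (i : ℕ) : ℝ :=
  ∫ u in Set.Ioo (0 : ℝ) (p i), D.R' (Crest.ProbabilityR.InvariantGlass.deficit (stepK k p) u)

/-- `τ*_i = h*_i - h*_{i-1}` for `i < k` -/
noncomputable def tauC (D : Blk) (k : ℕ) (p : ℕ → ℝ) (i : ℕ) : ℝ :=
  if i < k then hC D k p i - (if i = 0 then 0 else hC D k p (i - 1)) else 0

/-- admissible `k`-step path -/
structure PathOK (k : ℕ) (p : ℕ → ℝ) : Prop where
  mono : ∀ i j, i ≤ j → j < k → p i ≤ p j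
  mem : ∀ i, i < k → 0 ≤ p i ∧ p i ≤ 1

end Crest.Agent.RI
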