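import Crest.Agent.RI.Exch
import Crest.Agent.RI.IbpFacts
import Crest.Agent.RI.RhoFacts
import Crest.Agent.RI.TTDefs
import Crest.Agent.RI.MomUD

/-!
# Row 164, Part 9: exchange of spins, removal of a row and a spin
-/

set_option autoImplicit false

namespace Crest.Agent.RI

open MeasureTheory ProbabilityTheory

variable {N K J k : ℕ}

/-- overlap path `p_i = Σ_l ρ_{l,i}` of the lower bound tower -/
noncomputable def pLB (P : Measure (ON N)) (D : Blk) (L : LBd J) (k : ℕ) (s : ℝ)
    (x : XI k D.K J → ℝ) (κ : Fin N → Fin D.K) (lab : Fin N → Fin J) (i : ℕ) : ℝ :=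
  pN P (unifA N) (ζLB k) k (θL D L k s x κ lab) i

/-- class magnetisations `τ_j = E T_j / N` -/
noncomputable def tLB (P : Measure (ON N)) (D : Blk) (L : LBd J) (k : ℕ) (s : ℝ)
    (x : XI k D.K J → ℝ) (κ : Fin N → Fin D.K) (lab : Fin N → Fin J) (j : Fin J) : ℝ :=
  EL P D L k s x κ lab (fun ω => TJ lab j (cfg k ω) / (N : ℝ))

/-- labels after exchanging the spins `0` and `r` and removing the spin `0` -/
def rml (lab : Fin (N + 1) → Fin J) (r : Fin (N + 1)) (a : Fin N) : Fin J :=
  lab (Equiv.swap 0 r a.succ)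

theorem rml_cons (lab : Fin (N + 1) → Fin J) (r : Fin (N + 1)) :
    (fun a => lab (Equiv.swap 0 r a)) = (Fin.cons (lab r) (rml lab r) : Fin (N + 1) → Fin J) := by
  funext a
  refine Fin.cases ?_ (fun i => ?_) a
  · simp only [Fin.cons_zero, Equiv.swap_apply_left]
  · rfl

private theorem ClassAvg_cfg (k : ℕ) (r : Fin (N + 1)) (ω : Fin (k + 1) → EN (N + 1)) :
    spin (cfg k (fun j => permC (Equiv.swap 0 r) (ω j)) 0) = spin (cfg k ω r) := by
  show spin ((ω (Fin.last k)).2.2.2 (Equiv.swap 0 r 0)) = spin ((ω (Fin.last k)).2.2.2 r)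
  rw [Equiv.swap_apply_left]

/-- exchanging the spins `0` and `r` -/
theorem EL2_swap {P : Measure (ON (N + 1))} (hP : HaarO P) (D : Blk) (L : LBd J) (s : ℝ)
    (x : XI k D.K J → ℝ) (κ : Fin (N + 1) → Fin D.K) (lab : Fin (N + 1) → Fin J)
    (r : Fin (N + 1)) (q : ℕ) :
    EL2 P D L k s x κ (Fin.cons (lab r) (rml lab r) : Fin (N + 1) → Fin J) q
      (fun ω ω' => spin (cfg k ω 0) * spin (cfg k ω' 0)) =
      EL2 P D L k s x κ lab q (fun ω ω' => spin (cfg k ω r) * spin (cfg k ω' r)) := by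
  have hm : Measurable (Function.uncurry (fun (ω ω' : Fin (k + 1) → EN (N + 1)) =>
      spin (cfg k ω 0) * spin (cfg k ω' 0))) :=
    ((measurable_svk k 0).comp measurable_fst).mul ((measurable_svk k 0).comp measurable_snd)
  have h := EL2_permC hP D L s x κ lab (Equiv.swap 0 r) q hm
  rw [rml_cons] at h
  rw [← h]
  simp only [ClassAvg_cfg]

theorem EL_swap {P : Measure (ON (N + 1))} (hP : HaarO P) (D : Blk) (L : LBd J) (s : ℝ)
    (x : XI k D.K J → ℝ) (κ : Fin (N + 1) → Fin D.K) (lab : Fin (N + 1) → Fin J)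
    (r : Fin (N + 1)) :
    EL P D L k s x κ (Fin.cons (lab r) (rml lab r) : Fin (N + 1) → Fin J)
      (fun ω => spin (cfg k ω 0)) = EL P D L k s x κ lab (fun ω => spin (cfg k ω r)) := by
  have hm : Measurable (fun (ω : Fin (k + 1) → EN (N + 1)) => spin (cfg k ω 0)) :=
    measurable_svk k 0
  have h := EL_permC hP D L s x κ lab (Equiv.swap 0 r) hm
  rw [rml_cons] at h
  rw [← h]
  simp only [ClassAvg_cfg]

/-- functions of `T_j` -/
theorem EL_swap_T {P : Measure (ON (N + 1))} (hP : HaarO P) (D : Blk) (L : LBd J) (s : ℝ)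
    (x : XI k D.K J → ℝ) (κ : Fin (N + 1) → Fin D.K) (lab : Fin (N + 1) → Fin J)
    (r : Fin (N + 1)) (j : Fin J) (f : ℝ → ℝ) (hf : Measurable f) :
    EL P D L k s x κ (Fin.cons (lab r) (rml lab r) : Fin (N + 1) → Fin J)
      (fun ω => f (TJ (Fin.cons (lab r) (rml lab r) : Fin (N + 1) → Fin J) j (cfg k ω))) =
      EL P D L k s x κ lab (fun ω => f (TJ lab j (cfg k ω))) := by
  have hm : Measurable (fun (ω : Fin (k + 1) → EN (N + 1)) =>
      f (TJ (Fin.cons (lab r) (rml lab r) : Fin (N + 1) → Fin J) j (cfg k ω))) := by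
    refine hf.comp ?_
    unfold TJ
    refine Finset.measurable_sum _ fun a _ => ?_
    split_ifs
    · exact measurable_svk k a
    · exact measurable_const
  have h := EL_permC hP D L s x κ lab (Equiv.swap 0 r) hm
  rw [rml_cons] at h
  rw [← h]
  have e : ∀ ω : Fin (k + 1) → EN (N + 1),
      TJ (Fin.cons (lab r) (rml lab r) : Fin (N + 1) → Fin J) j
        (cfg k (fun j => permC (Equiv.swap 0 r) (ω j))) = TJ lab j (cfg k ω) := by
    intro ω
    rw [← rml_cons]
    exact TJ_perm (Equiv.swap 0 r) lab j (cfg k ω)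
  simp only [e]

theorem FL_swap {P : Measure (ON (N + 1))} (hP : HaarO P) (D : Blk) (L : LBd J) (s : ℝ)
    (x : XI k D.K J → ℝ) (κ : Fin (N + 1) → Fin D.K) (lab : Fin (N + 1) → Fin J)
    (r : Fin (N + 1)) :
    FL P D L k s x κ (Fin.cons (lab r) (rml lab r) : Fin (N + 1) → Fin J) =
      FL P D L k s x κ lab := by
  rw [← rml_cons]
  exact FL_permC hP D L s x κ lab (Equiv.swap 0 r)

/-- closeness of the counts is inherited -/
theorem close_tail (D : Blk) {η : ℝ} (hN : 0 < N) {κ : Fin (N + 1) → Fin D.K}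
    (h : D.Close η κ) : D.Close (2 * η + 3 / N) (Fin.tail κ : Fin N → Fin D.K) := by
  intro l
  have h1 := h l
  have hN0 : (0 : ℝ) < N := by exact_mod_cast hN
  have hN1 : (1 : ℝ) ≤ N := by exact_mod_cast hN
  have hα0 := (D.pos l).le
  have hα1 : D.α l ≤ 1 := by
    rw [← D.sum]
    exact Finset.single_le_sum (f := D.α) (fun i _ => (D.pos i).le) (Finset.mem_univ l)
  have hc : ((Finset.univ.filter (fun a => κ a = l)).card : ℝ) =
      ((Finset.univ.filter (fun a => (Fin.tail κ : Fin N → Fin D.K) a = l)).card : ℝ) +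
        (if κ 0 = l then 1 else 0) := by
    have e1 : ((Finset.univ.filter (fun a => κ a = l)).card : ℝ) =
        ∑ a : Fin (N + 1), if κ a = l then (1 : ℝ) else 0 := by
      rw [Finset.sum_boole]
    have e2 : ((Finset.univ.filter (fun a => (Fin.tail κ : Fin N → Fin D.K) a = l)).card : ℝ) =
        ∑ a : Fin N, if κ a.succ = l then (1 : ℝ) else 0 := by
      rw [Finset.sum_boole]
      rfl
    rw [e1, e2, Fin.sum_univ_succ]
    ring
  set c := ((Finset.univ.filter (fun a => κ a = l)).card : ℝ) with hcd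
  set c' := ((Finset.univ.filter (fun a => (Fin.tail κ : Fin N → Fin D.K) a = l)).card : ℝ)
    with hcd'
  have hδ0 : (0 : ℝ) ≤ (if κ 0 = l then 1 else 0) := by split_ifs <;> norm_num
  have hδ1 : (if κ 0 = l then (1 : ℝ) else 0) ≤ 1 := by split_ifs <;> norm_num
  have hη : 0 ≤ η := (abs_nonneg _).trans h1
  have e : c' / (N : ℝ) - D.α l = ((N : ℝ) + 1) / N * (c / ((N + 1 : ℕ) : ℝ) - D.α l) +
      (D.α l - (if κ 0 = l then (1 : ℝ) else 0)) / N := by
    rw [hc]
    push_cast
    field_simp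
    ring
  rw [e]
  refine (abs_add_le _ _).trans (add_le_add ?_ ?_)
  · rw [abs_mul, abs_of_nonneg (by positivity)]
    have h2 : ((N : ℝ) + 1) / N ≤ 2 := by
      rw [div_le_iff₀ hN0]
      linarith
    exact mul_le_mul h2 h1 (abs_nonneg _) (by norm_num)
  · rw [abs_div, abs_of_pos hN0]
    refine div_le_div_of_nonneg_right ?_ hN0.le
    rw [abs_le]
    constructor <;> linarith

theorem typ_swap {Ty : ℝ} {κ : Fin (N + 1) → Fin K} {lab : Fin (N + 1) → Fin J}
    (h : Typ Ty κ lab) (r : Fin (N + 1)) :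
    Typ Ty κ (Fin.cons (lab r) (rml lab r) : Fin (N + 1) → Fin J) := by
  refine ⟨h.row, fun b => ?_⟩
  rw [← rml_cons]
  have h1 := h.col (Equiv.swap 0 r b)
  have e : (Finset.univ.filter (fun a => lab (Equiv.swap 0 r a) = lab (Equiv.swap 0 r b))).card =
      (Finset.univ.filter (fun a => lab a = lab (Equiv.swap 0 r b))).card := by
    refine Finset.card_bij (fun a _ => Equiv.swap 0 r a) ?_ ?_ ?_
    · intro a ha
      simpa using ha
    · intro a _ b _ hab
      exact (Equiv.swap 0 r).injective hab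
    · intro a ha
      refine ⟨Equiv.swap 0 r a, ?_, by simp⟩
      simpa using ha
  rw [e]
  exact h1

end Crest.Agent.RI
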