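import Crest.Agent.RI.ClassAvg

/-!
# Row 164, Part 9: class averages
-/

set_option autoImplicit false

namespace Crest.Agent.RI

open MeasureTheory ProbabilityTheory

variable {N K J k : ℕ}

private theorem ClassB_meas_cfg (r : Fin N) :
    Measurable (fun ω : Fin (k + 1) → EN N => spin (cfg k ω r)) := measurable_svk k r

/-- `p` in terms of the spins -/
theorem ClassB_pLB {P : Measure (ON N)} (hP : HaarO P) (D : Blk) (L : LBd J) (s : ℝ)
    (x : XI k D.K J → ℝ) (κ : Fin N → Fin D.K) (lab : Fin N → Fin J) (q : ℕ) :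
    pLB P D L k s x κ lab q = (1 / (N : ℝ)) * ∑ r, EL2 P D L k s x κ lab (q + 1)
      (fun ω ω' => spin (cfg k ω r) * spin (cfg k ω' r)) := by
  have := prob_mN hP (unifA N)
  have hβ := dom_mN hP (unifA N)
  have hH := HN_ham k (θL D L k s x κ lab)
  unfold pLB
  rw [pN_eq hP (exps_LB k)]
  congr 1
  refine Finset.sum_congr rfl fun r _ => ?_
  have h := pairE_mul hβ (exps_LB k) (q + 1) (k + 1) 0 hH (svk_tame k r) (svk_tame k r)
  unfold EL2
  refine Eq.trans ?_ h.symm
  congr 1
  funext ω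
  ring

theorem ClassB_swap (lab : Fin N → Fin J) {r r' : Fin N} (h : lab r = lab r') :
    (fun a => lab (Equiv.swap r r' a)) = lab := by
  funext a
  rcases eq_or_ne a r with h1 | h1
  · rw [h1, Equiv.swap_apply_left, h]
  · rcases eq_or_ne a r' with h2 | h2
    · rw [h2, Equiv.swap_apply_right, h]
    · rw [Equiv.swap_apply_of_ne_of_ne h1 h2]

theorem ClassB_EL2 {P : Measure (ON N)} (hP : HaarO P) (D : Blk) (L : LBd J) (s : ℝ)
    (x : XI k D.K J → ℝ) (κ : Fin N → Fin D.K) (lab : Fin N → Fin J) {r r' : Fin N}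
    (h : lab r = lab r') (q : ℕ) :
    EL2 P D L k s x κ lab q (fun ω ω' => spin (cfg k ω r) * spin (cfg k ω' r)) =
      EL2 P D L k s x κ lab q (fun ω ω' => spin (cfg k ω r') * spin (cfg k ω' r')) := by
  have h1 := EL2_permC hP D L s x κ lab (Equiv.swap r r') q
    (Φ := fun ω ω' => spin (cfg k ω r') * spin (cfg k ω' r'))
    (((ClassB_meas_cfg r').comp measurable_fst).mul ((ClassB_meas_cfg r').comp measurable_snd))
  rw [ClassB_swap lab h] at h1
  refine Eq.trans ?_ h1
  have e : ∀ ω : Fin (k + 1) → EN N, cfg k (fun j => permC (Equiv.swap r r') (ω j)) r' =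
      cfg k ω r := by
    intro ω
    show (ω (Fin.last k)).2.2.2 (Equiv.swap r r' r') = (ω (Fin.last k)).2.2.2 r
    rw [Equiv.swap_apply_right]
  simp only [e]

theorem ClassB_EL {P : Measure (ON N)} (hP : HaarO P) (D : Blk) (L : LBd J) (s : ℝ)
    (x : XI k D.K J → ℝ) (κ : Fin N → Fin D.K) (lab : Fin N → Fin J) {r r' : Fin N}
    (h : lab r = lab r') :
    EL P D L k s x κ lab (fun ω => spin (cfg k ω r)) =
      EL P D L k s x κ lab (fun ω => spin (cfg k ω r')) := by
  have h1 := EL_permC hP D L s x κ lab (Equiv.swap r r')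
    (Φ := fun ω => spin (cfg k ω r')) (ClassB_meas_cfg r')
  rw [ClassB_swap lab h] at h1
  refine Eq.trans ?_ h1
  have e : ∀ ω : Fin (k + 1) → EN N, cfg k (fun j => permC (Equiv.swap r r') (ω j)) r' =
      cfg k ω r := by
    intro ω
    show (ω (Fin.last k)).2.2.2 (Equiv.swap r r' r') = (ω (Fin.last k)).2.2.2 r
    rw [Equiv.swap_apply_right]
  simp only [e]

/-- `p_q` as a mixture of class overlaps, `r j` = any spin of the class `j`.  PROOF: `pN_eq` (+ `pairE_mul`) gives `p_q = N⁻¹ Σ_r E_2 σ_rσ_r'`; `EL2_permC` with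
`π = Equiv.swap r (r j)` for `lab r = j`. -/
theorem pLB_class (hN : 0 < N) {P : Measure (ON N)} (hP : HaarO P) (D : Blk) (L : LBd J) (s : ℝ)
    (x : XI k D.K J → ℝ) (κ : Fin N → Fin D.K) (lab : Fin N → Fin J) (r : Fin J → Fin N)
    (hr : ∀ j, lab (r j) = j) (q : ℕ) :
    pLB P D L k s x κ lab q = ∑ j, prop lab j * EL2 P D L k s x κ lab (q + 1)
      (fun ω ω' => spin (cfg k ω (r j)) * spin (cfg k ω' (r j))) := by
  rw [ClassB_pLB hP]
  set F : Fin J → ℝ := fun j => EL2 P D L k s x κ lab (q + 1)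
    (fun ω ω' => spin (cfg k ω (r j)) * spin (cfg k ω' (r j))) with hF
  have h1 : ∀ a : Fin N, EL2 P D L k s x κ lab (q + 1)
      (fun ω ω' => spin (cfg k ω a) * spin (cfg k ω' a)) =
      ∑ j, if lab a = j then F j else 0 := by
    intro a
    rw [Finset.sum_ite_eq]
    simp only [Finset.mem_univ, if_true]
    exact ClassB_EL2 hP D L s x κ lab (hr (lab a)).symm (q + 1)
  rw [Finset.sum_congr rfl fun a _ => h1 a, Finset.sum_comm, Finset.mul_sum]
  refine Finset.sum_congr rfl fun j _ => ?_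
  rw [← Finset.sum_filter, Finset.sum_const, nsmul_eq_mul]
  unfold prop
  ring

theorem tLB_class (hN : 0 < N) {P : Measure (ON N)} (hP : HaarO P) (D : Blk) (L : LBd J) (s : ℝ)
    (x : XI k D.K J → ℝ) (κ : Fin N → Fin D.K) (lab : Fin N → Fin J) (j : Fin J) (r : Fin N)
    (hr : lab r = j) :
    tLB P D L k s x κ lab j = prop lab j * EL P D L k s x κ lab (fun ω => spin (cfg k ω r)) := by
  have := prob_mN hP (unifA N)
  have hβ := dom_mN hP (unifA N)
  have hH := HN_ham k (θL D L k s x κ lab)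
  have e : (fun ω : Fin (k + 1) → EN N => TJ lab j (cfg k ω) / (N : ℝ)) =
      fun ω => ∑ a, ((1 / (N : ℝ)) * (if lab a = j then (1 : ℝ) else 0)) * svk k a ω := by
    funext ω
    unfold TJ svk cfg
    rw [Finset.sum_div]
    refine Finset.sum_congr rfl fun a _ => ?_
    split_ifs <;> ring
  unfold tLB EL
  rw [e, pathE_fsum hβ (exps_LB k) (k + 1) 0 hH Finset.univ
    (fun a _ => TVar_tame_cmul hβ _ (svk_tame k a))]
  have h1 : ∀ a : Fin N, pathE (mN P (unifA N)) (ζLB k) (k + 1) 0 (HN k (θL D L k s x κ lab))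
      (fun ω => ((1 / (N : ℝ)) * (if lab a = j then (1 : ℝ) else 0)) * svk k a ω) =
      if lab a = j then (1 / (N : ℝ)) * EL P D L k s x κ lab (fun ω => spin (cfg k ω r)) else 0 := by
    intro a
    rw [pathE_mul]
    split_ifs with h
    · rw [mul_one, ← ClassB_EL hP D L s x κ lab (h.trans hr.symm)]
      rfl
    · rw [mul_zero, zero_mul]
  rw [Finset.sum_congr rfl fun a _ => h1 a, ← Finset.sum_filter, Finset.sum_const, nsmul_eq_mul]
  unfold prop EL
  ring

/-- `p` is a path. -/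
theorem pLB_ok (hk : 0 < k) (hN : 0 < N) {P : Measure (ON N)} (hP : HaarO P) (D : Blk)
    (L : LBd J) (s : ℝ) (x : XI k D.K J → ℝ) (κ : Fin N → Fin D.K) (lab : Fin N → Fin J) :
    PathOK k (pLB P D L k s x κ lab) := by
  have := prob_mN hP (unifA N)
  have hβ := dom_mN hP (unifA N)
  have hζ := exps_LB k
  have hH := HN_ham k (θL D L k s x κ lab)
  have hN' : (0 : ℝ) < N := by exact_mod_cast hN
  constructor
  · intro i j hij hj
    unfold pLB
    rw [pN_eq hP hζ, pN_eq hP hζ]
    refine mul_le_mul_of_nonneg_left (Finset.sum_le_sum fun a _ => ?_) (by positivity)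
    exact condE_sq_mono hβ hζ (by omega) (k + 1) 0 hH (svk_tame k a)
  · intro i hi
    unfold pLB
    rw [pN_eq hP hζ]
    constructor
    · refine mul_nonneg (by positivity) (Finset.sum_nonneg fun a _ => ?_)
      exact TVar_pathE_nonneg hβ hζ (k + 1) 0 hH
        (TVar_tame_sq hβ (condE_tame hβ hζ (i + 1) (k + 1) 0 hH (svk_tame k a)))
        fun ω => sq_nonneg _
    · have h1 : ∀ a : Fin N, pathE (mN P (unifA N)) (ζLB k) (k + 1) 0
          (HN k (θL D L k s x κ lab)) (fun ω =>
            condE (mN P (unifA N)) (ζLB k) (i + 1) (k + 1) 0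
              (HN k (θL D L k s x κ lab)) (svk k a) ω ^ 2) ≤ 1 := by
        intro a
        refine (condE_sq_mono hβ hζ (show i + 1 ≤ k + 1 by omega) (k + 1) 0 hH
          (svk_tame k a)).trans (le_of_eq ?_)
        have e : (fun ω => condE (mN P (unifA N)) (ζLB k) (k + 1) (k + 1) 0
              (HN k (θL D L k s x κ lab)) (svk k a) ω ^ 2) = fun _ => 1 := by
          funext ω
          rw [condE_all (k + 1) 0 _ _ (k + 1) le_rfl ω, svk_sq]
        rw [e]
        exact pathE_one hβ hζ (k + 1) 0 hH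
      have h2 := Finset.sum_le_sum (s := Finset.univ) fun a (_ : a ∈ Finset.univ) => h1 a
      refine (mul_le_mul_of_nonneg_left h2 (by positivity : (0 : ℝ) ≤ 1 / (N : ℝ))).trans
        (le_of_eq ?_)
      rw [Finset.sum_const, Finset.card_univ, Fintype.card_fin, nsmul_eq_mul, mul_one,
        one_div_mul_cancel hN'.ne']

theorem tLB_abs {P : Measure (ON N)} (hP : HaarO P) (D : Blk) (L : LBd J) (s : ℝ)
    (x : XI k D.K J → ℝ) (κ : Fin N → Fin D.K) (lab : Fin N → Fin J) (j : Fin J) :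
    |tLB P D L k s x κ lab j| ≤ 1 := by
  have := prob_mN hP (unifA N)
  have hβ := dom_mN hP (unifA N)
  have hζ := exps_LB k
  have hH := HN_ham k (θL D L k s x κ lab)
  have hb : ∀ ω : Fin (k + 1) → EN N, |TJ lab j (cfg k ω) / (N : ℝ)| ≤ 1 := by
    intro ω
    rw [abs_div, Nat.abs_cast]
    refine div_le_one_of_le₀ ?_ (Nat.cast_nonneg N)
    unfold TJ
    refine (Finset.abs_sum_le_sum_abs _ _).trans ?_
    calc ∑ r : Fin N, |if lab r = j then spin (cfg k ω r) else 0| ≤ ∑ _r : Fin N, (1 : ℝ) := by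
          refine Finset.sum_le_sum fun r _ => ?_
          split_ifs
          · rw [abs_spin]
          · simp
      _ = N := by simp
  have hm : Measurable (fun ω : Fin (k + 1) → EN N => TJ lab j (cfg k ω) / (N : ℝ)) := by
    have h1 : Measurable (fun ω : Fin (k + 1) → EN N => cfg k ω) :=
      (measurable_snd.comp (measurable_snd.comp measurable_snd)).comp
        (measurable_pi_apply (Fin.last k))
    exact (measurable_of_countable (fun σ : Fin N → Bool => TJ lab j σ / (N : ℝ))).comp h1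
  have ht : Tame (βN (N := N)) (fun ω : Fin (k + 1) → EN N => TJ lab j (cfg k ω) / (N : ℝ)) := by
    refine ⟨hm, 1, zero_le_one, fun ω => ?_⟩
    have h1 : (1 : ℝ) ≤ Real.exp ((1 : ℝ) * ∑ i, βN (ω i)) :=
      Real.one_le_exp (mul_nonneg zero_le_one (Finset.sum_nonneg fun i _ => βN_nonneg' _))
    rw [one_mul]
    exact (hb ω).trans h1
  unfold tLB EL
  have h1 := pathE_mono hβ hζ (k + 1) 0 hH ht (Tame.const hβ 1)
    (fun ω => (abs_le.1 (hb ω)).2)
  have h2 := pathE_mono hβ hζ (k + 1) 0 hH (Tame.const hβ (-1)) ht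
    (fun ω => (abs_le.1 (hb ω)).1)
  rw [pathE_const hβ hζ (k + 1) 0 hH] at h1 h2
  exact abs_le.2 ⟨h2, h1⟩

end Crest.Agent.RI
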