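import Mathlib

/-!
# Row 164, Part 7.5: derivatives of close convex functions (H7)
-/

set_option autoImplicit false

namespace Crest.Agent.RI

open MeasureTheory Set

private theorem ConvexL_up {f f' : ℝ → ℝ} (hfc : ConvexOn ℝ (Icc 0 3) f)
    (hf : ∀ x ∈ Ioo (0 : ℝ) 3, HasDerivAt f (f' x) x) {x h : ℝ} (hh : 0 < h)
    (h1 : 0 < x) (h2 : x + h < 3) : f' x ≤ (f (x + h) - f x) / h := by
  have := hfc.le_slope_of_hasDerivAt (x := x) (y := x + h) ⟨h1.le, by linarith⟩
    ⟨by linarith, h2.le⟩ (by linarith) (hf x ⟨h1, by linarith⟩)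
  rwa [slope_def_field, add_sub_cancel_left] at this

private theorem ConvexL_up' {f f' : ℝ → ℝ} (hfc : ConvexOn ℝ (Icc 0 3) f)
    (hf : ∀ x ∈ Ioo (0 : ℝ) 3, HasDerivAt f (f' x) x) {x h : ℝ} (hh : 0 < h)
    (h1 : 0 < x) (h2 : x + h < 3) : (f (x + h) - f x) / h ≤ f' (x + h) := by
  have := hfc.slope_le_of_hasDerivAt (x := x) (y := x + h) ⟨h1.le, by linarith⟩
    ⟨by linarith, h2.le⟩ (by linarith) (hf (x + h) ⟨by linarith, h2⟩)
  rwa [slope_def_field, add_sub_cancel_left] at this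

private theorem ConvexL_mono {f f' : ℝ → ℝ} (hfc : ConvexOn ℝ (Icc 0 3) f)
    (hf : ∀ x ∈ Ioo (0 : ℝ) 3, HasDerivAt f (f' x) x) {x y : ℝ} (hxy : x ≤ y)
    (h1 : 0 < x) (h2 : y < 3) : f' x ≤ f' y := by
  rcases hxy.lt_or_eq with h | h
  · have e : x + (y - x) = y := by ring
    have a := ConvexL_up hfc hf (x := x) (h := y - x) (by linarith) h1 (by linarith)
    have b := ConvexL_up' hfc hf (x := x) (h := y - x) (by linarith) h1 (by linarith)
    rw [e] at b
    rw [e] at a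
    exact a.trans b
  · rw [h]

/-- POINTWISE.  PROOF.  `f' x ≤ (f (x+h) - f x)/h`, `(g (x+h) - g x)/h ≤ g' (x+h)`, so `f' x - g' x ≤ g'(x+h) - g' x + (|δ(x+h)| + |δ x|)/h`, and symmetrically
`f' x ≥ (f x - f (x-h))/h`, `(g x - g (x-h))/h ≥ g' (x-h)`; `g'` is nondecreasing. -/
theorem convex_deriv_diff {f g : ℝ → ℝ} {f' g' : ℝ → ℝ} (hfc : ConvexOn ℝ (Icc 0 3) f)
    (hgc : ConvexOn ℝ (Icc 0 3) g) (hf : ∀ x ∈ Ioo (0 : ℝ) 3, HasDerivAt f (f' x) x)
    (hg : ∀ x ∈ Ioo (0 : ℝ) 3, HasDerivAt g (g' x) x) {x h : ℝ} (hh : 0 < h)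
    (h1 : 0 < x - h) (h2 : x + h < 3) :
    |f' x - g' x| ≤ g' (x + h) - g' (x - h) +
      (|f (x + h) - g (x + h)| + |f (x - h) - g (x - h)| + |f x - g x|) / h := by
  have e : x - h + h = x := by ring
  have a1 := ConvexL_up hfc hf hh (x := x) (by linarith) h2
  have a2 := ConvexL_up' hgc hg hh (x := x) (by linarith) h2
  have a3 := ConvexL_up' hfc hf hh (x := x - h) h1 (by linarith)
  have a4 := ConvexL_up hgc hg hh (x := x - h) h1 (by linarith)
  rw [e] at a3 a4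
  have m1 := ConvexL_mono hgc hg (x := x - h) (y := x) (by linarith) h1 (by linarith)
  have m2 := ConvexL_mono hgc hg (x := x) (y := x + h) (by linarith) (by linarith) h2
  have p1 := abs_nonneg (f (x + h) - g (x + h))
  have p2 := abs_nonneg (f (x - h) - g (x - h))
  have p3 := abs_nonneg (f x - g x)
  have q1 := le_abs_self (f (x + h) - g (x + h))
  have q2 := le_abs_self (f (x - h) - g (x - h))
  have q3 := le_abs_self (f x - g x)
  have q4 := neg_abs_le (f (x + h) - g (x + h))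
  have q5 := neg_abs_le (f (x - h) - g (x - h))
  have q6 := neg_abs_le (f x - g x)
  have d1 : (f (x + h) - f x) / h ≤ (g (x + h) - g x) / h +
      (|f (x + h) - g (x + h)| + |f (x - h) - g (x - h)| + |f x - g x|) / h := by
    rw [← add_div]
    exact div_le_div_of_nonneg_right (by linarith) hh.le
  have d2 : (g x - g (x - h)) / h ≤ (f x - f (x - h)) / h +
      (|f (x + h) - g (x + h)| + |f (x - h) - g (x - h)| + |f x - g x|) / h := by
    rw [← add_div]
    exact div_le_div_of_nonneg_right (by linarith) hh.le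
  rw [abs_le]
  constructor <;> linarith

private theorem ConvexL_int {g g' : ℝ → ℝ} (hgc : ConvexOn ℝ (Icc 0 3) g)
    (hg : ∀ x ∈ Ioo (0 : ℝ) 3, HasDerivAt g (g' x) x)
    {C : ℝ} (hC' : ∀ x ∈ Ioo (0 : ℝ) 3, |g' x| ≤ C) {h : ℝ} (hh : 0 < h)
    (hh1 : h < 1) (K : ℝ) :
    IntegrableOn (fun x => g' (x + h) - g' (x - h) + K) (Icc (1 : ℝ) 2) ∧
    ∫ x in Icc (1 : ℝ) 2, (g' (x + h) - g' (x - h) + K) ≤ 4 * C * h + K := by
  have hm1 : MonotoneOn (fun x => g' (x + h)) (uIcc (1 : ℝ) 2) := by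
    rw [uIcc_of_le (by norm_num)]
    intro x hx y hy hxy
    exact ConvexL_mono hgc hg (by linarith) (by linarith [hx.1]) (by linarith [hy.2])
  have hm2 : MonotoneOn (fun x => g' (x - h)) (uIcc (1 : ℝ) 2) := by
    rw [uIcc_of_le (by norm_num)]
    intro x hx y hy hxy
    exact ConvexL_mono hgc hg (by linarith) (by linarith [hx.1]) (by linarith [hy.2])
  have hi1 : IntervalIntegrable (fun x => g' (x + h)) volume 1 2 := hm1.intervalIntegrable
  have hi2 : IntervalIntegrable (fun x => g' (x - h)) volume 1 2 := hm2.intervalIntegrable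
  have hi3 : IntervalIntegrable (fun x => g' (x + h) - g' (x - h)) volume 1 2 := hi1.sub hi2
  have hi4 : IntervalIntegrable (fun x => g' (x + h) - g' (x - h) + K) volume 1 2 :=
    hi3.add intervalIntegrable_const
  have s1 : ∫ x in (1 : ℝ)..2, g' (x + h) = g (2 + h) - g (1 + h) := by
    refine intervalIntegral.integral_eq_sub_of_hasDerivAt (f := fun x => g (x + h)) ?_ hi1
    intro x hx
    rw [uIcc_of_le (by norm_num)] at hx
    exact (hg (x + h) ⟨by linarith [hx.1], by linarith [hx.2]⟩).comp_add_const x h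
  have s2 : ∫ x in (1 : ℝ)..2, g' (x - h) = g (2 - h) - g (1 - h) := by
    refine intervalIntegral.integral_eq_sub_of_hasDerivAt (f := fun x => g (x - h)) ?_ hi2
    intro x hx
    rw [uIcc_of_le (by norm_num)] at hx
    exact (hg (x - h) ⟨by linarith [hx.1], by linarith [hx.2]⟩).comp_sub_const x h
  have key : ∀ c : ℝ, 1 ≤ c → c ≤ 2 → |g (c + h) - g (c - h)| ≤ C * (2 * h) := by
    intro c hc1 hc2
    have := norm_image_sub_le_of_norm_deriv_le_segment' (f := g) (f' := g') (C := C)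
      (a := c - h) (b := c + h)
      (fun x hx => (hg x ⟨by linarith [hx.1], by linarith [hx.2]⟩).hasDerivWithinAt)
      (fun x hx => hC' x ⟨by linarith [hx.1], by linarith [hx.2]⟩) (c + h)
      ⟨by linarith, le_refl _⟩
    rw [Real.norm_eq_abs] at this
    calc |g (c + h) - g (c - h)| ≤ C * (c + h - (c - h)) := this
      _ = C * (2 * h) := by ring
  refine ⟨?_, ?_⟩
  · rw [integrableOn_Icc_iff_integrableOn_Ioc, ← intervalIntegrable_iff_integrableOn_Ioc_of_le
      (by norm_num)]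
    exact hi4
  · rw [integral_Icc_eq_integral_Ioc, ← intervalIntegral.integral_of_le (by norm_num),
      intervalIntegral.integral_add hi3 intervalIntegrable_const,
      intervalIntegral.integral_sub hi1 hi2, s1, s2, intervalIntegral.integral_const]
    have k1 := abs_le.1 (key 1 le_rfl (by norm_num))
    have k2 := abs_le.1 (key 2 (by norm_num) le_rfl)
    have : ((2 : ℝ) - 1) • K = K := by
      rw [smul_eq_mul]; ring
    rw [this]
    linarith [k1.1, k2.2]

/-- RANDOM VERSION.  PROOF.  Integrate `convex_deriv_diff` over `ω` and `x ∈ [1,2]`;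
`∫_1^2 (g'(x+h) - g'(x-h)) dx = (g(2+h) - g(2-h)) - (g(1+h) - g(1-h)) ≤ 4 C h`. -/
theorem convex_random {Ω : Type*} [MeasurableSpace Ω] {P : Measure Ω} [IsProbabilityMeasure P]
    {f f' : Ω → ℝ → ℝ} {g g' : ℝ → ℝ} (hfc : ∀ ω, ConvexOn ℝ (Icc 0 3) (f ω))
    (hgc : ConvexOn ℝ (Icc 0 3) g) (hf : ∀ ω, ∀ x ∈ Ioo (0 : ℝ) 3, HasDerivAt (f ω) (f' ω x) x)
    (hg : ∀ x ∈ Ioo (0 : ℝ) 3, HasDerivAt g (g' x) x)
    (hfm : Measurable (fun p : Ω × ℝ => f p.1 p.2)) (hfm' : Measurable (fun p : Ω × ℝ => f' p.1 p.2))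
    {C : ℝ} (hC : ∀ ω, ∀ x ∈ Ioo (0 : ℝ) 3, |f' ω x| ≤ C) (hC' : ∀ x ∈ Ioo (0 : ℝ) 3, |g' x| ≤ C)
    (hfi : ∀ x ∈ Ioo (0 : ℝ) 3, Integrable (fun ω => f ω x) P)
    {ε : ℝ} (hε : ∀ x ∈ Ioo (0 : ℝ) 3, ∫ ω, |f ω x - g x| ∂P ≤ ε) {h : ℝ} (hh : 0 < h)
    (hh1 : h < 1) :
    ∫ x in Icc (1 : ℝ) 2, ∫ ω, |f' ω x - g' x| ∂P ≤ 4 * C * h + 3 * ε / h := by
  obtain ⟨hI, hB⟩ := ConvexL_int hgc hg hC' hh hh1 (3 * ε / h)
  refine le_trans ?_ hB
  refine integral_mono_of_nonneg (Filter.Eventually.of_forall fun x =>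
    integral_nonneg fun ω => abs_nonneg _) hI ?_
  refine (ae_restrict_iff' measurableSet_Icc).2 (Filter.Eventually.of_forall fun x hx => ?_)
  have i1 : Integrable (fun ω => |f ω (x + h) - g (x + h)|) P :=
    ((hfi (x + h) ⟨by linarith [hx.1], by linarith [hx.2]⟩).sub (integrable_const _)).abs
  have i2 : Integrable (fun ω => |f ω (x - h) - g (x - h)|) P :=
    ((hfi (x - h) ⟨by linarith [hx.1], by linarith [hx.2]⟩).sub (integrable_const _)).abs
  have i3 : Integrable (fun ω => |f ω x - g x|) P :=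
    ((hfi x ⟨by linarith [hx.1], by linarith [hx.2]⟩).sub (integrable_const _)).abs
  have i12 : Integrable (fun ω => |f ω (x + h) - g (x + h)| + |f ω (x - h) - g (x - h)|) P :=
    i1.add i2
  have i4 : Integrable (fun ω => (|f ω (x + h) - g (x + h)| + |f ω (x - h) - g (x - h)| +
      |f ω x - g x|) / h) P := (i12.add i3).div_const h
  have i5 : Integrable (fun ω => g' (x + h) - g' (x - h) +
      (|f ω (x + h) - g (x + h)| + |f ω (x - h) - g (x - h)| + |f ω x - g x|) / h) P :=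
    (integrable_const _).add i4
  have e1 := hε (x + h) ⟨by linarith [hx.1], by linarith [hx.2]⟩
  have e2 := hε (x - h) ⟨by linarith [hx.1], by linarith [hx.2]⟩
  have e3 := hε x ⟨by linarith [hx.1], by linarith [hx.2]⟩
  show ∫ ω, |f' ω x - g' x| ∂P ≤ g' (x + h) - g' (x - h) + 3 * ε / h
  calc ∫ ω, |f' ω x - g' x| ∂P
      ≤ ∫ ω, (g' (x + h) - g' (x - h) +
      (|f ω (x + h) - g (x + h)| + |f ω (x - h) - g (x - h)| + |f ω x - g x|) / h) ∂P := by
        refine integral_mono_of_nonneg (Filter.Eventually.of_forall fun ω => abs_nonneg _) i5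
          (Filter.Eventually.of_forall fun ω => ?_)
        exact convex_deriv_diff (hfc ω) hgc (hf ω) hg hh (by linarith [hx.1])
          (by linarith [hx.2])
    _ = g' (x + h) - g' (x - h) +
      (∫ ω, |f ω (x + h) - g (x + h)| ∂P + ∫ ω, |f ω (x - h) - g (x - h)| ∂P +
        ∫ ω, |f ω x - g x| ∂P) / h := by
        rw [integral_add (integrable_const _) i4, integral_div, integral_add i12 i3,
          integral_add i1 i2, integral_const]
        simp
    _ ≤ g' (x + h) - g' (x - h) + 3 * ε / h := by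
        have : (∫ ω, |f ω (x + h) - g (x + h)| ∂P + ∫ ω, |f ω (x - h) - g (x - h)| ∂P +
          ∫ ω, |f ω x - g x| ∂P) / h ≤ 3 * ε / h :=
          div_le_div_of_nonneg_right (by linarith) hh.le
        linarith

/-- deterministic version (`Ω = Unit`) -/
theorem convex_two {f f' g g' : ℝ → ℝ} (hfc : ConvexOn ℝ (Icc 0 3) f)
    (hgc : ConvexOn ℝ (Icc 0 3) g) (hf : ∀ x ∈ Ioo (0 : ℝ) 3, HasDerivAt f (f' x) x)
    (hg : ∀ x ∈ Ioo (0 : ℝ) 3, HasDerivAt g (g' x) x) (hfm' : Measurable f') (hgm' : Measurable g')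
    {C : ℝ} (hC : ∀ x ∈ Ioo (0 : ℝ) 3, |f' x| ≤ C) (hC' : ∀ x ∈ Ioo (0 : ℝ) 3, |g' x| ≤ C)
    {ε : ℝ} (hε : ∀ x ∈ Ioo (0 : ℝ) 3, |f x - g x| ≤ ε) {h : ℝ} (hh : 0 < h) (hh1 : h < 1) :
    ∫ x in Icc (1 : ℝ) 2, |f' x - g' x| ≤ 4 * C * h + 3 * ε / h := by
  obtain ⟨hI, hB⟩ := ConvexL_int hgc hg hC' hh hh1 (3 * ε / h)
  refine le_trans ?_ hB
  refine integral_mono_of_nonneg (Filter.Eventually.of_forall fun x => abs_nonneg _) hI ?_
  refine (ae_restrict_iff' measurableSet_Icc).2 (Filter.Eventually.of_forall fun x hx => ?_)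
  have e1 := hε (x + h) ⟨by linarith [hx.1], by linarith [hx.2]⟩
  have e2 := hε (x - h) ⟨by linarith [hx.1], by linarith [hx.2]⟩
  have e3 := hε x ⟨by linarith [hx.1], by linarith [hx.2]⟩
  have k := convex_deriv_diff hfc hgc hf hg hh (x := x) (by linarith [hx.1]) (by linarith [hx.2])
  have : (|f (x + h) - g (x + h)| + |f (x - h) - g (x - h)| + |f x - g x|) / h ≤ 3 * ε / h :=
    div_le_div_of_nonneg_right (by linarith) hh.le
  show |f' x - g' x| ≤ g' (x + h) - g' (x - h) + 3 * ε / h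
  linarith

end Crest.Agent.RI
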