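import Crest.Agent.RI.CavD

/-!
# Row 164, Part 9: bounds for the unperturbed functional
-/

set_option autoImplicit false

namespace Crest.Agent.RI

open MeasureTheory ProbabilityTheory

variable {N K J k : ℕ}

private theorem LBLinC_const {E : Type} [MeasurableSpace E] {m : Measure E}
    [IsProbabilityMeasure m] {ζ : ℕ → ℝ} (n i : ℕ) (c : ℝ) :
    nest m ζ n i (fun _ => c) = c := by
  induction n generalizing i with
  | zero => rfl
  | succ n ih =>
    show TT m (ζ i) (fun e => nest m ζ n (i + 1) (fun _ => c)) = c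
    simp only [ih]
    unfold TT
    split_ifs with h
    · simp
    · simp only [integral_const, probReal_univ, one_smul, Real.log_exp]
      rw [← mul_assoc, inv_mul_cancel₀ h, one_mul]

private theorem LBLinC_HN (D : Blk) (L : LBd J) (s : ℝ) (κ : Fin N → Fin D.K)
    (lab : Fin N → Fin J) (ω : Fin (k + 1) → EN N) :
    HN k (θL D L k s 0 κ lab) ω = (1 / 2) * ∑ a : Fin N, D.d (κ a) * yv k ω a ^ 2 +
      ∑ j, L.c j * TJ lab j (cfg k ω) -
      (L.kap / (N : ℝ)) * ∑ j, (TJ lab j (cfg k ω) - L.γ j * L.m j * (N : ℝ)) ^ 2 := by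
  unfold HN θL BL cfg
  simp only [Pi.zero_apply, mul_zero, add_zero, zero_mul, Finset.sum_const_zero, ite_self,
    dite_eq_ite]
  ring

private theorem LBLinC_quad (D : Blk) (κ : Fin N → Fin D.K) (ω : Fin (k + 1) → EN N) :
    |(1 / 2) * ∑ a : Fin N, D.d (κ a) * yv k ω a ^ 2| ≤ (∑ l, |D.d l|) * N := by
  have h0 : 0 ≤ ∑ l, |D.d l| := Finset.sum_nonneg fun _ _ => abs_nonneg _
  have h1 : |∑ a : Fin N, D.d (κ a) * yv k ω a ^ 2| ≤ (∑ l, |D.d l|) * N := by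
    rw [← sum_yv_sq k ω, Finset.mul_sum]
    refine (Finset.abs_sum_le_sum_abs _ _).trans (Finset.sum_le_sum fun a _ => ?_)
    rw [abs_mul, abs_of_nonneg (sq_nonneg (yv k ω a))]
    exact mul_le_mul_of_nonneg_right
      (Finset.single_le_sum (f := fun l => |D.d l|) (fun _ _ => abs_nonneg _)
        (Finset.mem_univ (κ a))) (sq_nonneg _)
  rw [abs_mul, abs_of_pos (by norm_num : (0 : ℝ) < 1 / 2)]
  have := abs_nonneg (∑ a : Fin N, D.d (κ a) * yv k ω a ^ 2)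
  linarith

private theorem LBLinC_lin (L : LBd J) (lab : Fin N → Fin J) (σ : Fin N → Bool) :
    |∑ j, L.c j * TJ lab j σ| ≤ (∑ j, |L.c j|) * N := by
  rw [Finset.sum_mul]
  refine (Finset.abs_sum_le_sum_abs _ _).trans (Finset.sum_le_sum fun j _ => ?_)
  rw [abs_mul]
  exact mul_le_mul_of_nonneg_left (TJ_abs lab j σ) (abs_nonneg _)

private theorem LBLinC_pen (L : LBd J) (hN : 0 < N) (h0 : 0 ≤ L.kap)
    (hgm : ∀ j, |L.γ j * L.m j| ≤ 1) (lab : Fin N → Fin J) (σ : Fin N → Bool) :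
    (L.kap / (N : ℝ)) * ∑ j, (TJ lab j σ - L.γ j * L.m j * (N : ℝ)) ^ 2 ≤
      4 * J * L.kap * N := by
  have hN' : (0 : ℝ) < N := by exact_mod_cast hN
  have h1 : ∑ j, (TJ lab j σ - L.γ j * L.m j * (N : ℝ)) ^ 2 ≤ ∑ _j : Fin J, (2 * (N : ℝ)) ^ 2 := by
    refine Finset.sum_le_sum fun j _ => ?_
    have h2 : |TJ lab j σ - L.γ j * L.m j * (N : ℝ)| ≤ 2 * N := by
      have h3 := TJ_abs lab j σ
      have h4 : |L.γ j * L.m j * (N : ℝ)| ≤ N := by
        rw [abs_mul, abs_of_pos hN']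
        exact mul_le_of_le_one_left hN'.le (hgm j)
      have := abs_sub (TJ lab j σ) (L.γ j * L.m j * (N : ℝ))
      linarith
    rw [← sq_abs]
    exact pow_le_pow_left₀ (abs_nonneg _) h2 2
  rw [Finset.sum_const, Finset.card_univ, Fintype.card_fin, nsmul_eq_mul] at h1
  calc (L.kap / (N : ℝ)) * ∑ j, (TJ lab j σ - L.γ j * L.m j * (N : ℝ)) ^ 2
      ≤ (L.kap / (N : ℝ)) * ((J : ℝ) * (2 * (N : ℝ)) ^ 2) :=
        mul_le_mul_of_nonneg_left h1 (div_nonneg h0 hN'.le)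
    _ = 4 * J * L.kap * N := by
      field_simp
      ring

/-- upper bound, uniform in `kap`.  PROOF: `x = 0`: `H ≤ ½ max|d| N + Σ|c_j| N` (`Σ y_a² = N`), monotonicity of `nest` (`nest_mono`, constants). -/
theorem FL_zero_le (hk : 0 < k) (hN : 0 < N) {P : Measure (ON N)} (hP : HaarO P) (D : Blk)
    (L : LBd J) (h0 : 0 ≤ L.kap) (s : ℝ) (κ : Fin N → Fin D.K) (lab : Fin N → Fin J) :
    FL P D L k s 0 κ lab ≤ ((∑ l, |D.d l|) + ∑ j, |L.c j|) * N := by
  have := prob_mN hP (unifA N)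
  have hd := dom_mN hP (unifA N)
  unfold FL
  rw [← LBLinC_const (m := mN P (unifA N)) (ζ := ζLB k) (k + 1) 0
    (((∑ l, |D.d l|) + ∑ j, |L.c j|) * N)]
  refine nest_mono hd (exps_LB k) (k + 1) 0 (HN_ham k _) (Ham.const hd.nonneg _) fun ω => ?_
  rw [LBLinC_HN]
  have h1 := (abs_le.1 (LBLinC_quad D κ ω)).2
  have h2 := (abs_le.1 (LBLinC_lin L lab (cfg k ω))).2
  have h3 : 0 ≤ (L.kap / (N : ℝ)) * ∑ j, (TJ lab j (cfg k ω) - L.γ j * L.m j * (N : ℝ)) ^ 2 :=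
    mul_nonneg (div_nonneg h0 (Nat.cast_nonneg N)) (Finset.sum_nonneg fun _ _ => sq_nonneg _)
  linarith

/-- two-sided bound.  PROOF: `|B| ≤ (Σ|c_j| + 4 J kap) N`. -/
theorem FL_zero_abs (hk : 0 < k) (hN : 0 < N) {P : Measure (ON N)} (hP : HaarO P) (D : Blk)
    (L : LBd J) (h0 : 0 ≤ L.kap) (hgm : ∀ j, |L.γ j * L.m j| ≤ 1) (s : ℝ)
    (κ : Fin N → Fin D.K) (lab : Fin N → Fin J) :
    |FL P D L k s 0 κ lab| ≤ ((∑ l, |D.d l|) + (∑ j, |L.c j|) + 4 * J * L.kap) * N := by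
  have := prob_mN hP (unifA N)
  have hd := dom_mN hP (unifA N)
  have hN' : (0 : ℝ) < N := by exact_mod_cast hN
  have hk4 : 0 ≤ 4 * (J : ℝ) * L.kap * N := by positivity
  rw [abs_le]
  constructor
  · unfold FL
    rw [← LBLinC_const (m := mN P (unifA N)) (ζ := ζLB k) (k + 1) 0
      (-(((∑ l, |D.d l|) + (∑ j, |L.c j|) + 4 * J * L.kap) * N))]
    refine nest_mono hd (exps_LB k) (k + 1) 0 (Ham.const hd.nonneg _) (HN_ham k _) fun ω => ?_
    rw [LBLinC_HN]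
    have h1 := (abs_le.1 (LBLinC_quad D κ ω)).1
    have h2 := (abs_le.1 (LBLinC_lin L lab (cfg k ω))).1
    have h3 := LBLinC_pen L hN h0 hgm lab (cfg k ω)
    linarith
  · have := FL_zero_le hk hN hP D L h0 s κ lab
    linarith

end Crest.Agent.RI
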