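import Crest.Agent.RI.LBLinB
import Crest.Agent.RI.LBLinC
import Crest.Agent.RI.ConvexL

/-!
# Row 164, Part 9: two systems with close free energies have close direction fields
-/

set_option autoImplicit false

namespace Crest.Agent.RI

open MeasureTheory ProbabilityTheory

variable {N K J k : ℕ}

private theorem CloseAvg_upd {K J k : ℕ} {x : XI k K J → ℝ} (hx : XOK x) (i : XI k K J) {t : ℝ}
    (h0 : 0 ≤ t) (h3 : t ≤ 3) : XOK (Function.update x i t) := by
  intro j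
  by_cases h : j = i
  · subst h
    rw [Function.update_self]
    exact ⟨h0, h3⟩
  · rw [Function.update_of_ne h]
    exact hx j

private theorem CloseAvg_FL (hk : 0 < k) {J : ℕ} {N : ℕ} (hN : 0 < N) {P : Measure (ON N)} (hP : HaarO P) (D : Blk)
    {s : ℝ} (hs : 0 < s) (hs1 : 3 * s ≤ 1) {Km c₀ : ℝ} {L : LBd J} (hL : LOK L Km c₀)
    {x : XI k D.K J → ℝ} (hx : XOK x) (κ : Fin N → Fin D.K) (lab : Fin N → Fin J) :
    |FL P D L k s x κ lab| ≤ (3 * s * ((D.K : ℝ) + J + k * D.K) +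
      ((∑ l, |D.d l|) + J * c₀ + 4 * J * Km)) * N := by
  have h1 := FL_pert hk hN hP D L hs.le hs1 hx κ lab
  have h2 := FL_zero_abs hk hN hP D L hL.k0 hL.gm s κ lab
  have h3 : ∑ j, |L.c j| ≤ J * c₀ := by
    calc ∑ j, |L.c j| ≤ ∑ _j : Fin J, c₀ := Finset.sum_le_sum fun j _ => hL.c j
      _ = J * c₀ := by simp
  have h4 : 4 * (J : ℝ) * L.kap ≤ 4 * J * Km := by
    have : (0 : ℝ) ≤ 4 * J := by positivity
    exact mul_le_mul_of_nonneg_left hL.k1 this
  have hNr : (0 : ℝ) ≤ N := Nat.cast_nonneg N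
  have h5 : |FL P D L k s x κ lab| ≤ |FL P D L k s x κ lab - FL P D L k s 0 κ lab| +
      |FL P D L k s 0 κ lab| := by
    have := abs_add_le (FL P D L k s x κ lab - FL P D L k s 0 κ lab) (FL P D L k s 0 κ lab)
    simpa using this
  have h6 : ((∑ l, |D.d l|) + (∑ j, |L.c j|) + 4 * J * L.kap) * (N : ℝ) ≤
      ((∑ l, |D.d l|) + J * c₀ + 4 * J * Km) * N :=
    mul_le_mul_of_nonneg_right (by linarith) hNr
  calc |FL P D L k s x κ lab| ≤ 3 * s * N * ((D.K : ℝ) + J + k * D.K) +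
        ((∑ l, |D.d l|) + J * c₀ + 4 * J * Km) * N := by linarith
    _ = _ := by ring

/-- one line of the cube -/
private theorem CloseAvg_line (D : Blk) {J k : ℕ} (hk : 0 < k) {s : ℝ} (hs : 0 < s)
    (hs1 : 3 * s ≤ 1) {Km c₀ C CF : ℝ}
    (hCF : CF = 3 * s * ((D.K : ℝ) + J + k * D.K) + ((∑ l, |D.d l|) + J * c₀ + 4 * J * Km))
    {N : ℕ} (hN : 0 < N) {P : Measure (ON N)} {P' : Measure (ON (N + 1))} (hP : HaarO P)
    (hP' : HaarO P') {L : LBd J} (hL : LOK L Km c₀) (κ : Fin N → Fin D.K) (lab : Fin N → Fin J)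
    (κ' : Fin (N + 1) → Fin D.K) (lab' : Fin (N + 1) → Fin J)
    (hC : ∀ x : XI k D.K J → ℝ, XOK x →
      |FL P' D L k s x κ' lab' - FL P D L k s x κ lab| ≤ C) (i : XI k D.K J)
    {x : XI k D.K J → ℝ} (hx : XOK x) :
    ∫ t in Set.Icc (1 : ℝ) 2, |EL P' D L k s (Function.update x i t) κ' lab' (dirV k κ' lab' i) -
      EL P D L k s (Function.update x i t) κ lab (dirV k κ lab i)| ≤
      (2 + 6 * (|C| + |CF|) / s) / Real.sqrt N := by
  have hNr : (0 : ℝ) < N := Nat.cast_pos.2 hN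
  have hN1 : (1 : ℝ) ≤ N := by exact_mod_cast hN
  have hN' : 0 < N + 1 := Nat.succ_pos N
  have hNr' : (0 : ℝ) < ((N + 1 : ℕ) : ℝ) := Nat.cast_pos.2 hN'
  have hsN : 0 < s * (N : ℝ) := mul_pos hs hNr
  have hsN' : 0 < s * ((N + 1 : ℕ) : ℝ) := mul_pos hs hNr'
  set f : ℝ → ℝ := fun t => FL P' D L k s (Function.update x i t) κ' lab' / (s * ((N + 1 : ℕ) : ℝ))
    with hf
  set f' : ℝ → ℝ := fun t => EL P' D L k s (Function.update x i t) κ' lab' (dirV k κ' lab' i)
    with hf'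
  set g : ℝ → ℝ := fun t => FL P D L k s (Function.update x i t) κ lab / (s * (N : ℝ)) with hg
  set g' : ℝ → ℝ := fun t => EL P D L k s (Function.update x i t) κ lab (dirV k κ lab i) with hg'
  have hfc : ConvexOn ℝ (Set.Icc 0 3) f := by
    have h := (FL_convexOn hN' hP' D L s x κ' lab' i).smul (c := (s * ((N + 1 : ℕ) : ℝ))⁻¹)
      (inv_nonneg.2 hsN'.le)
    have h2 := h.subset (Set.subset_univ (Set.Icc (0 : ℝ) 3)) (convex_Icc 0 3)
    refine h2.congr ?_
    intro t _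
    simp only [hf, smul_eq_mul, div_eq_inv_mul]
  have hgc : ConvexOn ℝ (Set.Icc 0 3) g := by
    have h := (FL_convexOn hN hP D L s x κ lab i).smul (c := (s * (N : ℝ))⁻¹)
      (inv_nonneg.2 hsN.le)
    have h2 := h.subset (Set.subset_univ (Set.Icc (0 : ℝ) 3)) (convex_Icc 0 3)
    refine h2.congr ?_
    intro t _
    simp only [hg, smul_eq_mul, div_eq_inv_mul]
  have hfd : ∀ t ∈ Set.Ioo (0 : ℝ) 3, HasDerivAt f (f' t) t := by
    intro t _
    have h := (FL_hasDerivAt hN' hP' D L s x κ' lab' i t).div_const (s * ((N + 1 : ℕ) : ℝ))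
    have e : s * ((N + 1 : ℕ) : ℝ) * EL P' D L k s (Function.update x i t) κ' lab'
        (dirV k κ' lab' i) / (s * ((N + 1 : ℕ) : ℝ)) = f' t := by
      rw [mul_div_cancel_left₀ _ hsN'.ne']
    rw [e] at h
    exact h
  have hgd : ∀ t ∈ Set.Ioo (0 : ℝ) 3, HasDerivAt g (g' t) t := by
    intro t _
    have h := (FL_hasDerivAt hN hP D L s x κ lab i t).div_const (s * (N : ℝ))
    have e : s * (N : ℝ) * EL P D L k s (Function.update x i t) κ lab
        (dirV k κ lab i) / (s * (N : ℝ)) = g' t := by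
      rw [mul_div_cancel_left₀ _ hsN.ne']
    rw [e] at h
    exact h
  have hupd : Measurable (fun t : ℝ => Function.update x i t) := measurable_update x
  have hfm : Measurable f' := by
    have hm : Measurable (Function.uncurry fun (_ : XI k D.K J → ℝ)
        (ω : Fin (k + 1) → EN (N + 1)) => dirV k κ' lab' i ω) :=
      (dirV_ham κ' lab' i).meas.comp measurable_snd
    exact (measurable_ELx hP' D L s κ' lab' hm).comp hupd
  have hgm : Measurable g' := by
    have hm : Measurable (Function.uncurry fun (_ : XI k D.K J → ℝ)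
        (ω : Fin (k + 1) → EN N) => dirV k κ lab i ω) :=
      (dirV_ham κ lab i).meas.comp measurable_snd
    exact (measurable_ELx hP D L s κ lab hm).comp hupd
  have hfb : ∀ t ∈ Set.Ioo (0 : ℝ) 3, |f' t| ≤ 1 := fun t ht =>
    EL_dirV_abs hk hN' hP' D L hs.le hs1 (CloseAvg_upd hx i ht.1.le ht.2.le) κ' lab' i
  have hgb : ∀ t ∈ Set.Ioo (0 : ℝ) 3, |g' t| ≤ 1 := fun t ht =>
    EL_dirV_abs hk hN hP D L hs.le hs1 (CloseAvg_upd hx i ht.1.le ht.2.le) κ lab i
  have hfg : ∀ t ∈ Set.Ioo (0 : ℝ) 3, |f t - g t| ≤ (|C| + |CF|) / (s * N) := by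
    intro t ht
    have hxt := CloseAvg_upd hx i ht.1.le ht.2.le
    have h1 := hC _ hxt
    have h2 := CloseAvg_FL hk hN hP D hs hs1 hL hxt κ lab
    rw [← hCF] at h2
    have hcast : ((N + 1 : ℕ) : ℝ) = (N : ℝ) + 1 := by push_cast; ring
    have e : f t - g t = (FL P' D L k s (Function.update x i t) κ' lab' -
        FL P D L k s (Function.update x i t) κ lab) / (s * ((N : ℝ) + 1)) -
        FL P D L k s (Function.update x i t) κ lab / (s * N * ((N : ℝ) + 1)) := by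
      simp only [hf, hg, hcast]
      have hN1' : (N : ℝ) + 1 ≠ 0 := by positivity
      field_simp
      ring
    have hb1 : |(FL P' D L k s (Function.update x i t) κ' lab' -
        FL P D L k s (Function.update x i t) κ lab) / (s * ((N : ℝ) + 1))| ≤ |C| / (s * N) := by
      rw [abs_div, abs_of_pos (by positivity : (0 : ℝ) < s * ((N : ℝ) + 1))]
      refine (div_le_div_of_nonneg_right (h1.trans (le_abs_self C)) (by positivity)).trans ?_
      exact div_le_div_of_nonneg_left (abs_nonneg C) hsN (by nlinarith)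
    have hb2 : |FL P D L k s (Function.update x i t) κ lab / (s * N * ((N : ℝ) + 1))| ≤
        |CF| / (s * N) := by
      rw [abs_div, abs_of_pos (by positivity : (0 : ℝ) < s * N * ((N : ℝ) + 1)),
        div_le_div_iff₀ (by positivity) hsN]
      have h3 : |FL P D L k s (Function.update x i t) κ lab| ≤ |CF| * N :=
        h2.trans (mul_le_mul_of_nonneg_right (le_abs_self CF) hNr.le)
      have h4 : |CF| * N ≤ |CF| * ((N : ℝ) + 1) :=
        mul_le_mul_of_nonneg_left (by linarith) (abs_nonneg CF)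
      calc |FL P D L k s (Function.update x i t) κ lab| * (s * N)
          ≤ (|CF| * ((N : ℝ) + 1)) * (s * N) :=
            mul_le_mul_of_nonneg_right (h3.trans h4) hsN.le
        _ = |CF| * (s * N * ((N : ℝ) + 1)) := by ring
    rw [e, add_div]
    exact (abs_sub _ _).trans (add_le_add hb1 hb2)
  have hsq : 1 ≤ Real.sqrt N := by
    rw [show (1 : ℝ) = Real.sqrt 1 by simp]
    exact Real.sqrt_le_sqrt hN1
  have hsq0 : 0 < Real.sqrt N := by linarith
  have hh : 0 < 1 / (2 * Real.sqrt N) := by positivity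
  have hh1 : 1 / (2 * Real.sqrt N) < 1 := by
    rw [div_lt_one (by positivity)]
    linarith
  have key := convex_two hfc hgc hfd hgd hfm hgm hfb hgb hfg hh hh1
  refine key.trans (le_of_eq ?_)
  have hss : Real.sqrt N * Real.sqrt N = N := Real.mul_self_sqrt hNr.le
  have hss' : (N : ℝ) = Real.sqrt N ^ 2 := by rw [sq, hss]
  rw [hss']
  rw [Real.sqrt_sq hsq0.le]
  field_simp
  ring

/-- PROOF: `cube_le`, `convex_two` with `f = FL'/(s(N+1))`, `g = FL/(sN)` (`FL_hasDerivAt`, `FL_convexOn`, `EL_dirV_abs`), `|f - g| ≤ (C + C_F)/(sN)` by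
`FL_pert`, `FL_zero_abs`; `h = N^{-1/2}/2`. -/
theorem close_avg (D : Blk) (J k : ℕ) (hk : 0 < k) {s : ℝ} (hs : 0 < s) (hs1 : 3 * s ≤ 1)
    (Km c₀ C : ℝ) {ε : ℝ} (hε : 0 < ε) : ∃ N₀ : ℕ, ∀ N ≥ N₀, 0 < N →
    ∀ (P : Measure (ON N)) (P' : Measure (ON (N + 1))), HaarO P → HaarO P' →
    ∀ (L : LBd J), LOK L Km c₀ → ∀ (κ : Fin N → Fin D.K) (lab : Fin N → Fin J)
      (κ' : Fin (N + 1) → Fin D.K) (lab' : Fin (N + 1) → Fin J),
    (∀ x : XI k D.K J → ℝ, XOK x →
      |FL P' D L k s x κ' lab' - FL P D L k s x κ lab| ≤ C) → ∀ i : XI k D.K J,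
    ∫ x, |EL P' D L k s x κ' lab' (dirV k κ' lab' i) - EL P D L k s x κ lab (dirV k κ lab i)|
      ∂(cubeM k D.K J) ≤ ε := by
  obtain ⟨CF, hCF⟩ : ∃ CF : ℝ, CF = 3 * s * ((D.K : ℝ) + J + k * D.K) +
    ((∑ l, |D.d l|) + J * c₀ + 4 * J * Km) := ⟨_, rfl⟩
  obtain ⟨A, hA⟩ : ∃ A : ℝ, A = 2 + 6 * (|C| + |CF|) / s := ⟨_, rfl⟩
  have hA0 : 0 < A := by rw [hA]; positivity
  refine ⟨⌈(A / ε) ^ 2⌉₊, ?_⟩
  intro N hN0 hN P P' hP hP' L hL κ lab κ' lab' hC i
  have hN1 : (A / ε) ^ 2 ≤ (N : ℝ) := (Nat.le_ceil _).trans (by exact_mod_cast hN0)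
  have hAe : A / ε ≤ Real.sqrt N := Real.le_sqrt_of_sq_le hN1
  have hsq0 : 0 < Real.sqrt N := lt_of_lt_of_le (div_pos hA0 hε) hAe
  have hfin : A / Real.sqrt N ≤ ε := by
    rw [div_le_iff₀ hsq0]
    rw [div_le_iff₀ hε] at hAe
    linarith
  have hm1 : Measurable (Function.uncurry fun (_ : XI k D.K J → ℝ)
      (ω : Fin (k + 1) → EN (N + 1)) => dirV k κ' lab' i ω) :=
    (dirV_ham κ' lab' i).meas.comp measurable_snd
  have hm2 : Measurable (Function.uncurry fun (_ : XI k D.K J → ℝ)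
      (ω : Fin (k + 1) → EN N) => dirV k κ lab i ω) :=
    (dirV_ham κ lab i).meas.comp measurable_snd
  have hM : Measurable (fun x : XI k D.K J → ℝ => |EL P' D L k s x κ' lab' (dirV k κ' lab' i) -
      EL P D L k s x κ lab (dirV k κ lab i)|) :=
    measurable_abs.comp ((measurable_ELx hP' D L s κ' lab' hm1).sub
      (measurable_ELx hP D L s κ lab hm2))
  refine cube_le hM (B := 2) ?_ i ?_
  · intro x hx
    rw [abs_abs]
    have h1 := EL_dirV_abs hk (Nat.succ_pos N) hP' D L hs.le hs1 hx.xok κ' lab' i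
    have h2 := EL_dirV_abs hk hN hP D L hs.le hs1 hx.xok κ lab i
    have h3 := abs_sub (EL P' D L k s x κ' lab' (dirV k κ' lab' i))
      (EL P D L k s x κ lab (dirV k κ lab i))
    linarith
  · intro x hx
    refine le_trans ?_ hfin
    rw [hA]
    exact CloseAvg_line D hk hs hs1 hCF hN hP hP' hL κ lab κ' lab' hC i hx.xok

end Crest.Agent.RI
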