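import Crest.Agent.RI.CnDefs

/-!
# Row 164, Part 10: algebra of the classes `EG`
-/

set_option autoImplicit false

namespace Crest.Agent.RI.Cn

open MeasureTheory ProbabilityTheory

variable {I : Set ℝ} {F G H : ℝ → ℝ → ℝ} {n m : ℕ}

theorem EG0.congr (h : EG0 I F) (e : ∀ r ∈ I, ∀ x, F r x = G r x) : EG0 I G := by
  refine ⟨h.cont.congr fun p hp => (e p.1 hp.1 p.2).symm, ?_⟩
  obtain ⟨M, hM, hb⟩ := h.gr
  exact ⟨M, hM, fun r hr x => by rw [← e r hr x]; exact hb r hr x⟩

theorem EG0.const (c : ℝ) : EG0 I (fun _ _ => c) := by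
  refine ⟨continuousOn_const, |c|, abs_nonneg _, fun r _ x => ?_⟩
  exact le_mul_of_one_le_right (abs_nonneg _) (Real.one_le_exp (by positivity))

private theorem exp_mono' {M N x : ℝ} (h : M ≤ N) : Real.exp (M * |x|) ≤ Real.exp (N * |x|) :=
  Real.exp_le_exp.2 (mul_le_mul_of_nonneg_right h (abs_nonneg x))

theorem EG0.add (hF : EG0 I F) (hG : EG0 I G) : EG0 I (fun r x => F r x + G r x) := by
  obtain ⟨M, hM, hb⟩ := hF.gr
  obtain ⟨N, hN, hb'⟩ := hG.gr
  refine ⟨hF.cont.add hG.cont, M + N, add_nonneg hM hN, fun r hr x => ?_⟩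
  have e1 : Real.exp (M * |x|) ≤ Real.exp ((M + N) * |x|) := exp_mono' (by linarith)
  have e2 : Real.exp (N * |x|) ≤ Real.exp ((M + N) * |x|) := exp_mono' (by linarith)
  calc |F r x + G r x| ≤ |F r x| + |G r x| := abs_add_le _ _
    _ ≤ M * Real.exp (M * |x|) + N * Real.exp (N * |x|) := add_le_add (hb r hr x) (hb' r hr x)
    _ ≤ M * Real.exp ((M + N) * |x|) + N * Real.exp ((M + N) * |x|) := by gcongr
    _ = (M + N) * Real.exp ((M + N) * |x|) := by ring

theorem EG0.mul (hF : EG0 I F) (hG : EG0 I G) : EG0 I (fun r x => F r x * G r x) := by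
  obtain ⟨M, hM, hb⟩ := hF.gr
  obtain ⟨N, hN, hb'⟩ := hG.gr
  refine ⟨hF.cont.mul hG.cont, M + N + M * N, by positivity, fun r hr x => ?_⟩
  have e1 : Real.exp ((M + N) * |x|) ≤ Real.exp ((M + N + M * N) * |x|) :=
    exp_mono' (by nlinarith [mul_nonneg hM hN])
  rw [abs_mul]
  calc |F r x| * |G r x| ≤ (M * Real.exp (M * |x|)) * (N * Real.exp (N * |x|)) :=
        mul_le_mul (hb r hr x) (hb' r hr x) (abs_nonneg _) (by positivity)
    _ = M * N * Real.exp ((M + N) * |x|) := by rw [add_mul, Real.exp_add]; ring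
    _ ≤ (M + N + M * N) * Real.exp ((M + N + M * N) * |x|) :=
        mul_le_mul (by linarith) e1 (Real.exp_pos _).le (by positivity)

/-- restriction to one parameter value -/
theorem EG0.ce (hF : EG0 I F) {r : ℝ} (hr : r ∈ I) : CE (F r) := by
  refine ⟨?_, ?_⟩
  · rw [← continuousOn_univ]
    exact hF.cont.comp (f := fun x : ℝ => (r, x)) (Continuous.continuousOn (by fun_prop))
      (fun x _ => ⟨hr, Set.mem_univ _⟩)
  · obtain ⟨M, hM, hb⟩ := hF.gr
    exact ⟨M, M, hM, hM, hb r hr⟩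

theorem EG.eg0 (h : EG I n F) : EG0 I F := by
  match n, h with
  | 0, h => exact h
  | 1, h => exact h.1
  | n + 2, h => exact h.1

theorem EG.dx (h : EG I (n + 1) F) : EG I n (DX F) := by
  match n, h with
  | 0, h => exact h.2.2
  | n + 1, h => exact h.2.2.1

theorem EG.dr (h : EG I (n + 2) F) : EG I n (DR F) := h.2.2.2.2

theorem EG.hdx (h : EG I (n + 1) F) {r : ℝ} (hr : r ∈ I) (x : ℝ) :
    HasDerivAt (F r) (DX F r x) x := by
  match n, h with
  | 0, h => exact (h.2.1 r hr x).hasDerivAt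
  | n + 1, h => exact (h.2.1 r hr x).hasDerivAt

theorem EG.hdr (h : EG I (n + 2) F) {r : ℝ} (hr : r ∈ I) (x : ℝ) :
    HasDerivAt (fun s => F s x) (DR F r x) r :=
  (h.2.2.2.1 r hr x).hasDerivAt

theorem CnAlg_down (n : ℕ) : ∀ {F : ℝ → ℝ → ℝ}, EG I (n + 1) F → EG I n F := by
  induction n using Nat.strong_induction_on with
  | _ n ih =>
    intro F h
    match n, ih, h with
    | 0, _, h => exact h.1
    | 1, _, h => exact ⟨h.1, h.2.1, h.2.2.1.1⟩
    | n + 2, ih, h =>
      exact ⟨h.1, h.2.1, ih (n + 1) (by omega) h.2.2.1, h.2.2.2.1, ih n (by omega) h.2.2.2.2⟩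

theorem EG.mono (h : EG I n F) (hm : m ≤ n) : EG I m F := by
  obtain ⟨k, rfl⟩ := Nat.exists_eq_add_of_le hm
  clear hm
  induction k with
  | zero => exact h
  | succ k ih => exact ih (CnAlg_down (m + k) h)

/-- two families which agree on `I × ℝ` have the same derivatives there -/
theorem DX_congr (e : ∀ r ∈ I, ∀ x, F r x = G r x) : ∀ r ∈ I, ∀ x, DX F r x = DX G r x := by
  intro r hr x
  have : F r = G r := funext fun x => e r hr x
  simp only [DX, this]

theorem DR_congr (hI : IsOpen I) (e : ∀ r ∈ I, ∀ x, F r x = G r x) :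
    ∀ r ∈ I, ∀ x, DR F r x = DR G r x := by
  intro r hr x
  refine Filter.EventuallyEq.deriv_eq ?_
  filter_upwards [hI.mem_nhds hr] with s hs
  exact e s hs x

theorem CnAlg_congr (hI : IsOpen I) (n : ℕ) : ∀ {F G : ℝ → ℝ → ℝ}, EG I n F →
    (∀ r ∈ I, ∀ x, F r x = G r x) → EG I n G := by
  induction n using Nat.strong_induction_on with
  | _ n ih =>
    intro F G h e
    have hx : ∀ r ∈ I, F r = G r := fun r hr => funext fun x => e r hr x
    match n, ih, h with
    | 0, _, h => exact EG0.congr h e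
    | 1, _, h =>
      exact ⟨h.1.congr e, fun r hr x => (hx r hr) ▸ h.2.1 r hr x, h.2.2.congr (DX_congr e)⟩
    | n + 2, ih, h =>
      refine ⟨h.1.congr e, fun r hr x => (hx r hr) ▸ h.2.1 r hr x,
        ih (n + 1) (by omega) h.2.2.1 (DX_congr e), fun r hr x => ?_,
        ih n (by omega) h.2.2.2.2 (DR_congr hI e)⟩
      refine (h.2.2.2.1 r hr x).congr_of_eventuallyEq ?_
      filter_upwards [hI.mem_nhds hr] with s hs
      exact (e s hs x).symm

theorem EG.congr (hI : IsOpen I) (h : EG I n F) (e : ∀ r ∈ I, ∀ x, F r x = G r x) : EG I n G :=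
  CnAlg_congr hI n h e

theorem EG.mk1 (hI : IsOpen I) (h0 : EG0 I F)
    (hx : ∀ r ∈ I, ∀ x, HasDerivAt (F r) (G r x) x) (hG : EG0 I G) : EG I 1 F :=
  ⟨h0, fun r hr x => (hx r hr x).differentiableAt,
    hG.congr fun r hr x => (hx r hr x).deriv.symm⟩

theorem EG.mk2 (hI : IsOpen I) (h0 : EG0 I F)
    (hx : ∀ r ∈ I, ∀ x, HasDerivAt (F r) (G r x) x) (hG : EG I (n + 1) G)
    (hr : ∀ r ∈ I, ∀ x, HasDerivAt (fun s => F s x) (H r x) r) (hH : EG I n H) :
    EG I (n + 2) F :=
  ⟨h0, fun r hr x => (hx r hr x).differentiableAt,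
    hG.congr hI fun r hr x => (hx r hr x).deriv.symm,
    fun r hr' x => (hr r hr' x).differentiableAt,
    hH.congr hI fun r hr' x => (hr r hr' x).deriv.symm⟩

theorem EG.const (hI : IsOpen I) (c : ℝ) : EG I n (fun _ _ => c) := by
  induction n using Nat.strong_induction_on generalizing c with
  | _ n ih =>
    match n, ih with
    | 0, _ => exact EG0.const c
    | 1, _ =>
      exact EG.mk1 (G := fun _ _ => 0) hI (EG0.const c) (fun r _ x => hasDerivAt_const x c)
        (EG0.const 0)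
    | n + 2, ih =>
      exact EG.mk2 (G := fun _ _ => 0) (H := fun _ _ => 0) hI (EG0.const c)
        (fun r _ x => hasDerivAt_const x c) (ih (n + 1) (by omega) 0)
        (fun r _ x => hasDerivAt_const r c) (ih n (by omega) 0)

theorem CnAlg_add (hI : IsOpen I) (n : ℕ) : ∀ {F G : ℝ → ℝ → ℝ}, EG I n F → EG I n G →
    EG I n (fun r x => F r x + G r x) := by
  induction n using Nat.strong_induction_on with
  | _ n ih =>
    intro F G hF hG
    match n, ih, hF, hG with
    | 0, _, hF, hG => exact EG0.add hF hG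
    | 1, _, hF, hG =>
      exact EG.mk1 hI (hF.eg0.add hG.eg0) (fun r hr x => (hF.hdx hr x).add (hG.hdx hr x))
        (EG0.add hF.2.2 hG.2.2)
    | n + 2, ih, hF, hG =>
      exact EG.mk2 hI (hF.eg0.add hG.eg0) (fun r hr x => (hF.hdx hr x).add (hG.hdx hr x))
        (ih (n + 1) (by omega) hF.dx hG.dx)
        (fun r hr x => (hF.hdr hr x).add (hG.hdr hr x)) (ih n (by omega) hF.dr hG.dr)

theorem EG.add (hI : IsOpen I) (hF : EG I n F) (hG : EG I n G) :
    EG I n (fun r x => F r x + G r x) :=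
  CnAlg_add hI n hF hG

theorem CnAlg_mul (hI : IsOpen I) (n : ℕ) : ∀ {F G : ℝ → ℝ → ℝ}, EG I n F → EG I n G →
    EG I n (fun r x => F r x * G r x) := by
  induction n using Nat.strong_induction_on with
  | _ n ih =>
    intro F G hF hG
    match n, ih, hF, hG with
    | 0, _, hF, hG => exact EG0.mul hF hG
    | 1, _, hF, hG =>
      exact EG.mk1 hI (hF.eg0.mul hG.eg0) (fun r hr x => (hF.hdx hr x).mul (hG.hdx hr x))
        (EG0.add (EG0.mul hF.2.2 hG.eg0) (EG0.mul hF.eg0 hG.2.2))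
    | n + 2, ih, hF, hG =>
      exact EG.mk2 hI (hF.eg0.mul hG.eg0) (fun r hr x => (hF.hdx hr x).mul (hG.hdx hr x))
        (EG.add hI (ih (n + 1) (by omega) hF.dx (hG.mono (by omega)))
          (ih (n + 1) (by omega) (hF.mono (by omega)) hG.dx))
        (fun r hr x => (hF.hdr hr x).mul (hG.hdr hr x))
        (EG.add hI (ih n (by omega) hF.dr (hG.mono (by omega)))
          (ih n (by omega) (hF.mono (by omega)) hG.dr))

theorem EG.mul (hI : IsOpen I) (hF : EG I n F) (hG : EG I n G) :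
    EG I n (fun r x => F r x * G r x) :=
  CnAlg_mul hI n hF hG

theorem EG.smul (hI : IsOpen I) (c : ℝ) (hF : EG I n F) : EG I n (fun r x => c * F r x) :=
  (EG.const hI c).mul hI hF

theorem EG.sub (hI : IsOpen I) (hF : EG I n F) (hG : EG I n G) :
    EG I n (fun r x => F r x - G r x) :=
  (hF.add hI (hG.smul hI (-1))).congr hI fun r _ x => by ring

end Crest.Agent.RI.Cn
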