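import Crest.Agent.RI.CnBL

/-!
# Row 164, Part 10: the pointwise inequality of the induction step
-/

set_option autoImplicit false

namespace Crest.Agent.RI.Cn

open MeasureTheory ProbabilityTheory

private theorem cnb2_sq {F : ℝ → ℝ} (h : CE F) : CE (fun z => F z ^ 2) := by
  simpa [sq] using h.mul h

private theorem cnb2_inv {A : ℝ → ℝ} (hc : Continuous A)
    (hA : ∃ c C : ℝ, 0 < c ∧ 0 ≤ C ∧ ∀ z, c * Real.exp (-(C * |z|)) ≤ A z) :
    CE (fun z => (A z)⁻¹) := by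
  obtain ⟨c, C, hc0, hC, h⟩ := hA
  have hp : ∀ z, 0 < A z := fun z => lt_of_lt_of_le (by positivity) (h z)
  refine ⟨hc.inv₀ fun z => (hp z).ne', c⁻¹, C, by positivity, hC, fun z => ?_⟩
  rw [abs_of_pos (inv_pos.mpr (hp z))]
  calc (A z)⁻¹ ≤ (c * Real.exp (-(C * |z|)))⁻¹ := by
        apply inv_anti₀ (by positivity) (h z)
    _ = c⁻¹ * Real.exp (C * |z|) := by
        rw [mul_inv, Real.exp_neg, inv_inv]

private theorem cnb2_div {A F : ℝ → ℝ} (hF : CE F) (hA : CE (fun z => (A z)⁻¹)) :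
    CE (fun z => F z / A z) := by
  simpa [div_eq_mul_inv] using hF.mul hA

private theorem cnb2_pt {q f1 f2 c W : ℝ} (h2 : f2 < 0)
    (hW : ∀ e : ℝ, q + e * f1 + e ^ 2 / 4 * f2 ≤ 0) (hq : W = q + c * f1 + c ^ 2 / 4 * f2) :
    (f1 + c / 2 * f2) ^ 2 / (-f2) ≤ -W := by
  have h := hW (-2 * f1 / f2)
  have h2' : f2 ≠ 0 := h2.ne
  have e1 : q + (-2 * f1 / f2) * f1 + (-2 * f1 / f2) ^ 2 / 4 * f2 = q - f1 ^ 2 / f2 := by
    field_simp
    ring
  have e2 : (f1 + c / 2 * f2) ^ 2 / (-f2) = -(f1 ^ 2 / f2) - c * f1 - c ^ 2 / 4 * f2 := by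
    field_simp
    ring
  rw [e1] at h
  rw [e2, hq]
  linarith

private theorem cnb2_ee_le {ζ v x : ℝ} (hv : 0 < v) {u F G : ℝ → ℝ} (hu : LG u) (hF : CE F)
    (hG : CE G) (h : ∫ z, F z * rho ζ v x u z ≤ ∫ z, G z * rho ζ v x u z) :
    ee ζ v u F x ≤ ee ζ v u G x := by
  unfold ee
  refine div_le_div_of_nonneg_right ?_ (nn_one_pos hu ζ v x).le
  rw [nn_eq_rho hv hu hF, nn_eq_rho hv hu hG]
  exact mul_le_mul_of_nonneg_left h (by positivity)

private theorem cnb2_int_of_ee {ζ v x : ℝ} (hv : 0 < v) {u F : ℝ → ℝ} (hu : LG u) (hF : CE F)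
    (h : ee ζ v u F x = 0) : ∫ z, F z * rho ζ v x u z = 0 := by
  unfold ee at h
  have h1 := (nn_one_pos hu ζ v x).ne'
  rw [div_eq_zero_iff] at h
  have h2 := h.resolve_right h1
  rw [nn_eq_rho hv hu hF] at h2
  rcases mul_eq_zero.mp h2 with h3 | h3
  · exfalso
    have : 0 < (Real.sqrt (2 * Real.pi * v))⁻¹ := by positivity
    linarith
  · exact h3

private theorem cnb2_ee_pos {ζ v x : ℝ} {u F : ℝ → ℝ} (hu : LG u) (hF : CE F)
    (h : ∀ z, 0 < F z) : 0 < ee ζ v u F x := by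
  unfold ee
  refine div_pos ?_ (nn_one_pos hu ζ v x)
  unfold nn
  have hp : ∀ g, 0 < F (x + Real.sqrt v * g) * Real.exp (ζ * u (x + Real.sqrt v * g)) :=
    fun g => mul_pos (h _) (Real.exp_pos _)
  rw [integral_pos_iff_support_of_nonneg (fun g => (hp g).le) (ce_tilt hu hF ζ v x).int]
  have : Function.support (fun g => F (x + Real.sqrt v * g) *
      Real.exp (ζ * u (x + Real.sqrt v * g))) = Set.univ := by
    exact Set.eq_univ_of_forall fun g => (hp g).ne'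
  rw [this]
  simp

/-- one-variable form of the step (all functions at a fixed parameter) -/
theorem step_one {ζ v : ℝ} (hζ : 0 ≤ ζ) (hv : 0 < v) {u u1 A A1 A2 R R1 R2 RR : ℝ → ℝ}
    (hu : LG u) (du : ∀ z, HasDerivAt u (u1 z) z) (du1 : ∀ z, HasDerivAt u1 (A z) z)
    (dA : ∀ z, HasDerivAt A (A1 z) z) (dA1 : ∀ z, HasDerivAt A1 (A2 z) z)
    (dR : ∀ z, HasDerivAt R (R1 z) z) (dR1 : ∀ z, HasDerivAt R1 (R2 z) z)
    (hb : ∃ M : ℝ, ∀ z, |u1 z| ≤ M) (cA : CE A) (cA1 : CE A1) (cA2 : CE A2)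
    (cR : CE R) (cR1 : CE R1) (cR2 : CE R2) (cRR : CE RR)
    (hA : ∃ c C : ℝ, 0 < c ∧ 0 ≤ C ∧ ∀ z, c * Real.exp (-(C * |z|)) ≤ A z)
    (hk : ∀ z, A2 z - A1 z ^ 2 / A z + 2 * ζ * A z ^ 2 < 0)
    (hW : ∀ z e : ℝ, (RR z - R1 z ^ 2 / A z) + e * (R2 z - R1 z * A1 z / A z) +
      e ^ 2 / 4 * (A2 z - A1 z ^ 2 / A z + 2 * ζ * A z ^ 2) ≤ 0)
    (c x : ℝ) :
    (ee ζ v u (fun z => RR z + 2 * c * (1 / 2 * R2 z + ζ * (u1 z * R1 z)) +
        c ^ 2 * (1 / 2 * (1 / 2 * (A2 z + ζ * (2 * (A z ^ 2 + u1 z * A1 z)))) +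
          ζ * (u1 z * (1 / 2 * (A1 z + ζ * (2 * (u1 z * A z))))))) x +
      ζ * (ee ζ v u (fun z => (R z + c * (1 / 2 * (A z + ζ * u1 z ^ 2))) ^ 2) x -
        ee ζ v u (fun z => R z + c * (1 / 2 * (A z + ζ * u1 z ^ 2))) x ^ 2)) -
      (ee ζ v u (fun z => (R1 z + c * (1 / 2 * (A1 z + ζ * (2 * (u1 z * A z))))) +
          ζ * ((R z + c * (1 / 2 * (A z + ζ * u1 z ^ 2))) * u1 z)) x -
        ζ * (ee ζ v u (fun z => R z + c * (1 / 2 * (A z + ζ * u1 z ^ 2))) x *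
          ee ζ v u u1 x)) ^ 2 /
        (ee ζ v u (fun z => A z + ζ * u1 z ^ 2) x - ζ * ee ζ v u u1 x ^ 2) ≤ 0 := by
  have hApos : ∀ z, 0 < A z := by
    obtain ⟨c0, C, hc0, hC, h⟩ := hA
    exact fun z => lt_of_lt_of_le (by positivity) (h z)
  have cu1 : CE u1 := by
    obtain ⟨M, hM⟩ := hb
    have hcont : Continuous u1 := continuous_iff_continuousAt.2 fun z => (du1 z).continuousAt
    exact CE.of_le hcont (CE.const M) fun z => (hM z).trans (le_abs_self M)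
  have cAi : CE (fun z => (A z)⁻¹) := cnb2_inv cA.cont hA
  -- the functions
  obtain ⟨ph, hph⟩ : ∃ ph : ℝ → ℝ, ph = fun z => R z + c * (1 / 2 * (A z + ζ * u1 z ^ 2)) :=
    ⟨_, rfl⟩
  obtain ⟨px, hpx⟩ : ∃ px : ℝ → ℝ, px = fun z =>
    R1 z + c * (1 / 2 * (A1 z + ζ * (2 * (u1 z * A z)))) := ⟨_, rfl⟩
  obtain ⟨pxx, hpxx⟩ : ∃ pxx : ℝ → ℝ, pxx = fun z =>
    R2 z + c * (1 / 2 * (A2 z + ζ * (2 * (A z ^ 2 + u1 z * A1 z)))) := ⟨_, rfl⟩
  obtain ⟨chi, hchi⟩ : ∃ chi : ℝ → ℝ, chi = fun z =>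
    RR z + 2 * c * (1 / 2 * R2 z + ζ * (u1 z * R1 z)) +
        c ^ 2 * (1 / 2 * (1 / 2 * (A2 z + ζ * (2 * (A z ^ 2 + u1 z * A1 z)))) +
          ζ * (u1 z * (1 / 2 * (A1 z + ζ * (2 * (u1 z * A z)))))) := ⟨_, rfl⟩
  have cph : CE ph := by
    rw [hph]
    exact cR.add (((cA.add ((cnb2_sq cu1).smul ζ)).smul _).smul c)
  have cpx : CE px := by
    rw [hpx]
    exact cR1.add (((cA1.add (((cu1.mul cA).smul 2).smul ζ)).smul _).smul c)
  have cpxx : CE pxx := by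
    rw [hpxx]
    exact cR2.add (((cA2.add ((((cnb2_sq cA).add (cu1.mul cA1)).smul 2).smul ζ)).smul _).smul c)
  have cchi : CE chi := by
    rw [hchi]
    refine (cRR.add (((cR2.smul _).add ((cu1.mul cR1).smul ζ)).smul (2 * c))).add ?_
    refine ((((cA2.add ((((cnb2_sq cA).add (cu1.mul cA1)).smul 2).smul ζ)).smul _).smul _).add
      ((cu1.mul ((cA1.add (((cu1.mul cA).smul 2).smul ζ)).smul _)).smul ζ)).smul _
  have dph : ∀ z, HasDerivAt ph (px z) z := by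
    intro z
    rw [hph, hpx]
    have := (dR z).add ((((dA z).add (((du1 z).pow 2).const_mul ζ)).const_mul (1 / 2)).const_mul c)
    refine this.congr_deriv ?_
    simp only [Nat.cast_ofNat]
    ring
  have dpx : ∀ z, HasDerivAt px (pxx z) z := by
    intro z
    rw [hpx, hpxx]
    have := (dR1 z).add ((((dA1 z).add ((((du1 z).mul (dA z)).const_mul 2).const_mul ζ)).const_mul
      (1 / 2)).const_mul c)
    refine this.congr_deriv ?_
    ring
  have Eadd : ∀ {F G : ℝ → ℝ}, CE F → CE G →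
      ee ζ v u (fun z => F z + G z) x = ee ζ v u F x + ee ζ v u G x :=
    fun hF hG => ee_add hu hF hG ζ v x
  have Esmul : ∀ (a : ℝ) (F : ℝ → ℝ), ee ζ v u (fun z => a * F z) x = a * ee ζ v u F x :=
    fun a F => ee_smul a ζ v x
  have Econst : ∀ a : ℝ, ee ζ v u (fun _ => a) x = a := fun a => ee_const hu a ζ v x
  obtain ⟨m, hm⟩ : ∃ m, m = ee ζ v u ph x := ⟨_, rfl⟩
  obtain ⟨n, hn⟩ : ∃ n, n = ee ζ v u u1 x := ⟨_, rfl⟩
  obtain ⟨s, hs⟩ : ∃ s, s = ee ζ v u (fun z => u1 z ^ 2) x := ⟨_, rfl⟩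
  obtain ⟨a, ha⟩ : ∃ a, a = ee ζ v u A x := ⟨_, rfl⟩
  obtain ⟨w, hw⟩ : ∃ w, w = ee ζ v u (fun z => ph z * u1 z) x := ⟨_, rfl⟩
  obtain ⟨p, hp⟩ : ∃ p, p = ee ζ v u px x := ⟨_, rfl⟩
  obtain ⟨t, ht⟩ : ∃ t, t = ee ζ v u (fun z => ph z ^ 2) x := ⟨_, rfl⟩
  obtain ⟨g, hg⟩ : ∃ g, g = ee ζ v u (fun z => px z ^ 2 / A z) x := ⟨_, rfl⟩
  obtain ⟨k, hkk⟩ : ∃ k, k = ee ζ v u chi x := ⟨_, rfl⟩
  have cG : CE (fun z => px z ^ 2 / A z) := cnb2_div (cnb2_sq cpx) cAi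
  have e1 : ee ζ v u (fun z => A z + ζ * u1 z ^ 2) x = a + ζ * s := by
    rw [Eadd cA ((cnb2_sq cu1).smul ζ), Esmul, ha, hs]
  have e2 : ee ζ v u (fun z => px z + ζ * (ph z * u1 z)) x = p + ζ * w := by
    rw [Eadd cpx ((cph.mul cu1).smul ζ), Esmul ζ (fun z => ph z * u1 z), hp, hw]
  have hapos : 0 < a := by rw [ha]; exact cnb2_ee_pos hu cA hApos
  have hvar : 0 ≤ s - n ^ 2 := by
    have h1 : (0 : ℝ) ≤ ee ζ v u (fun z => u1 z ^ 2 + ((-2 * n) * u1 z + n ^ 2)) x := by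
      have := ee_mono (ζ := ζ) (v := v) (x := x) hu (CE.const 0)
        ((cnb2_sq cu1).add ((cu1.smul (-2 * n)).add (CE.const (n ^ 2))))
        (fun z => by nlinarith [sq_nonneg (u1 z - n)])
      rwa [Econst] at this
    rw [Eadd (cnb2_sq cu1) ((cu1.smul (-2 * n)).add (CE.const (n ^ 2))),
      Eadd (cu1.smul (-2 * n)) (CE.const (n ^ 2)), Esmul, Econst, ← hs, ← hn] at h1
    nlinarith
  have hD : 0 < a + ζ * s - ζ * n ^ 2 := by nlinarith [mul_nonneg hζ hvar]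
  have goal' : (k + ζ * (t - m ^ 2)) - (p + ζ * w - ζ * (m * n)) ^ 2 /
      (a + ζ * s - ζ * n ^ 2) ≤ 0 := by
    obtain ⟨D, hDD⟩ : ∃ D, D = a + ζ * s - ζ * n ^ 2 := ⟨_, rfl⟩
    obtain ⟨L, hL⟩ : ∃ L, L = (p + ζ * w - ζ * (m * n)) / D := ⟨_, rfl⟩
    have hD' : D ≠ 0 := by rw [hDD]; exact hD.ne'
    have hLD : L * D = p + ζ * w - ζ * (m * n) := by rw [hL]; field_simp
    -- the test function
    obtain ⟨h, hh⟩ : ∃ h : ℝ → ℝ, h = fun z => ph z - m - L * (u1 z - n) := ⟨_, rfl⟩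
    obtain ⟨h1, hh1⟩ : ∃ h1 : ℝ → ℝ, h1 = fun z => px z - L * A z := ⟨_, rfl⟩
    obtain ⟨h2, hh2⟩ : ∃ h2 : ℝ → ℝ, h2 = fun z => pxx z - L * A1 z := ⟨_, rfl⟩
    have ch : CE h := by
      rw [hh]; exact (cph.sub (CE.const m)).sub ((cu1.sub (CE.const n)).smul L)
    have ch1 : CE h1 := by rw [hh1]; exact cpx.sub (cA.smul L)
    have ch2 : CE h2 := by rw [hh2]; exact cpxx.sub (cA1.smul L)
    have dh : ∀ z, HasDerivAt h (h1 z) z := by
      intro z
      rw [hh, hh1]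
      have := ((dph z).sub_const m).sub (((du1 z).sub_const n).const_mul L)
      exact this
    have dh1 : ∀ z, HasDerivAt h1 (h2 z) z := by
      intro z
      rw [hh1, hh2]
      exact (dpx z).sub ((dA z).const_mul L)
    have hm0 : ∫ z, h z * rho ζ v x u z = 0 := by
      refine cnb2_int_of_ee hv hu ch ?_
      have e : h = fun z => ph z + (((-L) * u1 z) + (L * n - m)) := by
        rw [hh]; funext z; ring
      rw [e, Eadd cph ((cu1.smul (-L)).add (CE.const _)), Eadd (cu1.smul (-L)) (CE.const _),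
        Esmul, Econst, ← hm, ← hn]
      ring
    have hm1 : ∫ z, (h1 z + ζ * (u1 z * h z)) * rho ζ v x u z = 0 := by
      refine cnb2_int_of_ee hv hu (ch1.add ((cu1.mul ch).smul ζ)) ?_
      have e : (fun z => h1 z + ζ * (u1 z * h z)) = fun z => px z + ((-L) * A z +
          (ζ * (ph z * u1 z) + ((-ζ * L) * u1 z ^ 2 + (ζ * (L * n - m)) * u1 z))) := by
        rw [hh, hh1]; funext z; ring
      rw [e, Eadd cpx ((cA.smul (-L)).add (((cph.mul cu1).smul ζ).add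
          (((cnb2_sq cu1).smul _).add (cu1.smul _)))),
        Eadd (cA.smul (-L)) (((cph.mul cu1).smul ζ).add
          (((cnb2_sq cu1).smul _).add (cu1.smul _))),
        Eadd ((cph.mul cu1).smul ζ) (((cnb2_sq cu1).smul _).add (cu1.smul _)),
        Eadd ((cnb2_sq cu1).smul _) (cu1.smul _), Esmul, Esmul ζ (fun z => ph z * u1 z),
        Esmul (-ζ * L) (fun z => u1 z ^ 2), Esmul, ← hn, ← hs, ← ha, ← hw, ← hp]
      rw [hDD] at hLD
      linear_combination -hLD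
    -- pointwise inequality
    have cW : CE (fun z => chi z - px z ^ 2 / A z) := cchi.sub cG
    have hpt : ∀ z, (h2 z - h1 z * A1 z / A z) ^ 2 /
        (-(A2 z - A1 z ^ 2 / A z + 2 * ζ * A z ^ 2)) ≤ -(chi z - px z ^ 2 / A z) := by
      intro z
      have hA0 : A z ≠ 0 := (hApos z).ne'
      have e3 : h2 z - h1 z * A1 z / A z = (R2 z - R1 z * A1 z / A z) +
          c / 2 * (A2 z - A1 z ^ 2 / A z + 2 * ζ * A z ^ 2) := by
        rw [hh2, hh1, hpxx, hpx]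
        field_simp
        ring
      rw [e3]
      refine cnb2_pt (q := RR z - R1 z ^ 2 / A z) (hk z) (hW z) ?_
      rw [hchi, hpx]
      field_simp
      ring
    have hnn : ∀ z, 0 ≤ (h2 z - h1 z * A1 z / A z) ^ 2 /
        (-(A2 z - A1 z ^ 2 / A z + 2 * ζ * A z ^ 2)) := fun z =>
      div_nonneg (sq_nonneg _) (by linarith [hk z])
    have hcont : Continuous fun z => (h2 z - h1 z * A1 z / A z) ^ 2 /
        (-(A2 z - A1 z ^ 2 / A z + 2 * ζ * A z ^ 2)) := by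
      have hA0 : ∀ z, A z ≠ 0 := fun z => (hApos z).ne'
      refine Continuous.div ?_ ?_ fun z => by
        have := hk z
        intro h0
        linarith
      · exact (ch2.cont.sub ((ch1.cont.mul cA1.cont).div cA.cont hA0)).pow 2
      · exact ((cA2.cont.sub ((cA1.cont.pow 2).div cA.cont hA0)).add
          (continuous_const.mul (cA.cont.pow 2))).neg
    have hrhoc : Continuous (rho ζ v x u) := by
      unfold rho
      have : Continuous u := continuous_iff_continuousAt.2 fun z => (du z).continuousAt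
      fun_prop
    have hint : Integrable (fun z => (h2 z - h1 z * A1 z / A z) ^ 2 /
        (-(A2 z - A1 z ^ 2 / A z + 2 * ζ * A z ^ 2)) * rho ζ v x u z) := by
      refine Integrable.mono' (rho_int (ζ := ζ) (x := x) hv hu cW.neg) ?_ ?_
      · exact (hcont.mul hrhoc).aestronglyMeasurable
      · refine Filter.Eventually.of_forall fun z => ?_
        have hr : 0 < rho ζ v x u z := Real.exp_pos _
        rw [Real.norm_of_nonneg (mul_nonneg (hnn z) hr.le)]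
        exact mul_le_mul_of_nonneg_right (hpt z) hr.le
    have hBL := BL (x := x) hζ hv hu du du1 dA dA1 dh dh1 hb cA cA1 cA2 ch ch1 ch2 hA hk hm0 hm1 hint
    have cF : CE (fun z => h1 z ^ 2 / A z + ζ * h z ^ 2) :=
      (cnb2_div (cnb2_sq ch1) cAi).add ((cnb2_sq ch).smul ζ)
    have hle : ee ζ v u (fun z => h1 z ^ 2 / A z + ζ * h z ^ 2) x ≤
        ee ζ v u (fun z => -(chi z - px z ^ 2 / A z)) x := by
      refine cnb2_ee_le hv hu cF cW.neg (hBL.trans ?_)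
      refine integral_mono hint (rho_int hv hu cW.neg) fun z => ?_
      have hr : 0 < rho ζ v x u z := Real.exp_pos _
      exact mul_le_mul_of_nonneg_right (hpt z) hr.le
    have e4 : ee ζ v u (fun z => -(chi z - px z ^ 2 / A z)) x = g - k := by
      have e : (fun z => -(chi z - px z ^ 2 / A z)) = fun z => px z ^ 2 / A z + (-1) * chi z := by
        funext z; ring
      rw [e, Eadd cG (cchi.smul (-1)), Esmul, ← hg, ← hkk]
      ring
    obtain ⟨b, hbb⟩ : ∃ b, b = m - L * n := ⟨_, rfl⟩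
    have e5 : ee ζ v u (fun z => h1 z ^ 2 / A z + ζ * h z ^ 2) x =
        g + ((-2 * L) * p + (L ^ 2 * a + (ζ * t + ((ζ * L ^ 2) * s +
          ((ζ * b ^ 2) + ((-2 * ζ * L) * w + ((-2 * ζ * b) * m + (2 * ζ * L * b) * n))))))) := by
      have e : (fun z => h1 z ^ 2 / A z + ζ * h z ^ 2) = fun z =>
          px z ^ 2 / A z + ((-2 * L) * px z + (L ^ 2 * A z + (ζ * ph z ^ 2 +
            ((ζ * L ^ 2) * u1 z ^ 2 + ((ζ * b ^ 2) + ((-2 * ζ * L) * (ph z * u1 z) +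
              ((-2 * ζ * b) * ph z + (2 * ζ * L * b) * u1 z))))))) := by
        funext z
        have hA0 : A z ≠ 0 := (hApos z).ne'
        rw [hh, hh1, hbb]
        field_simp
        ring
      have c8 : CE (fun z => (-2 * ζ * b) * ph z + (2 * ζ * L * b) * u1 z) :=
        (cph.smul _).add (cu1.smul _)
      have c7 := ((cph.mul cu1).smul (-2 * ζ * L)).add c8
      have c6 := (CE.const (ζ * b ^ 2)).add c7
      have c5 := ((cnb2_sq cu1).smul (ζ * L ^ 2)).add c6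
      have c4 := ((cnb2_sq cph).smul ζ).add c5
      have c3 := (cA.smul (L ^ 2)).add c4
      have c2 := (cpx.smul (-2 * L)).add c3
      rw [e, Eadd cG c2, Eadd (cpx.smul (-2 * L)) c3, Eadd (cA.smul (L ^ 2)) c4,
        Eadd ((cnb2_sq cph).smul ζ) c5, Eadd ((cnb2_sq cu1).smul (ζ * L ^ 2)) c6,
        Eadd (CE.const (ζ * b ^ 2)) c7, Eadd ((cph.mul cu1).smul (-2 * ζ * L)) c8,
        Eadd (cph.smul _) (cu1.smul _), Esmul (-2 * L) px, Esmul (L ^ 2) A,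
        Esmul ζ (fun z => ph z ^ 2), Esmul (ζ * L ^ 2) (fun z => u1 z ^ 2), Econst,
        Esmul (-2 * ζ * L) (fun z => ph z * u1 z), Esmul (-2 * ζ * b) ph,
        Esmul (2 * ζ * L * b) u1, ← hg, ← hp, ← ha, ← ht, ← hs, ← hw, ← hm, ← hn]
    rw [e4, e5] at hle
    have e6 : (p + ζ * w - ζ * (m * n)) ^ 2 / (a + ζ * s - ζ * n ^ 2) = L ^ 2 * D := by
      rw [← hDD, ← hLD]
      field_simp
    rw [e6]
    rw [hbb] at hle
    have e7 : L * D * L = L * (p + ζ * w - ζ * (m * n)) := by rw [hLD]; ring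
    have e8 : L ^ 2 * D = L ^ 2 * (a + ζ * s - ζ * n ^ 2) := by rw [hDD]
    nlinarith [hle, e7, e8]
  have fin : (ee ζ v u chi x + ζ * (ee ζ v u (fun z => ph z ^ 2) x - ee ζ v u ph x ^ 2)) -
      (ee ζ v u (fun z => px z + ζ * (ph z * u1 z)) x -
        ζ * (ee ζ v u ph x * ee ζ v u u1 x)) ^ 2 /
      (ee ζ v u (fun z => A z + ζ * u1 z ^ 2) x - ζ * ee ζ v u u1 x ^ 2) ≤ 0 := by
    rw [e1, e2, ← hkk, ← ht, ← hm, ← hn]
    exact goal'
  rw [hchi, hpx, hph] at fin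
  exact fin

end Crest.Agent.RI.Cn
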