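import Crest.Agent.RI.CnMills

/-!
# Row 164, Part 10 (THEOREM CONC): the Brascamp-Lieb type inequality (BL)
-/

set_option autoImplicit false

namespace Crest.Agent.RI.Cn

open MeasureTheory ProbabilityTheory
open Crest.ProbabilityR.InvariantGlass

variable {ζ v x : ℝ} {u u1 F : ℝ → ℝ}

/-- total derivatives, in the form `K' = V' K + E` -/
private theorem CnBL_tot (hv : 0 < v) (hu : LG u) (du : ∀ z, HasDerivAt u (u1 z) z) (cu1 : CE u1)
    (cV : CE (fun z => (z - x) / v - ζ * u1 z))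
    {K E : ℝ → ℝ} (dK : ∀ z, HasDerivAt K (((z - x) / v - ζ * u1 z) * K z + E z) z)
    (cK : CE K) (cE : CE E) : ∫ z, E z * rho ζ v x u z = 0 := by
  have h := rho_total (ζ := ζ) (x := x) hv hu du cu1 dK cK ((cV.mul cK).add cE)
  rw [← h]
  congr 1
  funext z
  ring

private theorem CnBL_V (cu1 : CE u1) : CE (fun z => (z - x) / v - ζ * u1 z) := by
  have h := ((CE.id'.sub (CE.const x)).smul v⁻¹).sub (cu1.smul ζ)
  have e : (fun z => (z - x) / v - ζ * u1 z) = fun z => v⁻¹ * (z - x) - ζ * u1 z := by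
    funext z
    rw [div_eq_inv_mul]
  rw [e]
  exact h

set_option maxHeartbeats 1000000 in
/-- (BL) -/
theorem BL (hζ : 0 ≤ ζ) (hv : 0 < v) {A A1 A2 h h1 h2 : ℝ → ℝ}
    (hu : LG u) (du : ∀ z, HasDerivAt u (u1 z) z) (du1 : ∀ z, HasDerivAt u1 (A z) z)
    (dA : ∀ z, HasDerivAt A (A1 z) z) (dA1 : ∀ z, HasDerivAt A1 (A2 z) z)
    (dh : ∀ z, HasDerivAt h (h1 z) z) (dh1 : ∀ z, HasDerivAt h1 (h2 z) z)
    (hb : ∃ M : ℝ, ∀ z, |u1 z| ≤ M) (cA : CE A) (cA1 : CE A1) (cA2 : CE A2)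
    (ch : CE h) (ch1 : CE h1) (ch2 : CE h2)
    (hA : ∃ c C : ℝ, 0 < c ∧ 0 ≤ C ∧ ∀ z, c * Real.exp (-(C * |z|)) ≤ A z)
    (hk : ∀ z, A2 z - A1 z ^ 2 / A z + 2 * ζ * A z ^ 2 < 0)
    (hm0 : ∫ z, h z * rho ζ v x u z = 0)
    (hm1 : ∫ z, (h1 z + ζ * (u1 z * h z)) * rho ζ v x u z = 0)
    (hint : Integrable (fun z => (h2 z - h1 z * A1 z / A z) ^ 2 /
      (-(A2 z - A1 z ^ 2 / A z + 2 * ζ * A z ^ 2)) * rho ζ v x u z)) :
    ∫ z, (h1 z ^ 2 / A z + ζ * h z ^ 2) * rho ζ v x u z ≤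
      ∫ z, (h2 z - h1 z * A1 z / A z) ^ 2 /
        (-(A2 z - A1 z ^ 2 / A z + 2 * ζ * A z ^ 2)) * rho ζ v x u z := by
  -- positivity and the class of `A⁻¹`
  obtain ⟨c, C, hc, hC, hAl⟩ := hA
  have hA0 : ∀ z, 0 < A z := fun z => lt_of_lt_of_le (by positivity) (hAl z)
  have hAne : ∀ z, A z ≠ 0 := fun z => (hA0 z).ne'
  have cI : CE (fun z => (A z)⁻¹) := by
    refine ⟨cA.cont.inv₀ hAne, c⁻¹, C, by positivity, hC, fun z => ?_⟩
    rw [abs_inv, abs_of_pos (hA0 z)]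
    have h3 : (A z)⁻¹ ≤ (c * Real.exp (-(C * |z|)))⁻¹ := inv_anti₀ (by positivity) (hAl z)
    rwa [mul_inv, ← Real.exp_neg, neg_neg] at h3
  obtain ⟨M, hM⟩ := hb
  have cu1 : CE u1 := by
    refine ⟨continuous_iff_continuousAt.2 fun z => (du1 z).continuousAt, M, 0,
      (abs_nonneg _).trans (hM 0), le_refl _, fun z => ?_⟩
    simpa using hM z
  have cV : CE (fun z => (z - x) / v - ζ * u1 z) := CnBL_V cu1
  have dV : ∀ z, HasDerivAt (fun z => (z - x) / v - ζ * u1 z) (1 / v - ζ * A z) z := by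
    intro z
    exact (((hasDerivAt_id z).sub_const x).div_const v).sub ((du1 z).const_mul ζ)
  have dI : ∀ z, HasDerivAt (fun z => (A z)⁻¹) (-A1 z / A z ^ 2) z := fun z => (dA z).inv (hAne z)
  -- the function `G`
  obtain ⟨G, cG, dG⟩ := mills hζ hv hu du cu1 ⟨M, hM⟩ ch hm0
  have hzh : ∫ z, ((z - x) * h z) * rho ζ v x u z = 0 := by
    have h3 := CnBL_tot (ζ := ζ) (x := x) hv hu du cu1 cV (K := h)
      (E := fun z => h1 z - ((z - x) / v - ζ * u1 z) * h z)
      (fun z => by convert dh z using 1; ring) ch (ch1.sub (cV.mul ch))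
    have c1 : CE (fun z => (z - x) * h z) := (CE.id'.sub (CE.const x)).mul ch
    have c2 : CE (fun z => h1 z + ζ * (u1 z * h z)) := ch1.add ((cu1.mul ch).smul ζ)
    have i1 := rho_int (ζ := ζ) (x := x) hv hu c1
    have i2 := rho_int (ζ := ζ) (x := x) hv hu c2
    have e : ∀ z, (h1 z - ((z - x) / v - ζ * u1 z) * h z) * rho ζ v x u z =
        (h1 z + ζ * (u1 z * h z)) * rho ζ v x u z -
          v⁻¹ * (((z - x) * h z) * rho ζ v x u z) := by
      intro z
      field_simp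
      ring
    simp only [e] at h3
    rw [integral_sub i2 (i1.const_mul _), hm1, integral_const_mul, zero_sub, neg_eq_zero,
      mul_eq_zero] at h3
    rcases h3 with h3 | h3
    · exact absurd h3 (inv_ne_zero hv.ne')
    · exact h3
  have hG0 : ∫ z, G z * rho ζ v x u z = 0 := by
    have h3 := CnBL_tot (ζ := ζ) (x := x) hv hu du cu1 cV (K := fun z => (z - x) * G z)
      (E := fun z => G z - (z - x) * h z)
      (fun z => by
        refine (((hasDerivAt_id z).sub_const x).mul (dG z)).congr_deriv ?_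
        simp only [id]
        ring) ((CE.id'.sub (CE.const x)).mul cG)
      (cG.sub ((CE.id'.sub (CE.const x)).mul ch))
    have c1 : CE (fun z => (z - x) * h z) := (CE.id'.sub (CE.const x)).mul ch
    have i1 := rho_int (ζ := ζ) (x := x) hv hu c1
    have i2 := rho_int (ζ := ζ) (x := x) hv hu cG
    have e : ∀ z, (G z - (z - x) * h z) * rho ζ v x u z =
        G z * rho ζ v x u z - ((z - x) * h z) * rho ζ v x u z := by
      intro z
      ring
    simp only [e] at h3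
    rw [integral_sub i2 i1, hzh, sub_zero] at h3
    exact h3
  -- the function `Y`
  have cGv : CE (fun z => -v⁻¹ * G z) := cG.smul _
  have hGv : ∫ z, (-v⁻¹ * G z) * rho ζ v x u z = 0 := by
    have e : ∀ z, (-v⁻¹ * G z) * rho ζ v x u z = -v⁻¹ * (G z * rho ζ v x u z) := by
      intro z; ring
    simp only [e]
    rw [integral_const_mul, hG0, mul_zero]
  obtain ⟨Y, cY, dY⟩ := mills hζ hv hu du cu1 ⟨M, hM⟩ cGv hGv
  -- the function `H`
  set H : ℝ → ℝ := fun z => ((z - x) / v - ζ * u1 z) * G z - h z - Y z with hH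
  have cH : CE H := ((cV.mul cG).sub ch).sub cY
  have dH : ∀ z, HasDerivAt H
      (((z - x) / v - ζ * u1 z) * H z - ζ * A z * G z - h1 z) z := by
    intro z
    have h3 := (((dV z).mul (dG z)).sub (dh z)).sub (dY z)
    refine h3.congr_deriv ?_
    simp only [hH]
    field_simp
    ring
  -- first identity
  have cE1 : CE (fun z => h1 z * h1 z * (A z)⁻¹ + ζ * (h z * h z) -
      (h2 z * (A z)⁻¹ - h1 z * A1 z * ((A z)⁻¹ * (A z)⁻¹)) * H z) :=
    (((ch1.mul ch1).mul cI).add ((ch.mul ch).smul ζ)).sub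
      (((ch2.mul cI).sub ((ch1.mul cA1).mul (cI.mul cI))).mul cH)
  have cK1 : CE (fun z => -(ζ * (h z * G z)) - h1 z * (A z)⁻¹ * H z) :=
    ((ch.mul cG).smul ζ).neg.sub ((ch1.mul cI).mul cH)
  have I1 := CnBL_tot (ζ := ζ) (x := x) hv hu du cu1 cV
    (K := fun z => -(ζ * (h z * G z)) - h1 z * (A z)⁻¹ * H z)
    (E := fun z => h1 z * h1 z * (A z)⁻¹ + ζ * (h z * h z) -
      (h2 z * (A z)⁻¹ - h1 z * A1 z * ((A z)⁻¹ * (A z)⁻¹)) * H z)
    (fun z => by
      have h3 := ((((dh z).mul (dG z)).const_mul ζ).neg).sub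
        (((dh1 z).mul (dI z)).mul (dH z))
      refine h3.congr_deriv ?_
      have hAz := hAne z
      simp only [Pi.mul_apply]
      generalize H z = Hz
      generalize G z = Gz
      generalize h z = hz
      generalize h1 z = h1z
      generalize h2 z = h2z
      generalize u1 z = u1z
      generalize A1 z = A1z
      generalize A z = Az at *
      field_simp
      ring) cK1 cE1
  -- second identity
  have cP1 : CE (fun z => (((z - x) / v - ζ * u1 z) * H z - ζ * (A z * G z) - h1 z) * (A z)⁻¹ -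
      H z * A1 z * ((A z)⁻¹ * (A z)⁻¹)) :=
    ((((cV.mul cH).sub ((cA.mul cG).smul ζ)).sub ch1).mul cI).sub ((cH.mul cA1).mul (cI.mul cI))
  set P1 : ℝ → ℝ := fun z => (((z - x) / v - ζ * u1 z) * H z - ζ * (A z * G z) - h1 z) * (A z)⁻¹ -
      H z * A1 z * ((A z)⁻¹ * (A z)⁻¹) with hP1
  have ckk : CE (fun z => -(A2 z - A1 z * A1 z * (A z)⁻¹ + 2 * ζ * (A z * A z))) :=
    ((cA2.sub ((cA1.mul cA1).mul cI)).add ((cA.mul cA).smul (2 * ζ))).neg
  set kk : ℝ → ℝ := fun z => -(A2 z - A1 z * A1 z * (A z)⁻¹ + 2 * ζ * (A z * A z)) with hkk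
  have kkpos : ∀ z, 0 < kk z := by
    intro z
    have h3 := hk z
    have e : A1 z ^ 2 / A z = A1 z * A1 z * (A z)⁻¹ := by rw [div_eq_mul_inv, sq]
    rw [e] at h3
    simp only [hkk]
    nlinarith
  have cD : CE (fun z => A z * (P1 z * P1 z) +
      ((kk z * (A z)⁻¹ + v⁻¹) * (H z * H z * (A z)⁻¹) + ζ * (Y z * Y z + v⁻¹ * (G z * G z)))) :=
    (cA.mul (cP1.mul cP1)).add
      ((((ckk.mul cI).add (CE.const _)).mul ((cH.mul cH).mul cI)).add
        (((cY.mul cY).add ((cG.mul cG).smul _)).smul ζ))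
  have cB : CE (fun z => h1 z * h1 z * (A z)⁻¹ + ζ * (h z * h z)) :=
    ((ch1.mul ch1).mul cI).add ((ch.mul ch).smul ζ)
  have cK2 : CE (fun z => -(ζ * (h z * G z)) + ζ * (G z * H z) +
      (A1 z * (A z)⁻¹ - ((z - x) / v - ζ * u1 z)) * (H z * H z * (A z)⁻¹) - ζ * (G z * Y z)) :=
    ((((ch.mul cG).smul ζ).neg.add ((cG.mul cH).smul ζ)).add
      (((cA1.mul cI).sub cV).mul ((cH.mul cH).mul cI))).sub ((cG.mul cY).smul ζ)
  have I2 := CnBL_tot (ζ := ζ) (x := x) hv hu du cu1 cV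
    (K := fun z => -(ζ * (h z * G z)) + ζ * (G z * H z) +
      (A1 z * (A z)⁻¹ - ((z - x) / v - ζ * u1 z)) * (H z * H z * (A z)⁻¹) - ζ * (G z * Y z))
    (E := fun z => (h1 z * h1 z * (A z)⁻¹ + ζ * (h z * h z)) - (A z * (P1 z * P1 z) +
      ((kk z * (A z)⁻¹ + v⁻¹) * (H z * H z * (A z)⁻¹) + ζ * (Y z * Y z + v⁻¹ * (G z * G z)))))
    (fun z => by
      have h3 := ((((((dh z).mul (dG z)).const_mul ζ).neg).add
        (((dG z).mul (dH z)).const_mul ζ)).add
        ((((dA1 z).mul (dI z)).sub (dV z)).mul (((dH z).mul (dH z)).mul (dI z)))).sub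
        (((dG z).mul (dY z)).const_mul ζ)
      refine h3.congr_deriv ?_
      have hY : Y z = ((z - x) / v - ζ * u1 z) * G z - h z - H z := by simp only [hH]; ring
      simp only [Pi.mul_apply, Pi.sub_apply, hP1, hkk]
      rw [hY]
      generalize H z = Hz
      generalize G z = Gz
      generalize h z = hz
      generalize h1 z = h1z
      generalize u1 z = u1z
      generalize A1 z = A1z
      generalize A2 z = A2z
      have hAz := hAne z
      generalize A z = Az at *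
      field_simp
      ring) cK2 (cB.sub cD)
  -- integrals
  have iB := rho_int (ζ := ζ) (x := x) hv hu cB
  have iD := rho_int (ζ := ζ) (x := x) hv hu cD
  have cW : CE (fun z => (h2 z * (A z)⁻¹ - h1 z * A1 z * ((A z)⁻¹ * (A z)⁻¹)) * H z) :=
    ((ch2.mul cI).sub ((ch1.mul cA1).mul (cI.mul cI))).mul cH
  have iW := rho_int (ζ := ζ) (x := x) hv hu cW
  have cS : CE (fun z => kk z * (H z * (A z)⁻¹ * (H z * (A z)⁻¹))) :=
    ckk.mul ((cH.mul cI).mul (cH.mul cI))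
  have iS := rho_int (ζ := ζ) (x := x) hv hu cS
  have eB : ∫ z, (h1 z ^ 2 / A z + ζ * h z ^ 2) * rho ζ v x u z =
      ∫ z, (h1 z * h1 z * (A z)⁻¹ + ζ * (h z * h z)) * rho ζ v x u z := by
    congr 1
    funext z
    rw [div_eq_mul_inv, sq, sq]
  have J1 : ∫ z, (h1 z * h1 z * (A z)⁻¹ + ζ * (h z * h z)) * rho ζ v x u z =
      ∫ z, ((h2 z * (A z)⁻¹ - h1 z * A1 z * ((A z)⁻¹ * (A z)⁻¹)) * H z) * rho ζ v x u z := by
    simp only [sub_mul (_ + _)] at I1
    rw [integral_sub iB iW] at I1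
    linarith
  have J2 : ∫ z, (h1 z * h1 z * (A z)⁻¹ + ζ * (h z * h z)) * rho ζ v x u z =
      ∫ z, (A z * (P1 z * P1 z) +
      ((kk z * (A z)⁻¹ + v⁻¹) * (H z * H z * (A z)⁻¹) + ζ * (Y z * Y z + v⁻¹ * (G z * G z)))) *
        rho ζ v x u z := by
    simp only [sub_mul (h1 _ * h1 _ * (A _)⁻¹ + ζ * (h _ * h _))] at I2
    rw [integral_sub iB iD] at I2
    linarith
  have rpos : ∀ z, 0 < rho ζ v x u z := fun z => Real.exp_pos _
  have J3 : ∫ z, kk z * (H z * (A z)⁻¹ * (H z * (A z)⁻¹)) * rho ζ v x u z ≤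
      ∫ z, (h1 z * h1 z * (A z)⁻¹ + ζ * (h z * h z)) * rho ζ v x u z := by
    rw [J2]
    refine integral_mono iS iD fun z => mul_le_mul_of_nonneg_right ?_ (rpos z).le
    have a1 : 0 ≤ A z * (P1 z * P1 z) := mul_nonneg (hA0 z).le (mul_self_nonneg _)
    have a2 : 0 ≤ v⁻¹ * (H z * H z * (A z)⁻¹) :=
      mul_nonneg (inv_nonneg.2 hv.le) (mul_nonneg (mul_self_nonneg _) (inv_nonneg.2 (hA0 z).le))
    have a3 : 0 ≤ ζ * (Y z * Y z + v⁻¹ * (G z * G z)) :=
      mul_nonneg hζ (add_nonneg (mul_self_nonneg _)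
        (mul_nonneg (inv_nonneg.2 hv.le) (mul_self_nonneg _)))
    have e : kk z * (H z * (A z)⁻¹ * (H z * (A z)⁻¹)) =
        kk z * (A z)⁻¹ * (H z * H z * (A z)⁻¹) := by ring
    rw [e]
    nlinarith
  have J4 : ∫ z, ((h2 z * (A z)⁻¹ - h1 z * A1 z * ((A z)⁻¹ * (A z)⁻¹)) * H z) *
      rho ζ v x u z ≤ ∫ z, (1 / 2 * ((h2 z - h1 z * A1 z / A z) ^ 2 /
      (-(A2 z - A1 z ^ 2 / A z + 2 * ζ * A z ^ 2)) * rho ζ v x u z) +
      1 / 2 * (kk z * (H z * (A z)⁻¹ * (H z * (A z)⁻¹)) * rho ζ v x u z)) := by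
    refine integral_mono iW ((hint.const_mul _).add (iS.const_mul _)) fun z => ?_
    have e0 : -(A2 z - A1 z ^ 2 / A z + 2 * ζ * A z ^ 2) = kk z := by
      simp only [hkk]
      rw [div_eq_mul_inv, sq, sq]
    have e1 : (h2 z * (A z)⁻¹ - h1 z * A1 z * ((A z)⁻¹ * (A z)⁻¹)) * H z =
        (h2 z - h1 z * A1 z / A z) * (H z * (A z)⁻¹) := by
      rw [div_eq_mul_inv]; ring
    simp only [e0, e1]
    generalize h2 z - h1 z * A1 z / A z = w
    generalize H z * (A z)⁻¹ = t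
    have hkz := kkpos z
    have hr := rpos z
    generalize kk z = q at *
    generalize rho ζ v x u z = r at *
    have key : 0 ≤ (w - q * t) ^ 2 / q := by positivity
    have e2 : (w - q * t) ^ 2 / q = w ^ 2 / q - 2 * (w * t) + q * (t * t) := by
      field_simp
      ring
    rw [e2] at key
    have e3 := mul_nonneg key hr.le
    have e4 : (w ^ 2 / q - 2 * (w * t) + q * (t * t)) * r =
        w ^ 2 / q * r - 2 * (w * t * r) + q * (t * t) * r := by ring
    rw [e4] at e3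
    linarith
  rw [integral_add (hint.const_mul _) (iS.const_mul _), integral_const_mul, integral_const_mul]
    at J4
  rw [eB]
  linarith [J1, J3, J4]

end Crest.Agent.RI.Cn
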