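import Crest.Agent.RI.CnAlg

/-!
# Row 164, Part 10 (THEOREM CONC): base case: log cosh
-/

set_option autoImplicit false

namespace Crest.Agent.RI.Cn

open MeasureTheory ProbabilityTheory
open Crest.ProbabilityR.InvariantGlass

variable {I : Set ℝ} {ζ v₀ θ Z : ℝ} {u : ℝ → ℝ → ℝ}

private theorem CnBase_abs_tanh (x : ℝ) : |Real.tanh x| ≤ 1 := by
  have := (Real.tanh_sq_lt_one x).le
  exact abs_le_one_iff_mul_self_le_one.2 (by rw [← sq]; exact this)

private theorem CnBase_eg0_tanh : EG0 I (fun _ x => Real.tanh x) := by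
  refine ⟨Continuous.continuousOn ?_, 1, zero_le_one, fun r _ x => ?_⟩
  · have : Continuous Real.tanh :=
      continuous_iff_continuousAt.2 fun x => (hasDerivAt_tanh x).continuousAt
    exact this.comp continuous_snd
  · rw [one_mul]
    exact (CnBase_abs_tanh x).trans (Real.one_le_exp (by positivity))

private theorem CnBase_hd_tanh (x : ℝ) :
    HasDerivAt Real.tanh (1 - Real.tanh x * Real.tanh x) x := by
  have := hasDerivAt_tanh x
  rwa [sq] at this

theorem CnBase_tanh (hI : IsOpen I) (n : ℕ) : EG I n (fun _ x => Real.tanh x) := by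
  induction n using Nat.strong_induction_on with
  | _ n ih =>
    match n, ih with
    | 0, _ => exact CnBase_eg0_tanh
    | 1, _ =>
      refine EG.mk1 (G := fun _ x => 1 - Real.tanh x * Real.tanh x) hI CnBase_eg0_tanh
        (fun r _ x => CnBase_hd_tanh x) ?_
      have h1 : EG I 0 (fun _ x => Real.tanh x) := CnBase_eg0_tanh
      exact (EG.const hI 1).sub hI (h1.mul hI h1)
    | n + 2, ih =>
      exact EG.mk2 (G := fun _ x => 1 - Real.tanh x * Real.tanh x) (H := fun _ _ => 0) hI
        CnBase_eg0_tanh (fun r _ x => CnBase_hd_tanh x)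
        ((EG.const hI 1).sub hI ((ih (n + 1) (by omega)).mul hI (ih (n + 1) (by omega))))
        (fun r _ x => hasDerivAt_const r _) (EG.const hI 0)

private theorem CnBase_dx : DX (fun _ x => lch x) = fun _ x => Real.tanh x := by
  funext r x
  exact (hasDerivAt_logcosh x).deriv

private theorem CnBase_dxx : DX (DX (fun _ x => lch x)) = fun _ x => 1 - Real.tanh x ^ 2 := by
  rw [CnBase_dx]
  funext r x
  exact (hasDerivAt_tanh x).deriv

private theorem CnBase_dxxx : DX (DX (DX (fun _ x => lch x))) =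
    fun _ x => -(2 * Real.tanh x * (1 - Real.tanh x ^ 2)) := by
  rw [CnBase_dxx]
  funext r x
  have h := ((hasDerivAt_tanh x).pow 2).const_sub 1
  refine h.deriv.trans ?_
  push_cast
  ring

private theorem CnBase_dxxxx : DX (DX (DX (DX (fun _ x => lch x)))) =
    fun _ x => -(2 * (1 - Real.tanh x ^ 2) * (1 - 3 * Real.tanh x ^ 2)) := by
  rw [CnBase_dxxx]
  funext r x
  have h1 := ((hasDerivAt_tanh x).pow 2).const_sub 1
  have h := (((hasDerivAt_tanh x).const_mul 2).mul h1).neg
  refine h.deriv.trans ?_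
  simp only [Pi.pow_apply]
  push_cast
  ring

private theorem CnBase_dr : DR (fun _ x => lch x) = fun _ _ => 0 := by
  funext r x
  exact deriv_const r _

private theorem CnBase_zero_dx : DX (fun _ _ => (0 : ℝ)) = fun _ _ => 0 := by
  funext r x
  exact deriv_const x _

private theorem CnBase_zero_dr : DR (fun _ _ => (0 : ℝ)) = fun _ _ => 0 := by
  funext r x
  exact deriv_const r _

private theorem CnBase_abs_lch (x : ℝ) : |lch x| ≤ |x| := by
  have h := SF.lch.lip x 0
  have h0 : Real.log (Real.cosh 0) = 0 := by rw [Real.cosh_zero, Real.log_one]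
  simp only [h0, sub_zero] at h
  exact h

private theorem CnBase_cosh_le (x : ℝ) : Real.cosh x ≤ Real.exp |x| := by
  rw [Real.cosh_eq]
  have h1 : Real.exp x ≤ Real.exp |x| := Real.exp_le_exp.2 (le_abs_self x)
  have h2 : Real.exp (-x) ≤ Real.exp |x| := Real.exp_le_exp.2 (neg_le_abs x)
  linarith

private theorem CnBase_one_sub (x : ℝ) : 1 - Real.tanh x ^ 2 = 1 / Real.cosh x ^ 2 := by
  have h1 : Real.cosh x ^ 2 ≠ 0 := pow_ne_zero 2 (Real.cosh_pos x).ne'
  have h2 := Real.cosh_sq_sub_sinh_sq x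
  rw [Real.tanh_eq_sinh_div_cosh, div_pow, eq_div_iff h1, sub_mul, div_mul_cancel₀ _ h1, one_mul]
  exact h2

/-- base case: `log cosh` -/
theorem reg_lch (hI : IsOpen I) : Reg I (fun _ x => lch x) := by
  have hcont : Continuous lch :=
    continuous_iff_continuousAt.2 fun x => (hasDerivAt_logcosh x).continuousAt
  refine ⟨?_, ?_, ?_, ?_, ?_, ?_⟩
  · refine EG.mk2 (G := fun _ x => Real.tanh x) (H := fun _ _ => 0) hI ?_
      (fun r _ x => hasDerivAt_logcosh x) (CnBase_tanh hI 3) (fun r _ x => hasDerivAt_const r _)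
      (EG.const hI 0)
    refine ⟨(hcont.comp continuous_snd).continuousOn, 1, zero_le_one, fun r _ x => ?_⟩
    have := Real.add_one_le_exp |x|
    rw [one_mul, one_mul]
    linarith [CnBase_abs_lch x]
  · exact ⟨1, zero_le_one, fun r _ x => by linarith [CnBase_abs_lch x]⟩
  · rw [CnBase_dx]
    exact ⟨1, fun r _ x => CnBase_abs_tanh x⟩
  · rw [CnBase_dxx]
    refine ⟨1, fun r _ x => ?_⟩
    have h1 := Real.tanh_sq_lt_one x
    have h2 := sq_nonneg (Real.tanh x)
    rw [abs_le]
    constructor <;> linarith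
  · rw [CnBase_dr]
    exact ⟨0, fun r _ x => by simp⟩
  · rw [CnBase_dxx]
    refine ⟨1, 2, one_pos, by norm_num, fun r _ x => ?_⟩
    show 1 * Real.exp (-(2 * |x|)) ≤ 1 - Real.tanh x ^ 2
    rw [CnBase_one_sub, one_mul, le_div_iff₀ (pow_pos (Real.cosh_pos x) 2)]
    calc Real.exp (-(2 * |x|)) * Real.cosh x ^ 2 ≤ Real.exp (-(2 * |x|)) * Real.exp |x| ^ 2 := by
          gcongr
          exact CnBase_cosh_le x
      _ = 1 := by
          rw [← Real.exp_nat_mul, ← Real.exp_add]
          push_cast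
          rw [neg_add_cancel, Real.exp_zero]

theorem cond_lch (hI : IsOpen I) : Cond I 1 (fun _ x => lch x) := by
  intro ζ' hζ
  have hF2 : ∀ r x, F2 ζ' (fun _ x => lch x) r x =
      -(2 * (1 - ζ')) * (1 - Real.tanh x ^ 2) ^ 2 := by
    intro r x
    have h1 : 0 < 1 - Real.tanh x ^ 2 := by have := Real.tanh_sq_lt_one x; linarith
    rw [F2, CnBase_dxxxx, CnBase_dxxx, CnBase_dxx]
    field_simp
    ring
  have hneg : ∀ r x, F2 ζ' (fun _ x => lch x) r x < 0 := by
    intro r x
    have h1 : 0 < 1 - Real.tanh x ^ 2 := by have := Real.tanh_sq_lt_one x; linarith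
    rw [hF2]
    have : 0 < (1 - ζ') * (1 - Real.tanh x ^ 2) ^ 2 := by
      have : 0 < 1 - ζ' := by linarith
      positivity
    linarith
  refine ⟨fun r _ x => hneg r x, fun r _ x e => ?_⟩
  have hQ : QQ (fun _ x => lch x) r x = 0 := by
    rw [QQ, CnBase_dr, CnBase_zero_dr, CnBase_zero_dx]
    simp
  have hF1 : F1 (fun _ x => lch x) r x = 0 := by
    rw [F1, CnBase_dr, CnBase_zero_dx, CnBase_zero_dx]
    simp
  rw [hQ, hF1, mul_zero, zero_add, zero_add]
  exact mul_nonpos_of_nonneg_of_nonpos (by positivity) (hneg r x).le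

end Crest.Agent.RI.Cn
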