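import Crest.Agent.RI.CnAlg

/-!
# Row 164, Part 10 (THEOREM CONC): chain rule for the classes EG
-/

set_option autoImplicit false

namespace Crest.Agent.RI.Cn

open MeasureTheory ProbabilityTheory
open Crest.ProbabilityR.InvariantGlass

variable {I : Set ℝ} {F : ℝ → ℝ → ℝ}

theorem CnChain_contAt (hI : IsOpen I) (hF : EG0 I F) {r : ℝ} (hr : r ∈ I) (x : ℝ) :
    ContinuousAt (fun p : ℝ × ℝ => F p.1 p.2) (r, x) :=
  hF.cont.continuousAt ((hI.prod isOpen_univ).mem_nhds ⟨hr, trivial⟩)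

/-- chain rule (use `hasStrictFDerivAt_uncurry_coprod`, Mathlib FDeriv/Partial). -/
theorem EG.chain (hI : IsOpen I) (hF : EG I 2 F) {r : ℝ} (hr : r ∈ I) {y : ℝ → ℝ} {y' : ℝ}
    (hy : HasDerivAt y y' r) :
    HasDerivAt (fun s => F s (y s)) (DR F r (y r) + DX F r (y r) * y') r := by
  have hnh : ∀ᶠ v in nhds ((r, y r) : ℝ × ℝ), v.1 ∈ I := by
    have : I ×ˢ (Set.univ : Set ℝ) ∈ nhds ((r, y r) : ℝ × ℝ) :=
      (hI.prod isOpen_univ).mem_nhds ⟨hr, trivial⟩
    filter_upwards [this] with v hv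
    exact hv.1
  have h := hasStrictFDerivAt_uncurry_coprod (𝕜 := ℝ) (u := ((r, y r) : ℝ × ℝ)) (f := F)
    (f₁ := fun s x => ContinuousLinearMap.toSpanSingleton ℝ (DR F s x))
    (f₂ := fun s x => ContinuousLinearMap.toSpanSingleton ℝ (DX F s x))
    (by
      filter_upwards [hnh] with v hv
      exact (hF.hdr hv v.2).hasFDerivAt)
    (by
      filter_upwards [hnh] with v hv
      exact (hF.hdx hv v.2).hasFDerivAt)
    (by
      have := CnChain_contAt hI hF.dr.eg0 hr (y r)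
      exact (ContinuousLinearMap.toSpanSingletonCLE (𝕜 := ℝ) (E := ℝ)).continuous.continuousAt.comp
        this)
    (by
      have := CnChain_contAt hI hF.dx.eg0 hr (y r)
      exact (ContinuousLinearMap.toSpanSingletonCLE (𝕜 := ℝ) (E := ℝ)).continuous.continuousAt.comp
        this)
  have hg : HasDerivAt (fun s : ℝ => ((s, y s) : ℝ × ℝ)) ((1, y') : ℝ × ℝ) r :=
    (hasDerivAt_id r).prodMk hy
  have h2 := h.hasFDerivAt.comp_hasDerivAt r hg
  have e : DR F r (y r) + DX F r (y r) * y' =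
      ((ContinuousLinearMap.toSpanSingleton ℝ (DR F r (y r))).coprod
        (ContinuousLinearMap.toSpanSingleton ℝ (DX F r (y r)))) ((1, y') : ℝ × ℝ) := by
    simp [mul_comm]
  rw [e]
  exact h2

end Crest.Agent.RI.Cn
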