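import Crest.Agent.RI.CnSch
import Crest.Agent.RI.CnChain

/-!
# Row 164, Part 10 (THEOREM CONC): second-order expansion along a line
-/

set_option autoImplicit false

namespace Crest.Agent.RI.Cn

open MeasureTheory ProbabilityTheory
open Crest.ProbabilityR.InvariantGlass

variable {I : Set ℝ} {w : ℝ → ℝ → ℝ}

/-- the chain rule along a line -/
private theorem cnccb_line (hI : IsOpen I) {F : ℝ → ℝ → ℝ} (hF : EG I 2 F) (r x c : ℝ) {δ : ℝ}
    (hr : r + δ ∈ I) :
    HasDerivAt (fun s => F (r + s) (x + c * s))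
      (DR F (r + δ) (x + c * δ) + DX F (r + δ) (x + c * δ) * c) δ := by
  have hy : HasDerivAt (fun s : ℝ => x + c * (s - r)) c (r + δ) := by
    have h1 := (((hasDerivAt_id (r + δ)).sub_const r).const_mul c).const_add x
    simpa using h1
  have h2 := EG.chain hI hF hr hy
  have h3 : HasDerivAt (fun s : ℝ => r + s) 1 δ := by
    simpa using (hasDerivAt_id δ).const_add r
  have h4 := HasDerivAt.comp δ h2 h3
  have e1 : x + c * (r + δ - r) = x + c * δ := by ring
  rw [e1, mul_one] at h4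
  have e2 : ((fun s => F s (x + c * (s - r))) ∘ fun s => r + s) =
      fun s => F (r + s) (x + c * s) := by
    funext s
    simp only [Function.comp]
    rw [show r + s - r = s by ring]
  rwa [e2] at h4

/-- second-order Taylor expansion of `g δ = w (r+δ) (x+cδ)` in symmetric form -/
theorem second_diff_line (hI : IsOpen I) (hw : EG I 4 w) {r : ℝ} (hr : r ∈ I) (x c : ℝ)
    {ε : ℝ} (hε : 0 < ε) :
    ∃ δ₀ : ℝ, 0 < δ₀ ∧ ∀ δ : ℝ, 0 < δ → δ < δ₀ →
      w (r + δ) (x + c * δ) + w (r - δ) (x - c * δ) - 2 * w r x ≤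
        (DR (DR w) r x + 2 * c * DX (DR w) r x + c ^ 2 * DX (DX w) r x + ε) * δ ^ 2 := by
  set H : ℝ := DR (DR w) r x + 2 * c * DX (DR w) r x + c ^ 2 * DX (DX w) r x with hH
  set g : ℝ → ℝ := fun s => w (r + s) (x + c * s) with hg
  set h : ℝ → ℝ := fun s => DR w (r + s) (x + c * s) + DX w (r + s) (x + c * s) * c with hh
  -- the interval
  obtain ⟨η, hη, hball⟩ := Metric.isOpen_iff.1 hI r hr
  have hin : ∀ s : ℝ, |s| < η → r + s ∈ I := fun s hs => hball (by
    rw [Metric.mem_ball, Real.dist_eq]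
    simpa using hs)
  -- first derivative
  have hg' : ∀ s : ℝ, |s| < η → HasDerivAt g (h s) s := fun s hs =>
    cnccb_line hI (hw.mono (by norm_num)) r x c (hin s hs)
  -- second derivative at 0
  have hr0 : r + 0 ∈ I := by simpa using hr
  have hh' : HasDerivAt h H 0 := by
    have h1 := cnccb_line hI (hw.dr : EG I 2 (DR w)) r x c hr0
    have h2 := cnccb_line hI ((hw.dx : EG I 3 (DX w)).mono (by norm_num : 2 ≤ 3)) r x c hr0
    have h3 := h1.add (h2.mul_const c)
    have hs : DR (DX w) r x = DX (DR w) r x := EG.schwarz hI (hw.mono (by norm_num)) hr x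
    have e : DR (DR w) (r + 0) (x + c * 0) + DX (DR w) (r + 0) (x + c * 0) * c +
        (DR (DX w) (r + 0) (x + c * 0) + DX (DX w) (r + 0) (x + c * 0) * c) * c = H := by
      rw [hH]
      simp only [mul_zero, add_zero]
      rw [hs]
      ring
    rw [e] at h3
    exact h3
  -- little-o
  have ho := hh'.isLittleO.def (show 0 < ε / 2 by positivity)
  rw [Metric.eventually_nhds_iff] at ho
  obtain ⟨δ₁, hδ₁, ho⟩ := ho
  refine ⟨min η δ₁, lt_min hη hδ₁, fun δ hδ0 hδ => ?_⟩
  have hδη : δ < η := lt_of_lt_of_le hδ (min_le_left _ _)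
  have hδ1 : δ < δ₁ := lt_of_lt_of_le hδ (min_le_right _ _)
  -- the auxiliary function
  set k : ℝ → ℝ := fun s => g s + g (-s) - (H + ε) * s ^ 2 with hk
  have hk' : ∀ s : ℝ, |s| < η → HasDerivAt k (h s - h (-s) - (H + ε) * (2 * s)) s := by
    intro s hs
    have a1 := hg' s hs
    have a2 : HasDerivAt (fun t => g (-t)) (h (-s) * (-1)) s := by
      have b1 := hg' (-s) (by rwa [abs_neg])
      have b2 : HasDerivAt (fun t : ℝ => -t) (-1) s := hasDerivAt_neg s
      exact HasDerivAt.comp s b1 b2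
    have a3 : HasDerivAt (fun t : ℝ => (H + ε) * t ^ 2) ((H + ε) * (2 * s)) s := by
      have b3 := (hasDerivAt_pow 2 s).const_mul (H + ε)
      simpa using b3
    have a4 := (a1.add a2).sub a3
    have e : h s + h (-s) * (-1) - (H + ε) * (2 * s) = h s - h (-s) - (H + ε) * (2 * s) := by ring
    rw [e] at a4
    exact a4
  obtain ⟨ξ, hξ, hξ'⟩ := exists_hasDerivAt_eq_slope k
    (fun s => h s - h (-s) - (H + ε) * (2 * s)) hδ0
    (fun s hs => (hk' s (by
      rw [abs_of_nonneg hs.1]; exact lt_of_le_of_lt hs.2 hδη)).continuousAt.continuousWithinAt)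
    (fun s hs => hk' s (by rw [abs_of_nonneg hs.1.le]; exact lt_trans hs.2 hδη))
  have q1 := @ho ξ (by rw [Real.dist_eq, sub_zero, abs_of_pos hξ.1]; exact lt_trans hξ.2 hδ1)
  have q2 := @ho (-ξ) (by
    rw [Real.dist_eq, sub_zero, abs_neg, abs_of_pos hξ.1]; exact lt_trans hξ.2 hδ1)
  simp only [sub_zero, smul_eq_mul, Real.norm_eq_abs, abs_neg] at q1 q2
  rw [abs_of_pos hξ.1] at q1 q2
  have q1' := (abs_le.1 q1).2
  have q2' := (abs_le.1 q2).1
  have hneg : h ξ - h (-ξ) - (H + ε) * (2 * ξ) ≤ 0 := by nlinarith [mul_pos hε hξ.1]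
  have hslope : (k δ - k 0) / (δ - 0) ≤ 0 := by
    rw [← hξ']; exact hneg
  have hδpos : 0 < δ - 0 := by simpa using hδ0
  have hfin : k δ - k 0 ≤ 0 := by
    by_contra hcon
    exact absurd hslope (not_le.2 (div_pos (not_le.1 hcon) hδpos))
  have ek : k δ - k 0 = w (r + δ) (x + c * δ) + w (r - δ) (x - c * δ) - 2 * w r x -
      (H + ε) * δ ^ 2 := by
    simp only [hk, hg]
    have e1 : x + c * -δ = x - c * δ := by ring
    have e2 : r + -δ = r - δ := by ring
    rw [e1, e2]
    simp only [neg_zero, mul_zero, add_zero]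
    ring
  linarith

end Crest.Agent.RI.Cn
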