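import Crest.Agent.RI.CnCCa
import Crest.Agent.RI.CnCCb

/-!
# Row 164, Part 10 (THEOREM CONC): concavity of the Legendre transform
-/

set_option autoImplicit false

namespace Crest.Agent.RI.Cn

open MeasureTheory ProbabilityTheory
open Crest.ProbabilityR.InvariantGlass

variable {I : Set ℝ} {w : ℝ → ℝ → ℝ}

/-- concavity of the Legendre transform -/
theorem legendre_concave (hI : IsOpen I) (hc : Convex ℝ I) (hw : EG I 4 w)
    (hbr : ∃ C : ℝ, ∀ r ∈ I, ∀ x, |DR w r x| ≤ C)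
    (hA : ∀ r ∈ I, ∀ x, 0 < DX (DX w) r x)
    (hQ : ∀ r ∈ I, ∀ x, DR (DR w) r x - DX (DR w) r x ^ 2 / DX (DX w) r x ≤ 0)
    (hco : ∃ C : ℝ, ∀ r ∈ I, ∀ x, |x| - C ≤ w r x) {m : ℝ} (hm : |m| < 1) :
    ConcaveOn ℝ I (fun r => ⨅ x : ℝ, (w r x - x * m)) := by
  obtain ⟨hcont, hgr⟩ : EG0 I w := hw.1
  obtain ⟨hw0, hwx, hwX, hwr, hwR⟩ := hw
  obtain ⟨B, hB⟩ := hbr
  obtain ⟨C, hC⟩ := hco
  have hlow : ∀ r ∈ I, ∀ x, (1 - |m|) * |x| - C ≤ w r x - x * m := by
    intro r hr x
    have h1 := hC r hr x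
    have h2 : x * m ≤ |x| * |m| := by rw [← abs_mul]; exact le_abs_self _
    nlinarith
  have hbdd : ∀ r ∈ I, BddBelow (Set.range fun x : ℝ => w r x - x * m) := by
    intro r hr
    refine ⟨-C, ?_⟩
    rintro _ ⟨x, rfl⟩
    have h1 := hlow r hr x
    have h2 : 0 ≤ (1 - |m|) * |x| := mul_nonneg (by linarith) (abs_nonneg x)
    show -C ≤ w r x - x * m
    linarith
  have hle : ∀ r ∈ I, ∀ x, (⨅ x : ℝ, (w r x - x * m)) ≤ w r x - x * m :=
    fun r hr x => ciInf_le (hbdd r hr) x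
  have hcx : ∀ r ∈ I, Continuous fun x : ℝ => w r x - x * m := by
    intro r hr
    have h1 : Continuous (w r) :=
      continuous_iff_continuousAt.2 fun x => (hwx r hr x).continuousAt
    fun_prop
  have hmin : ∀ r ∈ I, ∃ x0 : ℝ, (⨅ x : ℝ, (w r x - x * m)) = w r x0 - x0 * m := by
    intro r hr
    have htend : Filter.Tendsto (fun x : ℝ => w r x - x * m) (Filter.cocompact ℝ)
        Filter.atTop := by
      have h1 : Filter.Tendsto (fun x : ℝ => (1 - |m|) * ‖x‖ - C) (Filter.cocompact ℝ)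
          Filter.atTop := by
        refine Filter.tendsto_atTop_add_const_right _ (-C) ?_
        exact Filter.Tendsto.const_mul_atTop (by linarith) (tendsto_norm_cocompact_atTop)
      exact Filter.tendsto_atTop_mono (fun x => hlow r hr x) h1
    obtain ⟨x0, hx0⟩ := (hcx r hr).exists_forall_le htend
    refine ⟨x0, le_antisymm (hle r hr x0) ?_⟩
    exact le_ciInf hx0
  have hlip : ∀ r ∈ I, ∀ s ∈ I, ∀ x, w r x ≤ w s x + B * |r - s| := by
    intro r hr s hs x
    have h1 := hc.norm_image_sub_le_of_norm_deriv_le (f := fun t => w t x) (C := B)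
      (fun t ht => hwr t ht x) (fun t ht => by
        rw [Real.norm_eq_abs]; exact hB t ht x) hs hr
    rw [Real.norm_eq_abs, Real.norm_eq_abs] at h1
    have h2 := le_abs_self (w r x - w s x)
    linarith
  have hLlip : ∀ r ∈ I, ∀ s ∈ I, (⨅ x : ℝ, (w r x - x * m)) ≤
      (⨅ x : ℝ, (w s x - x * m)) + B * |r - s| := by
    intro r hr s hs
    obtain ⟨x0, hx0⟩ := hmin s hs
    rw [hx0]
    have h1 := hle r hr x0
    have h2 := hlip r hr s hs x0
    linarith
  have hB0 : ∀ r ∈ I, 0 ≤ B := fun r hr => (abs_nonneg _).trans (hB r hr 0)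
  refine concave_of_second_diff hI hc ?_ ?_
  · intro r hr
    rw [ContinuousWithinAt, tendsto_iff_norm_sub_tendsto_zero]
    have hz : Filter.Tendsto (fun s => B * |s - r|) (nhdsWithin r I) (nhds 0) := by
      have : Filter.Tendsto (fun s => B * |s - r|) (nhds r) (nhds (B * |r - r|)) :=
        Continuous.tendsto (by fun_prop) r
      rw [sub_self, abs_zero, mul_zero] at this
      exact this.mono_left nhdsWithin_le_nhds
    refine squeeze_zero' (Filter.Eventually.of_forall fun _ => norm_nonneg _) ?_ hz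
    filter_upwards [self_mem_nhdsWithin] with s hs
    rw [Real.norm_eq_abs, abs_le]
    have h1 := hLlip r hr s hs
    have h2 := hLlip s hs r hr
    rw [abs_sub_comm] at h1
    constructor <;> linarith
  · intro r hr ε hε
    obtain ⟨x0, hx0⟩ := hmin r hr
    have hA0 := hA r hr x0
    set a := DX (DX w) r x0 with ha
    set b := DX (DR w) r x0 with hb
    obtain ⟨δ1, hδ1, h1⟩ := second_diff_line hI (⟨hw0, hwx, hwX, hwr, hwR⟩ : EG I 4 w) hr x0
      (-(b / a)) hε
    obtain ⟨δ2, hδ2, h2⟩ := Metric.isOpen_iff.1 hI r hr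
    refine ⟨min δ1 δ2, lt_min hδ1 hδ2, fun δ hδ hlt => ?_⟩
    have h3 := h1 δ hδ (hlt.trans_le (min_le_left _ _))
    have hlt2 := hlt.trans_le (min_le_right δ1 δ2)
    have hrp : r + δ ∈ I := h2 (by
      rw [Metric.mem_ball, Real.dist_eq, add_sub_cancel_left, abs_of_pos hδ]; exact hlt2)
    have hrm : r - δ ∈ I := h2 (by
      rw [Metric.mem_ball, Real.dist_eq, sub_sub_cancel_left, abs_neg, abs_of_pos hδ]; exact hlt2)
    have h4 := hle (r + δ) hrp (x0 + -(b / a) * δ)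
    have h5 := hle (r - δ) hrm (x0 - -(b / a) * δ)
    have h6 := hQ r hr x0
    have h7 : DR (DR w) r x0 + 2 * -(b / a) * b + (-(b / a)) ^ 2 * a =
        DR (DR w) r x0 - b ^ 2 / a := by
      field_simp
      ring
    have h8 : (DR (DR w) r x0 + 2 * -(b / a) * b + (-(b / a)) ^ 2 * a + ε) * δ ^ 2 ≤
        ε * δ ^ 2 := by
      rw [h7]
      exact mul_le_mul_of_nonneg_right (by linarith) (sq_nonneg δ)
    show (⨅ x : ℝ, (w (r + δ) x - x * m)) + (⨅ x : ℝ, (w (r - δ) x - x * m)) -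
      2 * (⨅ x : ℝ, (w r x - x * m)) ≤ ε * δ ^ 2
    rw [hx0]
    linarith

end Crest.Agent.RI.Cn
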