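import Crest.Agent.RI.CnDefs

/-!
# Row 164, Part 10 (THEOREM CONC): second differences and concavity
-/

set_option autoImplicit false

namespace Crest.Agent.RI.Cn

open MeasureTheory ProbabilityTheory
open Crest.ProbabilityR.InvariantGlass

variable {I : Set ℝ} {w : ℝ → ℝ → ℝ}

/-- continuous functions with nonpositive upper second derivative (second differences) are concave.
Proof: if not, there are `a < b` in `I` and an affine `ℓ` with `L a = ℓ a`, `L b = ℓ b` and
`L c < ℓ c` somewhere; `D r = L r - ℓ r + ε (r-a) (b-r)` with small `ε > 0` has a negative interior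
minimum, but its second differences are `≤ (ε - 2 ε) δ² < 0` there. -/
theorem concave_of_second_diff (hI : IsOpen I) (hc : Convex ℝ I) {L : ℝ → ℝ}
    (hL : ContinuousOn L I)
    (h : ∀ r ∈ I, ∀ ε : ℝ, 0 < ε → ∃ δ₀ : ℝ, 0 < δ₀ ∧ ∀ δ : ℝ, 0 < δ → δ < δ₀ →
      L (r + δ) + L (r - δ) - 2 * L r ≤ ε * δ ^ 2) : ConcaveOn ℝ I L := by
  refine LinearOrder.concaveOn_of_lt hc ?_
  intro x hx y hy hxy a b ha hb hab
  simp only [smul_eq_mul]
  by_contra hlt
  rw [not_le] at hlt
  have hyx : 0 < y - x := sub_pos.2 hxy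
  obtain ⟨c, hc0⟩ : ∃ c, c = a * x + b * y := ⟨_, rfl⟩
  rw [← hc0] at hlt
  have ha1 : a = 1 - b := by linarith
  have hc1 : c - x = b * (y - x) := by rw [hc0, ha1]; ring
  have hc2 : y - c = a * (y - x) := by rw [hc0]; have : b = 1 - a := by linarith
                                       rw [this]; ring
  have hcx : x < c := by have := mul_pos hb hyx; linarith
  have hcy : c < y := by have := mul_pos ha hyx; linarith
  obtain ⟨s, hs⟩ : ∃ s, s = (L y - L x) / (y - x) := ⟨_, rfl⟩
  have hs' : s * (y - x) = L y - L x := by rw [hs, div_mul_cancel₀ _ hyx.ne']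
  obtain ⟨η, hη⟩ : ∃ η, η = L x + (c - x) * s - L c := ⟨_, rfl⟩
  have hηpos : 0 < η := by
    have h1 : (c - x) * s = b * (L y - L x) := by rw [hc1, mul_assoc, mul_comm _ s, hs']
    rw [hη, h1]
    have : L x + b * (L y - L x) = a * L x + b * L y := by rw [ha1]; ring
    linarith
  obtain ⟨ε, hε⟩ : ∃ ε, ε = η / (2 * (y - x) ^ 2) := ⟨_, rfl⟩
  have hεpos : 0 < ε := by rw [hε]; positivity
  have hIcc : Set.Icc x y ⊆ I := hc.ordConnected.out hx hy
  have hD : ContinuousOn (fun r => L r - (L x + (r - x) * s) + ε * ((r - x) * (y - r)))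
      (Set.Icc x y) := by
    refine ContinuousOn.add (ContinuousOn.sub (hL.mono hIcc) ?_) ?_
    · fun_prop
    · fun_prop
  obtain ⟨r, hr, hmin⟩ := isCompact_Icc.exists_isMinOn ⟨x, Set.left_mem_Icc.2 hxy.le⟩ hD
  have hDc : L c - (L x + (c - x) * s) + ε * ((c - x) * (y - c)) < 0 := by
    have h1 : ε * ((c - x) * (y - c)) ≤ η / 2 := by
      have h2 : (c - x) * (y - c) ≤ (y - x) ^ 2 := by
        rw [hc1, hc2]
        have h3 : a * b ≤ 1 := by nlinarith
        nlinarith [mul_pos hyx hyx]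
      calc ε * ((c - x) * (y - c)) ≤ ε * (y - x) ^ 2 := by gcongr
        _ = η / 2 := by rw [hε]; field_simp
    linarith
  have hmin' : ∀ z ∈ Set.Icc x y, L r - (L x + (r - x) * s) + ε * ((r - x) * (y - r)) ≤
      L z - (L x + (z - x) * s) + ε * ((z - x) * (y - z)) := fun z hz => hmin hz
  have hDr := (hmin' c ⟨hcx.le, hcy.le⟩).trans_lt hDc
  have hrx : x < r := by
    rcases lt_or_eq_of_le hr.1 with h | h
    · exact h
    · rw [← h] at hDr; simp at hDr
  have hry : r < y := by
    rcases lt_or_eq_of_le hr.2 with h | h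
    · exact h
    · rw [h] at hDr
      have : (y - x) * s = L y - L x := by rw [mul_comm, hs']
      rw [this] at hDr
      simp at hDr
  obtain ⟨δ₀, hδ₀, hδ⟩ := h r (hIcc hr) ε hεpos
  obtain ⟨δ, hδp, hδ1⟩ : ∃ δ, 0 < δ ∧ δ < min δ₀ (min (r - x) (y - r)) :=
    exists_between (lt_min hδ₀ (lt_min (by linarith) (by linarith)))
  have k1 : δ < δ₀ := hδ1.trans_le (min_le_left _ _)
  have k2 : δ < r - x := hδ1.trans_le ((min_le_right _ _).trans (min_le_left _ _))
  have k3 : δ < y - r := hδ1.trans_le ((min_le_right _ _).trans (min_le_right _ _))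
  have m1 := hmin' (r + δ) ⟨by linarith, by linarith⟩
  have m2 := hmin' (r - δ) ⟨by linarith, by linarith⟩
  have m3 := hδ δ hδp k1
  have m4 : 0 < ε * δ ^ 2 := by positivity
  nlinarith

end Crest.Agent.RI.Cn
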