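import Crest.Agent.RI.System
import Crest.Prelude.Def_InvariantGlass

/-!
# Row 164: block data, spectral part, one-site functional (blueprint 0.2-0.4), definitions
-/

set_option autoImplicit false

namespace Crest.Agent.RI

open MeasureTheory ProbabilityTheory
open Crest.ProbabilityR.InvariantGlass

/-! ### Block data -/

/-- Finite spectrum with proportions. -/
structure Blk where
  K : ℕ
  d : Fin K → ℝ
  α : Fin K → ℝ
  inj : Function.Injective d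
  pos : ∀ l, 0 < α l
  sum : ∑ l, α l = 1

/-- The spectral law. -/
noncomputable def Blk.mu (D : Blk) : Measure ℝ :=
  ∑ l, ENNReal.ofReal (D.α l) • Measure.dirac (D.d l)

/-- The upper edge. -/
noncomputable def Blk.top (D : Blk) : ℝ := ⨆ l, D.d l

/-- R-transform of the block law (`x ≥ 0`). -/
noncomputable def Blk.R (D : Blk) (x : ℝ) : ℝ := rTransform D.mu D.top x

/-- `b(x)`. -/
noncomputable def Blk.b (D : Blk) (x : ℝ) : ℝ := resolventPoint D.mu D.top x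

/-- `g2(x) = Σ α_l / (b-d_l)^2`. -/
noncomputable def Blk.g2 (D : Blk) (x : ℝ) : ℝ := ∑ l, D.α l / (D.b x - D.d l) ^ 2

/-- `f_l(x) = α_l / (b(x) - d_l)`, `f_l(0) = 0`. -/
noncomputable def Blk.f (D : Blk) (l : Fin D.K) (x : ℝ) : ℝ :=
  if 0 < x then D.α l / (D.b x - D.d l) else 0

/-- `f_l'(x) = α_l (b-d_l)^{-2} / g2`, `f_l'(0) = α_l`. -/
noncomputable def Blk.f' (D : Blk) (l : Fin D.K) (x : ℝ) : ℝ :=
  if 0 < x then D.α l / (D.b x - D.d l) ^ 2 / D.g2 x else D.α l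

/-- `Θ(x) = (x R(x))' = Σ d_l f_l'(x)`. -/
noncomputable def Blk.Θ (D : Blk) (x : ℝ) : ℝ := ∑ l, D.d l * D.f' l x

/-- `G(p)`. -/
noncomputable def Blk.G (D : Blk) (p : ℝ → ℝ) : ℝ := spectralPart D.mu D.top p

/-- Scaled data `t d` (`t ≠ 0`). -/
noncomputable def Blk.scale (D : Blk) (t : ℝ) (ht : t ≠ 0) : Blk where
  K := D.K
  d := fun l => t * D.d l
  α := D.α
  inj := fun a b h => D.inj (mul_left_cancel₀ ht h)
  pos := D.pos
  sum := D.sum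

/-- Proportions of the labels are within `η` of `α`. -/
def Blk.Close (D : Blk) (η : ℝ) {N : ℕ} (κ : Fin N → Fin D.K) : Prop :=
  ∀ l, |((Finset.univ.filter (fun a => κ a = l)).card : ℝ) / (N : ℝ) - D.α l| ≤ η

/-! ### Paths -/

/-- The metric `‖p - q‖_*`: `|∫_s^1 (p-q)| ≤ ε` for all `s`. -/
def PDist (p q : ℝ → ℝ) (ε : ℝ) : Prop :=
  ∀ s ∈ Set.Icc (0 : ℝ) 1, |∫ u in Set.Ioo s 1, (p u - q u)| ≤ ε

/-- Step function with `k` equal steps. -/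
noncomputable def stepK (k : ℕ) (p : ℕ → ℝ) (s : ℝ) : ℝ :=
  ∑ i ∈ Finset.range k, if (i : ℝ) / k < s ∧ s ≤ ((i : ℝ) + 1) / k then p i else 0

/-- Step function with `k+1` equal steps, zero on the first one. -/
noncomputable def stepUB (k : ℕ) (p : ℕ → ℝ) (s : ℝ) : ℝ :=
  ∑ i ∈ Finset.range k,
    if ((i : ℝ) + 1) / (k + 1) < s ∧ s ≤ ((i : ℝ) + 2) / (k + 1) then p i else 0

/-! ### One-site functional -/

/-- `T_{ζ_i,τ_i} ∘ … ∘ T_{ζ_{i+n-1},τ_{i+n-1}}`. -/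
noncomputable def recT (ζ τ : ℕ → ℝ) : (n i : ℕ) → (ℝ → ℝ) → ℝ → ℝ
  | 0, _, f => f
  | n + 1, i, f => gaussOp (ζ i) (τ i) (recT ζ τ n (i + 1) f)

/-- `log cosh`. -/
noncomputable def lch (x : ℝ) : ℝ := Real.log (Real.cosh x)

/-- `ℓ_b`: one-site value with `k` levels. -/
noncomputable def siteVal (ζ τ : ℕ → ℝ) (k : ℕ) (b : ℝ) : ℝ :=
  recT ζ τ k 0 lch b - (1 / 2) * ∑ i ∈ Finset.range k, τ i

/-- `ℓ^[m]`. -/
noncomputable def siteLeg (ζ τ : ℕ → ℝ) (k : ℕ) (m : ℝ) : ℝ :=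
  ⨅ b : ℝ, (siteVal ζ τ k b - b * m)

/-- Path values `h_i = τ_0 + … + τ_i`. -/
noncomputable def hh (τ : ℕ → ℝ) (i : ℕ) : ℝ := ∑ j ∈ Finset.range (i + 1), τ j

/-- Constrained entropy part for real data and `k` equal steps: upper bounds. -/
def SBound (k : ℕ) {J : ℕ} (γ m : Fin J → ℝ) (p : ℕ → ℝ) (s : ℝ) : Prop :=
  ∀ τ : ℕ → ℝ, (∀ i, 0 ≤ τ i) →
    ∑ j, γ j * siteLeg (fun i => (i : ℝ) / k) τ k (m j) +
      (1 / 2) * ((1 / (k : ℝ)) * ∑ i ∈ Finset.range k, p i * hh τ i) ≤ s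

/-! ### THEOREM CONC (Part 10) -/

/-- Admissible exponents of the one-site functional: `0 ≤ ζ_0 < ζ_1 < … < ζ_{k-1} < 1`. -/
def SExps (ζ : ℕ → ℝ) (k : ℕ) : Prop :=
  (∀ i < k, 0 ≤ ζ i ∧ ζ i < 1) ∧ ∀ i, i + 1 < k → ζ i < ζ (i + 1)

end Crest.Agent.RI
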