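import Crest.Agent.RI.GOp
import Crest.Agent.RI.Site

/-!
# Row 164, Part 10 (THEOREM CONC): definitions (helper5)

Families of functions of two real variables `F r x` (`r` = parameter in an open set `I`, `x` = site
variable).  `DX`, `DR` partial derivatives.  `EG I n F`: all partial derivatives `∂_r^i ∂_x^j F`
with `2 i + j ≤ n` exist on `I × ℝ`, are jointly continuous there and have exponential growth in `x`,
uniformly for `r ∈ I`.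
`Nn`, `En`: Gaussian averages tilted by `exp (ζ u)`; `Tw` = the Gaussian operator applied to a family.
-/

set_option autoImplicit false

namespace Crest.Agent.RI.Cn

open MeasureTheory ProbabilityTheory
open Crest.ProbabilityR.InvariantGlass

/-- partial derivative in the site variable -/
noncomputable def DX (F : ℝ → ℝ → ℝ) : ℝ → ℝ → ℝ := fun r x => deriv (F r) x

/-- partial derivative in the parameter -/
noncomputable def DR (F : ℝ → ℝ → ℝ) : ℝ → ℝ → ℝ := fun r x => deriv (fun s => F s x) r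

/-- jointly continuous on `I × ℝ`, exponential growth -/
structure EG0 (I : Set ℝ) (F : ℝ → ℝ → ℝ) : Prop where
  cont : ContinuousOn (fun p : ℝ × ℝ => F p.1 p.2) (I ×ˢ Set.univ)
  gr : ∃ M : ℝ, 0 ≤ M ∧ ∀ r ∈ I, ∀ x, |F r x| ≤ M * Real.exp (M * |x|)

/-- all partial derivatives of weight `≤ n` (weight of `∂_x` is `1`, of `∂_r` is `2`) are `EG0` -/
def EG (I : Set ℝ) : ℕ → (ℝ → ℝ → ℝ) → Prop
  | 0, F => EG0 I F
  | 1, F => EG0 I F ∧ (∀ r ∈ I, ∀ x, DifferentiableAt ℝ (F r) x) ∧ EG0 I (DX F)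
  | n + 2, F => EG0 I F ∧ (∀ r ∈ I, ∀ x, DifferentiableAt ℝ (F r) x) ∧ EG I (n + 1) (DX F) ∧
      (∀ r ∈ I, ∀ x, DifferentiableAt ℝ (fun s => F s x) r) ∧ EG I n (DR F)

/-- linear growth, uniformly in `r ∈ I` -/
def LGr (I : Set ℝ) (u : ℝ → ℝ → ℝ) : Prop :=
  ∃ C : ℝ, 0 ≤ C ∧ ∀ r ∈ I, ∀ x, |u r x| ≤ C * (1 + |x|)

/-- bounded on `I × ℝ` -/
def Bd (I : Set ℝ) (F : ℝ → ℝ → ℝ) : Prop := ∃ C : ℝ, ∀ r ∈ I, ∀ x, |F r x| ≤ C

/-- lower exponential bound on `I × ℝ` -/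
def LBd (I : Set ℝ) (F : ℝ → ℝ → ℝ) : Prop :=
  ∃ c C : ℝ, 0 < c ∧ 0 ≤ C ∧ ∀ r ∈ I, ∀ x, c * Real.exp (-(C * |x|)) ≤ F r x

/-- admissible variances: `v r = v₀ + θ r`, bounded below by a positive number and bounded above
on `I`. -/
def VOK (I : Set ℝ) (v₀ θ : ℝ) : Prop :=
  (∃ a : ℝ, 0 < a ∧ ∀ r ∈ I, a ≤ v₀ + θ * r) ∧ ∃ b : ℝ, ∀ r ∈ I, v₀ + θ * r ≤ b

/-- tilted Gaussian integral, one variable (not normalised) -/
noncomputable def nn (ζ v : ℝ) (u F : ℝ → ℝ) (x : ℝ) : ℝ :=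
  ∫ g, F (x + Real.sqrt v * g) * Real.exp (ζ * u (x + Real.sqrt v * g)) ∂(gaussianReal 0 1)

/-- tilted Gaussian expectation, one variable -/
noncomputable def ee (ζ v : ℝ) (u F : ℝ → ℝ) (x : ℝ) : ℝ := nn ζ v u F x / nn ζ v u (fun _ => 1) x

/-- tilted Gaussian integral (not normalised), families -/
noncomputable def Nn (ζ v₀ θ : ℝ) (u F : ℝ → ℝ → ℝ) : ℝ → ℝ → ℝ := fun r x =>
  nn ζ (v₀ + θ * r) (u r) (F r) x

/-- tilted Gaussian expectation, families -/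
noncomputable def En (ζ v₀ θ : ℝ) (u F : ℝ → ℝ → ℝ) : ℝ → ℝ → ℝ := fun r x =>
  ee ζ (v₀ + θ * r) (u r) (F r) x

/-- the Gaussian operator applied to a family -/
noncomputable def Tw (ζ v₀ θ : ℝ) (u : ℝ → ℝ → ℝ) : ℝ → ℝ → ℝ := fun r x =>
  gaussOp ζ (v₀ + θ * r) (u r) x

/-- `ψ = ½ (u_xx + ζ u_x²)` -/
noncomputable def Ps (ζ : ℝ) (u : ℝ → ℝ → ℝ) : ℝ → ℝ → ℝ := fun r x =>
  1 / 2 * (DX (DX u) r x + ζ * DX u r x ^ 2)

/-- `LL F = ½ F_xx + ζ u_x F_x` -/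
noncomputable def LLo (ζ : ℝ) (u F : ℝ → ℝ → ℝ) : ℝ → ℝ → ℝ := fun r x =>
  1 / 2 * DX (DX F) r x + ζ * (DX u r x * DX F r x)

/-- `φ^c = u_r + c ψ` -/
noncomputable def Ph (ζ c : ℝ) (u : ℝ → ℝ → ℝ) : ℝ → ℝ → ℝ := fun r x =>
  DR u r x + c * Ps ζ u r x

/-! ### The second-order quantities -/

/-- `f₁ = u_rxx - u_rx A_x / A`, `A = u_xx` -/
noncomputable def F1 (u : ℝ → ℝ → ℝ) : ℝ → ℝ → ℝ := fun r x =>
  DX (DX (DR u)) r x - DX (DR u) r x * DX (DX (DX u)) r x / DX (DX u) r x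

/-- `f₂ = A_xx - A_x² / A + 2 ζ A²` -/
noncomputable def F2 (ζ : ℝ) (u : ℝ → ℝ → ℝ) : ℝ → ℝ → ℝ := fun r x =>
  DX (DX (DX (DX u))) r x - DX (DX (DX u)) r x ^ 2 / DX (DX u) r x + 2 * ζ * DX (DX u) r x ^ 2

/-- `Q = u_rr - u_rx² / A` -/
noncomputable def QQ (u : ℝ → ℝ → ℝ) : ℝ → ℝ → ℝ := fun r x =>
  DR (DR u) r x - DX (DR u) r x ^ 2 / DX (DX u) r x

/-- weak condition at level `ζ` -/
def CondW (I : Set ℝ) (ζ : ℝ) (u : ℝ → ℝ → ℝ) : Prop :=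
  ∀ r ∈ I, ∀ x, ∀ e : ℝ, QQ u r x + e * F1 u r x + e ^ 2 / 4 * F2 ζ u r x ≤ 0

/-- condition `C(ζ')` for all `ζ' < Z` -/
def Cond (I : Set ℝ) (Z : ℝ) (u : ℝ → ℝ → ℝ) : Prop :=
  ∀ ζ', ζ' < Z → (∀ r ∈ I, ∀ x, F2 ζ' u r x < 0) ∧ CondW I ζ' u

/-- Regularity of a family -/
structure Reg (I : Set ℝ) (u : ℝ → ℝ → ℝ) : Prop where
  eg : EG I 4 u
  lin : LGr I u
  bx : Bd I (DX u)
  bxx : Bd I (DX (DX u))
  br : Bd I (DR u)
  low : LBd I (DX (DX u))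

end Crest.Agent.RI.Cn
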