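import Crest.Agent.RI.CnNa

/-!
# Row 164, Part 10 (THEOREM CONC): Gaussian integration by parts
-/

set_option autoImplicit false

namespace Crest.Agent.RI.Cn

open MeasureTheory ProbabilityTheory
open Crest.ProbabilityR.InvariantGlass

private theorem CnIbp_int_iff (f : ℝ → ℝ) :
    Integrable f (gaussianReal 0 1) ↔ Integrable (fun x => gaussianPDFReal 0 1 x * f x) := by
  rw [gaussianReal_of_var_ne_zero 0 one_ne_zero,
    integrable_withDensity_iff_integrable_smul' (measurable_gaussianPDF 0 1)
      (Filter.Eventually.of_forall fun x => gaussianPDF_lt_top)]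
  simp only [toReal_gaussianPDF, smul_eq_mul]

/-- Gaussian integration by parts -/
theorem gauss_ibp {K K' : ℝ → ℝ} (dK : ∀ z, HasDerivAt K (K' z) z) (cK : CE K) (cK' : CE K') :
    ∫ g, g * K g ∂(gaussianReal 0 1) = ∫ g, K' g ∂(gaussianReal 0 1) := by
  have hi := cK.int
  have hi' := cK'.int
  have hxi := (CE.id'.mul cK).int
  rw [CnIbp_int_iff] at hi hi' hxi
  -- derivative of the density
  have hpdf : ∀ x : ℝ, HasDerivAt (gaussianPDFReal 0 1) (-x * gaussianPDFReal 0 1 x) x := by
    intro x
    have e1 : gaussianPDFReal 0 1 = fun x : ℝ => (√(2 * Real.pi * 1))⁻¹ * Real.exp (-(x - 0) ^ 2 / (2 * 1)) := by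
      ext x
      rw [gaussianPDFReal_def]
      simp
    rw [e1]
    have h1 : HasDerivAt (fun x : ℝ => -(x - 0) ^ 2 / (2 * 1)) (-x) x := by
      have h2 : HasDerivAt (fun x : ℝ => x ^ 2) (2 * x) x := by
        simpa using hasDerivAt_pow 2 x
      have h3 := (h2.neg).div_const 2
      have e2 : (fun x : ℝ => -(x - 0) ^ 2 / (2 * 1)) = fun x : ℝ => (-x ^ 2) / 2 := by
        ext x; simp
      rw [e2]
      have e3 : -x = -(2 * x) / 2 := by ring
      rw [e3]
      exact h3
    have h4 := (h1.exp).const_mul (√(2 * Real.pi * 1))⁻¹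
    have e4 : -x * (√(2 * Real.pi * 1))⁻¹ * Real.exp (-(x - 0) ^ 2 / (2 * 1)) =
        (√(2 * Real.pi * 1))⁻¹ * (Real.exp (-(x - 0) ^ 2 / (2 * 1)) * -x) := by ring
    simp only [← mul_assoc] at e4 ⊢
    rw [e4]
    simpa only [mul_assoc] using h4
  have key := integral_mul_deriv_eq_deriv_mul_of_integrable (u := K) (u' := K')
    (v := gaussianPDFReal 0 1) (v' := fun x => -x * gaussianPDFReal 0 1 x)
    (fun x _ => dK x) (fun x _ => hpdf x)
    (by
      have := hxi.neg
      refine this.congr (Filter.Eventually.of_forall fun x => ?_)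
      simp only [Pi.neg_apply, Pi.mul_apply]
      ring)
    (by
      refine hi'.congr (Filter.Eventually.of_forall fun x => ?_)
      simp only [Pi.mul_apply]
      ring)
    (by
      refine hi.congr (Filter.Eventually.of_forall fun x => ?_)
      simp only [Pi.mul_apply]
      ring)
  rw [integral_gaussianReal_eq_integral_smul one_ne_zero,
    integral_gaussianReal_eq_integral_smul one_ne_zero]
  simp only [smul_eq_mul]
  have k1 : ∫ x, gaussianPDFReal 0 1 x * K' x = ∫ x, K' x * gaussianPDFReal 0 1 x :=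
    integral_congr_ae (Filter.Eventually.of_forall fun x => mul_comm _ _)
  have k2 : ∫ x, gaussianPDFReal 0 1 x * (x * K x) = -∫ x, K x * (-x * gaussianPDFReal 0 1 x) := by
    rw [← integral_neg]
    exact integral_congr_ae (Filter.Eventually.of_forall fun x => by ring_nf)
  rw [k1, k2, key, neg_neg]

end Crest.Agent.RI.Cn
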