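import Crest.Agent.RI.CnNdrA
import Crest.Agent.RI.CnIbp

/-!
# Row 164, Part 10 (THEOREM CONC): parameter derivative of the tilted Gaussian integral, step 2
-/

set_option autoImplicit false

namespace Crest.Agent.RI.Cn

open MeasureTheory ProbabilityTheory
open Crest.ProbabilityR.InvariantGlass

variable {I : Set ℝ} {ζ v₀ θ : ℝ} {u F : ℝ → ℝ → ℝ}

/-- Step 2: after Gaussian integration by parts of the `g` term. -/
theorem Nn_dr (hI : IsOpen I) (hu2 : EG I 2 u) (hu : LGr I u) (hv : VOK I v₀ θ) (hF : EG I 2 F)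
    {r : ℝ} (hr : r ∈ I) (x : ℝ) :
    HasDerivAt (fun s => Nn ζ v₀ θ u F s x)
      (Nn ζ v₀ θ u (fun r x => DR F r x + θ * LLo ζ u F r x + ζ * (F r x * Ph ζ θ u r x)) r x) r := by
  refine (Nn_dr_aux (ζ := ζ) hI hu2 hu hv hF hr x).congr_deriv ?_
  obtain ⟨⟨a, ha, hav⟩, -⟩ := hv
  have hpos : 0 < v₀ + θ * r := ha.trans_le (hav r hr)
  have hs0 : Real.sqrt (v₀ + θ * r) ≠ 0 := (Real.sqrt_pos.2 hpos).ne'
  generalize hs : Real.sqrt (v₀ + θ * r) = s at hs0
  -- one variable facts
  have cu := (hu.lg hu2.eg0 hr).ce_exp ζ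
  have dE : ∀ z, HasDerivAt (fun z => Real.exp (ζ * u r z)) (Real.exp (ζ * u r z) * (ζ * DX u r z)) z :=
    fun z => ((hu2.hdx hr z).const_mul ζ).exp
  have dG : ∀ z, HasDerivAt (fun z => (DX F r z + ζ * (F r z * DX u r z)) * Real.exp (ζ * u r z))
      ((DX (DX F) r z + 2 * ζ * (DX F r z * DX u r z) + ζ * (F r z * DX (DX u) r z) +
        ζ ^ 2 * (F r z * DX u r z ^ 2)) * Real.exp (ζ * u r z)) z := by
    intro z
    have h1 := hF.dx.hdx hr z
    have h2 := hu2.dx.hdx hr z
    have h3 := (h1.add (((hF.hdx hr z).mul h2).const_mul ζ)).mul (dE z)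
    refine h3.congr_deriv ?_
    simp only [Pi.add_apply, Pi.mul_apply]
    ring
  have cF := hF.eg0.ce hr
  have cFx := hF.dx.eg0.ce hr
  have cFxx := hF.dx.dx.eg0.ce hr
  have cFr := hF.dr.eg0.ce hr
  have cux := hu2.dx.eg0.ce hr
  have cuxx := hu2.dx.dx.eg0.ce hr
  have cur := hu2.dr.eg0.ce hr
  have cG : CE (fun z => (DX F r z + ζ * (F r z * DX u r z)) * Real.exp (ζ * u r z)) :=
    (cFx.add ((cF.mul cux).smul ζ)).mul cu
  have cG' : CE (fun z => (DX (DX F) r z + 2 * ζ * (DX F r z * DX u r z) +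
      ζ * (F r z * DX (DX u) r z) + ζ ^ 2 * (F r z * DX u r z ^ 2)) * Real.exp (ζ * u r z)) := by
    have h := (((cFxx.add ((cFx.mul cux).smul (2 * ζ))).add ((cF.mul cuxx).smul ζ)).add
      ((cF.mul (cux.mul cux)).smul (ζ ^ 2))).mul cu
    have e : (fun z => (DX (DX F) r z + 2 * ζ * (DX F r z * DX u r z) +
      ζ * (F r z * DX (DX u) r z) + ζ ^ 2 * (F r z * DX u r z ^ 2)) * Real.exp (ζ * u r z)) =
      fun z => (DX (DX F) r z + 2 * ζ * (DX F r z * DX u r z) +
      ζ * (F r z * DX (DX u) r z) + ζ ^ 2 * (F r z * (DX u r z * DX u r z))) *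
        Real.exp (ζ * u r z) := by
      funext z; ring
    rw [e]; exact h
  have cH : CE (fun z => (DR F r z + ζ * (F r z * DR u r z)) * Real.exp (ζ * u r z)) :=
    (cFr.add ((cF.mul cur).smul ζ)).mul cu
  -- integration by parts
  have ibp := gauss_ibp (K := fun g => (DX F r (x + s * g) + ζ * (F r (x + s * g) * DX u r (x + s * g))) *
      Real.exp (ζ * u r (x + s * g)))
    (K' := fun g => ((DX (DX F) r (x + s * g) + 2 * ζ * (DX F r (x + s * g) * DX u r (x + s * g)) +
      ζ * (F r (x + s * g) * DX (DX u) r (x + s * g)) +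
      ζ ^ 2 * (F r (x + s * g) * DX u r (x + s * g) ^ 2)) * Real.exp (ζ * u r (x + s * g))) * s)
    (fun g => by
      have h1 : HasDerivAt (fun g => x + s * g) s g := by
        simpa using ((hasDerivAt_id g).const_mul s).const_add x
      exact (dG (x + s * g)).comp g h1)
    (cG.aff x s) (by
      have h := (cG'.aff x s).smul s
      simpa only [mul_comm s] using h)
  have i1 : Integrable (fun g => (DR F r (x + s * g) + ζ * (F r (x + s * g) * DR u r (x + s * g))) *
      Real.exp (ζ * u r (x + s * g))) (gaussianReal 0 1) := (cH.aff x s).int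
  have i2 : Integrable (fun g => g * ((DX F r (x + s * g) +
      ζ * (F r (x + s * g) * DX u r (x + s * g))) * Real.exp (ζ * u r (x + s * g))))
      (gaussianReal 0 1) := (CE.id'.mul (cG.aff x s)).int
  have i3 : Integrable (fun g => ((DX (DX F) r (x + s * g) +
      2 * ζ * (DX F r (x + s * g) * DX u r (x + s * g)) +
      ζ * (F r (x + s * g) * DX (DX u) r (x + s * g)) +
      ζ ^ 2 * (F r (x + s * g) * DX u r (x + s * g) ^ 2)) * Real.exp (ζ * u r (x + s * g))) * s)
      (gaussianReal 0 1) := (cG'.aff x s).int.mul_const s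
  have e1 : ∫ g, ((DR F r (x + s * g) + ζ * (F r (x + s * g) * DR u r (x + s * g))) +
          (DX F r (x + s * g) + ζ * (F r (x + s * g) * DX u r (x + s * g))) *
            (θ / (2 * s) * g)) * Real.exp (ζ * u r (x + s * g)) ∂(gaussianReal 0 1) =
      (∫ g, (DR F r (x + s * g) + ζ * (F r (x + s * g) * DR u r (x + s * g))) *
        Real.exp (ζ * u r (x + s * g)) ∂(gaussianReal 0 1)) +
      θ / (2 * s) * ∫ g, g * ((DX F r (x + s * g) +
      ζ * (F r (x + s * g) * DX u r (x + s * g))) * Real.exp (ζ * u r (x + s * g)))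
        ∂(gaussianReal 0 1) := by
    rw [← integral_const_mul, ← integral_add i1 (i2.const_mul _)]
    refine integral_congr_ae (Filter.Eventually.of_forall fun g => ?_)
    simp only
    ring
  rw [e1, ibp, ← integral_const_mul, ← integral_add i1 (i3.const_mul _)]
  unfold Nn nn
  rw [hs]
  refine integral_congr_ae (Filter.Eventually.of_forall fun g => ?_)
  simp only [LLo, Ph, Ps]
  field_simp
  ring

end Crest.Agent.RI.Cn
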