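import Crest.Agent.RI.CnNdx
import Crest.Agent.RI.CnNdr

/-!
# Row 164, Part 10 (THEOREM CONC): derivative rules for the tilted expectation
-/

set_option autoImplicit false

namespace Crest.Agent.RI.Cn

open MeasureTheory ProbabilityTheory
open Crest.ProbabilityR.InvariantGlass

variable {I : Set ℝ} {ζ v₀ θ : ℝ} {u F G : ℝ → ℝ → ℝ} {n : ℕ}

theorem En_one_ne (hu0 : EG0 I u) (hu : LGr I u) {r : ℝ} (hr : r ∈ I) (x : ℝ) :
    Nn ζ v₀ θ u (fun _ _ => 1) r x ≠ 0 :=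
  (nn_one_pos (hu.lg hu0 hr) ζ _ x).ne'

theorem DX_const (c : ℝ) : DX (fun _ _ => c) = fun _ _ => 0 := by
  funext r x; simp [DX]

theorem DR_const (c : ℝ) : DR (fun _ _ => c) = fun _ _ => 0 := by
  funext r x; simp [DR]

/-- `x`-derivative of the normalisation -/
theorem Nn_one_dx (hu1 : EG I 1 u) (hu : LGr I u) {r : ℝ} (hr : r ∈ I) (x : ℝ) :
    HasDerivAt (Nn ζ v₀ θ u (fun _ _ => 1) r) (ζ * Nn ζ v₀ θ u (DX u) r x) x := by
  have h : HasDerivAt (nn ζ (v₀ + θ * r) (u r) (fun _ => 1))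
      (nn ζ (v₀ + θ * r) (u r) (fun z => 0 + ζ * (1 * DX u r z)) x) x :=
    nn_dx (hu.lg hu1.eg0 hr) (fun z => hu1.hdx hr z) (hu1.dx.eg0.ce hr)
      (fun z => hasDerivAt_const z (1 : ℝ)) (CE.const 1) (CE.const 0) x
  simp only [zero_add, one_mul] at h
  rw [nn_smul] at h
  exact h

/-- parameter derivative of the normalisation -/
theorem Nn_one_dr (hI : IsOpen I) (hu2 : EG I 2 u) (hu : LGr I u) (hv : VOK I v₀ θ) {r : ℝ}
    (hr : r ∈ I) (x : ℝ) :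
    HasDerivAt (fun s => Nn ζ v₀ θ u (fun _ _ => 1) s x) (ζ * Nn ζ v₀ θ u (Ph ζ θ u) r x) r := by
  have h := Nn_dr (ζ := ζ) (F := fun _ _ => (1 : ℝ)) hI hu2 hu hv (EG.const hI 1) hr x
  have e : (fun r x => DR (fun _ _ => (1 : ℝ)) r x + θ * LLo ζ u (fun _ _ => 1) r x +
      ζ * ((1 : ℝ) * Ph ζ θ u r x)) = fun r x => ζ * Ph ζ θ u r x := by
    funext r x
    simp only [LLo, DX_const, DR_const]
    ring
  rw [e] at h
  have e2 : Nn ζ v₀ θ u (fun r x => ζ * Ph ζ θ u r x) r x = ζ * Nn ζ v₀ θ u (Ph ζ θ u) r x :=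
    nn_smul (u := u r) (F := Ph ζ θ u r) ζ ζ _ x
  rw [e2] at h
  exact h

theorem CnEa_alg {A B C D z : ℝ} (h : D ≠ 0) :
    (A * D - B * (z * C)) / D ^ 2 = A / D - z * (B / D * (C / D)) := by
  field_simp

/-- rule (1) -/
theorem En_dx (hu1 : EG I 1 u) (hu : LGr I u) (hF : EG I 1 F) {r : ℝ} (hr : r ∈ I) (x : ℝ) :
    HasDerivAt (En ζ v₀ θ u F r)
      (En ζ v₀ θ u (fun r x => DX F r x + ζ * (F r x * DX u r x)) r x -
        ζ * (En ζ v₀ θ u F r x * En ζ v₀ θ u (DX u) r x)) x := by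
  have hne := En_one_ne (ζ := ζ) (v₀ := v₀) (θ := θ) hu1.eg0 hu hr x
  have h := (Nn_dx (ζ := ζ) (v₀ := v₀) (θ := θ) hu1 hu hF hr x).div
    (Nn_one_dx (ζ := ζ) (v₀ := v₀) (θ := θ) hu1 hu hr x) hne
  have e : (En ζ v₀ θ u F r) = (Nn ζ v₀ θ u F r) / (Nn ζ v₀ θ u (fun _ _ => 1) r) := rfl
  rw [e]
  refine h.congr_deriv ?_
  exact CnEa_alg hne

/-- rule (2) -/
theorem En_dr (hI : IsOpen I) (hu2 : EG I 2 u) (hu : LGr I u) (hv : VOK I v₀ θ) (hF : EG I 2 F)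
    {r : ℝ} (hr : r ∈ I) (x : ℝ) :
    HasDerivAt (fun s => En ζ v₀ θ u F s x)
      (En ζ v₀ θ u (fun r x => DR F r x + θ * LLo ζ u F r x + ζ * (F r x * Ph ζ θ u r x)) r x -
        ζ * (En ζ v₀ θ u F r x * En ζ v₀ θ u (Ph ζ θ u) r x)) r := by
  have hne := En_one_ne (ζ := ζ) (v₀ := v₀) (θ := θ) hu2.eg0 hu hr x
  have h := (Nn_dr (ζ := ζ) (v₀ := v₀) (θ := θ) hI hu2 hu hv hF hr x).div
    (Nn_one_dr (ζ := ζ) hI hu2 hu hv hr x) hne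
  have e : (fun s => En ζ v₀ θ u F s x) =
      (fun s => Nn ζ v₀ θ u F s x) / (fun s => Nn ζ v₀ θ u (fun _ _ => 1) s x) := rfl
  rw [e]
  refine h.congr_deriv ?_
  exact CnEa_alg hne

end Crest.Agent.RI.Cn
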