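import Crest.Agent.RI.CnAlg

/-!
# Row 164, Part 10 (THEOREM CONC): classes of the derived functions
-/

set_option autoImplicit false

namespace Crest.Agent.RI.Cn

open MeasureTheory ProbabilityTheory
open Crest.ProbabilityR.InvariantGlass

variable {I : Set ℝ} {ζ v₀ θ : ℝ} {u F G : ℝ → ℝ → ℝ} {n : ℕ}

/-- classes of the derived functions -/
theorem EG.ps (hI : IsOpen I) (hu : EG I (n + 2) u) : EG I n (Ps ζ u) := by
  have h1 : EG I (n + 1) (DX u) := hu.dx
  have h1' : EG I n (DX u) := h1.mono (by omega)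
  exact ((h1.dx.add hI ((h1'.mul hI h1').smul hI ζ)).smul hI (1 / 2)).congr hI
    fun r _ x => by simp only [Ps]; ring

theorem EG.ph (hI : IsOpen I) (c : ℝ) (hu : EG I (n + 2) u) : EG I n (Ph ζ c u) :=
  (hu.dr.add hI ((EG.ps (ζ := ζ) hI hu).smul hI c)).congr hI fun r _ x => rfl

theorem EG.llo (hI : IsOpen I) (hu : EG I (n + 2) u) (hF : EG I (n + 2) F) :
    EG I n (LLo ζ u F) := by
  have h1 : EG I (n + 1) (DX u) := hu.dx
  have h1' : EG I n (DX u) := h1.mono (by omega)
  have h2 : EG I (n + 1) (DX F) := hF.dx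
  have h2' : EG I n (DX F) := h2.mono (by omega)
  exact ((h2.dx.smul hI (1 / 2)).add hI ((h1'.mul hI h2').smul hI ζ)).congr hI
    fun r _ x => rfl

end Crest.Agent.RI.Cn
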