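import Crest.Agent.RI.CnNcont

/-!
# Row 164, Part 10 (THEOREM CONC): growth of the tilted expectation
-/

set_option autoImplicit false

namespace Crest.Agent.RI.Cn

open MeasureTheory ProbabilityTheory
open Crest.ProbabilityR.InvariantGlass

variable {I : Set ℝ} {ζ v₀ θ : ℝ} {u F : ℝ → ℝ → ℝ}

/-- uniform Lipschitz bound from the bounded derivative -/
theorem CnNgr_lip (hu0 : EG I 1 u) (hb : Bd I (DX u)) :
    ∃ B : ℝ, 0 ≤ B ∧ ∀ r ∈ I, ∀ x y, |u r x - u r y| ≤ B * |x - y| := by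
  obtain ⟨B, hB⟩ := hb
  refine ⟨|B|, abs_nonneg _, fun r hr x y => ?_⟩
  have h := Convex.norm_image_sub_le_of_norm_deriv_le (f := u r) (C := |B|) (s := Set.univ)
    (x := y) (y := x) (fun z _ => (hu0.hdx hr z).differentiableAt)
    (fun z _ => by
      rw [(hu0.hdx hr z).deriv, Real.norm_eq_abs]
      exact (hB r hr z).trans (le_abs_self _))
    convex_univ (Set.mem_univ _) (Set.mem_univ _)
  simpa [Real.norm_eq_abs] using h

/-- two-sided bound of the tilting weight -/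
theorem CnNgr_key (hζ : 0 ≤ ζ) (hu0 : EG I 1 u) (hb : Bd I (DX u)) (hv : VOK I v₀ θ) :
    ∃ K S : ℝ, 0 ≤ K ∧ 0 ≤ S ∧ ∀ r ∈ I, Real.sqrt (v₀ + θ * r) ≤ S ∧ ∀ x g,
      Real.exp (ζ * u r x) * Real.exp (-K * |g|) ≤
        Real.exp (ζ * u r (x + Real.sqrt (v₀ + θ * r) * g)) ∧
      Real.exp (ζ * u r (x + Real.sqrt (v₀ + θ * r) * g)) ≤
        Real.exp (ζ * u r x) * Real.exp (K * |g|) := by
  obtain ⟨B, hB0, hB⟩ := CnNgr_lip hu0 hb
  obtain ⟨_, b, hb'⟩ := hv
  refine ⟨ζ * (B * Real.sqrt b), Real.sqrt b, by positivity, Real.sqrt_nonneg _, fun r hr => ?_⟩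
  have hS : Real.sqrt (v₀ + θ * r) ≤ Real.sqrt b := Real.sqrt_le_sqrt (hb' r hr)
  refine ⟨hS, fun x g => ?_⟩
  have h1 := hB r hr (x + Real.sqrt (v₀ + θ * r) * g) x
  have h2 : |x + Real.sqrt (v₀ + θ * r) * g - x| ≤ Real.sqrt b * |g| := by
    rw [add_sub_cancel_left, abs_mul, abs_of_nonneg (Real.sqrt_nonneg _)]
    exact mul_le_mul_of_nonneg_right hS (abs_nonneg _)
  have h3 : |u r (x + Real.sqrt (v₀ + θ * r) * g) - u r x| ≤ B * (Real.sqrt b * |g|) :=
    h1.trans (mul_le_mul_of_nonneg_left h2 hB0)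
  obtain ⟨h4, h5⟩ := abs_le.mp h3
  have h6 := mul_le_mul_of_nonneg_left h4 hζ
  have h7 := mul_le_mul_of_nonneg_left h5 hζ
  rw [← Real.exp_add, ← Real.exp_add]
  constructor
  · refine Real.exp_le_exp.mpr ?_
    linarith
  · refine Real.exp_le_exp.mpr ?_
    linarith

theorem CnNgr_Jpos (c : ℝ) : 0 < ∫ g, Real.exp (c * |g|) ∂(gaussianReal 0 1) :=
  integral_exp_pos (integrable_exp_abs_gauss c)

theorem CnNgr_growth {M : ℝ} (hM : 0 ≤ M) {S : ℝ} {s : ℝ} (hs0 : 0 ≤ s) (hs : s ≤ S) (x g : ℝ) :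
    M * |x + s * g| ≤ M * |x| + M * S * |g| := by
  have h1 : |x + s * g| ≤ |x| + s * |g| := by
    calc |x + s * g| ≤ |x| + |s * g| := abs_add_le _ _
      _ = |x| + s * |g| := by rw [abs_mul, abs_of_nonneg hs0]
  have h2 : s * |g| ≤ S * |g| := mul_le_mul_of_nonneg_right hs (abs_nonneg _)
  have h3 := mul_le_mul_of_nonneg_left (h1.trans (add_le_add_right h2 |x|)) hM
  linarith

/-- the tilted expectation is of class `EG0`. Growth: with `|u_x| ≤ B`,
`exp(ζ u(x+√v g)) ≤ exp(ζ u(x)) exp(ζ B √v |g|)` in the numerator and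
`≥ exp(ζ u(x)) exp(-ζ B √v |g|)` in the denominator. -/
theorem EG0.en (hI : IsOpen I) (hζ : 0 ≤ ζ) (hu0 : EG I 1 u) (hu : LGr I u) (hb : Bd I (DX u))
    (hv : VOK I v₀ θ) (hF : EG0 I F) : EG0 I (En ζ v₀ θ u F) := by
  have hu00 : EG0 I u := hu0.eg0
  constructor
  · have h1 : ContinuousOn (fun p : ℝ × ℝ => Nn ζ v₀ θ u F p.1 p.2) (I ×ˢ Set.univ) :=
      Nn_cont hI hu00 hu hv hF
    have h2 : ContinuousOn (fun p : ℝ × ℝ => Nn ζ v₀ θ u (fun _ _ => 1) p.1 p.2)
        (I ×ˢ Set.univ) := Nn_cont hI hu00 hu hv (EG0.const 1)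
    refine ContinuousOn.congr (h1.div h2 ?_) ?_
    · rintro ⟨r, x⟩ hp
      exact (nn_one_pos (LGr.lg hu00 hu hp.1) ζ _ x).ne'
    · rintro ⟨r, x⟩ _
      rfl
  · obtain ⟨K, S, hK, hS, hk⟩ := CnNgr_key (v₀ := v₀) (θ := θ) hζ hu0 hb hv
    obtain ⟨M, hM, hF'⟩ := hF.gr
    set C1 := ∫ g, Real.exp ((M * S + K) * |g|) ∂(gaussianReal 0 1) with hC1
    set c0 := ∫ g, Real.exp (-K * |g|) ∂(gaussianReal 0 1) with hc0
    have hC1p : 0 < C1 := CnNgr_Jpos _
    have hc0p : 0 < c0 := CnNgr_Jpos _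
    refine ⟨max M (M * C1 / c0), le_max_of_le_left hM, fun r hr x => ?_⟩
    obtain ⟨hsS, hw⟩ := hk r hr
    have hlg := LGr.lg hu00 hu hr
    have hs0 := Real.sqrt_nonneg (v₀ + θ * r)
    have hE : 0 < Real.exp (ζ * u r x) := Real.exp_pos _
    -- numerator
    have hnum : |nn ζ (v₀ + θ * r) (u r) (F r) x| ≤
        Real.exp (ζ * u r x) * (M * Real.exp (M * |x|)) * C1 := by
      unfold nn
      rw [hC1, ← integral_const_mul, ← Real.norm_eq_abs]
      refine norm_integral_le_of_norm_le ((integrable_exp_abs_gauss _).const_mul _)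
        (Filter.Eventually.of_forall fun g => ?_)
      rw [Real.norm_eq_abs, abs_mul, abs_of_pos (Real.exp_pos _)]
      have h1 := hF' r hr (x + Real.sqrt (v₀ + θ * r) * g)
      have h2 := (hw x g).2
      have h3 : M * Real.exp (M * |x + Real.sqrt (v₀ + θ * r) * g|) ≤
          M * (Real.exp (M * |x|) * Real.exp (M * S * |g|)) := by
        rw [← Real.exp_add]
        exact mul_le_mul_of_nonneg_left
          (Real.exp_le_exp.mpr (CnNgr_growth hM hs0 hsS x g)) hM
      calc |F r (x + Real.sqrt (v₀ + θ * r) * g)| *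
            Real.exp (ζ * u r (x + Real.sqrt (v₀ + θ * r) * g))
          ≤ (M * (Real.exp (M * |x|) * Real.exp (M * S * |g|))) *
            (Real.exp (ζ * u r x) * Real.exp (K * |g|)) :=
            mul_le_mul (h1.trans h3) h2 (Real.exp_pos _).le (by positivity)
        _ = Real.exp (ζ * u r x) * (M * Real.exp (M * |x|)) *
            (Real.exp (M * S * |g|) * Real.exp (K * |g|)) := by ring
        _ = Real.exp (ζ * u r x) * (M * Real.exp (M * |x|)) *
            Real.exp ((M * S + K) * |g|) := by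
            rw [← Real.exp_add]; ring_nf
    -- denominator
    have hden : Real.exp (ζ * u r x) * c0 ≤ nn ζ (v₀ + θ * r) (u r) (fun _ => 1) x := by
      unfold nn
      rw [hc0, ← integral_const_mul]
      refine integral_mono ((integrable_exp_abs_gauss _).const_mul _)
        (ce_tilt hlg (CE.const 1) ζ _ x).int fun g => ?_
      simp only [one_mul]
      exact (hw x g).1
    have hdenp : 0 < nn ζ (v₀ + θ * r) (u r) (fun _ => 1) x := nn_one_pos hlg ζ _ x
    have h5 : |En ζ v₀ θ u F r x| ≤ M * C1 / c0 * Real.exp (M * |x|) := by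
      show |nn ζ (v₀ + θ * r) (u r) (F r) x / nn ζ (v₀ + θ * r) (u r) (fun _ => 1) x| ≤ _
      rw [abs_div, abs_of_pos hdenp, div_le_iff₀ hdenp]
      refine hnum.trans ?_
      have h6 : M * C1 / c0 * Real.exp (M * |x|) * (Real.exp (ζ * u r x) * c0) ≤
          M * C1 / c0 * Real.exp (M * |x|) * nn ζ (v₀ + θ * r) (u r) (fun _ => 1) x :=
        mul_le_mul_of_nonneg_left hden (by positivity)
      refine le_trans (le_of_eq ?_) h6
      field_simp
    refine h5.trans ?_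
    exact mul_le_mul (le_max_right _ _)
      (Real.exp_le_exp.mpr (mul_le_mul_of_nonneg_right (le_max_left _ _) (abs_nonneg _)))
      (Real.exp_pos _).le (le_max_of_le_left hM)

/-- lower bound -/
theorem LBd.en (hζ : 0 ≤ ζ) (hu0 : EG I 1 u) (hu : LGr I u) (hb : Bd I (DX u))
    (hv : VOK I v₀ θ) (hF0 : EG0 I F) (hF : LBd I F) : LBd I (En ζ v₀ θ u F) := by
  have hu00 : EG0 I u := hu0.eg0
  obtain ⟨K, S, hK, hS, hk⟩ := CnNgr_key (v₀ := v₀) (θ := θ) hζ hu0 hb hv
  obtain ⟨c, C, hc, hC, hF'⟩ := hF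
  set c2 := ∫ g, Real.exp (-(C * S + K) * |g|) ∂(gaussianReal 0 1) with hc2
  set C3 := ∫ g, Real.exp (K * |g|) ∂(gaussianReal 0 1) with hC3
  have hc2p : 0 < c2 := CnNgr_Jpos _
  have hC3p : 0 < C3 := CnNgr_Jpos _
  refine ⟨c * c2 / C3, C, by positivity, hC, fun r hr x => ?_⟩
  obtain ⟨hsS, hw⟩ := hk r hr
  have hlg := LGr.lg hu00 hu hr
  have hs0 := Real.sqrt_nonneg (v₀ + θ * r)
  have hE : 0 < Real.exp (ζ * u r x) := Real.exp_pos _
  have hnum : Real.exp (ζ * u r x) * (c * Real.exp (-(C * |x|))) * c2 ≤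
      nn ζ (v₀ + θ * r) (u r) (F r) x := by
    unfold nn
    rw [hc2, ← integral_const_mul]
    refine integral_mono ((integrable_exp_abs_gauss _).const_mul _)
      (ce_tilt hlg (hF0.ce hr) ζ _ x).int fun g => ?_
    have h1 := hF' r hr (x + Real.sqrt (v₀ + θ * r) * g)
    have h2 := (hw x g).1
    have h3 : c * (Real.exp (-(C * |x|)) * Real.exp (-(C * S) * |g|)) ≤
        c * Real.exp (-(C * |x + Real.sqrt (v₀ + θ * r) * g|)) := by
      rw [← Real.exp_add]
      refine mul_le_mul_of_nonneg_left (Real.exp_le_exp.mpr ?_) hc.le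
      have := CnNgr_growth hC hs0 hsS x g
      linarith
    calc Real.exp (ζ * u r x) * (c * Real.exp (-(C * |x|))) *
          Real.exp (-(C * S + K) * |g|)
        = (c * (Real.exp (-(C * |x|)) * Real.exp (-(C * S) * |g|))) *
          (Real.exp (ζ * u r x) * Real.exp (-K * |g|)) := by
          have : Real.exp (-(C * S + K) * |g|) =
              Real.exp (-(C * S) * |g|) * Real.exp (-K * |g|) := by
            rw [← Real.exp_add]; ring_nf
          rw [this]; ring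
      _ ≤ F r (x + Real.sqrt (v₀ + θ * r) * g) *
          Real.exp (ζ * u r (x + Real.sqrt (v₀ + θ * r) * g)) :=
          mul_le_mul (h3.trans h1) h2 (by positivity)
            (le_trans (by positivity) (h3.trans h1))
  have hden : nn ζ (v₀ + θ * r) (u r) (fun _ => 1) x ≤ Real.exp (ζ * u r x) * C3 := by
    unfold nn
    rw [hC3, ← integral_const_mul]
    refine integral_mono (ce_tilt hlg (CE.const 1) ζ _ x).int
      ((integrable_exp_abs_gauss _).const_mul _) fun g => ?_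
    simp only [one_mul]
    exact (hw x g).2
  have hdenp : 0 < nn ζ (v₀ + θ * r) (u r) (fun _ => 1) x := nn_one_pos hlg ζ _ x
  show c * c2 / C3 * Real.exp (-(C * |x|)) ≤
    nn ζ (v₀ + θ * r) (u r) (F r) x / nn ζ (v₀ + θ * r) (u r) (fun _ => 1) x
  rw [le_div_iff₀ hdenp]
  have h6 : c * c2 / C3 * Real.exp (-(C * |x|)) * nn ζ (v₀ + θ * r) (u r) (fun _ => 1) x ≤
      c * c2 / C3 * Real.exp (-(C * |x|)) * (Real.exp (ζ * u r x) * C3) :=
    mul_le_mul_of_nonneg_left hden (by positivity)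
  refine h6.trans (le_trans (le_of_eq ?_) hnum)
  field_simp

end Crest.Agent.RI.Cn
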