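import Crest.Agent.RI.CnEa
import Crest.Agent.RI.CnEb
import Crest.Agent.RI.CnNgr

/-!
# Row 164, Part 10 (THEOREM CONC): closure of the classes EG under the tilted expectation
-/

set_option autoImplicit false

namespace Crest.Agent.RI.Cn

open MeasureTheory ProbabilityTheory
open Crest.ProbabilityR.InvariantGlass

variable {I : Set ℝ} {ζ v₀ θ : ℝ} {u F G : ℝ → ℝ → ℝ} {n : ℕ}

private theorem CnEc_G (hI : IsOpen I) (hu : EG I (n + 1) u) (hF : EG I (n + 1) F) :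
    EG I n (fun r x => DX F r x + ζ * (F r x * DX u r x)) :=
  hF.dx.add hI (((hF.mono (Nat.le_succ n)).mul hI hu.dx).smul hI ζ)

private theorem CnEc_H (hI : IsOpen I) (hu : EG I (n + 2) u) (hF : EG I (n + 2) F) :
    EG I n (fun r x => DR F r x + θ * LLo ζ u F r x + ζ * (F r x * Ph ζ θ u r x)) :=
  (hF.dr.add hI ((EG.llo hI hu hF).smul hI θ)).add hI
    (((hF.mono (by omega)).mul hI (EG.ph hI θ hu)).smul hI ζ)

private theorem CnEc_step1 (hI : IsOpen I) (hu4 : EG I 4 u) (hu : LGr I u)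
    (h0 : ∀ F, EG I 0 F → EG I 0 (En ζ v₀ θ u F)) (F : ℝ → ℝ → ℝ) (hF : EG I 1 F) :
    EG I 1 (En ζ v₀ θ u F) := by
  refine EG.mk1 hI (h0 F hF.1) (fun r hr x => En_dx (hu4.mono (by omega)) hu hF hr x) ?_
  have h1 : EG I 0 (fun r x => DX F r x + ζ * (F r x * DX u r x)) :=
    CnEc_G hI (hu4.mono (by omega)) hF
  have h2 : EG I 0 (DX u) := EG.dx (hu4.mono (by omega))
  exact (h0 _ h1).sub hI (((h0 F hF.1).mul hI (h0 _ h2)).smul hI ζ)

private theorem CnEc_step2 (hI : IsOpen I) (hu4 : EG I 4 u) (hu : LGr I u) (hv : VOK I v₀ θ)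
    (hn : n ≤ 1)
    (h0 : ∀ F, EG I n F → EG I n (En ζ v₀ θ u F))
    (h1 : ∀ F, EG I (n + 1) F → EG I (n + 1) (En ζ v₀ θ u F)) (F : ℝ → ℝ → ℝ)
    (hF : EG I (n + 2) F) : EG I (n + 2) (En ζ v₀ θ u F) := by
  have hF1 : EG I (n + 1) F := hF.mono (by omega)
  have hF0 : EG I n F := hF.mono (by omega)
  have hun : EG I (n + 2) u := hu4.mono (by omega)
  refine EG.mk2 hI (h1 F hF1).eg0
    (fun r hr x => En_dx (hu4.mono (by omega)) hu (hF.mono (by omega)) hr x) ?_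
    (fun r hr x => En_dr hI (hu4.mono (by omega)) hu hv (hF.mono (by omega)) hr x) ?_
  · have a1 : EG I (n + 1) (fun r x => DX F r x + ζ * (F r x * DX u r x)) := CnEc_G hI hun hF
    have a2 : EG I (n + 1) (DX u) := hun.dx
    exact (h1 _ a1).sub hI (((h1 F hF1).mul hI (h1 _ a2)).smul hI ζ)
  · have a1 := CnEc_H (ζ := ζ) (θ := θ) hI hun hF
    have a2 : EG I n (Ph ζ θ u) := EG.ph hI θ hun
    exact (h0 _ a1).sub hI (((h0 F hF0).mul hI (h0 _ a2)).smul hI ζ)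

/-- closure: induction on `n` by steps of two; `DX (En F) = En (F_x + ζ F u_x) - ζ En F En u_x`,
`DR (En F) = En (F_r + θ LL F + ζ F φ) - ζ En F En φ`, `mk1`, `mk2`. -/
theorem EG.en (hI : IsOpen I) (hζ : 0 ≤ ζ) (hu4 : EG I 4 u) (hu : LGr I u) (hb : Bd I (DX u))
    (hv : VOK I v₀ θ) (hn : n ≤ 3) (hF : EG I n F) : EG I n (En ζ v₀ θ u F) := by
  have p0 : ∀ F, EG I 0 F → EG I 0 (En ζ v₀ θ u F) := fun F hF =>
    EG0.en hI hζ (hu4.mono (by omega)) hu hb hv hF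
  have p1 := CnEc_step1 hI hu4 hu p0
  have p2 := CnEc_step2 (n := 0) hI hu4 hu hv (by omega) p0 p1
  have p3 := CnEc_step2 (n := 1) hI hu4 hu hv (by omega) p1 p2
  match n, hn, hF with
  | 0, _, hF => exact p0 F hF
  | 1, _, hF => exact p1 F hF
  | 2, _, hF => exact p2 F hF
  | 3, _, hF => exact p3 F hF
  | n + 4, hn, _ => omega

end Crest.Agent.RI.Cn
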