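import Crest.Agent.RI.CnEa

/-!
# Row 164, Part 10 (THEOREM CONC): derivatives of the Gaussian operator
-/

set_option autoImplicit false

namespace Crest.Agent.RI.Cn

open MeasureTheory ProbabilityTheory
open Crest.ProbabilityR.InvariantGlass

variable {I : Set ℝ} {ζ v₀ θ : ℝ} {u F G : ℝ → ℝ → ℝ} {n : ℕ}

theorem Tw_zero_eq (r x : ℝ) : Tw 0 v₀ θ u r x = Nn 0 v₀ θ u u r x := by
  simp only [Tw, gaussOp, Nn, nn, if_true, zero_mul, Real.exp_zero, mul_one]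

theorem Tw_pos_eq (hζ : ζ ≠ 0) (r x : ℝ) :
    Tw ζ v₀ θ u r x = ζ⁻¹ * Real.log (Nn ζ v₀ θ u (fun _ _ => 1) r x) := by
  simp only [Tw, gaussOp, Nn, nn, if_neg hζ, one_mul]

theorem nn_zero_one (v x : ℝ) (f : ℝ → ℝ) : nn 0 v f (fun _ => 1) x = 1 := by
  simp [nn]

theorem En_zero_eq (F : ℝ → ℝ → ℝ) (r x : ℝ) : En 0 v₀ θ u F r x = Nn 0 v₀ θ u F r x := by
  simp only [En, ee, Nn, nn_zero_one, div_one]

/-- `x`-derivative of the Gaussian operator (two cases `ζ = 0`, `ζ > 0`) -/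
theorem Tw_dx (hu1 : EG I 1 u) (hu : LGr I u) {r : ℝ} (hr : r ∈ I) (x : ℝ) :
    HasDerivAt (Tw ζ v₀ θ u r) (En ζ v₀ θ u (DX u) r x) x := by
  by_cases hζ : ζ = 0
  · subst hζ
    have e : Tw 0 v₀ θ u r = Nn 0 v₀ θ u u r := funext fun x => Tw_zero_eq r x
    rw [e, En_zero_eq]
    have h := Nn_dx (ζ := 0) (v₀ := v₀) (θ := θ) hu1 hu hu1 hr x
    simp only [zero_mul, add_zero] at h
    exact h
  · have e : Tw ζ v₀ θ u r = fun x => ζ⁻¹ * Real.log (Nn ζ v₀ θ u (fun _ _ => 1) r x) :=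
      funext fun x => Tw_pos_eq hζ r x
    rw [e]
    have hne := En_one_ne (ζ := ζ) (v₀ := v₀) (θ := θ) hu1.eg0 hu hr x
    have h := ((Nn_one_dx (ζ := ζ) (v₀ := v₀) (θ := θ) hu1 hu hr x).log hne).const_mul ζ⁻¹
    refine h.congr_deriv ?_
    change ζ⁻¹ * (ζ * Nn ζ v₀ θ u (DX u) r x / Nn ζ v₀ θ u (fun _ _ => 1) r x) =
      Nn ζ v₀ θ u (DX u) r x / Nn ζ v₀ θ u (fun _ _ => 1) r x
    field_simp

/-- parameter derivative of the Gaussian operator (two cases `ζ = 0`, `ζ > 0`) -/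
theorem Tw_dr (hI : IsOpen I) (hu2 : EG I 2 u) (hu : LGr I u) (hv : VOK I v₀ θ) {r : ℝ}
    (hr : r ∈ I) (x : ℝ) :
    HasDerivAt (fun s => Tw ζ v₀ θ u s x) (En ζ v₀ θ u (Ph ζ θ u) r x) r := by
  by_cases hζ : ζ = 0
  · subst hζ
    have e : (fun s => Tw 0 v₀ θ u s x) = fun s => Nn 0 v₀ θ u u s x :=
      funext fun s => Tw_zero_eq s x
    rw [e, En_zero_eq]
    have h := Nn_dr (ζ := 0) hI hu2 hu hv hu2 hr x
    refine h.congr_deriv ?_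
    congr 1
    funext r x
    simp only [LLo, Ph, Ps]
    ring
  · have e : (fun s => Tw ζ v₀ θ u s x) =
        fun s => ζ⁻¹ * Real.log (Nn ζ v₀ θ u (fun _ _ => 1) s x) :=
      funext fun s => Tw_pos_eq hζ s x
    rw [e]
    have hne := En_one_ne (ζ := ζ) (v₀ := v₀) (θ := θ) hu2.eg0 hu hr x
    have h := ((Nn_one_dr (ζ := ζ) hI hu2 hu hv hr x).log hne).const_mul ζ⁻¹
    refine h.congr_deriv ?_
    change ζ⁻¹ * (ζ * Nn ζ v₀ θ u (Ph ζ θ u) r x / Nn ζ v₀ θ u (fun _ _ => 1) r x) =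
      Nn ζ v₀ θ u (Ph ζ θ u) r x / Nn ζ v₀ θ u (fun _ _ => 1) r x
    field_simp

end Crest.Agent.RI.Cn
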