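import Crest.Agent.RI.CnEc
import Crest.Agent.RI.CnEd

/-!
# Row 164, Part 10 (THEOREM CONC): regularity is preserved
-/

set_option autoImplicit false

namespace Crest.Agent.RI.Cn

open MeasureTheory ProbabilityTheory
open Crest.ProbabilityR.InvariantGlass

variable {I : Set ℝ} {ζ v₀ θ : ℝ} {u F G : ℝ → ℝ → ℝ} {n : ℕ}

theorem CnEe_lg_abs (c d : ℝ) : LG (fun g : ℝ => c * |g| + d) := by
  refine ⟨by fun_prop, |d|, |c|, fun x => ?_⟩
  calc abs (c * abs x + d) ≤ abs (c * abs x) + abs d := abs_add_le _ _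
    _ = abs d + abs c * abs x := by rw [abs_mul, abs_abs]; ring

/-- linear growth and continuity of `Tw` -/
theorem Tw_lgr (hI : IsOpen I) (hζ : 0 ≤ ζ) (hu1 : EG I 1 u) (hu : LGr I u) (hb : Bd I (DX u))
    (hv : VOK I v₀ θ) : LGr I (Tw ζ v₀ θ u) ∧ EG0 I (Tw ζ v₀ θ u) := by
  have hu0 : EG0 I u := hu1.eg0
  obtain ⟨C, hC, hCu⟩ := id hu
  obtain ⟨b, hvb⟩ := hv.2
  obtain ⟨a, ha, hva⟩ := hv.1
  have hlgr : LGr I (Tw ζ v₀ θ u) := by
    set K1 := lem ζ (fun g => C * Real.sqrt b * |g|) with hK1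
    set K2 := lem ζ (fun g => -(C * Real.sqrt b) * |g|) with hK2
    refine ⟨C + (|K1| + |K2|), by positivity, fun r hr x => ?_⟩
    have hlg := (hu.lg hu0 hr).aff x (Real.sqrt (v₀ + θ * r))
    have hb1 : ∀ g : ℝ, |u r (x + Real.sqrt (v₀ + θ * r) * g)| ≤ C * Real.sqrt b * |g| + C * (1 + |x|) := by
      intro g
      refine (hCu r hr _).trans ?_
      have h1 : |x + Real.sqrt (v₀ + θ * r) * g| ≤ |x| + Real.sqrt b * |g| := by
        refine (abs_add_le _ _).trans ?_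
        rw [abs_mul, abs_of_nonneg (Real.sqrt_nonneg _)]
        have := Real.sqrt_le_sqrt (hvb r hr)
        gcongr
      calc C * (1 + |x + Real.sqrt (v₀ + θ * r) * g|) ≤ C * (1 + (|x| + Real.sqrt b * |g|)) := by gcongr
        _ = _ := by ring
    have hup : Tw ζ v₀ θ u r x ≤ K1 + C * (1 + |x|) := by
      have h1 : LG (fun g : ℝ => C * Real.sqrt b * |g|) := by simpa using CnEe_lg_abs (C * Real.sqrt b) 0
      have h2 := lem_mono hζ hlg (CnEe_lg_abs (C * Real.sqrt b) (C * (1 + |x|)))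
        (fun g => (abs_le.mp (hb1 g)).2)
      rw [lem_add_const ζ (C * (1 + |x|)) h1] at h2
      exact h2
    have hlo : K2 + -(C * (1 + |x|)) ≤ Tw ζ v₀ θ u r x := by
      have h1 : LG (fun g : ℝ => -(C * Real.sqrt b) * |g|) := by
        simpa using CnEe_lg_abs (-(C * Real.sqrt b)) 0
      have h2 := lem_mono hζ (CnEe_lg_abs (-(C * Real.sqrt b)) (-(C * (1 + |x|)))) hlg
        (fun g => by have := (abs_le.mp (hb1 g)).1; linarith)
      rw [lem_add_const ζ (-(C * (1 + |x|))) h1] at h2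
      exact h2
    have hx := abs_nonneg x
    have e1 := le_abs_self K1
    have e2 := neg_abs_le K2
    have e3 := abs_nonneg K1
    have e4 := abs_nonneg K2
    have e5 : 0 ≤ (|K1| + |K2|) * |x| := by positivity
    rw [abs_le]
    constructor <;> nlinarith
  refine ⟨hlgr, ?_, ?_⟩
  · by_cases h0 : ζ = 0
    · subst h0
      have h1 := Nn_cont (ζ := 0) hI hu0 hu hv hu0
      refine h1.congr fun p _ => ?_
      simp [Tw, Nn, nn, gaussOp]
    · have h1 := Nn_cont (ζ := ζ) hI hu0 hu hv (EG0.const (I := I) 1)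
      have h2 : ContinuousOn (fun p : ℝ × ℝ => ζ⁻¹ * Real.log (Nn ζ v₀ θ u (fun _ _ => 1) p.1 p.2))
          (I ×ˢ Set.univ) := by
        refine continuousOn_const.mul (h1.log fun p hp => ?_)
        exact (nn_one_pos (hu.lg hu0 hp.1) ζ _ p.2).ne'
      refine h2.congr fun p _ => ?_
      simp [Tw, Nn, nn, gaussOp, h0]
  · obtain ⟨D, hD, hDu⟩ := hlgr
    refine ⟨D + 1, by linarith, fun r hr x => ?_⟩
    refine (hDu r hr x).trans ?_
    have h1 : 1 + |x| ≤ Real.exp ((D + 1) * |x|) := by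
      have := Real.add_one_le_exp |x|
      have h2 : Real.exp |x| ≤ Real.exp ((D + 1) * |x|) :=
        Real.exp_le_exp.mpr (by nlinarith [abs_nonneg x])
      linarith
    calc D * (1 + |x|) ≤ (D + 1) * (1 + |x|) := by nlinarith [abs_nonneg x]
      _ ≤ (D + 1) * Real.exp ((D + 1) * |x|) := by gcongr

/-- derivatives of `Tw` on `I` -/
theorem CnEe_dx (hu1 : EG I 1 u) (hu : LGr I u) {r : ℝ} (hr : r ∈ I) (x : ℝ) :
    DX (Tw ζ v₀ θ u) r x = En ζ v₀ θ u (DX u) r x := (Tw_dx hu1 hu hr x).deriv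

theorem CnEe_dxx (hu2 : EG I 2 u) (hu : LGr I u) {r : ℝ} (hr : r ∈ I) (x : ℝ) :
    DX (DX (Tw ζ v₀ θ u)) r x =
      En ζ v₀ θ u (fun r x => DX (DX u) r x + ζ * (DX u r x * DX u r x)) r x -
        ζ * (En ζ v₀ θ u (DX u) r x * En ζ v₀ θ u (DX u) r x) := by
  have h1 := DX_congr (I := I) (F := DX (Tw ζ v₀ θ u)) (G := En ζ v₀ θ u (DX u))
    (fun r hr x => CnEe_dx (hu2.mono (by norm_num)) hu hr x) r hr x
  rw [h1]
  exact (En_dx (hu2.mono (by norm_num)) hu hu2.dx hr x).deriv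

/-- variance of the tilted expectation -/
theorem CnEe_var {ζ v : ℝ} {u F : ℝ → ℝ} (hu : LG u) (hF : CE F) (x : ℝ) :
    ee ζ v u F x * ee ζ v u F x ≤ ee ζ v u (fun z => F z * F z) x := by
  set m := ee ζ v u F x with hm
  have h1 : CE (fun z => F z * F z + ((-2 * m) * F z + m * m)) :=
    (hF.mul hF).add ((hF.smul (-2 * m)).add (CE.const (m * m)))
  have h2 := ee_mono (ζ := ζ) (v := v) hu (CE.const 0) h1
    (fun z => by nlinarith [sq_nonneg (F z - m)]) x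
  rw [ee_const hu, ee_add hu (hF.mul hF) ((hF.smul (-2 * m)).add (CE.const (m * m))),
    ee_add hu (hF.smul (-2 * m)) (CE.const (m * m)), ee_smul, ee_const hu, ← hm] at h2
  nlinarith

/-- regularity is preserved -/
theorem Reg.tw (hI : IsOpen I) (hζ : 0 ≤ ζ) (hv : VOK I v₀ θ) (hu : Reg I u) :
    Reg I (Tw ζ v₀ θ u) := by
  have hu1 : EG I 1 u := hu.eg.mono (by norm_num)
  have hu2 : EG I 2 u := hu.eg.mono (by norm_num)
  have hl := hu.lin
  obtain ⟨hT1, hT0⟩ := Tw_lgr hI hζ hu1 hl hu.bx hv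
  have cux : ∀ r ∈ I, CE (DX u r) := fun r hr => hu1.dx.eg0.ce hr
  have cuxx : ∀ r ∈ I, CE (DX (DX u) r) := fun r hr => hu2.dx.dx.eg0.ce hr
  have cur : ∀ r ∈ I, CE (DR u r) := fun r hr => hu2.dr.eg0.ce hr
  obtain ⟨B, hB⟩ := hu.bx
  obtain ⟨B2, hB2⟩ := hu.bxx
  obtain ⟨B3, hB3⟩ := hu.br
  have hEx : ∀ r ∈ I, ∀ x, |En ζ v₀ θ u (DX u) r x| ≤ B := fun r hr x =>
    ee_abs_le (hl.lg hu1.eg0 hr) (cux r hr) (hB r hr) _ _ _
  refine ⟨?_, hT1, ?_, ?_, ?_, ?_⟩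
  · refine EG.mk2 (n := 2) hI hT0 (fun r hr x => Tw_dx hu1 hl hr x) ?_
      (fun r hr x => Tw_dr hI hu2 hl hv hr x) ?_
    · exact EG.en hI hζ hu.eg hl hu.bx hv (by norm_num) hu.eg.dx
    · exact EG.en hI hζ hu.eg hl hu.bx hv (by norm_num) (EG.ph hI θ hu.eg)
  · refine ⟨B, fun r hr x => ?_⟩
    rw [CnEe_dx hu1 hl hr x]
    exact hEx r hr x
  · refine ⟨(B2 + ζ * (B * B)) + ζ * (B * B), fun r hr x => ?_⟩
    have hB0 : 0 ≤ B := (abs_nonneg _).trans (hB r hr x)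
    rw [CnEe_dxx hu2 hl hr x]
    have h1 : |En ζ v₀ θ u (fun r x => DX (DX u) r x + ζ * (DX u r x * DX u r x)) r x| ≤
        B2 + ζ * (B * B) := by
      refine ee_abs_le (hl.lg hu1.eg0 hr) ((cuxx r hr).add (((cux r hr).mul (cux r hr)).smul ζ)) ?_ _ _ _
      intro z
      refine (abs_add_le _ _).trans ?_
      rw [abs_mul, abs_mul, abs_of_nonneg hζ]
      have e1 := hB2 r hr z
      have e2 := hB r hr z
      gcongr
    have h2 : |ζ * (En ζ v₀ θ u (DX u) r x * En ζ v₀ θ u (DX u) r x)| ≤ ζ * (B * B) := by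
      rw [abs_mul, abs_mul, abs_of_nonneg hζ]
      have e2 := hEx r hr x
      gcongr
    exact (abs_sub _ _).trans (add_le_add h1 h2)
  · refine ⟨B3 + |θ| * (1 / 2 * (B2 + ζ * (B * B))), fun r hr x => ?_⟩
    have hB0 : 0 ≤ B := (abs_nonneg _).trans (hB r hr x)
    have h0 : DR (Tw ζ v₀ θ u) r x = En ζ v₀ θ u (Ph ζ θ u) r x := (Tw_dr hI hu2 hl hv hr x).deriv
    rw [h0]
    have hph : CE (Ph ζ θ u r) := (EG.ph hI θ hu.eg : EG I 2 (Ph ζ θ u)).eg0.ce hr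
    refine ee_abs_le (hl.lg hu1.eg0 hr) hph ?_ _ _ _
    intro z
    unfold Ph Ps
    refine (abs_add_le _ _).trans ?_
    have e1 := hB3 r hr z
    have e2 : |θ * (1 / 2 * (DX (DX u) r z + ζ * DX u r z ^ 2))| ≤
        |θ| * (1 / 2 * (B2 + ζ * (B * B))) := by
      rw [abs_mul, abs_mul, abs_of_pos (by norm_num : (0:ℝ) < 1 / 2)]
      have e3 : |DX (DX u) r z + ζ * DX u r z ^ 2| ≤ B2 + ζ * (B * B) := by
        refine (abs_add_le _ _).trans ?_
        rw [abs_mul, abs_pow, abs_of_nonneg hζ, sq]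
        have e1 := hB2 r hr z
        have e2 := hB r hr z
        gcongr
      gcongr
    exact add_le_add e1 e2
  · have h1 := LBd.en hζ hu1 hl hu.bx hv hu2.dx.dx.eg0 hu.low
    obtain ⟨c, C, hc, hC, h2⟩ := h1
    refine ⟨c, C, hc, hC, fun r hr x => (h2 r hr x).trans ?_⟩
    rw [CnEe_dxx hu2 hl hr x]
    have h3 : En ζ v₀ θ u (fun r x => DX (DX u) r x + ζ * (DX u r x * DX u r x)) r x =
        En ζ v₀ θ u (DX (DX u)) r x + ζ * En ζ v₀ θ u (fun r x => DX u r x * DX u r x) r x := by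
      unfold En
      rw [ee_add (hl.lg hu1.eg0 hr) (cuxx r hr) (((cux r hr).mul (cux r hr)).smul ζ), ee_smul]
    have h4 := CnEe_var (ζ := ζ) (v := v₀ + θ * r) (hl.lg hu1.eg0 hr) (cux r hr) x
    rw [h3]
    have h5 : ζ * (En ζ v₀ θ u (DX u) r x * En ζ v₀ θ u (DX u) r x) ≤
        ζ * En ζ v₀ θ u (fun r x => DX u r x * DX u r x) r x := mul_le_mul_of_nonneg_left h4 hζ
    linarith

end Crest.Agent.RI.Cn
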