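import Crest.Agent.RI.CnLimB

/-!
# Row 164, Part 10 (THEOREM CONC): reduction to strictly positive variances
-/

set_option autoImplicit false

namespace Crest.Agent.RI.Cn

open MeasureTheory ProbabilityTheory Filter Topology
open Crest.ProbabilityR.InvariantGlass

theorem CnLim_sum_add (τ : ℕ → ℝ) (e : ℝ) (k : ℕ) :
    ∑ i ∈ Finset.range k, (τ i + e) = (∑ i ∈ Finset.range k, τ i) + k * e := by
  rw [Finset.sum_add_distrib, Finset.sum_const, Finset.card_range, nsmul_eq_mul]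

/-- lower bound of the shifted Legendre transform -/
theorem CnLim_leg_ge {ζ : ℕ → ℝ} {k : ℕ} (hζ : ∀ j < k, 0 ≤ ζ j) {m : ℝ} (hm : |m| < 1)
    {τ : ℕ → ℝ} (h0 : ∀ i, 0 ≤ τ i) {e : ℝ} (he : 0 ≤ e) :
    siteLeg ζ τ k m - (1 / 2) * (k * e) ≤ siteLeg ζ (fun i => τ i + e) k m := by
  unfold siteLeg
  refine le_ciInf fun b => ?_
  have h1 : (⨅ b : ℝ, (siteVal ζ τ k b - b * m)) ≤ siteVal ζ τ k b - b * m :=
    ciInf_le (siteVal_bddBelow hζ τ hm) b
  have h2 : recT ζ τ k 0 lch b ≤ recT ζ (fun i => τ i + e) k 0 lch b := by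
    refine recT_mono k 0 (fun j _ hj => ⟨hζ j (by omega), h0 j, by linarith⟩) b
  have h3 : siteVal ζ (fun i => τ i + e) k b =
      recT ζ (fun i => τ i + e) k 0 lch b - (1 / 2) * ((∑ i ∈ Finset.range k, τ i) + k * e) := by
    unfold siteVal
    rw [CnLim_sum_add]
  have h4 : siteVal ζ τ k b =
      recT ζ τ k 0 lch b - (1 / 2) * (∑ i ∈ Finset.range k, τ i) := rfl
  linarith

/-- reduction of THEOREM CONC to strictly positive variances -/
theorem conc_of_pos {ζ : ℕ → ℝ} {k : ℕ} (hζ : SExps ζ k) {m : ℝ} (hm : |m| < 1)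
    (H : ∀ τ₀ τ₁ : ℕ → ℝ, (∃ ε : ℝ, 0 < ε ∧ ∀ i, ε ≤ τ₀ i ∧ ε ≤ τ₁ i) → ∀ t : ℝ, 0 ≤ t → t ≤ 1 →
      (1 - t) * siteLeg ζ τ₀ k m + t * siteLeg ζ τ₁ k m ≤
        siteLeg ζ (fun i => (1 - t) * τ₀ i + t * τ₁ i) k m)
    {τ₀ τ₁ : ℕ → ℝ} (h0 : ∀ i, 0 ≤ τ₀ i) (h1 : ∀ i, 0 ≤ τ₁ i) {t : ℝ} (ht0 : 0 ≤ t) (ht1 : t ≤ 1) :
    (1 - t) * siteLeg ζ τ₀ k m + t * siteLeg ζ τ₁ k m ≤
      siteLeg ζ (fun i => (1 - t) * τ₀ i + t * τ₁ i) k m := by
  have hζ0 : ∀ j < k, 0 ≤ ζ j := fun j hj => (hζ.1 j hj).1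
  set τt : ℕ → ℝ := fun i => (1 - t) * τ₀ i + t * τ₁ i with hτt
  have hτt0 : ∀ i, 0 ≤ τt i := fun i =>
    add_nonneg (mul_nonneg (by linarith) (h0 i)) (mul_nonneg ht0 (h1 i))
  have ht : siteLeg ζ τt k m = ⨅ b : ℝ, (siteVal ζ τt k b - b * m) := rfl
  rw [ht]
  refine le_ciInf fun b => ?_
  -- the sequence
  set e : ℕ → ℝ := fun p => 1 / ((p : ℝ) + 1) with he
  have hepos : ∀ p, 0 < e p := fun p => by simp only [he]; positivity
  have he1 : ∀ p, e p ≤ 1 := fun p => by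
    simp only [he]
    rw [div_le_one (by positivity)]
    have : (0 : ℝ) ≤ p := Nat.cast_nonneg p
    linarith
  have hlim : Tendsto e atTop (𝓝 0) := tendsto_one_div_add_atTop_nhds_zero_nat
  have hR : Tendsto (fun p => siteVal ζ (fun i => τt i + e p) k b - b * m) atTop
      (𝓝 (siteVal ζ τt k b - b * m)) := by
    have hrec := recT_tendsto (ζ := ζ) hτt0 (fun p => (hepos p).le) he1 hlim k 0
      (fun j _ hj => hζ0 j (by omega)) b
    have h5 : Tendsto (fun p => recT ζ (fun i => τt i + e p) k 0 lch b -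
        (1 / 2) * ((∑ i ∈ Finset.range k, τt i) + k * e p) - b * m) atTop
        (𝓝 (recT ζ τt k 0 lch b - (1 / 2) * ((∑ i ∈ Finset.range k, τt i) + k * 0) - b * m)) :=
      (hrec.sub ((tendsto_const_nhds.add (tendsto_const_nhds.mul hlim)).const_mul _)).sub_const _
    have h6 : siteVal ζ τt k b - b * m =
        recT ζ τt k 0 lch b - (1 / 2) * ((∑ i ∈ Finset.range k, τt i) + k * 0) - b * m := by
      unfold siteVal; ring
    rw [h6]
    refine h5.congr fun p => ?_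
    unfold siteVal
    rw [CnLim_sum_add]
  have hL : Tendsto (fun p => (1 - t) * (siteLeg ζ τ₀ k m - (1 / 2) * (k * e p)) +
      t * (siteLeg ζ τ₁ k m - (1 / 2) * (k * e p))) atTop
      (𝓝 ((1 - t) * siteLeg ζ τ₀ k m + t * siteLeg ζ τ₁ k m)) := by
    have h7 : Tendsto (fun p => (1 - t) * (siteLeg ζ τ₀ k m - (1 / 2) * (k * e p)) +
      t * (siteLeg ζ τ₁ k m - (1 / 2) * (k * e p))) atTop
      (𝓝 ((1 - t) * (siteLeg ζ τ₀ k m - (1 / 2) * (k * 0)) +
        t * (siteLeg ζ τ₁ k m - (1 / 2) * (k * 0)))) :=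
      (((hlim.const_mul _).const_mul _).const_sub _ |>.const_mul _).add
        (((hlim.const_mul _).const_mul _).const_sub _ |>.const_mul _)
    simpa using h7
  refine le_of_tendsto_of_tendsto' hL hR fun p => ?_
  have hp := H (fun i => τ₀ i + e p) (fun i => τ₁ i + e p)
    ⟨e p, hepos p, fun i => ⟨by linarith [h0 i], by linarith [h1 i]⟩⟩ t ht0 ht1
  have heq : (fun i => (1 - t) * (τ₀ i + e p) + t * (τ₁ i + e p)) = fun i => τt i + e p := by
    funext i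
    simp only [hτt]
    ring
  rw [heq] at hp
  have ha := CnLim_leg_ge hζ0 hm h0 (hepos p).le
  have hb := CnLim_leg_ge hζ0 hm h1 (hepos p).le
  have hc : siteLeg ζ (fun i => τt i + e p) k m ≤ siteVal ζ (fun i => τt i + e p) k b - b * m :=
    ciInf_le (siteVal_bddBelow hζ0 (fun i => τt i + e p) hm) b
  have hd := mul_le_mul_of_nonneg_left ha (show 0 ≤ 1 - t by linarith)
  have hf := mul_le_mul_of_nonneg_left hb ht0
  linarith

end Crest.Agent.RI.Cn
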