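import Crest.Agent.RI.CnStep
import Crest.Agent.RI.CnBase
import Crest.Agent.RI.CnCC
import Crest.Agent.RI.CnLim

/-!
# Row 164, Part 10: assembly
-/

set_option autoImplicit false

namespace Crest.Agent.RI.Cn

open MeasureTheory ProbabilityTheory
open Crest.ProbabilityR.InvariantGlass

variable {I : Set ℝ}

/-- the tower of families: regularity and condition -/
theorem tower_cond (hI : IsOpen I) {ζ : ℕ → ℝ} {k : ℕ} (hζ : SExps ζ k) {τ₀ θ : ℕ → ℝ}
    (hv : ∀ i < k, VOK I (τ₀ i) (θ i)) : ∀ n i : ℕ, i + n = k →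
    Reg I (fun r x => recT ζ (fun j => τ₀ j + θ j * r) n i lch x) ∧
    Cond I (if n = 0 then 1 else ζ i) (fun r x => recT ζ (fun j => τ₀ j + θ j * r) n i lch x) := by
  intro n
  induction n with
  | zero =>
    intro i _
    refine ⟨reg_lch hI, ?_⟩
    rw [if_pos rfl]
    exact cond_lch hI
  | succ n ih =>
    intro i hi
    obtain ⟨h1, h2⟩ := ih (i + 1) (by omega)
    have hik : i < k := by omega
    have hz := hζ.1 i hik
    refine ⟨h1.tw hI hz.1 (hv i hik), ?_⟩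
    rw [if_neg (Nat.succ_ne_zero n)]
    refine cond_step hI hz.1 ?_ (hv i hik) h1 h2
    split_ifs with hn
    · exact hz.2
    · exact hζ.2 i (by omega)

theorem siteLeg_eq {ζ : ℕ → ℝ} {k : ℕ} (hζ : SExps ζ k) {m : ℝ} (hm : |m| < 1) (τ : ℕ → ℝ) :
    siteLeg ζ τ k m = (⨅ b : ℝ, (recT ζ τ k 0 lch b - b * m)) -
      1 / 2 * ∑ i ∈ Finset.range k, τ i := by
  have hb := siteVal_bddBelow (ζ := ζ) (k := k) (fun j hj => (hζ.1 j hj).1) τ hm
  set s := 1 / 2 * ∑ i ∈ Finset.range k, τ i with hs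
  have hb' : BddBelow (Set.range fun b : ℝ => recT ζ τ k 0 lch b - b * m) := by
    obtain ⟨c, hc⟩ := hb
    refine ⟨c + s, ?_⟩
    rintro _ ⟨b, rfl⟩
    have := hc ⟨b, rfl⟩
    simp only [siteVal] at this
    simp only
    linarith
  unfold siteLeg
  apply le_antisymm
  · have : ∀ b : ℝ, (⨅ b : ℝ, (siteVal ζ τ k b - b * m)) + s ≤ recT ζ τ k 0 lch b - b * m := by
      intro b
      have := ciInf_le hb b
      simp only [siteVal] at this ⊢
      linarith
    have := le_ciInf this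
    linarith
  · refine le_ciInf fun b => ?_
    have := ciInf_le hb' b
    simp only [siteVal]
    linarith

/-- THEOREM CONC for strictly positive variances -/
theorem conc_pos {ζ : ℕ → ℝ} {k : ℕ} (hζ : SExps ζ k) {m : ℝ} (hm : |m| < 1)
    (τ₀ τ₁ : ℕ → ℝ) (hε : ∃ ε : ℝ, 0 < ε ∧ ∀ i, ε ≤ τ₀ i ∧ ε ≤ τ₁ i) (t : ℝ) (ht0 : 0 ≤ t)
    (ht1 : t ≤ 1) :
    (1 - t) * siteLeg ζ τ₀ k m + t * siteLeg ζ τ₁ k m ≤
      siteLeg ζ (fun i => (1 - t) * τ₀ i + t * τ₁ i) k m := by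
  obtain ⟨ε, hε0, hε⟩ := hε
  set θ : ℕ → ℝ := fun i => τ₁ i - τ₀ i with hθ
  set M : ℝ := ∑ i ∈ Finset.range k, |θ i| + 1 with hM
  have hM1 : 1 ≤ M := by
    have : 0 ≤ ∑ i ∈ Finset.range k, |θ i| := Finset.sum_nonneg fun i _ => abs_nonneg _
    linarith
  have hMi : ∀ i < k, |θ i| ≤ M := by
    intro i hi
    have := Finset.single_le_sum (f := fun i => |θ i|) (fun i _ => abs_nonneg _)
      (Finset.mem_range.mpr hi)
    linarith
  set δ : ℝ := ε / (2 * M) with hδ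
  have hδ0 : 0 < δ := by positivity
  have hδM : δ * M = ε / 2 := by rw [hδ]; field_simp
  set I : Set ℝ := Set.Ioo (-δ) (1 + δ) with hI
  have hv : ∀ i < k, VOK I (τ₀ i) (θ i) := by
    intro i hi
    refine ⟨⟨ε / 2, by positivity, fun r hr => ?_⟩, |τ₀ i| + |θ i| * (1 + δ), fun r hr => ?_⟩
    · have h1 := hMi i hi
      obtain ⟨hr1, hr2⟩ := hr
      have h2 := hε i
      have h3 := abs_le.mp h1
      rcases le_total 0 r with h0 | h0
      · rcases le_total r 1 with h4 | h4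
        · have : τ₀ i + θ i * r = (1 - r) * τ₀ i + r * τ₁ i := by rw [hθ]; ring
          rw [this]
          nlinarith
        · have : τ₀ i + θ i * r = τ₁ i + θ i * (r - 1) := by rw [hθ]; ring
          rw [this]
          nlinarith
      · nlinarith
    · obtain ⟨hr1, hr2⟩ := hr
      have h3 : |r| ≤ 1 + δ := abs_le.mpr ⟨by linarith, hr2.le⟩
      calc τ₀ i + θ i * r ≤ |τ₀ i| + |θ i * r| := add_le_add (le_abs_self _) (le_abs_self _)
        _ ≤ _ := by
          rw [abs_mul]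
          gcongr
  have hIo : IsOpen I := isOpen_Ioo
  obtain ⟨hR, hC⟩ := tower_cond hIo hζ hv k 0 (by omega)
  set w : ℝ → ℝ → ℝ := fun r x => recT ζ (fun j => τ₀ j + θ j * r) k 0 lch x with hw
  set Z : ℝ := if k = 0 then 1 else ζ 0 with hZ
  have hQ : ∀ r ∈ I, ∀ x, DR (DR w) r x - DX (DR w) r x ^ 2 / DX (DX w) r x ≤ 0 := by
    intro r hr x
    have := (hC (Z - 1) (by linarith)).2 r hr x 0
    simp only [zero_mul, add_zero, ne_eq, OfNat.ofNat_ne_zero, not_false_eq_true, zero_pow,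
      zero_div] at this
    exact this
  have hconc := legendre_concave hIo (convex_Ioo _ _) hR.eg hR.br (fun r hr x => hR.pos hr x) hQ
    ⟨Real.log 2, fun r _ x => recT_ge _ k 0 (fun j _ hj => (hζ.1 j (by omega)).1) x⟩ hm
  have h0I : (0 : ℝ) ∈ I := ⟨by linarith, by linarith⟩
  have h1I : (1 : ℝ) ∈ I := ⟨by linarith, by linarith⟩
  have h := hconc.2 h0I h1I (by linarith : (0:ℝ) ≤ 1 - t) ht0 (by ring)
  simp only [smul_eq_mul, mul_zero, mul_one, zero_add] at h
  rw [siteLeg_eq hζ hm, siteLeg_eq hζ hm, siteLeg_eq hζ hm]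
  have e0 : ∀ x, w 0 x = recT ζ τ₀ k 0 lch x := by
    intro x; simp only [hw, mul_zero, add_zero]
  have e1 : ∀ x, w 1 x = recT ζ τ₁ k 0 lch x := by
    intro x; simp only [hw, hθ, mul_one, add_sub_cancel]
  have et : ∀ x, w t x = recT ζ (fun i => (1 - t) * τ₀ i + t * τ₁ i) k 0 lch x := by
    intro x
    simp only [hw, hθ]
    congr 1
    funext j
    ring
  simp only [e0, e1, et] at h
  have hs : 1 / 2 * ∑ i ∈ Finset.range k, ((1 - t) * τ₀ i + t * τ₁ i) =
      (1 - t) * (1 / 2 * ∑ i ∈ Finset.range k, τ₀ i) + t * (1 / 2 * ∑ i ∈ Finset.range k, τ₁ i) := by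
    rw [Finset.sum_add_distrib, ← Finset.mul_sum, ← Finset.mul_sum]
    ring
  rw [hs]
  linarith

end Crest.Agent.RI.Cn
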