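import Crest.Agent.RI.CnEe

/-!
# Row 164, Part 10 (THEOREM CONC): heat equation and intertwining
-/

set_option autoImplicit false

namespace Crest.Agent.RI.Cn

open MeasureTheory ProbabilityTheory
open Crest.ProbabilityR.InvariantGlass

variable {I : Set ℝ} {ζ v₀ θ : ℝ} {u F G : ℝ → ℝ → ℝ} {n : ℕ}

/-- the heat equation: `½ (w_xx + ζ w_x²) = En ψ` -/
theorem ps_tw (hI : IsOpen I) (hζ : 0 ≤ ζ) (hv : VOK I v₀ θ) (hu : Reg I u) {r : ℝ} (hr : r ∈ I)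
    (x : ℝ) : Ps ζ (Tw ζ v₀ θ u) r x = En ζ v₀ θ u (Ps ζ u) r x := by
  have hu1 : EG I 1 u := hu.eg.mono (by norm_num)
  have hu2 : EG I 2 u := hu.eg.mono (by norm_num)
  have cux : CE (DX u r) := hu1.dx.eg0.ce hr
  have cuxx : CE (DX (DX u) r) := hu2.dx.dx.eg0.ce hr
  have hlg := hu.lin.lg hu1.eg0 hr
  unfold Ps
  rw [CnEe_dx hu1 hu.lin hr x, CnEe_dxx hu2 hu.lin hr x]
  have h1 : En ζ v₀ θ u (fun r x => 1 / 2 * (DX (DX u) r x + ζ * DX u r x ^ 2)) r x =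
      1 / 2 * En ζ v₀ θ u (fun r x => DX (DX u) r x + ζ * (DX u r x * DX u r x)) r x := by
    unfold En
    rw [← ee_smul]
    congr 1
    funext z
    ring
  rw [h1]
  ring

/-- intertwining: `LL^w (En F) = En (LL F + ζ F ψ) - ζ En F En ψ` -/
theorem llo_tw (hI : IsOpen I) (hζ : 0 ≤ ζ) (hv : VOK I v₀ θ) (hu : Reg I u) (hF : EG I 2 F)
    {r : ℝ} (hr : r ∈ I) (x : ℝ) :
    LLo ζ (Tw ζ v₀ θ u) (En ζ v₀ θ u F) r x =
      En ζ v₀ θ u (fun r x => LLo ζ u F r x + ζ * (F r x * Ps ζ u r x)) r x -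
        ζ * (En ζ v₀ θ u F r x * En ζ v₀ θ u (Ps ζ u) r x) := by
  have hu1 : EG I 1 u := hu.eg.mono (by norm_num)
  have hu2 : EG I 2 u := hu.eg.mono (by norm_num)
  have hF1 : EG I 1 F := hF.mono (by norm_num)
  have hlg := hu.lin.lg hu1.eg0 hr
  -- `G = F_x + ζ F u_x`
  set G : ℝ → ℝ → ℝ := fun r x => DX F r x + ζ * (F r x * DX u r x) with hG
  have hG1 : EG I 1 G := hF.dx.add hI ((hF1.mul hI hu2.dx).smul hI ζ)
  have hDF : ∀ r ∈ I, ∀ x, DX (En ζ v₀ θ u F) r x =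
      En ζ v₀ θ u G r x - ζ * (En ζ v₀ θ u F r x * En ζ v₀ θ u (DX u) r x) := fun r hr x =>
    (En_dx hu1 hu.lin hF1 hr x).deriv
  have hGx : ∀ r ∈ I, ∀ x, DX G r x =
      DX (DX F) r x + ζ * (DX F r x * DX u r x + F r x * DX (DX u) r x) := by
    intro r hr x
    have h1 := ((hF.hdx hr x).mul (hu2.dx.hdx hr x)).const_mul ζ
    exact ((hF.dx.hdx hr x).add h1).deriv
  have hDDF : DX (DX (En ζ v₀ θ u F)) r x =
      (En ζ v₀ θ u (fun r x => DX G r x + ζ * (G r x * DX u r x)) r x -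
        ζ * (En ζ v₀ θ u G r x * En ζ v₀ θ u (DX u) r x)) -
      ζ * ((En ζ v₀ θ u G r x - ζ * (En ζ v₀ θ u F r x * En ζ v₀ θ u (DX u) r x)) *
          En ζ v₀ θ u (DX u) r x +
        En ζ v₀ θ u F r x * (En ζ v₀ θ u (fun r x => DX (DX u) r x + ζ * (DX u r x * DX u r x)) r x -
          ζ * (En ζ v₀ θ u (DX u) r x * En ζ v₀ θ u (DX u) r x))) := by
    rw [DX_congr hDF r hr x]
    have h1 := En_dx (ζ := ζ) (v₀ := v₀) (θ := θ) hu1 hu.lin hG1 hr x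
    have h2 := En_dx (ζ := ζ) (v₀ := v₀) (θ := θ) hu1 hu.lin hF1 hr x
    have h3 := En_dx (ζ := ζ) (v₀ := v₀) (θ := θ) hu1 hu.lin hu2.dx hr x
    exact (h1.sub ((h2.mul h3).const_mul ζ)).deriv
  -- combine the inner functions
  have cF : CE (F r) := hF1.eg0.ce hr
  have cFx : CE (DX F r) := hF.dx.eg0.ce hr
  have cFxx : CE (DX (DX F) r) := hF.dx.dx.eg0.ce hr
  have cux : CE (DX u r) := hu1.dx.eg0.ce hr
  have cuxx : CE (DX (DX u) r) := hu2.dx.dx.eg0.ce hr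
  have hE1 : En ζ v₀ θ u (fun r x => DX G r x + ζ * (G r x * DX u r x)) r x =
      2 * En ζ v₀ θ u (fun r x => LLo ζ u F r x + ζ * (F r x * Ps ζ u r x)) r x := by
    unfold En
    rw [← ee_smul]
    congr 1
    funext z
    show DX G r z + ζ * ((DX F r z + ζ * (F r z * DX u r z)) * DX u r z) =
      2 * (LLo ζ u F r z + ζ * (F r z * Ps ζ u r z))
    rw [hGx r hr z]
    unfold LLo Ps
    ring
  have hE2 : En ζ v₀ θ u (fun r x => DX (DX u) r x + ζ * (DX u r x * DX u r x)) r x =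
      2 * En ζ v₀ θ u (Ps ζ u) r x := by
    unfold En
    rw [← ee_smul]
    congr 1
    funext z
    unfold Ps
    ring
  have h0 : LLo ζ (Tw ζ v₀ θ u) (En ζ v₀ θ u F) r x =
      1 / 2 * DX (DX (En ζ v₀ θ u F)) r x +
        ζ * (DX (Tw ζ v₀ θ u) r x * DX (En ζ v₀ θ u F) r x) := rfl
  rw [h0, hDDF, hDF r hr x, CnEe_dx hu1 hu.lin hr x, hE1, hE2]
  ring

end Crest.Agent.RI.Cn
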