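import Crest.Agent.RI.CnSch
import Crest.Agent.RI.CnEb

/-!
# Row 164, Part 10 (THEOREM CONC): algebra of the second-order quantities
-/

set_option autoImplicit false

namespace Crest.Agent.RI.Cn

open MeasureTheory ProbabilityTheory
open Crest.ProbabilityR.InvariantGlass

variable {I : Set ℝ} {ζ v₀ θ : ℝ} {u F G : ℝ → ℝ → ℝ} {n : ℕ}

/-- `ψ_r = LL u_r` (Schwarz) -/
theorem dr_ps (hI : IsOpen I) (hu : EG I 4 u) {r : ℝ} (hr : r ∈ I) (x : ℝ) :
    DR (Ps ζ u) r x = LLo ζ u (DR u) r x := by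
  have h3 : EG I 3 (DX u) := EG.dx (n := 3) hu
  have h2 : EG I 2 (DX (DX u)) := EG.dx (n := 2) h3
  have s1 : ∀ r ∈ I, ∀ x, DR (DX u) r x = DX (DR u) r x := fun r hr x =>
    EG.schwarz hI (EG.mono (m := 3) hu (by norm_num)) hr x
  have s2 : DR (DX (DX u)) r x = DX (DX (DR u)) r x := by
    rw [EG.schwarz hI h3 hr x]
    exact DX_congr s1 r hr x
  have d1 : HasDerivAt (fun s => DX (DX u) s x) (DX (DX (DR u)) r x) r := by
    rw [← s2]; exact EG.hdr (n := 0) h2 hr x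
  have d2 : HasDerivAt (fun s => DX u s x) (DX (DR u) r x) r := by
    rw [← s1 r hr x]; exact EG.hdr (n := 1) h3 hr x
  have d3 := (d1.add ((d2.fun_pow 2).const_mul ζ)).const_mul (1 / 2 : ℝ)
  have e : DR (Ps ζ u) r x = deriv (fun s => 1 / 2 * (DX (DX u) s x + ζ * DX u s x ^ 2)) r := rfl
  rw [e, (show HasDerivAt (fun s => 1 / 2 * (DX (DX u) s x + ζ * DX u s x ^ 2)) _ r from d3).deriv,
    LLo]
  push_cast
  ring

/-- pure algebra: the second-order quantities in terms of `ψ^w` -/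
theorem qq_alg (hI : IsOpen I) {w : ℝ → ℝ → ℝ} (hw : EG I 4 w) {r : ℝ} (hr : r ∈ I) (x : ℝ)
    (hA : 0 < DX (DX w) r x) (e : ℝ) :
    QQ w r x + e * F1 w r x + e ^ 2 / 4 * F2 ζ w r x =
      (DR (DR w) r x + 2 * e * DR (Ps ζ w) r x + e ^ 2 * LLo ζ w (Ps ζ w) r x) -
        (DX (DR w) r x + e * DX (Ps ζ w) r x) ^ 2 / DX (DX w) r x := by
  have h3 : EG I 3 (DX w) := EG.dx (n := 3) hw
  have h2 : EG I 2 (DX (DX w)) := EG.dx (n := 2) h3
  have h1 : EG I 1 (DX (DX (DX w))) := EG.dx (n := 1) h2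
  have p1 : ∀ y, HasDerivAt (Ps ζ w r)
      (1 / 2 * DX (DX (DX w)) r y + ζ * (DX w r y * DX (DX w) r y)) y := by
    intro y
    have d := ((EG.hdx (n := 1) h2 hr y).add
      (((EG.hdx (n := 2) h3 hr y).fun_pow 2).const_mul ζ)).const_mul (1 / 2 : ℝ)
    refine (show HasDerivAt (Ps ζ w r) _ y from d).congr_deriv ?_
    push_cast
    ring
  have p2 : DX (Ps ζ w) r = fun y => 1 / 2 * DX (DX (DX w)) r y + ζ * (DX w r y * DX (DX w) r y) :=
    funext fun y => (p1 y).deriv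
  have p3 : DX (DX (Ps ζ w)) r x = 1 / 2 * DX (DX (DX (DX w))) r x +
      ζ * (DX (DX w) r x * DX (DX w) r x + DX w r x * DX (DX (DX w)) r x) := by
    have e : DX (DX (Ps ζ w)) r x = deriv (DX (Ps ζ w) r) x := rfl
    rw [e, p2]
    exact (((EG.hdx (n := 0) h1 hr x).const_mul (1 / 2 : ℝ)).add
      (((EG.hdx (n := 2) h3 hr x).mul (EG.hdx (n := 1) h2 hr x)).const_mul ζ)).deriv
  have p4 : DX (Ps ζ w) r x = 1 / 2 * DX (DX (DX w)) r x + ζ * (DX w r x * DX (DX w) r x) :=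
    congrFun p2 x
  rw [dr_ps hI hw hr x]
  simp only [QQ, F1, F2, LLo]
  rw [p3, p4]
  have := hA.ne'
  field_simp
  ring

end Crest.Agent.RI.Cn
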