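import Crest.Agent.RI.CnIdA
import Crest.Agent.RI.CnIdB

/-!
# Row 164, Part 10 (THEOREM CONC): second-order quantities of Tw u in terms of tilted expectations
-/

set_option autoImplicit false

namespace Crest.Agent.RI.Cn

open MeasureTheory ProbabilityTheory
open Crest.ProbabilityR.InvariantGlass

variable {I : Set ℝ} {ζ v₀ θ : ℝ} {u F G : ℝ → ℝ → ℝ} {n : ℕ}

/-- `χ^c = u_rr + 2 c LL u_r + c² LL ψ` -/
noncomputable def Ch (ζ c : ℝ) (u : ℝ → ℝ → ℝ) : ℝ → ℝ → ℝ := fun r x =>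
  DR (DR u) r x + 2 * c * LLo ζ u (DR u) r x + c ^ 2 * LLo ζ u (Ps ζ u) r x

theorem CnIdC_lin4 {w : ℝ → ℝ} (hw : LG w) {f1 f2 f3 f4 T : ℝ → ℝ} (h1 : CE f1) (h2 : CE f2)
    (h3 : CE f3) (h4 : CE f4) (a b c d : ℝ)
    (hT : ∀ z, T z = a * f1 z + b * f2 z + c * f3 z + d * f4 z) (ζ v x : ℝ) :
    ee ζ v w T x = a * ee ζ v w f1 x + b * ee ζ v w f2 x + c * ee ζ v w f3 x +
      d * ee ζ v w f4 x := by
  have e : T = fun z => (a * f1 z + b * f2 z + c * f3 z) + d * f4 z := funext hT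
  have c1 : CE (fun z => a * f1 z) := (CE.const a).mul h1
  have c2 : CE (fun z => b * f2 z) := (CE.const b).mul h2
  have c3 : CE (fun z => c * f3 z) := (CE.const c).mul h3
  have c4 : CE (fun z => d * f4 z) := (CE.const d).mul h4
  rw [e, ee_add hw ((c1.add c2).add c3) c4, ee_add hw (c1.add c2) c3, ee_add hw c1 c2,
    ee_smul, ee_smul, ee_smul, ee_smul]

theorem CnIdC_phx (hI : IsOpen I) (hu : EG I 4 u) (c : ℝ) {r : ℝ} (hr : r ∈ I) (z : ℝ) :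
    DX (Ph ζ c u) r z = DX (DR u) r z + c * DX (Ps ζ u) r z := by
  have h1 := (EG.dr (n := 2) hu).hdx hr z
  have h2 := (EG.ps (ζ := ζ) (n := 2) hI hu).hdx hr z
  exact (h1.add (h2.const_mul c)).deriv

theorem CnIdC_phxx (hI : IsOpen I) (hu : EG I 4 u) (c : ℝ) {r : ℝ} (hr : r ∈ I) (z : ℝ) :
    DX (DX (Ph ζ c u)) r z = DX (DX (DR u)) r z + c * DX (DX (Ps ζ u)) r z := by
  rw [DX_congr (fun r hr x => CnIdC_phx hI hu c hr x) r hr z]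
  have h1 := (EG.dx (n := 1) (EG.dr (n := 2) hu)).hdx hr z
  have h2 := (EG.dx (n := 1) (EG.ps (ζ := ζ) (n := 2) hI hu)).hdx hr z
  exact (h1.add (h2.const_mul c)).deriv

theorem CnIdC_llo (hI : IsOpen I) (hu : EG I 4 u) (c : ℝ) {r : ℝ} (hr : r ∈ I) (z : ℝ) :
    LLo ζ u (Ph ζ c u) r z = LLo ζ u (DR u) r z + c * LLo ζ u (Ps ζ u) r z := by
  unfold LLo
  rw [CnIdC_phx hI hu c hr, CnIdC_phxx hI hu c hr]
  ring

theorem CnIdC_phr (hI : IsOpen I) (hu : EG I 4 u) (c : ℝ) {r : ℝ} (hr : r ∈ I) (z : ℝ) :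
    DR (Ph ζ c u) r z = DR (DR u) r z + c * LLo ζ u (DR u) r z := by
  have h1 := (EG.dr (n := 2) hu).hdr (n := 0) hr z
  have h2 := (EG.ps (ζ := ζ) (n := 2) hI hu).hdr (n := 0) hr z
  rw [← dr_ps hI hu hr]
  exact (h1.add (h2.const_mul c)).deriv

/-- main identity -/
theorem id_tw (hI : IsOpen I) (hζ : 0 ≤ ζ) (hv : VOK I v₀ θ) (hu : Reg I u) {r : ℝ} (hr : r ∈ I)
    (x : ℝ) (e : ℝ) :
    QQ (Tw ζ v₀ θ u) r x + e * F1 (Tw ζ v₀ θ u) r x + e ^ 2 / 4 * F2 ζ (Tw ζ v₀ θ u) r x =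
      (En ζ v₀ θ u (Ch ζ (θ + e) u) r x +
        ζ * (En ζ v₀ θ u (fun r x => Ph ζ (θ + e) u r x ^ 2) r x -
          En ζ v₀ θ u (Ph ζ (θ + e) u) r x ^ 2)) -
      (En ζ v₀ θ u (fun r x => DX (Ph ζ (θ + e) u) r x + ζ * (Ph ζ (θ + e) u r x * DX u r x)) r x -
          ζ * (En ζ v₀ θ u (Ph ζ (θ + e) u) r x * En ζ v₀ θ u (DX u) r x)) ^ 2 /
        (En ζ v₀ θ u (fun r x => DX (DX u) r x + ζ * DX u r x ^ 2) r x -
          ζ * En ζ v₀ θ u (DX u) r x ^ 2) := by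
  have eg := hu.eg
  have hl := hu.lin
  have lg : LG (u r) := LGr.lg eg.eg0 hl hr
  have eg2 : EG I 2 u := eg.mono (by norm_num)
  have eg1 : EG I 1 u := eg.mono (by norm_num)
  have egd : EG I 3 (DX u) := eg.dx
  have egp : EG I 2 (DR u) := eg.dr
  have egq : EG I 2 (Ps ζ u) := EG.ps (n := 2) hI eg
  have egP : EG I 2 (Ph ζ θ u) := EG.ph (n := 2) hI θ eg
  have hRw : Reg I (Tw ζ v₀ θ u) := hu.tw hI hζ hv
  have hA : 0 < DX (DX (Tw ζ v₀ θ u)) r x := by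
    obtain ⟨c, C, hc, -, hb⟩ := hRw.low
    exact (mul_pos hc (Real.exp_pos _)).trans_le (hb r hr x)
  -- derivatives of `w`
  have d1 : ∀ r ∈ I, ∀ x, DX (Tw ζ v₀ θ u) r x = En ζ v₀ θ u (DX u) r x :=
    fun r hr x => (Tw_dx eg1 hl hr x).deriv
  have d2 : ∀ r ∈ I, ∀ x, DR (Tw ζ v₀ θ u) r x = En ζ v₀ θ u (Ph ζ θ u) r x :=
    fun r hr x => (Tw_dr hI eg2 hl hv hr x).deriv
  have d3 : ∀ r ∈ I, ∀ x, Ps ζ (Tw ζ v₀ θ u) r x = En ζ v₀ θ u (Ps ζ u) r x :=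
    fun r hr x => ps_tw hI hζ hv hu hr x
  have d11 : DX (DX (Tw ζ v₀ θ u)) r x = _ :=
    (DX_congr d1 r hr x).trans (En_dx eg1 hl (egd.mono (by norm_num)) hr x).deriv
  have d21 : DX (DR (Tw ζ v₀ θ u)) r x = _ :=
    (DX_congr d2 r hr x).trans (En_dx eg1 hl (egP.mono (by norm_num)) hr x).deriv
  have d31 : DX (Ps ζ (Tw ζ v₀ θ u)) r x = _ :=
    (DX_congr d3 r hr x).trans (En_dx eg1 hl (egq.mono (by norm_num)) hr x).deriv
  have d22 : DR (DR (Tw ζ v₀ θ u)) r x = _ :=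
    (DR_congr hI d2 r hr x).trans (En_dr hI eg2 hl hv egP hr x).deriv
  have d32 : DR (Ps ζ (Tw ζ v₀ θ u)) r x = _ :=
    (DR_congr hI d3 r hr x).trans (En_dr hI eg2 hl hv egq hr x).deriv
  have d33 : LLo ζ (Tw ζ v₀ θ u) (Ps ζ (Tw ζ v₀ θ u)) r x =
      En ζ v₀ θ u (fun r x => LLo ζ u (Ps ζ u) r x + ζ * (Ps ζ u r x * Ps ζ u r x)) r x -
        ζ * (En ζ v₀ θ u (Ps ζ u) r x * En ζ v₀ θ u (Ps ζ u) r x) := by
    refine Eq.trans ?_ (llo_tw hI hζ hv hu egq hr x)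
    unfold LLo
    rw [DX_congr (DX_congr d3) r hr x, DX_congr d3 r hr x]
  rw [qq_alg hI hRw.eg hr x hA, d22, d32, d33, d21, d31, d11]
  -- the atoms
  have cA1 : CE (DR (DR u) r) := (EG.dr (n := 0) egp).eg0.ce hr
  have cA2 : CE (LLo ζ u (DR u) r) := (EG.llo (n := 0) hI eg2 egp).eg0.ce hr
  have cA3 : CE (LLo ζ u (Ps ζ u) r) := (EG.llo (n := 0) hI eg2 egq).eg0.ce hr
  have cP : CE (DR u r) := egp.eg0.ce hr
  have cq : CE (Ps ζ u r) := egq.eg0.ce hr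
  have cd : CE (DX u r) := egd.eg0.ce hr
  have cPX : CE (DX (DR u) r) := (EG.dx (n := 1) egp).eg0.ce hr
  have cqX : CE (DX (Ps ζ u) r) := (EG.dx (n := 1) egq).eg0.ce hr
  have cdX : CE (DX (DX u) r) := (EG.dx (n := 2) egd).eg0.ce hr
  set v := v₀ + θ * r with hv'
  have z0 : CE (fun _ : ℝ => (0 : ℝ)) := CE.const 0
  have l1 : En ζ v₀ θ u (Ph ζ θ u) r x = 1 * ee ζ v (u r) (DR u r) x +
      θ * ee ζ v (u r) (Ps ζ u r) x + 0 * ee ζ v (u r) (DR u r) x +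
      0 * ee ζ v (u r) (DR u r) x :=
    CnIdC_lin4 lg cP cq cP cP 1 θ 0 0 (fun z => by simp only [Ph]; ring) ζ v x
  have l2 : En ζ v₀ θ u (Ph ζ (θ + e) u) r x = 1 * ee ζ v (u r) (DR u r) x +
      (θ + e) * ee ζ v (u r) (Ps ζ u r) x + 0 * ee ζ v (u r) (DR u r) x +
      0 * ee ζ v (u r) (DR u r) x :=
    CnIdC_lin4 lg cP cq cP cP 1 (θ + e) 0 0 (fun z => by simp only [Ph]; ring) ζ v x
  have l3 : En ζ v₀ θ u (Ch ζ (θ + e) u) r x = 1 * ee ζ v (u r) (DR (DR u) r) x +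
      (2 * (θ + e)) * ee ζ v (u r) (LLo ζ u (DR u) r) x +
      (θ + e) ^ 2 * ee ζ v (u r) (LLo ζ u (Ps ζ u) r) x +
      0 * ee ζ v (u r) (DR u r) x :=
    CnIdC_lin4 lg cA1 cA2 cA3 cP 1 (2 * (θ + e)) ((θ + e) ^ 2) 0
      (fun z => by simp only [Ch]; ring) ζ v x
  have l4 : En ζ v₀ θ u (fun r x => Ph ζ (θ + e) u r x ^ 2) r x =
      1 * ee ζ v (u r) (fun z => DR u r z * DR u r z) x +
      (2 * (θ + e)) * ee ζ v (u r) (fun z => DR u r z * Ps ζ u r z) x +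
      (θ + e) ^ 2 * ee ζ v (u r) (fun z => Ps ζ u r z * Ps ζ u r z) x +
      0 * ee ζ v (u r) (DR u r) x :=
    CnIdC_lin4 lg (cP.mul cP) (cP.mul cq) (cq.mul cq) cP 1 (2 * (θ + e)) ((θ + e) ^ 2) 0
      (fun z => by simp only [Ph]; ring) ζ v x
  have l5 : En ζ v₀ θ u (fun r x => DX (Ph ζ (θ + e) u) r x +
        ζ * (Ph ζ (θ + e) u r x * DX u r x)) r x =
      1 * ee ζ v (u r) (DX (DR u) r) x +
      (θ + e) * ee ζ v (u r) (DX (Ps ζ u) r) x +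
      ζ * ee ζ v (u r) (fun z => DR u r z * DX u r z) x +
      (ζ * (θ + e)) * ee ζ v (u r) (fun z => Ps ζ u r z * DX u r z) x :=
    CnIdC_lin4 lg cPX cqX (cP.mul cd) (cq.mul cd) 1 (θ + e) ζ (ζ * (θ + e))
      (fun z => by simp only [CnIdC_phx hI eg (θ + e) hr]; simp only [Ph]; ring) ζ v x
  have l6 : En ζ v₀ θ u (fun r x => DX (Ph ζ θ u) r x +
        ζ * (Ph ζ θ u r x * DX u r x)) r x =
      1 * ee ζ v (u r) (DX (DR u) r) x +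
      θ * ee ζ v (u r) (DX (Ps ζ u) r) x +
      ζ * ee ζ v (u r) (fun z => DR u r z * DX u r z) x +
      (ζ * θ) * ee ζ v (u r) (fun z => Ps ζ u r z * DX u r z) x :=
    CnIdC_lin4 lg cPX cqX (cP.mul cd) (cq.mul cd) 1 θ ζ (ζ * θ)
      (fun z => by simp only [CnIdC_phx hI eg θ hr]; simp only [Ph]; ring) ζ v x
  have l7 : En ζ v₀ θ u (fun r x => DX (Ps ζ u) r x + ζ * (Ps ζ u r x * DX u r x)) r x =
      1 * ee ζ v (u r) (DX (Ps ζ u) r) x +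
      ζ * ee ζ v (u r) (fun z => Ps ζ u r z * DX u r z) x +
      0 * ee ζ v (u r) (DR u r) x + 0 * ee ζ v (u r) (DR u r) x :=
    CnIdC_lin4 lg cqX (cq.mul cd) cP cP 1 ζ 0 0 (fun z => by ring) ζ v x
  have l8 : En ζ v₀ θ u (fun r x => DR (Ph ζ θ u) r x + θ * LLo ζ u (Ph ζ θ u) r x +
        ζ * (Ph ζ θ u r x * Ph ζ θ u r x)) r x =
      (1 * ee ζ v (u r) (DR (DR u) r) x +
      (2 * θ) * ee ζ v (u r) (LLo ζ u (DR u) r) x +
      θ ^ 2 * ee ζ v (u r) (LLo ζ u (Ps ζ u) r) x +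
      ζ * (1 * ee ζ v (u r) (fun z => DR u r z * DR u r z) x +
      (2 * θ) * ee ζ v (u r) (fun z => DR u r z * Ps ζ u r z) x +
      θ ^ 2 * ee ζ v (u r) (fun z => Ps ζ u r z * Ps ζ u r z) x +
      0 * ee ζ v (u r) (DR u r) x)) := by
    have c4 : CE (fun z => 1 * (DR u r z * DR u r z) + (2 * θ) * (DR u r z * Ps ζ u r z) +
        θ ^ 2 * (Ps ζ u r z * Ps ζ u r z)) :=
      (((cP.mul cP).smul 1).add ((cP.mul cq).smul (2 * θ))).add ((cq.mul cq).smul (θ ^ 2))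
    have := CnIdC_lin4 lg cA1 cA2 cA3 c4 1 (2 * θ) (θ ^ 2) ζ
      (T := fun z => DR (Ph ζ θ u) r z + θ * LLo ζ u (Ph ζ θ u) r z +
        ζ * (Ph ζ θ u r z * Ph ζ θ u r z))
      (fun z => by
        simp only [CnIdC_phr hI eg θ hr, CnIdC_llo hI eg θ hr]; simp only [Ph]; ring) ζ v x
    rw [CnIdC_lin4 lg (cP.mul cP) (cP.mul cq) (cq.mul cq) cP 1 (2 * θ) (θ ^ 2) 0
      (T := fun z => 1 * (DR u r z * DR u r z) + (2 * θ) * (DR u r z * Ps ζ u r z) +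
        θ ^ 2 * (Ps ζ u r z * Ps ζ u r z)) (fun z => by ring) ζ v x] at this
    exact this
  have l9 : En ζ v₀ θ u (fun r x => DR (Ps ζ u) r x + θ * LLo ζ u (Ps ζ u) r x +
        ζ * (Ps ζ u r x * Ph ζ θ u r x)) r x =
      1 * ee ζ v (u r) (LLo ζ u (DR u) r) x +
      θ * ee ζ v (u r) (LLo ζ u (Ps ζ u) r) x +
      ζ * ee ζ v (u r) (fun z => DR u r z * Ps ζ u r z) x +
      (ζ * θ) * ee ζ v (u r) (fun z => Ps ζ u r z * Ps ζ u r z) x :=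
    CnIdC_lin4 lg cA2 cA3 (cP.mul cq) (cq.mul cq) 1 θ ζ (ζ * θ)
      (fun z => by simp only [dr_ps hI eg hr]; simp only [Ph]; ring) ζ v x
  have l10 : En ζ v₀ θ u (fun r x => LLo ζ u (Ps ζ u) r x + ζ * (Ps ζ u r x * Ps ζ u r x)) r x =
      1 * ee ζ v (u r) (LLo ζ u (Ps ζ u) r) x +
      ζ * ee ζ v (u r) (fun z => Ps ζ u r z * Ps ζ u r z) x +
      0 * ee ζ v (u r) (DR u r) x + 0 * ee ζ v (u r) (DR u r) x :=
    CnIdC_lin4 lg cA3 (cq.mul cq) cP cP 1 ζ 0 0 (fun z => by ring) ζ v x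
  have l11 : En ζ v₀ θ u (fun r x => DX (DX u) r x + ζ * (DX u r x * DX u r x)) r x =
      En ζ v₀ θ u (fun r x => DX (DX u) r x + ζ * DX u r x ^ 2) r x := by
    simp only [pow_two]
  have l12 : En ζ v₀ θ u (Ps ζ u) r x = ee ζ v (u r) (Ps ζ u r) x := rfl
  rw [l1, l2, l3, l4, l5, l6, l7, l8, l9, l10, l11, l12]
  set W1 := ee ζ v (u r) (DR u r) x
  set W2 := ee ζ v (u r) (Ps ζ u r) x
  set W3 := ee ζ v (u r) (DR (DR u) r) x
  set W4 := ee ζ v (u r) (LLo ζ u (DR u) r) x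
  set W5 := ee ζ v (u r) (LLo ζ u (Ps ζ u) r) x
  set W6 := ee ζ v (u r) (fun z => DR u r z * DR u r z) x
  set W7 := ee ζ v (u r) (fun z => DR u r z * Ps ζ u r z) x
  set W8 := ee ζ v (u r) (fun z => Ps ζ u r z * Ps ζ u r z) x
  set W9 := ee ζ v (u r) (DX (DR u) r) x
  set W10 := ee ζ v (u r) (DX (Ps ζ u) r) x
  set W11 := ee ζ v (u r) (fun z => DR u r z * DX u r z) x
  set W12 := ee ζ v (u r) (fun z => Ps ζ u r z * DX u r z) x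
  set W13 := En ζ v₀ θ u (DX u) r x
  set W14 := En ζ v₀ θ u (fun r x => DX (DX u) r x + ζ * DX u r x ^ 2) r x
  have eD : W14 - ζ * (W13 * W13) = W14 - ζ * W13 ^ 2 := by ring
  rw [eD]
  congr 1
  · ring
  · congr 2
    ring

end Crest.Agent.RI.Cn
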