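import Crest.Prelude.Def_InvariantGlass

/-!
# Row 164: the Gaussian operator on site functions
-/

set_option autoImplicit false

namespace Crest.Agent.RI

open MeasureTheory ProbabilityTheory
open Crest.ProbabilityR.InvariantGlass

/-- `exp (c |x|)` is Gaussian integrable. -/
theorem integrable_exp_abs_gauss (c : ℝ) :
    Integrable (fun x : ℝ => Real.exp (c * |x|)) (gaussianReal 0 1) := by
  have h1 := integrable_exp_mul_gaussianReal (μ := 0) (v := 1) c
  have h2 := integrable_exp_mul_gaussianReal (μ := 0) (v := 1) (-c)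
  have h3 := (h1.add h2)
  refine Integrable.mono' h3 ?_ ?_
  · exact (by fun_prop : Continuous fun x : ℝ => Real.exp (c * |x|)).aestronglyMeasurable
  · refine Filter.Eventually.of_forall fun x => ?_
    rw [Real.norm_eq_abs, abs_of_pos (Real.exp_pos _)]
    simp only [Pi.add_apply]
    rcases le_total 0 x with h | h
    · rw [abs_of_nonneg h]; linarith [Real.exp_pos (-c * x)]
    · rw [abs_of_nonpos h]
      have : c * -x = -c * x := by ring
      rw [this]; linarith [Real.exp_pos (c * x)]

/-- Continuous functions of at most exponential growth. -/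
structure CE (F : ℝ → ℝ) : Prop where
  cont : Continuous F
  gr : ∃ A c : ℝ, 0 ≤ A ∧ 0 ≤ c ∧ ∀ x, |F x| ≤ A * Real.exp (c * |x|)

namespace CE

theorem const (a : ℝ) : CE (fun _ => a) :=
  ⟨continuous_const, |a|, 0, abs_nonneg _, le_refl _, fun x => by simp⟩

theorem add {F G : ℝ → ℝ} (hF : CE F) (hG : CE G) : CE (fun x => F x + G x) := by
  obtain ⟨A, c, hA, hc, h⟩ := hF.gr
  obtain ⟨A', c', hA', hc', h'⟩ := hG.gr
  refine ⟨hF.cont.add hG.cont, A + A', c + c', by positivity, by positivity, fun x => ?_⟩
  have e1 : Real.exp (c * |x|) ≤ Real.exp ((c + c') * |x|) :=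
    Real.exp_le_exp.mpr (by nlinarith [abs_nonneg x])
  have e2 : Real.exp (c' * |x|) ≤ Real.exp ((c + c') * |x|) :=
    Real.exp_le_exp.mpr (by nlinarith [abs_nonneg x])
  calc |F x + G x| ≤ |F x| + |G x| := abs_add_le _ _
    _ ≤ A * Real.exp (c * |x|) + A' * Real.exp (c' * |x|) := add_le_add (h x) (h' x)
    _ ≤ A * Real.exp ((c + c') * |x|) + A' * Real.exp ((c + c') * |x|) := by gcongr
    _ = (A + A') * Real.exp ((c + c') * |x|) := by ring

theorem mul {F G : ℝ → ℝ} (hF : CE F) (hG : CE G) : CE (fun x => F x * G x) := by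
  obtain ⟨A, c, hA, hc, h⟩ := hF.gr
  obtain ⟨A', c', hA', hc', h'⟩ := hG.gr
  refine ⟨hF.cont.mul hG.cont, A * A', c + c', by positivity, by positivity, fun x => ?_⟩
  rw [abs_mul]
  calc |F x| * |G x| ≤ (A * Real.exp (c * |x|)) * (A' * Real.exp (c' * |x|)) := by
        gcongr
        · exact h x
        · exact h' x
    _ = A * A' * (Real.exp (c * |x|) * Real.exp (c' * |x|)) := by ring
    _ = A * A' * Real.exp ((c + c') * |x|) := by rw [← Real.exp_add]; ring_nf

theorem smul {F : ℝ → ℝ} (hF : CE F) (a : ℝ) : CE (fun x => a * F x) := (const a).mul hF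

theorem neg {F : ℝ → ℝ} (hF : CE F) : CE (fun x => - F x) := by
  have := hF.smul (-1)
  simpa using this

theorem sub {F G : ℝ → ℝ} (hF : CE F) (hG : CE G) : CE (fun x => F x - G x) := by
  have := hF.add hG.neg
  simpa [sub_eq_add_neg] using this

theorem aff {F : ℝ → ℝ} (hF : CE F) (z s : ℝ) : CE (fun g => F (z + s * g)) := by
  obtain ⟨A, c, hA, hc, h⟩ := hF.gr
  refine ⟨hF.cont.comp (by fun_prop), A * Real.exp (c * |z|), c * |s|, by positivity,
    by positivity, fun x => ?_⟩
  calc |F (z + s * x)| ≤ A * Real.exp (c * |z + s * x|) := h _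
    _ ≤ A * Real.exp (c * (|z| + |s| * |x|)) := by
        gcongr
        calc |z + s * x| ≤ |z| + |s * x| := abs_add_le _ _
          _ = |z| + |s| * |x| := by rw [abs_mul]
    _ = A * Real.exp (c * |z|) * Real.exp (c * |s| * |x|) := by
        rw [mul_assoc, ← Real.exp_add]; ring_nf

theorem int {F : ℝ → ℝ} (hF : CE F) : Integrable F (gaussianReal 0 1) := by
  obtain ⟨A, c, hA, hc, h⟩ := hF.gr
  exact Integrable.mono' ((integrable_exp_abs_gauss c).const_mul A)
    hF.cont.aestronglyMeasurable (Filter.Eventually.of_forall fun x => by simpa using h x)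

theorem of_le {F G : ℝ → ℝ} (hF : Continuous F) (hG : CE G) (h : ∀ x, |F x| ≤ |G x|) : CE F := by
  obtain ⟨A, c, hA, hc, h'⟩ := hG.gr
  exact ⟨hF, A, c, hA, hc, fun x => (h x).trans (h' x)⟩

theorem id' : CE (fun x => x) := by
  refine ⟨continuous_id, 1, 1, zero_le_one, zero_le_one, fun x => ?_⟩
  have := Real.add_one_le_exp |x|
  rw [one_mul, one_mul]; linarith

theorem abs' {F : ℝ → ℝ} (hF : CE F) : CE (fun x => |F x|) :=
  of_le (hF.cont.abs) hF (fun x => by rw [abs_abs])

theorem exp_lin {F : ℝ → ℝ} (hc : Continuous F) {A B : ℝ} (h : ∀ x, |F x| ≤ A + B * |x|) :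
    CE (fun x => Real.exp (F x)) := by
  refine ⟨Real.continuous_exp.comp hc, Real.exp A, |B|, (Real.exp_pos _).le, abs_nonneg _,
    fun x => ?_⟩
  rw [abs_of_pos (Real.exp_pos _), ← Real.exp_add]
  refine Real.exp_le_exp.mpr ((le_abs_self _).trans ((h x).trans ?_))
  have := mul_le_mul_of_nonneg_right (le_abs_self B) (abs_nonneg x)
  linarith

end CE

/-! ### Site functions -/

/-- Even convex functions with Lipschitz constant `1`. -/
structure SF (f : ℝ → ℝ) : Prop where
  even : ∀ z, f (-z) = f z
  conv : ConvexOn ℝ Set.univ f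
  lip : ∀ x y, |f x - f y| ≤ |x - y|

namespace SF

variable {f : ℝ → ℝ}

theorem cont (hf : SF f) : Continuous f := by
  have : LipschitzWith 1 f := LipschitzWith.of_dist_le_mul fun x y => by
    simpa [Real.dist_eq] using hf.lip x y
  exact this.continuous

theorem bound (hf : SF f) (x : ℝ) : |f x| ≤ |f 0| + |x| := by
  have h := hf.lip x 0
  rw [sub_zero] at h
  calc |f x| = |(f x - f 0) + f 0| := by ring_nf
    _ ≤ |f x - f 0| + |f 0| := abs_add_le _ _
    _ ≤ |f 0| + |x| := by linarith

theorem ce (hf : SF f) : CE f := by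
  refine CE.of_le hf.cont ((CE.const |f 0|).add CE.id'.abs') fun x => ?_
  have h := hf.bound x
  calc |f x| ≤ |f 0| + |x| := h
    _ ≤ |(|f 0| + |x|)| := le_abs_self _

theorem ce_exp (hf : SF f) (a : ℝ) : CE (fun x => Real.exp (a * f x)) := by
  refine CE.exp_lin (A := |a| * |f 0|) (B := |a|) (continuous_const.mul hf.cont) fun x => ?_
  rw [abs_mul]
  have := mul_le_mul_of_nonneg_left (hf.bound x) (abs_nonneg a)
  linarith

theorem add_const (hf : SF f) (c : ℝ) : SF (fun x => f x + c) where
  even z := by rw [hf.even]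
  conv := hf.conv.add (convexOn_const c convex_univ)
  lip x y := by simpa using hf.lip x y

/-- the minimum is at `0` -/
theorem zero_le (hf : SF f) (x : ℝ) : f 0 ≤ f x := by
  have h := hf.conv.2 (Set.mem_univ x) (Set.mem_univ (-x)) (by norm_num : (0:ℝ) ≤ 1/2)
    (by norm_num : (0:ℝ) ≤ 1/2) (by norm_num)
  simp only [smul_eq_mul] at h
  have e : (1/2 : ℝ) * x + 1/2 * (-x) = 0 := by ring
  rw [e, hf.even] at h
  linarith

end SF


theorem hasDerivAt_logcosh (z : ℝ) :
    HasDerivAt (fun z => Real.log (Real.cosh z)) (Real.tanh z) z := by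
  have h := (Real.hasDerivAt_cosh z).log (Real.cosh_pos z).ne'
  rwa [← Real.tanh_eq_sinh_div_cosh] at h

theorem hasDerivAt_tanh (z : ℝ) : HasDerivAt Real.tanh (1 - Real.tanh z ^ 2) z := by
  have h := (Real.hasDerivAt_sinh z).div (Real.hasDerivAt_cosh z) (Real.cosh_pos z).ne'
  have e : (fun y => Real.sinh y / Real.cosh y) = Real.tanh := by
    funext y; rw [Real.tanh_eq_sinh_div_cosh]
  have h2 : HasDerivAt Real.tanh
      ((Real.cosh z * Real.cosh z - Real.sinh z * Real.sinh z) / Real.cosh z ^ 2) z := by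
    rw [← e]; exact h
  convert h2 using 1
  rw [Real.tanh_eq_sinh_div_cosh]
  have := (Real.cosh_pos z).ne'
  field_simp

theorem SF.lch : SF (fun z => Real.log (Real.cosh z)) where
  even z := by rw [Real.cosh_neg]
  conv := by
    have hd : deriv (fun z => Real.log (Real.cosh z)) = Real.tanh := by
      funext z; exact (hasDerivAt_logcosh z).deriv
    refine convexOn_univ_of_deriv2_nonneg (fun z => (hasDerivAt_logcosh z).differentiableAt) ?_ ?_
    · rw [hd]; exact fun z => (hasDerivAt_tanh z).differentiableAt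
    · intro x
      simp only [Function.iterate_succ, Function.iterate_zero, Function.comp_apply, id_eq]
      rw [hd, (hasDerivAt_tanh x).deriv]
      have := Real.tanh_sq_lt_one x
      linarith
  lip x y := by
    have key : ∀ x y : ℝ, Real.log (Real.cosh x) ≤ Real.log (Real.cosh y) + |x - y| := by
      intro x y
      rw [← Real.log_exp |x - y|, ← Real.log_mul (Real.cosh_pos _).ne' (Real.exp_pos _).ne']
      refine Real.log_le_log (Real.cosh_pos _) ?_
      have h1 : Real.cosh x = Real.cosh (x - y) * Real.cosh y + Real.sinh (x - y) * Real.sinh y := by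
        rw [← Real.cosh_add]; ring_nf
      have h2 : Real.exp |x - y| = Real.cosh (x - y) + |Real.sinh (x - y)| := by
        rcases le_total 0 (x - y) with h | h
        · rw [abs_of_nonneg h, abs_of_nonneg (Real.sinh_nonneg_iff.mpr h), Real.cosh_add_sinh]
        · rw [abs_of_nonpos h, abs_of_nonpos (Real.sinh_nonpos_iff.mpr h), ← Real.cosh_sub_sinh]
          ring
      have h3 : Real.sinh (x - y) * Real.sinh y ≤ |Real.sinh (x - y)| * Real.cosh y := by
        calc Real.sinh (x - y) * Real.sinh y ≤ |Real.sinh (x - y) * Real.sinh y| := le_abs_self _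
          _ = |Real.sinh (x - y)| * |Real.sinh y| := abs_mul _ _
          _ ≤ |Real.sinh (x - y)| * Real.cosh y := by
              refine mul_le_mul_of_nonneg_left ?_ (abs_nonneg _)
              rw [abs_le]
              have hc := Real.cosh_sub_sinh y
              have hc2 := Real.cosh_add_sinh y
              have := Real.exp_pos y
              have := Real.exp_pos (-y)
              constructor <;> linarith
      rw [h1, h2]; linarith
    rw [abs_sub_le_iff]
    have h1 := key x y
    have h2 := key y x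
    rw [abs_sub_comm y x] at h2
    constructor <;> linarith

/-! ### Linear growth and the log-exp mean -/

/-- Continuous functions with linear growth. -/
structure LG (F : ℝ → ℝ) : Prop where
  cont : Continuous F
  gr : ∃ A B : ℝ, ∀ x, |F x| ≤ A + B * |x|

namespace LG

theorem ce {F : ℝ → ℝ} (h : LG F) : CE F := by
  obtain ⟨A, B, hb⟩ := h.gr
  refine CE.of_le h.cont ((CE.const A).add ((CE.id'.abs').smul B)) fun x => ?_
  exact (hb x).trans (le_abs_self _)

theorem ce_exp {F : ℝ → ℝ} (h : LG F) (a : ℝ) : CE (fun x => Real.exp (a * F x)) := by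
  obtain ⟨A, B, hb⟩ := h.gr
  refine CE.exp_lin (A := |a| * A) (B := |a| * B) (continuous_const.mul h.cont) fun x => ?_
  rw [abs_mul]
  have := mul_le_mul_of_nonneg_left (hb x) (abs_nonneg a)
  linarith

theorem aff {F : ℝ → ℝ} (h : LG F) (z s : ℝ) : LG (fun g => F (z + s * g)) := by
  obtain ⟨A, B, hb⟩ := h.gr
  refine ⟨h.cont.comp (by fun_prop), A + |B| * |z|, |B| * |s|, fun x => (hb _).trans ?_⟩
  have h1 : |z + s * x| ≤ |z| + |s| * |x| := by
    calc |z + s * x| ≤ |z| + |s * x| := abs_add_le _ _
      _ = _ := by rw [abs_mul]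
  have h2 : B * |z + s * x| ≤ |B| * (|z| + |s| * |x|) :=
    (mul_le_mul_of_nonneg_right (le_abs_self B) (abs_nonneg _)).trans
      (mul_le_mul_of_nonneg_left h1 (abs_nonneg _))
  linarith

theorem add_const {F : ℝ → ℝ} (h : LG F) (c : ℝ) : LG (fun x => F x + c) := by
  obtain ⟨A, B, hb⟩ := h.gr
  refine ⟨h.cont.add continuous_const, A + |c|, B, fun x => ?_⟩
  have := abs_add_le (F x) c
  have := hb x
  linarith

end LG

theorem SF.lg {f : ℝ → ℝ} (hf : SF f) : LG f :=
  ⟨hf.cont, |f 0|, 1, fun x => by simpa using hf.bound x⟩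

/-- log-exp mean against the standard Gaussian law. -/
noncomputable def lem (a : ℝ) (F : ℝ → ℝ) : ℝ :=
  if a = 0 then ∫ g, F g ∂(gaussianReal 0 1)
  else a⁻¹ * Real.log (∫ g, Real.exp (a * F g) ∂(gaussianReal 0 1))

theorem gaussOp_eq_lem (a v : ℝ) (f : ℝ → ℝ) (z : ℝ) :
    gaussOp a v f z = lem a (fun g => f (z + Real.sqrt v * g)) := rfl

theorem int_exp_pos {F : ℝ → ℝ} (hF : LG F) (a : ℝ) :
    0 < ∫ g, Real.exp (a * F g) ∂(gaussianReal 0 1) :=
  integral_exp_pos (hF.ce_exp a).int

theorem lem_const (a c : ℝ) : lem a (fun _ => c) = c := by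
  unfold lem
  split_ifs with h
  · simp
  · simp only [integral_const, probReal_univ, one_smul, Real.log_exp]
    field_simp

theorem lem_mono {a : ℝ} (ha : 0 ≤ a) {F G : ℝ → ℝ} (hF : LG F) (hG : LG G) (h : ∀ x, F x ≤ G x) :
    lem a F ≤ lem a G := by
  unfold lem
  split_ifs with h0
  · exact integral_mono hF.ce.int hG.ce.int h
  · refine mul_le_mul_of_nonneg_left ?_ (inv_nonneg.mpr ha)
    refine Real.log_le_log (int_exp_pos hF a) (integral_mono (hF.ce_exp a).int (hG.ce_exp a).int ?_)
    intro x
    exact Real.exp_le_exp.mpr (mul_le_mul_of_nonneg_left (h x) ha)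

theorem lem_add_const (a c : ℝ) {F : ℝ → ℝ} (hF : LG F) : lem a (fun x => F x + c) = lem a F + c := by
  unfold lem
  split_ifs with h0
  · rw [integral_add hF.ce.int (integrable_const _)]; simp
  · have e : (fun x => Real.exp (a * (F x + c))) = fun x => Real.exp (a * c) * Real.exp (a * F x) := by
      funext x; rw [← Real.exp_add]; ring_nf
    rw [e, integral_const_mul, Real.log_mul (Real.exp_pos _).ne' (int_exp_pos hF a).ne',
      Real.log_exp]
    field_simp
    ring

/-- joint convexity -/
theorem lem_convex {a : ℝ} (ha : 0 ≤ a) {F G H : ℝ → ℝ} (hF : LG F) (hG : LG G) (hH : LG H) {s t : ℝ}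
    (hs : 0 ≤ s) (ht : 0 ≤ t) (hst : s + t = 1) (h : ∀ x, H x ≤ s * F x + t * G x) :
    lem a H ≤ s * lem a F + t * lem a G := by
  unfold lem
  split_ifs with h0
  · calc ∫ g, H g ∂(gaussianReal 0 1) ≤ ∫ g, (s * F g + t * G g) ∂(gaussianReal 0 1) :=
        integral_mono hH.ce.int ((hF.ce.int.const_mul s).add (hG.ce.int.const_mul t)) h
      _ = _ := by
        rw [integral_add (hF.ce.int.const_mul s) (hG.ce.int.const_mul t), integral_const_mul,
          integral_const_mul]
  · have ha' : 0 < a := lt_of_le_of_ne ha (Ne.symm h0)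
    set I := ∫ g, Real.exp (a * F g) ∂(gaussianReal 0 1) with hI
    set J := ∫ g, Real.exp (a * G g) ∂(gaussianReal 0 1) with hJ
    have hIp : 0 < I := int_exp_pos hF a
    have hJp : 0 < J := int_exp_pos hG a
    have key : ∀ x, Real.exp (a * H x) ≤ Real.exp (s * Real.log I + t * Real.log J) *
        (s * (Real.exp (a * F x) / I) + t * (Real.exp (a * G x) / J)) := by
      intro x
      have h1 : a * H x ≤ (s * Real.log I + t * Real.log J) +
          (s * (a * F x - Real.log I) + t * (a * G x - Real.log J)) := by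
        have := mul_le_mul_of_nonneg_left (h x) ha
        nlinarith [this]
      refine (Real.exp_le_exp.mpr h1).trans ?_
      rw [Real.exp_add]
      refine mul_le_mul_of_nonneg_left ?_ (Real.exp_pos _).le
      have h2 := convexOn_exp.2 (Set.mem_univ (a * F x - Real.log I))
        (Set.mem_univ (a * G x - Real.log J)) hs ht hst
      simp only [smul_eq_mul] at h2
      refine h2.trans (le_of_eq ?_)
      rw [Real.exp_sub, Real.exp_sub, Real.exp_log hIp, Real.exp_log hJp]
    have h3 : ∫ g, Real.exp (a * H g) ∂(gaussianReal 0 1) ≤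
        Real.exp (s * Real.log I + t * Real.log J) := by
      calc ∫ g, Real.exp (a * H g) ∂(gaussianReal 0 1) ≤ ∫ g, Real.exp (s * Real.log I + t * Real.log J) *
        (s * (Real.exp (a * F g) / I) + t * (Real.exp (a * G g) / J)) ∂(gaussianReal 0 1) := by
            refine integral_mono (hH.ce_exp a).int ?_ key
            exact ((((hF.ce_exp a).int.div_const I).const_mul s).add
              (((hG.ce_exp a).int.div_const J).const_mul t)).const_mul _
        _ = Real.exp (s * Real.log I + t * Real.log J) * (s * (I / I) + t * (J / J)) := by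
            rw [integral_const_mul, integral_add (((hF.ce_exp a).int.div_const I).const_mul s)
              (((hG.ce_exp a).int.div_const J).const_mul t), integral_const_mul, integral_const_mul,
              integral_div, integral_div]
        _ = Real.exp (s * Real.log I + t * Real.log J) := by
            rw [div_self hIp.ne', div_self hJp.ne', mul_one, mul_one, hst, mul_one]
    have h4 : Real.log (∫ g, Real.exp (a * H g) ∂(gaussianReal 0 1)) ≤
        s * Real.log I + t * Real.log J := by
      rw [← Real.log_exp (s * Real.log I + t * Real.log J)]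
      exact Real.log_le_log (int_exp_pos hH a) h3
    calc a⁻¹ * Real.log (∫ g, Real.exp (a * H g) ∂(gaussianReal 0 1))
        ≤ a⁻¹ * (s * Real.log I + t * Real.log J) :=
          mul_le_mul_of_nonneg_left h4 (inv_nonneg.mpr ha)
      _ = _ := by ring

theorem lem_zero_le {a : ℝ} (ha : 0 ≤ a) {F : ℝ → ℝ} (hF : LG F) :
    ∫ g, F g ∂(gaussianReal 0 1) ≤ lem a F := by
  unfold lem
  split_ifs with h0
  · exact le_refl _
  · have ha' : 0 < a := lt_of_le_of_ne ha (Ne.symm h0)
    set m := ∫ g, F g ∂(gaussianReal 0 1) with hm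
    have h1 : Real.exp (a * m) ≤ ∫ g, Real.exp (a * F g) ∂(gaussianReal 0 1) := by
      have h2 : ∀ x, Real.exp (a * m) * (1 + a * (F x - m)) ≤ Real.exp (a * F x) := by
        intro x
        have := Real.add_one_le_exp (a * (F x - m))
        calc Real.exp (a * m) * (1 + a * (F x - m)) ≤ Real.exp (a * m) * Real.exp (a * (F x - m)) := by
              refine mul_le_mul_of_nonneg_left ?_ (Real.exp_pos _).le
              linarith
          _ = Real.exp (a * F x) := by rw [← Real.exp_add]; ring_nf
      have hint : Integrable (fun x => a * (F x - m)) (gaussianReal 0 1) :=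
        (hF.ce.int.sub (integrable_const m)).const_mul a
      calc Real.exp (a * m) = ∫ g, Real.exp (a * m) * (1 + a * (F g - m)) ∂(gaussianReal 0 1) := by
            rw [integral_const_mul, integral_add (integrable_const _) hint, integral_const_mul,
              integral_sub hF.ce.int (integrable_const m), ← hm]
            simp
        _ ≤ _ := integral_mono (((integrable_const 1).add hint).const_mul _) (hF.ce_exp a).int h2
    have h3 : a * m ≤ Real.log (∫ g, Real.exp (a * F g) ∂(gaussianReal 0 1)) := by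
      rw [← Real.log_exp (a * m)]
      exact Real.log_le_log (Real.exp_pos _) h1
    calc m = a⁻¹ * (a * m) := by field_simp
      _ ≤ _ := mul_le_mul_of_nonneg_left h3 (inv_nonneg.mpr ha)

theorem lem_mono_a {a a' : ℝ} (ha : 0 ≤ a) (haa : a ≤ a') {F : ℝ → ℝ} (hF : LG F) :
    lem a F ≤ lem a' F := by
  rcases eq_or_lt_of_le ha with h0 | h0
  · subst h0
    have : lem 0 F = ∫ g, F g ∂(gaussianReal 0 1) := by simp [lem]
    rw [this]
    exact lem_zero_le haa hF
  · have ha' : 0 < a' := lt_of_lt_of_le h0 haa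
    unfold lem
    rw [if_neg h0.ne', if_neg ha'.ne']
    set I := ∫ g, Real.exp (a' * F g) ∂(gaussianReal 0 1) with hI
    have hIp : 0 < I := int_exp_pos hF a'
    set θ := a / a' with hθ
    have hθ0 : 0 ≤ θ := div_nonneg ha ha'.le
    have hθ1 : θ ≤ 1 := (div_le_one ha').mpr haa
    have key : ∀ x, Real.exp (a * F x) ≤ Real.exp (θ * Real.log I) *
        ((1 - θ) + θ * (Real.exp (a' * F x) / I)) := by
      intro x
      have h1 : a * F x = θ * Real.log I + (θ * (a' * F x - Real.log I) + (1 - θ) * 0) := by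
        have : θ * a' = a := by rw [hθ]; field_simp
        rw [← this]; ring
      rw [h1, Real.exp_add]
      refine mul_le_mul_of_nonneg_left ?_ (Real.exp_pos _).le
      have h2 := convexOn_exp.2 (Set.mem_univ (a' * F x - Real.log I))
        (Set.mem_univ (0 : ℝ)) hθ0 (by linarith : 0 ≤ 1 - θ) (by ring)
      simp only [smul_eq_mul] at h2
      refine h2.trans (le_of_eq ?_)
      rw [Real.exp_sub, Real.exp_log hIp, Real.exp_zero]; ring
    have h3 : ∫ g, Real.exp (a * F g) ∂(gaussianReal 0 1) ≤ Real.exp (θ * Real.log I) := by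
      calc ∫ g, Real.exp (a * F g) ∂(gaussianReal 0 1) ≤ ∫ g, Real.exp (θ * Real.log I) *
        ((1 - θ) + θ * (Real.exp (a' * F g) / I)) ∂(gaussianReal 0 1) := by
            refine integral_mono (hF.ce_exp a).int ?_ key
            exact ((integrable_const _).add
              (((hF.ce_exp a').int.div_const I).const_mul θ)).const_mul _
        _ = Real.exp (θ * Real.log I) * ((1 - θ) + θ * (I / I)) := by
            rw [integral_const_mul, integral_add (integrable_const _)
              (((hF.ce_exp a').int.div_const I).const_mul θ), integral_const_mul, integral_div, ← hI]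
            simp
        _ = Real.exp (θ * Real.log I) := by
            rw [div_self hIp.ne']; ring
    have h4 : Real.log (∫ g, Real.exp (a * F g) ∂(gaussianReal 0 1)) ≤ θ * Real.log I := by
      rw [← Real.log_exp (θ * Real.log I)]
      exact Real.log_le_log (int_exp_pos hF a) h3
    calc a⁻¹ * Real.log (∫ g, Real.exp (a * F g) ∂(gaussianReal 0 1))
        ≤ a⁻¹ * (θ * Real.log I) := mul_le_mul_of_nonneg_left h4 (inv_nonneg.mpr ha)
      _ = a'⁻¹ * Real.log I := by rw [hθ]; field_simp

/-! ### `gaussOp` on site functions -/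

theorem gauss_integral_neg (F : ℝ → ℝ) :
    ∫ g, F (-g) ∂(gaussianReal 0 1) = ∫ g, F g ∂(gaussianReal 0 1) := by
  have h : (gaussianReal 0 1).map (fun x => -x) = gaussianReal 0 1 := by
    rw [gaussianReal_map_neg, neg_zero]
  conv_rhs => rw [← h]
  exact ((MeasurableEquiv.neg ℝ).measurableEmbedding.integral_map F).symm

theorem lem_neg (a : ℝ) (F : ℝ → ℝ) : lem a (fun g => F (-g)) = lem a F := by
  unfold lem
  rw [gauss_integral_neg F, gauss_integral_neg (fun g => Real.exp (a * F g))]

theorem gaussOp_zero_var (a : ℝ) (f : ℝ → ℝ) : gaussOp a 0 f = f := by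
  funext z
  rw [gaussOp_eq_lem]
  simp only [Real.sqrt_zero, zero_mul, add_zero]
  exact lem_const a (f z)

theorem gaussOp_add_const (a v c : ℝ) {f : ℝ → ℝ} (hf : LG f) (z : ℝ) :
    gaussOp a v (fun x => f x + c) z = gaussOp a v f z + c := by
  rw [gaussOp_eq_lem, gaussOp_eq_lem]
  exact lem_add_const a c (hf.aff z _)

theorem gaussOp_mono {a : ℝ} (ha : 0 ≤ a) (v : ℝ) {f h : ℝ → ℝ} (hf : LG f) (hh : LG h)
    (hle : ∀ x, f x ≤ h x) (z : ℝ) : gaussOp a v f z ≤ gaussOp a v h z := by
  rw [gaussOp_eq_lem, gaussOp_eq_lem]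
  exact lem_mono ha (hf.aff z _) (hh.aff z _) fun x => hle _

theorem gaussOp_mono_a {a a' : ℝ} (ha : 0 ≤ a) (haa : a ≤ a') (v : ℝ) {f : ℝ → ℝ} (hf : LG f)
    (z : ℝ) : gaussOp a v f z ≤ gaussOp a' v f z := by
  rw [gaussOp_eq_lem, gaussOp_eq_lem]
  exact lem_mono_a ha haa (hf.aff z _)

theorem SF.gop {f : ℝ → ℝ} (hf : SF f) {a : ℝ} (ha : 0 ≤ a) (v : ℝ) : SF (gaussOp a v f) where
  even z := by
    rw [gaussOp_eq_lem, gaussOp_eq_lem]
    have e : (fun g => f (-z + Real.sqrt v * g)) = fun g => (fun g => f (z + Real.sqrt v * g)) (-g) := by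
      funext g
      simp only
      rw [← hf.even]; ring_nf
    rw [e]
    exact lem_neg a (fun g => f (z + Real.sqrt v * g))
  conv := by
    refine ⟨convex_univ, fun x _ y _ s t hs ht hst => ?_⟩
    simp only [smul_eq_mul]
    rw [gaussOp_eq_lem, gaussOp_eq_lem, gaussOp_eq_lem]
    refine lem_convex ha (hf.lg.aff x _) (hf.lg.aff y _) (hf.lg.aff _ _) hs ht hst fun g => ?_
    have h := hf.conv.2 (Set.mem_univ (x + Real.sqrt v * g)) (Set.mem_univ (y + Real.sqrt v * g))
      hs ht hst
    simp only [smul_eq_mul] at h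
    refine le_trans (le_of_eq ?_) h
    congr 1
    have : Real.sqrt v * g = (s + t) * (Real.sqrt v * g) := by rw [hst, one_mul]
    linear_combination this
  lip x y := by
    have key : ∀ x y, gaussOp a v f x ≤ gaussOp a v f y + |x - y| := by
      intro x y
      rw [gaussOp_eq_lem, gaussOp_eq_lem, ← lem_add_const a _ (hf.lg.aff y _)]
      refine lem_mono ha (hf.lg.aff x _) ((hf.lg.aff y _).add_const _) fun g => ?_
      have h := hf.lip (x + Real.sqrt v * g) (y + Real.sqrt v * g)
      have e : x + Real.sqrt v * g - (y + Real.sqrt v * g) = x - y := by ring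
      rw [e] at h
      have := le_abs_self (f (x + Real.sqrt v * g) - f (y + Real.sqrt v * g))
      linarith
    rw [abs_sub_le_iff]
    have h1 := key x y
    have h2 := key y x
    rw [abs_sub_comm y x] at h2
    constructor <;> linarith

/-- Jensen: `f ≤ T f` for convex `f`. -/
theorem SF.le_gaussOp {f : ℝ → ℝ} (hf : SF f) {a : ℝ} (ha : 0 ≤ a) (v z : ℝ) :
    f z ≤ gaussOp a v f z := by
  rw [gaussOp_eq_lem]
  refine le_trans ?_ (lem_zero_le ha (hf.lg.aff z _))
  have h1 : ∀ g, f z ≤ 1/2 * f (z + Real.sqrt v * g) + 1/2 * f (z + Real.sqrt v * (-g)) := by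
    intro g
    have h := hf.conv.2 (Set.mem_univ (z + Real.sqrt v * g)) (Set.mem_univ (z + Real.sqrt v * (-g)))
      (by norm_num : (0:ℝ) ≤ 1/2) (by norm_num : (0:ℝ) ≤ 1/2) (by norm_num)
    simp only [smul_eq_mul] at h
    refine le_trans (le_of_eq ?_) h
    congr 1; ring
  have i1 : Integrable (fun g => f (z + Real.sqrt v * g)) (gaussianReal 0 1) := (hf.lg.aff z _).ce.int
  have i2 : Integrable (fun g => f (z + Real.sqrt v * (-g))) (gaussianReal 0 1) := by
    have := (hf.lg.aff z (- Real.sqrt v)).ce.int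
    refine this.congr (Filter.Eventually.of_forall fun g => ?_)
    simp only; ring_nf
  have h2 := integral_mono (integrable_const (f z)) ((i1.const_mul (1/2)).add (i2.const_mul (1/2))) h1
  have h3 : ∫ g, (1/2 * f (z + Real.sqrt v * g) + 1/2 * f (z + Real.sqrt v * (-g)))
      ∂(gaussianReal 0 1) = ∫ g, f (z + Real.sqrt v * g) ∂(gaussianReal 0 1) := by
    rw [integral_add (i1.const_mul (1/2)) (i2.const_mul (1/2)), integral_const_mul,
      integral_const_mul, gauss_integral_neg (fun g => f (z + Real.sqrt v * g))]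
    ring
  have h4 : ∫ _, f z ∂(gaussianReal 0 1) = f z := by simp
  calc f z = ∫ _, f z ∂(gaussianReal 0 1) := h4.symm
    _ ≤ _ := h2
    _ = _ := h3

/-- affine functions -/
theorem lem_affine (a z s c : ℝ) : lem a (fun g => z + s * g + c) = z + c + a * s ^ 2 / 2 := by
  have hlg : LG (fun g : ℝ => z + s * g) := by
    refine ⟨by fun_prop, |z|, |s|, fun x => ?_⟩
    calc |z + s * x| ≤ |z| + |s * x| := abs_add_le _ _
      _ = _ := by rw [abs_mul]
  rw [lem_add_const a c hlg]
  unfold lem
  split_ifs with h0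
  · subst h0
    rw [integral_add (integrable_const _) (((CE.id').smul s).int)]
    rw [integral_const_mul, integral_id_gaussianReal]
    simp
  · have h1 : ∫ g, Real.exp (a * (z + s * g)) ∂(gaussianReal 0 1) =
        Real.exp (a * z + (a * s) ^ 2 / 2) := by
      have e : (fun g => Real.exp (a * (z + s * g))) =
          fun g => Real.exp (a * z) * Real.exp ((a * s) * g) := by
        funext g; rw [← Real.exp_add]; ring_nf
      rw [e, integral_const_mul]
      have hm := congrFun (mgf_fun_id_gaussianReal (μ := 0) (v := 1)) (a * s)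
      simp only [mgf] at hm
      rw [hm, ← Real.exp_add]
      congr 1
      simp
    rw [h1, Real.log_exp]
    field_simp
    ring

/-- `T_{1,v} log cosh = log cosh + v/2` -/
theorem gaussOp_one_lch {v : ℝ} (hv : 0 ≤ v) (z : ℝ) :
    gaussOp 1 v (fun z => Real.log (Real.cosh z)) z =
      Real.log (Real.cosh z) + v / 2 := by
  unfold gaussOp
  rw [if_neg one_ne_zero]
  have e : (fun g => Real.exp (1 * Real.log (Real.cosh (z + Real.sqrt v * g)))) =
      fun g => (1/2) * Real.exp z * Real.exp (Real.sqrt v * g) +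
        (1/2) * Real.exp (-z) * Real.exp (-Real.sqrt v * g) := by
    funext g
    rw [one_mul, Real.exp_log (Real.cosh_pos _), Real.cosh_eq]
    have e1 : Real.exp (z + Real.sqrt v * g) = Real.exp z * Real.exp (Real.sqrt v * g) := Real.exp_add _ _
    have e2 : Real.exp (-(z + Real.sqrt v * g)) = Real.exp (-z) * Real.exp (-Real.sqrt v * g) := by
      rw [← Real.exp_add]; ring_nf
    rw [e1, e2]; ring
  rw [e, integral_add ((integrable_exp_mul_gaussianReal _).const_mul _)
    ((integrable_exp_mul_gaussianReal _).const_mul _), integral_const_mul, integral_const_mul]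
  have hm := fun t => congrFun (mgf_fun_id_gaussianReal (μ := 0) (v := 1)) t
  simp only [mgf] at hm
  rw [hm, hm]
  have h1 : (0 : ℝ) * Real.sqrt v + ((1 : NNReal) : ℝ) * Real.sqrt v ^ 2 / 2 = v / 2 := by
    rw [Real.sq_sqrt hv]; simp
  have h2 : (0 : ℝ) * (-Real.sqrt v) + ((1 : NNReal) : ℝ) * (-Real.sqrt v) ^ 2 / 2 = v / 2 := by
    rw [neg_sq, Real.sq_sqrt hv]; simp
  rw [h1, h2]
  have h3 : 1/2 * Real.exp z * Real.exp (v / 2) + 1/2 * Real.exp (-z) * Real.exp (v / 2) =
      Real.cosh z * Real.exp (v / 2) := by rw [Real.cosh_eq]; ring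
  rw [h3, Real.log_mul (Real.cosh_pos _).ne' (Real.exp_pos _).ne', Real.log_exp, inv_one, one_mul]

end Crest.Agent.RI
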