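import Crest.Agent.RI.Site
import Crest.Agent.RI.GOp

/-!
# Row 164, Part 10 (THEOREM CONC): monotonicity in the variances, coercivity
-/

set_option autoImplicit false

namespace Crest.Agent.RI.Cn

open MeasureTheory ProbabilityTheory Filter Topology
open Crest.ProbabilityR.InvariantGlass

/-- recT of log cosh is a site function -/
theorem sf_recT {ζ : ℕ → ℝ} (τ : ℕ → ℝ) : ∀ (n i : ℕ), (∀ j, i ≤ j → j < i + n → 0 ≤ ζ j) →
    SF (recT ζ τ n i lch) := by
  intro n
  induction n with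
  | zero => intro i _; exact SF.lch
  | succ n ih =>
    intro i h
    exact SF.gop (ih (i + 1) fun j h1 h2 => h j (by omega) (by omega)) (h i le_rfl (by omega)) _

/-- `T_{a,v} f ≤ T_{a,v'} f` for convex `f`, `0 ≤ v ≤ v'`: `σ ↦ E exp(a f(z+σ g))` is convex and even
in `σ`, hence nondecreasing on `σ ≥ 0` (same with `E f` when `a = 0`). -/
theorem gaussOp_mono_v {f : ℝ → ℝ} (hf : SF f) {a : ℝ} (ha : 0 ≤ a) {v v' : ℝ} (hv : 0 ≤ v)
    (hvv : v ≤ v') (z : ℝ) : gaussOp a v f z ≤ gaussOp a v' f z := by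
  rcases (hv.trans hvv).eq_or_lt with h0 | h0
  · have : v = v' := le_antisymm hvv (h0 ▸ hv)
    rw [this]
  rw [gaussOp_eq_lem, gaussOp_eq_lem]
  have hs0 : 0 < Real.sqrt v' := Real.sqrt_pos.mpr h0
  set l : ℝ := Real.sqrt v / Real.sqrt v' with hl
  have hl0 : 0 ≤ l := by positivity
  have hl1 : l ≤ 1 := by
    rw [hl, div_le_one hs0]
    exact Real.sqrt_le_sqrt hvv
  have hle : l * Real.sqrt v' = Real.sqrt v := div_mul_cancel₀ _ hs0.ne'
  have hst : (1 + l) / 2 + (1 - l) / 2 = 1 := by ring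
  have h := lem_convex ha (hf.lg.aff z (Real.sqrt v')) (hf.lg.aff z (-Real.sqrt v'))
    (hf.lg.aff z (Real.sqrt v)) (by linarith : (0:ℝ) ≤ (1 + l) / 2)
    (by linarith : (0:ℝ) ≤ (1 - l) / 2) hst (fun g => by
      have h := hf.conv.2 (Set.mem_univ (z + Real.sqrt v' * g))
        (Set.mem_univ (z + -Real.sqrt v' * g)) (by linarith : (0:ℝ) ≤ (1 + l) / 2)
        (by linarith : (0:ℝ) ≤ (1 - l) / 2) hst
      simp only [smul_eq_mul] at h
      refine le_trans (le_of_eq ?_) h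
      congr 1
      rw [← hle]; ring)
  have e : lem a (fun g => f (z + -Real.sqrt v' * g)) = lem a (fun g => f (z + Real.sqrt v' * g)) := by
    rw [← lem_neg a (fun g => f (z + Real.sqrt v' * g))]
    congr 1
    funext g
    congr 1
    ring
  rw [e] at h
  calc lem a (fun g => f (z + Real.sqrt v * g)) ≤ _ := h
    _ = _ := by ring

theorem recT_mono {ζ : ℕ → ℝ} {τ τ' : ℕ → ℝ} : ∀ (n i : ℕ),
    (∀ j, i ≤ j → j < i + n → 0 ≤ ζ j ∧ 0 ≤ τ j ∧ τ j ≤ τ' j) → ∀ z,
    recT ζ τ n i lch z ≤ recT ζ τ' n i lch z := by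
  intro n
  induction n with
  | zero => intro i _ z; exact le_refl _
  | succ n ih =>
    intro i h z
    have h0 := h i le_rfl (by omega)
    have s1 : SF (recT ζ τ n (i + 1) lch) :=
      sf_recT τ n (i + 1) fun j h1 h2 => (h j (by omega) (by omega)).1
    have s2 : SF (recT ζ τ' n (i + 1) lch) :=
      sf_recT τ' n (i + 1) fun j h1 h2 => (h j (by omega) (by omega)).1
    exact (gaussOp_mono_v s1 h0.1 h0.2.1 h0.2.2 z).trans
      (gaussOp_mono h0.1 _ s1.lg s2.lg (ih (i + 1) fun j h1 h2 => h j (by omega) (by omega)) z)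

/-- coercivity -/
theorem recT_ge {ζ : ℕ → ℝ} (τ : ℕ → ℝ) : ∀ (n i : ℕ),
    (∀ j, i ≤ j → j < i + n → 0 ≤ ζ j) → ∀ z, |z| - Real.log 2 ≤ recT ζ τ n i lch z := by
  intro n
  induction n with
  | zero =>
    intro i _ z
    show |z| - Real.log 2 ≤ Real.log (Real.cosh z)
    rw [← Real.log_exp |z|, ← Real.log_div (Real.exp_pos _).ne' two_ne_zero]
    refine Real.log_le_log (by positivity) ?_
    rw [← Real.cosh_abs, Real.cosh_eq]
    have := Real.exp_pos (-|z|)
    linarith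
  | succ n ih =>
    intro i h z
    exact (ih (i + 1) (fun j h1 h2 => h j (by omega) (by omega)) z).trans
      (SF.le_gaussOp (sf_recT τ n (i + 1) fun j h1 h2 => h j (by omega) (by omega))
        (h i le_rfl (by omega)) _ _)

theorem siteVal_bddBelow {ζ : ℕ → ℝ} {k : ℕ} (hζ : ∀ j < k, 0 ≤ ζ j) (τ : ℕ → ℝ) {m : ℝ}
    (hm : |m| < 1) : BddBelow (Set.range fun b : ℝ => siteVal ζ τ k b - b * m) := by
  refine ⟨-Real.log 2 - (1 / 2) * ∑ i ∈ Finset.range k, τ i, ?_⟩
  rintro _ ⟨b, rfl⟩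
  have h := recT_ge (ζ := ζ) τ k 0 (fun j _ h2 => hζ j (by omega)) b
  have h2 : b * m ≤ |b| := by
    calc b * m ≤ |b * m| := le_abs_self _
      _ = |b| * |m| := abs_mul _ _
      _ ≤ |b| * 1 := mul_le_mul_of_nonneg_left hm.le (abs_nonneg _)
      _ = |b| := mul_one _
  simp only [siteVal]
  linarith

end Crest.Agent.RI.Cn
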