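import Crest.Agent.RI.CnLimA

/-!
# Row 164, Part 10 (THEOREM CONC): continuity in the variances
-/

set_option autoImplicit false

namespace Crest.Agent.RI.Cn

open MeasureTheory ProbabilityTheory Filter Topology
open Crest.ProbabilityR.InvariantGlass

theorem cnLimB_int {F : ℕ → ℝ → ℝ} {G bd : ℝ → ℝ} (hF : ∀ p, Continuous (F p))
    (hbd : Integrable bd (gaussianReal 0 1)) (hb : ∀ p g, |F p g| ≤ bd g)
    (hlim : ∀ g, Tendsto (fun p => F p g) atTop (𝓝 (G g))) :
    Tendsto (fun p => ∫ g, F p g ∂(gaussianReal 0 1)) atTop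
      (𝓝 (∫ g, G g ∂(gaussianReal 0 1))) := by
  refine tendsto_integral_of_dominated_convergence bd
    (fun p => (hF p).aestronglyMeasurable) hbd (fun p => Eventually.of_forall fun g => ?_)
    (Eventually.of_forall hlim)
  rw [Real.norm_eq_abs]
  exact hb p g

theorem cnLimB_lem (a : ℝ) {F : ℕ → ℝ → ℝ} {G : ℝ → ℝ} (hF : ∀ p, LG (F p)) (hG : LG G)
    {A B : ℝ} (hb : ∀ p g, |F p g| ≤ A + B * |g|)
    (hlim : ∀ g, Tendsto (fun p => F p g) atTop (𝓝 (G g))) :
    Tendsto (fun p => lem a (F p)) atTop (𝓝 (lem a G)) := by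
  unfold lem
  by_cases h0 : a = 0
  · simp only [h0, if_true]
    exact cnLimB_int (fun p => (hF p).cont) (((CE.const A).add ((CE.id'.abs').smul B)).int) hb hlim
  · simp only [h0, if_false]
    refine Tendsto.const_mul _ (Tendsto.log ?_ (int_exp_pos hG a).ne')
    refine cnLimB_int (bd := fun g => Real.exp (|a| * (A + B * |g|)))
      (fun p => ((hF p).ce_exp a).cont) ?_ ?_ ?_
    · refine (CE.exp_lin (F := fun g => |a| * (A + B * |g|)) (by fun_prop) (A := |a| * |A|)
        (B := |a| * |B|) fun x => ?_).int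
      rw [abs_mul, abs_abs]
      have h1 : |(A + B * |x| : ℝ)| ≤ |A| + |B| * |x| := by
        have h3 := abs_add_le A (B * |x|)
        rw [abs_mul, abs_abs] at h3
        exact h3
      have h2 := mul_le_mul_of_nonneg_left h1 (abs_nonneg a)
      linarith
    · intro p g
      rw [abs_of_pos (Real.exp_pos _)]
      refine Real.exp_le_exp.mpr ((le_abs_self _).trans ?_)
      rw [abs_mul]
      exact mul_le_mul_of_nonneg_left (hb p g) (abs_nonneg a)
    · intro g
      exact (Real.continuous_exp.tendsto _).comp ((hlim g).const_mul a)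

/-- pointwise continuity: `recT ζ (τ + ε_p) → recT ζ τ` as `p → ∞` -/
theorem recT_tendsto {ζ : ℕ → ℝ} {τ : ℕ → ℝ} (h0 : ∀ i, 0 ≤ τ i) {e : ℕ → ℝ} (he0 : ∀ p, 0 ≤ e p)
    (he1 : ∀ p, e p ≤ 1) (he : Tendsto e atTop (𝓝 0)) : ∀ (n i : ℕ),
    (∀ j, i ≤ j → j < i + n → 0 ≤ ζ j) → ∀ z,
    Tendsto (fun p => recT ζ (fun j => τ j + e p) n i lch z) atTop (𝓝 (recT ζ τ n i lch z)) := by
  intro n
  induction n with
  | zero => intro i _ z; exact tendsto_const_nhds
  | succ n ih =>
    intro i hζ z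
    have hζ' : ∀ j, i + 1 ≤ j → j < i + 1 + n → 0 ≤ ζ j := fun j h1 h2 =>
      hζ j (by omega) (by omega)
    set f : ℕ → ℝ → ℝ := fun p => recT ζ (fun j => τ j + e p) n (i + 1) lch with hf
    set f₀ : ℝ → ℝ := recT ζ τ n (i + 1) lch with hf₀
    have hsf : ∀ p, SF (f p) := fun p => sf_recT _ n (i + 1) hζ'
    have hsf₀ : SF f₀ := sf_recT _ n (i + 1) hζ'
    have hih : ∀ y, Tendsto (fun p => f p y) atTop (𝓝 (f₀ y)) := fun y => ih (i + 1) hζ' y
    show Tendsto (fun p => gaussOp (ζ i) (τ i + e p) (f p) z) atTop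
      (𝓝 (gaussOp (ζ i) (τ i) f₀ z))
    simp only [gaussOp_eq_lem]
    -- boundedness of `f p 0`
    obtain ⟨C, hC⟩ : ∃ C, ∀ p, |f p 0| ≤ C := by
      obtain ⟨C, hC⟩ := (hih 0).abs.bddAbove_range
      exact ⟨C, fun p => hC ⟨p, rfl⟩⟩
    refine cnLimB_lem (ζ i) (A := C + |z|) (B := Real.sqrt (τ i + 1))
      (fun p => (hsf p).lg.aff z _) (hsf₀.lg.aff z _) ?_ ?_
    · intro p g
      have h1 := (hsf p).bound (z + Real.sqrt (τ i + e p) * g)
      have h2 : |z + Real.sqrt (τ i + e p) * g| ≤ |z| + Real.sqrt (τ i + 1) * |g| := by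
        calc |z + Real.sqrt (τ i + e p) * g| ≤ |z| + |Real.sqrt (τ i + e p) * g| := abs_add_le _ _
          _ = |z| + Real.sqrt (τ i + e p) * |g| := by
            rw [abs_mul, abs_of_nonneg (Real.sqrt_nonneg _)]
          _ ≤ |z| + Real.sqrt (τ i + 1) * |g| := by
            have := Real.sqrt_le_sqrt (show τ i + e p ≤ τ i + 1 by linarith [he1 p])
            have h3 := mul_le_mul_of_nonneg_right this (abs_nonneg g)
            linarith
      have h3 := hC p
      linarith
    · intro g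
      have hs : Tendsto (fun p => Real.sqrt (τ i + e p)) atTop (𝓝 (Real.sqrt (τ i))) := by
        have h1 : Tendsto (fun p => τ i + e p) atTop (𝓝 (τ i)) := by
          simpa using he.const_add (τ i)
        exact (Real.continuous_sqrt.tendsto _).comp h1
      have hd : Tendsto (fun p => f p (z + Real.sqrt (τ i + e p) * g) -
          f p (z + Real.sqrt (τ i) * g)) atTop (𝓝 0) := by
        have hb0 : Tendsto (fun p => |(z + Real.sqrt (τ i + e p) * g) -
            (z + Real.sqrt (τ i) * g)|) atTop (𝓝 0) := by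
          have h1 := ((hs.mul_const g).const_add z).sub
            (tendsto_const_nhds (x := z + Real.sqrt (τ i) * g))
          have h2 := h1.abs
          simpa using h2
        exact squeeze_zero_norm (fun p => (hsf p).lip _ _) hb0
      have := hd.add (hih (z + Real.sqrt (τ i) * g))
      simpa using this

end Crest.Agent.RI.Cn
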