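import Crest.Agent.RI.CnRho

/-!
# Row 164, Part 10 (THEOREM CONC): Mills ratio bound
-/

set_option autoImplicit false

namespace Crest.Agent.RI.Cn

open MeasureTheory ProbabilityTheory
open Crest.ProbabilityR.InvariantGlass

variable {ζ v x : ℝ} {u u1 F : ℝ → ℝ}

theorem CnMills_lip {M : ℝ} (du : ∀ z, HasDerivAt u (u1 z) z) (hM : ∀ z, |u1 z| ≤ M) (y z : ℝ) :
    |u y - u z| ≤ M * |y - z| := by
  have := Convex.norm_image_sub_le_of_norm_hasDerivWithin_le (f := u) (f' := u1) (s := Set.univ)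
    (C := M) (x := z) (y := y) (fun w _ => (du w).hasDerivWithinAt)
    (fun w _ => by simpa using hM w) convex_univ (Set.mem_univ _) (Set.mem_univ _)
  simpa using this

theorem CnMills_rho_pos (ζ v x : ℝ) (u : ℝ → ℝ) (z : ℝ) : 0 < rho ζ v x u z := Real.exp_pos _

/-- pointwise comparison of the tails -/
theorem CnMills_pt (hζ : 0 ≤ ζ) (hv : 0 < v) {M A c : ℝ} (hA : 0 ≤ A) (hc : 0 ≤ c)
    (hlip : ∀ y z, |u y - u z| ≤ M * |y - z|) {h : ℝ → ℝ}
    (hh : ∀ y, |h y| ≤ A * Real.exp (c * |y|)) {y z : ℝ} (hyz : 0 ≤ (y - z) * z) :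
    |h y| * rho ζ v x u y ≤ rho ζ v x u z * (A * Real.exp (c * |z|)) *
      (Real.exp ((c + |x| / v + ζ * M) * |y - z|) * Real.exp (-((y - z) ^ 2 / (2 * v)))) := by
  have h1 : |y| ≤ |z| + |y - z| := by
    have := abs_add_le z (y - z)
    rwa [add_sub_cancel] at this
  have h2 : -((y - x) ^ 2 / (2 * v)) ≤
      -((z - x) ^ 2 / (2 * v)) + |x| / v * |y - z| - (y - z) ^ 2 / (2 * v) := by
    have e : (y - x) ^ 2 = (z - x) ^ 2 + 2 * ((y - z) * z) - 2 * ((y - z) * x) + (y - z) ^ 2 := by
      ring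
    have e2 : (y - z) * x ≤ |y - z| * |x| := by
      rw [← abs_mul]; exact le_abs_self _
    have e3 : (z - x) ^ 2 - 2 * (|y - z| * |x|) + (y - z) ^ 2 ≤ (y - x) ^ 2 := by
      rw [e]; linarith
    have e4 := div_le_div_of_nonneg_right e3 (by positivity : (0 : ℝ) ≤ 2 * v)
    have e5 : ((z - x) ^ 2 - 2 * (|y - z| * |x|) + (y - z) ^ 2) / (2 * v) =
        (z - x) ^ 2 / (2 * v) - |x| / v * |y - z| + (y - z) ^ 2 / (2 * v) := by
      field_simp
    rw [e5] at e4
    linarith
  have h3 : ζ * u y ≤ ζ * u z + ζ * M * |y - z| := by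
    have := (abs_le.1 (hlip y z)).2
    have := mul_le_mul_of_nonneg_left this hζ
    linarith
  calc |h y| * rho ζ v x u y ≤ (A * Real.exp (c * |y|)) * rho ζ v x u y :=
        mul_le_mul_of_nonneg_right (hh y) (CnMills_rho_pos ζ v x u y).le
    _ = A * (Real.exp (c * |y|) * Real.exp (-((y - x) ^ 2 / (2 * v)) + ζ * u y)) := by
        unfold rho; ring
    _ = A * Real.exp (c * |y| + (-((y - x) ^ 2 / (2 * v)) + ζ * u y)) := by rw [← Real.exp_add]
    _ ≤ A * Real.exp ((-((z - x) ^ 2 / (2 * v)) + ζ * u z) + c * |z| +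
          ((c + |x| / v + ζ * M) * |y - z| + -((y - z) ^ 2 / (2 * v)))) := by
        refine mul_le_mul_of_nonneg_left (Real.exp_le_exp.2 ?_) hA
        have := mul_le_mul_of_nonneg_left h1 hc
        linarith
    _ = _ := by
        unfold rho
        rw [Real.exp_add, Real.exp_add _ (c * |z|), Real.exp_add ((c + |x| / v + ζ * M) * |y - z|)]
        ring

theorem CnMills_gint (hv : 0 < v) (β : ℝ) :
    Integrable (fun s : ℝ => Real.exp (β * |s|) * Real.exp (-(s ^ 2 / (2 * v)))) := by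
  have h1 : CE (fun s : ℝ => Real.exp (β * |s|)) := by
    refine CE.exp_lin (A := 0) (B := |β|) (by fun_prop) fun s => ?_
    rw [abs_mul, abs_abs]; linarith
  have h2 : LG (fun _ : ℝ => (0 : ℝ)) := ⟨continuous_const, 0, 0, fun s => by simp⟩
  have := rho_int (ζ := 0) (x := 0) hv h2 h1
  refine this.congr (Filter.Eventually.of_forall fun s => ?_)
  simp [rho]

/-- tails are controlled by the weight -/
theorem CnMills_tail (hζ : 0 ≤ ζ) (hv : 0 < v) {M A c : ℝ} (hA : 0 ≤ A) (hc : 0 ≤ c)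
    (hu : LG u)
    (hlip : ∀ y z, |u y - u z| ≤ M * |y - z|) {h : ℝ → ℝ} (ch : CE h)
    (hh : ∀ y, |h y| ≤ A * Real.exp (c * |y|)) {z : ℝ} {S : Set ℝ} (hS : MeasurableSet S)
    (hSz : ∀ y ∈ S, 0 ≤ (y - z) * z) :
    |∫ y in S, h y * rho ζ v x u y| ≤ rho ζ v x u z * (A * Real.exp (c * |z|)) *
      ∫ s : ℝ, Real.exp ((c + |x| / v + ζ * M) * |s|) * Real.exp (-(s ^ 2 / (2 * v))) := by
  have hi := CnMills_gint hv (c + |x| / v + ζ * M)
  have hi2 : Integrable (fun y : ℝ => Real.exp ((c + |x| / v + ζ * M) * |y - z|) *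
      Real.exp (-((y - z) ^ 2 / (2 * v)))) := hi.comp_sub_right z
  have hρ : Integrable (fun y => h y * rho ζ v x u y) := rho_int hv hu ch
  calc |∫ y in S, h y * rho ζ v x u y| ≤ ∫ y in S, |h y * rho ζ v x u y| :=
        abs_integral_le_integral_abs
    _ ≤ ∫ y in S, rho ζ v x u z * (A * Real.exp (c * |z|)) *
          (Real.exp ((c + |x| / v + ζ * M) * |y - z|) * Real.exp (-((y - z) ^ 2 / (2 * v)))) := by
        refine setIntegral_mono_on hρ.abs.integrableOn
          ((hi2.const_mul _).integrableOn) hS fun y hy => ?_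
        rw [abs_mul, abs_of_pos (CnMills_rho_pos ζ v x u y)]
        exact CnMills_pt hζ hv hA hc hlip hh (hSz y hy)
    _ ≤ ∫ y, rho ζ v x u z * (A * Real.exp (c * |z|)) *
          (Real.exp ((c + |x| / v + ζ * M) * |y - z|) * Real.exp (-((y - z) ^ 2 / (2 * v)))) := by
        refine setIntegral_le_integral (hi2.const_mul _) (Filter.Eventually.of_forall fun y => ?_)
        have := CnMills_rho_pos ζ v x u z
        simp only [Pi.zero_apply]
        positivity
    _ = _ := by
        rw [integral_const_mul]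
        congr 1
        exact integral_sub_right_eq_self (fun s : ℝ => Real.exp ((c + |x| / v + ζ * M) * |s|) *
          Real.exp (-(s ^ 2 / (2 * v)))) z

/-- the solution `G = -ρ⁻¹ ∫_{-∞}^z h ρ` of `G' - V' G = -h`, of exponential growth when
`∫ h ρ = 0`. -/
theorem mills (hζ : 0 ≤ ζ) (hv : 0 < v) (hu : LG u) (du : ∀ z, HasDerivAt u (u1 z) z)
    (cu1 : CE u1) (hb : ∃ M : ℝ, ∀ z, |u1 z| ≤ M) {h : ℝ → ℝ} (ch : CE h)
    (h0 : ∫ z, h z * rho ζ v x u z = 0) :
    ∃ G : ℝ → ℝ, CE G ∧ ∀ z, HasDerivAt G (((z - x) / v - ζ * u1 z) * G z - h z) z := by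
  obtain ⟨M, hM⟩ := hb
  have hlip := CnMills_lip du hM
  have hρ : Integrable (fun y => h y * rho ζ v x u y) := rho_int hv hu ch
  have hρd := fun z => rho_deriv (ζ := ζ) (x := x) hv du z
  have hρc : Continuous (rho ζ v x u) :=
    continuous_iff_continuousAt.2 fun z => (hρd z).continuousAt
  have hcont : Continuous (fun y => h y * rho ζ v x u y) := ch.cont.mul hρc
  set J : ℝ → ℝ := fun z => ∫ y in Set.Iic z, h y * rho ζ v x u y with hJ
  have hJd : ∀ z, HasDerivAt J (h z * rho ζ v x u z) z := by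
    intro z
    have e : J = fun w => J 0 + ∫ y in (0 : ℝ)..w, h y * rho ζ v x u y := by
      funext w
      have := intervalIntegral.integral_Iic_sub_Iic (a := 0) (b := w) hρ.integrableOn
        hρ.integrableOn
      simp only [hJ]
      linarith
    rw [e]
    refine HasDerivAt.const_add _ ?_
    exact intervalIntegral.integral_hasDerivAt_right (hcont.intervalIntegrable _ _)
      hcont.stronglyMeasurable.stronglyMeasurableAtFilter hcont.continuousAt
  have hd : ∀ z, HasDerivAt (fun z => -((rho ζ v x u z)⁻¹ * J z))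
      (((z - x) / v - ζ * u1 z) * -((rho ζ v x u z)⁻¹ * J z) - h z) z := by
    intro z
    have hpos := CnMills_rho_pos ζ v x u z
    have h1 := ((hρd z).inv hpos.ne').mul (hJd z)
    have h2 := h1.neg
    refine h2.congr_deriv ?_
    rw [Pi.inv_apply]
    field_simp
    ring
  refine ⟨fun z => -((rho ζ v x u z)⁻¹ * J z), ⟨?_, ?_⟩, hd⟩
  · exact continuous_iff_continuousAt.2 fun z => (hd z).continuousAt
  · obtain ⟨A, c, hA, hc, hh⟩ := ch.gr
    set K := ∫ s : ℝ, Real.exp ((c + |x| / v + ζ * M) * |s|) * Real.exp (-(s ^ 2 / (2 * v)))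
      with hK
    have hK0 : 0 ≤ K := integral_nonneg fun s => by positivity
    have key : ∀ z, |J z| ≤ rho ζ v x u z * (A * Real.exp (c * |z|)) * K := by
      intro z
      rcases le_total z 0 with hz | hz
      · refine CnMills_tail hζ hv hA hc hu hlip ch hh measurableSet_Iic fun y hy => ?_
        have : y - z ≤ 0 := sub_nonpos.2 hy
        exact mul_nonneg_of_nonpos_of_nonpos this hz
      · have e : J z = -∫ y in Set.Ioi z, h y * rho ζ v x u y := by
          have := intervalIntegral.integral_Iic_add_Ioi (b := z) hρ.integrableOn hρ.integrableOn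
          rw [h0] at this
          simp only [hJ]
          linarith
        rw [e, abs_neg]
        refine CnMills_tail hζ hv hA hc hu hlip ch hh measurableSet_Ioi fun y hy => ?_
        have : 0 ≤ y - z := sub_nonneg.2 (le_of_lt hy)
        exact mul_nonneg this hz
    refine ⟨A * K, c, by positivity, hc, fun z => ?_⟩
    have hpos := CnMills_rho_pos ζ v x u z
    rw [abs_neg, abs_mul, abs_inv, abs_of_pos hpos]
    calc (rho ζ v x u z)⁻¹ * |J z| ≤
        (rho ζ v x u z)⁻¹ * (rho ζ v x u z * (A * Real.exp (c * |z|)) * K) :=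
          mul_le_mul_of_nonneg_left (key z) (inv_nonneg.2 hpos.le)
      _ = A * K * Real.exp (c * |z|) := by
          field_simp

end Crest.Agent.RI.Cn
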