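import Crest.Agent.RI.CnAlg

/-!
# Row 164, Part 10: tilted Gaussian integrals: integrability, continuity, growth
-/

set_option autoImplicit false

namespace Crest.Agent.RI.Cn

open MeasureTheory ProbabilityTheory

section one

/-! one-variable facts -/

variable {ζ v : ℝ} {u F G : ℝ → ℝ}

theorem ce_tilt (hu : LG u) (hF : CE F) (ζ v x : ℝ) :
    CE (fun g => F (x + Real.sqrt v * g) * Real.exp (ζ * u (x + Real.sqrt v * g))) :=
  (hF.aff x _).mul ((hu.aff x _).ce_exp ζ)

theorem nn_one_pos (hu : LG u) (ζ v x : ℝ) : 0 < nn ζ v u (fun _ => 1) x := by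
  unfold nn
  simp only [one_mul]
  exact int_exp_pos (hu.aff x _) ζ

theorem nn_add (hu : LG u) (hF : CE F) (hG : CE G) (ζ v x : ℝ) :
    nn ζ v u (fun z => F z + G z) x = nn ζ v u F x + nn ζ v u G x := by
  unfold nn
  rw [← integral_add (ce_tilt hu hF ζ v x).int (ce_tilt hu hG ζ v x).int]
  refine integral_congr_ae (Filter.Eventually.of_forall fun g => ?_)
  simp only; ring

theorem nn_smul (c : ℝ) (ζ v x : ℝ) :
    nn ζ v u (fun z => c * F z) x = c * nn ζ v u F x := by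
  unfold nn
  rw [← integral_const_mul]
  refine integral_congr_ae (Filter.Eventually.of_forall fun g => ?_)
  simp only; ring

theorem nn_mono (hu : LG u) (hF : CE F) (hG : CE G) (h : ∀ z, F z ≤ G z) (ζ v x : ℝ) :
    nn ζ v u F x ≤ nn ζ v u G x := by
  unfold nn
  exact integral_mono (ce_tilt hu hF ζ v x).int (ce_tilt hu hG ζ v x).int fun g =>
    mul_le_mul_of_nonneg_right (h _) (Real.exp_pos _).le

theorem ee_add (hu : LG u) (hF : CE F) (hG : CE G) (ζ v x : ℝ) :
    ee ζ v u (fun z => F z + G z) x = ee ζ v u F x + ee ζ v u G x := by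
  unfold ee
  rw [nn_add hu hF hG, add_div]

theorem ee_smul (c : ℝ) (ζ v x : ℝ) :
    ee ζ v u (fun z => c * F z) x = c * ee ζ v u F x := by
  unfold ee
  rw [nn_smul, mul_div_assoc]

theorem ee_const (hu : LG u) (c ζ v x : ℝ) : ee ζ v u (fun _ => c) x = c := by
  have h := ee_smul (u := u) (F := fun _ => (1 : ℝ)) c ζ v x
  simp only [mul_one] at h
  rw [h]
  unfold ee
  rw [div_self (nn_one_pos hu ζ v x).ne', mul_one]

theorem ee_mono (hu : LG u) (hF : CE F) (hG : CE G) (h : ∀ z, F z ≤ G z) (ζ v x : ℝ) :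
    ee ζ v u F x ≤ ee ζ v u G x := by
  unfold ee
  exact div_le_div_of_nonneg_right (nn_mono hu hF hG h ζ v x) (nn_one_pos hu ζ v x).le

theorem ee_abs_le (hu : LG u) (hF : CE F) {C : ℝ} (h : ∀ z, |F z| ≤ C) (ζ v x : ℝ) :
    |ee ζ v u F x| ≤ C := by
  rw [abs_le]
  have h1 := ee_mono hu hF (CE.const C) (fun z => (abs_le.mp (h z)).2) ζ v x
  have h2 := ee_mono hu (CE.const (-C)) hF (fun z => (abs_le.mp (h z)).1) ζ v x
  rw [ee_const hu] at h1 h2
  exact ⟨h2, h1⟩

end one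

/-! families -/

variable {I : Set ℝ} {ζ v₀ θ : ℝ} {u F : ℝ → ℝ → ℝ}

theorem LGr.lg (h0 : EG0 I u) (h : LGr I u) {r : ℝ} (hr : r ∈ I) : LG (u r) := by
  obtain ⟨C, hC, hb⟩ := h
  refine ⟨?_, C, C, fun x => ?_⟩
  · exact (h0.ce hr).cont
  · have := hb r hr x
    linarith

end Crest.Agent.RI.Cn
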