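import Crest.Agent.RI.CnNa

/-!
# Row 164, Part 10 (THEOREM CONC): joint continuity of the tilted Gaussian integral
-/

set_option autoImplicit false

namespace Crest.Agent.RI.Cn

open MeasureTheory ProbabilityTheory
open Crest.ProbabilityR.InvariantGlass

variable {I : Set ℝ} {ζ v₀ θ : ℝ} {u F : ℝ → ℝ → ℝ}

/-- the tilted family is `EG0` -/
theorem CnNcont_tilt (hu0 : EG0 I u) (hu : LGr I u) (hF : EG0 I F) (ζ : ℝ) :
    EG0 I (fun r z => F r z * Real.exp (ζ * u r z)) := by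
  obtain ⟨C, hC, hb⟩ := hu
  obtain ⟨M, hM, hg⟩ := hF.gr
  refine ⟨hF.cont.mul (Real.continuous_exp.comp_continuousOn (continuousOn_const.mul hu0.cont)),
    M * Real.exp (|ζ| * C) + (M + |ζ| * C), by positivity, fun r hr x => ?_⟩
  have h1 : ζ * u r x ≤ |ζ| * C + |ζ| * C * |x| := by
    calc ζ * u r x ≤ |ζ * u r x| := le_abs_self _
      _ = |ζ| * |u r x| := abs_mul _ _
      _ ≤ |ζ| * (C * (1 + |x|)) := mul_le_mul_of_nonneg_left (hb r hr x) (abs_nonneg _)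
      _ = _ := by ring
  have h0 : 0 ≤ |ζ| * C := mul_nonneg (abs_nonneg _) hC
  rw [abs_mul, abs_of_pos (Real.exp_pos _)]
  calc |F r x| * Real.exp (ζ * u r x)
      ≤ (M * Real.exp (M * |x|)) * Real.exp (|ζ| * C + |ζ| * C * |x|) :=
        mul_le_mul (hg r hr x) (Real.exp_le_exp.2 h1) (Real.exp_pos _).le (by positivity)
    _ = (M * Real.exp (|ζ| * C)) * Real.exp ((M + |ζ| * C) * |x|) := by
        rw [Real.exp_add, add_mul M, Real.exp_add (M * |x|)]; ring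
    _ ≤ _ := by
        refine mul_le_mul (by linarith) (Real.exp_le_exp.2 ?_) (Real.exp_pos _).le (by positivity)
        refine mul_le_mul_of_nonneg_right ?_ (abs_nonneg _)
        have := mul_nonneg hM (Real.exp_pos (|ζ| * C)).le
        linarith

/-- the growth bound along `x + √(v₀ + θ r) g` -/
theorem CnNcont_bd {K : ℝ → ℝ → ℝ} {M b R : ℝ} (hM : 0 ≤ M)
    (hK : ∀ r ∈ I, ∀ x, |K r x| ≤ M * Real.exp (M * |x|)) (hb : ∀ r ∈ I, v₀ + θ * r ≤ b)
    {r : ℝ} (hr : r ∈ I) {x : ℝ} (hx : |x| ≤ R) (g : ℝ) :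
    |K r (x + Real.sqrt (v₀ + θ * r) * g)| ≤
      M * Real.exp (M * R) * Real.exp (M * Real.sqrt b * |g|) := by
  have h1 : Real.sqrt (v₀ + θ * r) ≤ Real.sqrt b := Real.sqrt_le_sqrt (hb r hr)
  have h2 : |x + Real.sqrt (v₀ + θ * r) * g| ≤ R + Real.sqrt b * |g| := by
    calc |x + Real.sqrt (v₀ + θ * r) * g| ≤ |x| + |Real.sqrt (v₀ + θ * r) * g| := abs_add_le _ _
      _ = |x| + Real.sqrt (v₀ + θ * r) * |g| := by
          rw [abs_mul, abs_of_nonneg (Real.sqrt_nonneg _)]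
      _ ≤ _ := add_le_add hx (mul_le_mul_of_nonneg_right h1 (abs_nonneg _))
  calc |K r (x + Real.sqrt (v₀ + θ * r) * g)| ≤ M * Real.exp (M * |x + Real.sqrt (v₀ + θ * r) * g|) :=
        hK r hr _
    _ ≤ M * Real.exp (M * (R + Real.sqrt b * |g|)) := by gcongr
    _ = _ := by rw [mul_assoc, ← Real.exp_add]; ring_nf

/-- continuity in both variables of the integrand -/
theorem CnNcont_at {K : ℝ → ℝ → ℝ} (hI : IsOpen I) (hK : EG0 I K) {p : ℝ × ℝ} (hp : p.1 ∈ I)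
    (g : ℝ) : ContinuousAt (fun p : ℝ × ℝ => K p.1 (p.2 + Real.sqrt (v₀ + θ * p.1) * g)) p := by
  have h1 : ContinuousAt (fun p : ℝ × ℝ => K p.1 p.2) (p.1, p.2 + Real.sqrt (v₀ + θ * p.1) * g) :=
    hK.cont.continuousAt ((hI.prod isOpen_univ).mem_nhds ⟨hp, Set.mem_univ _⟩)
  have h2 : Continuous fun p : ℝ × ℝ => (p.1, p.2 + Real.sqrt (v₀ + θ * p.1) * g) := by fun_prop
  exact ContinuousAt.comp (f := fun p : ℝ × ℝ => (p.1, p.2 + Real.sqrt (v₀ + θ * p.1) * g))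
    (g := fun p : ℝ × ℝ => K p.1 p.2) h1 h2.continuousAt

/-- joint continuity (dominated convergence; locally in `x`). -/
theorem Nn_cont (hI : IsOpen I) (hu0 : EG0 I u) (hu : LGr I u) (hv : VOK I v₀ θ) (hF : EG0 I F) :
    ContinuousOn (fun p : ℝ × ℝ => Nn ζ v₀ θ u F p.1 p.2) (I ×ˢ Set.univ) := by
  have hK := CnNcont_tilt hu0 hu hF ζ
  obtain ⟨-, b, hb⟩ := hv
  obtain ⟨M, hM, hg⟩ := hK.gr
  intro p hp
  refine ContinuousAt.continuousWithinAt ?_
  have hp1 : p.1 ∈ I := hp.1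
  refine continuousAt_of_dominated
    (F := fun (p : ℝ × ℝ) (g : ℝ) => F p.1 (p.2 + Real.sqrt (v₀ + θ * p.1) * g) *
      Real.exp (ζ * u p.1 (p.2 + Real.sqrt (v₀ + θ * p.1) * g)))
    (bound := fun g => M * Real.exp (M * (|p.2| + 1)) * Real.exp (M * Real.sqrt b * |g|))
    ?_ ?_ ((integrable_exp_abs_gauss _).const_mul _) ?_
  · filter_upwards [(hI.prod (isOpen_univ (X := ℝ))).mem_nhds hp] with q hq
    exact ((hK.ce hq.1).aff q.2 _).cont.aestronglyMeasurable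
  · have hn : {q : ℝ × ℝ | |q.2 - p.2| < 1} ∈ nhds p := by
      refine IsOpen.mem_nhds (isOpen_lt (by fun_prop) continuous_const) ?_
      simp
    filter_upwards [(hI.prod (isOpen_univ (X := ℝ))).mem_nhds hp, hn] with q hq hq'
    have h1 : |q.2| ≤ |p.2| + 1 := by
      have := abs_sub_abs_le_abs_sub q.2 p.2
      have h3 : |q.2 - p.2| < 1 := hq'
      linarith
    refine Filter.Eventually.of_forall fun g => ?_
    exact CnNcont_bd (K := fun r z => F r z * Real.exp (ζ * u r z)) hM hg hb hq.1 h1 g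
  · refine Filter.Eventually.of_forall fun g => ?_
    exact CnNcont_at hI hK hp1 g

end Crest.Agent.RI.Cn
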