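import Crest.Agent.RI.CnNa
import Crest.Agent.RI.CnChain
import Crest.Agent.RI.CnNcont

/-!
# Row 164, Part 10 (THEOREM CONC): parameter derivative of the tilted Gaussian integral, step 1
-/

set_option autoImplicit false

namespace Crest.Agent.RI.Cn

open MeasureTheory ProbabilityTheory
open Crest.ProbabilityR.InvariantGlass

variable {I : Set ℝ} {ζ v₀ θ : ℝ} {u F : ℝ → ℝ → ℝ}

/-- Step 1: differentiation under the integral. With `s = √(v₀+θ r)`, `s' = θ/(2 s)` and
`Z = x + s g`: the derivative of `F r Z * exp (ζ u r Z)` in `r` is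
`[F_r + ζ F u_r + (F_x + ζ F u_x) s' g] exp (ζ u)`. -/
theorem Nn_dr_aux (hI : IsOpen I) (hu2 : EG I 2 u) (hu : LGr I u) (hv : VOK I v₀ θ) (hF : EG I 2 F)
    {r : ℝ} (hr : r ∈ I) (x : ℝ) :
    HasDerivAt (fun s => Nn ζ v₀ θ u F s x)
      (∫ g, ((DR F r (x + Real.sqrt (v₀ + θ * r) * g) +
            ζ * (F r (x + Real.sqrt (v₀ + θ * r) * g) * DR u r (x + Real.sqrt (v₀ + θ * r) * g))) +
          (DX F r (x + Real.sqrt (v₀ + θ * r) * g) +
            ζ * (F r (x + Real.sqrt (v₀ + θ * r) * g) * DX u r (x + Real.sqrt (v₀ + θ * r) * g))) *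
            (θ / (2 * Real.sqrt (v₀ + θ * r)) * g)) *
          Real.exp (ζ * u r (x + Real.sqrt (v₀ + θ * r) * g)) ∂(gaussianReal 0 1)) r := by
  have hK := CnNcont_tilt hu2.eg0 hu hF.eg0 ζ
  have hK1 : EG0 I (fun r z => (DR F r z + ζ * (F r z * DR u r z)) * Real.exp (ζ * u r z)) :=
    CnNcont_tilt hu2.eg0 hu (hF.dr.eg0.add ((EG0.const ζ).mul (hF.eg0.mul hu2.dr.eg0))) ζ
  have hK2 : EG0 I (fun r z => (DX F r z + ζ * (F r z * DX u r z)) * Real.exp (ζ * u r z)) :=
    CnNcont_tilt hu2.eg0 hu (hF.dx.eg0.add ((EG0.const ζ).mul (hF.eg0.mul hu2.dx.eg0))) ζ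
  obtain ⟨⟨a, ha, hav⟩, b, hb⟩ := hv
  obtain ⟨M1, hM1, hg1⟩ := hK1.gr
  obtain ⟨M2, hM2, hg2⟩ := hK2.gr
  refine (hasDerivAt_integral_of_dominated_loc_of_deriv_le
    (F := fun s g => F s (x + Real.sqrt (v₀ + θ * s) * g) *
      Real.exp (ζ * u s (x + Real.sqrt (v₀ + θ * s) * g)))
    (F' := fun s g => ((DR F s (x + Real.sqrt (v₀ + θ * s) * g) +
            ζ * (F s (x + Real.sqrt (v₀ + θ * s) * g) * DR u s (x + Real.sqrt (v₀ + θ * s) * g))) +
          (DX F s (x + Real.sqrt (v₀ + θ * s) * g) +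
            ζ * (F s (x + Real.sqrt (v₀ + θ * s) * g) * DX u s (x + Real.sqrt (v₀ + θ * s) * g))) *
            (θ / (2 * Real.sqrt (v₀ + θ * s)) * g)) *
          Real.exp (ζ * u s (x + Real.sqrt (v₀ + θ * s) * g)))
    (s := I)
    (bound := fun g => M1 * Real.exp (M1 * |x|) * Real.exp (M1 * Real.sqrt b * |g|) +
      M2 * Real.exp (M2 * |x|) * Real.exp (M2 * Real.sqrt b * |g|) *
        (|θ| / (2 * Real.sqrt a) * |g|))
    (hI.mem_nhds hr) ?_ ((hK.ce hr).aff x _).int ?_ ?_ ?_ ?_).2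
  · filter_upwards [hI.mem_nhds hr] with s hs
    exact ((hK.ce hs).aff x _).cont.aestronglyMeasurable
  · have h1 := ((hK1.ce hr).aff x (Real.sqrt (v₀ + θ * r))).cont
    have h2 := ((hK2.ce hr).aff x (Real.sqrt (v₀ + θ * r))).cont
    have h3 : Continuous fun g : ℝ => θ / (2 * Real.sqrt (v₀ + θ * r)) * g := by fun_prop
    refine (h1.add (h2.mul h3)).aestronglyMeasurable.congr (Filter.Eventually.of_forall fun g => ?_)
    simp only [Pi.add_apply, Pi.mul_apply]
    ring
  · refine Filter.Eventually.of_forall fun g s hs => ?_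
    have h1 := CnNcont_bd (v₀ := v₀) (θ := θ) hM1 hg1 hb hs le_rfl g (x := x)
    have h2 := CnNcont_bd (v₀ := v₀) (θ := θ) hM2 hg2 hb hs le_rfl g (x := x)
    have hsa : Real.sqrt a ≤ Real.sqrt (v₀ + θ * s) := Real.sqrt_le_sqrt (hav s hs)
    have hsa0 : 0 < Real.sqrt a := Real.sqrt_pos.2 ha
    have h3 : |θ / (2 * Real.sqrt (v₀ + θ * s)) * g| ≤ |θ| / (2 * Real.sqrt a) * |g| := by
      rw [abs_mul, abs_div, abs_of_pos (by linarith : 0 < 2 * Real.sqrt (v₀ + θ * s))]
      refine mul_le_mul_of_nonneg_right ?_ (abs_nonneg _)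
      exact div_le_div_of_nonneg_left (abs_nonneg _) (by linarith) (by linarith)
    rw [Real.norm_eq_abs]
    rw [show ∀ p q t e : ℝ, (p + q * t) * e = p * e + (q * e) * t from fun p q t e => by ring]
    refine (abs_add_le _ _).trans (add_le_add h1 ?_)
    rw [abs_mul]
    exact mul_le_mul h2 h3 (abs_nonneg _) (by positivity)
  · have hce : CE (fun g => M1 * Real.exp (M1 * |x|) * Real.exp (M1 * Real.sqrt b * |g|) +
      M2 * Real.exp (M2 * |x|) * Real.exp (M2 * Real.sqrt b * |g|) *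
        (|θ| / (2 * Real.sqrt a) * |g|)) := by
      have hexp : ∀ c : ℝ, CE (fun g => Real.exp (c * |g|)) := fun c =>
        CE.exp_lin (A := 0) (B := |c|) (by fun_prop) fun y => by
          rw [abs_mul, abs_abs, zero_add]
      exact ((hexp _).smul _).add (((hexp _).smul _).mul (CE.id'.abs'.smul _))
    exact hce.int
  · refine Filter.Eventually.of_forall fun g s hs => ?_
    have hpos : 0 < v₀ + θ * s := ha.trans_le (hav s hs)
    have hy : HasDerivAt (fun s => x + Real.sqrt (v₀ + θ * s) * g)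
        (θ / (2 * Real.sqrt (v₀ + θ * s)) * g) s := by
      have h1 : HasDerivAt (fun s => v₀ + θ * s) θ s := by
        simpa using ((hasDerivAt_id s).const_mul θ).const_add v₀
      exact ((h1.sqrt hpos.ne').mul_const g).const_add x
    have hF1 := hF.chain hI hs hy
    have hu1 := hu2.chain hI hs hy
    have h := hF1.mul ((hu1.const_mul ζ).exp)
    refine h.congr_deriv ?_
    ring

end Crest.Agent.RI.Cn
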