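import Crest.Agent.RI.CnNa

/-!
# Row 164, Part 10 (THEOREM CONC): x-derivative of the tilted Gaussian integral
-/

set_option autoImplicit false

namespace Crest.Agent.RI.Cn

open MeasureTheory ProbabilityTheory
open Crest.ProbabilityR.InvariantGlass

variable {I : Set ℝ} {ζ v₀ θ : ℝ} {u F : ℝ → ℝ → ℝ}

/-- differentiation of `x ↦ ∫ K (x + s g)` -/
private theorem CnNdx_aux {K K' : ℝ → ℝ} (dK : ∀ z, HasDerivAt K (K' z) z) (cK : CE K)
    (cK' : CE K') (s x : ℝ) :
    HasDerivAt (fun x => ∫ g, K (x + s * g) ∂(gaussianReal 0 1))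
      (∫ g, K' (x + s * g) ∂(gaussianReal 0 1)) x := by
  obtain ⟨A, c, hA, hc, hb⟩ := cK'.gr
  refine (hasDerivAt_integral_of_dominated_loc_of_deriv_le (F := fun x g => K (x + s * g))
    (F' := fun x g => K' (x + s * g)) (s := Metric.ball x 1)
    (bound := fun g => A * Real.exp (c * (|x| + 1)) * Real.exp (c * |s| * |g|))
    (Metric.ball_mem_nhds x one_pos) ?_ (cK.aff x s).int ?_ ?_ ?_ ?_).2
  · exact Filter.Eventually.of_forall fun y => (cK.aff y s).cont.aestronglyMeasurable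
  · exact (cK'.aff x s).cont.aestronglyMeasurable
  · refine Filter.Eventually.of_forall fun g y hy => ?_
    rw [Metric.mem_ball, Real.dist_eq] at hy
    have h1 : |y| ≤ |x| + 1 := by
      have := abs_sub_abs_le_abs_sub y x
      linarith
    have h2 : |y + s * g| ≤ |x| + 1 + |s| * |g| := by
      calc |y + s * g| ≤ |y| + |s * g| := abs_add_le _ _
        _ ≤ _ := by rw [abs_mul]; linarith
    calc ‖K' (y + s * g)‖ ≤ A * Real.exp (c * |y + s * g|) := hb _
      _ ≤ A * Real.exp (c * (|x| + 1 + |s| * |g|)) := by gcongr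
      _ = _ := by rw [mul_assoc, ← Real.exp_add]; ring_nf
  · exact (integrable_exp_abs_gauss _).const_mul _
  · refine Filter.Eventually.of_forall fun g y _ => ?_
    exact (dK (y + s * g)).comp_add_const y (s * g)

/-- one-variable version -/
theorem nn_dx {ζ v : ℝ} {u u1 F F1 : ℝ → ℝ} (hu : LG u) (du : ∀ z, HasDerivAt u (u1 z) z)
    (cu1 : CE u1) (dF : ∀ z, HasDerivAt F (F1 z) z) (cF : CE F) (cF1 : CE F1) (x : ℝ) :
    HasDerivAt (nn ζ v u F) (nn ζ v u (fun z => F1 z + ζ * (F z * u1 z)) x) x := by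
  have hd : ∀ z, HasDerivAt (fun z => F z * Real.exp (ζ * u z))
      ((F1 z + ζ * (F z * u1 z)) * Real.exp (ζ * u z)) z := by
    intro z
    have h := (dF z).mul (((du z).const_mul ζ).exp)
    refine h.congr_deriv ?_
    ring
  exact CnNdx_aux hd (cF.mul (hu.ce_exp ζ))
    ((cF1.add ((cF.mul cu1).smul ζ)).mul (hu.ce_exp ζ)) (Real.sqrt v) x

theorem Nn_dx (hu1 : EG I 1 u) (hu : LGr I u) (hF : EG I 1 F) {r : ℝ} (hr : r ∈ I) (x : ℝ) :
    HasDerivAt (Nn ζ v₀ θ u F r)
      (Nn ζ v₀ θ u (fun r x => DX F r x + ζ * (F r x * DX u r x)) r x) x :=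
  nn_dx (hu.lg hu1.eg0 hr) (fun z => hu1.hdx hr z) (hu1.dx.eg0.ce hr) (fun z => hF.hdx hr z)
    (hF.eg0.ce hr) (hF.dx.eg0.ce hr) x

end Crest.Agent.RI.Cn
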