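import Crest.Agent.RI.CnNa

/-!
# Row 164, Part 10 (THEOREM CONC): the weight rho
-/

set_option autoImplicit false

namespace Crest.Agent.RI.Cn

open MeasureTheory ProbabilityTheory
open Crest.ProbabilityR.InvariantGlass

/-- the weight `ρ(z) = exp (-(z-x)²/(2v) + ζ u(z))` -/
noncomputable def rho (ζ v x : ℝ) (u : ℝ → ℝ) (z : ℝ) : ℝ :=
  Real.exp (-((z - x) ^ 2 / (2 * v)) + ζ * u z)

variable {ζ v x : ℝ} {u u1 F : ℝ → ℝ}

private theorem rho_map (hv : 0 < v) :
    (gaussianReal 0 1).map (fun g => x + Real.sqrt v * g) = gaussianReal x v.toNNReal := by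
  have h1 := gaussianReal_map_const_mul (μ := 0) (v := 1) (Real.sqrt v)
  have h3 : (NNReal.mk (Real.sqrt v ^ 2) (sq_nonneg _)) * 1 = v.toNNReal := by
    apply NNReal.eq
    rw [mul_one, Real.coe_toNNReal v hv.le]
    exact Real.sq_sqrt hv.le
  rw [h3, mul_zero] at h1
  have h2 := gaussianReal_map_const_add (μ := 0) (v := v.toNNReal) x
  rw [← h1, Measure.map_map (by fun_prop) (by fun_prop), zero_add] at h2
  exact h2

private theorem rho_pdf (hv : 0 < v) (z : ℝ) :
    gaussianPDFReal x v.toNNReal z * (F z * Real.exp (ζ * u z)) =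
      (Real.sqrt (2 * Real.pi * v))⁻¹ * (F z * rho ζ v x u z) := by
  have e : rho ζ v x u z = Real.exp (-(z - x) ^ 2 / (2 * v)) * Real.exp (ζ * u z) := by
    rw [rho, Real.exp_add, neg_div]
  rw [e, gaussianPDFReal_def]
  simp only [Real.coe_toNNReal v hv.le]
  ring

private theorem rho_ne (hv : 0 < v) : v.toNNReal ≠ 0 := by
  simpa using hv

/-- transfer to the Lebesgue integral (`gaussianReal x v`, `gaussianPDFReal`) -/
theorem nn_eq_rho (hv : 0 < v) (hu : LG u) (hF : CE F) :
    nn ζ v u F x = (Real.sqrt (2 * Real.pi * v))⁻¹ * ∫ z, F z * rho ζ v x u z := by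
  have hc : Continuous fun z => F z * Real.exp (ζ * u z) :=
    hF.cont.mul (hu.ce_exp ζ).cont
  have h1 : nn ζ v u F x =
      ∫ z, F z * Real.exp (ζ * u z) ∂((gaussianReal 0 1).map (fun g => x + Real.sqrt v * g)) := by
    rw [integral_map (by fun_prop) hc.aestronglyMeasurable]
    rfl
  rw [h1, rho_map hv, integral_gaussianReal_eq_integral_smul (rho_ne hv),
    ← integral_const_mul]
  refine integral_congr_ae (Filter.Eventually.of_forall fun z => ?_)
  simp only [smul_eq_mul]
  exact rho_pdf hv z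

theorem rho_int (hv : 0 < v) (hu : LG u) (hF : CE F) :
    Integrable (fun z => F z * rho ζ v x u z) := by
  have hc : Continuous fun z => F z * Real.exp (ζ * u z) :=
    hF.cont.mul (hu.ce_exp ζ).cont
  have h1 : Integrable (fun z => F z * Real.exp (ζ * u z)) (gaussianReal x v.toNNReal) := by
    rw [← rho_map hv, integrable_map_measure hc.aestronglyMeasurable (by fun_prop)]
    exact (ce_tilt hu hF ζ v x).int
  rw [gaussianReal_of_var_ne_zero _ (rho_ne hv),
    integrable_withDensity_iff_integrable_smul' (measurable_gaussianPDF _ _)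
      (ae_of_all _ fun _ ↦ gaussianPDF_lt_top)] at h1
  have h2 := h1.const_mul (Real.sqrt (2 * Real.pi * v))
  refine h2.congr (Filter.Eventually.of_forall fun z => ?_)
  simp only [smul_eq_mul, toReal_gaussianPDF]
  rw [rho_pdf hv z, ← mul_assoc, mul_inv_cancel₀, one_mul]
  positivity

/-- derivative of the weight -/
theorem rho_deriv (hv : 0 < v) (du : ∀ z, HasDerivAt u (u1 z) z) (z : ℝ) :
    HasDerivAt (rho ζ v x u) (-((z - x) / v - ζ * u1 z) * rho ζ v x u z) z := by
  have h1 : HasDerivAt (fun z => -((z - x) ^ 2 / (2 * v)) + ζ * u z)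
      (-((z - x) / v - ζ * u1 z)) z := by
    have h2 : HasDerivAt (fun z : ℝ => (z - x) ^ 2) (2 * (z - x)) z := by
      have := ((hasDerivAt_id z).sub_const x).fun_pow 2
      simpa using this
    have h3 := ((h2.div_const (2 * v)).neg).add ((du z).const_mul ζ)
    refine h3.congr_deriv ?_
    have := hv.ne'
    field_simp
    ring
  have h4 := h1.exp
  refine h4.congr_deriv ?_
  rw [rho]; ring

/-- total derivatives integrate to zero -/
theorem rho_total (hv : 0 < v) (hu : LG u) (du : ∀ z, HasDerivAt u (u1 z) z) (cu1 : CE u1)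
    {K K' : ℝ → ℝ} (dK : ∀ z, HasDerivAt K (K' z) z) (cK : CE K) (cK' : CE K') :
    ∫ z, (K' z - ((z - x) / v - ζ * u1 z) * K z) * rho ζ v x u z = 0 := by
  have c1 : CE (fun z => (z - x) / v - ζ * u1 z) := by
    have h := ((CE.id'.sub (CE.const x)).smul v⁻¹).sub (cu1.smul ζ)
    have e : (fun z => v⁻¹ * (z - x) - ζ * u1 z) = fun z => (z - x) / v - ζ * u1 z := by
      funext z; rw [div_eq_inv_mul]
    rw [← e]; exact h
  refine integral_eq_zero_of_hasDerivAt_of_integrable (f := fun z => K z * rho ζ v x u z) ?_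
    (rho_int hv hu (cK'.sub (c1.mul cK))) (rho_int hv hu cK)
  intro z
  have := (dK z).mul (rho_deriv (ζ := ζ) (x := x) hv du z)
  refine this.congr_deriv ?_
  ring

end Crest.Agent.RI.Cn
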