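import Crest.Agent.RI.CnAlg

/-!
# Row 164, Part 10 (THEOREM CONC): Schwarz theorem for the classes EG
-/

set_option autoImplicit false

namespace Crest.Agent.RI.Cn

open MeasureTheory ProbabilityTheory
open Crest.ProbabilityR.InvariantGlass

variable {I : Set ℝ} {F : ℝ → ℝ → ℝ}

/-- mean value theorem, two-sided form used below -/
private theorem sch_mvt {f f' : ℝ → ℝ} {a b : ℝ} (hab : a < b)
    (h : ∀ x ∈ Set.Icc a b, HasDerivAt f (f' x) x) :
    ∃ c ∈ Set.Ioo a b, f b - f a = (b - a) * f' c := by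
  obtain ⟨c, hc, e⟩ := exists_hasDerivAt_eq_slope f f' hab
    (fun x hx => (h x hx).continuousAt.continuousWithinAt)
    (fun x hx => h x (Set.Ioo_subset_Icc_self hx))
  refine ⟨c, hc, ?_⟩
  have : b - a ≠ 0 := (sub_pos.mpr hab).ne'
  rw [e]; field_simp

/-- symmetry of the mixed derivative (both exist and are continuous on `I × ℝ`). Proof: for small
`h, k` the double difference `F(r+h,x+k) - F(r+h,x) - F(r,x+k) + F(r,x)` equals `h k` times a value
of `DR (DX F)` and also `h k` times a value of `DX (DR F)` at intermediate points (mean value theorem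
twice); let `h, k → 0`. -/
theorem EG.schwarz (hI : IsOpen I) (hF : EG I 3 F) {r : ℝ} (hr : r ∈ I) (x : ℝ) :
    DR (DX F) r x = DX (DR F) r x := by
  have hA : EG0 I (DR (DX F)) := (EG.dr (n := 0) (EG.dx (n := 2) hF)).eg0
  have hB : EG0 I (DX (DR F)) := (EG.dx (n := 0) (EG.dr (n := 1) hF)).eg0
  have hopen : (I ×ˢ (Set.univ : Set ℝ)) ∈ nhds (r, x) :=
    (hI.prod isOpen_univ).mem_nhds ⟨hr, trivial⟩
  have cA := hA.cont.continuousAt hopen
  have cB := hB.cont.continuousAt hopen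
  by_contra hne
  set ε : ℝ := |DR (DX F) r x - DX (DR F) r x| / 2 with hε
  have hεp : 0 < ε := by
    have : 0 < |DR (DX F) r x - DX (DR F) r x| := abs_pos.mpr (sub_ne_zero.mpr hne)
    positivity
  obtain ⟨δ₁, hδ₁, h1⟩ := Metric.continuousAt_iff.mp cA ε hεp
  obtain ⟨δ₂, hδ₂, h2⟩ := Metric.continuousAt_iff.mp cB ε hεp
  obtain ⟨δ₃, hδ₃, h3⟩ := Metric.isOpen_iff.mp hI r hr
  set h : ℝ := min δ₁ (min δ₂ δ₃) / 2 with hh
  have hm : 0 < min δ₁ (min δ₂ δ₃) := lt_min hδ₁ (lt_min hδ₂ hδ₃)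
  have hpos : 0 < h := by positivity
  have l1 : h < δ₁ := by
    have := min_le_left δ₁ (min δ₂ δ₃); rw [hh]; linarith
  have l2 : h < δ₂ := by
    have := (min_le_right δ₁ (min δ₂ δ₃)).trans (min_le_left _ _); rw [hh]; linarith
  have l3 : h < δ₃ := by
    have := (min_le_right δ₁ (min δ₂ δ₃)).trans (min_le_right _ _); rw [hh]; linarith
  have hI' : ∀ s ∈ Set.Icc r (r + h), s ∈ I := fun s hs => h3 (by
    rw [Metric.mem_ball, Real.dist_eq, abs_lt]
    constructor <;> linarith [hs.1, hs.2])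
  -- first way
  obtain ⟨ξ, hξ, e1⟩ := sch_mvt (f := fun y => F (r + h) y - F r y)
    (f' := fun y => DX F (r + h) y - DX F r y) (a := x) (b := x + h) (by linarith)
    (fun y _ => (EG.hdx (n := 2) hF (hI' _ ⟨by linarith, le_refl _⟩) y).sub
      (EG.hdx (n := 2) hF hr y))
  obtain ⟨η, hη, e2⟩ := sch_mvt (f := fun s => DX F s ξ)
    (f' := fun s => DR (DX F) s ξ) (a := r) (b := r + h) (by linarith)
    (fun s hs => EG.hdr (n := 0) (EG.dx (n := 2) hF) (hI' s hs) ξ)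
  -- second way
  obtain ⟨η', hη', e3⟩ := sch_mvt (f := fun s => F s (x + h) - F s x)
    (f' := fun s => DR F s (x + h) - DR F s x) (a := r) (b := r + h) (by linarith)
    (fun s hs => (EG.hdr (n := 1) hF (hI' s hs) (x + h)).sub (EG.hdr (n := 1) hF (hI' s hs) x))
  obtain ⟨ξ', hξ', e4⟩ := sch_mvt (f := fun y => DR F η' y)
    (f' := fun y => DX (DR F) η' y) (a := x) (b := x + h) (by linarith)
    (fun y _ => EG.hdx (n := 0) (EG.dr (n := 1) hF)
      (hI' η' (Set.Ioo_subset_Icc_self hη')) y)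
  simp only [add_sub_cancel_left] at e1 e2 e3 e4
  have key : DR (DX F) η ξ = DX (DR F) η' ξ' := by
    have e5 : h * (h * DR (DX F) η ξ) = h * (h * DX (DR F) η' ξ') := by
      rw [← e2, ← e1, ← e4, ← e3]; ring
    exact mul_left_cancel₀ hpos.ne' (mul_left_cancel₀ hpos.ne' e5)
  have d1 : dist ((η, ξ) : ℝ × ℝ) (r, x) < δ₁ := by
    rw [Prod.dist_eq, max_lt_iff, Real.dist_eq, Real.dist_eq, abs_lt, abs_lt]
    refine ⟨⟨?_, ?_⟩, ?_, ?_⟩ <;> simp only <;> linarith [hη.1, hη.2, hξ.1, hξ.2]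
  have d2 : dist ((η', ξ') : ℝ × ℝ) (r, x) < δ₂ := by
    rw [Prod.dist_eq, max_lt_iff, Real.dist_eq, Real.dist_eq, abs_lt, abs_lt]
    refine ⟨⟨?_, ?_⟩, ?_, ?_⟩ <;> simp only <;> linarith [hη'.1, hη'.2, hξ'.1, hξ'.2]
  have g1 := h1 d1
  have g2 := h2 d2
  simp only [Real.dist_eq] at g1 g2
  have : |DR (DX F) r x - DX (DR F) r x| < 2 * ε := by
    calc |DR (DX F) r x - DX (DR F) r x|
        = |(DX (DR F) η' ξ' - DX (DR F) r x) - (DR (DX F) η ξ - DR (DX F) r x)| := by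
          rw [key]; ring_nf
      _ ≤ |DX (DR F) η' ξ' - DX (DR F) r x| + |DR (DX F) η ξ - DR (DX F) r x| := abs_sub _ _
      _ < 2 * ε := by linarith
  rw [hε] at this
  linarith

end Crest.Agent.RI.Cn
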