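import Crest.Agent.RI.CnIdC
import Crest.Agent.RI.CnB2

/-!
# Row 164, Part 10 (THEOREM CONC): the induction step Cond I Z u -> Cond I ζ (Tw u), 0 <= ζ < Z
-/

set_option autoImplicit false

namespace Crest.Agent.RI.Cn

open MeasureTheory ProbabilityTheory
open Crest.ProbabilityR.InvariantGlass

variable {I : Set ℝ} {ζ v₀ θ Z : ℝ} {u : ℝ → ℝ → ℝ}

/-- positivity of `u_xx` -/
theorem Reg.pos (hu : Reg I u) {r : ℝ} (hr : r ∈ I) (x : ℝ) : 0 < DX (DX u) r x := by
  obtain ⟨c, C, hc, _, h⟩ := hu.low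
  exact lt_of_lt_of_le (by positivity) (h r hr x)

/-- lowering: the weak condition at `ζ` gives the strong one below `ζ` -/
theorem Cond.of_weak (hu : Reg I u) (h : CondW I ζ u) (hs : ∀ r ∈ I, ∀ x, F2 ζ u r x ≤ 0) :
    Cond I ζ u := by
  intro ζ' hζ'
  have key : ∀ r ∈ I, ∀ x, F2 ζ' u r x < F2 ζ u r x := by
    intro r hr x
    have hA := hu.pos hr x
    have : F2 ζ' u r x = F2 ζ u r x - 2 * (ζ - ζ') * DX (DX u) r x ^ 2 := by
      simp only [F2]; ring
    rw [this]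
    have : 0 < 2 * (ζ - ζ') * DX (DX u) r x ^ 2 := by
      have : 0 < ζ - ζ' := by linarith
      positivity
    linarith
  refine ⟨fun r hr x => lt_of_lt_of_le (key r hr x) (hs r hr x), fun r hr x e => ?_⟩
  have h1 := h r hr x e
  have h2 := key r hr x
  have h3 : 0 ≤ e ^ 2 / 4 := by positivity
  nlinarith [mul_nonneg h3 (sub_nonneg.2 h2.le)]

/-- the weak condition implies `f₂ ≤ 0` (let `e → ∞`) -/
theorem CondW.f2 (h : CondW I ζ u) : ∀ r ∈ I, ∀ x, F2 ζ u r x ≤ 0 := by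
  intro r hr x
  by_contra hcon
  push Not at hcon
  have h0 := h r hr x
  set a := QQ u r x
  set b := F1 u r x
  set c := F2 ζ u r x
  have hs1 : 1 ≤ 1 + 4 * (|a| + 1) / c := by
    have : 0 ≤ 4 * (|a| + 1) / c := by positivity
    linarith
  have hs2 : |a| + 1 ≤ (1 + 4 * (|a| + 1) / c) ^ 2 / 4 * c := by
    have e1 : 4 * (|a| + 1) / c ≤ (1 + 4 * (|a| + 1) / c) ^ 2 := by nlinarith
    rw [div_le_iff₀ hcon] at e1
    linarith
  have ha := neg_abs_le a
  rcases le_total 0 b with hb | hb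
  · have := h0 (1 + 4 * (|a| + 1) / c)
    nlinarith [mul_nonneg hb (le_trans zero_le_one hs1)]
  · have := h0 (-(1 + 4 * (|a| + 1) / c))
    rw [neg_sq] at this
    nlinarith [mul_nonneg (neg_nonneg.2 hb) (le_trans zero_le_one hs1)]

/-- the step -/
theorem cond_step (hI : IsOpen I) (hζ : 0 ≤ ζ) (hZ : ζ < Z) (hv : VOK I v₀ θ) (hu : Reg I u)
    (hc : Cond I Z u) : Cond I ζ (Tw ζ v₀ θ u) := by
  obtain ⟨hF2, hW⟩ := hc ζ hZ
  have e4 : EG I 4 u := hu.eg
  have e3 : EG I 3 (DX u) := e4.dx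
  have e2 : EG I 2 (DX (DX u)) := e3.dx
  have e1 : EG I 1 (DX (DX (DX u))) := e2.dx
  have e0 : EG I 0 (DX (DX (DX (DX u)))) := e1.dx
  have r2 : EG I 2 (DR u) := e4.dr
  have r1 : EG I 1 (DX (DR u)) := r2.dx
  have r0 : EG I 0 (DX (DX (DR u))) := r1.dx
  have rr : EG I 0 (DR (DR u)) := r2.dr
  have hCW : CondW I ζ (Tw ζ v₀ θ u) := by
    intro r hr x e
    rw [id_tw hI hζ hv hu hr x e]
    obtain ⟨⟨a, ha, hav⟩, _⟩ := hv
    have hvr : 0 < v₀ + θ * r := lt_of_lt_of_le ha (hav r hr)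
    have hLG : LG (u r) := LGr.lg e4.eg0 hu.lin hr
    -- derivatives of `ψ` and `φ`
    have dps : ∀ z, HasDerivAt (Ps ζ u r)
        (1 / 2 * (DX (DX (DX u)) r z + ζ * (2 * (DX u r z * DX (DX u) r z)))) z := by
      intro z
      have h1 := (((e2.hdx hr z).add (((e3.hdx hr z).pow 2).const_mul ζ)).const_mul (1 / 2))
      refine HasDerivAt.congr_deriv h1 ?_
      simp only [Nat.cast_ofNat, Nat.add_one_sub_one, pow_one]
      ring
    have hDps : DX (Ps ζ u) r =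
        fun z => 1 / 2 * (DX (DX (DX u)) r z + ζ * (2 * (DX u r z * DX (DX u) r z))) := by
      funext z; exact (dps z).deriv
    have dps2 : ∀ z, HasDerivAt (DX (Ps ζ u) r)
        (1 / 2 * (DX (DX (DX (DX u))) r z +
          ζ * (2 * (DX (DX u) r z ^ 2 + DX u r z * DX (DX (DX u)) r z)))) z := by
      intro z
      rw [hDps]
      have h1 := ((e1.hdx hr z).add ((((e3.hdx hr z).mul (e2.hdx hr z)).const_mul 2).const_mul
        ζ)).const_mul (1 / 2)
      refine HasDerivAt.congr_deriv h1 ?_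
      ring
    have hDDps : DX (DX (Ps ζ u)) r = fun z => (1 / 2 * (DX (DX (DX (DX u))) r z +
          ζ * (2 * (DX (DX u) r z ^ 2 + DX u r z * DX (DX (DX u)) r z)))) := by
      funext z; exact (dps2 z).deriv
    have hDph : ∀ c, DX (Ph ζ c u) r = fun z => DX (DR u) r z +
        c * (1 / 2 * (DX (DX (DX u)) r z + ζ * (2 * (DX u r z * DX (DX u) r z)))) := by
      intro c
      funext z
      exact ((r2.hdx hr z).add ((dps z).const_mul c)).deriv
    have key := step_one hζ hvr hLG (fun z => e4.hdx hr z) (fun z => e3.hdx hr z)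
      (fun z => e2.hdx hr z) (fun z => e1.hdx hr z) (fun z => r2.hdx hr z)
      (fun z => r1.hdx hr z)
      (by obtain ⟨C, hC⟩ := hu.bx; exact ⟨C, fun z => hC r hr z⟩)
      (e2.eg0.ce hr) (e1.eg0.ce hr) (e0.eg0.ce hr) (r2.eg0.ce hr) (r1.eg0.ce hr)
      (r0.eg0.ce hr) (rr.eg0.ce hr)
      (by obtain ⟨c, C, h1, h2, h3⟩ := hu.low; exact ⟨c, C, h1, h2, fun z => h3 r hr z⟩)
      (fun z => hF2 r hr z) (fun z e => hW r hr z e) (θ + e) x
    have c1 : Ch ζ (θ + e) u r = fun z => DR (DR u) r z +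
        2 * (θ + e) * (1 / 2 * DX (DX (DR u)) r z + ζ * (DX u r z * DX (DR u) r z)) +
        (θ + e) ^ 2 * (1 / 2 * (1 / 2 * (DX (DX (DX (DX u))) r z +
          ζ * (2 * (DX (DX u) r z ^ 2 + DX u r z * DX (DX (DX u)) r z)))) +
          ζ * (DX u r z * (1 / 2 * (DX (DX (DX u)) r z +
            ζ * (2 * (DX u r z * DX (DX u) r z)))))) := by
      funext z
      simp only [Ch, LLo, hDDps, hDps]
    simp only [En, c1, hDph]
    exact key
  exact Cond.of_weak (hu.tw hI hζ hv) hCW hCW.f2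

end Crest.Agent.RI.Cn
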