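import Crest.Agent.RI.ConcZ

/-!
# Row 164, Part 9: fluctuations averaged over the cube
-/

set_option autoImplicit false

namespace Crest.Agent.RI

open MeasureTheory ProbabilityTheory

variable {N K J k : ℕ}

/-- fluctuation of the direction field `i` -/
noncomputable def flu (P : Measure (ON N)) (D : Blk) (L : LBd J) (k : ℕ) (s : ℝ)
    (x : XI k D.K J → ℝ) (κ : Fin N → Fin D.K) (lab : Fin N → Fin J) (i : XI k D.K J) : ℝ :=
  EL P D L k s x κ lab (fun ω => |dirV k κ lab i ω - EL P D L k s x κ lab (dirV k κ lab i)|)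

theorem ConcAvg_abs {E : Type} {β : E → ℝ} [MeasurableSpace E] {n : ℕ} {Φ : (Fin n → E) → ℝ}
    (h : Tame β Φ) : Tame β (fun ω => |Φ ω|) := by
  obtain ⟨C, hC, hb⟩ := h.bound
  refine ⟨h.meas.abs, C, hC, fun ω => ?_⟩
  rw [abs_abs]
  exact hb ω

theorem ConcAvg_V {P : Measure (ON N)} (hP : HaarO P) (κ : Fin N → Fin K)
    (lab : Fin N → Fin J) (i : XI k K J) : Tame (βN (N := N)) (dirV k κ lab i) := by
  have := prob_mN hP (unifA N)
  exact Ham.tame (dom_mN hP (unifA N)) (dirV_ham κ lab i)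

theorem flu_nonneg {P : Measure (ON N)} (hP : HaarO P) (D : Blk) (L : LBd J) (s : ℝ)
    (x : XI k D.K J → ℝ) (κ : Fin N → Fin D.K) (lab : Fin N → Fin J) (i : XI k D.K J) :
    0 ≤ flu P D L k s x κ lab i := by
  have := prob_mN hP (unifA N)
  have hβ := dom_mN hP (unifA N)
  unfold flu EL
  exact TVar_pathE_nonneg hβ (exps_LB k) (k + 1) 0 (HN_ham k _)
    (ConcAvg_abs (TVar_tame_sub hβ (ConcAvg_V hP κ lab i) (Tame.const hβ _)))
    (fun ω => abs_nonneg _)

theorem measurable_flu {P : Measure (ON N)} (hP : HaarO P) (D : Blk) (L : LBd J) (s : ℝ)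
    (κ : Fin N → Fin D.K) (lab : Fin N → Fin J) (i : XI k D.K J) :
    Measurable (fun x : XI k D.K J → ℝ => flu P D L k s x κ lab i) := by
  have hV : Measurable (Function.uncurry fun (_ : XI k D.K J → ℝ) (ω : Fin (k + 1) → EN N) =>
      dirV k κ lab i ω) := (dirV_ham κ lab i).meas.comp measurable_snd
  have h1 := measurable_ELx (P := P) hP D L s κ lab hV
  refine measurable_ELx hP D L s κ lab
    (Φ := fun x ω => |dirV k κ lab i ω - EL P D L k s x κ lab (dirV k κ lab i)|) ?_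
  exact (hV.sub (h1.comp measurable_fst)).abs

theorem ConcAvg_le {P : Measure (ON N)} (hP : HaarO P) (D : Blk) (L : LBd J) (s : ℝ)
    (x : XI k D.K J → ℝ) (κ : Fin N → Fin D.K) (lab : Fin N → Fin J)
    {Φ : (Fin (k + 1) → EN N) → ℝ} (hΦ : Tame (βN (N := N)) Φ) (c : ℝ) :
    EL P D L k s x κ lab (fun ω => |Φ ω - c|) ≤
      EL P D L k s x κ lab (fun ω => |Φ ω|) + |c| := by
  have := prob_mN hP (unifA N)
  have hβ := dom_mN hP (unifA N)
  have h1 : EL P D L k s x κ lab (fun ω => |Φ ω - c|) ≤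
      EL P D L k s x κ lab (fun ω => |Φ ω| + |c|) := by
    unfold EL
    refine pathE_mono hβ (exps_LB k) (k + 1) 0 (HN_ham k _)
      (ConcAvg_abs (TVar_tame_sub hβ hΦ (Tame.const hβ c)))
      (Tame.add hβ (ConcAvg_abs hΦ) (Tame.const hβ |c|)) fun ω => ?_
    have := abs_sub (Φ ω) c
    linarith
  refine h1.trans (le_of_eq ?_)
  unfold EL
  rw [pathE_add hβ (exps_LB k) (k + 1) 0 (HN_ham k _) (ConcAvg_abs hΦ) (Tame.const hβ |c|),
    pathE_const hβ (exps_LB k) (k + 1) 0 (HN_ham k _)]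

theorem flu_bdd (hk : 0 < k) (hN : 0 < N) {P : Measure (ON N)} (hP : HaarO P) (D : Blk)
    (L : LBd J) {s : ℝ} (hs : 0 ≤ s) (hs1 : 3 * s ≤ 1) (κ : Fin N → Fin D.K)
    (lab : Fin N → Fin J) (i : XI k D.K J) : ∃ B : ℝ, ∀ x : XI k D.K J → ℝ, InC x →
    |flu P D L k s x κ lab i| ≤ B := by
  obtain ⟨B, hB⟩ := EL_bdd hP D L s κ lab (ConcAvg_abs (ConcAvg_V (k := k) hP κ lab i))
  refine ⟨B + 1, fun x hx => ?_⟩
  rw [abs_of_nonneg (flu_nonneg hP D L s x κ lab i)]
  have h1 := ConcAvg_le hP D L s x κ lab (ConcAvg_V (k := k) hP κ lab i)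
    (EL P D L k s x κ lab (dirV k κ lab i))
  have h2 := EL_dirV_abs hk hN hP D L hs hs1 hx.xok κ lab i
  have h3 := (le_abs_self _).trans (hB x hx.xok)
  unfold flu
  linarith

/-- measurability of the conditional expectation -/
theorem ConcAvg_m0 {P : Measure (ON N)} (hP : HaarO P) (D : Blk) (L : LBd J) (s : ℝ)
    (κ : Fin N → Fin D.K) (lab : Fin N → Fin J) (i : XI k D.K J) :
    Measurable (Function.uncurry fun (x : XI k D.K J → ℝ) (ω : Fin (k + 1) → EN N) =>
      dir0 P D L k s x κ lab i ω) := by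
  have := prob_mN hP (unifA N)
  have hV : Measurable (Function.uncurry fun (_ : XI k D.K J → ℝ) (ω : Fin (k + 1) → EN N) =>
      dirV k κ lab i ω) := (dirV_ham κ lab i).meas.comp measurable_snd
  exact measurable_condE (mN P (unifA N)) (ζLB k) (k + 1) 1 0
    (measurable_HNx (k := k) D L s κ lab) hV

/-- `E |V_0| ≤ E |V|` -/
theorem ConcAvg_abs0 {P : Measure (ON N)} (hP : HaarO P) (D : Blk) (L : LBd J) (s : ℝ)
    (x : XI k D.K J → ℝ) (κ : Fin N → Fin D.K) (lab : Fin N → Fin J) (i : XI k D.K J) :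
    Tame (βN (N := N)) (fun ω => dir0 P D L k s x κ lab i ω) ∧
    EL P D L k s x κ lab (fun ω => |dir0 P D L k s x κ lab i ω|) ≤
      EL P D L k s x κ lab (fun ω => |dirV k κ lab i ω|) := by
  have := prob_mN hP (unifA N)
  have hβ := dom_mN hP (unifA N)
  have hV := ConcAvg_V (k := k) hP κ lab i
  have hH := HN_ham k (θL D L k s x κ lab)
  have hT : Tame (βN (N := N)) (fun ω => dir0 P D L k s x κ lab i ω) :=
    condE_tame hβ (exps_LB k) 1 (k + 1) 0 hH hV
  refine ⟨hT, ?_⟩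
  have hVa := ConcAvg_abs hV
  have hTa : Tame (βN (N := N)) (condE (mN P (unifA N)) (ζLB k) 1 (k + 1) 0
      (HN k (θL D L k s x κ lab)) (fun ω => |dirV k κ lab i ω|)) :=
    condE_tame hβ (exps_LB k) 1 (k + 1) 0 hH hVa
  have h1 : ∀ ω, |dir0 P D L k s x κ lab i ω| ≤ condE (mN P (unifA N)) (ζLB k) 1 (k + 1) 0
      (HN k (θL D L k s x κ lab)) (fun ω => |dirV k κ lab i ω|) ω := by
    intro ω
    unfold dir0
    rw [abs_le]
    constructor
    · have := condE_mono hβ (exps_LB k) 1 (k + 1) 0 hH (TVar_tame_cmul hβ (-1) hVa) hV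
        (fun ω => by have := neg_abs_le (dirV k κ lab i ω); linarith) ω
      rw [condE_mul] at this
      linarith
    · exact condE_mono hβ (exps_LB k) 1 (k + 1) 0 hH hV hVa (fun ω => le_abs_self _) ω
  unfold EL
  refine (pathE_mono hβ (exps_LB k) (k + 1) 0 hH (ConcAvg_abs hT) hTa h1).trans (le_of_eq ?_)
  exact pathE_condE_self hβ (exps_LB k) 1 (k + 1) 0 hH hVa

theorem ConcAvg_nn {P : Measure (ON N)} (hP : HaarO P) (D : Blk) (L : LBd J) (s : ℝ)
    (x : XI k D.K J → ℝ) (κ : Fin N → Fin D.K) (lab : Fin N → Fin J)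
    {Φ : (Fin (k + 1) → EN N) → ℝ} (hΦ : Tame (βN (N := N)) Φ) :
    0 ≤ EL P D L k s x κ lab (fun ω => |Φ ω|) := by
  have := prob_mN hP (unifA N)
  unfold EL
  exact TVar_pathE_nonneg (dom_mN hP (unifA N)) (exps_LB k) (k + 1) 0 (HN_ham k _)
    (ConcAvg_abs hΦ) (fun ω => abs_nonneg _)

theorem ConcAvg_int {G : (XI k K J → ℝ) → ℝ} (hG : Measurable G) {B : ℝ}
    (hB : ∀ x, InC x → |G x| ≤ B) {x : XI k K J → ℝ} (hx : InC x) (i : XI k K J) :
    IntegrableOn (fun t => G (Function.update x i t)) (Set.Icc (1 : ℝ) 2) := by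
  refine Integrable.of_bound ?_ B ?_
  · exact (hG.comp (measurable_update x)).aestronglyMeasurable
  · filter_upwards [ae_restrict_mem measurableSet_Icc] with t ht
    rw [Real.norm_eq_abs]
    refine hB _ fun j => ?_
    by_cases hj : j = i
    · subst hj
      rw [Function.update_self]
      exact ht
    · rw [Function.update_of_ne hj]
      exact hx j

theorem ConcAvg_card (D : Blk) : ∃ a : ℝ, 0 < a ∧ ∀ l, a ≤ D.α l := by
  by_cases h : (Finset.univ : Finset (Fin D.K)).Nonempty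
  · obtain ⟨l, _, hl⟩ := Finset.exists_min_image Finset.univ D.α h
    exact ⟨D.α l, D.pos l, fun l' => hl l' (Finset.mem_univ _)⟩
  · exact ⟨1, one_pos, fun l => absurd ⟨l, Finset.mem_univ l⟩ h⟩

/-- PROOF: `cube_le`, `conc_thermal`, `conc_level0` (`A₀ = 2 max 1/α_l`). -/
theorem conc_avg (D : Blk) (J k : ℕ) (hk : 0 < k) {s : ℝ} (hs : 0 < s) (hs1 : 3 * s ≤ 1)
    {ε : ℝ} (hε : 0 < ε) : ∃ (N₀ : ℕ) (η : ℝ), 0 < η ∧ ∀ N ≥ N₀, 0 < N →
    ∀ P : Measure (ON N), HaarO P →
    ∀ (L : LBd J) (κ : Fin N → Fin D.K) (lab : Fin N → Fin J), D.Close η κ → ∀ i : XI k D.K J,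
    ∫ x, flu P D L k s x κ lab i ∂(cubeM k D.K J) ≤ ε := by
  obtain ⟨a, ha, hal⟩ := ConcAvg_card D
  obtain ⟨N₁, hN₁⟩ := conc_level0 D J k hk hs hs1 (2 / a) (half_pos hε)
  obtain ⟨N₂, hN₂⟩ := exists_nat_ge (2 * k / (s * (ε / 2) ^ 2))
  refine ⟨max N₁ N₂, a / 2, half_pos ha, ?_⟩
  intro N hNN hN P hP L κ lab hclose i
  have hNr : (0 : ℝ) < N := by exact_mod_cast hN
  have hcard : ∀ b, (N : ℝ) ≤ 2 / a *
      ((Finset.univ.filter (fun c => κ c = κ b)).card : ℝ) := by
    intro b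
    have h1 := (abs_le.1 (hclose (κ b))).1
    have h2 := hal (κ b)
    have h3 : a / 2 ≤ ((Finset.univ.filter (fun c => κ c = κ b)).card : ℝ) / (N : ℝ) := by
      linarith
    rw [le_div_iff₀ hNr] at h3
    rw [div_mul_eq_mul_div, le_div_iff₀ ha]
    linarith
  have hl0 := hN₁ N (le_of_max_le_left hNN) hN P hP L κ lab hcard
  have hth : Real.sqrt (2 * k / (s * N)) ≤ ε / 2 := by
    rw [Real.sqrt_le_left (by positivity)]
    have h1 : 2 * k / (s * (ε / 2) ^ 2) ≤ (N : ℝ) :=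
      hN₂.trans (by exact_mod_cast le_of_max_le_right hNN)
    rw [div_le_iff₀ (by positivity)] at h1
    rw [div_le_iff₀ (by positivity)]
    linarith
  obtain ⟨B, hB⟩ := flu_bdd hk hN hP D L hs.le hs1 κ lab i
  refine cube_le (measurable_flu hP D L s κ lab i) hB i fun x hx => ?_
  have := prob_mN hP (unifA N)
  have hβ := dom_mN hP (unifA N)
  have hV := ConcAvg_V (k := k) hP κ lab i
  obtain ⟨B₁, hB₁⟩ := EL_bdd hP D L s κ lab (ConcAvg_abs hV)
  have hVm : Measurable (Function.uncurry fun (_ : XI k D.K J → ℝ) (ω : Fin (k + 1) → EN N) =>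
      dirV k κ lab i ω) := (dirV_ham κ lab i).meas.comp measurable_snd
  have hELm := measurable_ELx (P := P) hP D L s κ lab hVm
  -- the two parts
  have hm1 : Measurable (fun x : XI k D.K J → ℝ => EL P D L k s x κ lab
      (fun ω => |dirV k κ lab i ω - dir0 P D L k s x κ lab i ω|)) :=
    measurable_ELx hP D L s κ lab
      (Φ := fun x ω => |dirV k κ lab i ω - dir0 P D L k s x κ lab i ω|)
      (hVm.sub (ConcAvg_m0 hP D L s κ lab i)).abs
  have hm2 : Measurable (fun x : XI k D.K J → ℝ => EL P D L k s x κ lab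
      (fun ω => |dir0 P D L k s x κ lab i ω - EL P D L k s x κ lab (dirV k κ lab i)|)) :=
    measurable_ELx hP D L s κ lab
      (Φ := fun x ω => |dir0 P D L k s x κ lab i ω - EL P D L k s x κ lab (dirV k κ lab i)|)
      ((ConcAvg_m0 hP D L s κ lab i).sub (hELm.comp measurable_fst)).abs
  have hb1 : ∀ x : XI k D.K J → ℝ, InC x → |EL P D L k s x κ lab
      (fun ω => |dirV k κ lab i ω - dir0 P D L k s x κ lab i ω|)| ≤ 2 * B₁ := by
    intro x hx
    have hH := HN_ham k (θL D L k s x κ lab)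
    have hT := (ConcAvg_abs0 (k := k) hP D L s x κ lab i).1
    have hT2 := (ConcAvg_abs0 (k := k) hP D L s x κ lab i).2
    rw [abs_of_nonneg (ConcAvg_nn hP D L s x κ lab (TVar_tame_sub hβ hV hT))]
    have h1 : EL P D L k s x κ lab
        (fun ω => |dirV k κ lab i ω - dir0 P D L k s x κ lab i ω|) ≤
        EL P D L k s x κ lab
          (fun ω => |dirV k κ lab i ω| + |dir0 P D L k s x κ lab i ω|) := by
      unfold EL
      exact pathE_mono hβ (exps_LB k) (k + 1) 0 hH (ConcAvg_abs (TVar_tame_sub hβ hV hT))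
        (Tame.add hβ (ConcAvg_abs hV) (ConcAvg_abs hT)) fun ω => abs_sub _ _
    have h2 : EL P D L k s x κ lab
          (fun ω => |dirV k κ lab i ω| + |dir0 P D L k s x κ lab i ω|) =
        EL P D L k s x κ lab (fun ω => |dirV k κ lab i ω|) +
          EL P D L k s x κ lab (fun ω => |dir0 P D L k s x κ lab i ω|) := by
      unfold EL
      exact pathE_add hβ (exps_LB k) (k + 1) 0 hH (ConcAvg_abs hV) (ConcAvg_abs hT)
    have h3 := (le_abs_self _).trans (hB₁ x hx.xok)
    linarith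
  have hb2 : ∀ x : XI k D.K J → ℝ, InC x → |EL P D L k s x κ lab
      (fun ω => |dir0 P D L k s x κ lab i ω - EL P D L k s x κ lab (dirV k κ lab i)|)| ≤
      B₁ + 1 := by
    intro x hx
    have hH := HN_ham k (θL D L k s x κ lab)
    have hT := (ConcAvg_abs0 (k := k) hP D L s x κ lab i).1
    have hT2 := (ConcAvg_abs0 (k := k) hP D L s x κ lab i).2
    rw [abs_of_nonneg (ConcAvg_nn hP D L s x κ lab (TVar_tame_sub hβ hT
      (Tame.const hβ (EL P D L k s x κ lab (dirV k κ lab i)))))]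
    have h1 := ConcAvg_le hP D L s x κ lab hT (EL P D L k s x κ lab (dirV k κ lab i))
    have h2 := EL_dirV_abs hk hN hP D L hs.le hs1 hx.xok κ lab i
    have h3 := (le_abs_self _).trans (hB₁ x hx.xok)
    linarith
  have hi1 := ConcAvg_int hm1 hb1 hx i
  have hi2 := ConcAvg_int hm2 hb2 hx i
  have hi0 := ConcAvg_int (measurable_flu hP D L s κ lab i) hB hx i
  have hpt : ∀ x : XI k D.K J → ℝ, flu P D L k s x κ lab i ≤ EL P D L k s x κ lab
      (fun ω => |dirV k κ lab i ω - dir0 P D L k s x κ lab i ω|) + EL P D L k s x κ lab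
      (fun ω => |dir0 P D L k s x κ lab i ω - EL P D L k s x κ lab (dirV k κ lab i)|) := by
    intro x
    have hH := HN_ham k (θL D L k s x κ lab)
    have hT := (ConcAvg_abs0 (k := k) hP D L s x κ lab i).1
    have e1 := ConcAvg_abs (TVar_tame_sub hβ hV hT)
    have e2 := ConcAvg_abs (TVar_tame_sub hβ hT
      (Tame.const hβ (n := k + 1) (EL P D L k s x κ lab (dirV k κ lab i))))
    have h2 := pathE_add hβ (exps_LB k) (k + 1) 0 hH e1 e2
    have h1 := pathE_mono hβ (exps_LB k) (k + 1) 0 hH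
      (ConcAvg_abs (TVar_tame_sub hβ hV
        (Tame.const hβ (n := k + 1) (EL P D L k s x κ lab (dirV k κ lab i)))))
      (Tame.add hβ e1 e2) (fun ω => abs_sub_le _ _ _)
    unfold flu
    calc EL P D L k s x κ lab
          (fun ω => |dirV k κ lab i ω - EL P D L k s x κ lab (dirV k κ lab i)|)
        ≤ _ := h1
      _ = _ := h2
  have h1 : ∫ t in Set.Icc (1 : ℝ) 2, flu P D L k s (Function.update x i t) κ lab i ≤
      ∫ t in Set.Icc (1 : ℝ) 2, (EL P D L k s (Function.update x i t) κ lab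
        (fun ω => |dirV k κ lab i ω - dir0 P D L k s (Function.update x i t) κ lab i ω|) +
        EL P D L k s (Function.update x i t) κ lab
        (fun ω => |dir0 P D L k s (Function.update x i t) κ lab i ω -
          EL P D L k s (Function.update x i t) κ lab (dirV k κ lab i)|)) :=
    integral_mono hi0 (hi1.add hi2) fun t => hpt _
  have h2 := integral_add hi1 hi2
  have h3 := conc_thermal hk hN hP D L hs hs1 hx.xok κ lab i
  have h4 := hl0 x hx.xok i
  linarith

end Crest.Agent.RI
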