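import Crest.Agent.RI.ConcPk

/-!
# Row 164, Part 7: coset formula for the Doob differences
-/

set_option autoImplicit false

namespace Crest.Agent.RI

open MeasureTheory ProbabilityTheory

variable {N : ℕ}

theorem ConcCoset_sub (k : ℕ) : tailS N (k + 1) ⊆ tailS N k := by
  intro b hb
  simp only [tailS, Finset.mem_filter, Finset.mem_univ, true_and] at hb ⊢
  omega

theorem ConcCoset_H (k : Fin N) : Measurable (fun W : Fin N → Fin N → ℝ =>
    refl (qv k (avec W (ev k)))) :=
  measurable_refl.comp ((measurable_qv k).comp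
    (measurable_avec.comp (measurable_id.prodMk measurable_const)))

theorem ConcCoset_aeO (k : ℕ) : ∀ᵐ W ∂kap N k, IsO W := by
  filter_upwards [(kap_isHaarS N k).fix] with W hW
  exact hW.1

theorem ConcCoset_C {φ : (Fin N → Fin N → ℝ) → ℝ} {C : ℝ}
    (hC : ∀ O, IsO O → |φ O| ≤ C) : 0 ≤ C := (abs_nonneg _).trans (hC _ isO_one)

theorem ConcCoset_jensen {Ω : Type*} [MeasurableSpace Ω] (μ : Measure Ω) [IsProbabilityMeasure μ]
    {f : Ω → ℝ} (hf : Measurable f) {D : ℝ} (hD : ∀ᵐ x ∂μ, |f x| ≤ D) (p : ℕ) (hp : p = 2 ∨ p = 4) :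
    (∫ x, f x ∂μ) ^ p ≤ ∫ x, f x ^ p ∂μ := by
  have hev : Even p := by rcases hp with h | h <;> subst h <;> decide
  have hfi : Integrable f μ := Integrable.of_bound hf.aestronglyMeasurable D
    (by filter_upwards [hD] with x hx; simpa using hx)
  have hgi : Integrable ((fun x : ℝ => x ^ p) ∘ f) μ := by
    refine Integrable.of_bound (hf.pow_const p).aestronglyMeasurable (D ^ p) ?_
    filter_upwards [hD] with x hx
    simp only [Function.comp, norm_pow, Real.norm_eq_abs]
    exact pow_le_pow_left₀ (abs_nonneg _) hx p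
  exact (hev.convexOn_pow (𝕜 := ℝ)).map_integral_le (continuous_pow p).continuousOn isClosed_univ
    (by simp) hfi hgi

/-- COSET FORMULA.  PROOF.  `∫ φ(W O) dκ_k(W) = ∫∫ φ(W V O) dκ_k(W) dκ_{k+1}(V)` (right invariance of `κ_k` under `V ∈ Fixes (tailS (k+1))`); Fubini;
for fixed `W`: `W = H R`, `H = refl (qv k (W e_k))`, `R = H W ∈ Fixes (tailS (k+1))` (`fixes_coset`), `∫ φ(H R V O) dκ_{k+1}(V) = ∫ φ(H V O) dκ_{k+1}(V)`. -/
theorem Pk_coset (k : Fin N) {φ : (Fin N → Fin N → ℝ) → ℝ} (hφ : Measurable φ) {C : ℝ}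
    (hC : ∀ O, IsO O → |φ O| ≤ C) {O : Fin N → Fin N → ℝ} (hO : IsO O) :
    Pk k.val φ O = ∫ W, ∫ V, φ (amul (refl (qv k (avec W (ev k)))) (amul V O))
      ∂kap N (k.val + 1) ∂kap N k.val := by
  have hmO : Measurable (fun X : Fin N → Fin N → ℝ => φ (amul X O)) :=
    hφ.comp (measurable_amul_right O)
  have hF : Measurable (fun q : (Fin N → Fin N → ℝ) × (Fin N → Fin N → ℝ) =>
      φ (amul (amul q.1 q.2) O)) := hmO.comp measurable_amul
  -- step 1
  have h1 : ∀ᵐ V ∂kap N (k.val + 1), ∫ W, φ (amul (amul W V) O) ∂kap N k.val = Pk k.val φ O := by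
    filter_upwards [(kap_isHaarS N (k.val + 1)).fix] with V hV
    exact (kap_isHaarS N k.val).integral_right (hV.mono (ConcCoset_sub k.val)) hmO
  have h2 : Pk k.val φ O =
      ∫ V, ∫ W, φ (amul (amul W V) O) ∂kap N k.val ∂kap N (k.val + 1) := by
    rw [integral_congr_ae h1]
    simp
  have hint : Integrable (Function.uncurry
      (fun (V W : Fin N → Fin N → ℝ) => φ (amul (amul W V) O)))
      ((kap N (k.val + 1)).prod (kap N k.val)) := by
    refine Integrable.of_bound (C := C) ?_ ?_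
    · exact (hF.comp measurable_swap).aestronglyMeasurable
    · have a1 : ∀ᵐ z ∂((kap N (k.val + 1)).prod (kap N k.val)), IsO z.1 :=
        Measure.quasiMeasurePreserving_fst.ae (ConcCoset_aeO (N := N) (k.val + 1))
      have a2 : ∀ᵐ z ∂((kap N (k.val + 1)).prod (kap N k.val)), IsO z.2 :=
        Measure.quasiMeasurePreserving_snd.ae (ConcCoset_aeO (N := N) k.val)
      filter_upwards [a1, a2] with z z1 z2
      exact hC _ ((z2.mul z1).mul hO)
  rw [h2, integral_integral_swap hint]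
  refine integral_congr_ae ?_
  filter_upwards [(kap_isHaarS N k.val).fix] with W hW
  have hR := fixes_coset hW
  set H := refl (qv k (avec W (ev k))) with hH
  have hHm : Measurable (fun X : Fin N → Fin N → ℝ => φ (amul H (amul X O))) :=
    hφ.comp ((measurable_amul_left H).comp (measurable_amul_right O))
  have h3 := (kap_isHaarS N (k.val + 1)).integral_left hR hHm
  rw [← h3]
  congr 1
  funext V
  congr 1
  have hHH : amul H H = aone N := by rw [hH]; exact refl_refl (uz_qv _ _)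
  rw [← amul_assoc, ← amul_assoc, ← amul_assoc, hHH, aone_amul]

/-- `E|δ_k|^p ≤ E|φ(O) - φ(H_q O)|^p`, `p = 2, 4`.  PROOF.  By `Pk_coset`, `δ_k(O) = P_{k+1}φ - P_kφ = ∫_W ∫_V [φ(V O) - φ(H_W V O)]`, Jensen
(`|∫ f|^p ≤ ∫ |f|^p` for probability measures), Fubini, `V O ~ O`. -/
theorem diff_Pk_le {P : Measure (Fin N → Fin N → ℝ)} (hP : IsHaar P) (k : Fin N) (p : ℕ)
    (hp : p = 2 ∨ p = 4)
    {φ : (Fin N → Fin N → ℝ) → ℝ} (hφ : Measurable φ) {C : ℝ} (hC : ∀ O, IsO O → |φ O| ≤ C) :
    ∫ O, (Pk (k.val + 1) φ O - Pk k.val φ O) ^ p ∂P ≤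
      ∫ W, ∫ O, (φ O - φ (amul (refl (qv k (avec W (ev k)))) O)) ^ p ∂P ∂kap N k.val := by
  haveI := hP.prob
  have hC0 := ConcCoset_C hC
  set ρ : Measure ((Fin N → Fin N → ℝ) × (Fin N → Fin N → ℝ)) :=
    (kap N k.val).prod (kap N (k.val + 1)) with hρ
  set H : (Fin N → Fin N → ℝ) → (Fin N → Fin N → ℝ) := fun W => refl (qv k (avec W (ev k)))
    with hH
  have hHm : Measurable H := ConcCoset_H k
  have hHO : ∀ W, IsO (H W) := fun W => isO_refl (uz_qv _ _)
  -- the function
  set f : (Fin N → Fin N → ℝ) → (Fin N → Fin N → ℝ) × (Fin N → Fin N → ℝ) → ℝ :=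
    fun O z => φ (amul z.2 O) - φ (amul (H z.1) (amul z.2 O)) with hf
  have hfm : Measurable (Function.uncurry f) := by
    have m1 : Measurable (fun q : (Fin N → Fin N → ℝ) × (Fin N → Fin N → ℝ) × (Fin N → Fin N → ℝ) =>
        amul q.2.2 q.1) := measurable_amul.comp
          ((measurable_snd.comp measurable_snd).prodMk measurable_fst)
    have m2 : Measurable (fun q : (Fin N → Fin N → ℝ) × (Fin N → Fin N → ℝ) × (Fin N → Fin N → ℝ) =>
        amul (H q.2.1) (amul q.2.2 q.1)) := measurable_amul.comp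
          ((hHm.comp (measurable_fst.comp measurable_snd)).prodMk m1)
    exact (hφ.comp m1).sub (hφ.comp m2)
  have a1 : ∀ᵐ z ∂ρ, IsO z.1 :=
    Measure.quasiMeasurePreserving_fst.ae (ConcCoset_aeO (N := N) k.val)
  have a2 : ∀ᵐ z ∂ρ, IsO z.2 :=
    Measure.quasiMeasurePreserving_snd.ae (ConcCoset_aeO (N := N) (k.val + 1))
  have hfb : ∀ O, IsO O → ∀ z : (Fin N → Fin N → ℝ) × (Fin N → Fin N → ℝ), IsO z.2 →
      |f O z| ≤ 2 * C := by
    intro O hO z hz
    have b1 := hC _ (hz.mul hO)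
    have b2 := hC _ ((hHO z.1).mul (hz.mul hO))
    calc |f O z| ≤ |φ (amul z.2 O)| + |φ (amul (H z.1) (amul z.2 O))| := abs_sub _ _
      _ ≤ 2 * C := by linarith
  -- the representation of the difference
  have hrep : ∀ O, IsO O → Pk (k.val + 1) φ O - Pk k.val φ O = ∫ z, f O z ∂ρ := by
    intro O hO
    have m1 : Measurable (fun z : (Fin N → Fin N → ℝ) × (Fin N → Fin N → ℝ) => φ (amul z.2 O)) :=
      hφ.comp ((measurable_amul_right O).comp measurable_snd)
    have m2 : Measurable (fun z : (Fin N → Fin N → ℝ) × (Fin N → Fin N → ℝ) =>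
        φ (amul (H z.1) (amul z.2 O))) :=
      hφ.comp (measurable_amul.comp ((hHm.comp measurable_fst).prodMk
        ((measurable_amul_right O).comp measurable_snd)))
    have i1 : Integrable (fun z : (Fin N → Fin N → ℝ) × (Fin N → Fin N → ℝ) => φ (amul z.2 O)) ρ := by
      refine Integrable.of_bound m1.aestronglyMeasurable C ?_
      filter_upwards [a2] with z hz
      exact hC _ (hz.mul hO)
    have i2 : Integrable (fun z : (Fin N → Fin N → ℝ) × (Fin N → Fin N → ℝ) =>
        φ (amul (H z.1) (amul z.2 O))) ρ := by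
      refine Integrable.of_bound m2.aestronglyMeasurable C ?_
      filter_upwards [a2] with z hz
      exact hC _ ((hHO z.1).mul (hz.mul hO))
    have e1 : ∫ z, φ (amul z.2 O) ∂ρ = Pk (k.val + 1) φ O := by
      rw [hρ, integral_prod _ i1]
      simp [Pk]
    have e2 : ∫ z, φ (amul (H z.1) (amul z.2 O)) ∂ρ = Pk k.val φ O := by
      rw [hρ, integral_prod _ i2, Pk_coset k hφ hC hO]
    rw [← e1, ← e2, ← integral_sub i1 i2]
  have hfp : Measurable (fun q : (Fin N → Fin N → ℝ) ×
      ((Fin N → Fin N → ℝ) × (Fin N → Fin N → ℝ)) => f q.1 q.2 ^ p) := hfm.pow_const p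
  have hint : Integrable (Function.uncurry (fun O z => f O z ^ p)) (P.prod ρ) := by
    refine Integrable.of_bound (C := (2 * C) ^ p) hfp.aestronglyMeasurable ?_
    have b1 : ∀ᵐ q ∂(P.prod ρ), IsO q.1 := Measure.quasiMeasurePreserving_fst.ae hP.orth
    have b2 : ∀ᵐ q ∂(P.prod ρ), IsO q.2.2 := Measure.quasiMeasurePreserving_snd.ae a2
    filter_upwards [b1, b2] with q q1 q2
    simp only [Function.uncurry, norm_pow, Real.norm_eq_abs]
    exact pow_le_pow_left₀ (abs_nonneg _) (hfb _ q1 _ q2) p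
  have hPO : ∀ᵐ O ∂P, IsO O := hP.orth
  -- Jensen
  have step1 : ∫ O, (Pk (k.val + 1) φ O - Pk k.val φ O) ^ p ∂P ≤ ∫ O, ∫ z, f O z ^ p ∂ρ ∂P := by
    refine integral_mono_ae ?_ hint.integral_prod_left ?_
    · refine Integrable.of_bound (C := (2 * C) ^ p)
        (((measurable_Pk _ hφ).sub (measurable_Pk _ hφ)).pow_const p).aestronglyMeasurable ?_
      filter_upwards [hPO] with O hO
      simp only [norm_pow, Real.norm_eq_abs]
      refine pow_le_pow_left₀ (abs_nonneg _) ?_ p
      calc |Pk (k.val + 1) φ O - Pk k.val φ O| ≤ |Pk (k.val + 1) φ O| + |Pk k.val φ O| := abs_sub _ _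
        _ ≤ 2 * C := by
          have := abs_Pk_le (k.val + 1) hC hO
          have := abs_Pk_le k.val hC hO
          linarith
    · filter_upwards [hPO] with O hO
      rw [hrep O hO]
      refine ConcCoset_jensen ρ (hfm.comp (measurable_const.prodMk measurable_id)) (D := 2 * C) ?_ p hp
      filter_upwards [a2] with z hz
      exact hfb O hO z hz
  refine step1.trans (le_of_eq ?_)
  rw [integral_integral_swap hint]
  have hint2 : Integrable (fun z => ∫ O, f O z ^ p ∂P) ρ := hint.integral_prod_right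
  rw [hρ, integral_prod _ hint2]
  refine integral_congr_ae (Filter.Eventually.of_forall fun W => ?_)
  have hinner : ∀ᵐ V ∂kap N (k.val + 1), ∫ O, f O (W, V) ^ p ∂P =
      ∫ O, (φ O - φ (amul (H W) O)) ^ p ∂P := by
    filter_upwards [ConcCoset_aeO (N := N) (k.val + 1)] with V hV
    have hg : Measurable (fun X : Fin N → Fin N → ℝ => (φ X - φ (amul (H W) X)) ^ p) :=
      (hφ.sub (hφ.comp (measurable_amul_left (H W)))).pow_const p
    exact hP.integral_left hV hg
  show ∫ V, ∫ O, f O (W, V) ^ p ∂P ∂kap N (k.val + 1) = _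
  rw [integral_congr_ae hinner]
  simp [hH]

end Crest.Agent.RI
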