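import Mathlib

/-!
# Row 164, Part 7: moments of martingales
-/

set_option autoImplicit false

namespace Crest.Agent.RI

open MeasureTheory ProbabilityTheory

theorem mart_int {Ω : Type*} [MeasurableSpace Ω] {P : Measure Ω} [IsProbabilityMeasure P]
    {f : Ω → ℝ} (hf : Measurable f) {C : ℝ} (h : ∀ᵐ ω ∂P, |f ω| ≤ C) : Integrable f P :=
  Integrable.of_bound hf.aestronglyMeasurable C h

theorem mart_int3 {Ω : Type*} [MeasurableSpace Ω] {P : Measure Ω} {f g h : Ω → ℝ}
    (hf : Integrable f P) (hg : Integrable g P) (hh : Integrable h P) (a b c : ℝ) :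
    Integrable (fun ω => a * f ω + b * g ω + c * h ω) P ∧
      ∫ ω, (a * f ω + b * g ω + c * h ω) ∂P =
        a * ∫ ω, f ω ∂P + b * ∫ ω, g ω ∂P + c * ∫ ω, h ω ∂P := by
  have h1 : Integrable (fun ω => a * f ω + b * g ω) P := (hf.const_mul a).add (hg.const_mul b)
  refine ⟨h1.add (hh.const_mul c), ?_⟩
  rw [integral_add h1 (hh.const_mul c), integral_add (hf.const_mul a) (hg.const_mul b),
    integral_const_mul, integral_const_mul, integral_const_mul]

/-- FOURTH MOMENT OF A "MARTINGALE".  PROOF.  Let `x_k = (∫ M_k^4)^{1/2}`, `δ = M_{k+1} - M_k`.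
`∫ M_{k+1}^4 = ∫ M_k^4 + 4∫ M_k^3 δ + 6 ∫ M_k² δ² + 4 ∫ M_k δ³ + ∫ δ^4 ≤ x_k² + 6 x_k ε² + 4 x_k^{1/2} ε³ + ε^4 ≤ (x_k + 4 ε²)²` (Cauchy-Schwarz / Hölder:
`∫M²δ² ≤ (∫M⁴)^{1/2}(∫δ⁴)^{1/2}`; instead of `∫ M δ³` use pointwise `4 |M δ³| ≤ 2 M²δ² + 2 δ^4`).  So `x_k ≤ 4 k ε²`. -/
theorem mart_four {Ω : Type*} [MeasurableSpace Ω] {P : Measure Ω} [IsProbabilityMeasure P]
    (n : ℕ) (M : ℕ → Ω → ℝ) (hM : ∀ k, Measurable (M k)) (C : ℝ) (hb : ∀ k, ∀ᵐ ω ∂P, |M k ω| ≤ C)
    (h0 : ∀ᵐ ω ∂P, M 0 ω = 0)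
    (h3 : ∀ k < n, ∫ ω, M k ω ^ 3 * (M (k + 1) ω - M k ω) ∂P = 0)
    (ε : ℝ) (hε : 0 ≤ ε) (h4 : ∀ k < n, ∫ ω, (M (k + 1) ω - M k ω) ^ 4 ∂P ≤ ε ^ 4) :
    ∫ ω, M n ω ^ 4 ∂P ≤ 16 * (n : ℝ) ^ 2 * ε ^ 4 := by
  have key : ∀ k, k ≤ n → ∫ ω, M k ω ^ 4 ∂P ≤ 16 * (k : ℝ) ^ 2 * ε ^ 4 := by
    intro k
    induction k with
    | zero =>
      intro _
      have : ∫ ω, M 0 ω ^ 4 ∂P = 0 := by
        rw [integral_eq_zero_of_ae]
        filter_upwards [h0] with ω hω
        rw [hω]; simp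
      rw [this]; simp
    | succ k ih =>
      intro hk
      have ihk := ih (by omega)
      have h3k := h3 k (by omega)
      have h4k := h4 k (by omega)
      rcases Nat.eq_zero_or_pos k with rfl | hkpos
      · have e : ∫ ω, M (0 + 1) ω ^ 4 ∂P = ∫ ω, (M (0 + 1) ω - M 0 ω) ^ 4 ∂P := by
          refine integral_congr_ae ?_
          filter_upwards [h0] with ω hω
          rw [hω, sub_zero]
        rw [e]
        have : 0 ≤ ε ^ 4 := by positivity
        push_cast
        nlinarith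
      · have hkr : (0 : ℝ) < k := by exact_mod_cast hkpos
        -- integrability
        have hM4 : Integrable (fun ω => M k ω ^ 4) P := by
          refine mart_int (C := C ^ 4) ((hM k).pow_const 4) ?_
          filter_upwards [hb k] with ω hω
          rw [abs_pow]
          exact pow_le_pow_left₀ (abs_nonneg _) hω 4
        have hM4' : Integrable (fun ω => M (k + 1) ω ^ 4) P := by
          refine mart_int (C := C ^ 4) ((hM (k + 1)).pow_const 4) ?_
          filter_upwards [hb (k + 1)] with ω hω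
          rw [abs_pow]
          exact pow_le_pow_left₀ (abs_nonneg _) hω 4
        have hd : Integrable (fun ω => (M (k + 1) ω - M k ω) ^ 4) P := by
          refine mart_int (C := (C + C) ^ 4) (((hM (k + 1)).sub (hM k)).pow_const 4) ?_
          filter_upwards [hb k, hb (k + 1)] with ω h1 h2
          rw [abs_pow]
          refine pow_le_pow_left₀ (abs_nonneg _) ?_ 4
          exact (abs_sub _ _).trans (add_le_add h2 h1)
        have hm3 : Integrable (fun ω => M k ω ^ 3 * (M (k + 1) ω - M k ω)) P := by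
          refine mart_int (C := C ^ 3 * (C + C))
            (((hM k).pow_const 3).mul ((hM (k + 1)).sub (hM k))) ?_
          filter_upwards [hb k, hb (k + 1)] with ω h1 h2
          rw [abs_mul, abs_pow]
          have hC : 0 ≤ C := (abs_nonneg _).trans h1
          refine mul_le_mul (pow_le_pow_left₀ (abs_nonneg _) h1 3) ?_ (abs_nonneg _) (by positivity)
          exact (abs_sub _ _).trans (add_le_add h2 h1)
        have hpt : ∀ ω, M (k + 1) ω ^ 4 ≤ (1 + 1 / (k : ℝ)) * M k ω ^ 4 +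
            4 * (M k ω ^ 3 * (M (k + 1) ω - M k ω)) +
            (16 * k + 3) * (M (k + 1) ω - M k ω) ^ 4 := by
          intro ω
          set m := M k ω
          set d := M (k + 1) ω - M k ω
          have e1 : M (k + 1) ω = m + d := by simp [m, d]
          rw [e1]
          have a1 : 4 * (m * d ^ 3) ≤ 2 * (m ^ 2 * d ^ 2) + 2 * d ^ 4 := by
            nlinarith [sq_nonneg (m * d - d ^ 2)]
          have a2 : 8 * (m ^ 2 * d ^ 2) ≤ 1 / (k : ℝ) * m ^ 4 + 16 * k * d ^ 4 := by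
            have h1 : 0 ≤ (m ^ 2 - 4 * k * d ^ 2) ^ 2 / k := by positivity
            have h2 : (m ^ 2 - 4 * k * d ^ 2) ^ 2 / k =
                1 / (k : ℝ) * m ^ 4 - 8 * (m ^ 2 * d ^ 2) + 16 * k * d ^ 4 := by
              field_simp; ring
            linarith
          have e2 : (m + d) ^ 4 = m ^ 4 + 4 * (m ^ 3 * d) + 6 * (m ^ 2 * d ^ 2) +
              4 * (m * d ^ 3) + d ^ 4 := by ring
          rw [e2]
          linarith
        have hle : ∫ ω, M (k + 1) ω ^ 4 ∂P ≤ (1 + 1 / (k : ℝ)) * ∫ ω, M k ω ^ 4 ∂P +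
            4 * ∫ ω, M k ω ^ 3 * (M (k + 1) ω - M k ω) ∂P +
            (16 * k + 3) * ∫ ω, (M (k + 1) ω - M k ω) ^ 4 ∂P := by
          have h5 := mart_int3 hM4 hm3 hd (1 + 1 / (k : ℝ)) 4 (16 * k + 3)
          rw [← h5.2]
          exact integral_mono hM4' h5.1 hpt
        rw [h3k, mul_zero, add_zero] at hle
        have b1 : (1 + 1 / (k : ℝ)) * ∫ ω, M k ω ^ 4 ∂P ≤
            (1 + 1 / (k : ℝ)) * (16 * (k : ℝ) ^ 2 * ε ^ 4) :=
          mul_le_mul_of_nonneg_left ihk (by positivity)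
        have b2 : (16 * k + 3) * ∫ ω, (M (k + 1) ω - M k ω) ^ 4 ∂P ≤ (16 * k + 3) * ε ^ 4 :=
          mul_le_mul_of_nonneg_left h4k (by positivity)
        have b3 : (1 + 1 / (k : ℝ)) * (16 * (k : ℝ) ^ 2 * ε ^ 4) =
            16 * (k : ℝ) ^ 2 * ε ^ 4 + 16 * k * ε ^ 4 := by field_simp
        have b4 : 0 ≤ ε ^ 4 := by positivity
        push_cast
        nlinarith
  exact key n le_rfl

/-- second moment: PROOF `∫ M_{k+1}² = ∫ M_k² + ∫ δ_k²`. -/
theorem mart_two {Ω : Type*} [MeasurableSpace Ω] {P : Measure Ω} [IsProbabilityMeasure P]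
    (n : ℕ) (M : ℕ → Ω → ℝ) (hM : ∀ k, Measurable (M k)) (C : ℝ) (hb : ∀ k, ∀ᵐ ω ∂P, |M k ω| ≤ C)
    (h0 : ∀ᵐ ω ∂P, M 0 ω = 0)
    (h1 : ∀ k < n, ∫ ω, M k ω * (M (k + 1) ω - M k ω) ∂P = 0) :
    ∫ ω, M n ω ^ 2 ∂P = ∑ k ∈ Finset.range n, ∫ ω, (M (k + 1) ω - M k ω) ^ 2 ∂P := by
  have key : ∀ k, k ≤ n → ∫ ω, M k ω ^ 2 ∂P =
      ∑ j ∈ Finset.range k, ∫ ω, (M (j + 1) ω - M j ω) ^ 2 ∂P := by
    intro k
    induction k with
    | zero =>
      intro _
      rw [Finset.range_zero, Finset.sum_empty, integral_eq_zero_of_ae]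
      filter_upwards [h0] with ω hω
      rw [hω]; simp
    | succ k ih =>
      intro hk
      rw [Finset.sum_range_succ, ← ih (by omega)]
      have hM2 : Integrable (fun ω => M k ω ^ 2) P := by
        refine mart_int (C := C ^ 2) ((hM k).pow_const 2) ?_
        filter_upwards [hb k] with ω hω
        rw [abs_pow]
        exact pow_le_pow_left₀ (abs_nonneg _) hω 2
      have hd : Integrable (fun ω => (M (k + 1) ω - M k ω) ^ 2) P := by
        refine mart_int (C := (C + C) ^ 2) (((hM (k + 1)).sub (hM k)).pow_const 2) ?_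
        filter_upwards [hb k, hb (k + 1)] with ω h1 h2
        rw [abs_pow]
        refine pow_le_pow_left₀ (abs_nonneg _) ?_ 2
        exact (abs_sub _ _).trans (add_le_add h2 h1)
      have hm1 : Integrable (fun ω => M k ω * (M (k + 1) ω - M k ω)) P := by
        refine mart_int (C := C * (C + C)) ((hM k).mul ((hM (k + 1)).sub (hM k))) ?_
        filter_upwards [hb k, hb (k + 1)] with ω h1 h2
        rw [abs_mul]
        have hC : 0 ≤ C := (abs_nonneg _).trans h1
        exact mul_le_mul h1 ((abs_sub _ _).trans (add_le_add h2 h1)) (abs_nonneg _) hC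
      have e : ∀ ω, M (k + 1) ω ^ 2 = M k ω ^ 2 + 2 * (M k ω * (M (k + 1) ω - M k ω)) +
          (M (k + 1) ω - M k ω) ^ 2 := fun ω => by ring
      have h1k := h1 k (by omega)
      have h5 := mart_int3 hM2 hm1 hd 1 2 1
      calc ∫ ω, M (k + 1) ω ^ 2 ∂P = ∫ ω, (1 * M k ω ^ 2 + 2 * (M k ω * (M (k + 1) ω - M k ω)) +
            1 * (M (k + 1) ω - M k ω) ^ 2) ∂P :=
            integral_congr_ae (Filter.Eventually.of_forall fun ω => by
              show M (k + 1) ω ^ 2 = _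
              ring)
        _ = _ := by rw [h5.2, h1k]; ring
  exact key n le_rfl

end Crest.Agent.RI
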