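import Crest.Agent.RI.ConcCoset
import Crest.Agent.RI.Mart

/-!
# Row 164, Part 7: second and fourth moments (H4)
-/

set_option autoImplicit false

namespace Crest.Agent.RI

open MeasureTheory ProbabilityTheory

variable {N : ℕ}

private theorem cd_orth {P : Measure (Fin N → Fin N → ℝ)} (hP : IsHaar P) : ∀ᵐ O ∂P, IsO O :=
  hP.orth

private theorem cd_zero {φ : (Fin N → Fin N → ℝ) → ℝ} (hφ : Measurable φ)
    {W : Fin N → Fin N → ℝ} {k : ℕ} (hW : Fixes (tailS N k) W) (O : Fin N → Fin N → ℝ) :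
    Pk 0 φ (amul W O) = Pk 0 φ O := by
  apply Pk_inv 0 hφ
  refine hW.mono ?_
  intro i hi
  unfold tailS at hi ⊢
  rw [Finset.mem_filter] at hi ⊢
  exact ⟨Finset.mem_univ _, Nat.zero_le _⟩

private theorem cd_bound {φ : (Fin N → Fin N → ℝ) → ℝ} {C : ℝ}
    (hC : ∀ O, IsO O → |φ O| ≤ C) (k : ℕ) {O : Fin N → Fin N → ℝ} (hO : IsO O) :
    |Pk k φ O - Pk 0 φ O| ≤ 2 * C := by
  have h1 := abs_Pk_le k hC hO
  have h2 := abs_Pk_le 0 hC hO
  rw [abs_le] at *
  constructor <;> linarith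

private theorem cd_orthog {P : Measure (Fin N → Fin N → ℝ)} (hP : IsHaar P)
    {φ : (Fin N → Fin N → ℝ) → ℝ} (hφ : Measurable φ) {C : ℝ} (hC : ∀ O, IsO O → |φ O| ≤ C)
    (k p : ℕ) :
    ∫ O, (Pk k φ O - Pk 0 φ O) ^ p * ((Pk (k + 1) φ O - Pk 0 φ O) - (Pk k φ O - Pk 0 φ O)) ∂P = 0 := by
  have := hP.prob
  have hC0 : 0 ≤ C := (abs_nonneg _).trans (hC (aone N) isO_one)
  have hgm : Measurable (fun O => (Pk k φ O - Pk 0 φ O) ^ p) :=
    ((measurable_Pk k hφ).sub (measurable_Pk 0 hφ)).pow_const p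
  have hgC : ∀ O, IsO O → |(Pk k φ O - Pk 0 φ O) ^ p| ≤ (2 * C) ^ p := by
    intro O hO
    rw [abs_pow]
    exact pow_le_pow_left₀ (abs_nonneg _) (cd_bound hC k hO) p
  have hgi : ∀ W O, Fixes (tailS N k) W → IsO O →
      (Pk k φ (amul W O) - Pk 0 φ (amul W O)) ^ p = (Pk k φ O - Pk 0 φ O) ^ p := by
    intro W O hW _
    rw [Pk_inv k hφ hW, cd_zero hφ hW]
  have hm1 : ∀ O, IsO O → |φ O| ≤ max C ((2 * C) ^ p) := fun O hO => (hC O hO).trans (le_max_left _ _)
  have hm2 : ∀ O, IsO O → |(Pk k φ O - Pk 0 φ O) ^ p| ≤ max C ((2 * C) ^ p) := fun O hO =>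
    (hgC O hO).trans (le_max_right _ _)
  have h1 := integral_mul_Pk hP (Nat.le_succ k) hφ hgm hm1 hm2 hgi
  have h2 := integral_mul_Pk hP (le_refl k) hφ hgm hm1 hm2 hgi
  have hint : ∀ j, Integrable (fun O => (Pk k φ O - Pk 0 φ O) ^ p * Pk j φ O) P := by
    intro j
    refine Integrable.of_bound (hgm.mul (measurable_Pk j hφ)).aestronglyMeasurable
      ((2 * C) ^ p * C) ?_
    filter_upwards [cd_orth hP] with O hO
    rw [Real.norm_eq_abs, abs_mul]
    exact mul_le_mul (hgC O hO) (abs_Pk_le j hC hO) (abs_nonneg _) (by positivity)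
  have e : (fun O => (Pk k φ O - Pk 0 φ O) ^ p *
      ((Pk (k + 1) φ O - Pk 0 φ O) - (Pk k φ O - Pk 0 φ O))) =
      (fun O => (Pk k φ O - Pk 0 φ O) ^ p * Pk (k + 1) φ O -
        (Pk k φ O - Pk 0 φ O) ^ p * Pk k φ O) := by
    funext O
    ring
  rw [e, integral_sub (hint (k + 1)) (hint k), h1, h2, sub_self]

private theorem cd_last {P : Measure (Fin N → Fin N → ℝ)} (hP : IsHaar P)
    {φ : (Fin N → Fin N → ℝ) → ℝ} (hφ : Measurable φ) (p : ℕ) :
    ∫ O, (Pk N φ O - Pk 0 φ O) ^ p ∂P = ∫ O, (φ O - ∫ U, φ U ∂P) ^ p ∂P := by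
  apply integral_congr_ae
  filter_upwards [cd_orth hP] with O hO
  rw [Pk_last, Pk_zero hP hφ hO]

/-- (H4) FOURTH MOMENT.  PROOF.  `M_k = P_kφ - P_0φ`, `mart_four`, `integral_mul_Pk` with `g = M_k^3`, `diff_Pk_le`. -/
theorem doob4 {P : Measure (Fin N → Fin N → ℝ)} (hP : IsHaar P)
    {φ : (Fin N → Fin N → ℝ) → ℝ} (hφ : Measurable φ) {C : ℝ} (hC : ∀ O, IsO O → |φ O| ≤ C)
    (ε : ℝ) (hε : 0 ≤ ε)
    (h : ∀ k : Fin N, ∫ W, ∫ O, (φ O - φ (amul (refl (qv k (avec W (ev k)))) O)) ^ 4 ∂P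
      ∂kap N k.val ≤ ε ^ 4) :
    ∫ O, (φ O - ∫ U, φ U ∂P) ^ 4 ∂P ≤ 16 * (N : ℝ) ^ 2 * ε ^ 4 := by
  have := hP.prob
  rw [← cd_last hP hφ 4]
  refine mart_four N (fun k O => Pk k φ O - Pk 0 φ O)
    (fun k => (measurable_Pk k hφ).sub (measurable_Pk 0 hφ)) (2 * C) ?_ ?_ ?_ ε hε ?_
  · intro k
    filter_upwards [cd_orth hP] with O hO
    exact cd_bound hC k hO
  · exact Filter.Eventually.of_forall fun O => sub_self _
  · intro k _
    exact cd_orthog hP hφ hC k 3
  · intro k hk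
    have h1 := (diff_Pk_le hP ⟨k, hk⟩ 4 (Or.inr rfl) hφ hC).trans (h ⟨k, hk⟩)
    refine le_trans (le_of_eq ?_) h1
    congr 1
    funext O
    ring

/-- (H4) SECOND MOMENT. -/
theorem doob2 {P : Measure (Fin N → Fin N → ℝ)} (hP : IsHaar P)
    {φ : (Fin N → Fin N → ℝ) → ℝ} (hφ : Measurable φ) {C : ℝ} (hC : ∀ O, IsO O → |φ O| ≤ C) :
    ∫ O, (φ O - ∫ U, φ U ∂P) ^ 2 ∂P ≤
      ∑ k : Fin N, ∫ W, ∫ O, (φ O - φ (amul (refl (qv k (avec W (ev k)))) O)) ^ 2 ∂P
        ∂kap N k.val := by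
  have := hP.prob
  rw [← cd_last hP hφ 2]
  have h1 := mart_two N (fun k O => Pk k φ O - Pk 0 φ O)
    (fun k => (measurable_Pk k hφ).sub (measurable_Pk 0 hφ)) (2 * C) (P := P) (fun k => by
      filter_upwards [cd_orth hP] with O hO
      exact cd_bound hC k hO) (Filter.Eventually.of_forall fun O => sub_self _) (fun k _ => by
      have := cd_orthog hP hφ hC k 1
      simpa only [pow_one] using this)
  rw [h1, ← Fin.sum_univ_eq_sum_range (fun k => ∫ O, ((Pk (k + 1) φ O - Pk 0 φ O) -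
    (Pk k φ O - Pk 0 φ O)) ^ 2 ∂P) N]
  refine Finset.sum_le_sum fun k _ => ?_
  refine le_trans (le_of_eq ?_) (diff_Pk_le hP k 2 (Or.inl rfl) hφ hC)
  congr 1
  funext O
  ring

/-- CHANGE OF ORDER for the bounds: if for every orthogonal `O` and unit-or-zero `q` `(φ O - φ(H_q O))^p ≤ ψ(O, q) + ψ(H_q O, q)`, then (law of `(O, W)` invariant
under `O ↦ H_q O`) `∫_W∫_O (..)^p ≤ 2 ∫_W∫_O ψ(O, q_W)`. -/
theorem refl_double {P : Measure (Fin N → Fin N → ℝ)} (hP : IsHaar P) (k : Fin N) (p : ℕ)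
    (hp : p = 2 ∨ p = 4)
    {φ : (Fin N → Fin N → ℝ) → ℝ} (hφ : Measurable φ) {C : ℝ} (hC : ∀ O, IsO O → |φ O| ≤ C)
    {ψ : (Fin N → Fin N → ℝ) → (Fin N → ℝ) → ℝ} (hψ : Measurable (fun x : (Fin N → Fin N → ℝ) × (Fin N → ℝ) => ψ x.1 x.2))
    (hψ0 : ∀ O q, 0 ≤ ψ O q) {C' : ℝ} (hψC : ∀ O q, IsO O → UZ q → ψ O q ≤ C')
    (h : ∀ O q, IsO O → UZ q → (φ O - φ (amul (refl q) O)) ^ p ≤ ψ O q + ψ (amul (refl q) O) q) :
    ∫ W, ∫ O, (φ O - φ (amul (refl (qv k (avec W (ev k)))) O)) ^ p ∂P ∂kap N k.val ≤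
      2 * ∫ O, ∫ W, ψ O (qv k (avec W (ev k))) ∂kap N k.val ∂P := by
  have := hP.prob
  have hC0 : 0 ≤ C := (abs_nonneg _).trans (hC (aone N) isO_one)
  -- measurability
  have hq : Measurable (fun W : Fin N → Fin N → ℝ => qv k (avec W (ev k))) :=
    (measurable_qv k).comp (measurable_avec.comp (measurable_id.prodMk measurable_const))
  have hF : Measurable (fun x : (Fin N → Fin N → ℝ) × (Fin N → Fin N → ℝ) =>
      (φ x.2 - φ (amul (refl (qv k (avec x.1 (ev k)))) x.2)) ^ p) := by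
    refine Measurable.pow_const (Measurable.sub (hφ.comp measurable_snd) (hφ.comp ?_)) p
    exact measurable_amul.comp ((measurable_refl.comp (hq.comp measurable_fst)).prodMk measurable_snd)
  have hG : Measurable (fun x : (Fin N → Fin N → ℝ) × (Fin N → Fin N → ℝ) =>
      ψ x.2 (qv k (avec x.1 (ev k)))) :=
    hψ.comp (measurable_snd.prodMk (hq.comp measurable_fst))
  have hqUZ : ∀ W : Fin N → Fin N → ℝ, UZ (qv k (avec W (ev k))) := fun W => uz_qv k _
  have hFb : ∀ W O : Fin N → Fin N → ℝ, IsO O →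
      |(φ O - φ (amul (refl (qv k (avec W (ev k)))) O)) ^ p| ≤ (2 * C) ^ p := by
    intro W O hO
    rw [abs_pow]
    refine pow_le_pow_left₀ (abs_nonneg _) ?_ p
    have h1 := hC O hO
    have h2 := hC _ ((isO_refl (hqUZ W)).mul hO)
    rw [abs_le] at *
    constructor <;> linarith
  have hGb : ∀ W O : Fin N → Fin N → ℝ, IsO O → |ψ O (qv k (avec W (ev k)))| ≤ C' := by
    intro W O hO
    rw [abs_of_nonneg (hψ0 _ _)]
    exact hψC _ _ hO (hqUZ W)
  -- inner bounds
  have inner : ∀ W : Fin N → Fin N → ℝ,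
      ∫ O, (φ O - φ (amul (refl (qv k (avec W (ev k)))) O)) ^ p ∂P ≤
        2 * ∫ O, ψ O (qv k (avec W (ev k))) ∂P := by
    intro W
    set q := qv k (avec W (ev k)) with hqd
    have hqq : UZ q := hqUZ W
    have m1 : Measurable (fun O => ψ O q) := hψ.comp (measurable_id.prodMk measurable_const)
    have m2 : Measurable (fun O => ψ (amul (refl q) O) q) := m1.comp (measurable_amul_left (refl q))
    have i1 : Integrable (fun O => ψ O q) P := by
      refine Integrable.of_bound m1.aestronglyMeasurable C' ?_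
      filter_upwards [cd_orth hP] with O hO
      exact hGb W O hO
    have i2 : Integrable (fun O => ψ (amul (refl q) O) q) P := by
      refine Integrable.of_bound m2.aestronglyMeasurable C' ?_
      filter_upwards [cd_orth hP] with O hO
      exact hGb W _ ((isO_refl hqq).mul hO)
    have i0 : Integrable (fun O => (φ O - φ (amul (refl q) O)) ^ p) P := by
      refine Integrable.of_bound (hF.comp (measurable_const.prodMk measurable_id :
        Measurable (fun O : Fin N → Fin N → ℝ => (W, O)))).aestronglyMeasurable ((2 * C) ^ p) ?_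
      filter_upwards [cd_orth hP] with O hO
      exact hFb W O hO
    calc ∫ O, (φ O - φ (amul (refl q) O)) ^ p ∂P ≤ ∫ O, (ψ O q + ψ (amul (refl q) O) q) ∂P := by
          refine integral_mono_ae i0 (i1.add i2) ?_
          filter_upwards [cd_orth hP] with O hO
          exact h O q hO hqq
      _ = ∫ O, ψ O q ∂P + ∫ O, ψ (amul (refl q) O) q ∂P := integral_add i1 i2
      _ = 2 * ∫ O, ψ O q ∂P := by
          rw [hP.integral_left (isO_refl hqq) (f := fun O => ψ O q) m1]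
          ring
  have iF : Integrable (fun W => ∫ O, (φ O - φ (amul (refl (qv k (avec W (ev k)))) O)) ^ p ∂P)
      (kap N k.val) := by
    refine Integrable.of_bound
      (hF.stronglyMeasurable.integral_prod_right (ν := P)).aestronglyMeasurable ((2 * C) ^ p)
      (Filter.Eventually.of_forall fun W => ?_)
    have := norm_integral_le_of_norm_le_const (μ := P)
      (f := fun O => (φ O - φ (amul (refl (qv k (avec W (ev k)))) O)) ^ p) (C := (2 * C) ^ p) (by
        filter_upwards [cd_orth hP] with O hO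
        exact hFb W O hO)
    simpa using this
  have iG : Integrable (fun W => ∫ O, ψ O (qv k (avec W (ev k))) ∂P) (kap N k.val) := by
    refine Integrable.of_bound
      (hG.stronglyMeasurable.integral_prod_right (ν := P)).aestronglyMeasurable C'
      (Filter.Eventually.of_forall fun W => ?_)
    have := norm_integral_le_of_norm_le_const (μ := P)
      (f := fun O => ψ O (qv k (avec W (ev k)))) (C := C') (by
        filter_upwards [cd_orth hP] with O hO
        exact hGb W O hO)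
    simpa using this
  calc ∫ W, ∫ O, (φ O - φ (amul (refl (qv k (avec W (ev k)))) O)) ^ p ∂P ∂kap N k.val
      ≤ ∫ W, 2 * ∫ O, ψ O (qv k (avec W (ev k))) ∂P ∂kap N k.val :=
        integral_mono iF (iG.const_mul 2) inner
    _ = 2 * ∫ W, ∫ O, ψ O (qv k (avec W (ev k))) ∂P ∂kap N k.val := integral_const_mul _ _
    _ = 2 * ∫ O, ∫ W, ψ O (qv k (avec W (ev k))) ∂kap N k.val ∂P := by
        congr 1
        apply integral_integral_swap (f := fun W O => ψ O (qv k (avec W (ev k))))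
        refine Integrable.of_bound hG.aestronglyMeasurable C' ?_
        have h1 : ∀ᵐ x ∂((kap N k.val).prod P), IsO x.2 := by
          have h2 : Measure.map Prod.snd ((kap N k.val).prod P) = P := by
            rw [Measure.map_snd_prod]
            simp
          have h3 : ∀ᵐ O ∂(Measure.map Prod.snd ((kap N k.val).prod P)), IsO O := by
            rw [h2]
            exact cd_orth hP
          exact ae_of_ae_map measurable_snd.aemeasurable h3
        filter_upwards [h1] with x hx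
        exact hGb x.1 x.2 hx

end Crest.Agent.RI
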