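import Crest.Agent.RI.ConcP1
import Crest.Agent.RI.HaarMom

/-!
# Row 164, Part 7: block moment
-/

set_option autoImplicit false

namespace Crest.Agent.RI

open MeasureTheory ProbabilityTheory Filter

variable {N : ℕ}

private theorem gib_const' (e c : Fin N → ℝ) (O : Fin N → Fin N → ℝ) (C : ℝ) :
    gib e c O (fun _ => C) = C := by
  unfold gib
  rw [← Finset.mul_sum]
  have h : 0 < ∑ σ : Fin N → Bool, Real.exp (hamP e c O σ) :=
    Finset.sum_pos (fun σ _ => Real.exp_pos _) Finset.univ_nonempty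
  field_simp

private theorem sum_avec_sq {O : Fin N → Fin N → ℝ} (hO : IsO O) (σ : Fin N → Bool) :
    ∑ i, avec O (sv σ) i ^ 2 = N := by
  have h := hO.ip_avec (sv σ) (sv σ)
  rw [ip_sv] at h
  rw [← h]
  unfold ip
  exact Finset.sum_congr rfl fun i _ => by ring

private theorem hamP_fixes {K : ℕ} (κ : Fin N → Fin K) (d : Fin K → ℝ) (c : Fin N → ℝ)
    (b : Fin N) {V : Fin N → Fin N → ℝ}
    (hV : Fixes (Finset.univ.filter (fun a => κ a = κ b)) V) (O : Fin N → Fin N → ℝ)
    (σ : Fin N → Bool) :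
    hamP (fun a => d (κ a)) c (amul V O) σ = hamP (fun a => d (κ a)) c O σ := by
  unfold hamP
  congr 2
  rw [avec_amul]
  set y := avec O (sv σ) with hy
  rw [← Finset.sum_filter_add_sum_filter_not Finset.univ (fun a => κ a = κ b)
      (fun a => d (κ a) * avec V y a ^ 2),
    ← Finset.sum_filter_add_sum_filter_not Finset.univ (fun a => κ a = κ b)
      (fun a => d (κ a) * y a ^ 2)]
  congr 1
  · have e1 : ∀ z : Fin N → ℝ, ∑ a ∈ Finset.univ.filter (fun a => κ a = κ b), d (κ a) * z a ^ 2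
        = d (κ b) * ∑ a ∈ Finset.univ.filter (fun a => κ a = κ b), z a ^ 2 := by
      intro z
      rw [Finset.mul_sum]
      refine Finset.sum_congr rfl fun a ha => ?_
      rw [(Finset.mem_filter.1 ha).2]
    rw [e1, e1, hV.sum_sq]
  · refine Finset.sum_congr rfl fun a ha => ?_
    rw [hV.avec_off]
    intro h
    exact (Finset.mem_filter.1 ha).2 (Finset.mem_filter.1 h).2

/-- BLOCK MOMENT.  PROOF.  `S = {a | κ a = κ b}`, `μ` a Haar law on `Fixes S`.  For `V ∈ Fixes S`: `hamP (V O) σ = hamP O σ` (the eigenvalues are constant on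
`S`, `Fixes.sum_sq`, `Fixes.avec_off`).  So with `F(O) = <y_b(O)^8>_O`: `∫ F dP = ∫∫ F(V O) dμ dP = ∫ <∫ (V y)_b^8 dμ(V)>_O dP ≤ 105 N^4/|S|^4` (`coord8`,
`Σ_{i∈S} y_i² ≤ |y|² = N`). -/
theorem gib_coord8 {K : ℕ} (κ : Fin N → Fin K) (d : Fin K → ℝ) (c : Fin N → ℝ)
    {P : Measure (Fin N → Fin N → ℝ)} (hP : IsHaar P) (b : Fin N) {A : ℝ}
    (hA : (N : ℝ) ≤ A * ((Finset.univ.filter (fun a => κ a = κ b)).card : ℝ)) :
    ∫ O, gib (fun a => d (κ a)) c O (fun σ => avec O (sv σ) b ^ 8) ∂P ≤ 105 * A ^ 4 := by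
  set S := Finset.univ.filter (fun a => κ a = κ b) with hS
  set e : Fin N → ℝ := fun a => d (κ a) with he
  have hbS : b ∈ S := by simp [hS]
  have hcard : 0 < (S.card : ℝ) := by
    exact_mod_cast Finset.card_pos.2 ⟨b, hbS⟩
  have hN : 0 ≤ (N : ℝ) := Nat.cast_nonneg N
  have hA0 : (N : ℝ) / S.card ≤ A := by
    rw [div_le_iff₀ hcard]; exact hA
  obtain ⟨μ, hμ⟩ := exists_isHaarS S
  have := hμ.prob
  have := hP.prob
  set F : (Fin N → Fin N → ℝ) → ℝ := fun O => gib e c O (fun σ => avec O (sv σ) b ^ 8) with hF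
  have hFm : Measurable F := by
    refine measurable_gib e c (f := fun O σ => avec O (sv σ) b ^ 8) ?_
    intro σ
    have h1 : Measurable (fun O : Fin N → Fin N → ℝ => avec O (sv σ)) :=
      measurable_avec.comp (measurable_id.prodMk measurable_const)
    exact ((measurable_pi_apply b).comp h1).pow_const 8
  -- bounds on orthogonal arrays
  have hsq : ∀ O, IsO O → ∀ σ, avec O (sv σ) b ^ 2 ≤ N := by
    intro O hO σ
    rw [← sum_avec_sq hO σ]
    exact Finset.single_le_sum (f := fun i => avec O (sv σ) i ^ 2) (fun i _ => sq_nonneg _)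
      (Finset.mem_univ b)
  have hF0 : ∀ O, 0 ≤ F O := by
    intro O
    have h := gib_mono e c O (f := fun _ => (0 : ℝ)) (g := fun σ => avec O (sv σ) b ^ 8)
      (fun σ => by positivity)
    rwa [gib_const'] at h
  have hFN : ∀ O, IsO O → F O ≤ (N : ℝ) ^ 4 := by
    intro O hO
    have h := gib_mono e c O (f := fun σ => avec O (sv σ) b ^ 8) (g := fun _ => (N : ℝ) ^ 4)
      (fun σ => by
        have h1 := hsq O hO σ
        calc avec O (sv σ) b ^ 8 = (avec O (sv σ) b ^ 2) ^ 4 := by ring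
          _ ≤ (N : ℝ) ^ 4 := pow_le_pow_left₀ (sq_nonneg _) h1 4)
    rwa [gib_const'] at h
  -- the product integrand
  have hGm : Measurable (fun p : (Fin N → Fin N → ℝ) × (Fin N → Fin N → ℝ) =>
      F (amul p.1 p.2)) := hFm.comp measurable_amul
  have hPO : ∀ᵐ O ∂P, IsO O := hP.orth
  have hae : ∀ᵐ p ∂(μ.prod P), IsO (amul p.1 p.2) := by
    have h1 : ∀ᵐ p ∂(μ.prod P), Fixes S p.1 :=
      Measure.quasiMeasurePreserving_fst.ae hμ.fix
    have h2 : ∀ᵐ p ∂(μ.prod P), IsO p.2 :=
      Measure.quasiMeasurePreserving_snd.ae hPO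
    filter_upwards [h1, h2] with p hp1 hp2
    exact hp1.1.mul hp2
  have hint : Integrable (fun p : (Fin N → Fin N → ℝ) × (Fin N → Fin N → ℝ) =>
      F (amul p.1 p.2)) (μ.prod P) := by
    refine Integrable.of_bound hGm.aestronglyMeasurable ((N : ℝ) ^ 4) ?_
    filter_upwards [hae] with p hp
    rw [Real.norm_eq_abs, abs_of_nonneg (hF0 _)]
    exact hFN _ hp
  have h1 : ∫ V, ∫ O, F (amul V O) ∂P ∂μ = ∫ O, F O ∂P := by
    have h2 : (fun V => ∫ O, F (amul V O) ∂P) =ᵐ[μ] fun _ => ∫ O, F O ∂P := by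
      filter_upwards [hμ.fix] with V hV
      exact hP.integral_left hV.1 hFm
    rw [integral_congr_ae h2]
    simp
  have h2 : ∫ V, ∫ O, F (amul V O) ∂P ∂μ = ∫ O, ∫ V, F (amul V O) ∂μ ∂P :=
    integral_integral_swap hint
  rw [← h1, h2]
  -- inner bound
  have hinner : ∀ O, IsO O → ∫ V, F (amul V O) ∂μ ≤ 105 * A ^ 4 := by
    intro O hO
    have hib : ∀ σ, Integrable (fun V => avec V (avec O (sv σ)) b ^ 8) μ := by
      intro σ
      have hm : Measurable (fun V : Fin N → Fin N → ℝ => avec V (avec O (sv σ)) b ^ 8) := by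
        have h1 : Measurable (fun V : Fin N → Fin N → ℝ => avec V (avec O (sv σ))) :=
          measurable_avec.comp (measurable_id.prodMk measurable_const)
        exact ((measurable_pi_apply b).comp h1).pow_const 8
      refine Integrable.of_bound hm.aestronglyMeasurable ((N : ℝ) ^ 4) ?_
      filter_upwards [hμ.fix] with V hV
      rw [Real.norm_eq_abs, abs_of_nonneg (by positivity), ← avec_amul]
      have h1 := hsq _ (hV.1.mul hO) σ
      calc avec (amul V O) (sv σ) b ^ 8 = (avec (amul V O) (sv σ) b ^ 2) ^ 4 := by ring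
        _ ≤ (N : ℝ) ^ 4 := pow_le_pow_left₀ (sq_nonneg _) h1 4
    have h3 : (fun V => F (amul V O)) =ᵐ[μ] fun V =>
        gib e c O (fun σ => avec V (avec O (sv σ)) b ^ 8) := by
      filter_upwards [hμ.fix] with V hV
      simp only [hF, gib]
      congr 1
      · refine Finset.sum_congr rfl fun σ _ => ?_
        rw [hamP_fixes κ d c b hV O σ, avec_amul]
      · exact Finset.sum_congr rfl fun σ _ => by rw [hamP_fixes κ d c b hV O σ]
    rw [integral_congr_ae h3]
    have h4 : ∫ V, gib e c O (fun σ => avec V (avec O (sv σ)) b ^ 8) ∂μ =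
        gib e c O (fun σ => ∫ V, avec V (avec O (sv σ)) b ^ 8 ∂μ) := by
      simp only [gib]
      rw [integral_div, integral_finsetSum _ (fun σ _ => (hib σ).mul_const _)]
      congr 1
      exact Finset.sum_congr rfl fun σ _ => integral_mul_const _ _
    rw [h4]
    refine le_trans (gib_mono e c O (g := fun _ => 105 * A ^ 4) ?_) (le_of_eq (gib_const' e c O _))
    intro σ
    refine le_trans (hμ.coord8 hbS _) ?_
    have h5 : ∑ i ∈ S, avec O (sv σ) i ^ 2 ≤ N := by
      rw [← sum_avec_sq hO σ]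
      exact Finset.sum_le_sum_of_subset_of_nonneg (Finset.subset_univ _) fun i _ _ => sq_nonneg _
    have h6 : 0 ≤ ∑ i ∈ S, avec O (sv σ) i ^ 2 := Finset.sum_nonneg fun i _ => sq_nonneg _
    rw [mul_div_assoc, ← div_pow]
    refine mul_le_mul_of_nonneg_left ?_ (by norm_num)
    refine pow_le_pow_left₀ (div_nonneg h6 hcard.le) ?_ 4
    exact le_trans (div_le_div_of_nonneg_right h5 hcard.le) hA0
  have h7 : ∫ O, ∫ V, F (amul V O) ∂μ ∂P ≤ ∫ _O, 105 * A ^ 4 ∂P := by
    refine integral_mono_ae ?_ (integrable_const _) ?_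
    · exact hint.integral_prod_right
    · filter_upwards [hPO] with O hO
      exact hinner O hO
  refine le_trans h7 ?_
  simp

end Crest.Agent.RI
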