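import Crest.Agent.RI.ConcP2
import Crest.Agent.RI.ConcP3
import Crest.Agent.RI.ConcDoob

/-!
# Row 164, Part 7: fourth moment of the pressure (H5)
-/

set_option autoImplicit false

namespace Crest.Agent.RI

open MeasureTheory ProbabilityTheory Filter

variable {N : ℕ}

/-- the constant -/
noncomputable def cstP (D A : ℝ) : ℝ :=
  16 * (2 * ((64 * (1 + 2 * D ^ 4) + 64 * D ^ 8) * (14000 * (105 * A ^ 4))))

private theorem ConcP_sumexp_pos (e c : Fin N → ℝ) (O : Fin N → Fin N → ℝ) :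
    0 < ∑ σ : Fin N → Bool, Real.exp (hamP e c O σ) :=
  Finset.sum_pos (fun _ _ => Real.exp_pos _) Finset.univ_nonempty

/-- the Gibbs weight -/
private noncomputable def ConcP_wt (e c : Fin N → ℝ) (O : Fin N → Fin N → ℝ)
    (σ : Fin N → Bool) : ℝ :=
  Real.exp (hamP e c O σ) / ∑ σ : Fin N → Bool, Real.exp (hamP e c O σ)

private theorem ConcP_wt_nonneg (e c : Fin N → ℝ) (O : Fin N → Fin N → ℝ)
    (σ : Fin N → Bool) : 0 ≤ ConcP_wt e c O σ :=
  div_nonneg (Real.exp_pos _).le (ConcP_sumexp_pos e c O).le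

private theorem ConcP_gib_eq (e c : Fin N → ℝ) (O : Fin N → Fin N → ℝ)
    (f : (Fin N → Bool) → ℝ) : gib e c O f = ∑ σ, ConcP_wt e c O σ * f σ := by
  unfold gib ConcP_wt
  rw [Finset.sum_div]
  refine Finset.sum_congr rfl fun σ _ => ?_
  ring

private theorem ConcP_gib_const (e c : Fin N → ℝ) (O : Fin N → Fin N → ℝ) (a : ℝ) :
    gib e c O (fun _ => a) = a := by
  unfold gib
  rw [← Finset.mul_sum, mul_div_assoc, div_self (ConcP_sumexp_pos e c O).ne', mul_one]

private theorem ConcP_gib_nonneg (e c : Fin N → ℝ) (O : Fin N → Fin N → ℝ)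
    {f : (Fin N → Bool) → ℝ} (h : ∀ σ, 0 ≤ f σ) : 0 ≤ gib e c O f := by
  rw [ConcP_gib_eq]
  exact Finset.sum_nonneg fun σ _ => mul_nonneg (ConcP_wt_nonneg e c O σ) (h σ)

private theorem ConcP_ip_sq_le (x y : Fin N → ℝ) : ip x y ^ 2 ≤ ip x x * ip y y := by
  unfold ip
  have := Finset.sum_mul_sq_le_sq_mul_sq Finset.univ x y
  simpa [pow_two] using this

private theorem ConcP_pow8 {x M : ℝ} (h : x ^ 2 ≤ M) : x ^ 8 ≤ M ^ 4 := by
  have : x ^ 8 = (x ^ 2) ^ 4 := by ring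
  rw [this]
  exact pow_le_pow_left₀ (sq_nonneg x) h 4

private theorem ConcP_pow8_nonneg (x : ℝ) : 0 ≤ x ^ 8 := by
  have : x ^ 8 = (x ^ 4) ^ 2 := by ring
  rw [this]; exact sq_nonneg _

private theorem ConcP_uz {q : Fin N → ℝ} (hq : UZ q) : ip q q ≤ 1 := by
  rcases hq with h | h
  · exact h.le
  · rw [h]; simp [ip]

private theorem ConcP_ip8 {q : Fin N → ℝ} (hq : UZ q) {z : Fin N → ℝ} {M : ℝ}
    (hz : ip z z ≤ M) : ip q z ^ 8 ≤ M ^ 4 := by
  apply ConcP_pow8
  have h1 := ConcP_ip_sq_le q z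
  have h2 := ConcP_uz hq
  have h3 := ip_nonneg z
  have h4 := ip_nonneg q
  nlinarith [mul_le_mul h2 le_rfl h3 zero_le_one]

private theorem ConcP_ip_cmul {e : Fin N → ℝ} {D : ℝ} (hD : ∀ a, |e a| ≤ D)
    (z : Fin N → ℝ) : ip (cmul e z) (cmul e z) ≤ D ^ 2 * ip z z := by
  unfold ip cmul
  rw [Finset.mul_sum]
  refine Finset.sum_le_sum fun a _ => ?_
  have h1 : e a ^ 2 ≤ D ^ 2 := by
    rw [← sq_abs]
    exact pow_le_pow_left₀ (abs_nonneg _) (hD a) 2
  have h2 : 0 ≤ z a * z a := mul_self_nonneg _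
  calc e a * z a * (e a * z a) = e a ^ 2 * (z a * z a) := by ring
    _ ≤ D ^ 2 * (z a * z a) := mul_le_mul_of_nonneg_right h1 h2

private theorem ConcP_ip_avec {O : Fin N → Fin N → ℝ} (hO : IsO O) (σ : Fin N → Bool) :
    ip (avec O (sv σ)) (avec O (sv σ)) = N := by
  rw [hO.ip_avec, ip_sv]

private theorem ConcP_coord8 {O : Fin N → Fin N → ℝ} (hO : IsO O) (σ : Fin N → Bool)
    (b : Fin N) : avec O (sv σ) b ^ 8 ≤ (N : ℝ) ^ 4 := by
  apply ConcP_pow8
  rw [← ConcP_ip_avec hO σ]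
  unfold ip
  rw [pow_two]
  exact Finset.single_le_sum (f := fun i => avec O (sv σ) i * avec O (sv σ) i)
    (fun i _ => mul_self_nonneg _) (Finset.mem_univ b)

private theorem ConcP_measurable_psiP (e c : Fin N → ℝ) (D : ℝ) :
    Measurable (fun x : (Fin N → Fin N → ℝ) × (Fin N → ℝ) => psiP e c D x.1 x.2) := by
  unfold psiP gib hamP ip avec cmul
  fun_prop

private theorem ConcP_psiP_nonneg (e c : Fin N → ℝ) (D : ℝ) (O : Fin N → Fin N → ℝ)
    (q : Fin N → ℝ) : 0 ≤ psiP e c D O q := by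
  unfold psiP
  refine ConcP_gib_nonneg e c O fun σ => ?_
  have h1 := ConcP_pow8_nonneg (ip q (avec O (sv σ)))
  have h2 := ConcP_pow8_nonneg (ip q (cmul e (avec O (sv σ))))
  positivity

private theorem ConcP_psiP_le {e : Fin N → ℝ} (c : Fin N → ℝ) {D : ℝ}
    (hD : ∀ a, |e a| ≤ D) {O : Fin N → Fin N → ℝ} (hO : IsO O) {q : Fin N → ℝ} (hq : UZ q) :
    psiP e c D O q ≤ 64 * (1 + 2 * D ^ 4) * (N : ℝ) ^ 4 + 64 * (D ^ 2 * N) ^ 4 := by
  unfold psiP
  rw [← ConcP_gib_const e c O (64 * (1 + 2 * D ^ 4) * (N : ℝ) ^ 4 + 64 * (D ^ 2 * N) ^ 4)]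
  refine gib_mono e c O fun σ => ?_
  have h1 : ip q (avec O (sv σ)) ^ 8 ≤ (N : ℝ) ^ 4 := ConcP_ip8 hq (ConcP_ip_avec hO σ).le
  have h2 : ip q (cmul e (avec O (sv σ))) ^ 8 ≤ (D ^ 2 * N) ^ 4 := by
    refine ConcP_ip8 hq ?_
    have := ConcP_ip_cmul hD (avec O (sv σ))
    rwa [ConcP_ip_avec hO σ] at this
  have h3 : (0 : ℝ) ≤ 64 * (1 + 2 * D ^ 4) := by positivity
  have h4 := mul_le_mul_of_nonneg_left h1 h3
  linarith

private theorem ConcP_integrable_ip8 (k : Fin N) (z : Fin N → ℝ) :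
    Integrable (fun W => ip (qv k (avec W (ev k))) z ^ 8) (kap N k.val) := by
  refine Integrable.of_bound (C := (ip z z) ^ 4) ?_ ?_
  · apply Measurable.aestronglyMeasurable
    have h1 : Measurable (fun W : Fin N → Fin N → ℝ => avec W (ev k)) :=
      measurable_avec.comp (measurable_id.prodMk measurable_const)
    have h2 : Measurable (fun W : Fin N → Fin N → ℝ => qv k (avec W (ev k))) :=
      (measurable_qv k).comp h1
    have h3 : Measurable (fun W : Fin N → Fin N → ℝ => ip (qv k (avec W (ev k))) z) :=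
      measurable_ip.comp (h2.prodMk measurable_const)
    exact h3.pow_const 8
  · refine Filter.Eventually.of_forall fun W => ?_
    rw [Real.norm_eq_abs, abs_of_nonneg (ConcP_pow8_nonneg _)]
    exact ConcP_ip8 (uz_qv _ _) le_rfl

private theorem ConcP_mom_cmul {e : Fin N → ℝ} {D : ℝ} (hD : ∀ a, |e a| ≤ D) (k : Fin N)
    (z : Fin N → ℝ) :
    ∫ W, ip (qv k (avec W (ev k))) (cmul e z) ^ 8 ∂kap N k.val ≤
      D ^ 8 * ∑ b, wrefl k b * z b ^ 8 := by
  refine (refl_mom8 (kap_isHaarS N k.val) (cmul e z)).trans ?_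
  rw [Finset.mul_sum]
  refine Finset.sum_le_sum fun b _ => ?_
  have h1 : e b ^ 8 ≤ D ^ 8 := by
    have : e b ^ 8 = |e b| ^ 8 := by
      have h : e b ^ 8 = (e b ^ 2) ^ 4 := by ring
      rw [h, ← sq_abs]; ring
    rw [this]
    exact pow_le_pow_left₀ (abs_nonneg _) (hD b) 8
  have h2 := ConcP_pow8_nonneg (z b)
  have h3 := wrefl_nonneg k b
  calc wrefl k b * cmul e z b ^ 8 = e b ^ 8 * (wrefl k b * z b ^ 8) := by
        unfold cmul; ring
    _ ≤ D ^ 8 * (wrefl k b * z b ^ 8) :=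
        mul_le_mul_of_nonneg_right h1 (mul_nonneg h3 h2)

/-- the inner average over the reflections -/
private theorem ConcP_inner {e : Fin N → ℝ} (c : Fin N → ℝ) {D : ℝ}
    (hD : ∀ a, |e a| ≤ D) (k : Fin N) (O : Fin N → Fin N → ℝ) :
    ∫ W, psiP e c D O (qv k (avec W (ev k))) ∂kap N k.val ≤
      (64 * (1 + 2 * D ^ 4) + 64 * D ^ 8) *
        ∑ b, wrefl k b * gib e c O (fun σ => avec O (sv σ) b ^ 8) := by
  have h1 : ∀ W : Fin N → Fin N → ℝ, psiP e c D O (qv k (avec W (ev k))) =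
      ∑ σ, ConcP_wt e c O σ * (64 * (1 + 2 * D ^ 4) *
        ip (qv k (avec W (ev k))) (avec O (sv σ)) ^ 8 +
          64 * ip (qv k (avec W (ev k))) (cmul e (avec O (sv σ))) ^ 8) := by
    intro W
    unfold psiP
    rw [ConcP_gib_eq]
  simp_rw [h1]
  rw [integral_finsetSum]
  swap
  · intro σ _
    exact (((ConcP_integrable_ip8 k _).const_mul _).add
      ((ConcP_integrable_ip8 k _).const_mul _)).const_mul _
  have h2 : ∀ σ : Fin N → Bool, ∫ W, ConcP_wt e c O σ * (64 * (1 + 2 * D ^ 4) *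
        ip (qv k (avec W (ev k))) (avec O (sv σ)) ^ 8 +
          64 * ip (qv k (avec W (ev k))) (cmul e (avec O (sv σ))) ^ 8) ∂kap N k.val ≤
      ConcP_wt e c O σ * ((64 * (1 + 2 * D ^ 4) + 64 * D ^ 8) *
        ∑ b, wrefl k b * avec O (sv σ) b ^ 8) := by
    intro σ
    rw [integral_const_mul, integral_add ((ConcP_integrable_ip8 k _).const_mul _)
      ((ConcP_integrable_ip8 k _).const_mul _), integral_const_mul, integral_const_mul]
    refine mul_le_mul_of_nonneg_left ?_ (ConcP_wt_nonneg e c O σ)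
    have h3 := refl_mom8 (kap_isHaarS N k.val) (avec O (sv σ))
    have h4 := ConcP_mom_cmul hD k (avec O (sv σ))
    have h5 : (0 : ℝ) ≤ 64 * (1 + 2 * D ^ 4) := by positivity
    have h6 := mul_le_mul_of_nonneg_left h3 h5
    calc _ ≤ 64 * (1 + 2 * D ^ 4) * ∑ b, wrefl k b * avec O (sv σ) b ^ 8 +
          64 * (D ^ 8 * ∑ b, wrefl k b * avec O (sv σ) b ^ 8) := by linarith
      _ = _ := by ring
  refine (Finset.sum_le_sum fun σ _ => h2 σ).trans (le_of_eq ?_)
  simp_rw [ConcP_gib_eq, Finset.mul_sum]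
  rw [Finset.sum_comm]
  refine Finset.sum_congr rfl fun b _ => Finset.sum_congr rfl fun σ _ => ?_
  ring

/-- (H5) PROOF.  `doob4` with `φ = log Z`, `ε^4 = 2 (64 (1 + 2 D^4) + 64 D^8) 14000 * 105 A^4` (take the fourth root); `refl_double`, `logZP_refl_pow4`;
`∫_W <q,z>^8 ≤ Σ_b wrefl b z_b^8` (`refl_mom8`, Fubini for the finite sum over `σ`), `gib_coord8`, `sum_wrefl_le`. -/
theorem logZP_four {K : ℕ} (κ : Fin N → Fin K) (d : Fin K → ℝ) (c : Fin N → ℝ)
    {P : Measure (Fin N → Fin N → ℝ)} (hP : IsHaar P) {D A : ℝ} (hD0 : 0 ≤ D) (hD : ∀ l, |d l| ≤ D)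
    (hA : ∀ b, (N : ℝ) ≤ A * ((Finset.univ.filter (fun a => κ a = κ b)).card : ℝ)) :
    ∫ O, (Real.log (ZP (fun a => d (κ a)) c O) -
      ∫ O', Real.log (ZP (fun a => d (κ a)) c O') ∂P) ^ 4 ∂P ≤ cstP D A * (N : ℝ) ^ 2 := by
  have := hP.prob
  set e : Fin N → ℝ := fun a => d (κ a) with he
  have heD : ∀ a, |e a| ≤ D := fun a => hD (κ a)
  have hcC : ∀ a, |c a| ≤ ∑ a, |c a| := fun a =>
    Finset.single_le_sum (f := fun a => |c a|) (fun i _ => abs_nonneg _) (Finset.mem_univ a)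
  have hC : ∀ O, IsO O → |Real.log (ZP e c O)| ≤ N * (D / 2 + ∑ a, |c a|) :=
    fun O hO => abs_logZP_le heD hcC hO
  set X : ℝ := 2 * ((64 * (1 + 2 * D ^ 4) + 64 * D ^ 8) * (14000 * (105 * A ^ 4))) with hX
  have hX0 : 0 ≤ X := by positivity
  have hXX : Real.sqrt (Real.sqrt X) ^ 4 = X := by
    have h1 : Real.sqrt (Real.sqrt X) ^ 4 = (Real.sqrt (Real.sqrt X) ^ 2) ^ 2 := by ring
    rw [h1, Real.sq_sqrt (Real.sqrt_nonneg X), Real.sq_sqrt hX0]
  have key : ∀ k : Fin N, ∫ W, ∫ O, (Real.log (ZP e c O) -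
      Real.log (ZP e c (amul (refl (qv k (avec W (ev k)))) O))) ^ 4 ∂P ∂kap N k.val ≤
        Real.sqrt (Real.sqrt X) ^ 4 := by
    intro k
    rw [hXX]
    have h1 := refl_double hP k 4 (Or.inr rfl) (measurable_logZP e c) hC
      (ψ := fun O q => psiP e c D O q) (ConcP_measurable_psiP e c D)
      (fun O q => ConcP_psiP_nonneg e c D O q)
      (fun O q hO hq => ConcP_psiP_le c heD hO hq)
      (fun O q hO hq => logZP_refl_pow4 c hD0 heD hO hq)
    refine h1.trans ?_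
    rw [hX]
    refine mul_le_mul_of_nonneg_left ?_ (by norm_num)
    have hint : ∀ b : Fin N, Integrable (fun O => gib e c O (fun σ => avec O (sv σ) b ^ 8)) P := by
      intro b
      refine Integrable.of_bound (C := (N : ℝ) ^ 4) ?_ ?_
      · apply Measurable.aestronglyMeasurable
        refine measurable_gib e c (f := fun O σ => avec O (sv σ) b ^ 8) fun σ => ?_
        have h2 : Measurable (fun O : Fin N → Fin N → ℝ => avec O (sv σ)) :=
          measurable_avec.comp (measurable_id.prodMk measurable_const)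
        exact ((measurable_pi_apply b).comp h2).pow_const 8
      · filter_upwards [hP.orth] with O hO
        rw [Real.norm_eq_abs, abs_of_nonneg
          (ConcP_gib_nonneg e c O fun σ => ConcP_pow8_nonneg _)]
        rw [← ConcP_gib_const e c O ((N : ℝ) ^ 4)]
        exact gib_mono e c O fun σ => ConcP_coord8 hO σ b
    have hG : Integrable (fun O => (64 * (1 + 2 * D ^ 4) + 64 * D ^ 8) *
        ∑ b, wrefl k b * gib e c O (fun σ => avec O (sv σ) b ^ 8)) P :=
      (integrable_finsetSum _ fun b _ => (hint b).const_mul _).const_mul _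
    refine (integral_mono_of_nonneg ?_ hG ?_).trans ?_
    · exact Filter.Eventually.of_forall fun O =>
        integral_nonneg fun W => ConcP_psiP_nonneg e c D O _
    · exact Filter.Eventually.of_forall fun O => ConcP_inner c heD k O
    · rw [integral_const_mul]
      refine mul_le_mul_of_nonneg_left ?_ (by positivity)
      rw [integral_finsetSum _ fun b _ => (hint b).const_mul _]
      simp_rw [integral_const_mul]
      calc ∑ b, wrefl k b * ∫ O, gib e c O (fun σ => avec O (sv σ) b ^ 8) ∂P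
          ≤ ∑ b, wrefl k b * (105 * A ^ 4) := by
            refine Finset.sum_le_sum fun b _ => ?_
            exact mul_le_mul_of_nonneg_left (gib_coord8 κ d c hP b (hA b)) (wrefl_nonneg k b)
        _ = (∑ b, wrefl k b) * (105 * A ^ 4) := by rw [Finset.sum_mul]
        _ ≤ 14000 * (105 * A ^ 4) :=
            mul_le_mul_of_nonneg_right (sum_wrefl_le k) (by positivity)
  have h := doob4 hP (measurable_logZP e c) hC (Real.sqrt (Real.sqrt X)) (Real.sqrt_nonneg _) key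
  refine h.trans (le_of_eq ?_)
  rw [hXX, hX]
  unfold cstP
  ring

/-- (H5) for the pressure -/
theorem pressure_four {K : ℕ} (κ : Fin N → Fin K) (d : Fin K → ℝ) (c : Fin N → ℝ)
    {P : Measure (Fin N → Fin N → ℝ)} (hP : IsHaar P) {D A : ℝ} (hD0 : 0 ≤ D) (hD : ∀ l, |d l| ≤ D)
    (hN : 0 < N)
    (hA : ∀ b, (N : ℝ) ≤ A * ((Finset.univ.filter (fun a => κ a = κ b)).card : ℝ)) :
    ∫ O, (Crest.ProbabilityR.InvariantGlass.pressureFieldN (fun a => d (κ a)) (Matrix.of O) c -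
      ∫ O', Crest.ProbabilityR.InvariantGlass.pressureFieldN (fun a => d (κ a)) (Matrix.of O') c
        ∂P) ^ 4 ∂P ≤ cstP D A / (N : ℝ) ^ 2 := by
  have h := logZP_four κ d c hP hD0 hD hA
  have hN' : (0 : ℝ) < N := by exact_mod_cast hN
  simp_rw [pressureFieldN_eq, integral_const_mul, ← mul_sub, mul_pow, integral_const_mul]
  have h1 : cstP D A / (N : ℝ) ^ 2 = (1 / (N : ℝ)) ^ 4 * (cstP D A * (N : ℝ) ^ 2) := by
    field_simp
  rw [h1]
  exact mul_le_mul_of_nonneg_left h (by positivity)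

end Crest.Agent.RI
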