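import Crest.Agent.RI.HaarAlg

/-!
# Row 164, Part 7: measurability (easy)
-/

set_option autoImplicit false

namespace Crest.Agent.RI

open MeasureTheory ProbabilityTheory

variable {N : ℕ}

theorem measurable_amul :
    Measurable (fun p : (Fin N → Fin N → ℝ) × (Fin N → Fin N → ℝ) => amul p.1 p.2) := by
  refine Continuous.measurable ?_
  unfold amul
  fun_prop

theorem measurable_amul_left (A : Fin N → Fin N → ℝ) : Measurable (fun B => amul A B) := by
  refine Continuous.measurable ?_
  unfold amul
  fun_prop

theorem measurable_amul_right (B : Fin N → Fin N → ℝ) : Measurable (fun A => amul A B) := by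
  refine Continuous.measurable ?_
  unfold amul
  fun_prop

theorem measurable_atr : Measurable (atr : (Fin N → Fin N → ℝ) → _) := by
  refine Continuous.measurable ?_
  unfold atr
  fun_prop

theorem measurable_avec :
    Measurable (fun p : (Fin N → Fin N → ℝ) × (Fin N → ℝ) => avec p.1 p.2) := by
  refine Continuous.measurable ?_
  unfold avec
  fun_prop

theorem measurable_ip : Measurable (fun p : (Fin N → ℝ) × (Fin N → ℝ) => ip p.1 p.2) := by
  refine Continuous.measurable ?_
  unfold ip
  fun_prop

theorem measurable_refl : Measurable (refl : (Fin N → ℝ) → _) := by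
  refine Continuous.measurable ?_
  unfold refl
  fun_prop

theorem measurable_qv (a : Fin N) : Measurable (qv a) := by
  have h1 : ∀ i : Fin N, Measurable (fun u : Fin N → ℝ => ev a i - u i) := fun i =>
    measurable_const.sub (measurable_pi_apply i)
  have h2 : Measurable (fun u : Fin N → ℝ =>
      Real.sqrt (ip (fun j => ev a j - u j) (fun j => ev a j - u j))) := by
    refine Continuous.measurable ?_
    unfold ip
    fun_prop
  refine measurable_pi_iff.mpr fun i => ?_
  exact (h1 i).div h2

theorem measurableSet_isO : MeasurableSet {A : Fin N → Fin N → ℝ | IsO A} := by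
  have h : {A : Fin N → Fin N → ℝ | IsO A} =
      {A : Fin N → Fin N → ℝ | amul A (atr A) = aone N} := by
    ext A
    simp only [Set.mem_setOf_eq, IsO, Matrix.mem_orthogonalGroup_iff]
    constructor
    · intro h
      funext i j
      have := congrFun (congrFun h i) j
      simpa [Matrix.mul_apply, Matrix.one_apply, amul, atr, aone, Matrix.star_eq_conjTranspose]
        using this
    · intro h
      ext i j
      have := congrFun (congrFun h i) j
      simpa [Matrix.mul_apply, Matrix.one_apply, amul, atr, aone, Matrix.star_eq_conjTranspose]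
        using this
  rw [h]
  refine IsClosed.measurableSet ?_
  refine isClosed_eq ?_ continuous_const
  unfold amul atr
  fun_prop

theorem measurableSet_fixes (S : Finset (Fin N)) :
    MeasurableSet {A : Fin N → Fin N → ℝ | Fixes S A} := by
  have h : {A : Fin N → Fin N → ℝ | Fixes S A} =
      {A : Fin N → Fin N → ℝ | IsO A} ∩
        ⋂ i : Fin N, ⋂ j : Fin N, {A | i ∉ S → (A i j = aone N i j ∧ A j i = aone N j i)} := by
    ext A
    simp only [Set.mem_setOf_eq, Fixes, Set.mem_inter_iff, Set.mem_iInter]
    constructor
    · rintro ⟨h1, h2⟩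
      exact ⟨h1, fun i j hi => h2 i hi j⟩
    · rintro ⟨h1, h2⟩
      exact ⟨h1, fun i hi j => h2 i j hi⟩
  rw [h]
  refine measurableSet_isO.inter ?_
  refine MeasurableSet.iInter fun i => MeasurableSet.iInter fun j => ?_
  by_cases hi : i ∈ S
  · have : {A : Fin N → Fin N → ℝ | i ∉ S → (A i j = aone N i j ∧ A j i = aone N j i)} =
        Set.univ := by
      ext A; simp [hi]
    rw [this]; exact MeasurableSet.univ
  · have : {A : Fin N → Fin N → ℝ | i ∉ S → (A i j = aone N i j ∧ A j i = aone N j i)} =
        {A | A i j = aone N i j} ∩ {A | A j i = aone N j i} := by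
      ext A; simp [hi]
    rw [this]
    refine (IsClosed.measurableSet ?_).inter (IsClosed.measurableSet ?_)
    · exact isClosed_eq (by fun_prop) continuous_const
    · exact isClosed_eq (by fun_prop) continuous_const

end Crest.Agent.RI
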