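import Crest.Agent.RI.HaarAlg
import Crest.Agent.RI.HaarMb
import Crest.Prelude.Def_InvariantGlass

/-!
# Row 164, Part 7: Gibbs measure of the pressure
-/

set_option autoImplicit false

namespace Crest.Agent.RI

open MeasureTheory ProbabilityTheory Filter

variable {N : ℕ}

/-- spin vector -/
def sv (σ : Fin N → Bool) : Fin N → ℝ := fun r => spin (σ r)

theorem ip_sv (σ : Fin N → Bool) : ip (sv σ) (sv σ) = N := by
  unfold ip sv spin
  have h : ∀ i : Fin N, (if σ i = true then (1:ℝ) else -1) * (if σ i = true then (1:ℝ) else -1) = 1 := by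
    intro i
    split_ifs <;> norm_num
  rw [Finset.sum_congr rfl (fun i _ => h i)]
  simp

/-- coordinatewise product -/
def cmul (e x : Fin N → ℝ) : Fin N → ℝ := fun a => e a * x a

/-- Hamiltonian with eigenvalues `e` and field `c` -/
noncomputable def hamP (e c : Fin N → ℝ) (O : Fin N → Fin N → ℝ) (σ : Fin N → Bool) : ℝ :=
  (1 / 2) * ∑ a, e a * avec O (sv σ) a ^ 2 + ∑ r, c r * sv σ r

/-- partition function -/
noncomputable def ZP (e c : Fin N → ℝ) (O : Fin N → Fin N → ℝ) : ℝ :=
  (1 / 2) ^ N * ∑ σ : Fin N → Bool, Real.exp (hamP e c O σ)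

/-- Gibbs average -/
noncomputable def gib (e c : Fin N → ℝ) (O : Fin N → Fin N → ℝ) (f : (Fin N → Bool) → ℝ) : ℝ :=
  (∑ σ : Fin N → Bool, f σ * Real.exp (hamP e c O σ)) / ∑ σ : Fin N → Bool, Real.exp (hamP e c O σ)

theorem pressureFieldN_eq (e c : Fin N → ℝ) (O : Fin N → Fin N → ℝ) :
    Crest.ProbabilityR.InvariantGlass.pressureFieldN e (Matrix.of O) c =
      (1 / (N : ℝ)) * Real.log (ZP e c O) := rfl

theorem pressureN_eq (e : Fin N → ℝ) (O : Fin N → Fin N → ℝ) :
    Crest.ProbabilityR.InvariantGlass.pressureN e (Matrix.of O) =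
      (1 / (N : ℝ)) * Real.log (ZP e 0 O) := by
  have h : ∀ σ : Fin N → Bool, hamP e 0 O σ = (1 / 2) * ∑ a, e a * avec O (sv σ) a ^ 2 := by
    intro σ
    unfold hamP
    simp
  unfold ZP
  simp only [h]
  rfl

private theorem concP1_sum_pos (e c : Fin N → ℝ) (O : Fin N → Fin N → ℝ) :
    0 < ∑ σ : Fin N → Bool, Real.exp (hamP e c O σ) :=
  Finset.sum_pos (fun _ _ => Real.exp_pos _) Finset.univ_nonempty

private theorem concP1_measurable_hamP (e c : Fin N → ℝ) (σ : Fin N → Bool) :
    Measurable (fun O => hamP e c O σ) := by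
  unfold hamP avec
  have h1 : ∀ a j : Fin N, Measurable (fun O : Fin N → Fin N → ℝ => O a j) := fun a j =>
    (measurable_pi_apply j).comp (measurable_pi_apply a)
  refine Measurable.add (Measurable.const_mul ?_ _) measurable_const
  refine Finset.measurable_fun_sum _ fun a _ => ?_
  refine Measurable.const_mul (Measurable.pow_const ?_ 2) _
  exact Finset.measurable_fun_sum _ fun j _ => (h1 a j).mul_const _

private theorem concP1_measurable_sum (e c : Fin N → ℝ) :
    Measurable (fun O => ∑ σ : Fin N → Bool, Real.exp (hamP e c O σ)) :=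
  Finset.measurable_fun_sum _ fun σ _ => Real.measurable_exp.comp (concP1_measurable_hamP e c σ)

theorem measurable_logZP (e c : Fin N → ℝ) : Measurable (fun O => Real.log (ZP e c O)) := by
  unfold ZP
  exact Real.measurable_log.comp ((concP1_measurable_sum e c).const_mul _)

/-- `|log Z| ≤ N (D/2 + C)` on orthogonal arrays: `|hamP| ≤ N D/2 + N C`. -/
theorem abs_logZP_le {e c : Fin N → ℝ} {D C : ℝ} (hD : ∀ a, |e a| ≤ D) (hC : ∀ a, |c a| ≤ C)
    {O : Fin N → Fin N → ℝ} (hO : IsO O) : |Real.log (ZP e c O)| ≤ N * (D / 2 + C) := by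
  have hB : ∀ σ : Fin N → Bool, |hamP e c O σ| ≤ N * (D / 2 + C) := by
    intro σ
    unfold hamP
    have h1 : |∑ a, e a * avec O (sv σ) a ^ 2| ≤ D * N := by
      calc |∑ a, e a * avec O (sv σ) a ^ 2| ≤ ∑ a, |e a * avec O (sv σ) a ^ 2| :=
            Finset.abs_sum_le_sum_abs _ _
        _ ≤ ∑ a, D * (avec O (sv σ) a * avec O (sv σ) a) := by
            apply Finset.sum_le_sum
            intro a _
            rw [abs_mul, abs_of_nonneg (sq_nonneg (avec O (sv σ) a)), pow_two]
            exact mul_le_mul_of_nonneg_right (hD a) (mul_self_nonneg _)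
        _ = D * ip (avec O (sv σ)) (avec O (sv σ)) := by rw [← Finset.mul_sum]; rfl
        _ = D * N := by rw [hO.ip_avec, ip_sv]
    have h2 : |∑ r, c r * sv σ r| ≤ N * C := by
      calc |∑ r, c r * sv σ r| ≤ ∑ r, |c r * sv σ r| := Finset.abs_sum_le_sum_abs _ _
        _ ≤ ∑ _r : Fin N, C := by
            apply Finset.sum_le_sum
            intro r _
            have h3 : |sv σ r| = 1 := by
              unfold sv spin
              split_ifs <;> norm_num
            rw [abs_mul, h3, mul_one]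
            exact hC r
        _ = N * C := by simp
    calc |(1 / 2) * ∑ a, e a * avec O (sv σ) a ^ 2 + ∑ r, c r * sv σ r|
        ≤ |(1 / 2) * ∑ a, e a * avec O (sv σ) a ^ 2| + |∑ r, c r * sv σ r| := abs_add_le _ _
      _ = (1 / 2) * |∑ a, e a * avec O (sv σ) a ^ 2| + |∑ r, c r * sv σ r| := by
          rw [abs_mul, abs_of_pos (by norm_num : (0:ℝ) < 1 / 2)]
      _ ≤ (1 / 2) * (D * N) + N * C := by gcongr
      _ = N * (D / 2 + C) := by ring
  set B := N * (D / 2 + C) with hBdef
  have hcard : ((1:ℝ) / 2) ^ N * (Fintype.card (Fin N → Bool) : ℝ) = 1 := by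
    rw [Fintype.card_fun, Fintype.card_bool, Fintype.card_fin]
    push_cast
    rw [← mul_pow]
    norm_num
  have hZ : 0 < ZP e c O := mul_pos (by positivity) (concP1_sum_pos e c O)
  have hup : ZP e c O ≤ Real.exp B := by
    unfold ZP
    have h1 : ∑ σ : Fin N → Bool, Real.exp (hamP e c O σ) ≤
        (Fintype.card (Fin N → Bool) : ℝ) * Real.exp B := by
      calc _ ≤ ∑ _σ : Fin N → Bool, Real.exp B :=
            Finset.sum_le_sum fun σ _ => Real.exp_le_exp.2 (abs_le.1 (hB σ)).2
        _ = _ := by rw [Finset.sum_const, nsmul_eq_mul, Finset.card_univ]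
    calc (1 / 2) ^ N * ∑ σ : Fin N → Bool, Real.exp (hamP e c O σ)
        ≤ (1 / 2) ^ N * ((Fintype.card (Fin N → Bool) : ℝ) * Real.exp B) := by gcongr
      _ = Real.exp B := by rw [← mul_assoc, hcard, one_mul]
  have hlo : Real.exp (-B) ≤ ZP e c O := by
    unfold ZP
    have h1 : (Fintype.card (Fin N → Bool) : ℝ) * Real.exp (-B) ≤
        ∑ σ : Fin N → Bool, Real.exp (hamP e c O σ) := by
      calc (Fintype.card (Fin N → Bool) : ℝ) * Real.exp (-B) =
          ∑ _σ : Fin N → Bool, Real.exp (-B) := by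
            rw [Finset.sum_const, nsmul_eq_mul, Finset.card_univ]
        _ ≤ _ := Finset.sum_le_sum fun σ _ => Real.exp_le_exp.2 (abs_le.1 (hB σ)).1
    calc Real.exp (-B) = (1 / 2) ^ N * ((Fintype.card (Fin N → Bool) : ℝ) * Real.exp (-B)) := by
          rw [← mul_assoc, hcard, one_mul]
      _ ≤ _ := by gcongr
  rw [abs_le]
  constructor
  · rw [Real.le_log_iff_exp_le hZ]; exact hlo
  · rw [Real.log_le_iff_le_exp hZ]; exact hup

theorem gib_mono (e c : Fin N → ℝ) (O : Fin N → Fin N → ℝ) {f g : (Fin N → Bool) → ℝ}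
    (h : ∀ σ, f σ ≤ g σ) : gib e c O f ≤ gib e c O g := by
  unfold gib
  apply div_le_div_of_nonneg_right _ (concP1_sum_pos e c O).le
  exact Finset.sum_le_sum fun σ _ => mul_le_mul_of_nonneg_right (h σ) (Real.exp_pos _).le

theorem measurable_gib (e c : Fin N → ℝ) {f : (Fin N → Fin N → ℝ) → (Fin N → Bool) → ℝ}
    (hf : ∀ σ, Measurable (fun O => f O σ)) : Measurable (fun O => gib e c O (f O)) := by
  unfold gib
  refine Measurable.div (Finset.measurable_fun_sum _ fun σ _ => ?_) (concP1_measurable_sum e c)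
  exact (hf σ).mul (Real.measurable_exp.comp (concP1_measurable_hamP e c σ))

private theorem concP1_jensen {φ : ℝ → ℝ} (hφ : ConvexOn ℝ Set.univ φ) (e c : Fin N → ℝ)
    (O : Fin N → Fin N → ℝ) (f : (Fin N → Bool) → ℝ) :
    φ (gib e c O f) ≤ gib e c O (fun σ => φ (f σ)) := by
  have hS := concP1_sum_pos e c O
  set S := ∑ σ : Fin N → Bool, Real.exp (hamP e c O σ) with hSdef
  have h := hφ.map_sum_le (t := Finset.univ) (w := fun σ => Real.exp (hamP e c O σ) / S) (p := f)
    (fun σ _ => div_nonneg (Real.exp_pos _).le hS.le)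
    (by rw [← Finset.sum_div, ← hSdef, div_self hS.ne']) (fun _ _ => Set.mem_univ _)
  simp only [smul_eq_mul] at h
  have e1 : gib e c O f = ∑ σ, Real.exp (hamP e c O σ) / S * f σ := by
    unfold gib
    rw [← hSdef, Finset.sum_div]
    exact Finset.sum_congr rfl fun σ _ => by ring
  have e2 : gib e c O (fun σ => φ (f σ)) = ∑ σ, Real.exp (hamP e c O σ) / S * φ (f σ) := by
    unfold gib
    rw [← hSdef, Finset.sum_div]
    exact Finset.sum_congr rfl fun σ _ => by ring
  rw [e1, e2]
  exact h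

/-- Jensen: `<f>^4 ≤ <f^4>` -/
theorem gib_pow4 (e c : Fin N → ℝ) (O : Fin N → Fin N → ℝ) (f : (Fin N → Bool) → ℝ) :
    gib e c O f ^ 4 ≤ gib e c O (fun σ => f σ ^ 4) :=
  concP1_jensen (φ := fun x => x ^ 4) (Even.convexOn_pow (by decide)) e c O f

/-- Jensen (exponential): `log Z(O') - log Z(O) ≥ <H(O') - H(O)>_O`. -/
theorem logZP_sub_ge (e c : Fin N → ℝ) (O O' : Fin N → Fin N → ℝ) :
    gib e c O (fun σ => hamP e c O' σ - hamP e c O σ) ≤
      Real.log (ZP e c O') - Real.log (ZP e c O) := by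
  have hS := concP1_sum_pos e c O
  have hS' := concP1_sum_pos e c O'
  have hp : (0:ℝ) < (1 / 2) ^ N := by positivity
  have h1 := concP1_jensen convexOn_exp e c O (fun σ => hamP e c O' σ - hamP e c O σ)
  have h2 : gib e c O (fun σ => Real.exp (hamP e c O' σ - hamP e c O σ)) =
      (∑ σ : Fin N → Bool, Real.exp (hamP e c O' σ)) /
        ∑ σ : Fin N → Bool, Real.exp (hamP e c O σ) := by
    unfold gib
    congr 1
    refine Finset.sum_congr rfl fun σ _ => ?_
    rw [← Real.exp_add]
    congr 1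
    ring
  rw [h2] at h1
  have h3 : Real.log (ZP e c O') - Real.log (ZP e c O) =
      Real.log ((∑ σ : Fin N → Bool, Real.exp (hamP e c O' σ)) /
        ∑ σ : Fin N → Bool, Real.exp (hamP e c O σ)) := by
    unfold ZP
    rw [Real.log_mul hp.ne' hS'.ne', Real.log_mul hp.ne' hS.ne', Real.log_div hS'.ne' hS.ne']
    ring
  rw [h3, Real.le_log_iff_exp_le (div_pos hS' hS)]
  exact h1

end Crest.Agent.RI
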