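import Crest.Agent.RI.ConcP1

/-!
# Row 164, Part 7: change of the pressure under a reflection
-/

set_option autoImplicit false

namespace Crest.Agent.RI

open MeasureTheory ProbabilityTheory Filter

variable {N : ℕ}

/-- change of the Hamiltonian under a reflection -/
theorem hamP_refl (e c : Fin N → ℝ) (O : Fin N → Fin N → ℝ) (q : Fin N → ℝ) (σ : Fin N → Bool) :
    hamP e c (amul (refl q) O) σ - hamP e c O σ =
      -2 * ip q (avec O (sv σ)) * ip q (cmul e (avec O (sv σ))) +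
        2 * ip q (avec O (sv σ)) ^ 2 * ip q (cmul e q) := by
  have h : avec (amul (refl q) O) (sv σ) =
      fun i => avec O (sv σ) i - 2 * ip q (avec O (sv σ)) * q i := by
    rw [avec_amul, avec_refl]
  unfold hamP
  rw [h]
  generalize avec O (sv σ) = y
  set p := ip q y with hp
  have e1 : ∑ a, e a * (y a - 2 * p * q a) ^ 2 =
      ∑ a, e a * y a ^ 2 - 4 * p * ∑ a, q a * (e a * y a) + 4 * p ^ 2 * ∑ a, q a * (e a * q a) := by
    rw [Finset.mul_sum, Finset.mul_sum, ← Finset.sum_sub_distrib, ← Finset.sum_add_distrib]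
    refine Finset.sum_congr rfl (fun a _ => ?_)
    ring
  have e2 : ip q (cmul e y) = ∑ a, q a * (e a * y a) := rfl
  have e3 : ip q (cmul e q) = ∑ a, q a * (e a * q a) := rfl
  simp only [e1, e2, e3]
  ring

private theorem concP2_abs {e : Fin N → ℝ} {D : ℝ} (hD0 : 0 ≤ D) (hD : ∀ a, |e a| ≤ D)
    {q : Fin N → ℝ} (hq : UZ q) : |ip q (cmul e q)| ≤ D := by
  have h1 : ip q q ≤ 1 := by
    rcases hq with h | h
    · exact h.le
    · rw [h]; simp [ip]
  have h2 : |ip q (cmul e q)| ≤ ∑ a, D * (q a * q a) := by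
    unfold ip cmul
    refine (Finset.abs_sum_le_sum_abs _ _).trans (Finset.sum_le_sum (fun a _ => ?_))
    rw [abs_mul, abs_mul]
    have := hD a
    have h3 : |q a| * |q a| = q a * q a := abs_mul_abs_self _
    calc |q a| * (|e a| * |q a|) = |e a| * (|q a| * |q a|) := by ring
      _ ≤ D * (|q a| * |q a|) := mul_le_mul_of_nonneg_right this (by positivity)
      _ = _ := by rw [h3]
  rw [← Finset.mul_sum] at h2
  have h4 : (∑ a, q a * q a) = ip q q := rfl
  rw [h4] at h2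
  nlinarith

/-- PROOF: `|<q, E q>| ≤ D` for `UZ q`; `(x + y)^4 ≤ 8 (x^4 + y^4)`, `16 u^4 v^4 ≤ 8 (u^8 + v^8)`. -/
theorem hamP_refl_pow4 {e : Fin N → ℝ} (c : Fin N → ℝ) {D : ℝ} (hD0 : 0 ≤ D) (hD : ∀ a, |e a| ≤ D)
    (O : Fin N → Fin N → ℝ) {q : Fin N → ℝ} (hq : UZ q) (σ : Fin N → Bool) :
    (hamP e c (amul (refl q) O) σ - hamP e c O σ) ^ 4 ≤
      64 * (1 + 2 * D ^ 4) * ip q (avec O (sv σ)) ^ 8 +
        64 * ip q (cmul e (avec O (sv σ))) ^ 8 := by
  rw [hamP_refl]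
  have hw := concP2_abs hD0 hD hq
  generalize ip q (cmul e (avec O (sv σ))) = v
  generalize ip q (avec O (sv σ)) = u
  generalize ip q (cmul e q) = w at hw ⊢
  have hw4 : w ^ 4 ≤ D ^ 4 := by
    have : |w| ^ 4 ≤ D ^ 4 := pow_le_pow_left₀ (abs_nonneg _) hw 4
    rwa [show |w| ^ 4 = w ^ 4 from by
      rw [show (4:ℕ) = 2 * 2 by norm_num, pow_mul, pow_mul, sq_abs]] at this
  have h1 : ∀ x y : ℝ, (x + y) ^ 4 ≤ 8 * (x ^ 4 + y ^ 4) := by
    intro x y
    nlinarith [sq_nonneg (x ^ 2 - y ^ 2), sq_nonneg (x - y), sq_nonneg ((x - y) ^ 2),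
      sq_nonneg (x + y), mul_nonneg (sq_nonneg (x - y)) (sq_nonneg (x + y)),
      mul_nonneg (sq_nonneg (x - y)) (sq_nonneg x), mul_nonneg (sq_nonneg (x - y)) (sq_nonneg y)]
  have h2 := h1 (-2 * u * v) (2 * u ^ 2 * w)
  have h3 : 0 ≤ (u ^ 4 - v ^ 4) ^ 2 := sq_nonneg _
  have h4 : u ^ 8 * w ^ 4 ≤ u ^ 8 * D ^ 4 :=
    mul_le_mul_of_nonneg_left hw4 (by positivity)
  nlinarith

/-- the function `ψ` in `refl_double` -/
noncomputable def psiP (e c : Fin N → ℝ) (D : ℝ) (O : Fin N → Fin N → ℝ) (q : Fin N → ℝ) : ℝ :=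
  gib e c O (fun σ => 64 * (1 + 2 * D ^ 4) * ip q (avec O (sv σ)) ^ 8 +
        64 * ip q (cmul e (avec O (sv σ))) ^ 8)

/-- PROOF: by `logZP_sub_ge` for `(O, H O)` and for `(H O, O)` (`H (H O) = O`): with `L = log Z(H O) - log Z(O)`,
`<Δ_O>_O ≤ L ≤ -<Δ_{HO}>_{HO}`, so `L^4 ≤ <Δ_O>_O^4 + <Δ_{HO}>_{HO}^4`; `gib_pow4`, `hamP_refl_pow4`. -/
theorem logZP_refl_pow4 {e : Fin N → ℝ} (c : Fin N → ℝ) {D : ℝ} (hD0 : 0 ≤ D)
    (hD : ∀ a, |e a| ≤ D) {O : Fin N → Fin N → ℝ} (hO : IsO O) {q : Fin N → ℝ} (hq : UZ q) :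
    (Real.log (ZP e c O) - Real.log (ZP e c (amul (refl q) O))) ^ 4 ≤
      psiP e c D O q + psiP e c D (amul (refl q) O) q := by
  have hback : amul (refl q) (amul (refl q) O) = O := by
    rw [← amul_assoc, refl_refl hq, aone_amul]
  have h1 := logZP_sub_ge e c O (amul (refl q) O)
  have h2 := logZP_sub_ge e c (amul (refl q) O) (amul (refl q) (amul (refl q) O))
  have key : ∀ O' : Fin N → Fin N → ℝ,
      gib e c O' (fun σ => hamP e c (amul (refl q) O') σ - hamP e c O' σ) ^ 4 ≤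
        psiP e c D O' q := by
    intro O'
    refine (gib_pow4 e c O' _).trans ?_
    exact gib_mono e c O' (fun σ => hamP_refl_pow4 c hD0 hD O' hq σ)
  have k1 := key O
  have k2 := key (amul (refl q) O)
  generalize gib e c O (fun σ => hamP e c (amul (refl q) O) σ - hamP e c O σ) = A at h1 k1
  generalize gib e c (amul (refl q) O) (fun σ => hamP e c (amul (refl q) (amul (refl q) O)) σ -
    hamP e c (amul (refl q) O) σ) = B at h2 k2
  rw [hback] at h2
  generalize Real.log (ZP e c O) = x at h1 h2 ⊢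
  generalize Real.log (ZP e c (amul (refl q) O)) = y at h1 h2 ⊢
  have hA4 : 0 ≤ A ^ 4 := by positivity
  have hB4 : 0 ≤ B ^ 4 := by positivity
  rcases le_total x y with h | h
  · -- `y - x ≥ 0`, `y - x ≤ -B`
    have h3 : (y - x) ^ 4 ≤ (-B) ^ 4 := pow_le_pow_left₀ (by linarith) (by linarith) 4
    have h4 : (x - y) ^ 4 = (y - x) ^ 4 := by ring
    have h5 : (-B) ^ 4 = B ^ 4 := by ring
    rw [h4]; linarith
  · have h3 : (x - y) ^ 4 ≤ (-A) ^ 4 := pow_le_pow_left₀ (by linarith) (by linarith) 4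
    have h5 : (-A) ^ 4 = A ^ 4 := by ring
    linarith

end Crest.Agent.RI
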