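import Crest.Agent.RI.HaarRefl

/-!
# Row 164, Part 7: averages over the rows
-/

set_option autoImplicit false

namespace Crest.Agent.RI

open MeasureTheory ProbabilityTheory

variable {N : ℕ}

/-- a Haar law on the group of the coordinates `≥ k` -/
noncomputable def kap (N k : ℕ) : Measure (Fin N → Fin N → ℝ) :=
  Classical.choose (exists_isHaarS (tailS N k))

theorem kap_isHaarS (N k : ℕ) : IsHaarS (tailS N k) (kap N k) :=
  Classical.choose_spec (exists_isHaarS (tailS N k))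

instance (N k : ℕ) : IsProbabilityMeasure (kap N k) := (kap_isHaarS N k).prob

/-- averaging over the rows `≥ k`: `P_k φ (O) = ∫ φ(V O) dκ_k(V)` -/
noncomputable def Pk (k : ℕ) (φ : (Fin N → Fin N → ℝ) → ℝ) (O : Fin N → Fin N → ℝ) : ℝ :=
  ∫ V, φ (amul V O) ∂kap N k

private theorem ConcPk_meas {φ : (Fin N → Fin N → ℝ) → ℝ} (hφ : Measurable φ) :
    Measurable (fun p : (Fin N → Fin N → ℝ) × (Fin N → Fin N → ℝ) => φ (amul p.2 p.1)) :=
  hφ.comp (measurable_amul.comp measurable_swap)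

theorem measurable_Pk (k : ℕ) {φ : (Fin N → Fin N → ℝ) → ℝ} (hφ : Measurable φ) :
    Measurable (Pk k φ) := by
  unfold Pk
  exact ((ConcPk_meas hφ).stronglyMeasurable.integral_prod_right' (ν := kap N k)).measurable

/-- if `|φ| ≤ C` on orthogonal arrays then `|P_k φ| ≤ C` on orthogonal arrays -/
theorem abs_Pk_le (k : ℕ) {φ : (Fin N → Fin N → ℝ) → ℝ} {C : ℝ}
    (hC : ∀ O, IsO O → |φ O| ≤ C) {O : Fin N → Fin N → ℝ} (hO : IsO O) : |Pk k φ O| ≤ C := by
  have h := norm_integral_le_of_norm_le_const (μ := kap N k) (f := fun V => φ (amul V O)) (C := C) (by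
    filter_upwards [(kap_isHaarS N k).fix] with V hV
    exact hC _ (hV.1.mul hO))
  simpa [Pk] using h

private theorem ConcPk_tail0 : tailS N 0 = Finset.univ := by
  ext b
  simp [tailS]

private theorem ConcPk_tailN : tailS N N = ∅ := by
  ext b
  simp [tailS]

/-- PROOF: `kap N 0` is a Haar law on `O(N)`, right invariance. -/
theorem Pk_zero {P : Measure (Fin N → Fin N → ℝ)} (hP : IsHaar P) {φ : (Fin N → Fin N → ℝ) → ℝ}
    (hφ : Measurable φ) {O : Fin N → Fin N → ℝ} (hO : IsO O) : Pk 0 φ O = ∫ U, φ U ∂P := by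
  have h1 : IsHaarS Finset.univ (kap N 0) := by
    have := kap_isHaarS N 0
    rwa [ConcPk_tail0] at this
  have h2 : kap N 0 = P := h1.isHaar.unique hP
  unfold Pk
  rw [h2]
  exact hP.integral_right hO hφ

/-- PROOF: `tailS N N = ∅`, `fixes_empty`. -/
theorem Pk_last {φ : (Fin N → Fin N → ℝ) → ℝ} (O : Fin N → Fin N → ℝ) : Pk N φ O = φ O := by
  have h1 : ∀ᵐ V ∂(kap N N), φ (amul V O) = φ O := by
    filter_upwards [(kap_isHaarS N N).fix] with V hV
    rw [ConcPk_tailN, fixes_empty] at hV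
    rw [hV, aone_amul]
  unfold Pk
  rw [integral_congr_ae h1]
  simp

/-- invariance of `P_k φ` -/
theorem Pk_inv (k : ℕ) {φ : (Fin N → Fin N → ℝ) → ℝ} (hφ : Measurable φ)
    {W : Fin N → Fin N → ℝ} (hW : Fixes (tailS N k) W) (O : Fin N → Fin N → ℝ) :
    Pk k φ (amul W O) = Pk k φ O := by
  have h := (kap_isHaarS N k).integral_right hW (f := fun V => φ (amul V O))
    (hφ.comp (measurable_amul_right O))
  unfold Pk
  rw [← h]
  simp only [amul_assoc]

private theorem ConcPk_tail_sub {k j : ℕ} (hkj : k ≤ j) : tailS N j ⊆ tailS N k := by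
  intro b hb
  simp only [tailS, Finset.mem_filter, Finset.mem_univ, true_and] at hb ⊢
  omega

/-- ORTHOGONALITY.  PROOF.  `∫ g P_jφ dP = ∫∫ g(O) φ(V O) dκ_j dP = ∫∫ g(Vᵀ O) φ(O) dP dκ_j = ∫ g φ dP` (substitution `O ↦ Vᵀ O`, left invariance of
`P`; `g(Vᵀ O) = g(O)` for `V ∈ Fixes (tailS N j) ⊆ Fixes (tailS N k)`), for every `j ≥ k`. -/
theorem integral_mul_Pk {P : Measure (Fin N → Fin N → ℝ)} (hP : IsHaar P) {k j : ℕ} (hkj : k ≤ j)
    {φ g : (Fin N → Fin N → ℝ) → ℝ} (hφ : Measurable φ) (hg : Measurable g) {C : ℝ}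
    (hC : ∀ O, IsO O → |φ O| ≤ C) (hgC : ∀ O, IsO O → |g O| ≤ C)
    (hginv : ∀ W O, Fixes (tailS N k) W → IsO O → g (amul W O) = g O) :
    ∫ O, g O * Pk j φ O ∂P = ∫ O, g O * φ O ∂P := by
  haveI := hP.prob
  have hPO : ∀ᵐ O ∂P, IsO O := hP.orth
  have hmeas : Measurable (Function.uncurry fun (O V : Fin N → Fin N → ℝ) =>
      g O * φ (amul V O)) :=
    (hg.comp measurable_fst).mul (ConcPk_meas hφ)
  have hint : Integrable (Function.uncurry fun (O V : Fin N → Fin N → ℝ) =>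
      g O * φ (amul V O)) (P.prod (kap N j)) := by
    refine Integrable.of_bound hmeas.aestronglyMeasurable (C * C) ?_
    have q1 : ∀ᵐ p ∂(P.prod (kap N j)), IsO p.1 :=
      Measure.quasiMeasurePreserving_fst.ae hPO
    have q2 : ∀ᵐ p ∂(P.prod (kap N j)), Fixes (tailS N j) p.2 :=
      Measure.quasiMeasurePreserving_snd.ae (kap_isHaarS N j).fix
    filter_upwards [q1, q2] with p hp1 hp2
    have a1 := hgC p.1 hp1
    have a2 := hC (amul p.2 p.1) (hp2.1.mul hp1)
    show ‖g p.1 * φ (amul p.2 p.1)‖ ≤ C * C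
    rw [Real.norm_eq_abs, abs_mul]
    exact mul_le_mul a1 a2 (abs_nonneg _) ((abs_nonneg _).trans a1)
  have e1 : ∫ O, g O * Pk j φ O ∂P = ∫ O, ∫ V, g O * φ (amul V O) ∂(kap N j) ∂P := by
    refine integral_congr_ae (Filter.Eventually.of_forall fun O => ?_)
    show g O * Pk j φ O = ∫ V, g O * φ (amul V O) ∂(kap N j)
    rw [integral_const_mul]
    rfl
  rw [e1, integral_integral_swap hint]
  have e2 : ∀ᵐ V ∂(kap N j), ∫ O, g O * φ (amul V O) ∂P = ∫ O, g O * φ O ∂P := by
    filter_upwards [(kap_isHaarS N j).fix] with V hV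
    have hVt : IsO (atr V) := hV.1.tr
    have hm : Measurable (fun O => g O * φ (amul V O)) :=
      hg.mul (hφ.comp (measurable_amul_left V))
    rw [← hP.integral_left hVt hm]
    refine integral_congr_ae ?_
    filter_upwards [hPO] with O hO
    have k1 : g (amul (atr V) O) = g O :=
      hginv (atr V) O (hV.tr.mono (ConcPk_tail_sub hkj)) hO
    have k2 : amul V (amul (atr V) O) = O := by
      rw [← amul_assoc, hV.1.amul_atr, aone_amul]
    rw [k1, k2]
  rw [integral_congr_ae e2]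
  simp

end Crest.Agent.RI
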