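import Crest.Agent.RI.LBLinB

/-!
# Row 164, Part 9: thermal fluctuations, averaged over one parameter
-/

set_option autoImplicit false

namespace Crest.Agent.RI

open MeasureTheory ProbabilityTheory

variable {N K J k : ℕ}

/-- conditional expectation of the direction field given the first level -/
noncomputable def dir0 (P : Measure (ON N)) (D : Blk) (L : LBd J) (k : ℕ) (s : ℝ)
    (x : XI k D.K J → ℝ) (κ : Fin N → Fin D.K) (lab : Fin N → Fin J) (i : XI k D.K J)
    (ω : Fin (k + 1) → EN N) : ℝ :=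
  condE (mN P (unifA N)) (ζLB k) 1 (k + 1) 0 (HN k (θL D L k s x κ lab)) (dirV k κ lab i) ω

private theorem ConcT_ζ (hk : 0 < k) (j : ℕ) (hj : 0 < j) : (1 : ℝ) / k ≤ ζLB k j := by
  have h1 : (1 : ℝ) ≤ k := by exact_mod_cast hk
  have h2 : (1 : ℝ) ≤ j := by exact_mod_cast hj
  unfold ζLB
  rw [le_min_iff]
  constructor
  · rw [div_le_one (by linarith)]
    exact h1
  · exact div_le_div_of_nonneg_right h2 (by linarith)

/-- the abstract inequality -/
private theorem ConcT_core {E : Type} [MeasurableSpace E] {m : Measure E} [IsProbabilityMeasure m]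
    {β : E → ℝ} (hβ : Dom m β) {ζ : ℕ → ℝ} (hζ : Exps ζ) {n : ℕ} {H V : (Fin (n + 1) → E) → ℝ}
    (hH : Ham β H) (hV : Tame β V) {z c : ℝ} (hz : ∀ j, 0 < j → z ≤ ζ j) (hz0 : 0 ≤ z) :
    z * (c ^ 2 * pathE m ζ (n + 1) 0 H
      (fun ω => |V ω - condE m ζ 1 (n + 1) 0 H V ω|) ^ 2) ≤
      Jvar m ζ (n + 1) 0 H (fun ω => c * V ω) := by
  have hW : Tame β (fun ω => c * V ω) := TVar_tame_cmul hβ c hV
  have h1 := Jvar_ge_condvar hβ hζ n 0 hH hW hz hz0
  have t1 := condE_tame hβ hζ 1 (n + 1) 0 hH hV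
  have td : Tame β (fun ω => V ω - condE m ζ 1 (n + 1) 0 H V ω) := TVar_tame_sub hβ hV t1
  have ta : Tame β (fun ω => |V ω - condE m ζ 1 (n + 1) 0 H V ω|) := by
    obtain ⟨C, hC, h⟩ := td.c
    refine TameC.tame hC ⟨?_, fun ω => ?_⟩
    · exact h.meas.abs
    · rw [abs_abs]
      exact h.bound ω
  have e1 : (fun ω => (c * V ω - condE m ζ 1 (n + 1) 0 H (fun ω => c * V ω) ω) ^ 2) =
      (fun ω => c ^ 2 * (V ω - condE m ζ 1 (n + 1) 0 H V ω) ^ 2) := by
    funext ω
    rw [condE_mul]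
    ring
  rw [e1, pathE_mul] at h1
  refine le_trans (mul_le_mul_of_nonneg_left (mul_le_mul_of_nonneg_left ?_ (sq_nonneg c)) hz0) h1
  have h2 := pathE_cs hβ hζ (n + 1) 0 hH ta (Tame.const (n := n + 1) hβ 1)
  have e2 : (fun ω => |V ω - condE m ζ 1 (n + 1) 0 H V ω| * (1 : ℝ)) =
      (fun ω => |V ω - condE m ζ 1 (n + 1) 0 H V ω|) := by
    funext ω
    rw [mul_one]
  have e3 : (fun ω => |V ω - condE m ζ 1 (n + 1) 0 H V ω| ^ 2) =
      (fun ω => (V ω - condE m ζ 1 (n + 1) 0 H V ω) ^ 2) := by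
    funext ω
    rw [sq_abs]
  have e4 : pathE m ζ (n + 1) 0 H (fun _ => (1 : ℝ) ^ 2) = 1 := by
    rw [pathE_const hβ hζ (n + 1) 0 hH]
    norm_num
  rw [e2, e3, e4, mul_one] at h2
  exact h2

/-- PROOF: with `V = dirV i`: `(1/k) E (V - V_0)² ≤ Jvar V` (`Jvar_ge_condvar`, exponents `≥ 1/k` after the first), `Jvar (s N V) = s² N² Jvar V`,
`∫_1^2 Jvar (sNV) dt = sN (E V(2) - E V(1)) ≤ 2 s N` (`EL_hasDerivAt`, `EL_dirV_abs`; `Jvar ≥ 0`, so
`intervalIntegral.integral_eq_sub_of_hasDerivAt` with `integrableOn_deriv_of_nonneg`, or the inequality version), hence `∫_1^2 E (V-V_0)² ≤ 2k/(sN)`; Cauchy–Schwarz twice. -/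
theorem conc_thermal (hk : 0 < k) (hN : 0 < N) {P : Measure (ON N)} (hP : HaarO P) (D : Blk)
    (L : LBd J) {s : ℝ} (hs : 0 < s) (hs1 : 3 * s ≤ 1) {x : XI k D.K J → ℝ} (hx : XOK x)
    (κ : Fin N → Fin D.K) (lab : Fin N → Fin J) (i : XI k D.K J) :
    ∫ t in Set.Icc (1 : ℝ) 2, EL P D L k s (Function.update x i t) κ lab
      (fun ω => |dirV k κ lab i ω - dir0 P D L k s (Function.update x i t) κ lab i ω|) ≤
      Real.sqrt (2 * k / (s * N)) := by
  have := prob_mN hP (unifA N)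
  have hβ : Dom (mN P (unifA N)) (βN (N := N)) := dom_mN hP (unifA N)
  have hζ : Exps (ζLB k) := exps_LB k
  have hk0 : (0 : ℝ) < k := by exact_mod_cast hk
  have hN0 : (0 : ℝ) < N := by exact_mod_cast hN
  have hsN : 0 < s * N := mul_pos hs hN0
  set A : ℝ := 2 * k / (s * N) with hA
  have hA0 : 0 < A := by positivity
  set V : (Fin (k + 1) → EN N) → ℝ := dirV k κ lab i with hV
  have hVh : Ham (βN (N := N)) V := dirV_ham κ lab i
  set H : ℝ → (Fin (k + 1) → EN N) → ℝ :=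
    fun t => HN k (θL D L k s (Function.update x i t) κ lab) with hHdef
  have hH : ∀ t, Ham (βN (N := N)) (H t) := fun t => HN_ham k _
  set F : ℝ → ℝ := fun t => s * N * EL P D L k s (Function.update x i t) κ lab V with hF
  set Jt : ℝ → ℝ := fun t => Jvar (mN P (unifA N)) (ζLB k) (k + 1) 0 (H t)
    (fun ω => (s * N) * V ω) with hJ
  have hd : ∀ t, HasDerivAt F (Jt t) t := fun t => EL_hasDerivAt hN hP D L s x κ lab i t
  have hJ0 : ∀ t, 0 ≤ Jt t := fun t =>
    Jvar_nonneg hβ hζ (k + 1) 0 (hH t) (TVar_tame_cmul hβ _ (hVh.tame hβ))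
  have hFc : ContinuousOn F (Set.uIcc 1 2) := fun t _ => (hd t).continuousAt.continuousWithinAt
  have hJi : IntervalIntegrable Jt volume 1 2 :=
    intervalIntegral.intervalIntegrable_deriv_of_nonneg hFc (fun t _ => hd t) (fun t _ => hJ0 t)
  have hJint : ∫ t in (1 : ℝ)..2, Jt t = F 2 - F 1 :=
    intervalIntegral.integral_eq_sub_of_hasDerivAt (fun t _ => hd t) hJi
  have hJicc : IntegrableOn Jt (Set.Icc 1 2) volume := by
    rw [integrableOn_Icc_iff_integrableOn_Ioc]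
    exact (intervalIntegrable_iff_integrableOn_Ioc_of_le (by norm_num)).1 hJi
  have hJI : ∫ t in Set.Icc (1 : ℝ) 2, Jt t = F 2 - F 1 := by
    rw [integral_Icc_eq_integral_Ioc, ← intervalIntegral.integral_of_le (by norm_num), hJint]
  have hxt : ∀ t, 0 ≤ t → t ≤ 3 → XOK (Function.update x i t) := by
    intro t h0 h3 j
    by_cases hj : j = i
    · subst hj
      rw [Function.update_self]
      exact ⟨h0, h3⟩
    · rw [Function.update_of_ne hj]
      exact hx j
  have hF2 : F 2 - F 1 ≤ 2 * (s * N) := by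
    have h1 := EL_dirV_abs hk hN hP D L hs.le hs1 (hxt 1 (by norm_num) (by norm_num)) κ lab i
    have h2 := EL_dirV_abs hk hN hP D L hs.le hs1 (hxt 2 (by norm_num) (by norm_num)) κ lab i
    rw [abs_le] at h1 h2
    simp only [hF]
    nlinarith [h1.1, h1.2, h2.1, h2.2]
  -- pointwise
  set G : ℝ → ℝ := fun t => EL P D L k s (Function.update x i t) κ lab
      (fun ω => |V ω - dir0 P D L k s (Function.update x i t) κ lab i ω|) with hG
  have hGJ : ∀ t, G t ^ 2 ≤ k / (s * N) ^ 2 * Jt t := by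
    intro t
    have h1 := ConcT_core hβ hζ (hH t) (hVh.tame hβ) (c := s * N) (ConcT_ζ hk) (by positivity)
    have h2 : (1 : ℝ) / k * ((s * N) ^ 2 * G t ^ 2) ≤ Jt t := h1
    rw [div_mul_eq_mul_div, one_mul, div_le_iff₀ hk0] at h2
    rw [div_mul_eq_mul_div, le_div_iff₀ (by positivity)]
    linarith
  have ht0 : ∀ t, Tame (βN (N := N)) (fun ω =>
      |V ω - dir0 P D L k s (Function.update x i t) κ lab i ω|) := by
    intro t
    have t1 := condE_tame hβ hζ 1 (k + 1) 0 (hH t) (hVh.tame hβ)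
    obtain ⟨C, hC, h⟩ := (TVar_tame_sub hβ (hVh.tame hβ) t1).c
    refine TameC.tame hC ⟨?_, fun ω => ?_⟩
    · exact h.meas.abs
    · rw [abs_abs]
      exact h.bound ω
  have hG0 : ∀ t, 0 ≤ G t := fun t =>
    TVar_pathE_nonneg hβ hζ (k + 1) 0 (hH t) (ht0 t) fun ω => abs_nonneg _
  have hη : 0 < Real.sqrt A := Real.sqrt_pos.2 hA0
  have hηη : Real.sqrt A * Real.sqrt A = A := Real.mul_self_sqrt hA0.le
  have hpt : ∀ t, G t ≤ (k / (s * N) ^ 2 / Real.sqrt A) / 2 * Jt t + Real.sqrt A / 2 := by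
    intro t
    have h1 : G t ≤ (G t ^ 2 / Real.sqrt A + Real.sqrt A) / 2 := by
      have h2 : G t ^ 2 / Real.sqrt A + Real.sqrt A - 2 * G t =
          (G t - Real.sqrt A) ^ 2 / Real.sqrt A := by
        field_simp
        ring
      have h3 : 0 ≤ (G t - Real.sqrt A) ^ 2 / Real.sqrt A := by positivity
      linarith
    have h2 : G t ^ 2 / Real.sqrt A ≤ (k / (s * N) ^ 2 * Jt t) / Real.sqrt A :=
      div_le_div_of_nonneg_right (hGJ t) hη.le
    have h3 : (k / (s * N) ^ 2 * Jt t) / Real.sqrt A =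
        k / (s * N) ^ 2 / Real.sqrt A * Jt t := by ring
    rw [h3] at h2
    linarith
  have hint : Integrable (fun t => (k / (s * N) ^ 2 / Real.sqrt A) / 2 * Jt t + Real.sqrt A / 2)
      (volume.restrict (Set.Icc (1 : ℝ) 2)) :=
    (hJicc.const_mul _).add (integrable_const _)
  have hmain : ∫ t in Set.Icc (1 : ℝ) 2, G t ≤
      ∫ t in Set.Icc (1 : ℝ) 2, ((k / (s * N) ^ 2 / Real.sqrt A) / 2 * Jt t + Real.sqrt A / 2) :=
    integral_mono_of_nonneg (Filter.Eventually.of_forall hG0) hint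
      (Filter.Eventually.of_forall hpt)
  have hval : ∫ t in Set.Icc (1 : ℝ) 2,
      ((k / (s * N) ^ 2 / Real.sqrt A) / 2 * Jt t + Real.sqrt A / 2) =
      (k / (s * N) ^ 2 / Real.sqrt A) / 2 * (F 2 - F 1) + Real.sqrt A / 2 := by
    rw [integral_add (hJicc.const_mul _) (integrable_const _), integral_const_mul, hJI]
    congr 1
    rw [setIntegral_const]
    simp
    norm_num
  rw [hval] at hmain
  refine hmain.trans ?_
  have h5 : (k / (s * N) ^ 2 / Real.sqrt A) / 2 * (F 2 - F 1) ≤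
      (k / (s * N) ^ 2 / Real.sqrt A) / 2 * (2 * (s * N)) :=
    mul_le_mul_of_nonneg_left hF2 (by positivity)
  have h6 : (k / (s * N) ^ 2 / Real.sqrt A) / 2 * (2 * (s * N)) = Real.sqrt A / 2 := by
    have h7 : (k / (s * N) ^ 2 / Real.sqrt A) / 2 * (2 * (s * N)) =
        (k / (s * N)) / Real.sqrt A := by
      field_simp
    have h8 : (k : ℝ) / (s * N) = A / 2 := by rw [hA]; ring
    rw [h7, h8, div_div, mul_comm 2 (Real.sqrt A), ← div_div, Real.div_sqrt]
  linarith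

end Crest.Agent.RI
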