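import Crest.Agent.RI.LBDefs

/-!
# Row 164, Part 9: averages over the parameters `x ∈ [1,2]^XI`
-/

set_option autoImplicit false

namespace Crest.Agent.RI

open MeasureTheory ProbabilityTheory

variable {K J k : ℕ}

/-- the cube `[1,2]^XI` -/
def InC {k K J : ℕ} (x : XI k K J → ℝ) : Prop := ∀ i, 1 ≤ x i ∧ x i ≤ 2

theorem InC.xok {k K J : ℕ} {x : XI k K J → ℝ} (h : InC x) : XOK x := fun i =>
  ⟨by linarith [(h i).1], by linarith [(h i).2]⟩

instance cubeX_one_prob :
    IsProbabilityMeasure ((volume : Measure ℝ).restrict (Set.Icc (1 : ℝ) 2)) := by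
  constructor
  rw [Measure.restrict_apply_univ, Real.volume_Icc]
  norm_num

theorem cubeM_prob (k K J : ℕ) : IsProbabilityMeasure (cubeM k K J) := by
  unfold cubeM
  infer_instance

theorem cubeM_ae (k K J : ℕ) : ∀ᵐ x ∂(cubeM k K J), InC x := by
  have e : cubeM k K J = (Measure.pi (fun _ : XI k K J => (volume : Measure ℝ))).restrict
      (Set.pi Set.univ (fun _ => Set.Icc (1 : ℝ) 2)) := by
    unfold cubeM
    rw [Measure.restrict_pi_pi]
  rw [e]
  have hm : MeasurableSet (Set.pi Set.univ (fun _ : XI k K J => Set.Icc (1 : ℝ) 2)) :=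
    MeasurableSet.univ_pi fun _ => measurableSet_Icc
  filter_upwards [ae_restrict_mem hm] with x hx i
  exact hx i (Set.mem_univ i)

/-- a bounded measurable function is integrable on the cube -/
theorem cube_integrable {F : (XI k K J → ℝ) → ℝ} (hF : Measurable F) {B : ℝ}
    (hB : ∀ x, InC x → |F x| ≤ B) : Integrable F (cubeM k K J) := by
  haveI := cubeM_prob k K J
  refine Integrable.of_bound hF.aestronglyMeasurable B ?_
  filter_upwards [cubeM_ae k K J] with x hx
  rw [Real.norm_eq_abs]
  exact hB x hx

theorem cubeX_measurable_upd (i : XI k K J) :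
    Measurable fun p : (XI k K J → ℝ) × ℝ => Function.update p.1 i p.2 := by
  rw [measurable_pi_iff]
  intro j
  by_cases h : j = i
  · subst h
    simp only [Function.update_self]
    exact measurable_snd
  · simp only [Function.update_of_ne h]
    exact (measurable_pi_apply j).comp measurable_fst

theorem cubeX_map (i : XI k K J) :
    Measure.map (fun p : (XI k K J → ℝ) × ℝ => Function.update p.1 i p.2)
      ((cubeM k K J).prod ((volume : Measure ℝ).restrict (Set.Icc (1 : ℝ) 2))) =
      cubeM k K J := by
  haveI := cubeM_prob k K J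
  symm
  nth_rewrite 1 [cubeM]
  refine Measure.pi_eq fun s hs => ?_
  rw [Measure.map_apply (cubeX_measurable_upd i) (MeasurableSet.univ_pi hs)]
  have e : (fun p : (XI k K J → ℝ) × ℝ => Function.update p.1 i p.2) ⁻¹' (Set.pi Set.univ s) =
      (Set.pi Set.univ (Function.update s i Set.univ)) ×ˢ (s i) := by
    ext p
    simp only [Set.mem_preimage, Set.mem_pi, Set.mem_univ, true_implies, Set.mem_prod]
    constructor
    · intro h
      refine ⟨fun j => ?_, ?_⟩
      · by_cases hj : j = i
        · subst hj; simp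
        · have := h j
          rw [Function.update_of_ne hj] at this ⊢
          exact this
      · have := h i
        rwa [Function.update_self] at this
    · rintro ⟨h1, h2⟩ j
      by_cases hj : j = i
      · subst hj; rw [Function.update_self]; exact h2
      · have := h1 j
        rw [Function.update_of_ne hj] at this ⊢
        exact this
  rw [e, Measure.prod_prod]
  have e2 : cubeM k K J (Set.pi Set.univ (Function.update s i Set.univ)) =
      ∏ j, ((volume : Measure ℝ).restrict (Set.Icc (1 : ℝ) 2)) (Function.update s i Set.univ j) := by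
    unfold cubeM
    rw [Measure.pi_pi]
  rw [e2, ← Finset.mul_prod_erase _ _ (Finset.mem_univ i),
    ← Finset.mul_prod_erase _ (fun j => ((volume : Measure ℝ).restrict (Set.Icc (1 : ℝ) 2)) (s j))
      (Finset.mem_univ i), Function.update_self, measure_univ, one_mul, mul_comm]
  congr 1
  refine Finset.prod_congr rfl fun j hj => ?_
  rw [Function.update_of_ne (Finset.ne_of_mem_erase hj)]

/-- one-coordinate bounds can be averaged.  PROOF: the law of `(x, t) ↦ Function.update x i t` under `cubeM × (vol on [1,2])` is `cubeM`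
(`Measure.pi_eq` on boxes, or `measurePreserving_piFinSuccAbove`-like), Fubini. -/
theorem cube_le {F : (XI k K J → ℝ) → ℝ} (hF : Measurable F) {B : ℝ}
    (hB : ∀ x, InC x → |F x| ≤ B) (i : XI k K J) {C : ℝ}
    (h : ∀ x, InC x → ∫ t in Set.Icc (1 : ℝ) 2, F (Function.update x i t) ≤ C) :
    ∫ x, F x ∂(cubeM k K J) ≤ C := by
  haveI := cubeM_prob k K J
  have hu := cubeX_measurable_upd (K := K) (J := J) (k := k) i
  have hint : Integrable (fun p : (XI k K J → ℝ) × ℝ => F (Function.update p.1 i p.2))
      ((cubeM k K J).prod ((volume : Measure ℝ).restrict (Set.Icc (1 : ℝ) 2))) := by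
    have h1 := cube_integrable hF hB
    rw [← cubeX_map i] at h1
    exact (integrable_map_measure hF.aestronglyMeasurable hu.aemeasurable).1 h1
  have e : ∫ x, F x ∂(cubeM k K J) =
      ∫ x, (∫ t in Set.Icc (1 : ℝ) 2, F (Function.update x i t)) ∂(cubeM k K J) := by
    nth_rewrite 1 [← cubeX_map i]
    rw [integral_map hu.aemeasurable hF.aestronglyMeasurable, integral_prod _ hint]
  rw [e]
  calc ∫ x, (∫ t in Set.Icc (1 : ℝ) 2, F (Function.update x i t)) ∂(cubeM k K J)
      ≤ ∫ _x, C ∂(cubeM k K J) := by
        refine integral_mono_ae hint.integral_prod_left (integrable_const C) ?_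
        filter_upwards [cubeM_ae k K J] with x hx
        exact h x hx
    _ = C := by simp

/-- Markov inequality -/
theorem cube_markov {F : (XI k K J → ℝ) → ℝ} (hF : Measurable F) {B : ℝ}
    (hB : ∀ x, InC x → |F x| ≤ B) (h0 : ∀ x, 0 ≤ F x) {δ ε : ℝ} (hδ : 0 < δ)
    (h : ∫ x, F x ∂(cubeM k K J) ≤ ε * δ) :
    (cubeM k K J).real {x | δ < F x} ≤ ε := by
  haveI := cubeM_prob k K J
  have h1 := mul_meas_ge_le_integral_of_nonneg (μ := cubeM k K J)
    (Filter.Eventually.of_forall h0) (cube_integrable hF hB) δ
  have h2 : (cubeM k K J).real {x | δ < F x} ≤ (cubeM k K J).real {x | δ ≤ F x} :=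
    measureReal_mono (fun x (hx : δ < F x) => (le_of_lt hx : δ ≤ F x))
  have h3 : δ * (cubeM k K J).real {x | δ ≤ F x} ≤ δ * ε := by
    rw [mul_comm δ ε]; exact h1.trans h
  exact h2.trans (le_of_mul_le_mul_left h3 hδ)

end Crest.Agent.RI
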