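import Crest.Agent.RI.LBLin
import Crest.Agent.RI.CubeX
import Crest.Agent.RI.FlowB

/-!
# Row 164, Part 9: conditional expectation of the direction fields given the first level
-/

set_option autoImplicit false

namespace Crest.Agent.RI

open MeasureTheory ProbabilityTheory

section abs
variable {E : Type} [MeasurableSpace E]
variable {m : Measure E} [IsProbabilityMeasure m] {ζ : ℕ → ℝ} {β : E → ℝ}
variable {φ : ℝ → E → E} {δ : E → ℝ}

/-- integration by parts, general tower -/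
theorem InnerGy_core (hβ : Dom m β) (hζ : Exps ζ) (hφ : CFlow m β φ δ) {n : ℕ} (i0 : ℕ)
    (j : Fin (n + 1)) {H Y : (Fin (n + 1) → E) → ℝ} {c : ℝ} (hH : Ham β H) (hY : Tame β Y)
    (h1 : IsD φ j H (fun ω => c * Y ω)) (h2 : IsD φ j Y (fun _ => 0)) :
    pathE m ζ (n + 1) i0 H (fun ω => δ (ω j) * Y ω) =
      c * (ζ (i0 + n) * pathE m ζ (n + 1) i0 H (fun ω => Y ω ^ 2) -
        ∑ q ∈ Finset.Ico (j : ℕ) n, (ζ (i0 + (q + 1)) - ζ (i0 + q)) *
          pathE m ζ (n + 1) i0 H (fun ω => condE m ζ (q + 1) (n + 1) i0 H Y ω ^ 2)) := by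
  have hV : Tame β (fun ω => c * Y ω) := TVar_tame_cmul hβ c hY
  have h0 : Tame β (fun _ : Fin (n + 1) → E => (0 : ℝ)) := Tame.const hβ 0
  rw [gibp hβ hζ hφ (n + 1) i0 j hH hV hY h0 h1 h2, pathE_const hβ hζ (n + 1) i0 hH, zero_add]
  set S : ℕ → ℝ := fun r => pathE m ζ (n + 1) i0 H (fun ω => condE m ζ r (n + 1) i0 H Y ω ^ 2)
    with hS
  have hcond : ∀ r ω, condE m ζ r (n + 1) i0 H (fun ω => c * Y ω) ω =
      c * condE m ζ r (n + 1) i0 H Y ω := fun r ω => condE_mul r (n + 1) i0 H Y c ω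
  have hYC : ∀ r, pathE m ζ (n + 1) i0 H (fun ω => Y ω * condE m ζ r (n + 1) i0 H Y ω) = S r :=
    fun r => TVar_mul_condE hβ hζ r (n + 1) i0 hH hY
  have e : (fun ω => Y ω * (ζ (i0 + (j : ℕ)) *
      condE m ζ ((j : ℕ) + 1) (n + 1) i0 H (fun ω => c * Y ω) ω +
      sAfter m ζ ((j : ℕ) + 1) (n + 1) i0 H (fun ω => c * Y ω) ω)) =
      fun ω => (c * ζ (i0 + j)) * (Y ω * condE m ζ ((j : ℕ) + 1) (n + 1) i0 H Y ω) +
        ∑ q ∈ Finset.Ico ((j : ℕ) + 1) (n + 1), (c * ζ (i0 + q)) *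
          (Y ω * condE m ζ (q + 1) (n + 1) i0 H Y ω - Y ω * condE m ζ q (n + 1) i0 H Y ω) := by
    funext ω
    unfold sAfter
    rw [mul_add, Finset.mul_sum]
    simp only [hcond]
    congr 1
    · ring
    · refine Finset.sum_congr rfl fun q _ => ?_
      ring
  rw [e]
  have t1 : ∀ r, Tame β (fun ω => Y ω * condE m ζ r (n + 1) i0 H Y ω) := fun r =>
    Tame.mul hβ hY (condE_tame hβ hζ r (n + 1) i0 hH hY)
  have t2 : ∀ q ∈ Finset.Ico ((j : ℕ) + 1) (n + 1), Tame β (fun ω => (c * ζ (i0 + q)) *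
      (Y ω * condE m ζ (q + 1) (n + 1) i0 H Y ω - Y ω * condE m ζ q (n + 1) i0 H Y ω)) :=
    fun q _ => TVar_tame_cmul hβ _ (TVar_tame_sub hβ (t1 _) (t1 _))
  rw [pathE_add hβ hζ (n + 1) i0 hH (TVar_tame_cmul hβ _ (t1 _)) (tame_fsum hβ _ t2), pathE_mul,
    hYC, pathE_fsum hβ hζ (n + 1) i0 hH _ t2]
  have e2 : ∀ q ∈ Finset.Ico ((j : ℕ) + 1) (n + 1), pathE m ζ (n + 1) i0 H
      (fun ω => (c * ζ (i0 + q)) *
      (Y ω * condE m ζ (q + 1) (n + 1) i0 H Y ω - Y ω * condE m ζ q (n + 1) i0 H Y ω)) =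
      c * (ζ (i0 + q) * (S (q + 1) - S q)) := by
    intro q _
    rw [pathE_mul, TVar_pathE_sub hβ hζ (n + 1) i0 hH (t1 _) (t1 _), hYC, hYC]
    ring
  rw [Finset.sum_congr rfl e2, ← Finset.mul_sum]
  have hSk : S (n + 1) = pathE m ζ (n + 1) i0 H (fun ω => Y ω ^ 2) := by
    simp only [hS]
    congr 1
    funext ω
    rw [condE_all (n + 1) i0 H Y (n + 1) le_rfl ω]
  have h3 := abel_S S (fun q => ζ (i0 + q)) (show (j : ℕ) ≤ n from Nat.lt_succ_iff.1 j.2)
  rw [hSk] at h3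
  have h4 : ∑ q ∈ Finset.Ico (j : ℕ) n, (ζ (i0 + (q + 1)) - ζ (i0 + q)) *
          pathE m ζ (n + 1) i0 H (fun ω => condE m ζ (q + 1) (n + 1) i0 H Y ω ^ 2) =
      ∑ q ∈ Finset.Ico (j : ℕ) n, (ζ (i0 + (q + 1)) - ζ (i0 + q)) * S (q + 1) := rfl
  rw [h4, ← h3]
  ring

/-- hence the bounds -/
theorem InnerGy_bds (hβ : Dom m β) (hζ : Exps ζ) (hmono : Monotone ζ) (hφ : CFlow m β φ δ) {n : ℕ}
    (i0 : ℕ) (j : Fin (n + 1)) {H Y : (Fin (n + 1) → E) → ℝ} {c : ℝ} (hc : 0 ≤ c) (hH : Ham β H)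
    (hY : Tame β Y) (h1 : IsD φ j H (fun ω => c * Y ω)) (h2 : IsD φ j Y (fun _ => 0)) :
    0 ≤ pathE m ζ (n + 1) i0 H (fun ω => δ (ω j) * Y ω) ∧
    pathE m ζ (n + 1) i0 H (fun ω => δ (ω j) * Y ω) ≤
      c * pathE m ζ (n + 1) i0 H (fun ω => Y ω ^ 2) := by
  rw [InnerGy_core hβ hζ hφ i0 j hH hY h1 h2]
  set S : ℕ → ℝ := fun r => pathE m ζ (n + 1) i0 H (fun ω => condE m ζ r (n + 1) i0 H Y ω ^ 2)
    with hS
  have hSk : S (n + 1) = pathE m ζ (n + 1) i0 H (fun ω => Y ω ^ 2) := by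
    simp only [hS]
    congr 1
    funext ω
    rw [condE_all (n + 1) i0 H Y (n + 1) le_rfl ω]
  have hS0 : ∀ r, 0 ≤ S r := fun r => TVar_pathE_nonneg hβ hζ (n + 1) i0 hH
    (TVar_tame_sq hβ (condE_tame hβ hζ r (n + 1) i0 hH hY)) fun ω => sq_nonneg _
  have hSm : ∀ r, r ≤ n + 1 → S r ≤ S (n + 1) := fun r hr => condE_sq_mono hβ hζ hr (n + 1) i0 hH hY
  rw [← hSk]
  have hj : (j : ℕ) ≤ n := Nat.lt_succ_iff.1 j.2
  have hinc : ∀ q, 0 ≤ ζ (i0 + (q + 1)) - ζ (i0 + q) := fun q =>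
    sub_nonneg.2 (hmono (by omega))
  have a1 : 0 ≤ ∑ q ∈ Finset.Ico (j : ℕ) n, (ζ (i0 + (q + 1)) - ζ (i0 + q)) * S (q + 1) :=
    Finset.sum_nonneg fun q _ => mul_nonneg (hinc q) (hS0 _)
  have a2 : ∑ q ∈ Finset.Ico (j : ℕ) n, (ζ (i0 + (q + 1)) - ζ (i0 + q)) * S (q + 1) ≤
      ζ (i0 + n) * S (n + 1) := by
    have b1 : ∑ q ∈ Finset.Ico (j : ℕ) n, (ζ (i0 + (q + 1)) - ζ (i0 + q)) * S (q + 1) ≤
        ∑ q ∈ Finset.Ico (j : ℕ) n, (ζ (i0 + (q + 1)) - ζ (i0 + q)) * S (n + 1) := by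
      refine Finset.sum_le_sum fun q hq => mul_le_mul_of_nonneg_left (hSm _ ?_) (hinc q)
      have := (Finset.mem_Ico.1 hq).2
      omega
    have b2 : ∑ q ∈ Finset.Ico (j : ℕ) n, (ζ (i0 + (q + 1)) - ζ (i0 + q)) =
        ζ (i0 + n) - ζ (i0 + j) := Finset.sum_Ico_sub (fun q => ζ (i0 + q)) hj
    rw [← Finset.sum_mul, b2] at b1
    have b3 := mul_nonneg (hζ (i0 + j)).1 (hS0 (n + 1))
    nlinarith
  have a3 : ζ (i0 + n) * S (n + 1) ≤ S (n + 1) := by
    have := mul_le_mul_of_nonneg_right (hζ (i0 + n)).2 (hS0 (n + 1))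
    linarith
  constructor
  · exact mul_nonneg hc (by linarith)
  · exact mul_le_mul_of_nonneg_left (by linarith) hc

theorem InnerGy_bdd (hβ : Dom m β) (hζ : Exps ζ) (n i : ℕ) {H Φ : (Fin n → E) → ℝ} (hH : Ham β H)
    (hΦ : Tame β Φ) {C : ℝ} (hb : ∀ ω, |Φ ω| ≤ C) : |pathE m ζ n i H Φ| ≤ C := by
  rw [abs_le]
  constructor
  · have := pathE_mono hβ hζ n i hH (Tame.const hβ (-C)) hΦ (fun ω => (abs_le.1 (hb ω)).1)
    rwa [pathE_const hβ hζ n i hH] at this
  · have := pathE_mono hβ hζ n i hH hΦ (Tame.const hβ C) (fun ω => (abs_le.1 (hb ω)).2)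
    rwa [pathE_const hβ hζ n i hH] at this

end abs

variable {N K J k : ℕ}

private theorem InnerGy_mono (k : ℕ) : Monotone (ζLB k) := by
  intro i j hij
  have h1 : (i : ℝ) / (k : ℝ) ≤ (j : ℝ) / (k : ℝ) :=
    div_le_div_of_nonneg_right (by exact_mod_cast hij) (Nat.cast_nonneg k)
  exact min_le_min_left 1 h1

/-- PROOF: `ovl`, `T_j/N` are bounded by `1`.  For `gy_{i,l}`, `i ≥ 1`: `gibp` (FlowB) for the INNER tower (`n = k` levels, exponents from `1`, Hamiltonian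
`ω ↦ HN (cons e ω)`), flow = shift of `g̃^i_a` (`gcoord_setG`, `.cflow`), `Φ = y_a`, `V = c_{i,l} y_a`:
`E_e[g̃^i_a y_a] = c_{i,l} (E_e y_a² - Σ_{j ≥ i} w_j E_e (E_e[y_a | F_j])²) ∈ [0, c_{i,l} E_e y_a²]`; sum over the block, divide by `N`, `c_{i,l} ≤ 3 s ≤ 1`, `Σ y_a² = N`.
(the computation of `ibp_core` in IbpFacts, general `n, i`.) -/
theorem inner_dirV_abs (hk : 0 < k) (hN : 0 < N) {P : Measure (ON N)} (hP : HaarO P) (D : Blk)
    (L : LBd J) {s : ℝ} (hs : 0 ≤ s) (hs1 : 3 * s ≤ 1) {x : XI k D.K J → ℝ} (hx : XOK x)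
    (κ : Fin N → Fin D.K) (lab : Fin N → Fin J) (i : XI k D.K J) (e : EN N) :
    |pathE (mN P (unifA N)) (ζLB k) k 1 (fun ω => HN k (θL D L k s x κ lab) (Fin.cons e ω))
      (fun ω => dirV k κ lab i (Fin.cons e ω))| ≤ 1 := by
  obtain ⟨k, rfl⟩ : ∃ k', k = k' + 1 := ⟨k - 1, by omega⟩
  have := prob_mN hP (unifA N)
  have := hP.prob
  have hβ := dom_mN hP (unifA N)
  have hζ := exps_LB (k + 1)
  have hmono := InnerGy_mono (k + 1)
  set θ := θL D L (k + 1) s x κ lab with hθ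
  have hH := HN_ham (k + 1) θ
  have hHc := hH.cons hβ e
  have hNR : (0 : ℝ) < N := by exact_mod_cast hN
  have hV := (dirV_ham κ lab i).tame hβ
  rcases i with l | j | ⟨i, l⟩
  · refine InnerGy_bdd hβ hζ (k + 1) 1 hHc (hV.cons hβ e) (fun ω => ?_)
    have h1 := abs_ovl_le (k + 1) κ l (Fin.cons e ω) (Fin.cons e ω)
    show |(1 / 2) * ovl (k + 1) κ l (Fin.cons e ω) (Fin.cons e ω)| ≤ 1
    rw [abs_mul, abs_of_pos (by norm_num : (0 : ℝ) < 1 / 2)]
    linarith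
  · refine InnerGy_bdd hβ hζ (k + 1) 1 hHc (hV.cons hβ e) (fun ω => ?_)
    have h1 := TJ_abs lab j (cfg (k + 1) (Fin.cons e ω))
    show |TJ lab j (cfg (k + 1) (Fin.cons e ω)) / (N : ℝ)| ≤ 1
    rw [abs_div, abs_of_pos hNR, div_le_one hNR]
    exact h1
  · induction i using Fin.cases with
    | zero =>
      have e0 : (fun ω => dirV (k + 1) κ lab (Sum.inr (Sum.inr ((0 : Fin (k + 1)), l)))
          (Fin.cons e ω)) = fun _ => (0 : ℝ) := by
        funext ω
        simp [dirV]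
      rw [e0, pathE_const hβ hζ (k + 1) 1 hHc, abs_zero]
      exact zero_le_one
    | succ i =>
      have e0 : (fun ω => dirV (k + 1) κ lab (Sum.inr (Sum.inr ((i.succ : Fin (k + 1)), l)))
          (Fin.cons e ω)) = fun ω => ∑ a, ((1 / (N : ℝ)) * (if κ a = l then (1 : ℝ) else 0)) *
            ((ω i.castSucc).2.2.1 a * yv (k + 1) (Fin.cons e ω) a) := by
        funext ω
        have h1 : ((i.succ : Fin (k + 1)) : ℕ) ≠ 0 := by simp
        simp only [dirV, if_neg h1]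
        unfold gy
        rw [Finset.mul_sum]
        refine Finset.sum_congr rfl fun a _ => ?_
        have h2 : (Fin.cons e ω : Fin (k + 1 + 1) → EN N) (i.succ.castSucc) = ω i.castSucc := by
          rw [← Fin.succ_castSucc, Fin.cons_succ]
        rw [h2]
        split_ifs <;> ring
      have hga : ∀ a : Fin N, Tame (βN (N := N))
          (fun ω : Fin (k + 1) → EN N => (ω i.castSucc).2.2.1 a *
            yv (k + 1) (Fin.cons e ω) a) := by
        intro a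
        refine Tame.mul hβ ?_ ((yv_tame (k + 1) a).cons hβ e)
        refine ⟨(measurable_pi_apply a).comp (measurable_fst.comp (measurable_snd.comp
          (measurable_snd.comp (measurable_pi_apply i.castSucc)))), 1, zero_le_one, fun ω => ?_⟩
        have h1 : |(ω i.castSucc).2.2.1 a| ≤ βN (ω i.castSucc) := by
          unfold βN
          have h1 := Finset.single_le_sum (f := fun b => |(ω i.castSucc).2.2.1 b|)
            (fun b _ => abs_nonneg _) (Finset.mem_univ a)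
          have h2 : 0 ≤ ∑ b, |(ω i.castSucc).2.1 b| := Finset.sum_nonneg fun _ _ => abs_nonneg _
          linarith
        have h2 : βN (ω i.castSucc) ≤ ∑ j, βN (ω j) :=
          Finset.single_le_sum (f := fun j => βN (ω j)) (fun j _ => βN_nonneg' _)
            (Finset.mem_univ i.castSucc)
        have h3 := Real.add_one_le_exp (∑ j, βN (ω j))
        rw [one_mul, one_mul]
        linarith
      have hc : ∀ a, θ.c (i.succ : Fin (k + 1)) (θ.κ a) =
          s * x (Sum.inr (Sum.inr ((i.succ : Fin (k + 1)), κ a))) := by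
        intro a
        have h1 : ((i.succ : Fin (k + 1)) : ℕ) < k + 1 := i.succ.2
        have h2 : ((i.succ : Fin (k + 1)) : ℕ) ≠ 0 := by simp
        simp only [hθ, θL, dif_pos h1, if_neg h2]
      have hc0 : ∀ a, 0 ≤ θ.c (i.succ : Fin (k + 1)) (θ.κ a) := fun a => by
        rw [hc]
        exact mul_nonneg hs (hx _).1
      have hc1 : ∀ a, θ.c (i.succ : Fin (k + 1)) (θ.κ a) ≤ 1 := fun a => by
        rw [hc]
        have := mul_le_mul_of_nonneg_left (hx (Sum.inr (Sum.inr ((i.succ : Fin (k + 1)), κ a)))).2 hs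
        linarith
      have hb : ∀ a : Fin N,
          0 ≤ pathE (mN P (unifA N)) (ζLB (k + 1)) (k + 1) 1 (fun ω => HN (k + 1) θ (Fin.cons e ω))
            (fun ω => (ω i.castSucc).2.2.1 a * yv (k + 1) (Fin.cons e ω) a) ∧
          pathE (mN P (unifA N)) (ζLB (k + 1)) (k + 1) 1 (fun ω => HN (k + 1) θ (Fin.cons e ω))
            (fun ω => (ω i.castSucc).2.2.1 a * yv (k + 1) (Fin.cons e ω) a) ≤
          pathE (mN P (unifA N)) (ζLB (k + 1)) (k + 1) 1 (fun ω => HN (k + 1) θ (Fin.cons e ω))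
            (fun ω => yv (k + 1) (Fin.cons e ω) a ^ 2) := by
        intro a
        have hflow := (gcoord_setG (P := P) (A := unifA N) a).cflow hβ
        have d1 := FlowB_isD_succ (j := i.castSucc) (HN_isD_G (k + 1) θ i.succ a) e
        have d2 := FlowB_isD_succ (j := i.castSucc) (yv_isD_G (N := N) (k + 1) i.succ a a) e
        have h := InnerGy_bds (m := mN P (unifA N)) (ζ := ζLB (k + 1)) hβ hζ hmono hflow 1
          i.castSucc (hc0 a) hHc ((yv_tame (k + 1) a).cons hβ e) d1 d2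
        refine ⟨h.1, h.2.trans ?_⟩
        have h0 := TVar_pathE_nonneg (m := mN P (unifA N)) (ζ := ζLB (k + 1)) hβ hζ (k + 1) 1 hHc
          (TVar_tame_sq hβ ((yv_tame (k + 1) a).cons hβ e)) fun ω => sq_nonneg _
        have := mul_le_mul_of_nonneg_right (hc1 a) h0
        linarith
      rw [e0, pathE_fsum hβ hζ (k + 1) 1 hHc Finset.univ (fun a _ => TVar_tame_cmul hβ _ (hga a))]
      simp only [pathE_mul]
      have hsum : ∑ a, pathE (mN P (unifA N)) (ζLB (k + 1)) (k + 1) 1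
          (fun ω => HN (k + 1) θ (Fin.cons e ω))
            (fun ω => yv (k + 1) (Fin.cons e ω) a ^ 2) = N := by
        rw [← pathE_fsum hβ hζ (k + 1) 1 hHc Finset.univ
          (fun a _ => TVar_tame_sq hβ ((yv_tame (k + 1) a).cons hβ e))]
        simp only [sum_yv_sq]
        exact pathE_const hβ hζ (k + 1) 1 hHc _
      have l0 : ∀ a : Fin N, 0 ≤ ((1 / (N : ℝ)) * (if κ a = l then (1 : ℝ) else 0)) := fun a => by
        split_ifs <;> positivity
      have l1 : ∀ a : Fin N, ((1 / (N : ℝ)) * (if κ a = l then (1 : ℝ) else 0)) ≤ 1 / N :=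
        fun a => by
          split_ifs
          · rw [mul_one]
          · rw [mul_zero]; positivity
      rw [abs_of_nonneg (Finset.sum_nonneg fun a _ => mul_nonneg (l0 a) (hb a).1)]
      have hle := Finset.sum_le_sum (s := Finset.univ) fun a _ =>
        mul_le_mul (l1 a) (hb a).2 (hb a).1 (by positivity)
      refine hle.trans (le_of_eq ?_)
      rw [← Finset.mul_sum, hsum]
      field_simp

end Crest.Agent.RI
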