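import Crest.Agent.RI.HaarMom

/-!
# Row 164, Part 7: moments of reflection vectors
-/

set_option autoImplicit false

namespace Crest.Agent.RI

open MeasureTheory ProbabilityTheory

variable {N : ℕ}

/-- weights in the moment bounds of the reflection vectors -/
noncomputable def wrefl (a b : Fin N) : ℝ :=
  if b = a then 128 else if a < b then 128 * 105 / ((tailS N (a.val + 1)).card : ℝ) else 0

theorem wrefl_nonneg (a b : Fin N) : 0 ≤ wrefl a b := by
  unfold wrefl
  split_ifs <;> positivity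

private theorem HaarRefl_tail (a b : Fin N) : b ∈ tailS N (a.val + 1) ↔ a < b := by
  simp only [tailS, Finset.mem_filter, Finset.mem_univ, true_and]
  exact Nat.succ_le_iff

private theorem HaarRefl_sum (a : Fin N) (f : Fin N → ℝ) :
    ∑ b, wrefl a b * f b = 128 * f a +
      ∑ b ∈ tailS N (a.val + 1), (128 * 105 / ((tailS N (a.val + 1)).card : ℝ)) * f b := by
  have h : ∀ b, wrefl a b * f b = (if b = a then 128 * f b else 0) +
      (if b ∈ tailS N (a.val + 1) then
        (128 * 105 / ((tailS N (a.val + 1)).card : ℝ)) * f b else 0) := by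
    intro b
    unfold wrefl
    by_cases h1 : b = a
    · subst h1
      simp [HaarRefl_tail]
    · by_cases h2 : a < b
      · simp [h1, h2, HaarRefl_tail]
      · simp [h1, h2, HaarRefl_tail]
  rw [Finset.sum_congr rfl (fun b _ => h b), Finset.sum_add_distrib]
  congr 1
  · simp
  · simp [Finset.sum_ite_mem]

theorem sum_wrefl_le (a : Fin N) : ∑ b, wrefl a b ≤ 14000 := by
  have h := HaarRefl_sum a (fun _ => 1)
  simp only [mul_one, Finset.sum_const, nsmul_eq_mul] at h
  rw [h]
  rcases Nat.eq_zero_or_pos (tailS N (a.val + 1)).card with h0 | h0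
  · rw [h0]; norm_num
  · have h1 : (0 : ℝ) < ((tailS N (a.val + 1)).card : ℝ) := by exact_mod_cast h0
    rw [mul_div_cancel₀ _ h1.ne']
    norm_num

/-- remove the coordinate `a` -/
private def HaarRefl_cut (a : Fin N) (q : Fin N → ℝ) : Fin N → ℝ := fun i => if i = a then 0 else q i

private theorem HaarRefl_ip_cut (a : Fin N) (q z : Fin N → ℝ) :
    ip q z = q a * z a + ip (HaarRefl_cut a q) z := by
  unfold ip HaarRefl_cut
  have h : ∀ i, q i * z i = (if i = a then q i * z i else 0) +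
      (if i = a then 0 else q i) * z i := by
    intro i
    by_cases hi : i = a <;> simp [hi]
  rw [Finset.sum_congr rfl (fun i _ => h i), Finset.sum_add_distrib]
  congr 1
  simp

private theorem HaarRefl_ip_cut_self (a : Fin N) (q : Fin N → ℝ) :
    ip q q = q a ^ 2 + ip (HaarRefl_cut a q) (HaarRefl_cut a q) := by
  unfold ip HaarRefl_cut
  have h : ∀ i, q i * q i = (if i = a then q i ^ 2 else 0) +
      (if i = a then 0 else q i) * (if i = a then 0 else q i) := by
    intro i
    by_cases hi : i = a <;> simp [hi, pow_two]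
  rw [Finset.sum_congr rfl (fun i _ => h i), Finset.sum_add_distrib]
  congr 1
  simp

private theorem HaarRefl_meas_cut (a : Fin N) : Measurable (HaarRefl_cut a) := by
  rw [measurable_pi_iff]
  intro i
  unfold HaarRefl_cut
  by_cases hi : i = a
  · simp only [hi, if_true]; exact measurable_const
  · simp only [hi, if_false]; exact measurable_pi_apply i

private noncomputable def HaarRefl_F (a : Fin N) (W : Fin N → Fin N → ℝ) : Fin N → ℝ :=
  HaarRefl_cut a (qv a (avec W (ev a)))

private theorem HaarRefl_meas_q (a : Fin N) :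
    Measurable (fun W : Fin N → Fin N → ℝ => qv a (avec W (ev a))) :=
  (measurable_qv a).comp (measurable_avec.comp (measurable_id.prodMk measurable_const))

private theorem HaarRefl_meas_F (a : Fin N) : Measurable (HaarRefl_F a) :=
  (HaarRefl_meas_cut a).comp (HaarRefl_meas_q a)

private theorem HaarRefl_CS (x y : Fin N → ℝ) : ip x y ^ 2 ≤ ip x x * ip y y := by
  have h := Finset.sum_mul_sq_le_sq_mul_sq Finset.univ x y
  unfold ip
  simpa [pow_two] using h

private theorem HaarRefl_pow_le (x z : Fin N → ℝ) (hx : ip x x ≤ 1) (k : ℕ) :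
    ip x z ^ (2 * k) ≤ ip z z ^ k := by
  rw [pow_mul]
  have h1 := HaarRefl_CS x z
  have h2 : ip x x * ip z z ≤ ip z z := by
    have := ip_nonneg z
    nlinarith
  exact pow_le_pow_left₀ (sq_nonneg _) (h1.trans h2) k

private theorem HaarRefl_ipq (a : Fin N) (W : Fin N → Fin N → ℝ) :
    ip (qv a (avec W (ev a))) (qv a (avec W (ev a))) ≤ 1 := by
  rcases uz_qv a (avec W (ev a)) with h | h
  · rw [h]
  · rw [h]; simp [ip]

private theorem HaarRefl_ipF (a : Fin N) (W : Fin N → Fin N → ℝ) :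
    ip (HaarRefl_F a W) (HaarRefl_F a W) ≤ 1 := by
  have h1 := HaarRefl_ipq a W
  have h2 := HaarRefl_ip_cut_self a (qv a (avec W (ev a)))
  have h3 := sq_nonneg (qv a (avec W (ev a)) a)
  unfold HaarRefl_F
  linarith

private theorem HaarRefl_qa (a : Fin N) (W : Fin N → Fin N → ℝ) :
    (qv a (avec W (ev a)) a) ^ 2 ≤ 1 := by
  have h1 := HaarRefl_ipq a W
  have h2 := HaarRefl_ip_cut_self a (qv a (avec W (ev a)))
  have h3 := ip_nonneg (HaarRefl_cut a (qv a (avec W (ev a))))
  linarith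

private theorem HaarRefl_Fsupp {a : Fin N} {W : Fin N → Fin N → ℝ} (hW : Fixes (tailS N a.val) W)
    {i : Fin N} (hi : i ∉ tailS N (a.val + 1)) : HaarRefl_F a W i = 0 := by
  unfold HaarRefl_F HaarRefl_cut
  by_cases h : i = a
  · simp [h]
  · rw [if_neg h]
    have h1 : i ∉ tailS N a.val := by
      simp only [tailS, Finset.mem_filter, Finset.mem_univ, true_and, not_le] at hi ⊢
      have : i.val ≠ a.val := fun h' => h (Fin.ext h')
      omega
    have h2 : W i a = aone N i a := (hW.2 i h1 a).1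
    unfold qv
    rw [avec_ev]
    simp only [h2, aone, ev, if_neg h, sub_zero, zero_div]

private theorem HaarRefl_equiv {a : Fin N} {R : Fin N → Fin N → ℝ}
    (hR : Fixes (tailS N (a.val + 1)) R) (W : Fin N → Fin N → ℝ) :
    HaarRefl_F a (amul R W) = avec R (HaarRefl_F a W) := by
  have ha : a ∉ tailS N (a.val + 1) := by simp [HaarRefl_tail]
  have hRa : ∀ i, R i a = aone N i a := fun i => (hR.2 a ha i).2
  have hRe : avec R (ev a) = ev a := by
    rw [avec_ev]
    funext i
    rw [hRa i]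
    rfl
  unfold HaarRefl_F
  rw [avec_amul, qv_avec hR.1 hRe]
  generalize qv a (avec W (ev a)) = q
  funext i
  by_cases hi : i = a
  · subst hi
    rw [hR.avec_off _ ha]
    simp [HaarRefl_cut]
  · have h1 : R i a = 0 := by
      rw [hRa i]; simp [aone, hi]
    simp only [HaarRefl_cut, if_neg hi, avec]
    refine Finset.sum_congr rfl fun j _ => ?_
    by_cases hj : j = a
    · subst hj; simp [h1]
    · simp [hj]

private theorem HaarRefl_main {a : Fin N} {μ : Measure (Fin N → Fin N → ℝ)}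
    (h : IsHaarS (tailS N a.val) μ) (z : Fin N → ℝ) (k : ℕ) (hk : k ≠ 0) (c : ℝ) (hc : 0 ≤ c)
    (hmom : ∀ κ : Measure (Fin N → Fin N → ℝ), IsHaarS (tailS N (a.val + 1)) κ →
      (tailS N (a.val + 1)).Nonempty → ∀ y : Fin N → ℝ, (∀ i ∉ tailS N (a.val + 1), y i = 0) →
      ∫ V, ip (avec V y) z ^ (2 * k) ∂κ ≤ c * ip y y ^ k *
        (∑ i ∈ tailS N (a.val + 1), z i ^ 2) ^ k / ((tailS N (a.val + 1)).card : ℝ) ^ k) :
    ∫ W, ip (HaarRefl_F a W) z ^ (2 * k) ∂μ ≤
      c * (∑ i ∈ tailS N (a.val + 1), z i ^ 2) ^ k / ((tailS N (a.val + 1)).card : ℝ) ^ k := by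
  have hμ := h.prob
  have hS0 : 0 ≤ ∑ i ∈ tailS N (a.val + 1), z i ^ 2 :=
    Finset.sum_nonneg fun i _ => sq_nonneg _
  rcases (tailS N (a.val + 1)).eq_empty_or_nonempty with hT | hT
  · have h0 : ∀ᵐ W ∂μ, ip (HaarRefl_F a W) z ^ (2 * k) = 0 := by
      filter_upwards [h.fix] with W hW
      have h1 : HaarRefl_F a W = 0 := by
        funext i
        exact HaarRefl_Fsupp hW (by rw [hT]; exact Finset.notMem_empty i)
      have h2 : ip (0 : Fin N → ℝ) z = 0 := by simp [ip]
      rw [h1, h2]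
      exact zero_pow (by omega)
    rw [integral_congr_ae h0, integral_zero]
    positivity
  · obtain ⟨κ, hκ⟩ := exists_isHaarS (tailS N (a.val + 1))
    have hκp := hκ.prob
    have hm : Measurable (fun p : (Fin N → Fin N → ℝ) × (Fin N → Fin N → ℝ) =>
        ip (avec p.1 (HaarRefl_F a p.2)) z ^ (2 * k)) := by
      refine Measurable.pow_const ?_ _
      exact measurable_ip.comp ((measurable_avec.comp (measurable_fst.prodMk
        ((HaarRefl_meas_F a).comp measurable_snd))).prodMk measurable_const)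
    have hint : Integrable (Function.uncurry (fun R W =>
        ip (avec R (HaarRefl_F a W)) z ^ (2 * k))) (κ.prod μ) := by
      refine (integrable_const (ip z z ^ k)).mono' hm.aestronglyMeasurable ?_
      filter_upwards [Measure.quasiMeasurePreserving_fst.ae hκ.fix] with p hp
      simp only [Function.uncurry]
      rw [Real.norm_eq_abs, abs_of_nonneg (by rw [pow_mul]; positivity)]
      refine HaarRefl_pow_le _ _ ?_ k
      rw [hp.1.ip_avec]
      exact HaarRefl_ipF a p.2
    have hmF : Measurable (fun W => ip (HaarRefl_F a W) z ^ (2 * k)) := by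
      refine Measurable.pow_const ?_ _
      exact measurable_ip.comp ((HaarRefl_meas_F a).prodMk measurable_const)
    have step1 : ∫ W, ip (HaarRefl_F a W) z ^ (2 * k) ∂μ =
        ∫ R, ∫ W, ip (avec R (HaarRefl_F a W)) z ^ (2 * k) ∂μ ∂κ := by
      have hc1 : ∫ _R, (∫ W, ip (HaarRefl_F a W) z ^ (2 * k) ∂μ) ∂κ =
          ∫ W, ip (HaarRefl_F a W) z ^ (2 * k) ∂μ := by simp
      rw [← hc1]
      refine integral_congr_ae ?_
      filter_upwards [hκ.fix] with R hR
      have hsub : tailS N (a.val + 1) ⊆ tailS N a.val := by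
        intro i hi
        simp only [tailS, Finset.mem_filter, Finset.mem_univ, true_and] at hi ⊢
        omega
      have h2 := h.integral_left (hR.mono hsub) hmF
      rw [← h2]
      refine integral_congr_ae (Filter.Eventually.of_forall fun W => ?_)
      simp only
      rw [HaarRefl_equiv hR W]
    rw [step1, integral_integral_swap hint]
    have hcst : ∫ _W, (c * (∑ i ∈ tailS N (a.val + 1), z i ^ 2) ^ k /
        ((tailS N (a.val + 1)).card : ℝ) ^ k) ∂μ = c * (∑ i ∈ tailS N (a.val + 1), z i ^ 2) ^ k /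
        ((tailS N (a.val + 1)).card : ℝ) ^ k := by simp
    rw [← hcst]
    refine integral_mono_of_nonneg (Filter.Eventually.of_forall fun W =>
      integral_nonneg fun R => ?_) (integrable_const _) ?_
    · simp only [Pi.zero_apply]
      rw [pow_mul]; positivity
    · filter_upwards [h.fix] with W hW
      refine (hmom κ hκ hT (HaarRefl_F a W) (fun i hi => HaarRefl_Fsupp hW hi)).trans ?_
      have h3 : ip (HaarRefl_F a W) (HaarRefl_F a W) ^ k ≤ 1 :=
        pow_le_one₀ (ip_nonneg _) (HaarRefl_ipF a W)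
      have h4 : c * ip (HaarRefl_F a W) (HaarRefl_F a W) ^ k ≤ c := by
        nlinarith
      gcongr

private theorem HaarRefl_pm {T : Finset (Fin N)} (hT : T.Nonempty) (z : Fin N → ℝ) (k : ℕ) :
    (∑ i ∈ T, z i ^ 2) ^ k / (T.card : ℝ) ^ k ≤ (∑ i ∈ T, z i ^ (2 * k)) / (T.card : ℝ) := by
  have hpos : (0 : ℝ) < (T.card : ℝ) := by exact_mod_cast hT.card_pos
  have h := Real.pow_arith_mean_le_arith_mean_pow T (fun _ => (T.card : ℝ)⁻¹)
    (fun i => z i ^ 2) (fun _ _ => by positivity)
    (by simp [hpos.ne']) (fun _ _ => sq_nonneg _) k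
  rw [← Finset.mul_sum, ← Finset.mul_sum] at h
  rw [← div_pow, div_eq_inv_mul, div_eq_inv_mul]
  refine h.trans (le_of_eq ?_)
  congr 1
  refine Finset.sum_congr rfl fun i _ => ?_
  rw [pow_mul]

private theorem HaarRefl_gen {a : Fin N} {μ : Measure (Fin N → Fin N → ℝ)}
    (h : IsHaarS (tailS N a.val) μ) (z : Fin N → ℝ) (k : ℕ) (hk : k ≠ 0) (c : ℝ) (hc : 0 ≤ c)
    (hc1 : c ≤ 105) (h2k : (2 : ℝ) ^ (2 * k - 1) ≤ 128)
    (hmom : ∀ κ : Measure (Fin N → Fin N → ℝ), IsHaarS (tailS N (a.val + 1)) κ →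
      (tailS N (a.val + 1)).Nonempty → ∀ y : Fin N → ℝ, (∀ i ∉ tailS N (a.val + 1), y i = 0) →
      ∫ V, ip (avec V y) z ^ (2 * k) ∂κ ≤ c * ip y y ^ k *
        (∑ i ∈ tailS N (a.val + 1), z i ^ 2) ^ k / ((tailS N (a.val + 1)).card : ℝ) ^ k) :
    ∫ W, ip (qv a (avec W (ev a))) z ^ (2 * k) ∂μ ≤ ∑ b, wrefl a b * z b ^ (2 * k) := by
  have hμ := h.prob
  have hmain := HaarRefl_main h z k hk c hc hmom
  have hmF : Measurable (fun W => ip (HaarRefl_F a W) z ^ (2 * k)) := by
    refine Measurable.pow_const ?_ _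
    exact measurable_ip.comp ((HaarRefl_meas_F a).prodMk measurable_const)
  have hiF : Integrable (fun W => ip (HaarRefl_F a W) z ^ (2 * k)) μ := by
    refine (integrable_const (ip z z ^ k)).mono' hmF.aestronglyMeasurable
      (Filter.Eventually.of_forall fun W => ?_)
    rw [Real.norm_eq_abs, abs_of_nonneg (by rw [pow_mul]; positivity)]
    exact HaarRefl_pow_le _ _ (HaarRefl_ipF a W) k
  have hza : 0 ≤ z a ^ (2 * k) := by rw [pow_mul]; positivity
  have hpt : ∀ W : Fin N → Fin N → ℝ, ip (qv a (avec W (ev a))) z ^ (2 * k) ≤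
      128 * (z a ^ (2 * k) + ip (HaarRefl_F a W) z ^ (2 * k)) := by
    intro W
    have e1 : ip (qv a (avec W (ev a))) z =
        qv a (avec W (ev a)) a * z a + ip (HaarRefl_F a W) z := HaarRefl_ip_cut a _ z
    rw [e1]
    have hev : Even (2 * k) := even_two_mul k
    refine (hev.add_pow_le).trans ?_
    have h5 : (qv a (avec W (ev a)) a * z a) ^ (2 * k) ≤ z a ^ (2 * k) := by
      rw [mul_pow, pow_mul (qv a (avec W (ev a)) a)]
      have := pow_le_one₀ (n := k) (sq_nonneg _) (HaarRefl_qa a W)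
      nlinarith
    have h6 : 0 ≤ ip (HaarRefl_F a W) z ^ (2 * k) := by rw [pow_mul]; positivity
    have h7 : 0 ≤ (qv a (avec W (ev a)) a * z a) ^ (2 * k) := by rw [pow_mul]; positivity
    calc (2 : ℝ) ^ (2 * k - 1) * ((qv a (avec W (ev a)) a * z a) ^ (2 * k) +
          ip (HaarRefl_F a W) z ^ (2 * k))
        ≤ 128 * ((qv a (avec W (ev a)) a * z a) ^ (2 * k) +
          ip (HaarRefl_F a W) z ^ (2 * k)) := by
          apply mul_le_mul_of_nonneg_right h2k
          positivity
      _ ≤ _ := by linarith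
  have h8 : ∫ W, ip (qv a (avec W (ev a))) z ^ (2 * k) ∂μ ≤
      ∫ W, 128 * (z a ^ (2 * k) + ip (HaarRefl_F a W) z ^ (2 * k)) ∂μ := by
    refine integral_mono_of_nonneg (Filter.Eventually.of_forall fun W => ?_)
      (((integrable_const _).add hiF).const_mul _) (Filter.Eventually.of_forall hpt)
    simp only [Pi.zero_apply]
    rw [pow_mul]; positivity
  refine h8.trans ?_
  rw [integral_const_mul, integral_add (integrable_const _) hiF, HaarRefl_sum]
  simp only [integral_const, probReal_univ, smul_eq_mul, one_mul]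
  rcases (tailS N (a.val + 1)).eq_empty_or_nonempty with hT | hT
  · rw [hT] at hmain ⊢
    have h9 : c * (∑ i ∈ (∅ : Finset (Fin N)), z i ^ 2) ^ k /
        (((∅ : Finset (Fin N)).card : ℕ) : ℝ) ^ k = 0 := by
      simp [hk]
    rw [h9] at hmain
    simp only [Finset.sum_empty, add_zero]
    linarith
  · have h10 := HaarRefl_pm hT z k
    have hpos : (0 : ℝ) < ((tailS N (a.val + 1)).card : ℝ) := by exact_mod_cast hT.card_pos
    have hsum0 : 0 ≤ ∑ i ∈ tailS N (a.val + 1), z i ^ (2 * k) :=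
      Finset.sum_nonneg fun i _ => by rw [pow_mul]; positivity
    rw [← Finset.mul_sum]
    have h11 : c * (∑ i ∈ tailS N (a.val + 1), z i ^ 2) ^ k /
        ((tailS N (a.val + 1)).card : ℝ) ^ k ≤
        105 * ((∑ i ∈ tailS N (a.val + 1), z i ^ (2 * k)) /
          ((tailS N (a.val + 1)).card : ℝ)) := by
      rw [mul_div_assoc]
      exact mul_le_mul hc1 h10 (by positivity) (by norm_num)
    calc 128 * (z a ^ (2 * k) + ∫ W, ip (HaarRefl_F a W) z ^ (2 * k) ∂μ)
        ≤ 128 * (z a ^ (2 * k) + 105 * ((∑ i ∈ tailS N (a.val + 1), z i ^ (2 * k)) /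
          ((tailS N (a.val + 1)).card : ℝ))) := by
          have := hmain.trans h11
          linarith
      _ = _ := by ring

/-- MOMENTS OF THE REFLECTION VECTORS.  `W` Haar on the group of the coordinates `≥ a`, `v = W e_a`, `q = qv a v`.
PROOF.  `q = q_a e_a + q'`, `q_a² ≤ 1`, `q'` supported in the coordinates `> a`, `|q'| ≤ 1`; `<q,z>^8 ≤ 2^7 (q_a^8 z_a^8 + <q',z>^8)`.  Let `κ` be a Haar
law on `Fixes (tailS N (a+1))` (`exists_isHaarS`).  By left invariance of `μ` under `R ∈ Fixes (tailS (a+1)) ⊆ Fixes (tailS a)` (and `R e_a = e_a`,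
`qv_avec`, so `q' ↦ R q'`): `∫ <q',z>^8 dμ = ∫∫ <R q', z>^8 dκ(R) dμ ≤ 105 (Σ_{b>a} z_b²)^4/m^4`, `m = |tailS (a+1)|` (`mom8`; if `m = 0` then `q' = 0`)
`≤ 105 (Σ_{b>a} z_b^8)/m` (power mean `inner_le_nnorm_mul_nnorm`/`inner_mul_le`, e.g. `Finset.inner_mul_le_norm_mul_norm` twice or
`inv_mul_sum_pow`...: `(Σ x_b)^4 ≤ m^3 Σ x_b^4`: `inner`/`pow_arith_mean_le_arith_mean_pow`). -/
theorem refl_mom8 {a : Fin N} {μ : Measure (Fin N → Fin N → ℝ)} (h : IsHaarS (tailS N a.val) μ)
    (z : Fin N → ℝ) :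
    ∫ W, ip (qv a (avec W (ev a))) z ^ 8 ∂μ ≤ ∑ b, wrefl a b * z b ^ 8 := by
  have := HaarRefl_gen h z 4 (by norm_num) 105 (by norm_num) le_rfl (by norm_num)
    (fun κ hκ hT y hy => hκ.mom8 hT hy z)
  exact this

/-- same with 4th powers (`(x+y)^4 ≤ 8(x^4+y^4)`, `mom4`; the constants of `wrefl` are more than enough) -/
theorem refl_mom4 {a : Fin N} {μ : Measure (Fin N → Fin N → ℝ)} (h : IsHaarS (tailS N a.val) μ)
    (z : Fin N → ℝ) :
    ∫ W, ip (qv a (avec W (ev a))) z ^ 4 ∂μ ≤ ∑ b, wrefl a b * z b ^ 4 := by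
  have := HaarRefl_gen h z 2 (by norm_num) 3 (by norm_num) (by norm_num) (by norm_num)
    (fun κ hκ hT y hy => hκ.mom4 hT hy z)
  exact this

end Crest.Agent.RI
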