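import Crest.Agent.RI.Level0B
import Crest.Agent.RI.TowMomB
import Crest.Agent.RI.HaarRefl
import Crest.Agent.RI.ConcPk

/-!
# Row 164, Part 7 (H6): average of the bounding function
-/

set_option autoImplicit false

namespace Crest.Agent.RI

open MeasureTheory ProbabilityTheory

variable {N K : ℕ}

/-! ### measurability -/

private theorem l0c_cons (k : ℕ) :
    Measurable (fun x : ON N × (Fin k → EN N) => (Fin.cons (e0 x.1) x.2 : Fin (k + 1) → EN N)) := by
  refine measurable_pi_iff.2 fun i => ?_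
  refine Fin.cases ?_ (fun j => ?_) i
  · simp only [Fin.cons_zero]
    unfold e0
    exact measurable_fst.prodMk measurable_const
  · simp only [Fin.cons_succ]
    exact (measurable_pi_apply j).comp measurable_snd

private theorem l0c_yU (k : ℕ) :
    Measurable (fun x : ON N × (Fin k → EN N) => yU k x.1 x.2) :=
  measurable_pi_iff.2 fun b => (measurable_yv k b).comp (l0c_cons k)

private theorem l0c_gU (k : ℕ) (i : Fin k) :
    Measurable (fun x : ON N × (Fin k → EN N) => gU k i x.1 x.2) := by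
  unfold gU
  exact (measurable_fst.comp (measurable_snd.comp measurable_snd)).comp
    ((measurable_pi_apply i.castSucc).comp (l0c_cons k))

private theorem l0c_blk (κ : Fin N → Fin K) (d : Fin K → ℝ) : Measurable (blk κ d) := by
  unfold blk
  exact measurable_pi_iff.2 fun b => (measurable_pi_apply b).const_mul _

private theorem l0c_ip {X : Type*} [MeasurableSpace X] {f g : X → Fin N → ℝ} (hf : Measurable f)
    (hg : Measurable g) : Measurable (fun x => ip (f x) (g x)) :=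
  measurable_ip.comp (hf.prodMk hg)

private theorem l0c_bdT {X : Type*} [MeasurableSpace X] (D : ℝ) (k : ℕ) (θ : Par N K)
    {q : X → Fin N → ℝ} {y : X → ON N × (Fin k → EN N)} (hq : Measurable q) (hy : Measurable y) :
    Measurable (fun x => bdT D k θ (q x) (y x).1 (y x).2) := by
  have h1 : Measurable (fun x => yU k (y x).1 (y x).2) := (l0c_yU k).comp hy
  have h2 : ∀ i, Measurable (fun x => gU k i (y x).1 (y x).2) := fun i => (l0c_gU k i).comp hy
  unfold bdT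
  refine Measurable.const_mul ?_ _
  refine Measurable.add (Measurable.add ?_ ?_) ?_
  · exact ((l0c_ip hq h1).pow_const 4).const_mul _
  · exact (l0c_ip hq ((l0c_blk _ _).comp h1)).pow_const 4
  · refine Finset.measurable_sum _ fun i _ => ?_
    refine Measurable.add (Measurable.add (Measurable.add ?_ ?_) ?_) ?_
    · exact ((l0c_ip hq (h2 i)).pow_const 4).const_mul _
    · exact (l0c_ip hq ((l0c_blk _ _).comp h1)).pow_const 4
    · exact ((l0c_ip hq h1).pow_const 4).const_mul _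
    · exact (l0c_ip hq ((l0c_blk _ _).comp (h2 i))).pow_const 4

/-! ### bounds -/

private theorem l0c_q {q : Fin N → ℝ} (hq : UZ q) (a : Fin N) : |q a| ≤ 1 := by
  have h1 : ip q q ≤ 1 := by
    rcases hq with h | h
    · rw [h]
    · rw [h]; simp [ip]
  have h2 : q a ^ 2 ≤ ip q q := by
    unfold ip
    have := Finset.single_le_sum (f := fun i => q i * q i) (fun i _ => mul_self_nonneg _)
      (Finset.mem_univ a)
    simpa [pow_two] using this
  refine abs_le_of_sq_le_sq ?_ zero_le_one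
  linarith

private theorem l0c_ip_le {q : Fin N → ℝ} (hq : UZ q) (z : Fin N → ℝ) :
    |ip q z| ≤ ∑ a, |z a| := by
  unfold ip
  refine (Finset.abs_sum_le_sum_abs _ _).trans (Finset.sum_le_sum fun a _ => ?_)
  rw [abs_mul]
  have := l0c_q hq a
  have := abs_nonneg (z a)
  nlinarith

private theorem l0c_gle (k : ℕ) (U : ON N) (ω : Fin k → EN N) (i' : Fin (k + 1)) :
    ∑ b, |((Fin.cons (e0 U) ω : Fin (k + 1) → EN N) i').2.2.1 b| ≤ ∑ j, βN (ω j) := by
  have hβ : ∀ x : EN N, 0 ≤ βN x := fun x => by unfold βN; positivity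
  refine Fin.cases ?_ (fun j => ?_) i'
  · simp only [Fin.cons_zero, e0, abs_zero, Finset.sum_const_zero]
    exact Finset.sum_nonneg fun j _ => hβ _
  · simp only [Fin.cons_succ]
    refine le_trans ?_ (Finset.single_le_sum (f := fun j => βN (ω j)) (fun j _ => hβ _)
      (Finset.mem_univ j))
    unfold βN
    have : 0 ≤ ∑ a, |(ω j).2.1 a| := Finset.sum_nonneg fun _ _ => abs_nonneg _
    linarith

private theorem l0c_yle (k : ℕ) (U : ON N) (ω : Fin k → EN N) :
    ∑ b, |yU k U ω b| ≤ (N : ℝ) ^ 2 := by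
  calc ∑ b, |yU k U ω b| ≤ ∑ _b : Fin N, (N : ℝ) :=
        Finset.sum_le_sum fun b _ => abs_yv_le k _ b
    _ = (N : ℝ) ^ 2 := by simp [pow_two]

private theorem l0c_blk_le (κ : Fin N → Fin K) {d : Fin K → ℝ} {D : ℝ} (hd : ∀ l, |d l| ≤ D)
    (x : Fin N → ℝ) : ∑ a, |blk κ d x a| ≤ D * ∑ a, |x a| := by
  rw [Finset.mul_sum]
  refine Finset.sum_le_sum fun a _ => ?_
  unfold blk
  rw [abs_mul]
  exact mul_le_mul_of_nonneg_right (hd _) (abs_nonneg _)

private theorem l0c_pow4 {x T D : ℝ} (h : |x| ≤ (1 + D) * T) :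
    x ^ 4 ≤ (1 + D) ^ 4 * T ^ 4 := by
  have h1 : x ^ 4 = |x| ^ 4 := by
    rw [show (4 : ℕ) = 2 * 2 from rfl, pow_mul, pow_mul, sq_abs]
  rw [h1, ← mul_pow]
  exact pow_le_pow_left₀ (abs_nonneg _) h 4

private theorem l0c_exp4 {x : ℝ} (hx : 0 ≤ x) : x ^ 4 ≤ 24 * Real.exp x := by
  have h := Real.pow_div_factorial_le_exp x hx 4
  have h2 : ((Nat.factorial 4 : ℕ) : ℝ) = 24 := by norm_num [Nat.factorial]
  rw [h2] at h
  linarith

private theorem l0c_bdT_nonneg (D : ℝ) (k : ℕ) (θ : Par N K) (q : Fin N → ℝ) (U : ON N)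
    (ω : Fin k → EN N) : 0 ≤ bdT D k θ q U ω := by
  have h4 : ∀ x : ℝ, 0 ≤ x ^ 4 := fun x => by positivity
  unfold bdT
  refine mul_nonneg (by positivity) ?_
  refine add_nonneg (add_nonneg (mul_nonneg (sq_nonneg _) (h4 _)) (h4 _)) ?_
  refine Finset.sum_nonneg fun i _ => ?_
  exact add_nonneg (add_nonneg (add_nonneg (mul_nonneg (sq_nonneg _) (h4 _)) (h4 _))
    (mul_nonneg (sq_nonneg _) (h4 _))) (h4 _)

private theorem l0c_bdT_le (k : ℕ) (θ : Par N K) {D : ℝ} (hD0 : 0 ≤ D) (he : ∀ l, |θ.e l| ≤ D)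
    (hc : ∀ (i : ℕ) l, |θ.c i l| ≤ D) : ∃ C : ℝ, 0 ≤ C ∧ ∀ (q : Fin N → ℝ), UZ q →
      ∀ (U : ON N) (ω : Fin k → EN N),
      |bdT D k θ q U ω| ≤ C * Real.exp (C * ∑ j, βN (ω j)) := by
  set M0 : ℝ := (1 + D) ^ 4 * (24 * Real.exp ((N : ℝ) ^ 2)) with hM0
  have hM0' : 0 ≤ M0 := by positivity
  set A : ℝ := (2 + 4 * (k : ℝ)) * ((1 + 2 * D) ^ 2 * M0 + M0 +
    k * ((1 + 2 * D) ^ 2 * M0 + M0 + (1 + 2 * D) ^ 2 * M0 + M0)) with hA
  have hA0 : 0 ≤ A := by positivity
  refine ⟨A + 1, by positivity, fun q hq U ω => ?_⟩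
  rw [abs_of_nonneg (l0c_bdT_nonneg D k θ q U ω)]
  set S : ℝ := ∑ j, βN (ω j) with hS
  have hS0 : 0 ≤ S := Finset.sum_nonneg fun j _ => by unfold βN; positivity
  set T : ℝ := (N : ℝ) ^ 2 + S with hT
  have hT0 : 0 ≤ T := by positivity
  have hN2 : (0 : ℝ) ≤ (N : ℝ) ^ 2 := by positivity
  have hy : ∑ b, |yU k U ω b| ≤ T := (l0c_yle k U ω).trans (by linarith)
  have hg : ∀ i : Fin k, ∑ b, |gU k i U ω b| ≤ T :=
    fun i => (l0c_gle k U ω i.castSucc).trans (by linarith)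
  have key : ∀ z : Fin N → ℝ, ∑ b, |z b| ≤ (1 + D) * T →
      ip q z ^ 4 ≤ M0 * Real.exp S := by
    intro z hz
    refine (l0c_pow4 ((l0c_ip_le hq z).trans hz)).trans ?_
    have h1 := l0c_exp4 hT0
    rw [hT, Real.exp_add] at h1
    calc (1 + D) ^ 4 * T ^ 4 ≤ (1 + D) ^ 4 * (24 * (Real.exp ((N : ℝ) ^ 2) * Real.exp S)) :=
          mul_le_mul_of_nonneg_left h1 (by positivity)
      _ = M0 * Real.exp S := by rw [hM0]; ring
  have k1 : ip q (yU k U ω) ^ 4 ≤ M0 * Real.exp S := key _ (by nlinarith)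
  have k2 : ip q (blk θ.κ θ.e (yU k U ω)) ^ 4 ≤ M0 * Real.exp S := by
    refine key _ ((l0c_blk_le θ.κ he _).trans ?_)
    nlinarith [mul_le_mul_of_nonneg_left hy hD0]
  have k3 : ∀ i : Fin k, ip q (gU k i U ω) ^ 4 ≤ M0 * Real.exp S :=
    fun i => key _ (by nlinarith [hg i])
  have k4 : ∀ i : Fin k, ip q (blk θ.κ (θ.c i) (yU k U ω)) ^ 4 ≤ M0 * Real.exp S := by
    intro i
    refine key _ ((l0c_blk_le θ.κ (hc i) _).trans ?_)
    nlinarith [mul_le_mul_of_nonneg_left hy hD0]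
  have k5 : ∀ i : Fin k, ip q (blk θ.κ (θ.c i) (gU k i U ω)) ^ 4 ≤ M0 * Real.exp S := by
    intro i
    refine key _ ((l0c_blk_le θ.κ (hc i) _).trans ?_)
    nlinarith [mul_le_mul_of_nonneg_left (hg i) hD0]
  have hsq : 0 ≤ (1 + 2 * D) ^ 2 := sq_nonneg _
  have hle : bdT D k θ q U ω ≤ A * Real.exp S := by
    unfold bdT
    have h1 : ∑ i : Fin k, ((1 + 2 * D) ^ 2 * ip q (gU k i U ω) ^ 4 +
        ip q (blk θ.κ (θ.c i) (yU k U ω)) ^ 4 + (1 + 2 * D) ^ 2 * ip q (yU k U ω) ^ 4 +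
        ip q (blk θ.κ (θ.c i) (gU k i U ω)) ^ 4) ≤
        ∑ _i : Fin k, ((1 + 2 * D) ^ 2 * (M0 * Real.exp S) + M0 * Real.exp S +
          (1 + 2 * D) ^ 2 * (M0 * Real.exp S) + M0 * Real.exp S) := by
      refine Finset.sum_le_sum fun i _ => ?_
      have a1 := mul_le_mul_of_nonneg_left (k3 i) hsq
      have a2 := mul_le_mul_of_nonneg_left k1 hsq
      have a3 := k4 i
      have a4 := k5 i
      linarith
    rw [Finset.sum_const, Finset.card_univ, Fintype.card_fin, nsmul_eq_mul] at h1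
    have h2 := mul_le_mul_of_nonneg_left k1 hsq
    calc _ ≤ (2 + 4 * (k : ℝ)) * ((1 + 2 * D) ^ 2 * (M0 * Real.exp S) + M0 * Real.exp S +
          k * ((1 + 2 * D) ^ 2 * (M0 * Real.exp S) + M0 * Real.exp S +
          (1 + 2 * D) ^ 2 * (M0 * Real.exp S) + M0 * Real.exp S)) := by
          refine mul_le_mul_of_nonneg_left ?_ (by positivity)
          linarith
      _ = A * Real.exp S := by rw [hA]; ring
  refine hle.trans ?_
  refine mul_le_mul (by linarith) (Real.exp_le_exp.2 ?_) (Real.exp_pos _).le (by linarith)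
  nlinarith

/-! ### finite sums -/

section sums
variable {E : Type} [MeasurableSpace E]
variable {m : Measure E} [IsProbabilityMeasure m] {ζ : ℕ → ℝ} {β : E → ℝ}

private theorem l0c_cmul {n : ℕ} (c : ℝ) (hβ : Dom m β) {Φ : (Fin n → E) → ℝ} (h : Tame β Φ) :
    Tame β (fun ω => c * Φ ω) := Tame.mul hβ (Tame.const hβ c) h

private theorem l0c_tsum {ι : Type} {n : ℕ} (hβ : Dom m β) (s : Finset ι)
    {f : ι → (Fin n → E) → ℝ} (h : ∀ j, Tame β (f j)) : Tame β (fun ω => ∑ j ∈ s, f j ω) := by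
  classical
  induction s using Finset.induction_on with
  | empty => simpa using Tame.const (n := n) hβ 0
  | insert a s ha ih =>
    have e : (fun ω => ∑ j ∈ insert a s, f j ω) = (fun ω => f a ω + ∑ j ∈ s, f j ω) := by
      funext ω
      rw [Finset.sum_insert ha]
    rw [e]
    exact Tame.add hβ (h a) ih

private theorem l0c_psum {ι : Type} (hβ : Dom m β) (hζ : Exps ζ) (n i : ℕ)
    {H : (Fin n → E) → ℝ} (hH : Ham β H) (s : Finset ι) {f : ι → (Fin n → E) → ℝ}
    (h : ∀ j, Tame β (f j)) :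
    pathE m ζ n i H (fun ω => ∑ j ∈ s, f j ω) = ∑ j ∈ s, pathE m ζ n i H (f j) := by
  classical
  induction s using Finset.induction_on with
  | empty => simpa using pathE_const hβ hζ n i hH 0
  | insert a s ha ih =>
    have e : (fun ω => ∑ j ∈ insert a s, f j ω) = (fun ω => f a ω + ∑ j ∈ s, f j ω) := by
      funext ω
      rw [Finset.sum_insert ha]
    rw [e, pathE_add hβ hζ n i hH (h a) (l0c_tsum hβ s h), Finset.sum_insert ha, ih]

end sums

/-! ### the average over the reflection vector -/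

private theorem l0c_mq (a : Fin N) :
    Measurable (fun W : Fin N → Fin N → ℝ => qv a (avec W (ev a))) :=
  (measurable_qv a).comp (measurable_avec.comp (measurable_id.prodMk measurable_const))

private noncomputable def l0c_G (a : Fin N) (z : Fin N → ℝ) : ℝ := ∑ b, wrefl a b * z b ^ 4

private theorem l0c_int (a : Fin N) (z : Fin N → ℝ) :
    Integrable (fun W => ip (qv a (avec W (ev a))) z ^ 4) (kap N a.val) := by
  refine Integrable.of_bound (l0c_ip (l0c_mq a) measurable_const |>.pow_const 4).aestronglyMeasurable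
    ((∑ b, |z b|) ^ 4) (Filter.Eventually.of_forall fun W => ?_)
  rw [Real.norm_eq_abs, abs_pow]
  exact pow_le_pow_left₀ (abs_nonneg _) (l0c_ip_le (uz_qv _ _) z) 4

private theorem l0c_G_blk (a : Fin N) (κ : Fin N → Fin K) {d : Fin K → ℝ} {D : ℝ}
    (hd : ∀ l, |d l| ≤ D) (x : Fin N → ℝ) : l0c_G a (blk κ d x) ≤ D ^ 4 * l0c_G a x := by
  unfold l0c_G blk
  rw [Finset.mul_sum]
  refine Finset.sum_le_sum fun b _ => ?_
  rw [mul_pow]
  have h1 : d (κ b) ^ 4 ≤ D ^ 4 := by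
    have h2 : d (κ b) ^ 4 = |d (κ b)| ^ 4 := by
      rw [show (4 : ℕ) = 2 * 2 from rfl, pow_mul, pow_mul, sq_abs]
    rw [h2]
    exact pow_le_pow_left₀ (abs_nonneg _) (hd _) 4
  have h3 : 0 ≤ wrefl a b := wrefl_nonneg a b
  have h4 : 0 ≤ x b ^ 4 := by positivity
  calc wrefl a b * (d (κ b) ^ 4 * x b ^ 4) ≤ wrefl a b * (D ^ 4 * x b ^ 4) :=
        mul_le_mul_of_nonneg_left (mul_le_mul_of_nonneg_right h1 h4) h3
    _ = _ := by ring

private def l0c_IL {X : Type*} [MeasurableSpace X] (μ : Measure X) (f : X → ℝ) (u : ℝ) : Prop :=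
  Integrable f μ ∧ ∫ x, f x ∂μ ≤ u

private theorem l0c_IL_add {X : Type*} [MeasurableSpace X] {μ : Measure X} {f g : X → ℝ} {u v : ℝ}
    (hf : l0c_IL μ f u) (hg : l0c_IL μ g v) : l0c_IL μ (fun x => f x + g x) (u + v) :=
  ⟨hf.1.add hg.1, by
    rw [integral_add hf.1 hg.1]
    exact add_le_add hf.2 hg.2⟩

private theorem l0c_IL_cmul {X : Type*} [MeasurableSpace X] {μ : Measure X} {f : X → ℝ} {u c : ℝ}
    (hc : 0 ≤ c) (hf : l0c_IL μ f u) : l0c_IL μ (fun x => c * f x) (c * u) :=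
  ⟨hf.1.const_mul c, by
    rw [integral_const_mul]
    exact mul_le_mul_of_nonneg_left hf.2 hc⟩

private theorem l0c_IL_sum {X : Type*} [MeasurableSpace X] {μ : Measure X} {ι : Type*}
    (s : Finset ι) {f : ι → X → ℝ} {u : ι → ℝ} (hf : ∀ i, l0c_IL μ (f i) (u i)) :
    l0c_IL μ (fun x => ∑ i ∈ s, f i x) (∑ i ∈ s, u i) :=
  ⟨integrable_finsetSum _ fun i _ => (hf i).1, by
    rw [integral_finsetSum _ fun i _ => (hf i).1]
    exact Finset.sum_le_sum fun i _ => (hf i).2⟩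

private theorem l0c_avg (k : ℕ) (θ : Par N K) {D : ℝ} (hD0 : 0 ≤ D) (he : ∀ l, |θ.e l| ≤ D)
    (hc : ∀ (i : ℕ) l, |θ.c i l| ≤ D) (a : Fin N) (U : ON N) (ω : Fin k → EN N) :
    ∫ W, bdT D k θ (qv a (avec W (ev a))) U ω ∂kap N a.val ≤
      (2 + 4 * (k : ℝ)) * (((1 + 2 * D) ^ 2 + D ^ 4) * (1 + k) * l0c_G a (yU k U ω) +
        ((1 + 2 * D) ^ 2 + D ^ 4) * ∑ i : Fin k, l0c_G a (gU k i U ω)) := by
  have hJ : ∀ z, ∫ W, ip (qv a (avec W (ev a))) z ^ 4 ∂kap N a.val ≤ l0c_G a z :=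
    fun z => refl_mom4 (kap_isHaarS N a.val) z
  have hsq : 0 ≤ (1 + 2 * D) ^ 2 := sq_nonneg _
  have hIL : ∀ z, l0c_IL (kap N a.val) (fun W => ip (qv a (avec W (ev a))) z ^ 4) (l0c_G a z) :=
    fun z => ⟨l0c_int a z, hJ z⟩
  have h1 := l0c_IL_add (l0c_IL_add (l0c_IL_cmul hsq (hIL (yU k U ω)))
    (hIL (blk θ.κ θ.e (yU k U ω))))
    (l0c_IL_sum Finset.univ fun i : Fin k =>
      l0c_IL_add (l0c_IL_add (l0c_IL_add (l0c_IL_cmul hsq (hIL (gU k i U ω)))
        (hIL (blk θ.κ (θ.c i) (yU k U ω)))) (l0c_IL_cmul hsq (hIL (yU k U ω))))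
        (hIL (blk θ.κ (θ.c i) (gU k i U ω))))
  unfold bdT
  rw [integral_const_mul]
  refine mul_le_mul_of_nonneg_left (h1.2.trans ?_) (by positivity)
  have t2 := l0c_G_blk a θ.κ he (yU k U ω)
  have t3 : ∀ i : Fin k, (1 + 2 * D) ^ 2 * l0c_G a (gU k i U ω) +
      l0c_G a (blk θ.κ (θ.c i) (yU k U ω)) + (1 + 2 * D) ^ 2 * l0c_G a (yU k U ω) +
      l0c_G a (blk θ.κ (θ.c i) (gU k i U ω)) ≤
      ((1 + 2 * D) ^ 2 + D ^ 4) * l0c_G a (yU k U ω) +
        ((1 + 2 * D) ^ 2 + D ^ 4) * l0c_G a (gU k i U ω) := by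
    intro i
    have s2 := l0c_G_blk a θ.κ (hc i) (yU k U ω)
    have s3 := l0c_G_blk a θ.κ (hc i) (gU k i U ω)
    linarith
  have t4 := Finset.sum_le_sum (s := Finset.univ) fun i (_ : i ∈ Finset.univ) => t3 i
  have t5 : ∑ i : Fin k, (((1 + 2 * D) ^ 2 + D ^ 4) * l0c_G a (yU k U ω) +
      ((1 + 2 * D) ^ 2 + D ^ 4) * l0c_G a (gU k i U ω)) =
      k * (((1 + 2 * D) ^ 2 + D ^ 4) * l0c_G a (yU k U ω)) +
        ((1 + 2 * D) ^ 2 + D ^ 4) * ∑ i : Fin k, l0c_G a (gU k i U ω) := by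
    rw [Finset.sum_add_distrib, Finset.sum_const, Finset.card_univ, Fintype.card_fin,
      nsmul_eq_mul, ← Finset.mul_sum]
  rw [t5] at t4
  linarith

/-- AVERAGE OF `psiT`.  PROOF.  `∫_W psiT U q_W = pathE (HU U) (∫_W bdT ..)` (`pathE_integral_swap`), `∫_W <q_W, z>^4 ≤ Σ_b wrefl a b z_b^4` (`refl_mom4`),
`(E z)_b^4 ≤ D^4 z_b^4`; integrate over `U`, `tow_y4`, `tow_g4`, `sum_wrefl_le`. -/
theorem psiT_avg {P : Measure (ON N)} (hP : HaarO P) (A : Measure (Fin N → Bool))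
    [IsProbabilityMeasure A] {ζ : ℕ → ℝ} (hζ : Exps ζ) (k : ℕ) (θ : Par N K) {D : ℝ} (hD0 : 0 ≤ D)
    (he : ∀ l, |θ.e l| ≤ D) (hc : ∀ (i : ℕ) l, |θ.c i l| ≤ D) {A₀ : ℝ}
    (hA : ∀ b, (N : ℝ) ≤ A₀ * ((Finset.univ.filter (fun a => θ.κ a = θ.κ b)).card : ℝ))
    (a : Fin N) :
    ∫ U, ∫ W, psiT P A ζ D k θ U (qv a (avec W (ev a))) ∂kap N a.val ∂P ≤
      (2 + 4 * (k : ℝ)) * (14000 * ((((1 + 2 * D) ^ 2 + D ^ 4) * (1 + k)) * (3 * A₀ ^ 2) +
        k * (((1 + 2 * D) ^ 2 + D ^ 4) * (3 * A₀ ^ 2 * (64 * (2 * (3 * D ^ 2 + 2) ^ 2 + 4)))))) := by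
  have hm := prob_mN hP A
  have hPp := hP.prob
  have hβ := dom_mN hP A
  set c : ℝ := (1 + 2 * D) ^ 2 + D ^ 4 with hcdef
  have hc0 : 0 ≤ c := by positivity
  -- tame functions
  have hβ0 : ∀ x : EN N, 0 ≤ βN x := fun x => hβ.nonneg x
  have hyb : ∀ (U : ON N) (b : Fin N) (ω : Fin k → EN N),
      |yU k U ω b ^ 4| ≤ 24 * Real.exp ((N : ℝ)) * Real.exp (1 * ∑ j, βN (ω j)) := by
    intro U b ω
    have hS : 0 ≤ ∑ j, βN (ω j) := Finset.sum_nonneg fun j _ => hβ0 _
    have h1 : |yU k U ω b| ≤ N := abs_yv_le k _ b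
    have h2 : |yU k U ω b| ^ 4 ≤ (N : ℝ) ^ 4 := pow_le_pow_left₀ (abs_nonneg _) h1 4
    have h3 := l0c_exp4 (x := (N : ℝ)) (Nat.cast_nonneg N)
    have h4 : 1 ≤ Real.exp (1 * ∑ j, βN (ω j)) := Real.one_le_exp (by linarith)
    have h5 : 0 < Real.exp (N : ℝ) := Real.exp_pos _
    rw [abs_pow]
    nlinarith
  have hgb : ∀ (U : ON N) (i : Fin k) (b : Fin N) (ω : Fin k → EN N),
      |gU k i U ω b ^ 4| ≤ 24 * Real.exp (1 * ∑ j, βN (ω j)) := by
    intro U i b ω
    have hS : 0 ≤ ∑ j, βN (ω j) := Finset.sum_nonneg fun j _ => hβ0 _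
    have h1 : |gU k i U ω b| ≤ ∑ j, βN (ω j) :=
      (Finset.single_le_sum (f := fun b => |gU k i U ω b|) (fun _ _ => abs_nonneg _)
        (Finset.mem_univ b)).trans (l0c_gle k U ω i.castSucc)
    rw [abs_pow, one_mul]
    exact (pow_le_pow_left₀ (abs_nonneg _) h1 4).trans (l0c_exp4 hS)
  have hym : ∀ b, Measurable (Function.uncurry fun (U : ON N) (ω : Fin k → EN N) =>
      yU k U ω b ^ 4) := fun b => ((measurable_pi_apply b).comp (l0c_yU k)).pow_const 4
  have hgm : ∀ (i : Fin k) b, Measurable (Function.uncurry fun (U : ON N) (ω : Fin k → EN N) =>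
      gU k i U ω b ^ 4) := fun i b => ((measurable_pi_apply b).comp (l0c_gU k i)).pow_const 4
  have hyt : ∀ U b, Tame (βN (N := N)) (fun ω : Fin k → EN N => yU k U ω b ^ 4) := by
    intro U b
    have hmb : Measurable (fun ω : Fin k → EN N => yU k U ω b) :=
      ((measurable_pi_apply b).comp (l0c_yU k)).comp (measurable_prodMk_left (x := U))
    refine ⟨hmb.pow_const 4, 24 * Real.exp (N : ℝ) + 1, by positivity,
      fun ω => (hyb U b ω).trans ?_⟩
    have hS : 0 ≤ ∑ j, βN (ω j) := Finset.sum_nonneg fun j _ => hβ0 _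
    have h5 : 0 < Real.exp (N : ℝ) := Real.exp_pos _
    refine mul_le_mul (by linarith) (Real.exp_le_exp.2 ?_) (Real.exp_pos _).le (by positivity)
    nlinarith [mul_nonneg h5.le hS]
  have hgt : ∀ U (i : Fin k) b, Tame (βN (N := N)) (fun ω : Fin k → EN N =>
      gU k i U ω b ^ 4) := by
    intro U i b
    have hmb : Measurable (fun ω : Fin k → EN N => gU k i U ω b) :=
      ((measurable_pi_apply b).comp (l0c_gU k i)).comp (measurable_prodMk_left (x := U))
    refine ⟨hmb.pow_const 4, 24, by positivity,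
      fun ω => (hgb U i b ω).trans ?_⟩
    have hS : 0 ≤ ∑ j, βN (ω j) := Finset.sum_nonneg fun j _ => hβ0 _
    refine mul_le_mul le_rfl (Real.exp_le_exp.2 ?_) (Real.exp_pos _).le (by positivity)
    nlinarith
  have hGyt : ∀ U, Tame (βN (N := N)) (fun ω : Fin k → EN N => l0c_G a (yU k U ω)) :=
    fun U => l0c_tsum hβ _ fun b => l0c_cmul _ hβ (hyt U b)
  have hGgt : ∀ U (i : Fin k), Tame (βN (N := N)) (fun ω : Fin k → EN N =>
      l0c_G a (gU k i U ω)) := fun U i => l0c_tsum hβ _ fun b => l0c_cmul _ hβ (hgt U i b)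
  obtain ⟨C, hC0, hC⟩ := l0c_bdT_le (N := N) k θ hD0 he hc
  -- fixed `U`
  have hU : ∀ U, ∫ W, psiT P A ζ D k θ U (qv a (avec W (ev a))) ∂kap N a.val ≤
      (2 + 4 * (k : ℝ)) * (c * (1 + k) * ∑ b, wrefl a b *
        pathE (mN P A) ζ k 1 (HU k θ U) (fun ω => yU k U ω b ^ 4) +
        c * ∑ i : Fin k, ∑ b, wrefl a b *
        pathE (mN P A) ζ k 1 (HU k θ U) (fun ω => gU k i U ω b ^ 4)) := by
    intro U
    have hFm : Measurable (Function.uncurry fun (W : Fin N → Fin N → ℝ) (ω : Fin k → EN N) =>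
        bdT D k θ (qv a (avec W (ev a))) U ω) :=
      l0c_bdT D k θ (q := fun x : (Fin N → Fin N → ℝ) × (Fin k → EN N) =>
        qv a (avec x.1 (ev a))) (y := fun x => (U, x.2)) ((l0c_mq a).comp measurable_fst)
        (measurable_const.prodMk measurable_snd)
    have hsw := pathE_integral_swap hβ hζ (kap N a.val) k 1 (HU_ham k θ U) hFm hC0
      (fun W ω => hC _ (uz_qv _ _) U ω)
    have e1 : ∫ W, psiT P A ζ D k θ U (qv a (avec W (ev a))) ∂kap N a.val =
        pathE (mN P A) ζ k 1 (HU k θ U) (fun ω =>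
          ∫ W, bdT D k θ (qv a (avec W (ev a))) U ω ∂kap N a.val) := by
      rw [hsw]
      rfl
    rw [e1]
    have hL : Tame (βN (N := N)) (fun ω : Fin k → EN N =>
        ∫ W, bdT D k θ (qv a (avec W (ev a))) U ω ∂kap N a.val) := by
      refine ⟨?_, C, hC0, fun ω => ?_⟩
      · exact (hFm.stronglyMeasurable.integral_prod_left' (μ := kap N a.val)).measurable
      · have h := norm_integral_le_of_norm_le_const (μ := kap N a.val)
          (f := fun W => bdT D k θ (qv a (avec W (ev a))) U ω)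
          (C := C * Real.exp (C * ∑ j, βN (ω j)))
          (Filter.Eventually.of_forall fun W => by
            rw [Real.norm_eq_abs]
            exact hC _ (uz_qv _ _) U ω)
        simpa using h
    have hR : Tame (βN (N := N)) (fun ω : Fin k → EN N =>
        (2 + 4 * (k : ℝ)) * (c * (1 + k) * l0c_G a (yU k U ω) +
        c * ∑ i : Fin k, l0c_G a (gU k i U ω))) :=
      l0c_cmul _ hβ (Tame.add hβ (l0c_cmul _ hβ (hGyt U))
        (l0c_cmul _ hβ (l0c_tsum hβ _ fun i => hGgt U i)))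
    refine (pathE_mono hβ hζ k 1 (HU_ham k θ U) hL hR
      (fun ω => l0c_avg k θ hD0 he hc a U ω)).trans (le_of_eq ?_)
    rw [pathE_mul, pathE_add hβ hζ k 1 (HU_ham k θ U) (l0c_cmul _ hβ (hGyt U))
        (l0c_cmul _ hβ (l0c_tsum hβ _ fun i => hGgt U i)), pathE_mul, pathE_mul,
      l0c_psum hβ hζ k 1 (HU_ham k θ U) Finset.univ (fun i => hGgt U i)]
    have e2 : pathE (mN P A) ζ k 1 (HU k θ U) (fun ω => l0c_G a (yU k U ω)) =
        ∑ b, wrefl a b * pathE (mN P A) ζ k 1 (HU k θ U) (fun ω => yU k U ω b ^ 4) := by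
      unfold l0c_G
      rw [l0c_psum hβ hζ k 1 (HU_ham k θ U) Finset.univ (fun b => l0c_cmul _ hβ (hyt U b))]
      exact Finset.sum_congr rfl fun b _ => pathE_mul _ _ _ _ _
    have e3 : ∀ i : Fin k, pathE (mN P A) ζ k 1 (HU k θ U) (fun ω => l0c_G a (gU k i U ω)) =
        ∑ b, wrefl a b * pathE (mN P A) ζ k 1 (HU k θ U) (fun ω => gU k i U ω b ^ 4) := by
      intro i
      unfold l0c_G
      rw [l0c_psum hβ hζ k 1 (HU_ham k θ U) Finset.univ (fun b => l0c_cmul _ hβ (hgt U i b))]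
      exact Finset.sum_congr rfl fun b _ => pathE_mul _ _ _ _ _
    rw [e2, Finset.sum_congr rfl fun i _ => e3 i]
  -- integrability in `U`
  obtain ⟨CH, hCH0, hCH⟩ := HU_bound (N := N) k θ
  obtain ⟨K1, hK1, hK1b⟩ := pathE_bound hβ k CH 1 hCH0 zero_le_one
  have hHb : ∀ (U : ON N) (ω : Fin k → EN N), |HU k θ U ω| ≤ CH + CH * ∑ j, βN (ω j) :=
    fun U ω => (hCH U ω).trans (le_of_eq (by ring))
  have hyI : ∀ b, Integrable (fun U => pathE (mN P A) ζ k 1 (HU k θ U)
      (fun ω => yU k U ω b ^ 4)) P := by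
    intro b
    refine Integrable.of_bound (measurable_pathE (mN P A) ζ k 1 (A := ON N) (H := HU k θ)
      (measurable_HU k θ) (hym b)).aestronglyMeasurable
      (24 * Real.exp (N : ℝ) * (K1 * Real.exp (K1 * CH))) (Filter.Eventually.of_forall fun U => ?_)
    rw [Real.norm_eq_abs]
    exact hK1b ζ hζ 1 CH _ hCH0 (by positivity) (HU k θ U) _ (HU_ham k θ U).meas (hyt U b).meas
      (hHb U) (hyb U b)
  have hgI : ∀ (i : Fin k) b, Integrable (fun U => pathE (mN P A) ζ k 1 (HU k θ U)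
      (fun ω => gU k i U ω b ^ 4)) P := by
    intro i b
    refine Integrable.of_bound (measurable_pathE (mN P A) ζ k 1 (A := ON N) (H := HU k θ)
      (measurable_HU k θ) (hgm i b)).aestronglyMeasurable
      (24 * (K1 * Real.exp (K1 * CH))) (Filter.Eventually.of_forall fun U => ?_)
    rw [Real.norm_eq_abs]
    exact hK1b ζ hζ 1 CH _ hCH0 (by positivity) (HU k θ U) _ (HU_ham k θ U).meas (hgt U i b).meas
      (hHb U) (hgb U i b)
  have hI1 : Integrable (fun U => c * (1 + k) * ∑ b, wrefl a b *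
        pathE (mN P A) ζ k 1 (HU k θ U) (fun ω => yU k U ω b ^ 4)) P :=
    (integrable_finsetSum _ fun b _ => (hyI b).const_mul _).const_mul _
  have hI2 : Integrable (fun U => c * ∑ i : Fin k, ∑ b, wrefl a b *
        pathE (mN P A) ζ k 1 (HU k θ U) (fun ω => gU k i U ω b ^ 4)) P :=
    (integrable_finsetSum _ fun i _ =>
      integrable_finsetSum _ fun b _ => (hgI i b).const_mul _).const_mul _
  have hmain : ∫ U, ∫ W, psiT P A ζ D k θ U (qv a (avec W (ev a))) ∂kap N a.val ∂P ≤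
      ∫ U, (2 + 4 * (k : ℝ)) * (c * (1 + k) * ∑ b, wrefl a b *
        pathE (mN P A) ζ k 1 (HU k θ U) (fun ω => yU k U ω b ^ 4) +
        c * ∑ i : Fin k, ∑ b, wrefl a b *
        pathE (mN P A) ζ k 1 (HU k θ U) (fun ω => gU k i U ω b ^ 4)) ∂P := by
    refine integral_mono_of_nonneg (Filter.Eventually.of_forall fun U => ?_)
      ((hI1.add hI2).const_mul _) (Filter.Eventually.of_forall hU)
    refine integral_nonneg fun W => ?_
    have hbt : Tame (βN (N := N)) (bdT D k θ (qv a (avec W (ev a))) U) :=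
      ⟨l0c_bdT D k θ (q := fun _ : Fin k → EN N => qv a (avec W (ev a))) (y := fun ω => (U, ω))
        measurable_const (measurable_const.prodMk measurable_id), C, hC0,
        fun ω => hC _ (uz_qv _ _) U ω⟩
    have h0 := pathE_mono hβ hζ k 1 (HU_ham k θ U) (Tame.const hβ 0) hbt
      (fun ω => l0c_bdT_nonneg D k θ _ U ω)
    rw [pathE_const hβ hζ k 1 (HU_ham k θ U) 0] at h0
    exact h0
  refine hmain.trans ?_
  rw [integral_const_mul]
  refine mul_le_mul_of_nonneg_left ?_ (by positivity)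
  rw [integral_add hI1 hI2, integral_const_mul, integral_const_mul,
    integral_finsetSum _ (fun b _ => (hyI b).const_mul _),
    integral_finsetSum _ (fun i _ =>
      integrable_finsetSum _ fun b _ => (hgI i b).const_mul _)]
  set Y : ℝ := 3 * A₀ ^ 2 with hY
  set Z : ℝ := 3 * A₀ ^ 2 * (64 * (2 * (3 * D ^ 2 + 2) ^ 2 + 4)) with hZ
  have hY0 : 0 ≤ Y := by positivity
  have hZ0 : 0 ≤ Z := by positivity
  have hw := sum_wrefl_le (N := N) a
  have u1 : ∑ b, ∫ U, wrefl a b * pathE (mN P A) ζ k 1 (HU k θ U) (fun ω => yU k U ω b ^ 4) ∂P ≤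
      14000 * Y := by
    calc _ ≤ ∑ b, wrefl a b * Y := by
          refine Finset.sum_le_sum fun b _ => ?_
          rw [integral_const_mul]
          exact mul_le_mul_of_nonneg_left (tow_y4 hP A hζ k θ b (hA b)) (wrefl_nonneg a b)
      _ = (∑ b, wrefl a b) * Y := by rw [Finset.sum_mul]
      _ ≤ 14000 * Y := mul_le_mul_of_nonneg_right hw hY0
  have u2 : ∀ i : Fin k, ∫ U, ∑ b, wrefl a b *
      pathE (mN P A) ζ k 1 (HU k θ U) (fun ω => gU k i U ω b ^ 4) ∂P ≤ 14000 * Z := by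
    intro i
    rw [integral_finsetSum _ (fun b _ => (hgI i b).const_mul _)]
    calc _ ≤ ∑ b, wrefl a b * Z := by
          refine Finset.sum_le_sum fun b _ => ?_
          rw [integral_const_mul]
          exact mul_le_mul_of_nonneg_left (tow_g4 hP A hζ k θ hD0 hc i b (hA b))
            (wrefl_nonneg a b)
      _ = (∑ b, wrefl a b) * Z := by rw [Finset.sum_mul]
      _ ≤ 14000 * Z := mul_le_mul_of_nonneg_right hw hZ0
  have u3 := Finset.sum_le_sum (s := Finset.univ) fun i (_ : i ∈ Finset.univ) => u2 i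
  rw [Finset.sum_const, Finset.card_univ, Fintype.card_fin, nsmul_eq_mul] at u3
  have hk0 : (0 : ℝ) ≤ c * (1 + k) := by positivity
  have v1 := mul_le_mul_of_nonneg_left u1 hk0
  have v2 := mul_le_mul_of_nonneg_left u3 hc0
  calc _ ≤ c * (1 + k) * (14000 * Y) + c * (k * (14000 * Z)) := add_le_add v1 v2
    _ = 14000 * (c * (1 + k) * Y + k * (c * Z)) := by ring

end Crest.Agent.RI
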