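import Crest.Agent.RI.Level0A
import Crest.Agent.RI.Level0C

/-!
# Row 164, Part 7 (H6): level-0 concentration of the lower bound tower
-/

set_option autoImplicit false

namespace Crest.Agent.RI

open MeasureTheory ProbabilityTheory

variable {N K : ℕ}

/-- constant -/
noncomputable def cstT (D A₀ : ℝ) (k : ℕ) : ℝ :=
  2 * ((2 + 4 * (k : ℝ)) * (14000 * ((((1 + 2 * D) ^ 2 + D ^ 4) * (1 + k)) * (3 * A₀ ^ 2) +
        k * (((1 + 2 * D) ^ 2 + D ^ 4) * (3 * A₀ ^ 2 * (64 * (2 * (3 * D ^ 2 + 2) ^ 2 + 4)))))))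

private theorem L0_βN_nonneg (x : EN N) : 0 ≤ βN x :=
  add_nonneg (Finset.sum_nonneg (fun _ _ => abs_nonneg _)) (Finset.sum_nonneg (fun _ _ => abs_nonneg _))

private theorem L0_meas_e0 : Measurable (e0 : ON N → EN N) :=
  measurable_id.prodMk (measurable_const.prodMk (measurable_const.prodMk measurable_const))

private theorem L0_meas_cons (k : ℕ) :
    Measurable (fun p : (ON N × (Fin N → ℝ)) × (Fin k → EN N) =>
      (Fin.cons (e0 p.1.1) p.2 : Fin (k + 1) → EN N)) := by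
  rw [measurable_pi_iff]
  intro j
  refine Fin.cases ?_ (fun j => ?_) j
  · simp only [Fin.cons_zero]
    exact L0_meas_e0.comp (measurable_fst.comp measurable_fst)
  · simp only [Fin.cons_succ]
    exact (measurable_pi_apply j).comp measurable_snd

private theorem L0_meas_y (k : ℕ) (a : Fin N) :
    Measurable (fun p : (ON N × (Fin N → ℝ)) × (Fin k → EN N) => yU k p.1.1 p.2 a) :=
  (measurable_yv k a).comp (L0_meas_cons k)

private theorem L0_meas_g (k : ℕ) (i : Fin k) (a : Fin N) :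
    Measurable (fun p : (ON N × (Fin N → ℝ)) × (Fin k → EN N) => gU k i p.1.1 p.2 a) := by
  have h := (measurable_pi_apply (i.castSucc)).comp (L0_meas_cons (N := N) k)
  exact (measurable_pi_apply a).comp
    (measurable_fst.comp (measurable_snd.comp (measurable_snd.comp h)))

private theorem L0_meas_q (k : ℕ) (a : Fin N) :
    Measurable (fun p : (ON N × (Fin N → ℝ)) × (Fin k → EN N) => p.1.2 a) :=
  (measurable_pi_apply a).comp (measurable_snd.comp measurable_fst)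

private theorem L0_meas_ip {k : ℕ} {x : (ON N × (Fin N → ℝ)) × (Fin k → EN N) → Fin N → ℝ}
    (hx : ∀ a, Measurable (fun p => x p a)) :
    Measurable (fun p : (ON N × (Fin N → ℝ)) × (Fin k → EN N) => ip p.1.2 (x p)) := by
  unfold ip
  exact Finset.measurable_fun_sum _ (fun a _ => (L0_meas_q k a).mul (hx a))

private theorem L0_meas_bdT (D : ℝ) (k : ℕ) (θ : Par N K) :
    Measurable (Function.uncurry (fun (x : ON N × (Fin N → ℝ)) (ω : Fin k → EN N) =>
      bdT D k θ x.2 x.1 ω)) := by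
  have hy := L0_meas_ip (fun a => L0_meas_y (N := N) k a)
  have hey := L0_meas_ip (x := fun p => blk θ.κ θ.e (yU k p.1.1 p.2))
    (fun a => (L0_meas_y (N := N) k a).const_mul _)
  have hg := fun i : Fin k => L0_meas_ip (fun a => L0_meas_g (N := N) k i a)
  have hcy := fun i : Fin k => L0_meas_ip (x := fun p => blk θ.κ (θ.c i) (yU k p.1.1 p.2))
    (fun a => (L0_meas_y (N := N) k a).const_mul _)
  have hcg := fun i : Fin k => L0_meas_ip (x := fun p => blk θ.κ (θ.c i) (gU k i p.1.1 p.2))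
    (fun a => (L0_meas_g (N := N) k i a).const_mul _)
  unfold Function.uncurry bdT
  refine Measurable.const_mul (Measurable.add (Measurable.add ((hy.pow_const 4).const_mul _)
    (hey.pow_const 4)) (Finset.measurable_fun_sum _ (fun i _ => ?_))) _
  exact ((((hg i).pow_const 4).const_mul _).add ((hcy i).pow_const 4)).add
    ((hy.pow_const 4).const_mul _) |>.add ((hcg i).pow_const 4)

private theorem L0_meas_psi {P : Measure (ON N)} (hP : HaarO P) (A : Measure (Fin N → Bool))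
    [IsProbabilityMeasure A] (ζ : ℕ → ℝ) (k : ℕ) (θ : Par N K) (D : ℝ) :
    Measurable (fun x : ON N × (Fin N → ℝ) => psiT P A ζ D k θ x.1 x.2) := by
  have := prob_mN hP A
  have h0 : Measurable (fun p : (ON N × (Fin N → ℝ)) × (Fin k → EN N) => (p.1.1, p.2)) :=
    (measurable_fst.comp measurable_fst).prodMk measurable_snd
  have h1 : Measurable (Function.uncurry (fun (x : ON N × (Fin N → ℝ)) (ω : Fin k → EN N) =>
      HU k θ x.1 ω)) := by
    have h := (measurable_HU k θ).comp h0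
    simpa only [Function.comp_def, Function.uncurry_def] using h
  have h2 := measurable_pathE (mN P A) ζ k 1 (A := ON N × (Fin N → ℝ))
    (H := fun x ω => HU k θ x.1 ω) (Φ := fun x ω => bdT D k θ x.2 x.1 ω) h1 (L0_meas_bdT D k θ)
  unfold psiT
  exact h2

/-- bound of all linear forms -/
private theorem L0_ip_le {q x : Fin N → ℝ} (hq : UZ q) {R : ℝ} (hx : ∀ a, |x a| ≤ R) :
    |ip q x| ≤ N * R := by
  have hq1 : ∀ a, |q a| ≤ 1 := by
    intro a
    rcases hq with h | h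
    · have h2 : q a * q a ≤ ip q q :=
        Finset.single_le_sum (f := fun i => q i * q i) (fun i _ => mul_self_nonneg _)
          (Finset.mem_univ a)
      rw [h] at h2
      rw [← sq_le_one_iff_abs_le_one]
      nlinarith
    · rw [h]; simp
  unfold ip
  calc |∑ i, q i * x i| ≤ ∑ i, |q i * x i| := Finset.abs_sum_le_sum_abs _ _
    _ ≤ ∑ _i : Fin N, R := by
        refine Finset.sum_le_sum fun i _ => ?_
        rw [abs_mul]
        calc |q i| * |x i| ≤ 1 * R :=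
              mul_le_mul (hq1 i) (hx i) (abs_nonneg _) zero_le_one
          _ = R := one_mul R
    _ = N * R := by simp

private theorem L0_pow4 {u T : ℝ} (h : |u| ≤ T) : u ^ 4 ≤ T ^ 4 := by
  have := pow_le_pow_left₀ (abs_nonneg u) h 4
  rwa [show |u| ^ 4 = u ^ 4 from by rw [← abs_pow]; exact abs_of_nonneg (by positivity)] at this

private theorem L0_gU_le (k : ℕ) (i : Fin k) (U : ON N) (ω : Fin k → EN N) (a : Fin N) :
    |gU k i U ω a| ≤ ∑ j, βN (ω j) := by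
  have h1 : |gU k i U ω a| ≤ βN ((Fin.cons (e0 U) ω : Fin (k + 1) → EN N) i.castSucc) := by
    unfold gU βN
    have h2 := Finset.single_le_sum
      (f := fun a => |((Fin.cons (e0 U) ω : Fin (k + 1) → EN N) i.castSucc).2.2.1 a|)
      (fun j _ => abs_nonneg _) (Finset.mem_univ a)
    have h3 : 0 ≤ ∑ a, |((Fin.cons (e0 U) ω : Fin (k + 1) → EN N) i.castSucc).2.1 a| :=
      Finset.sum_nonneg (fun j _ => abs_nonneg _)
    linarith
  have h4 := Finset.single_le_sum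
    (f := fun j => βN ((Fin.cons (e0 U) ω : Fin (k + 1) → EN N) j))
    (fun j _ => L0_βN_nonneg _) (Finset.mem_univ i.castSucc)
  have h5 : βN (e0 U) = 0 := by simp [βN, e0]
  simp only [Fin.sum_univ_succ, Fin.cons_zero, Fin.cons_succ, h5, zero_add] at h4
  linarith

private theorem L0_bdT_nonneg (D : ℝ) (k : ℕ) (θ : Par N K) (q : Fin N → ℝ) (U : ON N)
    (ω : Fin k → EN N) : 0 ≤ bdT D k θ q U ω := by
  unfold bdT
  have : ∀ x : ℝ, 0 ≤ x ^ 4 := fun x => by positivity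
  positivity

/-- uniform bound of the bounding function -/
private theorem L0_bdT_le (k : ℕ) (θ : Par N K) {D : ℝ} (hD0 : 0 ≤ D)
    (he : ∀ l, |θ.e l| ≤ D) (hc : ∀ (i : ℕ) l, |θ.c i l| ≤ D) {q : Fin N → ℝ} (hq : UZ q)
    (U : ON N) (ω : Fin k → EN N) :
    bdT D k θ q U ω ≤ ((2 + 4 * (k : ℝ)) * (((1 + 2 * D) ^ 2 + 1) * (1 + 2 * k)) *
      (((N : ℝ) + 1) ^ 2 * (1 + D)) ^ 4) * Real.exp (4 * ∑ j, βN (ω j)) := by
  set S : ℝ := ∑ j, βN (ω j) with hS
  have hS0 : 0 ≤ S := Finset.sum_nonneg fun _ _ => L0_βN_nonneg _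
  have hN0 : (0 : ℝ) ≤ N := by positivity
  set R : ℝ := ((N : ℝ) + 1) * (1 + S) with hR
  have hR0 : 0 ≤ R := by positivity
  have hy : ∀ a, |yU k U ω a| ≤ R := by
    intro a
    have h : |yU k U ω a| ≤ N := abs_yv_le k _ a
    have : (N : ℝ) ≤ R := by rw [hR]; nlinarith
    exact h.trans this
  have hg : ∀ (i : Fin k) a, |gU k i U ω a| ≤ R := by
    intro i a
    have h : |gU k i U ω a| ≤ S := L0_gU_le k i U ω a
    have : S ≤ R := by rw [hR]; nlinarith
    exact h.trans this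
  have hblk : ∀ (d : Fin K → ℝ), (∀ l, |d l| ≤ D) → ∀ x : Fin N → ℝ, (∀ a, |x a| ≤ R) →
      ∀ a, |blk θ.κ d x a| ≤ D * R := by
    intro d hd x hx a
    unfold blk
    rw [abs_mul]
    exact mul_le_mul (hd _) (hx a) (abs_nonneg _) hD0
  set T : ℝ := ((N : ℝ) + 1) * ((1 + D) * R) with hT
  have hT0 : 0 ≤ T := by positivity
  have i1 : ∀ x : Fin N → ℝ, (∀ a, |x a| ≤ R) → ip q x ^ 4 ≤ T ^ 4 := by
    intro x hx
    refine L0_pow4 ((L0_ip_le hq hx).trans ?_)
    rw [hT]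
    have : 0 ≤ D * R := by positivity
    nlinarith
  have i2 : ∀ (d : Fin K → ℝ), (∀ l, |d l| ≤ D) → ∀ x : Fin N → ℝ, (∀ a, |x a| ≤ R) →
      ip q (blk θ.κ d x) ^ 4 ≤ T ^ 4 := by
    intro d hd x hx
    refine L0_pow4 ((L0_ip_le hq (hblk d hd x hx)).trans ?_)
    rw [hT]
    have : 0 ≤ D * R := by positivity
    nlinarith
  have hE : (0 : ℝ) ≤ (1 + 2 * D) ^ 2 := by positivity
  have j0 := i1 _ hy
  have j1 := i2 _ he _ hy
  have j2 : ∀ i : Fin k, ((1 + 2 * D) ^ 2 * ip q (gU k i U ω) ^ 4 +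
      ip q (blk θ.κ (θ.c i) (yU k U ω)) ^ 4 + (1 + 2 * D) ^ 2 * ip q (yU k U ω) ^ 4 +
      ip q (blk θ.κ (θ.c i) (gU k i U ω)) ^ 4) ≤ ((1 + 2 * D) ^ 2 + 1) * 2 * T ^ 4 := by
    intro i
    have h1 := mul_le_mul_of_nonneg_left (i1 _ (hg i)) hE
    have h2 := i2 _ (hc i) _ hy
    have h3 := mul_le_mul_of_nonneg_left j0 hE
    have h4 := i2 _ (hc i) _ (hg i)
    linarith
  have j3 : (1 + 2 * D) ^ 2 * ip q (yU k U ω) ^ 4 + ip q (blk θ.κ θ.e (yU k U ω)) ^ 4 +
      ∑ i : Fin k, ((1 + 2 * D) ^ 2 * ip q (gU k i U ω) ^ 4 +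
      ip q (blk θ.κ (θ.c i) (yU k U ω)) ^ 4 + (1 + 2 * D) ^ 2 * ip q (yU k U ω) ^ 4 +
      ip q (blk θ.κ (θ.c i) (gU k i U ω)) ^ 4) ≤
      ((1 + 2 * D) ^ 2 + 1) * (1 + 2 * k) * T ^ 4 := by
    have h1 := Finset.sum_le_sum (s := Finset.univ) (fun i (_ : i ∈ Finset.univ) => j2 i)
    simp only [Finset.sum_const, Finset.card_univ, Fintype.card_fin, nsmul_eq_mul] at h1
    have h3 := mul_le_mul_of_nonneg_left j0 hE
    linarith
  have j4 : T ^ 4 ≤ (((N : ℝ) + 1) ^ 2 * (1 + D)) ^ 4 * Real.exp (4 * S) := by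
    have h1 : 1 + S ≤ Real.exp S := by have := Real.add_one_le_exp S; linarith
    have h2 : (1 + S) ^ 4 ≤ Real.exp (4 * S) := by
      have := pow_le_pow_left₀ (by positivity) h1 4
      rwa [← Real.exp_nat_mul] at this
    have h3 : T ^ 4 = (((N : ℝ) + 1) ^ 2 * (1 + D)) ^ 4 * (1 + S) ^ 4 := by
      rw [hT, hR]; ring
    rw [h3]
    exact mul_le_mul_of_nonneg_left h2 (by positivity)
  unfold bdT
  have hk0 : (0 : ℝ) ≤ 2 + 4 * (k : ℝ) := by positivity
  refine (mul_le_mul_of_nonneg_left j3 hk0).trans ?_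
  have j5 := mul_le_mul_of_nonneg_left (mul_le_mul_of_nonneg_left j4
    (by positivity : (0 : ℝ) ≤ ((1 + 2 * D) ^ 2 + 1) * (1 + 2 * k))) hk0
  refine j5.trans (le_of_eq ?_)
  ring

private theorem L0_tame_bdT (k : ℕ) (θ : Par N K) {D : ℝ} (q : Fin N → ℝ)
    (U : ON N) : Measurable (bdT D k θ q U) :=
  (L0_meas_bdT D k θ).of_uncurry_left (x := (U, q))

private theorem L0_psi_nonneg {P : Measure (ON N)} (A : Measure (Fin N → Bool))
    (ζ : ℕ → ℝ) (k : ℕ) (θ : Par N K) (D : ℝ) (U : ON N) (q : Fin N → ℝ) :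
    0 ≤ psiT P A ζ D k θ U q := by
  unfold psiT
  have key : ∀ (n i : ℕ) (H Φ : (Fin n → EN N) → ℝ), (∀ ω, 0 ≤ Φ ω) →
      0 ≤ pathE (mN P A) ζ n i H Φ := by
    intro n
    induction n with
    | zero => intro i H Φ h; exact h _
    | succ n ih =>
      intro i H Φ h
      unfold pathE
      refine integral_nonneg fun e => mul_nonneg (wgt_pos _ ζ n i H e).le ?_
      exact ih (i + 1) _ _ (fun ω => h _)
  exact key k 1 _ _ (L0_bdT_nonneg D k θ q U)

private theorem L0_psi_bdd {P : Measure (ON N)} (hP : HaarO P) (A : Measure (Fin N → Bool))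
    [IsProbabilityMeasure A] {ζ : ℕ → ℝ} (hζ : Exps ζ) (k : ℕ) (θ : Par N K) {D : ℝ} (hD0 : 0 ≤ D)
    (he : ∀ l, |θ.e l| ≤ D) (hc : ∀ (i : ℕ) l, |θ.c i l| ≤ D) :
    ∃ C' : ℝ, ∀ U q, UZ q → psiT P A ζ D k θ U q ≤ C' := by
  have := prob_mN hP A
  have hβ := dom_mN hP A
  obtain ⟨C, hC, hb⟩ := HU_bound k θ
  obtain ⟨L, hL, h⟩ := pathE_bound hβ k C 4 hC (by norm_num)
  set b : ℝ := ((2 + 4 * (k : ℝ)) * (((1 + 2 * D) ^ 2 + 1) * (1 + 2 * k)) *
      (((N : ℝ) + 1) ^ 2 * (1 + D)) ^ 4) with hbdef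
  have hb0 : 0 ≤ b := by positivity
  refine ⟨b * (L * Real.exp (L * C)), fun U q hq => ?_⟩
  refine (le_abs_self _).trans (h ζ hζ 1 C b hC hb0 (HU k θ U) (bdT D k θ q U)
    (HU_ham k θ U).meas (L0_tame_bdT k θ q U) (fun ω => ?_) (fun ω => ?_))
  · have := hb U ω
    linarith
  · rw [abs_of_nonneg (L0_bdT_nonneg D k θ q U ω)]
    exact L0_bdT_le k θ hD0 he hc hq U ω

/-- (H6) LEVEL-0 CONCENTRATION.  PROOF: `doob2_ON`, `refl_double_ON`, `X1_refl`, `psiT_avg`. -/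
theorem level0_var {P : Measure (ON N)} (hP : HaarO P) (A : Measure (Fin N → Bool))
    [IsProbabilityMeasure A] {ζ : ℕ → ℝ} (hζ : Exps ζ) (k : ℕ) (θ : Par N K) {D : ℝ} (hD0 : 0 ≤ D)
    (he : ∀ l, |θ.e l| ≤ D) (hc : ∀ (i : ℕ) l, |θ.c i l| ≤ D) {A₀ : ℝ}
    (hA : ∀ b, (N : ℝ) ≤ A₀ * ((Finset.univ.filter (fun a => θ.κ a = θ.κ b)).card : ℝ)) :
    ∫ U, (X1 P A ζ k θ U - ∫ U', X1 P A ζ k θ U' ∂P) ^ 2 ∂P ≤ cstT D A₀ k * N := by
  obtain ⟨C, hC⟩ := X1_bdd hP A hζ k θ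
  obtain ⟨C', hC'⟩ := L0_psi_bdd hP A hζ k θ hD0 he hc
  have h1 := doob2_ON hP (measurable_X1 hP A ζ k θ) hC
  refine h1.trans ?_
  have h2 : ∀ a : Fin N, ∫ W, ∫ U, (X1 P A ζ k θ U -
      X1 P A ζ k θ (ON.mul (ON.refl (qv a (avec W (ev a)))) U)) ^ 2 ∂P ∂kap N a.val ≤
      cstT D A₀ k := by
    intro a
    have h3 := refl_double_ON hP a (measurable_X1 hP A ζ k θ) hC
      (ψ := fun U q => psiT P A ζ D k θ U q) (L0_meas_psi hP A ζ k θ D)
      (fun U q => L0_psi_nonneg A ζ k θ D U q) hC'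
      (fun U q hq => X1_refl hP A hζ k θ hD0 he hc hq U)
    have h4 := psiT_avg hP A hζ k θ hD0 he hc hA a
    unfold cstT
    linarith
  calc ∑ k_1 : Fin N, _ ≤ ∑ _a : Fin N, cstT D A₀ k := Finset.sum_le_sum fun a _ => h2 a
    _ = cstT D A₀ k * N := by simp [mul_comm]

/-- the same for the first level of the tower (fields of level `0` absent).  PROOF: `HN_cons_eq`; integrals over `mN P A` of functions of the first component are
integrals over `P`. -/
theorem level0_var_tower {P : Measure (ON N)} (hP : HaarO P) (A : Measure (Fin N → Bool))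
    [IsProbabilityMeasure A] {ζ : ℕ → ℝ} (hζ : Exps ζ) (k : ℕ) (hk : 0 < k) (θ : Par N K)
    (hv : θ.v 0 = 0) (hc0 : ∀ l, θ.c 0 l = 0) {D : ℝ} (hD0 : 0 ≤ D)
    (he : ∀ l, |θ.e l| ≤ D) (hc : ∀ (i : ℕ) l, |θ.c i l| ≤ D) {A₀ : ℝ}
    (hA : ∀ b, (N : ℝ) ≤ A₀ * ((Finset.univ.filter (fun a => θ.κ a = θ.κ b)).card : ℝ)) :
    ∫ e, (nest (mN P A) ζ k 1 (fun ω => HN k θ (Fin.cons e ω)) -
      ∫ e', nest (mN P A) ζ k 1 (fun ω => HN k θ (Fin.cons e' ω)) ∂(mN P A)) ^ 2 ∂(mN P A) ≤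
      cstT D A₀ k * N := by
  have := hP.prob
  have hg : IsProbabilityMeasure (gvec N) := by unfold gvec; infer_instance
  have h1 : ∀ e : EN N, nest (mN P A) ζ k 1 (fun ω => HN k θ (Fin.cons e ω)) =
      X1 P A ζ k θ e.1 := by
    intro e
    unfold X1
    congr 1
    funext ω
    exact HN_cons_eq k θ hk hv hc0 e ω
  simp only [h1]
  have h2 : ∀ f : ON N → ℝ, ∫ e, f e.1 ∂(mN P A) = ∫ U, f U ∂P := by
    intro f
    unfold mN
    rw [integral_fun_fst]
    simp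
  rw [h2 (fun U => X1 P A ζ k θ U), h2 (fun U => (X1 P A ζ k θ U - ∫ U', X1 P A ζ k θ U' ∂P) ^ 2)]
  exact level0_var hP A hζ k θ hD0 he hc hA

end Crest.Agent.RI
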