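import Crest.Agent.RI.LBLinB
import Crest.Agent.RI.InnerGy
import Crest.Agent.RI.ConcT
import Crest.Agent.RI.ConvexL
import Crest.Agent.RI.Level0

/-!
# Row 164, Part 9: level-0 fluctuations, averaged over one parameter
-/

set_option autoImplicit false

namespace Crest.Agent.RI

open MeasureTheory ProbabilityTheory

variable {N K J k : ℕ}

theorem ConcZ_int {E : Type*} [MeasurableSpace E] {m : Measure E} [IsProbabilityMeasure m]
    {β : E → ℝ} (hβ : Dom m β) {X : E → ℝ} (hX : Measurable X) {A C : ℝ}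
    (hb : ∀ e, |X e| ≤ A + C * β e) : Integrable X m ∧ Integrable (fun e => X e ^ 2) m := by
  have h1 := hβ.int 1
  simp only [one_mul] at h1
  have hq : ∀ e, 1 + β e + β e ^ 2 / 2 ≤ Real.exp (β e) := fun e =>
    Real.quadratic_le_exp_of_nonneg (hβ.nonneg e)
  have h2 : Integrable (fun e => X e ^ 2) m := by
    refine Integrable.mono' ((integrable_const (2 * A ^ 2)).add (h1.const_mul (4 * C ^ 2)))
      (hX.pow_const 2).aestronglyMeasurable (Filter.Eventually.of_forall fun e => ?_)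
    rw [Real.norm_eq_abs, abs_of_nonneg (sq_nonneg _)]
    simp only [Pi.add_apply]
    have ha : X e ^ 2 ≤ (A + C * β e) ^ 2 := by
      rw [← sq_abs]
      exact pow_le_pow_left₀ (abs_nonneg _) (hb e) 2
    have hb' : (A + C * β e) ^ 2 ≤ 2 * A ^ 2 + 2 * (C ^ 2 * β e ^ 2) := by
      nlinarith [sq_nonneg (A - C * β e)]
    have hc : C ^ 2 * β e ^ 2 ≤ C ^ 2 * (2 * Real.exp (β e)) :=
      mul_le_mul_of_nonneg_left (by linarith [hq e, hβ.nonneg e]) (sq_nonneg C)
    linarith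
  refine ⟨?_, h2⟩
  refine Integrable.mono' ((integrable_const (1 : ℝ)).add h2) hX.aestronglyMeasurable
    (Filter.Eventually.of_forall fun e => ?_)
  rw [Real.norm_eq_abs]
  simp only [Pi.add_apply]
  rw [← sq_abs (X e)]
  nlinarith [sq_nonneg (|X e| - 1), abs_nonneg (X e)]

theorem ConcZ_cs {E : Type*} [MeasurableSpace E] {m : Measure E} [IsProbabilityMeasure m]
    {X : E → ℝ} (hX : Integrable X m) (hX2 : Integrable (fun e => X e ^ 2) m) {v : ℝ}
    (hv : ∫ e, (X e - ∫ e', X e' ∂m) ^ 2 ∂m ≤ v) :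
    ∫ e, |X e - ∫ e', X e' ∂m| ∂m ≤ Real.sqrt v := by
  set μ := ∫ e', X e' ∂m with hμ
  have h1 : Integrable (fun e => |X e - μ|) m := (hX.sub (integrable_const μ)).abs
  have h2 : Integrable (fun e => (X e - μ) ^ 2) m := by
    have : (fun e => (X e - μ) ^ 2) = fun e => (X e ^ 2 - (2 * μ) * X e) + μ ^ 2 := by
      funext e; ring
    rw [this]
    exact (hX2.sub (hX.const_mul _)).add (integrable_const _)
  set a := ∫ e, |X e - μ| ∂m with ha
  have h3 : 0 ≤ ∫ e, (|X e - μ| - a) ^ 2 ∂m := integral_nonneg fun e => sq_nonneg _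
  have h4 : ∫ e, (|X e - μ| - a) ^ 2 ∂m = ∫ e, (X e - μ) ^ 2 ∂m - a ^ 2 := by
    have e1 : (fun e => (|X e - μ| - a) ^ 2) =
        fun e => ((X e - μ) ^ 2 - (2 * a) * |X e - μ|) + a ^ 2 := by
      funext e
      have := sq_abs (X e - μ)
      nlinarith
    have h5 : Integrable (fun e => (2 * a) * |X e - μ|) m := h1.const_mul _
    have h6 : Integrable (fun e => (X e - μ) ^ 2 - (2 * a) * |X e - μ|) m := h2.sub h5
    rw [e1, integral_add h6 (integrable_const _), integral_sub h2 h5, integral_const_mul, ← ha,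
      integral_const]
    simp
    ring
  refine Real.le_sqrt_of_sq_le ?_
  linarith

/-- the first level is not tilted if its exponent is `0` -/
theorem ConcZ_level0 {E : Type} [MeasurableSpace E] {m : Measure E} [IsProbabilityMeasure m]
    {ζ : ℕ → ℝ} {β : E → ℝ} (hβ : Dom m β) (hζ : Exps ζ) (n i : ℕ) (h0 : ζ i = 0)
    {H : (Fin (n + 1) → E) → ℝ} (hH : Ham β H) (F : E → ℝ) :
    pathE m ζ (n + 1) i H (fun ω => F (ω 0)) = ∫ e, F e ∂m := by
  show ∫ e, wgt m ζ n i H e * pathE m ζ n (i + 1) (fun ω => H (Fin.cons e ω))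
    (fun ω => F ((Fin.cons e ω : Fin (n + 1) → E) 0)) ∂m = _
  refine integral_congr_ae (Filter.Eventually.of_forall fun e => ?_)
  simp only [Fin.cons_zero]
  rw [pathE_const hβ hζ n (i + 1) (hH.cons hβ e)]
  unfold wgt
  rw [h0]
  simp

/-- joint measurability of the Hamiltonian in (first mark, parameter) and the other marks -/
theorem ConcZ_meas (D : Blk) (L : LBd J) (k : ℕ) (s : ℝ) (κ : Fin N → Fin D.K)
    (lab : Fin N → Fin J) (x : XI k D.K J → ℝ) (i : XI k D.K J) :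
    Measurable (Function.uncurry fun (p : EN N × ℝ) (ω : Fin k → EN N) =>
      HN k (θL D L k s (Function.update x i p.2) κ lab) (Fin.cons p.1 ω)) := by
  have h1 : Measurable (fun q : (EN N × ℝ) × (Fin k → EN N) =>
      ((Function.update x i q.1.2 : XI k D.K J → ℝ),
        (Fin.cons q.1.1 q.2 : Fin (k + 1) → EN N))) := by
    refine Measurable.prodMk ?_ ?_
    · exact (measurable_update x).comp (measurable_snd.comp measurable_fst)
    · exact TPairA_measurable_cons (measurable_fst.comp measurable_fst) measurable_snd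
  have h0 := (measurable_HNx (k := k) D L s κ lab).comp h1
  have e0 : (Function.uncurry fun (p : EN N × ℝ) (ω : Fin k → EN N) =>
      HN k (θL D L k s (Function.update x i p.2) κ lab) (Fin.cons p.1 ω)) =
      (Function.uncurry fun (x : XI k D.K J → ℝ) (ω : Fin (k + 1) → EN N) =>
      HN k (θL D L k s x κ lab) ω) ∘ (fun q : (EN N × ℝ) × (Fin k → EN N) =>
      ((Function.update x i q.1.2 : XI k D.K J → ℝ),
        (Fin.cons q.1.1 q.2 : Fin (k + 1) → EN N))) := by
    funext q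
    rcases q with ⟨p, ω⟩
    simp only [Function.uncurry_apply_pair, Function.comp_apply]
  rw [e0]
  exact h0

theorem ConcZ_measX (m : Measure (EN N)) [IsProbabilityMeasure m] (D : Blk) (L : LBd J) (k : ℕ)
    (s : ℝ) (κ : Fin N → Fin D.K)
    (lab : Fin N → Fin J) (x : XI k D.K J → ℝ) (i : XI k D.K J) :
    Measurable (fun p : EN N × ℝ => nest m (ζLB k) k 1 (fun ω =>
      HN k (θL D L k s (Function.update x i p.2) κ lab) (Fin.cons p.1 ω))) :=
  measurable_nest m (ζLB k) k 1 (H := fun (p : EN N × ℝ) (ω : Fin k → EN N) =>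
      HN k (θL D L k s (Function.update x i p.2) κ lab) (Fin.cons p.1 ω))
    (ConcZ_meas D L k s κ lab x i)

theorem ConcZ_measY (m : Measure (EN N)) [IsProbabilityMeasure m] (D : Blk) (L : LBd J) (k : ℕ)
    (s : ℝ) (κ : Fin N → Fin D.K)
    (lab : Fin N → Fin J) (x : XI k D.K J → ℝ) (i : XI k D.K J)
    {V : (Fin (k + 1) → EN N) → ℝ} (hV : Measurable V) :
    Measurable (fun p : EN N × ℝ => pathE m (ζLB k) k 1 (fun ω =>
      HN k (θL D L k s (Function.update x i p.2) κ lab) (Fin.cons p.1 ω))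
      (fun ω => V (Fin.cons p.1 ω))) := by
  have hmV : Measurable (Function.uncurry fun (p : EN N × ℝ) (ω : Fin k → EN N) =>
      V (Fin.cons p.1 ω)) := by
    have h1 : Measurable (fun q : (EN N × ℝ) × (Fin k → EN N) =>
          (Fin.cons q.1.1 q.2 : Fin (k + 1) → EN N)) :=
      TPairA_measurable_cons (measurable_fst.comp measurable_fst) measurable_snd
    exact hV.comp h1
  exact measurable_pathE m (ζLB k) k 1 (H := fun (p : EN N × ℝ) (ω : Fin k → EN N) =>
      HN k (θL D L k s (Function.update x i p.2) κ lab) (Fin.cons p.1 ω))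
    (Φ := fun (p : EN N × ℝ) (ω : Fin k → EN N) => V (Fin.cons p.1 ω))
    (ConcZ_meas D L k s κ lab x i) hmV

/-- the abstract form of `conc_level0` -/
theorem ConcZ_core {E : Type} [MeasurableSpace E] {m : Measure E} [IsProbabilityMeasure m]
    {ζ : ℕ → ℝ} {β : E → ℝ} (hβ : Dom m β) (hζ : Exps ζ) (hζ0 : ζ 0 = 0)
    {H : ℝ → (Fin (k + 1) → E) → ℝ} {V : (Fin (k + 1) → E) → ℝ}
    (hH : ∀ t, Ham β (H t)) (hV : Ham β V) {c : ℝ} (hc : 0 < c)
    (hlin : ∀ t ω, H t ω = H 0 ω + t * (c * V ω))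
    (hmX : Measurable (fun p : E × ℝ => nest m ζ k 1 (fun ω => H p.2 (Fin.cons p.1 ω))))
    (hmY : Measurable (fun p : E × ℝ => pathE m ζ k 1 (fun ω => H p.2 (Fin.cons p.1 ω))
      (fun ω => V (Fin.cons p.1 ω))))
    (hY1 : ∀ e, ∀ t ∈ Set.Ioo (0 : ℝ) 3, |pathE m ζ k 1 (fun ω => H t (Fin.cons e ω))
      (fun ω => V (Fin.cons e ω))| ≤ 1)
    {F G : ℝ → ℝ} (hF : ∀ t, F t = ∫ e, nest m ζ k 1 (fun ω => H t (Fin.cons e ω)) ∂m)
    (hFc : ConvexOn ℝ Set.univ F) (hFd : ∀ t, HasDerivAt F (c * G t) t)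
    (hG1 : ∀ t ∈ Set.Ioo (0 : ℝ) 3, |G t| ≤ 1) {δ h : ℝ} (hδ : 0 ≤ δ)
    (hvar : ∀ t ∈ Set.Ioo (0 : ℝ) 3, ∫ e, (nest m ζ k 1 (fun ω => H t (Fin.cons e ω)) -
      ∫ e', nest m ζ k 1 (fun ω => H t (Fin.cons e' ω)) ∂m) ^ 2 ∂m ≤ (c * δ) ^ 2)
    (hh0 : 0 < h) (hh1 : h < 1) :
    ∫ t in Set.Icc (1 : ℝ) 2, pathE m ζ (k + 1) 0 (H t) (fun ω =>
      |pathE m ζ k 1 (fun ω' => H t (Fin.cons (ω 0) ω')) (fun ω' => V (Fin.cons (ω 0) ω')) -
        G t|) ≤ 3 * δ / h + 4 * h := by
  have hVs : Ham β (fun ω => c * V ω) := hV.const_mul c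
  have hlin' : ∀ t e, (fun ω : Fin k → E => H t (Fin.cons e ω)) =
      fun ω => H 0 (Fin.cons e ω) + t * (c * V (Fin.cons e ω)) := by
    intro t e
    funext ω
    exact hlin t _
  obtain ⟨X, hXdef⟩ : ∃ X : E → ℝ → ℝ, X = fun e t => nest m ζ k 1
    (fun ω => H t (Fin.cons e ω)) := ⟨_, rfl⟩
  obtain ⟨Y, hYdef⟩ : ∃ Y : E → ℝ → ℝ, Y = fun e t => pathE m ζ k 1
    (fun ω => H t (Fin.cons e ω)) (fun ω => V (Fin.cons e ω)) := ⟨_, rfl⟩
  have hX : ∀ e t, nest m ζ k 1 (fun ω => H t (Fin.cons e ω)) = X e t := fun e t => by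
    rw [hXdef]
  have hY : ∀ e t, pathE m ζ k 1 (fun ω => H t (Fin.cons e ω)) (fun ω => V (Fin.cons e ω)) =
      Y e t := fun e t => by rw [hYdef]
  have hXd : ∀ e t, HasDerivAt (X e) (c * Y e t) t := by
    intro e t
    have h1 := nest_hasDerivAt hβ hζ k 1 ((hH 0).cons hβ e) (hVs.cons hβ e) t
    rw [pathE_mul, ← hlin' t e, hY] at h1
    refine h1.congr_of_eventuallyEq (Filter.Eventually.of_forall fun u => ?_)
    rw [← hX e u, hlin' u e]
  have hXc : ∀ e, ConvexOn ℝ Set.univ (X e) := by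
    intro e
    have h1 := nest_convexOn hβ hζ k 1 ((hH 0).cons hβ e) (hVs.cons hβ e)
    have : X e = fun t : ℝ => nest m ζ k 1
        (fun ω => H 0 (Fin.cons e ω) + t * (c * V (Fin.cons e ω))) := by
      funext u
      rw [← hX e u, hlin' u e]
    rw [this]
    exact h1
  simp only [hX] at hmX hF hvar
  simp only [hY] at hmY hY1
  have hXi : ∀ t, Integrable (fun e => X e t) m ∧ Integrable (fun e => X e t ^ 2) m := by
    intro t
    obtain ⟨C, hC, hHC⟩ := (hH t).c
    obtain ⟨K', hK', hb⟩ := TDerA_g_bound hβ k hC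
    have h1 : Measurable (fun e => X e t) := hmX.comp measurable_prodMk_right
    refine ConcZ_int hβ (A := C + K') (C := C) h1 (fun e => ?_)
    have := hb ζ hζ 1 (H t) hHC e
    rw [hX] at this
    linarith
  have hfc : ∀ e, ConvexOn ℝ (Set.Icc 0 3) (fun t => c⁻¹ * X e t) := by
    intro e
    have := ((hXc e).smul (inv_nonneg.2 hc.le)).subset (Set.subset_univ _) (convex_Icc 0 3)
    exact this
  have hgc : ConvexOn ℝ (Set.Icc 0 3) (fun t => c⁻¹ * F t) := by
    have := (hFc.smul (inv_nonneg.2 hc.le)).subset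
      (Set.subset_univ _) (convex_Icc 0 3)
    exact this
  have hfd : ∀ e, ∀ t ∈ Set.Ioo (0 : ℝ) 3, HasDerivAt (fun t => c⁻¹ * X e t) (Y e t) t := by
    intro e t _
    have := (hXd e t).const_mul c⁻¹
    rwa [inv_mul_cancel_left₀ hc.ne'] at this
  have hgd : ∀ t ∈ Set.Ioo (0 : ℝ) 3, HasDerivAt (fun t => c⁻¹ * F t) (G t) t := by
    intro t _
    have := (hFd t).const_mul c⁻¹
    rwa [inv_mul_cancel_left₀ hc.ne'] at this
  have hfm : Measurable (fun p : E × ℝ => c⁻¹ * X p.1 p.2) := hmX.const_mul _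
  have hfi : ∀ t ∈ Set.Ioo (0 : ℝ) 3, Integrable (fun e => c⁻¹ * X e t) m :=
    fun t _ => (hXi t).1.const_mul _
  have hbound : ∀ t ∈ Set.Ioo (0 : ℝ) 3, ∫ e, |c⁻¹ * X e t - c⁻¹ * F t| ∂m ≤ δ := by
    intro t ht
    have hcs := ConcZ_cs (hXi t).1 (hXi t).2 (hvar t ht)
    rw [Real.sqrt_sq (by positivity)] at hcs
    have e1 : (fun e => |c⁻¹ * X e t - c⁻¹ * F t|) =
        fun e => c⁻¹ * |X e t - ∫ e', X e' t ∂m| := by
      funext e
      rw [hF t, ← mul_sub, abs_mul, abs_of_pos (inv_pos.2 hc)]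
    rw [e1, integral_const_mul, inv_mul_le_iff₀ hc]
    exact hcs
  have key := convex_random (P := m) (f := fun e t => c⁻¹ * X e t) (g := fun t => c⁻¹ * F t)
    (f' := Y) (g' := G) hfc hgc hfd hgd hfm hmY hY1 hG1 hfi hbound hh0 hh1
  refine le_trans (le_of_eq ?_) (key.trans (by linarith))
  congr 1
  funext t
  have h1 := ConcZ_level0 hβ hζ k 0 hζ0 (hH t) (fun e => |Y e t - G t|)
  rw [← h1]
  simp only [hY]

set_option maxHeartbeats 1000000 in
/-- PROOF: `ζ_0 = 0`, so the first level is not tilted: `E_Q F(ω_0) = ∫ F dm` (`pathE_level0`), `FL = ∫ X(e) dm(e)`, `X(e, t) = nest_{k,1} (HN (cons e ·))`.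
`convex_random` with `f e t = X(e,t)/(sN)` (convex, derivative = inner expectation of `dirV i` = `dir0` (`TBasicB_succ_cons`), bounded by `1`: `inner_dirV_abs`),
`g = FL/(sN)`, `E|f - g| ≤ √Var ≤ √(cstT N)/(sN)` (`level0_var_tower` with `D := Σ|d| + 3`), `h = N^{-1/4}/2`. -/
theorem conc_level0 (D : Blk) (J k : ℕ) (hk : 0 < k) {s : ℝ} (hs : 0 < s) (hs1 : 3 * s ≤ 1)
    (A₀ : ℝ) {ε : ℝ} (hε : 0 < ε) : ∃ N₀ : ℕ, ∀ N ≥ N₀, 0 < N → ∀ P : Measure (ON N), HaarO P →
    ∀ (L : LBd J) (κ : Fin N → Fin D.K) (lab : Fin N → Fin J),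
    (∀ b, (N : ℝ) ≤ A₀ * ((Finset.univ.filter (fun a => κ a = κ b)).card : ℝ)) →
    ∀ (x : XI k D.K J → ℝ), XOK x → ∀ i : XI k D.K J,
    ∫ t in Set.Icc (1 : ℝ) 2, EL P D L k s (Function.update x i t) κ lab
      (fun ω => |dir0 P D L k s (Function.update x i t) κ lab i ω -
        EL P D L k s (Function.update x i t) κ lab (dirV k κ lab i)|) ≤ ε := by
  obtain ⟨Dc, hDc⟩ : ∃ Dc : ℝ, Dc = ∑ l, |D.d l| + 3 := ⟨_, rfl⟩
  have hsum0 : 0 ≤ ∑ l, |D.d l| := Finset.sum_nonneg fun l _ => abs_nonneg _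
  have hDc0 : 0 ≤ Dc := by linarith
  obtain ⟨h, hh⟩ : ∃ h : ℝ, h = min (ε / 8) (1 / 2) := ⟨_, rfl⟩
  have hh0 : 0 < h := by
    rw [hh]
    exact lt_min (by linarith) (by norm_num)
  have hh1 : h < 1 := by
    rw [hh]
    exact (min_le_right _ _).trans_lt (by norm_num)
  have hh8 : 4 * h ≤ ε / 2 := by
    have : h ≤ ε / 8 := by
      rw [hh]
      exact min_le_left _ _
    linarith
  have hw : 0 < s * (ε * h / 6) := by positivity
  obtain ⟨N₀, hN₀⟩ := exists_nat_ge (cstT Dc A₀ k / (s * (ε * h / 6)) ^ 2)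
  refine ⟨N₀, fun N hN hNpos P hP L κ lab hA x hx i => ?_⟩
  have := prob_mN hP (unifA N)
  have hdom := dom_mN hP (unifA N)
  have hζ := exps_LB k
  have hN' : (0 : ℝ) < N := by exact_mod_cast hNpos
  have hsN : 0 < s * N := mul_pos hs hN'
  have hxt : ∀ t ∈ Set.Ioo (0 : ℝ) 3, XOK (Function.update x i t) := by
    intro t ht j
    by_cases hj : j = i
    · subst hj
      rw [Function.update_self]
      exact ⟨ht.1.le, ht.2.le⟩
    · rw [Function.update_of_ne hj]
      exact hx j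
  have hζ0 : ζLB k 0 = 0 := by simp [ζLB]
  have hFL : ∀ t, FL P D L k s (Function.update x i t) κ lab = ∫ e, nest (mN P (unifA N))
      (ζLB k) k 1 (fun ω => HN k (θL D L k s (Function.update x i t) κ lab) (Fin.cons e ω))
      ∂(mN P (unifA N)) := by
    intro t
    show TT (mN P (unifA N)) (ζLB k 0) (fun e => nest (mN P (unifA N))
      (ζLB k) k 1 (fun ω => HN k (θL D L k s (Function.update x i t) κ lab) (Fin.cons e ω))) = _
    unfold TT
    rw [if_pos hζ0]
  have hsx : ∀ t ∈ Set.Ioo (0 : ℝ) 3, ∀ j, |s * (Function.update x i t) j| ≤ 1 := by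
    intro t ht j
    have := hxt t ht j
    rw [abs_of_nonneg (mul_nonneg hs.le this.1)]
    nlinarith [this.1, this.2]
  have hcN : cstT Dc A₀ k * N ≤ (s * N * (ε * h / 6)) ^ 2 := by
    have hNN : cstT Dc A₀ k / (s * (ε * h / 6)) ^ 2 ≤ N := hN₀.trans (by exact_mod_cast hN)
    rw [div_le_iff₀ (by positivity)] at hNN
    have := mul_le_mul_of_nonneg_right hNN hN'.le
    calc cstT Dc A₀ k * N ≤ N * (s * (ε * h / 6)) ^ 2 * N := this
      _ = (s * N * (ε * h / 6)) ^ 2 := by ring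
  have hvar : ∀ t ∈ Set.Ioo (0 : ℝ) 3, ∫ e, (nest (mN P (unifA N)) (ζLB k) k 1
      (fun ω => HN k (θL D L k s (Function.update x i t) κ lab) (Fin.cons e ω)) -
      ∫ e', nest (mN P (unifA N)) (ζLB k) k 1
      (fun ω => HN k (θL D L k s (Function.update x i t) κ lab) (Fin.cons e' ω))
      ∂(mN P (unifA N))) ^ 2 ∂(mN P (unifA N)) ≤ (s * N * (ε * h / 6)) ^ 2 := by
    intro t ht
    refine le_trans ?_ hcN
    exact level0_var_tower hP (unifA N) hζ k hk
      (θL D L k s (Function.update x i t) κ lab) rfl (fun l => by simp [θL]) hDc0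
      (fun l => by
        show |D.d l + s * (Function.update x i t) (Sum.inl l)| ≤ Dc
        have h1 : |D.d l| ≤ ∑ l, |D.d l| :=
          Finset.single_le_sum (f := fun l => |D.d l|) (fun l _ => abs_nonneg _)
            (Finset.mem_univ l)
        have h2 := hsx t ht (Sum.inl l)
        have h3 := abs_add_le (D.d l) (s * (Function.update x i t) (Sum.inl l))
        linarith)
      (fun j l => by
        show |if h : j < k then (if j = 0 then 0 else
          s * (Function.update x i t) (Sum.inr (Sum.inr (⟨j, h⟩, l)))) else 0| ≤ Dc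
        by_cases hj : j < k
        · rw [dif_pos hj]
          by_cases hj0 : j = 0
          · rw [if_pos hj0, abs_zero]
            exact hDc0
          · rw [if_neg hj0]
            have := hsx t ht (Sum.inr (Sum.inr (⟨j, hj⟩, l)))
            linarith
        · rw [dif_neg hj, abs_zero]
          exact hDc0) hA
  have key := ConcZ_core (k := k) (m := mN P (unifA N)) (ζ := ζLB k) (β := βN (N := N)) hdom hζ hζ0
    (H := fun t => HN k (θL D L k s (Function.update x i t) κ lab))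
    (V := dirV k κ lab i) (fun t => HN_ham k _) (dirV_ham κ lab i) hsN
    (fun t ω => HN_upd hNpos D L s x κ lab i t ω)
    (ConcZ_measX (mN P (unifA N)) D L k s κ lab x i)
    (ConcZ_measY (mN P (unifA N)) D L k s κ lab x i (dirV_ham κ lab i).meas)
    (fun e t ht => inner_dirV_abs hk hNpos hP D L hs.le hs1 (hxt t ht) κ lab i e)
    (F := fun t => FL P D L k s (Function.update x i t) κ lab)
    (G := fun t => EL P D L k s (Function.update x i t) κ lab (dirV k κ lab i))
    hFL (FL_convexOn hNpos hP D L s x κ lab i)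
    (fun t => FL_hasDerivAt hNpos hP D L s x κ lab i t)
    (fun t ht => EL_dirV_abs hk hNpos hP D L hs.le hs1 (hxt t ht) κ lab i)
    (δ := ε * h / 6) (h := h) (by positivity) hvar hh0 hh1
  have e3 : 3 * (ε * h / 6) / h = ε / 2 := by
    field_simp
    norm_num
  rw [e3] at key
  refine le_trans (le_of_eq ?_) (key.trans (by linarith))
  rfl

end Crest.Agent.RI
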