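import Crest.Agent.RI.Exch
import Crest.Agent.RI.CavD

/-!
# Row 164, Part 9: continuity of the free energy in the labels
-/

set_option autoImplicit false

namespace Crest.Agent.RI

open MeasureTheory ProbabilityTheory

variable {N J k : ℕ}

theorem CountC_tame_yv2 (k : ℕ) (a : Fin N) :
    Tame (βN (N := N)) (fun ω : Fin (k + 1) → EN N => yv k ω a ^ 2) := by
  refine ⟨(measurable_yv k a).pow_const 2, (N : ℝ) ^ 2, by positivity, fun ω => ?_⟩
  have hb : ∀ i, 0 ≤ βN (ω i) := fun i => by unfold βN; positivity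
  have h1 : (1 : ℝ) ≤ Real.exp ((N : ℝ) ^ 2 * ∑ i, βN (ω i)) :=
    Real.one_le_exp (mul_nonneg (by positivity) (Finset.sum_nonneg fun i _ => hb i))
  rw [abs_pow]
  have h2 := abs_yv_le k ω a
  have h3 := abs_nonneg (yv k ω a)
  calc |yv k ω a| ^ 2 ≤ (N : ℝ) ^ 2 := by gcongr
    _ = (N : ℝ) ^ 2 * 1 := by ring
    _ ≤ _ := mul_le_mul_of_nonneg_left h1 (by positivity)

theorem CountC_tame_sum (k : ℕ) (S : Finset (Fin N)) :
    Tame (βN (N := N)) (fun ω : Fin (k + 1) → EN N => ∑ a ∈ S, yv k ω a ^ 2) := by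
  refine ⟨Finset.measurable_sum _ fun a _ => (measurable_yv k a).pow_const 2,
    (N : ℝ), by positivity, fun ω => ?_⟩
  have hb : ∀ i, 0 ≤ βN (ω i) := fun i => by unfold βN; positivity
  have h1 : (1 : ℝ) ≤ Real.exp ((N : ℝ) * ∑ i, βN (ω i)) :=
    Real.one_le_exp (mul_nonneg (by positivity) (Finset.sum_nonneg fun i _ => hb i))
  rw [abs_of_nonneg (Finset.sum_nonneg fun a _ => sq_nonneg _)]
  calc ∑ a ∈ S, yv k ω a ^ 2 ≤ ∑ a, yv k ω a ^ 2 :=
        Finset.sum_le_sum_of_subset_of_nonneg (Finset.subset_univ _) fun _ _ _ => sq_nonneg _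
    _ = (N : ℝ) := sum_yv_sq k ω
    _ = (N : ℝ) * 1 := by ring
    _ ≤ _ := mul_le_mul_of_nonneg_left h1 (by positivity)

/-- sums of expectations -/
theorem CountC_EL_sum {P : Measure (ON N)} (hP : HaarO P) (D : Blk) (L : LBd J) (s : ℝ)
    (x : XI k D.K J → ℝ) (κ : Fin N → Fin D.K) (lab : Fin N → Fin J) (S : Finset (Fin N)) :
    EL P D L k s x κ lab (fun ω => ∑ a ∈ S, yv k ω a ^ 2) =
      ∑ a ∈ S, EL P D L k s x κ lab (fun ω => yv k ω a ^ 2) := by
  have := prob_mN hP (unifA N)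
  have hβ := dom_mN hP (unifA N)
  unfold EL
  induction S using Finset.induction_on with
  | empty =>
    simp only [Finset.sum_empty]
    exact pathE_const hβ (exps_LB k) (k + 1) 0 (HN_ham k _) 0
  | insert a S ha ih =>
    rw [Finset.sum_insert ha, ← ih]
    simp only [Finset.sum_insert ha]
    exact pathE_add hβ (exps_LB k) (k + 1) 0 (HN_ham k _) (CountC_tame_yv2 k a)
      (CountC_tame_sum k S)

/-- PROOF: `EL_permR` with a transposition inside the block, `Σ_a y_a² = N`. -/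
theorem Ey_le (hN : 0 < N) {P : Measure (ON N)} (hP : HaarO P) (D : Blk) (L : LBd J) (s : ℝ)
    (x : XI k D.K J → ℝ) (κ : Fin N → Fin D.K) (lab : Fin N → Fin J) {Ty : ℝ}
    (hTy : ∀ b, (N : ℝ) ≤ Ty * ((Finset.univ.filter (fun a => κ a = κ b)).card : ℝ)) (a : Fin N) :
    EL P D L k s x κ lab (fun ω => yv k ω a ^ 2) ≤ Ty := by
  have := prob_mN hP (unifA N)
  have hβ := dom_mN hP (unifA N)
  set E : Fin N → ℝ := fun b => EL P D L k s x κ lab (fun ω => yv k ω b ^ 2) with hE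
  set S : Finset (Fin N) := Finset.univ.filter (fun b => κ b = κ a) with hS
  have hnn : ∀ b, 0 ≤ E b := by
    intro b
    have h := pathE_mono hβ (exps_LB k) (k + 1) 0 (HN_ham k (θL D L k s x κ lab))
      (Φ := fun _ => (0 : ℝ)) (Tame.const hβ 0) (CountC_tame_yv2 (N := N) k b)
      (fun ω => sq_nonneg _)
    rw [pathE_const hβ (exps_LB k) (k + 1) 0 (HN_ham k _) 0] at h
    exact h
  have hsw : ∀ b ∈ S, E b = E a := by
    intro b hb
    have hb' : κ b = κ a := (Finset.mem_filter.1 hb).2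
    have h := EL_permR hP D L s x κ lab (Equiv.swap a b) (k := k)
      (Φ := fun ω => yv k ω a ^ 2) ((measurable_yv k a).pow_const 2)
    have hκ : (fun c => κ (Equiv.swap a b c)) = κ := by
      funext c
      by_cases h1 : c = a
      · rw [h1, Equiv.swap_apply_left, hb']
      · by_cases h2 : c = b
        · rw [h2, Equiv.swap_apply_right, hb']
        · rw [Equiv.swap_apply_of_ne_of_ne h1 h2]
    rw [hκ] at h
    have h2 : (fun ω : Fin (k + 1) → EN N => yv k (fun j => permR (Equiv.swap a b) (ω j)) a ^ 2) =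
        fun ω => yv k ω b ^ 2 := by
      funext ω
      rw [yv_permR]
      show yv k ω (Equiv.swap a b a) ^ 2 = _
      rw [Equiv.swap_apply_left]
    rw [h2] at h
    exact h
  have hsum : ∑ b ∈ S, E b ≤ N := by
    have h1 : ∑ b, E b = N := by
      have h2 := CountC_EL_sum (k := k) hP D L s x κ lab Finset.univ
      rw [← h2]
      have h3 : (fun ω : Fin (k + 1) → EN N => ∑ a, yv k ω a ^ 2) = fun _ => (N : ℝ) :=
        funext fun ω => sum_yv_sq k ω
      rw [h3]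
      exact pathE_const hβ (exps_LB k) (k + 1) 0 (HN_ham k _) _
    rw [← h1]
    exact Finset.sum_le_sum_of_subset_of_nonneg (Finset.subset_univ _) fun b _ _ => hnn b
  rw [Finset.sum_congr rfl hsw, Finset.sum_const, nsmul_eq_mul] at hsum
  have hpos : (0 : ℝ) < (S.card : ℝ) := by
    have : 0 < S.card := Finset.card_pos.2 ⟨a, by simp [hS]⟩
    exact_mod_cast this
  have h4 := hTy a
  have h5 : (S.card : ℝ) * E a ≤ (S.card : ℝ) * Ty := by
    calc (S.card : ℝ) * E a ≤ N := hsum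
      _ ≤ Ty * (S.card : ℝ) := h4
      _ = (S.card : ℝ) * Ty := by ring
  exact le_of_mul_le_mul_left h5 hpos

theorem CountC_TJ_abs (lab : Fin N → Fin J) (j : Fin J) (σ : Fin N → Bool) :
    |TJ lab j σ| ≤ N := by
  unfold TJ
  refine (Finset.abs_sum_le_sum_abs _ _).trans ?_
  refine (Finset.sum_le_sum (g := fun _ => (1 : ℝ)) fun r _ => ?_).trans (by simp)
  split_ifs
  · rw [abs_spin]
  · simp

theorem CountC_TJ_diff (lab lab' : Fin N → Fin J) (j : Fin J) (σ : Fin N → Bool) :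
    |TJ lab' j σ - TJ lab j σ| ≤ ((Finset.univ.filter (fun r => lab r ≠ lab' r)).card : ℝ) := by
  unfold TJ
  rw [← Finset.sum_sub_distrib]
  refine (Finset.abs_sum_le_sum_abs _ _).trans ?_
  rw [Finset.card_filter]
  push_cast
  refine Finset.sum_le_sum fun r _ => ?_
  by_cases h : lab r = lab' r
  · simp [h]
  · rw [if_pos h]
    split_ifs with h1 h2
    · exact absurd (h2.trans h1.symm) h
    · rw [sub_zero, abs_spin]
    · rw [zero_sub, abs_neg, abs_spin]
    · simp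

theorem CountC_B (hN : 0 < N) {L : LBd J} {Km c₀ : ℝ} (hL : LOK L Km c₀) (hKm : 0 ≤ Km) (s : ℝ)
    (lab lab' : Fin N → Fin J) (σ : Fin N → Bool) :
    -((J : ℝ) * (c₀ + 4 * Km) * ((Finset.univ.filter (fun r => lab r ≠ lab' r)).card : ℝ)) ≤
      BL L s (fun _ => 0) lab' σ - BL L s (fun _ => 0) lab σ := by
  set n : ℝ := ((Finset.univ.filter (fun r => lab r ≠ lab' r)).card : ℝ) with hn
  have hn0 : 0 ≤ n := Nat.cast_nonneg _
  have hNr : (0 : ℝ) < N := by exact_mod_cast hN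
  have hterm : ∀ j : Fin J, -((c₀ + 4 * Km) * n) ≤
      (L.c j + s * 0) * (TJ lab' j σ - TJ lab j σ) -
      (L.kap / (N : ℝ)) * ((TJ lab' j σ - L.γ j * L.m j * (N : ℝ)) ^ 2 -
        (TJ lab j σ - L.γ j * L.m j * (N : ℝ)) ^ 2) := by
    intro j
    have hd := CountC_TJ_diff lab lab' j σ
    rw [← hn] at hd
    have h1 : |L.c j * (TJ lab' j σ - TJ lab j σ)| ≤ c₀ * n := by
      rw [abs_mul]
      exact mul_le_mul (hL.c j) hd (abs_nonneg _) ((abs_nonneg _).trans (hL.c j))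
    have h2 : |(TJ lab' j σ - L.γ j * L.m j * (N : ℝ)) ^ 2 -
        (TJ lab j σ - L.γ j * L.m j * (N : ℝ)) ^ 2| ≤ n * (4 * N) := by
      have e : (TJ lab' j σ - L.γ j * L.m j * (N : ℝ)) ^ 2 -
        (TJ lab j σ - L.γ j * L.m j * (N : ℝ)) ^ 2 =
        (TJ lab' j σ - TJ lab j σ) * (TJ lab' j σ + TJ lab j σ - 2 * (L.γ j * L.m j * (N : ℝ))) := by
        ring
      rw [e, abs_mul]
      refine mul_le_mul hd ?_ (abs_nonneg _) hn0
      have a1 := abs_le.1 (CountC_TJ_abs lab' j σ)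
      have a2 := abs_le.1 (CountC_TJ_abs lab j σ)
      have a3 : |L.γ j * L.m j * (N : ℝ)| ≤ N := by
        rw [abs_mul, abs_of_pos hNr]
        calc |L.γ j * L.m j| * (N : ℝ) ≤ 1 * N := by
              exact mul_le_mul_of_nonneg_right (hL.gm j) hNr.le
          _ = N := one_mul _
      have a4 := abs_le.1 a3
      rw [abs_le]
      constructor <;> linarith [a1.1, a1.2, a2.1, a2.2, a4.1, a4.2]
    have h3 : |(L.kap / (N : ℝ)) * ((TJ lab' j σ - L.γ j * L.m j * (N : ℝ)) ^ 2 -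
        (TJ lab j σ - L.γ j * L.m j * (N : ℝ)) ^ 2)| ≤ 4 * Km * n := by
      rw [abs_mul, abs_of_nonneg (div_nonneg hL.k0 hNr.le)]
      calc L.kap / (N : ℝ) * _ ≤ Km / (N : ℝ) * (n * (4 * N)) := by
            refine mul_le_mul ?_ h2 (abs_nonneg _) (div_nonneg hKm hNr.le)
            exact div_le_div_of_nonneg_right hL.k1 hNr.le
        _ = 4 * Km * n := by
            field_simp
    have h4 := abs_le.1 h1
    have h5 := abs_le.1 h3
    rw [mul_zero, add_zero]
    linarith [h4.1, h5.2]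
  have hsum := Finset.sum_le_sum (s := Finset.univ) fun j (_ : j ∈ Finset.univ) => hterm j
  rw [Finset.sum_const, Finset.card_univ, Fintype.card_fin, nsmul_eq_mul] at hsum
  have e2 : BL L s (fun _ => 0) lab' σ - BL L s (fun _ => 0) lab σ =
      ∑ j, ((L.c j + s * 0) * (TJ lab' j σ - TJ lab j σ) -
      (L.kap / (N : ℝ)) * ((TJ lab' j σ - L.γ j * L.m j * (N : ℝ)) ^ 2 -
        (TJ lab j σ - L.γ j * L.m j * (N : ℝ)) ^ 2)) := by
    unfold BL
    rw [Finset.sum_sub_distrib, ← Finset.mul_sum]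
    simp only [mul_sub, Finset.sum_sub_distrib]
    ring
  rw [e2]
  refine le_trans (le_of_eq ?_) hsum
  ring

/-- PROOF: `nest_tangent` at `(κ, lab)` with `U = H' - H = ½ Σ_{κ a ≠ κ' a} (d_{κ' a} - d_{κ a}) y_a² + B' - B`, `Ey_le`, `|T_j - T'_j| ≤ #{lab ≠ lab'}`,
`|B' - B| ≤ J (c₀ + 4 Km) #{lab ≠ lab'}`. -/
theorem FL_count (D : Blk) (J : ℕ) (Km c₀ Ty : ℝ) (hKm : 0 ≤ Km) (hc₀ : 0 ≤ c₀) (hTy0 : 0 ≤ Ty) :
    ∃ C : ℝ, 0 ≤ C ∧ ∀ k : ℕ, 0 < k → ∀ N : ℕ, 0 < N → ∀ P : Measure (ON N), HaarO P →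
    ∀ (L : LBd J), LOK L Km c₀ → ∀ (s : ℝ) (κ κ' : Fin N → Fin D.K) (lab lab' : Fin N → Fin J),
    (∀ b, (N : ℝ) ≤ Ty * ((Finset.univ.filter (fun a => κ a = κ b)).card : ℝ)) →
    FL P D L k s 0 κ lab - C * (((Finset.univ.filter (fun a => κ a ≠ κ' a)).card : ℝ) +
      ((Finset.univ.filter (fun r => lab r ≠ lab' r)).card : ℝ)) ≤
      FL P D L k s 0 κ' lab' := by
  -- bound on the eigenvalues
  set Dm : ℝ := ∑ l, |D.d l| with hDm
  have hDm0 : 0 ≤ Dm := Finset.sum_nonneg fun l _ => abs_nonneg _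
  have hd : ∀ l, |D.d l| ≤ Dm := fun l =>
    Finset.single_le_sum (f := fun l => |D.d l|) (fun i _ => abs_nonneg _) (Finset.mem_univ l)
  refine ⟨Dm * Ty + (J : ℝ) * (c₀ + 4 * Km), by positivity, ?_⟩
  intro k hk N hN P hP L hL s κ κ' lab lab' hTy
  have := prob_mN hP (unifA N)
  have hβ := dom_mN hP (unifA N)
  set H : (Fin (k + 1) → EN N) → ℝ := HN k (θL D L k s 0 κ lab) with hH
  set H' : (Fin (k + 1) → EN N) → ℝ := HN k (θL D L k s 0 κ' lab') with hH'
  set S : Finset (Fin N) := Finset.univ.filter (fun a => κ a ≠ κ' a) with hS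
  set n : ℝ := ((Finset.univ.filter (fun r => lab r ≠ lab' r)).card : ℝ) with hn
  have hn0 : 0 ≤ n := Nat.cast_nonneg _
  have hHam : Ham (βN (N := N)) H := HN_ham k _
  have hHam' : Ham (βN (N := N)) H' := HN_ham k _
  have hUham : Ham (βN (N := N)) (fun ω => H' ω - H ω) := by
    have h := hHam'.add hβ (hHam.const_mul (-1))
    have e : (fun ω => H' ω - H ω) = fun ω => H' ω + -1 * H ω := funext fun ω => by ring
    rw [e]
    exact h
  have hSt : Tame (βN (N := N)) (fun ω : Fin (k + 1) → EN N =>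
      -Dm * (∑ a ∈ S, yv k ω a ^ 2)) := Tame.mul hβ (Tame.const hβ (-Dm)) (CountC_tame_sum k S)
  have htan := nest_tangent hβ (exps_LB k) (k + 1) 0 hHam hUham
  have e1 : (fun ω => H ω + (H' ω - H ω)) = H' := funext fun ω => by ring
  rw [e1] at htan
  -- pointwise lower bound of `U`
  have hpt : ∀ ω, -Dm * (∑ a ∈ S, yv k ω a ^ 2) + -((J : ℝ) * (c₀ + 4 * Km) * n) ≤
      H' ω - H ω := by
    intro ω
    have hB := CountC_B hN hL hKm s lab lab' (ω (Fin.last k)).2.2.2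
    have hq : -Dm * (∑ a ∈ S, yv k ω a ^ 2) ≤
        (1 / 2) * ∑ a : Fin N, D.d (κ' a) * yv k ω a ^ 2 -
        (1 / 2) * ∑ a : Fin N, D.d (κ a) * yv k ω a ^ 2 := by
      rw [← mul_sub, ← Finset.sum_sub_distrib, Finset.mul_sum, Finset.mul_sum, hS,
        Finset.sum_filter]
      refine Finset.sum_le_sum fun a _ => ?_
      split_ifs with h
      · have h1 := abs_le.1 (hd (κ a))
        have h2 := abs_le.1 (hd (κ' a))
        have h3 := sq_nonneg (yv k ω a)
        nlinarith [h1.2, h2.1]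
      · push Not at h
        rw [h]
        simp
    have e3 : H' ω - H ω = ((1 / 2) * ∑ a : Fin N, D.d (κ' a) * yv k ω a ^ 2 -
        (1 / 2) * ∑ a : Fin N, D.d (κ a) * yv k ω a ^ 2) +
        (BL L s (fun _ => 0) lab' (ω (Fin.last k)).2.2.2 -
          BL L s (fun _ => 0) lab (ω (Fin.last k)).2.2.2) := by
      rw [hH, hH']
      unfold HN θL
      simp
      ring
    rw [e3]
    linarith
  have hlow := pathE_mono hβ (exps_LB k) (k + 1) 0 hHam
    (Φ := fun ω => -Dm * (∑ a ∈ S, yv k ω a ^ 2) + -((J : ℝ) * (c₀ + 4 * Km) * n))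
    (Ψ := fun ω => H' ω - H ω) (Tame.add hβ hSt (Tame.const hβ _)) (hUham.tame hβ) hpt
  rw [pathE_add hβ (exps_LB k) (k + 1) 0 hHam hSt (Tame.const hβ _),
    pathE_mul, pathE_const hβ (exps_LB k) (k + 1) 0 hHam] at hlow
  have hES : pathE (mN P (unifA N)) (ζLB k) (k + 1) 0 H (fun ω => ∑ a ∈ S, yv k ω a ^ 2) ≤
      Ty * S.card := by
    have h := CountC_EL_sum (k := k) hP D L s 0 κ lab S
    unfold EL at h
    rw [h]
    refine (Finset.sum_le_sum (g := fun _ => Ty) fun a _ =>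
      Ey_le hN hP D L s 0 κ lab hTy a).trans (le_of_eq ?_)
    rw [Finset.sum_const, nsmul_eq_mul, mul_comm]
  have h6 : -Dm * (Ty * S.card) ≤
      -Dm * pathE (mN P (unifA N)) (ζLB k) (k + 1) 0 H (fun ω => ∑ a ∈ S, yv k ω a ^ 2) := by
    nlinarith
  have h7 : 0 ≤ Dm * Ty * n := by positivity
  have h8 : 0 ≤ (J : ℝ) * (c₀ + 4 * Km) * (S.card : ℝ) := by positivity
  have h9 : FL P D L k s 0 κ lab = nest (mN P (unifA N)) (ζLB k) (k + 1) 0 H := rfl
  have h10 : FL P D L k s 0 κ' lab' = nest (mN P (unifA N)) (ζLB k) (k + 1) 0 H' := rfl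
  rw [h9, h10]
  nlinarith

end Crest.Agent.RI
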