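import Crest.Agent.RI.CoupH

/-!
# Row 164, Part 8.1: the magnetic increment
-/

set_option autoImplicit false

namespace Crest.Agent.RI

open MeasureTheory ProbabilityTheory

variable {N k J : ℕ}

/-- `|T_j| ≤ N` -/
theorem TJ_abs (lab : Fin N → Fin J) (j : Fin J) (σ : Fin N → Bool) : |TJ lab j σ| ≤ N := by
  unfold TJ
  refine (Finset.abs_sum_le_sum_abs _ _).trans ?_
  refine (Finset.sum_le_sum (g := fun _ => (1 : ℝ)) ?_).trans ?_
  · intro r _
    by_cases h : lab r = j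
    · simp only [h, if_true, spin]
      split_ifs <;> simp
    · simp [h]
  · simp

/-- `T'_j = T_j + 1_{j = j0} ε` -/
theorem TJ_cons (lab : Fin N → Fin J) (j0 j : Fin J) (e : Bool) (σ : Fin N → Bool) :
    TJ (Fin.cons j0 lab : Fin (N + 1) → Fin J) j (Fin.cons e σ : Fin (N + 1) → Bool) =
      TJ lab j σ + if j = j0 then spin e else 0 := by
  unfold TJ
  rw [Fin.sum_univ_succ]
  simp only [Fin.cons_zero, Fin.cons_succ]
  rw [add_comm]
  congr 1
  by_cases h : j = j0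
  · subst h; simp
  · simp [h, Ne.symm h]

theorem CoupB_term {n d a v : ℝ} (hn : 1 ≤ n) (hd : |d| ≤ 2) (ha : |a| ≤ 2) (hv : |v| ≤ 2) :
    |(n / (n + 1) * d ^ 2 - a ^ 2 - 2 * (n / (n + 1)) * d * v + 2 * a * v - v ^ 2 / (n + 1))| ≤
      8 * |d - a| + 16 * (1 / n) := by
  have hn0 : (0 : ℝ) < n := by linarith
  have hn1 : (0 : ℝ) < n + 1 := by linarith
  have e1 : n / (n + 1) = 1 - 1 / (n + 1) := by field_simp; ring
  have hle : 1 / (n + 1) ≤ 1 / n := by
    apply one_div_le_one_div_of_le hn0; linarith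
  have hp : 0 ≤ 1 / (n + 1) := by positivity
  have e2 : (n / (n + 1) * d ^ 2 - a ^ 2 - 2 * (n / (n + 1)) * d * v + 2 * a * v -
      v ^ 2 / (n + 1)) = (d - a) * (d + a - 2 * v) - (d - v) ^ 2 * (1 / (n + 1)) := by
    rw [e1]; ring
  rw [e2]
  have b1 : |(d - a) * (d + a - 2 * v)| ≤ |d - a| * 8 := by
    rw [abs_mul]
    apply mul_le_mul_of_nonneg_left _ (abs_nonneg _)
    have := abs_le.1 hd
    have := abs_le.1 ha
    have := abs_le.1 hv
    rw [abs_le]; constructor <;> linarith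
  have b2 : |(d - v) ^ 2 * (1 / (n + 1))| ≤ 16 * (1 / n) := by
    rw [abs_mul, abs_of_nonneg (sq_nonneg _), abs_of_nonneg hp]
    apply mul_le_mul _ hle hp (by norm_num)
    have h4 : |d - v| ≤ 4 := by
      have := abs_le.1 hd
      have := abs_le.1 hv
      rw [abs_le]; constructor <;> linarith
    have := sq_le_sq' (abs_le.1 h4).1 (abs_le.1 h4).2
    linarith
  calc |(d - a) * (d + a - 2 * v) - (d - v) ^ 2 * (1 / (n + 1))|
      ≤ |(d - a) * (d + a - 2 * v)| + |(d - v) ^ 2 * (1 / (n + 1))| := abs_sub _ _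
    _ ≤ _ := by linarith

/-- PROOF (blueprint 8.1).  `δ_j = T_j/N - γ_j m_j`, `v_j = 1_{j=j0} ε - γ_j m_j`: the difference is
`(c_{j0} + s x''_{j0}) ε - kap (N/(N+1)) (2<δ,v> - |δ|²) - kap |v|²/(N+1)`; compare with `dB` (`δ_j → τ_j - γ_j m_j`), `|δ_j|, |v_j|, |τ_j - γ_j m_j| ≤ 2`. -/
theorem BL_incr (J : ℕ) (Km : ℝ) (hKm : 0 ≤ Km) : ∃ C : ℝ, 0 ≤ C ∧ ∀ {N : ℕ}, 1 ≤ N →
    ∀ (L : LBd J), 0 ≤ L.kap → L.kap ≤ Km → (∀ j, |L.γ j * L.m j| ≤ 1) →
    ∀ (s : ℝ) (x'' : Fin J → ℝ), 0 ≤ s → (∀ j, |x'' j| ≤ 3) → ∀ (lab : Fin N → Fin J) (j0 : Fin J)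
      (e : Bool) (σ : Fin N → Bool) (τ : Fin J → ℝ), (∀ j, |τ j| ≤ 1) →
      |(BL L s x'' (Fin.cons j0 lab : Fin (N + 1) → Fin J) (Fin.cons e σ : Fin (N + 1) → Bool) -
        BL L s x'' lab σ) - dB L τ j0 (spin e)| ≤
      C * (∑ j, |TJ lab j σ / (N : ℝ) - τ j| + s + 1 / (N : ℝ)) := by
  refine ⟨3 + 8 * Km + 16 * Km * J, by positivity, ?_⟩
  intro N hN L hk0 hkK hgm s x'' hs hx lab j0 e σ τ hτ
  have hN1 : (1 : ℝ) ≤ N := by exact_mod_cast hN
  have hN0 : (0 : ℝ) < N := by linarith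
  have hspin : |spin e| ≤ 1 := by unfold spin; split_ifs <;> simp
  set n : ℝ := (N : ℝ) with hn
  set d : Fin J → ℝ := fun j => TJ lab j σ / n - L.γ j * L.m j with hd
  set v : Fin J → ℝ := fun j => (if j = j0 then spin e else 0) - L.γ j * L.m j with hv
  set a : Fin J → ℝ := fun j => τ j - L.γ j * L.m j with ha
  have hd2 : ∀ j, |d j| ≤ 2 := by
    intro j
    have h1 : |TJ lab j σ / n| ≤ 1 := by
      rw [abs_div, abs_of_pos hN0, div_le_one hN0]
      exact TJ_abs lab j σ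
    have h2 := hgm j
    rw [abs_le] at h1 h2 ⊢
    simp only [hd]
    constructor <;> linarith
  have hv2 : ∀ j, |v j| ≤ 2 := by
    intro j
    have h1 : |(if j = j0 then spin e else 0 : ℝ)| ≤ 1 := by
      split_ifs
      · exact hspin
      · simp
    have h2 := hgm j
    rw [abs_le] at h1 h2 ⊢
    simp only [hv]
    constructor <;> linarith
  have ha2 : ∀ j, |a j| ≤ 2 := by
    intro j
    have h1 := hτ j
    have h2 := hgm j
    rw [abs_le] at h1 h2 ⊢
    simp only [ha]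
    constructor <;> linarith
  have key : (BL L s x'' (Fin.cons j0 lab : Fin (N + 1) → Fin J) (Fin.cons e σ : Fin (N + 1) → Bool) -
        BL L s x'' lab σ) - dB L τ j0 (spin e) =
      s * x'' j0 * spin e + L.kap * ∑ j, (n / (n + 1) * d j ^ 2 - a j ^ 2 -
        2 * (n / (n + 1)) * d j * v j + 2 * a j * v j - v j ^ 2 / (n + 1)) := by
    unfold BL dB
    simp only [TJ_cons]
    have hT : ∀ j, TJ lab j σ = n * (d j + L.γ j * L.m j) := by
      intro j; simp only [hd]; field_simp; ring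
    have f1 : ∑ j, (L.c j + s * x'' j) * (TJ lab j σ + if j = j0 then spin e else 0) =
        ∑ j, (L.c j + s * x'' j) * TJ lab j σ + (L.c j0 + s * x'' j0) * spin e := by
      simp only [mul_add, Finset.sum_add_distrib, mul_ite, mul_zero, Finset.sum_ite_eq',
        Finset.mem_univ, if_true]
    have f2 : ((N + 1 : ℕ) : ℝ) = n + 1 := by push_cast; rfl
    rw [f1, f2]
    have f3 : ∑ j, (TJ lab j σ + (if j = j0 then spin e else 0) - L.γ j * L.m j * (n + 1)) ^ 2 =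
        ∑ j, (n * d j + v j) ^ 2 := by
      apply Finset.sum_congr rfl
      intro j _
      rw [hT j]
      simp only [hv]
      ring
    have f4 : ∑ j, (TJ lab j σ - L.γ j * L.m j * n) ^ 2 = ∑ j, (n * d j) ^ 2 := by
      apply Finset.sum_congr rfl
      intro j _
      rw [hT j]
      ring
    rw [f3, f4]
    have f5 : (L.c j0 - 2 * L.kap * (τ j0 - L.γ j0 * L.m j0)) * spin e +
        L.kap * ∑ j, (τ j - L.γ j * L.m j) ^ 2 +
        2 * L.kap * ∑ j, (τ j - L.γ j * L.m j) * (L.γ j * L.m j) =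
        L.c j0 * spin e + L.kap * ∑ j, (a j ^ 2 - 2 * a j * v j) := by
      have g1 : ∑ j, (a j ^ 2 - 2 * a j * v j) = ∑ j, (τ j - L.γ j * L.m j) ^ 2 +
          2 * ∑ j, (τ j - L.γ j * L.m j) * (L.γ j * L.m j) -
          2 * ∑ j, (τ j - L.γ j * L.m j) * (if j = j0 then spin e else 0) := by
        rw [Finset.mul_sum, Finset.mul_sum, ← Finset.sum_add_distrib, ← Finset.sum_sub_distrib]
        apply Finset.sum_congr rfl
        intro j _
        simp only [ha, hv]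
        ring
      rw [g1]
      simp only [mul_ite, mul_zero, Finset.sum_ite_eq', Finset.mem_univ, if_true]
      ring
    rw [f5]
    have hn1 : n + 1 ≠ 0 := by positivity
    have hn0 : n ≠ 0 := by positivity
    have f6 : L.kap / (n + 1) * ∑ j, (n * d j + v j) ^ 2 - L.kap / n * ∑ j, (n * d j) ^ 2 +
        L.kap * ∑ j, (a j ^ 2 - 2 * a j * v j) =
        - (L.kap * ∑ j, (n / (n + 1) * d j ^ 2 - a j ^ 2 -
        2 * (n / (n + 1)) * d j * v j + 2 * a j * v j - v j ^ 2 / (n + 1))) := by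
      rw [Finset.mul_sum, Finset.mul_sum, Finset.mul_sum, Finset.mul_sum,
        ← Finset.sum_sub_distrib, ← Finset.sum_add_distrib, ← Finset.sum_neg_distrib]
      apply Finset.sum_congr rfl
      intro j _
      field_simp
      ring
    linear_combination (-1 : ℝ) * f6
  rw [key]
  have hsx : |s * x'' j0 * spin e| ≤ 3 * s := by
    rw [abs_mul, abs_mul, abs_of_nonneg hs]
    have := hx j0
    have h3 : |x'' j0| * |spin e| ≤ 3 * 1 :=
      mul_le_mul this hspin (abs_nonneg _) (by norm_num)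
    nlinarith
  have hsum : |∑ j, (n / (n + 1) * d j ^ 2 - a j ^ 2 -
        2 * (n / (n + 1)) * d j * v j + 2 * a j * v j - v j ^ 2 / (n + 1))| ≤
      8 * ∑ j, |TJ lab j σ / n - τ j| + 16 * J * (1 / n) := by
    refine (Finset.abs_sum_le_sum_abs _ _).trans ?_
    have : ∀ j ∈ Finset.univ, |(n / (n + 1) * d j ^ 2 - a j ^ 2 -
        2 * (n / (n + 1)) * d j * v j + 2 * a j * v j - v j ^ 2 / (n + 1))| ≤
        8 * |TJ lab j σ / n - τ j| + 16 * (1 / n) := by
      intro j _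
      have h := CoupB_term hN1 (hd2 j) (ha2 j) (hv2 j)
      have e : d j - a j = TJ lab j σ / n - τ j := by simp only [hd, ha]; ring
      rwa [e] at h
    refine (Finset.sum_le_sum this).trans ?_
    rw [Finset.sum_add_distrib, ← Finset.mul_sum]
    simp only [Finset.sum_const, Finset.card_univ, Fintype.card_fin, nsmul_eq_mul]
    linarith
  have hS : 0 ≤ ∑ j, |TJ lab j σ / n - τ j| := Finset.sum_nonneg fun _ _ => abs_nonneg _
  have hinv : 0 ≤ 1 / n := by positivity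
  have hJ : (0 : ℝ) ≤ J := by positivity
  calc |s * x'' j0 * spin e + L.kap * ∑ j, (n / (n + 1) * d j ^ 2 - a j ^ 2 -
        2 * (n / (n + 1)) * d j * v j + 2 * a j * v j - v j ^ 2 / (n + 1))|
      ≤ 3 * s + Km * (8 * ∑ j, |TJ lab j σ / n - τ j| + 16 * J * (1 / n)) := by
        refine (abs_add_le _ _).trans ?_
        apply add_le_add hsx
        rw [abs_mul, abs_of_nonneg hk0]
        exact mul_le_mul hkK hsum (abs_nonneg _) hKm
    _ ≤ (3 + 8 * Km + 16 * Km * J) * (∑ j, |TJ lab j σ / n - τ j| + s + 1 / n) := by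
        have p1 : 0 ≤ Km * ∑ j, |TJ lab j σ / n - τ j| := mul_nonneg hKm hS
        have p2 : 0 ≤ Km * s := mul_nonneg hKm hs
        have p3 : 0 ≤ Km * (1 / n) := mul_nonneg hKm hinv
        have p4 : 0 ≤ Km * J := mul_nonneg hKm hJ
        have p5 : 0 ≤ Km * J * (∑ j, |TJ lab j σ / n - τ j|) := mul_nonneg p4 hS
        have p6 : 0 ≤ Km * J * s := mul_nonneg p4 hs
        nlinarith

/-- `|dB| ≤ C` -/
theorem dB_abs (J : ℕ) (Km c0 : ℝ) (hKm : 0 ≤ Km) (hc0 : 0 ≤ c0) : ∃ C : ℝ, 0 ≤ C ∧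
    ∀ (L : LBd J), 0 ≤ L.kap → L.kap ≤ Km → (∀ j, |L.γ j * L.m j| ≤ 1) → (∀ j, |L.c j| ≤ c0) →
    ∀ (j0 : Fin J) (τ : Fin J → ℝ), (∀ j, |τ j| ≤ 1) → ∀ ε : ℝ, |ε| ≤ 1 → |dB L τ j0 ε| ≤ C := by
  refine ⟨c0 + 4 * Km + 4 * Km * J + 4 * Km * J, by positivity, ?_⟩
  intro L hk0 hkK hgm hc j0 τ hτ ε hε
  have ha2 : ∀ j, |τ j - L.γ j * L.m j| ≤ 2 := by
    intro j
    have h1 := hτ j
    have h2 := hgm j
    rw [abs_le] at h1 h2 ⊢
    constructor <;> linarith
  unfold dB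
  have b1 : |(L.c j0 - 2 * L.kap * (τ j0 - L.γ j0 * L.m j0)) * ε| ≤ c0 + 4 * Km := by
    rw [abs_mul]
    have h1 : |L.c j0 - 2 * L.kap * (τ j0 - L.γ j0 * L.m j0)| ≤ c0 + 4 * Km := by
      refine (abs_sub _ _).trans ?_
      apply add_le_add (hc j0)
      rw [abs_mul, abs_of_nonneg (by positivity)]
      have := ha2 j0
      nlinarith [abs_nonneg (τ j0 - L.γ j0 * L.m j0)]
    calc _ ≤ (c0 + 4 * Km) * 1 := mul_le_mul h1 hε (abs_nonneg _) (by positivity)
      _ = _ := by ring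
  have b2 : |L.kap * ∑ j, (τ j - L.γ j * L.m j) ^ 2| ≤ 4 * Km * J := by
    rw [abs_mul, abs_of_nonneg hk0]
    have : |∑ j, (τ j - L.γ j * L.m j) ^ 2| ≤ 4 * J := by
      refine (Finset.abs_sum_le_sum_abs _ _).trans ?_
      refine (Finset.sum_le_sum (g := fun _ => (4 : ℝ)) ?_).trans ?_
      · intro j _
        rw [abs_of_nonneg (sq_nonneg _)]
        have := sq_le_sq' (abs_le.1 (ha2 j)).1 (abs_le.1 (ha2 j)).2
        linarith
      · simp; linarith
    calc _ ≤ Km * (4 * J) := mul_le_mul hkK this (abs_nonneg _) hKm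
      _ = _ := by ring
  have b3 : |2 * L.kap * ∑ j, (τ j - L.γ j * L.m j) * (L.γ j * L.m j)| ≤ 4 * Km * J := by
    rw [abs_mul, abs_of_nonneg (by positivity)]
    have : |∑ j, (τ j - L.γ j * L.m j) * (L.γ j * L.m j)| ≤ 2 * J := by
      refine (Finset.abs_sum_le_sum_abs _ _).trans ?_
      refine (Finset.sum_le_sum (g := fun _ => (2 : ℝ)) ?_).trans ?_
      · intro j _
        rw [abs_mul]
        calc _ ≤ 2 * 1 := mul_le_mul (ha2 j) (hgm j) (abs_nonneg _) (by norm_num)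
          _ = 2 := by norm_num
      · simp; linarith
    calc _ ≤ (2 * Km) * (2 * J) := mul_le_mul (by linarith) this (abs_nonneg _) (by positivity)
      _ = _ := by ring
  refine (abs_add_le _ _).trans ?_
  apply add_le_add _ b3
  refine (abs_add_le _ _).trans ?_
  exact add_le_add b1 b2

end Crest.Agent.RI
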