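import Crest.Agent.RI.TowerAPI
import Crest.Agent.RI.SysBasic
import Crest.Agent.RI.HaarON

/-!
# Row 164, Part 7 (H6): the tower as a function of the level-0 matrix, definitions
-/

set_option autoImplicit false

namespace Crest.Agent.RI

open MeasureTheory ProbabilityTheory

variable {N K : ℕ}

/-- level-0 element carrying only a matrix -/
def e0 (U : ON N) : EN N := (U, (fun _ => 0), (fun _ => 0), fun _ => true)

/-- rotation of the perturbation field of a level -/
def rotL (V : Fin N → Fin N → ℝ) (x : EN N) : EN N := (x.1, x.2.1, avec V x.2.2.1, x.2.2.2)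

/-- the Hamiltonian as a function of the levels `1..k`, level-0 matrix `U` -/
noncomputable def HU (k : ℕ) (θ : Par N K) (U : ON N) (ω : Fin k → EN N) : ℝ :=
  HN k θ (Fin.cons (e0 U) ω)

/-- `y` -/
def yU (k : ℕ) (U : ON N) (ω : Fin k → EN N) : Fin N → ℝ :=
  fun a => yv k (Fin.cons (e0 U) ω : Fin (k + 1) → EN N) a

/-- the perturbation field of level `i` (zero for `i = 0`) -/
def gU (k : ℕ) (i : Fin k) (U : ON N) (ω : Fin k → EN N) : Fin N → ℝ :=
  ((Fin.cons (e0 U) ω : Fin (k + 1) → EN N) i.castSucc).2.2.1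

/-- coordinatewise product with a block-constant vector -/
def blk (κ : Fin N → Fin K) (d : Fin K → ℝ) (x : Fin N → ℝ) : Fin N → ℝ := fun a => d (κ a) * x a

/-- `X_1` as a function of the level-0 matrix -/
noncomputable def X1 (P : Measure (ON N)) (A : Measure (Fin N → Bool)) (ζ : ℕ → ℝ) (k : ℕ)
    (θ : Par N K) (U : ON N) : ℝ := nest (mN P A) ζ k 1 (HU k θ U)

end Crest.Agent.RI
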