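import Crest.Agent.RI.LBDefs
import Crest.Agent.RI.TowerAPI
import Crest.Agent.RI.HaarON
import Crest.Agent.RI.TowDefs

/-!
# Row 164, Part 8.1: the coupling of the systems of size `N` and `N + 1`, definitions

`u(ξ) = (-|ξ_0|, ξ_⊥)/|ξ|`, `q = (e_0 - u)/|e_0 - u|`, `O' = ± (1 - 2qqᵀ)(1 ⊕ O)`; the sign makes the
first column `± u` uniform on the sphere while `|e_0 - u|² = 2(1 + |ξ_0|/|ξ|) ≥ 2` stays away from `0`.
-/

set_option autoImplicit false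

namespace Crest.Agent.RI

open MeasureTheory ProbabilityTheory

variable {N K k : ℕ}

/-- `u(ξ)` -/
noncomputable def uv (ξ : Fin (N + 1) → ℝ) : Fin (N + 1) → ℝ :=
  nrm (Fin.cons (-|ξ 0|) (Fin.tail ξ))

/-- sign -/
noncomputable def sg (ξ : Fin (N + 1) → ℝ) : ℝ := if 0 < ξ 0 then -1 else 1

/-- the vector of the reflection -/
noncomputable def qc (ξ : Fin (N + 1) → ℝ) : Fin (N + 1) → ℝ := qv 0 (uv ξ)

/-- `± (1 - 2 q qᵀ)` -/
noncomputable def cM (ξ : Fin (N + 1) → ℝ) : Fin (N + 1) → Fin (N + 1) → ℝ :=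
  fun i j => sg ξ * refl (qc ξ) i j

theorem cM_isO (ξ : Fin (N + 1) → ℝ) : IsO (cM ξ) := by
  have h := isO_refl (uz_qv 0 (uv ξ))
  rw [isO_iff_rows] at h ⊢
  intro i j
  rw [← h i j]
  refine Finset.sum_congr rfl fun a _ => ?_
  have h2 : sg ξ * sg ξ = 1 := by
    unfold sg
    split_ifs <;> norm_num
  unfold cM qc
  linear_combination (refl (qv 0 (uv ξ)) i a * refl (qv 0 (uv ξ)) j a) * h2

/-- the coupled orthogonal matrix -/
noncomputable def ON.coup (ξ : Fin (N + 1) → ℝ) (O : ON N) : ON (N + 1) :=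
  ⟨amul (cM ξ) (Crest.Agent.RI.oneSum O.1), IsO.mul (cM_isO ξ) (oneSum_isO O.2)⟩

/-- fair coin -/
noncomputable def coin : Measure Bool :=
  (2 : ENNReal)⁻¹ • (Measure.dirac true + Measure.dirac false)

/-- level space of the coupled tower: (system, `ξ`, `g̃_0`), (`g_0`, `ε`) -/
abbrev EC1 (N : ℕ) : Type := EN N × (Fin (N + 1) → ℝ) × ℝ
abbrev EC (N : ℕ) : Type := EC1 N × (ℝ × Bool)

noncomputable def mC1 (P : Measure (ON N)) : Measure (EC1 N) :=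
  (mN P (unifA N)).prod ((gvec (N + 1)).prod (gaussianReal 0 1))
noncomputable def mX : Measure (ℝ × Bool) := (gaussianReal 0 1).prod coin
noncomputable def mC (P : Measure (ON N)) : Measure (EC N) := (mC1 P).prod mX

noncomputable def βC1 (x : EC1 N) : ℝ := βN x.1 + (∑ a, |x.2.1 a| + |x.2.2|)
noncomputable def βX (x : ℝ × Bool) : ℝ := |x.1|
noncomputable def βC (x : EC N) : ℝ := βC1 x.1 + βX x.2

/-- the map of one level; the rotation of the perturbation field uses the `ξ` of level `0` (`e`) -/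
noncomputable def Tc (e x : EC N) : EN (N + 1) :=
  (ON.coup x.1.2.1 x.1.1.1,
    (Fin.cons x.2.1 x.1.1.2.1 : Fin (N + 1) → ℝ),
    avec (cM e.1.2.1) (Fin.cons x.1.2.2 x.1.1.2.2.1 : Fin (N + 1) → ℝ),
    (Fin.cons x.2.2 x.1.1.2.2.2 : Fin (N + 1) → Bool))

/-- the coupled path of the system of size `N+1` -/
noncomputable def cp (ω : Fin (k + 1) → EC N) : Fin (k + 1) → EN (N + 1) := fun j => Tc (ω 0) (ω j)

/-- the path of the system of size `N` -/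
def b0 (ω : Fin (k + 1) → EC N) : Fin (k + 1) → EN N := fun j => (ω j).1.1

def xi (ω : Fin (k + 1) → EC N) : Fin (N + 1) → ℝ := (ω 0).1.2.1

/-- the new spin -/
noncomputable def ep (ω : Fin (k + 1) → EC N) : ℝ := spin (ω (Fin.last k)).2.2

/-- `X = (ε, y)` -/
noncomputable def Xv (ω : Fin (k + 1) → EC N) : Fin (N + 1) → ℝ :=
  Fin.cons (ep ω) (yv k (b0 ω))

/-- `ĝ^i = (g̃^i_0, g̃^i)` -/
noncomputable def gh (i : Fin k) (ω : Fin (k + 1) → EC N) : Fin (N + 1) → ℝ :=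
  Fin.cons (ω i.castSucc).1.2.2 (ω i.castSucc).1.1.2.2.1

/-- the limiting Gaussian field `z_l = N^{-1/2} Σ_{κ a = l} ξ_{a+1} y_a` -/
noncomputable def zx (κ : Fin N → Fin K) (ω : Fin (k + 1) → EC N) (l : Fin K) : ℝ :=
  (Real.sqrt N)⁻¹ * ∑ a : Fin N, if κ a = l then xi ω a.succ * yv k (b0 ω) a else 0

/-- `Σ_a f(κ a) u_{a+1} y_a` -/
noncomputable def Aw (κ : Fin N → Fin K) (f : Fin K → ℝ) (ω : Fin (k + 1) → EC N) : ℝ :=
  ∑ a : Fin N, f (κ a) * uv (xi ω) a.succ * yv k (b0 ω) a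

/-- `Σ_a f(κ a) u_{a+1} g̃^i_a` -/
noncomputable def Gw (κ : Fin N → Fin K) (f : Fin K → ℝ) (i : Fin k) (ω : Fin (k + 1) → EC N) : ℝ :=
  ∑ a : Fin N, f (κ a) * uv (xi ω) a.succ * (ω i.castSucc).1.1.2.2.1 a

/-- `g̃^i_0` -/
def G0 (i : Fin k) (ω : Fin (k + 1) → EC N) : ℝ := (ω i.castSucc).1.2.2

/-- deviation of `ξ` from its typical behaviour -/
noncomputable def dev (κ : Fin N → Fin K) (d : Fin K → ℝ) (eb : ℝ) (ξ : Fin (N + 1) → ℝ) : ℝ :=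
  |ip ξ ξ / (N : ℝ) - 1| + |ξ 0| / Real.sqrt N +
    |(1 / (N : ℝ)) * ∑ a : Fin N, d (κ a) * (ξ a.succ ^ 2 - 1)| +
    |(1 / (N : ℝ)) * ∑ a : Fin N, d (κ a) - eb|

/-- the limiting quadratic form
`½ ē + ε (G - ē g) - g G + ½ (e_0 + ē) g²` -/
noncomputable def DI (e0 eb g G ε : ℝ) : ℝ :=
  (1 / 2) * eb + ε * (G - eb * g) - g * G + (1 / 2) * (e0 + eb) * g ^ 2

/-- mean of `d` -/
noncomputable def Blk.dbar (D : Blk) : ℝ := ∑ l, D.α l * D.d l

/-- `Δ^∞` as a function of `z ∈ ℝ^K` and `ε` -/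
noncomputable def DInf (D : Blk) (l0 : Fin D.K) (z : Fin D.K → ℝ) (ε : ℝ) : ℝ :=
  DI (D.d l0) D.dbar (∑ l, z l) (∑ l, D.d l * z l) ε

/-- the magnetic increment, `τ_j` in place of `T_j/N` -/
noncomputable def dB {J : ℕ} (L : LBd J) (τ : Fin J → ℝ) (j0 : Fin J) (ε : ℝ) : ℝ :=
  (L.c j0 - 2 * L.kap * (τ j0 - L.γ j0 * L.m j0)) * ε + L.kap * ∑ j, (τ j - L.γ j * L.m j) ^ 2 +
    2 * L.kap * ∑ j, (τ j - L.γ j * L.m j) * (L.γ j * L.m j)

end Crest.Agent.RI
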