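import Crest.Agent.RI.CoupDefs

/-!
# Row 164, Part 8.1: the Hamiltonian in the coupled variables (algebra)
-/

set_option autoImplicit false

namespace Crest.Agent.RI

open MeasureTheory ProbabilityTheory

variable {N K k : ℕ}

private theorem CoupH_oneSum (O : ON N) (σ : Fin N → Bool) (b : Bool) (j : Fin (N + 1)) :
    ∑ r, Crest.Agent.RI.oneSum O.1 j r * spin ((Fin.cons b σ : Fin (N + 1) → Bool) r) =
      (Fin.cons (spin b) (rot O σ) : Fin (N + 1) → ℝ) j := by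
  rw [Fin.sum_univ_succ]
  refine Fin.cases ?_ (fun j => ?_) j
  · simp [oneSum]
  · simp [oneSum, rot]

/-- `y' = cM ξ (ε, y)` -/
theorem yv_coup (ω : Fin (k + 1) → EC N) : yv k (cp ω) = avec (cM (xi ω)) (Xv ω) := by
  funext a
  show ∑ r, amul (cM (xi ω)) (Crest.Agent.RI.oneSum (ω 0).1.1.1.1) a r *
      spin ((Fin.cons (ω (Fin.last k)).2.2 (ω (Fin.last k)).1.1.2.2.2 : Fin (N + 1) → Bool) r) = _
  unfold amul avec
  simp only [Finset.sum_mul]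
  rw [Finset.sum_comm]
  refine Finset.sum_congr rfl fun j _ => ?_
  have h := CoupH_oneSum (ω 0).1.1.1 (ω (Fin.last k)).1.1.2.2.2 (ω (Fin.last k)).2.2 j
  have h2 : Xv ω j = (Fin.cons (spin (ω (Fin.last k)).2.2)
      (rot (ω 0).1.1.1 (ω (Fin.last k)).1.1.2.2.2) : Fin (N + 1) → ℝ) j := rfl
  rw [h2, ← h, Finset.mul_sum]
  exact Finset.sum_congr rfl fun r _ => by ring

/-- the perturbation fields -/
theorem gt_coup (i : Fin k) (ω : Fin (k + 1) → EC N) :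
    (cp ω i.castSucc).2.2.1 = avec (cM (xi ω)) (gh i ω) := rfl

theorem cfg_coup (ω : Fin (k + 1) → EC N) :
    cfg k (cp ω) = Fin.cons (ω (Fin.last k)).2.2 (cfg k (b0 ω)) := rfl

theorem ep_sq (ω : Fin (k + 1) → EC N) : ep ω ^ 2 = 1 := spin_sq _

/-- labels of the bigger system -/
def kc (l0 : Fin K) (κ : Fin N → Fin K) : Fin (N + 1) → Fin K := Fin.cons l0 κ

/-- quadratic part of the increment, `E' = blk (kc l0 κ) e` -/
noncomputable def Qi (l0 : Fin K) (κ : Fin N → Fin K) (e : Fin K → ℝ) (q X : Fin (N + 1) → ℝ) : ℝ :=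
  (1 / 2) * e l0 - 2 * ip q X * ip q (blk (kc l0 κ) e X) +
    2 * ip q X ^ 2 * ip q (blk (kc l0 κ) e q)

/-- field part, one level -/
noncomputable def Fi (l0 : Fin K) (κ : Fin N → Fin K) (c : Fin K → ℝ) (q X g : Fin (N + 1) → ℝ) : ℝ :=
  c l0 * g 0 * X 0 - 2 * ip q g * ip q (blk (kc l0 κ) c X) - 2 * ip q X * ip q (blk (kc l0 κ) c g) +
    4 * ip q g * ip q X * ip q (blk (kc l0 κ) c q)

private theorem CoupH_sg (ξ : Fin (N + 1) → ℝ) : sg ξ * sg ξ = 1 := by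
  unfold sg
  split_ifs <;> norm_num

private theorem CoupH_cM (ξ x : Fin (N + 1) → ℝ) (a : Fin (N + 1)) :
    avec (cM ξ) x a = sg ξ * (x a - 2 * ip (qc ξ) x * qc ξ a) := by
  have h := congrFun (avec_refl (qc ξ) x) a
  rw [← h]
  unfold avec cM
  rw [Finset.mul_sum]
  exact Finset.sum_congr rfl fun j _ => by ring

/-- the bilinear form -/
private theorem CoupH_bil (κ' : Fin (N + 1) → Fin K) (d : Fin K → ℝ) (ξ x y : Fin (N + 1) → ℝ) :
    ∑ a, d (κ' a) * avec (cM ξ) x a * avec (cM ξ) y a = ∑ a, d (κ' a) * x a * y a -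
      2 * ip (qc ξ) x * ip (qc ξ) (blk κ' d y) - 2 * ip (qc ξ) y * ip (qc ξ) (blk κ' d x) +
      4 * ip (qc ξ) x * ip (qc ξ) y * ip (qc ξ) (blk κ' d (qc ξ)) := by
  have h1 : ∀ z : Fin (N + 1) → ℝ, ip (qc ξ) (blk κ' d z) = ∑ a, d (κ' a) * (qc ξ a * z a) := by
    intro z
    unfold ip blk
    exact Finset.sum_congr rfl fun a _ => by ring
  rw [h1, h1, h1, Finset.mul_sum, Finset.mul_sum, Finset.mul_sum, ← Finset.sum_sub_distrib,
    ← Finset.sum_sub_distrib, ← Finset.sum_add_distrib]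
  refine Finset.sum_congr rfl fun a _ => ?_
  rw [CoupH_cM, CoupH_cM]
  have h2 := CoupH_sg ξ
  linear_combination (d (κ' a) * (x a - 2 * ip (qc ξ) x * qc ξ a) *
    (y a - 2 * ip (qc ξ) y * qc ξ a)) * h2

/-- PROOF: `½ Σ e'_a (y'_a)² - ½ Σ e_a y_a² = Qi`: `y' = ± (X - 2 <q,X> q)`, `ε² = 1`. -/
theorem quad_coup (l0 : Fin K) (κ : Fin N → Fin K) (e : Fin K → ℝ) (ω : Fin (k + 1) → EC N) :
    (1 / 2) * ∑ a, e (kc l0 κ a) * yv k (cp ω) a ^ 2 -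
      (1 / 2) * ∑ a, e (κ a) * yv k (b0 ω) a ^ 2 = Qi l0 κ e (qc (xi ω)) (Xv ω) := by
  have h1 : ∑ a, e (kc l0 κ a) * yv k (cp ω) a ^ 2 =
      ∑ a, e (kc l0 κ a) * yv k (cp ω) a * yv k (cp ω) a :=
    Finset.sum_congr rfl fun a _ => by ring
  have h2 : ∑ a, e (kc l0 κ a) * Xv ω a * Xv ω a =
      e l0 + ∑ a, e (κ a) * yv k (b0 ω) a ^ 2 := by
    rw [Fin.sum_univ_succ]
    congr 1
    · have h3 : e (kc l0 κ 0) * Xv ω 0 * Xv ω 0 = e l0 * ep ω ^ 2 := by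
        show e l0 * ep ω * ep ω = _
        ring
      rw [h3, ep_sq, mul_one]
    · refine Finset.sum_congr rfl fun a _ => ?_
      show e (κ a) * yv k (b0 ω) a * yv k (b0 ω) a = _
      ring
  rw [h1, yv_coup, CoupH_bil, h2]
  unfold Qi
  ring

theorem field_coup (l0 : Fin K) (κ : Fin N → Fin K) (c : Fin K → ℝ) (i : Fin k)
    (ω : Fin (k + 1) → EC N) :
    ∑ a, c (kc l0 κ a) * (cp ω i.castSucc).2.2.1 a * yv k (cp ω) a -
      ∑ a, c (κ a) * (b0 ω i.castSucc).2.2.1 a * yv k (b0 ω) a =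
      Fi l0 κ c (qc (xi ω)) (Xv ω) (gh i ω) := by
  have h2 : ∑ a, c (kc l0 κ a) * gh i ω a * Xv ω a =
      c l0 * gh i ω 0 * Xv ω 0 +
        ∑ a, c (κ a) * (b0 ω i.castSucc).2.2.1 a * yv k (b0 ω) a := by
    rw [Fin.sum_univ_succ]
    rfl
  rw [gt_coup, yv_coup, CoupH_bil, h2]
  unfold Fi
  ring

/-- THE INCREMENT.  -/
theorem HN_coup (θ : Par N K) (θ' : Par (N + 1) K) (l0 : Fin K) (hκ : θ'.κ = kc l0 θ.κ)
    (he : θ'.e = θ.e) (hc : θ'.c = θ.c) (hv : ∀ i, θ.v i = 0) (hv' : ∀ i, θ'.v i = 0)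
    (ω : Fin (k + 1) → EC N) :
    HN k θ' (cp ω) - HN k θ (b0 ω) = Qi l0 θ.κ θ.e (qc (xi ω)) (Xv ω) +
      ∑ i : Fin k, Fi l0 θ.κ (θ.c i) (qc (xi ω)) (Xv ω) (gh i ω) +
      (θ'.B (cfg k (cp ω)) - θ.B (cfg k (b0 ω))) := by
  have h1 : ∀ {N' : ℕ} (θ : Par N' K) (ω : Fin (k + 1) → EN N'), (∀ i, θ.v i = 0) →
      HN k θ ω = (1 / 2) * ∑ a : Fin N', θ.e (θ.κ a) * yv k ω a ^ 2 +
        ∑ i : Fin k, ∑ a : Fin N', θ.c i (θ.κ a) * (ω i.castSucc).2.2.1 a * yv k ω a +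
        θ.B (cfg k ω) := by
    intro N' θ ω hv
    unfold HN cfg
    simp only [hv, zero_mul, Finset.sum_const_zero, add_zero]
  rw [h1 θ' _ hv', h1 θ _ hv, hκ, he, hc, ← quad_coup]
  simp only [← field_coup]
  rw [Finset.sum_sub_distrib]
  ring

end Crest.Agent.RI
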