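import Crest.Agent.RI.CoupDefs

/-!
# Row 164, Part 8.1: the coupled matrix is Haar
-/

set_option autoImplicit false

namespace Crest.Agent.RI

open MeasureTheory ProbabilityTheory

variable {N K k : ℕ}

theorem CoupMA_measurable_sg : Measurable (sg : (Fin (N + 1) → ℝ) → ℝ) := by
  unfold sg
  exact Measurable.ite (measurableSet_lt measurable_const (measurable_pi_apply 0))
    measurable_const measurable_const

theorem CoupMA_measurable_uv : Measurable (uv : (Fin (N + 1) → ℝ) → _) := by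
  unfold uv
  refine measurable_nrm.comp ?_
  refine measurable_pi_iff.2 fun j => ?_
  refine Fin.cases ?_ (fun j => ?_) j
  · simp only [Fin.cons_zero]
    have h0 : Measurable (fun ξ : Fin (N + 1) → ℝ => |ξ 0|) :=
      continuous_abs.measurable.comp (measurable_pi_apply 0)
    exact h0.neg
  · simp only [Fin.cons_succ, Fin.tail]
    exact measurable_pi_apply _

theorem measurable_cM : Measurable (cM : (Fin (N + 1) → ℝ) → _) := by
  have h1 : Measurable (fun ξ : Fin (N + 1) → ℝ => Crest.Agent.RI.refl (qc ξ)) :=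
    measurable_refl.comp ((measurable_qv 0).comp CoupMA_measurable_uv)
  refine measurable_pi_iff.2 fun i => measurable_pi_iff.2 fun j => ?_
  exact CoupMA_measurable_sg.mul ((measurable_pi_apply j).comp ((measurable_pi_apply i).comp h1))

theorem measurable_coup :
    Measurable (fun p : (Fin (N + 1) → ℝ) × ON N => ON.coup p.1 p.2) := by
  refine measurableEmbedding_val.measurable_comp_iff.1 ?_
  exact measurable_amul.comp ((measurable_cM.comp measurable_fst).prodMk
    (measurable_oneSum.comp (measurable_subtype_coe.comp measurable_snd)))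

theorem CoupMA_sg_sq (ξ : Fin (N + 1) → ℝ) : sg ξ * sg ξ = 1 := by
  unfold sg
  split_ifs <;> norm_num

theorem CoupMA_ip_cons (x : ℝ) (y : Fin N → ℝ) :
    ip (Fin.cons x y : Fin (N + 1) → ℝ) (Fin.cons x y : Fin (N + 1) → ℝ) = x * x + ip y y := by
  unfold ip
  rw [Fin.sum_univ_succ]
  simp

theorem CoupMA_ip_self (ξ : Fin (N + 1) → ℝ) :
    ip ξ ξ = ξ 0 * ξ 0 + ip (Fin.tail ξ) (Fin.tail ξ) := by
  rw [← CoupMA_ip_cons, Fin.cons_self_tail]

/-- the first column of `cM ξ` is `sg ξ * u(ξ) = (ξ_0, sg ξ ξ_⊥)/|ξ|` -/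
theorem cM_col {ξ : Fin (N + 1) → ℝ} (h : ip ξ ξ ≠ 0) :
    avec (cM ξ) (ev 0) = nrm (Fin.cons (ξ 0) (fun a => sg ξ * ξ a.succ)) := by
  have e1 : ip (Fin.cons (-|ξ 0|) (Fin.tail ξ) : Fin (N + 1) → ℝ)
      (Fin.cons (-|ξ 0|) (Fin.tail ξ) : Fin (N + 1) → ℝ) = ip ξ ξ := by
    rw [CoupMA_ip_cons, CoupMA_ip_self ξ]
    congr 1
    rw [neg_mul_neg, abs_mul_abs_self]
  have e2 : ip (Fin.cons (ξ 0) (fun a => sg ξ * ξ a.succ) : Fin (N + 1) → ℝ)
      (Fin.cons (ξ 0) (fun a => sg ξ * ξ a.succ) : Fin (N + 1) → ℝ) = ip ξ ξ := by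
    rw [CoupMA_ip_cons, CoupMA_ip_self ξ]
    congr 1
    unfold ip
    refine Finset.sum_congr rfl fun a _ => ?_
    have := CoupMA_sg_sq ξ
    unfold Fin.tail
    linear_combination (ξ a.succ * ξ a.succ) * this
  have h1 : avec (Crest.Agent.RI.refl (qc ξ)) (ev 0) = uv ξ := by
    unfold qc
    apply refl_qv_ev
    unfold uv
    apply ip_nrm
    rw [e1]
    exact h
  have h2 : avec (cM ξ) (ev 0) = fun i => sg ξ * uv ξ i := by
    funext i
    rw [← h1]
    unfold avec cM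
    rw [Finset.mul_sum]
    refine Finset.sum_congr rfl fun j _ => ?_
    ring
  rw [h2]
  funext i
  unfold uv nrm
  rw [e1, e2, ← mul_div_assoc]
  congr 1
  refine Fin.cases ?_ (fun i => ?_) i
  · simp only [Fin.cons_zero]
    unfold sg
    split_ifs with hs
    · rw [abs_of_pos hs]; ring
    · rw [abs_of_nonpos (not_lt.1 hs)]; ring
  · simp only [Fin.cons_succ, Fin.tail]

/-- `ψ ξ = (ξ_0, sg ξ ξ_⊥)` -/
noncomputable def CoupMA_psi (ξ : Fin (N + 1) → ℝ) : Fin (N + 1) → ℝ :=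
  Fin.cons (ξ 0) (fun a => sg ξ * ξ a.succ)

theorem CoupMA_measurable_psi :
    Measurable (CoupMA_psi : (Fin (N + 1) → ℝ) → (Fin (N + 1) → ℝ)) := by
  refine measurable_pi_iff.2 fun j => ?_
  unfold CoupMA_psi
  refine Fin.cases ?_ (fun j => ?_) j
  · simp only [Fin.cons_zero]
    exact measurable_pi_apply 0
  · simp only [Fin.cons_succ]
    exact CoupMA_measurable_sg.mul (measurable_pi_apply _)

theorem CoupMA_gauss_neg {s : Set ℝ} (hs : MeasurableSet s) :
    (gaussianReal 0 1) ((fun x => -x) ⁻¹' s) = (gaussianReal 0 1) s := by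
  have h := gaussianReal_map_neg (μ := 0) (v := 1)
  rw [neg_zero] at h
  conv_rhs => rw [← h]
  rw [Measure.map_apply measurable_neg hs]

theorem CoupMA_psi_map : (gvec (N + 1)).map CoupMA_psi = gvec (N + 1) := by
  unfold gvec
  symm
  refine Measure.pi_eq fun s hs => ?_
  rw [Measure.map_apply CoupMA_measurable_psi (MeasurableSet.univ_pi hs)]
  set tA : Fin (N + 1) → Set ℝ :=
    Fin.cons (s 0 ∩ Set.Ioi 0) (fun a => (fun x => -x) ⁻¹' s a.succ) with htA
  set tB : Fin (N + 1) → Set ℝ := Fin.cons (s 0 ∩ Set.Iic 0) (fun a => s a.succ) with htB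
  have e : CoupMA_psi ⁻¹' (Set.univ.pi s) = Set.univ.pi tA ∪ Set.univ.pi tB := by
    ext ξ
    simp only [Set.mem_preimage, Set.mem_univ_pi, Set.mem_union]
    rw [Fin.forall_iff_succ (P := fun i => CoupMA_psi ξ i ∈ s i),
      Fin.forall_iff_succ (P := fun i => ξ i ∈ tA i), Fin.forall_iff_succ (P := fun i => ξ i ∈ tB i)]
    simp only [htA, htB, CoupMA_psi, Fin.cons_zero, Fin.cons_succ, Set.mem_inter_iff, Set.mem_Ioi,
      Set.mem_Iic, Set.mem_preimage]
    by_cases h0 : 0 < ξ 0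
    · have : sg ξ = -1 := by unfold sg; rw [if_pos h0]
      simp only [this, neg_one_mul, h0, and_true, not_le.2 h0, and_false, false_and, or_false]
    · have : sg ξ = 1 := by unfold sg; rw [if_neg h0]
      simp only [this, one_mul, h0, and_false, false_and, not_lt.1 h0, and_true, false_or]
  have hmA : MeasurableSet (Set.univ.pi tA) := by
    refine MeasurableSet.univ_pi fun j => ?_
    refine Fin.cases ?_ (fun j => ?_) j
    · exact (hs 0).inter measurableSet_Ioi
    · exact measurable_neg (hs j.succ)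
  have hmB : MeasurableSet (Set.univ.pi tB) := by
    refine MeasurableSet.univ_pi fun j => ?_
    refine Fin.cases ?_ (fun j => ?_) j
    · exact (hs 0).inter measurableSet_Iic
    · exact hs j.succ
  have hd : Disjoint (Set.univ.pi tA) (Set.univ.pi tB) := by
    rw [Set.disjoint_left]
    intro ξ hA hB
    have h1 := hA 0 (Set.mem_univ _)
    have h2 := hB 0 (Set.mem_univ _)
    simp only [htA, htB, Fin.cons_zero] at h1 h2
    have h3 : (0 : ℝ) < ξ 0 := h1.2
    have h4 : ξ 0 ≤ 0 := h2.2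
    linarith
  rw [e, measure_union hd hmB, Measure.pi_pi, Measure.pi_pi, Fin.prod_univ_succ,
    Fin.prod_univ_succ, Fin.prod_univ_succ]
  simp only [htA, htB, Fin.cons_zero, Fin.cons_succ]
  have e2 : ∏ i : Fin N, (gaussianReal 0 1) ((fun x => -x) ⁻¹' s i.succ) =
      ∏ i : Fin N, (gaussianReal 0 1) (s i.succ) :=
    Finset.prod_congr rfl fun i _ => CoupMA_gauss_neg (hs i.succ)
  rw [e2, ← add_mul]
  congr 1
  have h3 := measure_inter_add_sdiff (μ := gaussianReal 0 1) (s 0)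
    (measurableSet_Ioi : MeasurableSet (Set.Ioi (0 : ℝ)))
  rw [← h3]
  congr 2
  ext x
  simp

theorem CoupMA_key {ξ : Fin (N + 1) → ℝ} (h : ip ξ ξ ≠ 0) :
    ∃ R : ON N, ∀ O : ON N, ON.coup ξ O = ON.cav (CoupMA_psi ξ) (ON.mul R O) := by
  have hip : ip (CoupMA_psi ξ) (CoupMA_psi ξ) = ip ξ ξ := by
    unfold CoupMA_psi
    rw [CoupMA_ip_cons, CoupMA_ip_self ξ]
    congr 1
    unfold ip
    refine Finset.sum_congr rfl fun a _ => ?_
    have := CoupMA_sg_sq ξ
    unfold Fin.tail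
    linear_combination (ξ a.succ * ξ a.succ) * this
  have hu : ip (nrm (CoupMA_psi ξ)) (nrm (CoupMA_psi ξ)) = 1 := ip_nrm (by rw [hip]; exact h)
  set F := Crest.Agent.RI.refl (qv 0 (nrm (CoupMA_psi ξ))) with hF
  have oF : IsO F := isO_refl (uz_qv _ _)
  have hT : IsO (amul F (cM ξ)) := oF.mul (cM_isO ξ)
  have hTe : avec (amul F (cM ξ)) (ev 0) = ev 0 := by
    rw [avec_amul, cM_col h]
    exact refl_qv_self hu
  obtain ⟨R, hR, hRe⟩ := HaarCav_exists hT hTe
  refine ⟨⟨R, hR⟩, fun O => ?_⟩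
  apply Subtype.ext
  show amul (cM ξ) (Crest.Agent.RI.oneSum O.1) =
    (ON.mul (ON.refl (qv 0 (nrm (CoupMA_psi ξ)))) (ON.oneSum (ON.mul ⟨R, hR⟩ O))).1
  rw [HaarON_mul_val, ON.refl_val (uz_qv _ _)]
  show amul (cM ξ) (Crest.Agent.RI.oneSum O.1) =
    amul F (Crest.Agent.RI.oneSum (ON.mul ⟨R, hR⟩ O).1)
  rw [HaarON_mul_val]
  show amul (cM ξ) (Crest.Agent.RI.oneSum O.1) = amul F (Crest.Agent.RI.oneSum (amul R O.1))
  rw [← HaarCav_mul, ← hRe, ← amul_assoc, ← amul_assoc, hF, refl_refl (uz_qv _ _), aone_amul]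

/-- The law of the coupled matrix is Haar.  PROOF: the map `ψ ξ = (ξ_0, sg ξ ξ_⊥)` preserves `gvec (N+1)`; for `w = nrm (ψ ξ)` both `cM ξ` and the reflection
`refl (qv 0 w)` of `ON.cav (ψ ξ)` map `e_0` to `w` (if `ip ξ ξ ≠ 0`), so `cM ξ = refl (qv 0 w) (1 ⊕ R(ξ))` with an orthogonal `R(ξ)` (`HaarCav_exists`), hence
`coup ξ O = cav (ψ ξ) (R(ξ) O)`; for fixed `ξ`, `R(ξ) O` has the law of `O` (left invariance), Fubini; `HaarO.cavity`, `HaarO.unique`. -/
theorem coup_mp {P : Measure (ON N)} (hP : HaarO P) {P' : Measure (ON (N + 1))} (hP' : HaarO P') :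
    MeasurePreserving (fun p : (Fin (N + 1) → ℝ) × ON N => ON.coup p.1 p.2)
      ((gvec (N + 1)).prod P) P' := by
  have := hP.prob
  refine ⟨measurable_coup, ?_⟩
  rw [hP'.unique hP.cavity]
  ext B hB
  rw [Measure.map_apply measurable_coup hB, Measure.map_apply measurable_cav hB,
    Measure.prod_apply (measurable_coup hB), Measure.prod_apply (measurable_cav hB)]
  set G : (Fin (N + 1) → ℝ) → ENNReal := fun ξ => P (Prod.mk ξ ⁻¹'
    ((fun x : (Fin (N + 1) → ℝ) × ON N => ON.cav x.1 x.2) ⁻¹' B)) with hG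
  have hGm : Measurable G := measurable_measure_prodMk_left (measurable_cav hB)
  have key : ∀ᵐ ξ ∂gvec (N + 1), P (Prod.mk ξ ⁻¹'
      ((fun p : (Fin (N + 1) → ℝ) × ON N => ON.coup p.1 p.2) ⁻¹' B)) = G (CoupMA_psi ξ) := by
    filter_upwards [gvec_ne_zero (Nat.succ_pos N)] with ξ hξ
    obtain ⟨R, hR⟩ := CoupMA_key hξ
    have hset : Prod.mk ξ ⁻¹' ((fun p : (Fin (N + 1) → ℝ) × ON N => ON.coup p.1 p.2) ⁻¹' B) =
        (fun O => ON.mul R O) ⁻¹' (Prod.mk (CoupMA_psi ξ) ⁻¹'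
          ((fun x : (Fin (N + 1) → ℝ) × ON N => ON.cav x.1 x.2) ⁻¹' B)) := by
      ext O
      simp only [Set.mem_preimage]
      rw [hR O]
    rw [hset, ← Measure.map_apply (HaarON_mul_left R)
      (measurable_prodMk_left (measurable_cav hB)), hP.left R]
  rw [lintegral_congr_ae key]
  calc ∫⁻ ξ, G (CoupMA_psi ξ) ∂gvec (N + 1)
      = ∫⁻ ξ, G ξ ∂((gvec (N + 1)).map CoupMA_psi) :=
        (lintegral_map hGm CoupMA_measurable_psi).symm
    _ = ∫⁻ ξ, G ξ ∂(gvec (N + 1)) := by rw [CoupMA_psi_map]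

end Crest.Agent.RI
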