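import Crest.Agent.RI.CoupMA

/-!
# Row 164, Part 8.1: the coupling preserves the laws
-/

set_option autoImplicit false

namespace Crest.Agent.RI

open MeasureTheory ProbabilityTheory

variable {N K k : ℕ}

instance prob_coin : IsProbabilityMeasure coin := by
  constructor
  unfold coin
  simp only [Measure.smul_apply, Measure.add_apply, measure_univ, smul_eq_mul]
  rw [one_add_one_eq_two, ENNReal.inv_mul_cancel two_ne_zero ENNReal.ofNat_ne_top]

instance prob_mX : IsProbabilityMeasure mX := by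
  unfold mX; infer_instance

private theorem CoupMP_cons {α : Type} [MeasurableSpace α] (μ : Measure α) [SigmaFinite μ] :
    MeasurePreserving (fun p : α × (Fin N → α) => (Fin.cons p.1 p.2 : Fin (N + 1) → α))
      (μ.prod (Measure.pi fun _ : Fin N => μ)) (Measure.pi fun _ : Fin (N + 1) => μ) := by
  have h := (measurePreserving_piFinSuccAbove (fun _ : Fin (N + 1) => μ) 0).symm
  have e : ⇑(MeasurableEquiv.piFinSuccAbove (fun _ : Fin (N + 1) => α) 0).symm =
      (fun p : α × (Fin N → α) => (Fin.cons p.1 p.2 : Fin (N + 1) → α)) := by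
    funext p
    simp [MeasurableEquiv.piFinSuccAbove, Fin.insertNthEquiv]
  rw [← e]
  exact h

/-- `unifA (N+1)` and `gvec (N+1)` split off their coordinate `0` -/
theorem cons_unifA_mp : MeasurePreserving (fun p : Bool × (Fin N → Bool) =>
    (Fin.cons p.1 p.2 : Fin (N + 1) → Bool)) (coin.prod (unifA N)) (unifA (N + 1)) :=
  CoupMP_cons coin

theorem cons_gvec_mp : MeasurePreserving (fun p : ℝ × (Fin N → ℝ) =>
    (Fin.cons p.1 p.2 : Fin (N + 1) → ℝ)) ((gaussianReal 0 1).prod (gvec N)) (gvec (N + 1)) :=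
  CoupMP_cons (gaussianReal 0 1)

theorem measurable_Tc : Measurable (fun p : EC N × EC N => Tc p.1 p.2) := by
  have h1 : Measurable (fun p : EC N × EC N => ON.coup p.2.1.2.1 p.2.1.1.1) :=
    measurable_coup.comp (f := fun p : EC N × EC N => (p.2.1.2.1, p.2.1.1.1)) (by fun_prop)
  have h2 : Measurable (fun p : EC N × EC N =>
      (Fin.cons p.2.2.1 p.2.1.1.2.1 : Fin (N + 1) → ℝ)) :=
    cons_gvec_mp.measurable.comp (f := fun p : EC N × EC N => (p.2.2.1, p.2.1.1.2.1)) (by fun_prop)
  have h3 : Measurable (fun p : EC N × EC N =>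
      (Fin.cons p.2.1.2.2 p.2.1.1.2.2.1 : Fin (N + 1) → ℝ)) :=
    cons_gvec_mp.measurable.comp (f := fun p : EC N × EC N => (p.2.1.2.2, p.2.1.1.2.2.1))
      (by fun_prop)
  have h4 : Measurable (fun p : EC N × EC N =>
      (Fin.cons p.2.2.2 p.2.1.1.2.2.2 : Fin (N + 1) → Bool)) :=
    cons_unifA_mp.measurable.comp (f := fun p : EC N × EC N => (p.2.2.2, p.2.1.1.2.2.2))
      (by fun_prop)
  have h5 : Measurable (fun p : EC N × EC N => cM p.1.1.2.1) :=
    measurable_cM.comp (f := fun p : EC N × EC N => p.1.1.2.1) (by fun_prop)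
  have h6 : Measurable (fun p : EC N × EC N => avec (cM p.1.1.2.1)
      (Fin.cons p.2.1.2.2 p.2.1.1.2.2.1 : Fin (N + 1) → ℝ)) :=
    measurable_avec.comp (h5.prodMk h3)
  exact h1.prodMk (h2.prodMk (h6.prodMk h4))

private theorem CoupMP_sf {α : Type} [MeasurableSpace α] (μ : Measure α)
    [IsProbabilityMeasure μ] : SFinite μ := inferInstance

section rearr

variable {A B C D : Type} [MeasurableSpace A] [MeasurableSpace B] [MeasurableSpace C]
  [MeasurableSpace D] (a : Measure A) (b : Measure B) (c : Measure C) (d : Measure D)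
  [IsProbabilityMeasure a] [IsProbabilityMeasure b] [IsProbabilityMeasure c]
  [IsProbabilityMeasure d]

private theorem CoupMP_lc : MeasurePreserving (fun x : A × (B × C) => (x.2.1, (x.1, x.2.2)))
    (a.prod (b.prod c)) (b.prod (a.prod c)) := by
  have h1 := (measurePreserving_prodAssoc a b c).symm
  have h2 : MeasurePreserving (Prod.map Prod.swap id) ((a.prod b).prod c) ((b.prod a).prod c) :=
    Measure.measurePreserving_swap.prod (MeasurePreserving.id c)
  have h3 := measurePreserving_prodAssoc b a c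
  exact h3.comp (h2.comp h1)

private theorem CoupMP_mid : MeasurePreserving
    (fun x : (A × B) × (C × D) => ((x.1.1, x.2.1), (x.1.2, x.2.2)))
    ((a.prod b).prod (c.prod d)) ((a.prod c).prod (b.prod d)) := by
  have h1 := measurePreserving_prodAssoc a b (c.prod d)
  have h2 : MeasurePreserving (Prod.map id (fun x : B × (C × D) => (x.2.1, (x.1, x.2.2))))
      (a.prod (b.prod (c.prod d))) (a.prod (c.prod (b.prod d))) :=
    (MeasurePreserving.id a).prod (CoupMP_lc b c d)
  have h3 := (measurePreserving_prodAssoc a c (b.prod d)).symm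
  exact h3.comp (h2.comp h1)

end rearr

/-- rearrangement of the components of `EC` -/
private theorem CoupMP_rearr {P : Measure (ON N)} (hP : HaarO P) :
    MeasurePreserving (fun x : EC N => (((x.1.2.1, x.1.1.1) : (Fin (N + 1) → ℝ) × ON N),
        (((x.2.1, x.1.1.2.1) : ℝ × (Fin N → ℝ)), (((x.1.2.2, x.1.1.2.2.1) : ℝ × (Fin N → ℝ)),
          ((x.2.2, x.1.1.2.2.2) : Bool × (Fin N → Bool))))))
      (mC P) (((gvec (N + 1)).prod P).prod (((gaussianReal 0 1).prod (gvec N)).prod
        (((gaussianReal 0 1).prod (gvec N)).prod (coin.prod (unifA N))))) := by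
  have := hP.prob
  have s1 := CoupMP_mid P ((gvec N).prod ((gvec N).prod (unifA N))) (gvec (N + 1))
    (gaussianReal 0 1)
  have s2 : MeasurePreserving (Prod.map Prod.swap Prod.swap)
      ((P.prod (gvec (N + 1))).prod (((gvec N).prod ((gvec N).prod (unifA N))).prod
        (gaussianReal 0 1)))
      (((gvec (N + 1)).prod P).prod ((gaussianReal 0 1).prod
        ((gvec N).prod ((gvec N).prod (unifA N))))) :=
    Measure.measurePreserving_swap.prod Measure.measurePreserving_swap
  have s3 := ((s2.comp s1).prod (MeasurePreserving.id mX))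
  have s4 := measurePreserving_prodAssoc ((gvec (N + 1)).prod P) ((gaussianReal 0 1).prod
        ((gvec N).prod ((gvec N).prod (unifA N)))) mX
  -- second component: `(q0, (g, (q, σ))), (g0, ε)`
  have t1 : MeasurePreserving (Prod.map
      (fun x : ℝ × ((Fin N → ℝ) × ((Fin N → ℝ) × (Fin N → Bool))) => (x.2.1, (x.1, x.2.2))) id)
      (((gaussianReal 0 1).prod ((gvec N).prod ((gvec N).prod (unifA N)))).prod mX)
      (((gvec N).prod ((gaussianReal 0 1).prod ((gvec N).prod (unifA N)))).prod mX) :=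
    (CoupMP_lc (gaussianReal 0 1) (gvec N) ((gvec N).prod (unifA N))).prod
      (MeasurePreserving.id mX)
  have t2 := CoupMP_mid (gvec N) ((gaussianReal 0 1).prod ((gvec N).prod (unifA N)))
    (gaussianReal 0 1) coin
  have u1 := (measurePreserving_prodAssoc (gaussianReal 0 1) (gvec N) (unifA N)).symm
  have u2 : MeasurePreserving (Prod.map (MeasurableEquiv.prodAssoc
      (α := ℝ) (β := Fin N → ℝ) (γ := Fin N → Bool)).symm id)
      (((gaussianReal 0 1).prod ((gvec N).prod (unifA N))).prod coin)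
      ((((gaussianReal 0 1).prod (gvec N)).prod (unifA N)).prod coin) :=
    u1.prod (MeasurePreserving.id coin)
  have u3 := measurePreserving_prodAssoc ((gaussianReal 0 1).prod (gvec N)) (unifA N) coin
  have u4 : MeasurePreserving (Prod.map id Prod.swap)
      (((gaussianReal 0 1).prod (gvec N)).prod ((unifA N).prod coin))
      (((gaussianReal 0 1).prod (gvec N)).prod (coin.prod (unifA N))) :=
    (MeasurePreserving.id _).prod Measure.measurePreserving_swap
  have u5 := u4.comp (u3.comp u2)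
  have t3 := (Measure.measurePreserving_swap (μ := gvec N) (ν := gaussianReal 0 1)).prod u5
  have t4 := t3.comp (t2.comp t1)
  have s5 := (MeasurePreserving.id ((gvec (N + 1)).prod P)).prod t4
  exact s5.comp (s4.comp s3)

private theorem CoupMP_main {P : Measure (ON N)} (hP : HaarO P) {P' : Measure (ON (N + 1))}
    (hP' : HaarO P') {M : (Fin (N + 1) → ℝ) → Fin (N + 1) → Fin (N + 1) → ℝ}
    (hM : Measurable M) (hO : ∀ ξ, IsO (M ξ)) :
    MeasurePreserving (fun x : EC N => ((ON.coup x.1.2.1 x.1.1.1,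
      (Fin.cons x.2.1 x.1.1.2.1 : Fin (N + 1) → ℝ),
      avec (M x.1.2.1) (Fin.cons x.1.2.2 x.1.1.2.2.1 : Fin (N + 1) → ℝ),
      (Fin.cons x.2.2 x.1.1.2.2.2 : Fin (N + 1) → Bool)) : EN (N + 1)))
      (mC P) (mN P' (unifA (N + 1))) := by
  have := hP.prob
  have i1 : IsProbabilityMeasure (coin.prod (unifA N)) := inferInstance
  have i2 : IsProbabilityMeasure ((gaussianReal 0 1).prod (gvec N)) := inferInstance
  have i3 : IsProbabilityMeasure
    (((gaussianReal 0 1).prod (gvec N)).prod (coin.prod (unifA N))) := inferInstance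
  have i4 : IsProbabilityMeasure (((gaussianReal 0 1).prod (gvec N)).prod
    (((gaussianReal 0 1).prod (gvec N)).prod (coin.prod (unifA N)))) := inferInstance
  have i5 := CoupMP_sf (((gaussianReal 0 1).prod (gvec N)).prod
    (((gaussianReal 0 1).prod (gvec N)).prod (coin.prod (unifA N))))
  have h1 := CoupMP_rearr hP
  have j1 := (cons_gvec_mp (N := N)).prod (cons_unifA_mp (N := N))
  have j2 := (cons_gvec_mp (N := N)).prod j1
  have h2 := (MeasurePreserving.id ((gvec (N + 1)).prod P)).prod j2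
  have h3 : MeasurePreserving (fun p : ((Fin (N + 1) → ℝ) × ON N) ×
      ((Fin (N + 1) → ℝ) × ((Fin (N + 1) → ℝ) × (Fin (N + 1) → Bool))) =>
        (ON.coup p.1.1 p.1.2, (p.2.1, (avec (M p.1.1) p.2.2.1, p.2.2.2))))
      (((gvec (N + 1)).prod P).prod ((gvec (N + 1)).prod ((gvec (N + 1)).prod (unifA (N + 1)))))
      (mN P' (unifA (N + 1))) := by
    refine (coup_mp hP hP').skew_product
      (g := fun (r : (Fin (N + 1) → ℝ) × ON N)
        (s : (Fin (N + 1) → ℝ) × ((Fin (N + 1) → ℝ) × (Fin (N + 1) → Bool))) =>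
        (s.1, (avec (M r.1) s.2.1, s.2.2))) ?_ ?_
    · have e1 : Measurable (fun p : ((Fin (N + 1) → ℝ) × ON N) ×
          ((Fin (N + 1) → ℝ) × ((Fin (N + 1) → ℝ) × (Fin (N + 1) → Bool))) =>
          avec (M p.1.1) p.2.2.1) :=
        measurable_avec.comp ((hM.comp (by fun_prop)).prodMk (by fun_prop))
      have e2 : Measurable (fun p : ((Fin (N + 1) → ℝ) × ON N) ×
          ((Fin (N + 1) → ℝ) × ((Fin (N + 1) → ℝ) × (Fin (N + 1) → Bool))) => p.2.1) := by
        fun_prop
      have e3 : Measurable (fun p : ((Fin (N + 1) → ℝ) × ON N) ×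
          ((Fin (N + 1) → ℝ) × ((Fin (N + 1) → ℝ) × (Fin (N + 1) → Bool))) => p.2.2.2) := by
        fun_prop
      exact e2.prodMk (e1.prodMk e3)
    · refine Filter.Eventually.of_forall fun r => ?_
      have e1 : MeasurePreserving (avec (M r.1)) (gvec (N + 1)) (gvec (N + 1)) :=
        ⟨measurable_avec.comp (measurable_const.prodMk measurable_id), gvec_map_avec (hO r.1)⟩
      have e2 := (MeasurePreserving.id (gvec (N + 1))).prod
        (e1.prod (MeasurePreserving.id (unifA (N + 1))))
      exact e2.map_eq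
  exact h3.comp (h2.comp h1)

/-- the components `(ξ,O)`, `(g_0,g)`, `(g̃_0,g̃)`, `(ε,σ)` are independent; `avec (cM e.1.2.1)` preserves `gvec (N+1)` (`gvec_map_avec`, `cM_isO`) -/
theorem Tc_mp {P : Measure (ON N)} (hP : HaarO P) {P' : Measure (ON (N + 1))} (hP' : HaarO P')
    (e : EC N) : MeasurePreserving (Tc e) (mC P) (mN P' (unifA (N + 1))) :=
  CoupMP_main hP hP' (M := fun _ => cM e.1.2.1) measurable_const (fun _ => cM_isO _)

/-- level `0`: the rotation of the field depends on `ξ` of the same level; Fubini (for fixed `(ξ, O)` the rotated field is Gaussian) -/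
theorem Tc_mp0 {P : Measure (ON N)} (hP : HaarO P) {P' : Measure (ON (N + 1))} (hP' : HaarO P') :
    MeasurePreserving (fun x : EC N => Tc x x) (mC P) (mN P' (unifA (N + 1))) :=
  CoupMP_main hP hP' (M := cM) measurable_cM cM_isO

theorem prob_mC1 {P : Measure (ON N)} (hP : HaarO P) : IsProbabilityMeasure (mC1 P) := by
  have := prob_mN hP (unifA N)
  unfold mC1
  infer_instance

theorem prob_mC {P : Measure (ON N)} (hP : HaarO P) : IsProbabilityMeasure (mC P) := by
  have := prob_mC1 hP
  unfold mC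
  infer_instance

private theorem CoupMP_one (c : ℝ) :
    Integrable (fun x : ℝ => Real.exp (c * |x|)) (gaussianReal 0 1) :=
  integrable_exp_mul_abs (X := fun x : ℝ => x) (t := c)
    (integrable_exp_mul_gaussianReal c) (integrable_exp_mul_gaussianReal (-c))

private theorem CoupMP_gvec {n : ℕ} (c : ℝ) :
    Integrable (fun x : Fin n → ℝ => Real.exp (c * ∑ a, |x a|)) (gvec n) := by
  have h := Integrable.fintype_prod (ι := Fin n) (E := ℝ) (𝕜 := ℝ)
    (f := fun _ x => Real.exp (c * |x|)) (μ := fun _ => gaussianReal 0 1) (fun _ => CoupMP_one c)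
  have e : (fun x : Fin n → ℝ => ∏ i, Real.exp (c * |x i|)) =
      fun x : Fin n → ℝ => Real.exp (c * ∑ a, |x a|) := by
    funext x
    rw [← Real.exp_sum, Finset.mul_sum]
  rw [e] at h
  exact h

private theorem CoupMP_dom {A B : Type} [MeasurableSpace A] [MeasurableSpace B] {a : Measure A}
    {b : Measure B} [SFinite a] [SFinite b] {f : A → ℝ} {g : B → ℝ} (hf : Dom a f) (hg : Dom b g) :
    Dom (a.prod b) (fun p : A × B => f p.1 + g p.2) where
  meas := (hf.meas.comp measurable_fst).add (hg.meas.comp measurable_snd)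
  nonneg := fun e => add_nonneg (hf.nonneg _) (hg.nonneg _)
  int := fun c => by
    refine ((hf.int c).mul_prod (hg.int c)).congr (Filter.Eventually.of_forall (fun p => ?_))
    simp only
    rw [← Real.exp_add]; congr 1; ring

private theorem CoupMP_dg1 : Dom (gaussianReal 0 1) (fun x : ℝ => |x|) where
  meas := by fun_prop
  nonneg := fun x => abs_nonneg x
  int := fun c => CoupMP_one c

private theorem CoupMP_dg {n : ℕ} : Dom (gvec n) (fun x : Fin n → ℝ => ∑ a, |x a|) where
  meas := by fun_prop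
  nonneg := fun x => by positivity
  int := fun c => CoupMP_gvec c

theorem dom_mC1 {P : Measure (ON N)} (hP : HaarO P) : Dom (mC1 P) (βC1 (N := N)) := by
  have := prob_mN hP (unifA N)
  exact CoupMP_dom (dom_mN hP (unifA N)) (CoupMP_dom CoupMP_dg CoupMP_dg1)

theorem dom_mX : Dom mX βX := by
  have h : Dom coin (fun _ : Bool => (0 : ℝ)) :=
    ⟨measurable_const, fun _ => le_refl _, fun c => by simp⟩
  have h2 := CoupMP_dom CoupMP_dg1 h
  have e : (fun p : ℝ × Bool => |p.1| + 0) = βX := by
    funext p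
    simp [βX]
  rw [← e]
  exact h2

theorem dom_mC {P : Measure (ON N)} (hP : HaarO P) : Dom (mC P) (βC (N := N)) := by
  have := prob_mC1 hP
  exact CoupMP_dom (dom_mC1 hP) dom_mX

theorem measurable_cp : Measurable (fun ω : Fin (k + 1) → EC N => cp ω) := by
  refine measurable_pi_iff.2 fun j => ?_
  exact measurable_Tc.comp (f := fun ω : Fin (k + 1) → EC N => (ω 0, ω j))
    ((measurable_pi_apply 0).prodMk (measurable_pi_apply j))

theorem measurable_b0 : Measurable (fun ω : Fin (k + 1) → EC N => b0 ω) := by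
  refine measurable_pi_iff.2 fun j => ?_
  exact (measurable_fst.comp measurable_fst).comp (measurable_pi_apply j)

private theorem CoupMP_cp : (fun ω : Fin (k + 1) → EC N => cp ω) =
    fun ω => (Fin.cons ((fun x : EC N => Tc x x) (ω 0)) (fun j => Tc (ω 0) (ω j.succ)) :
      Fin (k + 1) → EN (N + 1)) := by
  funext ω j
  refine Fin.cases ?_ (fun i => ?_) j
  · rfl
  · rfl

/-- PROOF: `nest_map_head` with `T0 x = Tc x x`, `T e = Tc e` (`cp ω = cons (Tc (ω 0) (ω 0)) (fun j => Tc (ω 0) (ω j.succ))`). -/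
theorem nest_coup {P : Measure (ON N)} (hP : HaarO P) {P' : Measure (ON (N + 1))}
    (hP' : HaarO P') (ζ : ℕ → ℝ) {H : (Fin (k + 1) → EN (N + 1)) → ℝ} (hH : Measurable H) :
    nest (mC P) ζ (k + 1) 0 (fun ω => H (cp ω)) = nest (mN P' (unifA (N + 1))) ζ (k + 1) 0 H := by
  have := prob_mC hP
  have := prob_mN hP' (unifA (N + 1))
  have e : (fun ω : Fin (k + 1) → EC N => H (cp ω)) = fun ω =>
      H (Fin.cons ((fun x : EC N => Tc x x) (ω 0)) (fun j => Tc (ω 0) (ω j.succ))) := by
    funext ω
    exact congrArg H (congrFun CoupMP_cp ω)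
  rw [e]
  exact nest_map_head (Tc_mp0 hP hP') (Tc_mp hP hP') k 0 hH

theorem pathE_coup {P : Measure (ON N)} (hP : HaarO P) {P' : Measure (ON (N + 1))}
    (hP' : HaarO P') (ζ : ℕ → ℝ) {H Φ : (Fin (k + 1) → EN (N + 1)) → ℝ} (hH : Measurable H)
    (hΦ : Measurable Φ) :
    pathE (mC P) ζ (k + 1) 0 (fun ω => H (cp ω)) (fun ω => Φ (cp ω)) =
      pathE (mN P' (unifA (N + 1))) ζ (k + 1) 0 H Φ := by
  have := prob_mC hP
  have := prob_mN hP' (unifA (N + 1))
  have e : ∀ H : (Fin (k + 1) → EN (N + 1)) → ℝ,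
      (fun ω : Fin (k + 1) → EC N => H (cp ω)) = fun ω =>
      H (Fin.cons ((fun x : EC N => Tc x x) (ω 0)) (fun j => Tc (ω 0) (ω j.succ))) := by
    intro H
    funext ω
    exact congrArg H (congrFun CoupMP_cp ω)
  rw [e, e]
  exact pathE_map_head (Tc_mp0 hP hP') (Tc_mp hP hP') k 0 hH hΦ

private theorem CoupMP_fst {P : Measure (ON N)} (hP : HaarO P) :
    MeasurePreserving (fun x : EC N => x.1.1) (mC P) (mN P (unifA N)) := by
  have := prob_mC1 hP
  have := prob_mN hP (unifA N)
  have h1 : MeasurePreserving (Prod.fst : EC N → EC1 N) (mC P) (mC1 P) := measurePreserving_fst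
  have h2 : MeasurePreserving (Prod.fst : EC1 N → EN N) (mC1 P) (mN P (unifA N)) :=
    measurePreserving_fst
  exact h2.comp h1

/-- the base path: projection -/
theorem nest_b0 {P : Measure (ON N)} (hP : HaarO P) (ζ : ℕ → ℝ) {H : (Fin (k + 1) → EN N) → ℝ}
    (hH : Measurable H) :
    nest (mC P) ζ (k + 1) 0 (fun ω => H (b0 ω)) = nest (mN P (unifA N)) ζ (k + 1) 0 H := by
  have := prob_mC hP
  have := prob_mN hP (unifA N)
  exact nest_map (CoupMP_fst hP) (k + 1) 0 hH

theorem pathE_b0 {P : Measure (ON N)} (hP : HaarO P) (ζ : ℕ → ℝ) {H Φ : (Fin (k + 1) → EN N) → ℝ}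
    (hH : Measurable H) (hΦ : Measurable Φ) :
    pathE (mC P) ζ (k + 1) 0 (fun ω => H (b0 ω)) (fun ω => Φ (b0 ω)) =
      pathE (mN P (unifA N)) ζ (k + 1) 0 H Φ := by
  have := prob_mC hP
  have := prob_mN hP (unifA N)
  exact pathE_map (CoupMP_fst hP) (k + 1) 0 hH hΦ

end Crest.Agent.RI
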