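import Crest.Agent.RI.CoupQ
import Crest.Agent.RI.CoupB
import Crest.Agent.RI.Clamp
import Crest.Agent.RI.MomU

/-!
# Row 164, Part 8: pointwise comparison of the increment with its limiting form
-/

set_option autoImplicit false

namespace Crest.Agent.RI

open MeasureTheory ProbabilityTheory

variable {N K J k : ℕ}

/-- the parameters of the bigger system -/
noncomputable def θL' (D : Blk) (L : LBd J) (k : ℕ) (s : ℝ) (x : XI k D.K J → ℝ)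
    (κ : Fin N → Fin D.K) (lab : Fin N → Fin J) (l0 : Fin D.K) (j0 : Fin J) : Par (N + 1) D.K :=
  θL D L k s x (kc l0 κ) (Fin.cons j0 lab)

/-- the increment `H_{S'} - H_S` in the coupled variables -/
noncomputable def Uc (D : Blk) (L : LBd J) (s : ℝ) (x : XI k D.K J → ℝ) (κ : Fin N → Fin D.K)
    (lab : Fin N → Fin J) (l0 : Fin D.K) (j0 : Fin J) (ω : Fin (k + 1) → EC N) : ℝ :=
  HN k (θL' D L k s x κ lab l0 j0) (cp ω) - HN k (θL D L k s x κ lab) (b0 ω)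

/-- main moment expression -/
noncomputable def M1 (D : Blk) (κ : Fin N → Fin D.K) (ω : Fin (k + 1) → EC N) : ℝ :=
  1 + Aw κ (fun _ => 1) ω ^ 4 + Aw κ D.d ω ^ 2

/-- moment expression multiplied by `s` -/
noncomputable def M2 (D : Blk) (x : XI k D.K J → ℝ) (κ : Fin N → Fin D.K)
    (ω : Fin (k + 1) → EC N) : ℝ :=
  1 + Aw κ (fun _ => 1) ω ^ 2 + Aw κ (fun l => x (Sum.inl l)) ω ^ 2 +
    ∑ i : Fin k, (1 + Aw κ (fun _ => 1) ω ^ 2 +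
      Aw κ (fun l => x (Sum.inr (Sum.inr (i, l)))) ω ^ 2 + Gw κ (fun _ => 1) i ω ^ 2 +
      Gw κ (fun l => x (Sum.inr (Sum.inr (i, l)))) i ω ^ 2 + G0 i ω ^ 2)

/-- deviation of the magnetisations -/
noncomputable def Tdev (lab : Fin N → Fin J) (τ : Fin J → ℝ) (ω : Fin (k + 1) → EC N) : ℝ :=
  ∑ j, |TJ lab j (cfg k (b0 ω)) / (N : ℝ) - τ j|


/-- the coefficients of the fields -/
private theorem CoupPt_c (D : Blk) (L : LBd J) (s : ℝ) (x : XI k D.K J → ℝ)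
    (κ : Fin N → Fin D.K) (lab : Fin N → Fin J) (i : Fin k) :
    (θL D L k s x κ lab).c i = (fun _ => 0) ∨
      (θL D L k s x κ lab).c i = fun l => s * x (Sum.inr (Sum.inr (i, l))) := by
  by_cases h : (i : ℕ) = 0
  · left
    funext l
    show (if h : (i : ℕ) < k then (if (i : ℕ) = 0 then 0 else s * x (Sum.inr (Sum.inr (⟨i, h⟩, l))))
      else 0) = 0
    rw [dif_pos i.2, if_pos h]
  · right
    funext l
    show (if h : (i : ℕ) < k then (if (i : ℕ) = 0 then 0 else s * x (Sum.inr (Sum.inr (⟨i, h⟩, l))))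
      else 0) = _
    rw [dif_pos i.2, if_neg h]

private theorem CoupPt_ipsmul {M : ℕ} (q : Fin M → ℝ) (κ' : Fin M → Fin K) (c : Fin K → ℝ) (s : ℝ)
    (z : Fin M → ℝ) : ip q (blk κ' (fun l => s * c l) z) = s * ip q (blk κ' c z) := by
  unfold ip blk
  rw [Finset.mul_sum]
  exact Finset.sum_congr rfl fun a _ => by ring

private theorem CoupPt_Fi_smul (l0 : Fin K) (κ : Fin N → Fin K) (c : Fin K → ℝ) (s : ℝ)
    (q X g : Fin (N + 1) → ℝ) :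
    Fi l0 κ (fun l => s * c l) q X g = s * Fi l0 κ c q X g := by
  unfold Fi
  rw [CoupPt_ipsmul, CoupPt_ipsmul, CoupPt_ipsmul]
  ring

private theorem CoupPt_Fi_zero (l0 : Fin K) (κ : Fin N → Fin K)
    (q X g : Fin (N + 1) → ℝ) :
    Fi l0 κ (fun _ => 0) q X g = 0 := by
  have := CoupPt_Fi_smul l0 κ (fun _ => 0) 0 q X g
  simp only [mul_zero, zero_mul] at this
  exact this

private theorem CoupPt_M2_term (D : Blk) (x : XI k D.K J → ℝ) (κ : Fin N → Fin D.K)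
    (ω : Fin (k + 1) → EC N) (i : Fin k) : 0 ≤ 1 + Aw κ (fun _ => 1) ω ^ 2 +
      Aw κ (fun l => x (Sum.inr (Sum.inr (i, l)))) ω ^ 2 + Gw κ (fun _ => 1) i ω ^ 2 +
      Gw κ (fun l => x (Sum.inr (Sum.inr (i, l)))) i ω ^ 2 + G0 i ω ^ 2 := by positivity

private theorem CoupPt_M2_ge (D : Blk) (x : XI k D.K J → ℝ) (κ : Fin N → Fin D.K)
    (ω : Fin (k + 1) → EC N) :
    1 + Aw κ (fun _ => 1) ω ^ 2 + Aw κ (fun l => x (Sum.inl l)) ω ^ 2 ≤ M2 D x κ ω := by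
  unfold M2
  have : 0 ≤ ∑ i : Fin k, (1 + Aw κ (fun _ => 1) ω ^ 2 +
      Aw κ (fun l => x (Sum.inr (Sum.inr (i, l)))) ω ^ 2 + Gw κ (fun _ => 1) i ω ^ 2 +
      Gw κ (fun l => x (Sum.inr (Sum.inr (i, l)))) i ω ^ 2 + G0 i ω ^ 2) :=
    Finset.sum_nonneg fun i _ => CoupPt_M2_term D x κ ω i
  linarith

private theorem CoupPt_M2_one (D : Blk) (x : XI k D.K J → ℝ) (κ : Fin N → Fin D.K)
    (ω : Fin (k + 1) → EC N) : 1 ≤ M2 D x κ ω := by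
  have := CoupPt_M2_ge D x κ ω
  nlinarith [sq_nonneg (Aw κ (fun _ => 1) ω), sq_nonneg (Aw κ (fun l => x (Sum.inl l)) ω)]

private theorem CoupPt_M1_one (D : Blk) (κ : Fin N → Fin D.K)
    (ω : Fin (k + 1) → EC N) : 1 ≤ M1 D κ ω := by
  unfold M1
  nlinarith [sq_nonneg (Aw κ (fun _ => 1) ω ^ 2), sq_nonneg (Aw κ D.d ω)]

/-- decomposition of the increment -/
private theorem CoupPt_dec (D : Blk) (L : LBd J) {s : ℝ} (hs : 0 ≤ s) (x : XI k D.K J → ℝ)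
    (hx : XOK x) (κ : Fin N → Fin D.K) (lab : Fin N → Fin J) (l0 : Fin D.K) (j0 : Fin J)
    (ω : Fin (k + 1) → EC N) :
    |Uc D L s x κ lab l0 j0 ω - (Qi l0 κ D.d (qc (xi ω)) (Xv ω) +
      (BL L s (fun j => x (Sum.inr (Sum.inl j))) (Fin.cons j0 lab : Fin (N + 1) → Fin J)
        (Fin.cons (ω (Fin.last k)).2.2 (cfg k (b0 ω)) : Fin (N + 1) → Bool) -
        BL L s (fun j => x (Sum.inr (Sum.inl j))) lab (cfg k (b0 ω))))| ≤
      560 * (s * M2 D x κ ω) := by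
  have h1 := HN_coup (θL D L k s x κ lab) (θL' D L k s x κ lab l0 j0) l0 rfl rfl rfl
    (fun _ => rfl) (fun _ => rfl) ω
  have h2 : Uc D L s x κ lab l0 j0 ω = HN k (θL' D L k s x κ lab l0 j0) (cp ω) -
    HN k (θL D L k s x κ lab) (b0 ω) := rfl
  have h3 : Qi l0 (θL D L k s x κ lab).κ (θL D L k s x κ lab).e (qc (xi ω)) (Xv ω) =
      Qi l0 κ D.d (qc (xi ω)) (Xv ω) +
        s * Qi l0 κ (fun l => x (Sum.inl l)) (qc (xi ω)) (Xv ω) :=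
    Qi_add l0 κ D.d (fun l => x (Sum.inl l)) s _ _
  have h4 : (θL' D L k s x κ lab l0 j0).B (cfg k (cp ω)) - (θL D L k s x κ lab).B (cfg k (b0 ω)) =
      (BL L s (fun j => x (Sum.inr (Sum.inl j))) (Fin.cons j0 lab : Fin (N + 1) → Fin J)
        (Fin.cons (ω (Fin.last k)).2.2 (cfg k (b0 ω)) : Fin (N + 1) → Bool) -
        BL L s (fun j => x (Sum.inr (Sum.inl j))) lab (cfg k (b0 ω))) := rfl
  rw [h2, h1, h3, h4]
  have e1 : ∀ a b c d : ℝ, a + b + c + d - (a + d) = b + c := by intros; ring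
  rw [e1]
  refine (abs_add_le _ _).trans ?_
  -- quadratic part
  have b1 : |s * Qi l0 κ (fun l => x (Sum.inl l)) (qc (xi ω)) (Xv ω)| ≤ 160 * (s * (1 +
      Aw κ (fun _ => 1) ω ^ 2 + Aw κ (fun l => x (Sum.inl l)) ω ^ 2)) := by
    rw [abs_mul, abs_of_nonneg hs]
    have hq := Qi_abs (D := 3) (by norm_num) l0 κ (fun l => x (Sum.inl l))
      (fun l => by rw [abs_of_nonneg (hx _).1]; exact (hx _).2) ω
    obtain ⟨A1, hA1⟩ : ∃ A1, A1 = Aw κ (fun _ => 1) ω := ⟨_, rfl⟩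
    obtain ⟨Ax, hAx⟩ : ∃ Ax, Ax = Aw κ (fun l => x (Sum.inl l)) ω := ⟨_, rfl⟩
    rw [← hA1, ← hAx] at hq ⊢
    have h5 : |Ax| * (1 + |A1|) ≤ 1 + A1 ^ 2 + Ax ^ 2 := by
      nlinarith [sq_nonneg (|Ax| - (1 + |A1|)), sq_nonneg (|A1| - 1), sq_abs A1, sq_abs Ax]
    have h6 : |Qi l0 κ (fun l => x (Sum.inl l)) (qc (xi ω)) (Xv ω)| ≤
        160 * (1 + A1 ^ 2 + Ax ^ 2) := by
      nlinarith [sq_nonneg Ax]
    nlinarith
  -- fields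
  have b2 : |∑ i : Fin k, Fi l0 (θL D L k s x κ lab).κ ((θL D L k s x κ lab).c i) (qc (xi ω))
      (Xv ω) (gh i ω)| ≤ 400 * (s * ∑ i : Fin k, (1 + Aw κ (fun _ => 1) ω ^ 2 +
      Aw κ (fun l => x (Sum.inr (Sum.inr (i, l)))) ω ^ 2 + Gw κ (fun _ => 1) i ω ^ 2 +
      Gw κ (fun l => x (Sum.inr (Sum.inr (i, l)))) i ω ^ 2 + G0 i ω ^ 2)) := by
    rw [Finset.mul_sum, Finset.mul_sum]
    refine (Finset.abs_sum_le_sum_abs _ _).trans (Finset.sum_le_sum fun i _ => ?_)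
    have h5 := CoupPt_M2_term D x κ ω i
    have h6 : Fi l0 (θL D L k s x κ lab).κ ((θL D L k s x κ lab).c i) (qc (xi ω))
      (Xv ω) (gh i ω) = Fi l0 κ ((θL D L k s x κ lab).c i) (qc (xi ω)) (Xv ω) (gh i ω) := rfl
    rw [h6]
    rcases CoupPt_c D L s x κ lab i with h | h
    · rw [h, CoupPt_Fi_zero, abs_zero]
      exact mul_nonneg (by norm_num) (mul_nonneg hs h5)
    · rw [h, CoupPt_Fi_smul l0 κ (fun l => x (Sum.inr (Sum.inr (i, l)))) s, abs_mul,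
        abs_of_nonneg hs]
      have hF := Fi_abs (C := 3) (by norm_num) l0 κ (fun l => x (Sum.inr (Sum.inr (i, l))))
        (fun l => by rw [abs_of_nonneg (hx _).1]; exact (hx _).2) i ω
      have h7 := mul_le_mul_of_nonneg_left hF hs
      refine h7.trans (le_of_eq ?_)
      ring
  have h8 : s * M2 D x κ ω = s * (1 + Aw κ (fun _ => 1) ω ^ 2 +
      Aw κ (fun l => x (Sum.inl l)) ω ^ 2) +
      s * ∑ i : Fin k, (1 + Aw κ (fun _ => 1) ω ^ 2 +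
      Aw κ (fun l => x (Sum.inr (Sum.inr (i, l)))) ω ^ 2 + Gw κ (fun _ => 1) i ω ^ 2 +
      Gw κ (fun l => x (Sum.inr (Sum.inr (i, l)))) i ω ^ 2 + G0 i ω ^ 2) := by
    unfold M2; ring
  have h9 : 0 ≤ s * (1 + Aw κ (fun _ => 1) ω ^ 2 + Aw κ (fun l => x (Sum.inl l)) ω ^ 2) := by
    positivity
  have h10 : 0 ≤ s * ∑ i : Fin k, (1 + Aw κ (fun _ => 1) ω ^ 2 +
      Aw κ (fun l => x (Sum.inr (Sum.inr (i, l)))) ω ^ 2 + Gw κ (fun _ => 1) i ω ^ 2 +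
      Gw κ (fun l => x (Sum.inr (Sum.inr (i, l)))) i ω ^ 2 + G0 i ω ^ 2) :=
    mul_nonneg hs (Finset.sum_nonneg fun i _ => CoupPt_M2_term D x κ ω i)
  rw [h8]
  linarith

private theorem CoupPt_D (D : Blk) : ∃ Dm : ℝ, 0 ≤ Dm ∧ (∀ l, |D.d l| ≤ Dm) ∧ |D.dbar| ≤ Dm := by
  refine ⟨∑ l, |D.d l| + |D.dbar|, by positivity, ?_, ?_⟩
  · intro l
    have := Finset.single_le_sum (f := fun l => |D.d l|) (fun _ _ => abs_nonneg _)
      (Finset.mem_univ l)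
    have h2 := abs_nonneg D.dbar
    linarith
  · have : 0 ≤ ∑ l, |D.d l| := by positivity
    linarith

private theorem CoupPt_est (D : Blk) {η : ℝ} (hη : 0 < η) : ∃ C : ℝ, 0 ≤ C ∧
    ∀ {N k : ℕ}, 1 ≤ N → ∀ (κ : Fin N → Fin D.K) (l0 : Fin D.K) (ω : Fin (k + 1) → EC N),
      |Qi l0 κ D.d (qc (xi ω)) (Xv ω) - DInf D l0 (zx κ ω) (ep ω)| ≤
        η * M1 D κ ω + C * dev κ D.d D.dbar (xi ω) ^ 4 := by
  obtain ⟨Dm, h0, h1, h2⟩ := CoupPt_D D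
  obtain ⟨C, hC, h⟩ := Qi_est Dm h0 hη
  refine ⟨C, hC, ?_⟩
  intro N k hN κ l0 ω
  exact h hN l0 κ D.d D.dbar h1 h2 ω

private theorem CoupPt_mag (D : Blk) (J : ℕ) (Km : ℝ) (hKm : 0 ≤ Km) : ∃ C : ℝ, 0 ≤ C ∧
    ∀ {N k : ℕ}, 1 ≤ N → ∀ (L : LBd J), 0 ≤ L.kap → L.kap ≤ Km →
      (∀ j, |L.γ j * L.m j| ≤ 1) → ∀ (s : ℝ), 0 ≤ s → ∀ (x : XI k D.K J → ℝ), XOK x →
      ∀ (lab : Fin N → Fin J) (j0 : Fin J) (τ : Fin J → ℝ),
      (∀ j, |τ j| ≤ 1) → ∀ ω : Fin (k + 1) → EC N,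
      |(BL L s (fun j => x (Sum.inr (Sum.inl j))) (Fin.cons j0 lab : Fin (N + 1) → Fin J)
        (Fin.cons (ω (Fin.last k)).2.2 (cfg k (b0 ω)) : Fin (N + 1) → Bool) -
        BL L s (fun j => x (Sum.inr (Sum.inl j))) lab (cfg k (b0 ω))) - dB L τ j0 (ep ω)| ≤
        C * (Tdev lab τ ω + s + 1 / (N : ℝ)) := by
  obtain ⟨C, hC, h⟩ := BL_incr J Km hKm
  refine ⟨C, hC, ?_⟩
  intro N k hN L hk0 hk1 hg s hs x hx lab j0 τ hτ ω
  exact h hN L hk0 hk1 hg s (fun j => x (Sum.inr (Sum.inl j))) hs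
    (fun j => by rw [abs_of_nonneg (hx _).1]; exact (hx _).2) lab j0 _ _ τ hτ

/-- (P1) PROOF: `HN_coup`, `Qi_add` (`e = d + s x'`), `Qi_est` for `d` (`DI .. = DInf`), `Qi_abs` for `x'` (`|Aw x'| (1+|Aw 1|) ≤ ..²`), `Fi_abs` (`c_i = s x_i`: `Fi` is linear in `c`),
`BL_incr`. -/
theorem coup_pt1 (D : Blk) (J : ℕ) (Km : ℝ) (hKm : 0 ≤ Km) {η : ℝ} (hη : 0 < η) :
    ∃ C : ℝ, 0 ≤ C ∧ ∀ {N k : ℕ}, 1 ≤ N → ∀ (L : LBd J), 0 ≤ L.kap → L.kap ≤ Km →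
      (∀ j, |L.γ j * L.m j| ≤ 1) → ∀ (s : ℝ), 0 ≤ s → s ≤ 1 → ∀ (x : XI k D.K J → ℝ), XOK x →
      ∀ (κ : Fin N → Fin D.K) (lab : Fin N → Fin J) (l0 : Fin D.K) (j0 : Fin J) (τ : Fin J → ℝ),
      (∀ j, |τ j| ≤ 1) → ∀ ω : Fin (k + 1) → EC N,
      |Uc D L s x κ lab l0 j0 ω - (DInf D l0 (zx κ ω) (ep ω) + dB L τ j0 (ep ω))| ≤
        η * M1 D κ ω + C * (dev κ D.d D.dbar (xi ω) ^ 4 + Tdev lab τ ω + 1 / (N : ℝ) +
          s * M2 D x κ ω) := by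
  obtain ⟨C1, hC1, h1⟩ := CoupPt_est D hη
  obtain ⟨C2, hC2, h2⟩ := CoupPt_mag D J Km hKm
  refine ⟨C1 + C2 + 560 + C2, by positivity, ?_⟩
  intro N k hN L hk0 hk1 hg s hs hs1 x hx κ lab l0 j0 τ hτ ω
  have g1 := h1 hN κ l0 ω
  have g2 := h2 hN L hk0 hk1 hg s hs x hx lab j0 τ hτ ω
  have g3 := CoupPt_dec D L hs x hx κ lab l0 j0 ω
  have m2 := CoupPt_M2_one D x κ ω
  have hd : 0 ≤ dev κ D.d D.dbar (xi ω) ^ 4 := by positivity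
  have hT : 0 ≤ Tdev lab τ ω := Finset.sum_nonneg fun _ _ => abs_nonneg _
  have hN' : 0 ≤ 1 / (N : ℝ) := by positivity
  have hsM : s ≤ s * M2 D x κ ω := le_mul_of_one_le_right hs m2
  generalize (BL L s (fun j => x (Sum.inr (Sum.inl j))) (Fin.cons j0 lab : Fin (N + 1) → Fin J)
        (Fin.cons (ω (Fin.last k)).2.2 (cfg k (b0 ω)) : Fin (N + 1) → Bool) -
        BL L s (fun j => x (Sum.inr (Sum.inl j))) lab (cfg k (b0 ω))) = Bm at g2 g3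
  generalize Uc D L s x κ lab l0 j0 ω = U at g3 ⊢
  generalize Qi l0 κ D.d (qc (xi ω)) (Xv ω) = q at g1 g3
  generalize DInf D l0 (zx κ ω) (ep ω) = DI at g1 ⊢
  generalize dB L τ j0 (ep ω) = b at g2 ⊢
  generalize dev κ D.d D.dbar (xi ω) ^ 4 = dv at g1 hd ⊢
  generalize Tdev lab τ ω = T at g2 hT ⊢
  generalize s * M2 D x κ ω = sM at g3 hsM ⊢
  generalize η * M1 D κ ω = ηM at g1 ⊢
  generalize 1 / (N : ℝ) = ν at g2 hN' ⊢
  have e1 : U - (DI + b) = (U - (q + Bm)) + (q - DI) + (Bm - b) := by ring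
  rw [e1]
  have t1 := abs_add_le ((U - (q + Bm)) + (q - DI)) (Bm - b)
  have t2 := abs_add_le (U - (q + Bm)) (q - DI)
  have hsM0 : 0 ≤ sM := hs.trans hsM
  have p1 : C2 * s ≤ C2 * sM := mul_le_mul_of_nonneg_left hsM hC2
  have p2 : 0 ≤ C1 * T := mul_nonneg hC1 hT
  have p3 : 0 ≤ C1 * ν := mul_nonneg hC1 hN'
  have p4 : 0 ≤ C1 * sM := mul_nonneg hC1 hsM0
  have p5 : 0 ≤ C2 * dv := mul_nonneg hC2 hd
  have p6 : 0 ≤ C2 * T := mul_nonneg hC2 hT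
  have p7 : 0 ≤ C2 * ν := mul_nonneg hC2 hN'
  have p8 : 0 ≤ C2 * sM := mul_nonneg hC2 hsM0
  nlinarith

/-- Young -/
private theorem CoupPt_young {K : ℝ} (hK : 0 ≤ K) {δ : ℝ} (hδ : 0 < δ) : ∃ C : ℝ, 0 ≤ C ∧
    ∀ A1 Ad : ℝ, K * (1 + A1 ^ 2 + |Ad| * (1 + |A1|)) ≤ δ * (1 + A1 ^ 4 + Ad ^ 2) + C := by
  -- `K |Ad| (1+|A1|) ≤ δ Ad² + K²(1 + A1²)/(2δ)`
  refine ⟨K + K ^ 2 / (2 * δ) + (K + K ^ 2 / (2 * δ)) ^ 2 / (4 * δ), by positivity, ?_⟩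
  intro A1 Ad
  obtain ⟨L, hL⟩ : ∃ L, L = K ^ 2 / (2 * δ) := ⟨_, rfl⟩
  have hL0 : 0 ≤ L := by rw [hL]; positivity
  have hL2 : K ^ 2 = 2 * δ * L := by rw [hL]; field_simp
  rw [← hL]
  have h1 : K * (|Ad| * (1 + |A1|)) ≤ δ * Ad ^ 2 + L * (1 + A1 ^ 2) := by
    -- `K u v ≤ δ u² + K² v²/(4δ) = δ u² + (L/2) v²`
    have h2 : K * (|Ad| * (1 + |A1|)) ≤ δ * |Ad| ^ 2 + (L / 2) * (1 + |A1|) ^ 2 := by
      have h3 : 0 ≤ (2 * δ * |Ad| - K * (1 + |A1|)) ^ 2 := sq_nonneg _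
      have h4 : 4 * δ * (K * (|Ad| * (1 + |A1|))) ≤
          4 * δ * (δ * |Ad| ^ 2 + (L / 2) * (1 + |A1|) ^ 2) := by
        have h5 : 4 * δ * (δ * |Ad| ^ 2 + (L / 2) * (1 + |A1|) ^ 2) -
            4 * δ * (K * (|Ad| * (1 + |A1|))) = (2 * δ * |Ad| - K * (1 + |A1|)) ^ 2 := by
          linear_combination (-(1 + |A1|) ^ 2) * hL2
        linarith
      exact le_of_mul_le_mul_left h4 (by positivity)
    have h3 : (1 + |A1|) ^ 2 ≤ 2 * (1 + A1 ^ 2) := by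
      nlinarith [sq_nonneg (|A1| - 1), sq_abs A1]
    rw [sq_abs] at h2
    nlinarith
  have h2 : (K + L) * A1 ^ 2 ≤ δ * A1 ^ 4 + (K + L) ^ 2 / (4 * δ) := by
    obtain ⟨M, hM⟩ : ∃ M, M = (K + L) ^ 2 / (4 * δ) := ⟨_, rfl⟩
    have hM2 : (K + L) ^ 2 = 4 * δ * M := by rw [hM]; field_simp
    rw [← hM]
    have h3 : 0 ≤ (2 * δ * A1 ^ 2 - (K + L)) ^ 2 := sq_nonneg _
    have h4 : 4 * δ * ((K + L) * A1 ^ 2) ≤ 4 * δ * (δ * A1 ^ 4 + M) := by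
      have h5 : 4 * δ * (δ * A1 ^ 4 + M) - 4 * δ * ((K + L) * A1 ^ 2) =
          (2 * δ * A1 ^ 2 - (K + L)) ^ 2 := by
        linear_combination (-1 : ℝ) * hM2
      linarith
    exact le_of_mul_le_mul_left h4 (by positivity)
  nlinarith

/-- (P2) truncation.  PROOF: `chi_sub_lip`, `Qi_est`; `|Qi| ≤ η'(1 + Aw1⁴ + Aw d²) + C` (`Qi_abs`, Young); `chi_sub_small`, `chi_sub_abs`: for `|Qi| ≤ A/2` it is `≤ e^{-A} ≤ η`,
for `|Qi| > A/2 ≥ 2C` it is `≤ |Qi| ≤ 2(|Qi| - C) ≤ 2η' M1`. -/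
theorem coup_pt2 (D : Blk) {η : ℝ} (hη : 0 < η) : ∃ A₀ C : ℝ, 2 ≤ A₀ ∧ 0 ≤ C ∧ ∀ A ≥ A₀,
    ∀ {N k : ℕ}, 1 ≤ N → ∀ (κ : Fin N → Fin D.K) (l0 : Fin D.K) (ω : Fin (k + 1) → EC N),
      |DInf D l0 (zx κ ω) (ep ω) - chi A (DInf D l0 (zx κ ω) (ep ω))| ≤
        η * M1 D κ ω + C * dev κ D.d D.dbar (xi ω) ^ 4 := by
  obtain ⟨Dm, h0, hd1, hd2⟩ := CoupPt_D D
  obtain ⟨C1, hC1, h1⟩ := CoupPt_est D (half_pos hη)
  obtain ⟨C2, hC2, h2⟩ := CoupPt_young (K := 20 * (Dm + 1)) (by positivity)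
    (show 0 < η / 4 by linarith)
  refine ⟨2 + 4 * C2 + 2 / η, C1, ?_, hC1, ?_⟩
  · have : 0 ≤ 2 / η := by positivity
    linarith
  intro A hA N k hN κ l0 ω
  have hη2 : 0 ≤ 2 / η := by positivity
  have hA0 : 0 ≤ A := by linarith
  have g1 := h1 hN κ l0 ω
  have g2 := (Qi_abs h0 l0 κ D.d hd1 ω).trans (h2 (Aw κ (fun _ => 1) ω) (Aw κ D.d ω))
  have m1 := CoupPt_M1_one D κ ω
  have g2' : |Qi l0 κ D.d (qc (xi ω)) (Xv ω)| ≤ η / 4 * M1 D κ ω + C2 := g2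
  generalize Qi l0 κ D.d (qc (xi ω)) (Xv ω) = q at g1 g2'
  generalize DInf D l0 (zx κ ω) (ep ω) = DI at g1 ⊢
  generalize M1 D κ ω = M at g1 g2' m1 ⊢
  have t1 := chi_sub_lip hA0 DI q
  have t2 : |q - chi A q| ≤ η / 2 * M := by
    rcases le_or_gt |q| (A / 2) with h | h
    · have h3 := chi_sub_small hA0 h
      have h4 : Real.exp (-A) ≤ η / 2 := by
        rw [Real.exp_neg]
        have h5 : 2 / η ≤ Real.exp A := by
          have := Real.add_one_le_exp A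
          linarith
        have h6 : (Real.exp A)⁻¹ ≤ (2 / η)⁻¹ := inv_anti₀ (by positivity) h5
        rwa [inv_div] at h6
      have h5 : η / 2 ≤ η / 2 * M := le_mul_of_one_le_right (by positivity) m1
      linarith
    · have h3 := chi_sub_abs hA0 q
      linarith
  have t3 : |DI - chi A DI| ≤ |(DI - chi A DI) - (q - chi A q)| + |q - chi A q| := by
    have := abs_add_le ((DI - chi A DI) - (q - chi A q)) (q - chi A q)
    rwa [sub_add_cancel] at this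
  rw [abs_sub_comm] at g1
  linarith

/-- crude bound for the increment.  PROOF: `Qi_abs`, `Fi_abs`, the magnetic part is bounded (`BL_incr`, `dB_abs` with `τ = T/N`). -/
theorem coup_crude (D : Blk) (J : ℕ) (Km c0 : ℝ) (hKm : 0 ≤ Km) (hc0 : 0 ≤ c0) :
    ∃ C : ℝ, 0 ≤ C ∧ ∀ {N k : ℕ}, 1 ≤ N → ∀ (L : LBd J), 0 ≤ L.kap → L.kap ≤ Km →
      (∀ j, |L.γ j * L.m j| ≤ 1) → (∀ j, |L.c j| ≤ c0) → ∀ (s : ℝ), 0 ≤ s → s ≤ 1 →
      ∀ (x : XI k D.K J → ℝ), XOK x → ∀ (κ : Fin N → Fin D.K) (lab : Fin N → Fin J) (l0 : Fin D.K)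
      (j0 : Fin J) (ω : Fin (k + 1) → EC N),
      |Uc D L s x κ lab l0 j0 ω| ≤ C * (M1 D κ ω + s * M2 D x κ ω) := by
  obtain ⟨Dm, h0, hd1, hd2⟩ := CoupPt_D D
  obtain ⟨C1, hC1, h1⟩ := CoupPt_young (K := 20 * (Dm + 1)) (by positivity) one_pos
  obtain ⟨C2, hC2, h2⟩ := CoupPt_mag D J Km hKm
  obtain ⟨C3, hC3, h3⟩ := dB_abs J Km c0 hKm hc0
  refine ⟨1 + C1 + 2 * C2 + C3 + 560, by positivity, ?_⟩
  intro N k hN L hk0 hk1 hg hc s hs hs1 x hx κ lab l0 j0 ω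
  have hN1 : (1 : ℝ) ≤ N := by exact_mod_cast hN
  have hN0 : (0 : ℝ) < N := by linarith
  have hτ : ∀ j, |TJ lab j (cfg k (b0 ω)) / (N : ℝ)| ≤ 1 := by
    intro j
    rw [abs_div, abs_of_pos hN0, div_le_one hN0]
    exact TJ_abs lab j _
  have g2 := h2 hN L hk0 hk1 hg s hs x hx lab j0 (fun j => TJ lab j (cfg k (b0 ω)) / (N : ℝ)) hτ ω
  have hT : Tdev lab (fun j => TJ lab j (cfg k (b0 ω)) / (N : ℝ)) ω = 0 := by
    unfold Tdev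
    simp
  rw [hT] at g2
  have hep : |ep ω| ≤ 1 := by
    have := ep_sq ω
    rw [← sq_le_one_iff_abs_le_one]
    exact this.le
  have g4 := h3 L hk0 hk1 hg hc j0 (fun j => TJ lab j (cfg k (b0 ω)) / (N : ℝ)) hτ (ep ω) hep
  have g3 := CoupPt_dec D L hs x hx κ lab l0 j0 ω
  have g1 := (Qi_abs h0 l0 κ D.d hd1 ω).trans (h1 (Aw κ (fun _ => 1) ω) (Aw κ D.d ω))
  have g1' : |Qi l0 κ D.d (qc (xi ω)) (Xv ω)| ≤ 1 * M1 D κ ω + C1 := g1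
  have m1 := CoupPt_M1_one D κ ω
  have m2 := CoupPt_M2_one D x κ ω
  have hsM : s ≤ s * M2 D x κ ω := le_mul_of_one_le_right hs m2
  have hN' : 1 / (N : ℝ) ≤ 1 := by rw [div_le_one hN0]; exact hN1
  generalize (BL L s (fun j => x (Sum.inr (Sum.inl j))) (Fin.cons j0 lab : Fin (N + 1) → Fin J)
        (Fin.cons (ω (Fin.last k)).2.2 (cfg k (b0 ω)) : Fin (N + 1) → Bool) -
        BL L s (fun j => x (Sum.inr (Sum.inl j))) lab (cfg k (b0 ω))) = Bm at g2 g3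
  generalize Uc D L s x κ lab l0 j0 ω = U at g3 ⊢
  generalize Qi l0 κ D.d (qc (xi ω)) (Xv ω) = q at g1' g3
  generalize dB L (fun j => TJ lab j (cfg k (b0 ω)) / (N : ℝ)) j0 (ep ω) = b at g2 g4
  generalize s * M2 D x κ ω = sM at g3 hsM ⊢
  generalize M1 D κ ω = M at g1' m1 ⊢
  generalize 1 / (N : ℝ) = ν at g2 hN'
  have e1 : U = (U - (q + Bm)) + q + (Bm - b) + b := by ring
  have t1 := abs_add_le ((U - (q + Bm)) + q + (Bm - b)) b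
  have t2 := abs_add_le ((U - (q + Bm)) + q) (Bm - b)
  have t3 := abs_add_le (U - (q + Bm)) q
  rw [← e1] at t1
  have hsM0 : 0 ≤ sM := hs.trans hsM
  have p1 : C2 * (0 + s + ν) ≤ C2 * (sM + 1) := mul_le_mul_of_nonneg_left (by linarith) hC2
  have p2 : C1 ≤ C1 * M := le_mul_of_one_le_right hC1 m1
  have p3 : C2 ≤ C2 * M := le_mul_of_one_le_right hC2 m1
  have p4 : C3 ≤ C3 * M := le_mul_of_one_le_right hC3 m1
  have p5 : 0 ≤ C1 * sM := mul_nonneg hC1 hsM0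
  have p6 : 0 ≤ C2 * sM := mul_nonneg hC2 hsM0
  have p7 : 0 ≤ C3 * sM := mul_nonneg hC3 hsM0
  nlinarith

end Crest.Agent.RI
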