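import Crest.Agent.RI.CoupH

/-!
# Row 164, Part 8.1: pointwise estimate of the quadratic part
-/

set_option autoImplicit false

namespace Crest.Agent.RI

open MeasureTheory ProbabilityTheory

variable {N K k : ℕ}

private theorem CoupQ_ip_self (x : Fin N → ℝ) : 0 ≤ ip x x := ip_nonneg x

private theorem CoupQ_ipc (ξ : Fin (N + 1) → ℝ) :
    ip (Fin.cons (-|ξ 0|) (Fin.tail ξ) : Fin (N + 1) → ℝ) (Fin.cons (-|ξ 0|) (Fin.tail ξ)) =
      ip ξ ξ := by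
  unfold ip
  rw [Fin.sum_univ_succ, Fin.sum_univ_succ]
  simp only [Fin.cons_zero, Fin.cons_succ, Fin.tail]
  rw [neg_mul_neg, abs_mul_abs_self]

private theorem CoupQ_u0 (ξ : Fin (N + 1) → ℝ) : uv ξ 0 = -(|ξ 0| / Real.sqrt (ip ξ ξ)) := by
  unfold uv nrm
  rw [CoupQ_ipc, Fin.cons_zero, neg_div]

private theorem CoupQ_us (ξ : Fin (N + 1) → ℝ) (a : Fin N) :
    uv ξ a.succ = ξ a.succ / Real.sqrt (ip ξ ξ) := by
  unfold uv nrm
  rw [CoupQ_ipc, Fin.cons_succ, Fin.tail]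

private theorem CoupQ_spos {ξ : Fin (N + 1) → ℝ} (hξ : ip ξ ξ ≠ 0) : 0 < Real.sqrt (ip ξ ξ) :=
  Real.sqrt_pos.2 (lt_of_le_of_ne (ip_nonneg _) (Ne.symm hξ))

private theorem CoupQ_sum1 {ξ : Fin (N + 1) → ℝ} (hξ : ip ξ ξ ≠ 0) :
    (|ξ 0| / Real.sqrt (ip ξ ξ)) ^ 2 + ∑ a : Fin N, uv ξ a.succ ^ 2 = 1 := by
  have h := ip_nrm (x := (Fin.cons (-|ξ 0|) (Fin.tail ξ) : Fin (N + 1) → ℝ)) (by
    rw [CoupQ_ipc]; exact hξ)
  have h2 : ip (uv ξ) (uv ξ) = 1 := h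
  unfold ip at h2
  rw [Fin.sum_univ_succ, CoupQ_u0] at h2
  have h3 : ∑ a : Fin N, uv ξ a.succ ^ 2 = ∑ i : Fin N, uv ξ i.succ * uv ξ i.succ :=
    Finset.sum_congr rfl fun a _ => by ring
  rw [h3]
  linarith

/-- the vector `q`, nondegenerate case -/
private theorem CoupQ_q {ξ : Fin (N + 1) → ℝ} (hξ : ip ξ ξ ≠ 0) {h : ℝ}
    (hh : h = 1 + |ξ 0| / Real.sqrt (ip ξ ξ)) :
    qc ξ 0 = h / Real.sqrt (2 * h) ∧ ∀ a : Fin N, qc ξ a.succ = -uv ξ a.succ / Real.sqrt (2 * h) := by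
  have hs : ip (fun j => ev (0 : Fin (N + 1)) j - uv ξ j) (fun j => ev (0 : Fin (N + 1)) j - uv ξ j) =
      2 * h := by
    unfold ip
    rw [Fin.sum_univ_succ]
    have h0 : ev (0 : Fin (N + 1)) 0 = 1 := by simp [ev]
    have h1 : ∀ a : Fin N, ev (0 : Fin (N + 1)) a.succ = 0 := fun a => by
      simp [ev, Fin.succ_ne_zero]
    simp only [h0, h1, zero_sub, neg_mul_neg]
    have h2 := CoupQ_sum1 hξ
    have h3 : ∑ a : Fin N, uv ξ a.succ ^ 2 = ∑ i : Fin N, uv ξ i.succ * uv ξ i.succ :=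
      Finset.sum_congr rfl fun a _ => by ring
    rw [← h3, CoupQ_u0]
    have h4 : |ξ 0| / Real.sqrt (ip ξ ξ) = h - 1 := by rw [hh]; ring
    rw [h4] at h2 ⊢
    linear_combination h2
  unfold qc qv
  rw [hs]
  constructor
  · have h0 : ev (0 : Fin (N + 1)) 0 = 1 := by simp [ev]
    rw [h0, CoupQ_u0, hh]
    ring
  · intro a
    have h1 : ev (0 : Fin (N + 1)) a.succ = 0 := by simp [ev, Fin.succ_ne_zero]
    rw [h1, zero_sub]

private theorem CoupQ_ip {ξ : Fin (N + 1) → ℝ} (hξ : ip ξ ξ ≠ 0) {h : ℝ}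
    (hh : h = 1 + |ξ 0| / Real.sqrt (ip ξ ξ)) (Y : Fin (N + 1) → ℝ) :
    ip (qc ξ) Y = (h * Y 0 - ∑ a : Fin N, uv ξ a.succ * Y a.succ) / Real.sqrt (2 * h) := by
  obtain ⟨h0, h1⟩ := CoupQ_q hξ hh
  unfold ip
  rw [Fin.sum_univ_succ, h0]
  simp only [h1]
  rw [sub_div, Finset.sum_div, sub_eq_add_neg, ← Finset.sum_neg_distrib]
  congr 1
  · ring
  · exact Finset.sum_congr rfl fun a _ => by ring

private theorem CoupQ_h1 {ξ : Fin (N + 1) → ℝ} {h : ℝ}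
    (hh : h = 1 + |ξ 0| / Real.sqrt (ip ξ ξ)) : 1 ≤ h := by
  rw [hh]
  have : 0 ≤ |ξ 0| / Real.sqrt (ip ξ ξ) := by positivity
  linarith

private theorem CoupQ_h2 {ξ : Fin (N + 1) → ℝ} (hξ : ip ξ ξ ≠ 0) {h : ℝ}
    (hh : h = 1 + |ξ 0| / Real.sqrt (ip ξ ξ)) : h ≤ 2 := by
  have h1 := CoupQ_sum1 hξ
  have h2 : 0 ≤ ∑ a : Fin N, uv ξ a.succ ^ 2 := Finset.sum_nonneg fun _ _ => sq_nonneg _
  have h3 : 0 ≤ |ξ 0| / Real.sqrt (ip ξ ξ) := by positivity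
  rw [hh]
  nlinarith

/-- products with the vectors of the coupling, nondegenerate case -/
private theorem CoupQ_X {ω : Fin (k + 1) → EC N} (hξ : ip (xi ω) (xi ω) ≠ 0) {h : ℝ}
    (hh : h = 1 + |xi ω 0| / Real.sqrt (ip (xi ω) (xi ω))) (κ : Fin N → Fin K) :
    ip (qc (xi ω)) (Xv ω) = (ep ω * h - Aw κ (fun _ => 1) ω) / Real.sqrt (2 * h) := by
  rw [CoupQ_ip hξ hh]
  congr 1
  have h1 : ∑ a : Fin N, uv (xi ω) a.succ * Xv ω a.succ = Aw κ (fun _ => 1) ω := by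
    unfold Aw Xv
    refine Finset.sum_congr rfl fun a _ => ?_
    rw [Fin.cons_succ]
    ring
  rw [h1]
  unfold Xv
  rw [Fin.cons_zero]
  ring

private theorem CoupQ_EX {ω : Fin (k + 1) → EC N} (hξ : ip (xi ω) (xi ω) ≠ 0) {h : ℝ}
    (hh : h = 1 + |xi ω 0| / Real.sqrt (ip (xi ω) (xi ω))) (l0 : Fin K) (κ : Fin N → Fin K)
    (e : Fin K → ℝ) :
    ip (qc (xi ω)) (blk (kc l0 κ) e (Xv ω)) = (e l0 * ep ω * h - Aw κ e ω) / Real.sqrt (2 * h) := by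
  rw [CoupQ_ip hξ hh]
  congr 1
  have h1 : ∑ a : Fin N, uv (xi ω) a.succ * blk (kc l0 κ) e (Xv ω) a.succ = Aw κ e ω := by
    unfold Aw Xv blk kc
    refine Finset.sum_congr rfl fun a _ => ?_
    rw [Fin.cons_succ, Fin.cons_succ]
    ring
  rw [h1]
  unfold Xv blk kc
  rw [Fin.cons_zero, Fin.cons_zero]
  ring

private theorem CoupQ_g {ω : Fin (k + 1) → EC N} (hξ : ip (xi ω) (xi ω) ≠ 0) {h : ℝ}
    (hh : h = 1 + |xi ω 0| / Real.sqrt (ip (xi ω) (xi ω))) (κ : Fin N → Fin K) (i : Fin k) :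
    ip (qc (xi ω)) (gh i ω) = (h * G0 i ω - Gw κ (fun _ => 1) i ω) / Real.sqrt (2 * h) := by
  rw [CoupQ_ip hξ hh]
  congr 1
  have h1 : ∑ a : Fin N, uv (xi ω) a.succ * gh i ω a.succ = Gw κ (fun _ => 1) i ω := by
    unfold Gw gh
    refine Finset.sum_congr rfl fun a _ => ?_
    rw [Fin.cons_succ]
    ring
  rw [h1]
  unfold gh G0
  rw [Fin.cons_zero]

private theorem CoupQ_Cg {ω : Fin (k + 1) → EC N} (hξ : ip (xi ω) (xi ω) ≠ 0) {h : ℝ}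
    (hh : h = 1 + |xi ω 0| / Real.sqrt (ip (xi ω) (xi ω))) (l0 : Fin K) (κ : Fin N → Fin K)
    (c : Fin K → ℝ) (i : Fin k) :
    ip (qc (xi ω)) (blk (kc l0 κ) c (gh i ω)) =
      (h * (c l0 * G0 i ω) - Gw κ c i ω) / Real.sqrt (2 * h) := by
  rw [CoupQ_ip hξ hh]
  congr 1
  have h1 : ∑ a : Fin N, uv (xi ω) a.succ * blk (kc l0 κ) c (gh i ω) a.succ = Gw κ c i ω := by
    unfold Gw gh blk kc
    refine Finset.sum_congr rfl fun a _ => ?_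
    rw [Fin.cons_succ, Fin.cons_succ]
    ring
  rw [h1]
  unfold gh G0 blk kc
  rw [Fin.cons_zero, Fin.cons_zero]

private theorem CoupQ_sqrt {h : ℝ} (hh : 1 ≤ h) : Real.sqrt (2 * h) * Real.sqrt (2 * h) = 2 * h :=
  Real.mul_self_sqrt (by linarith)

private theorem CoupQ_qq {ξ : Fin (N + 1) → ℝ} (hξ : ip ξ ξ ≠ 0) {h : ℝ}
    (hh : h = 1 + |ξ 0| / Real.sqrt (ip ξ ξ)) (l0 : Fin K) (κ : Fin N → Fin K)
    (e : Fin K → ℝ) :
    ip (qc ξ) (blk (kc l0 κ) e (qc ξ)) =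
      (e l0 * h ^ 2 + ∑ a : Fin N, e (κ a) * uv ξ a.succ ^ 2) / (2 * h) := by
  obtain ⟨h0, h1⟩ := CoupQ_q hξ hh
  have hpos : 1 ≤ h := CoupQ_h1 hh
  have hs := CoupQ_sqrt hpos
  have hs0 : Real.sqrt (2 * h) ≠ 0 := (Real.sqrt_pos.2 (by linarith)).ne'
  rw [CoupQ_ip hξ hh]
  have e1 : blk (kc l0 κ) e (qc ξ) 0 = e l0 * (h / Real.sqrt (2 * h)) := by
    unfold blk kc
    rw [Fin.cons_zero, h0]
  have e2 : ∀ a : Fin N, blk (kc l0 κ) e (qc ξ) a.succ =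
      e (κ a) * (-uv ξ a.succ / Real.sqrt (2 * h)) := fun a => by
    unfold blk kc
    rw [Fin.cons_succ, h1]
  rw [e1]
  simp only [e2]
  have e3 : ∑ a : Fin N, uv ξ a.succ * (e (κ a) * (-uv ξ a.succ / Real.sqrt (2 * h))) =
      -(∑ a : Fin N, e (κ a) * uv ξ a.succ ^ 2) / Real.sqrt (2 * h) := by
    rw [← Finset.sum_neg_distrib, Finset.sum_div]
    exact Finset.sum_congr rfl fun a _ => by ring
  rw [e3]
  generalize Real.sqrt (2 * h) = s at hs hs0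
  rw [div_eq_div_iff hs0 (by linarith), ← hs]
  field_simp
  ring

/-- Real variable form of the quadratic part.  With `h = 1 + |ξ_0|/|ξ|`, `a1 = <u_⊥,y>`, `a2 = <u_⊥,Ey>`, `a3 = <u_⊥,E u_⊥>`:
`Qi = ½e0 - h (ε - a1/h)(e0 ε - a2/h)  + ½ h² (ε - a1/h)² (e0 + a3/h²)`  (`ip ξ ξ ≠ 0`, `ε² = 1`).
PROOF: `q = (e_0 - u)/√(2h)`, `<q,X> = (ε h - a1)/√(2h)`, `<q,E'X> = (e0 ε h - a2)/√(2h)`, `<q,E'q> = (e0 h² + a3)/(2h)`  (`1 + 2|u_0| + u_0² = h²`, `u_0 = -(h-1)`). -/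
theorem Qi_eq (l0 : Fin K) (κ : Fin N → Fin K) (e : Fin K → ℝ) (ω : Fin (k + 1) → EC N)
    (hξ : ip (xi ω) (xi ω) ≠ 0) {h a1 a2 a3 : ℝ}
    (hh : h = 1 + |xi ω 0| / Real.sqrt (ip (xi ω) (xi ω)))
    (h1 : a1 = Aw κ (fun _ => 1) ω) (h2 : a2 = Aw κ e ω)
    (h3 : a3 = ∑ a : Fin N, e (κ a) * uv (xi ω) a.succ ^ 2) :
    Qi l0 κ e (qc (xi ω)) (Xv ω) = (1 / 2) * e l0 - (ep ω * h - a1) * (e l0 * ep ω * h - a2) / h +
      (1 / 2) * (ep ω * h - a1) ^ 2 * (e l0 * h ^ 2 + a3) / h ^ 2 := by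
  have hpos : 1 ≤ h := CoupQ_h1 hh
  have hs := CoupQ_sqrt hpos
  have hs0 : Real.sqrt (2 * h) ≠ 0 := (Real.sqrt_pos.2 (by linarith)).ne'
  have hh0 : h ≠ 0 := by linarith
  unfold Qi
  rw [CoupQ_X hξ hh κ, CoupQ_EX hξ hh l0 κ e, CoupQ_qq hξ hh l0 κ e, ← h1, ← h2, ← h3]
  have e1 : 2 * ((ep ω * h - a1) / Real.sqrt (2 * h)) * ((e l0 * ep ω * h - a2) / Real.sqrt (2 * h)) =
      (ep ω * h - a1) * (e l0 * ep ω * h - a2) / h := by
    have e3 : 2 * ((ep ω * h - a1) / Real.sqrt (2 * h)) *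
        ((e l0 * ep ω * h - a2) / Real.sqrt (2 * h)) =
        2 * (ep ω * h - a1) * (e l0 * ep ω * h - a2) / (Real.sqrt (2 * h) * Real.sqrt (2 * h)) := by
      ring
    rw [e3, hs]
    field_simp
  have e2 : ((ep ω * h - a1) / Real.sqrt (2 * h)) ^ 2 = (ep ω * h - a1) ^ 2 / (2 * h) := by
    rw [div_pow, sq (Real.sqrt (2 * h)), hs]
  rw [e1, e2]
  field_simp

private theorem CoupQ_zero {ξ : Fin (N + 1) → ℝ} (hξ : ip ξ ξ = 0) : ξ = 0 := by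
  funext i
  have := (Finset.sum_eq_zero_iff_of_nonneg (fun k _ => mul_self_nonneg (ξ k))).1 hξ i
    (Finset.mem_univ i)
  exact mul_self_eq_zero.1 this

private theorem CoupQ_uz {ξ : Fin (N + 1) → ℝ} (hξ : ip ξ ξ = 0) : uv ξ = 0 := by
  have h0 := CoupQ_zero hξ
  funext i
  refine Fin.cases ?_ (fun a => ?_) i
  · rw [CoupQ_u0, h0]; simp
  · rw [CoupQ_us, h0]; simp

private theorem CoupQ_qz {ξ : Fin (N + 1) → ℝ} (hξ : ip ξ ξ = 0) : qc ξ = ev 0 := by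
  unfold qc qv
  rw [CoupQ_uz hξ]
  funext i
  have h1 : ip (fun j => ev (0 : Fin (N + 1)) j - (0 : Fin (N + 1) → ℝ) j)
      (fun j => ev (0 : Fin (N + 1)) j - (0 : Fin (N + 1) → ℝ) j) = 1 := by
    simp [ip, ev]
  rw [h1]
  simp

private theorem CoupQ_ev (Y : Fin (N + 1) → ℝ) : ip (ev 0) Y = Y 0 := by
  simp [ip, ev]

private theorem CoupQ_Awz {ω : Fin (k + 1) → EC N} (hξ : ip (xi ω) (xi ω) = 0)
    (κ : Fin N → Fin K) (e : Fin K → ℝ) : Aw κ e ω = 0 := by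
  unfold Aw
  rw [CoupQ_uz hξ]
  simp

/-- degenerate case -/
theorem Qi_zero (l0 : Fin K) (κ : Fin N → Fin K) (e : Fin K → ℝ) (ω : Fin (k + 1) → EC N)
    (hξ : ip (xi ω) (xi ω) = 0) :
    Qi l0 κ e (qc (xi ω)) (Xv ω) = (1 / 2) * e l0 ∧ Aw κ e ω = 0 ∧
      ∀ l, zx κ ω l = 0 := by
  refine ⟨?_, CoupQ_Awz hξ κ e, fun l => ?_⟩
  · unfold Qi
    rw [CoupQ_qz hξ, CoupQ_ev, CoupQ_ev, CoupQ_ev]
    have h1 : blk (kc l0 κ) e (Xv ω) 0 = e l0 * ep ω := by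
      unfold blk kc Xv
      rw [Fin.cons_zero, Fin.cons_zero]
    have h2 : blk (kc l0 κ) e (ev 0) 0 = e l0 := by
      unfold blk kc
      rw [Fin.cons_zero]
      simp [ev]
    have h3 : Xv ω 0 = ep ω := by unfold Xv; rw [Fin.cons_zero]
    rw [h1, h2, h3]
    have h4 := ep_sq ω
    linear_combination 0 * h4
  · unfold zx
    rw [CoupQ_zero hξ]
    simp

private theorem CoupQ_young {η M : ℝ} (hη : 0 < η) (x y : ℝ) :
    M * (x * y) ≤ η * x ^ 2 + M ^ 2 / (4 * η) * y ^ 2 := by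
  have h : 0 ≤ (2 * η * x - M * y) ^ 2 / (4 * η) := by positivity
  have h2 : (2 * η * x - M * y) ^ 2 / (4 * η) =
      η * x ^ 2 + M ^ 2 / (4 * η) * y ^ 2 - M * (x * y) := by
    field_simp
    ring
  linarith

private theorem CoupQ_abs_mul {x y a b : ℝ} (hx : |x| ≤ a) (hy : |y| ≤ b) : |x * y| ≤ a * b := by
  rw [abs_mul]
  exact mul_le_mul hx hy (abs_nonneg _) ((abs_nonneg _).trans hx)

private theorem CoupQ_t6a {D x y z : ℝ} (hD : 0 ≤ D) (hx : 0 ≤ x) (hy : 0 ≤ y) (hz : 0 ≤ z) :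
    D * x + z * 1 + D * x + D * y ≤ (2 * D + 1) * (x + y + z) := by
  nlinarith [mul_nonneg hD hx, mul_nonneg hD hy, mul_nonneg hD hz]

private theorem CoupQ_t6b {D x y z : ℝ} (hD : 0 ≤ D) (hx : 0 ≤ x) (hy : 0 ≤ y) (hz : 0 ≤ z) :
    D * y + z * 1 + D * (2 * x) + D * y ≤ (2 * D + 1) * (x + y + z) := by
  nlinarith [mul_nonneg hD hx, mul_nonneg hD hy, mul_nonneg hD hz]

/-- algebraic identity -/
private theorem CoupQ_diff (e0 eb a1 a2 a3 h r ε : ℝ) (hh : h ≠ 0) (hε : ε ^ 2 = 1) :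
    ((1 / 2) * e0 - (ε * h - a1) * (e0 * ε * h - a2) / h +
        (1 / 2) * (ε * h - a1) ^ 2 * (e0 * h ^ 2 + a3) / h ^ 2) -
        DI e0 eb (r * a1) (r * a2) ε =
    (1 / 2) * e0 * (1 - h) ^ 2 + (1 / 2) * (a3 - eb) + ε * a2 * (1 - r) +
      ε * a1 * (e0 * (1 - h) - a3 / h + eb * r) + a1 * a2 * (r ^ 2 - 1 / h) +
      (1 / 2) * a1 ^ 2 * (e0 * (1 - r ^ 2) + a3 / h ^ 2 - eb * r ^ 2) := by
  have e1 : (ε * h - a1) * (e0 * ε * h - a2) / h =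
      e0 * h - ε * a2 - ε * e0 * a1 + a1 * a2 / h := by
    field_simp
    linear_combination (e0 * h ^ 2) * hε
  have e2 : (1 / 2) * (ε * h - a1) ^ 2 * (e0 * h ^ 2 + a3) / h ^ 2 =
      (1 / 2) * e0 * h ^ 2 + (1 / 2) * a3 - ε * h * a1 * e0 - ε * a1 * a3 / h +
        (1 / 2) * a1 ^ 2 * (e0 + a3 / h ^ 2) := by
    field_simp
    linear_combination (h ^ 2 * (e0 * h ^ 2 + a3)) * hε
  rw [e1, e2, DI]
  ring

private theorem CoupQ_final {D η M η' k1 k2 δ a1 a2 : ℝ} (hD : 0 ≤ D) (hη : 0 < η) (b0 : 0 ≤ δ)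
    (hM : M = 2 * D + 1) (hη' : η' = η / 6) (hk1 : k1 = M ^ 2 / (4 * η'))
    (hk2 : k2 = k1 ^ 2 / (4 * η')) :
    (1 / 2) * D * δ + (1 / 2) * δ + |a2| * δ + |a1| * (M * δ) + |a1 * a2| * δ +
        (1 / 2) * a1 ^ 2 * (M * δ) ≤ η * (1 + a1 ^ 4 + a2 ^ 2) + 5 * k2 * δ ^ 4 := by
  have hη0 : 0 < η' := by rw [hη']; positivity
  have hM1 : 1 ≤ M := by rw [hM]; linarith
  have y1 : M * (1 * δ) ≤ η' * 1 ^ 2 + k1 * δ ^ 2 := hk1 ▸ CoupQ_young hη0 1 δ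
  have y2 : M * (|a2| * δ) ≤ η' * |a2| ^ 2 + k1 * δ ^ 2 := hk1 ▸ CoupQ_young hη0 _ δ
  have y3 : M * (|a1| * δ) ≤ η' * |a1| ^ 2 + k1 * δ ^ 2 := hk1 ▸ CoupQ_young hη0 _ δ
  have y4 : M * (|a2| * (|a1| * δ)) ≤ η' * |a2| ^ 2 + k1 * (|a1| * δ) ^ 2 :=
    hk1 ▸ CoupQ_young hη0 _ _
  have y5 : M * (a1 ^ 2 * δ) ≤ η' * (a1 ^ 2) ^ 2 + k1 * δ ^ 2 := hk1 ▸ CoupQ_young hη0 _ δ
  have y6 : k1 * (1 * δ ^ 2) ≤ η' * 1 ^ 2 + k2 * (δ ^ 2) ^ 2 := hk2 ▸ CoupQ_young hη0 1 _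
  have y7 : k1 * (a1 ^ 2 * δ ^ 2) ≤ η' * (a1 ^ 2) ^ 2 + k2 * (δ ^ 2) ^ 2 :=
    hk2 ▸ CoupQ_young hη0 _ _
  rw [sq_abs] at y2 y3 y4
  have z4 : k1 * (|a1| * δ) ^ 2 = k1 * (a1 ^ 2 * δ ^ 2) := by rw [mul_pow, sq_abs]
  rw [z4] at y4
  have z5 : (a1 ^ 2) ^ 2 = a1 ^ 4 := by ring
  have z6 : (δ ^ 2) ^ 2 = δ ^ 4 := by ring
  rw [z5] at y5 y7
  rw [z6] at y6 y7
  have z7 : a1 ^ 2 ≤ 1 / 2 + 1 / 2 * a1 ^ 4 := by nlinarith [sq_nonneg (a1 ^ 2 - 1)]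
  have z8 : η' * a1 ^ 2 ≤ η' * (1 / 2 + 1 / 2 * a1 ^ 4) := mul_le_mul_of_nonneg_left z7 hη0.le
  have w1 : (1 / 2) * D * δ + (1 / 2) * δ ≤ M * (1 * δ) := by
    have := mul_nonneg hD b0
    rw [hM]; linarith
  have w2 : |a2| * δ ≤ M * (|a2| * δ) :=
    le_mul_of_one_le_left (mul_nonneg (abs_nonneg a2) b0) hM1
  have w3 : |a1| * (M * δ) = M * (|a1| * δ) := by ring
  have w4 : |a1 * a2| * δ ≤ M * (|a2| * (|a1| * δ)) := by
    rw [abs_mul, show |a1| * |a2| * δ = |a2| * (|a1| * δ) by ring]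
    exact le_mul_of_one_le_left
      (mul_nonneg (abs_nonneg a2) (mul_nonneg (abs_nonneg a1) b0)) hM1
  have w5 : (1 / 2) * a1 ^ 2 * (M * δ) ≤ M * (a1 ^ 2 * δ) := by
    have : 0 ≤ M * (a1 ^ 2 * δ) := by positivity
    linarith
  have hη6 : η = 6 * η' := by rw [hη']; ring
  rw [hη6]
  have p1 : 0 ≤ η' * a1 ^ 4 := by positivity
  have p2 : 0 ≤ η' * a2 ^ 2 := by positivity
  linarith

/-- REAL INEQUALITY.  `g = r a1`, `G = r a2`.  PROOF: `Q - DI = ½ e0 (1-h)² + ½(a3-eb) + ε a2 (1-r) + ε a1 (e0(1-h) - a3/h + eb r) + a1 a2 (r² - 1/h)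
+ ½ a1² (e0 (1-r²) + a3/h² - eb r²)`; every bracket is `≤ C_D δ`, `δ := |h-1| + |r²-1| + |a3-eb|` (`|1-r| ≤ |1-r²|`, `1 ≤ h ≤ 2`); then
`|a1|² δ ≤ η a1⁴ + δ²/(4η)`, `|a1 a2| δ ≤ η a2² + η a1⁴ + δ⁴/(64η³)`, `δ, δ² ≤ η + C_η δ⁴`. -/
theorem quad_real (D : ℝ) (hD : 0 ≤ D) {η : ℝ} (hη : 0 < η) : ∃ C : ℝ, 0 ≤ C ∧
    ∀ (e0 eb a1 a2 a3 h r ε : ℝ), |e0| ≤ D → |eb| ≤ D → |a3| ≤ D → 1 ≤ h → h ≤ 2 → 0 ≤ r →
      ε ^ 2 = 1 →
      |((1 / 2) * e0 - (ε * h - a1) * (e0 * ε * h - a2) / h +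
        (1 / 2) * (ε * h - a1) ^ 2 * (e0 * h ^ 2 + a3) / h ^ 2) -
        DI e0 eb (r * a1) (r * a2) ε| ≤
      η * (1 + a1 ^ 4 + a2 ^ 2) + C * (|h - 1| + |r ^ 2 - 1| + |a3 - eb|) ^ 4 := by
  set M : ℝ := 2 * D + 1 with hM
  set η' : ℝ := η / 6 with hη'
  have hη0 : 0 < η' := by positivity
  set k1 : ℝ := M ^ 2 / (4 * η') with hk1
  set k2 : ℝ := k1 ^ 2 / (4 * η') with hk2
  have hk10 : 0 ≤ k1 := by positivity
  have hk20 : 0 ≤ k2 := by positivity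
  refine ⟨5 * k2, by positivity, ?_⟩
  intro e0 eb a1 a2 a3 h r ε he0 heb ha3 h1 h2 hr hε
  rw [CoupQ_diff e0 eb a1 a2 a3 h r ε (by linarith) hε]
  set δ : ℝ := |h - 1| + |r ^ 2 - 1| + |a3 - eb| with hδ
  have b1 : |h - 1| ≤ δ := by
    have := abs_nonneg (r ^ 2 - 1); have := abs_nonneg (a3 - eb); linarith
  have b2 : |r ^ 2 - 1| ≤ δ := by
    have := abs_nonneg (h - 1); have := abs_nonneg (a3 - eb); linarith
  have b3 : |a3 - eb| ≤ δ := by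
    have := abs_nonneg (h - 1); have := abs_nonneg (r ^ 2 - 1); linarith
  have b0 : 0 ≤ δ := (abs_nonneg _).trans b1
  have hh1 : |h - 1| = h - 1 := abs_of_nonneg (by linarith)
  have hεa : |ε| = 1 := by
    have := sq_abs ε
    rw [hε] at this
    have h3 : |ε| ^ 2 = 1 := this
    nlinarith [abs_nonneg ε]
  have hpos : 0 < h := by linarith
  have hinv : 1 / h ≤ 1 := by rw [div_le_one hpos]; exact h1
  have hinv0 : 0 < 1 / h := by positivity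
  have hinv1 : |1 / h - 1| ≤ |h - 1| := by
    rw [abs_of_nonpos (by linarith), hh1]
    have : 1 / h * h = 1 := by field_simp
    nlinarith
  have hinv2 : |1 / h ^ 2 - 1| ≤ 2 * |h - 1| := by
    have e : 1 / h ^ 2 = (1 / h) ^ 2 := by rw [div_pow, one_pow]
    rw [e]
    have : (1 / h) ^ 2 - 1 = (1 / h - 1) * (1 / h + 1) := by ring
    rw [this, abs_mul]
    have h3 : |1 / h + 1| ≤ 2 := by rw [abs_of_nonneg (by linarith)]; linarith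
    calc |1 / h - 1| * |1 / h + 1| ≤ |h - 1| * 2 :=
          mul_le_mul hinv1 h3 (abs_nonneg _) (abs_nonneg _)
      _ = _ := by ring
  have hr1 : |1 - r| ≤ |r ^ 2 - 1| := by
    have : r ^ 2 - 1 = -(1 - r) * (r + 1) := by ring
    rw [this, abs_mul, abs_neg]
    have h3 : 1 ≤ |r + 1| := by rw [abs_of_nonneg (by linarith)]; linarith
    nlinarith [abs_nonneg (1 - r)]
  -- the brackets
  have c1 : |(1 / 2) * e0 * (1 - h) ^ 2| ≤ (1 / 2) * D * δ := by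
    have h3 : |(1 - h) ^ 2| ≤ δ := by
      rw [abs_of_nonneg (sq_nonneg _)]
      have : (1 - h) ^ 2 ≤ |h - 1| := by rw [hh1]; nlinarith
      linarith
    have h4 : |(1 / 2) * e0| ≤ (1 / 2) * D := by
      rw [abs_mul, abs_of_nonneg (by norm_num : (0 : ℝ) ≤ 1 / 2)]
      linarith
    exact CoupQ_abs_mul h4 h3
  have c2 : |(1 / 2) * (a3 - eb)| ≤ (1 / 2) * δ := by
    rw [abs_mul, abs_of_nonneg (by norm_num : (0 : ℝ) ≤ 1 / 2)]
    linarith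
  have c3 : |ε * a2 * (1 - r)| ≤ |a2| * δ := by
    refine CoupQ_abs_mul ?_ (hr1.trans b2)
    rw [abs_mul, hεa, one_mul]
  have c4' : |e0 * (1 - h) - a3 / h + eb * r| ≤ M * δ := by
    have e : e0 * (1 - h) - a3 / h + eb * r =
        e0 * (1 - h) - (a3 - eb) * (1 / h) - eb * (1 / h - 1) - eb * (1 - r) := by ring
    rw [e]
    have t1 : |e0 * (1 - h)| ≤ D * |h - 1| := by
      refine CoupQ_abs_mul he0 ?_
      rw [abs_sub_comm]
    have t2 : |(a3 - eb) * (1 / h)| ≤ |a3 - eb| * 1 := by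
      refine CoupQ_abs_mul le_rfl ?_
      rw [abs_of_pos hinv0]; exact hinv
    have t3 : |eb * (1 / h - 1)| ≤ D * |h - 1| := CoupQ_abs_mul heb hinv1
    have t4 : |eb * (1 - r)| ≤ D * |r ^ 2 - 1| := CoupQ_abs_mul heb hr1
    have t5 : |e0 * (1 - h) - (a3 - eb) * (1 / h) - eb * (1 / h - 1) - eb * (1 - r)| ≤
        |e0 * (1 - h)| + |(a3 - eb) * (1 / h)| + |eb * (1 / h - 1)| + |eb * (1 - r)| := by
      refine (abs_sub _ _).trans (add_le_add ?_ le_rfl)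
      refine (abs_sub _ _).trans (add_le_add ?_ le_rfl)
      exact abs_sub _ _
    have t6 : D * |h - 1| + |a3 - eb| * 1 + D * |h - 1| + D * |r ^ 2 - 1| ≤ M * δ :=
      CoupQ_t6a hD (abs_nonneg _) (abs_nonneg _) (abs_nonneg _)
    linarith
  have c4 : |ε * a1 * (e0 * (1 - h) - a3 / h + eb * r)| ≤ |a1| * (M * δ) := by
    refine CoupQ_abs_mul ?_ c4'
    rw [abs_mul, hεa, one_mul]
  have c5 : |a1 * a2 * (r ^ 2 - 1 / h)| ≤ |a1 * a2| * δ := by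
    refine CoupQ_abs_mul le_rfl ?_
    have e : r ^ 2 - 1 / h = (r ^ 2 - 1) - (1 / h - 1) := by ring
    rw [e]
    refine (abs_sub _ _).trans ?_
    have := abs_nonneg (a3 - eb)
    linarith
  have c6' : |e0 * (1 - r ^ 2) + a3 / h ^ 2 - eb * r ^ 2| ≤ M * δ := by
    have e : e0 * (1 - r ^ 2) + a3 / h ^ 2 - eb * r ^ 2 =
        e0 * (1 - r ^ 2) + (a3 - eb) * (1 / h ^ 2) + eb * (1 / h ^ 2 - 1) + eb * (1 - r ^ 2) := by
      ring
    rw [e]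
    have t1 : |e0 * (1 - r ^ 2)| ≤ D * |r ^ 2 - 1| := by
      refine CoupQ_abs_mul he0 ?_
      rw [abs_sub_comm]
    have t2 : |(a3 - eb) * (1 / h ^ 2)| ≤ |a3 - eb| * 1 := by
      refine CoupQ_abs_mul le_rfl ?_
      rw [abs_of_nonneg (by positivity), div_le_one (by positivity)]
      exact one_le_pow₀ h1
    have t3 : |eb * (1 / h ^ 2 - 1)| ≤ D * (2 * |h - 1|) := CoupQ_abs_mul heb hinv2
    have t4 : |eb * (1 - r ^ 2)| ≤ D * |r ^ 2 - 1| := by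
      refine CoupQ_abs_mul heb ?_
      rw [abs_sub_comm]
    have t5 : |e0 * (1 - r ^ 2) + (a3 - eb) * (1 / h ^ 2) + eb * (1 / h ^ 2 - 1) +
        eb * (1 - r ^ 2)| ≤
        |e0 * (1 - r ^ 2)| + |(a3 - eb) * (1 / h ^ 2)| + |eb * (1 / h ^ 2 - 1)| +
          |eb * (1 - r ^ 2)| := by
      refine (abs_add_le _ _).trans (add_le_add ?_ le_rfl)
      refine (abs_add_le _ _).trans (add_le_add ?_ le_rfl)
      exact abs_add_le _ _
    have t6 : D * |r ^ 2 - 1| + |a3 - eb| * 1 + D * (2 * |h - 1|) + D * |r ^ 2 - 1| ≤ M * δ :=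
      CoupQ_t6b hD (abs_nonneg _) (abs_nonneg _) (abs_nonneg _)
    linarith
  have c6 : |(1 / 2) * a1 ^ 2 * (e0 * (1 - r ^ 2) + a3 / h ^ 2 - eb * r ^ 2)| ≤
      (1 / 2) * a1 ^ 2 * (M * δ) := by
    refine CoupQ_abs_mul ?_ c6'
    rw [abs_of_nonneg (by positivity)]
  have hsum : |(1 / 2) * e0 * (1 - h) ^ 2 + (1 / 2) * (a3 - eb) + ε * a2 * (1 - r) +
      ε * a1 * (e0 * (1 - h) - a3 / h + eb * r) + a1 * a2 * (r ^ 2 - 1 / h) +
      (1 / 2) * a1 ^ 2 * (e0 * (1 - r ^ 2) + a3 / h ^ 2 - eb * r ^ 2)| ≤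
      (1 / 2) * D * δ + (1 / 2) * δ + |a2| * δ + |a1| * (M * δ) + |a1 * a2| * δ +
        (1 / 2) * a1 ^ 2 * (M * δ) := by
    refine (abs_add_le _ _).trans (add_le_add ?_ c6)
    refine (abs_add_le _ _).trans (add_le_add ?_ c5)
    refine (abs_add_le _ _).trans (add_le_add ?_ c4)
    refine (abs_add_le _ _).trans (add_le_add ?_ c3)
    exact (abs_add_le _ _).trans (add_le_add c1 c2)
  refine hsum.trans ?_
  exact CoupQ_final hD hη b0 hM hη' hk1 hk2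


private theorem CoupQ_wsum {ξ : Fin (N + 1) → ℝ} (hξ : ip ξ ξ ≠ 0) {D : ℝ} (hD : 0 ≤ D)
    (κ : Fin N → Fin K) {e : Fin K → ℝ} (he : ∀ l, |e l| ≤ D) :
    |∑ a : Fin N, e (κ a) * uv ξ a.succ ^ 2| ≤ D := by
  have h1 := CoupQ_sum1 hξ
  have h2 : ∑ a : Fin N, uv ξ a.succ ^ 2 ≤ 1 := by
    have := sq_nonneg (|ξ 0| / Real.sqrt (ip ξ ξ))
    linarith
  calc |∑ a : Fin N, e (κ a) * uv ξ a.succ ^ 2| ≤ ∑ a : Fin N, |e (κ a) * uv ξ a.succ ^ 2| :=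
        Finset.abs_sum_le_sum_abs _ _
    _ ≤ ∑ a : Fin N, D * uv ξ a.succ ^ 2 := by
        refine Finset.sum_le_sum fun a _ => ?_
        rw [abs_mul, abs_of_nonneg (sq_nonneg (uv ξ a.succ))]
        exact mul_le_mul_of_nonneg_right (he _) (sq_nonneg _)
    _ = D * ∑ a : Fin N, uv ξ a.succ ^ 2 := by rw [Finset.mul_sum]
    _ ≤ D * 1 := mul_le_mul_of_nonneg_left h2 hD
    _ = D := mul_one D

private theorem CoupQ_zx {ω : Fin (k + 1) → EC N} (hξ : ip (xi ω) (xi ω) ≠ 0)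
    (κ : Fin N → Fin K) (f : Fin K → ℝ) :
    ∑ l, f l * zx κ ω l =
      (Real.sqrt (ip (xi ω) (xi ω)) / Real.sqrt N) * Aw κ f ω := by
  have hn := (CoupQ_spos hξ).ne'
  unfold zx Aw
  have h1 : ∀ l, f l * ((Real.sqrt N)⁻¹ * ∑ a : Fin N,
      if κ a = l then xi ω a.succ * yv k (b0 ω) a else 0) =
      ∑ a : Fin N, if κ a = l then (Real.sqrt N)⁻¹ * (f l * (xi ω a.succ * yv k (b0 ω) a)) else 0 := by
    intro l
    rw [Finset.mul_sum, Finset.mul_sum]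
    refine Finset.sum_congr rfl fun a _ => ?_
    split_ifs
    · ring
    · ring
  simp only [h1]
  rw [Finset.sum_comm, Finset.mul_sum]
  refine Finset.sum_congr rfl fun a _ => ?_
  rw [Finset.sum_ite_eq, if_pos (Finset.mem_univ _), CoupQ_us]
  field_simp

private theorem CoupQ_dev {D : ℝ} (hD : 0 ≤ D) (hN : 1 ≤ N) {ξ : Fin (N + 1) → ℝ}
    (hξ : ip ξ ξ ≠ 0) (κ : Fin N → Fin K) {e : Fin K → ℝ} (he : ∀ l, |e l| ≤ D) (eb : ℝ)
    {h : ℝ} (hh : h = 1 + |ξ 0| / Real.sqrt (ip ξ ξ)) :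
    |h - 1| + |(Real.sqrt (ip ξ ξ) / Real.sqrt N) ^ 2 - 1| +
      |∑ a : Fin N, e (κ a) * uv ξ a.succ ^ 2 - eb| ≤ (D + 4) * dev κ e eb ξ := by
  have hn := CoupQ_spos hξ
  have hN0 : (0 : ℝ) < N := by exact_mod_cast hN
  have hsN : 0 < Real.sqrt N := Real.sqrt_pos.2 hN0
  set n := Real.sqrt (ip ξ ξ) with hndef
  have hn2 : n ^ 2 = ip ξ ξ := Real.sq_sqrt (ip_nonneg _)
  have hr2 : (n / Real.sqrt N) ^ 2 = ip ξ ξ / N := by
    rw [div_pow, hn2, Real.sq_sqrt hN0.le]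
  set r := n / Real.sqrt N with hr
  have hr0 : 0 < r := by positivity
  set a3 := ∑ a : Fin N, e (κ a) * uv ξ a.succ ^ 2 with ha3
  have ha3b : |a3| ≤ D := CoupQ_wsum hξ hD κ he
  have hh1 := CoupQ_h1 hh
  have hh2 := CoupQ_h2 hξ hh
  set d1 := |ip ξ ξ / (N : ℝ) - 1| with hd1
  set d2 := |ξ 0| / Real.sqrt N with hd2
  set d3 := |(1 / (N : ℝ)) * ∑ a : Fin N, e (κ a) * (ξ a.succ ^ 2 - 1)| with hd3
  set d4 := |(1 / (N : ℝ)) * ∑ a : Fin N, e (κ a) - eb| with hd4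
  have hdev : dev κ e eb ξ = d1 + d2 + d3 + d4 := rfl
  have p1 : 0 ≤ d1 := abs_nonneg _
  have p2 : 0 ≤ d2 := by positivity
  have p3 : 0 ≤ d3 := abs_nonneg _
  have p4 : 0 ≤ d4 := abs_nonneg _
  rw [hr2, ← hd1, hdev]
  have hhd : (h - 1) * r = d2 := by
    rw [hh, hr, hd2]
    field_simp
    ring
  have t1 : |h - 1| ≤ 2 * (d1 + d2 + d3 + d4) := by
    rw [abs_of_nonneg (by linarith)]
    by_cases hc : 1 / 2 ≤ d1
    · linarith
    · have h3 : |r ^ 2 - 1| < 1 / 2 := by rw [hr2]; exact not_le.1 hc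
      have h4 := (abs_lt.1 h3).1
      have h5 : 1 / 2 ≤ r := by
        by_contra h6
        nlinarith [not_le.1 h6]
      have h7 : (h - 1) * (1 / 2) ≤ (h - 1) * r :=
        mul_le_mul_of_nonneg_left h5 (by linarith)
      linarith
  have t2 : |a3 - eb| ≤ D * d1 + d3 + d4 := by
    have e1 : a3 * (ip ξ ξ / N) = (1 / (N : ℝ)) * ∑ a : Fin N, e (κ a) * ξ a.succ ^ 2 := by
      rw [ha3, Finset.sum_mul, Finset.mul_sum]
      refine Finset.sum_congr rfl fun a _ => ?_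
      rw [CoupQ_us, ← hndef, div_pow, hn2]
      field_simp
    have e2 : (1 / (N : ℝ)) * ∑ a : Fin N, e (κ a) * ξ a.succ ^ 2 =
        (1 / (N : ℝ)) * ∑ a : Fin N, e (κ a) * (ξ a.succ ^ 2 - 1) +
        (1 / (N : ℝ)) * ∑ a : Fin N, e (κ a) := by
      rw [← mul_add, ← Finset.sum_add_distrib]
      congr 1
      exact Finset.sum_congr rfl fun a _ => by ring
    have e3 : a3 - eb = -(a3 * (ip ξ ξ / (N : ℝ) - 1)) +
        (1 / (N : ℝ)) * ∑ a : Fin N, e (κ a) * (ξ a.succ ^ 2 - 1) +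
        ((1 / (N : ℝ)) * ∑ a : Fin N, e (κ a) - eb) := by
      linear_combination e1 + e2
    rw [e3]
    refine (abs_add_le _ _).trans (add_le_add ?_ le_rfl)
    refine (abs_add_le _ _).trans (add_le_add ?_ le_rfl)
    rw [abs_neg]
    exact CoupQ_abs_mul ha3b le_rfl
  nlinarith [mul_nonneg hD p1, mul_nonneg hD p2, mul_nonneg hD p3, mul_nonneg hD p4]

/-- ESTIMATE OF THE QUADRATIC PART.  PROOF: `Qi_eq`, `quad_real` with `r² = ip ξ ξ / N`, `h - 1 = (|ξ_0|/√N)/r`: `|h-1| ≤ 2 dev`, `|a3 - eb| ≤ (D+1) dev`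
(`a3 r² = N⁻¹ Σ e ξ²`), `Σ_l zx_l = r a1`, `Σ_l e_l zx_l = r a2`; degenerate case: `dev ≥ 1`. -/
theorem Qi_est (D : ℝ) (hD : 0 ≤ D) {η : ℝ} (hη : 0 < η) : ∃ C : ℝ, 0 ≤ C ∧
    ∀ {N K k : ℕ}, 1 ≤ N → ∀ (l0 : Fin K) (κ : Fin N → Fin K) (e : Fin K → ℝ) (eb : ℝ),
      (∀ l, |e l| ≤ D) → |eb| ≤ D → ∀ ω : Fin (k + 1) → EC N,
      |Qi l0 κ e (qc (xi ω)) (Xv ω) -
        DI (e l0) eb (∑ l, zx κ ω l) (∑ l, e l * zx κ ω l) (ep ω)| ≤
      η * (1 + Aw κ (fun _ => 1) ω ^ 4 + Aw κ e ω ^ 2) + C * dev κ e eb (xi ω) ^ 4 := by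
  obtain ⟨C0, hC0, hq⟩ := quad_real D hD hη
  refine ⟨C0 * (D + 4) ^ 4 + D, by positivity, ?_⟩
  intro N K k hN l0 κ e eb he heb ω
  have hdev0 : 0 ≤ dev κ e eb (xi ω) := by unfold dev; positivity
  by_cases hξ : ip (xi ω) (xi ω) = 0
  · obtain ⟨h1, h2, h3⟩ := Qi_zero l0 κ e ω hξ
    have h4 := (Qi_zero l0 κ (fun _ => 1) ω hξ).2.1
    rw [h1, h2, h4]
    simp only [h3]
    have h5 : DI (e l0) eb (∑ _l : Fin K, (0 : ℝ)) (∑ l, e l * 0) (ep ω) = (1 / 2) * eb := by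
      simp [DI]
    rw [h5]
    have h6 : |1 / 2 * e l0 - 1 / 2 * eb| ≤ D := by
      have := he l0
      rw [abs_le] at *
      constructor <;> linarith [this.1, this.2, heb.1, heb.2]
    have h7 : 1 ≤ dev κ e eb (xi ω) := by
      unfold dev
      rw [hξ]
      have h8 : |(0 : ℝ) / N - 1| = 1 := by simp
      rw [h8]
      have : 0 ≤ |xi ω 0| / Real.sqrt N := by positivity
      have := abs_nonneg ((1 / (N : ℝ)) * ∑ a : Fin N, e (κ a) * (xi ω a.succ ^ 2 - 1))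
      have := abs_nonneg ((1 / (N : ℝ)) * ∑ a : Fin N, e (κ a) - eb)
      linarith
    have h9 : D * 1 ≤ D * dev κ e eb (xi ω) ^ 4 :=
      mul_le_mul_of_nonneg_left (one_le_pow₀ h7) hD
    have h10 : 0 ≤ C0 * (D + 4) ^ 4 * dev κ e eb (xi ω) ^ 4 := by positivity
    have h11 : 0 ≤ η * (1 + 0 ^ 4 + 0 ^ 2) := by positivity
    linarith
  · have hh : (1 + |xi ω 0| / Real.sqrt (ip (xi ω) (xi ω))) =
        1 + |xi ω 0| / Real.sqrt (ip (xi ω) (xi ω)) := rfl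
    rw [Qi_eq l0 κ e ω hξ hh rfl rfl rfl]
    have hz1 : ∑ l, zx κ ω l =
        (Real.sqrt (ip (xi ω) (xi ω)) / Real.sqrt N) * Aw κ (fun _ => 1) ω := by
      rw [← CoupQ_zx hξ κ (fun _ => 1)]
      exact Finset.sum_congr rfl fun l _ => (one_mul _).symm
    rw [hz1, CoupQ_zx hξ κ e]
    refine (hq (e l0) eb (Aw κ (fun _ => 1) ω) (Aw κ e ω)
      (∑ a : Fin N, e (κ a) * uv (xi ω) a.succ ^ 2) _
      (Real.sqrt (ip (xi ω) (xi ω)) / Real.sqrt N) (ep ω) (he l0) heb (CoupQ_wsum hξ hD κ he)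
      (CoupQ_h1 hh) (CoupQ_h2 hξ hh) (by positivity) (ep_sq ω)).trans ?_
    refine add_le_add le_rfl ?_
    have hd := CoupQ_dev hD hN hξ κ he eb hh
    have hp : 0 ≤ |1 + |xi ω 0| / Real.sqrt (ip (xi ω) (xi ω)) - 1| +
        |(Real.sqrt (ip (xi ω) (xi ω)) / Real.sqrt N) ^ 2 - 1| +
        |∑ a : Fin N, e (κ a) * uv (xi ω) a.succ ^ 2 - eb| := by positivity
    have h4 := pow_le_pow_left₀ hp hd 4
    rw [mul_pow] at h4
    have h5 : 0 ≤ D * dev κ e eb (xi ω) ^ 4 := by positivity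
    have h6 := mul_le_mul_of_nonneg_left h4 hC0
    linarith

private theorem CoupQ_abs_ep (ω : Fin (k + 1) → EC N) : |ep ω| = 1 := by
  have h1 : |ep ω| ^ 2 = 1 := by rw [sq_abs]; exact ep_sq ω
  have h2 := abs_nonneg (ep ω)
  nlinarith

private theorem CoupQ_real1 {D A B : ℝ} (hD : 0 ≤ D) (hA : 0 ≤ A) (hB : 0 ≤ B) :
    D / 2 + (2 + A) * (2 * D + B) + D * (2 + A) ^ 2 ≤
      20 * (D + 1) * (1 + A ^ 2 + B * (1 + A)) := by
  have h1 := mul_nonneg hD (sq_nonneg (A - 1))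
  have h2 := mul_nonneg hD (sq_nonneg A)
  have h3 := mul_nonneg hD hB
  have h4 := mul_nonneg (mul_nonneg hD hB) hA
  have h5 := mul_nonneg hB hA
  have h6 := sq_nonneg A
  nlinarith

/-- crude bound `|Qi| ≤ 20 D' (1 + (Aw 1)² + |Aw e| (1 + |Aw 1|))`, `D' = D + 1`.  PROOF: `Qi_eq`, `1 ≤ h ≤ 2`, `|a3| ≤ D`. -/
theorem Qi_abs {D : ℝ} (hD : 0 ≤ D) (l0 : Fin K) (κ : Fin N → Fin K) (e : Fin K → ℝ)
    (he : ∀ l, |e l| ≤ D) (ω : Fin (k + 1) → EC N) :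
    |Qi l0 κ e (qc (xi ω)) (Xv ω)| ≤
      20 * (D + 1) * (1 + Aw κ (fun _ => 1) ω ^ 2 + |Aw κ e ω| * (1 + |Aw κ (fun _ => 1) ω|)) := by
  have hε := CoupQ_abs_ep ω
  by_cases hξ : ip (xi ω) (xi ω) = 0
  · obtain ⟨h1, h2, -⟩ := Qi_zero l0 κ e ω hξ
    have h4 := (Qi_zero l0 κ (fun _ => 1) ω hξ).2.1
    rw [h1, h2, h4, abs_mul]
    have := he l0
    norm_num
    linarith
  · obtain ⟨h, hh⟩ : ∃ h, h = 1 + |xi ω 0| / Real.sqrt (ip (xi ω) (xi ω)) := ⟨_, rfl⟩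
    rw [Qi_eq l0 κ e ω hξ hh rfl rfl rfl]
    have hh1 := CoupQ_h1 hh
    have hh2 := CoupQ_h2 hξ hh
    have ha3 := CoupQ_wsum hξ hD κ he
    generalize (∑ a : Fin N, e (κ a) * uv (xi ω) a.succ ^ 2) = a3 at *
    generalize Aw κ (fun _ => 1) ω = a1
    generalize Aw κ e ω = a2
    have he0 := he l0
    generalize e l0 = e0 at *
    generalize ep ω = ε at *
    have hh0 : 0 < h := by linarith
    have b1 : |ε * h - a1| ≤ 2 + |a1| := by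
      refine (abs_sub _ _).trans (add_le_add ?_ le_rfl)
      rw [abs_mul, hε, one_mul, abs_of_pos hh0]
      exact hh2
    have b2 : |e0 * ε * h - a2| ≤ 2 * D + |a2| := by
      refine (abs_sub _ _).trans (add_le_add ?_ le_rfl)
      rw [abs_mul, abs_mul, hε, mul_one, abs_of_pos hh0]
      nlinarith [abs_nonneg e0]
    have b3 : |e0 * h ^ 2 + a3| / h ^ 2 ≤ 2 * D := by
      rw [div_le_iff₀ (by positivity)]
      have h5 : 1 ≤ h ^ 2 := one_le_pow₀ hh1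
      calc |e0 * h ^ 2 + a3| ≤ |e0 * h ^ 2| + |a3| := abs_add_le _ _
        _ ≤ D * h ^ 2 + D * 1 := by
            refine add_le_add ?_ (by linarith)
            rw [abs_mul, abs_of_nonneg (by positivity : (0 : ℝ) ≤ h ^ 2)]
            exact mul_le_mul_of_nonneg_right he0 (by positivity)
        _ ≤ D * h ^ 2 + D * h ^ 2 := by
            have := mul_le_mul_of_nonneg_left h5 hD
            linarith
        _ = 2 * D * h ^ 2 := by ring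
    have c1 : |1 / 2 * e0| ≤ D / 2 := by
      rw [abs_mul, abs_of_nonneg (by norm_num : (0 : ℝ) ≤ 1 / 2)]
      linarith
    have c2 : |(ε * h - a1) * (e0 * ε * h - a2) / h| ≤ (2 + |a1|) * (2 * D + |a2|) := by
      rw [abs_div, abs_of_pos hh0, div_le_iff₀ hh0]
      have h6 := CoupQ_abs_mul b1 b2
      have h7 : 0 ≤ (2 + |a1|) * (2 * D + |a2|) := by positivity
      nlinarith
    have c3 : |1 / 2 * (ε * h - a1) ^ 2 * (e0 * h ^ 2 + a3) / h ^ 2| ≤ D * (2 + |a1|) ^ 2 := by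
      have h6 : 1 / 2 * (ε * h - a1) ^ 2 * (e0 * h ^ 2 + a3) / h ^ 2 =
          (1 / 2 * (ε * h - a1) ^ 2) * ((e0 * h ^ 2 + a3) / h ^ 2) := by ring
      rw [h6]
      have h7 : |1 / 2 * (ε * h - a1) ^ 2| ≤ 1 / 2 * (2 + |a1|) ^ 2 := by
        rw [abs_of_nonneg (by positivity), ← sq_abs]
        have := pow_le_pow_left₀ (abs_nonneg _) b1 2
        linarith
      have h8 : |(e0 * h ^ 2 + a3) / h ^ 2| ≤ 2 * D := by
        rw [abs_div, abs_of_pos (by positivity : (0 : ℝ) < h ^ 2)]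
        exact b3
      have h9 := CoupQ_abs_mul h7 h8
      linarith
    have c4 := CoupQ_real1 hD (abs_nonneg a1) (abs_nonneg a2)
    rw [sq_abs] at c4
    have c5 : |1 / 2 * e0 - (ε * h - a1) * (e0 * ε * h - a2) / h +
        1 / 2 * (ε * h - a1) ^ 2 * (e0 * h ^ 2 + a3) / h ^ 2| ≤
        D / 2 + (2 + |a1|) * (2 * D + |a2|) + D * (2 + |a1|) ^ 2 := by
      refine (abs_add_le _ _).trans (add_le_add ?_ c3)
      exact (abs_sub _ _).trans (add_le_add c1 c2)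
    exact c5.trans c4

/-- `Qi` is linear in `e` -/
theorem Qi_add (l0 : Fin K) (κ : Fin N → Fin K) (e e' : Fin K → ℝ) (s : ℝ)
    (q X : Fin (N + 1) → ℝ) :
    Qi l0 κ (fun l => e l + s * e' l) q X = Qi l0 κ e q X + s * Qi l0 κ e' q X := by
  have h1 : ∀ Y : Fin (N + 1) → ℝ, ip q (blk (kc l0 κ) (fun l => e l + s * e' l) Y) =
      ip q (blk (kc l0 κ) e Y) + s * ip q (blk (kc l0 κ) e' Y) := by
    intro Y
    unfold ip blk
    rw [Finset.mul_sum, ← Finset.sum_add_distrib]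
    exact Finset.sum_congr rfl fun a _ => by ring
  unfold Qi
  rw [h1, h1]
  ring

private theorem CoupQ_real2 {C x G Gc A Ac : ℝ} (hC : 0 ≤ C) :
    C * x + 2 * ((2 * x + G) * (2 * C + Ac)) + 2 * ((2 + A) * (2 * C * x + Gc)) +
      4 * ((2 * x + G) * (2 + A) * C) ≤
    100 * (C + 1) * (1 + A ^ 2 + Ac ^ 2 + G ^ 2 + Gc ^ 2 + x ^ 2) := by
  have h1 := mul_nonneg hC (sq_nonneg (x - 1))
  have h2 := mul_nonneg hC (sq_nonneg (G - 1))
  have h3 := mul_nonneg hC (sq_nonneg (x - A))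
  have h4 := mul_nonneg hC (sq_nonneg (G - A))
  have h5 := sq_nonneg (x - Ac)
  have h6 := sq_nonneg (G - Ac)
  have h7 := sq_nonneg (Gc - 1)
  have h8 := sq_nonneg (A - Gc)
  have k1 := mul_nonneg hC (sq_nonneg x)
  have k2 := mul_nonneg hC (sq_nonneg G)
  have k3 := mul_nonneg hC (sq_nonneg A)
  have k4 := mul_nonneg hC (sq_nonneg Ac)
  have k5 := mul_nonneg hC (sq_nonneg Gc)
  have m1 := sq_nonneg x
  have m2 := sq_nonneg G
  have m3 := sq_nonneg A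
  have m4 := sq_nonneg Ac
  have m5 := sq_nonneg Gc
  linarith

/-- field part, crude bound.  PROOF: `|<q,X>| ≤ 2 + |Aw 1|`, `|<q,C'X>| ≤ 2C + |Aw c|`, `|<q,ĝ>| ≤ |g̃_0|·2 + |Gw 1|`, `|<q,C'ĝ>| ≤ 2C|g̃_0| + |Gw c|`,
`|<q,C'q>| ≤ C`, `2|xy| ≤ x² + y²`. -/
theorem Fi_abs {C : ℝ} (hC : 0 ≤ C) (l0 : Fin K) (κ : Fin N → Fin K) (c : Fin K → ℝ)
    (hc : ∀ l, |c l| ≤ C) (i : Fin k) (ω : Fin (k + 1) → EC N) :
    |Fi l0 κ c (qc (xi ω)) (Xv ω) (gh i ω)| ≤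
      100 * (C + 1) * (1 + Aw κ (fun _ => 1) ω ^ 2 + Aw κ c ω ^ 2 + Gw κ (fun _ => 1) i ω ^ 2 +
        Gw κ c i ω ^ 2 + G0 i ω ^ 2) := by
  have hε := CoupQ_abs_ep ω
  have hg0 : gh i ω 0 = G0 i ω := by unfold gh G0; rw [Fin.cons_zero]
  have hX0 : Xv ω 0 = ep ω := by unfold Xv; rw [Fin.cons_zero]
  by_cases hξ : ip (xi ω) (xi ω) = 0
  · unfold Fi
    rw [CoupQ_qz hξ]
    simp only [CoupQ_ev]
    have h1 : blk (kc l0 κ) c (Xv ω) 0 = c l0 * ep ω := by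
      unfold blk kc; rw [Fin.cons_zero, hX0]
    have h2 : blk (kc l0 κ) c (ev 0) 0 = c l0 := by
      unfold blk kc; rw [Fin.cons_zero]; simp [ev]
    have h3 : blk (kc l0 κ) c (gh i ω) 0 = c l0 * G0 i ω := by
      unfold blk kc; rw [Fin.cons_zero, hg0]
    rw [h1, h2, h3, hg0, hX0]
    have h4 : c l0 * G0 i ω * ep ω - 2 * G0 i ω * (c l0 * ep ω) - 2 * ep ω * (c l0 * G0 i ω) +
        4 * G0 i ω * ep ω * c l0 = c l0 * G0 i ω * ep ω := by ring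
    rw [h4, abs_mul, abs_mul, hε, mul_one]
    have h5 : |c l0| * |G0 i ω| ≤ C * |G0 i ω| :=
      mul_le_mul_of_nonneg_right (hc l0) (abs_nonneg _)
    have h6 := mul_nonneg hC (sq_nonneg (|G0 i ω| - 1))
    have h7 := sq_abs (G0 i ω)
    have q1 := sq_nonneg (G0 i ω)
    have q2 := sq_nonneg (Aw κ (fun _ => 1) ω)
    have q3 := sq_nonneg (Aw κ c ω)
    have q4 := sq_nonneg (Gw κ (fun _ => 1) i ω)
    have q5 := sq_nonneg (Gw κ c i ω)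
    have r1 := mul_nonneg hC q1
    have r2 := mul_nonneg hC q2
    have r3 := mul_nonneg hC q3
    have r4 := mul_nonneg hC q4
    have r5 := mul_nonneg hC q5
    nlinarith
  · obtain ⟨h, hh⟩ : ∃ h, h = 1 + |xi ω 0| / Real.sqrt (ip (xi ω) (xi ω)) := ⟨_, rfl⟩
    have hh1 := CoupQ_h1 hh
    have hh2 := CoupQ_h2 hξ hh
    have ha3 := CoupQ_wsum hξ hC κ hc
    have hh0 : 0 < h := by linarith
    have hs1 : 1 ≤ Real.sqrt (2 * h) := by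
      rw [Real.one_le_sqrt]
      linarith
    have hdiv : ∀ x B : ℝ, |x| ≤ B → |x / Real.sqrt (2 * h)| ≤ B := by
      intro x B hx
      rw [abs_div, abs_of_pos (by linarith : (0 : ℝ) < Real.sqrt (2 * h)), div_le_iff₀ (by linarith)]
      have : 0 ≤ B := (abs_nonneg _).trans hx
      nlinarith
    have i1 : |ip (qc (xi ω)) (Xv ω)| ≤ 2 + |Aw κ (fun _ => 1) ω| := by
      rw [CoupQ_X hξ hh κ]
      refine hdiv _ _ ((abs_sub _ _).trans (add_le_add ?_ le_rfl))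
      rw [abs_mul, hε, one_mul, abs_of_pos hh0]
      exact hh2
    have i2 : |ip (qc (xi ω)) (blk (kc l0 κ) c (Xv ω))| ≤ 2 * C + |Aw κ c ω| := by
      rw [CoupQ_EX hξ hh l0 κ c]
      refine hdiv _ _ ((abs_sub _ _).trans (add_le_add ?_ le_rfl))
      rw [abs_mul, abs_mul, hε, mul_one, abs_of_pos hh0]
      have := hc l0
      nlinarith [abs_nonneg (c l0)]
    have i3 : |ip (qc (xi ω)) (gh i ω)| ≤ 2 * |G0 i ω| + |Gw κ (fun _ => 1) i ω| := by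
      rw [CoupQ_g hξ hh κ i]
      refine hdiv _ _ ((abs_sub _ _).trans (add_le_add ?_ le_rfl))
      rw [abs_mul, abs_of_pos hh0]
      exact mul_le_mul_of_nonneg_right hh2 (abs_nonneg _)
    have i4 : |ip (qc (xi ω)) (blk (kc l0 κ) c (gh i ω))| ≤ 2 * C * |G0 i ω| + |Gw κ c i ω| := by
      rw [CoupQ_Cg hξ hh l0 κ c i]
      refine hdiv _ _ ((abs_sub _ _).trans (add_le_add ?_ le_rfl))
      rw [abs_mul, abs_mul, abs_of_pos hh0]
      have h1 : |c l0| * |G0 i ω| ≤ C * |G0 i ω| :=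
        mul_le_mul_of_nonneg_right (hc l0) (abs_nonneg _)
      have h2 : h * (|c l0| * |G0 i ω|) ≤ 2 * (C * |G0 i ω|) :=
        mul_le_mul hh2 h1 (by positivity) (by norm_num)
      linarith
    have i5 : |ip (qc (xi ω)) (blk (kc l0 κ) c (qc (xi ω)))| ≤ C := by
      rw [CoupQ_qq hξ hh l0 κ c, abs_div, abs_of_pos (by linarith : (0 : ℝ) < 2 * h),
        div_le_iff₀ (by linarith)]
      have hw : |∑ a : Fin N, c (κ a) * uv (xi ω) a.succ ^ 2| ≤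
          C * (1 - (|xi ω 0| / Real.sqrt (ip (xi ω) (xi ω))) ^ 2) := by
        have h1 := CoupQ_sum1 hξ
        calc |∑ a : Fin N, c (κ a) * uv (xi ω) a.succ ^ 2|
            ≤ ∑ a : Fin N, |c (κ a) * uv (xi ω) a.succ ^ 2| := Finset.abs_sum_le_sum_abs _ _
          _ ≤ ∑ a : Fin N, C * uv (xi ω) a.succ ^ 2 := by
              refine Finset.sum_le_sum fun a _ => ?_
              rw [abs_mul, abs_of_nonneg (sq_nonneg (uv (xi ω) a.succ))]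
              exact mul_le_mul_of_nonneg_right (hc _) (sq_nonneg _)
          _ = C * ∑ a : Fin N, uv (xi ω) a.succ ^ 2 := by rw [Finset.mul_sum]
          _ = _ := by
              congr 1
              linarith
      have h4 : |xi ω 0| / Real.sqrt (ip (xi ω) (xi ω)) = h - 1 := by rw [hh]; ring
      rw [h4] at hw
      calc |c l0 * h ^ 2 + ∑ a : Fin N, c (κ a) * uv (xi ω) a.succ ^ 2|
          ≤ |c l0 * h ^ 2| + |∑ a : Fin N, c (κ a) * uv (xi ω) a.succ ^ 2| := abs_add_le _ _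
        _ ≤ C * h ^ 2 + C * (1 - (h - 1) ^ 2) := by
            refine add_le_add ?_ hw
            rw [abs_mul, abs_of_nonneg (by positivity : (0 : ℝ) ≤ h ^ 2)]
            exact mul_le_mul_of_nonneg_right (hc l0) (by positivity)
        _ = C * (2 * h) := by ring
    unfold Fi
    rw [hg0, hX0]
    have j0 : |c l0 * G0 i ω * ep ω| ≤ C * |G0 i ω| := by
      rw [abs_mul, abs_mul, hε, mul_one]
      exact mul_le_mul_of_nonneg_right (hc l0) (abs_nonneg _)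
    have j1 := CoupQ_abs_mul i3 i2
    have j2 := CoupQ_abs_mul i1 i4
    have j3 := CoupQ_abs_mul (CoupQ_abs_mul i3 i1) i5
    generalize ip (qc (xi ω)) (Xv ω) = X1 at *
    generalize ip (qc (xi ω)) (blk (kc l0 κ) c (Xv ω)) = X2 at *
    generalize ip (qc (xi ω)) (gh i ω) = X3 at *
    generalize ip (qc (xi ω)) (blk (kc l0 κ) c (gh i ω)) = X4 at *
    generalize ip (qc (xi ω)) (blk (kc l0 κ) c (qc (xi ω))) = X5 at *
    have hfin := CoupQ_real2 (x := |G0 i ω|) (G := |Gw κ (fun _ => 1) i ω|) (Gc := |Gw κ c i ω|)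
      (A := |Aw κ (fun _ => 1) ω|) (Ac := |Aw κ c ω|) hC
    simp only [sq_abs] at hfin
    refine le_trans ?_ hfin
    have e1 : c l0 * G0 i ω * ep ω - 2 * X3 * X2 - 2 * X1 * X4 + 4 * X3 * X1 * X5 =
        c l0 * G0 i ω * ep ω - 2 * (X3 * X2) - 2 * (X1 * X4) + 4 * (X3 * X1 * X5) := by ring
    rw [e1]
    refine (abs_add_le _ _).trans (add_le_add ?_ ?_)
    · refine (abs_sub _ _).trans (add_le_add ?_ ?_)
      · refine (abs_sub _ _).trans (add_le_add j0 ?_)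
        rw [abs_mul, abs_of_pos (by norm_num : (0 : ℝ) < 2)]
        linarith
      · rw [abs_mul, abs_of_pos (by norm_num : (0 : ℝ) < 2)]
        linarith
    · rw [abs_mul, abs_of_pos (by norm_num : (0 : ℝ) < 4)]
      linarith

end Crest.Agent.RI
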