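import Crest.Agent.RI.DecDefs

/-!
# Row 164, decoupling: the Gaussian coordinates of `E2`, admissibility
-/

set_option autoImplicit false

namespace Crest.Agent.RI

open MeasureTheory ProbabilityTheory

variable {E : Type} [MeasurableSpace E] {M K k : ℕ}
variable {m : Measure E} [IsProbabilityMeasure m] {β : E → ℝ} {ζ : ℕ → ℝ}
variable {H : (Fin (k + 1) → E) → ℝ} {κ : Fin M → Fin K} {q : Fin M → (Fin (k + 1) → E) → ℝ}
variable {r : ℕ → Fin K → ℝ} {U : (Fin K → ℝ) → (Fin (k + 1) → E) → ℝ}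
variable {U1 U2 : Fin K → (Fin K → ℝ) → (Fin (k + 1) → E) → ℝ} {A B : ℝ}

private theorem DecA_law_right {α γ : Type*} [MeasurableSpace α] [MeasurableSpace γ]
    {μ : Measure α} {ν : Measure γ} [IsProbabilityMeasure μ] [IsProbabilityMeasure ν]
    {f : α × ℝ → α} (hf : Measurable f) (h : (μ.prod (gaussianReal 0 1)).map f = μ) :
    ((ν.prod μ).prod (gaussianReal 0 1)).map (fun p => (p.1.1, f (p.1.2, p.2))) = ν.prod μ := by
  have e : (fun p : (γ × α) × ℝ => (p.1.1, f (p.1.2, p.2))) =
      (Prod.map id f) ∘ (MeasurableEquiv.prodAssoc : (γ × α) × ℝ ≃ᵐ γ × (α × ℝ)) := rfl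
  rw [e, ← Measure.map_map (measurable_id.prodMap hf) MeasurableEquiv.prodAssoc.measurable,
    Measure.prodAssoc_prod, ← Measure.map_prod_map ν _ measurable_id hf, h, Measure.map_id]

private theorem DecA_law_left {α γ : Type*} [MeasurableSpace α] [MeasurableSpace γ]
    {μ : Measure α} {ν : Measure γ} [IsProbabilityMeasure μ] [IsProbabilityMeasure ν]
    {f : α × ℝ → α} (hf : Measurable f) (h : (μ.prod (gaussianReal 0 1)).map f = μ) :
    ((μ.prod ν).prod (gaussianReal 0 1)).map (fun p => (f (p.1.1, p.2), p.1.2)) = μ.prod ν := by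
  have e : (fun p : (α × γ) × ℝ => (f (p.1.1, p.2), p.1.2)) =
      Prod.swap ∘ (fun p : (γ × α) × ℝ => (p.1.1, f (p.1.2, p.2))) ∘
        (Prod.map (Prod.swap : α × γ → γ × α) (id : ℝ → ℝ)) := rfl
  have m1 : Measurable (fun p : (γ × α) × ℝ => (p.1.1, f (p.1.2, p.2))) := by fun_prop
  rw [e, ← Measure.map_map measurable_swap (m1.comp (measurable_swap.prodMap measurable_id)),
    ← Measure.map_map m1 (measurable_swap.prodMap measurable_id),
    ← Measure.map_prod_map _ _ measurable_swap measurable_id, Measure.prod_swap, Measure.map_id,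
    DecA_law_right hf h, Measure.prod_swap]

private theorem DecA_measurable_upd {N : ℕ} (a : Fin N) :
    Measurable (fun p : (Fin N → ℝ) × ℝ => Function.update p.1 a p.2) := by
  refine measurable_pi_lambda _ fun b => ?_
  by_cases h : b = a
  · subst h
    simp only [Function.update_self]
    exact measurable_snd
  · simp only [Function.update_of_ne h]
    fun_prop

private theorem DecA_law_upd {N : ℕ} (a : Fin N) :
    ((gvec N).prod (gaussianReal 0 1)).map (fun p => Function.update p.1 a p.2) = gvec N := by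
  unfold gvec
  symm
  refine Measure.pi_eq fun s hs => ?_
  rw [Measure.map_apply (DecA_measurable_upd a) (MeasurableSet.univ_pi hs)]
  have e : (fun p : (Fin N → ℝ) × ℝ => Function.update p.1 a p.2) ⁻¹' (Set.univ.pi s) =
      (Set.univ.pi (Function.update s a Set.univ)) ×ˢ (s a) := by
    ext p
    simp only [Set.mem_preimage, Set.mem_univ_pi, Set.mem_prod]
    constructor
    · intro h
      refine ⟨fun i => ?_, by simpa using h a⟩
      by_cases hi : i = a
      · subst hi; simp
      · have := h i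
        rw [Function.update_of_ne hi] at this
        rwa [Function.update_of_ne hi]
    · rintro ⟨h, h'⟩ i
      by_cases hi : i = a
      · subst hi; simpa using h'
      · have := h i
        rw [Function.update_of_ne hi] at this
        rwa [Function.update_of_ne hi]
  rw [e, Measure.prod_prod, Measure.pi_pi, ← Finset.mul_prod_erase _ _ (Finset.mem_univ a),
    ← Finset.mul_prod_erase Finset.univ (fun i => (gaussianReal 0 1) (s i)) (Finset.mem_univ a)]
  have e2 : ∏ x ∈ Finset.univ.erase a, (gaussianReal 0 1) (Function.update s a Set.univ x) =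
      ∏ x ∈ Finset.univ.erase a, (gaussianReal 0 1) (s x) :=
    Finset.prod_congr rfl fun x hx => by rw [Function.update_of_ne (Finset.ne_of_mem_erase hx)]
  rw [e2, Function.update_self, measure_univ, one_mul, mul_comm]

private theorem DecA_abs_le_sum {N : ℕ} (x : Fin N → ℝ) (a : Fin N) : |x a| ≤ ∑ b, |x b| :=
  Finset.single_le_sum (f := fun b => |x b|) (fun _ _ => abs_nonneg _) (Finset.mem_univ a)

private theorem DecA_sum_abs_upd {N : ℕ} (x : Fin N → ℝ) (a : Fin N) (t : ℝ) :
    ∑ b, |Function.update x a t b| ≤ ∑ b, |x b| + |t| := by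
  rw [← Finset.add_sum_erase _ _ (Finset.mem_univ a),
    ← Finset.add_sum_erase Finset.univ (fun b => |x b|) (Finset.mem_univ a)]
  have e2 : ∑ b ∈ Finset.univ.erase a, |Function.update x a t b| =
      ∑ b ∈ Finset.univ.erase a, |x b| :=
    Finset.sum_congr rfl fun b hb => by rw [Function.update_of_ne (Finset.ne_of_mem_erase hb)]
  rw [e2, Function.update_self]
  have := abs_nonneg (x a)
  linarith

private theorem DecA_isProb_gvec {N : ℕ} : IsProbabilityMeasure (gvec N) := by
  unfold gvec; infer_instance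


private theorem DecA_exp_one (c : ℝ) :
    Integrable (fun x : ℝ => Real.exp (c * |x|)) (gaussianReal 0 1) :=
  integrable_exp_mul_abs (X := fun x : ℝ => x) (t := c)
    (integrable_exp_mul_gaussianReal c) (integrable_exp_mul_gaussianReal (-c))

private theorem DecA_exp_gvec {N : ℕ} (c : ℝ) :
    Integrable (fun x : Fin N → ℝ => Real.exp (c * ∑ a, |x a|)) (gvec N) := by
  have h := Integrable.fintype_prod (ι := Fin N) (E := ℝ) (𝕜 := ℝ)
    (f := fun _ x => Real.exp (c * |x|)) (μ := fun _ => gaussianReal 0 1) (fun _ => DecA_exp_one c)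
  have e : (fun x : Fin N → ℝ => ∏ i, Real.exp (c * |x i|)) =
      fun x : Fin N → ℝ => Real.exp (c * ∑ a, |x a|) := by
    funext x
    rw [← Real.exp_sum, Finset.mul_sum]
  rw [e] at h
  exact h

instance prob_m2 : IsProbabilityMeasure (m2 m M K) := by
  unfold m2; infer_instance

/-- PROOF: `∫ exp (c β2) = ∫ exp(cβ) · (∫ exp(c|x|) dγ)^{M+K}`, `Integrable.mul_prod` (or `.prod_mul`), integrability of
`exp (c Σ|x_a|)` under the product of Gaussians (see `dom_mN` in RI/SysB.lean for the same argument). -/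
theorem dom_m2 (hβ : Dom m β) : Dom (m2 m M K) (β2 (M := M) (K := K) β) := by
  have i1 := DecA_isProb_gvec (N := M)
  have i2 := DecA_isProb_gvec (N := K)
  refine ⟨?_, ?_, ?_⟩
  · have h1 := hβ.meas
    unfold β2
    fun_prop
  · intro x
    have := hβ.nonneg x.1
    unfold β2
    positivity
  · intro c
    have h1 := Integrable.mul_prod (f := fun x : Fin M → ℝ => Real.exp (c * ∑ a, |x a|))
        (g := fun x : Fin K → ℝ => Real.exp (c * ∑ a, |x a|))
        (DecA_exp_gvec c) (DecA_exp_gvec c)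
    have h2 := Integrable.mul_prod (hβ.int c) h1
    refine h2.congr (Filter.Eventually.of_forall (fun x => ?_))
    simp only [β2]
    rw [mul_add, mul_add, Real.exp_add, Real.exp_add]

/-- PROOF as `gcoord_setG` in RI/FlowD.lean. -/
theorem gcoord_z1 (hβ : Dom m β) (a : Fin M) :
    GCoord (m2 m M K) (β2 (M := M) (K := K) β) (fun x => x.2.1 a)
      (fun x t => (x.1, Function.update x.2.1 a t, x.2.2)) := by
  have i1 := DecA_isProb_gvec (N := M)
  have i2 := DecA_isProb_gvec (N := K)
  refine ⟨?_, ?_, ?_, ?_, ?_, ?_, ?_⟩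
  · exact (measurable_pi_apply a).comp (measurable_fst.comp measurable_snd)
  · have h1 : Measurable (fun p : E2 E M K × ℝ => Function.update p.1.2.1 a p.2) :=
      (DecA_measurable_upd a).comp (Measurable.prodMk (measurable_fst.comp
        (measurable_snd.comp measurable_fst)) measurable_snd)
    exact Measurable.prodMk (measurable_fst.comp measurable_fst)
      (Measurable.prodMk h1 (measurable_snd.comp (measurable_snd.comp measurable_fst)))
  · intro x t
    simp
  · intro x
    simp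
  · intro x t t'
    simp
  · have m0 := DecA_measurable_upd (N := M) a
    have h0 := DecA_law_upd (N := M) a
    have h1 := DecA_law_left (ν := gvec K) m0 h0
    have m1 : Measurable (fun p : ((Fin M → ℝ) × (Fin K → ℝ)) × ℝ =>
        ((Function.update p.1.1 a p.2, p.1.2) : (Fin M → ℝ) × (Fin K → ℝ))) :=
      Measurable.prodMk (m0.comp (Measurable.prodMk (measurable_fst.comp measurable_fst)
        measurable_snd)) (measurable_snd.comp measurable_fst)
    exact DecA_law_right (ν := m) m1 h1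
  · refine ⟨1, zero_le_one, fun x => ?_, fun x t => ?_⟩
    · have h1 := DecA_abs_le_sum x.2.1 a
      have h2 : 0 ≤ ∑ b, |x.2.2 b| := Finset.sum_nonneg fun _ _ => abs_nonneg _
      have h3 := hβ.nonneg x.1
      unfold β2
      linarith
    · have h1 := DecA_sum_abs_upd x.2.1 a t
      unfold β2
      simp only
      linarith

theorem gcoord_z2 (hβ : Dom m β) (l : Fin K) :
    GCoord (m2 m M K) (β2 (M := M) (K := K) β) (fun x => x.2.2 l)
      (fun x t => (x.1, x.2.1, Function.update x.2.2 l t)) := by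
  have i1 := DecA_isProb_gvec (N := M)
  have i2 := DecA_isProb_gvec (N := K)
  refine ⟨?_, ?_, ?_, ?_, ?_, ?_, ?_⟩
  · exact (measurable_pi_apply l).comp (measurable_snd.comp measurable_snd)
  · have h1 : Measurable (fun p : E2 E M K × ℝ => Function.update p.1.2.2 l p.2) :=
      (DecA_measurable_upd l).comp (Measurable.prodMk (measurable_snd.comp
        (measurable_snd.comp measurable_fst)) measurable_snd)
    exact Measurable.prodMk (measurable_fst.comp measurable_fst)
      (Measurable.prodMk (measurable_fst.comp (measurable_snd.comp measurable_fst)) h1)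
  · intro x t
    simp
  · intro x
    simp
  · intro x t t'
    simp
  · have m0 := DecA_measurable_upd (N := K) l
    have h0 := DecA_law_upd (N := K) l
    have h1 := DecA_law_right (ν := gvec M) m0 h0
    have m1 : Measurable (fun p : ((Fin M → ℝ) × (Fin K → ℝ)) × ℝ =>
        ((p.1.1, Function.update p.1.2 l p.2) : (Fin M → ℝ) × (Fin K → ℝ))) :=
      Measurable.prodMk (measurable_fst.comp measurable_fst)
        (m0.comp (Measurable.prodMk (measurable_snd.comp measurable_fst) measurable_snd))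
    exact DecA_law_right (ν := m) m1 h1
  · refine ⟨1, zero_le_one, fun x => ?_, fun x t => ?_⟩
    · have h1 := DecA_abs_le_sum x.2.2 l
      have h2 : 0 ≤ ∑ b, |x.2.1 b| := Finset.sum_nonneg fun _ _ => abs_nonneg _
      have h3 := hβ.nonneg x.1
      unfold β2
      linarith
    · have h1 := DecA_sum_abs_upd x.2.2 l t
      unfold β2
      simp only
      linarith

theorem DecA_measurable_bp {n : ℕ} : Measurable (bp : (Fin n → E2 E M K) → Fin n → E) :=
  measurable_pi_lambda _ fun j => measurable_fst.comp (measurable_pi_apply j)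

theorem DecA_sum_nonneg (hβ : Dom m β) {n : ℕ} (ω : Fin n → E2 E M K) :
    0 ≤ ∑ j, β2 β (ω j) :=
  Finset.sum_nonneg fun j _ => by
    have := hβ.nonneg (ω j).1
    unfold β2
    positivity

theorem DecA_le_sum (hβ : Dom m β) {n : ℕ} (ω : Fin n → E2 E M K) (j : Fin n) :
    β2 β (ω j) ≤ ∑ j, β2 β (ω j) :=
  Finset.single_le_sum (f := fun j => β2 β (ω j)) (fun j _ => by
    have := hβ.nonneg (ω j).1
    unfold β2
    positivity) (Finset.mem_univ j)

theorem measurable_z1 (hq : ∀ a, Measurable (q a)) (l : Fin K) :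
    Measurable (fun ω : Fin (k + 1) → E2 E M K => z1 κ q ω l) := by
  unfold z1
  refine Finset.measurable_sum _ fun a _ => ?_
  by_cases h : κ a = l
  · simp only [if_pos h]
    have h0 : Measurable (fun ω : Fin (k + 1) → E2 E M K => ω 0) := measurable_pi_apply 0
    have h1 : Measurable (fun ω : Fin (k + 1) → E2 E M K => (ω 0).2.1 a) :=
      (measurable_pi_apply a).comp (measurable_fst.comp (measurable_snd.comp h0))
    exact h1.mul ((hq a).comp DecA_measurable_bp)
  · simp only [if_neg h]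
    exact measurable_const

theorem measurable_z2 (l : Fin K) :
    Measurable (fun ω : Fin (k + 1) → E2 E M K => z2 r ω l) := by
  unfold z2
  refine Finset.measurable_sum _ fun i _ => ?_
  have h0 : Measurable (fun ω : Fin (k + 1) → E2 E M K => ω i) := measurable_pi_apply i
  have h1 : Measurable (fun ω : Fin (k + 1) → E2 E M K => (ω i).2.2 l) :=
    (measurable_pi_apply l).comp (measurable_snd.comp (measurable_snd.comp h0))
  exact h1.const_mul _

/-- `|z1_l|, |z2_l| ≤ C (1 + Σ β2)`: `z1`, `z2` are of class `Ham` -/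
theorem ham_z1 (hβ : Dom m β) (hq : ∀ a, Measurable (q a)) (hqb : ∀ ω, ∑ a, q a ω ^ 2 ≤ 1)
    (l : Fin K) : Ham (β2 (M := M) (K := K) β) (fun ω : Fin (k + 1) → E2 E M K => z1 κ q ω l) := by
  refine ⟨measurable_z1 hq l, 1, zero_le_one, fun ω => ?_⟩
  have hq1 : ∀ a, |q a (bp ω)| ≤ 1 := by
    intro a
    have h1 := Finset.single_le_sum (f := fun a => q a (bp ω) ^ 2) (fun _ _ => sq_nonneg _)
      (Finset.mem_univ a)
    have h2 := hqb (bp ω)
    exact abs_le_one_iff_mul_self_le_one.2 (by nlinarith)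
  have h1 : |z1 κ q ω l| ≤ ∑ a, |(ω 0).2.1 a| := by
    unfold z1
    refine (Finset.abs_sum_le_sum_abs _ _).trans (Finset.sum_le_sum fun a _ => ?_)
    by_cases h : κ a = l
    · rw [if_pos h, abs_mul]
      exact mul_le_of_le_one_right (abs_nonneg _) (hq1 a)
    · rw [if_neg h, abs_zero]
      exact abs_nonneg _
  have h2 := DecA_le_sum hβ ω 0
  have h3 : 0 ≤ ∑ l, |(ω 0).2.2 l| := Finset.sum_nonneg fun _ _ => abs_nonneg _
  have h4 := hβ.nonneg (ω 0).1
  have h5 : ∑ a, |(ω 0).2.1 a| ≤ β2 β (ω 0) := by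
    unfold β2
    linarith
  linarith

theorem ham_z2 (hβ : Dom m β) (l : Fin K) :
    Ham (β2 (M := M) (K := K) β) (fun ω : Fin (k + 1) → E2 E M K => z2 r ω l) := by
  refine ⟨measurable_z2 l, ∑ i : Fin (k + 1), Real.sqrt (r i l),
    Finset.sum_nonneg fun _ _ => Real.sqrt_nonneg _, fun ω => ?_⟩
  unfold z2
  rw [Finset.sum_mul]
  refine (Finset.abs_sum_le_sum_abs _ _).trans (Finset.sum_le_sum fun i _ => ?_)
  rw [abs_mul, abs_of_nonneg (Real.sqrt_nonneg _)]
  refine mul_le_mul_of_nonneg_left ?_ (Real.sqrt_nonneg _)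
  have h1 := DecA_abs_le_sum (ω i).2.2 l
  have h2 := DecA_le_sum hβ ω i
  have h3 : 0 ≤ ∑ a, |(ω i).2.1 a| := Finset.sum_nonneg fun _ _ => abs_nonneg _
  have h4 := hβ.nonneg (ω i).1
  have h5 : ∑ l, |(ω i).2.2 l| ≤ β2 β (ω i) := by
    unfold β2
    linarith
  linarith

theorem DecA_measurable_zz (hq : ∀ a, Measurable (q a)) (φ : ℝ) :
    Measurable (fun ω : Fin (k + 1) → E2 E M K => zz κ q r φ ω) := by
  refine measurable_pi_lambda _ fun l => ?_
  exact ((measurable_z1 hq l).const_mul _).add ((measurable_z2 l).const_mul _)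

theorem DecA_zz_bound (h : DecH m β ζ k H κ q r U U1 U2 A B) :
    ∃ D : ℝ, 1 ≤ D ∧ ∀ φ : ℝ, ∀ ω : Fin (k + 1) → E2 E M K,
      1 + ∑ l', |zz κ q r φ ω l'| ≤ D * (1 + ∑ j, β2 β (ω j)) := by
  have h1 := fun l => (ham_z1 (M := M) (K := K) (κ := κ) h.dom h.qm h.qb l).bound
  have h2 := fun l => (ham_z2 (M := M) (K := K) (k := k) (r := r) h.dom l).bound
  choose C1 hC1 hb1 using h1
  choose C2 hC2 hb2 using h2
  refine ⟨1 + ∑ l, (C1 l + C2 l), ?_, fun φ ω => ?_⟩
  · have : 0 ≤ ∑ l, (C1 l + C2 l) := Finset.sum_nonneg fun l _ => add_nonneg (hC1 l) (hC2 l)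
    linarith
  · have h3 : ∀ l, |zz κ q r φ ω l| ≤ (C1 l + C2 l) * (1 + ∑ j, β2 β (ω j)) := by
      intro l
      unfold zz
      have e1 : |Real.sin φ * z1 κ q ω l| ≤ |z1 κ q ω l| := by
        rw [abs_mul]
        exact mul_le_of_le_one_left (abs_nonneg _) (Real.abs_sin_le_one φ)
      have e2 : |Real.cos φ * z2 r ω l| ≤ |z2 r ω l| := by
        rw [abs_mul]
        exact mul_le_of_le_one_left (abs_nonneg _) (Real.abs_cos_le_one φ)
      have e3 := hb1 l ω
      have e4 := hb2 l ω
      calc |Real.sin φ * z1 κ q ω l + Real.cos φ * z2 r ω l| ≤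
            |Real.sin φ * z1 κ q ω l| + |Real.cos φ * z2 r ω l| := abs_add_le _ _
        _ ≤ (C1 l + C2 l) * (1 + ∑ j, β2 β (ω j)) := by
            rw [add_mul]; linarith
    have h4 := Finset.sum_le_sum fun l (_ : l ∈ Finset.univ) => h3 l
    rw [← Finset.sum_mul] at h4
    have h5 := DecA_sum_nonneg h.dom ω
    nlinarith

/-- all Hamiltonians `Hz φ` are admissible with one constant -/
theorem hamC_Hz (h : DecH m β ζ k H κ q r U U1 U2 A B) :
    ∃ C : ℝ, 0 ≤ C ∧ ∀ φ : ℝ, HamC C (β2 (M := M) (K := K) β) (Hz H κ q r U φ) := by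
  obtain ⟨C, hC, hb⟩ := h.ham.bound
  refine ⟨C + A, add_nonneg hC h.A0, fun φ => ⟨?_, fun ω => ?_⟩⟩
  · exact (h.ham.meas.comp DecA_measurable_bp).add
      (h.Um.comp ((DecA_measurable_zz h.qm φ).prodMk DecA_measurable_bp))
  · have h1 := hb (bp ω)
    have h2 := h.bU (zz κ q r φ ω) (bp ω)
    have h3 : ∑ i, β (bp ω i) ≤ ∑ j, β2 β (ω j) := by
      refine Finset.sum_le_sum fun j _ => ?_
      unfold β2 bp
      have : 0 ≤ ∑ a, |(ω j).2.1 a| := Finset.sum_nonneg fun _ _ => abs_nonneg _
      have : 0 ≤ ∑ a, |(ω j).2.2 a| := Finset.sum_nonneg fun _ _ => abs_nonneg _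
      linarith
    have h4 := DecA_sum_nonneg h.dom ω
    have h5 := h.A0
    unfold Hz
    calc |H (bp ω) + U (zz κ q r φ ω) (bp ω)| ≤ |H (bp ω)| + |U (zz κ q r φ ω) (bp ω)| :=
          abs_add_le _ _
      _ ≤ C * (1 + ∑ i, β (bp ω i)) + A := add_le_add h1 h2
      _ ≤ C * (1 + ∑ j, β2 β (ω j)) + A := by
          have := mul_le_mul_of_nonneg_left h3 hC
          linarith
      _ ≤ (C + A) * (1 + ∑ j, β2 β (ω j)) := by
          have := mul_nonneg h5 h4
          linarith

/-- the functions `U1_l (zz φ)`, `U2_l (zz φ)` are tame, with one constant for all `φ` -/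
theorem tameC_U1 (h : DecH m β ζ k H κ q r U U1 U2 A B) (l : Fin K) :
    ∃ C : ℝ, 0 ≤ C ∧ ∀ φ : ℝ, TameC C (β2 (M := M) (K := K) β)
      (fun ω : Fin (k + 1) → E2 E M K => U1 l (zz κ q r φ ω) (bp ω)) := by
  obtain ⟨D, hD, hb⟩ := DecA_zz_bound h
  refine ⟨B * D + 1, by have := mul_nonneg h.B0 (zero_le_one.trans hD); linarith,
    fun φ => ⟨(h.U1m l).comp ((DecA_measurable_zz h.qm φ).prodMk DecA_measurable_bp),
      fun ω => ?_⟩⟩
  have h1 := h.bU1 l (zz κ q r φ ω) (bp ω)
  have h2 := hb φ ω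
  have h3 := DecA_sum_nonneg h.dom ω
  have hBD := mul_nonneg h.B0 (zero_le_one.trans hD)
  set S := ∑ j, β2 β (ω j) with hS
  have h4 : 1 + S ≤ Real.exp ((B * D + 1) * S) := by
    have e1 := Real.add_one_le_exp S
    have e2 : Real.exp S ≤ Real.exp ((B * D + 1) * S) := by
      apply Real.exp_le_exp.2
      nlinarith [mul_nonneg hBD h3]
    linarith
  calc |U1 l (zz κ q r φ ω) (bp ω)| ≤ B * (1 + ∑ l', |zz κ q r φ ω l'|) := h1
    _ ≤ B * (D * (1 + S)) := mul_le_mul_of_nonneg_left h2 h.B0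
    _ = (B * D) * (1 + S) := by ring
    _ ≤ (B * D + 1) * Real.exp ((B * D + 1) * S) := by
        refine mul_le_mul (by linarith) h4 (by linarith) (by linarith)

theorem tameC_U2 (h : DecH m β ζ k H κ q r U U1 U2 A B) (l : Fin K) :
    ∃ C : ℝ, 0 ≤ C ∧ ∀ φ : ℝ, TameC C (β2 (M := M) (K := K) β)
      (fun ω : Fin (k + 1) → E2 E M K => U2 l (zz κ q r φ ω) (bp ω)) := by
  obtain ⟨D, hD, hb⟩ := DecA_zz_bound h
  have hBD : 0 ≤ B * D ^ 2 := mul_nonneg h.B0 (sq_nonneg D)
  refine ⟨B * D ^ 2 + 2, by linarith,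
    fun φ => ⟨(h.U2m l).comp ((DecA_measurable_zz h.qm φ).prodMk DecA_measurable_bp),
      fun ω => ?_⟩⟩
  have h1 := h.bU2 l (zz κ q r φ ω) (bp ω)
  have h2 := hb φ ω
  have h3 := DecA_sum_nonneg h.dom ω
  set S := ∑ j, β2 β (ω j) with hS
  have h0 : 0 ≤ 1 + ∑ l', |zz κ q r φ ω l'| := by positivity
  have h4 : (1 + S) ^ 2 ≤ Real.exp ((B * D ^ 2 + 2) * S) := by
    have e1 : 1 + S ≤ Real.exp S := by linarith [Real.add_one_le_exp S]
    have e2 : (1 + S) ^ 2 ≤ Real.exp S ^ 2 := pow_le_pow_left₀ (by linarith) e1 2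
    have e3 : Real.exp S ^ 2 = Real.exp (2 * S) := by
      rw [← Real.exp_nat_mul]; norm_num
    have e4 : Real.exp (2 * S) ≤ Real.exp ((B * D ^ 2 + 2) * S) := by
      apply Real.exp_le_exp.2
      nlinarith [mul_nonneg hBD h3]
    linarith
  calc |U2 l (zz κ q r φ ω) (bp ω)| ≤ B * (1 + ∑ l', |zz κ q r φ ω l'|) ^ 2 := h1
    _ ≤ B * (D * (1 + S)) ^ 2 :=
        mul_le_mul_of_nonneg_left (pow_le_pow_left₀ h0 h2 2) h.B0
    _ = (B * D ^ 2) * (1 + S) ^ 2 := by ring
    _ ≤ (B * D ^ 2 + 2) * Real.exp ((B * D ^ 2 + 2) * S) := by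
        refine mul_le_mul (by linarith) h4 (sq_nonneg _) (by linarith)

end Crest.Agent.RI
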