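import Crest.Agent.RI.TBasicB

/-!
# Row 164, tower: derivatives along C¹ families.
-/

set_option autoImplicit false
set_option linter.unusedSectionVars false

namespace Crest.Agent.RI
open MeasureTheory ProbabilityTheory

variable {E : Type} [MeasurableSpace E]
variable {m : Measure E} [IsProbabilityMeasure m] {ζ : ℕ → ℝ} {β : E → ℝ}

theorem TDerA_measurable_cons {n : ℕ} :
    Measurable (fun p : E × (Fin n → E) => (Fin.cons p.1 p.2 : Fin (n + 1) → E)) := by
  refine measurable_pi_lambda _ fun i => ?_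
  refine Fin.cases ?_ (fun j => ?_) i
  · simpa using measurable_fst
  · simp only [Fin.cons_succ]
    exact (measurable_pi_apply j).comp measurable_snd

theorem TDerA_uncurry_cons {n : ℕ} {H : (Fin (n + 1) → E) → ℝ} (hH : Measurable H) :
    Measurable (Function.uncurry fun (e : E) (ω : Fin n → E) => H (Fin.cons e ω)) :=
  hH.comp TDerA_measurable_cons

theorem TDerA_meas_cons {n : ℕ} {H : (Fin (n + 1) → E) → ℝ} (hH : Measurable H) (e : E) :
    Measurable fun ω : Fin n → E => H (Fin.cons e ω) :=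
  (TDerA_uncurry_cons hH).comp measurable_prodMk_left

theorem TDerA_sum_cons {n : ℕ} (e : E) (ω : Fin n → E) :
    ∑ i, β ((Fin.cons e ω : Fin (n + 1) → E) i) = β e + ∑ i, β (ω i) := by
  rw [Fin.sum_univ_succ]
  simp

theorem TDerA_sum_nonneg (hβ : Dom m β) {n : ℕ} (ω : Fin n → E) : 0 ≤ ∑ i, β (ω i) :=
  Finset.sum_nonneg fun _ _ => hβ.nonneg _

theorem TDerA_hamC_mono (hβ : Dom m β) {n : ℕ} {C C' : ℝ} {H : (Fin n → E) → ℝ}
    (h : HamC C β H) (hC : C ≤ C') : HamC C' β H := by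
  refine ⟨h.meas, fun ω => (h.bound ω).trans ?_⟩
  have := TDerA_sum_nonneg hβ ω
  gcongr

theorem TDerA_tameC_mono (hβ : Dom m β) {n : ℕ} {C C' : ℝ} (h0 : 0 ≤ C) {H : (Fin n → E) → ℝ}
    (h : TameC C β H) (hC : C ≤ C') : TameC C' β H := by
  refine ⟨h.meas, fun ω => (h.bound ω).trans ?_⟩
  have := TDerA_sum_nonneg hβ ω
  have h1 : 0 ≤ C' := h0.trans hC
  gcongr

theorem TDerA_hamC_cons (hβ : Dom m β) {n : ℕ} {C C' : ℝ} (hC : 0 ≤ C)
    {H : (Fin (n + 1) → E) → ℝ} (h : HamC C β H) (e : E) (hC' : C * (1 + β e) ≤ C') :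
    HamC C' β (fun ω : Fin n → E => H (Fin.cons e ω)) := by
  refine ⟨TDerA_meas_cons h.meas e, fun ω => ?_⟩
  have h1 := h.bound (Fin.cons e ω)
  rw [TDerA_sum_cons] at h1
  have h2 := TDerA_sum_nonneg hβ ω
  have h3 := hβ.nonneg e
  calc |H (Fin.cons e ω)| ≤ C * (1 + (β e + ∑ i, β (ω i))) := h1
    _ ≤ C * ((1 + β e) * (1 + ∑ i, β (ω i))) := by
        gcongr
        nlinarith [mul_nonneg h3 h2]
    _ = C * (1 + β e) * (1 + ∑ i, β (ω i)) := by ring
    _ ≤ C' * (1 + ∑ i, β (ω i)) := by gcongr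

theorem TDerA_tameC_cons (hβ : Dom m β) {n : ℕ} {C C' : ℝ} (hC : 0 ≤ C)
    {H : (Fin (n + 1) → E) → ℝ} (h : TameC C β H) (e : E) (hC' : C * Real.exp (C * β e) ≤ C') :
    TameC C' β (fun ω : Fin n → E => H (Fin.cons e ω)) := by
  refine ⟨TDerA_meas_cons h.meas e, fun ω => ?_⟩
  have h1 := h.bound (Fin.cons e ω)
  rw [TDerA_sum_cons] at h1
  have h2 := TDerA_sum_nonneg hβ ω
  have h3 := hβ.nonneg e
  have h4 : C ≤ C' := by
    refine le_trans ?_ hC'
    have : 1 ≤ Real.exp (C * β e) := Real.one_le_exp (by positivity)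
    exact le_mul_of_one_le_right hC this
  calc |H (Fin.cons e ω)| ≤ C * Real.exp (C * (β e + ∑ i, β (ω i))) := h1
    _ = C * Real.exp (C * β e) * Real.exp (C * ∑ i, β (ω i)) := by
        rw [mul_add, Real.exp_add]; ring
    _ ≤ C' * Real.exp (C' * ∑ i, β (ω i)) := by gcongr; exact hC.trans h4

/-- the constant for the family with fixed first coordinate -/
theorem TDerA_const (hβ : Dom m β) {C : ℝ} (hC : 0 ≤ C) (e : E) :
    0 ≤ C * (1 + β e) + C * Real.exp (C * β e) ∧
      C * (1 + β e) ≤ C * (1 + β e) + C * Real.exp (C * β e) ∧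
      C * Real.exp (C * β e) ≤ C * (1 + β e) + C * Real.exp (C * β e) := by
  have h3 := hβ.nonneg e
  have h4 : 0 ≤ C * (1 + β e) := by positivity
  have h5 : 0 ≤ C * Real.exp (C * β e) := by positivity
  refine ⟨by linarith, by linarith, by linarith⟩

theorem TDerA_g_bound (hβ : Dom m β) (n : ℕ) {C : ℝ} (hC : 0 ≤ C) :
    ∃ K : ℝ, 0 ≤ K ∧ ∀ (ζ : ℕ → ℝ), Exps ζ → ∀ (i : ℕ) (H : (Fin (n + 1) → E) → ℝ),
      HamC C β H → ∀ e, |nest m ζ n i (fun ω => H (Fin.cons e ω))| ≤ C * (1 + β e) + K := by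
  obtain ⟨K, hK, h⟩ := nest_bound hβ n C hC
  refine ⟨K, hK, fun ζ hζ i H hH e => ?_⟩
  have h3 := hβ.nonneg e
  refine h ζ hζ i (C * (1 + β e)) (by positivity) _ (TDerA_meas_cons hH.meas e) fun ω => ?_
  have h1 := hH.bound (Fin.cons e ω)
  rw [TDerA_sum_cons] at h1
  refine h1.trans (le_of_eq (by ring))

theorem TDerA_v_bound (hβ : Dom m β) (n : ℕ) {C B : ℝ} (hC : 0 ≤ C) (hB : 0 ≤ B) :
    ∃ K : ℝ, 0 ≤ K ∧ ∀ (ζ : ℕ → ℝ), Exps ζ → ∀ (i : ℕ) (b : ℝ) (_ : 0 ≤ b)
      (H V : (Fin (n + 1) → E) → ℝ),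
      HamC C β H → Measurable V → (∀ ω, |V ω| ≤ b * Real.exp (B * ∑ i, β (ω i))) →
      ∀ e, |pathE m ζ n i (fun ω => H (Fin.cons e ω)) (fun ω => V (Fin.cons e ω))| ≤
        b * K * Real.exp ((B + K * C) * β e) := by
  obtain ⟨K, hK, h⟩ := pathE_bound hβ n C B hC hB
  refine ⟨K * Real.exp (K * C) + K, by positivity, fun ζ hζ i b hb H V hH hVm hV e => ?_⟩
  have h3 := hβ.nonneg e
  have h4 := h ζ hζ i (C * (1 + β e)) (b * Real.exp (B * β e)) (by positivity) (by positivity)
    _ _ (TDerA_meas_cons hH.meas e) (TDerA_meas_cons hVm e)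
    (fun ω => by
      have h1 := hH.bound (Fin.cons e ω)
      rw [TDerA_sum_cons] at h1
      exact h1.trans (le_of_eq (by ring)))
    (fun ω => by
      have h1 := hV (Fin.cons e ω)
      rw [TDerA_sum_cons, mul_add, Real.exp_add] at h1
      exact h1.trans (le_of_eq (by ring)))
  refine h4.trans ?_
  have e1 : b * Real.exp (B * β e) * (K * Real.exp (K * (C * (1 + β e)))) =
      b * (K * Real.exp (K * C)) * Real.exp ((B + K * C) * β e) := by
    have : K * (C * (1 + β e)) = K * C + K * C * β e := by ring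
    rw [this, add_mul, Real.exp_add, Real.exp_add]
    ring
  rw [e1]
  have h5 : 1 ≤ Real.exp (K * C) := Real.one_le_exp (by positivity)
  have h6 : K ≤ K * Real.exp (K * C) := le_mul_of_one_le_right hK h5
  gcongr
  · linarith
  · linarith

theorem TDerA_int_exp (hβ : Dom m β) (a c : ℝ) :
    Integrable (fun e => Real.exp (a + c * β e)) m := by
  have := (hβ.int c).const_mul (Real.exp a)
  refine this.congr (Filter.Eventually.of_forall fun e => ?_)
  simp only
  rw [← Real.exp_add]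

/-- Derivative of the nested functional along a C¹ family.  PROOF: induction on `n` (all families, all
constants): for fixed first coordinate `e` the family `H s (cons e ·)` satisfies the hypotheses with the
constant `C exp (C β e) + C (1 + β e)`, its derivative is `pathE (H u (cons e ·)) (V u (cons e ·))`, bounded
by `K exp (K β e)` uniformly in `u` (`pathE_bound`); then `hasDerivAt_integral_of_dominated_loc_of_deriv_le` for
`∫ exp (ζ nest)`, chain rule, `wgt_eq`. -/
theorem nest_hasDerivAt' (hβ : Dom m β) (hζ : Exps ζ) (n i : ℕ) {H V : ℝ → (Fin n → E) → ℝ}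
    {C c d t : ℝ} (hC : 0 ≤ C) (ht : t ∈ Set.Ioo c d) (hH : ∀ u ∈ Set.Ioo c d, HamC C β (H u))
    (hV : ∀ u ∈ Set.Ioo c d, TameC C β (V u))
    (hd : ∀ u ∈ Set.Ioo c d, ∀ ω, HasDerivAt (fun s => H s ω) (V u ω) u) :
    HasDerivAt (fun s => nest m ζ n i (H s)) (pathE m ζ n i (H t) (V t)) t := by
  induction n generalizing i C t with
  | zero => exact hd t ht _
  | succ n ih =>
    set g : ℝ → E → ℝ := fun s e => nest m ζ n (i + 1) (fun ω => H s (Fin.cons e ω)) with hg
    set v : ℝ → E → ℝ := fun s e => pathE m ζ n (i + 1) (fun ω => H s (Fin.cons e ω))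
      (fun ω => V s (Fin.cons e ω)) with hv
    have hgd : ∀ e, ∀ u ∈ Set.Ioo c d, HasDerivAt (fun s => g s e) (v u e) u := by
      intro e u hu
      obtain ⟨k0, k1, k2⟩ := TDerA_const hβ hC e
      exact ih (i + 1) (H := fun s ω => H s (Fin.cons e ω)) (V := fun s ω => V s (Fin.cons e ω))
        k0 hu (fun u hu => TDerA_hamC_cons hβ hC (hH u hu) e k1)
        (fun u hu => TDerA_tameC_cons hβ hC (hV u hu) e k2) (fun u hu ω => hd u hu _)
    obtain ⟨K1, hK1, hb1⟩ := TDerA_g_bound (m := m) (β := β) hβ n hC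
    obtain ⟨K2, hK2, hb2⟩ := TDerA_v_bound (m := m) (β := β) hβ n hC hC
    have hgb : ∀ u ∈ Set.Ioo c d, ∀ e, |g u e| ≤ C * (1 + β e) + K1 :=
      fun u hu e => hb1 ζ hζ (i + 1) (H u) (hH u hu) e
    have hvb : ∀ u ∈ Set.Ioo c d, ∀ e, |v u e| ≤ C * K2 * Real.exp ((C + K2 * C) * β e) :=
      fun u hu e => hb2 ζ hζ (i + 1) C hC (H u) (V u) (hH u hu) (hV u hu).meas (hV u hu).bound e
    have hgm : ∀ u ∈ Set.Ioo c d, Measurable (g u) := fun u hu =>
      measurable_nest m ζ n (i + 1) (TDerA_uncurry_cons (hH u hu).meas)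
    have hvm : ∀ u ∈ Set.Ioo c d, Measurable (v u) := fun u hu =>
      measurable_pathE m ζ n (i + 1) (TDerA_uncurry_cons (hH u hu).meas)
        (TDerA_uncurry_cons (hV u hu).meas)
    have hnhds : Set.Ioo c d ∈ nhds t := Ioo_mem_nhds ht.1 ht.2
    have hvint : Integrable (fun e => C * K2 * Real.exp ((C + K2 * C) * β e)) m :=
      (hβ.int _).const_mul _
    have hpath : pathE m ζ (n + 1) i (H t) (V t) = ∫ e, wgt m ζ n i (H t) e * v t e ∂m := rfl
    rw [hpath]
    by_cases h0 : ζ i = 0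
    · have e1 : ∀ s, nest m ζ (n + 1) i (H s) = ∫ e, g s e ∂m := by
        intro s
        show TT m (ζ i) (g s) = _
        unfold TT
        rw [if_pos h0]
      have e2 : ∀ e, wgt m ζ n i (H t) e = 1 := by
        intro e
        unfold wgt
        rw [h0, zero_mul, Real.exp_zero]
      simp only [e1, e2, one_mul]
      refine (hasDerivAt_integral_of_dominated_loc_of_deriv_le (F := g) (F' := v)
        (bound := fun e => C * K2 * Real.exp ((C + K2 * C) * β e)) hnhds ?_ ?_
        (hvm t ht).aestronglyMeasurable ?_ hvint ?_).2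
      · exact Filter.eventually_of_mem hnhds fun u hu => (hgm u hu).aestronglyMeasurable
      · refine Integrable.mono' (g := fun e => Real.exp (K1 + C + C * β e)) (TDerA_int_exp hβ _ _)
          (hgm t ht).aestronglyMeasurable (Filter.Eventually.of_forall fun e => ?_)
        rw [Real.norm_eq_abs]
        refine (hgb t ht e).trans ?_
        have := Real.add_one_le_exp (K1 + C + C * β e)
        linarith
      · exact Filter.Eventually.of_forall fun e u hu => by
          rw [Real.norm_eq_abs]; exact hvb u hu e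
      · exact Filter.Eventually.of_forall fun e u hu => hgd e u hu
    · have hζ0 := (hζ i).1
      have hζ1 := (hζ i).2
      have e1 : ∀ s, nest m ζ (n + 1) i (H s) = (ζ i)⁻¹ * Real.log (∫ e, Real.exp (ζ i * g s e) ∂m) := by
        intro s
        show TT m (ζ i) (g s) = _
        unfold TT
        rw [if_neg h0]
      have hexpb : ∀ u ∈ Set.Ioo c d, ∀ e, Real.exp (ζ i * g u e) ≤ Real.exp (C + K1 + C * β e) := by
        intro u hu e
        apply Real.exp_le_exp.2
        calc ζ i * g u e ≤ ζ i * |g u e| := by gcongr; exact le_abs_self _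
          _ ≤ 1 * |g u e| := by gcongr
          _ ≤ C * (1 + β e) + K1 := by rw [one_mul]; exact hgb u hu e
          _ = _ := by ring
      have hint : Integrable (fun e => Real.exp (ζ i * g t e)) m := by
        refine Integrable.mono' (TDerA_int_exp hβ (C + K1) C)
          ((Real.measurable_exp.comp ((hgm t ht).const_mul _)).aestronglyMeasurable)
          (Filter.Eventually.of_forall fun e => ?_)
        rw [Real.norm_eq_abs, abs_of_pos (Real.exp_pos _)]
        exact hexpb t ht e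
      have hder := (hasDerivAt_integral_of_dominated_loc_of_deriv_le (μ := m) (x₀ := t)
        (F := fun s e => Real.exp (ζ i * g s e))
        (F' := fun s e => Real.exp (ζ i * g s e) * (ζ i * v s e))
        (bound := fun e => (C * K2 * Real.exp (C + K1)) * Real.exp ((C + K2 * C + C) * β e)) hnhds
        ?_ hint ?_ ?_ ((hβ.int _).const_mul _) ?_).2
      · have hpos : 0 < ∫ e, Real.exp (ζ i * g t e) ∂m := integral_exp_pos hint
        have h5 := (hder.log hpos.ne').const_mul (ζ i)⁻¹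
        simp only [e1]
        refine h5.congr_deriv ?_
        have e3 : ∀ e, wgt m ζ n i (H t) e * v t e =
            (∫ e, Real.exp (ζ i * g t e) ∂m)⁻¹ * (Real.exp (ζ i * g t e) * v t e) := by
          intro e
          rw [wgt_eq hβ hζ n i ((hH t ht).ham hC) e]
          show Real.exp (ζ i * g t e) / (∫ e, Real.exp (ζ i * g t e) ∂m) * v t e = _
          rw [div_mul_eq_mul_div, div_eq_inv_mul]
        simp only [e3]
        rw [integral_const_mul]
        have e4 : (∫ e, Real.exp (ζ i * g t e) * (ζ i * v t e) ∂m) =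
            ζ i * ∫ e, Real.exp (ζ i * g t e) * v t e ∂m := by
          rw [← integral_const_mul]
          congr 1
          funext e
          ring
        rw [e4]
        field_simp
      · exact Filter.eventually_of_mem hnhds fun u hu =>
          (Real.measurable_exp.comp ((hgm u hu).const_mul _)).aestronglyMeasurable
      · exact ((Real.measurable_exp.comp ((hgm t ht).const_mul _)).mul
          ((hvm t ht).const_mul _)).aestronglyMeasurable
      · refine Filter.Eventually.of_forall fun e u hu => ?_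
        rw [Real.norm_eq_abs, abs_mul, abs_of_pos (Real.exp_pos _), abs_mul, abs_of_nonneg hζ0]
        calc Real.exp (ζ i * g u e) * (ζ i * |v u e|) ≤
            Real.exp (C + K1 + C * β e) * (1 * (C * K2 * Real.exp ((C + K2 * C) * β e))) :=
              mul_le_mul (hexpb u hu e) (mul_le_mul hζ1 (hvb u hu e) (abs_nonneg _) zero_le_one)
                (by positivity) (Real.exp_pos _).le
          _ = _ := by
              rw [add_mul (C + K2 * C) C, Real.exp_add ((C + K2 * C) * β e), Real.exp_add (C + K1)]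
              ring
      · refine Filter.Eventually.of_forall fun e u hu => ?_
        exact ((hgd e u hu).const_mul (ζ i)).exp

theorem TDerA_condE_cons (r n i : ℕ) (H Φ : (Fin (n + 1) → E) → ℝ) (e : E) (ω : Fin n → E) :
    condE m ζ (r + 1) (n + 1) i H Φ (Fin.cons e ω) =
      condE m ζ r n (i + 1) (fun ω' => H (Fin.cons e ω')) (fun ω' => Φ (Fin.cons e ω')) ω := by
  show condE m ζ r n (i + 1) (fun ω' => H (Fin.cons ((Fin.cons e ω : Fin (n + 1) → E) 0) ω'))
    (fun ω' => Φ (Fin.cons ((Fin.cons e ω : Fin (n + 1) → E) 0) ω'))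
    (Fin.tail (Fin.cons e ω : Fin (n + 1) → E)) = _
  rw [Fin.tail_cons]
  rfl

theorem TDerA_score_cons (n i : ℕ) (H V : (Fin (n + 1) → E) → ℝ) (e : E) (ω : Fin n → E) :
    score m ζ (n + 1) i H V (Fin.cons e ω) =
      ζ i * (pathE m ζ n (i + 1) (fun ω => H (Fin.cons e ω)) (fun ω => V (Fin.cons e ω)) -
        pathE m ζ (n + 1) i H V) +
      score m ζ n (i + 1) (fun ω => H (Fin.cons e ω)) (fun ω => V (Fin.cons e ω)) ω := by
  unfold score
  rw [Finset.sum_range_succ', add_comm]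
  have h1 : ∀ j, ζ (i + (j + 1)) * (condE m ζ (j + 1 + 1) (n + 1) i H V (Fin.cons e ω) -
      condE m ζ (j + 1) (n + 1) i H V (Fin.cons e ω)) =
      ζ (i + 1 + j) * (condE m ζ (j + 1) n (i + 1) (fun ω => H (Fin.cons e ω))
        (fun ω => V (Fin.cons e ω)) ω -
        condE m ζ j n (i + 1) (fun ω => H (Fin.cons e ω)) (fun ω => V (Fin.cons e ω)) ω) := by
    intro j
    rw [TDerA_condE_cons, TDerA_condE_cons]
    have : i + (j + 1) = i + 1 + j := by omega
    rw [this]
  simp only [h1]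
  rw [TDerA_condE_cons]
  rfl

theorem TDerA_tameC_add (hβ : Dom m β) {n : ℕ} {A B : ℝ} (hA : 0 ≤ A) (hB : 0 ≤ B)
    {Φ Ψ : (Fin n → E) → ℝ} (h : TameC A β Φ) (h' : TameC B β Ψ) :
    TameC (A + B) β (fun ω => Φ ω + Ψ ω) := by
  refine ⟨h.meas.add h'.meas, fun ω => ?_⟩
  have h2 := TDerA_sum_nonneg hβ ω
  calc |Φ ω + Ψ ω| ≤ |Φ ω| + |Ψ ω| := abs_add_le _ _
    _ ≤ A * Real.exp (A * ∑ i, β (ω i)) + B * Real.exp (B * ∑ i, β (ω i)) :=
        add_le_add (h.bound ω) (h'.bound ω)
    _ ≤ A * Real.exp ((A + B) * ∑ i, β (ω i)) + B * Real.exp ((A + B) * ∑ i, β (ω i)) := by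
        gcongr <;> linarith
    _ = _ := by ring

theorem TDerA_tameC_mul (hβ : Dom m β) {n : ℕ} {A B : ℝ} (hA : 0 ≤ A) (hB : 0 ≤ B)
    {Φ Ψ : (Fin n → E) → ℝ} (h : TameC A β Φ) (h' : TameC B β Ψ) :
    TameC (A * B + A + B) β (fun ω => Φ ω * Ψ ω) := by
  refine ⟨h.meas.mul h'.meas, fun ω => ?_⟩
  have h2 := TDerA_sum_nonneg hβ ω
  have h3 : 0 ≤ A * B := mul_nonneg hA hB
  rw [abs_mul]
  calc |Φ ω| * |Ψ ω| ≤ (A * Real.exp (A * ∑ i, β (ω i))) * (B * Real.exp (B * ∑ i, β (ω i))) :=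
        mul_le_mul (h.bound ω) (h'.bound ω) (abs_nonneg _) (by positivity)
    _ = A * B * Real.exp ((A + B) * ∑ i, β (ω i)) := by
        rw [add_mul A B, Real.exp_add]; ring
    _ ≤ (A * B + A + B) * Real.exp ((A * B + A + B) * ∑ i, β (ω i)) := by
        gcongr <;> linarith

theorem TDerA_score_tameC (hβ : Dom m β) (n : ℕ) {C : ℝ} (hC : 0 ≤ C) :
    ∃ K : ℝ, 0 ≤ K ∧ ∀ (ζ : ℕ → ℝ), Exps ζ → ∀ (i : ℕ) (H V : (Fin n → E) → ℝ),
      HamC C β H → TameC C β V → TameC K β (score m ζ n i H V) := by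
  obtain ⟨K, hK, h⟩ := condE_tameC (m := m) hβ n C hC
  refine ⟨n * (2 * K) + K, by positivity, fun ζ hζ i H V hH hV => ⟨?_, fun ω => ?_⟩⟩
  · unfold score
    refine Finset.measurable_sum _ fun j _ => ?_
    exact ((h ζ hζ (j + 1) i H V hH hV).meas.sub (h ζ hζ j i H V hH hV).meas).const_mul _
  · have h2 := TDerA_sum_nonneg hβ ω
    unfold score
    calc |∑ j ∈ Finset.range n, ζ (i + j) * (condE m ζ (j + 1) n i H V ω - condE m ζ j n i H V ω)|
        ≤ ∑ j ∈ Finset.range n,
          |ζ (i + j) * (condE m ζ (j + 1) n i H V ω - condE m ζ j n i H V ω)| :=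
          Finset.abs_sum_le_sum_abs _ _
      _ ≤ ∑ _j ∈ Finset.range n, 2 * K * Real.exp (K * ∑ i, β (ω i)) := by
          refine Finset.sum_le_sum fun j _ => ?_
          rw [abs_mul, abs_of_nonneg (hζ (i + j)).1]
          have h4 := (h ζ hζ (j + 1) i H V hH hV).bound ω
          have h5 := (h ζ hζ j i H V hH hV).bound ω
          calc ζ (i + j) * |condE m ζ (j + 1) n i H V ω - condE m ζ j n i H V ω|
              ≤ 1 * |condE m ζ (j + 1) n i H V ω - condE m ζ j n i H V ω| :=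
                mul_le_mul_of_nonneg_right (hζ (i + j)).2 (abs_nonneg _)
            _ ≤ |condE m ζ (j + 1) n i H V ω| + |condE m ζ j n i H V ω| := by
                rw [one_mul]; exact abs_sub _ _
            _ ≤ _ := by linarith
      _ = n * (2 * K) * Real.exp (K * ∑ i, β (ω i)) := by
          rw [Finset.sum_const, Finset.card_range, nsmul_eq_mul]; ring
      _ ≤ (n * (2 * K) + K) * Real.exp ((n * (2 * K) + K) * ∑ i, β (ω i)) := by
          have : (0 : ℝ) ≤ n * (2 * K) := by positivity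
          gcongr <;> linarith

/-- (DER1) for C¹ families.  PROOF: induction on `n`: derivative of
`∫ wgt · pathE` = tilted mean of the inner derivative + `ζ_i` times the tilted covariance of
`pathE (Φ)` and `pathE (V)` (inner), and
`score (cons e ω) = ζ_i (pathE(inner V) - pathE(V)) + score_inner`. -/
theorem pathE_hasDerivAt' (hβ : Dom m β) (hζ : Exps ζ) (n i : ℕ)
    {H V Φ Φ' : ℝ → (Fin n → E) → ℝ} {C c d t : ℝ} (hC : 0 ≤ C) (ht : t ∈ Set.Ioo c d)
    (hH : ∀ u ∈ Set.Ioo c d, HamC C β (H u)) (hV : ∀ u ∈ Set.Ioo c d, TameC C β (V u))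
    (hΦ : ∀ u ∈ Set.Ioo c d, TameC C β (Φ u)) (hΦ' : ∀ u ∈ Set.Ioo c d, TameC C β (Φ' u))
    (hd : ∀ u ∈ Set.Ioo c d, ∀ ω, HasDerivAt (fun s => H s ω) (V u ω) u)
    (hd' : ∀ u ∈ Set.Ioo c d, ∀ ω, HasDerivAt (fun s => Φ s ω) (Φ' u ω) u) :
    HasDerivAt (fun s => pathE m ζ n i (H s) (Φ s))
      (pathE m ζ n i (H t) (Φ' t) +
        pathE m ζ n i (H t) (fun ω => Φ t ω * score m ζ n i (H t) (V t) ω)) t := by
  induction n generalizing i C t with
  | zero =>
    have h := hd' t ht Fin.elim0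
    have e1 : pathE m ζ 0 i (H t) (fun ω => Φ t ω * score m ζ 0 i (H t) (V t) ω) = 0 := by
      show Φ t Fin.elim0 * score m ζ 0 i (H t) (V t) Fin.elim0 = 0
      unfold score
      rw [Finset.sum_range_zero, mul_zero]
    rw [e1, add_zero]
    exact h
  | succ n ih =>
    have hζ0 := (hζ i).1
    have hζ1 := (hζ i).2
    set g : ℝ → E → ℝ := fun s e => nest m ζ n (i + 1) (fun ω => H s (Fin.cons e ω)) with hg
    set v : ℝ → E → ℝ := fun s e => pathE m ζ n (i + 1) (fun ω => H s (Fin.cons e ω))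
      (fun ω => V s (Fin.cons e ω)) with hv
    set φ : ℝ → E → ℝ := fun s e => pathE m ζ n (i + 1) (fun ω => H s (Fin.cons e ω))
      (fun ω => Φ s (Fin.cons e ω)) with hφ
    set Ψ : ℝ → (Fin (n + 1) → E) → ℝ := fun s ω =>
      Φ' s ω + Φ s ω * score m ζ (n + 1) i (H s) (V s) ω with hΨ
    obtain ⟨K0, hK0, hsc⟩ := TDerA_score_tameC (m := m) hβ (n + 1) hC
    have hst : ∀ u ∈ Set.Ioo c d, TameC K0 β (score m ζ (n + 1) i (H u) (V u)) := fun u hu =>
      hsc ζ hζ i (H u) (V u) (hH u hu) (hV u hu)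
    have hPst : ∀ u ∈ Set.Ioo c d,
        TameC (C * K0 + C + K0) β (fun ω => Φ u ω * score m ζ (n + 1) i (H u) (V u) ω) :=
      fun u hu => TDerA_tameC_mul hβ hC hK0 (hΦ u hu) (hst u hu)
    set B : ℝ := C + (C * K0 + C + K0) with hBdef
    have hCK : 0 ≤ C * K0 + C + K0 := by positivity
    have hB : 0 ≤ B := by positivity
    have hΨt : ∀ u ∈ Set.Ioo c d, TameC B β (Ψ u) := fun u hu =>
      TDerA_tameC_add hβ hC hCK (hΦ' u hu) (hPst u hu)
    obtain ⟨K1, hK1, hb1⟩ := TDerA_g_bound (m := m) (β := β) hβ n hC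
    obtain ⟨K2, hK2, hb2⟩ := TDerA_v_bound (m := m) (β := β) hβ n hC hB
    obtain ⟨K3, hK3, hb3⟩ := nest_bound (m := m) hβ (n + 1) C hC
    have hwd : ∀ e, ∀ u ∈ Set.Ioo c d, HasDerivAt (fun s => wgt m ζ n i (H s) e)
        (wgt m ζ n i (H u) e * (ζ i * (v u e - pathE m ζ (n + 1) i (H u) (V u)))) u := by
      intro e u hu
      obtain ⟨k0, k1, k2⟩ := TDerA_const hβ hC e
      have h1 : HasDerivAt (fun s => g s e) (v u e) u :=
        nest_hasDerivAt' hβ hζ n (i + 1) (H := fun s ω => H s (Fin.cons e ω))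
          (V := fun s ω => V s (Fin.cons e ω)) k0 hu
          (fun u hu => TDerA_hamC_cons hβ hC (hH u hu) e k1)
          (fun u hu => TDerA_tameC_cons hβ hC (hV u hu) e k2) (fun u hu ω => hd u hu _)
      have h2 := nest_hasDerivAt' hβ hζ (n + 1) i hC hu hH hV hd
      exact ((h1.sub h2).const_mul (ζ i)).exp
    have hFd : ∀ e, ∀ u ∈ Set.Ioo c d, HasDerivAt (fun s => wgt m ζ n i (H s) e * φ s e)
        (wgt m ζ n i (H u) e * pathE m ζ n (i + 1) (fun ω => H u (Fin.cons e ω))
          (fun ω => Ψ u (Fin.cons e ω))) u := by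
      intro e u hu
      obtain ⟨k0, k1, k2⟩ := TDerA_const hβ hC e
      have hHc : ∀ u ∈ Set.Ioo c d, HamC _ β (fun ω => H u (Fin.cons e ω)) :=
        fun u hu => TDerA_hamC_cons hβ hC (hH u hu) e k1
      have hVc : ∀ u ∈ Set.Ioo c d, TameC _ β (fun ω => V u (Fin.cons e ω)) :=
        fun u hu => TDerA_tameC_cons hβ hC (hV u hu) e k2
      have hΦc : ∀ u ∈ Set.Ioo c d, TameC _ β (fun ω => Φ u (Fin.cons e ω)) :=
        fun u hu => TDerA_tameC_cons hβ hC (hΦ u hu) e k2
      have hΦ'c : ∀ u ∈ Set.Ioo c d, TameC _ β (fun ω => Φ' u (Fin.cons e ω)) :=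
        fun u hu => TDerA_tameC_cons hβ hC (hΦ' u hu) e k2
      have h1 : HasDerivAt (fun s => φ s e) _ u :=
        ih (i + 1) (H := fun s ω => H s (Fin.cons e ω)) (V := fun s ω => V s (Fin.cons e ω))
          (Φ := fun s ω => Φ s (Fin.cons e ω)) (Φ' := fun s ω => Φ' s (Fin.cons e ω)) k0 hu
          hHc hVc hΦc hΦ'c (fun u hu ω => hd u hu _) (fun u hu ω => hd' u hu _)
      refine ((hwd e u hu).mul h1).congr_deriv ?_
      have hHh : Ham β (fun ω => H u (Fin.cons e ω)) := (hHc u hu).ham k0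
      have hVt : Tame β (fun ω => V u (Fin.cons e ω)) := (hVc u hu).tame k0
      have hΦt : Tame β (fun ω => Φ u (Fin.cons e ω)) := (hΦc u hu).tame k0
      have hΦ't : Tame β (fun ω => Φ' u (Fin.cons e ω)) := (hΦ'c u hu).tame k0
      obtain ⟨K4, hK4, hs4⟩ := TDerA_score_tameC (m := m) hβ n k0
      have hst' : Tame β (score m ζ n (i + 1) (fun ω => H u (Fin.cons e ω))
          (fun ω => V u (Fin.cons e ω))) :=
        (hs4 ζ hζ (i + 1) _ _ (hHc u hu) (hVc u hu)).tame hK4
      have e1 : pathE m ζ n (i + 1) (fun ω => H u (Fin.cons e ω)) (fun ω => Ψ u (Fin.cons e ω)) =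
          pathE m ζ n (i + 1) (fun ω => H u (Fin.cons e ω)) (fun ω => Φ' u (Fin.cons e ω)) +
          (ζ i * (v u e - pathE m ζ (n + 1) i (H u) (V u)) * φ u e +
          pathE m ζ n (i + 1) (fun ω => H u (Fin.cons e ω)) (fun ω => Φ u (Fin.cons e ω) *
            score m ζ n (i + 1) (fun ω => H u (Fin.cons e ω)) (fun ω => V u (Fin.cons e ω)) ω)) := by
        have e2 : (fun ω : Fin n → E => Ψ u (Fin.cons e ω)) = fun ω => Φ' u (Fin.cons e ω) +
            (ζ i * (v u e - pathE m ζ (n + 1) i (H u) (V u)) * Φ u (Fin.cons e ω) +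
              Φ u (Fin.cons e ω) * score m ζ n (i + 1) (fun ω => H u (Fin.cons e ω))
                (fun ω => V u (Fin.cons e ω)) ω) := by
          funext ω
          simp only [hΨ]
          rw [TDerA_score_cons]
          ring
        rw [e2, pathE_add hβ hζ n (i + 1) hHh hΦ't
          (((Tame.const hβ _).mul hβ hΦt).add hβ (hΦt.mul hβ hst')),
          pathE_add hβ hζ n (i + 1) hHh ((Tame.const hβ _).mul hβ hΦt) (hΦt.mul hβ hst'),
          pathE_mul]
      rw [e1]
      ring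
    have hnhds : Set.Ioo c d ∈ nhds t := Ioo_mem_nhds ht.1 ht.2
    have hfin := (hasDerivAt_integral_of_dominated_loc_of_deriv_le (μ := m) (x₀ := t)
      (F := fun s e => wgt m ζ n i (H s) e * φ s e)
      (F' := fun s e => wgt m ζ n i (H s) e * pathE m ζ n (i + 1) (fun ω => H s (Fin.cons e ω))
          (fun ω => Ψ s (Fin.cons e ω)))
      (bound := fun e => (Real.exp (C + K1 + (C + K3)) * (B * K2)) *
        Real.exp ((C + (B + K2 * C)) * β e)) hnhds
      (Filter.eventually_of_mem hnhds fun u hu =>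
        (integrable_wgt_pathE hβ hζ n i ((hH u hu).ham hC) ((hΦ u hu).tame hC)).aestronglyMeasurable)
      (integrable_wgt_pathE hβ hζ n i ((hH t ht).ham hC) ((hΦ t ht).tame hC))
      (integrable_wgt_pathE hβ hζ n i ((hH t ht).ham hC) ((hΨt t ht).tame hB)).aestronglyMeasurable
      ?_ ((hβ.int _).const_mul _)
      (Filter.Eventually.of_forall fun e u hu => hFd e u hu)).2
    · have e3 : pathE m ζ (n + 1) i (H t) (Φ' t) +
          pathE m ζ (n + 1) i (H t) (fun ω => Φ t ω * score m ζ (n + 1) i (H t) (V t) ω) =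
          pathE m ζ (n + 1) i (H t) (Ψ t) :=
        (pathE_add hβ hζ (n + 1) i ((hH t ht).ham hC) ((hΦ' t ht).tame hC)
          ((hPst t ht).tame hCK)).symm
      rw [e3]
      exact hfin
    · refine Filter.Eventually.of_forall fun e u hu => ?_
      have h3 := hβ.nonneg e
      have hw : wgt m ζ n i (H u) e ≤ Real.exp (C + K1 + (C + K3) + C * β e) := by
        unfold wgt
        apply Real.exp_le_exp.2
        have h4 := hb1 ζ hζ (i + 1) (H u) (hH u hu) e
        have h5 := hb3 ζ hζ i C hC (H u) (hH u hu).meas (fun ω => by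
          refine ((hH u hu).bound ω).trans (le_of_eq (by ring)))
        set x := nest m ζ n (i + 1) fun ω => H u (Fin.cons e ω)
        set y := nest m ζ (n + 1) i (H u)
        have h6 : |x - y| ≤ |x| + |y| := abs_sub _ _
        calc ζ i * (x - y) ≤ ζ i * |x - y| := by gcongr; exact le_abs_self _
          _ ≤ 1 * |x - y| := mul_le_mul_of_nonneg_right hζ1 (abs_nonneg _)
          _ ≤ _ := by linarith
      have hp := hb2 ζ hζ (i + 1) B hB (H u) (Ψ u) (hH u hu) (hΨt u hu).meas (hΨt u hu).bound e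
      rw [Real.norm_eq_abs, abs_mul, abs_of_pos (wgt_pos m ζ n i (H u) e)]
      calc wgt m ζ n i (H u) e * |pathE m ζ n (i + 1) (fun ω => H u (Fin.cons e ω))
            (fun ω => Ψ u (Fin.cons e ω))| ≤
          Real.exp (C + K1 + (C + K3) + C * β e) * (B * K2 * Real.exp ((B + K2 * C) * β e)) :=
            mul_le_mul hw hp (abs_nonneg _) (Real.exp_pos _).le
        _ = _ := by
            rw [add_mul C (B + K2 * C), Real.exp_add (C * β e), Real.exp_add (C + K1 + (C + K3))]
            ring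

theorem TDerA_line (hβ : Dom m β) {n : ℕ} {H V : (Fin n → E) → ℝ} (hH : Ham β H) (hV : Ham β V)
    (t : ℝ) : ∃ C : ℝ, 0 ≤ C ∧
      (∀ u ∈ Set.Ioo (t - 1) (t + 1), HamC C β (fun ω => H ω + u * V ω)) ∧ TameC C β V := by
  obtain ⟨A, hA, hHb⟩ := hH.bound
  obtain ⟨B, hB, hVb⟩ := hV.bound
  obtain ⟨D, hD, hVt⟩ := (hV.tame hβ).c
  refine ⟨A + (|t| + 1) * B + D, by positivity, fun u hu => ⟨?_, fun ω => ?_⟩, ?_⟩
  · exact hH.meas.add (hV.meas.const_mul u)
  · have h2 := TDerA_sum_nonneg hβ ω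
    have hu' : |u| ≤ |t| + 1 := by
      have h3 : |u| ≤ |t| + |u - t| := by
        have := abs_add_le t (u - t)
        have e : t + (u - t) = u := by ring
        rwa [e] at this
      have h4 : |u - t| ≤ 1 := by
        rw [abs_le]
        constructor <;> linarith [hu.1, hu.2]
      linarith
    calc |H ω + u * V ω| ≤ |H ω| + |u * V ω| := abs_add_le _ _
      _ = |H ω| + |u| * |V ω| := by rw [abs_mul]
      _ ≤ A * (1 + ∑ i, β (ω i)) + (|t| + 1) * (B * (1 + ∑ i, β (ω i))) := by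
          gcongr
          · exact hHb ω
          · exact hVb ω
      _ ≤ (A + (|t| + 1) * B + D) * (1 + ∑ i, β (ω i)) := by nlinarith
  · refine TDerA_tameC_mono hβ hD hVt ?_
    have : 0 ≤ (|t| + 1) * B := by positivity
    linarith

theorem TDerA_line_deriv {n : ℕ} {H V : (Fin n → E) → ℝ} (u : ℝ) (ω : Fin n → E) :
    HasDerivAt (fun s : ℝ => H ω + s * V ω) (V ω) u := by
  have := ((hasDerivAt_id u).mul_const (V ω)).const_add (H ω)
  simpa using this

/-- First derivative of the nested functional. -/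
theorem nest_hasDerivAt (hβ : Dom m β) (hζ : Exps ζ) (n i : ℕ) {H V : (Fin n → E) → ℝ}
    (hH : Ham β H) (hV : Ham β V) (t : ℝ) :
    HasDerivAt (fun t => nest m ζ n i (fun ω => H ω + t * V ω))
      (pathE m ζ n i (fun ω => H ω + t * V ω) V) t := by
  obtain ⟨C, hC, h1, h2⟩ := TDerA_line hβ hH hV t
  exact nest_hasDerivAt' hβ hζ n i (H := fun s ω => H ω + s * V ω) (V := fun _ => V) hC
    (show t ∈ Set.Ioo (t - 1) (t + 1) from ⟨by linarith, by linarith⟩) h1 (fun _ _ => h2)
    (fun u _ ω => TDerA_line_deriv u ω)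

/-- (DER1) -/
theorem pathE_hasDerivAt (hβ : Dom m β) (hζ : Exps ζ) (n i : ℕ) {H V Φ : (Fin n → E) → ℝ}
    (hH : Ham β H) (hV : Ham β V) (hΦ : Tame β Φ) (t : ℝ) :
    HasDerivAt (fun t => pathE m ζ n i (fun ω => H ω + t * V ω) Φ)
      (pathE m ζ n i (fun ω => H ω + t * V ω)
        (fun ω => Φ ω * score m ζ n i (fun ω => H ω + t * V ω) V ω)) t := by
  obtain ⟨C, hC, h1, h2⟩ := TDerA_line hβ hH hV t
  obtain ⟨D, hD, h3⟩ := hΦ.c
  have ht : t ∈ Set.Ioo (t - 1) (t + 1) := ⟨by linarith, by linarith⟩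
  have h0 : TameC (C + D) β (fun _ : Fin n → E => (0 : ℝ)) := by
    refine ⟨measurable_const, fun ω => ?_⟩
    rw [abs_zero]
    positivity
  have h := pathE_hasDerivAt' hβ hζ n i (H := fun s ω => H ω + s * V ω) (V := fun _ => V)
    (Φ := fun _ => Φ) (Φ' := fun _ _ => 0) (C := C + D) (by positivity) ht
    (fun u hu => TDerA_hamC_mono hβ (h1 u hu) (by linarith))
    (fun _ _ => TDerA_tameC_mono hβ hC h2 (by linarith))
    (fun _ _ => TDerA_tameC_mono hβ hD h3 (by linarith)) (fun _ _ => h0)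
    (fun u _ ω => TDerA_line_deriv u ω) (fun u _ ω => hasDerivAt_const u _)
  refine h.congr_deriv ?_
  rw [pathE_const hβ hζ n i ((h1 t ht).ham hC), zero_add]

end Crest.Agent.RI
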