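import Crest.Agent.RI.FlowDefs
import Crest.Agent.RI.TDerA

/-!
# Row 164: derivative of conditional expectations along families and along a one-coordinate flow
-/

set_option autoImplicit false

namespace Crest.Agent.RI

open MeasureTheory

variable {E : Type} [MeasurableSpace E]
variable {m : Measure E} [IsProbabilityMeasure m] {ζ : ℕ → ℝ} {β : E → ℝ}
variable {φ : ℝ → E → E} {δ : E → ℝ}

theorem sAfter_zero (n i : ℕ) (H V : (Fin n → E) → ℝ) (ω : Fin n → E) :
    sAfter m ζ 0 n i H V ω = score m ζ n i H V ω := by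
  unfold sAfter score
  rw [Finset.range_eq_Ico]

theorem sAfter_succ (r n i : ℕ) (H V : (Fin (n + 1) → E) → ℝ) (ω : Fin (n + 1) → E) :
    sAfter m ζ (r + 1) (n + 1) i H V ω =
      sAfter m ζ r n (i + 1) (fun ω' => H (Fin.cons (ω 0) ω')) (fun ω' => V (Fin.cons (ω 0) ω'))
        (Fin.tail ω) := by
  unfold sAfter
  rw [← Finset.sum_Ico_add' _ r n 1]
  apply Finset.sum_congr rfl
  intro q _
  rw [TBasicB_succ, TBasicB_succ]
  have h1 : i + (q + 1) = i + 1 + q := by omega
  rw [h1]

private theorem FlowA_tame_sum (hβ : Dom m β) {n : ℕ} (s : Finset ℕ) {f : ℕ → (Fin n → E) → ℝ}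
    (hf : ∀ q ∈ s, Tame β (f q)) : Tame β (fun ω => ∑ q ∈ s, f q ω) := by
  classical
  induction s using Finset.induction_on with
  | empty => simpa using Tame.const (m := m) (n := n) hβ 0
  | insert a s ha ih =>
    have h1 := Tame.add hβ (hf a (Finset.mem_insert_self a s))
      (ih (fun q hq => hf q (Finset.mem_insert_of_mem hq)))
    have h2 : (fun ω => ∑ q ∈ insert a s, f q ω) = fun ω => f a ω + ∑ q ∈ s, f q ω := by
      funext ω
      rw [Finset.sum_insert ha]
    rw [h2]
    exact h1

theorem sAfter_tame (hβ : Dom m β) (hζ : Exps ζ) (r n i : ℕ) {H V : (Fin n → E) → ℝ}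
    (hH : Ham β H) (hV : Tame β V) : Tame β (sAfter m ζ r n i H V) := by
  have h0 : sAfter m ζ r n i H V = fun ω => ∑ q ∈ Finset.Ico r n,
      ζ (i + q) * (condE m ζ (q + 1) n i H V ω - condE m ζ q n i H V ω) := by
    funext ω; rfl
  rw [h0]
  apply FlowA_tame_sum hβ
  intro q _
  have h1 := condE_tame hβ hζ (q + 1) n i hH hV
  have h2 := condE_tame hβ hζ q n i hH hV
  have h3 := Tame.mul hβ (Tame.const hβ (ζ (i + q)))
    (Tame.add hβ h1 (Tame.mul hβ (Tame.const hβ (-1)) h2))
  have h4 : (fun ω => ζ (i + q) * (condE m ζ (q + 1) n i H V ω - condE m ζ q n i H V ω)) =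
      fun ω => ζ (i + q) * (condE m ζ (q + 1) n i H V ω + -1 * condE m ζ q n i H V ω) := by
    funext ω; ring
  rw [h4]
  exact h3

private theorem FlowA_cons_meas {n : ℕ} (e : E) :
    Measurable (fun ω : Fin n → E => (Fin.cons e ω : Fin (n + 1) → E)) := by
  refine measurable_pi_lambda _ (fun j => ?_)
  refine Fin.cases ?_ (fun k => ?_) j
  · simp
  · simp only [Fin.cons_succ]
    exact measurable_pi_apply k

private theorem FlowA_cons_sum {n : ℕ} (β : E → ℝ) (e : E) (ω : Fin n → E) :
    ∑ j, β ((Fin.cons e ω : Fin (n + 1) → E) j) = β e + ∑ j, β (ω j) := by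
  rw [Fin.sum_univ_succ]; simp

/-- the constant obtained after fixing the first coordinate. -/
private noncomputable def FlowA_K (C b : ℝ) : ℝ := C * (1 + b) + C * Real.exp (C * b) + C

private theorem FlowA_K_nonneg {C b : ℝ} (hC : 0 ≤ C) (hb : 0 ≤ b) : 0 ≤ FlowA_K C b := by
  unfold FlowA_K; positivity

private theorem FlowA_ham (hβ : Dom m β) {n : ℕ} {C b : ℝ} (hC : 0 ≤ C) {e : E} (he : β e ≤ b)
    {H : (Fin (n + 1) → E) → ℝ} (hH : HamC C β H) :
    HamC (FlowA_K C b) β (fun ω : Fin n → E => H (Fin.cons e ω)) := by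
  refine ⟨hH.meas.comp (FlowA_cons_meas e), fun ω => ?_⟩
  have hS : 0 ≤ ∑ j, β (ω j) := Finset.sum_nonneg fun j _ => hβ.nonneg _
  have hb : 0 ≤ b := (hβ.nonneg e).trans he
  have h1 := hH.bound (Fin.cons e ω)
  rw [FlowA_cons_sum] at h1
  refine h1.trans ?_
  have h2 : 1 + (β e + ∑ j, β (ω j)) ≤ (1 + b) * (1 + ∑ j, β (ω j)) := by nlinarith
  calc C * (1 + (β e + ∑ j, β (ω j))) ≤ C * ((1 + b) * (1 + ∑ j, β (ω j))) :=
        mul_le_mul_of_nonneg_left h2 hC
    _ = (C * (1 + b)) * (1 + ∑ j, β (ω j)) := by ring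
    _ ≤ FlowA_K C b * (1 + ∑ j, β (ω j)) := by
        apply mul_le_mul_of_nonneg_right _ (by linarith)
        unfold FlowA_K
        have : 0 ≤ C * Real.exp (C * b) := by positivity
        linarith

private theorem FlowA_tame (hβ : Dom m β) {n : ℕ} {C b : ℝ} (hC : 0 ≤ C) {e : E} (he : β e ≤ b)
    {H : (Fin (n + 1) → E) → ℝ} (hH : TameC C β H) :
    TameC (FlowA_K C b) β (fun ω : Fin n → E => H (Fin.cons e ω)) := by
  refine ⟨hH.meas.comp (FlowA_cons_meas e), fun ω => ?_⟩
  have hS : 0 ≤ ∑ j, β (ω j) := Finset.sum_nonneg fun j _ => hβ.nonneg _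
  have hb : 0 ≤ b := (hβ.nonneg e).trans he
  have h1 := hH.bound (Fin.cons e ω)
  rw [FlowA_cons_sum] at h1
  refine h1.trans ?_
  rw [mul_add, Real.exp_add, ← mul_assoc]
  have h2 : C * Real.exp (C * β e) ≤ FlowA_K C b := by
    have h3 : Real.exp (C * β e) ≤ Real.exp (C * b) :=
      Real.exp_le_exp.2 (mul_le_mul_of_nonneg_left he hC)
    have h4 := mul_le_mul_of_nonneg_left h3 hC
    have h5 : 0 ≤ C * (1 + b) := by positivity
    unfold FlowA_K
    linarith
  have h6 : C ≤ FlowA_K C b := by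
    have h5 : 0 ≤ C * (1 + b) := by positivity
    have h7 : 0 ≤ C * Real.exp (C * b) := by positivity
    unfold FlowA_K
    linarith
  exact mul_le_mul h2 (Real.exp_le_exp.2 (mul_le_mul_of_nonneg_right h6 hS)) (Real.exp_pos _).le
    (FlowA_K_nonneg hC hb)

private theorem FlowA_condE_zero (n i : ℕ) (H Φ : (Fin n → E) → ℝ) (ω : Fin n → E) :
    condE m ζ 0 n i H Φ ω = pathE m ζ n i H Φ := by
  cases n <;> rfl

/-- Conditional (DER1) for C¹ families.  PROOF: induction on `r` (all `n, i`, families, constants):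
`r = 0` is `pathE_hasDerivAt'` + `sAfter_zero`; `r+1, 0` trivial (`Ico` empty, `hd'`); `r+1, n+1`: fix the
first coordinate `e = ω 0`, the restricted families satisfy the hypotheses with a larger constant
(depending on `β e`), use `sAfter_succ`. -/
theorem condE_hasDerivAt' (hβ : Dom m β) (hζ : Exps ζ) (r n i : ℕ)
    {H V Φ Φ' : ℝ → (Fin n → E) → ℝ} {C c d t : ℝ} (hC : 0 ≤ C) (ht : t ∈ Set.Ioo c d)
    (hH : ∀ u ∈ Set.Ioo c d, HamC C β (H u)) (hV : ∀ u ∈ Set.Ioo c d, TameC C β (V u))
    (hΦ : ∀ u ∈ Set.Ioo c d, TameC C β (Φ u)) (hΦ' : ∀ u ∈ Set.Ioo c d, TameC C β (Φ' u))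
    (hd : ∀ u ∈ Set.Ioo c d, ∀ ω, HasDerivAt (fun s => H s ω) (V u ω) u)
    (hd' : ∀ u ∈ Set.Ioo c d, ∀ ω, HasDerivAt (fun s => Φ s ω) (Φ' u ω) u) (ω : Fin n → E) :
    HasDerivAt (fun s => condE m ζ r n i (H s) (Φ s) ω)
      (condE m ζ r n i (H t) (fun ω => Φ' t ω + Φ t ω * sAfter m ζ r n i (H t) (V t) ω) ω) t := by
  induction r generalizing n i C with
  | zero =>
    have h1 := pathE_hasDerivAt' hβ hζ n i hC ht hH hV hΦ hΦ' hd hd'
    have hHt := (hH t ht).ham hC
    have hVt := (hV t ht).tame hC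
    have hΦt := (hΦ t ht).tame hC
    have hΦt' := (hΦ' t ht).tame hC
    have hs : sAfter m ζ 0 n i (H t) (V t) = score m ζ n i (H t) (V t) := by
      funext ω; exact sAfter_zero n i (H t) (V t) ω
    have hst : Tame β (score m ζ n i (H t) (V t)) := by
      rw [← hs]; exact sAfter_tame hβ hζ 0 n i hHt hVt
    rw [hs, FlowA_condE_zero, pathE_add hβ hζ n i hHt hΦt' (hΦt.mul hβ hst)]
    have h2 : (fun s => condE m ζ 0 n i (H s) (Φ s) ω) = fun s => pathE m ζ n i (H s) (Φ s) := by
      funext s; exact FlowA_condE_zero n i (H s) (Φ s) ω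
    rw [h2]
    exact h1
  | succ r ih =>
    cases n with
    | zero =>
      have h1 : sAfter m ζ (r + 1) 0 i (H t) (V t) = fun _ => 0 := by
        funext ω'
        unfold sAfter
        simp
      show HasDerivAt (fun s => Φ s ω)
        (Φ' t ω + Φ t ω * sAfter m ζ (r + 1) 0 i (H t) (V t) ω) t
      rw [h1]
      simpa using hd' t ht ω
    | succ n =>
      have hb := hβ.nonneg (ω 0)
      have key := ih n (i + 1) (C := FlowA_K C (β (ω 0)))
        (H := fun s ω' => H s (Fin.cons (ω 0) ω')) (V := fun s ω' => V s (Fin.cons (ω 0) ω'))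
        (Φ := fun s ω' => Φ s (Fin.cons (ω 0) ω')) (Φ' := fun s ω' => Φ' s (Fin.cons (ω 0) ω'))
        (FlowA_K_nonneg hC hb)
        (fun u hu => FlowA_ham hβ hC le_rfl (hH u hu)) (fun u hu => FlowA_tame hβ hC le_rfl (hV u hu))
        (fun u hu => FlowA_tame hβ hC le_rfl (hΦ u hu))
        (fun u hu => FlowA_tame hβ hC le_rfl (hΦ' u hu))
        (fun u hu ω' => hd u hu _) (fun u hu ω' => hd' u hu _) (Fin.tail ω)
      have h2 : (fun ω' : Fin n → E => Φ' t (Fin.cons (ω 0) ω') + Φ t (Fin.cons (ω 0) ω') *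
          sAfter m ζ (r + 1) (n + 1) i (H t) (V t) (Fin.cons (ω 0) ω')) =
          fun ω' => Φ' t (Fin.cons (ω 0) ω') + Φ t (Fin.cons (ω 0) ω') *
            sAfter m ζ r n (i + 1) (fun ω' => H t (Fin.cons (ω 0) ω'))
              (fun ω' => V t (Fin.cons (ω 0) ω')) ω' := by
        funext ω'
        rw [sAfter_succ, Fin.cons_zero, Fin.tail_cons]
      rw [TBasicB_succ, h2]
      exact key

/-- it is enough to differentiate at time `0` -/
theorem IsD.of_zero (hφ : CFlow m β φ δ) {n : ℕ} {j : Fin n} {Φ Φ' : (Fin n → E) → ℝ}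
    (h : ∀ ω, HasDerivAt (fun s => Φ (Function.update ω j (φ s (ω j)))) (Φ' ω) 0) :
    IsD φ j Φ Φ' := by
  intro ω t
  have h1 := h (Function.update ω j (φ t (ω j)))
  have h2 : HasDerivAt (fun s => Φ (Function.update (Function.update ω j (φ t (ω j))) j
      (φ s ((Function.update ω j (φ t (ω j))) j)))) (Φ' (Function.update ω j (φ t (ω j)))) (t - t) := by
    rw [sub_self]; exact h1
  have h3 := HasDerivAt.comp_sub_const t t h2
  have h4 : (fun s => Φ (Function.update ω j (φ s (ω j)))) = fun s =>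
      Φ (Function.update (Function.update ω j (φ t (ω j))) j
        (φ (s - t) ((Function.update ω j (φ t (ω j))) j))) := by
    funext s
    rw [Function.update_self, Function.update_idem, ← hφ.add, sub_add_cancel]
  rw [h4]
  exact h3

/-- `condE r` with `r ≤ j` does not depend on coordinate `j` (`condE_congr`). -/
theorem condE_isD_zero {n : ℕ} (j : Fin n) (r i : ℕ) (hr : r ≤ (j : ℕ)) (H Φ : (Fin n → E) → ℝ) :
    IsD φ j (condE m ζ r n i H Φ) (fun _ => 0) := by
  intro ω t
  have h : (fun s => condE m ζ r n i H Φ (Function.update ω j (φ s (ω j)))) =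
      fun _ => condE m ζ r n i H Φ ω := by
    funext s
    apply condE_congr
    intro j' hj'
    apply Function.update_of_ne
    intro hjj
    rw [hjj] at hj'
    omega
  rw [h]
  exact hasDerivAt_const t _

/-- Derivative of a conditional expectation along the flow.  PROOF: induction on `r`, peeling the
first level: `j = 0`: `condE (r+1) (n+1) i H Φ (update ω 0 (φ s (ω 0)))` is `condE r n (i+1)` of the families
`H (cons (φ s e) ·)`, `Φ (cons (φ s e) ·)`, `e = ω 0`: `condE_hasDerivAt'` on the interval `(t-1,t+1)` (with growth of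
`β` along the flow: for `|s - t| < 1`, `β (φ s e) = β (φ (s-t) (φ t e)) ≤ C (1 + β (φ t e))`);
`j = j'+1`: induction hypothesis. -/
theorem condE_isD (hβ : Dom m β) (hζ : Exps ζ) (hφ : CFlow m β φ δ) {n : ℕ} (j : Fin n) (r i : ℕ)
    (hr : (j : ℕ) < r) {H V Φ Φ' : (Fin n → E) → ℝ} (hH : Ham β H) (hV : Tame β V)
    (hΦ : Tame β Φ) (hΦ' : Tame β Φ') (hHV : IsD φ j H V) (hΦΦ : IsD φ j Φ Φ') :
    IsD φ j (condE m ζ r n i H Φ)
      (condE m ζ r n i H (fun ω => Φ' ω + Φ ω * sAfter m ζ r n i H V ω)) := by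
  induction r generalizing n i with
  | zero => omega
  | succ r ih =>
    cases n with
    | zero => exact j.elim0
    | succ n =>
      have htarget : ∀ e : E, (fun ω' : Fin n → E => Φ' (Fin.cons e ω') + Φ (Fin.cons e ω') *
          sAfter m ζ (r + 1) (n + 1) i H V (Fin.cons e ω')) =
          fun ω' => Φ' (Fin.cons e ω') + Φ (Fin.cons e ω') *
            sAfter m ζ r n (i + 1) (fun ω' => H (Fin.cons e ω'))
              (fun ω' => V (Fin.cons e ω')) ω' := by
        intro e
        funext ω'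
        rw [sAfter_succ, Fin.cons_zero, Fin.tail_cons]
      revert hr hHV hΦΦ
      refine Fin.cases ?_ (fun j' => ?_) j
      · -- coordinate `0`
        intro _ hHV hΦΦ ω t
        obtain ⟨CH, hCH, hHb⟩ := hH.bound
        obtain ⟨CV, hCV, hVb⟩ := hV.bound
        obtain ⟨CΦ, hCΦ, hΦb⟩ := hΦ.bound
        obtain ⟨CΦ', hCΦ', hΦb'⟩ := hΦ'.bound
        obtain ⟨Cg, hCg, hg⟩ := hφ.growth
        set C := CH + CV + CΦ + CΦ' with hCdef
        have hC : 0 ≤ C := by positivity
        have mono : ∀ {C₁ : ℝ} {F : (Fin (n + 1) → E) → ℝ}, Measurable F → 0 ≤ C₁ → C₁ ≤ C →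
            (∀ ω, |F ω| ≤ C₁ * Real.exp (C₁ * ∑ i, β (ω i))) → TameC C β F := by
          intro C₁ F hF h0 h1 hb
          refine ⟨hF, fun ω => (hb ω).trans ?_⟩
          have hS : 0 ≤ ∑ i, β (ω i) := Finset.sum_nonneg fun _ _ => hβ.nonneg _
          exact mul_le_mul h1 (Real.exp_le_exp.2 (mul_le_mul_of_nonneg_right h1 hS))
            (Real.exp_pos _).le hC
        have hHC : HamC C β H := by
          refine ⟨hH.meas, fun ω => (hHb ω).trans ?_⟩
          have hS : 0 ≤ ∑ i, β (ω i) := Finset.sum_nonneg fun _ _ => hβ.nonneg _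
          apply mul_le_mul_of_nonneg_right _ (by linarith)
          rw [hCdef]; linarith
        have hVC : TameC C β V := mono hV.meas hCV (by rw [hCdef]; linarith) hVb
        have hΦC : TameC C β Φ := mono hΦ.meas hCΦ (by rw [hCdef]; linarith) hΦb
        have hΦC' : TameC C β Φ' := mono hΦ'.meas hCΦ' (by rw [hCdef]; linarith) hΦb'
        set b := Cg * (1 + β (φ t (ω 0))) with hbdef
        have hb0 : 0 ≤ b := by
          have := hβ.nonneg (φ t (ω 0)); positivity
        have hβu : ∀ u ∈ Set.Ioo (t - 1) (t + 1), β (φ u (ω 0)) ≤ b := by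
          intro u hu
          have h1 : φ u (ω 0) = φ (u - t) (φ t (ω 0)) := by
            rw [← hφ.add, sub_add_cancel]
          rw [h1]
          apply hg
          rw [abs_le]
          constructor <;> linarith [hu.1, hu.2]
        have hup : ∀ (ω' : Fin n → E) (s : ℝ), Function.update (Fin.cons (ω 0) ω' : Fin (n + 1) → E) 0
            (φ s ((Fin.cons (ω 0) ω' : Fin (n + 1) → E) 0)) = Fin.cons (φ s (ω 0)) ω' := by
          intro ω' s
          rw [Fin.cons_zero, Fin.update_cons_zero]
        have key := condE_hasDerivAt' (ζ := ζ) hβ hζ r n (i + 1) (C := FlowA_K C b) (c := t - 1)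
          (d := t + 1) (t := t)
          (H := fun s ω' => H (Fin.cons (φ s (ω 0)) ω')) (V := fun s ω' => V (Fin.cons (φ s (ω 0)) ω'))
          (Φ := fun s ω' => Φ (Fin.cons (φ s (ω 0)) ω'))
          (Φ' := fun s ω' => Φ' (Fin.cons (φ s (ω 0)) ω'))
          (FlowA_K_nonneg hC hb0) ⟨by linarith, by linarith⟩
          (fun u hu => FlowA_ham hβ hC (hβu u hu) hHC)
          (fun u hu => FlowA_tame hβ hC (hβu u hu) hVC)
          (fun u hu => FlowA_tame hβ hC (hβu u hu) hΦC)
          (fun u hu => FlowA_tame hβ hC (hβu u hu) hΦC')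
          (fun u hu ω' => by
            have h1 := hHV (Fin.cons (ω 0) ω') u
            simp only [hup] at h1
            exact h1)
          (fun u hu ω' => by
            have h1 := hΦΦ (Fin.cons (ω 0) ω') u
            simp only [hup] at h1
            exact h1)
          (Fin.tail ω)
        have h5 : (fun s => condE m ζ (r + 1) (n + 1) i H Φ (Function.update ω 0 (φ s (ω 0)))) =
            fun s => condE m ζ r n (i + 1) (fun ω' => H (Fin.cons (φ s (ω 0)) ω'))
              (fun ω' => Φ (Fin.cons (φ s (ω 0)) ω')) (Fin.tail ω) := by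
          funext s
          rw [TBasicB_succ, Function.update_self, Fin.tail_update_zero]
        rw [h5, TBasicB_succ, Function.update_self, Fin.tail_update_zero, htarget]
        exact key
      · -- coordinate `j' + 1`
        intro hr hHV hΦΦ ω t
        have hr' : (j' : ℕ) < r := by
          simp only [Fin.val_succ] at hr
          omega
        have hup : ∀ (ω' : Fin n → E) (s : ℝ),
            Function.update (Fin.cons (ω 0) ω' : Fin (n + 1) → E) j'.succ
            (φ s ((Fin.cons (ω 0) ω' : Fin (n + 1) → E) j'.succ)) =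
              Fin.cons (ω 0) (Function.update ω' j' (φ s (ω' j'))) := by
          intro ω' s
          rw [Fin.cons_succ, Fin.cons_update]
        have key := ih j' (i + 1) hr' (H := fun ω' => H (Fin.cons (ω 0) ω'))
          (V := fun ω' => V (Fin.cons (ω 0) ω')) (Φ := fun ω' => Φ (Fin.cons (ω 0) ω'))
          (Φ' := fun ω' => Φ' (Fin.cons (ω 0) ω'))
          (hH.cons hβ (ω 0)) (hV.cons hβ (ω 0)) (hΦ.cons hβ (ω 0)) (hΦ'.cons hβ (ω 0))
          (fun ω' u => by
            have h1 := hHV (Fin.cons (ω 0) ω') u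
            simp only [hup] at h1
            exact h1)
          (fun ω' u => by
            have h1 := hΦΦ (Fin.cons (ω 0) ω') u
            simp only [hup] at h1
            exact h1)
          (Fin.tail ω) t
        have h0 : ∀ a : E, Function.update ω j'.succ a 0 = ω 0 := fun a =>
          Function.update_of_ne (Fin.succ_ne_zero j').symm a ω
        have h5 : (fun s => condE m ζ (r + 1) (n + 1) i H Φ
            (Function.update ω j'.succ (φ s (ω j'.succ)))) =
            fun s => condE m ζ r n (i + 1) (fun ω' => H (Fin.cons (ω 0) ω'))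
              (fun ω' => Φ (Fin.cons (ω 0) ω'))
              (Function.update (Fin.tail ω) j' (φ s (Fin.tail ω j'))) := by
          funext s
          rw [TBasicB_succ, h0, Fin.tail_update_succ]
          rfl
        rw [h5, TBasicB_succ, h0, Fin.tail_update_succ, htarget]
        exact key

end Crest.Agent.RI
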