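import Crest.Agent.RI.DecA
import Crest.Agent.RI.FlowB
import Crest.Agent.RI.FlowA

/-!
# Row 164, decoupling: first derivative
-/

set_option autoImplicit false

namespace Crest.Agent.RI

open MeasureTheory ProbabilityTheory

variable {E : Type} [MeasurableSpace E] {M K k : ℕ}
variable {m : Measure E} [IsProbabilityMeasure m] {β : E → ℝ} {ζ : ℕ → ℝ}
variable {H : (Fin (k + 1) → E) → ℝ} {κ : Fin M → Fin K} {q : Fin M → (Fin (k + 1) → E) → ℝ}
variable {r : ℕ → Fin K → ℝ} {U : (Fin K → ℝ) → (Fin (k + 1) → E) → ℝ}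
variable {U1 U2 : Fin K → (Fin K → ℝ) → (Fin (k + 1) → E) → ℝ} {A B : ℝ}

/-- expectation of the interpolating tower -/
noncomputable def Eφ (m : Measure E) (ζ : ℕ → ℝ) (H : (Fin (k + 1) → E) → ℝ) (κ : Fin M → Fin K)
    (q : Fin M → (Fin (k + 1) → E) → ℝ) (r : ℕ → Fin K → ℝ)
    (U : (Fin K → ℝ) → (Fin (k + 1) → E) → ℝ) (φ : ℝ)
    (Φ : (Fin (k + 1) → E2 E M K) → ℝ) : ℝ :=
  pathE (m2 m M K) ζ (k + 1) 0 (Hz H κ q r U φ) Φ

private theorem DecB0_condE_all {E' : Type} [MeasurableSpace E'] {m' : Measure E'} (n i : ℕ)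
    (H Φ : (Fin n → E') → ℝ) (r : ℕ) (hr : n ≤ r) (ω : Fin n → E') :
    condE m' ζ r n i H Φ ω = Φ ω := by
  induction n generalizing i r with
  | zero =>
    cases r with
    | zero =>
      show Φ Fin.elim0 = Φ ω
      congr 1
      exact Subsingleton.elim _ _
    | succ r => rfl
  | succ n ih =>
    cases r with
    | zero => omega
    | succ r =>
      show condE m' ζ r n (i + 1) (fun ω' => H (Fin.cons (ω 0) ω'))
        (fun ω' => Φ (Fin.cons (ω 0) ω')) (Fin.tail ω) = Φ ω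
      rw [ih (i + 1) _ _ r (by omega), Fin.cons_self_tail]

private theorem DecB0_abel (z c : ℕ → ℝ) (i k : ℕ) (hi : i ≤ k) :
    z i * c (i + 1) + ∑ j ∈ Finset.Ico (i + 1) (k + 1), z j * (c (j + 1) - c j) =
      z k * c (k + 1) - ∑ j ∈ Finset.Ico i k, (z (j + 1) - z j) * c (j + 1) := by
  induction k, hi using Nat.le_induction with
  | base => simp
  | succ k hk ih =>
    rw [Finset.sum_Ico_succ_top (by omega), Finset.sum_Ico_succ_top hk, ← add_assoc, ih]
    ring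

/-- the score at level `i` in Abel form: `ζ_i C_{i+1} V + Σ_{q>i} ζ_q (C_{q+1}V - C_q V) = V - Σ_{q=i}^{k-1} (ζ_{q+1}-ζ_q) C_{q+1} V`
for `n = k+1` levels and `ζ_k = 1`. -/
theorem score_abel {E' : Type} [MeasurableSpace E'] {m' : Measure E'} {β' : E' → ℝ}
    (hlast : ζ k = 1) {H' V : (Fin (k + 1) → E') → ℝ} (i : ℕ) (hi : i ≤ k)
    (ω : Fin (k + 1) → E') :
    ζ (0 + i) * condE m' ζ (i + 1) (k + 1) 0 H' V ω + sAfter m' ζ (i + 1) (k + 1) 0 H' V ω =
      V ω - ∑ j ∈ Finset.Ico i k, (ζ (j + 1) - ζ j) * condE m' ζ (j + 1) (k + 1) 0 H' V ω := by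
  have h1 := DecB0_abel ζ (fun j => condE m' ζ j (k + 1) 0 H' V ω) i k hi
  have h2 : condE m' ζ (k + 1) (k + 1) 0 H' V ω = V ω :=
    DecB0_condE_all (k + 1) 0 H' V (k + 1) le_rfl ω
  unfold sAfter
  simp only [zero_add] at h1 ⊢
  rw [h1, hlast, one_mul, h2]

private theorem DecB0_V_tame (h : DecH m β ζ k H κ q r U U1 U2 A B) :
    ∃ C : ℝ, 0 ≤ C ∧ ∀ φ : ℝ, TameC C (β2 (M := M) (K := K) β)
      (fun ω : Fin (k + 1) → E2 E M K => ∑ l, U1 l (zz κ q r φ ω) (bp ω) *
        (Real.cos φ * z1 κ q ω l - Real.sin φ * z2 r ω l)) := by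
  obtain ⟨D, hD, hb⟩ := DecA_zz_bound h
  have h1 := fun l => (ham_z1 (M := M) (K := K) (κ := κ) h.dom h.qm h.qb l).bound
  have h2 := fun l => (ham_z2 (M := M) (K := K) (k := k) (r := r) h.dom l).bound
  choose C1 hC1 hb1 using h1
  choose C2 hC2 hb2 using h2
  have hB := h.B0
  have hT : 0 ≤ ∑ l, B * D * (C1 l + C2 l) :=
    Finset.sum_nonneg fun l _ => mul_nonneg (mul_nonneg hB (by linarith))
      (add_nonneg (hC1 l) (hC2 l))
  refine ⟨∑ l, B * D * (C1 l + C2 l) + 2, by linarith, fun φ => ⟨?_, fun ω => ?_⟩⟩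
  · refine Finset.measurable_sum _ fun l _ => ?_
    exact ((h.U1m l).comp ((DecA_measurable_zz h.qm φ).prodMk DecA_measurable_bp)).mul
      (((measurable_z1 h.qm l).const_mul _).sub ((measurable_z2 l).const_mul _))
  · have hS := DecA_sum_nonneg (M := M) (K := K) h.dom ω
    set S := ∑ j, β2 β (ω j) with hSd
    have h3 : ∀ l, |U1 l (zz κ q r φ ω) (bp ω) *
        (Real.cos φ * z1 κ q ω l - Real.sin φ * z2 r ω l)| ≤
        B * D * (C1 l + C2 l) * (1 + S) ^ 2 := by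
      intro l
      have e1 : |Real.cos φ * z1 κ q ω l| ≤ |z1 κ q ω l| := by
        rw [abs_mul]
        exact mul_le_of_le_one_left (abs_nonneg _) (Real.abs_cos_le_one φ)
      have e2 : |Real.sin φ * z2 r ω l| ≤ |z2 r ω l| := by
        rw [abs_mul]
        exact mul_le_of_le_one_left (abs_nonneg _) (Real.abs_sin_le_one φ)
      have e3 := hb1 l ω
      have e4 := hb2 l ω
      have e5 : |Real.cos φ * z1 κ q ω l - Real.sin φ * z2 r ω l| ≤ (C1 l + C2 l) * (1 + S) := by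
        calc |Real.cos φ * z1 κ q ω l - Real.sin φ * z2 r ω l| ≤
              |Real.cos φ * z1 κ q ω l| + |Real.sin φ * z2 r ω l| := abs_sub _ _
          _ ≤ (C1 l + C2 l) * (1 + S) := by
              rw [add_mul]; linarith
      have e6 : |U1 l (zz κ q r φ ω) (bp ω)| ≤ B * (D * (1 + S)) :=
        (h.bU1 l (zz κ q r φ ω) (bp ω)).trans (mul_le_mul_of_nonneg_left (hb φ ω) hB)
      rw [abs_mul]
      calc |U1 l (zz κ q r φ ω) (bp ω)| * |Real.cos φ * z1 κ q ω l - Real.sin φ * z2 r ω l| ≤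
            (B * (D * (1 + S))) * ((C1 l + C2 l) * (1 + S)) :=
              mul_le_mul e6 e5 (abs_nonneg _) (by positivity)
        _ = B * D * (C1 l + C2 l) * (1 + S) ^ 2 := by ring
    have h4 : (1 + S) ^ 2 ≤ Real.exp ((∑ l, B * D * (C1 l + C2 l) + 2) * S) := by
      have e1 : 1 + S ≤ Real.exp S := by linarith [Real.add_one_le_exp S]
      have e2 : (1 + S) ^ 2 ≤ Real.exp S ^ 2 := pow_le_pow_left₀ (by linarith) e1 2
      have e3 : Real.exp S ^ 2 = Real.exp (2 * S) := by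
        rw [← Real.exp_nat_mul]; norm_num
      have e4 : Real.exp (2 * S) ≤ Real.exp ((∑ l, B * D * (C1 l + C2 l) + 2) * S) := by
        apply Real.exp_le_exp.2
        nlinarith [mul_nonneg hT hS]
      linarith
    calc |∑ l, U1 l (zz κ q r φ ω) (bp ω) *
          (Real.cos φ * z1 κ q ω l - Real.sin φ * z2 r ω l)| ≤
          ∑ l, B * D * (C1 l + C2 l) * (1 + S) ^ 2 :=
            (Finset.abs_sum_le_sum_abs _ _).trans (Finset.sum_le_sum fun l _ => h3 l)
      _ = (∑ l, B * D * (C1 l + C2 l)) * (1 + S) ^ 2 := by rw [← Finset.sum_mul]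
      _ ≤ _ := mul_le_mul (by linarith) h4 (sq_nonneg _) (by linarith)

/-- (a) first derivative.  PROOF: `nest_hasDerivAt'` with `V φ = Σ_l U1_l(zz φ) (cos φ z1_l - sin φ z2_l)`, chain rule from `dU`
(`HasFDerivAt.comp_hasDerivAt`), constants from `hamC_Hz`, `tameC_U1`, `ham_z1`, `ham_z2`. -/
theorem dec_deriv (h : DecH m β ζ k H κ q r U U1 U2 A B) (φ : ℝ) :
    HasDerivAt (fun φ => nest (m2 m M K) ζ (k + 1) 0 (Hz H κ q r U φ))
      (Eφ m ζ H κ q r U φ (fun ω => ∑ l, U1 l (zz κ q r φ ω) (bp ω) *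
        (Real.cos φ * z1 κ q ω l - Real.sin φ * z2 r ω l))) φ := by
  obtain ⟨C1, hC1, hH⟩ := hamC_Hz h
  obtain ⟨C2, hC2, hV⟩ := DecB0_V_tame h
  have hS := fun ω : Fin (k + 1) → E2 E M K => DecA_sum_nonneg (M := M) (K := K) h.dom ω
  refine nest_hasDerivAt' (dom_m2 h.dom) h.exps (k + 1) 0 (H := fun s => Hz H κ q r U s)
    (V := fun s ω => ∑ l, U1 l (zz κ q r s ω) (bp ω) *
        (Real.cos s * z1 κ q ω l - Real.sin s * z2 r ω l)) (C := C1 + C2) (c := φ - 1)
    (d := φ + 1) (by positivity) ⟨by linarith, by linarith⟩ (fun u _ => ⟨(hH u).meas, fun ω => ?_⟩)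
    (fun u _ => ⟨(hV u).meas, fun ω => ?_⟩) (fun u _ ω => ?_)
  · refine ((hH u).bound ω).trans (mul_le_mul_of_nonneg_right (by linarith) ?_)
    have := hS ω
    linarith
  · refine ((hV u).bound ω).trans ?_
    exact mul_le_mul (by linarith) (Real.exp_le_exp.2
      (mul_le_mul_of_nonneg_right (by linarith) (hS ω))) (Real.exp_pos _).le (by positivity)
  · have hz : HasDerivAt (fun s => zz κ q r s ω)
        (fun l => Real.cos u * z1 κ q ω l - Real.sin u * z2 r ω l) u := by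
      rw [hasDerivAt_pi]
      intro l
      unfold zz
      have h1 := ((Real.hasDerivAt_sin u).mul_const (z1 κ q ω l)).add
        ((Real.hasDerivAt_cos u).mul_const (z2 r ω l))
      exact h1.congr_deriv (by ring)
    have h1 := (h.dU (zz κ q r u ω) (bp ω)).comp_hasDerivAt u hz
    have h2 := h1.const_add (H (bp ω))
    refine h2.congr_deriv ?_
    simp [ContinuousLinearMap.sum_apply]

end Crest.Agent.RI
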