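import Crest.Agent.RI.DecB0

/-!
# Row 164, decoupling: integration by parts, first field
-/

set_option autoImplicit false

namespace Crest.Agent.RI

open MeasureTheory ProbabilityTheory

variable {E : Type} [MeasurableSpace E] {M K k : ℕ}
variable {m : Measure E} [IsProbabilityMeasure m] {β : E → ℝ} {ζ : ℕ → ℝ}
variable {H : (Fin (k + 1) → E) → ℝ} {κ : Fin M → Fin K} {q : Fin M → (Fin (k + 1) → E) → ℝ}
variable {r : ℕ → Fin K → ℝ} {U : (Fin K → ℝ) → (Fin (k + 1) → E) → ℝ}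
variable {U1 U2 : Fin K → (Fin K → ℝ) → (Fin (k + 1) → E) → ℝ} {A B : ℝ}

/-- the flow: shift of the Gaussian `ξ_a` -/
private def DecB1_fl (a : Fin M) (s : ℝ) (x : E2 E M K) : E2 E M K :=
  (x.1, Function.update x.2.1 a (x.2.1 a + s), x.2.2)

private theorem DecB1_bp (a : Fin M) (s : ℝ) (ω : Fin (k + 1) → E2 E M K) :
    bp (Function.update ω 0 (DecB1_fl a s (ω 0))) = bp ω := by
  funext j
  unfold bp
  by_cases hj : j = 0
  · subst hj
    rw [Function.update_self]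
    rfl
  · rw [Function.update_of_ne hj]

private theorem DecB1_z1 (a : Fin M) (s : ℝ) (ω : Fin (k + 1) → E2 E M K) (l : Fin K) :
    z1 κ q (Function.update ω 0 (DecB1_fl a s (ω 0))) l =
      z1 κ q ω l + if κ a = l then s * q a (bp ω) else 0 := by
  unfold z1
  rw [DecB1_bp, Function.update_self]
  rw [← Finset.add_sum_erase _ _ (Finset.mem_univ a),
    ← Finset.add_sum_erase Finset.univ (fun b => if κ b = l then (ω 0).2.1 b * q b (bp ω) else 0)
      (Finset.mem_univ a)]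
  have e2 : ∑ b ∈ Finset.univ.erase a, (if κ b = l then (DecB1_fl a s (ω 0)).2.1 b * q b (bp ω)
      else 0) = ∑ b ∈ Finset.univ.erase a, (if κ b = l then (ω 0).2.1 b * q b (bp ω) else 0) :=
    Finset.sum_congr rfl fun b hb => by
      unfold DecB1_fl
      simp only [Function.update_of_ne (Finset.ne_of_mem_erase hb)]
  rw [e2]
  have e3 : (DecB1_fl a s (ω 0)).2.1 a = (ω 0).2.1 a + s := by
    unfold DecB1_fl
    simp only [Function.update_self]
  rw [e3]
  split_ifs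
  · ring
  · ring

private theorem DecB1_z2 (a : Fin M) (s : ℝ) (ω : Fin (k + 1) → E2 E M K) (l : Fin K) :
    z2 r (Function.update ω 0 (DecB1_fl a s (ω 0))) l = z2 r ω l := by
  unfold z2
  refine Finset.sum_congr rfl fun j _ => ?_
  by_cases hj : j = 0
  · subst hj
    rw [Function.update_self]
    rfl
  · rw [Function.update_of_ne hj]

private theorem DecB1_zz (φ : ℝ) (a : Fin M) (s : ℝ) (ω : Fin (k + 1) → E2 E M K) :
    zz κ q r φ (Function.update ω 0 (DecB1_fl a s (ω 0))) =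
      Function.update (zz κ q r φ ω) (κ a)
        (zz κ q r φ ω (κ a) + Real.sin φ * q a (bp ω) * s) := by
  funext l
  unfold zz
  rw [DecB1_z1, DecB1_z2]
  by_cases hl : l = κ a
  · subst hl
    rw [Function.update_self, if_pos rfl]
    ring
  · rw [Function.update_of_ne hl, if_neg (fun h => hl h.symm)]
    ring

private theorem DecB1_shift {f f' : ℝ → ℝ} (c d t : ℝ)
    (h : HasDerivAt f (f' (d + c * t)) (d + c * t)) :
    HasDerivAt (fun s => f (d + c * s)) (c * f' (d + c * t)) t := by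
  have h1 : HasDerivAt (fun s : ℝ => d + c * s) c t := by
    simpa using ((hasDerivAt_id t).const_mul c).const_add d
  have h2 := HasDerivAt.comp t h h1
  rw [mul_comm]
  exact h2

private theorem DecB1_dU (h : DecH m β ζ k H κ q r U U1 U2 A B) (l : Fin K) (z : Fin K → ℝ)
    (ω : Fin (k + 1) → E) (y : ℝ) :
    HasDerivAt (fun y => U (Function.update z l y) ω) (U1 l (Function.update z l y) ω) y := by
  have h1 := h.dU (Function.update z l y) ω
  have h2 := hasDerivAt_update z l y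
  have h3 := HasFDerivAt.comp_hasDerivAt y h1 h2
  refine h3.congr_deriv ?_
  rw [ContinuousLinearMap.sum_apply]
  rw [Finset.sum_eq_single l]
  · simp
  · intro b _ hb
    simp [Pi.single_eq_of_ne hb]
  · intro hb
    exact absurd (Finset.mem_univ l) hb

private theorem DecB1_dU1 (h : DecH m β ζ k H κ q r U U1 U2 A B) (l : Fin K) (z : Fin K → ℝ)
    (ω : Fin (k + 1) → E) (y : ℝ) :
    HasDerivAt (fun y => U1 l (Function.update z l y) ω) (U2 l (Function.update z l y) ω) y := by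
  have h1 := h.dU1 l (Function.update z l y) ω
  rw [Function.update_self] at h1
  simpa only [Function.update_idem] using h1

private theorem DecB1_isD_Hz (h : DecH m β ζ k H κ q r U U1 U2 A B) (φ : ℝ) (a : Fin M) :
    IsD (DecB1_fl (E := E) (K := K) a) 0 (Hz H κ q r U φ)
      (fun ω => Real.sin φ * (q a (bp ω) * U1 (κ a) (zz κ q r φ ω) (bp ω))) := by
  intro ω t
  unfold Hz
  simp only [DecB1_bp, DecB1_zz]
  have h1 := DecB1_shift (Real.sin φ * q a (bp ω)) (zz κ q r φ ω (κ a)) t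
    (f := fun y => U (Function.update (zz κ q r φ ω) (κ a) y) (bp ω))
    (f' := fun y => U1 (κ a) (Function.update (zz κ q r φ ω) (κ a) y) (bp ω))
    (DecB1_dU h (κ a) (zz κ q r φ ω) (bp ω) _)
  have h2 := h1.const_add (H (bp ω))
  refine h2.congr_deriv ?_
  ring

private theorem DecB1_isD_X (h : DecH m β ζ k H κ q r U U1 U2 A B) (φ : ℝ) (a : Fin M) :
    IsD (DecB1_fl (E := E) (K := K) a) 0
      (fun ω => q a (bp ω) * U1 (κ a) (zz κ q r φ ω) (bp ω))
      (fun ω => Real.sin φ * (q a (bp ω) ^ 2 * U2 (κ a) (zz κ q r φ ω) (bp ω))) := by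
  intro ω t
  simp only [DecB1_bp, DecB1_zz]
  have h1 := DecB1_shift (Real.sin φ * q a (bp ω)) (zz κ q r φ ω (κ a)) t
    (f := fun y => U1 (κ a) (Function.update (zz κ q r φ ω) (κ a) y) (bp ω))
    (f' := fun y => U2 (κ a) (Function.update (zz κ q r φ ω) (κ a) y) (bp ω))
    (DecB1_dU1 h (κ a) (zz κ q r φ ω) (bp ω) _)
  have h2 := h1.const_mul (q a (bp ω))
  refine h2.congr_deriv ?_
  ring

private theorem DecB1_q_le (h : DecH m β ζ k H κ q r U U1 U2 A B) (a : Fin M)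
    (ω : Fin (k + 1) → E) : |q a ω| ≤ 1 := by
  have h1 := Finset.single_le_sum (f := fun a => q a ω ^ 2) (fun _ _ => sq_nonneg _)
    (Finset.mem_univ a)
  have h2 := h.qb ω
  exact abs_le_one_iff_mul_self_le_one.2 (by nlinarith)

private theorem DecB1_tame_q (h : DecH m β ζ k H κ q r U U1 U2 A B) (a : Fin M) :
    Tame (β2 (M := M) (K := K) β) (fun ω : Fin (k + 1) → E2 E M K => q a (bp ω)) := by
  refine ⟨(h.qm a).comp DecA_measurable_bp, 1, zero_le_one, fun ω => ?_⟩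
  have h1 := DecB1_q_le h a (bp ω)
  have h2 := DecA_sum_nonneg h.dom ω
  have h3 : 1 ≤ Real.exp (1 * ∑ j, β2 β (ω j)) := Real.one_le_exp (by linarith)
  linarith

private theorem DecB1_tame_U1 (h : DecH m β ζ k H κ q r U U1 U2 A B) (φ : ℝ) (l : Fin K) :
    Tame (β2 (M := M) (K := K) β)
      (fun ω : Fin (k + 1) → E2 E M K => U1 l (zz κ q r φ ω) (bp ω)) := by
  obtain ⟨C, hC, hb⟩ := tameC_U1 h l
  exact (hb φ).tame hC

private theorem DecB1_tame_U2 (h : DecH m β ζ k H κ q r U U1 U2 A B) (φ : ℝ) (l : Fin K) :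
    Tame (β2 (M := M) (K := K) β)
      (fun ω : Fin (k + 1) → E2 E M K => U2 l (zz κ q r φ ω) (bp ω)) := by
  obtain ⟨C, hC, hb⟩ := tameC_U2 h l
  exact (hb φ).tame hC

private theorem DecB1_ham (h : DecH m β ζ k H κ q r U U1 U2 A B) (φ : ℝ) :
    Ham (β2 (M := M) (K := K) β) (Hz H κ q r U φ) := by
  obtain ⟨C, hC, hb⟩ := hamC_Hz h
  exact (hb φ).ham hC

private theorem DecB1_sum {E' : Type} [MeasurableSpace E'] {m' : Measure E'}
    [IsProbabilityMeasure m'] {β' : E' → ℝ} (hβ : Dom m' β') (hζ : Exps ζ) {n : ℕ} (i : ℕ)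
    {H' : (Fin n → E') → ℝ} (hH : Ham β' H') {ι : Type} (s : Finset ι)
    {Φ : ι → (Fin n → E') → ℝ} (hΦ : ∀ a, Tame β' (Φ a)) :
    Tame β' (fun ω => ∑ a ∈ s, Φ a ω) ∧
      pathE m' ζ n i H' (fun ω => ∑ a ∈ s, Φ a ω) = ∑ a ∈ s, pathE m' ζ n i H' (Φ a) := by
  classical
  induction s using Finset.induction_on with
  | empty =>
    simp only [Finset.sum_empty]
    exact ⟨Tame.const hβ 0, pathE_const hβ hζ n i hH 0⟩
  | insert a s ha ih =>
    simp only [Finset.sum_insert ha]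
    exact ⟨(hΦ a).add hβ ih.1, by rw [pathE_add hβ hζ n i hH (hΦ a) ih.1, ih.2]⟩

private theorem DecB1_sum2 {E' : Type} [MeasurableSpace E'] {m' : Measure E'}
    [IsProbabilityMeasure m'] {β' : E' → ℝ} (hβ : Dom m' β') (hζ : Exps ζ) (r' : ℕ) {n : ℕ} (i : ℕ)
    {H' : (Fin n → E') → ℝ} (hH : Ham β' H') {ι : Type} (s : Finset ι)
    {Φ : ι → (Fin n → E') → (Fin n → E') → ℝ} (hΦ : ∀ a, Tame2 β' (Φ a)) :
    Tame2 β' (fun ω ω' => ∑ a ∈ s, Φ a ω ω') ∧
      pairE m' ζ r' n i H' (fun ω ω' => ∑ a ∈ s, Φ a ω ω') =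
        ∑ a ∈ s, pairE m' ζ r' n i H' (Φ a) := by
  classical
  induction s using Finset.induction_on with
  | empty =>
    simp only [Finset.sum_empty]
    exact ⟨TPairA_t2_const 0 hβ, pairE_const hβ hζ r' n i hH 0⟩
  | insert a s ha ih =>
    simp only [Finset.sum_insert ha]
    exact ⟨TPairA_t2_add hβ (hΦ a) ih.1, by rw [pairE_add hβ hζ r' n i hH (hΦ a) ih.1, ih.2]⟩

private theorem DecB1_tame2 {E' : Type} [MeasurableSpace E'] {m' : Measure E'}
    [IsProbabilityMeasure m'] {β' : E' → ℝ} (hβ : Dom m' β') {n : ℕ}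
    {Φ Ψ : (Fin n → E') → ℝ} (hΦ : Tame β' Φ) (hΨ : Tame β' Ψ) :
    Tame2 β' (fun ω ω' => Φ ω * Ψ ω') := by
  obtain ⟨C, hC, hb⟩ := hΦ.bound
  obtain ⟨D, hD, hd⟩ := hΨ.bound
  have h1 : Tame2 β' (fun ω _ : Fin n → E' => Φ ω) := by
    refine ⟨hΦ.meas.comp measurable_fst, C, hC, fun ω ω' => (hb ω).trans ?_⟩
    refine mul_le_mul_of_nonneg_left (Real.exp_le_exp.2 (mul_le_mul_of_nonneg_left ?_ hC)) hC
    exact Finset.sum_le_sum fun j _ => by have := hβ.nonneg (ω' j); linarith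
  have h2 : Tame2 β' (fun _ ω' : Fin n → E' => Ψ ω') := by
    refine ⟨hΨ.meas.comp measurable_snd, D, hD, fun ω ω' => (hd ω').trans ?_⟩
    refine mul_le_mul_of_nonneg_left (Real.exp_le_exp.2 (mul_le_mul_of_nonneg_left ?_ hD)) hD
    exact Finset.sum_le_sum fun j _ => by have := hβ.nonneg (ω j); linarith
  exact TPairA_t2_mul hβ h1 h2

/-- the identity for one `a`, block `κ a` -/
private theorem DecB1_one (h : DecH m β ζ k H κ q r U U1 U2 A B) (φ : ℝ) (a : Fin M) :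
    pathE (m2 m M K) ζ (k + 1) 0 (Hz H κ q r U φ)
        (fun ω => (ω 0).2.1 a * (q a (bp ω) * U1 (κ a) (zz κ q r φ ω) (bp ω))) =
      Real.sin φ * (pathE (m2 m M K) ζ (k + 1) 0 (Hz H κ q r U φ) (fun ω =>
          (U2 (κ a) (zz κ q r φ ω) (bp ω) + U1 (κ a) (zz κ q r φ ω) (bp ω) ^ 2) *
            (q a (bp ω) * q a (bp ω))) -
        ∑ j ∈ Finset.range k, (ζ (j + 1) - ζ j) *
          pairE (m2 m M K) ζ (j + 1) (k + 1) 0 (Hz H κ q r U φ)
            (fun ω ω' => (q a (bp ω) * U1 (κ a) (zz κ q r φ ω) (bp ω)) *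
              (q a (bp ω') * U1 (κ a) (zz κ q r φ ω') (bp ω')))) := by
  have hβ := dom_m2 (M := M) (K := K) h.dom
  have hζ := h.exps
  have hH := DecB1_ham h φ
  set X : (Fin (k + 1) → E2 E M K) → ℝ :=
    fun ω => q a (bp ω) * U1 (κ a) (zz κ q r φ ω) (bp ω) with hXdef
  have hX : Tame (β2 (M := M) (K := K) β) X :=
    (DecB1_tame_q h a).mul hβ (DecB1_tame_U1 h φ (κ a))
  have hV : Tame (β2 (M := M) (K := K) β) (fun ω => Real.sin φ * X ω) :=
    (Tame.const hβ _).mul hβ hX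
  have hq2 : Tame (β2 (M := M) (K := K) β) (fun ω : Fin (k + 1) → E2 E M K => q a (bp ω) ^ 2) := by
    have := (DecB1_tame_q h a).mul hβ (DecB1_tame_q h a)
    simpa only [pow_two] using this
  have hQ : Tame (β2 (M := M) (K := K) β) (fun ω : Fin (k + 1) → E2 E M K =>
      q a (bp ω) ^ 2 * U2 (κ a) (zz κ q r φ ω) (bp ω)) :=
    hq2.mul hβ (DecB1_tame_U2 h φ (κ a))
  have hΦ' : Tame (β2 (M := M) (K := K) β) (fun ω : Fin (k + 1) → E2 E M K =>
      Real.sin φ * (q a (bp ω) ^ 2 * U2 (κ a) (zz κ q r φ ω) (bp ω))) :=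
    (Tame.const hβ _).mul hβ hQ
  have hfl : CFlow (m2 m M K) (β2 (M := M) (K := K) β) (DecB1_fl a) (fun x => x.2.1 a) :=
    (gcoord_z1 (K := K) h.dom a).cflow hβ
  have key := gibp hβ hζ hfl (k + 1) 0 0 hH hV hX hΦ' (DecB1_isD_Hz h φ a) (DecB1_isD_X h φ a)
  have hsc : (fun ω => X ω * (ζ (0 + ((0 : Fin (k + 1)) : ℕ)) *
      condE (m2 m M K) ζ (((0 : Fin (k + 1)) : ℕ) + 1) (k + 1) 0 (Hz H κ q r U φ)
        (fun ω => Real.sin φ * X ω) ω +
      sAfter (m2 m M K) ζ (((0 : Fin (k + 1)) : ℕ) + 1) (k + 1) 0 (Hz H κ q r U φ)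
        (fun ω => Real.sin φ * X ω) ω)) = fun ω => Real.sin φ * (X ω * X ω) +
        ∑ j ∈ Finset.range k, (-(Real.sin φ * (ζ (j + 1) - ζ j))) *
          (X ω * condE (m2 m M K) ζ (j + 1) (k + 1) 0 (Hz H κ q r U φ) X ω) := by
    funext ω
    have h1 := score_abel (m' := m2 m M K) (β' := β2 β) h.last (H' := Hz H κ q r U φ)
      (V := fun ω => Real.sin φ * X ω) 0 (Nat.zero_le k) ω
    rw [show (((0 : Fin (k + 1)) : ℕ)) = 0 from rfl, h1]
    rw [mul_sub, Finset.range_eq_Ico, Finset.mul_sum, sub_eq_add_neg, ← Finset.sum_neg_distrib]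
    congr 1
    · ring
    · refine Finset.sum_congr rfl fun j _ => ?_
      rw [condE_mul]
      ring
  have hterm : ∀ j : ℕ, Tame (β2 (M := M) (K := K) β) (fun ω =>
      (-(Real.sin φ * (ζ (j + 1) - ζ j))) *
        (X ω * condE (m2 m M K) ζ (j + 1) (k + 1) 0 (Hz H κ q r U φ) X ω)) := fun j =>
    (Tame.const hβ _).mul hβ (hX.mul hβ (condE_tame hβ hζ _ _ _ hH hX))
  have hXX : Tame (β2 (M := M) (K := K) β) (fun ω => Real.sin φ * (X ω * X ω)) :=
    (Tame.const hβ _).mul hβ (hX.mul hβ hX)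
  have hS := DecB1_sum hβ hζ 0 hH (Finset.range k) hterm
  rw [hsc, pathE_add hβ hζ _ _ hH hXX hS.1, hS.2, pathE_mul, pathE_mul] at key
  rw [key]
  have e1 : pathE (m2 m M K) ζ (k + 1) 0 (Hz H κ q r U φ) (fun ω =>
          (U2 (κ a) (zz κ q r φ ω) (bp ω) + U1 (κ a) (zz κ q r φ ω) (bp ω) ^ 2) *
            (q a (bp ω) * q a (bp ω))) =
      pathE (m2 m M K) ζ (k + 1) 0 (Hz H κ q r U φ)
        (fun ω => q a (bp ω) ^ 2 * U2 (κ a) (zz κ q r φ ω) (bp ω)) +
      pathE (m2 m M K) ζ (k + 1) 0 (Hz H κ q r U φ) (fun ω => X ω * X ω) := by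
    rw [← pathE_add hβ hζ _ _ hH hQ (hX.mul hβ hX)]
    congr 1
    funext ω
    rw [hXdef]
    ring
  have e2 : ∀ j : ℕ, pathE (m2 m M K) ζ (k + 1) 0 (Hz H κ q r U φ) (fun ω =>
      (-(Real.sin φ * (ζ (j + 1) - ζ j))) *
        (X ω * condE (m2 m M K) ζ (j + 1) (k + 1) 0 (Hz H κ q r U φ) X ω)) =
      -(Real.sin φ * ((ζ (j + 1) - ζ j) *
        pairE (m2 m M K) ζ (j + 1) (k + 1) 0 (Hz H κ q r U φ) (fun ω ω' => X ω * X ω'))) := by
    intro j
    rw [pathE_mul, pathE_condE hβ hζ _ _ _ hH hX hX, pairE_mul hβ hζ _ _ _ hH hX hX]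
    ring
  rw [e1, Finset.sum_congr rfl (fun j _ => e2 j), Finset.sum_neg_distrib, ← Finset.mul_sum]
  ring

/-- (b) integration by parts for the first field, block `l`.  PROOF: for every `a` with `κ a = l`: `gibp` (RI/FlowB.lean) with the flow
`GCoord.cflow (gcoord_z1 a)` at the coordinate `0`, `Φ = q_a(bp) U1_l`, `Φ' = sin φ q_a² U2_l`, `V = sin φ q_a U1_l` (the shift of `ξ_a` by `t`
changes `zz_l` by `t sin φ q_a` and nothing else; `dU1`, `dU` at the shifted points), `score_abel`; then sum over `a`;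
`Σ_a E[(q_a U1) C_{j+1}(q_a U1)] = pairE_{j+1}[U1(ω) U1(ω') cv(ω,ω')]` by `pairE_mul`, `pathE_condE`, `pairE_add`. -/
theorem dec_ibp1 (h : DecH m β ζ k H κ q r U U1 U2 A B) (φ : ℝ) (l : Fin K) :
    Eφ m ζ H κ q r U φ (fun ω => U1 l (zz κ q r φ ω) (bp ω) * z1 κ q ω l) =
      Real.sin φ * (Eφ m ζ H κ q r U φ (fun ω => (U2 l (zz κ q r φ ω) (bp ω) +
          U1 l (zz κ q r φ ω) (bp ω) ^ 2) * cv κ q l (bp ω) (bp ω)) -
        ∑ j ∈ Finset.range k, (ζ (j + 1) - ζ j) *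
          pairE (m2 m M K) ζ (j + 1) (k + 1) 0 (Hz H κ q r U φ)
            (fun ω ω' => U1 l (zz κ q r φ ω) (bp ω) * U1 l (zz κ q r φ ω') (bp ω') *
              cv κ q l (bp ω) (bp ω'))) := by
  have hβ := dom_m2 (M := M) (K := K) h.dom
  have hζ := h.exps
  have hH := DecB1_ham h φ
  have hU1 := DecB1_tame_U1 h φ l
  have hU2 := DecB1_tame_U2 h φ l
  have hq := fun a => DecB1_tame_q h a
  have hq2 : ∀ a, Tame (β2 (M := M) (K := K) β)
      (fun ω : Fin (k + 1) → E2 E M K => q a (bp ω) * q a (bp ω)) :=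
    fun a => (hq a).mul hβ (hq a)
  have hX : ∀ a, Tame (β2 (M := M) (K := K) β)
      (fun ω : Fin (k + 1) → E2 E M K => q a (bp ω) * U1 l (zz κ q r φ ω) (bp ω)) :=
    fun a => (hq a).mul hβ hU1
  have hξ : ∀ a : Fin M, Tame (β2 (M := M) (K := K) β)
      (fun ω : Fin (k + 1) → E2 E M K => (ω 0).2.1 a) := by
    intro a
    refine Ham.tame hβ ⟨?_, 1, zero_le_one, fun ω => ?_⟩
    · have h0 : Measurable (fun ω : Fin (k + 1) → E2 E M K => ω 0) := measurable_pi_apply 0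
      exact (measurable_pi_apply a).comp (measurable_fst.comp (measurable_snd.comp h0))
    · have h1 : |(ω 0).2.1 a| ≤ ∑ b, |(ω 0).2.1 b| :=
        Finset.single_le_sum (f := fun b => |(ω 0).2.1 b|) (fun _ _ => abs_nonneg _)
          (Finset.mem_univ a)
      have h2 := DecA_le_sum h.dom ω 0
      have h3 : 0 ≤ ∑ l, |(ω 0).2.2 l| := Finset.sum_nonneg fun _ _ => abs_nonneg _
      have h4 := h.dom.nonneg (ω 0).1
      have h5 : ∑ a, |(ω 0).2.1 a| ≤ β2 β (ω 0) := by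
        unfold β2
        linarith
      linarith
  set s : Finset (Fin M) := Finset.univ.filter (fun a => κ a = l) with hs
  -- left side
  have L1 : Eφ m ζ H κ q r U φ (fun ω => U1 l (zz κ q r φ ω) (bp ω) * z1 κ q ω l) =
      ∑ a ∈ s, pathE (m2 m M K) ζ (k + 1) 0 (Hz H κ q r U φ)
        (fun ω => (ω 0).2.1 a * (q a (bp ω) * U1 l (zz κ q r φ ω) (bp ω))) := by
    rw [← (DecB1_sum hβ hζ 0 hH s (fun a => (hξ a).mul hβ (hX a))).2]
    unfold Eφ
    congr 1
    funext ω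
    unfold z1
    rw [← Finset.sum_filter, Finset.mul_sum]
    refine Finset.sum_congr rfl fun a _ => ?_
    ring
  -- right side, first term
  have R1 : Eφ m ζ H κ q r U φ (fun ω => (U2 l (zz κ q r φ ω) (bp ω) +
          U1 l (zz κ q r φ ω) (bp ω) ^ 2) * cv κ q l (bp ω) (bp ω)) =
      ∑ a ∈ s, pathE (m2 m M K) ζ (k + 1) 0 (Hz H κ q r U φ) (fun ω =>
          (U2 l (zz κ q r φ ω) (bp ω) + U1 l (zz κ q r φ ω) (bp ω) ^ 2) *
            (q a (bp ω) * q a (bp ω))) := by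
    have hT : ∀ a, Tame (β2 (M := M) (K := K) β) (fun ω : Fin (k + 1) → E2 E M K =>
        (U2 l (zz κ q r φ ω) (bp ω) + U1 l (zz κ q r φ ω) (bp ω) ^ 2) *
            (q a (bp ω) * q a (bp ω))) := by
      intro a
      have hsq : Tame (β2 (M := M) (K := K) β)
          (fun ω : Fin (k + 1) → E2 E M K => U1 l (zz κ q r φ ω) (bp ω) ^ 2) := by
        simpa only [pow_two] using hU1.mul hβ hU1
      exact (hU2.add hβ hsq).mul hβ (hq2 a)
    rw [← (DecB1_sum hβ hζ 0 hH s hT).2]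
    unfold Eφ
    congr 1
    funext ω
    unfold cv
    rw [← Finset.sum_filter, Finset.mul_sum]
  -- right side, pair terms
  have R2 : ∀ j : ℕ, pairE (m2 m M K) ζ (j + 1) (k + 1) 0 (Hz H κ q r U φ)
            (fun ω ω' => U1 l (zz κ q r φ ω) (bp ω) * U1 l (zz κ q r φ ω') (bp ω') *
              cv κ q l (bp ω) (bp ω')) =
      ∑ a ∈ s, pairE (m2 m M K) ζ (j + 1) (k + 1) 0 (Hz H κ q r U φ)
            (fun ω ω' => (q a (bp ω) * U1 l (zz κ q r φ ω) (bp ω)) *
              (q a (bp ω') * U1 l (zz κ q r φ ω') (bp ω'))) := by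
    intro j
    rw [← (DecB1_sum2 hβ hζ (j + 1) 0 hH s (fun a => DecB1_tame2 hβ (hX a) (hX a))).2]
    congr 1
    funext ω ω'
    unfold cv
    rw [← Finset.sum_filter, Finset.mul_sum]
    refine Finset.sum_congr rfl fun a _ => ?_
    ring
  rw [L1, R1]
  simp only [R2]
  have hone : ∀ a ∈ s, _ := fun a ha => by
    have hκ : κ a = l := (Finset.mem_filter.1 ha).2
    have h1 := DecB1_one h φ a
    rw [hκ] at h1
    exact h1
  rw [Finset.sum_congr rfl hone, ← Finset.mul_sum, Finset.sum_sub_distrib, Finset.sum_comm]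
  simp only [Finset.mul_sum]

end Crest.Agent.RI
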