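import Crest.Agent.RI.DecB0

/-!
# Row 164, decoupling: integration by parts, second field
-/

set_option autoImplicit false

namespace Crest.Agent.RI

open MeasureTheory ProbabilityTheory

variable {E : Type} [MeasurableSpace E] {M K k : ℕ}
variable {m : Measure E} [IsProbabilityMeasure m] {β : E → ℝ} {ζ : ℕ → ℝ}
variable {H : (Fin (k + 1) → E) → ℝ} {κ : Fin M → Fin K} {q : Fin M → (Fin (k + 1) → E) → ℝ}
variable {r : ℕ → Fin K → ℝ} {U : (Fin K → ℝ) → (Fin (k + 1) → E) → ℝ}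
variable {U1 U2 : Fin K → (Fin K → ℝ) → (Fin (k + 1) → E) → ℝ} {A B : ℝ}

/-- the flow of the Gaussian coordinate `l` of the second field -/
private noncomputable def DecB2_fl (E : Type) (M : ℕ) {K : ℕ} (l : Fin K) (t : ℝ) (x : E2 E M K) :
    E2 E M K := (x.1, x.2.1, Function.update x.2.2 l (x.2.2 l + t))

private theorem DecB2_bp {n : ℕ} (l : Fin K) (i : Fin n) (ω : Fin n → E2 E M K) (s : ℝ) :
    bp (Function.update ω i (DecB2_fl E M l s (ω i))) = bp ω := by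
  funext j
  unfold bp
  by_cases h : j = i
  · subst h
    rw [Function.update_self]
    rfl
  · rw [Function.update_of_ne h]

private theorem DecB2_z1 (l : Fin K) (i : Fin (k + 1)) (ω : Fin (k + 1) → E2 E M K) (s : ℝ)
    (l' : Fin K) : z1 κ q (Function.update ω i (DecB2_fl E M l s (ω i))) l' = z1 κ q ω l' := by
  unfold z1
  rw [DecB2_bp]
  refine Finset.sum_congr rfl fun a _ => ?_
  have h : (Function.update ω i (DecB2_fl E M l s (ω i)) 0).2.1 = (ω 0).2.1 := by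
    by_cases h : (0 : Fin (k + 1)) = i
    · subst h
      rw [Function.update_self]
      rfl
    · rw [Function.update_of_ne h]
  rw [h]

private theorem DecB2_z2 (l : Fin K) (i : Fin (k + 1)) (ω : Fin (k + 1) → E2 E M K) (s : ℝ)
    (l' : Fin K) : z2 r (Function.update ω i (DecB2_fl E M l s (ω i))) l' =
      z2 r ω l' + if l' = l then Real.sqrt (r i l) * s else 0 := by
  unfold z2
  rw [← Finset.add_sum_erase _ _ (Finset.mem_univ i),
    ← Finset.add_sum_erase Finset.univ (fun j : Fin (k + 1) => Real.sqrt (r j l') * (ω j).2.2 l')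
      (Finset.mem_univ i)]
  have e2 : ∑ x ∈ Finset.univ.erase i,
      Real.sqrt (r x l') * (Function.update ω i (DecB2_fl E M l s (ω i)) x).2.2 l' =
      ∑ x ∈ Finset.univ.erase i, Real.sqrt (r x l') * (ω x).2.2 l' :=
    Finset.sum_congr rfl fun x hx => by rw [Function.update_of_ne (Finset.ne_of_mem_erase hx)]
  rw [e2, Function.update_self]
  have e3 : (DecB2_fl E M l s (ω i)).2.2 l' = (ω i).2.2 l' + if l' = l then s else 0 := by
    unfold DecB2_fl
    by_cases h : l' = l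
    · subst h
      simp
    · simp [h]
  rw [e3]
  by_cases h : l' = l
  · subst h
    simp only [if_true]
    ring
  · simp only [if_neg h, add_zero]

private theorem DecB2_zz (φ : ℝ) (l : Fin K) (i : Fin (k + 1)) (ω : Fin (k + 1) → E2 E M K)
    (s : ℝ) : zz κ q r φ (Function.update ω i (DecB2_fl E M l s (ω i))) =
      Function.update (zz κ q r φ ω) l (zz κ q r φ ω l + Real.cos φ * Real.sqrt (r i l) * s) := by
  funext l'
  by_cases h : l' = l
  · subst h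
    rw [Function.update_self]
    unfold zz
    rw [DecB2_z1, DecB2_z2, if_pos rfl]
    ring
  · rw [Function.update_of_ne h]
    unfold zz
    rw [DecB2_z1, DecB2_z2, if_neg h, add_zero]

private theorem DecB2_U1 (h : DecH m β ζ k H κ q r U U1 U2 A B) (φ : ℝ) (l : Fin K)
    (i : Fin (k + 1)) : IsD (DecB2_fl E M l) i
      (fun ω : Fin (k + 1) → E2 E M K => U1 l (zz κ q r φ ω) (bp ω))
      (fun ω => (Real.cos φ * Real.sqrt (r i l)) * U2 l (zz κ q r φ ω) (bp ω)) := by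
  intro ω t
  simp only [DecB2_bp, DecB2_zz]
  obtain ⟨c, hc⟩ : ∃ c, c = Real.cos φ * Real.sqrt (r i l) := ⟨_, rfl⟩
  obtain ⟨z, hz⟩ : ∃ z, z = zz κ q r φ ω := ⟨_, rfl⟩
  rw [← hc, ← hz]
  have h1 := h.dU1 l (Function.update z l (z l + c * t)) (bp ω)
  rw [Function.update_self] at h1
  simp only [Function.update_idem] at h1
  have h2 : HasDerivAt (fun s : ℝ => z l + c * s) c t := by
    simpa using ((hasDerivAt_id t).const_mul c).const_add (z l)
  have h3 := h1.comp t h2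
  rw [mul_comm] at h3
  exact h3

private theorem DecB2_Hz (h : DecH m β ζ k H κ q r U U1 U2 A B) (φ : ℝ) (l : Fin K)
    (i : Fin (k + 1)) : IsD (DecB2_fl E M l) i (Hz H κ q r U φ)
      (fun ω => (Real.cos φ * Real.sqrt (r i l)) * U1 l (zz κ q r φ ω) (bp ω)) := by
  intro ω t
  unfold Hz
  simp only [DecB2_bp, DecB2_zz]
  obtain ⟨c, hc⟩ : ∃ c, c = Real.cos φ * Real.sqrt (r i l) := ⟨_, rfl⟩
  obtain ⟨z, hz⟩ : ∃ z, z = zz κ q r φ ω := ⟨_, rfl⟩
  rw [← hc, ← hz]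
  have h1 := h.dU (Function.update z l (z l + c * t)) (bp ω)
  have h2 : HasDerivAt (fun s : ℝ => Function.update z l (z l + c * s)) (Pi.single l c) t := by
    rw [hasDerivAt_pi]
    intro l'
    by_cases h' : l' = l
    · subst h'
      simp only [Function.update_self, Pi.single_eq_same]
      simpa using ((hasDerivAt_id t).const_mul c).const_add (z l')
    · simp only [Function.update_of_ne h', Pi.single_eq_of_ne h']
      exact hasDerivAt_const t _
  have h3 := (h1.comp_hasDerivAt t h2).const_add (H (bp ω))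
  have h4 : (∑ l', U1 l' (Function.update z l (z l + c * t)) (bp ω) •
      (ContinuousLinearMap.proj l' : (Fin K → ℝ) →L[ℝ] ℝ)) (Pi.single l c) =
      c * U1 l (Function.update z l (z l + c * t)) (bp ω) := by
    rw [_root_.sum_apply, Finset.sum_eq_single l]
    · simp [mul_comm]
    · intro l' _ hl'
      simp [Pi.single_eq_of_ne hl']
    · intro hl
      exact absurd (Finset.mem_univ l) hl
  rw [h4] at h3
  exact h3

private theorem DecB2_cflow (hβ : Dom m β) (l : Fin K) :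
    CFlow (m2 m M K) (β2 (M := M) (K := K) β) (DecB2_fl E M l) (fun x => x.2.2 l) :=
  (gcoord_z2 (M := M) hβ l).cflow (dom_m2 hβ)

/-- one Gaussian coordinate -/
private theorem DecB2_one (h : DecH m β ζ k H κ q r U U1 U2 A B) (φ : ℝ) (l : Fin K)
    (i : Fin (k + 1)) :
    Eφ m ζ H κ q r U φ (fun ω => (ω i).2.2 l * U1 l (zz κ q r φ ω) (bp ω)) =
      (Real.cos φ * Real.sqrt (r i l)) * (Eφ m ζ H κ q r U φ (fun ω => U2 l (zz κ q r φ ω) (bp ω) +
          U1 l (zz κ q r φ ω) (bp ω) ^ 2) -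
        ∑ j ∈ Finset.Ico (i : ℕ) k, (ζ (j + 1) - ζ j) *
          pairE (m2 m M K) ζ (j + 1) (k + 1) 0 (Hz H κ q r U φ)
            (fun ω ω' => U1 l (zz κ q r φ ω) (bp ω) * U1 l (zz κ q r φ ω') (bp ω'))) := by
  have hd := dom_m2 (M := M) (K := K) h.dom
  obtain ⟨C, hC, hHC⟩ := hamC_Hz h
  have hH : Ham (β2 (M := M) (K := K) β) (Hz H κ q r U φ) := (hHC φ).ham hC
  obtain ⟨C1, hC1, hU1C⟩ := tameC_U1 h l
  have hU1 := (hU1C φ).tame hC1
  obtain ⟨C2, hC2, hU2C⟩ := tameC_U2 h l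
  have hU2 := (hU2C φ).tame hC2
  obtain ⟨u, hu⟩ : ∃ u : (Fin (k + 1) → E2 E M K) → ℝ,
    u = fun ω => U1 l (zz κ q r φ ω) (bp ω) := ⟨_, rfl⟩
  obtain ⟨u', hu'⟩ : ∃ u' : (Fin (k + 1) → E2 E M K) → ℝ,
    u' = fun ω => U2 l (zz κ q r φ ω) (bp ω) := ⟨_, rfl⟩
  obtain ⟨c, hc⟩ : ∃ c, c = Real.cos φ * Real.sqrt (r i l) := ⟨_, rfl⟩
  have hD1 : IsD (DecB2_fl E M l) i u (fun ω => c * u' ω) := by
    rw [hu, hu', hc]; exact DecB2_U1 h φ l i
  have hDH : IsD (DecB2_fl E M l) i (Hz H κ q r U φ) (fun ω => c * u ω) := by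
    rw [hu, hc]; exact DecB2_Hz h φ l i
  rw [← hu] at hU1
  rw [← hu'] at hU2
  have hcu : Tame (β2 (M := M) (K := K) β) (fun ω => c * u ω) := (Tame.const hd c).mul hd hU1
  have hcu' : Tame (β2 (M := M) (K := K) β) (fun ω => c * u' ω) := (Tame.const hd c).mul hd hU2
  have key := gibp (m := m2 m M K) (ζ := ζ) hd h.exps (DecB2_cflow h.dom l) (k + 1) 0 i hH hcu hU1
    hcu' hDH hD1
  have hsc : ∀ ω : Fin (k + 1) → E2 E M K,
      ζ (0 + (i : ℕ)) * condE (m2 m M K) ζ ((i : ℕ) + 1) (k + 1) 0 (Hz H κ q r U φ)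
        (fun ω => c * u ω) ω + sAfter (m2 m M K) ζ ((i : ℕ) + 1) (k + 1) 0 (Hz H κ q r U φ)
        (fun ω => c * u ω) ω = c * u ω - ∑ j ∈ Finset.Ico (i : ℕ) k, (ζ (j + 1) - ζ j) *
          (c * condE (m2 m M K) ζ (j + 1) (k + 1) 0 (Hz H κ q r U φ) u ω) := by
    intro ω
    rw [score_abel (m' := m2 m M K) (β' := β2 β) h.last (i : ℕ) (Nat.lt_succ_iff.1 i.2) ω]
    simp only [condE_mul]
  have e1 : pathE (m2 m M K) ζ (k + 1) 0 (Hz H κ q r U φ) (fun ω => u ω *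
      (ζ (0 + (i : ℕ)) * condE (m2 m M K) ζ ((i : ℕ) + 1) (k + 1) 0 (Hz H κ q r U φ)
        (fun ω => c * u ω) ω + sAfter (m2 m M K) ζ ((i : ℕ) + 1) (k + 1) 0 (Hz H κ q r U φ)
        (fun ω => c * u ω) ω)) =
      pathE (m2 m M K) ζ (k + 1) 0 (Hz H κ q r U φ) (fun ω => c * (u ω ^ 2) +
        ∑ j ∈ Finset.Ico (i : ℕ) k, (-(c * (ζ (j + 1) - ζ j))) *
          (u ω * condE (m2 m M K) ζ (j + 1) (k + 1) 0 (Hz H κ q r U φ) u ω)) := by
    congr 1
    funext ω
    rw [hsc ω, mul_sub, Finset.mul_sum, sub_eq_add_neg, ← Finset.sum_neg_distrib]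
    congr 1
    · ring
    · exact Finset.sum_congr rfl fun j _ => by ring
  have hu2 : Tame (β2 (M := M) (K := K) β) (fun ω => u ω ^ 2) := by
    have := hU1.mul hd hU1
    simpa only [pow_two] using this
  have hcu2 : Tame (β2 (M := M) (K := K) β) (fun ω => c * u ω ^ 2) := (Tame.const hd c).mul hd hu2
  have htj : ∀ j : ℕ, Tame (β2 (M := M) (K := K) β) (fun ω => (-(c * (ζ (j + 1) - ζ j))) *
          (u ω * condE (m2 m M K) ζ (j + 1) (k + 1) 0 (Hz H κ q r U φ) u ω)) := fun j =>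
    (Tame.const hd _).mul hd (hU1.mul hd (condE_tame hd h.exps _ _ _ hH hU1))
  have hpair : ∀ j : ℕ, pathE (m2 m M K) ζ (k + 1) 0 (Hz H κ q r U φ)
      (fun ω => u ω * condE (m2 m M K) ζ (j + 1) (k + 1) 0 (Hz H κ q r U φ) u ω) =
      pairE (m2 m M K) ζ (j + 1) (k + 1) 0 (Hz H κ q r U φ) (fun ω ω' => u ω * u ω') := by
    intro j
    rw [pathE_condE hd h.exps _ _ _ hH hU1 hU1, pairE_mul hd h.exps _ _ _ hH hU1 hU1]
  have hsum : pathE (m2 m M K) ζ (k + 1) 0 (Hz H κ q r U φ) (fun ω =>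
        ∑ j ∈ Finset.Ico (i : ℕ) k, (-(c * (ζ (j + 1) - ζ j))) *
          (u ω * condE (m2 m M K) ζ (j + 1) (k + 1) 0 (Hz H κ q r U φ) u ω)) =
      ∑ j ∈ Finset.Ico (i : ℕ) k, (-(c * (ζ (j + 1) - ζ j))) *
        pairE (m2 m M K) ζ (j + 1) (k + 1) 0 (Hz H κ q r U φ) (fun ω ω' => u ω * u ω') := by
    rw [TVar_pathE_sum hd h.exps (k + 1) 0 hH (Finset.Ico (i : ℕ) k) (fun j _ => htj j)]
    refine Finset.sum_congr rfl fun j _ => ?_
    rw [pathE_mul, hpair]
  rw [e1, pathE_add hd h.exps _ _ hH hcu2 (TVar_tame_sum hd _ fun j _ => htj j), pathE_mul,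
    pathE_mul, hsum] at key
  unfold Eφ
  rw [← hc]
  have e2 : (fun ω : Fin (k + 1) → E2 E M K => (ω i).2.2 l * U1 l (zz κ q r φ ω) (bp ω)) =
      fun ω => (ω i).2.2 l * u ω := by rw [hu]
  have e3 : (fun ω : Fin (k + 1) → E2 E M K => U2 l (zz κ q r φ ω) (bp ω) +
      U1 l (zz κ q r φ ω) (bp ω) ^ 2) = fun ω => u' ω + u ω ^ 2 := by rw [hu, hu']
  have e4 : (fun ω ω' : Fin (k + 1) → E2 E M K => U1 l (zz κ q r φ ω) (bp ω) *
      U1 l (zz κ q r φ ω') (bp ω')) = fun ω ω' => u ω * u ω' := by rw [hu]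
  rw [e2, e3, e4, key, pathE_add hd h.exps _ _ hH hU2 hu2, mul_sub, Finset.mul_sum, mul_add,
    sub_eq_add_neg, ← Finset.sum_neg_distrib, add_assoc]
  congr 2
  exact Finset.sum_congr rfl fun j _ => by ring

/-- (c) integration by parts for the second field, block `l`: the coordinate `η^i_l` of level `i` for every `i ≤ k`;
`Σ_{i ≤ j} r_{i,l} = c2 r j l`. -/
theorem dec_ibp2 (h : DecH m β ζ k H κ q r U U1 U2 A B) (φ : ℝ) (l : Fin K) :
    Eφ m ζ H κ q r U φ (fun ω => U1 l (zz κ q r φ ω) (bp ω) * z2 r ω l) =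
      Real.cos φ * (Eφ m ζ H κ q r U φ (fun ω => (U2 l (zz κ q r φ ω) (bp ω) +
          U1 l (zz κ q r φ ω) (bp ω) ^ 2) * c2 r k l) -
        ∑ j ∈ Finset.range k, (ζ (j + 1) - ζ j) *
          pairE (m2 m M K) ζ (j + 1) (k + 1) 0 (Hz H κ q r U φ)
            (fun ω ω' => U1 l (zz κ q r φ ω) (bp ω) * U1 l (zz κ q r φ ω') (bp ω') *
              c2 r j l)) := by
  have hd := dom_m2 (M := M) (K := K) h.dom
  obtain ⟨C, hC, hHC⟩ := hamC_Hz h
  have hH : Ham (β2 (M := M) (K := K) β) (Hz H κ q r U φ) := (hHC φ).ham hC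
  obtain ⟨C1, hC1, hU1C⟩ := tameC_U1 h l
  have hU1 := (hU1C φ).tame hC1
  have hη : ∀ i : Fin (k + 1), Tame (β2 (M := M) (K := K) β)
      (fun ω : Fin (k + 1) → E2 E M K => (ω i).2.2 l) := by
    intro i
    have hg := gcoord_z2 (M := M) (K := K) h.dom l
    obtain ⟨c, hc, hg1, -⟩ := hg.bd
    refine Ham.tame hd ⟨hg.gm.comp (measurable_pi_apply i), c, hc, fun ω => (hg1 (ω i)).trans ?_⟩
    exact mul_le_mul_of_nonneg_left (add_le_add le_rfl (DecA_le_sum h.dom ω i)) hc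
  -- expand
  have e1 : Eφ m ζ H κ q r U φ (fun ω => U1 l (zz κ q r φ ω) (bp ω) * z2 r ω l) =
      ∑ i : Fin (k + 1), Real.sqrt (r i l) *
        Eφ m ζ H κ q r U φ (fun ω => (ω i).2.2 l * U1 l (zz κ q r φ ω) (bp ω)) := by
    unfold Eφ
    have e2 : (fun ω : Fin (k + 1) → E2 E M K => U1 l (zz κ q r φ ω) (bp ω) * z2 r ω l) =
        fun ω => ∑ j ∈ Finset.range (k + 1), if hj : j < k + 1 then
          Real.sqrt (r j l) * ((ω ⟨j, hj⟩).2.2 l * U1 l (zz κ q r φ ω) (bp ω)) else 0 := by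
      funext ω
      unfold z2
      rw [Finset.mul_sum, ← Fin.sum_univ_eq_sum_range (fun j => if hj : j < k + 1 then
          Real.sqrt (r j l) * ((ω ⟨j, hj⟩).2.2 l * U1 l (zz κ q r φ ω) (bp ω)) else 0) (k + 1)]
      refine Finset.sum_congr rfl fun j _ => ?_
      rw [dif_pos j.2]
      simp only [Fin.eta]
      ring
    rw [e2]
    have ht : ∀ j ∈ Finset.range (k + 1), Tame (β2 (M := M) (K := K) β)
        (fun ω : Fin (k + 1) → E2 E M K => if hj : j < k + 1 then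
          Real.sqrt (r j l) * ((ω ⟨j, hj⟩).2.2 l * U1 l (zz κ q r φ ω) (bp ω)) else 0) := by
      intro j hj
      have hj' := Finset.mem_range.1 hj
      simp only [dif_pos hj']
      exact (Tame.const hd _).mul hd ((hη ⟨j, hj'⟩).mul hd hU1)
    rw [TVar_pathE_sum hd h.exps (k + 1) 0 hH (Finset.range (k + 1)) ht,
      ← Fin.sum_univ_eq_sum_range (fun j => pathE (m2 m M K) ζ (k + 1) 0 (Hz H κ q r U φ)
        (fun ω : Fin (k + 1) → E2 E M K => if hj : j < k + 1 then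
          Real.sqrt (r j l) * ((ω ⟨j, hj⟩).2.2 l * U1 l (zz κ q r φ ω) (bp ω)) else 0)) (k + 1)]
    refine Finset.sum_congr rfl fun j _ => ?_
    simp only [dif_pos j.2, Fin.eta]
    rw [pathE_mul]
  rw [e1]
  simp only [DecB2_one h φ l]
  obtain ⟨X, hX⟩ : ∃ X, X = Eφ m ζ H κ q r U φ (fun ω => U2 l (zz κ q r φ ω) (bp ω) +
          U1 l (zz κ q r φ ω) (bp ω) ^ 2) := ⟨_, rfl⟩
  obtain ⟨Y, hY⟩ : ∃ Y : ℕ → ℝ, Y = fun j => (ζ (j + 1) - ζ j) *
          pairE (m2 m M K) ζ (j + 1) (k + 1) 0 (Hz H κ q r U φ)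
            (fun ω ω' => U1 l (zz κ q r φ ω) (bp ω) * U1 l (zz κ q r φ ω') (bp ω')) := ⟨_, rfl⟩
  have e3 : Eφ m ζ H κ q r U φ (fun ω => (U2 l (zz κ q r φ ω) (bp ω) +
          U1 l (zz κ q r φ ω) (bp ω) ^ 2) * c2 r k l) = c2 r k l * X := by
    rw [hX]
    unfold Eφ
    rw [← pathE_mul]
    congr 1
    funext ω
    ring
  have e4 : ∀ j, (ζ (j + 1) - ζ j) *
          pairE (m2 m M K) ζ (j + 1) (k + 1) 0 (Hz H κ q r U φ)
            (fun ω ω' => U1 l (zz κ q r φ ω) (bp ω) * U1 l (zz κ q r φ ω') (bp ω') *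
              c2 r j l) = c2 r j l * Y j := by
    intro j
    rw [hY]
    simp only
    have e4' : (fun ω ω' : Fin (k + 1) → E2 E M K => U1 l (zz κ q r φ ω) (bp ω) *
        U1 l (zz κ q r φ ω') (bp ω') * c2 r j l) =
        fun ω ω' => c2 r j l * (U1 l (zz κ q r φ ω) (bp ω) * U1 l (zz κ q r φ ω') (bp ω')) := by
      funext ω ω'
      ring
    rw [e4', pairE_cmul]
    ring
  have e5 : ∀ i : Fin (k + 1), Real.sqrt (r i l) * (Real.cos φ * Real.sqrt (r i l) *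
      (X - ∑ j ∈ Finset.Ico (i : ℕ) k, Y j)) =
      Real.cos φ * (r i l * X) - Real.cos φ * (r i l * ∑ j ∈ Finset.Ico (i : ℕ) k, Y j) := by
    intro i
    have := Real.mul_self_sqrt (h.r0 i l)
    calc _ = Real.cos φ * ((Real.sqrt (r i l) * Real.sqrt (r i l)) *
        (X - ∑ j ∈ Finset.Ico (i : ℕ) k, Y j)) := by ring
      _ = _ := by rw [this]; ring
  have e6 : ∑ i : Fin (k + 1), r i l * ∑ j ∈ Finset.Ico (i : ℕ) k, Y j =
      ∑ j ∈ Finset.range k, c2 r j l * Y j := by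
    rw [Fin.sum_univ_eq_sum_range (fun i => r i l * ∑ j ∈ Finset.Ico i k, Y j) (k + 1)]
    unfold c2
    simp only [Finset.mul_sum, Finset.sum_mul]
    rw [Finset.sum_sigma', Finset.sum_sigma']
    refine Finset.sum_bij' (fun x _ => ⟨x.2, x.1⟩) (fun x _ => ⟨x.2, x.1⟩) ?_ ?_ ?_ ?_ ?_
    · rintro ⟨a, b⟩ hx
      simp only [Finset.mem_sigma, Finset.mem_range, Finset.mem_Ico] at hx ⊢
      omega
    · rintro ⟨a, b⟩ hx
      simp only [Finset.mem_sigma, Finset.mem_range, Finset.mem_Ico] at hx ⊢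
      omega
    · rintro ⟨a, b⟩ _; rfl
    · rintro ⟨a, b⟩ _; rfl
    · rintro ⟨a, b⟩ _; rfl
  have e7 : ∑ i : Fin (k + 1), r i l * X = c2 r k l * X := by
    rw [← Finset.sum_mul]
    unfold c2
    rw [← Fin.sum_univ_eq_sum_range (fun i => r i l) (k + 1)]
  have e8 : ∑ i : Fin (k + 1), Real.sqrt (r i l) * (Real.cos φ * Real.sqrt (r i l) *
      (X - ∑ j ∈ Finset.Ico (i : ℕ) k, Y j)) =
      Real.cos φ * (c2 r k l * X - ∑ j ∈ Finset.range k, c2 r j l * Y j) := by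
    simp only [e5]
    rw [Finset.sum_sub_distrib, ← Finset.mul_sum, ← Finset.mul_sum, e6, e7]
    ring
  rw [e3]
  simp only [e4]
  rw [← e8, hX, hY]

end Crest.Agent.RI
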