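import Crest.Agent.RI.DecA

/-!
# Row 164, decoupling: moments of the interpolating field
-/

set_option autoImplicit false

namespace Crest.Agent.RI

open MeasureTheory ProbabilityTheory

variable {E : Type} [MeasurableSpace E] {M K k : ℕ}
variable {m : Measure E} [IsProbabilityMeasure m] {β : E → ℝ} {ζ : ℕ → ℝ}
variable {H : (Fin (k + 1) → E) → ℝ} {κ : Fin M → Fin K} {q : Fin M → (Fin (k + 1) → E) → ℝ}
variable {r : ℕ → Fin K → ℝ}

private theorem DecM_sq : ∫ x : ℝ, x ^ 2 ∂(gaussianReal 0 1) = 1 := by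
  have h := stein_one (f := fun x => x) (f' := fun _ => 1) (C := 1) (fun x => hasDerivAt_id x)
    measurable_const (fun x => by
      have := Real.add_one_le_exp |x|
      rw [one_mul, one_mul]; linarith) (fun x => by
      rw [one_mul, one_mul, abs_one]; exact Real.one_le_exp (abs_nonneg x))
  simp only [integral_const, probReal_univ, smul_eq_mul, mul_one] at h
  rw [h]
  congr 1
  funext x
  ring

private theorem DecM_four : ∫ x : ℝ, x ^ 4 ∂(gaussianReal 0 1) = 3 := by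
  have e2 : ∫ x : ℝ, x ^ 2 ∂(gaussianReal 0 1) = 1 := DecM_sq
  have h := stein_one (f := fun x => x ^ 3) (f' := fun x => 3 * x ^ 2) (C := 6)
    (fun x => by simpa using hasDerivAt_pow 3 x) (by fun_prop) (fun x => by
      have h1 := Real.pow_div_factorial_le_exp |x| (abs_nonneg x) 3
      have h2 : Real.exp |x| ≤ Real.exp (6 * |x|) := Real.exp_le_exp.2 (by
        have := abs_nonneg x; linarith)
      rw [abs_pow]
      have : (Nat.factorial 3 : ℝ) = 6 := by norm_num [Nat.factorial]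
      rw [this] at h1
      linarith) (fun x => by
      have h1 := Real.pow_div_factorial_le_exp |x| (abs_nonneg x) 2
      have h2 : Real.exp |x| ≤ Real.exp (6 * |x|) := Real.exp_le_exp.2 (by
        have := abs_nonneg x; linarith)
      rw [abs_mul, abs_pow]
      have : (Nat.factorial 2 : ℝ) = 2 := by norm_num [Nat.factorial]
      rw [this] at h1
      have h3 : |(3:ℝ)| = 3 := by norm_num
      rw [h3]
      linarith)
  rw [integral_const_mul, e2] at h
  have e : (fun x : ℝ => x ^ 4) = fun x : ℝ => x * x ^ 3 := by funext x; ring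
  rw [e, ← h]
  norm_num

private theorem DecM_law {ι : Type*} [Fintype ι] {Ω : ι → Type*} [∀ i, MeasurableSpace (Ω i)]
    {μ : ∀ i, Measure (Ω i)} [∀ i, IsProbabilityMeasure (μ i)] {X : ∀ i, Ω i → ℝ}
    (hX : ∀ i, Measurable (X i)) (hl : ∀ i, (μ i).map (X i) = gaussianReal 0 1) (c : ι → ℝ) :
    (Measure.pi μ).map (fun ω => ∑ i, c i * X i (ω i)) =
      gaussianReal 0 (∑ i, c i ^ 2).toNNReal := by
  set P := Measure.pi μ with hP
  have hm : ∀ i, Measurable (fun ω : ∀ i, Ω i => c i * X i (ω i)) := fun i =>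
    ((hX i).comp (measurable_pi_apply i)).const_mul _
  have h1 : ∀ i, P.map (fun ω => X i (ω i)) = gaussianReal 0 1 := fun i => by
    rw [← hl i]
    have := (measurePreserving_eval μ i).map_eq
    rw [← this, Measure.map_map (hX i) (measurable_pi_apply i)]
    rfl
  have h2 : ∀ i, P.map (fun ω => c i * X i (ω i)) = gaussianReal 0 (NNReal.mk (c i ^ 2) (sq_nonneg _)) := fun i => by
    have h3 := gaussianReal_map_const_mul (μ := 0) (v := 1) (c i)
    have h4 : Measurable (fun ω : ∀ i, Ω i => X i (ω i)) := (hX i).comp (measurable_pi_apply i)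
    rw [← h1 i, Measure.map_map (g := fun x => c i * x) (measurable_const_mul _) h4, mul_zero,
      mul_one] at h3
    exact h3
  have hG : ∀ i, HasGaussianLaw (fun ω => c i * X i (ω i)) P := fun i => ⟨by
    rw [h2 i]; infer_instance⟩
  have hI : iIndepFun (fun i (ω : ∀ i, Ω i) => c i * X i (ω i)) P :=
    iIndepFun_pi (X := fun i x => c i * X i x) fun i => ((hX i).const_mul _).aemeasurable
  have hS := (iIndepFun.hasGaussianLaw_fun_sum hG hI).map_eq_gaussianReal
  rw [hS]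
  have hL : ∀ i, MemLp (X i) 2 (μ i) := fun i => by
    have h := memLp_id_gaussianReal (μ := 0) (v := 1) 2
    rw [← hl i, memLp_map_measure_iff (by fun_prop) (hX i).aemeasurable] at h
    exact h
  have e1 : ∫ ω : ∀ i, Ω i, ∑ i, c i * X i (ω i) ∂P = 0 := by
    rw [integral_finsetSum]
    · refine Finset.sum_eq_zero fun i _ => ?_
      rw [integral_const_mul]
      have h3 : ∫ x, x ∂(P.map (fun ω => X i (ω i))) = ∫ ω, X i (ω i) ∂P :=
        integral_map ((hX i).comp (measurable_pi_apply i)).aemeasurable (by fun_prop)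
      rw [← h3, h1, integral_id_gaussianReal, mul_zero]
    · intro i _
      exact (((hL i).comp_measurePreserving (measurePreserving_eval μ i)).integrable
        (by norm_num)).const_mul _
  have e2 : Var[fun ω => ∑ i, c i * X i (ω i); P] = ∑ i, c i ^ 2 := by
    have h3 := variance_sum_pi (μ := μ) (X := fun i x => c i * X i x) fun i => (hL i).const_mul _
    have h4 : (∑ i, fun ω : ∀ i, Ω i => c i * X i (ω i)) = fun ω => ∑ i, c i * X i (ω i) := by
      funext ω; simp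
    rw [h4] at h3
    rw [h3]
    refine Finset.sum_congr rfl fun i _ => ?_
    rw [variance_const_mul]
    have h5 : Var[X i; μ i] = 1 := by
      have h6 := variance_id_gaussianReal (μ := 0) (v := 1)
      rw [← hl i, variance_map aemeasurable_id (hX i).aemeasurable] at h6
      simpa using h6
    rw [h5, mul_one]
  rw [e1, e2]

private theorem DecM_moment {ι : Type*} [Fintype ι] {Ω : ι → Type*} [∀ i, MeasurableSpace (Ω i)]
    {μ : ∀ i, Measure (Ω i)} [∀ i, IsProbabilityMeasure (μ i)] {X : ∀ i, Ω i → ℝ}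
    (hX : ∀ i, Measurable (X i)) (hl : ∀ i, (μ i).map (X i) = gaussianReal 0 1) (c : ι → ℝ)
    (n : ℕ) :
    ∫ ω, (∑ i, c i * X i (ω i)) ^ n ∂(Measure.pi μ) =
      (Real.sqrt (∑ i, c i ^ 2)) ^ n * ∫ x : ℝ, x ^ n ∂(gaussianReal 0 1) := by
  have h0 : 0 ≤ ∑ i, c i ^ 2 := Finset.sum_nonneg fun _ _ => sq_nonneg _
  have h1 : ∫ x, x ^ n ∂((Measure.pi μ).map (fun ω => ∑ i, c i * X i (ω i))) =
      ∫ ω, (∑ i, c i * X i (ω i)) ^ n ∂(Measure.pi μ) :=
    integral_map (Finset.measurable_sum _ fun i _ =>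
      ((hX i).comp (measurable_pi_apply i)).const_mul _).aemeasurable (by fun_prop)
  rw [← h1, DecM_law hX hl c]
  have h2 := gaussianReal_map_const_mul (μ := 0) (v := 1) (Real.sqrt (∑ i, c i ^ 2))
  have h3 : (NNReal.mk (Real.sqrt (∑ i, c i ^ 2) ^ 2) (sq_nonneg _)) * 1 =
      (∑ i, c i ^ 2).toNNReal := by
    rw [mul_one]
    ext
    rw [Real.coe_toNNReal _ h0]
    exact Real.sq_sqrt h0
  rw [h3, mul_zero] at h2
  rw [← h2, integral_map (by fun_prop) (by fun_prop)]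
  rw [← integral_const_mul]
  congr 1
  funext x
  ring

/-- fourth moment of a Gaussian linear form.  PROOF: the law of `Σ c_a ξ_a` is `gaussianReal 0 (Σ c_a²)`, or induction on `M`. -/
theorem gvec_lin4 (c : Fin M → ℝ) : ∫ ξ, (∑ a, c a * ξ a) ^ 4 ∂(gvec M) = 3 * (∑ a, c a ^ 2) ^ 2 := by
  have h := DecM_moment (μ := fun _ : Fin M => gaussianReal 0 1) (X := fun _ x => x)
    (fun _ => measurable_id) (fun _ => Measure.map_id) c 4
  have h0 : 0 ≤ ∑ i, c i ^ 2 := Finset.sum_nonneg fun _ _ => sq_nonneg _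
  rw [DecM_four] at h
  have e : Real.sqrt (∑ i, c i ^ 2) ^ 4 = (∑ i, c i ^ 2) ^ 2 := by
    calc Real.sqrt (∑ i, c i ^ 2) ^ 4 = (Real.sqrt (∑ i, c i ^ 2) ^ 2) ^ 2 := by ring
      _ = _ := by rw [Real.sq_sqrt h0]
  rw [e] at h
  unfold gvec
  rw [h]
  ring

theorem gvec_lin2 (c : Fin M → ℝ) : ∫ ξ, (∑ a, c a * ξ a) ^ 2 ∂(gvec M) = ∑ a, c a ^ 2 := by
  have h := DecM_moment (μ := fun _ : Fin M => gaussianReal 0 1) (X := fun _ x => x)
    (fun _ => measurable_id) (fun _ => Measure.map_id) c 2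
  have h0 : 0 ≤ ∑ i, c i ^ 2 := Finset.sum_nonneg fun _ _ => sq_nonneg _
  rw [DecM_sq, Real.sq_sqrt h0, mul_one] at h
  exact h

private theorem DecM_isProb_gvec {N : ℕ} : IsProbabilityMeasure (gvec N) := by
  unfold gvec; infer_instance

private theorem DecM_exp_one (c : ℝ) :
    Integrable (fun x : ℝ => Real.exp (c * |x|)) (gaussianReal 0 1) :=
  integrable_exp_mul_abs (X := fun x : ℝ => x) (t := c)
    (integrable_exp_mul_gaussianReal c) (integrable_exp_mul_gaussianReal (-c))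

private theorem DecM_exp_gvec {N : ℕ} (c : ℝ) :
    Integrable (fun x : Fin N → ℝ => Real.exp (c * ∑ a, |x a|)) (gvec N) := by
  have h := Integrable.fintype_prod (ι := Fin N) (E := ℝ) (𝕜 := ℝ)
    (f := fun _ x => Real.exp (c * |x|)) (μ := fun _ => gaussianReal 0 1) (fun _ => DecM_exp_one c)
  have e : (fun x : Fin N → ℝ => ∏ i, Real.exp (c * |x i|)) =
      fun x : Fin N → ℝ => Real.exp (c * ∑ a, |x a|) := by
    funext x
    rw [← Real.exp_sum, Finset.mul_sum]
  rw [e] at h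
  exact h

private theorem DecM_dom : Dom ((gvec M).prod (gvec K))
    (fun x : (Fin M → ℝ) × (Fin K → ℝ) => ∑ a, |x.1 a| + ∑ l, |x.2 l|) := by
  have i1 := DecM_isProb_gvec (N := M)
  have i2 := DecM_isProb_gvec (N := K)
  refine ⟨by fun_prop, fun x => by positivity, fun c => ?_⟩
  have h1 := Integrable.mul_prod (f := fun x : Fin M → ℝ => Real.exp (c * ∑ a, |x a|))
    (g := fun x : Fin K → ℝ => Real.exp (c * ∑ a, |x a|)) (DecM_exp_gvec c) (DecM_exp_gvec c)
  refine h1.congr (Filter.Eventually.of_forall (fun x => ?_))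
  simp only
  rw [mul_add, Real.exp_add]

private theorem DecM_tame4 (hβ : Dom m β) {n : ℕ} {F : (Fin n → E) → ℝ} (hF : Ham β F) :
    Tame β (fun ω => F ω ^ 4) := by
  have h1 := Ham.tame hβ hF
  have h2 := Tame.mul hβ (Tame.mul hβ h1 h1) (Tame.mul hβ h1 h1)
  have e : (fun ω => F ω ^ 4) = fun ω => F ω * F ω * (F ω * F ω) := by funext ω; ring
  rw [e]
  exact h2

omit [IsProbabilityMeasure m] in
private theorem DecM_hamH (hH : Ham β H) :
    Ham (β2 (M := M) (K := K) β) (fun ω : Fin (k + 1) → E2 E M K => H (bp ω)) := by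
  obtain ⟨C, hC, hb⟩ := hH.bound
  refine ⟨hH.meas.comp DecA_measurable_bp, C, hC, fun ω => (hb _).trans ?_⟩
  refine mul_le_mul_of_nonneg_left ?_ hC
  have : ∑ i, β (bp ω i) ≤ ∑ j, β2 β (ω j) := by
    refine Finset.sum_le_sum fun j _ => ?_
    unfold β2 bp
    have : 0 ≤ ∑ a, |(ω j).2.1 a| := Finset.sum_nonneg fun _ _ => abs_nonneg _
    have : 0 ≤ ∑ a, |(ω j).2.2 a| := Finset.sum_nonneg fun _ _ => abs_nonneg _
    linarith
  linarith

/-- PROOF: `pathE_prod` (the second component of the level space is ignored by the Hamiltonian `H ∘ bp`): for a fixed base path `z1_l` is a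
Gaussian linear form with variance `Σ_{κ a = l} q_a² ≤ 1`: `gvec_lin4` (or `≤ 3`). -/
theorem mom_z1 (hβ : Dom m β) (hζ : Exps ζ) (hH : Ham β H) (hq : ∀ a, Measurable (q a))
    (hqb : ∀ ω, ∑ a, q a ω ^ 2 ≤ 1) (l : Fin K) :
    pathE (m2 m M K) ζ (k + 1) 0 (fun ω => H (bp ω)) (fun ω => z1 κ q ω l ^ 4) ≤ 3 := by
  have i1 := DecM_isProb_gvec (N := M)
  have i2 := DecM_isProb_gvec (N := K)
  have ht : Tame (β2 (M := M) (K := K) β) (fun ω : Fin (k + 1) → E2 E M K => z1 κ q ω l ^ 4) :=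
    DecM_tame4 (dom_m2 hβ) (ham_z1 hβ hq hqb l)
  have h := pathE_prod (m := m) (m' := (gvec M).prod (gvec K)) hβ (DecM_dom (M := M) (K := K)) hζ
    (k + 1) 0 hH (Φ := fun ω : Fin (k + 1) → E2 E M K => z1 κ q ω l ^ 4) ht
  have e : ∀ ω : Fin (k + 1) → E, ∫ y : Fin (k + 1) → (Fin M → ℝ) × (Fin K → ℝ),
      z1 κ q (fun j => (ω j, y j)) l ^ 4 ∂(Measure.pi (fun _ => (gvec M).prod (gvec K))) =
      3 * (∑ a, (if κ a = l then q a ω else 0) ^ 2) ^ 2 := by
    intro ω
    have mp : MeasurePreserving (fun y : Fin (k + 1) → (Fin M → ℝ) × (Fin K → ℝ) => (y 0).1)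
        (Measure.pi (fun _ => (gvec M).prod (gvec K))) (gvec M) :=
      measurePreserving_fst.comp (measurePreserving_eval (fun _ => (gvec M).prod (gvec K)) 0)
    have h2 := integral_map (μ := Measure.pi (fun _ : Fin (k + 1) => (gvec M).prod (gvec K)))
      (φ := fun y => (y 0).1) mp.measurable.aemeasurable
      (f := fun ξ : Fin M → ℝ => (∑ a, (if κ a = l then q a ω else 0) * ξ a) ^ 4)
      (Measurable.aestronglyMeasurable (by fun_prop))
    rw [mp.map_eq] at h2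
    rw [← gvec_lin4, h2]
    congr 1
    funext y
    congr 1
    unfold z1
    refine Finset.sum_congr rfl fun a _ => ?_
    by_cases ha : κ a = l
    · simp only [if_pos ha]
      exact mul_comm _ _
    · simp only [if_neg ha, zero_mul]
  change pathE (m.prod ((gvec M).prod (gvec K))) ζ (k + 1) 0 (fun ω => H (fun j => (ω j).1))
    (fun ω => z1 κ q ω l ^ 4) ≤ 3
  rw [h]
  simp only [e]
  have hb : ∀ ω : Fin (k + 1) → E, ∑ a, (if κ a = l then q a ω else 0) ^ 2 ≤ 1 := by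
    intro ω
    refine (Finset.sum_le_sum fun a _ => ?_).trans (hqb ω)
    by_cases ha : κ a = l
    · simp only [if_pos ha]; exact le_rfl
    · simp only [if_neg ha]
      rw [zero_pow two_ne_zero]
      exact sq_nonneg _
  have hb0 : ∀ ω : Fin (k + 1) → E, 0 ≤ ∑ a, (if κ a = l then q a ω else 0) ^ 2 := fun ω =>
    Finset.sum_nonneg fun _ _ => sq_nonneg _
  have hm : Measurable (fun ω : Fin (k + 1) → E =>
      3 * (∑ a, (if κ a = l then q a ω else 0) ^ 2) ^ 2) := by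
    refine ((Finset.measurable_sum _ fun a _ => ?_).pow_const 2).const_mul 3
    by_cases ha : κ a = l
    · simp only [if_pos ha]; exact (hq a).pow_const 2
    · simp only [if_neg ha]; exact measurable_const
  have ht2 : Tame β (fun ω : Fin (k + 1) → E =>
      3 * (∑ a, (if κ a = l then q a ω else 0) ^ 2) ^ 2) := by
    refine ⟨hm, 3, by norm_num, fun ω => ?_⟩
    have h1 := hb ω
    have h2 := hb0 ω
    have h3 : 0 ≤ ∑ i, β (ω i) := Finset.sum_nonneg fun i _ => hβ.nonneg _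
    have h4 : 1 ≤ Real.exp (3 * ∑ i, β (ω i)) := Real.one_le_exp (by linarith)
    rw [abs_of_nonneg (by positivity)]
    have h5 : (∑ a, (if κ a = l then q a ω else 0) ^ 2) ^ 2 ≤ 1 := by nlinarith
    linarith
  have h6 := pathE_mono hβ hζ (k + 1) 0 hH ht2 (Tame.const hβ 3) (fun ω => by
    have h1 := hb ω
    have h2 := hb0 ω
    have h5 : (∑ a, (if κ a = l then q a ω else 0) ^ 2) ^ 2 ≤ 1 := by nlinarith
    linarith)
  rwa [pathE_const hβ hζ (k + 1) 0 hH] at h6

theorem mom_z2 (hβ : Dom m β) (hζ : Exps ζ) (hH : Ham β H) (hr : ∀ i l, 0 ≤ r i l)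
    (hrb : ∀ l, c2 r k l ≤ 1) (l : Fin K) :
    pathE (m2 m M K) ζ (k + 1) 0 (fun ω => H (bp ω)) (fun ω => z2 r ω l ^ 4) ≤ 3 := by
  have i1 := DecM_isProb_gvec (N := M)
  have i2 := DecM_isProb_gvec (N := K)
  have ht : Tame (β2 (M := M) (K := K) β) (fun ω : Fin (k + 1) → E2 E M K => z2 r ω l ^ 4) :=
    DecM_tame4 (dom_m2 hβ) (ham_z2 hβ l)
  have h := pathE_prod (m := m) (m' := (gvec M).prod (gvec K)) hβ (DecM_dom (M := M) (K := K)) hζ
    (k + 1) 0 hH (Φ := fun ω : Fin (k + 1) → E2 E M K => z2 r ω l ^ 4) ht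
  have e : ∀ ω : Fin (k + 1) → E, ∫ y : Fin (k + 1) → (Fin M → ℝ) × (Fin K → ℝ),
      z2 r (fun j => (ω j, y j)) l ^ 4 ∂(Measure.pi (fun _ => (gvec M).prod (gvec K))) =
      3 * (c2 r k l) ^ 2 := by
    intro ω
    have hm : Measurable (fun x : (Fin M → ℝ) × (Fin K → ℝ) => x.2 l) :=
      (measurable_pi_apply l).comp measurable_snd
    have hl : ((gvec M).prod (gvec K)).map (fun x : (Fin M → ℝ) × (Fin K → ℝ) => x.2 l) =
        gaussianReal 0 1 := by
      have mp : MeasurePreserving (fun x : (Fin M → ℝ) × (Fin K → ℝ) => x.2 l)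
          ((gvec M).prod (gvec K)) (gaussianReal 0 1) :=
        (measurePreserving_eval (fun _ : Fin K => gaussianReal 0 1) l).comp
          (measurePreserving_snd (μ := gvec M) (ν := gvec K))
      exact mp.map_eq
    have h1 := DecM_moment (μ := fun _ : Fin (k + 1) => (gvec M).prod (gvec K))
      (X := fun _ x => x.2 l) (fun _ => hm) (fun _ => hl) (fun i => Real.sqrt (r i l)) 4
    rw [DecM_four] at h1
    have h2 : ∑ i : Fin (k + 1), Real.sqrt (r i l) ^ 2 = c2 r k l := by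
      unfold c2
      rw [Finset.sum_range]
      exact Finset.sum_congr rfl fun i _ => Real.sq_sqrt (hr _ _)
    have h0 : 0 ≤ c2 r k l := by
      unfold c2
      exact Finset.sum_nonneg fun i _ => hr _ _
    rw [h2] at h1
    have e4 : Real.sqrt (c2 r k l) ^ 4 = (c2 r k l) ^ 2 := by
      calc Real.sqrt (c2 r k l) ^ 4 = (Real.sqrt (c2 r k l) ^ 2) ^ 2 := by ring
        _ = _ := by rw [Real.sq_sqrt h0]
    rw [e4] at h1
    unfold z2
    rw [h1]
    ring
  change pathE (m.prod ((gvec M).prod (gvec K))) ζ (k + 1) 0 (fun ω => H (fun j => (ω j).1))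
    (fun ω => z2 r ω l ^ 4) ≤ 3
  rw [h]
  simp only [e]
  rw [pathE_const hβ hζ (k + 1) 0 hH]
  have h0 : 0 ≤ c2 r k l := by
    unfold c2
    exact Finset.sum_nonneg fun i _ => hr _ _
  have h1 := hrb l
  nlinarith

private theorem DecM_sum (hβ : Dom m β) (hζ : Exps ζ) {n : ℕ} (i : ℕ) {G : (Fin n → E) → ℝ}
    (hG : Ham β G) {ι : Type*} (s : Finset ι) (F : ι → (Fin n → E) → ℝ) (hF : ∀ j, Tame β (F j)) :
    Tame β (fun ω => ∑ j ∈ s, F j ω) ∧
      pathE m ζ n i G (fun ω => ∑ j ∈ s, F j ω) = ∑ j ∈ s, pathE m ζ n i G (F j) := by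
  classical
  induction s using Finset.induction_on with
  | empty =>
    simp only [Finset.sum_empty]
    exact ⟨Tame.const hβ 0, pathE_const hβ hζ n i hG 0⟩
  | insert a s ha ih =>
    simp only [Finset.sum_insert ha]
    exact ⟨Tame.add hβ (hF a) ih.1, by rw [pathE_add hβ hζ n i hG (hF a) ih.1, ih.2]⟩

private theorem DecM_pow (z : Fin K → ℝ) :
    (1 + ∑ l, |z l|) ^ 4 ≤ ((K : ℝ) + 1) ^ 3 * (1 + ∑ l, z l ^ 4) := by
  have h := pow_sum_div_card_le_sum_pow (s := (Finset.univ : Finset (Option (Fin K))))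
    (f := fun o => match o with | none => (1 : ℝ) | some l => |z l|) (fun a _ => by
      cases a with
      | none => exact zero_le_one
      | some l => exact abs_nonneg _) 3
  rw [Fintype.sum_option, Fintype.sum_option] at h
  simp only [Finset.card_univ, Fintype.card_option, Fintype.card_fin, Nat.cast_add, Nat.cast_one,
    one_pow] at h
  rw [div_le_iff₀ (by positivity)] at h
  have e : ∀ l, |z l| ^ (3 + 1) = z l ^ 4 := fun l => by
    rw [show 3 + 1 = 2 * 2 from rfl, pow_mul, sq_abs]; ring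
  simp only [e] at h
  calc (1 + ∑ l, |z l|) ^ 4 = (1 + ∑ l, |z l|) ^ (3 + 1) := rfl
    _ ≤ _ := h
    _ = _ := by ring

/-- PROOF: `(1 + Σ|z_l|)^4 ≤ (K+1)^3 (1 + Σ z_l^4)`, `zz^4 ≤ 8 (z1^4 + z2^4)`. -/
theorem mom_zz (hβ : Dom m β) (hζ : Exps ζ) (hH : Ham β H) (hq : ∀ a, Measurable (q a))
    (hqb : ∀ ω, ∑ a, q a ω ^ 2 ≤ 1) (hr : ∀ i l, 0 ≤ r i l) (hrb : ∀ l, c2 r k l ≤ 1) (φ : ℝ) :
    pathE (m2 m M K) ζ (k + 1) 0 (fun ω => H (bp ω))
      (fun ω => (1 + ∑ l, |zz κ q r φ ω l|) ^ 4) ≤ 48 * ((K : ℝ) + 1) ^ 4 := by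
  have hD := dom_m2 (M := M) (K := K) hβ
  have hHH := DecM_hamH (M := M) (K := K) (k := k) hH
  have t1 : ∀ l, Tame (β2 (M := M) (K := K) β) (fun ω : Fin (k + 1) → E2 E M K => z1 κ q ω l ^ 4) :=
    fun l => DecM_tame4 (dom_m2 hβ) (ham_z1 hβ hq hqb l)
  have t2 : ∀ l, Tame (β2 (M := M) (K := K) β) (fun ω : Fin (k + 1) → E2 E M K => z2 r ω l ^ 4) :=
    fun l => DecM_tame4 (dom_m2 hβ) (ham_z2 hβ l)
  have t3 : ∀ l, Tame (β2 (M := M) (K := K) β)
      (fun ω : Fin (k + 1) → E2 E M K => z1 κ q ω l ^ 4 + z2 r ω l ^ 4) :=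
    fun l => Tame.add hD (t1 l) (t2 l)
  obtain ⟨t4, e4⟩ := DecM_sum hD hζ 0 hHH (Finset.univ : Finset (Fin K)) _ t3
  have t5 : Tame (β2 (M := M) (K := K) β) (fun ω : Fin (k + 1) → E2 E M K =>
      ((K : ℝ) + 1) ^ 3 * (1 + 8 * ∑ l, (z1 κ q ω l ^ 4 + z2 r ω l ^ 4))) :=
    Tame.mul hD (Tame.const hD _) (Tame.add hD (Tame.const hD 1) (Tame.mul hD (Tame.const hD 8) t4))
  have hle : ∀ ω : Fin (k + 1) → E2 E M K, (1 + ∑ l, |zz κ q r φ ω l|) ^ 4 ≤
      ((K : ℝ) + 1) ^ 3 * (1 + 8 * ∑ l, (z1 κ q ω l ^ 4 + z2 r ω l ^ 4)) := by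
    intro ω
    refine (DecM_pow _).trans (mul_le_mul_of_nonneg_left ?_ (by positivity))
    rw [Finset.mul_sum]
    refine add_le_add le_rfl (Finset.sum_le_sum fun l _ => ?_)
    unfold zz
    set a := z1 κ q ω l
    set b := z2 r ω l
    have hs : Real.sin φ ^ 2 ≤ 1 := Real.sin_sq_le_one φ
    have hc : Real.cos φ ^ 2 ≤ 1 := Real.cos_sq_le_one φ
    set s := Real.sin φ
    set c := Real.cos φ
    have h1 : (s * a + c * b) ^ 2 ≤ 2 * ((s * a) ^ 2 + (c * b) ^ 2) := by
      nlinarith [sq_nonneg (s * a - c * b)]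
    have h2 : (s * a) ^ 2 ≤ a ^ 2 := by
      rw [mul_pow]
      nlinarith [sq_nonneg a]
    have h3 : (c * b) ^ 2 ≤ b ^ 2 := by
      rw [mul_pow]
      nlinarith [sq_nonneg b]
    have h4 : (s * a + c * b) ^ 2 ≤ 2 * (a ^ 2 + b ^ 2) := by linarith
    calc (s * a + c * b) ^ 4 = ((s * a + c * b) ^ 2) ^ 2 := by ring
      _ ≤ (2 * (a ^ 2 + b ^ 2)) ^ 2 := pow_le_pow_left₀ (sq_nonneg _) h4 2
      _ ≤ 8 * (a ^ 4 + b ^ 4) := by nlinarith [sq_nonneg (a ^ 2 - b ^ 2)]
  have t6 : Tame (β2 (M := M) (K := K) β) (fun ω : Fin (k + 1) → E2 E M K =>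
      (1 + ∑ l, |zz κ q r φ ω l|) ^ 4) := by
    obtain ⟨C, hC, hb⟩ := t5.bound
    refine ⟨?_, C, hC, fun ω => ?_⟩
    · have hz := DecA_measurable_zz (k := k) (κ := κ) (q := q) (r := r) hq φ
      refine (measurable_const.add (Finset.measurable_sum _ fun l _ => ?_)).pow_const 4
      exact ((measurable_pi_apply l).comp hz).abs
    · rw [abs_of_nonneg (by positivity)]
      exact (hle ω).trans ((le_abs_self _).trans (hb ω))
  refine (pathE_mono hD hζ (k + 1) 0 hHH t6 t5 hle).trans ?_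
  rw [pathE_mul, pathE_add hD hζ (k + 1) 0 hHH (Tame.const hD 1) (Tame.mul hD (Tame.const hD 8) t4),
    pathE_const hD hζ (k + 1) 0 hHH, pathE_mul, e4]
  have h5 : ∀ l, pathE (m2 m M K) ζ (k + 1) 0 (fun ω => H (bp ω))
      (fun ω => z1 κ q ω l ^ 4 + z2 r ω l ^ 4) ≤ 6 := by
    intro l
    rw [pathE_add hD hζ (k + 1) 0 hHH (t1 l) (t2 l)]
    have h6 := mom_z1 (M := M) (K := K) (κ := κ) hβ hζ hH hq hqb l
    have h7 := mom_z2 (M := M) (K := K) (r := r) hβ hζ hH hr hrb l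
    linarith
  have h8 := Finset.sum_le_sum fun l (_ : l ∈ (Finset.univ : Finset (Fin K))) => h5 l
  simp only [Finset.sum_const, Finset.card_univ, Fintype.card_fin, nsmul_eq_mul] at h8
  calc ((K : ℝ) + 1) ^ 3 * (1 + 8 * _) ≤ ((K : ℝ) + 1) ^ 3 * (1 + 8 * ((K : ℝ) * 6)) := by
        refine mul_le_mul_of_nonneg_left ?_ (by positivity)
        linarith
    _ ≤ ((K : ℝ) + 1) ^ 3 * (48 * ((K : ℝ) + 1)) := by
        refine mul_le_mul_of_nonneg_left ?_ (by positivity)
        linarith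
    _ = 48 * ((K : ℝ) + 1) ^ 4 := by ring

end Crest.Agent.RI
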