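import Crest.Agent.RI.DecB0
import Crest.Agent.RI.DecM

/-!
# Row 164, decoupling: bounds
-/

set_option autoImplicit false

namespace Crest.Agent.RI

open MeasureTheory ProbabilityTheory

variable {E : Type} [MeasurableSpace E] {M K k : ℕ}
variable {m : Measure E} [IsProbabilityMeasure m] {β : E → ℝ} {ζ : ℕ → ℝ}
variable {H : (Fin (k + 1) → E) → ℝ} {κ : Fin M → Fin K} {q : Fin M → (Fin (k + 1) → E) → ℝ}
variable {r : ℕ → Fin K → ℝ} {U : (Fin K → ℝ) → (Fin (k + 1) → E) → ℝ}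
variable {U1 U2 : Fin K → (Fin K → ℝ) → (Fin (k + 1) → E) → ℝ} {A B : ℝ}

/-- the decoupling error -/
noncomputable def decS (m : Measure E) (ζ : ℕ → ℝ) (H : (Fin (k + 1) → E) → ℝ) (κ : Fin M → Fin K)
    (q : Fin M → (Fin (k + 1) → E) → ℝ) (r : ℕ → Fin K → ℝ) : ℝ :=
  ∑ l, pathE m ζ (k + 1) 0 H (fun ω => |cv κ q l ω ω - c2 r k l|) +
    ∑ j ∈ Finset.range k, (ζ (j + 1) - ζ j) *
      ∑ l, pairE m ζ (j + 1) (k + 1) 0 H (fun ω ω' => |cv κ q l ω ω' - c2 r j l|)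

/-! ### elementary facts -/

omit [MeasurableSpace E] in
theorem DecC0_cv_le (hqb : ∀ ω, ∑ a, q a ω ^ 2 ≤ 1) (l : Fin K) (ω ω' : Fin (k + 1) → E) :
    |cv κ q l ω ω'| ≤ 1 := by
  have h1 : |cv κ q l ω ω'| ≤ ∑ a : Fin M, |q a ω| * |q a ω'| := by
    unfold cv
    refine (Finset.abs_sum_le_sum_abs _ _).trans (Finset.sum_le_sum fun a _ => ?_)
    split_ifs
    · rw [abs_mul]
    · rw [abs_zero]; positivity
  have h2 : ∑ a : Fin M, |q a ω| * |q a ω'| ≤ ∑ a : Fin M, (q a ω ^ 2 + q a ω' ^ 2) / 2 := by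
    refine Finset.sum_le_sum fun a _ => ?_
    have := sq_nonneg (|q a ω| - |q a ω'|)
    rw [← sq_abs (q a ω), ← sq_abs (q a ω')]
    nlinarith
  have h3 : ∑ a : Fin M, (q a ω ^ 2 + q a ω' ^ 2) / 2 ≤ 1 := by
    rw [← Finset.sum_div, Finset.sum_add_distrib]
    have := hqb ω
    have := hqb ω'
    linarith
  linarith

theorem DecC0_c2_mem (hr : ∀ i l, 0 ≤ r i l) (hrb : ∀ l, c2 r k l ≤ 1) {j : ℕ} (hj : j ≤ k)
    (l : Fin K) : 0 ≤ c2 r j l ∧ c2 r j l ≤ 1 := by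
  refine ⟨Finset.sum_nonneg fun i _ => hr i l, le_trans ?_ (hrb l)⟩
  unfold c2
  exact Finset.sum_le_sum_of_subset_of_nonneg (Finset.range_mono (by omega))
    (fun i _ _ => hr i l)

theorem DecC0_cv_meas (hq : ∀ a, Measurable (q a)) (l : Fin K) :
    Measurable (fun x : (Fin (k + 1) → E) × (Fin (k + 1) → E) => cv κ q l x.1 x.2) := by
  unfold cv
  refine Finset.measurable_sum _ fun a _ => ?_
  by_cases h : κ a = l
  · simp only [h, if_true]
    exact ((hq a).comp measurable_fst).mul ((hq a).comp measurable_snd)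
  · simp only [h, if_false]
    exact measurable_const

section tame
variable {E' : Type} [MeasurableSpace E'] {m' : Measure E'} {β' : E' → ℝ}

theorem DecC0_tame_bdd (hβ : Dom m' β') {n : ℕ} {Φ : (Fin n → E') → ℝ} (hm : Measurable Φ)
    {C : ℝ} (hC : 0 ≤ C) (hb : ∀ ω, |Φ ω| ≤ C) : Tame β' Φ := by
  refine ⟨hm, C, hC, fun ω => (hb ω).trans ?_⟩
  have hS : 0 ≤ ∑ i, β' (ω i) := Finset.sum_nonneg fun i _ => hβ.nonneg _
  have h1 : 1 ≤ Real.exp (C * ∑ i, β' (ω i)) := Real.one_le_exp (by positivity)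
  nlinarith

theorem DecC0_tame_abs {n : ℕ} {Φ : (Fin n → E') → ℝ} (h : Tame β' Φ) :
    Tame β' (fun ω => |Φ ω|) := by
  obtain ⟨C, hC, hb⟩ := h.bound
  exact ⟨measurable_abs.comp h.meas, C, hC, fun ω => by rw [abs_abs]; exact hb ω⟩

theorem DecC0_tame2_bdd (hβ : Dom m' β') {n : ℕ} {Φ : (Fin n → E') → (Fin n → E') → ℝ}
    (hm : Measurable (Function.uncurry Φ))
    {C : ℝ} (hC : 0 ≤ C) (hb : ∀ ω ω', |Φ ω ω'| ≤ C) : Tame2 β' Φ := by
  refine ⟨hm, C, hC, fun ω ω' => (hb ω ω').trans ?_⟩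
  have hS : 0 ≤ ∑ i, (β' (ω i) + β' (ω' i)) :=
    Finset.sum_nonneg fun i _ => add_nonneg (hβ.nonneg _) (hβ.nonneg _)
  have h1 : 1 ≤ Real.exp (C * ∑ i, (β' (ω i) + β' (ω' i))) := Real.one_le_exp (by positivity)
  nlinarith

theorem DecC0_tame2_left (hβ : Dom m' β') {n : ℕ} {Φ : (Fin n → E') → ℝ} (h : Tame β' Φ) :
    Tame2 β' (fun ω _ => Φ ω) := by
  obtain ⟨C, hC, hb⟩ := h.bound
  refine ⟨h.meas.comp measurable_fst, C, hC, fun ω ω' => (hb ω).trans ?_⟩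
  refine mul_le_mul_of_nonneg_left (Real.exp_le_exp.2 (mul_le_mul_of_nonneg_left ?_ hC)) hC
  refine Finset.sum_le_sum fun i _ => ?_
  have := hβ.nonneg (ω' i)
  linarith

end tame

/-- `S = 1 + Σ |zz|` -/
noncomputable def DecC0_S (κ : Fin M → Fin K) (q : Fin M → (Fin (k + 1) → E) → ℝ)
    (r : ℕ → Fin K → ℝ) (φ : ℝ) (ω : Fin (k + 1) → E2 E M K) : ℝ := 1 + ∑ l, |zz κ q r φ ω l|

theorem DecC0_S_pos (φ : ℝ) (ω : Fin (k + 1) → E2 E M K) : 1 ≤ DecC0_S κ q r φ ω := by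
  unfold DecC0_S
  have : 0 ≤ ∑ l, |zz κ q r φ ω l| := Finset.sum_nonneg fun _ _ => abs_nonneg _
  linarith

theorem DecC0_S_tame (h : DecH m β ζ k H κ q r U U1 U2 A B) (φ : ℝ) :
    Tame (β2 (M := M) (K := K) β) (DecC0_S κ q r φ) := by
  obtain ⟨D, hD, hb⟩ := DecA_zz_bound h
  have hβ2 := dom_m2 (M := M) (K := K) h.dom
  refine Ham.tame hβ2 ⟨?_, D, by linarith, fun ω => ?_⟩
  · have h1 := DecA_measurable_zz (κ := κ) (r := r) (M := M) (K := K) (k := k) h.qm φ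
    unfold DecC0_S
    refine measurable_const.add (Finset.measurable_sum _ fun l _ => ?_)
    exact measurable_abs.comp ((measurable_pi_apply l).comp h1)
  · rw [abs_of_nonneg (by have := DecC0_S_pos (κ := κ) (q := q) (r := r) φ ω; linarith)]
    exact hb φ ω

theorem DecC0_S4 (h : DecH m β ζ k H κ q r U U1 U2 A B) (φ : ℝ) :
    pathE (m2 m M K) ζ (k + 1) 0 (fun ω => H (bp ω)) (fun ω => DecC0_S κ q r φ ω ^ 4) ≤
      48 * ((K : ℝ) + 1) ^ 4 :=
  mom_zz h.dom h.exps h.ham h.qm h.qb h.r0 h.rb φ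

theorem DecC0_hamH (h : DecH m β ζ k H κ q r U U1 U2 A B) :
    Ham (β2 (M := M) (K := K) β) (fun ω : Fin (k + 1) → E2 E M K => H (bp ω)) := by
  obtain ⟨C, hC, hb⟩ := h.ham.bound
  refine ⟨h.ham.meas.comp DecA_measurable_bp, C, hC, fun ω => (hb (bp ω)).trans ?_⟩
  refine mul_le_mul_of_nonneg_left ?_ hC
  have h3 : ∑ i, β (bp ω i) ≤ ∑ j, β2 β (ω j) := by
    refine Finset.sum_le_sum fun j _ => ?_
    unfold β2 bp
    have : 0 ≤ ∑ a, |(ω j).2.1 a| := Finset.sum_nonneg fun _ _ => abs_nonneg _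
    have : 0 ≤ ∑ a, |(ω j).2.2 a| := Finset.sum_nonneg fun _ _ => abs_nonneg _
    linarith
  linarith

theorem DecC0_hamU (h : DecH m β ζ k H κ q r U U1 U2 A B) (φ : ℝ) :
    Ham (β2 (M := M) (K := K) β)
      (fun ω : Fin (k + 1) → E2 E M K => U (zz κ q r φ ω) (bp ω)) := by
  refine ⟨h.Um.comp ((DecA_measurable_zz h.qm φ).prodMk DecA_measurable_bp), A, h.A0,
    fun ω => (h.bU _ _).trans ?_⟩
  have h1 := DecA_sum_nonneg h.dom ω
  have h2 := h.A0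
  nlinarith

/-- from the square root bound -/
theorem DecC0_sqrt {X Y c : ℝ} (hc : 0 ≤ c) (hY : 0 ≤ Y) (h : X ^ 2 ≤ 48 * c ^ 4 * (2 * Y)) :
    X ≤ 20 * c ^ 2 * Real.sqrt Y := by
  apply le_of_sq_le_sq ?_ (by positivity)
  rw [mul_pow, mul_pow, Real.sq_sqrt hY]
  have : 0 ≤ c ^ 4 * Y := by positivity
  nlinarith

/-- (e) bound of the diagonal term.  PROOF: `pathE_abs_le`, `pathE_density_le` (`|U| ≤ A`: factor `exp (2A)`, `Hz φ = H∘bp + U`), Cauchy-Schwarz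
`pathE_cs`, `(|U2| + U1²)² ≤ (2 (B + B²) (1+Σ|z|)²)²`, `mom_zz`, `|cv - c2| ≤ 2` so `|cv - c2|² ≤ 2 |cv - c2|`, `pathE_fst`. -/
theorem dec_bound1 (h : DecH m β ζ k H κ q r U U1 U2 A B) (φ : ℝ) (l : Fin K) :
    |Eφ m ζ H κ q r U φ (fun ω => (U2 l (zz κ q r φ ω) (bp ω) +
          U1 l (zz κ q r φ ω) (bp ω) ^ 2) * (cv κ q l (bp ω) (bp ω) - c2 r k l))| ≤
      Real.exp (2 * A) * (20 * (B + B ^ 2) * ((K : ℝ) + 1) ^ 2) *
        Real.sqrt (pathE m ζ (k + 1) 0 H (fun ω => |cv κ q l ω ω - c2 r k l|)) := by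
  have hβ2 := dom_m2 (M := M) (K := K) h.dom
  have hH := DecC0_hamH h
  have hU := DecC0_hamU h φ
  obtain ⟨C1, hC1, hU1⟩ := tameC_U1 h l
  obtain ⟨C2, hC2, hU2⟩ := tameC_U2 h l
  have tU1 := (hU1 φ).tame hC1
  have tU2 := (hU2 φ).tame hC2
  have hB := h.B0
  -- the difference
  have hgm : Measurable (fun ω : Fin (k + 1) → E => cv κ q l ω ω - c2 r k l) :=
    ((DecC0_cv_meas (κ := κ) h.qm l).comp (measurable_id.prodMk measurable_id)).sub
      measurable_const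
  have hgb : ∀ ω : Fin (k + 1) → E, |cv κ q l ω ω - c2 r k l| ≤ 2 := by
    intro ω
    have h1 := DecC0_cv_le (κ := κ) h.qb l ω ω
    obtain ⟨h2, h3⟩ := DecC0_c2_mem (k := k) h.r0 h.rb le_rfl l
    rw [abs_le] at *
    constructor <;> linarith
  have tg : Tame (β2 (M := M) (K := K) β) (fun ω : Fin (k + 1) → E2 E M K =>
      cv κ q l (bp ω) (bp ω) - c2 r k l) :=
    DecC0_tame_bdd hβ2 (hgm.comp DecA_measurable_bp) zero_le_two (fun ω => hgb (bp ω))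
  have tga := DecC0_tame_abs tg
  have tS := DecC0_S_tame h φ
  have tS2 : Tame (β2 (M := M) (K := K) β) (fun ω => DecC0_S κ q r φ ω ^ 2) := by
    have := tS.mul hβ2 tS
    simpa only [sq] using this
  have tf : Tame (β2 (M := M) (K := K) β) (fun ω : Fin (k + 1) → E2 E M K =>
      (U2 l (zz κ q r φ ω) (bp ω) + U1 l (zz κ q r φ ω) (bp ω) ^ 2)) := by
    have := tU2.add hβ2 (tU1.mul hβ2 tU1)
    simpa only [sq] using this
  have tΦ := tf.mul hβ2 tg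
  -- chain
  have s1 := pathE_abs_le hβ2 h.exps (k + 1) 0 (hH.add hβ2 hU) tΦ
  have s2 := pathE_density_le hβ2 h.exps h.mono (k + 1) 0 hH hU (DecC0_tame_abs tΦ)
    (fun ω => abs_nonneg _) (A := A) (fun ω => h.bU _ _)
  have s3 := pathE_mono hβ2 h.exps (k + 1) 0 hH (DecC0_tame_abs tΦ)
    ((Tame.const hβ2 (B + B ^ 2)).mul hβ2 (tS2.mul hβ2 tga)) (fun ω => by
      rw [abs_mul, ← mul_assoc]
      refine mul_le_mul_of_nonneg_right ?_ (abs_nonneg _)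
      have e1 := h.bU1 l (zz κ q r φ ω) (bp ω)
      have e2 := h.bU2 l (zz κ q r φ ω) (bp ω)
      have e3 : |U1 l (zz κ q r φ ω) (bp ω) ^ 2| ≤ (B * DecC0_S κ q r φ ω) ^ 2 := by
        rw [abs_pow]
        exact pow_le_pow_left₀ (abs_nonneg _) e1 2
      refine (abs_add_le _ _).trans ?_
      calc |U2 l (zz κ q r φ ω) (bp ω)| + |U1 l (zz κ q r φ ω) (bp ω) ^ 2| ≤
          B * DecC0_S κ q r φ ω ^ 2 + (B * DecC0_S κ q r φ ω) ^ 2 := add_le_add e2 e3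
        _ = (B + B ^ 2) * DecC0_S κ q r φ ω ^ 2 := by ring)
  rw [pathE_mul] at s3
  have s4 := pathE_cs hβ2 h.exps (k + 1) 0 hH tS2 tga
  have s5 := DecC0_S4 h φ
  have s6 : pathE (m2 m M K) ζ (k + 1) 0 (fun ω => H (bp ω))
      (fun ω => |cv κ q l (bp ω) (bp ω) - c2 r k l| ^ 2) ≤
      2 * pathE (m2 m M K) ζ (k + 1) 0 (fun ω => H (bp ω))
      (fun ω => |cv κ q l (bp ω) (bp ω) - c2 r k l|) := by
    rw [← pathE_mul]
    refine pathE_mono hβ2 h.exps (k + 1) 0 hH ?_ ((Tame.const hβ2 2).mul hβ2 tga) ?_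
    · have := tga.mul hβ2 tga
      simpa only [sq] using this
    · intro ω
      have := hgb (bp ω)
      rw [sq]
      exact mul_le_mul_of_nonneg_right this (abs_nonneg _)
  have s7 : pathE (m2 m M K) ζ (k + 1) 0 (fun ω => H (bp ω))
      (fun ω => |cv κ q l (bp ω) (bp ω) - c2 r k l|) =
      pathE m ζ (k + 1) 0 H (fun ω => |cv κ q l ω ω - c2 r k l|) :=
    pathE_fst (k + 1) 0 h.ham.meas (measurable_abs.comp hgm)
  have s8 : 0 ≤ pathE m ζ (k + 1) 0 H (fun ω => |cv κ q l ω ω - c2 r k l|) := by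
    have t1 : Tame β (fun ω : Fin (k + 1) → E => |cv κ q l ω ω - c2 r k l|) :=
      DecC0_tame_abs (DecC0_tame_bdd h.dom hgm zero_le_two hgb)
    have := pathE_mono h.dom h.exps (k + 1) 0 h.ham (Tame.const h.dom 0) t1
      (fun ω => abs_nonneg _)
    rwa [pathE_const h.dom h.exps (k + 1) 0 h.ham] at this
  rw [s7] at s6
  have s9 : pathE (m2 m M K) ζ (k + 1) 0 (fun ω => H (bp ω))
      (fun ω => DecC0_S κ q r φ ω ^ 2 * |cv κ q l (bp ω) (bp ω) - c2 r k l|) ≤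
      20 * ((K : ℝ) + 1) ^ 2 *
        Real.sqrt (pathE m ζ (k + 1) 0 H (fun ω => |cv κ q l ω ω - c2 r k l|)) := by
    apply DecC0_sqrt (by positivity) s8
    refine s4.trans ?_
    have e : (fun ω : Fin (k + 1) → E2 E M K => (DecC0_S κ q r φ ω ^ 2) ^ 2) =
        fun ω => DecC0_S κ q r φ ω ^ 4 := by
      funext ω; ring
    rw [e]
    refine mul_le_mul s5 s6 ?_ (by positivity)
    have t2 : Tame (β2 (M := M) (K := K) β) (fun ω : Fin (k + 1) → E2 E M K =>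
        |cv κ q l (bp ω) (bp ω) - c2 r k l| ^ 2) := by
      have := tga.mul hβ2 tga
      simpa only [sq] using this
    have := pathE_mono hβ2 h.exps (k + 1) 0 hH (Tame.const hβ2 0) t2 (fun ω => by positivity)
    rwa [pathE_const hβ2 h.exps (k + 1) 0 hH] at this
  have hBB : 0 ≤ B + B ^ 2 := by positivity
  calc _ ≤ _ := s1
    _ ≤ _ := s2
    _ ≤ Real.exp (2 * A) * ((B + B ^ 2) * (20 * ((K : ℝ) + 1) ^ 2 *
        Real.sqrt (pathE m ζ (k + 1) 0 H (fun ω => |cv κ q l ω ω - c2 r k l|)))) :=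
        mul_le_mul_of_nonneg_left (s3.trans (mul_le_mul_of_nonneg_left s9 hBB))
          (Real.exp_pos _).le
    _ = _ := by ring

/-- (f) bound of the off-diagonal terms: `pairE_abs_le`, `pairE_density_le` (factor `exp (4A)`), `pairE_cs`,
`(U1 U1')² ≤ ½ (U1⁴ + U1'⁴)`, `pairE_fst`, `pairE_swap`, `mom_zz`, `pairE_fst'`. -/
theorem dec_bound2 (h : DecH m β ζ k H κ q r U U1 U2 A B) (φ : ℝ) (l : Fin K) (j : ℕ)
    (hj : j ≤ k) :
    |pairE (m2 m M K) ζ (j + 1) (k + 1) 0 (Hz H κ q r U φ)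
            (fun ω ω' => U1 l (zz κ q r φ ω) (bp ω) * U1 l (zz κ q r φ ω') (bp ω') *
              (cv κ q l (bp ω) (bp ω') - c2 r j l))| ≤
      Real.exp (4 * A) * (20 * B ^ 2 * ((K : ℝ) + 1) ^ 2) *
        Real.sqrt (pairE m ζ (j + 1) (k + 1) 0 H (fun ω ω' => |cv κ q l ω ω' - c2 r j l|)) := by
  have hβ2 := dom_m2 (M := M) (K := K) h.dom
  have hH := DecC0_hamH h
  have hU := DecC0_hamU h φ
  obtain ⟨C1, hC1, hU1⟩ := tameC_U1 h l
  have tU1 := (hU1 φ).tame hC1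
  have hB := h.B0
  have hgm : Measurable (Function.uncurry (fun ω ω' : Fin (k + 1) → E =>
      cv κ q l ω ω' - c2 r j l)) :=
    (DecC0_cv_meas (κ := κ) h.qm l).sub measurable_const
  have hgb : ∀ ω ω' : Fin (k + 1) → E, |cv κ q l ω ω' - c2 r j l| ≤ 2 := by
    intro ω ω'
    have h1 := DecC0_cv_le (κ := κ) h.qb l ω ω'
    obtain ⟨h2, h3⟩ := DecC0_c2_mem (k := k) h.r0 h.rb hj l
    rw [abs_le] at *
    constructor <;> linarith
  have hbb : Measurable (fun x : (Fin (k + 1) → E2 E M K) × (Fin (k + 1) → E2 E M K) =>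
      (bp x.1, bp x.2)) :=
    (DecA_measurable_bp.comp measurable_fst).prodMk (DecA_measurable_bp.comp measurable_snd)
  have tg : Tame2 (β2 (M := M) (K := K) β) (fun ω ω' : Fin (k + 1) → E2 E M K =>
      cv κ q l (bp ω) (bp ω') - c2 r j l) :=
    DecC0_tame2_bdd hβ2 (hgm.comp hbb) zero_le_two (fun ω ω' => hgb (bp ω) (bp ω'))
  have tga := TPairA_t2_abs tg
  have tS := DecC0_S_tame h φ
  have tSl := DecC0_tame2_left hβ2 tS
  have tSr := TPairA_t2_swap tSl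
  have tSS := TPairA_t2_mul hβ2 tSl tSr
  have tUl := DecC0_tame2_left hβ2 tU1
  have tUr := TPairA_t2_swap tUl
  have tΦ := TPairA_t2_mul hβ2 (TPairA_t2_mul hβ2 tUl tUr) tg
  have s1 := pairE_abs_le hβ2 h.exps (j + 1) (k + 1) 0 (hH.add hβ2 hU) tΦ
  have s2 := pairE_density_le hβ2 h.exps h.mono (j + 1) (k + 1) 0 hH hU (TPairA_t2_abs tΦ)
    (fun ω ω' => abs_nonneg _) (A := A) (fun ω => h.bU _ _)
  have s3 := pairE_mono hβ2 h.exps (j + 1) (k + 1) 0 hH (TPairA_t2_abs tΦ)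
    (TPairA_t2_cmul hβ2 (TPairA_t2_mul hβ2 tSS tga) (B ^ 2)) (fun ω ω' => by
      rw [abs_mul, abs_mul, ← mul_assoc]
      refine mul_le_mul_of_nonneg_right ?_ (abs_nonneg _)
      have e1 := h.bU1 l (zz κ q r φ ω) (bp ω)
      have e2 := h.bU1 l (zz κ q r φ ω') (bp ω')
      have p1 := DecC0_S_pos (κ := κ) (q := q) (r := r) φ ω
      calc |U1 l (zz κ q r φ ω) (bp ω)| * |U1 l (zz κ q r φ ω') (bp ω')| ≤
          (B * DecC0_S κ q r φ ω) * (B * DecC0_S κ q r φ ω') :=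
            mul_le_mul e1 e2 (abs_nonneg _) (by positivity)
        _ = B ^ 2 * (DecC0_S κ q r φ ω * DecC0_S κ q r φ ω') := by ring)
  rw [pairE_cmul] at s3
  have s4 := pairE_cs hβ2 h.exps (j + 1) (k + 1) 0 hH tSS tga
  have tS4 : Tame (β2 (M := M) (K := K) β) (fun ω => DecC0_S κ q r φ ω ^ 4) := by
    have := (tS.mul hβ2 tS).mul hβ2 (tS.mul hβ2 tS)
    have e : (fun ω : Fin (k + 1) → E2 E M K => DecC0_S κ q r φ ω ^ 4) =
        fun ω => DecC0_S κ q r φ ω * DecC0_S κ q r φ ω *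
          (DecC0_S κ q r φ ω * DecC0_S κ q r φ ω) := by
      funext ω; ring
    rw [e]; exact this
  have s5 : pairE (m2 m M K) ζ (j + 1) (k + 1) 0 (fun ω => H (bp ω))
      (fun ω ω' => (DecC0_S κ q r φ ω * DecC0_S κ q r φ ω') ^ 2) ≤ 48 * ((K : ℝ) + 1) ^ 4 := by
    have tl := DecC0_tame2_left hβ2 tS4
    have tr := TPairA_t2_swap tl
    have t0 : Tame2 (β2 (M := M) (K := K) β) (fun ω ω' : Fin (k + 1) → E2 E M K =>
        (DecC0_S κ q r φ ω * DecC0_S κ q r φ ω') ^ 2) := by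
      have := TPairA_t2_mul hβ2 tSS tSS
      simpa only [sq] using this
    have u1 := pairE_mono hβ2 h.exps (j + 1) (k + 1) 0 hH t0
      (TPairA_t2_cmul hβ2 (TPairA_t2_add hβ2 tl tr) (1 / 2)) (fun ω ω' => by
        have := sq_nonneg (DecC0_S κ q r φ ω ^ 2 - DecC0_S κ q r φ ω' ^ 2)
        nlinarith)
    rw [pairE_cmul, pairE_add hβ2 h.exps _ _ _ hH tl tr] at u1
    have u2 : pairE (m2 m M K) ζ (j + 1) (k + 1) 0 (fun ω => H (bp ω))
        (fun ω _ => DecC0_S κ q r φ ω ^ 4) ≤ 48 * ((K : ℝ) + 1) ^ 4 := by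
      rw [pairE_fst hβ2 h.exps _ _ _ hH tS4]
      exact DecC0_S4 h φ
    have u3 : pairE (m2 m M K) ζ (j + 1) (k + 1) 0 (fun ω => H (bp ω))
        (fun _ ω' => DecC0_S κ q r φ ω' ^ 4) ≤ 48 * ((K : ℝ) + 1) ^ 4 := by
      have := pairE_swap hβ2 h.exps (j + 1) (k + 1) 0 hH tl
      rw [this]
      exact u2
    linarith
  have tg2 : Tame2 (β2 (M := M) (K := K) β) (fun ω ω' : Fin (k + 1) → E2 E M K =>
        |cv κ q l (bp ω) (bp ω') - c2 r j l| ^ 2) := by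
    have := TPairA_t2_mul hβ2 tga tga
    simpa only [sq] using this
  have s6 : pairE (m2 m M K) ζ (j + 1) (k + 1) 0 (fun ω => H (bp ω))
      (fun ω ω' => |cv κ q l (bp ω) (bp ω') - c2 r j l| ^ 2) ≤
      2 * pairE (m2 m M K) ζ (j + 1) (k + 1) 0 (fun ω => H (bp ω))
      (fun ω ω' => |cv κ q l (bp ω) (bp ω') - c2 r j l|) := by
    rw [← pairE_cmul]
    refine pairE_mono hβ2 h.exps _ _ _ hH tg2 (TPairA_t2_cmul hβ2 tga 2) ?_
    intro ω ω'
    have := hgb (bp ω) (bp ω')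
    rw [sq]
    exact mul_le_mul_of_nonneg_right this (abs_nonneg _)
  have s7 : pairE (m2 m M K) ζ (j + 1) (k + 1) 0 (fun ω => H (bp ω))
      (fun ω ω' => |cv κ q l (bp ω) (bp ω') - c2 r j l|) =
      pairE m ζ (j + 1) (k + 1) 0 H (fun ω ω' => |cv κ q l ω ω' - c2 r j l|) :=
    pairE_fst' (j + 1) (k + 1) 0 (Φ := fun ω ω' => |cv κ q l ω ω' - c2 r j l|) h.ham.meas
      (measurable_abs.comp hgm)
  have s8 : 0 ≤ pairE m ζ (j + 1) (k + 1) 0 H (fun ω ω' => |cv κ q l ω ω' - c2 r j l|) := by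
    have t1 : Tame2 β (fun ω ω' : Fin (k + 1) → E => |cv κ q l ω ω' - c2 r j l|) :=
      TPairA_t2_abs (DecC0_tame2_bdd h.dom hgm zero_le_two hgb)
    have := pairE_mono h.dom h.exps (j + 1) (k + 1) 0 h.ham (TPairA_t2_const 0 h.dom) t1
      (fun ω ω' => abs_nonneg _)
    rwa [pairE_const h.dom h.exps _ _ _ h.ham] at this
  rw [s7] at s6
  have s9 : pairE (m2 m M K) ζ (j + 1) (k + 1) 0 (fun ω => H (bp ω))
      (fun ω ω' => DecC0_S κ q r φ ω * DecC0_S κ q r φ ω' *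
        |cv κ q l (bp ω) (bp ω') - c2 r j l|) ≤
      20 * ((K : ℝ) + 1) ^ 2 *
        Real.sqrt (pairE m ζ (j + 1) (k + 1) 0 H (fun ω ω' => |cv κ q l ω ω' - c2 r j l|)) := by
    apply DecC0_sqrt (by positivity) s8
    refine s4.trans ?_
    refine mul_le_mul s5 s6 ?_ (by positivity)
    have := pairE_mono hβ2 h.exps (j + 1) (k + 1) 0 hH (TPairA_t2_const 0 hβ2) tg2
      (fun ω ω' => by positivity)
    rwa [pairE_const hβ2 h.exps _ _ _ hH] at this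
  have hBB : 0 ≤ B ^ 2 := by positivity
  calc _ ≤ _ := s1
    _ ≤ _ := s2
    _ ≤ Real.exp (4 * A) * (B ^ 2 * (20 * ((K : ℝ) + 1) ^ 2 *
        Real.sqrt (pairE m ζ (j + 1) (k + 1) 0 H (fun ω ω' => |cv κ q l ω ω' - c2 r j l|)))) :=
        mul_le_mul_of_nonneg_left (s3.trans (mul_le_mul_of_nonneg_left s9 hBB))
          (Real.exp_pos _).le
    _ = _ := by ring

end Crest.Agent.RI
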