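import Crest.Agent.RI.DecB1
import Crest.Agent.RI.DecB2
import Crest.Agent.RI.DecC0

/-!
# Row 164, decoupling: conclusion
-/

set_option autoImplicit false

namespace Crest.Agent.RI

open MeasureTheory ProbabilityTheory

variable {E : Type} [MeasurableSpace E] {M K k : ℕ}
variable {m : Measure E} [IsProbabilityMeasure m] {β : E → ℝ} {ζ : ℕ → ℝ}
variable {H : (Fin (k + 1) → E) → ℝ} {κ : Fin M → Fin K} {q : Fin M → (Fin (k + 1) → E) → ℝ}
variable {r : ℕ → Fin K → ℝ} {U : (Fin K → ℝ) → (Fin (k + 1) → E) → ℝ}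
variable {U1 U2 : Fin K → (Fin K → ℝ) → (Fin (k + 1) → E) → ℝ} {A B : ℝ}

theorem DecC_pathE_nonneg {E' : Type} [MeasurableSpace E'] (m' : Measure E') (n : ℕ) :
    ∀ (i : ℕ) (H' Φ : (Fin n → E') → ℝ), (∀ ω, 0 ≤ Φ ω) → 0 ≤ pathE m' ζ n i H' Φ := by
  induction n with
  | zero => intro i H' Φ h; exact h _
  | succ n ih =>
    intro i H' Φ h
    exact integral_nonneg fun e => mul_nonneg (wgt_pos m' ζ n i H' e).le
      (ih (i + 1) _ _ fun ω => h _)

theorem DecC_pairE_nonneg {E' : Type} [MeasurableSpace E'] (m' : Measure E') (r' : ℕ) :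
    ∀ (n i : ℕ) (H' : (Fin n → E') → ℝ) (Φ : (Fin n → E') → (Fin n → E') → ℝ),
      (∀ ω ω', 0 ≤ Φ ω ω') → 0 ≤ pairE m' ζ r' n i H' Φ := by
  induction r' with
  | zero =>
    intro n i H' Φ h
    simp only [pairE]
    exact DecC_pathE_nonneg m' n i H' _ fun ω => DecC_pathE_nonneg m' n i H' _ fun ω' => h ω ω'
  | succ r' ih =>
    intro n
    cases n with
    | zero =>
      intro i H' Φ h
      exact h _ _
    | succ n =>
      intro i H' Φ h
      exact integral_nonneg fun e => mul_nonneg (wgt_pos m' ζ n i H' e).le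
        (ih n (i + 1) _ _ fun ω ω' => h _ _)

theorem DecC_tame2_left {E' : Type} [MeasurableSpace E'] {m' : Measure E'} {β' : E' → ℝ}
    (hβ : Dom m' β') {n : ℕ} {Φ : (Fin n → E') → ℝ} (h : Tame β' Φ) :
    Tame2 β' (fun (ω _ω' : Fin n → E') => Φ ω) := by
  obtain ⟨C, hC, hb⟩ := h.bound
  refine ⟨h.meas.comp measurable_fst, C, hC, fun ω ω' => (hb ω).trans ?_⟩
  refine mul_le_mul_of_nonneg_left (Real.exp_le_exp.2 (mul_le_mul_of_nonneg_left ?_ hC)) hC
  refine Finset.sum_le_sum fun j _ => ?_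
  have := hβ.nonneg (ω' j)
  linarith

theorem DecC_tame2_right {E' : Type} [MeasurableSpace E'] {m' : Measure E'} {β' : E' → ℝ}
    (hβ : Dom m' β') {n : ℕ} {Φ : (Fin n → E') → ℝ} (h : Tame β' Φ) :
    Tame2 β' (fun (_ω ω' : Fin n → E') => Φ ω') :=
  TPairA_t2_swap (DecC_tame2_left hβ h)

theorem DecC_tame_diag {E' : Type} [MeasurableSpace E'] {m' : Measure E'} {β' : E' → ℝ}
    (_hβ : Dom m' β') {n : ℕ} {Φ : (Fin n → E') → (Fin n → E') → ℝ} (h : Tame2 β' Φ) :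
    Tame β' (fun ω : Fin n → E' => Φ ω ω) := by
  obtain ⟨C, hC, hb⟩ := h.bound
  refine ⟨h.meas.comp (measurable_id.prodMk measurable_id), 2 * C, by positivity,
    fun ω => (hb ω ω).trans ?_⟩
  have e : C * ∑ j, (β' (ω j) + β' (ω j)) = 2 * C * ∑ j, β' (ω j) := by
    rw [Finset.sum_add_distrib]; ring
  rw [e]
  exact mul_le_mul_of_nonneg_right (by linarith) (Real.exp_pos _).le

theorem DecC_pathE_sub {E' : Type} [MeasurableSpace E'] {m' : Measure E'}
    [IsProbabilityMeasure m'] {β' : E' → ℝ}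
    (hβ : Dom m' β') (hζ : Exps ζ) (n i : ℕ) {H' Φ Ψ : (Fin n → E') → ℝ} (hH : Ham β' H')
    (hΦ : Tame β' Φ) (hΨ : Tame β' Ψ) :
    pathE m' ζ n i H' (fun ω => Φ ω - Ψ ω) = pathE m' ζ n i H' Φ - pathE m' ζ n i H' Ψ := by
  have h1 := pathE_add hβ hζ n i hH hΦ ((Tame.const hβ (-1)).mul hβ hΨ)
  rw [pathE_mul] at h1
  have e : (fun ω => Φ ω - Ψ ω) = fun ω => Φ ω + -1 * Ψ ω := by funext ω; ring
  rw [e, h1]; ring

theorem DecC_pairE_sub {E' : Type} [MeasurableSpace E'] {m' : Measure E'}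
    [IsProbabilityMeasure m'] {β' : E' → ℝ}
    (hβ : Dom m' β') (hζ : Exps ζ) (r' n i : ℕ) {H' : (Fin n → E') → ℝ}
    {Φ Ψ : (Fin n → E') → (Fin n → E') → ℝ} (hH : Ham β' H')
    (hΦ : Tame2 β' Φ) (hΨ : Tame2 β' Ψ) :
    pairE m' ζ r' n i H' (fun ω ω' => Φ ω ω' - Ψ ω ω') =
      pairE m' ζ r' n i H' Φ - pairE m' ζ r' n i H' Ψ := by
  have h1 := pairE_add hβ hζ r' n i hH hΦ (TPairA_t2_cmul hβ hΨ (-1))
  rw [pairE_cmul] at h1
  have e : (fun ω ω' => Φ ω ω' - Ψ ω ω') = fun ω ω' => Φ ω ω' + -1 * Ψ ω ω' := by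
    funext ω ω'; ring
  rw [e, h1]; ring

theorem DecC_tame_sum {E' : Type} [MeasurableSpace E'] {m' : Measure E'}
    [IsProbabilityMeasure m'] {β' : E' → ℝ} (hβ : Dom m' β') {n : ℕ} {ι : Type} (s : Finset ι)
    {Φ : ι → (Fin n → E') → ℝ} (h : ∀ i, Tame β' (Φ i)) :
    Tame β' (fun ω => ∑ i ∈ s, Φ i ω) := by
  classical
  induction s using Finset.induction_on with
  | empty => simpa using Tame.const (n := n) hβ 0
  | insert a s ha ih =>
    simp only [Finset.sum_insert ha]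
    exact (h a).add hβ ih

theorem DecC_pathE_sum {E' : Type} [MeasurableSpace E'] {m' : Measure E'}
    [IsProbabilityMeasure m'] {β' : E' → ℝ} (hβ : Dom m' β') (hζ : Exps ζ) (n i : ℕ)
    {H' : (Fin n → E') → ℝ} (hH : Ham β' H') {ι : Type} (s : Finset ι)
    {Φ : ι → (Fin n → E') → ℝ} (h : ∀ i, Tame β' (Φ i)) :
    pathE m' ζ n i H' (fun ω => ∑ l ∈ s, Φ l ω) = ∑ l ∈ s, pathE m' ζ n i H' (Φ l) := by
  classical
  induction s using Finset.induction_on with
  | empty => simpa using pathE_const hβ hζ n i hH 0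
  | insert a s ha ih =>
    simp only [Finset.sum_insert ha]
    rw [pathE_add hβ hζ n i hH (h a) (DecC_tame_sum hβ s h), ih]

theorem DecC_abs_cv (hqb : ∀ ω, ∑ a, q a ω ^ 2 ≤ 1) (l : Fin K) (ω ω' : Fin (k + 1) → E) :
    |cv κ q l ω ω'| ≤ 1 := by
  have h1 : |cv κ q l ω ω'| ≤ ∑ a, (q a ω ^ 2 + q a ω' ^ 2) / 2 := by
    unfold cv
    refine (Finset.abs_sum_le_sum_abs _ _).trans (Finset.sum_le_sum fun a _ => ?_)
    by_cases h : κ a = l
    · rw [if_pos h, abs_mul]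
      nlinarith [sq_nonneg (|q a ω| - |q a ω'|), sq_abs (q a ω), sq_abs (q a ω')]
    · rw [if_neg h, abs_zero]
      positivity
  rw [← Finset.sum_div, Finset.sum_add_distrib] at h1
  have h2 := hqb ω
  have h3 := hqb ω'
  linarith

theorem DecC_measurable_cv (hq : ∀ a, Measurable (q a)) (l : Fin K) :
    Measurable (fun p : (Fin (k + 1) → E) × (Fin (k + 1) → E) => cv κ q l p.1 p.2) := by
  unfold cv
  refine Finset.measurable_sum _ fun a _ => ?_
  by_cases h : κ a = l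
  · simp only [if_pos h]
    exact ((hq a).comp measurable_fst).mul ((hq a).comp measurable_snd)
  · simp only [if_neg h]
    exact measurable_const

theorem DecC_tame2_cv (h : DecH m β ζ k H κ q r U U1 U2 A B) (l : Fin K) :
    Tame2 (β2 (M := M) (K := K) β) (fun ω ω' : Fin (k + 1) → E2 E M K =>
      cv κ q l (bp ω) (bp ω')) := by
  have hd := dom_m2 (M := M) (K := K) h.dom
  refine ⟨(DecC_measurable_cv h.qm l).comp ((DecA_measurable_bp.comp measurable_fst).prodMk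
    (DecA_measurable_bp.comp measurable_snd)), 1, zero_le_one, fun ω ω' => ?_⟩
  refine (DecC_abs_cv h.qb l _ _).trans ?_
  rw [one_mul, one_mul]
  refine Real.one_le_exp (Finset.sum_nonneg fun j _ => add_nonneg (hd.nonneg _) (hd.nonneg _))

/-- (d) the derivative: combination of (a), (b), (c) -/
theorem dec_deriv2 (h : DecH m β ζ k H κ q r U U1 U2 A B) (φ : ℝ) :
    HasDerivAt (fun φ => nest (m2 m M K) ζ (k + 1) 0 (Hz H κ q r U φ))
      (Real.sin φ * Real.cos φ * ∑ l, (Eφ m ζ H κ q r U φ (fun ω => (U2 l (zz κ q r φ ω) (bp ω) +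
          U1 l (zz κ q r φ ω) (bp ω) ^ 2) * (cv κ q l (bp ω) (bp ω) - c2 r k l)) -
        ∑ j ∈ Finset.range k, (ζ (j + 1) - ζ j) *
          pairE (m2 m M K) ζ (j + 1) (k + 1) 0 (Hz H κ q r U φ)
            (fun ω ω' => U1 l (zz κ q r φ ω) (bp ω) * U1 l (zz κ q r φ ω') (bp ω') *
              (cv κ q l (bp ω) (bp ω') - c2 r j l)))) φ := by
  have hd := dom_m2 (M := M) (K := K) h.dom
  have hHz : Ham (β2 (M := M) (K := K) β) (Hz H κ q r U φ) := by
    obtain ⟨C, hC, hb⟩ := hamC_Hz h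
    exact (hb φ).ham hC
  have t1 : ∀ l, Tame (β2 (M := M) (K := K) β)
      (fun ω : Fin (k + 1) → E2 E M K => U1 l (zz κ q r φ ω) (bp ω)) := fun l => by
    obtain ⟨C, hC, hb⟩ := tameC_U1 h l
    exact (hb φ).tame hC
  have t2 : ∀ l, Tame (β2 (M := M) (K := K) β)
      (fun ω : Fin (k + 1) → E2 E M K => U2 l (zz κ q r φ ω) (bp ω)) := fun l => by
    obtain ⟨C, hC, hb⟩ := tameC_U2 h l
    exact (hb φ).tame hC
  have tz1 : ∀ l, Tame (β2 (M := M) (K := K) β)
      (fun ω : Fin (k + 1) → E2 E M K => z1 κ q ω l) :=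
    fun l => (ham_z1 h.dom h.qm h.qb l).tame hd
  have tz2 : ∀ l, Tame (β2 (M := M) (K := K) β)
      (fun ω : Fin (k + 1) → E2 E M K => z2 r ω l) :=
    fun l => (ham_z2 h.dom l).tame hd
  have tc := fun l => DecC_tame2_cv (M := M) (K := K) h l
  have e1 : Eφ m ζ H κ q r U φ (fun ω => ∑ l, U1 l (zz κ q r φ ω) (bp ω) *
        (Real.cos φ * z1 κ q ω l - Real.sin φ * z2 r ω l)) =
      ∑ l, (Real.cos φ * Eφ m ζ H κ q r U φ (fun ω => U1 l (zz κ q r φ ω) (bp ω) * z1 κ q ω l) -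
        Real.sin φ * Eφ m ζ H κ q r U φ (fun ω => U1 l (zz κ q r φ ω) (bp ω) * z2 r ω l)) := by
    unfold Eφ
    rw [DecC_pathE_sum hd h.exps _ _ hHz]
    · refine Finset.sum_congr rfl fun l _ => ?_
      have e : (fun ω : Fin (k + 1) → E2 E M K => U1 l (zz κ q r φ ω) (bp ω) *
          (Real.cos φ * z1 κ q ω l - Real.sin φ * z2 r ω l)) =
          fun ω => Real.cos φ * (U1 l (zz κ q r φ ω) (bp ω) * z1 κ q ω l) -
            Real.sin φ * (U1 l (zz κ q r φ ω) (bp ω) * z2 r ω l) := by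
        funext ω; ring
      rw [e, DecC_pathE_sub hd h.exps _ _ hHz
        ((Tame.const hd (Real.cos φ)).mul hd ((t1 l).mul hd (tz1 l)))
        ((Tame.const hd (Real.sin φ)).mul hd ((t1 l).mul hd (tz2 l))), pathE_mul, pathE_mul]
    · intro l
      have e : (fun ω : Fin (k + 1) → E2 E M K => U1 l (zz κ q r φ ω) (bp ω) *
          (Real.cos φ * z1 κ q ω l - Real.sin φ * z2 r ω l)) =
          fun ω => (Real.cos φ * (U1 l (zz κ q r φ ω) (bp ω) * z1 κ q ω l)) +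
            (-Real.sin φ) * (U1 l (zz κ q r φ ω) (bp ω) * z2 r ω l) := by
        funext ω; ring
      rw [e]
      exact ((Tame.const hd (Real.cos φ)).mul hd ((t1 l).mul hd (tz1 l))).add hd
        ((Tame.const hd (-Real.sin φ)).mul hd ((t1 l).mul hd (tz2 l)))
  have t3 : ∀ l, Tame (β2 (M := M) (K := K) β)
      (fun ω : Fin (k + 1) → E2 E M K => U2 l (zz κ q r φ ω) (bp ω) +
          U1 l (zz κ q r φ ω) (bp ω) ^ 2) := fun l => by
    have e : (fun ω : Fin (k + 1) → E2 E M K => U2 l (zz κ q r φ ω) (bp ω) +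
          U1 l (zz κ q r φ ω) (bp ω) ^ 2) = fun ω => U2 l (zz κ q r φ ω) (bp ω) +
          U1 l (zz κ q r φ ω) (bp ω) * U1 l (zz κ q r φ ω) (bp ω) := by funext ω; ring
    rw [e]
    exact (t2 l).add hd ((t1 l).mul hd (t1 l))
  have e2 : ∀ l, Eφ m ζ H κ q r U φ (fun ω => (U2 l (zz κ q r φ ω) (bp ω) +
          U1 l (zz κ q r φ ω) (bp ω) ^ 2) * (cv κ q l (bp ω) (bp ω) - c2 r k l)) =
      Eφ m ζ H κ q r U φ (fun ω => (U2 l (zz κ q r φ ω) (bp ω) +
          U1 l (zz κ q r φ ω) (bp ω) ^ 2) * cv κ q l (bp ω) (bp ω)) -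
      Eφ m ζ H κ q r U φ (fun ω => (U2 l (zz κ q r φ ω) (bp ω) +
          U1 l (zz κ q r φ ω) (bp ω) ^ 2) * c2 r k l) := by
    intro l
    unfold Eφ
    rw [← DecC_pathE_sub hd h.exps _ _ hHz ((t3 l).mul hd (DecC_tame_diag hd (tc l)))
      ((t3 l).mul hd (Tame.const hd _))]
    congr 1
    funext ω
    ring
  have e3 : ∀ l j, pairE (m2 m M K) ζ (j + 1) (k + 1) 0 (Hz H κ q r U φ)
            (fun ω ω' => U1 l (zz κ q r φ ω) (bp ω) * U1 l (zz κ q r φ ω') (bp ω') *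
              (cv κ q l (bp ω) (bp ω') - c2 r j l)) =
      pairE (m2 m M K) ζ (j + 1) (k + 1) 0 (Hz H κ q r U φ)
            (fun ω ω' => U1 l (zz κ q r φ ω) (bp ω) * U1 l (zz κ q r φ ω') (bp ω') *
              cv κ q l (bp ω) (bp ω')) -
      pairE (m2 m M K) ζ (j + 1) (k + 1) 0 (Hz H κ q r U φ)
            (fun ω ω' => U1 l (zz κ q r φ ω) (bp ω) * U1 l (zz κ q r φ ω') (bp ω') *
              c2 r j l) := by
    intro l j
    have tu := TPairA_t2_mul hd (DecC_tame2_left hd (t1 l)) (DecC_tame2_right hd (t1 l))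
    rw [← DecC_pairE_sub hd h.exps _ _ _ hHz (TPairA_t2_mul hd tu (tc l))
      (TPairA_t2_mul hd tu (TPairA_t2_const _ hd))]
    congr 1
    funext ω ω'
    ring
  have e0 := dec_deriv h φ
  rw [e1] at e0
  convert e0 using 1
  rw [Finset.mul_sum]
  refine Finset.sum_congr rfl fun l _ => ?_
  have e4 : ∑ j ∈ Finset.range k, (ζ (j + 1) - ζ j) *
          pairE (m2 m M K) ζ (j + 1) (k + 1) 0 (Hz H κ q r U φ)
            (fun ω ω' => U1 l (zz κ q r φ ω) (bp ω) * U1 l (zz κ q r φ ω') (bp ω') *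
              (cv κ q l (bp ω) (bp ω') - c2 r j l)) =
      ∑ j ∈ Finset.range k, (ζ (j + 1) - ζ j) *
          pairE (m2 m M K) ζ (j + 1) (k + 1) 0 (Hz H κ q r U φ)
            (fun ω ω' => U1 l (zz κ q r φ ω) (bp ω) * U1 l (zz κ q r φ ω') (bp ω') *
              cv κ q l (bp ω) (bp ω')) -
      ∑ j ∈ Finset.range k, (ζ (j + 1) - ζ j) *
          pairE (m2 m M K) ζ (j + 1) (k + 1) 0 (Hz H κ q r U φ)
            (fun ω ω' => U1 l (zz κ q r φ ω) (bp ω) * U1 l (zz κ q r φ ω') (bp ω') *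
              c2 r j l) := by
    rw [← Finset.sum_sub_distrib]
    exact Finset.sum_congr rfl fun j _ => by rw [e3 l j, mul_sub]
  rw [dec_ibp1 h φ l, dec_ibp2 h φ l, e2 l, e4]
  ring

/-- (g) DECOUPLING.  PROOF: mean value inequality on `[0, π/2]` (`zz 0 = z2`, `zz (π/2) = z1`), `|sin φ cos φ| ≤ 1`, `Σ_l √a_l ≤ √K √Σ a_l`,
`Σ_j w_j √b_j ≤ √(Σ w_j b_j)` (`Σ_j w_j ≤ 1`, `w_j ≥ 0`). -/
theorem dec_main (h : DecH m β ζ k H κ q r U U1 U2 A B) :
    |nest (m2 m M K) ζ (k + 1) 0 (fun ω => H (bp ω) + U (z1 κ q ω) (bp ω)) -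
      nest (m2 m M K) ζ (k + 1) 0 (fun ω => H (bp ω) + U (z2 r ω) (bp ω))| ≤
      Real.exp (4 * A) * (200 * (B + B ^ 2) * ((K : ℝ) + 1) ^ 3) * Real.sqrt (decS m ζ H κ q r) := by
  set a : Fin K → ℝ := fun l => pathE m ζ (k + 1) 0 H (fun ω => |cv κ q l ω ω - c2 r k l|)
    with ha
  set b : Fin K → ℕ → ℝ := fun l j =>
    pairE m ζ (j + 1) (k + 1) 0 H (fun ω ω' => |cv κ q l ω ω' - c2 r j l|) with hb
  set w : ℕ → ℝ := fun j => ζ (j + 1) - ζ j with hw
  have ha0 : ∀ l, 0 ≤ a l := fun l => DecC_pathE_nonneg m _ _ _ _ fun ω => abs_nonneg _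
  have hb0 : ∀ l j, 0 ≤ b l j := fun l j =>
    DecC_pairE_nonneg m _ _ _ _ _ fun ω ω' => abs_nonneg _
  have hw0 : ∀ j, 0 ≤ w j := fun j => sub_nonneg.2 (h.mono (Nat.le_succ j))
  have hw1 : ∑ j ∈ Finset.range k, w j ≤ 1 := by
    rw [hw, Finset.sum_range_sub, h.last]
    have := (h.exps 0).1
    linarith
  set S := decS m ζ H κ q r with hS
  have hSe : S = ∑ l, a l + ∑ j ∈ Finset.range k, w j * ∑ l, b l j := rfl
  have hS1 : ∀ l, a l ≤ S := by
    intro l
    rw [hSe]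
    have h1 := Finset.single_le_sum (f := a) (fun l _ => ha0 l) (Finset.mem_univ l)
    have h2 : 0 ≤ ∑ j ∈ Finset.range k, w j * ∑ l, b l j :=
      Finset.sum_nonneg fun j _ => mul_nonneg (hw0 j) (Finset.sum_nonneg fun l _ => hb0 l j)
    linarith
  have hS2 : ∀ l, ∑ j ∈ Finset.range k, w j * b l j ≤ S := by
    intro l
    rw [hSe]
    have h1 : 0 ≤ ∑ l, a l := Finset.sum_nonneg fun l _ => ha0 l
    have h2 : ∑ j ∈ Finset.range k, w j * b l j ≤ ∑ j ∈ Finset.range k, w j * ∑ l, b l j :=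
      Finset.sum_le_sum fun j _ => mul_le_mul_of_nonneg_left
        (Finset.single_le_sum (f := fun l => b l j) (fun l _ => hb0 l j) (Finset.mem_univ l))
        (hw0 j)
    linarith
  have hS3 : ∀ l, ∑ j ∈ Finset.range k, w j * Real.sqrt (b l j) ≤ Real.sqrt S := by
    intro l
    have h1 := Real.sum_sqrt_mul_sqrt_le (Finset.range k) (f := w) (g := fun j => w j * b l j)
      hw0 (fun j => mul_nonneg (hw0 j) (hb0 l j))
    have h2 : ∀ j, Real.sqrt (w j) * Real.sqrt (w j * b l j) = w j * Real.sqrt (b l j) := by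
      intro j
      rw [Real.sqrt_mul (hw0 j), ← mul_assoc, Real.mul_self_sqrt (hw0 j)]
    simp only [h2] at h1
    refine h1.trans ?_
    calc Real.sqrt (∑ j ∈ Finset.range k, w j) *
          Real.sqrt (∑ j ∈ Finset.range k, w j * b l j) ≤ 1 * Real.sqrt S := by
          refine mul_le_mul ?_ (Real.sqrt_le_sqrt (hS2 l)) (Real.sqrt_nonneg _) zero_le_one
          have hsq := Real.sqrt_le_sqrt hw1
          rwa [Real.sqrt_one] at hsq
      _ = Real.sqrt S := one_mul _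
  have hB := h.B0
  have hA := h.A0
  have hK : (0 : ℝ) ≤ K := by positivity
  have hexp : Real.exp (2 * A) ≤ Real.exp (4 * A) := Real.exp_le_exp.2 (by linarith)
  set G : ℝ := Real.exp (4 * A) * (20 * (B + B ^ 2) * ((K : ℝ) + 1) ^ 2) with hG
  have hG0 : 0 ≤ G := by positivity
  have hsqS := Real.sqrt_nonneg S
  -- bound of the derivative
  have hder : ∀ φ : ℝ, ‖(Real.sin φ * Real.cos φ * ∑ l, (Eφ m ζ H κ q r U φ
      (fun ω => (U2 l (zz κ q r φ ω) (bp ω) +
          U1 l (zz κ q r φ ω) (bp ω) ^ 2) * (cv κ q l (bp ω) (bp ω) - c2 r k l)) -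
        ∑ j ∈ Finset.range k, (ζ (j + 1) - ζ j) *
          pairE (m2 m M K) ζ (j + 1) (k + 1) 0 (Hz H κ q r U φ)
            (fun ω ω' => U1 l (zz κ q r φ ω) (bp ω) * U1 l (zz κ q r φ ω') (bp ω') *
              (cv κ q l (bp ω) (bp ω') - c2 r j l))))‖ ≤
      Real.exp (4 * A) * (40 * (B + B ^ 2) * ((K : ℝ) + 1) ^ 3) * Real.sqrt S := by
    intro φ
    rw [norm_mul]
    have hsc : ‖Real.sin φ * Real.cos φ‖ ≤ 1 := by
      rw [norm_mul, Real.norm_eq_abs, Real.norm_eq_abs]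
      exact mul_le_one₀ (Real.abs_sin_le_one φ) (abs_nonneg _) (Real.abs_cos_le_one φ)
    have hterm : ∀ l : Fin K, ‖Eφ m ζ H κ q r U φ
      (fun ω => (U2 l (zz κ q r φ ω) (bp ω) +
          U1 l (zz κ q r φ ω) (bp ω) ^ 2) * (cv κ q l (bp ω) (bp ω) - c2 r k l)) -
        ∑ j ∈ Finset.range k, (ζ (j + 1) - ζ j) *
          pairE (m2 m M K) ζ (j + 1) (k + 1) 0 (Hz H κ q r U φ)
            (fun ω ω' => U1 l (zz κ q r φ ω) (bp ω) * U1 l (zz κ q r φ ω') (bp ω') *
              (cv κ q l (bp ω) (bp ω') - c2 r j l))‖ ≤ 2 * G * Real.sqrt S := by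
      intro l
      have b1 := dec_bound1 h φ l
      have b2 := fun (j : ℕ) (hj : j ≤ k) => dec_bound2 h φ l j hj
      refine (norm_sub_le _ _).trans ?_
      have c1 : ‖Eφ m ζ H κ q r U φ
          (fun ω => (U2 l (zz κ q r φ ω) (bp ω) +
          U1 l (zz κ q r φ ω) (bp ω) ^ 2) * (cv κ q l (bp ω) (bp ω) - c2 r k l))‖ ≤
          G * Real.sqrt S := by
        rw [Real.norm_eq_abs]
        refine b1.trans (mul_le_mul ?_ (Real.sqrt_le_sqrt (hS1 l)) (Real.sqrt_nonneg _) hG0)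
        exact mul_le_mul_of_nonneg_right hexp (by positivity)
      have c2' : ‖∑ j ∈ Finset.range k, (ζ (j + 1) - ζ j) *
          pairE (m2 m M K) ζ (j + 1) (k + 1) 0 (Hz H κ q r U φ)
            (fun ω ω' => U1 l (zz κ q r φ ω) (bp ω) * U1 l (zz κ q r φ ω') (bp ω') *
              (cv κ q l (bp ω) (bp ω') - c2 r j l))‖ ≤ G * Real.sqrt S := by
        refine (norm_sum_le _ _).trans ?_
        calc ∑ j ∈ Finset.range k, ‖(ζ (j + 1) - ζ j) *
              pairE (m2 m M K) ζ (j + 1) (k + 1) 0 (Hz H κ q r U φ)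
              (fun ω ω' => U1 l (zz κ q r φ ω) (bp ω) * U1 l (zz κ q r φ ω') (bp ω') *
              (cv κ q l (bp ω) (bp ω') - c2 r j l))‖
            ≤ ∑ j ∈ Finset.range k, G * (w j * Real.sqrt (b l j)) := by
              refine Finset.sum_le_sum fun j hj => ?_
              rw [norm_mul, Real.norm_eq_abs, Real.norm_eq_abs, abs_of_nonneg (hw0 j)]
              have d1 := mul_le_mul_of_nonneg_left (b2 j (Finset.mem_range.1 hj).le) (hw0 j)
              refine d1.trans ?_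
              have d2 : Real.exp (4 * A) * (20 * B ^ 2 * ((K : ℝ) + 1) ^ 2) ≤ G := by
                rw [hG]
                refine mul_le_mul_of_nonneg_left ?_ (Real.exp_pos _).le
                refine mul_le_mul_of_nonneg_right ?_ (by positivity)
                nlinarith
              have d3 := mul_le_mul_of_nonneg_right d2 (Real.sqrt_nonneg (b l j))
              have d4 := mul_le_mul_of_nonneg_left d3 (hw0 j)
              calc w j * (Real.exp (4 * A) * (20 * B ^ 2 * ((K : ℝ) + 1) ^ 2) *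
                    Real.sqrt (b l j)) ≤ w j * (G * Real.sqrt (b l j)) := d4
                _ = G * (w j * Real.sqrt (b l j)) := by ring
          _ = G * ∑ j ∈ Finset.range k, w j * Real.sqrt (b l j) := by rw [Finset.mul_sum]
          _ ≤ G * Real.sqrt S := mul_le_mul_of_nonneg_left (hS3 l) hG0
      linarith
    have hsum : ‖∑ l : Fin K, (Eφ m ζ H κ q r U φ
      (fun ω => (U2 l (zz κ q r φ ω) (bp ω) +
          U1 l (zz κ q r φ ω) (bp ω) ^ 2) * (cv κ q l (bp ω) (bp ω) - c2 r k l)) -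
        ∑ j ∈ Finset.range k, (ζ (j + 1) - ζ j) *
          pairE (m2 m M K) ζ (j + 1) (k + 1) 0 (Hz H κ q r U φ)
            (fun ω ω' => U1 l (zz κ q r φ ω) (bp ω) * U1 l (zz κ q r φ ω') (bp ω') *
              (cv κ q l (bp ω) (bp ω') - c2 r j l)))‖ ≤ K * (2 * G * Real.sqrt S) := by
      refine (norm_sum_le _ _).trans ?_
      refine (Finset.sum_le_sum fun l _ => hterm l).trans ?_
      simp
    have hfin : (K : ℝ) * (2 * G * Real.sqrt S) ≤
        Real.exp (4 * A) * (40 * (B + B ^ 2) * ((K : ℝ) + 1) ^ 3) * Real.sqrt S := by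
      have e : Real.exp (4 * A) * (40 * (B + B ^ 2) * ((K : ℝ) + 1) ^ 3) * Real.sqrt S =
          ((K : ℝ) + 1) * (2 * G * Real.sqrt S) := by
        rw [hG]; ring
      rw [e]
      exact mul_le_mul_of_nonneg_right (by linarith) (by positivity)
    calc _ ≤ 1 * (K * (2 * G * Real.sqrt S)) :=
          mul_le_mul hsc hsum (norm_nonneg _) zero_le_one
      _ ≤ _ := by rw [one_mul]; exact hfin
  have hmv := Convex.norm_image_sub_le_of_norm_hasDerivWithin_le (s := Set.univ)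
    (f := fun φ => nest (m2 m M K) ζ (k + 1) 0 (Hz H κ q r U φ))
    (fun φ _ => (dec_deriv2 h φ).hasDerivWithinAt) (fun φ _ => hder φ) convex_univ
    (Set.mem_univ (0 : ℝ)) (Set.mem_univ (Real.pi / 2))
  have f0 : Hz (M := M) H κ q r U 0 = fun ω => H (bp ω) + U (z2 r ω) (bp ω) := by
    funext ω
    unfold Hz
    congr 2
    funext l
    simp [zz]
  have f1 : Hz (M := M) H κ q r U (Real.pi / 2) = fun ω => H (bp ω) + U (z1 κ q ω) (bp ω) := by
    funext ω
    unfold Hz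
    congr 2
    funext l
    simp [zz]
  simp only [f0, f1] at hmv
  rw [Real.norm_eq_abs] at hmv
  refine hmv.trans ?_
  have hpi : ‖Real.pi / 2 - 0‖ ≤ 2 := by
    rw [sub_zero, Real.norm_eq_abs, abs_of_nonneg (by positivity)]
    linarith [Real.pi_le_four]
  have hpos : 0 ≤ Real.exp (4 * A) * (40 * (B + B ^ 2) * ((K : ℝ) + 1) ^ 3) * Real.sqrt S := by
    positivity
  calc _ ≤ Real.exp (4 * A) * (40 * (B + B ^ 2) * ((K : ℝ) + 1) ^ 3) * Real.sqrt S * 2 :=
        mul_le_mul_of_nonneg_left hpi hpos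
    _ ≤ _ := by
        have e : Real.exp (4 * A) * (200 * (B + B ^ 2) * ((K : ℝ) + 1) ^ 3) * Real.sqrt S =
          Real.exp (4 * A) * (40 * (B + B ^ 2) * ((K : ℝ) + 1) ^ 3) * Real.sqrt S * 5 := by ring
        rw [e]
        exact mul_le_mul_of_nonneg_left (by norm_num) hpos

end Crest.Agent.RI
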