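import Crest.Agent.RI.System

/-!
# Row 164: basic facts on the concrete system, part A (orthogonal matrices, measurability)
-/

set_option autoImplicit false

namespace Crest.Agent.RI

open MeasureTheory ProbabilityTheory

variable {N K : ℕ}

theorem spin_sq (b : Bool) : spin b ^ 2 = 1 := by
  cases b <;> simp [spin]

theorem abs_spin (b : Bool) : |spin b| = 1 := by
  cases b <;> simp [spin]

instance instProb_gvec (N : ℕ) : IsProbabilityMeasure (gvec N) := by
  unfold gvec; infer_instance

instance instProb_unifA (N : ℕ) : IsProbabilityMeasure (unifA N) := by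
  unfold unifA
  have : IsProbabilityMeasure ((2 : ENNReal)⁻¹ • (Measure.dirac true + Measure.dirac false : Measure Bool)) := by
    constructor
    simp only [Measure.smul_apply, Measure.add_apply, measure_univ, smul_eq_mul]
    rw [one_add_one_eq_two, ENNReal.inv_mul_cancel two_ne_zero ENNReal.ofNat_ne_top]
  infer_instance

theorem prob_mN {P : Measure (ON N)} (hP : HaarO P) (A : Measure (Fin N → Bool))
    [IsProbabilityMeasure A] : IsProbabilityMeasure (mN P A) := by
  have := hP.prob
  unfold mN
  infer_instance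

theorem exps_UB (k : ℕ) : Exps (ζUB k) := by
  intro i
  unfold ζUB
  exact ⟨le_min zero_le_one (by positivity), min_le_left _ _⟩

theorem exps_LB (k : ℕ) : Exps (ζLB k) := by
  intro i
  unfold ζLB
  exact ⟨le_min zero_le_one (by positivity), min_le_left _ _⟩

/-- `|Oσ|² = N`. PROOF: `∑_a (∑_r O a r s_r)² = ∑_{r,r'} s_r s_r' (OᵀO) r r' = ∑_r s_r² = N`
(`Matrix.mem_orthogonalGroup_iff'`). -/
theorem sum_rot_sq (O : ON N) (σ : Fin N → Bool) : ∑ a, rot O σ a ^ 2 = N := by
  have hO : (Matrix.of O.1).transpose * Matrix.of O.1 = 1 := by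
    have h := (Matrix.mem_orthogonalGroup_iff' (Fin N) ℝ).1 O.2
    simpa [Matrix.star_eq_conjTranspose] using h
  have hentry : ∀ r r' : Fin N, ∑ a, O.1 a r * O.1 a r' = if r = r' then 1 else 0 := by
    intro r r'
    have h := congrFun (congrFun hO r) r'
    simpa [Matrix.mul_apply, Matrix.one_apply] using h
  calc ∑ a, rot O σ a ^ 2
      = ∑ a, ∑ r : Fin N, ∑ r' : Fin N,
          (spin (σ r) * spin (σ r')) * (O.1 a r * O.1 a r') := by
        refine Finset.sum_congr rfl fun a _ => ?_
        unfold rot
        rw [pow_two, Finset.sum_mul_sum]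
        refine Finset.sum_congr rfl fun r _ => Finset.sum_congr rfl fun r' _ => ?_
        ring
    _ = ∑ r : Fin N, ∑ r' : Fin N, (spin (σ r) * spin (σ r')) * ∑ a, O.1 a r * O.1 a r' := by
        rw [Finset.sum_comm]
        refine Finset.sum_congr rfl fun r _ => ?_
        rw [Finset.sum_comm]
        refine Finset.sum_congr rfl fun r' _ => ?_
        rw [Finset.mul_sum]
    _ = ∑ r : Fin N, ∑ r' : Fin N, (spin (σ r) * spin (σ r')) * (if r = r' then 1 else 0) := by
        refine Finset.sum_congr rfl fun r _ => Finset.sum_congr rfl fun r' _ => ?_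
        rw [hentry]
    _ = ∑ r : Fin N, spin (σ r) * spin (σ r) := by
        refine Finset.sum_congr rfl fun r _ => ?_
        simp
    _ = N := by
        have : ∀ r : Fin N, spin (σ r) * spin (σ r) = 1 := by
          intro r; rw [← pow_two]; exact spin_sq _
        simp [this]

/-- PROOF: `rot² ≤ N ≤ N²` by `sum_rot_sq` (a `Fin N` exists so `1 ≤ N`). -/
theorem abs_rot_le (O : ON N) (σ : Fin N → Bool) (a : Fin N) : |rot O σ a| ≤ N := by
  have h1 : rot O σ a ^ 2 ≤ N := by
    rw [← sum_rot_sq O σ]
    exact Finset.single_le_sum (f := fun a => rot O σ a ^ 2) (fun _ _ => sq_nonneg _)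
      (Finset.mem_univ a)
  have hN : (1 : ℝ) ≤ N := by
    have : 0 < N := lt_of_le_of_lt (Nat.zero_le _) a.2
    exact_mod_cast this
  refine abs_le_of_sq_le_sq ?_ (by positivity)
  nlinarith

theorem measurable_rot (a : Fin N) :
    Measurable (fun x : ON N × (Fin N → Bool) => rot x.1 x.2 a) := by
  unfold rot
  refine Finset.measurable_sum _ fun r _ => Measurable.mul ?_ ?_
  · exact (measurable_pi_apply r).comp ((measurable_pi_apply a).comp
      (measurable_subtype_coe.comp measurable_fst))
  · exact (measurable_from_top (f := spin)).comp ((measurable_pi_apply r).comp measurable_snd)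

theorem measurable_yv (k : ℕ) (a : Fin N) : Measurable (fun ω : Fin (k + 1) → EN N => yv k ω a) := by
  unfold yv
  have h : Measurable (fun ω : Fin (k + 1) → EN N => ((ω 0).1, (ω (Fin.last k)).2.2.2)) := by
    refine Measurable.prodMk ?_ ?_
    · exact measurable_fst.comp (measurable_pi_apply 0)
    · exact measurable_snd.comp (measurable_snd.comp (measurable_snd.comp
        (measurable_pi_apply (Fin.last k))))
  exact (measurable_rot a).comp h

theorem sum_yv_sq (k : ℕ) (ω : Fin (k + 1) → EN N) : ∑ a, yv k ω a ^ 2 = N := sum_rot_sq _ _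

theorem abs_yv_le (k : ℕ) (ω : Fin (k + 1) → EN N) (a : Fin N) : |yv k ω a| ≤ N := abs_rot_le _ _ _

end Crest.Agent.RI
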