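import Crest.Agent.RI.TowerAPI
import Crest.Agent.RI.FlowC
import Crest.Agent.RI.SysA

/-!
# Row 164, Part 8.4 (decoupling): definitions

`H` = Hamiltonian of a base tower `(E, m)` with the levels `0..k`.  Two Gaussian fields with values in
`ℝ^K`: `z1_l = Σ_{κ a = l} ξ_a q_a` (`ξ` Gaussian of level `0`, `q` a function of the base path) and
`z2_l = Σ_i √(r_{i,l}) η^i_l` (independent Gaussians at all levels).
-/

set_option autoImplicit false

namespace Crest.Agent.RI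

open MeasureTheory ProbabilityTheory

variable {E : Type} [MeasurableSpace E] {M K k : ℕ}

/-- base level space times two families of Gaussians -/
abbrev E2 (E : Type) (M K : ℕ) : Type := E × (Fin M → ℝ) × (Fin K → ℝ)

noncomputable def m2 (m : Measure E) (M K : ℕ) : Measure (E2 E M K) :=
  m.prod ((gvec M).prod (gvec K))

noncomputable def β2 (β : E → ℝ) (x : E2 E M K) : ℝ :=
  β x.1 + (∑ a, |x.2.1 a| + ∑ l, |x.2.2 l|)

/-- base path -/
def bp {n : ℕ} (ω : Fin n → E2 E M K) : Fin n → E := fun j => (ω j).1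

/-- first field -/
noncomputable def z1 (κ : Fin M → Fin K) (q : Fin M → (Fin (k + 1) → E) → ℝ)
    (ω : Fin (k + 1) → E2 E M K) (l : Fin K) : ℝ :=
  ∑ a : Fin M, if κ a = l then (ω 0).2.1 a * q a (bp ω) else 0

/-- second field -/
noncomputable def z2 (r : ℕ → Fin K → ℝ) (ω : Fin (k + 1) → E2 E M K) (l : Fin K) : ℝ :=
  ∑ i : Fin (k + 1), Real.sqrt (r i l) * (ω i).2.2 l

/-- interpolation -/
noncomputable def zz (κ : Fin M → Fin K) (q : Fin M → (Fin (k + 1) → E) → ℝ) (r : ℕ → Fin K → ℝ)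
    (φ : ℝ) (ω : Fin (k + 1) → E2 E M K) (l : Fin K) : ℝ :=
  Real.sin φ * z1 κ q ω l + Real.cos φ * z2 r ω l

/-- overlap of the coefficients in block `l` -/
noncomputable def cv (κ : Fin M → Fin K) (q : Fin M → (Fin (k + 1) → E) → ℝ) (l : Fin K)
    (ω ω' : Fin (k + 1) → E) : ℝ :=
  ∑ a : Fin M, if κ a = l then q a ω * q a ω' else 0

/-- covariance of the second field for a pair sharing the levels `0..j` -/
noncomputable def c2 (r : ℕ → Fin K → ℝ) (j : ℕ) (l : Fin K) : ℝ := ∑ i ∈ Finset.range (j + 1), r i l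

/-- the interpolating Hamiltonian -/
noncomputable def Hz (H : (Fin (k + 1) → E) → ℝ) (κ : Fin M → Fin K)
    (q : Fin M → (Fin (k + 1) → E) → ℝ) (r : ℕ → Fin K → ℝ)
    (U : (Fin K → ℝ) → (Fin (k + 1) → E) → ℝ) (φ : ℝ) (ω : Fin (k + 1) → E2 E M K) : ℝ :=
  H (bp ω) + U (zz κ q r φ ω) (bp ω)

/-- hypotheses of the decoupling theorem -/
structure DecH (m : Measure E) (β : E → ℝ) (ζ : ℕ → ℝ) (k : ℕ) (H : (Fin (k + 1) → E) → ℝ)
    (κ : Fin M → Fin K) (q : Fin M → (Fin (k + 1) → E) → ℝ) (r : ℕ → Fin K → ℝ)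
    (U : (Fin K → ℝ) → (Fin (k + 1) → E) → ℝ) (U1 U2 : Fin K → (Fin K → ℝ) → (Fin (k + 1) → E) → ℝ)
    (A B : ℝ) : Prop where
  dom : Dom m β
  exps : Exps ζ
  mono : Monotone ζ
  last : ζ k = 1
  ham : Ham β H
  qm : ∀ a, Measurable (q a)
  qb : ∀ ω, ∑ a, q a ω ^ 2 ≤ 1
  r0 : ∀ i l, 0 ≤ r i l
  rb : ∀ l, c2 r k l ≤ 1
  Um : Measurable (fun p : (Fin K → ℝ) × (Fin (k + 1) → E) => U p.1 p.2)
  U1m : ∀ l, Measurable (fun p : (Fin K → ℝ) × (Fin (k + 1) → E) => U1 l p.1 p.2)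
  U2m : ∀ l, Measurable (fun p : (Fin K → ℝ) × (Fin (k + 1) → E) => U2 l p.1 p.2)
  dU : ∀ z ω, HasFDerivAt (fun z => U z ω)
    (∑ l, U1 l z ω • (ContinuousLinearMap.proj l : (Fin K → ℝ) →L[ℝ] ℝ)) z
  dU1 : ∀ l z ω, HasDerivAt (fun t => U1 l (Function.update z l t) ω) (U2 l z ω) (z l)
  A0 : 0 ≤ A
  B0 : 0 ≤ B
  bU : ∀ z ω, |U z ω| ≤ A
  bU1 : ∀ l z ω, |U1 l z ω| ≤ B * (1 + ∑ l', |z l'|)
  bU2 : ∀ l z ω, |U2 l z ω| ≤ B * (1 + ∑ l', |z l'|) ^ 2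

end Crest.Agent.RI
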