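import Crest.Agent.RI.TTIface
import Crest.Agent.RI.ConcAvg
import Crest.Agent.RI.ClassB

/-!
# Row 164, Part 9: the overlap errors are small at good parameters
-/

set_option autoImplicit false

namespace Crest.Agent.RI

open MeasureTheory ProbabilityTheory

variable {N K J k : ℕ}

/-- all fluctuations of the direction fields are at most `δ` -/
def FluOK (P : Measure (ON N)) (D : Blk) (L : LBd J) (k : ℕ) (s : ℝ) (x : XI k D.K J → ℝ)
    (κ : Fin N → Fin D.K) (lab : Fin N → Fin J) (δ : ℝ) : Prop :=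
  ∀ i, flu P D L k s x κ lab i ≤ δ

/-- the means of the direction fields of two systems are `δ`-close -/
def MeanOK {N' : ℕ} (P : Measure (ON N)) (P' : Measure (ON N')) (D : Blk) (L : LBd J) (k : ℕ)
    (s : ℝ) (x : XI k D.K J → ℝ) (κ : Fin N → Fin D.K) (lab : Fin N → Fin J)
    (κ' : Fin N' → Fin D.K) (lab' : Fin N' → Fin J) (δ : ℝ) : Prop :=
  ∀ i, |EL P' D L k s x κ' lab' (dirV k κ' lab' i) - EL P D L k s x κ lab (dirV k κ lab i)| ≤ δ

theorem errS_tame {f : (Fin (k + 1) → EN N) → ℝ} (hm : Measurable f) {C : ℝ} (hC : 0 ≤ C)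
    (h : ∀ ω, |f ω| ≤ C) : Tame (βN (N := N)) f := by
  refine ⟨hm, C, hC, fun ω => (h ω).trans ?_⟩
  have h0 : 0 ≤ ∑ i, βN (ω i) := Finset.sum_nonneg fun i _ => βN_nn _
  have h1 : (1 : ℝ) ≤ Real.exp (C * ∑ i, βN (ω i)) := Real.one_le_exp (mul_nonneg hC h0)
  calc C = C * 1 := (mul_one C).symm
    _ ≤ _ := mul_le_mul_of_nonneg_left h1 hC

theorem measurable_ovl2 (k : ℕ) (κ : Fin N → Fin K) (l : Fin K) :
    Measurable (Function.uncurry (fun ω ω' : Fin (k + 1) → EN N => ovl k κ l ω ω')) := by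
  have hmy : ∀ a, Measurable (fun ω : Fin (k + 1) → EN N => yv k ω a) := measurable_yv k
  have : (Function.uncurry (fun ω ω' : Fin (k + 1) → EN N => ovl k κ l ω ω')) =
      fun q => (1 / (N : ℝ)) * ∑ a, if κ a = l then yv k q.1 a * yv k q.2 a else 0 := by
    funext q; rfl
  rw [this]
  refine (Finset.measurable_sum _ fun a _ => ?_).const_mul _
  split_ifs
  · exact ((hmy a).comp measurable_fst).mul ((hmy a).comp measurable_snd)
  · exact measurable_const

/-- `E|ovl - C| ≤ E|ovl - c| + |c - C|` -/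
theorem EL_shift {P : Measure (ON N)} (hP : HaarO P) (D : Blk) (L : LBd J) (s : ℝ)
    (x : XI k D.K J → ℝ) (κ : Fin N → Fin D.K) (lab : Fin N → Fin J) (l : Fin D.K) (c C : ℝ) :
    EL P D L k s x κ lab (fun ω => |ovl k κ l ω ω - C|) ≤
      EL P D L k s x κ lab (fun ω => |ovl k κ l ω ω - c|) + |c - C| := by
  have hA : IsProbabilityMeasure (unifA N) := instProb_unifA N
  have := prob_mN hP (unifA N)
  have hβ := dom_mN hP (unifA N)
  have hH := HN_ham k (θL D L k s x κ lab)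
  have hm : Measurable (fun ω : Fin (k + 1) → EN N => ovl k κ l ω ω) := (ham_ovl_self k κ l).meas
  have ht : ∀ c, Tame (βN (N := N)) (fun ω : Fin (k + 1) → EN N => |ovl k κ l ω ω - c|) := fun c =>
    errS_tame (C := 1 + |c|) (continuous_abs.measurable.comp (hm.sub_const c)) (by positivity)
      fun ω => by
        rw [abs_abs]
        exact (abs_sub _ _).trans (add_le_add (abs_ovl_le k κ l ω ω) le_rfl)
  have htc : Tame (βN (N := N)) (fun _ : Fin (k + 1) → EN N => |c - C|) :=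
    errS_tame measurable_const (abs_nonneg _) fun ω => by rw [abs_abs]
  unfold EL
  have h1 := pathE_mono hβ (exps_LB k) (k + 1) 0 hH (ht C) (Ψ := fun ω => |ovl k κ l ω ω - c| + |c - C|)
    (Tame.add hβ (ht c) htc) (fun ω => abs_sub_le _ _ _)
  rw [pathE_add hβ (exps_LB k) (k + 1) 0 hH (ht c) htc, pathE_const hβ (exps_LB k) _ _ hH] at h1
  exact h1

theorem EL2_shift {P : Measure (ON N)} (hP : HaarO P) (D : Blk) (L : LBd J) (s : ℝ)
    (x : XI k D.K J → ℝ) (κ : Fin N → Fin D.K) (lab : Fin N → Fin J) (l : Fin D.K) (r : ℕ)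
    (c C : ℝ) {a : ℝ} (ha : 0 < a) :
    EL2 P D L k s x κ lab r (fun ω ω' => |ovl k κ l ω ω' - C|) ≤
      1 / (2 * a) * EL2 P D L k s x κ lab r (fun ω ω' => (ovl k κ l ω ω' - c) ^ 2) +
        (a / 2 + |c - C|) := by
  have hA : IsProbabilityMeasure (unifA N) := instProb_unifA N
  have := prob_mN hP (unifA N)
  have hβ := dom_mN hP (unifA N)
  have hH := HN_ham k (θL D L k s x κ lab)
  have hm := measurable_ovl2 (N := N) k κ l
  have hb := fun ω ω' : Fin (k + 1) → EN N => abs_ovl_le k κ l ω ω'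
  have ht : Tame2 (βN (N := N)) (fun ω ω' : Fin (k + 1) → EN N => |ovl k κ l ω ω' - C|) :=
    tame2_bdd (C := 1 + |C|) (continuous_abs.measurable.comp (hm.sub_const C)) (by positivity)
      fun ω ω' => by
        rw [abs_abs]
        exact (abs_sub _ _).trans (add_le_add (hb ω ω') le_rfl)
  have hsqb : ∀ ω ω' : Fin (k + 1) → EN N, |(ovl k κ l ω ω' - c) ^ 2| ≤ (1 + |c|) ^ 2 := fun ω ω' => by
    rw [abs_pow]
    exact pow_le_pow_left₀ (abs_nonneg _) ((abs_sub _ _).trans (add_le_add (hb ω ω') le_rfl)) 2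
  have ht2 : Tame2 (βN (N := N)) (fun ω ω' : Fin (k + 1) → EN N =>
      1 / (2 * a) * (ovl k κ l ω ω' - c) ^ 2) :=
    tame2_bdd (C := 1 / (2 * a) * (1 + |c|) ^ 2) (((hm.sub_const c).pow_const 2).const_mul _)
      (by positivity) fun ω ω' => by
        rw [abs_mul, abs_of_pos (by positivity : (0 : ℝ) < 1 / (2 * a))]
        exact mul_le_mul_of_nonneg_left (hsqb ω ω') (by positivity)
  have ht3 : Tame2 (βN (N := N)) (fun _ _ : Fin (k + 1) → EN N => a / 2 + |c - C|) :=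
    tame2_bdd (C := a / 2 + |c - C|) measurable_const (by positivity) fun ω ω' => by
      rw [abs_of_nonneg (by positivity)]
  have ht23 : Tame2 (βN (N := N)) (fun ω ω' : Fin (k + 1) → EN N =>
      1 / (2 * a) * (ovl k κ l ω ω' - c) ^ 2 + (a / 2 + |c - C|)) :=
    tame2_bdd (C := 1 / (2 * a) * (1 + |c|) ^ 2 + (a / 2 + |c - C|))
      ((((hm.sub_const c).pow_const 2).const_mul _).add_const _) (by positivity) fun ω ω' => by
        refine (abs_add_le _ _).trans (add_le_add ?_ ?_)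
        · rw [abs_mul, abs_of_pos (by positivity : (0 : ℝ) < 1 / (2 * a))]
          exact mul_le_mul_of_nonneg_left (hsqb ω ω') (by positivity)
        · rw [abs_of_nonneg (by positivity)]
  unfold EL2
  have h1 := pairE_mono hβ (exps_LB k) r (k + 1) 0 hH ht ht23 (fun ω ω' => by
    have e1 := abs_sub_le (ovl k κ l ω ω') c C
    set z := |ovl k κ l ω ω' - c| with hz
    have e2 : (ovl k κ l ω ω' - c) ^ 2 = z ^ 2 := (sq_abs _).symm
    rw [e2]
    have e3 : z ≤ 1 / (2 * a) * z ^ 2 + a / 2 := by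
      have : 1 / (2 * a) * z ^ 2 + a / 2 - z = 1 / (2 * a) * (z - a) ^ 2 := by
        field_simp; ring
      have h0 : 0 ≤ 1 / (2 * a) * (z - a) ^ 2 := by positivity
      linarith
    linarith)
  rw [pairE_add hβ (exps_LB k) r (k + 1) 0 hH ht2 ht3, pairE_cmul,
    pairE_const hβ (exps_LB k) _ _ _ hH] at h1
  exact h1

/-- closeness of one system to its closure values -/
structure SysOK (P : Measure (ON N)) (D : Blk) (L : LBd J) (k : ℕ) (s : ℝ) (x : XI k D.K J → ℝ)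
    (κ : Fin N → Fin D.K) (lab : Fin N → Fin J) (ε : ℝ) : Prop where
  self : ∀ l, EL P D L k s x κ lab (fun ω => |ovl k κ l ω ω -
    selfOv P (unifA N) (ζLB k) k (θL D L k s x κ lab) l|) ≤ ε
  pair : ∀ l, (1 / (k : ℝ)) * ∑ i ∈ Finset.range k,
        EL2 P D L k s x κ lab (i + 1) (fun ω ω' => (ovl k κ l ω ω' -
          rhoOv P (unifA N) (ζLB k) k (θL D L k s x κ lab) l i) ^ 2) ≤ ε ^ 2
  c : ∀ l, |selfOv P (unifA N) (ζLB k) k (θL D L k s x κ lab) l -
    cC D k (pLB P D L k s x κ lab) l| ≤ ε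
  ρ : ∀ l, (1 / (k : ℝ)) * ∑ i ∈ Finset.range k,
    |rhoOv P (unifA N) (ζLB k) k (θL D L k s x κ lab) l i -
      rhoC D k (pLB P D L k s x κ lab) l i| ≤ ε

theorem flu_half {P : Measure (ON N)} (hP : HaarO P) (D : Blk) (L : LBd J) (s : ℝ)
    (x : XI k D.K J → ℝ) (κ : Fin N → Fin D.K) (lab : Fin N → Fin J) (l : Fin D.K) :
    EL P D L k s x κ lab (fun ω => |ovl k κ l ω ω -
      selfOv P (unifA N) (ζLB k) k (θL D L k s x κ lab) l|) =
      2 * flu P D L k s x κ lab (Sum.inl l) := by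
  have hA : IsProbabilityMeasure (unifA N) := instProb_unifA N
  have := prob_mN hP (unifA N)
  have e1 : EL P D L k s x κ lab (dirV (J := J) k κ lab (Sum.inl l)) =
      (1 / 2) * selfOv P (unifA N) (ζLB k) k (θL D L k s x κ lab) l := by
    unfold EL selfOv
    exact pathE_mul (k + 1) 0 _ _ _
  unfold flu
  rw [e1]
  unfold EL
  rw [← pathE_mul]
  congr 1
  funext ω
  show |ovl k κ l ω ω - _| = 2 * |(1 / 2) * ovl k κ l ω ω - _|
  rw [← mul_sub, abs_mul, abs_of_pos (by norm_num : (0 : ℝ) < 1 / 2)]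
  ring

theorem conc_of_flu {P : Measure (ON N)} (hP : HaarO P) (D : Blk) (L : LBd J) (s : ℝ)
    (x : XI k D.K J → ℝ) (κ : Fin N → Fin D.K) (lab : Fin N → Fin J) {δ : ℝ} (hδ : 0 ≤ δ)
    (h : FluOK P D L k s x κ lab (δ / 2)) :
    Conc P (unifA N) (ζLB k) k (θL D L k s x κ lab) δ where
  self := fun l => by
    have h1 := flu_half hP D L s x κ lab l
    have h2 := h (Sum.inl l)
    have h3 : EL P D L k s x κ lab (fun ω => |ovl k κ l ω ω -
      selfOv P (unifA N) (ζLB k) k (θL D L k s x κ lab) l|) ≤ δ := by rw [h1]; linarith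
    exact h3
  gy := fun i hi l => by
    have h2 := h (Sum.inr (Sum.inr (i, l)))
    have e : dirV (J := J) k κ lab (Sum.inr (Sum.inr (i, l))) = gy k κ i l := by
      simp only [dirV, if_neg (by omega : ¬ (i : ℕ) = 0)]
    unfold flu at h2
    rw [e] at h2
    exact h2.trans (by linarith)

/-- the key statement for one system -/
theorem sysOK (D : Blk) (J : ℕ) {ε : ℝ} (hε : 0 < ε) : ∃ k₀ : ℕ, ∀ k ≥ k₀, 0 < k →
    ∃ s₀ : ℝ, 0 < s₀ ∧ ∀ s : ℝ, 0 < s → s ≤ s₀ → ∃ (δ : ℝ) (η : ℝ), 0 < δ ∧ 0 < η ∧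
    ∀ N : ℕ, 0 < N → ∀ P : Measure (ON N), HaarO P → ∀ (L : LBd J) (κ : Fin N → Fin D.K)
      (lab : Fin N → Fin J), D.Close η κ → ∀ x : XI k D.K J → ℝ, InC x →
      FluOK P D L k s x κ lab δ → SysOK P D L k s x κ lab ε := by
  obtain ⟨δc, hδc, hcl⟩ := closure_LB D hε
  obtain ⟨k₀, hk₀⟩ := loops_LB D (J := J) (lt_min hδc (by positivity : (0 : ℝ) < ε ^ 2))
  refine ⟨k₀, fun k hk hk0 => ?_⟩
  obtain ⟨s₀, hs₀, hs⟩ := hk₀ k hk
  refine ⟨s₀, hs₀, fun s hs1 hs2 => ?_⟩
  obtain ⟨δ₀, hδ₀, h⟩ := hs s hs1 hs2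
  refine ⟨min δ₀ ε / 2, δc, by positivity, hδc, fun N hN P hP L κ lab hκ x hx hflu => ?_⟩
  have hA : IsProbabilityMeasure (unifA N) := instProb_unifA N
  have hkp : (0 : ℝ) < k := by exact_mod_cast hk0
  have hconc : Conc P (unifA N) (ζLB k) k (θL D L k s x κ lab) δ₀ :=
    conc_of_flu hP D L s x κ lab hδ₀.le fun i =>
      (hflu i).trans (by have := min_le_left δ₀ ε; linarith)
  obtain ⟨h1, h2, h3⟩ := h L N hN κ lab P hP x (fun j => ⟨(hx j).1, (hx j).2⟩) hconc
  have hζ := exps_LB k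
  set θ := θL D L k s x κ lab with hθ
  have hρ0 : ∀ l i, i < k → 0 ≤ rhoOv P (unifA N) (ζLB k) k θ l i := fun l i hi =>
    rho_nonneg hP hζ θ l hi
  have hρc : ∀ l i, i < k → rhoOv P (unifA N) (ζLB k) k θ l i ≤ selfOv P (unifA N) (ζLB k) k θ l :=
    fun l i hi => rho_le_self hP hζ θ l hi
  have hclo := hcl k hk0 (fun l i => rhoOv P (unifA N) (ζLB k) k θ l i)
    (fun l => selfOv P (unifA N) (ζLB k) k θ l) (prop κ)
    (fun l i j hij hj => rho_mono hP hζ θ l hij hj) hρ0 hρc (sum_self hN hP hζ θ)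
    (fun l i hi => by
      have hc0 := self_nonneg (k := k) hP hζ (A := unifA N) θ l
      have e1 : ∑ j ∈ Finset.Ioo i k, (1 / (k : ℝ)) * rhoOv P (unifA N) (ζLB k) k θ l j ≤
          ∑ _j ∈ Finset.Ioo i k, (1 / (k : ℝ)) * selfOv P (unifA N) (ζLB k) k θ l :=
        Finset.sum_le_sum fun j hj => mul_le_mul_of_nonneg_left
          (hρc l j (Finset.mem_Ioo.1 hj).2) (by positivity)
      rw [Finset.sum_const, Nat.card_Ioo, nsmul_eq_mul] at e1
      have e2 : ((i : ℝ) + 1) / k * rhoOv P (unifA N) (ζLB k) k θ l i ≤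
          ((i : ℝ) + 1) / k * selfOv P (unifA N) (ζLB k) k θ l :=
        mul_le_mul_of_nonneg_left (hρc l i hi) (by positivity)
      have e3 : ((k - i - 1 : ℕ) : ℝ) = (k : ℝ) - i - 1 := by
        rw [Nat.cast_sub (by omega), Nat.cast_sub (by omega)]; simp
      rw [e3] at e1
      have e4 : ((k : ℝ) - i - 1) * ((1 / (k : ℝ)) * selfOv P (unifA N) (ζLB k) k θ l) +
          ((i : ℝ) + 1) / k * selfOv P (unifA N) (ζLB k) k θ l =
          selfOv P (unifA N) (ζLB k) k θ l := by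
        field_simp; ring
      linarith)
    (fun l => hκ l)
    (fun l l' => (h1 l l').trans (min_le_left _ _))
    (fun l l' => (h2 l l').trans (min_le_left _ _))
  refine ⟨fun l => ?_, fun l => (h3 l).trans (min_le_right _ _), hclo.1, hclo.2⟩
  rw [flu_half hP]
  have := hflu (Sum.inl l)
  have := min_le_right δ₀ ε
  linarith

/-- `errS` against general values -/
theorem errS_le {P : Measure (ON N)} (hP : HaarO P) (D : Blk) (L : LBd J) {s : ℝ}
    {x : XI k D.K J → ℝ} {κ : Fin N → Fin D.K} {lab : Fin N → Fin J} (hk : 0 < k) {ε a b : ℝ}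
    (hε : 0 < ε) (h : SysOK P D L k s x κ lab ε) (r : ℕ → Fin D.K → ℝ)
    (ha : ∀ l, |selfOv P (unifA N) (ζLB k) k (θL D L k s x κ lab) l - c2 r k l| ≤ a)
    (hb : ∀ l, (1 / (k : ℝ)) * ∑ i ∈ Finset.range k,
      |rhoOv P (unifA N) (ζLB k) k (θL D L k s x κ lab) l i - c2 r i l| ≤ b) :
    errS P D L k s x κ lab r ≤ D.K * (2 * ε + a + b) := by
  have hkp : (0 : ℝ) < k := by exact_mod_cast hk
  have h1 : ∀ l, EL P D L k s x κ lab (fun ω => |ovl k κ l ω ω - c2 r k l|) ≤ ε + a := fun l =>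
    (EL_shift hP D L s x κ lab l _ _).trans (add_le_add (h.self l) (ha l))
  have h2 : ∀ l, (1 / (k : ℝ)) * ∑ j ∈ Finset.range k,
      EL2 P D L k s x κ lab (j + 1) (fun ω ω' => |ovl k κ l ω ω' - c2 r j l|) ≤ ε + b := by
    intro l
    have h3 : ∑ j ∈ Finset.range k,
        EL2 P D L k s x κ lab (j + 1) (fun ω ω' => |ovl k κ l ω ω' - c2 r j l|) ≤
        ∑ j ∈ Finset.range k, (1 / (2 * ε) * EL2 P D L k s x κ lab (j + 1)
          (fun ω ω' => (ovl k κ l ω ω' - rhoOv P (unifA N) (ζLB k) k (θL D L k s x κ lab) l j) ^ 2) +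
          (ε / 2 + |rhoOv P (unifA N) (ζLB k) k (θL D L k s x κ lab) l j - c2 r j l|)) :=
      Finset.sum_le_sum fun j _ => EL2_shift hP D L s x κ lab l (j + 1) _ _ hε
    rw [Finset.sum_add_distrib, Finset.sum_add_distrib, Finset.sum_const, Finset.card_range,
      nsmul_eq_mul, ← Finset.mul_sum] at h3
    have h4 := mul_le_mul_of_nonneg_left h3 (by positivity : (0 : ℝ) ≤ 1 / (k : ℝ))
    have h5 := h.pair l
    have h6 := hb l
    refine h4.trans ?_
    set X := ∑ i ∈ Finset.range k, EL2 P D L k s x κ lab (i + 1) (fun ω ω' => (ovl k κ l ω ω' -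
          rhoOv P (unifA N) (ζLB k) k (θL D L k s x κ lab) l i) ^ 2) with hX
    set Y := ∑ i ∈ Finset.range k,
      |rhoOv P (unifA N) (ζLB k) k (θL D L k s x κ lab) l i - c2 r i l| with hY
    have e : 1 / (k : ℝ) * (1 / (2 * ε) * X + (k * (ε / 2) + Y)) =
        1 / (2 * ε) * (1 / (k : ℝ) * X) + ε / 2 + 1 / (k : ℝ) * Y := by
      field_simp; ring
    rw [e]
    have h7 : 1 / (2 * ε) * (1 / (k : ℝ) * X) ≤ 1 / (2 * ε) * ε ^ 2 :=
      mul_le_mul_of_nonneg_left h5 (by positivity)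
    have h8 : 1 / (2 * ε) * ε ^ 2 = ε / 2 := by field_simp
    linarith
  unfold errS
  have e1 : ∑ j ∈ Finset.range k, (1 / (k : ℝ)) *
      ∑ l, EL2 P D L k s x κ lab (j + 1) (fun ω ω' => |ovl k κ l ω ω' - c2 r j l|) =
      ∑ l, (1 / (k : ℝ)) * ∑ j ∈ Finset.range k,
        EL2 P D L k s x κ lab (j + 1) (fun ω ω' => |ovl k κ l ω ω' - c2 r j l|) := by
    simp only [Finset.mul_sum]
    rw [Finset.sum_comm]
  rw [e1, ← Finset.sum_add_distrib]
  calc _ ≤ ∑ _l : Fin D.K, (2 * ε + a + b) :=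
        Finset.sum_le_sum fun l _ => by linarith [h1 l, h2 l]
    _ = D.K * (2 * ε + a + b) := by
        rw [Finset.sum_const, Finset.card_univ, Fintype.card_fin, nsmul_eq_mul]

/-- PROOF: `Conc` for `δ₀ = 2δ` from `FluOK` (`ovl = 2 dirV (inl l)`), then `loops_LB` and `closure_LB` (with `a = prop κ`, `ρ = rhoOv`, `c = selfOv`; the condition
`0 ≤ c_l - Σ_{j>i} ρ_j/k - (i+1)/k ρ_i`: `rho_le_self`, `rho_mono`... it is `N⁻¹ E Σ_{q>i} ζ_q |M_q - M_{q-1}|² ≥ 0`, i.e. Abel summation with `rho_mono`, `rho_le_self`).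
`c2 (rC p) j l = rhoC p l j`, `c2 (rC p) k l = cC p l` (`rC_sum`); `EL2|ovl - ρ| ≤ √EL2 (ovl-ρ)²`, Jensen for the average over the levels. -/
theorem errS_top (D : Blk) (J : ℕ) {ε : ℝ} (hε : 0 < ε) : ∃ k₀ : ℕ, ∀ k ≥ k₀, 0 < k →
    ∃ s₀ : ℝ, 0 < s₀ ∧ ∀ s : ℝ, 0 < s → s ≤ s₀ → ∃ (δ : ℝ) (η : ℝ), 0 < δ ∧ 0 < η ∧
    ∀ N : ℕ, 0 < N → ∀ P : Measure (ON N), HaarO P → ∀ (L : LBd J) (κ : Fin N → Fin D.K)
      (lab : Fin N → Fin J), D.Close η κ → ∀ x : XI k D.K J → ℝ, InC x →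
      FluOK P D L k s x κ lab δ →
      errS P D L k s x κ lab (rC D k (pLB P D L k s x κ lab)) ≤ ε := by
  set e : ℝ := ε / (4 * ((D.K : ℝ) + 1)) with he
  have he0 : 0 < e := by positivity
  obtain ⟨k₀, h⟩ := sysOK D J he0
  refine ⟨k₀, fun k hk hk0 => ?_⟩
  obtain ⟨s₀, hs₀, h⟩ := h k hk hk0
  refine ⟨s₀, hs₀, fun s hs1 hs2 => ?_⟩
  obtain ⟨δ, η, hδ, hη, h⟩ := h s hs1 hs2
  refine ⟨δ, η, hδ, hη, fun N hN P hP L κ lab hκ x hx hflu => ?_⟩
  have hS := h N hN P hP L κ lab hκ x hx hflu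
  have hp := pLB_ok hk0 hN hP D L s x κ lab
  have hsum := rC_sum D hk0 hp
  have h1 := errS_le hP D L hk0 he0 hS (rC D k (pLB P D L k s x κ lab)) (a := e) (b := e)
    (fun l => by unfold c2; rw [(hsum l).1]; exact hS.c l)
    (fun l => by
      refine le_trans (le_of_eq ?_) (hS.ρ l)
      congr 1
      refine Finset.sum_congr rfl fun i hi => ?_
      unfold c2
      rw [(hsum l).2.2 i (Finset.mem_range.1 hi)])
  refine h1.trans ?_
  have hK : (0 : ℝ) ≤ D.K := Nat.cast_nonneg _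
  have : (D.K : ℝ) * (2 * e + e + e) = ε * (D.K / ((D.K : ℝ) + 1)) := by
    rw [he]; field_simp; ring
  rw [this]
  have h2 : (D.K : ℝ) / ((D.K : ℝ) + 1) ≤ 1 := by
    rw [div_le_one (by positivity)]; linarith
  nlinarith

/-- comparison of the overlaps of two systems with close means -/
theorem rho_compare {N' : ℕ} {P : Measure (ON N)} {P' : Measure (ON N')} (hP : HaarO P)
    (hP' : HaarO P') (hN : 0 < N) (hN' : 0 < N') (D : Blk) (L : LBd J) (hk : 0 < k) {s : ℝ}
    (hs : 0 < s) {x : XI k D.K J → ℝ} (hx : InC x)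
    (κ : Fin N → Fin D.K) (lab : Fin N → Fin J) (κ' : Fin N' → Fin D.K) (lab' : Fin N' → Fin J)
    {δ : ℝ} (hδ : 0 ≤ δ) (h : MeanOK P P' D L k s x κ lab κ' lab' δ) (l : Fin D.K) :
    |selfOv P (unifA N) (ζLB k) k (θL D L k s x κ lab) l -
      selfOv P' (unifA N') (ζLB k) k (θL D L k s x κ' lab') l| ≤ 2 * δ ∧
    (1 / (k : ℝ)) * ∑ i ∈ Finset.range k,
      |rhoOv P (unifA N) (ζLB k) k (θL D L k s x κ lab) l i -
        rhoOv P' (unifA N') (ζLB k) k (θL D L k s x κ' lab') l i| ≤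
      1 / (k : ℝ) + k * (2 * (2 * δ + δ / s)) := by
  have hkp : (0 : ℝ) < k := by exact_mod_cast hk
  have hA : IsProbabilityMeasure (unifA N) := instProb_unifA N
  have hA' : IsProbabilityMeasure (unifA N') := instProb_unifA N'
  have := prob_mN hP (unifA N)
  have := prob_mN hP' (unifA N')
  have hζ := exps_LB k
  set θ := θL D L k s x κ lab with hθ
  set θ' := θL D L k s x κ' lab' with hθ'
  set c := selfOv P (unifA N) (ζLB k) k θ l with hc
  set c' := selfOv P' (unifA N') (ζLB k) k θ' l with hc'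
  set ρ : ℕ → ℝ := fun i => rhoOv P (unifA N) (ζLB k) k θ l i with hρ
  set ρ' : ℕ → ℝ := fun i => rhoOv P' (unifA N') (ζLB k) k θ' l i with hρ'
  have hcc : |c - c'| ≤ 2 * δ := by
    have h1 := h (Sum.inl l)
    have e1 : EL P D L k s x κ lab (dirV (J := J) k κ lab (Sum.inl l)) = (1 / 2) * c := by
      unfold EL; exact pathE_mul (k + 1) 0 _ _ _
    have e2 : EL P' D L k s x κ' lab' (dirV (J := J) k κ' lab' (Sum.inl l)) = (1 / 2) * c' := by
      unfold EL; exact pathE_mul (k + 1) 0 _ _ _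
    rw [e1, e2, ← mul_sub, abs_mul, abs_of_pos (by norm_num : (0 : ℝ) < 1 / 2), abs_sub_comm] at h1
    linarith
  refine ⟨hcc, ?_⟩
  set G : ℕ → ℝ := fun i => ∑ j ∈ Finset.Ico i k, (1 / (k : ℝ)) * ρ j with hG
  set G' : ℕ → ℝ := fun i => ∑ j ∈ Finset.Ico i k, (1 / (k : ℝ)) * ρ' j with hG'
  have hGG : ∀ i, 1 ≤ i → |G i - G' i| ≤ 2 * δ + δ / s := by
    intro i hi
    rcases Nat.lt_or_ge i k with hik | hik
    · have h1 := h (Sum.inr (Sum.inr (⟨i, hik⟩, l)))
      have e : ∀ {M : ℕ} (κ₁ : Fin M → Fin D.K) (lab₁ : Fin M → Fin J),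
          dirV (J := J) k κ₁ lab₁ (Sum.inr (Sum.inr (⟨i, hik⟩, l))) = gy k κ₁ ⟨i, hik⟩ l := by
        intro M κ₁ lab₁
        have : ¬ ((⟨i, hik⟩ : Fin k) : ℕ) = 0 := by show ¬ i = 0; omega
        simp only [dirV, if_neg this]
      rw [e, e] at h1
      set X := x (Sum.inr (Sum.inr (⟨i, hik⟩, l))) with hX
      have hX1 : 1 ≤ X := (hx _).1
      have e1 : EL P D L k s x κ lab (gy k κ ⟨i, hik⟩ l) = s * X * (c - G i) := by
        have := pathE_gy hP hζ (ζLB_at_k hk) (A := unifA N) θ ⟨i, hik⟩ l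
        have ec : θ.c i l = s * X := by
          show (if h : i < k then (if i = 0 then 0 else s * x (Sum.inr (Sum.inr (⟨i, h⟩, l)))) else 0) = _
          rw [dif_pos hik, if_neg (by omega)]
        unfold EL
        rw [← hθ]
        refine this.trans ?_
        show θ.c i l * _ = _
        rw [ec]
        congr 2
        refine Finset.sum_congr rfl fun j hj => ?_
        rw [ζLB_step (Finset.mem_Ico.1 hj).2]
      have e2 : EL P' D L k s x κ' lab' (gy k κ' ⟨i, hik⟩ l) = s * X * (c' - G' i) := by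
        have := pathE_gy hP' hζ (ζLB_at_k hk) (A := unifA N') θ' ⟨i, hik⟩ l
        have ec : θ'.c i l = s * X := by
          show (if h : i < k then (if i = 0 then 0 else s * x (Sum.inr (Sum.inr (⟨i, h⟩, l)))) else 0) = _
          rw [dif_pos hik, if_neg (by omega)]
        unfold EL
        rw [← hθ']
        refine this.trans ?_
        show θ'.c i l * _ = _
        rw [ec]
        congr 2
        refine Finset.sum_congr rfl fun j hj => ?_
        rw [ζLB_step (Finset.mem_Ico.1 hj).2]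
      rw [e1, e2, ← mul_sub, abs_mul, abs_of_pos (by positivity : (0 : ℝ) < s * X)] at h1
      have h2 : s * |c' - G' i - (c - G i)| ≤ δ := by
        refine le_trans ?_ h1
        have : 0 ≤ |c' - G' i - (c - G i)| := abs_nonneg _
        nlinarith [mul_nonneg hs.le this, mul_nonneg (mul_nonneg hs.le this) (by linarith : (0 : ℝ) ≤ X - 1)]
      have h3 : |c' - G' i - (c - G i)| ≤ δ / s := by
        rw [le_div_iff₀ hs]; linarith
      have h4 : G i - G' i = (c' - G' i - (c - G i)) + (c - c') := by ring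
      rw [h4]
      refine (abs_add_le _ _).trans ?_
      linarith
    · have e1 : G i - G' i = 0 := by
        simp only [hG, hG']
        rw [Finset.Ico_eq_empty (by omega)]; simp
      rw [e1, abs_zero]; positivity
  have hρρ : ∀ i, i < k → |ρ i - ρ' i| ≤ (if i = 0 then 1 else 0) + k * (2 * (2 * δ + δ / s)) := by
    intro i hi
    have hq : 0 ≤ k * (2 * (2 * δ + δ / s)) := by positivity
    by_cases h0 : i = 0
    · rw [if_pos h0]
      have a1 : 0 ≤ ρ i := rho_nonneg hP hζ θ l hi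
      have a2 : ρ i ≤ 1 := (rho_le_self hP hζ θ l hi).trans (self_le_one hP hζ θ hN l)
      have a3 : 0 ≤ ρ' i := rho_nonneg hP' hζ θ' l hi
      have a4 : ρ' i ≤ 1 := (rho_le_self hP' hζ θ' l hi).trans (self_le_one hP' hζ θ' hN' l)
      rw [abs_le]
      constructor <;> linarith
    · rw [if_neg h0, zero_add]
      have b1 : G i = (1 / (k : ℝ)) * ρ i + G (i + 1) := by
        simp only [hG]; exact Finset.sum_eq_sum_Ico_succ_bot hi _
      have b2 : G' i = (1 / (k : ℝ)) * ρ' i + G' (i + 1) := by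
        simp only [hG']; exact Finset.sum_eq_sum_Ico_succ_bot hi _
      have b3 : ρ i - ρ' i = k * ((G i - G' i) - (G (i + 1) - G' (i + 1))) := by
        rw [b1, b2]; field_simp; ring
      rw [b3, abs_mul, abs_of_pos hkp]
      refine mul_le_mul_of_nonneg_left ?_ hkp.le
      refine (abs_sub _ _).trans ?_
      linarith [hGG i (by omega), hGG (i + 1) (by omega)]
  calc (1 / (k : ℝ)) * ∑ i ∈ Finset.range k, |ρ i - ρ' i|
      ≤ (1 / (k : ℝ)) * ∑ i ∈ Finset.range k,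
        ((if i = 0 then (1 : ℝ) else 0) + k * (2 * (2 * δ + δ / s))) :=
        mul_le_mul_of_nonneg_left (Finset.sum_le_sum fun i hi => hρρ i (Finset.mem_range.1 hi))
          (by positivity)
    _ = 1 / (k : ℝ) + k * (2 * (2 * δ + δ / s)) := by
        rw [Finset.sum_add_distrib, Finset.sum_const, Finset.card_range, nsmul_eq_mul,
          Finset.sum_ite_eq' (Finset.range k) 0 (fun _ => (1 : ℝ)),
          if_pos (Finset.mem_range.2 hk)]
        field_simp

/-- the same with the path of another system whose direction fields have close means.  PROOF: as before, with `|c_l - c'_l| ≤ 2δ`,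
`E gy_{i,l} = s x_{i,l} (c_l - Σ_{j≥i} ρ_{l,j}/k)` (`pathE_gy`), so `|ρ_{l,i} - ρ'_{l,i}| ≤ k (4δ + 4δ/s)` for `1 ≤ i < k`, and `≤ 1` for `i = 0` (weight `1/k`, `k` large). -/
theorem errS_base (D : Blk) (J : ℕ) {ε : ℝ} (hε : 0 < ε) : ∃ k₀ : ℕ, ∀ k ≥ k₀, 0 < k →
    ∃ s₀ : ℝ, 0 < s₀ ∧ ∀ s : ℝ, 0 < s → s ≤ s₀ → ∃ (δ : ℝ) (η : ℝ), 0 < δ ∧ 0 < η ∧
    ∀ N N' : ℕ, 0 < N → 0 < N' → ∀ (P : Measure (ON N)) (P' : Measure (ON N')), HaarO P →
      HaarO P' → ∀ (L : LBd J) (κ : Fin N → Fin D.K) (lab : Fin N → Fin J)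
      (κ' : Fin N' → Fin D.K) (lab' : Fin N' → Fin J), D.Close η κ → D.Close η κ' →
      ∀ x : XI k D.K J → ℝ, InC x → FluOK P D L k s x κ lab δ → FluOK P' D L k s x κ' lab' δ →
      MeanOK P P' D L k s x κ lab κ' lab' δ →
      errS P D L k s x κ lab (rC D k (pLB P' D L k s x κ' lab')) ≤ ε := by
  set e : ℝ := ε / (8 * ((D.K : ℝ) + 1)) with he
  have he0 : 0 < e := by positivity
  obtain ⟨k₁, h⟩ := sysOK D J he0
  obtain ⟨n₀, hn₀⟩ := exists_nat_one_div_lt he0
  refine ⟨max k₁ (n₀ + 1), fun k hk hk0 => ?_⟩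
  have hkp : (0 : ℝ) < k := by exact_mod_cast hk0
  have hke : 1 / (k : ℝ) ≤ e := by
    refine le_trans ?_ hn₀.le
    have : (n₀ : ℝ) + 1 ≤ (k : ℝ) := by exact_mod_cast (le_max_right _ _).trans hk
    gcongr
  obtain ⟨s₀, hs₀, h⟩ := h k ((le_max_left _ _).trans hk) hk0
  refine ⟨s₀, hs₀, fun s hs1 hs2 => ?_⟩
  obtain ⟨δ₁, η, hδ₁, hη, h⟩ := h s hs1 hs2
  set M : ℝ := k * (2 * (2 + 1 / s)) + 2 with hM
  have hM0 : 0 < M := by positivity
  set δ := min δ₁ (e / M) with hδ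
  have hδ0 : 0 < δ := lt_min hδ₁ (by positivity)
  have hδM : M * δ ≤ e := by
    calc M * δ ≤ M * (e / M) := mul_le_mul_of_nonneg_left (min_le_right _ _) hM0.le
      _ = e := by field_simp
  refine ⟨δ, η, hδ0, hη, fun N N' hN hN' P P' hP hP' L κ lab κ' lab' hκ hκ' x hx hflu hflu' hmean
    => ?_⟩
  have hS := h N hN P hP L κ lab hκ x hx fun i => (hflu i).trans (min_le_left _ _)
  have hS' := h N' hN' P' hP' L κ' lab' hκ' x hx fun i => (hflu' i).trans (min_le_left _ _)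
  have hp := pLB_ok hk0 hN' hP' D L s x κ' lab'
  have hsum := rC_sum D hk0 hp
  have hcmp := rho_compare hP hP' hN hN' D L hk0 hs1 hx κ lab κ' lab' hδ0.le hmean
  have hMe : M * δ = k * (2 * (2 * δ + δ / s)) + 2 * δ := by rw [hM]; field_simp
  have hq : 0 ≤ k * (2 * (2 * δ + δ / s)) := by positivity
  have h1 := errS_le hP D L hk0 he0 hS (rC D k (pLB P' D L k s x κ' lab')) (a := 2 * e)
    (b := 3 * e)
    (fun l => by
      unfold c2; rw [(hsum l).1]
      refine (abs_sub_le _ _ _).trans ((add_le_add (hcmp l).1 (hS'.c l)).trans ?_)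
      linarith)
    (fun l => by
      have e1 : (1 / (k : ℝ)) * ∑ i ∈ Finset.range k,
          |rhoOv P (unifA N) (ζLB k) k (θL D L k s x κ lab) l i -
            c2 (rC D k (pLB P' D L k s x κ' lab')) i l| ≤
          (1 / (k : ℝ)) * ∑ i ∈ Finset.range k,
            |rhoOv P (unifA N) (ζLB k) k (θL D L k s x κ lab) l i -
              rhoOv P' (unifA N') (ζLB k) k (θL D L k s x κ' lab') l i| +
          (1 / (k : ℝ)) * ∑ i ∈ Finset.range k,
            |rhoOv P' (unifA N') (ζLB k) k (θL D L k s x κ' lab') l i -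
              rhoC D k (pLB P' D L k s x κ' lab') l i| := by
        rw [← mul_add, ← Finset.sum_add_distrib]
        refine mul_le_mul_of_nonneg_left (Finset.sum_le_sum fun i hi => ?_) (by positivity)
        unfold c2
        rw [(hsum l).2.2 i (Finset.mem_range.1 hi)]
        exact abs_sub_le _ _ _
      refine e1.trans ((add_le_add (hcmp l).2 (hS'.ρ l)).trans ?_)
      linarith)
  refine h1.trans ?_
  have hK : (0 : ℝ) ≤ D.K := Nat.cast_nonneg _
  have h3 : (D.K : ℝ) * (2 * e + 2 * e + 3 * e) ≤ ((D.K : ℝ) + 1) * (8 * e) := by nlinarith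
  have h4 : ((D.K : ℝ) + 1) * (8 * e) = ε := by rw [he]; field_simp
  linarith

end Crest.Agent.RI
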