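import Crest.Agent.RI.ExExp

/-!
# Row 164, Part 8.5: exponential moments of absolute values along the path; abstract smallness lemma (helper35)
-/

set_option autoImplicit false

namespace Crest.Agent.RI

open MeasureTheory ProbabilityTheory

section abstractPart

variable {E : Type} [MeasurableSpace E]
variable {m : Measure E} [IsProbabilityMeasure m] {ζ : ℕ → ℝ} {β : E → ℝ}

theorem ExAbs_fsum {ι : Type} (hβ : Dom m β) (hζ : Exps ζ) (n i : ℕ) {H : (Fin n → E) → ℝ}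
    (hH : Ham β H) (s : Finset ι) (f : ι → (Fin n → E) → ℝ) (hf : ∀ j, Tame β (f j)) :
    Tame β (fun ω => ∑ j ∈ s, f j ω) ∧
      pathE m ζ n i H (fun ω => ∑ j ∈ s, f j ω) = ∑ j ∈ s, pathE m ζ n i H (f j) := by
  classical
  induction s using Finset.induction_on with
  | empty =>
    simp only [Finset.sum_empty]
    exact ⟨Tame.const hβ 0, pathE_const hβ hζ n i hH 0⟩
  | insert a s ha ih =>
    have e : (fun ω => ∑ j ∈ insert a s, f j ω) = fun ω => f a ω + ∑ j ∈ s, f j ω := by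
      funext ω
      rw [Finset.sum_insert ha]
    rw [e, Finset.sum_insert ha, ← ih.2]
    exact ⟨(hf a).add hβ ih.1, pathE_add hβ hζ n i hH (hf a) ih.1⟩

/-- abstract smallness -/
theorem pathE_small (hβ : Dom m β) (hζ : Exps ζ) (hmono : Monotone ζ) (n : ℕ)
    (hlast : ζ n = 1) {U Φ S : (Fin (n + 1) → E) → ℝ} (hU : Ham β U) (hΦ : Tame β Φ)
    (h0 : ∀ ω, 0 ≤ Φ ω) (hS : Tame β S) {A κ C B : ℝ} (hκ : 0 ≤ κ) (hC : 0 ≤ C)
    (h1 : ∀ ω, Φ ω ^ 2 * Real.exp (2 * U ω + 2 * A) ≤ κ * S ω)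
    (h2 : ∀ ω, Real.exp (-2 * U ω - 2 * A) ≤ C * S ω) (hS0 : ∀ ω, 0 ≤ S ω)
    (hB : pathE m ζ (n + 1) 0 (fun _ => 0) S ≤ B) :
    pathE m ζ (n + 1) 0 U Φ ^ 2 ≤ κ * C * B ^ 2 := by
  have hz : Ham β (fun _ : Fin (n + 1) → E => (0 : ℝ)) := TConvB_ham_const hβ 0
  have key := pathE_density_sq hβ hζ hmono n 0 (by rw [zero_add]; exact hlast) hz hU hΦ h0
  simp only [zero_add] at key
  refine key.trans ?_
  have hB0 : 0 ≤ pathE m ζ (n + 1) 0 (fun _ => 0) S :=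
    TConvB_pathE_nonneg hβ hζ (n + 1) 0 hz hS hS0
  have t1 : Tame β (fun ω => Φ ω ^ 2 * Real.exp (2 * U ω)) := by
    have e : (fun ω => Φ ω ^ 2 * Real.exp (2 * U ω)) = fun ω => (Φ ω * Φ ω) * Real.exp (2 * U ω) := by
      funext ω; ring
    rw [e]
    exact (hΦ.mul hβ hΦ).mul hβ (Tame.exp hβ (hU.const_mul 2))
  have t2 : Tame β (fun ω => Real.exp (-2 * U ω)) := Tame.exp hβ (hU.const_mul (-2))
  have t3 : ∀ c : ℝ, Tame β (fun ω => c * S ω) := fun c => (Tame.const hβ c).mul hβ hS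
  have b1 : pathE m ζ (n + 1) 0 (fun _ => 0) (fun ω => Φ ω ^ 2 * Real.exp (2 * U ω)) ≤
      Real.exp (-2 * A) * κ * pathE m ζ (n + 1) 0 (fun _ => 0) S := by
    rw [← pathE_mul]
    refine pathE_mono hβ hζ (n + 1) 0 hz t1 (t3 _) fun ω => ?_
    have h3 := mul_le_mul_of_nonneg_left (h1 ω) (Real.exp_pos (-2 * A)).le
    have e : Real.exp (-2 * A) * (Φ ω ^ 2 * Real.exp (2 * U ω + 2 * A)) =
        Φ ω ^ 2 * Real.exp (2 * U ω) := by
      rw [mul_left_comm, ← Real.exp_add]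
      congr 2; ring
    rw [e] at h3
    rw [mul_assoc]
    exact h3
  have b2 : pathE m ζ (n + 1) 0 (fun _ => 0) (fun ω => Real.exp (-2 * U ω)) ≤
      Real.exp (2 * A) * C * pathE m ζ (n + 1) 0 (fun _ => 0) S := by
    rw [← pathE_mul]
    refine pathE_mono hβ hζ (n + 1) 0 hz t2 (t3 _) fun ω => ?_
    have h3 := mul_le_mul_of_nonneg_left (h2 ω) (Real.exp_pos (2 * A)).le
    have e : Real.exp (2 * A) * Real.exp (-2 * U ω - 2 * A) = Real.exp (-2 * U ω) := by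
      rw [← Real.exp_add]
      congr 1; ring
    rw [e] at h3
    rw [mul_assoc]
    exact h3
  have n2 : 0 ≤ pathE m ζ (n + 1) 0 (fun _ => 0) (fun ω => Real.exp (-2 * U ω)) :=
    TConvB_pathE_nonneg hβ hζ (n + 1) 0 hz t2 fun ω => (Real.exp_pos _).le
  calc _ ≤ (Real.exp (-2 * A) * κ * pathE m ζ (n + 1) 0 (fun _ => 0) S) *
        (Real.exp (2 * A) * C * pathE m ζ (n + 1) 0 (fun _ => 0) S) :=
        mul_le_mul b1 b2 n2 (by positivity)
    _ = (Real.exp (-2 * A) * Real.exp (2 * A)) * (κ * C * pathE m ζ (n + 1) 0 (fun _ => 0) S ^ 2) := by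
        ring
    _ = κ * C * pathE m ζ (n + 1) 0 (fun _ => 0) S ^ 2 := by
        rw [← Real.exp_add]
        simp
    _ ≤ κ * C * B ^ 2 := by
        gcongr

end abstractPart

/-- sign -/
noncomputable def sgB (s : Bool) : ℝ := if s then 1 else -1

theorem sgB_sq (s : Bool) : sgB s ^ 2 = 1 := by cases s <;> simp [sgB]

theorem exp_abs3 (c a b x : ℝ) : Real.exp (c * (|a| + |b| + |x|)) ≤
    ∑ σ : Bool × Bool × Bool, Real.exp (c * sgB σ.1 * a + c * sgB σ.2.1 * b + c * sgB σ.2.2 * x) := by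
  have h : ∀ y : ℝ, ∃ s : Bool, |y| = sgB s * y := by
    intro y
    rcases le_total 0 y with h | h
    · exact ⟨true, by rw [abs_of_nonneg h]; simp [sgB]⟩
    · exact ⟨false, by rw [abs_of_nonpos h]; simp [sgB]⟩
  obtain ⟨s1, e1⟩ := h a
  obtain ⟨s2, e2⟩ := h b
  obtain ⟨s3, e3⟩ := h x
  have h1 : Real.exp (c * (|a| + |b| + |x|)) =
      (fun σ : Bool × Bool × Bool => Real.exp (c * sgB σ.1 * a + c * sgB σ.2.1 * b +
        c * sgB σ.2.2 * x)) (s1, s2, s3) := by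
    show _ = Real.exp _
    rw [e1, e2, e3]
    congr 1; ring
  rw [h1]
  exact Finset.single_le_sum (f := fun σ : Bool × Bool × Bool => Real.exp (c * sgB σ.1 * a +
    c * sgB σ.2.1 * b + c * sgB σ.2.2 * x)) (fun σ _ => (Real.exp_pos _).le) (Finset.mem_univ _)

/-- the weight function -/
noncomputable def SA (c : ℝ) (y : ℝ × ℝ) (x : ℝ) (_s : Bool) : ℝ :=
  Real.exp (c * (|y.1| + |y.2| + |x|))

theorem jmeas_SA (c : ℝ) : JMeas (SA c) := by
  unfold JMeas SA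
  fun_prop

theorem gexp_SA {c : ℝ} (hc : 0 ≤ c) : GExp (SA c) := by
  refine ⟨c + 1, by positivity, fun y x s => ?_⟩
  unfold SA
  rw [Real.abs_exp]
  have h0 : 0 ≤ |y.1| + |y.2| + |x| := by positivity
  have h1 : Real.exp (c * (|y.1| + |y.2| + |x|)) ≤ Real.exp ((c + 1) * (|y.1| + |y.2| + |x|)) :=
    Real.exp_le_exp.2 (by nlinarith)
  have h2 := Real.exp_pos ((c + 1) * (|y.1| + |y.2| + |x|))
  nlinarith

private theorem ExAbs_lin (a b x : ℝ) :
    JMeas (fun y z _ => Real.exp (a * y.1 + b * y.2 + x * z)) ∧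
    GExp (fun y z _ => Real.exp (a * y.1 + b * y.2 + x * z)) := by
  constructor
  · unfold JMeas
    fun_prop
  · refine ⟨|a| + |b| + |x| + 1, by positivity, fun y z s => ?_⟩
    rw [Real.abs_exp]
    have h1 : Real.exp (a * y.1 + b * y.2 + x * z) ≤
        Real.exp ((|a| + |b| + |x| + 1) * (|y.1| + |y.2| + |z|)) := by
      refine Real.exp_le_exp.2 ?_
      have e1 : a * y.1 ≤ |a| * |y.1| := by rw [← abs_mul]; exact le_abs_self _
      have e2 : b * y.2 ≤ |b| * |y.2| := by rw [← abs_mul]; exact le_abs_self _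
      have e3 : x * z ≤ |x| * |z| := by rw [← abs_mul]; exact le_abs_self _
      nlinarith [abs_nonneg a, abs_nonneg b, abs_nonneg x, abs_nonneg y.1, abs_nonneg y.2,
        abs_nonneg z, mul_nonneg (abs_nonneg a) (abs_nonneg y.2), mul_nonneg (abs_nonneg a) (abs_nonneg z),
        mul_nonneg (abs_nonneg b) (abs_nonneg y.1), mul_nonneg (abs_nonneg b) (abs_nonneg z),
        mul_nonneg (abs_nonneg x) (abs_nonneg y.1), mul_nonneg (abs_nonneg x) (abs_nonneg y.2)]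
    refine h1.trans (le_mul_of_one_le_left (Real.exp_pos _).le ?_)
    linarith [abs_nonneg a, abs_nonneg b, abs_nonneg x]

/-- exponential moment, new tower -/
theorem absN (s t v ζ : ℕ → ℝ) (hζ : Exps ζ) (n : ℕ) {c : ℝ} (hc : 0 ≤ c) (b : ℝ) :
    pathE mEX2 ζ (n + 1) 0 (fun _ => 0) (pthN s t v 0 (SA c) 0 b) ≤
      8 * (Real.exp (c * |b|) * Real.exp ((1 / 2) * (c ^ 2 * ∑ j ∈ Finset.range (n + 1),
        (s j ^ 2 + t j ^ 2 + v j ^ 2)))) := by
  have := mEX2_prob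
  have hz : Ham βEX2 (fun _ : Fin (n + 1) → EX2 => (0 : ℝ)) := TConvB_ham_const dom_mEX2 0
  have hf : ∀ σ : Bool × Bool × Bool, Tame βEX2 (pthN (n := n) s t v 0 (fun y x _ =>
      Real.exp (c * sgB σ.1 * y.1 + c * sgB σ.2.1 * y.2 + c * sgB σ.2.2 * x)) 0 0) := fun σ =>
    tame_pthN s t v 0 n (ExAbs_lin _ _ _).1 (ExAbs_lin _ _ _).2 0 0
  have hsum := ExAbs_fsum (m := mEX2) (ζ := ζ) dom_mEX2 hζ (n + 1) 0 hz Finset.univ
    (fun σ : Bool × Bool × Bool => pthN (n := n) s t v 0 (fun y x _ =>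
      Real.exp (c * sgB σ.1 * y.1 + c * sgB σ.2.1 * y.2 + c * sgB σ.2.2 * x)) 0 0) hf
  have h1 : pathE mEX2 ζ (n + 1) 0 (fun _ => 0) (pthN s t v 0 (SA c) 0 b) ≤
      pathE mEX2 ζ (n + 1) 0 (fun _ => 0) (fun ω => Real.exp (c * |b|) *
        ∑ σ : Bool × Bool × Bool, pthN (n := n) s t v 0 (fun y x _ =>
      Real.exp (c * sgB σ.1 * y.1 + c * sgB σ.2.1 * y.2 + c * sgB σ.2.2 * x)) 0 0 ω) := by
    refine pathE_mono dom_mEX2 hζ (n + 1) 0 hz
      (tame_pthN s t v 0 n (jmeas_SA c) (gexp_SA hc) 0 b)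
      ((Tame.const dom_mEX2 _).mul dom_mEX2 hsum.1) fun ω => ?_
    unfold pthN SA
    refine le_trans ?_ (mul_le_mul_of_nonneg_left (exp_abs3 c _ _ _) (Real.exp_pos _).le)
    rw [← Real.exp_add]
    refine Real.exp_le_exp.2 ?_
    rw [← mul_add]
    refine mul_le_mul_of_nonneg_left ?_ hc
    have h2 := abs_add_le b (∑ j : Fin (n + 1), v (0 + (j : ℕ)) * (ω j).2.1)
    rw [zero_add (∑ j : Fin (n + 1), v (0 + (j : ℕ)) * (ω j).2.1)]
    linarith
  refine h1.trans ?_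
  rw [pathE_mul, hsum.2]
  have h3 : ∀ σ : Bool × Bool × Bool, pathE mEX2 ζ (n + 1) 0 (fun _ => 0)
      (pthN (n := n) s t v 0 (fun y x _ =>
      Real.exp (c * sgB σ.1 * y.1 + c * sgB σ.2.1 * y.2 + c * sgB σ.2.2 * x)) 0 0) =
      Real.exp ((1 / 2) * (c ^ 2 * ∑ j ∈ Finset.range (n + 1), (s j ^ 2 + t j ^ 2 + v j ^ 2))) := by
    intro σ
    rw [mgf_N]
    congr 2
    rw [Finset.mul_sum]
    refine Finset.sum_congr rfl fun j _ => ?_
    rw [mul_pow, mul_pow, mul_pow, sgB_sq, sgB_sq, sgB_sq]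
    ring
  simp only [h3, Finset.sum_const, Finset.card_univ, Fintype.card_prod, Fintype.card_bool, nsmul_eq_mul]
  refine le_of_eq ?_
  push_cast
  ring

/-- exponential moment, old tower -/
theorem absT (D : Blk) (r : ℕ → Fin D.K → ℝ) (hr : ∀ i l, 0 ≤ r i l) (v ζ : ℕ → ℝ) (hζ : Exps ζ)
    (n : ℕ) {c : ℝ} (hc : 0 ≤ c) (b : ℝ) :
    pathE (mT D.K) ζ (n + 1) 0 (fun _ => 0) (pthT D r v 0 (SA c) 0 b) ≤
      8 * (Real.exp (c * |b|) * Real.exp ((1 / 2) * (c ^ 2 * ∑ j ∈ Finset.range (n + 1),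
        ((1 + D.M) ^ 2 * ∑ l, r j l + v j ^ 2)))) := by
  have := mT_prob D.K
  have hz : Ham βT (fun _ : Fin (n + 1) → ET D.K => (0 : ℝ)) := TConvB_ham_const (dom_mT D.K) 0
  have hf : ∀ σ : Bool × Bool × Bool, Tame βT (pthT (n := n) D r v 0 (fun y x _ =>
      Real.exp (c * sgB σ.1 * y.1 + c * sgB σ.2.1 * y.2 + c * sgB σ.2.2 * x)) 0 0) := fun σ =>
    tame_pthT D r v 0 n (ExAbs_lin _ _ _).1 (ExAbs_lin _ _ _).2 0 0
  have hsum := ExAbs_fsum (m := mT D.K) (ζ := ζ) (dom_mT D.K) hζ (n + 1) 0 hz Finset.univ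
    (fun σ : Bool × Bool × Bool => pthT (n := n) D r v 0 (fun y x _ =>
      Real.exp (c * sgB σ.1 * y.1 + c * sgB σ.2.1 * y.2 + c * sgB σ.2.2 * x)) 0 0) hf
  have h1 : pathE (mT D.K) ζ (n + 1) 0 (fun _ => 0) (pthT D r v 0 (SA c) 0 b) ≤
      pathE (mT D.K) ζ (n + 1) 0 (fun _ => 0) (fun ω => Real.exp (c * |b|) *
        ∑ σ : Bool × Bool × Bool, pthT (n := n) D r v 0 (fun y x _ =>
      Real.exp (c * sgB σ.1 * y.1 + c * sgB σ.2.1 * y.2 + c * sgB σ.2.2 * x)) 0 0 ω) := by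
    refine pathE_mono (dom_mT D.K) hζ (n + 1) 0 hz
      (tame_pthT D r v 0 n (jmeas_SA c) (gexp_SA hc) 0 b)
      ((Tame.const (dom_mT D.K) _).mul (dom_mT D.K) hsum.1) fun ω => ?_
    unfold pthT SA
    refine le_trans ?_ (mul_le_mul_of_nonneg_left (exp_abs3 c _ _ _) (Real.exp_pos _).le)
    rw [← Real.exp_add]
    refine Real.exp_le_exp.2 ?_
    rw [← mul_add]
    refine mul_le_mul_of_nonneg_left ?_ hc
    have h2 := abs_add_le b (∑ j : Fin (n + 1), v (0 + (j : ℕ)) * (ω j).2.1)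
    rw [zero_add (∑ j : Fin (n + 1), v (0 + (j : ℕ)) * (ω j).2.1)]
    linarith
  refine h1.trans ?_
  rw [pathE_mul, hsum.2]
  have h3 : ∀ σ : Bool × Bool × Bool, pathE (mT D.K) ζ (n + 1) 0 (fun _ => 0)
      (pthT (n := n) D r v 0 (fun y x _ =>
      Real.exp (c * sgB σ.1 * y.1 + c * sgB σ.2.1 * y.2 + c * sgB σ.2.2 * x)) 0 0) ≤
      Real.exp ((1 / 2) * (c ^ 2 * ∑ j ∈ Finset.range (n + 1),
        ((1 + D.M) ^ 2 * ∑ l, r j l + v j ^ 2))) := by
    intro σ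
    rw [mgf_T D r hr]
    refine Real.exp_le_exp.2 (mul_le_mul_of_nonneg_left ?_ (by norm_num))
    rw [Finset.mul_sum]
    refine Finset.sum_le_sum fun j _ => ?_
    have e1 : (c * sgB σ.2.2) ^ 2 * v j ^ 2 = c ^ 2 * v j ^ 2 := by rw [mul_pow, sgB_sq, mul_one]
    rw [e1, mul_add, Finset.mul_sum, Finset.mul_sum]
    refine add_le_add (Finset.sum_le_sum fun l _ => ?_) le_rfl
    rw [← mul_assoc]
    refine mul_le_mul_of_nonneg_right ?_ (hr j l)
    have e2 : c * sgB σ.1 + c * sgB σ.2.1 * D.d l = c * (sgB σ.1 + sgB σ.2.1 * D.d l) := by ring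
    rw [e2, mul_pow]
    refine mul_le_mul_of_nonneg_left ?_ (sq_nonneg c)
    have h5 : ∀ s : Bool, |sgB s| = 1 := by intro s; cases s <;> simp [sgB]
    have h4 : |sgB σ.1 + sgB σ.2.1 * D.d l| ≤ 1 + D.M := by
      refine (abs_add_le _ _).trans ?_
      rw [abs_mul, h5, h5, one_mul]
      have := D.abs_d_le l
      linarith
    rw [← sq_abs]
    exact pow_le_pow_left₀ (abs_nonneg _) h4 2
  refine (mul_le_mul_of_nonneg_left (Finset.sum_le_sum fun σ _ => h3 σ) (Real.exp_pos _).le).trans ?_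
  simp only [Finset.sum_const, Finset.card_univ, Fintype.card_prod, Fintype.card_bool, nsmul_eq_mul]
  refine le_of_eq ?_
  push_cast
  ring

theorem sum_vN (i0 : ℕ) (v : ℝ) (n : ℕ) : ∑ j ∈ Finset.range n, vN i0 v j ^ 2 ≤ v ^ 2 := by
  unfold vN
  have e : ∀ j, (if j = i0 then v else 0) ^ 2 = if j = i0 then v ^ 2 else 0 := by
    intro j; split_ifs <;> simp
  simp only [e, Finset.sum_ite_eq']
  split_ifs
  · exact le_rfl
  · positivity

end Crest.Agent.RI
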