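import Crest.Agent.RI.TowerAPI
import Crest.Agent.RI.FlowB
import Crest.Agent.RI.FlowC

/-!
# Row 164: GEN, expansion of the nested functional in the strength of an extra Gaussian at level `i`

Chunk R164-GEN. E abstract, `|ε| ≤ 1`, `H` and `ε` do not depend on the Gaussian coordinate `g` of level `i`.

PROOF. `H_r := H + r g_i ε`, `F(r) := nest H_r`, flow `φ t e := set e (g e + t)` at coordinate `i` (`GCoord.cflow`,
divergence `δ = g`), derivative of `H_r` along the flow: `V = r ε` (`hHi`, `hεi`, `g_set`).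
(G1) `gibp` + Abel summation (`ζ k = 1`, `condE_all`): for `Φ` tame with `IsD φ i Φ Φ'`
   `E_r[g Φ] = E_r Φ' + r E_r[Φ (ε - Σ_{q ∈ Ico i k} w_q C_{q+1} ε)]`, `w_q = ζ_{q+1} - ζ_q`, `C_q = condE q`.
(G2) `nest_hasDerivAt'`: `F'(r) = E_r[g ε] = r ψ(r)`, `ψ(r) = E_r ε² - Σ_q w_q pairE_{q+1}(ε ε')`
   (`pathE_condE`, `pairE_mul`).
(G3) `ψ` is differentiable, `ψ'(r) = E_r[ε² score(gε)] - Σ_q w_q pairE_{q+1}(ε ε' score2(gε))`
   (`pathE_hasDerivAt'`, `pairE_hasDerivAt'`).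
(G4) `E_r score(V)² ≤ Jvar(V) ≤ E_r V²` (`score_sq_le`; `ζ ≤ 1`, orthogonality of the increments), the same for the
   part of the score of the levels `≥ q+1` of the second path: `E_r |part| ≤ (E_r V²)^{1/2}` (`pairE_mul` / `pairE_fst` /
   symmetry of `pairE` for functions of one path).
(G5) `x² := E_r g² = 1 + r E_r[g(ε - Σ w C ε)] ≤ 1 + 2|r| x` (G1 with `Φ = g`, `|Σ w C ε| ≤ 1`), so `x ≤ 1 + √2 < 5/2`.
(G6) `|ψ'| ≤ x + 2x ≤ 15/2 · ...≤ 60` and `F(r) - F(0) - r²/2 ψ(0) = ∫_0^r ρ (ψ(ρ) - ψ(0)) dρ`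
   (mean value inequality), hence the bound.
-/

set_option autoImplicit false
set_option linter.unusedSectionVars false

namespace Crest.Agent.RI

open MeasureTheory ProbabilityTheory

variable {E : Type} [MeasurableSpace E] {m : Measure E} [IsProbabilityMeasure m]
variable {ζ : ℕ → ℝ} {β : E → ℝ} {g : E → ℝ} {set : E → ℝ → E}

/-! ### algebra -/

private theorem Gen_abel (c : ℕ → ℝ) (j k : ℕ) (hjk : j ≤ k) :
    ζ j * c (j + 1) + ∑ q ∈ Finset.Ico (j + 1) (k + 1), ζ q * (c (q + 1) - c q) =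
      ζ k * c (k + 1) - ∑ q ∈ Finset.Ico j k, (ζ (q + 1) - ζ q) * c (q + 1) := by
  induction k, hjk using Nat.le_induction with
  | base => simp
  | succ k hk ih =>
    rw [Finset.sum_Ico_succ_top (by omega), Finset.sum_Ico_succ_top hk, ← add_assoc, ih]
    ring

private theorem Gen_sum_w (j k : ℕ) (hjk : j ≤ k) :
    ∑ q ∈ Finset.Ico j k, (ζ (q + 1) - ζ q) = ζ k - ζ j := by
  induction k, hjk using Nat.le_induction with
  | base => simp
  | succ k hk ih =>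
    rw [Finset.sum_Ico_succ_top hk, ih]
    ring

/-! ### bounds on conditional expectations -/

private theorem Gen_condE_const (hβ : Dom m β) (hζ : Exps ζ) (c : ℝ) (r : ℕ) :
    ∀ (n i : ℕ) {H : (Fin n → E) → ℝ}, Ham β H → ∀ ω : Fin n → E,
      condE m ζ r n i H (fun _ => c) ω = c := by
  induction r with
  | zero => intro n i H hH ω; exact pathE_const hβ hζ n i hH c
  | succ r ih =>
    intro n i H hH ω
    cases n with
    | zero => rfl
    | succ n => exact ih n (i + 1) (hH.cons hβ (ω 0)) (Fin.tail ω)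

private theorem Gen_condE_abs (hβ : Dom m β) (hζ : Exps ζ) (r n i : ℕ) {H ε : (Fin n → E) → ℝ}
    (hH : Ham β H) (hε : Tame β ε) (h1 : ∀ ω, |ε ω| ≤ 1) (ω : Fin n → E) :
    |condE m ζ r n i H ε ω| ≤ 1 := by
  rw [abs_le]
  constructor
  · rw [← Gen_condE_const hβ hζ (-1) r n i hH ω]
    exact condE_mono hβ hζ r n i hH (Tame.const hβ _) hε (fun ω => (abs_le.mp (h1 ω)).1) ω
  · rw [← Gen_condE_const hβ hζ 1 r n i hH ω]
    exact condE_mono hβ hζ r n i hH hε (Tame.const hβ _) (fun ω => (abs_le.mp (h1 ω)).2) ω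

private theorem Gen_tame_of_le (hβ : Dom m β) {n : ℕ} {ε : (Fin n → E) → ℝ} (hε : Measurable ε)
    (h1 : ∀ ω, |ε ω| ≤ 1) : Tame β ε := by
  refine ⟨hε, 1, zero_le_one, fun ω => (h1 ω).trans ?_⟩
  rw [one_mul, one_mul]
  exact Real.one_le_exp (TDerA_sum_nonneg hβ ω)

/-- `ε - Σ_q w_q C_{q+1} ε` -/
private noncomputable def GenD (m : Measure E) (ζ : ℕ → ℝ) (k i : ℕ) (H ε : (Fin (k + 1) → E) → ℝ)
    (ω : Fin (k + 1) → E) : ℝ :=
  ε ω - ∑ q ∈ Finset.Ico i k, (ζ (q + 1) - ζ q) * condE m ζ (q + 1) (k + 1) 0 H ε ω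

private theorem GenD_abs (hβ : Dom m β) (hζ : Exps ζ) (hmono : Monotone ζ) (k i : ℕ) (hik : i ≤ k)
    {H ε : (Fin (k + 1) → E) → ℝ}
    (hH : Ham β H) (hε : Tame β ε) (h1 : ∀ ω, |ε ω| ≤ 1) (ω : Fin (k + 1) → E) :
    |GenD m ζ k i H ε ω| ≤ 2 := by
  unfold GenD
  have h2 : |∑ q ∈ Finset.Ico i k, (ζ (q + 1) - ζ q) * condE m ζ (q + 1) (k + 1) 0 H ε ω| ≤ 1 := by
    calc _ ≤ ∑ q ∈ Finset.Ico i k, |(ζ (q + 1) - ζ q) * condE m ζ (q + 1) (k + 1) 0 H ε ω| :=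
          Finset.abs_sum_le_sum_abs _ _
      _ ≤ ∑ q ∈ Finset.Ico i k, (ζ (q + 1) - ζ q) := by
          apply Finset.sum_le_sum
          intro q _
          have h3 : 0 ≤ ζ (q + 1) - ζ q := sub_nonneg.2 (hmono (Nat.le_succ q))
          rw [abs_mul, abs_of_nonneg h3]
          exact mul_le_of_le_one_right h3 (Gen_condE_abs hβ hζ _ _ _ hH hε h1 ω)
      _ = ζ k - ζ i := Gen_sum_w i k hik
      _ ≤ 1 := by have := (hζ k).2; have := (hζ i).1; linarith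
  have h3 := h1 ω
  calc _ ≤ |ε ω| + |∑ q ∈ Finset.Ico i k, (ζ (q + 1) - ζ q) * condE m ζ (q + 1) (k + 1) 0 H ε ω| :=
        abs_sub _ _
    _ ≤ 2 := by linarith

private theorem GenD_tame (hβ : Dom m β) (hζ : Exps ζ) (k i : ℕ)
    {H ε : (Fin (k + 1) → E) → ℝ} (hH : Ham β H) (hε : Tame β ε) :
    Tame β (GenD m ζ k i H ε) := by
  have : Tame β (fun ω => ∑ q ∈ Finset.Ico i k,
      (ζ (q + 1) - ζ q) * condE m ζ (q + 1) (k + 1) 0 H ε ω) :=
    TVar_tame_sum hβ _ (f := fun q ω => (ζ (q + 1) - ζ q) * condE m ζ (q + 1) (k + 1) 0 H ε ω)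
      fun q _ => TVar_tame_cmul hβ _ (condE_tame hβ hζ _ _ _ hH hε)
  exact TVar_tame_sub hβ hε this

/-! ### the perturbed Hamiltonian -/

section pert
variable {k : ℕ} {i : Fin k} {H ε : (Fin (k + 1) → E) → ℝ}

private theorem Gen_gε_ham (hβ : Dom m β) (hg : GCoord m β g set) (j : Fin (k + 1))
    (hε : Measurable ε) (hε1 : ∀ ω, |ε ω| ≤ 1) : Ham β (fun ω : Fin (k + 1) → E => g (ω j) * ε ω) := by
  obtain ⟨c, hc, hgb, -⟩ := hg.bd
  refine ⟨(hg.gm.comp (measurable_pi_apply j)).mul hε, c, hc, fun ω => ?_⟩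
  rw [abs_mul]
  have h1 := hgb (ω j)
  have h2 : β (ω j) ≤ ∑ i, β (ω i) :=
    Finset.single_le_sum (f := fun i => β (ω i)) (fun i _ => hβ.nonneg _) (Finset.mem_univ j)
  calc |g (ω j)| * |ε ω| ≤ |g (ω j)| * 1 := by
        apply mul_le_mul_of_nonneg_left (hε1 ω) (abs_nonneg _)
    _ ≤ c * (1 + β (ω j)) := by rw [mul_one]; exact h1
    _ ≤ _ := by gcongr

private theorem Gen_Hr_ham (hβ : Dom m β) (hg : GCoord m β g set) (j : Fin (k + 1)) (hH : Ham β H)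
    (hε : Measurable ε) (hε1 : ∀ ω, |ε ω| ≤ 1) (r : ℝ) :
    Ham β (fun ω : Fin (k + 1) → E => H ω + r * (g (ω j) * ε ω)) :=
  hH.add hβ ((Gen_gε_ham hβ hg j hε hε1).const_mul r)

private theorem Gen_isD_H (hg : GCoord m β g set) (j : Fin (k + 1))
    (hHi : ∀ ω t, H (Function.update ω j (set (ω j) t)) = H ω)
    (hεi : ∀ ω t, ε (Function.update ω j (set (ω j) t)) = ε ω) (r : ℝ) :
    IsD (fun t e => set e (g e + t)) j (fun ω : Fin (k + 1) → E => H ω + r * (g (ω j) * ε ω))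
      (fun ω => r * ε ω) := by
  intro ω t
  simp only [hHi, hεi, Function.update_self, hg.g_set]
  have h1 : HasDerivAt (fun s : ℝ => g (ω j) + s) 1 t := (hasDerivAt_id t).const_add _
  have h2 := ((h1.mul_const (ε ω)).const_mul r).const_add (H ω)
  simpa using h2

private theorem Gen_isD_g (hg : GCoord m β g set) (j : Fin (k + 1)) :
    IsD (fun t e => set e (g e + t)) j (fun ω : Fin (k + 1) → E => g (ω j)) (fun _ => 1) := by
  intro ω t
  simp only [Function.update_self, hg.g_set]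
  exact (hasDerivAt_id t).const_add _

private theorem Gen_isD_ε (j : Fin (k + 1))
    (hεi : ∀ ω t, ε (Function.update ω j (set (ω j) t)) = ε ω) :
    IsD (fun t e => set e (g e + t)) j ε (fun _ => 0) := by
  intro ω t
  simp only [hεi]
  exact hasDerivAt_const t _

private theorem Gen_gibp (hβ : Dom m β) (hζ : Exps ζ) (hg : GCoord m β g set)
    (hk : ζ k = 1) (hH : Ham β H)
    (hε : Measurable ε) (hε1 : ∀ ω, |ε ω| ≤ 1)
    (hHi : ∀ ω t, H (Function.update ω i.castSucc (set (ω i.castSucc) t)) = H ω)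
    (hεi : ∀ ω t, ε (Function.update ω i.castSucc (set (ω i.castSucc) t)) = ε ω) (r : ℝ)
    {Φ Φ' : (Fin (k + 1) → E) → ℝ} (hΦ : Tame β Φ) (hΦ' : Tame β Φ')
    (hD : IsD (fun t e => set e (g e + t)) i.castSucc Φ Φ') :
    pathE m ζ (k + 1) 0 (fun ω => H ω + r * (g (ω i.castSucc) * ε ω))
        (fun ω => g (ω i.castSucc) * Φ ω) =
      pathE m ζ (k + 1) 0 (fun ω => H ω + r * (g (ω i.castSucc) * ε ω)) Φ' +
      r * pathE m ζ (k + 1) 0 (fun ω => H ω + r * (g (ω i.castSucc) * ε ω))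
        (fun ω => Φ ω * GenD m ζ k i (fun ω => H ω + r * (g (ω i.castSucc) * ε ω)) ε ω) := by
  have hHr := Gen_Hr_ham hβ hg i.castSucc hH hε hε1 r
  have hεt : Tame β ε := Gen_tame_of_le hβ hε hε1
  rw [gibp hβ hζ (hg.cflow hβ) (k + 1) 0 i.castSucc hHr (TVar_tame_cmul hβ r hεt) hΦ hΦ'
    (Gen_isD_H hg i.castSucc hHi hεi r) hD, ← pathE_mul]
  congr 2
  funext ω
  set Hr : (Fin (k + 1) → E) → ℝ := fun ω => H ω + r * (g (ω i.castSucc) * ε ω) with hHrdef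
  have h1 := Gen_abel (ζ := ζ) (fun q => condE m ζ q (k + 1) 0 Hr (fun ω => r * ε ω) ω) i k
    i.isLt.le
  have h2 : (i.castSucc : ℕ) = i := rfl
  unfold sAfter
  simp only [h2, zero_add]
  rw [h1, hk, one_mul, condE_all (k + 1) 0 Hr _ (k + 1) le_rfl]
  have h3 : ∀ q, condE m ζ q (k + 1) 0 Hr (fun ω => r * ε ω) ω =
      r * condE m ζ q (k + 1) 0 Hr ε ω := fun q => condE_mul q (k + 1) 0 Hr ε r ω
  simp only [h3]
  unfold GenD
  have h4 : ∑ q ∈ Finset.Ico (i : ℕ) k, (ζ (q + 1) - ζ q) * (r * condE m ζ (q + 1) (k + 1) 0 Hr ε ω) =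
      r * ∑ q ∈ Finset.Ico (i : ℕ) k, (ζ (q + 1) - ζ q) * condE m ζ (q + 1) (k + 1) 0 Hr ε ω := by
    rw [Finset.mul_sum]
    exact Finset.sum_congr rfl fun q _ => by ring
  rw [h4]
  ring

/-- (G2) -/
private theorem Gen_F_deriv_eq (hβ : Dom m β) (hζ : Exps ζ) (hg : GCoord m β g set)
    (hk : ζ k = 1) (hH : Ham β H)
    (hε : Measurable ε) (hε1 : ∀ ω, |ε ω| ≤ 1)
    (hHi : ∀ ω t, H (Function.update ω i.castSucc (set (ω i.castSucc) t)) = H ω)
    (hεi : ∀ ω t, ε (Function.update ω i.castSucc (set (ω i.castSucc) t)) = ε ω) (r : ℝ) :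
    pathE m ζ (k + 1) 0 (fun ω => H ω + r * (g (ω i.castSucc) * ε ω))
        (fun ω => g (ω i.castSucc) * ε ω) =
      r * (pathE m ζ (k + 1) 0 (fun ω => H ω + r * (g (ω i.castSucc) * ε ω)) (fun ω => ε ω ^ 2) -
        ∑ j ∈ Finset.Ico (i : ℕ) k, (ζ (j + 1) - ζ j) *
          pairE m ζ (j + 1) (k + 1) 0 (fun ω => H ω + r * (g (ω i.castSucc) * ε ω))
            (fun ω ω' => ε ω * ε ω')) := by
  have hHr := Gen_Hr_ham hβ hg i.castSucc hH hε hε1 r
  have hεt : Tame β ε := Gen_tame_of_le hβ hε hε1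
  rw [Gen_gibp hβ hζ hg hk hH hε hε1 hHi hεi r hεt (Tame.const hβ 0) (Gen_isD_ε i.castSucc hεi),
    pathE_const hβ hζ _ _ hHr, zero_add]
  congr 1
  set Hr : (Fin (k + 1) → E) → ℝ := fun ω => H ω + r * (g (ω i.castSucc) * ε ω) with hHrdef
  have h1 : (fun ω => ε ω * GenD m ζ k i Hr ε ω) = fun ω => ε ω ^ 2 -
      ∑ q ∈ Finset.Ico (i : ℕ) k, (ζ (q + 1) - ζ q) *
        (ε ω * condE m ζ (q + 1) (k + 1) 0 Hr ε ω) := by
    funext ω
    unfold GenD
    rw [mul_sub, Finset.mul_sum, sq]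
    congr 1
    exact Finset.sum_congr rfl fun q _ => by ring
  have ht : ∀ q ∈ Finset.Ico (i : ℕ) k, Tame β (fun ω => (ζ (q + 1) - ζ q) *
        (ε ω * condE m ζ (q + 1) (k + 1) 0 Hr ε ω)) := fun q _ =>
    TVar_tame_cmul hβ _ (hεt.mul hβ (condE_tame hβ hζ _ _ _ hHr hεt))
  rw [h1, TVar_pathE_sub hβ hζ _ _ hHr (TVar_tame_sq hβ hεt) (TVar_tame_sum hβ _ ht),
    TVar_pathE_sum hβ hζ _ _ hHr _ ht]
  congr 1
  refine Finset.sum_congr rfl fun q _ => ?_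
  rw [pathE_mul, TVar_mul_condE hβ hζ _ _ _ hHr hεt, pairE_mul hβ hζ _ _ _ hHr hεt hεt]
  congr 2
  funext ω
  ring

/-- (G5) -/
private theorem Gen_g_sq (hβ : Dom m β) (hζ : Exps ζ) (hmono : Monotone ζ) (hg : GCoord m β g set)
    (hk : ζ k = 1) (hH : Ham β H)
    (hε : Measurable ε) (hε1 : ∀ ω, |ε ω| ≤ 1)
    (hHi : ∀ ω t, H (Function.update ω i.castSucc (set (ω i.castSucc) t)) = H ω)
    (hεi : ∀ ω t, ε (Function.update ω i.castSucc (set (ω i.castSucc) t)) = ε ω) {r : ℝ}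
    (hr : |r| ≤ 1) :
    pathE m ζ (k + 1) 0 (fun ω => H ω + r * (g (ω i.castSucc) * ε ω))
        (fun ω => g (ω i.castSucc) ^ 2) ≤ 25 / 4 := by
  have hHr := Gen_Hr_ham hβ hg i.castSucc hH hε hε1 r
  have hεt : Tame β ε := Gen_tame_of_le hβ hε hε1
  have hgt : Tame β (fun ω : Fin (k + 1) → E => g (ω i.castSucc)) := by
    have := (Gen_gε_ham (ε := fun _ => 1) hβ hg i.castSucc measurable_const
      (fun _ => by simp)).tame hβ
    simpa using this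
  have h1 := Gen_gibp hβ hζ hg hk hH hε hε1 hHi hεi r hgt (Tame.const hβ 1)
    (Gen_isD_g hg i.castSucc)
  set Hr : (Fin (k + 1) → E) → ℝ := fun ω => H ω + r * (g (ω i.castSucc) * ε ω) with hHrdef
  rw [pathE_const hβ hζ _ _ hHr] at h1
  have hDt := GenD_tame hβ hζ k i hHr hεt
  have h2 := pathE_cs hβ hζ (k + 1) 0 hHr hgt hDt
  have h3 : pathE m ζ (k + 1) 0 Hr (fun ω => GenD m ζ k i Hr ε ω ^ 2) ≤ 4 := by
    rw [← pathE_const hβ hζ (k + 1) 0 hHr 4]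
    refine pathE_mono hβ hζ _ _ hHr (TVar_tame_sq hβ hDt) (Tame.const hβ _) fun ω => ?_
    have := GenD_abs hβ hζ hmono k i i.isLt.le hHr hεt hε1 ω
    rw [abs_le] at this
    nlinarith [this.1, this.2]
  set y := pathE m ζ (k + 1) 0 Hr (fun ω => g (ω i.castSucc) ^ 2) with hy
  set z := pathE m ζ (k + 1) 0 Hr (fun ω => g (ω i.castSucc) * GenD m ζ k i Hr ε ω) with hz
  have h4 : y = 1 + r * z := by
    rw [← h1, hy]
    congr 1
    funext ω
    ring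
  have hy0 : 0 ≤ y := TVar_pathE_nonneg hβ hζ _ _ hHr (TVar_tame_sq hβ hgt) fun ω => sq_nonneg _
  have h5 : z ^ 2 ≤ 4 * y := by nlinarith
  have h6 : |z| ≤ 2 * Real.sqrt y := by
    apply abs_le_of_sq_le_sq _ (by positivity)
    rw [mul_pow, Real.sq_sqrt hy0]
    linarith
  have h7 : y ≤ 1 + 2 * Real.sqrt y := by
    have : r * z ≤ |r| * |z| := by rw [← abs_mul]; exact le_abs_self _
    have h8 : |r| * |z| ≤ 1 * (2 * Real.sqrt y) := mul_le_mul hr h6 (abs_nonneg _) zero_le_one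
    linarith
  have h9 : Real.sqrt y ≤ 5 / 2 := by
    have := Real.sq_sqrt hy0
    by_contra hc
    push Not at hc
    nlinarith
  have := Real.sq_sqrt hy0
  nlinarith [Real.sqrt_nonneg y]

end pert

/-! ### the partial scores -/

private theorem Gen_part_sq (hβ : Dom m β) (hζ : Exps ζ) (n i : ℕ) {H V : (Fin n → E) → ℝ}
    (hH : Ham β H) (hV : Tame β V) {R : ℕ} (hR : R ≤ n) :
    pathE m ζ n i H (fun ω => (∑ j ∈ Finset.range R, ζ (i + j) *
      (condE m ζ (j + 1) n i H V ω - condE m ζ j n i H V ω)) ^ 2) ≤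
      pathE m ζ n i H (fun ω => V ω ^ 2) := by
  rw [TVar_partial_sq hβ hζ n i hH hV R]
  have hs : ∀ j, 0 ≤ pathE m ζ n i H
      (fun ω => (condE m ζ (j + 1) n i H V ω - condE m ζ j n i H V ω) ^ 2) := fun j =>
    TVar_pathE_nonneg hβ hζ _ _ hH (TVar_tame_sq hβ (TVar_tame_incr hβ hζ j n i hH hV))
      fun ω => sq_nonneg _
  calc _ ≤ ∑ j ∈ Finset.range R, pathE m ζ n i H
            (fun ω => (condE m ζ (j + 1) n i H V ω - condE m ζ j n i H V ω) ^ 2) := by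
        apply Finset.sum_le_sum
        intro j _
        apply mul_le_of_le_one_left (hs j)
        have h1 := (hζ (i + j)).1
        have h2 := (hζ (i + j)).2
        nlinarith
    _ ≤ ∑ j ∈ Finset.range n, pathE m ζ n i H
            (fun ω => (condE m ζ (j + 1) n i H V ω - condE m ζ j n i H V ω) ^ 2) :=
        Finset.sum_le_sum_of_subset_of_nonneg (Finset.range_mono hR) fun j _ _ => hs j
    _ = ∑ j ∈ Finset.range n, (pathE m ζ n i H (fun ω => condE m ζ (j + 1) n i H V ω ^ 2) -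
        pathE m ζ n i H (fun ω => condE m ζ j n i H V ω ^ 2)) :=
        Finset.sum_congr rfl fun j _ => TVar_incr_sq hβ hζ j n i hH hV
    _ = pathE m ζ n i H (fun ω => condE m ζ n n i H V ω ^ 2) -
        pathE m ζ n i H (fun ω => condE m ζ 0 n i H V ω ^ 2) :=
        Finset.sum_range_sub (fun j => pathE m ζ n i H (fun ω => condE m ζ j n i H V ω ^ 2)) n
    _ ≤ pathE m ζ n i H (fun ω => V ω ^ 2) := by
        have h1 : 0 ≤ pathE m ζ n i H (fun ω => condE m ζ 0 n i H V ω ^ 2) :=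
          TVar_pathE_nonneg hβ hζ _ _ hH (TVar_tame_sq hβ (condE_tame hβ hζ _ _ _ hH hV))
            fun ω => sq_nonneg _
        have h2 : (fun ω => condE m ζ n n i H V ω ^ 2) = fun ω => V ω ^ 2 := by
          funext ω
          rw [condE_all n i H V n le_rfl]
        rw [h2]
        linarith

private theorem Gen_part_tame (hβ : Dom m β) (hζ : Exps ζ) (n i : ℕ) {H V : (Fin n → E) → ℝ}
    (hH : Ham β H) (hV : Tame β V) (R : ℕ) :
    Tame β (fun ω => ∑ j ∈ Finset.range R, ζ (i + j) *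
      (condE m ζ (j + 1) n i H V ω - condE m ζ j n i H V ω)) :=
  TVar_tame_sum hβ _ (f := fun j ω => ζ (i + j) *
      (condE m ζ (j + 1) n i H V ω - condE m ζ j n i H V ω))
    fun j _ => TVar_tame_cmul hβ _ (TVar_tame_incr hβ hζ j n i hH hV)

/-- `E|Φ| ≤ x` if `E Φ² ≤ x²` -/
private theorem Gen_abs_le (hβ : Dom m β) (hζ : Exps ζ) (n i : ℕ) {H Φ : (Fin n → E) → ℝ}
    (hH : Ham β H) (hΦ : Tame β Φ) {x : ℝ} (hx : 0 ≤ x)
    (h : pathE m ζ n i H (fun ω => Φ ω ^ 2) ≤ x ^ 2) :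
    pathE m ζ n i H (fun ω => |Φ ω|) ≤ x := by
  have hat : Tame β (fun ω => |Φ ω|) := by
    obtain ⟨C, hC, hb⟩ := hΦ.bound
    exact ⟨hΦ.meas.abs, C, hC, fun ω => by rw [abs_abs]; exact hb ω⟩
  have h1 := pathE_cs hβ hζ n i hH hat (Tame.const hβ 1)
  simp only [mul_one, sq_abs, one_pow] at h1
  rw [pathE_one hβ hζ n i hH, mul_one] at h1
  exact (abs_le.mp (abs_le_of_sq_le_sq (h1.trans h) hx)).2

private theorem Gen_score2 (r n i : ℕ) (hr : r ≤ n) (H V : (Fin n → E) → ℝ) (ω ω' : Fin n → E) :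
    score2 m ζ r n i H V ω ω' = (∑ j ∈ Finset.range n, ζ (i + j) *
      (condE m ζ (j + 1) n i H V ω - condE m ζ j n i H V ω)) +
      ((∑ j ∈ Finset.range n, ζ (i + j) *
        (condE m ζ (j + 1) n i H V ω' - condE m ζ j n i H V ω')) -
      ∑ j ∈ Finset.range r, ζ (i + j) *
        (condE m ζ (j + 1) n i H V ω' - condE m ζ j n i H V ω')) := by
  unfold score2
  simp only [mul_add, Finset.sum_add_distrib]
  congr 1
  rw [← Finset.sum_Ico_eq_sub _ hr]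
  have : ∀ j ∈ Finset.range n, ζ (i + j) * (if r ≤ j then condE m ζ (j + 1) n i H V ω' -
      condE m ζ j n i H V ω' else 0) = if r ≤ j then ζ (i + j) * (condE m ζ (j + 1) n i H V ω' -
      condE m ζ j n i H V ω') else 0 := by
    intro j _
    split_ifs <;> simp
  rw [Finset.sum_congr rfl this, ← Finset.sum_filter]
  apply Finset.sum_congr _ fun _ _ => rfl
  ext j
  simp only [Finset.mem_filter, Finset.mem_range, Finset.mem_Ico]
  tauto

/-- (G3) + (G4) -/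
private theorem Gen_psi_deriv (hβ : Dom m β) (hζ : Exps ζ) (hmono : Monotone ζ)
    (hg : GCoord m β g set)
    (k : ℕ) (hk : ζ k = 1) (i : Fin k) {H ε : (Fin (k + 1) → E) → ℝ} (hH : Ham β H)
    (hε : Measurable ε) (hε1 : ∀ ω, |ε ω| ≤ 1)
    (hHi : ∀ ω t, H (Function.update ω i.castSucc (set (ω i.castSucc) t)) = H ω)
    (hεi : ∀ ω t, ε (Function.update ω i.castSucc (set (ω i.castSucc) t)) = ε ω) (r : ℝ) :
    ∃ d : ℝ, HasDerivAt (fun r : ℝ =>
      pathE m ζ (k + 1) 0 (fun ω => H ω + r * (g (ω i.castSucc) * ε ω)) (fun ω => ε ω ^ 2) -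
        ∑ j ∈ Finset.Ico (i : ℕ) k, (ζ (j + 1) - ζ j) *
          pairE m ζ (j + 1) (k + 1) 0 (fun ω => H ω + r * (g (ω i.castSucc) * ε ω))
            (fun ω ω' => ε ω * ε ω')) d r ∧ (|r| ≤ 1 → |d| ≤ 10) := by
  have hεt : Tame β ε := Gen_tame_of_le hβ hε hε1
  have hHr := Gen_Hr_ham hβ hg i.castSucc hH hε hε1 r
  have hVh := Gen_gε_ham hβ hg i.castSucc hε hε1
  set V : (Fin (k + 1) → E) → ℝ := fun ω => g (ω i.castSucc) * ε ω with hV
  have hVt : Tame β V := hVh.tame hβ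
  set Hr : (Fin (k + 1) → E) → ℝ := fun ω => H ω + r * V ω with hHrdef
  obtain ⟨C, hC, hC1, hC2⟩ := TDerA_line hβ hH hVh r
  have hε2 : ∀ ω, |ε ω ^ 2| ≤ 1 := fun ω => by
    rw [abs_pow]; exact pow_le_one₀ (abs_nonneg _) (hε1 ω)
  have hεε : Measurable (Function.uncurry fun ω ω' : Fin (k + 1) → E => ε ω * ε ω') :=
    (hε.comp measurable_fst).mul (hε.comp measurable_snd)
  have hεε1 : ∀ ω ω' : Fin (k + 1) → E, |ε ω * ε ω'| ≤ 1 := fun ω ω' => by
    rw [abs_mul]; exact mul_le_one₀ (hε1 ω) (abs_nonneg _) (hε1 ω')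
  have hd1 := pathE_hasDerivAt hβ hζ (k + 1) 0 hH hVh (TVar_tame_sq hβ hεt) r
  have hd2 : ∀ j, HasDerivAt (fun r : ℝ => pairE m ζ (j + 1) (k + 1) 0
      (fun ω => H ω + r * V ω) (fun ω ω' => ε ω * ε ω'))
      (pairE m ζ (j + 1) (k + 1) 0 Hr
        (fun ω ω' => ε ω * ε ω' * score2 m ζ (j + 1) (k + 1) 0 Hr V ω ω')) r := by
    intro j
    have h1 := pairE_hasDerivAt' hβ hζ (j + 1) (k + 1) 0 (H := fun u ω => H ω + u * V ω)
      (V := fun _ => V) (Φ := fun _ ω ω' => ε ω * ε ω') (Φ' := fun _ _ _ => 0)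
      (C := C + 1) (c := r - 1) (d := r + 1) (t := r)
      (by linarith) ⟨by linarith, by linarith⟩
      (fun u hu => TDerA_hamC_mono hβ (hC1 u hu) (by linarith))
      (fun u hu => TDerA_tameC_mono hβ hC hC2 (by linarith))
      (fun u _ => ⟨hεε, fun ω ω' => (hεε1 ω ω').trans (by
        have h2 : 0 ≤ ∑ i, (β (ω i) + β (ω' i)) := TPairA_sum2_nonneg hβ ω ω'
        have h3 : 1 ≤ Real.exp ((C + 1) * ∑ i, (β (ω i) + β (ω' i))) :=
          Real.one_le_exp (by positivity)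
        nlinarith)⟩)
      (fun u _ => ⟨measurable_const, fun ω ω' => by
        rw [abs_zero]; positivity⟩)
      (fun u _ ω => TDerA_line_deriv u ω) (fun u _ ω ω' => hasDerivAt_const u _)
    refine h1.congr_deriv ?_
    rw [pairE_const hβ hζ _ _ _ hHr, zero_add]
  refine ⟨_, hd1.sub (HasDerivAt.fun_sum fun j _ => (hd2 j).const_mul (ζ (j + 1) - ζ j)), ?_⟩
  intro hr
  have hg2 := Gen_g_sq hβ hζ hmono hg hk hH hε hε1 hHi hεi hr
  have hgt : Tame β (fun ω : Fin (k + 1) → E => g (ω i.castSucc)) := by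
    have := (Gen_gε_ham (ε := fun _ => 1) hβ hg i.castSucc measurable_const
      (fun _ => by simp)).tame hβ
    simpa using this
  have hV2 : pathE m ζ (k + 1) 0 Hr (fun ω => V ω ^ 2) ≤ (5 / 2) ^ 2 := by
    refine le_trans (pathE_mono hβ hζ _ _ hHr (TVar_tame_sq hβ hVt) (TVar_tame_sq hβ hgt)
      fun ω => ?_) (hg2.trans (by norm_num))
    rw [hV, mul_pow]
    have := hε2 ω
    rw [abs_of_nonneg (sq_nonneg _)] at this
    exact mul_le_of_le_one_right (sq_nonneg _) this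
  -- partial sums
  set pt : ℕ → (Fin (k + 1) → E) → ℝ := fun R ω => ∑ j ∈ Finset.range R, ζ (0 + j) *
      (condE m ζ (j + 1) (k + 1) 0 Hr V ω - condE m ζ j (k + 1) 0 Hr V ω) with hpt
  have hptt : ∀ R, Tame β (pt R) := fun R => Gen_part_tame hβ hζ _ _ hHr hVt R
  have hpt2 : ∀ R ≤ k + 1, pathE m ζ (k + 1) 0 Hr (fun ω => |pt R ω|) ≤ 5 / 2 := fun R hR =>
    Gen_abs_le hβ hζ _ _ hHr (hptt R) (by norm_num)
      ((Gen_part_sq hβ hζ _ _ hHr hVt hR).trans hV2)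
  have habs : ∀ {Φ : (Fin (k + 1) → E) → ℝ}, Tame β Φ → Tame β (fun ω => |Φ ω|) := by
    intro Φ hΦ
    obtain ⟨C, hC, hb⟩ := hΦ.bound
    exact ⟨hΦ.meas.abs, C, hC, fun ω => by rw [abs_abs]; exact hb ω⟩
  have hsc : score m ζ (k + 1) 0 Hr V = pt (k + 1) := rfl
  have b1 : |pathE m ζ (k + 1) 0 Hr (fun ω => ε ω ^ 2 * score m ζ (k + 1) 0 Hr V ω)| ≤ 5 / 2 := by
    rw [hsc]
    refine (pathE_abs_le hβ hζ _ _ hHr ((TVar_tame_sq hβ hεt).mul hβ (hptt _))).trans ?_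
    refine (pathE_mono hβ hζ _ _ hHr (habs ((TVar_tame_sq hβ hεt).mul hβ (hptt _)))
      (habs (hptt _)) fun ω => ?_).trans (hpt2 _ le_rfl)
    rw [abs_mul]
    exact mul_le_of_le_one_left (abs_nonneg _) (hε2 ω)
  have b2 : ∀ j < k, |pairE m ζ (j + 1) (k + 1) 0 Hr
      (fun ω ω' => ε ω * ε ω' * score2 m ζ (j + 1) (k + 1) 0 Hr V ω ω')| ≤ 15 / 2 := by
    intro j hj
    have hs2 : ∀ ω ω', score2 m ζ (j + 1) (k + 1) 0 Hr V ω ω' =
        pt (k + 1) ω + (pt (k + 1) ω' - pt (j + 1) ω') := fun ω ω' =>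
      Gen_score2 (j + 1) (k + 1) 0 (by omega) Hr V ω ω'
    simp only [hs2]
    have t2f : ∀ {Φ : (Fin (k + 1) → E) → ℝ}, Tame β Φ → Tame2 β (fun ω _ => Φ ω) := by
      intro Φ hΦ
      obtain ⟨C, hC, hb⟩ := hΦ.bound
      refine ⟨hΦ.meas.comp measurable_fst, C, hC, fun ω ω' => (hb ω).trans ?_⟩
      have h1 : ∑ i, β (ω i) ≤ ∑ i, (β (ω i) + β (ω' i)) :=
        Finset.sum_le_sum fun i _ => by have := hβ.nonneg (ω' i); linarith
      gcongr
    have t2s : ∀ {Φ : (Fin (k + 1) → E) → ℝ}, Tame β Φ →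
        Tame2 β (fun (_ : Fin (k + 1) → E) ω' => Φ ω') := fun hΦ => TPairA_t2_swap (t2f hΦ)
    have hsnd : ∀ {Φ : (Fin (k + 1) → E) → ℝ}, Tame β Φ → pairE m ζ (j + 1) (k + 1) 0 Hr
        (fun _ ω' => Φ ω') = pathE m ζ (k + 1) 0 Hr Φ := by
      intro Φ hΦ
      rw [← pairE_fst hβ hζ (j + 1) (k + 1) 0 hHr hΦ]
      exact pairE_swap hβ hζ (j + 1) (k + 1) 0 hHr (t2f hΦ)
    have hd : Tame β (fun ω => pt (k + 1) ω - pt (j + 1) ω) := TVar_tame_sub hβ (hptt _) (hptt _)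
    have hT : Tame2 β (fun ω ω' => ε ω * ε ω' *
        (pt (k + 1) ω + (pt (k + 1) ω' - pt (j + 1) ω'))) :=
      TPairA_t2_mul hβ (TPairA_t2_mul hβ (t2f hεt) (t2s hεt))
        (TPairA_t2_add hβ (t2f (hptt _)) (t2s hd))
    refine (pairE_abs_le hβ hζ _ _ _ hHr hT).trans ?_
    have hdab := habs hd
    refine (pairE_mono hβ hζ _ _ _ hHr (TPairA_t2_abs hT)
      (TPairA_t2_add hβ (t2f (habs (hptt (k + 1))))
        (TPairA_t2_add hβ (t2s (habs (hptt (k + 1)))) (t2s (habs (hptt (j + 1))))))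
      fun ω ω' => ?_).trans ?_
    · rw [abs_mul]
      calc |ε ω * ε ω'| * |pt (k + 1) ω + (pt (k + 1) ω' - pt (j + 1) ω')| ≤
            1 * |pt (k + 1) ω + (pt (k + 1) ω' - pt (j + 1) ω')| :=
            mul_le_mul_of_nonneg_right (hεε1 ω ω') (abs_nonneg _)
        _ ≤ |pt (k + 1) ω| + |pt (k + 1) ω' - pt (j + 1) ω'| := by
            rw [one_mul]; exact abs_add_le _ _
        _ ≤ |pt (k + 1) ω| + (|pt (k + 1) ω'| + |pt (j + 1) ω'|) :=
            add_le_add le_rfl (abs_sub _ _)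
    · rw [pairE_add hβ hζ _ _ _ hHr (t2f (habs (hptt (k + 1))))
        (TPairA_t2_add hβ (t2s (habs (hptt (k + 1)))) (t2s (habs (hptt (j + 1))))),
        pairE_add hβ hζ _ _ _ hHr (t2s (habs (hptt (k + 1)))) (t2s (habs (hptt (j + 1)))),
        pairE_fst hβ hζ _ _ _ hHr (habs (hptt (k + 1))), hsnd (habs (hptt (k + 1))),
        hsnd (habs (hptt (j + 1)))]
      have := hpt2 (k + 1) le_rfl
      have := hpt2 (j + 1) (by omega)
      linarith
  have b3 : |∑ j ∈ Finset.Ico (i : ℕ) k, (ζ (j + 1) - ζ j) *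
      pairE m ζ (j + 1) (k + 1) 0 Hr
        (fun ω ω' => ε ω * ε ω' * score2 m ζ (j + 1) (k + 1) 0 Hr V ω ω')| ≤ 15 / 2 := by
    calc _ ≤ ∑ j ∈ Finset.Ico (i : ℕ) k, |(ζ (j + 1) - ζ j) *
            pairE m ζ (j + 1) (k + 1) 0 Hr
              (fun ω ω' => ε ω * ε ω' * score2 m ζ (j + 1) (k + 1) 0 Hr V ω ω')| :=
          Finset.abs_sum_le_sum_abs _ _
      _ ≤ ∑ j ∈ Finset.Ico (i : ℕ) k, (ζ (j + 1) - ζ j) * (15 / 2) := by
          apply Finset.sum_le_sum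
          intro j hj
          have h3 : 0 ≤ ζ (j + 1) - ζ j := sub_nonneg.2 (hmono (Nat.le_succ j))
          rw [abs_mul, abs_of_nonneg h3]
          exact mul_le_mul_of_nonneg_left (b2 j (Finset.mem_Ico.mp hj).2) h3
      _ = (ζ k - ζ i) * (15 / 2) := by rw [← Finset.sum_mul, Gen_sum_w i k i.isLt.le]
      _ ≤ 15 / 2 := by
          have := (hζ k).2; have := (hζ i).1; nlinarith
  calc _ ≤ |pathE m ζ (k + 1) 0 Hr (fun ω => ε ω ^ 2 * score m ζ (k + 1) 0 Hr V ω)| +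
        |∑ j ∈ Finset.Ico (i : ℕ) k, (ζ (j + 1) - ζ j) *
          pairE m ζ (j + 1) (k + 1) 0 Hr
            (fun ω ω' => ε ω * ε ω' * score2 m ζ (j + 1) (k + 1) 0 Hr V ω ω')| := abs_sub _ _
    _ ≤ 5 / 2 + 15 / 2 := add_le_add b1 b3
    _ = 10 := by norm_num

theorem gen_expansion (hβ : Dom m β) (hζ : Exps ζ) (hmono : Monotone ζ) (hg : GCoord m β g set)
    (k : ℕ) (hk : ζ k = 1) (i : Fin k) {H ε : (Fin (k + 1) → E) → ℝ} (hH : Ham β H)
    (hε : Measurable ε) (hε1 : ∀ ω, |ε ω| ≤ 1)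
    (hHi : ∀ ω t, H (Function.update ω i.castSucc (set (ω i.castSucc) t)) = H ω)
    (hεi : ∀ ω t, ε (Function.update ω i.castSucc (set (ω i.castSucc) t)) = ε ω)
    {r : ℝ} (hr : |r| ≤ 1) :
    |nest m ζ (k + 1) 0 (fun ω => H ω + r * (g (ω i.castSucc) * ε ω)) - nest m ζ (k + 1) 0 H -
      r ^ 2 / 2 * (pathE m ζ (k + 1) 0 H (fun ω => ε ω ^ 2) -
        ∑ j ∈ Finset.Ico (i : ℕ) k, (ζ (j + 1) - ζ j) *
          pairE m ζ (j + 1) (k + 1) 0 H (fun ω ω' => ε ω * ε ω'))| ≤ 20 * |r| ^ 3 := by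
  have hεt : Tame β ε := Gen_tame_of_le hβ hε hε1
  set Hr : ℝ → (Fin (k + 1) → E) → ℝ := fun r ω => H ω + r * (g (ω i.castSucc) * ε ω) with hHrdef
  set ψ : ℝ → ℝ := fun r => pathE m ζ (k + 1) 0 (Hr r) (fun ω => ε ω ^ 2) -
        ∑ j ∈ Finset.Ico (i : ℕ) k, (ζ (j + 1) - ζ j) *
          pairE m ζ (j + 1) (k + 1) 0 (Hr r) (fun ω ω' => ε ω * ε ω') with hψdef
  have hF : ∀ r, HasDerivAt (fun r => nest m ζ (k + 1) 0 (Hr r)) (r * ψ r) r := by
    intro r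
    rw [hψdef, ← Gen_F_deriv_eq hβ hζ hg hk hH hε hε1 hHi hεi r]
    exact nest_hasDerivAt hβ hζ (k + 1) 0 hH (Gen_gε_ham hβ hg i.castSucc hε hε1) r
  have hψ' := fun (r : ℝ) => Gen_psi_deriv hβ hζ hmono hg k hk i hH hε hε1 hHi hεi r
  have hH0 : Hr 0 = H := by
    funext ω
    simp [hHrdef]
  have hψ1 : ∀ ρ ∈ Set.Icc (-1 : ℝ) 1, |ψ ρ - ψ 0| ≤ 10 * |ρ| := by
    intro ρ hρ
    choose f' hf' hb using hψ'
    have := (convex_Icc (-1 : ℝ) 1).norm_image_sub_le_of_norm_hasDerivWithin_le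
      (f := ψ) (f' := f') (C := 10) (x := 0) (y := ρ)
      (fun x _ => (hf' x).hasDerivWithinAt) (fun x hx => by
        rw [Real.norm_eq_abs]
        exact hb x (abs_le.mpr ⟨hx.1, hx.2⟩)) ⟨by norm_num, by norm_num⟩ hρ
    simpa using this
  have hr' := abs_le.mp hr
  have hfin := (convex_Icc (-|r|) |r|).norm_image_sub_le_of_norm_hasDerivWithin_le
      (f := fun r => nest m ζ (k + 1) 0 (Hr r) - r ^ 2 / 2 * ψ 0)
      (f' := fun r => r * ψ r - r * ψ 0) (C := 10 * r ^ 2) (x := 0) (y := r)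
      (fun x _ => by
        have h1 : HasDerivAt (fun r : ℝ => r ^ 2 / 2 * ψ 0) (x * ψ 0) x := by
          have h2 := (((hasDerivAt_id x).pow 2).div_const 2).mul_const (ψ 0)
          refine h2.congr_deriv ?_
          simp
        exact ((hF x).sub h1).hasDerivWithinAt) (fun x hx => by
        have hx1 : |x| ≤ |r| := abs_le.mpr ⟨hx.1, hx.2⟩
        have hx2 := abs_le.mp (hx1.trans hr)
        have h3 := hψ1 x ⟨hx2.1, hx2.2⟩
        rw [Real.norm_eq_abs, ← mul_sub, abs_mul]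
        have h4 : |x| * |x| ≤ |r| * |r| := mul_le_mul hx1 hx1 (abs_nonneg _) (abs_nonneg _)
        calc |x| * |ψ x - ψ 0| ≤ |x| * (10 * |x|) := by gcongr
          _ = 10 * (|x| * |x|) := by ring
          _ ≤ 10 * (|r| * |r|) := by gcongr
          _ = 10 * r ^ 2 := by rw [abs_mul_abs_self]; ring)
      ⟨by simp, abs_nonneg _⟩ ⟨neg_abs_le _, le_abs_self _⟩
  rw [Real.norm_eq_abs, Real.norm_eq_abs, sub_zero] at hfin
  have e1 : nest m ζ (k + 1) 0 (Hr r) - r ^ 2 / 2 * ψ 0 -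
      (nest m ζ (k + 1) 0 (Hr 0) - 0 ^ 2 / 2 * ψ 0) = nest m ζ (k + 1) 0 (Hr r) -
        nest m ζ (k + 1) 0 H - r ^ 2 / 2 * ψ 0 := by
    rw [hH0]; ring
  rw [e1] at hfin
  have e2 : ψ 0 = pathE m ζ (k + 1) 0 H (fun ω => ε ω ^ 2) -
        ∑ j ∈ Finset.Ico (i : ℕ) k, (ζ (j + 1) - ζ j) *
          pairE m ζ (j + 1) (k + 1) 0 H (fun ω ω' => ε ω * ε ω') := by
    rw [hψdef]
    simp only [hH0]
  rw [← e2]
  refine hfin.trans ?_
  have h5 : 10 * r ^ 2 * |r| = 10 * |r| ^ 3 := by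
    rw [← sq_abs]; ring
  rw [h5]
  have : 0 ≤ |r| ^ 3 := by positivity
  linarith

end Crest.Agent.RI
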