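import Crest.Agent.RI.TanF
import Crest.Agent.RI.Gen
import Crest.Agent.RI.FlowD

/-!
# Row 164, tangent module G: magnetisation strictly inside, second order bounds, trial path
-/

set_option autoImplicit false

namespace Crest.Agent.RI

open MeasureTheory ProbabilityTheory
open Crest.ProbabilityR.InvariantGlass

/-! ### strict Lipschitz property -/

/-- strictly `1`-Lipschitz to the right -/
def SL (f : ℝ → ℝ) : Prop := ∀ x s : ℝ, 0 < s → f (x + s) < f x + s

theorem SL_lch : SL lch := by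
  intro x s hs
  unfold lch
  rw [← Real.log_exp s, ← Real.log_mul (Real.cosh_pos _).ne' (Real.exp_pos _).ne', Real.log_exp]
  refine Real.log_lt_log (Real.cosh_pos _) ?_
  rw [Real.cosh_eq, Real.cosh_eq, Real.exp_add, neg_add, Real.exp_add]
  have h1 : Real.exp (-x) * Real.exp (-s) < Real.exp (-x) * Real.exp s :=
    mul_lt_mul_of_pos_left (Real.exp_lt_exp.mpr (by linarith)) (Real.exp_pos _)
  linarith

theorem integral_strict {F G : ℝ → ℝ} (hF : Integrable F (gaussianReal 0 1))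
    (hG : Integrable G (gaussianReal 0 1)) (h : ∀ x, F x < G x) :
    ∫ x, F x ∂(gaussianReal 0 1) < ∫ x, G x ∂(gaussianReal 0 1) := by
  rw [← sub_pos, ← integral_sub hG hF]
  refine (integral_pos_iff_support_of_nonneg (f := fun x => G x - F x)
    (fun x => by have := h x; simp only [Pi.zero_apply]; linarith) (hG.sub hF)).mpr ?_
  have : Function.support (fun x => G x - F x) = Set.univ := by
    ext x
    simp only [Function.mem_support, Set.mem_univ, iff_true]
    have := h x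
    exact ne_of_gt (by linarith)
  rw [this]
  simp

theorem SL.gop {f : ℝ → ℝ} (hf : SF f) (hs : SL f) (a v : ℝ) (ha : 0 ≤ a) : SL (gaussOp a v f) := by
  intro x s hs0
  rw [← gaussOp_add_const a v s hf.lg, gaussOp_eq_lem, gaussOp_eq_lem]
  have hlt : ∀ g, f (x + s + Real.sqrt v * g) < f (x + Real.sqrt v * g) + s := by
    intro g
    have := hs (x + Real.sqrt v * g) s hs0
    rwa [show x + s + Real.sqrt v * g = x + Real.sqrt v * g + s by ring]
  unfold lem
  split_ifs with h0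
  · exact integral_strict (hf.lg.aff _ _).ce.int ((hf.lg.add_const s).aff x _).ce.int hlt
  · have ha' : 0 < a := lt_of_le_of_ne ha (Ne.symm h0)
    refine mul_lt_mul_of_pos_left ?_ (inv_pos.mpr ha')
    refine Real.log_lt_log (int_exp_pos (hf.lg.aff _ _) a) ?_
    refine integral_strict ((hf.lg.aff _ _).ce_exp a).int (((hf.lg.add_const s).aff x _).ce_exp a).int
      fun g => Real.exp_lt_exp.mpr (mul_lt_mul_of_pos_left (hlt g) ha')

theorem recT_SL {ζ τ : ℕ → ℝ} (hζ : ∀ i, 0 ≤ ζ i) (n : ℕ) : ∀ i, SL (recT ζ τ n i lch) := by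
  induction n with
  | zero => intro i; exact SL_lch
  | succ n ih => intro i; exact SL.gop (recT_SF hζ SF.lch n (i + 1)) (ih (i + 1)) _ _ (hζ i)

theorem abs_siteM_lt {ζ : ℕ → ℝ} (hζ : Exps ζ) {k : ℕ} (hk : ζ k = 1) {τ : ℕ → ℝ} (hτ : ∀ i, 0 ≤ τ i)
    (b : ℝ) : |siteM ζ τ k b| < 1 := by
  have hd := siteVal_deriv hζ hk hτ b
  have hsf := siteVal_SF (fun i => (hζ i).1) τ k
  have hsl : SL (siteVal ζ τ k) := by
    intro x s hs
    have := recT_SL (τ := τ) (fun i => (hζ i).1) k 0 x s hs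
    unfold siteVal; linarith
  rw [abs_lt]
  constructor
  · have h1 := hsf.conv.slope_le_of_hasDerivAt (Set.mem_univ (b - 1)) (Set.mem_univ b) (by linarith) hd
    rw [slope_def_field, div_le_iff₀ (by linarith)] at h1
    have h2 := hsl (-b) 1 one_pos
    rw [hsf.even b, show -b + 1 = -(b - 1) by ring, hsf.even] at h2
    linarith
  · have h1 := hsf.conv.le_slope_of_hasDerivAt (Set.mem_univ b) (Set.mem_univ (b + 1)) (by linarith) hd
    rw [slope_def_field, le_div_iff₀ (by linarith)] at h1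
    have h2 := hsl b 1 one_pos
    linarith

/-! ### second order in the field -/

theorem Jvar_le_sq {E : Type} [MeasurableSpace E] {m : Measure E} [IsProbabilityMeasure m]
    {ζ : ℕ → ℝ} {β : E → ℝ} (hβ : Dom m β) (hζ : Exps ζ) (n i : ℕ) {H V : (Fin n → E) → ℝ}
    (hH : Ham β H) (hV : Tame β V) :
    Jvar m ζ n i H V ≤ pathE m ζ n i H (fun ω => V ω ^ 2) := by
  have h1 : Jvar m ζ n i H V ≤ ∑ j ∈ Finset.range n, pathE m ζ n i H
      (fun ω => (condE m ζ (j + 1) n i H V ω - condE m ζ j n i H V ω) ^ 2) := by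
    unfold Jvar
    refine Finset.sum_le_sum fun j _ => ?_
    have h2 := TVar_pathE_nonneg hβ hζ n i hH (TVar_tame_sq hβ (TVar_tame_incr hβ hζ j n i hH hV))
      fun ω => sq_nonneg _
    have h3 := (hζ (i + j)).2
    nlinarith
  refine h1.trans ?_
  have h4 : ∀ j, pathE m ζ n i H
      (fun ω => (condE m ζ (j + 1) n i H V ω - condE m ζ j n i H V ω) ^ 2) =
      pathE m ζ n i H (fun ω => condE m ζ (j + 1) n i H V ω ^ 2) -
        pathE m ζ n i H (fun ω => condE m ζ j n i H V ω ^ 2) := fun j => TVar_incr_sq hβ hζ j n i hH hV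
  simp only [h4]
  rw [Finset.sum_range_sub (fun j => pathE m ζ n i H (fun ω => condE m ζ j n i H V ω ^ 2))]
  have h5 : (fun ω => condE m ζ n n i H V ω ^ 2) = fun ω => V ω ^ 2 := by
    funext ω; rw [condE_all n i H V n le_rfl]
  rw [h5]
  have h6 := TVar_pathE_nonneg hβ hζ n i hH (TVar_tame_sq hβ (condE_tame hβ hζ 0 n i hH hV))
      fun ω => sq_nonneg _
  linarith

theorem siteM_lip {ζ : ℕ → ℝ} (hζ : Exps ζ) {k : ℕ} {τ : ℕ → ℝ} (b b' : ℝ) :
    |siteM ζ τ k b' - siteM ζ τ k b| ≤ |b' - b| := by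
  set Hf := HN k (siteθ (fun i => Real.sqrt (τ i)) 0) with hHf
  set V : (Fin (k + 1) → EN 1) → ℝ := fun ω => spin ((ω (Fin.last k)).2.2.2 0) with hV
  have e : ∀ b, siteM ζ τ k b = pathE m1 ζ (k + 1) 0 (fun ω => Hf ω + b * V ω) V := by
    intro b
    unfold siteM
    congr 1
    funext ω
    rw [hHf, HN_siteθ', HN_siteθ', hV]; ring
  have hd : ∀ b, HasDerivAt (fun b => siteM ζ τ k b)
      (Jvar m1 ζ (k + 1) 0 (fun ω => Hf ω + b * V ω) V) b := by
    intro b
    have := pathE_V_hasDerivAt (m := m1) dom1 hζ (k + 1) 0 (HN_ham k _ : Ham βN Hf) (ham_sp k) b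
    refine this.congr_of_eventuallyEq (Filter.Eventually.of_forall fun b' => e b')
  have hb : ∀ b, ‖Jvar m1 ζ (k + 1) 0 (fun ω => Hf ω + b * V ω) V‖ ≤ 1 := by
    intro b
    have hH : Ham (βN (N := 1)) (fun ω => Hf ω + b * V ω) := by
      have : (fun ω => Hf ω + b * V ω) = HN k (siteθ (fun i => Real.sqrt (τ i)) b) := by
        funext ω; rw [hHf, HN_siteθ', HN_siteθ', hV]; ring
      rw [this]; exact HN_ham k _
    have h1 := Jvar_nonneg (m := m1) dom1 hζ (k + 1) 0 hH ((ham_sp k).tame dom1)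
    have h2 := Jvar_le_sq (m := m1) dom1 hζ (k + 1) 0 hH ((ham_sp k).tame dom1)
    have h3 : (fun ω => V ω ^ 2) = fun _ => (1 : ℝ) := by
      funext ω; rw [hV]; exact spin_sq _
    have h4 : pathE m1 ζ (k + 1) 0 (fun ω => Hf ω + b * V ω) (fun ω => V ω ^ 2) = 1 := by
      rw [h3]; exact pathE_one dom1 hζ (k + 1) 0 hH
    rw [Real.norm_eq_abs, abs_of_nonneg h1]
    linarith [h2, h4]
  have := Convex.norm_image_sub_le_of_norm_hasDerivWithin_le (f := fun b => siteM ζ τ k b)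
    (s := Set.univ) (C := 1) (fun x _ => (hd x).hasDerivWithinAt) (fun x _ => hb x) convex_univ
    (Set.mem_univ b) (Set.mem_univ b')
  simpa [Real.norm_eq_abs] using this

/-- (T3q) -/
theorem siteVal_second {ζ : ℕ → ℝ} (hζ : Exps ζ) {k : ℕ} (hk : ζ k = 1) {τ : ℕ → ℝ} (hτ : ∀ i, 0 ≤ τ i)
    (b s : ℝ) : |siteVal ζ τ k (b + s) - siteVal ζ τ k b - s * siteM ζ τ k b| ≤ s ^ 2 := by
  set g : ℝ → ℝ := fun u => siteVal ζ τ k (b + u) - u * siteM ζ τ k b with hg
  have hd : ∀ u, HasDerivAt g (siteM ζ τ k (b + u) - siteM ζ τ k b) u := by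
    intro u
    have h1 := (siteVal_deriv hζ hk hτ (b + u)).comp_const_add b u
    have h2 := (hasDerivAt_id u).mul_const (siteM ζ τ k b)
    rw [one_mul] at h2
    exact h1.sub h2
  have hb : ∀ u ∈ Set.uIcc 0 s, ‖siteM ζ τ k (b + u) - siteM ζ τ k b‖ ≤ |s| := by
    intro u hu
    rw [Real.norm_eq_abs]
    refine (siteM_lip hζ b (b + u)).trans ?_
    rw [add_sub_cancel_left]
    have := Set.abs_sub_left_of_mem_uIcc hu
    simpa using this
  have := Convex.norm_image_sub_le_of_norm_hasDerivWithin_le (f := g)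
    (s := Set.uIcc 0 s) (C := |s|) (fun x _ => (hd x).hasDerivWithinAt) hb (convex_uIcc 0 s)
    Set.left_mem_uIcc Set.right_mem_uIcc
  simp only [hg, Real.norm_eq_abs, sub_zero, add_zero, zero_mul] at this
  calc |siteVal ζ τ k (b + s) - siteVal ζ τ k b - s * siteM ζ τ k b|
      = |siteVal ζ τ k (b + s) - s * siteM ζ τ k b - siteVal ζ τ k b| := by congr 1; ring
    _ ≤ |s| * |s| := this
    _ = s ^ 2 := by rw [← abs_mul, ← pow_two, abs_of_nonneg (sq_nonneg s)]

/-! ### trial path -/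

theorem stepK_at {k : ℕ} (q : ℕ → ℝ) {i : ℕ} (hi : i < k) {u : ℝ} (h1 : (i : ℝ) / k < u)
    (h2 : u ≤ ((i : ℝ) + 1) / k) : stepK k q u = q i := by
  have hk' : (0 : ℝ) < k := by exact_mod_cast (by omega : 0 < k)
  unfold stepK
  rw [Finset.sum_eq_single i]
  · rw [if_pos ⟨h1, h2⟩]
  · intro j hj hne
    rw [if_neg]
    rintro ⟨h3, h4⟩
    rcases lt_or_gt_of_ne hne with h5 | h5
    · have : ((j : ℝ) + 1) / k ≤ (i : ℝ) / k := by
        gcongr; exact_mod_cast h5
      linarith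
    · have : ((i : ℝ) + 1) / k ≤ (j : ℝ) / k := by
        gcongr; exact_mod_cast h5
      linarith
  · intro h; exact absurd (Finset.mem_range.mpr hi) h

theorem exists_step {k : ℕ} (hk : 0 < k) {u : ℝ} (hu : u ∈ Set.Ioo (0:ℝ) 1) :
    ∃ i < k, (i : ℝ) / k < u ∧ u ≤ ((i : ℝ) + 1) / k := by
  have hk' : (0 : ℝ) < k := by exact_mod_cast hk
  refine ⟨⌈u * k⌉₊ - 1, ?_, ?_, ?_⟩
  · have h1 : ⌈u * k⌉₊ ≤ k := by
      rw [Nat.ceil_le]; nlinarith [hu.2]
    omega
  · have h2 : 0 < ⌈u * k⌉₊ := Nat.ceil_pos.mpr (mul_pos hu.1 hk')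
    rw [div_lt_iff₀ hk', Nat.cast_sub (by omega)]
    have := Nat.ceil_lt_add_one (mul_pos hu.1 hk').le
    push_cast; linarith
  · have h2 : 0 < ⌈u * k⌉₊ := Nat.ceil_pos.mpr (mul_pos hu.1 hk')
    rw [le_div_iff₀ hk', Nat.cast_sub (by omega)]
    have := Nat.le_ceil (u * k)
    push_cast; linarith

theorem isTrialPath_stepK {k : ℕ} (hk : 0 < k) {q : ℕ → ℝ} (h0 : ∀ i < k, 0 ≤ q i ∧ q i ≤ 1)
    (hm : ∀ i j, i ≤ j → j < k → q i ≤ q j) : IsTrialPath (stepK k q) := by
  have hk' : (0 : ℝ) < k := by exact_mod_cast hk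
  refine ⟨measurable_stepK k q, ?_, ?_⟩
  · intro x hx y hy hxy
    obtain ⟨i, hi, hi1, hi2⟩ := exists_step hk hx
    obtain ⟨j, hj, hj1, hj2⟩ := exists_step hk hy
    rw [stepK_at q hi hi1 hi2, stepK_at q hj hj1 hj2]
    refine hm i j ?_ hj
    by_contra hc
    push Not at hc
    have : ((j : ℝ) + 1) / k ≤ (i : ℝ) / k := by
      gcongr; exact_mod_cast hc
    linarith
  · intro x hx
    obtain ⟨i, hi, hi1, hi2⟩ := exists_step hk hx
    rw [stepK_at q hi hi1 hi2]
    exact h0 i hi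

end Crest.Agent.RI
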