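import Crest.Agent.RI.RBClo
import Crest.Agent.RI.TTDefs
import Crest.Agent.RI.TanG

/-!
# Row 164: closure in the forms used by Parts 6 and 9 (helper50)
-/

set_option autoImplicit false

namespace Crest.Agent.RI

open MeasureTheory ProbabilityTheory
open Crest.ProbabilityR.InvariantGlass

/-! ### step paths -/

section step

variable {k : ℕ}

theorem stepK_finsum {ι : Type*} (s : Finset ι) (k : ℕ) (q : ι → ℕ → ℝ) (u : ℝ) :
    ∑ l ∈ s, stepK k (q l) u = stepK k (fun i => ∑ l ∈ s, q l i) u := by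
  unfold stepK
  rw [Finset.sum_comm]
  refine Finset.sum_congr rfl fun i _ => ?_
  split_ifs
  · rfl
  · simp

theorem integral_stepK_full (hk : 0 < k) (q : ℕ → ℝ) :
    ∫ u in Set.Ioo (0 : ℝ) 1, stepK k q u = ∑ j ∈ Finset.range k, (1 / (k : ℝ)) * q j := by
  have h := integral_stepK_tail q hk (t := 0) (by simp) (by positivity)
  rw [← integral_Ioc_eq_integral_Ioo, h, Finset.range_eq_Ico, Finset.sum_eq_sum_Ico_succ_bot hk]
  simp

theorem stepK_mul_at (hk : 0 < k) (q q' : ℕ → ℝ) {u : ℝ} (hu : u ∈ Set.Ioo (0 : ℝ) 1) :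
    stepK k q u * stepK k q' u = stepK k (fun i => q i * q' i) u := by
  obtain ⟨i, hi, h1, h2⟩ := exists_step hk hu
  rw [stepK_at q hi h1 h2, stepK_at q' hi h1 h2, stepK_at _ hi h1 h2]

theorem integral_stepK_mul (hk : 0 < k) (q q' : ℕ → ℝ) :
    ∫ u in Set.Ioo (0 : ℝ) 1, stepK k q u * stepK k q' u =
      ∑ j ∈ Finset.range k, (1 / (k : ℝ)) * (q j * q' j) := by
  rw [← integral_stepK_full hk]
  exact setIntegral_congr_fun measurableSet_Ioo fun u hu => stepK_mul_at hk q q' hu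

theorem DF_stepK (hk : 0 < k) (τ a a' c c' : ℝ) (ρ ρ' : ℕ → ℝ) :
    DF τ a a' c c' (stepK k ρ) (stepK k ρ') = Dst k (1 / (k : ℝ)) τ a a' c c' ρ ρ' := by
  unfold DF Dst
  rw [integral_stepK_mul hk]

theorem Ico_succ_eq_Ioo (i k : ℕ) : Finset.Ico (i + 1) k = Finset.Ioo i k := by
  ext j
  simp only [Finset.mem_Ico, Finset.mem_Ioo]
  omega

theorem tail_stepK (q : ℕ → ℝ) {i : ℕ} (hi : i < k) {s : ℝ} (h1 : (i : ℝ) / k < s)
    (h2 : s ≤ ((i : ℝ) + 1) / k) :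
    ∫ u in Set.Ioo s 1, stepK k q u =
      (((i : ℝ) + 1) / k - s) * q i + ∑ l ∈ Finset.Ioo i k, (1 / (k : ℝ)) * q l := by
  rw [← integral_Ioc_eq_integral_Ioo, integral_stepK_tail q hi h1.le h2, Ico_succ_eq_Ioo]

theorem lamF_stepK (c : ℝ) (q : ℕ → ℝ) {i : ℕ} (hi : i < k) {s : ℝ} (h1 : (i : ℝ) / k < s)
    (h2 : s ≤ ((i : ℝ) + 1) / k) :
    lamF c (stepK k q) s =
      c - ∑ j ∈ Finset.Ioo i k, (1 / (k : ℝ)) * q j - ((i : ℝ) + 1) / k * q i := by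
  unfold lamF
  rw [tail_stepK q hi h1 h2, stepK_at q hi h1 h2]
  ring

theorem head_stepK_mul (ρ ρ' : ℕ → ℝ) {i : ℕ} (hi : i < k) {s : ℝ} (hs : s ∈ Set.Ioo (0 : ℝ) 1)
    (h1 : (i : ℝ) / k < s) (h2 : s ≤ ((i : ℝ) + 1) / k) :
    ∫ u in Set.Ioo 0 s, stepK k ρ u * stepK k ρ' u =
      ∑ j ∈ Finset.range i, (1 / (k : ℝ)) * (ρ j * ρ' j) + (s - (i : ℝ) / k) * (ρ i * ρ' i) := by
  have hk : 0 < k := by omega
  have hk' : (k : ℝ) ≠ 0 := by exact_mod_cast hk.ne'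
  set q : ℕ → ℝ := fun j => ρ j * ρ' j with hq
  have e1 : ∫ u in Set.Ioo 0 s, stepK k ρ u * stepK k ρ' u = ∫ u in Set.Ioo 0 s, stepK k q u := by
    refine setIntegral_congr_fun measurableSet_Ioo fun u hu => ?_
    exact stepK_mul_at hk ρ ρ' ⟨hu.1, hu.2.trans hs.2⟩
  have hii : ∀ a b : ℝ, IntervalIntegrable (stepK k q) volume a b := by
    intro a b
    rw [intervalIntegrable_iff]
    exact stepK_integrableOn k q _ (by rw [Set.uIoc]; simp)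
  have e2 : ∫ u in Set.Ioo 0 s, stepK k q u =
      (∫ u in Set.Ioo (0 : ℝ) 1, stepK k q u) - ∫ u in Set.Ioo s 1, stepK k q u := by
    rw [← integral_Ioc_eq_integral_Ioo, ← integral_Ioc_eq_integral_Ioo,
      ← integral_Ioc_eq_integral_Ioo, ← intervalIntegral.integral_of_le hs.1.le,
      ← intervalIntegral.integral_of_le zero_le_one, ← intervalIntegral.integral_of_le hs.2.le,
      ← intervalIntegral.integral_add_adjacent_intervals (hii 0 s) (hii s 1)]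
    ring
  rw [e1, e2, integral_stepK_full hk, tail_stepK q hi h1 h2, Finset.range_eq_Ico,
    ← Finset.sum_Ico_consecutive _ (Nat.zero_le i) hi.le, Finset.sum_eq_sum_Ico_succ_bot hi,
    Ico_succ_eq_Ioo, ← Finset.range_eq_Ico]
  field_simp
  ring

theorem eF_stepK (τ a a' c c' : ℝ) (ρ ρ' : ℕ → ℝ) {i : ℕ} (hi : i < k) {s : ℝ}
    (hs : s ∈ Set.Ioo (0 : ℝ) 1) (h1 : (i : ℝ) / k < s) (h2 : s ≤ ((i : ℝ) + 1) / k) :
    eF τ a a' c c' (stepK k ρ) (stepK k ρ') s =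
      Est (ζLB k) k (1 / (k : ℝ)) τ a a' c c' ρ ρ' i := by
  have hk : 0 < k := by omega
  unfold eF Est
  rw [lamF_stepK c ρ hi h1 h2, lamF_stepK c' ρ' hi h1 h2, stepK_at ρ hi h1 h2,
    stepK_at ρ' hi h1 h2, head_stepK_mul ρ ρ' hi hs h1 h2, ζLB_lt (by omega) hk, ζLB_lt hi.le hk]
  have e : ∑ j ∈ Finset.Ioo i k, 1 / (k : ℝ) * (ρ j * ρ' i + ρ i * ρ' j) =
      (∑ j ∈ Finset.Ioo i k, 1 / (k : ℝ) * ρ j) * ρ' i +
        (∑ j ∈ Finset.Ioo i k, 1 / (k : ℝ) * ρ' j) * ρ i := by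
    rw [Finset.sum_mul, Finset.sum_mul, ← Finset.sum_add_distrib]
    exact Finset.sum_congr rfl fun j _ => by ring
  rw [e]
  push_cast
  ring

theorem integral_eF_stepK (hk : 0 < k) (τ a a' c c' : ℝ) (ρ ρ' : ℕ → ℝ) :
    ∫ s in Set.Ioo (0 : ℝ) 1, |eF τ a a' c c' (stepK k ρ) (stepK k ρ') s| =
      (1 / (k : ℝ)) * ∑ i ∈ Finset.range k,
        |Est (ζLB k) k (1 / (k : ℝ)) τ a a' c c' ρ ρ' i| := by
  rw [Finset.mul_sum, ← integral_stepK_full hk]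
  refine setIntegral_congr_fun measurableSet_Ioo fun s hs => ?_
  obtain ⟨i, hi, h1, h2⟩ := exists_step hk hs
  rw [eF_stepK τ a a' c c' ρ ρ' hi hs h1 h2, stepK_at _ hi h1 h2]

end step

/-- (CLOSURE, lower bound form) -/
theorem closure_LB (D : Blk) {ε : ℝ} (hε : 0 < ε) : ∃ δ : ℝ, 0 < δ ∧
    ∀ (k : ℕ), 0 < k → ∀ (ρ : Fin D.K → ℕ → ℝ) (c a : Fin D.K → ℝ),
      (∀ l i j, i ≤ j → j < k → ρ l i ≤ ρ l j) → (∀ l i, i < k → 0 ≤ ρ l i) →
      (∀ l i, i < k → ρ l i ≤ c l) → ∑ l, c l = 1 →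
      (∀ l, ∀ i < k, 0 ≤ c l - ∑ j ∈ Finset.Ioo i k, (1 / (k : ℝ)) * ρ l j -
        ((i : ℝ) + 1) / k * ρ l i) →
      (∀ l, |a l - D.α l| ≤ δ) →
      (∀ l l', |Dst k (1 / (k : ℝ)) (D.d l - D.d l') (a l) (a l') (c l) (c l') (ρ l) (ρ l')| ≤ δ) →
      (∀ l l', (1 / (k : ℝ)) * ∑ i ∈ Finset.range k,
        |Est (ζLB k) k (1 / (k : ℝ)) (D.d l - D.d l') (a l) (a l') (c l) (c l') (ρ l) (ρ l') i| ≤ δ) →
      (∀ l, |c l - cC D k (fun i => ∑ l, ρ l i) l| ≤ ε) ∧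
      ∀ l, (1 / (k : ℝ)) * ∑ i ∈ Finset.range k,
        |ρ l i - rhoC D k (fun i => ∑ l, ρ l i) l i| ≤ ε := by
  obtain ⟨δ, hδ, h⟩ := closure_full D hε
  refine ⟨δ, hδ, fun k hk ρ c a h1 h2 h3 h4 h5 h6 h7 h8 => ?_⟩
  have hc0 : ∀ l, 0 ≤ c l := fun l => (h2 l 0 hk).trans (h3 l 0 hk)
  have hc1 : ∀ l, c l ≤ 1 := fun l => by
    rw [← h4]; exact Finset.single_le_sum (fun l _ => hc0 l) (Finset.mem_univ l)
  have htp : ∀ l, IsTrialPath (stepK k (ρ l)) := fun l =>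
    isTrialPath_stepK hk (fun i hi => ⟨h2 l i hi, (h3 l i hi).trans (hc1 l)⟩) (h1 l)
  have H : ClHyp D δ (fun l => stepK k (ρ l)) c a := by
    refine ⟨fun l => (htp l).1, fun l => (htp l).2.1, fun l s hs => (htp l).2.2 s hs,
      fun l => ⟨hc0 l, hc1 l⟩, h4, fun l s hs => ?_, h6, fun l l' => ?_, fun l l' => ?_⟩
    · obtain ⟨i, hi, hi1, hi2⟩ := exists_step hk hs
      rw [lamF_stepK (c l) (ρ l) hi hi1 hi2]
      exact h5 l i hi
    · rw [DF_stepK hk]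
      exact h7 l l'
    · rw [integral_eF_stepK hk]
      exact h8 l l'
  have e : (fun s => ∑ l, stepK k (ρ l) s) = stepK k (fun i => ∑ l, ρ l i) := by
    funext s
    exact stepK_finsum Finset.univ k ρ s
  obtain ⟨g1, g2⟩ := h _ c a H
  have hp := H.trial
  rw [e] at g1 g2 hp
  refine ⟨fun l => ?_, fun l => ?_⟩
  · have := g1 l
    rwa [D.cc_eq] at this
  · refine le_trans (le_of_eq ?_) (g2 l)
    rw [Finset.mul_sum, ← integral_stepK_full hk]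
    refine setIntegral_congr_fun measurableSet_Ioo fun s hs => ?_
    obtain ⟨i, hi, hi1, hi2⟩ := exists_step hk hs
    rw [D.ρc_eq hp l hs, stepK_at _ hi hi1 hi2, stepK_at _ hi hi1 hi2, stepK_at _ hi hi1 hi2]
    rfl

end Crest.Agent.RI
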