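import Crest.Agent.RI.RowDefs
import Crest.Agent.RI.RBClosure

/-!
# Row 164, Part 8.5: the deficit of a step path, closed formulas (helper50)
-/

set_option autoImplicit false

namespace Crest.Agent.RI

open MeasureTheory ProbabilityTheory
open Crest.ProbabilityR.InvariantGlass

variable {k : ℕ} {p : ℕ → ℝ}

theorem PathOK.trial (hk : 0 < k) (hp : PathOK k p) : IsTrialPath (stepK k p) :=
  isTrialPath_stepK hk (fun i hi => hp.mem i hi) hp.mono

theorem deficit_stepK (hk : 0 < k) (p : ℕ → ℝ) (r : ℝ) :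
    deficit (stepK k p) r = 1 - r - ∑ j ∈ Finset.range k, (1 / (k : ℝ)) * max (p j - r) 0 := by
  unfold deficit
  rw [← integral_stepK_full hk (fun j => max (p j - r) 0)]
  congr 1
  refine setIntegral_congr_fun measurableSet_Ioo fun s hs => ?_
  obtain ⟨i, hi, h1, h2⟩ := exists_step hk hs
  rw [stepK_at _ hi h1 h2, stepK_at _ hi h1 h2]

/-- the deficit is affine with slope `-ζ_i` on `[p_{i-1}, p_i]` -/
theorem deficit_affine (hp : PathOK k p) {i : ℕ} (hi : i < k) {r : ℝ} (h1 : ∀ j < i, p j ≤ r)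
    (h2 : r ≤ p i) : deficit (stepK k p) r = lamC k p i + ζLB k i * (p i - r) := by
  have hk : 0 < k := by omega
  have hk' : (k : ℝ) ≠ 0 := by exact_mod_cast hk.ne'
  have e1 : ∑ j ∈ Finset.range k, (1 / (k : ℝ)) * max (p j - r) 0 =
      ∑ j ∈ Finset.range k, (1 / (k : ℝ)) * max (p j - p i) 0 +
        (1 / (k : ℝ)) * (((k : ℝ) - i) * (p i - r)) := by
    rw [Finset.range_eq_Ico, ← Finset.sum_Ico_consecutive _ (Nat.zero_le i) hi.le,
      ← Finset.sum_Ico_consecutive _ (Nat.zero_le i) hi.le]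
    have a1 : ∑ j ∈ Finset.Ico 0 i, (1 / (k : ℝ)) * max (p j - r) 0 = 0 := by
      refine Finset.sum_eq_zero fun j hj => ?_
      rw [Finset.mem_Ico] at hj
      rw [max_eq_right (by linarith [h1 j hj.2]), mul_zero]
    have a2 : ∑ j ∈ Finset.Ico 0 i, (1 / (k : ℝ)) * max (p j - p i) 0 = 0 := by
      refine Finset.sum_eq_zero fun j hj => ?_
      rw [Finset.mem_Ico] at hj
      rw [max_eq_right (by linarith [h1 j hj.2]), mul_zero]
    have a3 : ∑ j ∈ Finset.Ico i k, (1 / (k : ℝ)) * max (p j - r) 0 =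
        ∑ j ∈ Finset.Ico i k, (1 / (k : ℝ)) * max (p j - p i) 0 +
        ∑ _j ∈ Finset.Ico i k, (1 / (k : ℝ)) * (p i - r) := by
      rw [← Finset.sum_add_distrib]
      refine Finset.sum_congr rfl fun j hj => ?_
      rw [Finset.mem_Ico] at hj
      have := hp.mono i j hj.1 hj.2
      rw [max_eq_left (by linarith), max_eq_left (by linarith)]
      ring
    rw [a1, a2, a3, Finset.sum_const, Nat.card_Ico, nsmul_eq_mul, Nat.cast_sub hi.le]
    ring
  unfold lamC
  rw [deficit_stepK hk, deficit_stepK hk, e1, ζLB_lt hi.le hk]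
  field_simp
  ring

theorem deficit_last (hk : 0 < k) (hp : PathOK k p) {r : ℝ} (h : p (k - 1) ≤ r) :
    deficit (stepK k p) r = 1 - r := by
  rw [deficit_stepK hk]
  have : ∑ j ∈ Finset.range k, (1 / (k : ℝ)) * max (p j - r) 0 = 0 := by
    refine Finset.sum_eq_zero fun j hj => ?_
    rw [Finset.mem_range] at hj
    have := hp.mono j (k - 1) (by omega) (by omega)
    rw [max_eq_right (by linarith), mul_zero]
  rw [this, sub_zero]

theorem lamC_last (hk : 0 < k) (hp : PathOK k p) : lamC k p (k - 1) = 1 - p (k - 1) :=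
  deficit_last hk hp le_rfl

theorem lamC_pred (hp : PathOK k p) {i : ℕ} (h0 : 1 ≤ i) (hi : i < k) :
    lamC k p (i - 1) = lamC k p i + ζLB k i * (p i - p (i - 1)) :=
  deficit_affine hp hi (fun j hj => hp.mono j (i - 1) (by omega) (by omega))
    (hp.mono (i - 1) i (by omega) hi)

theorem lamC_mem (hp : PathOK k p) {i : ℕ} (hi : i < k) :
    lamC k p i ∈ Set.Icc (0 : ℝ) 1 :=
  deficit_mem (hp.trial (by omega)) (hp.mem i hi)

theorem lamC_anti (hp : PathOK k p) {i : ℕ} (h0 : 1 ≤ i) (hi : i < k) :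
    lamC k p i ≤ lamC k p (i - 1) := by
  rw [lamC_pred hp h0 hi]
  have h1 := hp.mono (i - 1) i (by omega) hi
  have h2 : 0 ≤ ζLB k i := by
    rw [ζLB_lt hi.le (by omega)]
    positivity
  have := mul_nonneg h2 (sub_nonneg.2 h1)
  linarith

theorem ζLB_pos' {i : ℕ} (h0 : 1 ≤ i) (hi : i < k) : 0 < ζLB k i := by
  rw [ζLB_lt hi.le (by omega)]
  have : (0 : ℝ) < i := by exact_mod_cast h0
  have : (0 : ℝ) < k := by exact_mod_cast (by omega : 0 < k)
  positivity

/-! ### integrals over the blocks -/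

section pair

variable {F F' : ℝ → ℝ}

theorem comp_deficit_ii (hk : 0 < k) (hp : PathOK k p) (hc : ContinuousOn F' (Set.Ici 0))
    {a b : ℝ} (ha : a ∈ Set.Icc (0 : ℝ) 1) (hb : b ∈ Set.Icc (0 : ℝ) 1) :
    IntervalIntegrable (fun u => F' (deficit (stepK k p) u)) volume a b := by
  apply ContinuousOn.intervalIntegrable
  refine ContinuousOn.mono ?_ (Set.uIcc_subset_Icc ha hb)
  exact hc.comp (deficit_cont (hp.trial hk)) fun _ hx => (deficit_mem (hp.trial hk) hx).1

theorem block_zero (hk : 0 < k) (hp : PathOK k p) (F' : ℝ → ℝ) :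
    ∫ u in (0 : ℝ)..(p 0), F' (deficit (stepK k p) u) = p 0 * F' (lamC k p 0) := by
  have h : ∫ u in (0 : ℝ)..(p 0), F' (deficit (stepK k p) u) =
      ∫ _u in (0 : ℝ)..(p 0), F' (lamC k p 0) := by
    refine intervalIntegral.integral_congr fun u hu => ?_
    rw [Set.uIcc_of_le (hp.mem 0 hk).1] at hu
    rw [deficit_affine hp hk (fun j hj => absurd hj (by omega)) hu.2]
    have : ζLB k 0 = 0 := by rw [ζLB_lt (by omega) hk]; simp
    rw [this, zero_mul, add_zero]
  rw [h, intervalIntegral.integral_const, sub_zero, smul_eq_mul]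

theorem block_mid (hp : PathOK k p)
    (hF : ∀ x, 0 ≤ x → HasDerivWithinAt F (F' x) (Set.Ici 0) x) (hc : ContinuousOn F' (Set.Ici 0))
    {i : ℕ} (h0 : 1 ≤ i) (hi : i < k) :
    ∫ u in (p (i - 1))..(p i), F' (deficit (stepK k p) u) =
      (F (lamC k p (i - 1)) - F (lamC k p i)) / ζLB k i := by
  have hk : 0 < k := by omega
  have hz := ζLB_pos' h0 hi
  have hle := hp.mono (i - 1) i (by omega) hi
  have hl := (lamC_mem hp hi).1
  have haff : ∀ u ∈ Set.Icc (p (i - 1)) (p i),
      deficit (stepK k p) u = lamC k p i + ζLB k i * (p i - u) := fun u hu =>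
    deficit_affine hp hi (fun j hj => (hp.mono j (i - 1) (by omega) (by omega)).trans hu.1) hu.2
  have hFc : ContinuousOn F (Set.Ici 0) := fun x hx => (hF x hx).continuousWithinAt
  have h1 : ∫ u in (p (i - 1))..(p i), F' (deficit (stepK k p) u) =
      ∫ u in (p (i - 1))..(p i), F' (lamC k p i + ζLB k i * (p i - u)) := by
    refine intervalIntegral.integral_congr fun u hu => ?_
    rw [Set.uIcc_of_le hle] at hu
    rw [haff u hu]
  have hmaps : Set.MapsTo (fun u => lamC k p i + ζLB k i * (p i - u))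
      (Set.Icc (p (i - 1)) (p i)) (Set.Ici 0) := by
    intro u hu
    have := mul_nonneg hz.le (sub_nonneg.2 hu.2)
    show (0 : ℝ) ≤ lamC k p i + ζLB k i * (p i - u)
    linarith
  have hci : ContinuousOn (fun u => lamC k p i + ζLB k i * (p i - u))
      (Set.Icc (p (i - 1)) (p i)) := by fun_prop
  have h2 := intervalIntegral.integral_eq_sub_of_hasDerivAt_of_le hle
    (f := fun u => -(F (lamC k p i + ζLB k i * (p i - u)) / ζLB k i))
    (f' := fun u => F' (lamC k p i + ζLB k i * (p i - u)))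
    ((hFc.comp hci hmaps).div_const _).neg
    (by
      intro u hu
      have h3 : 0 < lamC k p i + ζLB k i * (p i - u) := by
        have := mul_pos hz (sub_pos.2 hu.2)
        linarith
      have h4 : HasDerivAt F (F' (lamC k p i + ζLB k i * (p i - u)))
          (lamC k p i + ζLB k i * (p i - u)) := (hF _ h3.le).hasDerivAt (Ici_mem_nhds h3)
      have h5 : HasDerivAt (fun u => lamC k p i + ζLB k i * (p i - u)) (-(ζLB k i)) u := by
        have := (((hasDerivAt_id u).const_sub (p i)).const_mul (ζLB k i)).const_add (lamC k p i)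
        simpa using this
      have h6 := ((h4.comp u h5).div_const (ζLB k i)).neg
      refine h6.congr_deriv ?_
      field_simp)
    (by
      apply ContinuousOn.intervalIntegrable
      rw [Set.uIcc_of_le hle]
      exact hc.comp hci hmaps)
  rw [h1, h2]
  rw [sub_self, mul_zero, add_zero, ← lamC_pred hp h0 hi]
  ring

theorem block_last (hk : 0 < k) (hp : PathOK k p)
    (hF : ∀ x, 0 ≤ x → HasDerivWithinAt F (F' x) (Set.Ici 0) x) (hc : ContinuousOn F' (Set.Ici 0)) :
    ∫ u in (p (k - 1))..1, F' (deficit (stepK k p) u) = F (lamC k p (k - 1)) - F 0 := by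
  have hle := (hp.mem (k - 1) (by omega)).2
  have hFc : ContinuousOn F (Set.Ici 0) := fun x hx => (hF x hx).continuousWithinAt
  have h1 : ∫ u in (p (k - 1))..1, F' (deficit (stepK k p) u) =
      ∫ u in (p (k - 1))..1, F' (1 - u) := by
    refine intervalIntegral.integral_congr fun u hu => ?_
    rw [Set.uIcc_of_le hle] at hu
    rw [deficit_last hk hp hu.1]
  have hmaps : Set.MapsTo (fun u : ℝ => 1 - u) (Set.Icc (p (k - 1)) 1) (Set.Ici 0) := by
    intro u hu
    show (0 : ℝ) ≤ 1 - u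
    linarith [hu.2]
  have hci : ContinuousOn (fun u : ℝ => 1 - u) (Set.Icc (p (k - 1)) 1) := by fun_prop
  have h2 := intervalIntegral.integral_eq_sub_of_hasDerivAt_of_le hle
    (f := fun u => -(F (1 - u))) (f' := fun u => F' (1 - u))
    (hFc.comp hci hmaps).neg
    (by
      intro u hu
      have h3 : 0 < 1 - u := by linarith [hu.2]
      have h4 : HasDerivAt F (F' (1 - u)) (1 - u) := (hF _ h3.le).hasDerivAt (Ici_mem_nhds h3)
      have h5 : HasDerivAt (fun u : ℝ => 1 - u) (-1) u := by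
        simpa using (hasDerivAt_id u).const_sub 1
      have h6 := (h4.comp u h5).neg
      refine h6.congr_deriv ?_
      ring)
    (by
      apply ContinuousOn.intervalIntegrable
      rw [Set.uIcc_of_le hle]
      exact hc.comp hci hmaps)
  rw [h1, h2, lamC_last hk hp]
  rw [sub_self]
  ring

/-- `∫_0^{p_i}` differences -/
theorem Ioo_diff (hk : 0 < k) (hp : PathOK k p) (hc : ContinuousOn F' (Set.Ici 0)) {i : ℕ}
    (h0 : 1 ≤ i) (hi : i < k) :
    (∫ u in Set.Ioo (0 : ℝ) (p i), F' (deficit (stepK k p) u)) -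
      ∫ u in Set.Ioo (0 : ℝ) (p (i - 1)), F' (deficit (stepK k p) u) =
      ∫ u in (p (i - 1))..(p i), F' (deficit (stepK k p) u) := by
  have m1 := hp.mem i hi
  have m2 := hp.mem (i - 1) (by omega)
  rw [← integral_Ioc_eq_integral_Ioo, ← integral_Ioc_eq_integral_Ioo,
    ← intervalIntegral.integral_of_le m1.1, ← intervalIntegral.integral_of_le m2.1,
    ← intervalIntegral.integral_add_adjacent_intervals
      (comp_deficit_ii hk hp hc ⟨le_rfl, zero_le_one⟩ m2) (comp_deficit_ii hk hp hc m2 m1)]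
  ring

theorem Ioo_diff_last (hk : 0 < k) (hp : PathOK k p) (hc : ContinuousOn F' (Set.Ici 0)) :
    (∫ u in Set.Ioo (0 : ℝ) 1, F' (deficit (stepK k p) u)) -
      ∫ u in Set.Ioo (0 : ℝ) (p (k - 1)), F' (deficit (stepK k p) u) =
      ∫ u in (p (k - 1))..1, F' (deficit (stepK k p) u) := by
  have m2 := hp.mem (k - 1) (by omega)
  rw [← integral_Ioc_eq_integral_Ioo, ← integral_Ioc_eq_integral_Ioo,
    ← intervalIntegral.integral_of_le zero_le_one, ← intervalIntegral.integral_of_le m2.1,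
    ← intervalIntegral.integral_add_adjacent_intervals
      (comp_deficit_ii hk hp hc ⟨le_rfl, zero_le_one⟩ m2)
      (comp_deficit_ii hk hp hc m2 ⟨zero_le_one, le_rfl⟩)]
  ring

theorem Ioo_zero (hk : 0 < k) (hp : PathOK k p) (F' : ℝ → ℝ) :
    ∫ u in Set.Ioo (0 : ℝ) (p 0), F' (deficit (stepK k p) u) = p 0 * F' (lamC k p 0) := by
  rw [← integral_Ioc_eq_integral_Ioo, ← intervalIntegral.integral_of_le (hp.mem 0 hk).1,
    block_zero hk hp]

end pair

/-! ### the increments `rC` -/

section rC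

variable (D : Blk)

theorem rC_zero_eq (hk : 0 < k) (hp : PathOK k p) (l : Fin D.K) :
    rC D k p 0 l = p 0 * D.f' l (lamC k p 0) := by
  unfold rC rhoC
  rw [if_pos hk, if_pos rfl, sub_zero]
  exact Ioo_zero hk hp (D.f' l)

theorem rC_mid_eq (hp : PathOK k p) {i : ℕ} (h0 : 1 ≤ i) (hi : i < k) (l : Fin D.K) :
    rC D k p i l = (D.f l (lamC k p (i - 1)) - D.f l (lamC k p i)) / ζLB k i := by
  unfold rC rhoC
  rw [if_pos hi, if_neg (by omega)]
  rw [Ioo_diff (by omega) hp (D.f'_continuousOn l) h0 hi]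
  exact block_mid hp (fun x hx => D.f_hasDerivWithinAt hx l) (D.f'_continuousOn l) h0 hi

theorem rC_last_eq (hk : 0 < k) (hp : PathOK k p) (l : Fin D.K) :
    rC D k p k l = D.f l (lamC k p (k - 1)) := by
  unfold rC rhoC cC
  rw [if_neg (lt_irrefl k), if_pos rfl, if_neg hk.ne']
  rw [Ioo_diff_last hk hp (D.f'_continuousOn l),
    block_last hk hp (fun x hx => D.f_hasDerivWithinAt hx l) (D.f'_continuousOn l), D.f_zero,
    sub_zero]

theorem rC_big (p : ℕ → ℝ) {i : ℕ} (hi : k < i) (l : Fin D.K) : rC D k p i l = 0 := by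
  unfold rC
  rw [if_neg (by omega), if_neg (by omega)]

end rC

end Crest.Agent.RI
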