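import Crest.Agent.RI.Site

/-!
# Row 164, blueprint 0.2: the R-transform of a block law (helper70)

Everything through `V_l(x) = 1 + x R(x) - x d_l` (`= x (b(x) - d_l)` for `x > 0`).
-/

set_option autoImplicit false

namespace Crest.Agent.RI

open MeasureTheory ProbabilityTheory
open Crest.ProbabilityR.InvariantGlass

namespace Blk

variable (D : Blk)

/-- `1 + x R(x) - x d_l` -/
noncomputable def V (l : Fin D.K) (x : ℝ) : ℝ := 1 + x * D.R x - x * D.d l

/-- `Σ |d_l|` -/
noncomputable def M : ℝ := ∑ l, |D.d l|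

/-- `x R(x)` -/
noncomputable def F (x : ℝ) : ℝ := x * D.R x

/-! ### elementary facts -/

theorem M_nonneg : 0 ≤ D.M := Finset.sum_nonneg fun _ _ => abs_nonneg _

theorem abs_d_le (l : Fin D.K) : |D.d l| ≤ D.M :=
  Finset.single_le_sum (f := fun l => |D.d l|) (fun _ _ => abs_nonneg _) (Finset.mem_univ l)

theorem α_le_one (l : Fin D.K) : D.α l ≤ 1 := by
  rw [← D.sum]
  exact Finset.single_le_sum (fun l _ => (D.pos l).le) (Finset.mem_univ l)

theorem nonempty : Nonempty (Fin D.K) := by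
  by_contra h
  rw [not_nonempty_iff] at h
  have := D.sum
  simp at this

theorem le_top (l : Fin D.K) : D.d l ≤ D.top := le_ciSup (Set.finite_range D.d).bddAbove l

theorem exists_top : ∃ l, D.d l = D.top := by
  have := D.nonempty
  exact exists_eq_ciSup_of_finite

theorem integral_mu (f : ℝ → ℝ) : ∫ x, f x ∂D.mu = ∑ l, D.α l * f (D.d l) := by
  unfold mu
  rw [integral_finsetSum_measure]
  · refine Finset.sum_congr rfl fun l _ => ?_
    rw [integral_smul_measure, integral_dirac, ENNReal.toReal_ofReal (D.pos l).le, smul_eq_mul]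
  · intro l _
    exact (integrable_dirac (by simp)).smul_measure ENNReal.ofReal_ne_top

theorem isProb : IsProbabilityMeasure D.mu := by
  constructor
  unfold mu
  rw [Measure.coe_finsetSum, Finset.sum_apply]
  simp only [Measure.smul_apply, measure_univ, smul_eq_mul, mul_one]
  rw [← ENNReal.ofReal_sum_of_nonneg (fun l _ => (D.pos l).le), D.sum, ENNReal.ofReal_one]

theorem mu_Icc : D.mu (Set.Icc (-D.M) D.top) = 1 := by
  unfold mu
  rw [Measure.coe_finsetSum, Finset.sum_apply]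
  have : ∀ l ∈ Finset.univ, (ENNReal.ofReal (D.α l) • Measure.dirac (D.d l)) (Set.Icc (-D.M) D.top) =
      ENNReal.ofReal (D.α l) := by
    intro l _
    have hmem : D.d l ∈ Set.Icc (-D.M) D.top :=
      ⟨(abs_le.mp (D.abs_d_le l)).1, D.le_top l⟩
    rw [Measure.smul_apply, Measure.dirac_apply_of_mem hmem, smul_eq_mul, mul_one]
  rw [Finset.sum_congr rfl this, ← ENNReal.ofReal_sum_of_nonneg (fun l _ => (D.pos l).le), D.sum,
    ENNReal.ofReal_one]

/-! ### the inverse resolvent -/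

/-- `Σ α_l / (b - d_l)` -/
noncomputable def S (b : ℝ) : ℝ := ∑ l, D.α l / (b - D.d l)

theorem integral_resolvent (b : ℝ) : ∫ lam, (b - lam)⁻¹ ∂D.mu = D.S b := by
  rw [D.integral_mu]
  exact Finset.sum_congr rfl fun l _ => by rw [div_eq_mul_inv]

theorem S_anti {b b' : ℝ} (hb : D.top < b) (h : b < b') : D.S b' < D.S b := by
  have := D.nonempty
  unfold S
  apply Finset.sum_lt_sum_of_nonempty Finset.univ_nonempty
  intro l _
  have h1 := D.le_top l
  have h2 := D.pos l
  exact div_lt_div_of_pos_left h2 (by linarith) (by linarith)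

theorem S_continuousOn : ContinuousOn D.S (Set.Ioi D.top) := by
  unfold S
  refine continuousOn_finsetSum _ fun l _ => ?_
  refine ContinuousOn.div continuousOn_const (continuousOn_id.sub continuousOn_const) fun b hb => ?_
  have h1 := D.le_top l
  have h2 : D.top < b := hb
  exact (sub_pos.2 (lt_of_le_of_lt h1 h2)).ne'

theorem exists_b {x : ℝ} (hx : 0 < x) : ∃ b, D.top < b ∧ D.S b = x := by
  obtain ⟨l₀, hl₀⟩ := D.exists_top
  have ha := D.pos l₀
  have ha1 := D.α_le_one l₀
  have h1 : D.top < D.top + D.α l₀ / x := by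
    have := div_pos ha hx
    linarith
  have h2 : D.top + D.α l₀ / x ≤ D.top + 1 / x := by gcongr
  have hS1 : x ≤ D.S (D.top + D.α l₀ / x) := by
    have h3 : D.α l₀ / (D.top + D.α l₀ / x - D.d l₀) = x := by
      rw [hl₀, add_sub_cancel_left]
      field_simp
    calc x = D.α l₀ / (D.top + D.α l₀ / x - D.d l₀) := h3.symm
      _ ≤ _ := Finset.single_le_sum (f := fun l => D.α l / (D.top + D.α l₀ / x - D.d l))
        (fun l _ => div_nonneg (D.pos l).le (by have := D.le_top l; linarith)) (Finset.mem_univ l₀)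
  have hS2 : D.S (D.top + 1 / x) ≤ x := by
    unfold S
    calc ∑ l, D.α l / (D.top + 1 / x - D.d l) ≤ ∑ l, D.α l * x := by
          apply Finset.sum_le_sum
          intro l _
          have h3 := D.le_top l
          have h4 : 1 / x ≤ D.top + 1 / x - D.d l := by linarith
          have h5 : 0 < 1 / x := by positivity
          calc D.α l / (D.top + 1 / x - D.d l) ≤ D.α l / (1 / x) :=
                div_le_div_of_nonneg_left (D.pos l).le h5 h4
            _ = D.α l * x := by rw [div_div_eq_mul_div, div_one]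
      _ = x := by rw [← Finset.sum_mul, D.sum, one_mul]
  have hc : ContinuousOn D.S (Set.Icc (D.top + D.α l₀ / x) (D.top + 1 / x)) :=
    D.S_continuousOn.mono fun y hy => lt_of_lt_of_le h1 hy.1
  obtain ⟨b, hb, hbx⟩ := intermediate_value_Icc' h2 hc ⟨hS2, hS1⟩
  exact ⟨b, lt_of_lt_of_le h1 hb.1, hbx⟩

theorem b_eq {x b : ℝ} (hb : D.top < b) (hS : D.S b = x) : D.b x = b := by
  have hex : ∃ b : ℝ, D.top < b ∧ ∫ lam, (b - lam)⁻¹ ∂D.mu = x :=
    ⟨b, hb, by rw [D.integral_resolvent]; exact hS⟩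
  unfold Blk.b resolventPoint
  rw [if_pos hex]
  have : {b : ℝ | D.top < b ∧ ∫ lam, (b - lam)⁻¹ ∂D.mu = x} = {b} := by
    ext b'
    simp only [Set.mem_ofPred_eq, Set.mem_singleton_iff, D.integral_resolvent]
    constructor
    · rintro ⟨h1, h2⟩
      rcases lt_trichotomy b' b with h | h | h
      · have := D.S_anti h1 h; linarith
      · exact h
      · have := D.S_anti hb h; linarith
    · rintro rfl
      exact ⟨hb, hS⟩
  rw [this, csInf_singleton]

theorem b_spec {x : ℝ} (hx : 0 < x) : D.top < D.b x ∧ D.S (D.b x) = x := by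
  obtain ⟨b, hb, hS⟩ := D.exists_b hx
  rw [D.b_eq hb hS]
  exact ⟨hb, hS⟩

theorem R_eq {x : ℝ} (hx : 0 < x) : D.R x = D.b x - 1 / x := by
  unfold R rTransform
  rw [if_pos hx]
  rfl

theorem R_zero : D.R 0 = ∑ l, D.α l * D.d l := by
  unfold R rTransform
  rw [if_neg (lt_irrefl _), D.integral_mu]

theorem V_eq {x : ℝ} (hx : 0 < x) (l : Fin D.K) : D.V l x = x * (D.b x - D.d l) := by
  unfold V
  rw [D.R_eq hx]
  field_simp
  ring

theorem V_zero (l : Fin D.K) : D.V l 0 = 1 := by unfold V; ring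

theorem V_pos {x : ℝ} (hx : 0 ≤ x) (l : Fin D.K) : 0 < D.V l x := by
  rcases hx.eq_or_lt with h | h
  · rw [← h, D.V_zero]; exact one_pos
  · rw [D.V_eq h]
    have := (D.b_spec h).1
    have := D.le_top l
    exact mul_pos h (by linarith)

theorem sum_V {x : ℝ} (hx : 0 ≤ x) : ∑ l, D.α l / D.V l x = 1 := by
  rcases hx.eq_or_lt with h | h
  · rw [← h]
    simp only [D.V_zero, div_one]
    exact D.sum
  · have h1 : ∀ l, D.α l / D.V l x = (1 / x) * (D.α l / (D.b x - D.d l)) := by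
      intro l
      rw [D.V_eq h, div_mul_div_comm, one_mul]
    simp only [h1]
    rw [← Finset.mul_sum]
    have : ∑ l, D.α l / (D.b x - D.d l) = x := (D.b_spec h).2
    rw [this]
    field_simp

/-- uniqueness of `R x` -/
theorem R_unique {x r : ℝ} (hx : 0 < x) (hp : ∀ l, 0 < 1 + x * r - x * D.d l)
    (hs : ∑ l, D.α l / (1 + x * r - x * D.d l) = 1) : D.R x = r := by
  have h1 : ∀ l, 1 + x * r - x * D.d l = x * (1 / x + r - D.d l) := by
    intro l
    field_simp
  have hb : D.top < 1 / x + r := by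
    obtain ⟨l, hl⟩ := D.exists_top
    have h2 := hp l
    rw [h1] at h2
    have := (mul_pos_iff_of_pos_left hx).mp h2
    rw [← hl]
    linarith
  have hS : D.S (1 / x + r) = x := by
    have h2 : ∑ l, D.α l / (1 + x * r - x * D.d l) = (1 / x) * D.S (1 / x + r) := by
      unfold S
      rw [Finset.mul_sum]
      refine Finset.sum_congr rfl fun l _ => ?_
      rw [h1, div_mul_div_comm, one_mul]
    rw [h2, one_div, inv_mul_eq_one₀ hx.ne'] at hs
    rw [one_div]
    exact hs.symm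
  rw [D.R_eq hx, D.b_eq hb hS]
  ring

theorem α_le_V {x : ℝ} (hx : 0 ≤ x) (l : Fin D.K) : D.α l ≤ D.V l x := by
  have h1 : D.α l / D.V l x ≤ 1 := by
    rw [← D.sum_V hx]
    exact Finset.single_le_sum (f := fun l => D.α l / D.V l x)
      (fun l _ => div_nonneg (D.pos l).le (D.V_pos hx l).le) (Finset.mem_univ l)
  rwa [div_le_one (D.V_pos hx l)] at h1

theorem abs_R_le {x : ℝ} (hx : 0 ≤ x) : |D.R x| ≤ D.M := by
  have := D.nonempty
  rcases hx.eq_or_lt with h | h
  · rw [← h, D.R_zero]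
    calc |∑ l, D.α l * D.d l| ≤ ∑ l, |D.α l * D.d l| := Finset.abs_sum_le_sum_abs _ _
      _ ≤ ∑ l, |D.d l| := by
          apply Finset.sum_le_sum
          intro l _
          rw [abs_mul, abs_of_pos (D.pos l)]
          exact mul_le_of_le_one_left (abs_nonneg _) (D.α_le_one l)
      _ = D.M := rfl
  · rw [abs_le]
    constructor
    · by_contra hc
      push Not at hc
      have : ∑ l, D.α l < ∑ l, D.α l / D.V l x := by
        apply Finset.sum_lt_sum_of_nonempty Finset.univ_nonempty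
        intro l _
        have h2 := (abs_le.mp (D.abs_d_le l)).1
        have h3 : D.V l x < 1 := by
          unfold V
          nlinarith
        rw [lt_div_iff₀ (D.V_pos hx l)]
        nlinarith [D.pos l]
      rw [D.sum, D.sum_V hx] at this
      exact lt_irrefl _ this
    · by_contra hc
      push Not at hc
      have : ∑ l, D.α l / D.V l x < ∑ l, D.α l := by
        apply Finset.sum_lt_sum_of_nonempty Finset.univ_nonempty
        intro l _
        have h2 := (abs_le.mp (D.abs_d_le l)).2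
        have h3 : 1 < D.V l x := by
          unfold V
          nlinarith
        rw [div_lt_iff₀ (D.V_pos hx l)]
        nlinarith [D.pos l]
      rw [D.sum, D.sum_V hx] at this
      exact lt_irrefl _ this

theorem V_le {x : ℝ} (hx : 0 ≤ x) (hx1 : x ≤ 1) (l : Fin D.K) : D.V l x ≤ 1 + 2 * D.M := by
  have h1 := (abs_le.mp (D.abs_R_le hx)).2
  have h2 := (abs_le.mp (D.abs_d_le l)).1
  have hM := D.M_nonneg
  unfold V
  nlinarith

/-! ### `f` and `f'` -/

theorem f_eq {x : ℝ} (hx : 0 ≤ x) (l : Fin D.K) : D.f l x = D.α l * x / D.V l x := by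
  unfold f
  rcases hx.eq_or_lt with h | h
  · rw [← h, if_neg (lt_irrefl _)]; simp
  · rw [if_pos h, D.V_eq h]
    have := (D.b_spec h).1
    have := D.le_top l
    have h2 : D.b x - D.d l ≠ 0 := by
      have : 0 < D.b x - D.d l := by linarith
      exact this.ne'
    field_simp

/-- `Σ α_m / V_m²` -/
noncomputable def W (x : ℝ) : ℝ := ∑ m, D.α m / D.V m x ^ 2

theorem W_ge_one {x : ℝ} (hx : 0 ≤ x) : 1 ≤ D.W x := by
  -- `Σ α (1/V - 1)² ≥ 0`
  have h1 : 0 ≤ ∑ l, D.α l * (1 / D.V l x - 1) ^ 2 :=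
    Finset.sum_nonneg fun l _ => mul_nonneg (D.pos l).le (sq_nonneg _)
  have h2 : ∑ l, D.α l * (1 / D.V l x - 1) ^ 2 = D.W x - 2 * ∑ l, D.α l / D.V l x + ∑ l, D.α l := by
    unfold W
    rw [Finset.mul_sum, ← Finset.sum_sub_distrib, ← Finset.sum_add_distrib]
    refine Finset.sum_congr rfl fun l _ => ?_
    have := (D.V_pos hx l).ne'
    field_simp
    ring
  rw [D.sum_V hx, D.sum] at h2
  linarith

theorem f'_eq {x : ℝ} (hx : 0 ≤ x) (l : Fin D.K) : D.f' l x = D.α l / D.V l x ^ 2 / D.W x := by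
  unfold f' W
  rcases hx.eq_or_lt with h | h
  · rw [← h, if_neg (lt_irrefl _)]
    simp only [D.V_zero, one_pow, div_one]
    rw [D.sum, div_one]
  · rw [if_pos h]
    unfold g2
    have h1 : ∀ m, D.α m / (D.b x - D.d m) ^ 2 = x ^ 2 * (D.α m / D.V m x ^ 2) := by
      intro m
      rw [D.V_eq h]
      have := (D.b_spec h).1
      have := D.le_top m
      have h2 : D.b x - D.d m ≠ 0 := by
        have : 0 < D.b x - D.d m := by linarith
        exact this.ne'
      field_simp
    simp only [h1]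
    rw [← Finset.mul_sum, mul_div_mul_left _ _ (by positivity)]

theorem f'_nonneg {x : ℝ} (hx : 0 ≤ x) (l : Fin D.K) : 0 ≤ D.f' l x := by
  rw [D.f'_eq hx]
  have := D.W_ge_one hx
  have := D.pos l
  positivity

theorem sum_f' {x : ℝ} (hx : 0 ≤ x) : ∑ l, D.f' l x = 1 := by
  simp only [D.f'_eq hx]
  rw [← Finset.sum_div]
  have := D.W_ge_one hx
  exact div_self (by unfold W at this; linarith)

theorem f'_le_one {x : ℝ} (hx : 0 ≤ x) (l : Fin D.K) : D.f' l x ≤ 1 := by
  rw [← D.sum_f' hx]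
  exact Finset.single_le_sum (fun m _ => D.f'_nonneg hx m) (Finset.mem_univ l)

theorem f_nonneg {x : ℝ} (hx : 0 ≤ x) (l : Fin D.K) : 0 ≤ D.f l x := by
  rw [D.f_eq hx]
  have := D.V_pos hx l
  have := D.pos l
  positivity

theorem sum_f {x : ℝ} (hx : 0 ≤ x) : ∑ l, D.f l x = x := by
  have h1 : ∀ l, D.f l x = x * (D.α l / D.V l x) := fun l => by rw [D.f_eq hx]; ring
  simp only [h1]
  rw [← Finset.mul_sum, D.sum_V hx, mul_one]

theorem f_le {x : ℝ} (hx : 0 ≤ x) (l : Fin D.K) : D.f l x ≤ x := by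
  nth_rewrite 2 [← D.sum_f hx]
  exact Finset.single_le_sum (fun m _ => D.f_nonneg hx m) (Finset.mem_univ l)

theorem sum_d_f {x : ℝ} (hx : 0 ≤ x) : ∑ l, D.d l * D.f l x = x * D.R x := by
  have h1 : ∀ l, D.d l * D.f l x = (1 + x * D.R x) * (D.α l / D.V l x) - D.α l := by
    intro l
    rw [D.f_eq hx]
    have h2 := (D.V_pos hx l).ne'
    have h3 : D.V l x = 1 + x * D.R x - x * D.d l := rfl
    field_simp
    rw [h3]
    ring
  simp only [h1]
  rw [Finset.sum_sub_distrib, ← Finset.mul_sum, D.sum_V hx, D.sum]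
  ring

/-! ### mean value identity and derivatives -/

theorem V_sub (x y : ℝ) (l : Fin D.K) :
    D.V l y - D.V l x = D.F y - D.F x - (y - x) * D.d l := by
  unfold V F; ring

/-- `Σ α / (V(x) V(y))` -/
noncomputable def W2 (x y : ℝ) : ℝ := ∑ m, D.α m / (D.V m x * D.V m y)

/-- `Σ α d / (V(x) V(y))` -/
noncomputable def N2 (x y : ℝ) : ℝ := ∑ m, D.α m * D.d m / (D.V m x * D.V m y)

theorem W2_pos {x y : ℝ} (hx : 0 ≤ x) (hy : 0 ≤ y) : 0 < D.W2 x y := by
  have := D.nonempty
  unfold W2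
  refine Finset.sum_pos (fun l _ => ?_) Finset.univ_nonempty
  have := D.V_pos hx l
  have := D.V_pos hy l
  have := D.pos l
  positivity

theorem abs_N2_le {x y : ℝ} (hx : 0 ≤ x) (hy : 0 ≤ y) : |D.N2 x y| ≤ D.M * D.W2 x y := by
  unfold N2 W2
  rw [Finset.mul_sum]
  refine (Finset.abs_sum_le_sum_abs _ _).trans (Finset.sum_le_sum fun l _ => ?_)
  have h1 := D.V_pos hx l
  have h2 := D.V_pos hy l
  have h3 := D.pos l
  have h4 := D.abs_d_le l
  rw [mul_div_right_comm, abs_mul, abs_of_pos (by positivity : 0 < D.α l / (D.V l x * D.V l y)),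
    mul_comm]
  exact mul_le_mul_of_nonneg_right h4 (by positivity)

theorem mean_value {x y : ℝ} (hx : 0 ≤ x) (hy : 0 ≤ y) :
    D.F y - D.F x = (y - x) * (D.N2 x y / D.W2 x y) := by
  have h0 : (D.F y - D.F x) * D.W2 x y - (y - x) * D.N2 x y = 0 := by
    have h1 : ∑ l, (D.α l / D.V l x - D.α l / D.V l y) = 0 := by
      rw [Finset.sum_sub_distrib, D.sum_V hx, D.sum_V hy, sub_self]
    rw [← h1]
    unfold W2 N2
    rw [Finset.mul_sum, Finset.mul_sum, ← Finset.sum_sub_distrib]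
    refine Finset.sum_congr rfl fun l _ => ?_
    have h2 := (D.V_pos hx l).ne'
    have h3 := (D.V_pos hy l).ne'
    have h4 := D.V_sub x y l
    rw [div_sub_div _ _ h2 h3]
    have h5 : D.α l * D.V l y - D.V l x * D.α l = D.α l * (D.V l y - D.V l x) := by ring
    rw [h5, h4]
    ring
  have hW := (D.W2_pos hx hy).ne'
  field_simp
  linarith

theorem F_lip {x y : ℝ} (hx : 0 ≤ x) (hy : 0 ≤ y) : |D.F y - D.F x| ≤ D.M * |y - x| := by
  rw [D.mean_value hx hy, abs_mul, abs_div, abs_of_pos (D.W2_pos hx hy), mul_comm]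
  refine mul_le_mul_of_nonneg_right ?_ (abs_nonneg _)
  rw [div_le_iff₀ (D.W2_pos hx hy)]
  exact D.abs_N2_le hx hy

theorem V_lip {x y : ℝ} (hx : 0 ≤ x) (hy : 0 ≤ y) (l : Fin D.K) :
    |D.V l y - D.V l x| ≤ 2 * D.M * |y - x| := by
  rw [D.V_sub]
  have h1 := D.F_lip hx hy
  have h2 := D.abs_d_le l
  calc |D.F y - D.F x - (y - x) * D.d l| ≤ |D.F y - D.F x| + |(y - x) * D.d l| := abs_sub _ _
    _ ≤ D.M * |y - x| + |y - x| * D.M := by
        rw [abs_mul]
        gcongr
    _ = 2 * D.M * |y - x| := by ring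

theorem F_continuousOn : ContinuousOn D.F (Set.Ici 0) := by
  have h : LipschitzOnWith ⟨D.M, D.M_nonneg⟩ D.F (Set.Ici 0) := by
    refine LipschitzOnWith.of_dist_le_mul fun y hy x hx => ?_
    rw [Real.dist_eq, Real.dist_eq]
    exact D.F_lip hx hy
  exact h.continuousOn

theorem V_continuousOn (l : Fin D.K) : ContinuousOn (D.V l) (Set.Ici 0) := by
  have h : D.V l = fun x => 1 + D.F x - x * D.d l := rfl
  rw [h]
  exact (continuousOn_const.add D.F_continuousOn).sub (continuousOn_id.mul continuousOn_const)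

theorem W_continuousOn : ContinuousOn D.W (Set.Ici 0) := by
  unfold W
  refine continuousOn_finsetSum _ fun l _ => ?_
  exact ContinuousOn.div continuousOn_const ((D.V_continuousOn l).pow 2)
    fun x hx => (pow_pos (D.V_pos hx l) 2).ne'

theorem f'_continuousOn (l : Fin D.K) : ContinuousOn (D.f' l) (Set.Ici 0) := by
  have h1 : ContinuousOn (fun x => D.α l / D.V l x ^ 2 / D.W x) (Set.Ici 0) := by
    refine ContinuousOn.div (ContinuousOn.div continuousOn_const ((D.V_continuousOn l).pow 2)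
      fun x hx => (pow_pos (D.V_pos hx l) 2).ne') D.W_continuousOn fun x hx => ?_
    have := D.W_ge_one hx
    exact (by linarith : 0 < D.W x).ne'
  exact h1.congr fun x hx => D.f'_eq hx l

theorem Θ_continuousOn : ContinuousOn D.Θ (Set.Ici 0) := by
  unfold Θ
  exact continuousOn_finsetSum _ fun l _ => continuousOn_const.mul (D.f'_continuousOn l)

theorem Θ_eq {x : ℝ} (hx : 0 ≤ x) : D.Θ x = D.N2 x x / D.W2 x x := by
  unfold Θ N2 W2
  simp only [D.f'_eq hx]
  rw [Finset.sum_div]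
  refine Finset.sum_congr rfl fun l _ => ?_
  unfold W
  simp only [sq]
  ring

theorem F_hasDerivWithinAt {x : ℝ} (hx : 0 ≤ x) : HasDerivWithinAt D.F (D.Θ x) (Set.Ici 0) x := by
  rw [hasDerivWithinAt_iff_tendsto_slope]
  have h1 : Filter.Tendsto (fun y => D.N2 x y / D.W2 x y) (nhdsWithin x (Set.Ici 0))
      (nhds (D.N2 x x / D.W2 x x)) := by
    have hc : ContinuousOn (fun y => D.N2 x y / D.W2 x y) (Set.Ici 0) := by
      refine ContinuousOn.div ?_ ?_ fun y hy => (D.W2_pos hx hy).ne'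
      · unfold N2
        refine continuousOn_finsetSum _ fun l _ => ?_
        exact ContinuousOn.div continuousOn_const (continuousOn_const.mul (D.V_continuousOn l))
          fun y hy => (mul_pos (D.V_pos hx l) (D.V_pos hy l)).ne'
      · unfold W2
        refine continuousOn_finsetSum _ fun l _ => ?_
        exact ContinuousOn.div continuousOn_const (continuousOn_const.mul (D.V_continuousOn l))
          fun y hy => (mul_pos (D.V_pos hx l) (D.V_pos hy l)).ne'
    exact hc x hx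
  rw [D.Θ_eq hx]
  refine (h1.mono_left (nhdsWithin_mono _ Set.sdiff_subset)).congr' ?_
  filter_upwards [self_mem_nhdsWithin] with y hy
  rw [slope_def_field, D.mean_value hx hy.1]
  have : y - x ≠ 0 := sub_ne_zero.2 hy.2
  field_simp

theorem F_hasDerivAt {x : ℝ} (hx : 0 < x) : HasDerivAt D.F (D.Θ x) x :=
  (D.F_hasDerivWithinAt hx.le).hasDerivAt (Ici_mem_nhds hx)

theorem W_mul {x : ℝ} (hx : 0 ≤ x) : D.W x * (1 + D.F x - x * D.Θ x) = 1 := by
  have h1 : D.W x * D.Θ x = ∑ l, D.d l * (D.α l / D.V l x ^ 2) := by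
    unfold Θ
    rw [Finset.mul_sum]
    refine Finset.sum_congr rfl fun l _ => ?_
    rw [D.f'_eq hx]
    have h2 : D.W x ≠ 0 := by
      have := D.W_ge_one hx
      exact (by linarith : 0 < D.W x).ne'
    field_simp
  have h2 : D.W x * (1 + D.F x - x * D.Θ x) = D.W x * (1 + D.F x) - x * (D.W x * D.Θ x) := by ring
  rw [h2, h1]
  refine Eq.trans ?_ (D.sum_V hx)
  unfold W
  rw [Finset.sum_mul, Finset.mul_sum, ← Finset.sum_sub_distrib]
  refine Finset.sum_congr rfl fun l _ => ?_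
  have h3 := (D.V_pos hx l).ne'
  have h4 : D.V l x = 1 + D.F x - x * D.d l := rfl
  field_simp
  rw [h4]

theorem f_hasDerivWithinAt {x : ℝ} (hx : 0 ≤ x) (l : Fin D.K) :
    HasDerivWithinAt (D.f l) (D.f' l x) (Set.Ici 0) x := by
  have h1 : HasDerivWithinAt (fun x => D.α l * x / (1 + D.F x - x * D.d l))
      ((D.α l * (1 + D.F x - x * D.d l) - D.α l * x * (D.Θ x - D.d l)) /
        (1 + D.F x - x * D.d l) ^ 2) (Set.Ici 0) x := by
    have h2 : HasDerivWithinAt (fun x : ℝ => D.α l * x) (D.α l) (Set.Ici 0) x := by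
      simpa using (hasDerivWithinAt_id x (Set.Ici (0 : ℝ))).const_mul (D.α l)
    have h3 : HasDerivWithinAt (fun x => 1 + D.F x - x * D.d l) (D.Θ x - D.d l) (Set.Ici 0) x := by
      have h4 : HasDerivWithinAt (fun x : ℝ => x * D.d l) (D.d l) (Set.Ici 0) x := by
        simpa using (hasDerivWithinAt_id x (Set.Ici (0 : ℝ))).mul_const (D.d l)
      exact ((D.F_hasDerivWithinAt hx).const_add 1).sub h4
    exact h2.div h3 (D.V_pos hx l).ne'
  refine (h1.congr (fun y hy => D.f_eq hy l) (D.f_eq hx l)).congr_deriv ?_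
  rw [D.f'_eq hx]
  have h5 : 1 + D.F x - x * D.d l = D.V l x := rfl
  have h6 := D.W_mul hx
  have h7 : D.W x ≠ 0 := by
    have := D.W_ge_one hx
    exact (by linarith : 0 < D.W x).ne'
  have h8 : 1 + D.F x - x * D.Θ x = 1 / D.W x := by
    rw [eq_div_iff h7, mul_comm]; exact h6
  have h9 : D.α l * (1 + D.F x - x * D.d l) - D.α l * x * (D.Θ x - D.d l) =
      D.α l * (1 + D.F x - x * D.Θ x) := by ring
  rw [h9, h8, h5]
  field_simp

theorem f_hasDerivAt {x : ℝ} (hx : 0 < x) (l : Fin D.K) : HasDerivAt (D.f l) (D.f' l x) x :=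
  (D.f_hasDerivWithinAt hx.le l).hasDerivAt (Ici_mem_nhds hx)

theorem f_continuousOn (l : Fin D.K) : ContinuousOn (D.f l) (Set.Ici 0) := fun _ hx =>
  (D.f_hasDerivWithinAt hx l).continuousWithinAt

theorem f_zero (l : Fin D.K) : D.f l 0 = 0 := by
  unfold f; rw [if_neg (lt_irrefl _)]

theorem F_zero : D.F 0 = 0 := by unfold F; ring

/-! ### Lipschitz bounds -/

/-- a Lipschitz constant for `α/V²`, `W`, `f'`, `Θ` on `[0,1]` -/
theorem exists_lip : ∃ C : ℝ, 0 ≤ C ∧ ∀ l, ∀ x ∈ Set.Icc (0 : ℝ) 1, ∀ y ∈ Set.Icc (0 : ℝ) 1,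
    |D.α l / D.V l y ^ 2 - D.α l / D.V l x ^ 2| ≤ C * |y - x| := by
  refine ⟨∑ l, 4 * D.M * (1 + 2 * D.M) / (D.α l) ^ 3, Finset.sum_nonneg fun l _ => ?_, ?_⟩
  · have := D.pos l
    have := D.M_nonneg
    positivity
  intro l x hx y hy
  have hM := D.M_nonneg
  have ha := D.pos l
  have hC : 4 * D.M * (1 + 2 * D.M) / (D.α l) ^ 3 ≤ ∑ l, 4 * D.M * (1 + 2 * D.M) / (D.α l) ^ 3 :=
    Finset.single_le_sum (f := fun l => 4 * D.M * (1 + 2 * D.M) / (D.α l) ^ 3)
      (fun l _ => by have := D.pos l; positivity) (Finset.mem_univ l)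
  refine le_trans ?_ (mul_le_mul_of_nonneg_right hC (abs_nonneg _))
  have h1 := D.α_le_V hx.1 l
  have h2 := D.α_le_V hy.1 l
  have h3 := D.V_le hx.1 hx.2 l
  have h4 := D.V_le hy.1 hy.2 l
  have h5 := D.V_lip hx.1 hy.1 l
  have h6 := D.V_pos hx.1 l
  have h7 := D.V_pos hy.1 l
  set u := D.V l x
  set v := D.V l y
  have e : D.α l / v ^ 2 - D.α l / u ^ 2 = D.α l * ((u - v) * (u + v)) / (u ^ 2 * v ^ 2) := by
    field_simp
    ring
  rw [e, abs_div, abs_mul, abs_mul, abs_of_pos ha, abs_of_pos (by positivity : 0 < u ^ 2 * v ^ 2),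
    abs_of_pos (by positivity : 0 < u + v), abs_sub_comm u v]
  rw [div_le_iff₀ (by positivity)]
  have h8 : (D.α l) ^ 4 ≤ u ^ 2 * v ^ 2 := by
    calc (D.α l) ^ 4 = (D.α l) ^ 2 * (D.α l) ^ 2 := by ring
      _ ≤ _ := by gcongr
  calc D.α l * (|v - u| * (u + v)) ≤ D.α l * ((2 * D.M * |y - x|) * (2 * (1 + 2 * D.M))) := by
        gcongr
        linarith
    _ = 4 * D.M * (1 + 2 * D.M) / (D.α l) ^ 3 * |y - x| * (D.α l) ^ 4 := by
        field_simp
        ring
    _ ≤ _ := by gcongr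

theorem exists_f'_lip : ∃ C : ℝ, 0 ≤ C ∧ ∀ l, ∀ x ∈ Set.Icc (0 : ℝ) 1, ∀ y ∈ Set.Icc (0 : ℝ) 1,
    |D.f' l y - D.f' l x| ≤ C * |y - x| := by
  obtain ⟨C, hC, h⟩ := D.exists_lip
  refine ⟨C + D.K * C, by positivity, ?_⟩
  intro l x hx y hy
  have hWx := D.W_ge_one hx.1
  have hWy := D.W_ge_one hy.1
  have h1 := h l x hx y hy
  have h2 : |D.W y - D.W x| ≤ D.K * C * |y - x| := by
    unfold W
    rw [← Finset.sum_sub_distrib]
    calc _ ≤ ∑ m : Fin D.K, |D.α m / D.V m y ^ 2 - D.α m / D.V m x ^ 2| :=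
          Finset.abs_sum_le_sum_abs _ _
      _ ≤ ∑ _m : Fin D.K, C * |y - x| := Finset.sum_le_sum fun m _ => h m x hx y hy
      _ = D.K * C * |y - x| := by
          rw [Finset.sum_const, Finset.card_univ, Fintype.card_fin, nsmul_eq_mul]; ring
  have h3 := D.f'_le_one hx.1 l
  have h4 := D.f'_nonneg hx.1 l
  have e : D.f' l y - D.f' l x = ((D.α l / D.V l y ^ 2 - D.α l / D.V l x ^ 2) -
      D.f' l x * (D.W y - D.W x)) / D.W y := by
    rw [eq_div_iff (by linarith)]
    have e1 : D.f' l y * D.W y = D.α l / D.V l y ^ 2 := by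
      rw [D.f'_eq hy.1, div_mul_cancel₀ _ (by linarith)]
    have e2 : D.f' l x * D.W x = D.α l / D.V l x ^ 2 := by
      rw [D.f'_eq hx.1, div_mul_cancel₀ _ (by linarith)]
    rw [sub_mul, e1, mul_sub, e2]
    ring
  rw [e, abs_div, abs_of_pos (by linarith : 0 < D.W y), div_le_iff₀ (by linarith)]
  calc _ ≤ |D.α l / D.V l y ^ 2 - D.α l / D.V l x ^ 2| + |D.f' l x * (D.W y - D.W x)| :=
        abs_sub _ _
    _ ≤ C * |y - x| + 1 * (D.K * C * |y - x|) := by
        rw [abs_mul, abs_of_nonneg h4]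
        gcongr
    _ = (C + D.K * C) * |y - x| * 1 := by ring
    _ ≤ (C + D.K * C) * |y - x| * D.W y := by gcongr

theorem exists_Θ_lip : ∃ C : ℝ, 0 ≤ C ∧ ∀ x ∈ Set.Icc (0 : ℝ) 1, ∀ y ∈ Set.Icc (0 : ℝ) 1,
    |D.Θ y - D.Θ x| ≤ C * |y - x| := by
  obtain ⟨C, hC, h⟩ := D.exists_f'_lip
  have hM := D.M_nonneg
  refine ⟨D.M * C, by positivity, fun x hx y hy => ?_⟩
  unfold Θ
  rw [← Finset.sum_sub_distrib]
  calc _ ≤ ∑ l, |D.d l * D.f' l y - D.d l * D.f' l x| := Finset.abs_sum_le_sum_abs _ _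
    _ ≤ ∑ l, |D.d l| * (C * |y - x|) := by
        apply Finset.sum_le_sum
        intro l _
        rw [← mul_sub, abs_mul]
        exact mul_le_mul_of_nonneg_left (h l x hx y hy) (abs_nonneg _)
    _ = D.M * C * |y - x| := by
        rw [← Finset.sum_mul]
        unfold M
        ring

/-! ### the integral of `Θ` -/

/-- (helper8) `∫_0^1 Θ(t x) dt = R(x)` -/
theorem integral_Θ {x : ℝ} (hx0 : 0 ≤ x) (_hx1 : x ≤ 1) :
    ∫ t in (0 : ℝ)..1, D.Θ (t * x) = D.R x := by
  rcases hx0.eq_or_lt with h | h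
  · rw [← h]
    simp only [mul_zero]
    rw [intervalIntegral.integral_const, sub_zero, one_smul, D.R_zero]
    unfold Θ f'
    simp only [lt_irrefl, if_false]
    exact Finset.sum_congr rfl fun l _ => mul_comm _ _
  · have h1 : ∫ u in (0 : ℝ)..x, D.Θ u = D.F x - D.F 0 := by
      refine intervalIntegral.integral_eq_sub_of_hasDerivAt_of_le hx0
        (D.F_continuousOn.mono fun y hy => hy.1) (fun y hy => D.F_hasDerivAt hy.1) ?_
      refine ContinuousOn.intervalIntegrable ?_
      rw [Set.uIcc_of_le hx0]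
      exact D.Θ_continuousOn.mono fun y hy => hy.1
    have h2 := intervalIntegral.integral_comp_mul_right (a := 0) (b := 1) D.Θ h.ne'
    rw [h2, zero_mul, one_mul, h1, D.F_zero, sub_zero, smul_eq_mul]
    unfold F
    field_simp

theorem R_lip : ∃ C : ℝ, 0 ≤ C ∧ ∀ x ∈ Set.Icc (0 : ℝ) 1, ∀ y ∈ Set.Icc (0 : ℝ) 1,
    |D.R y - D.R x| ≤ C * |y - x| := by
  obtain ⟨C, hC, h⟩ := D.exists_Θ_lip
  refine ⟨C, hC, fun x hx y hy => ?_⟩
  have hi : ∀ z ∈ Set.Icc (0 : ℝ) 1, IntervalIntegrable (fun t => D.Θ (t * z)) volume 0 1 := by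
    intro z hz
    refine ContinuousOn.intervalIntegrable ?_
    rw [Set.uIcc_of_le zero_le_one]
    refine D.Θ_continuousOn.comp (by fun_prop) fun t ht => ?_
    exact mul_nonneg ht.1 hz.1
  rw [← D.integral_Θ hx.1 hx.2, ← D.integral_Θ hy.1 hy.2, ← intervalIntegral.integral_sub (hi y hy)
    (hi x hx)]
  have := intervalIntegral.norm_integral_le_of_norm_le_const (a := (0 : ℝ)) (b := 1)
    (C := C * |y - x|) (f := fun t => D.Θ (t * y) - D.Θ (t * x)) (fun t ht => by
      rw [Set.uIoc_of_le zero_le_one] at ht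
      rw [Real.norm_eq_abs]
      refine (h (t * x) ⟨mul_nonneg ht.1.le hx.1, mul_le_one₀ ht.2 hx.1 hx.2⟩ (t * y)
        ⟨mul_nonneg ht.1.le hy.1, mul_le_one₀ ht.2 hy.1 hy.2⟩).trans ?_
      rw [← mul_sub, abs_mul, abs_of_pos ht.1]
      have h1 := mul_le_of_le_one_left (abs_nonneg (y - x)) ht.2
      exact mul_le_mul_of_nonneg_left h1 hC)
  rw [Real.norm_eq_abs] at this
  simpa using this

/-! ### monotonicity and scaling -/

theorem cross {x y : ℝ} (hx : 0 ≤ x) (hxy : x ≤ y) (l : Fin D.K) :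
    x * D.V l y ≤ y * D.V l x := by
  have hy := hx.trans hxy
  have hT : ∀ m, y * D.V m x - x * D.V m y = y - x + y * D.F x - x * D.F y := by
    intro m
    unfold V F
    ring
  by_contra hc
  push Not at hc
  have hneg : ∀ m, y * D.V m x < x * D.V m y := fun m => by
    have h1 := hT m
    have h2 := hT l
    linarith
  have hs : ∑ m, D.f m y < ∑ m, D.f m x := by
    have := D.nonempty
    apply Finset.sum_lt_sum_of_nonempty Finset.univ_nonempty
    intro m _
    rw [D.f_eq hx, D.f_eq hy, div_lt_div_iff₀ (D.V_pos hy m) (D.V_pos hx m)]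
    have := D.pos m
    have := hneg m
    nlinarith
  rw [D.sum_f hx, D.sum_f hy] at hs
  linarith

/-- (helper8) `Θ` is nondecreasing. -/
theorem Θ_mono_Ici : MonotoneOn D.Θ (Set.Ici 0) := by
  intro x hx y hy hxy
  have hx' : 0 ≤ x := hx
  have hy' : 0 ≤ y := hy
  have hWx := D.W_ge_one hx'
  have hWy := D.W_ge_one hy'
  have hΘ : ∀ z, 0 ≤ z → D.Θ z * D.W z = ∑ l, D.d l * (D.α l / D.V l z ^ 2) := by
    intro z hz
    have := D.W_ge_one hz
    unfold Θ
    rw [Finset.sum_mul]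
    refine Finset.sum_congr rfl fun l _ => ?_
    rw [D.f'_eq hz, mul_assoc, div_mul_cancel₀ _ (by linarith)]
  have key : D.Θ x * D.W x * D.W y ≤ D.Θ y * D.W y * D.W x := by
    rw [hΘ x hx', hΘ y hy']
    unfold W
    set w : Fin D.K → ℝ := fun l => D.α l / D.V l x ^ 2 with hw
    set w' : Fin D.K → ℝ := fun l => D.α l / D.V l y ^ 2 with hw'
    have h1 : (∑ l, D.d l * w' l) * ∑ m, w m - (∑ l, D.d l * w l) * ∑ m, w' m =
        ∑ l, ∑ m, D.d l * (w' l * w m - w l * w' m) := by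
      rw [Finset.sum_mul_sum, Finset.sum_mul_sum, ← Finset.sum_sub_distrib]
      refine Finset.sum_congr rfl fun l _ => ?_
      rw [← Finset.sum_sub_distrib]
      exact Finset.sum_congr rfl fun m _ => by ring
    have h2 : ∑ l, ∑ m, D.d l * (w' l * w m - w l * w' m) =
        ∑ l, ∑ m, D.d m * (w' m * w l - w m * w' l) := Finset.sum_comm
    have h3 : 0 ≤ ∑ l, ∑ m, (D.d l - D.d m) * (w' l * w m - w l * w' m) := by
      refine Finset.sum_nonneg fun l _ => Finset.sum_nonneg fun m _ => ?_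
      -- sign
      have hc : ∀ a b : Fin D.K, D.d b ≤ D.d a → 0 ≤ w' a * w b - w a * w' b := by
        intro a b hab
        have h4 : D.V a y * D.V b x ≤ D.V b y * D.V a x := by
          have e1 : D.V b y = D.V a y + y * (D.d a - D.d b) := by unfold V; ring
          have e2 : D.V b x = D.V a x + x * (D.d a - D.d b) := by unfold V; ring
          have h5 := D.cross hx' hxy a
          rw [e1, e2]
          nlinarith
        have hax := D.V_pos hx' a
        have hbx := D.V_pos hx' b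
        have hay := D.V_pos hy' a
        have hby := D.V_pos hy' b
        have h6 : (D.V a y * D.V b x) ^ 2 ≤ (D.V b y * D.V a x) ^ 2 :=
          pow_le_pow_left₀ (by positivity) h4 2
        have hαa := D.pos a
        have hαb := D.pos b
        have e3 : w' a * w b - w a * w' b = D.α a * D.α b *
            ((D.V b y * D.V a x) ^ 2 - (D.V a y * D.V b x) ^ 2) /
            ((D.V a y * D.V b x) ^ 2 * (D.V a x * D.V b y) ^ 2) := by
          simp only [hw, hw']
          field_simp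
        rw [e3]
        have h7 := sub_nonneg.2 h6
        positivity
      rcases le_total (D.d m) (D.d l) with h | h
      · exact mul_nonneg (sub_nonneg.2 h) (hc l m h)
      · have h8 := hc m l h
        have e4 : (D.d l - D.d m) * (w' l * w m - w l * w' m) =
            (D.d m - D.d l) * (w' m * w l - w m * w' l) := by ring
        rw [e4]
        exact mul_nonneg (sub_nonneg.2 h) h8
    have h9 : ∑ l, ∑ m, (D.d l - D.d m) * (w' l * w m - w l * w' m) =
        ∑ l, ∑ m, D.d l * (w' l * w m - w l * w' m) +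
          ∑ l, ∑ m, D.d m * (w' m * w l - w m * w' l) := by
      rw [← Finset.sum_add_distrib]
      refine Finset.sum_congr rfl fun l _ => ?_
      rw [← Finset.sum_add_distrib]
      exact Finset.sum_congr rfl fun m _ => by ring
    rw [h9, ← h2, ← h1] at h3
    linarith
  have hW : 0 < D.W x * D.W y := by positivity
  have : D.Θ x * (D.W x * D.W y) ≤ D.Θ y * (D.W x * D.W y) := by linarith
  exact le_of_mul_le_mul_right this hW

/-- (helper8) `Θ` is nondecreasing. -/
theorem Θ_mono : MonotoneOn D.Θ (Set.Icc 0 1) := D.Θ_mono_Ici.mono fun _ hx => hx.1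

theorem R_scale {t : ℝ} (ht0 : 0 < t) {x : ℝ} (hx0 : 0 ≤ x) :
    (D.scale t ht0.ne').R x = t * D.R (t * x) := by
  rcases hx0.eq_or_lt with h | h
  · rw [← h, mul_zero, D.R_zero, Blk.R_zero]
    show ∑ l : Fin D.K, D.α l * (t * D.d l) = _
    rw [Finset.mul_sum]
    exact Finset.sum_congr rfl fun l _ => by ring
  · apply Blk.R_unique _ h
    · intro l
      have := D.V_pos (mul_nonneg ht0.le hx0) l
      unfold V at this
      show 0 < 1 + x * (t * D.R (t * x)) - x * (t * D.d l)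
      linarith
    · show ∑ l : Fin D.K, D.α l / (1 + x * (t * D.R (t * x)) - x * (t * D.d l)) = 1
      refine Eq.trans (Finset.sum_congr rfl fun l _ => ?_) (D.sum_V (mul_nonneg ht0.le hx0))
      unfold V
      congr 1
      ring

theorem V_scale {t : ℝ} (ht0 : 0 < t) {x : ℝ} (hx0 : 0 ≤ x) (l : Fin D.K) :
    (D.scale t ht0.ne').V l x = D.V l (t * x) := by
  unfold V
  rw [D.R_scale ht0 hx0]
  show 1 + x * (t * D.R (t * x)) - x * (t * D.d l) = _
  ring

theorem f'_scale {t : ℝ} (ht0 : 0 < t) {x : ℝ} (hx0 : 0 ≤ x) (l : Fin D.K) :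
    (D.scale t ht0.ne').f' l x = D.f' l (t * x) := by
  rw [Blk.f'_eq _ hx0, D.f'_eq (mul_nonneg ht0.le hx0)]
  unfold W
  rw [D.V_scale ht0 hx0]
  have : ∀ m : Fin D.K, (D.scale t ht0.ne').α m / (D.scale t ht0.ne').V m x ^ 2 =
      D.α m / D.V m (t * x) ^ 2 := by
    intro m
    rw [D.V_scale ht0 hx0]
    rfl
  show D.α l / D.V l (t * x) ^ 2 /
    ∑ m : Fin D.K, (D.scale t ht0.ne').α m / (D.scale t ht0.ne').V m x ^ 2 = _
  rw [Finset.sum_congr rfl fun m _ => this m]

/-- (helper8) scaling -/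
theorem Θ_scale {t : ℝ} (ht0 : 0 < t) (_ht1 : t ≤ 1) {x : ℝ} (hx0 : 0 ≤ x) (_hx1 : x ≤ 1) :
    (D.scale t ht0.ne').Θ x = t * D.Θ (t * x) := by
  unfold Θ
  show ∑ l : Fin D.K, (t * D.d l) * (D.scale t ht0.ne').f' l x = _
  rw [Finset.mul_sum]
  refine Finset.sum_congr rfl fun l _ => ?_
  rw [D.f'_scale ht0 hx0]
  ring

end Blk

end Crest.Agent.RI
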