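import Crest.Agent.RI.FLink
import Crest.Agent.RI.SysBasic
import Crest.Agent.RI.HaarON
import Crest.Agent.RI.TowerAPI

/-!
# Row 164, tangent module A: the one-site tower is `siteVal`
-/

set_option autoImplicit false

namespace Crest.Agent.RI

open MeasureTheory ProbabilityTheory
open Crest.ProbabilityR.InvariantGlass

/-- a Haar law on `O(1)` -/
noncomputable def P1 : Measure (ON 1) := Classical.choose (exists_haarO 1)

theorem haarO_P1 : HaarO P1 := Classical.choose_spec (exists_haarO 1)

/-- level law of the one-site tower -/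
noncomputable abbrev m1 : Measure (EN 1) := mN P1 (unifA 1)

/-- parameters of the one-site tower -/
noncomputable def siteθ (v : ℕ → ℝ) (b : ℝ) : Par 1 1 :=
  ⟨fun _ => 0, fun _ => 0, v, fun _ _ => 0, fun σ => b * spin (σ 0)⟩

theorem HN_siteθ (k : ℕ) (v : ℕ → ℝ) (b : ℝ) (ω : Fin (k + 1) → EN 1) :
    HN k (siteθ v b) ω =
      (b + ∑ i : Fin k, v i * (ω i.castSucc).2.1 0) * spin ((ω (Fin.last k)).2.2.2 0) := by
  unfold HN siteθ
  simp only [zero_mul, Finset.sum_const_zero, mul_zero, zero_add, add_zero, Finset.univ_unique,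
    Finset.sum_singleton]
  rw [add_mul, Finset.sum_mul, add_comm]
  congr 1
  exact Finset.sum_congr rfl fun i _ => by
    have : (default : Fin 1) = 0 := rfl
    rw [this]; ring

instance m1_prob : IsProbabilityMeasure m1 := prob_mN haarO_P1 (unifA 1)

instance P1_prob : IsProbabilityMeasure P1 := haarO_P1.prob

/-- the Gaussian coordinate -/
theorem m1_map_g : MeasurePreserving (fun e : EN 1 => e.2.1 0) m1 (gaussianReal 0 1) := by
  have h1 : MeasurePreserving (fun e : EN 1 => e.2) m1
      ((gvec 1).prod ((gvec 1).prod (unifA 1))) := measurePreserving_snd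
  have h2 : MeasurePreserving (fun e : (Fin 1 → ℝ) × (Fin 1 → ℝ) × (Fin 1 → Bool) => e.1)
      ((gvec 1).prod ((gvec 1).prod (unifA 1))) (gvec 1) := measurePreserving_fst
  have h3 : MeasurePreserving (Function.eval (0 : Fin 1)) (gvec 1) (gaussianReal 0 1) := by
    unfold gvec
    exact measurePreserving_eval (fun _ : Fin 1 => gaussianReal 0 1) 0
  exact h3.comp (h2.comp h1)

/-- the spin coordinate -/
theorem m1_integral_spin (F : ℝ → ℝ) :
    ∫ e : EN 1, F (spin (e.2.2.2 0)) ∂m1 = (F 1 + F (-1)) / 2 := by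
  have h1 : MeasurePreserving (fun e : EN 1 => e.2) m1
      ((gvec 1).prod ((gvec 1).prod (unifA 1))) := measurePreserving_snd
  have h2 : MeasurePreserving (fun e : (Fin 1 → ℝ) × (Fin 1 → ℝ) × (Fin 1 → Bool) => e.2)
      ((gvec 1).prod ((gvec 1).prod (unifA 1))) ((gvec 1).prod (unifA 1)) := measurePreserving_snd
  have h2' : MeasurePreserving (fun e : (Fin 1 → ℝ) × (Fin 1 → Bool) => e.2)
      ((gvec 1).prod (unifA 1)) (unifA 1) := measurePreserving_snd
  have hp : IsProbabilityMeasure ((2 : ENNReal)⁻¹ • (Measure.dirac true + Measure.dirac false : Measure Bool)) := by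
    constructor
    simp only [Measure.smul_apply, Measure.add_apply, measure_univ, smul_eq_mul]
    rw [one_add_one_eq_two, ENNReal.inv_mul_cancel two_ne_zero ENNReal.ofNat_ne_top]
  have h3 : MeasurePreserving (Function.eval (0 : Fin 1)) (unifA 1)
      ((2 : ENNReal)⁻¹ • (Measure.dirac true + Measure.dirac false : Measure Bool)) := by
    unfold unifA
    exact measurePreserving_eval (fun _ : Fin 1 =>
      ((2 : ENNReal)⁻¹ • (Measure.dirac true + Measure.dirac false : Measure Bool))) 0
  have h4 := h3.comp (h2'.comp (h2.comp h1))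
  have h5 : ∫ e : EN 1, (fun s : Bool => F (spin s)) (e.2.2.2 0) ∂m1 =
      ∫ s, F (spin s) ∂((2 : ENNReal)⁻¹ • (Measure.dirac true + Measure.dirac false : Measure Bool)) := by
    rw [← h4.map_eq]
    symm
    exact integral_map h4.measurable.aemeasurable (measurable_of_countable _).aestronglyMeasurable
  rw [show (fun e : EN 1 => F (spin (e.2.2.2 0))) = fun e => (fun s : Bool => F (spin s)) (e.2.2.2 0)
    from rfl, h5, integral_smul_measure, integral_add_measure Integrable.of_finite Integrable.of_finite,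
    integral_dirac, integral_dirac]
  simp [spin]
  ring

theorem m1_integral_g {f : ℝ → ℝ} (hf : Measurable f) :
    ∫ e : EN 1, f (e.2.1 0) ∂m1 = ∫ g, f g ∂(gaussianReal 0 1) := by
  rw [← m1_map_g.map_eq]
  symm
  exact integral_map m1_map_g.measurable.aemeasurable hf.aestronglyMeasurable

theorem TT_m1_g {a v x : ℝ} {f : ℝ → ℝ} (hf : Measurable f) :
    TT m1 a (fun e => f (x + v * e.2.1 0)) = gaussOp a (v ^ 2) f x := by
  have key : ∀ {h : ℝ → ℝ}, Measurable h → ∫ e : EN 1, h (x + v * e.2.1 0) ∂m1 =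
      ∫ g, h (x + Real.sqrt (v ^ 2) * g) ∂(gaussianReal 0 1) := by
    intro h hh
    rw [m1_integral_g (f := fun g => h (x + v * g)) (hh.comp (by fun_prop)), Real.sqrt_sq_eq_abs]
    rcases abs_choice v with hv | hv
    · rw [hv]
    · rw [hv, ← gauss_integral_neg (fun g => h (x + v * g))]
      refine integral_congr_ae (Filter.Eventually.of_forall fun g => ?_)
      simp only
      congr 1; ring
  unfold TT gaussOp
  split_ifs with h0
  · exact key hf
  · rw [key (h := fun y => Real.exp (a * f y)) (Real.measurable_exp.comp (hf.const_mul a))]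

theorem recT_SF {ζ τ : ℕ → ℝ} (hζ : ∀ i, 0 ≤ ζ i) {f : ℝ → ℝ} (hf : SF f) (n : ℕ) :
    ∀ i, SF (recT ζ τ n i f) := by
  induction n with
  | zero => intro i; exact hf
  | succ n ih => intro i; exact (ih (i + 1)).gop (hζ i) _

/-- the one-site tower -/
theorem nest_site (ζ v : ℕ → ℝ) (hζ : ∀ i, 0 ≤ ζ i) (n : ℕ) : ∀ (i : ℕ) (x : ℝ), ζ (i + n) = 1 →
    nest m1 ζ (n + 1) i (fun ω => (x + ∑ j : Fin n, v (i + j) * (ω j.castSucc).2.1 0) *
      spin ((ω (Fin.last n)).2.2.2 0)) = recT ζ (fun j => v j ^ 2) n i lch x := by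
  induction n with
  | zero =>
    intro i x h1
    rw [Nat.add_zero] at h1
    show TT m1 (ζ i) _ = lch x
    unfold TT nest
    rw [h1, if_neg one_ne_zero]
    simp only [Finset.univ_eq_empty, Finset.sum_empty, add_zero, one_mul, inv_one]
    have e : (fun e : EN 1 => Real.exp (x * spin (((Fin.cons e Fin.elim0 : Fin 1 → EN 1) (Fin.last 0)).2.2.2 0))) =
        fun e : EN 1 => (fun s => Real.exp (x * s)) (spin (e.2.2.2 0)) := rfl
    rw [e, m1_integral_spin (fun s => Real.exp (x * s))]
    unfold lch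
    rw [Real.cosh_eq]
    simp only [mul_one, mul_neg]
  | succ n ih =>
    intro i x h1
    show TT m1 (ζ i) (fun e => nest m1 ζ (n + 1) (i + 1) _) = gaussOp (ζ i) (v i ^ 2)
      (recT ζ (fun j => v j ^ 2) n (i + 1) lch) x
    have hm : Measurable (recT ζ (fun j => v j ^ 2) n (i + 1) lch) :=
      (recT_SF hζ SF.lch n (i + 1)).cont.measurable
    rw [← TT_m1_g hm]
    congr 1
    funext e
    rw [← ih (i + 1) (x + v i * e.2.1 0) (by rw [← h1]; congr 1; ring)]
    congr 1
    funext ω
    have e1 : (Fin.last (n + 1)) = (Fin.last n).succ := rfl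
    simp only []
    rw [e1, Fin.cons_succ]
    congr 1
    rw [Fin.sum_univ_succ]
    have e2 : (Fin.cons e ω : Fin (n + 2) → EN 1) (Fin.castSucc 0) = e := rfl
    rw [e2, ← add_assoc]
    congr 1
    refine Finset.sum_congr rfl fun j _ => ?_
    have e3 : (j.succ).castSucc = (j.castSucc).succ := rfl
    rw [e3, Fin.cons_succ]
    have e4 : i + ((j.succ : Fin (n + 1)) : ℕ) = i + 1 + (j : ℕ) := by simp; ring
    rw [e4]

theorem siteVal_eq_nest (ζ v : ℕ → ℝ) (hζ : ∀ i, 0 ≤ ζ i) (k : ℕ) (h1 : ζ k = 1) (b : ℝ) :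
    siteVal ζ (fun j => v j ^ 2) k b =
      nest m1 ζ (k + 1) 0 (HN k (siteθ v b)) - (1 / 2) * ∑ i ∈ Finset.range k, v i ^ 2 := by
  unfold siteVal
  rw [← nest_site ζ v hζ k 0 b (by simpa using h1)]
  congr 2
  funext ω
  rw [HN_siteθ]
  simp only [Nat.zero_add]

end Crest.Agent.RI
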