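import Crest.Agent.RI.RowDefs
import Crest.Agent.RI.RBTheta
import Crest.Agent.RI.TanA
import Crest.Agent.RI.CoupMP

/-!
# Row 164, Part 8.5: the exact evaluation of the one-step functional, definitions (helper35)

State `z = (g, G)`, `g = Σ z_l`, `G = Σ d_l z_l`; for a deficit `x`: `X = G - R(x) g`, `m = (g - x X)/V(x)`
(`V = 1 + x (R - d_{l0})`) and the quadratic form `qq = (½ x X² - g X - ½ (R - d_{l0}) g²)/V`.
Along the tower the pair `(m, X)` performs a random walk with INDEPENDENT Gaussian increments.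
-/

set_option autoImplicit false

namespace Crest.Agent.RI

open MeasureTheory ProbabilityTheory
open Crest.ProbabilityR.InvariantGlass

variable {K k : ℕ}

/-- `(m, X)` as a function of `(g, G)` -/
noncomputable def exZ (D : Blk) (l0 : Fin D.K) (x : ℝ) (z : ℝ × ℝ) : ℝ × ℝ :=
  ((z.1 - x * (z.2 - D.R x * z.1)) / D.V l0 x, z.2 - D.R x * z.1)

/-- the quadratic form -/
noncomputable def exqq (D : Blk) (l0 : Fin D.K) (x : ℝ) (z : ℝ × ℝ) : ℝ :=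
  ((1 / 2) * x * (z.2 - D.R x * z.1) ^ 2 - z.1 * (z.2 - D.R x * z.1) -
    (1 / 2) * (D.R x - D.d l0) * z.1 ^ 2) / D.V l0 x

/-- increment of `(g, G)` -/
noncomputable def dz (D : Blk) (r : Fin D.K → ℝ) (η : Fin D.K → ℝ) : ℝ × ℝ :=
  (∑ l, Real.sqrt (r l) * η l, ∑ l, D.d l * (Real.sqrt (r l) * η l))

/-- level space of the new tower: (`η_1`, `η_2`), (`η'`, `ε`) -/
abbrev EX2 : Type := (ℝ × ℝ) × (ℝ × Bool)

noncomputable def mEX2 : Measure EX2 := ((gaussianReal 0 1).prod (gaussianReal 0 1)).prod mX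

noncomputable def βEX2 (x : EX2) : ℝ := (|x.1.1| + |x.1.2|) + βX x.2

/-- `μ_i = λ_{i-1}` (`1 ≤ i ≤ k`), `0` for `i > k` -/
noncomputable def muL (k : ℕ) (p : ℕ → ℝ) (i : ℕ) : ℝ :=
  if i ≤ k then lamC k p (i - 1) else 0

/-- standard deviation of the increment of `m` at level `i` -/
noncomputable def sN (D : Blk) (l0 : Fin D.K) (k : ℕ) (p : ℕ → ℝ) (i : ℕ) : ℝ :=
  Real.sqrt (rC D k p i l0 / D.α l0)

/-- variance of the increment of `X` at level `i`: `τ*_i` for `i < k`, `R(λ_{k-1}) - dbar` for `i = k` -/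
noncomputable def tN2 (D : Blk) (k : ℕ) (p : ℕ → ℝ) (i : ℕ) : ℝ :=
  if i < k then tauC D k p i else if i = k then D.R (lamC k p (k - 1)) - D.dbar else 0

noncomputable def tN (D : Blk) (k : ℕ) (p : ℕ → ℝ) (i : ℕ) : ℝ := Real.sqrt (tN2 D k p i)

/-- magnetic increment -/
noncomputable def vN (i0 : ℕ) (v : ℝ) (i : ℕ) : ℝ := if i = i0 then v else 0

/-- path functional of the old tower: `F (z, x, ε)` at the end of the `n + 1` levels starting with level `i` -/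
noncomputable def pthT (D : Blk) (r : ℕ → Fin D.K → ℝ) (v : ℕ → ℝ) (i : ℕ) {n : ℕ}
    (F : ℝ × ℝ → ℝ → Bool → ℝ) (z : ℝ × ℝ) (x : ℝ) (ω : Fin (n + 1) → ET D.K) : ℝ :=
  F (z + ∑ j : Fin (n + 1), dz D (r (i + j)) (ω j).1)
    (x + ∑ j : Fin (n + 1), v (i + j) * (ω j).2.1) (ω (Fin.last n)).2.2

/-- path functional of the new tower -/
noncomputable def pthN (s t v : ℕ → ℝ) (i : ℕ) {n : ℕ} (F : ℝ × ℝ → ℝ → Bool → ℝ)
    (y : ℝ × ℝ) (x : ℝ) (ω : Fin (n + 1) → EX2) : ℝ :=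
  F (y + ∑ j : Fin (n + 1), (s (i + j) * (ω j).1.1, t (i + j) * (ω j).1.2))
    (x + ∑ j : Fin (n + 1), v (i + j) * (ω j).2.1) (ω (Fin.last n)).2.2

/-- `Δ^∞` as a function of `z = (g, G)` -/
noncomputable def DZ (D : Blk) (l0 : Fin D.K) (z : ℝ × ℝ) (s : Bool) : ℝ :=
  DI (D.d l0) D.dbar z.1 z.2 (spin s)

/-- `Δ^∞` in the new variables `y = (m, X)` -/
noncomputable def DN (D : Blk) (l0 : Fin D.K) (y : ℝ × ℝ) (s : Bool) : ℝ :=
  (1 / 2) * D.dbar + y.2 * spin s - y.1 * y.2 - (1 / 2) * (D.dbar - D.d l0) * y.1 ^ 2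

/-- truncated Hamiltonian -/
noncomputable def HZ (D : Blk) (l0 : Fin D.K) (A : ℝ) (z : ℝ × ℝ) (x : ℝ) (s : Bool) : ℝ :=
  chi A (DZ D l0 z s) + x * spin s

/-- positive part of `χ_A(Δ) - Δ` -/
noncomputable def phiT (D : Blk) (l0 : Fin D.K) (A : ℝ) (z : ℝ × ℝ) (_x : ℝ) (s : Bool) : ℝ :=
  max (chi A (DZ D l0 z s) - DZ D l0 z s) 0

/-- limiting Hamiltonian in the new variables -/
noncomputable def FN (D : Blk) (y : ℝ × ℝ) (x : ℝ) (s : Bool) : ℝ :=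
  (1 / 2) * D.dbar + (y.2 + x) * spin s

/-- positive part of `Δ - χ_A(Δ)` in the new variables -/
noncomputable def phiN (D : Blk) (l0 : Fin D.K) (A : ℝ) (y : ℝ × ℝ) (_x : ℝ) (s : Bool) : ℝ :=
  max (DN D l0 y s - chi A (DN D l0 y s)) 0

/-- joint measurability -/
def JMeas (F : ℝ × ℝ → ℝ → Bool → ℝ) : Prop :=
  Measurable (fun q : (ℝ × ℝ) × (ℝ × Bool) => F q.1 q.2.1 q.2.2)

/-- linear growth -/
def GLin (F : ℝ × ℝ → ℝ → Bool → ℝ) : Prop :=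
  ∃ C : ℝ, 0 ≤ C ∧ ∀ y x s, |F y x s| ≤ C * (1 + (|y.1| + |y.2| + |x|))

/-- exponential growth -/
def GExp (F : ℝ × ℝ → ℝ → Bool → ℝ) : Prop :=
  ∃ C : ℝ, 0 ≤ C ∧ ∀ y x s, |F y x s| ≤ C * Real.exp (C * (|y.1| + |y.2| + |x|))

end Crest.Agent.RI
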