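import Crest.Agent.RI.System

/-!
# Row 164, Part 8.5: Gaussian formulas (helper70): one-dimensional quadratic tilt, two-dimensional laws,
the two-dimensional kernel identity with real parameters
-/

set_option autoImplicit false

namespace Crest.Agent.RI

open MeasureTheory ProbabilityTheory
open scoped ENNReal NNReal

/-! ### one dimension -/

private theorem GQ_pdf {A B u θ : ℝ} {v : ℝ} (hv : 0 < v) (hθ : 0 < θ) (h : θ ^ 2 = 1 + A * v) :
    Real.exp (-(A / 2) * u ^ 2 - B * u) *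
        ((Real.sqrt (2 * Real.pi * v))⁻¹ * Real.exp (-(u - 0) ^ 2 / (2 * v))) =
      Real.exp (B ^ 2 * v / (2 * θ ^ 2)) / θ *
        ((Real.sqrt (2 * Real.pi * (v / θ ^ 2)))⁻¹ *
          Real.exp (-(u - (-(B * v / θ ^ 2))) ^ 2 / (2 * (v / θ ^ 2)))) := by
  have hs : Real.sqrt (2 * Real.pi * (v / θ ^ 2)) = Real.sqrt (2 * Real.pi * v) / θ := by
    rw [← mul_div_assoc, Real.sqrt_div (by positivity), Real.sqrt_sq hθ.le]
  have hs0 : 0 < Real.sqrt (2 * Real.pi * v) := Real.sqrt_pos.2 (by positivity)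
  rw [hs]
  have e1 : Real.exp (-(A / 2) * u ^ 2 - B * u) *
        ((Real.sqrt (2 * Real.pi * v))⁻¹ * Real.exp (-(u - 0) ^ 2 / (2 * v))) =
      (Real.sqrt (2 * Real.pi * v))⁻¹ *
        Real.exp (-(A / 2) * u ^ 2 - B * u + -(u - 0) ^ 2 / (2 * v)) := by
    rw [Real.exp_add]; ring
  have e2 : Real.exp (B ^ 2 * v / (2 * θ ^ 2)) / θ *
        ((Real.sqrt (2 * Real.pi * v) / θ)⁻¹ *
          Real.exp (-(u - (-(B * v / θ ^ 2))) ^ 2 / (2 * (v / θ ^ 2)))) =
      (Real.sqrt (2 * Real.pi * v))⁻¹ * Real.exp (B ^ 2 * v / (2 * θ ^ 2) +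
        -(u - (-(B * v / θ ^ 2))) ^ 2 / (2 * (v / θ ^ 2))) := by
    rw [Real.exp_add]
    field_simp
  rw [e1, e2]
  congr 2
  have hA : A = (θ ^ 2 - 1) / v := by
    field_simp
    linarith
  rw [hA]
  field_simp
  ring

/-- one-dimensional quadratic tilt of a Gaussian law -/
theorem tilt_one {A B c θ : ℝ} (hθ : 0 < θ) (h : θ ^ 2 = 1 + A * c ^ 2) {F : ℝ → ℝ≥0∞}
    (hF : Measurable F) :
    ∫⁻ x, ENNReal.ofReal (Real.exp (-(A / 2) * (c * x) ^ 2 - B * (c * x))) * F (c * x)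
        ∂(gaussianReal 0 1) =
      ENNReal.ofReal (Real.exp ((B * c) ^ 2 / (2 * θ ^ 2)) / θ) *
        ∫⁻ x, F (c / θ * x - B * c ^ 2 / θ ^ 2) ∂(gaussianReal 0 1) := by
  by_cases hc : c = 0
  · subst hc
    have h1 : θ = 1 := by
      have h2 : θ ^ 2 = 1 := by rw [h]; ring
      nlinarith
    subst h1
    simp
  · have hc2 : 0 < c ^ 2 := by positivity
    set v : ℝ≥0 := ⟨c ^ 2, hc2.le⟩ with hv
    have hv0 : v ≠ 0 := by
      intro h0
      have : (v : ℝ) = 0 := by rw [h0]; rfl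
      exact hc2.ne' this
    set v' : ℝ≥0 := ⟨(c / θ) ^ 2, sq_nonneg _⟩ with hv'
    have hv'0 : v' ≠ 0 := by
      intro h0
      have h1 : (v' : ℝ) = 0 := by rw [h0]; rfl
      have h2 : (c / θ) ^ 2 = 0 := h1
      have h3 : c / θ ≠ 0 := div_ne_zero hc hθ.ne'
      exact (pow_ne_zero 2 h3) h2
    have m1 : (gaussianReal 0 1).map (fun x => c * x) = gaussianReal 0 v := by
      rw [gaussianReal_map_const_mul]
      congr 1
      · simp
      · rw [mul_one]
        rfl
    have m2 : (gaussianReal 0 1).map (fun x => c / θ * x - B * c ^ 2 / θ ^ 2) =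
        gaussianReal (-(B * c ^ 2 / θ ^ 2)) v' := by
      have e : (fun x : ℝ => c / θ * x - B * c ^ 2 / θ ^ 2) =
          (fun y => y + -(B * c ^ 2 / θ ^ 2)) ∘ (fun x => c / θ * x) := by
        funext x; simp [sub_eq_add_neg]
      rw [e, ← Measure.map_map (by fun_prop) (by fun_prop), gaussianReal_map_const_mul,
        gaussianReal_map_add_const]
      congr 1
      · simp
      · rw [mul_one]
        rfl
    have l1 : ∫⁻ x, ENNReal.ofReal (Real.exp (-(A / 2) * (c * x) ^ 2 - B * (c * x))) * F (c * x)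
        ∂(gaussianReal 0 1) = ∫⁻ u, ENNReal.ofReal (Real.exp (-(A / 2) * u ^ 2 - B * u)) * F u
          ∂(gaussianReal 0 v) := by
      rw [← m1, lintegral_map (by fun_prop) (by fun_prop)]
    have l2 : ∫⁻ x, F (c / θ * x - B * c ^ 2 / θ ^ 2) ∂(gaussianReal 0 1) =
        ∫⁻ u, F u ∂(gaussianReal (-(B * c ^ 2 / θ ^ 2)) v') := by
      rw [← m2, lintegral_map hF (by fun_prop)]
    rw [l1, l2, gaussianReal_of_var_ne_zero _ hv0, gaussianReal_of_var_ne_zero _ hv'0,
      lintegral_withDensity_eq_lintegral_mul _ (measurable_gaussianPDF _ _) (by fun_prop),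
      lintegral_withDensity_eq_lintegral_mul _ (measurable_gaussianPDF _ _) hF,
      ← lintegral_const_mul _ (by
        exact (measurable_gaussianPDF _ _).mul hF)]
    refine lintegral_congr fun u => ?_
    simp only [Pi.mul_apply]
    unfold gaussianPDF
    rw [← mul_assoc, ← mul_assoc, ← ENNReal.ofReal_mul (gaussianPDFReal_nonneg _ _ _),
      ← ENNReal.ofReal_mul (by positivity)]
    congr 2
    unfold gaussianPDFReal
    have hvr : (v : ℝ) = c ^ 2 := rfl
    have hvr' : (v' : ℝ) = c ^ 2 / θ ^ 2 := by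
      show (c / θ) ^ 2 = _
      rw [div_pow]
    rw [hvr, hvr', mul_comm, GQ_pdf hc2 hθ h]
    congr 3
    ring

/-! ### two dimensions -/

/-- the law of two linear functions of a Gaussian vector -/
theorem law_two {K : ℕ} {a b : Fin K → ℝ} {β σ c : ℝ} (h1 : ∑ l, b l ^ 2 = σ ^ 2)
    (h2 : ∑ l, a l * b l = β * σ ^ 2) (h3 : ∑ l, a l ^ 2 = β ^ 2 * σ ^ 2 + c ^ 2)
    {F : ℝ × ℝ → ℝ≥0∞} (hF : Measurable F) :
    ∫⁻ η, F (∑ l, a l * η l, ∑ l, b l * η l) ∂gvec K =
      ∫⁻ p, F (β * (σ * p.2) + c * p.1, σ * p.2)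
        ∂((gaussianReal 0 1).prod (gaussianReal 0 1)) := by
  have hf1 : Measurable (fun η : Fin K → ℝ => (∑ l, a l * η l, ∑ l, b l * η l)) := by fun_prop
  have hf2 : Measurable (fun p : ℝ × ℝ => (β * (σ * p.2) + c * p.1, σ * p.2)) := by fun_prop
  have key : (gvec K).map (fun η => (∑ l, a l * η l, ∑ l, b l * η l)) =
      ((gaussianReal 0 1).prod (gaussianReal 0 1)).map
        (fun p : ℝ × ℝ => (β * (σ * p.2) + c * p.1, σ * p.2)) := by
    have i1 : IsProbabilityMeasure (gvec K) := by unfold gvec; infer_instance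
    have i2 : IsProbabilityMeasure ((gvec K).map
      (fun η : Fin K → ℝ => (∑ l, a l * η l, ∑ l, b l * η l))) :=
      Measure.isProbabilityMeasure_map hf1.aemeasurable
    have i3 : IsProbabilityMeasure (((gaussianReal 0 1).prod (gaussianReal 0 1)).map
        (fun p : ℝ × ℝ => (β * (σ * p.2) + c * p.1, σ * p.2))) :=
      Measure.isProbabilityMeasure_map hf2.aemeasurable
    apply Measure.ext_of_charFunDual
    funext L
    have hch : ∀ t : ℝ, ∫ x : ℝ, Complex.exp ((t * x : ℝ) * Complex.I) ∂(gaussianReal 0 1) =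
        Complex.exp ((-(t ^ 2 / 2) : ℝ)) := by
      intro t
      have h := charFun_gaussianReal (μ := 0) (v := 1) t
      rw [charFun_apply_real] at h
      push_cast at h ⊢
      rw [h]
      congr 1
      push_cast
      ring
    have hL : ∀ x y : ℝ, L (x, y) = L (1, 0) * x + L (0, 1) * y := by
      intro x y
      have e : ((x, y) : ℝ × ℝ) = x • ((1, 0) : ℝ × ℝ) + y • ((0, 1) : ℝ × ℝ) := by
        simp
      rw [e, map_add, map_smul, map_smul, smul_eq_mul, smul_eq_mul]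
      ring
    set u := L (1, 0)
    set w := L (0, 1)
    rw [charFunDual_apply, charFunDual_apply, integral_map hf1.aemeasurable (by fun_prop),
      integral_map hf2.aemeasurable (by fun_prop)]
    -- left side
    have lhs : ∫ η : Fin K → ℝ, Complex.exp ((L (∑ l, a l * η l, ∑ l, b l * η l) : ℂ) * Complex.I)
        ∂gvec K = Complex.exp ((-(∑ l, (u * a l + w * b l) ^ 2) / 2 : ℝ)) := by
      have e1 : ∀ η : Fin K → ℝ,
          Complex.exp ((L (∑ l, a l * η l, ∑ l, b l * η l) : ℂ) * Complex.I) =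
          ∏ l, Complex.exp ((((u * a l + w * b l) * η l : ℝ) : ℂ) * Complex.I) := by
        intro η
        rw [← Complex.exp_sum, ← Finset.sum_mul, ← Complex.ofReal_sum]
        congr 3
        rw [hL, Finset.mul_sum, Finset.mul_sum, ← Finset.sum_add_distrib]
        exact Finset.sum_congr rfl fun l _ => by ring
      simp only [e1]
      unfold gvec
      rw [integral_fintype_prod_eq_prod (fun (l : Fin K) (x : ℝ) =>
        Complex.exp ((((u * a l + w * b l) * x : ℝ) : ℂ) * Complex.I))]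
      simp only [hch]
      rw [← Complex.exp_sum, ← Complex.ofReal_sum]
      congr 2
      rw [Finset.sum_neg_distrib, neg_div, Finset.sum_div]
    have rhs : ∫ p : ℝ × ℝ, Complex.exp ((L (β * (σ * p.2) + c * p.1, σ * p.2) : ℂ) * Complex.I)
        ∂((gaussianReal 0 1).prod (gaussianReal 0 1)) =
        Complex.exp ((-((u * c) ^ 2 / 2) : ℝ)) *
          Complex.exp ((-((u * β * σ + w * σ) ^ 2 / 2) : ℝ)) := by
      have e1 : ∀ p : ℝ × ℝ, Complex.exp ((L (β * (σ * p.2) + c * p.1, σ * p.2) : ℂ) * Complex.I) =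
          Complex.exp ((((u * c) * p.1 : ℝ) : ℂ) * Complex.I) *
            Complex.exp ((((u * β * σ + w * σ) * p.2 : ℝ) : ℂ) * Complex.I) := by
        intro p
        rw [← Complex.exp_add, ← add_mul, ← Complex.ofReal_add]
        congr 3
        rw [hL]
        ring
      simp only [e1]
      rw [integral_prod_mul (fun x : ℝ => Complex.exp ((((u * c) * x : ℝ) : ℂ) * Complex.I))
        (fun x : ℝ => Complex.exp ((((u * β * σ + w * σ) * x : ℝ) : ℂ) * Complex.I)), hch, hch]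
    rw [lhs, rhs, ← Complex.exp_add, ← Complex.ofReal_add]
    congr 2
    have e2 : ∑ l, (u * a l + w * b l) ^ 2 = u ^ 2 * ∑ l, a l ^ 2 + 2 * u * w * ∑ l, a l * b l +
        w ^ 2 * ∑ l, b l ^ 2 := by
      rw [Finset.mul_sum, Finset.mul_sum, Finset.mul_sum, ← Finset.sum_add_distrib,
        ← Finset.sum_add_distrib]
      exact Finset.sum_congr rfl fun l _ => by ring
    rw [e2, h1, h2, h3]
    ring
  rw [← lintegral_map hF hf1, ← lintegral_map hF hf2, key]

/-! ### the kernel identity with real parameters -/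

/-- `(½ l X² - g X - ½ ρ g²) / (1 + l ρ)` -/
noncomputable def qf (l ρ g X : ℝ) : ℝ := (l / 2 * X ^ 2 - g * X - ρ / 2 * g ^ 2) / (1 + l * ρ)

theorem measurable_qf (l ρ : ℝ) : Measurable (fun p : ℝ × ℝ => qf l ρ p.1 p.2) := by
  unfold qf
  fun_prop

/-- THE KERNEL IDENTITY.  `w = 1 + β w D`, `l ≤ β`; increments `X' = X + σ p₂`, `g' = g + β σ p₂ + c p₁`. -/
theorem transfer_two {l ρ β D w ζ g X σ c : ℝ} (hζ : 0 < ζ) (hw : w = 1 + β * w * D)
    (hw0 : 0 < w) (hv : 0 < 1 + l * ρ) (hρ : 0 < 1 + β * ρ)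
    (hσ : σ ^ 2 = D * w / ζ) (hc : c ^ 2 = (β - l) / ζ) {F : ℝ × ℝ → ℝ≥0∞} (hF : Measurable F) :
    ∫⁻ p, ENNReal.ofReal (Real.exp (ζ * qf l ρ (g + (β * (σ * p.2) + c * p.1)) (X + σ * p.2))) *
        F ((g + (β * (σ * p.2) + c * p.1) - l * (X + σ * p.2)) / (1 + l * ρ), X + σ * p.2)
        ∂((gaussianReal 0 1).prod (gaussianReal 0 1)) =
      ENNReal.ofReal (Real.exp (ζ * qf (β * w) (ρ + D) g (X - D * g)) /
          Real.sqrt (w * (1 + β * ρ) / (1 + l * ρ))) *
        ∫⁻ p, F ((g - β * w * (X - D * g)) / (w * (1 + β * ρ)) +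
            c / (Real.sqrt ((1 + β * ρ) / (1 + l * ρ)) * (1 + l * ρ)) * p.1,
          X - D * g + σ / Real.sqrt w * p.2)
        ∂((gaussianReal 0 1).prod (gaussianReal 0 1)) := by
  set v := 1 + l * ρ with hvdef
  set θ₁ := Real.sqrt ((1 + β * ρ) / v) with hθ₁
  set θ₂ := Real.sqrt w with hθ₂
  have h1 : 0 < θ₁ := Real.sqrt_pos.2 (by positivity)
  have h2 : 0 < θ₂ := Real.sqrt_pos.2 hw0
  have h1s : θ₁ ^ 2 = (1 + β * ρ) / v := Real.sq_sqrt (by positivity)
  have h2s : θ₂ ^ 2 = w := Real.sq_sqrt hw0.le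
  have h1e : θ₁ ^ 2 = 1 + ζ * ρ / v * c ^ 2 := by
    rw [h1s, hc]
    field_simp
    rw [hvdef]
    ring
  have h2e : θ₂ ^ 2 = 1 + ζ * β * σ ^ 2 := by
    rw [h2s, hσ]
    field_simp
    linarith
  -- functions of `u = σ p.2`
  set B : ℝ → ℝ := fun u => ζ / v * (X + u + ρ * (g + β * u)) with hB
  set E : ℝ → ℝ := fun u => ζ * qf l ρ (g + β * u) (X + u) with hE
  have hq : ∀ u x : ℝ, ζ * qf l ρ (g + (β * u + x)) (X + u) =
      E u + (-(ζ * ρ / v / 2) * x ^ 2 - B u * x) := by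
    intro u x
    simp only [hE, hB, qf]
    rw [← hvdef]
    field_simp
    ring
  -- step 1
  have s1 : ∀ u : ℝ, ∫⁻ x, ENNReal.ofReal (Real.exp (ζ * qf l ρ (g + (β * u + c * x)) (X + u))) *
        F ((g + (β * u + c * x) - l * (X + u)) / v, X + u) ∂(gaussianReal 0 1) =
      ENNReal.ofReal (Real.exp (E u)) * (ENNReal.ofReal (Real.exp ((B u * c) ^ 2 / (2 * θ₁ ^ 2)) / θ₁) *
        ∫⁻ x, F ((g + (β * u + (c / θ₁ * x - B u * c ^ 2 / θ₁ ^ 2)) - l * (X + u)) / v, X + u)
          ∂(gaussianReal 0 1)) := by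
    intro u
    have ht := tilt_one (A := ζ * ρ / v) (B := B u) (c := c) (θ := θ₁) h1 h1e
      (F := fun x => F ((g + (β * u + x) - l * (X + u)) / v, X + u)) (by fun_prop)
    rw [← ht, ← lintegral_const_mul _ (by fun_prop)]
    refine lintegral_congr fun x => ?_
    rw [hq, Real.exp_add, ENNReal.ofReal_mul (Real.exp_pos _).le, mul_assoc]
  -- the exponent after step 1
  set E0 : ℝ := ζ / v * (l / 2 * X ^ 2 - g * X - ρ / 2 * g ^ 2 +
    (β - l) * (X + ρ * g) ^ 2 / (2 * (1 + β * ρ))) with hE0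
  have hexp : ∀ u : ℝ, E u + (B u * c) ^ 2 / (2 * θ₁ ^ 2) =
      E0 + (-(ζ * β / 2) * u ^ 2 - ζ * g * u) := by
    intro u
    rw [mul_pow, hc, h1s]
    simp only [hE, hB, hE0, qf]
    rw [← hvdef]
    field_simp
    rw [hvdef]
    ring
  -- step 2
  set Ft : ℝ → ℝ≥0∞ := fun u =>
    ∫⁻ x, F ((g + (β * u + (c / θ₁ * x - B u * c ^ 2 / θ₁ ^ 2)) - l * (X + u)) / v, X + u)
          ∂(gaussianReal 0 1) with hFt
  have hFtm : Measurable Ft := by
    rw [hFt]
    apply Measurable.lintegral_prod_right'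
      (f := fun q : ℝ × ℝ => F ((g + (β * q.1 + (c / θ₁ * q.2 - B q.1 * c ^ 2 / θ₁ ^ 2)) -
        l * (X + q.1)) / v, X + q.1))
    have hBm : Measurable B := by rw [hB]; fun_prop
    fun_prop
  have s2 := tilt_one (A := ζ * β) (B := ζ * g) (c := σ) (θ := θ₂) h2 h2e hFtm
  have hFm : Measurable (fun p : ℝ × ℝ => ENNReal.ofReal (Real.exp (ζ * qf l ρ
      (g + (β * (σ * p.2) + c * p.1)) (X + σ * p.2))) *
        F ((g + (β * (σ * p.2) + c * p.1) - l * (X + σ * p.2)) / v, X + σ * p.2)) := by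
    unfold qf
    fun_prop
  rw [lintegral_prod_symm _ hFm.aemeasurable]
  have s3 : ∫⁻ y, ∫⁻ x, ENNReal.ofReal (Real.exp (ζ * qf l ρ (g + (β * (σ * y) + c * x))
        (X + σ * y))) * F ((g + (β * (σ * y) + c * x) - l * (X + σ * y)) / v, X + σ * y)
        ∂(gaussianReal 0 1) ∂(gaussianReal 0 1) =
      ENNReal.ofReal (Real.exp E0 / θ₁) * ∫⁻ y, ENNReal.ofReal (Real.exp (-(ζ * β / 2) *
        (σ * y) ^ 2 - ζ * g * (σ * y))) * Ft (σ * y) ∂(gaussianReal 0 1) := by
    rw [← lintegral_const_mul _ (by fun_prop)]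
    refine lintegral_congr fun y => ?_
    rw [s1 (σ * y)]
    have e5 : ∀ I : ℝ≥0∞, ENNReal.ofReal (Real.exp (E (σ * y))) *
        (ENNReal.ofReal (Real.exp ((B (σ * y) * c) ^ 2 / (2 * θ₁ ^ 2)) / θ₁) * I) =
        ENNReal.ofReal (Real.exp E0 / θ₁) * (ENNReal.ofReal (Real.exp (-(ζ * β / 2) *
          (σ * y) ^ 2 - ζ * g * (σ * y))) * I) := by
      intro I
      rw [← mul_assoc, ← mul_assoc, ← ENNReal.ofReal_mul (Real.exp_pos _).le,
        ← ENNReal.ofReal_mul (by positivity)]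
      congr 2
      rw [← mul_div_assoc, ← Real.exp_add, hexp, Real.exp_add]
      ring
    exact e5 _
  simp only
  rw [s3, s2, ← mul_assoc, ← ENNReal.ofReal_mul (by positivity)]
  -- right side
  have hFm2 : Measurable (fun p : ℝ × ℝ => F ((g - β * w * (X - D * g)) / (w * (1 + β * ρ)) +
            c / (θ₁ * v) * p.1, X - D * g + σ / θ₂ * p.2)) := by fun_prop
  rw [lintegral_prod_symm _ hFm2.aemeasurable]
  have hsw : θ₂ ^ 2 = w := h2s
  congr 1
  · congr 1
    have e1 : Real.sqrt (w * (1 + β * ρ) / v) = θ₂ * θ₁ := by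
      rw [mul_div_assoc, Real.sqrt_mul hw0.le]
    rw [e1, div_mul_div_comm, ← Real.exp_add, mul_comm θ₁ θ₂]
    congr 2
    rw [mul_pow, hσ, h2s]
    simp only [hE0, qf]
    have e2 : 1 + β * w * (ρ + D) = w * (1 + β * ρ) := by linear_combination -hw
    rw [e2]
    have hκ : (1 - β * D) * w = 1 := by linear_combination hw
    have hκ0 : 1 - β * D ≠ 0 := by
      intro h0
      rw [h0, zero_mul] at hκ
      exact zero_ne_one hκ
    have hwe : w = 1 / (1 - β * D) := by
      rw [eq_div_iff hκ0, mul_comm]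
      exact hκ
    rw [hwe]
    have hvne : v ≠ 0 := hv.ne'
    have hρ' : 1 + ρ * β ≠ 0 := by rw [mul_comm ρ β]; exact hρ.ne'
    have hκ' : 1 - D * β ≠ 0 := by rw [mul_comm D β]; exact hκ0
    field_simp
    rw [hvdef]
    ring
  · refine lintegral_congr fun y => ?_
    simp only [hFt]
    refine lintegral_congr fun x => ?_
    have e3 : ζ * g * σ ^ 2 / θ₂ ^ 2 = D * g := by
      rw [hσ, h2s]
      field_simp
    rw [e3]
    have e4 : X + (σ / θ₂ * y - D * g) = X - D * g + σ / θ₂ * y := by ring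
    rw [e4]
    congr 2
    simp only [hB]
    generalize σ / θ₂ * y = T
    have e6 : ζ / v * (X + (T - D * g) + ρ * (g + β * (T - D * g))) * c ^ 2 / θ₁ ^ 2 =
        (β - l) * (X + (T - D * g) + ρ * (g + β * (T - D * g))) / (1 + β * ρ) := by
      rw [hc, h1s]
      field_simp
    rw [e6]
    have hκ : (1 - β * D) * w = 1 := by linear_combination hw
    have hκ0 : 1 - β * D ≠ 0 := by
      intro h0
      rw [h0, zero_mul] at hκ
      exact zero_ne_one hκ
    have hwe : w = 1 / (1 - β * D) := by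
      rw [eq_div_iff hκ0, mul_comm]
      exact hκ
    rw [hwe]
    have hvne : v ≠ 0 := hv.ne'
    have hρ' : 1 + ρ * β ≠ 0 := by rw [mul_comm ρ β]; exact hρ.ne'
    have hκ' : 1 - D * β ≠ 0 := by rw [mul_comm D β]; exact hκ0
    field_simp
    rw [hvdef]
    ring

end Crest.Agent.RI
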