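import Crest.Agent.RI.ExDefs
import Crest.Agent.RI.ExGQ

/-!
# Row 164, Part 8.5: the kernel identity of one level (helper70)
-/

set_option autoImplicit false

namespace Crest.Agent.RI

open MeasureTheory ProbabilityTheory
open scoped ENNReal

variable (D : Blk)

/-! ### spectral sums -/

theorem Blk.sum_V_d {x : ℝ} (hx : 0 ≤ x) : ∑ l, D.α l * D.d l / D.V l x = D.R x := by
  rcases hx.eq_or_lt with h | h
  · rw [← h, D.R_zero]
    exact Finset.sum_congr rfl fun l _ => by rw [D.V_zero, div_one]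
  · have h1 : x * ∑ l, D.α l * D.d l / D.V l x = x * D.R x := by
      rw [Finset.mul_sum]
      have h2 : ∀ l, x * (D.α l * D.d l / D.V l x) = (1 + x * D.R x) * (D.α l / D.V l x) - D.α l := by
        intro l
        have h3 := (D.V_pos hx l).ne'
        have h4 : D.V l x = 1 + x * D.R x - x * D.d l := rfl
        field_simp
        rw [h4]
        ring
      rw [Finset.sum_congr rfl fun l _ => h2 l, Finset.sum_sub_distrib, ← Finset.mul_sum,
        D.sum_V hx, D.sum]
      ring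
    exact mul_left_cancel₀ h.ne' h1

theorem Blk.sum_d2_f {x : ℝ} (hx : 0 ≤ x) :
    ∑ l, D.d l ^ 2 * D.f l x = x * D.R x ^ 2 + D.R x - D.dbar := by
  have h2 : ∀ l, D.d l ^ 2 * D.f l x =
      (1 + x * D.R x) * (D.α l * D.d l / D.V l x) - D.α l * D.d l := by
    intro l
    rw [D.f_eq hx]
    have h3 := (D.V_pos hx l).ne'
    have h4 : D.V l x = 1 + x * D.R x - x * D.d l := rfl
    field_simp
    rw [h4]
    ring
  rw [Finset.sum_congr rfl fun l _ => h2 l, Finset.sum_sub_distrib, ← Finset.mul_sum, D.sum_V_d hx]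
  unfold Blk.dbar
  ring

theorem Blk.R_mono {x y : ℝ} (hx : 0 ≤ x) (hxy : x ≤ y) (hy : y ≤ 1) : D.R x ≤ D.R y := by
  rw [← D.integral_Θ hx (hxy.trans hy), ← D.integral_Θ (hx.trans hxy) hy]
  have hi : ∀ z, 0 ≤ z → IntervalIntegrable (fun t => D.Θ (t * z)) volume 0 1 := by
    intro z hz
    refine ContinuousOn.intervalIntegrable ?_
    rw [Set.uIcc_of_le zero_le_one]
    refine D.Θ_continuousOn.comp (by fun_prop) fun t ht => ?_
    exact mul_nonneg ht.1 hz
  refine intervalIntegral.integral_mono_on zero_le_one (hi x hx) (hi y (hx.trans hxy)) fun t ht => ?_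
  exact D.Θ_mono_Ici (mul_nonneg ht.1 hx) (mul_nonneg ht.1 (hx.trans hxy))
    (mul_le_mul_of_nonneg_left hxy ht.1)

/-- `x' (1 + x (R(x) - R(x'))) ≤ x` -/
theorem Blk.cross' {x' x : ℝ} (hx' : 0 ≤ x') (h : x' ≤ x) :
    x' * (1 + x * (D.R x - D.R x')) ≤ x := by
  obtain ⟨l⟩ := D.nonempty
  have h1 := D.cross hx' h l
  unfold Blk.V at h1
  nlinarith

theorem Blk.f'_sum_sq {x : ℝ} (hx : 0 ≤ x) :
    ∑ l, D.f' l x * (D.d l - D.R x) ^ 2 = D.R' x := by
  have h1 : ∀ l, D.f' l x * (D.d l - D.R x) ^ 2 =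
      (D.α l * (D.d l - D.R x) ^ 2 / D.V l x ^ 2) / D.W x := by
    intro l
    rw [D.f'_eq hx]
    ring
  rw [Finset.sum_congr rfl fun l _ => h1 l, ← Finset.sum_div]
  have hW := D.W_ge_one hx
  unfold Blk.R'
  rcases hx.eq_or_lt with h | h
  · rw [← h, if_neg (lt_irrefl _)]
    have hW0 : D.W 0 = 1 := by
      unfold Blk.W
      simp only [D.V_zero, one_pow, div_one]
      exact D.sum
    rw [hW0, div_one]
    simp only [D.V_zero, one_pow, div_one, D.R_zero]
    have e : ∀ l, D.α l * (D.d l - ∑ l, D.α l * D.d l) ^ 2 = D.α l * D.d l ^ 2 -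
        2 * D.dbar * (D.α l * D.d l) + D.dbar ^ 2 * D.α l := by
      intro l
      unfold Blk.dbar
      ring
    rw [Finset.sum_congr rfl fun l _ => e l, Finset.sum_add_distrib, Finset.sum_sub_distrib,
      ← Finset.mul_sum, ← Finset.mul_sum, D.sum]
    have : ∑ l, D.α l * D.d l = D.dbar := rfl
    rw [this]
    ring
  · rw [if_pos h]
    have hg : D.g2 x = x ^ 2 * D.W x := by
      unfold Blk.g2 Blk.W
      rw [Finset.mul_sum]
      refine Finset.sum_congr rfl fun m _ => ?_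
      have h2 : D.b x - D.d m ≠ 0 := by
        have := (D.b_spec h).1
        have := D.le_top m
        have : 0 < D.b x - D.d m := by linarith
        exact this.ne'
      rw [D.V_eq h]
      field_simp
    rw [hg]
    have e : x ^ 2 * ∑ l, D.α l * (D.d l - D.R x) ^ 2 / D.V l x ^ 2 = D.W x - 1 := by
      rw [Finset.mul_sum]
      have e1 : ∀ l, x ^ 2 * (D.α l * (D.d l - D.R x) ^ 2 / D.V l x ^ 2) =
          D.α l / D.V l x ^ 2 - 2 * (D.α l / D.V l x) + D.α l := by
        intro l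
        have h3 := (D.V_pos hx l).ne'
        have h4 : x * (D.d l - D.R x) = 1 - D.V l x := by unfold Blk.V; ring
        have h5 : x ^ 2 * (D.α l * (D.d l - D.R x) ^ 2 / D.V l x ^ 2) =
            D.α l * (x * (D.d l - D.R x)) ^ 2 / D.V l x ^ 2 := by ring
        rw [h5, h4]
        field_simp
        ring
      rw [Finset.sum_congr rfl fun l _ => e1 l, Finset.sum_add_distrib, Finset.sum_sub_distrib,
        ← Finset.mul_sum, D.sum_V hx, D.sum]
      unfold Blk.W
      ring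
    have e2 : ∑ l, D.α l * (D.d l - D.R x) ^ 2 / D.V l x ^ 2 = (D.W x - 1) / x ^ 2 := by
      rw [← e]
      field_simp
    rw [e2]
    have hW0 : D.W x ≠ 0 := by linarith
    field_simp

theorem Blk.R'_nonneg {x : ℝ} (hx : 0 ≤ x) : 0 ≤ D.R' x := by
  rw [← D.f'_sum_sq hx]
  exact Finset.sum_nonneg fun l _ => mul_nonneg (D.f'_nonneg hx l) (sq_nonneg _)

/-- `ψ'_l = R'-form`: `ψ_l' = x R' + (R - d_l)/(W V_l)` -/
theorem Blk.ψ'_eq {x : ℝ} (hx : 0 ≤ x) (l : Fin D.K) :
    D.ψ' l x = x * D.R' x + (D.R x - D.d l) / (D.W x * D.V l x) := by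
  have hW := D.W_ge_one hx
  have hW0 : D.W x ≠ 0 := by linarith
  have hV := (D.V_pos hx l).ne'
  unfold Blk.ψ' Blk.R'
  rcases hx.eq_or_lt with h | h
  · rw [← h, if_neg (lt_irrefl _), zero_mul, zero_add, D.V_zero, D.R_zero]
    have hW0 : D.W 0 = 1 := by
      unfold Blk.W
      simp only [D.V_zero, one_pow, div_one]
      exact D.sum
    rw [hW0]
    unfold Blk.dbar
    ring
  · rw [if_pos h, if_pos h]
    have hg : D.g2 x = x ^ 2 * D.W x := by
      unfold Blk.g2 Blk.W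
      rw [Finset.mul_sum]
      refine Finset.sum_congr rfl fun m _ => ?_
      have h2 : D.b x - D.d m ≠ 0 := by
        have := (D.b_spec h).1
        have := D.le_top m
        have : 0 < D.b x - D.d m := by linarith
        exact this.ne'
      rw [D.V_eq h]
      field_simp
    have hb : D.b x - D.d l = D.V l x / x := by
      rw [D.V_eq h]
      field_simp
    rw [hg, hb]
    have hR : D.R x - D.d l = (D.V l x - 1) / x := by
      unfold Blk.V
      field_simp
      ring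
    rw [hR]
    field_simp
    ring

/-! ### the kernel identity -/

private theorem ExKer_sqrt_mul {r : Fin D.K → ℝ} (hr : ∀ l, 0 ≤ r l) (u v : Fin D.K → ℝ) :
    ∑ l, (Real.sqrt (r l) * u l) * (Real.sqrt (r l) * v l) = ∑ l, r l * (u l * v l) := by
  refine Finset.sum_congr rfl fun l _ => ?_
  have := Real.mul_self_sqrt (hr l)
  calc (Real.sqrt (r l) * u l) * (Real.sqrt (r l) * v l) =
      (Real.sqrt (r l) * Real.sqrt (r l)) * (u l * v l) := by ring
    _ = _ := by rw [this]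

/-- THE KERNEL IDENTITY of one level -/
theorem ker_level (l0 : Fin D.K) {x x' ζ : ℝ} (hx' : 0 ≤ x') (hxx : x' ≤ x) (hx1 : x ≤ 1)
    (hζ : 0 < ζ) (r : Fin D.K → ℝ) (hr : ∀ l, r l = (D.f l x - D.f l x') / ζ) (z : ℝ × ℝ)
    {F : ℝ × ℝ → ENNReal} (hF : Measurable F) :
    ∫⁻ η, ENNReal.ofReal (Real.exp (ζ * exqq D l0 x' (z + dz D r η))) *
        F (exZ D l0 x' (z + dz D r η)) ∂gvec D.K =
      ENNReal.ofReal (Real.exp (ζ * exqq D l0 x z -
          (1 / 2) * (Real.log (D.V l0 x) - Real.log (D.V l0 x')))) *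
        ∫⁻ h, F (exZ D l0 x z + (Real.sqrt (r l0 / D.α l0) * h.1,
          Real.sqrt ((D.R x - D.R x') / ζ) * h.2))
          ∂((gaussianReal 0 1).prod (gaussianReal 0 1)) := by
  obtain ⟨g, G⟩ := z
  have hx : 0 ≤ x := hx'.trans hxx
  set Rx := D.R x with hRx
  set Rx' := D.R x' with hRx'
  set Dl := Rx - Rx' with hDl
  have hDl0 : 0 ≤ Dl := sub_nonneg.2 (D.R_mono hx' hxx hx1)
  set w := 1 + x * Dl with hw
  have hw1 : 1 ≤ w := by
    have := mul_nonneg hx hDl0
    linarith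
  have hw0 : 0 < w := by linarith
  set β := x / w with hβ
  have hβw : β * w = x := by rw [hβ]; field_simp
  set ρ := Rx' - D.d l0 with hρ
  have hv : 1 + x' * ρ = D.V l0 x' := by unfold Blk.V; rw [hρ]; ring
  have hv0 := D.V_pos hx' l0
  have hV0 := D.V_pos hx l0
  have hV : w * (1 + β * ρ) = D.V l0 x := by
    have : w * (1 + β * ρ) = w + β * w * ρ := by ring
    rw [this, hβw, hw]
    unfold Blk.V
    rw [hρ, hDl]
    ring
  have hρ0 : 0 < 1 + β * ρ := by
    rw [← hV] at hV0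
    exact (mul_pos_iff_of_pos_left hw0).mp hV0
  have hβx : 0 ≤ β - x' := by
    rw [hβ, sub_nonneg, le_div_iff₀ hw0]
    exact D.cross' hx' hxx
  -- the increments `r`
  have hfm : ∀ l, D.f l x' ≤ D.f l x := by
    intro l
    rw [D.f_eq hx', D.f_eq hx, div_le_div_iff₀ (D.V_pos hx' l) (D.V_pos hx l)]
    have := D.cross hx' hxx l
    have := D.pos l
    nlinarith
  have hr0 : ∀ l, 0 ≤ r l := fun l => by
    rw [hr]
    exact div_nonneg (sub_nonneg.2 (hfm l)) hζ.le
  set σ := Real.sqrt (Dl * w / ζ) with hσ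
  have hσ2 : σ ^ 2 = Dl * w / ζ := Real.sq_sqrt (by positivity)
  set c := Real.sqrt ((β - x') / ζ) with hc
  have hc2 : c ^ 2 = (β - x') / ζ := Real.sq_sqrt (by positivity)
  -- moments
  have m0 : ∑ l, r l = (x - x') / ζ := by
    simp only [hr]
    rw [← Finset.sum_div, Finset.sum_sub_distrib, D.sum_f hx, D.sum_f hx']
  have m1 : ∑ l, D.d l * r l = (x * Rx - x' * Rx') / ζ := by
    simp only [hr]
    have e : ∀ l, D.d l * ((D.f l x - D.f l x') / ζ) =
        (D.d l * D.f l x - D.d l * D.f l x') / ζ := fun l => by ring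
    rw [Finset.sum_congr rfl fun l _ => e l, ← Finset.sum_div, Finset.sum_sub_distrib,
      D.sum_d_f hx, D.sum_d_f hx']
  have m2 : ∑ l, D.d l ^ 2 * r l = (x * Rx ^ 2 + Rx - (x' * Rx' ^ 2 + Rx')) / ζ := by
    simp only [hr]
    have e : ∀ l, D.d l ^ 2 * ((D.f l x - D.f l x') / ζ) =
        (D.d l ^ 2 * D.f l x - D.d l ^ 2 * D.f l x') / ζ := fun l => by ring
    rw [Finset.sum_congr rfl fun l _ => e l, ← Finset.sum_div, Finset.sum_sub_distrib,
      D.sum_d2_f hx, D.sum_d2_f hx']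
    congr 1
    ring
  have k1 : ∑ l, (Real.sqrt (r l) * (D.d l - Rx')) ^ 2 = σ ^ 2 := by
    have e : ∀ l, (Real.sqrt (r l) * (D.d l - Rx')) ^ 2 =
        D.d l ^ 2 * r l - 2 * Rx' * (D.d l * r l) + Rx' ^ 2 * r l := by
      intro l
      rw [mul_pow, Real.sq_sqrt (hr0 l)]
      ring
    rw [Finset.sum_congr rfl fun l _ => e l, Finset.sum_add_distrib, Finset.sum_sub_distrib,
      ← Finset.mul_sum, ← Finset.mul_sum, m0, m1, m2, hσ2, hw, hDl]
    field_simp
    ring
  have k2 : ∑ l, Real.sqrt (r l) * (Real.sqrt (r l) * (D.d l - Rx')) = β * σ ^ 2 := by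
    have e : ∀ l, Real.sqrt (r l) * (Real.sqrt (r l) * (D.d l - Rx')) =
        D.d l * r l - Rx' * r l := by
      intro l
      rw [← mul_assoc, Real.mul_self_sqrt (hr0 l)]
      ring
    rw [Finset.sum_congr rfl fun l _ => e l, Finset.sum_sub_distrib, ← Finset.mul_sum, m0, m1, hσ2]
    have : β * (Dl * w / ζ) = β * w * Dl / ζ := by ring
    rw [this, hβw, hDl]
    ring
  have k3 : ∑ l, Real.sqrt (r l) ^ 2 = β ^ 2 * σ ^ 2 + c ^ 2 := by
    have e : ∀ l, Real.sqrt (r l) ^ 2 = r l := fun l => Real.sq_sqrt (hr0 l)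
    rw [Finset.sum_congr rfl fun l _ => e l, m0, hσ2, hc2]
    have e1 : β ^ 2 * (Dl * w / ζ) = β * (β * w) * Dl / ζ := by ring
    rw [e1, hβw]
    have e2 : β * x * Dl + β = x := by
      have : β * x * Dl + β = β * w := by rw [hw]; ring
      rw [this, hβw]
    field_simp
    linarith
  set X := G - Rx' * g with hX
  have hXD : X - Dl * g = G - Rx * g := by rw [hX, hDl]; ring
  -- rewrite the left side through `law_two`
  have hlaw := law_two (a := fun l => Real.sqrt (r l))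
    (b := fun l => Real.sqrt (r l) * (D.d l - Rx')) k1 k2 k3
    (F := fun u : ℝ × ℝ => ENNReal.ofReal (Real.exp (ζ * qf x' ρ (g + u.1) (X + u.2))) *
      F ((g + u.1 - x' * (X + u.2)) / (1 + x' * ρ), X + u.2)) (by
        unfold qf
        fun_prop)
  have hzη : ∀ η : Fin D.K → ℝ, ((g, G) : ℝ × ℝ) + dz D r η =
      (g + ∑ l, Real.sqrt (r l) * η l, G + ∑ l, D.d l * (Real.sqrt (r l) * η l)) := fun η => rfl
  have hXη : ∀ η : Fin D.K → ℝ, G + ∑ l, D.d l * (Real.sqrt (r l) * η l) -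
      Rx' * (g + ∑ l, Real.sqrt (r l) * η l) =
      X + ∑ l, Real.sqrt (r l) * (D.d l - Rx') * η l := by
    intro η
    have : ∑ l, Real.sqrt (r l) * (D.d l - Rx') * η l =
        ∑ l, D.d l * (Real.sqrt (r l) * η l) - Rx' * ∑ l, Real.sqrt (r l) * η l := by
      rw [Finset.mul_sum, ← Finset.sum_sub_distrib]
      exact Finset.sum_congr rfl fun l _ => by ring
    rw [this, hX]
    ring
  have hL : ∫⁻ η, ENNReal.ofReal (Real.exp (ζ * exqq D l0 x' ((g, G) + dz D r η))) *
        F (exZ D l0 x' ((g, G) + dz D r η)) ∂gvec D.K =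
      ∫⁻ η, (fun u : ℝ × ℝ => ENNReal.ofReal (Real.exp (ζ * qf x' ρ (g + u.1) (X + u.2))) *
        F ((g + u.1 - x' * (X + u.2)) / (1 + x' * ρ), X + u.2))
        (∑ l, Real.sqrt (r l) * η l, ∑ l, Real.sqrt (r l) * (D.d l - Rx') * η l) ∂gvec D.K := by
    refine lintegral_congr fun η => ?_
    rw [hzη]
    unfold exqq exZ qf
    simp only
    rw [hXη, hv]
    congr 3
    rw [hρ]
    ring
  rw [hL, hlaw]
  have htr := transfer_two (l := x') (ρ := ρ) (β := β) (D := Dl) (w := w) (ζ := ζ) (g := g)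
    (X := X) (σ := σ) (c := c) hζ (by rw [hβw]) hw0 (by rw [hv]; exact hv0) hρ0 hσ2 hc2 hF
  simp only
  rw [htr]
  -- identify the right side
  have hsq : Real.sqrt (w * (1 + β * ρ) / (1 + x' * ρ)) =
      Real.exp ((1 / 2) * (Real.log (D.V l0 x) - Real.log (D.V l0 x'))) := by
    rw [hV, hv, ← Real.log_div hV0.ne' hv0.ne', Real.sqrt_eq_rpow,
      Real.rpow_def_of_pos (by positivity)]
    congr 1
    ring
  have hs : c / (Real.sqrt ((1 + β * ρ) / (1 + x' * ρ)) * (1 + x' * ρ)) =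
      Real.sqrt (r l0 / D.α l0) := by
    have h1 : 0 < Real.sqrt ((1 + β * ρ) / (1 + x' * ρ)) * (1 + x' * ρ) := by
      rw [hv]
      have : 0 < Real.sqrt ((1 + β * ρ) / D.V l0 x') := Real.sqrt_pos.2 (by positivity)
      positivity
    have h2 : 0 ≤ c / (Real.sqrt ((1 + β * ρ) / (1 + x' * ρ)) * (1 + x' * ρ)) :=
      div_nonneg (Real.sqrt_nonneg _) h1.le
    rw [← Real.sqrt_sq h2]
    congr 1
    rw [div_pow, mul_pow, hc2, Real.sq_sqrt (by rw [hv]; positivity), hr, D.f_eq hx, D.f_eq hx',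
      ← hV, ← hv]
    have hα := (D.pos l0).ne'
    have hvn : 1 + x' * ρ ≠ 0 := by rw [hv]; exact hv0.ne'
    have hρn : 1 + β * ρ ≠ 0 := hρ0.ne'
    have hxe : x = β * w := hβw.symm
    have e1 : D.α l0 * x / (w * (1 + β * ρ)) = D.α l0 * (β / (1 + β * ρ)) := by
      rw [hxe]
      field_simp
    rw [e1]
    field_simp
    ring
  have ht : σ / Real.sqrt w = Real.sqrt (Dl / ζ) := by
    rw [hσ, ← Real.sqrt_div (by positivity)]
    congr 1
    field_simp
  rw [hsq, ← Real.exp_sub, hs, ht, hV, hβw, hXD]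
  congr 1
  congr 3
  unfold qf exqq
  simp only
  have e3 : 1 + x * (ρ + Dl) = D.V l0 x := by
    unfold Blk.V
    rw [hρ, hDl]
    ring
  rw [e3, hρ, hDl]
  congr 1
  ring

/-! ### level `0` -/

/-- law of `(m, X)` at level `0` -/
theorem ker_zero (l0 : Fin D.K) {x c : ℝ} (hx : 0 ≤ x) (_hx1 : x ≤ 1) (hc : 0 ≤ c)
    (r : Fin D.K → ℝ) (hr : ∀ l, r l = c * D.f' l x) :
    (gvec D.K).map (fun η => exZ D l0 x (dz D r η)) =
      ((gaussianReal 0 1).prod (gaussianReal 0 1)).map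
        (fun h : ℝ × ℝ => (Real.sqrt (r l0 / D.α l0) * h.1, Real.sqrt (c * D.R' x) * h.2)) := by
  have hr0 : ∀ l, 0 ≤ r l := fun l => by
    rw [hr]
    exact mul_nonneg hc (D.f'_nonneg hx l)
  have hW := D.W_ge_one hx
  have hW0 : D.W x ≠ 0 := by linarith
  have hV0 := (D.V_pos hx l0).ne'
  have hα0 := D.pos l0
  set s := Real.sqrt (r l0 / D.α l0) with hs
  have hs2 : s ^ 2 = r l0 / D.α l0 := Real.sq_sqrt (div_nonneg (hr0 l0) hα0.le)
  set t := Real.sqrt (c * D.R' x) with ht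
  have ht2 : t ^ 2 = c * D.R' x := Real.sq_sqrt (mul_nonneg hc (D.R'_nonneg hx))
  -- the two linear functions
  set a : Fin D.K → ℝ := fun l => Real.sqrt (r l) * (D.V l x / D.V l0 x) with ha
  set b : Fin D.K → ℝ := fun l => Real.sqrt (r l) * (D.d l - D.R x) with hb
  have hZ : ∀ η : Fin D.K → ℝ, exZ D l0 x (dz D r η) = (∑ l, a l * η l, ∑ l, b l * η l) := by
    intro η
    unfold exZ dz
    simp only
    have e1 : ∑ l, D.d l * (Real.sqrt (r l) * η l) - D.R x * ∑ l, Real.sqrt (r l) * η l =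
        ∑ l, b l * η l := by
      rw [Finset.mul_sum, ← Finset.sum_sub_distrib]
      exact Finset.sum_congr rfl fun l _ => by rw [hb]; ring
    rw [e1]
    congr 1
    rw [Finset.mul_sum, ← Finset.sum_sub_distrib, Finset.sum_div]
    refine Finset.sum_congr rfl fun l _ => ?_
    simp only [ha, hb]
    unfold Blk.V at hV0 ⊢
    field_simp
    ring
  have k1 : ∑ l, b l ^ 2 = t ^ 2 := by
    have e : ∀ l, b l ^ 2 = c * (D.f' l x * (D.d l - D.R x) ^ 2) := by
      intro l
      simp only [hb]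
      rw [mul_pow, Real.sq_sqrt (hr0 l), hr]
      ring
    rw [Finset.sum_congr rfl fun l _ => e l, ← Finset.mul_sum, D.f'_sum_sq hx, ht2]
  have k2 : ∑ l, a l * b l = 0 * t ^ 2 := by
    have e : ∀ l, a l * b l = c / (D.W x * D.V l0 x) *
        (D.α l * D.d l / D.V l x - D.R x * (D.α l / D.V l x)) := by
      intro l
      simp only [ha, hb]
      have h1 := Real.mul_self_sqrt (hr0 l)
      have h2 : Real.sqrt (r l) * (D.V l x / D.V l0 x) * (Real.sqrt (r l) * (D.d l - D.R x)) =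
          (Real.sqrt (r l) * Real.sqrt (r l)) * (D.V l x / D.V l0 x) * (D.d l - D.R x) := by ring
      rw [h2, h1, hr, D.f'_eq hx]
      have h3 := (D.V_pos hx l).ne'
      field_simp
    rw [Finset.sum_congr rfl fun l _ => e l, ← Finset.mul_sum, Finset.sum_sub_distrib,
      ← Finset.mul_sum, D.sum_V_d hx, D.sum_V hx]
    ring
  have k3 : ∑ l, a l ^ 2 = 0 ^ 2 * t ^ 2 + s ^ 2 := by
    have e : ∀ l, a l ^ 2 = c / (D.W x * D.V l0 x ^ 2) * D.α l := by
      intro l
      simp only [ha]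
      rw [mul_pow, Real.sq_sqrt (hr0 l), hr, D.f'_eq hx]
      have h3 := (D.V_pos hx l).ne'
      field_simp
    rw [Finset.sum_congr rfl fun l _ => e l, ← Finset.mul_sum, D.sum, hs2, hr, D.f'_eq hx]
    field_simp
    ring
  have hm1 : Measurable (fun η : Fin D.K → ℝ => exZ D l0 x (dz D r η)) := by
    have : (fun η : Fin D.K → ℝ => exZ D l0 x (dz D r η)) =
        fun η => (∑ l, a l * η l, ∑ l, b l * η l) := funext hZ
    rw [this]
    fun_prop
  have hm2 : Measurable (fun h : ℝ × ℝ => (s * h.1, t * h.2)) := by fun_prop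
  refine Measure.ext fun A hA => ?_
  rw [Measure.map_apply hm1 hA, Measure.map_apply hm2 hA]
  have hF : Measurable (A.indicator (fun _ => (1 : ENNReal))) := measurable_const.indicator hA
  have hlaw := law_two k1 k2 k3 hF
  have e1 : ∫⁻ η, A.indicator (fun _ => (1 : ENNReal)) (∑ l, a l * η l, ∑ l, b l * η l)
      ∂gvec D.K = gvec D.K ((fun η => exZ D l0 x (dz D r η)) ⁻¹' A) := by
    rw [← lintegral_indicator_one (hm1 hA)]
    refine lintegral_congr fun η => ?_
    rw [← hZ]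
    rfl
  have e2 : ∫⁻ p : ℝ × ℝ, A.indicator (fun _ => (1 : ENNReal)) (0 * (t * p.2) + s * p.1, t * p.2)
      ∂((gaussianReal 0 1).prod (gaussianReal 0 1)) =
      ((gaussianReal 0 1).prod (gaussianReal 0 1)) ((fun h : ℝ × ℝ => (s * h.1, t * h.2)) ⁻¹' A) := by
    rw [← lintegral_indicator_one (hm2 hA)]
    refine lintegral_congr fun p => ?_
    rw [zero_mul, zero_add]
    rfl
  rw [← e1, hlaw, e2]

/-- `qq` in terms of `(m, X)` -/
theorem exqq_eq (l0 : Fin D.K) {x : ℝ} (hx : 0 ≤ x) (z : ℝ × ℝ) :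
    exqq D l0 x z = -(1 / 2) * (x * (exZ D l0 x z).2 ^ 2 +
      2 * D.V l0 x * ((exZ D l0 x z).1 * (exZ D l0 x z).2) +
      (D.R x - D.d l0) * D.V l0 x * (exZ D l0 x z).1 ^ 2) := by
  have hV := (D.V_pos hx l0).ne'
  unfold exqq exZ
  simp only
  set X := z.2 - D.R x * z.1
  have hV2 : D.V l0 x = 1 + x * (D.R x - D.d l0) := by unfold Blk.V; ring
  set ρ := D.R x - D.d l0
  field_simp
  rw [hV2]
  ring

private theorem ExKer_sq_int : Integrable (fun x : ℝ => x ^ 2) (gaussianReal 0 1) :=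
  (memLp_id_gaussianReal 2).integrable_sq

private theorem ExKer_id_int : Integrable (fun x : ℝ => x) (gaussianReal 0 1) :=
  (memLp_id_gaussianReal 1).integrable le_rfl

private theorem ExKer_sq_one : ∫ x : ℝ, x ^ 2 ∂(gaussianReal 0 1) = 1 := by
  have h := variance_fun_id_gaussianReal (μ := 0) (v := 1)
  rw [variance_eq_integral (by fun_prop)] at h
  simpa [integral_id_gaussianReal] using h

/-- mean of `qq` at level `0` -/
theorem ker_zero_qq (l0 : Fin D.K) {x c : ℝ} (hx : 0 ≤ x) (hx1 : x ≤ 1) (hc : 0 ≤ c)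
    (r : Fin D.K → ℝ) (hr : ∀ l, r l = c * D.f' l x) :
    Integrable (fun η => exqq D l0 x (dz D r η)) (gvec D.K) ∧
      ∫ η, exqq D l0 x (dz D r η) ∂gvec D.K = -(1 / 2) * c * D.ψ' l0 x := by
  have hr0 : ∀ l, 0 ≤ r l := fun l => by
    rw [hr]
    exact mul_nonneg hc (D.f'_nonneg hx l)
  have hW := D.W_ge_one hx
  have hW0 : D.W x ≠ 0 := by linarith
  have hV0 := (D.V_pos hx l0).ne'
  have hα0 := D.pos l0
  set s := Real.sqrt (r l0 / D.α l0) with hs
  have hs2 : s ^ 2 = r l0 / D.α l0 := Real.sq_sqrt (div_nonneg (hr0 l0) hα0.le)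
  set t := Real.sqrt (c * D.R' x) with ht
  have ht2 : t ^ 2 = c * D.R' x := Real.sq_sqrt (mul_nonneg hc (D.R'_nonneg hx))
  have hm1 : Measurable (fun η : Fin D.K → ℝ => exZ D l0 x (dz D r η)) := by
    unfold exZ dz
    fun_prop
  have hm2 : Measurable (fun h : ℝ × ℝ => (s * h.1, t * h.2)) := by fun_prop
  set Q : ℝ × ℝ → ℝ := fun y => -(1 / 2) * (x * y.2 ^ 2 + 2 * D.V l0 x * (y.1 * y.2) +
      (D.R x - D.d l0) * D.V l0 x * y.1 ^ 2) with hQ
  have hQm : Measurable Q := by rw [hQ]; fun_prop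
  have hlaw := ker_zero D l0 hx hx1 hc r hr
  have e0 : (fun η => exqq D l0 x (dz D r η)) = fun η => Q (exZ D l0 x (dz D r η)) :=
    funext fun η => exqq_eq D l0 hx _
  -- integrability of the pieces
  have i1 : Integrable (fun p : ℝ × ℝ => p.2 ^ 2) ((gaussianReal 0 1).prod (gaussianReal 0 1)) :=
    ExKer_sq_int.comp_snd _
  have i2 : Integrable (fun p : ℝ × ℝ => p.1 ^ 2) ((gaussianReal 0 1).prod (gaussianReal 0 1)) :=
    ExKer_sq_int.comp_fst _
  have i3 : Integrable (fun p : ℝ × ℝ => p.1 * p.2) ((gaussianReal 0 1).prod (gaussianReal 0 1)) :=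
    ExKer_id_int.mul_prod ExKer_id_int
  have eQ : (fun p : ℝ × ℝ => Q (s * p.1, t * p.2)) = fun p => -(1 / 2) * (x * t ^ 2) * p.2 ^ 2 +
      -(D.V l0 x * s * t) * (p.1 * p.2) +
      -(1 / 2) * ((D.R x - D.d l0) * D.V l0 x * s ^ 2) * p.1 ^ 2 := by
    funext p
    rw [hQ]
    ring
  have iQ : Integrable (fun p : ℝ × ℝ => Q (s * p.1, t * p.2))
      ((gaussianReal 0 1).prod (gaussianReal 0 1)) := by
    rw [eQ]
    exact ((i1.const_mul _).add (i3.const_mul _)).add (i2.const_mul _)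
  constructor
  · rw [e0]
    have h1 : Integrable Q (((gaussianReal 0 1).prod (gaussianReal 0 1)).map
        (fun h : ℝ × ℝ => (s * h.1, t * h.2))) :=
      (integrable_map_measure hQm.aestronglyMeasurable hm2.aemeasurable).2 iQ
    rw [← hlaw] at h1
    exact (integrable_map_measure hQm.aestronglyMeasurable hm1.aemeasurable).1 h1
  · rw [e0]
    have h1 : ∫ η, Q (exZ D l0 x (dz D r η)) ∂gvec D.K =
        ∫ p : ℝ × ℝ, Q (s * p.1, t * p.2) ∂((gaussianReal 0 1).prod (gaussianReal 0 1)) := by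
      rw [← integral_map (φ := fun η => exZ D l0 x (dz D r η)) hm1.aemeasurable
        hQm.aestronglyMeasurable, hlaw, integral_map hm2.aemeasurable hQm.aestronglyMeasurable]
    have iA : Integrable (fun p : ℝ × ℝ => -(1 / 2) * (x * t ^ 2) * p.2 ^ 2 +
        -(D.V l0 x * s * t) * (p.1 * p.2)) ((gaussianReal 0 1).prod (gaussianReal 0 1)) :=
      (i1.const_mul _).add (i3.const_mul _)
    rw [h1, eQ, integral_add iA (i2.const_mul _),
      integral_add (i1.const_mul _) (i3.const_mul _), integral_const_mul, integral_const_mul,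
      integral_const_mul]
    have j1 : ∫ p : ℝ × ℝ, p.2 ^ 2 ∂((gaussianReal 0 1).prod (gaussianReal 0 1)) = 1 := by
      rw [integral_fun_snd (fun x : ℝ => x ^ 2), ExKer_sq_one]
      simp
    have j2 : ∫ p : ℝ × ℝ, p.1 ^ 2 ∂((gaussianReal 0 1).prod (gaussianReal 0 1)) = 1 := by
      rw [integral_fun_fst (fun x : ℝ => x ^ 2), ExKer_sq_one]
      simp
    have j3 : ∫ p : ℝ × ℝ, p.1 * p.2 ∂((gaussianReal 0 1).prod (gaussianReal 0 1)) = 0 := by
      rw [integral_prod_mul (fun x : ℝ => x) (fun x : ℝ => x)]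
      have : ∫ x : ℝ, x ∂(gaussianReal 0 1) = 0 := integral_id_gaussianReal
      rw [this, zero_mul]
    rw [j1, j2, j3, ht2, hs2, hr, D.f'_eq hx, D.ψ'_eq hx]
    field_simp
    ring

end Crest.Agent.RI
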