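import Crest.Agent.RI.RCfacts
import Crest.Agent.RI.ExDefs
import Crest.Agent.RI.ExKer

/-!
# Row 164, Part 8.5: closed formulas for the closure increments (helper50)
-/

set_option autoImplicit false

namespace Crest.Agent.RI

open MeasureTheory ProbabilityTheory
open Crest.ProbabilityR.InvariantGlass

variable (D : Blk) {k : ℕ} {p : ℕ → ℝ}

theorem rC_zero (hk : 0 < k) (hp : PathOK k p) (l : Fin D.K) :
    rC D k p 0 l = p 0 * D.f' l (lamC k p 0) := rC_zero_eq D hk hp l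

theorem muL_le {i : ℕ} (hi : i ≤ k) (p : ℕ → ℝ) : muL k p i = lamC k p (i - 1) := if_pos hi

theorem muL_gt {i : ℕ} (hi : k < i) (p : ℕ → ℝ) : muL k p i = 0 := if_neg (by omega)

theorem muL_mem (hk : 0 < k) (hp : PathOK k p) {i : ℕ} (hi : 1 ≤ i) :
    0 ≤ muL k p (i + 1) ∧ muL k p (i + 1) ≤ muL k p i ∧ muL k p i ≤ 1 := by
  rcases lt_trichotomy i k with h | h | h
  · rw [muL_le (by omega : i + 1 ≤ k), muL_le h.le, Nat.add_sub_cancel]
    exact ⟨(lamC_mem hp h).1, lamC_anti hp hi h, (lamC_mem hp (by omega)).2⟩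
  · rw [muL_gt (by omega : k < i + 1), muL_le h.le]
    exact ⟨le_rfl, (lamC_mem hp (by omega)).1, (lamC_mem hp (by omega)).2⟩
  · rw [muL_gt (by omega : k < i + 1), muL_gt h]
    exact ⟨le_rfl, le_rfl, zero_le_one⟩

theorem muL_last (k : ℕ) (p : ℕ → ℝ) : muL k p (k + 1) = 0 := muL_gt (by omega) p

theorem muL_one (hk : 0 < k) (p : ℕ → ℝ) : muL k p 1 = lamC k p 0 := muL_le (by omega) p

theorem ζLB_self (hk : 0 < k) : ζLB k k = 1 := by
  rw [ζLB_lt le_rfl hk]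
  have : (k : ℝ) ≠ 0 := by exact_mod_cast hk.ne'
  field_simp

/-- levels `1 ≤ i` -/
theorem rC_eq (hk : 0 < k) (hp : PathOK k p) (l : Fin D.K) {i : ℕ} (hi : 1 ≤ i) :
    rC D k p i l = (D.f l (muL k p i) - D.f l (muL k p (i + 1))) / ζLB k i := by
  rcases lt_trichotomy i k with h | h | h
  · rw [rC_mid_eq D hp hi h, muL_le (by omega : i + 1 ≤ k), muL_le h.le, Nat.add_sub_cancel]
  · subst h
    rw [rC_last_eq D hk hp, muL_gt (by omega : i < i + 1), muL_le le_rfl, D.f_zero, sub_zero,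
      ζLB_self hk, div_one]
  · rw [rC_big D p h, muL_gt (by omega : k < i + 1), muL_gt h, sub_self, zero_div]

theorem tauC_zero (hk : 0 < k) (hp : PathOK k p) : tauC D k p 0 = p 0 * D.R' (lamC k p 0) :=
  tauC_zero_eq D hk hp

theorem tN2_eq (hk : 0 < k) (hp : PathOK k p) {i : ℕ} (hi : 1 ≤ i) :
    tN2 D k p i = (D.R (muL k p i) - D.R (muL k p (i + 1))) / ζLB k i := by
  unfold tN2
  rcases lt_trichotomy i k with h | h | h
  · rw [if_pos h, tauC_mid_eq D hp hi h, muL_le (by omega : i + 1 ≤ k), muL_le h.le,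
      Nat.add_sub_cancel]
  · subst h
    rw [if_neg (lt_irrefl _), if_pos rfl, muL_gt (by omega : i < i + 1), muL_le le_rfl,
      ζLB_self hk, div_one, D.R_zero]
    rfl
  · rw [if_neg (by omega), if_neg (by omega), muL_gt (by omega : k < i + 1), muL_gt h, sub_self,
      zero_div]

theorem tN2_nonneg (hk : 0 < k) (hp : PathOK k p) (i : ℕ) : 0 ≤ tN2 D k p i := by
  rcases Nat.eq_zero_or_pos i with h0 | h0
  · subst h0
    unfold tN2
    rw [if_pos hk]
    exact tauC_nonneg D hk hp 0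
  · rw [tN2_eq D hk hp h0]
    obtain ⟨h1, h2, h3⟩ := muL_mem hk hp h0
    have h4 : 0 ≤ ζLB k i := by
      unfold ζLB
      positivity
    exact div_nonneg (sub_nonneg.2 (D.R_mono h1 h2 h3)) h4

theorem tN2_sum : ∃ C : ℝ, 0 ≤ C ∧ ∀ (k : ℕ) (p : ℕ → ℝ), 0 < k → PathOK k p →
    ∑ i ∈ Finset.range (k + 1), tN2 D k p i ≤ C := by
  obtain ⟨C, hC0, hC⟩ := hC_bound D
  have hM := D.M_nonneg
  refine ⟨C + 2 * D.M, by positivity, fun k p hk hp => ?_⟩
  obtain ⟨h1, h2⟩ := hC k p hk hp (k - 1) (by omega)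
  have e1 : ∑ i ∈ Finset.range k, tN2 D k p i = hh (tauC D k p) (k - 1) := by
    unfold hh
    rw [Nat.sub_add_cancel hk]
    refine Finset.sum_congr rfl fun i hi => ?_
    unfold tN2
    rw [if_pos (Finset.mem_range.1 hi)]
  have e2 : tN2 D k p k = D.R (lamC k p (k - 1)) - D.dbar := by
    unfold tN2
    rw [if_neg (lt_irrefl _), if_pos rfl]
  rw [Finset.sum_range_succ, e1, e2, h1]
  have h3 := D.abs_R_le (lamC_mem hp (by omega : k - 1 < k)).1
  have h4 := D.abs_R_le (le_refl (0 : ℝ))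
  have h5 : D.dbar = D.R 0 := D.R_zero.symm
  rw [abs_le] at h3 h4
  rw [h5]
  linarith [h3.1, h3.2, h4.1, h4.2]

/-- `rC ≥ 0` and the total is `≤ 1` -/
theorem rC_facts (hk : 0 < k) (hp : PathOK k p) (l : Fin D.K) :
    (∀ i, 0 ≤ rC D k p i l) ∧ ∑ i ∈ Finset.range (k + 1), rC D k p i l ≤ 1 := by
  refine ⟨fun i => rC_nonneg D hk hp i l, ?_⟩
  obtain ⟨h1, h2, _⟩ := rC_sum D hk hp l
  rw [h1]
  exact h2

end Crest.Agent.RI
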