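import Crest.Agent.RI.ExGrA

/-!
# Row 164, Part 8.5: Gaussian moments along the path (chunk EXEXP)
-/

set_option autoImplicit false

namespace Crest.Agent.RI

open MeasureTheory ProbabilityTheory

private theorem ExExp_nest_zero {E : Type} [MeasurableSpace E] (m : Measure E)
    [IsProbabilityMeasure m] (ζ : ℕ → ℝ) (n : ℕ) : ∀ i : ℕ,
    nest m ζ n i (fun _ : Fin n → E => (0 : ℝ)) = 0 := by
  induction n with
  | zero => intro i; rfl
  | succ n ih =>
    intro i
    simp only [nest, ih, TT]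
    split_ifs <;> simp

/-- product formula for the untilted path measure.  PROOF: induction on `n`: `wgt … 0 = 1` (`nest` of the zero function is `0`),
`Fin.prod_univ_succ`, `integral_mul_const`. -/
theorem pathE_zero_prod {E : Type} [MeasurableSpace E] (m : Measure E) [IsProbabilityMeasure m]
    (ζ : ℕ → ℝ) (n : ℕ) : ∀ (i : ℕ) (u : Fin n → E → ℝ),
    pathE m ζ n i (fun _ => 0) (fun ω => ∏ j, u j (ω j)) = ∏ j, ∫ e, u j e ∂m := by
  induction n with
  | zero =>
    intro i u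
    simp [pathE]
  | succ n ih =>
    intro i u
    have hw : ∀ e : E, wgt m ζ n i (fun _ => 0) e = 1 := by
      intro e
      simp only [wgt, ExExp_nest_zero, sub_zero, mul_zero, Real.exp_zero]
    simp only [pathE, hw, one_mul]
    rw [Fin.prod_univ_succ, ← integral_mul_const]
    congr 1
    funext e
    rw [← ih (i + 1) (fun j => u j.succ), ← pathE_mul]
    congr 1
    funext ω
    rw [Fin.prod_univ_succ]
    simp only [Fin.cons_zero, Fin.cons_succ]

private theorem ExExp_one (c : ℝ) :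
    ∫ e, Real.exp (c * e) ∂(gaussianReal 0 1) = Real.exp (c ^ 2 / 2) := by
  have h := mgf_gaussianReal (p := gaussianReal 0 1) (X := id) (μ := 0) (v := 1) (by simp) c
  simpa [mgf] using h

private theorem ExExp_mX (c : ℝ) :
    ∫ e : ℝ × Bool, Real.exp (c * e.1) ∂mX = Real.exp (c ^ 2 / 2) := by
  unfold mX
  have h := integral_prod_mul (μ := gaussianReal 0 1) (ν := coin) (fun x : ℝ => Real.exp (c * x))
    (fun _ : Bool => (1 : ℝ))
  simp only [mul_one] at h
  rw [h, ExExp_one, integral_const, probReal_univ, smul_eq_mul, mul_one, mul_one]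

private theorem ExExp_gvec {K : ℕ} (q : Fin K → ℝ) :
    ∫ η : Fin K → ℝ, Real.exp (∑ l, q l * η l) ∂(gvec K) = Real.exp ((1 / 2) * ∑ l, q l ^ 2) := by
  unfold gvec
  have h := integral_fintype_prod_eq_prod (𝕜 := ℝ) (μ := fun _ : Fin K => gaussianReal 0 1)
    (fun l (x : ℝ) => Real.exp (q l * x))
  simp only [← Real.exp_sum, ExExp_one] at h
  rw [h]
  congr 1
  rw [Finset.mul_sum]
  refine Finset.sum_congr rfl fun l _ => ?_
  ring

private theorem ExExp_lvT (D : Blk) (r : Fin D.K → ℝ) (hr : ∀ l, 0 ≤ r l) (v a b c : ℝ) :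
    ∫ e : ET D.K, Real.exp (a * (dz D r e.1).1 + b * (dz D r e.1).2 + c * (v * e.2.1)) ∂(mT D.K) =
      Real.exp ((1 / 2) * (∑ l, (a + b * D.d l) ^ 2 * r l + c ^ 2 * v ^ 2)) := by
  unfold mT
  have e1 : (fun e : ET D.K => Real.exp (a * (dz D r e.1).1 + b * (dz D r e.1).2 +
      c * (v * e.2.1))) = fun e => Real.exp (∑ l, ((a + b * D.d l) * Real.sqrt (r l)) * e.1 l) *
        Real.exp ((c * v) * e.2.1) := by
    funext e
    rw [← Real.exp_add]
    congr 1
    have : a * (dz D r e.1).1 + b * (dz D r e.1).2 =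
        ∑ l, ((a + b * D.d l) * Real.sqrt (r l)) * e.1 l := by
      unfold dz
      simp only [Finset.mul_sum, ← Finset.sum_add_distrib]
      refine Finset.sum_congr rfl fun l _ => ?_
      ring
    rw [this]
    ring
  rw [e1]
  have h := integral_prod_mul (μ := gvec D.K) (ν := mX)
    (fun η : Fin D.K → ℝ => Real.exp (∑ l, ((a + b * D.d l) * Real.sqrt (r l)) * η l))
    (fun x : ℝ × Bool => Real.exp ((c * v) * x.1))
  rw [h, ExExp_gvec, ExExp_mX, ← Real.exp_add]
  congr 1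
  have : ∑ l, ((a + b * D.d l) * Real.sqrt (r l)) ^ 2 = ∑ l, (a + b * D.d l) ^ 2 * r l := by
    refine Finset.sum_congr rfl fun l _ => ?_
    rw [mul_pow, Real.sq_sqrt (hr l)]
  rw [this]
  ring

private theorem ExExp_lvN (s t v a b c : ℝ) :
    ∫ e : EX2, Real.exp (a * (s * e.1.1) + b * (t * e.1.2) + c * (v * e.2.1)) ∂mEX2 =
      Real.exp ((1 / 2) * (a ^ 2 * s ^ 2 + b ^ 2 * t ^ 2 + c ^ 2 * v ^ 2)) := by
  unfold mEX2
  have e1 : (fun e : EX2 => Real.exp (a * (s * e.1.1) + b * (t * e.1.2) + c * (v * e.2.1))) =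
      fun e => (Real.exp ((a * s) * e.1.1) * Real.exp ((b * t) * e.1.2)) *
        Real.exp ((c * v) * e.2.1) := by
    funext e
    rw [← Real.exp_add, ← Real.exp_add]
    congr 1
    ring
  rw [e1]
  have h := integral_prod_mul (μ := (gaussianReal 0 1).prod (gaussianReal 0 1)) (ν := mX)
    (fun η : ℝ × ℝ => Real.exp ((a * s) * η.1) * Real.exp ((b * t) * η.2))
    (fun x : ℝ × Bool => Real.exp ((c * v) * x.1))
  have h2 := integral_prod_mul (μ := gaussianReal 0 1) (ν := gaussianReal 0 1)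
    (fun x : ℝ => Real.exp ((a * s) * x)) (fun x : ℝ => Real.exp ((b * t) * x))
  rw [h, h2, ExExp_mX, ExExp_one, ExExp_one, ← Real.exp_add, ← Real.exp_add]
  congr 1
  ring

/-- `E_0 exp (a g + b G + c x)` for the old tower, where `(g, G, x)` is the end of the path started at `0`:
`exp (½ Σ_j (Σ_l (a + b d_l)² r_{j,l} + c² v_j²))`. -/
theorem mgf_T (D : Blk) (r : ℕ → Fin D.K → ℝ) (hr : ∀ i l, 0 ≤ r i l) (v ζ : ℕ → ℝ) (n : ℕ)
    (a b c : ℝ) :
    pathE (mT D.K) ζ (n + 1) 0 (fun _ => 0)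
      (pthT D r v 0 (fun z x _ => Real.exp (a * z.1 + b * z.2 + c * x)) 0 0) =
      Real.exp ((1 / 2) * ∑ j ∈ Finset.range (n + 1),
        (∑ l, (a + b * D.d l) ^ 2 * r j l + c ^ 2 * v j ^ 2)) := by
  have i1 := mT_prob D.K
  have e : pthT D r v 0 (fun z x _ => Real.exp (a * z.1 + b * z.2 + c * x)) 0 0 =
      fun ω : Fin (n + 1) → ET D.K => ∏ j : Fin (n + 1),
        (fun (j : Fin (n + 1)) (e : ET D.K) => Real.exp (a * (dz D (r j) e.1).1 +
          b * (dz D (r j) e.1).2 + c * (v j * e.2.1))) j (ω j) := by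
    funext ω
    simp only [pthT, zero_add, Prod.fst_sum, Prod.snd_sum]
    rw [← Real.exp_sum]
    congr 1
    simp only [Finset.mul_sum, Finset.sum_add_distrib]
  rw [e]
  refine (pathE_zero_prod (mT D.K) ζ (n + 1) 0
    (fun (j : Fin (n + 1)) (e : ET D.K) => Real.exp (a * (dz D (r j) e.1).1 +
          b * (dz D (r j) e.1).2 + c * (v j * e.2.1)))).trans ?_
  simp only [ExExp_lvT D _ (hr _)]
  rw [← Real.exp_sum, ← Finset.mul_sum]
  congr 2
  exact (Finset.sum_range (fun j => ∑ l, (a + b * D.d l) ^ 2 * r j l + c ^ 2 * v j ^ 2)).symm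

/-- `E_0 exp (a m + b X + c x)` for the new tower -/
theorem mgf_N (s t v ζ : ℕ → ℝ) (n : ℕ) (a b c : ℝ) :
    pathE mEX2 ζ (n + 1) 0 (fun _ => 0)
      (pthN s t v 0 (fun y x _ => Real.exp (a * y.1 + b * y.2 + c * x)) 0 0) =
      Real.exp ((1 / 2) * ∑ j ∈ Finset.range (n + 1),
        (a ^ 2 * s j ^ 2 + b ^ 2 * t j ^ 2 + c ^ 2 * v j ^ 2)) := by
  have i1 : IsProbabilityMeasure mEX2 := by unfold mEX2; infer_instance
  have e : pthN s t v 0 (fun y x _ => Real.exp (a * y.1 + b * y.2 + c * x)) 0 0 =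
      fun ω : Fin (n + 1) → EX2 => ∏ j : Fin (n + 1),
        (fun (j : Fin (n + 1)) (e : EX2) => Real.exp (a * (s j * e.1.1) +
          b * (t j * e.1.2) + c * (v j * e.2.1))) j (ω j) := by
    funext ω
    simp only [pthN, zero_add, Prod.fst_sum, Prod.snd_sum]
    rw [← Real.exp_sum]
    congr 1
    simp only [Finset.mul_sum, Finset.sum_add_distrib]
  rw [e]
  refine (pathE_zero_prod mEX2 ζ (n + 1) 0
    (fun (j : Fin (n + 1)) (e : EX2) => Real.exp (a * (s j * e.1.1) +
          b * (t j * e.1.2) + c * (v j * e.2.1)))).trans ?_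
  simp only [ExExp_lvN]
  rw [← Real.exp_sum, ← Finset.mul_sum]
  congr 2
  exact (Finset.sum_range (fun j => a ^ 2 * s j ^ 2 + b ^ 2 * t j ^ 2 + c ^ 2 * v j ^ 2)).symm

end Crest.Agent.RI
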