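import Crest.Agent.RI.TanG

/-!
# Row 164, tangent module H: (T2q)
-/

set_option autoImplicit false

namespace Crest.Agent.RI

open MeasureTheory ProbabilityTheory
open Crest.ProbabilityR.InvariantGlass

/-- the two Gaussian coordinates -/
theorem m1_map_gg : MeasurePreserving (fun e : EN 1 => (e.2.1 0, e.2.2.1 0)) m1
    ((gaussianReal 0 1).prod (gaussianReal 0 1)) := by
  have h1 : MeasurePreserving (fun e : EN 1 => e.2) m1
      ((gvec 1).prod ((gvec 1).prod (unifA 1))) := measurePreserving_snd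
  have h3 : MeasurePreserving (Function.eval (0 : Fin 1)) (gvec 1) (gaussianReal 0 1) := by
    unfold gvec
    exact measurePreserving_eval (fun _ : Fin 1 => gaussianReal 0 1) 0
  have h4 : MeasurePreserving (fun e : (Fin 1 → ℝ) × (Fin 1 → Bool) => e.1)
      ((gvec 1).prod (unifA 1)) (gvec 1) := measurePreserving_fst
  have h5 := h3.prod (h3.comp h4)
  exact h5.comp h1

theorem gauss_two (v u x : ℝ) {h : ℝ → ℝ} (hh : Measurable h) :
    ∫ p : ℝ × ℝ, h (x + (v * p.1 + u * p.2)) ∂((gaussianReal 0 1).prod (gaussianReal 0 1)) =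
      ∫ g, h (x + Real.sqrt (v ^ 2 + u ^ 2) * g) ∂(gaussianReal 0 1) := by
  have hv : (gaussianReal 0 1).map (fun g => v * g) = gaussianReal 0 (NNReal.mk (v ^ 2) (sq_nonneg v) * 1) := by
    have := gaussianReal_map_const_mul (μ := 0) (v := 1) v
    rwa [mul_zero] at this
  have hu : (gaussianReal 0 1).map (fun g => u * g) = gaussianReal 0 (NNReal.mk (u ^ 2) (sq_nonneg u) * 1) := by
    have := gaussianReal_map_const_mul (μ := 0) (v := 1) u
    rwa [mul_zero] at this
  have hw : (gaussianReal 0 1).map (fun g => Real.sqrt (v ^ 2 + u ^ 2) * g) =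
      gaussianReal 0 (NNReal.mk (Real.sqrt (v ^ 2 + u ^ 2) ^ 2) (sq_nonneg _) * 1) := by
    have := gaussianReal_map_const_mul (μ := 0) (v := 1) (Real.sqrt (v ^ 2 + u ^ 2))
    rwa [mul_zero] at this
  have hconv : ((gaussianReal 0 1).prod (gaussianReal 0 1)).map (fun p : ℝ × ℝ => v * p.1 + u * p.2) =
      (gaussianReal 0 1).map (fun g => Real.sqrt (v ^ 2 + u ^ 2) * g) := by
    rw [hw]
    have e1 : ((gaussianReal 0 1).prod (gaussianReal 0 1)).map (fun p : ℝ × ℝ => v * p.1 + u * p.2) =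
        ((gaussianReal 0 (NNReal.mk (v ^ 2) (sq_nonneg v) * 1)).prod (gaussianReal 0 (NNReal.mk (u ^ 2) (sq_nonneg u) * 1))).map
          (fun p : ℝ × ℝ => p.1 + p.2) := by
      rw [← hv, ← hu, Measure.map_prod_map _ _ (by fun_prop) (by fun_prop),
        Measure.map_map (by fun_prop) (by fun_prop)]
      rfl
    rw [e1]
    have e2 := gaussianReal_conv_gaussianReal (m₁ := 0) (m₂ := 0) (v₁ := NNReal.mk (v ^ 2) (sq_nonneg v) * 1)
      (v₂ := NNReal.mk (u ^ 2) (sq_nonneg u) * 1)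
    unfold Measure.conv at e2
    rw [e2, add_zero]
    congr 1
    apply NNReal.eq
    have h1 : ((NNReal.mk (v ^ 2) (sq_nonneg v) : NNReal) : ℝ) = v ^ 2 := rfl
    have h2 : ((NNReal.mk (u ^ 2) (sq_nonneg u) : NNReal) : ℝ) = u ^ 2 := rfl
    have h3 : ((NNReal.mk (Real.sqrt (v ^ 2 + u ^ 2) ^ 2) (sq_nonneg _) : NNReal) : ℝ) =
      Real.sqrt (v ^ 2 + u ^ 2) ^ 2 := rfl
    rw [NNReal.coe_add, NNReal.coe_mul, NNReal.coe_mul, NNReal.coe_mul, h1, h2, h3,
      Real.sq_sqrt (by positivity)]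
    simp
  have e3 : ∫ p : ℝ × ℝ, h (x + (v * p.1 + u * p.2)) ∂((gaussianReal 0 1).prod (gaussianReal 0 1)) =
      ∫ y, h (x + y) ∂(((gaussianReal 0 1).prod (gaussianReal 0 1)).map
        (fun p : ℝ × ℝ => v * p.1 + u * p.2)) := by
    have h6 : Measurable (fun p : ℝ × ℝ => v * p.1 + u * p.2) := by fun_prop
    have h7 : Measurable (fun y : ℝ => h (x + y)) := hh.comp (by fun_prop)
    exact (integral_map h6.aemeasurable h7.aestronglyMeasurable).symm
  have e4 : ∫ g, h (x + Real.sqrt (v ^ 2 + u ^ 2) * g) ∂(gaussianReal 0 1) =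
      ∫ y, h (x + y) ∂((gaussianReal 0 1).map (fun g => Real.sqrt (v ^ 2 + u ^ 2) * g)) := by
    have h6 : Measurable (fun g : ℝ => Real.sqrt (v ^ 2 + u ^ 2) * g) := by fun_prop
    have h7 : Measurable (fun y : ℝ => h (x + y)) := hh.comp (by fun_prop)
    exact (integral_map h6.aemeasurable h7.aestronglyMeasurable).symm
  rw [e3, e4, hconv]

theorem TT_m1_gg {a v u x : ℝ} {f : ℝ → ℝ} (hf : Measurable f) :
    TT m1 a (fun e => f (x + (v * e.2.1 0 + u * e.2.2.1 0))) = gaussOp a (v ^ 2 + u ^ 2) f x := by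
  have key : ∀ {h : ℝ → ℝ}, Measurable h → ∫ e : EN 1, h (x + (v * e.2.1 0 + u * e.2.2.1 0)) ∂m1 =
      ∫ g, h (x + Real.sqrt (v ^ 2 + u ^ 2) * g) ∂(gaussianReal 0 1) := by
    intro h hh
    rw [← gauss_two v u x hh, ← m1_map_gg.map_eq]
    symm
    exact integral_map m1_map_gg.measurable.aemeasurable (hh.comp (by fun_prop)).aestronglyMeasurable
  unfold TT gaussOp
  split_ifs with h0
  · exact key hf
  · rw [key (h := fun y => Real.exp (a * f y)) (Real.measurable_exp.comp (hf.const_mul a))]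

/-- the one-site tower with both Gaussian fields -/
theorem nest_site2 (ζ v u : ℕ → ℝ) (hζ : ∀ i, 0 ≤ ζ i) (n : ℕ) : ∀ (i : ℕ) (x : ℝ), ζ (i + n) = 1 →
    nest m1 ζ (n + 1) i (fun ω => (x + ∑ j : Fin n, (v (i + j) * (ω j.castSucc).2.1 0 +
      u (i + j) * (ω j.castSucc).2.2.1 0)) *
      spin ((ω (Fin.last n)).2.2.2 0)) = recT ζ (fun j => v j ^ 2 + u j ^ 2) n i lch x := by
  induction n with
  | zero =>
    intro i x h1
    have h2 := nest_site ζ v hζ 0 i x h1
    simp only [Finset.univ_eq_empty, Finset.sum_empty] at h2 ⊢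
    exact h2
  | succ n ih =>
    intro i x h1
    show TT m1 (ζ i) (fun e => nest m1 ζ (n + 1) (i + 1) _) = gaussOp (ζ i) (v i ^ 2 + u i ^ 2)
      (recT ζ (fun j => v j ^ 2 + u j ^ 2) n (i + 1) lch) x
    have hm : Measurable (recT ζ (fun j => v j ^ 2 + u j ^ 2) n (i + 1) lch) :=
      (recT_SF hζ SF.lch n (i + 1)).cont.measurable
    rw [← TT_m1_gg hm]
    congr 1
    funext e
    rw [← ih (i + 1) (x + (v i * e.2.1 0 + u i * e.2.2.1 0)) (by rw [← h1]; congr 1; ring)]
    congr 1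
    funext ω
    have e1 : (Fin.last (n + 1)) = (Fin.last n).succ := rfl
    simp only []
    rw [e1, Fin.cons_succ]
    congr 1
    rw [Fin.sum_univ_succ]
    have e2 : (Fin.cons e ω : Fin (n + 2) → EN 1) (Fin.castSucc 0) = e := rfl
    rw [e2, ← add_assoc]
    congr 1
    refine Finset.sum_congr rfl fun j _ => ?_
    have e3 : (j.succ).castSucc = (j.castSucc).succ := rfl
    rw [e3, Fin.cons_succ]
    have e4 : i + ((j.succ : Fin (n + 1)) : ℕ) = i + 1 + (j : ℕ) := by simp; ring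
    rw [e4]

theorem updG1_21 {n : ℕ} (ω : Fin n → EN 1) (j l : Fin n) (a : Fin 1) (u : ℝ) :
    (Function.update ω j (setG a (ω j) u) l).2.1 = (ω l).2.1 := by
  by_cases h : l = j
  · subst h; rw [Function.update_self]; rfl
  · rw [Function.update_of_ne h]

theorem updG1_222 {n : ℕ} (ω : Fin n → EN 1) (j l : Fin n) (a : Fin 1) (u : ℝ) :
    (Function.update ω j (setG a (ω j) u) l).2.2.2 = (ω l).2.2.2 := by
  by_cases h : l = j
  · subst h; rw [Function.update_self]; rfl
  · rw [Function.update_of_ne h]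

/-- (T2q) -/
theorem siteVal_T2q {ζ : ℕ → ℝ} (hζ : Exps ζ) (hmono : Monotone ζ) {k : ℕ} (hk : ζ k = 1) {τ : ℕ → ℝ}
    (hτ : ∀ i, 0 ≤ τ i) (b : ℝ) {i : ℕ} (hi : i < k) {r : ℝ} (hr : |r| ≤ 1) :
    |siteVal ζ (fun j => τ j + (if j = i then r ^ 2 else 0)) k b - siteVal ζ τ k b +
      r ^ 2 / 2 * siteTail ζ τ k b i| ≤ 20 * |r| ^ 3 := by
  set v : ℕ → ℝ := fun j => Real.sqrt (τ j) with hv
  have hv2 : ∀ j, v j ^ 2 = τ j := fun j => Real.sq_sqrt (hτ j)
  have hg := gcoord_setG (P := P1) (A := unifA 1) (0 : Fin 1)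
  have h1 := gen_expansion dom1 hζ hmono hg k hk ⟨i, hi⟩ (H := HN k (siteθ v b))
    (ε := fun ω => spin ((ω (Fin.last k)).2.2.2 0)) (HN_ham k _) (ham_sp k).meas
    (fun ω => (abs_spin _).le) ?_ ?_ hr
  rotate_left
  · intro ω t
    rw [HN_siteθ, HN_siteθ]
    simp only [updG1_21, updG1_222]
  · intro ω t
    simp only [updG1_222]
  have e1 : (fun ω : Fin (k + 1) → EN 1 => spin ((ω (Fin.last k)).2.2.2 0) ^ 2) = fun _ => 1 := by
    funext ω; exact spin_sq _
  rw [e1, pathE_one dom1 hζ (k + 1) 0 (HN_ham k _)] at h1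
  have e2 : ∑ j ∈ Finset.Ico (((⟨i, hi⟩ : Fin k)) : ℕ) k, (ζ (j + 1) - ζ j) *
          pairE m1 ζ (j + 1) (k + 1) 0 (HN k (siteθ v b)) (fun ω ω' =>
            spin ((ω (Fin.last k)).2.2.2 0) * spin ((ω' (Fin.last k)).2.2.2 0)) =
      siteTail ζ τ k b i := by
    unfold siteTail
    refine Finset.sum_congr rfl fun j _ => ?_
    congr 1
    unfold siteQ
    rw [pN_eq haarO_P1 hζ, pairE_mul dom1 hζ (j + 1) (k + 1) 0 (HN_ham k _) ((ham_sp k).tame dom1)
      ((ham_sp k).tame dom1)]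
    simp only [Nat.cast_one, Finset.univ_unique, Finset.sum_singleton, ne_eq, one_ne_zero,
      not_false_eq_true, div_self, one_mul]
    congr 1
    funext ω
    rw [pow_two]
    rfl
  rw [e2] at h1
  have e3 : nest m1 ζ (k + 1) 0 (fun ω => HN k (siteθ v b) ω +
      r * ((ω (⟨i, hi⟩ : Fin k).castSucc).2.2.1 0 * spin ((ω (Fin.last k)).2.2.2 0))) =
      recT ζ (fun j => τ j + (if j = i then r ^ 2 else 0)) k 0 lch b := by
    have := nest_site2 ζ v (fun j => if j = i then r else 0) (fun i => (hζ i).1) k 0 b (by simpa using hk)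
    have e4 : (fun j => v j ^ 2 + (if j = i then r else 0) ^ 2) =
        fun j => τ j + (if j = i then r ^ 2 else 0) := by
      funext j; rw [hv2]; split_ifs <;> ring
    rw [e4] at this
    rw [← this]
    congr 1
    funext ω
    rw [HN_siteθ]
    simp only [Nat.zero_add]
    rw [Finset.sum_add_distrib]
    have e5 : ∑ j : Fin k, (if (j : ℕ) = i then r else 0) * (ω j.castSucc).2.2.1 0 =
        r * (ω (⟨i, hi⟩ : Fin k).castSucc).2.2.1 0 := by
      rw [Finset.sum_eq_single (⟨i, hi⟩ : Fin k)]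
      · simp
      · intro j _ hj
        rw [if_neg, zero_mul]
        intro h; exact hj (Fin.ext h)
      · simp
    rw [e5]; ring
  have e6 : nest m1 ζ (k + 1) 0 (HN k (siteθ v b)) = recT ζ τ k 0 lch b := by
    have := siteVal_eq_nest ζ v (fun i => (hζ i).1) k hk b
    have e7 : (fun j => v j ^ 2) = τ := by funext j; exact hv2 j
    rw [e7] at this
    unfold siteVal at this
    linarith
  rw [e3, e6] at h1
  have e8 : siteVal ζ (fun j => τ j + (if j = i then r ^ 2 else 0)) k b =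
      recT ζ (fun j => τ j + (if j = i then r ^ 2 else 0)) k 0 lch b -
        (1 / 2) * (∑ j ∈ Finset.range k, τ j + r ^ 2) := by
    unfold siteVal
    rw [Finset.sum_add_distrib, Finset.sum_ite_eq' (Finset.range k) i (fun _ => r ^ 2),
      if_pos (Finset.mem_range.mpr hi)]
  have e9 : siteVal ζ τ k b = recT ζ τ k 0 lch b - (1 / 2) * ∑ j ∈ Finset.range k, τ j := rfl
  rw [e8, e9]
  refine le_trans (le_of_eq ?_) h1
  congr 1
  ring

end Crest.Agent.RI
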