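import Crest.Agent.RI.ExGrA
import Crest.Agent.RI.TanH

/-!
# Row 164, Part 8.5: the value of the new tower (chunk EXNEW)
-/

set_option autoImplicit false

namespace Crest.Agent.RI

open MeasureTheory ProbabilityTheory
open Crest.ProbabilityR.InvariantGlass

private theorem ExNew_mp3 : MeasurePreserving (fun e : EX2 => ((e.1.2, e.2.1), e.2.2)) mEX2
    (((gaussianReal 0 1).prod (gaussianReal 0 1)).prod coin) := by
  have h1 : MeasurePreserving (fun p : ℝ × ℝ => p.2)
      ((gaussianReal 0 1).prod (gaussianReal 0 1)) (gaussianReal 0 1) := measurePreserving_snd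
  have h2 := h1.prod (MeasurePreserving.id mX)
  have h3 : MeasurePreserving (MeasurableEquiv.prodAssoc (α := ℝ) (β := ℝ) (γ := Bool))
      (((gaussianReal 0 1).prod (gaussianReal 0 1)).prod coin)
      ((gaussianReal 0 1).prod ((gaussianReal 0 1).prod coin)) :=
    measurePreserving_prodAssoc (gaussianReal 0 1) (gaussianReal 0 1) coin
  have h4 := h3.symm
  exact h4.comp h2

private theorem ExNew_mp2 : MeasurePreserving (fun e : EX2 => (e.1.2, e.2.1)) mEX2
    ((gaussianReal 0 1).prod (gaussianReal 0 1)) := by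
  have h1 : MeasurePreserving (fun p : (ℝ × ℝ) × Bool => p.1)
    (((gaussianReal 0 1).prod (gaussianReal 0 1)).prod coin)
    ((gaussianReal 0 1).prod (gaussianReal 0 1)) := measurePreserving_fst
  exact h1.comp ExNew_mp3

/-- one level for a function of `x + t η₂ + v η'`: cf. `TT_m1_gg`, `gauss_two` in RI/TanH.lean. -/
theorem TT_mEX2 {a t v x : ℝ} {f : ℝ → ℝ} (hf : Measurable f) :
    TT mEX2 a (fun e => f (x + (t * e.1.2 + v * e.2.1))) = gaussOp a (t ^ 2 + v ^ 2) f x := by
  have key : ∀ {h : ℝ → ℝ}, Measurable h → ∫ e : EX2, h (x + (t * e.1.2 + v * e.2.1)) ∂mEX2 =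
      ∫ g, h (x + Real.sqrt (t ^ 2 + v ^ 2) * g) ∂(gaussianReal 0 1) := by
    intro h hh
    rw [← gauss_two t v x hh, ← ExNew_mp2.map_eq]
    symm
    exact integral_map ExNew_mp2.measurable.aemeasurable (hh.comp (by fun_prop)).aestronglyMeasurable
  unfold TT gaussOp
  split_ifs with h0
  · exact key hf
  · rw [key (h := fun y => Real.exp (a * f y)) (Real.measurable_exp.comp (hf.const_mul a))]

private theorem ExNew_meas_spin : Measurable spin := measurable_of_countable _

private theorem ExNew_exp (V x s : ℝ) (hV : 0 ≤ V) (hs : s ^ 2 = 1) :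
    ∫ g, Real.exp ((x + Real.sqrt V * g) * s) ∂(gaussianReal 0 1) = Real.exp (x * s) * Real.exp (V / 2) := by
  have hm := fun t => congrFun (mgf_fun_id_gaussianReal (μ := 0) (v := 1)) t
  simp only [mgf] at hm
  have e : (fun g => Real.exp ((x + Real.sqrt V * g) * s)) =
      fun g => Real.exp (x * s) * Real.exp (Real.sqrt V * s * g) := by
    funext g
    rw [← Real.exp_add]; congr 1; ring
  rw [e, integral_const_mul, hm]
  congr 2
  rw [mul_pow, Real.sq_sqrt hV, hs]
  simp

/-- the leaf: `log E exp (a + (x + t η₂ + v η') ε) = a + ½ (t² + v²) + log cosh x` -/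
theorem leaf_mEX2 (a t v x : ℝ) :
    TT mEX2 1 (fun e => a + (x + (t * e.1.2 + v * e.2.1)) * spin e.2.2) =
      a + (1 / 2) * (t ^ 2 + v ^ 2) + lch x := by
  have hV : 0 ≤ t ^ 2 + v ^ 2 := by positivity
  let F : (ℝ × ℝ) × Bool → ℝ := fun q => Real.exp ((x + (t * q.1.1 + v * q.1.2)) * spin q.2)
  have hFm : Measurable F := by
    have h2 : Measurable (fun q : (ℝ × ℝ) × Bool => spin q.2) := ExNew_meas_spin.comp measurable_snd
    exact Real.measurable_exp.comp (Measurable.mul (by fun_prop) h2)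
  have hint : Integrable F (((gaussianReal 0 1).prod (gaussianReal 0 1)).prod coin) := by
    rw [← ExNew_mp3.map_eq, integrable_map_measure hFm.aestronglyMeasurable
      ExNew_mp3.measurable.aemeasurable]
    refine Integrable.mono' ((dom_mEX2.int (|t| + |v|)).const_mul (Real.exp |x|))
      (hFm.comp ExNew_mp3.measurable).aestronglyMeasurable
      (Filter.Eventually.of_forall fun e => ?_)
    show ‖Real.exp ((x + (t * e.1.2 + v * e.2.1)) * spin e.2.2)‖ ≤ _
    rw [Real.norm_eq_abs, Real.abs_exp, ← Real.exp_add]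
    refine Real.exp_le_exp.2 ?_
    have hs : |spin e.2.2| = 1 := by cases e.2.2 <;> simp [spin]
    refine (le_abs_self _).trans ?_
    rw [abs_mul, hs, mul_one]
    have h1 : |x + (t * e.1.2 + v * e.2.1)| ≤ |x| + (|t| * |e.1.2| + |v| * |e.2.1|) := by
      refine (abs_add_le _ _).trans (add_le_add le_rfl ((abs_add_le _ _).trans ?_))
      rw [abs_mul, abs_mul]
    have h2 : βEX2 e = |e.1.1| + |e.1.2| + |e.2.1| := rfl
    rw [h2]
    nlinarith [abs_nonneg t, abs_nonneg v, abs_nonneg e.1.1, abs_nonneg e.1.2, abs_nonneg e.2.1,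
      mul_nonneg (abs_nonneg t) (abs_nonneg e.1.1), mul_nonneg (abs_nonneg t) (abs_nonneg e.2.1),
      mul_nonneg (abs_nonneg v) (abs_nonneg e.1.1), mul_nonneg (abs_nonneg v) (abs_nonneg e.1.2)]
  have hin : ∀ s : Bool, ∫ q : ℝ × ℝ, F (q, s) ∂((gaussianReal 0 1).prod (gaussianReal 0 1)) =
      Real.exp (x * spin s) * Real.exp ((t ^ 2 + v ^ 2) / 2) := by
    intro s
    have hs : spin s ^ 2 = 1 := by cases s <;> simp [spin]
    rw [← ExNew_exp (t ^ 2 + v ^ 2) x (spin s) hV hs]
    exact gauss_two t v x (h := fun y => Real.exp (y * spin s)) (by fun_prop)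
  have hI : ∫ e : EX2, F ((e.1.2, e.2.1), e.2.2) ∂mEX2 =
      Real.cosh x * Real.exp ((t ^ 2 + v ^ 2) / 2) := by
    have h1 : ∫ e : EX2, F ((e.1.2, e.2.1), e.2.2) ∂mEX2 =
        ∫ q, F q ∂(((gaussianReal 0 1).prod (gaussianReal 0 1)).prod coin) := by
      rw [← ExNew_mp3.map_eq]
      exact (integral_map ExNew_mp3.measurable.aemeasurable hFm.aestronglyMeasurable).symm
    rw [h1, integral_prod_symm _ hint]
    simp only [hin]
    unfold coin
    rw [integral_smul_measure, integral_add_measure Integrable.of_finite Integrable.of_finite,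
      integral_dirac, integral_dirac, Real.cosh_eq]
    simp [spin]
    ring
  unfold TT
  rw [if_neg one_ne_zero]
  have e : (fun e : EX2 => Real.exp (1 * (a + (x + (t * e.1.2 + v * e.2.1)) * spin e.2.2))) =
      fun e => Real.exp a * F ((e.1.2, e.2.1), e.2.2) := by
    funext e
    show _ = Real.exp a * Real.exp _
    rw [one_mul, Real.exp_add]
  rw [e, integral_const_mul, hI, Real.log_mul (Real.exp_pos _).ne'
    (mul_pos (Real.cosh_pos _) (Real.exp_pos _)).ne', Real.log_exp,
    Real.log_mul (Real.cosh_pos _).ne' (Real.exp_pos _).ne', Real.log_exp]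
  unfold lch
  ring

/-- PROOF: induction on `n` (as `nest_site2` in RI/TanH.lean); leaf: `leaf_mEX2`; `recT` of `lch + const`. -/
theorem nest_new (D : Blk) (ζ s t v : ℕ → ℝ) (hζ : ∀ i, 0 ≤ ζ i) (n : ℕ) : ∀ (i : ℕ) (y : ℝ × ℝ) (x : ℝ),
    ζ (i + n) = 1 →
    nest mEX2 ζ (n + 1) i (pthN s t v i (FN D) y x) =
      (1 / 2) * D.dbar + (1 / 2) * (t (i + n) ^ 2 + v (i + n) ^ 2) +
        recT ζ (fun j => t j ^ 2 + v j ^ 2) n i lch (y.2 + x) := by
  induction n with
  | zero =>
    intro i y x h1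
    rw [add_zero] at h1
    show TT mEX2 (ζ i) (fun e => pthN s t v i (FN D) y x (Fin.cons e Fin.elim0)) = _
    rw [h1]
    have h2 := leaf_mEX2 ((1 / 2) * D.dbar) (t i) (v i) (y.2 + x)
    rw [add_zero]
    refine Eq.trans ?_ h2
    congr 1
    funext e
    unfold pthN FN
    rw [Fin.sum_univ_one, Fin.sum_univ_one]
    have e1 : (Fin.last 0) = 0 := rfl
    rw [e1]
    simp only [Fin.cons_zero, Prod.snd_add]
    have e2 : i + ((0 : Fin 1) : ℕ) = i := by simp
    rw [e2]
    ring
  | succ n ih =>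
    intro i y x h1
    show TT mEX2 (ζ i) (fun e => nest mEX2 ζ (n + 1) (i + 1)
      (fun ω => pthN s t v i (FN D) y x (Fin.cons e ω))) = _
    have hm : Measurable (recT ζ (fun j => t j ^ 2 + v j ^ 2) n (i + 1) lch) :=
      (recT_SF hζ SF.lch n (i + 1)).cont.measurable
    have hstep : ∀ e : EX2, nest mEX2 ζ (n + 1) (i + 1)
        (fun ω => pthN s t v i (FN D) y x (Fin.cons e ω)) =
        (1 / 2) * D.dbar + (1 / 2) * (t (i + 1 + n) ^ 2 + v (i + 1 + n) ^ 2) +
          recT ζ (fun j => t j ^ 2 + v j ^ 2) n (i + 1) lch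
            ((y.2 + x) + (t i * e.1.2 + v i * e.2.1)) := by
      intro e
      have h3 := ih (i + 1) (y + (s i * e.1.1, t i * e.1.2)) (x + v i * e.2.1)
        (by rw [← h1]; congr 1; ring)
      have h4 : (fun ω => pthN s t v i (FN D) y x (Fin.cons e ω)) =
          pthN (n := n) s t v (i + 1) (FN D) (y + (s i * e.1.1, t i * e.1.2)) (x + v i * e.2.1) := by
        funext ω
        unfold pthN
        rw [Fin.sum_univ_succ (n := n + 1), Fin.sum_univ_succ (n := n + 1)]
        have e1 : (Fin.last (n + 1)) = (Fin.last n).succ := rfl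
        rw [e1]
        simp only [Fin.cons_zero, Fin.cons_succ]
        have e2 : i + ((0 : Fin (n + 1 + 1)) : ℕ) = i := by simp
        have e3 : ∀ j : Fin (n + 1), i + ((j.succ : Fin (n + 1 + 1)) : ℕ) = i + 1 + (j : ℕ) := by
          intro j; simp; ring
        simp only [e2, e3, ← add_assoc]
      rw [h4, h3]
      congr 2
      simp only [Prod.snd_add]
      ring
    simp only [hstep]
    have hLG : LG (recT ζ (fun j => t j ^ 2 + v j ^ 2) n (i + 1) lch) :=
      (recT_SF hζ SF.lch n (i + 1)).lg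
    have h5 := TT_mEX2 (a := ζ i) (t := t i) (v := v i) (x := y.2 + x)
      (f := fun z => recT ζ (fun j => t j ^ 2 + v j ^ 2) n (i + 1) lch z +
        ((1 / 2) * D.dbar + (1 / 2) * (t (i + 1 + n) ^ 2 + v (i + 1 + n) ^ 2))) (hm.add_const _)
    rw [gaussOp_add_const _ _ _ hLG] at h5
    have e4 : i + (n + 1) = i + 1 + n := by ring
    rw [e4]
    simp only [recT]
    rw [add_comm ((1 / 2) * D.dbar + (1 / 2) * (t (i + 1 + n) ^ 2 + v (i + 1 + n) ^ 2)), ← h5]
    congr 1
    funext e
    ring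

end Crest.Agent.RI
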