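import Crest.Agent.RI.ExDefs

/-!
# Row 164, Part 8.5: the four concrete functions (chunk EXGRB)
-/

set_option autoImplicit false

namespace Crest.Agent.RI

open MeasureTheory ProbabilityTheory

theorem ExGrB_spin : Measurable (fun q : (ℝ × ℝ) × (ℝ × Bool) => spin q.2.2) :=
  (measurable_of_countable spin).comp (measurable_snd.comp measurable_snd)

theorem ExGrB_DZ_meas (D : Blk) (l0 : Fin D.K) :
    Measurable (fun q : (ℝ × ℝ) × (ℝ × Bool) => DZ D l0 q.1 q.2.2) := by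
  have h : Measurable (fun p : (ℝ × ℝ) × ℝ => DI (D.d l0) D.dbar p.1.1 p.1.2 p.2) := by
    unfold DI
    fun_prop
  exact h.comp (measurable_fst.prodMk ExGrB_spin)

theorem ExGrB_DN_meas (D : Blk) (l0 : Fin D.K) :
    Measurable (fun q : (ℝ × ℝ) × (ℝ × Bool) => DN D l0 q.1 q.2.2) := by
  have h : Measurable (fun p : (ℝ × ℝ) × ℝ => (1 / 2) * D.dbar + p.1.2 * p.2 - p.1.1 * p.1.2 -
      (1 / 2) * (D.dbar - D.d l0) * p.1.1 ^ 2) := by
    fun_prop
  exact h.comp (measurable_fst.prodMk ExGrB_spin)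

theorem ExGrB_quad {F : ℝ × ℝ → ℝ → Bool → ℝ} {C : ℝ} (hC : 0 ≤ C)
    (h : ∀ y x s, |F y x s| ≤ C * (1 + (|y.1| + |y.2|) + (|y.1| + |y.2|) ^ 2)) : GExp F := by
  refine ⟨2 * C + 1, by positivity, fun y x s => (h y x s).trans ?_⟩
  set r := |y.1| + |y.2| with hr
  have hr0 : 0 ≤ r := by positivity
  have h1 : 1 + r + r ^ 2 ≤ 2 * Real.exp r := by
    have := Real.quadratic_le_exp_of_nonneg hr0
    nlinarith
  have h2 : Real.exp r ≤ Real.exp ((2 * C + 1) * (r + |x|)) := by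
    apply Real.exp_le_exp.2
    have : 0 ≤ |x| := abs_nonneg x
    nlinarith [mul_nonneg hC hr0, mul_nonneg hC this]
  have h3 : 0 < Real.exp ((2 * C + 1) * (r + |x|)) := Real.exp_pos _
  calc C * (1 + r + r ^ 2) ≤ C * (2 * Real.exp r) := by gcongr
    _ = 2 * C * Real.exp r := by ring
    _ ≤ 2 * C * Real.exp ((2 * C + 1) * (r + |x|)) := by gcongr
    _ ≤ (2 * C + 1) * Real.exp ((2 * C + 1) * (r + |x|)) := by nlinarith

theorem ExGrB_DZ_abs (D : Blk) (l0 : Fin D.K) (z : ℝ × ℝ) (s : Bool) :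
    |DZ D l0 z s| ≤ (|D.dbar| + |D.d l0| + 1) * (1 + (|z.1| + |z.2|) + (|z.1| + |z.2|) ^ 2) := by
  unfold DZ DI
  have hs : |spin s| = 1 := abs_spin s
  set a := |z.1|
  set b := |z.2|
  have ha : 0 ≤ a := abs_nonneg _
  have hb : 0 ≤ b := abs_nonneg _
  set e := |D.dbar|
  set e0 := |D.d l0|
  have he : 0 ≤ e := abs_nonneg _
  have he0 : 0 ≤ e0 := abs_nonneg _
  calc |(1 / 2) * D.dbar + spin s * (z.2 - D.dbar * z.1) - z.1 * z.2 +
        (1 / 2) * (D.d l0 + D.dbar) * z.1 ^ 2|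
      ≤ |(1 / 2) * D.dbar| + |spin s * (z.2 - D.dbar * z.1)| + |z.1 * z.2| +
        |(1 / 2) * (D.d l0 + D.dbar) * z.1 ^ 2| := by
        refine (abs_add_le _ _).trans (add_le_add ((abs_sub _ _).trans
          (add_le_add (abs_add_le _ _) le_rfl)) le_rfl)
    _ ≤ (1 / 2) * e + (b + e * a) + a * b + (1 / 2) * (e0 + e) * a ^ 2 := by
        gcongr
        · rw [abs_mul, abs_of_nonneg (by norm_num : (0 : ℝ) ≤ 1 / 2)]
        · rw [abs_mul, hs, one_mul]
          refine (abs_sub _ _).trans (add_le_add le_rfl ?_)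
          rw [abs_mul]
        · rw [abs_mul]
        · rw [abs_mul, abs_mul, abs_of_nonneg (by norm_num : (0 : ℝ) ≤ 1 / 2), abs_pow]
          gcongr
          exact abs_add_le _ _
    _ ≤ (e + e0 + 1) * (1 + (a + b) + (a + b) ^ 2) := by
        nlinarith [mul_nonneg he ha, mul_nonneg he hb, mul_nonneg he0 ha, mul_nonneg he0 hb,
          mul_nonneg ha hb, mul_nonneg he (mul_nonneg ha ha), mul_nonneg he (mul_nonneg ha hb),
          mul_nonneg he (mul_nonneg hb hb), mul_nonneg he0 (mul_nonneg ha ha),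
          mul_nonneg he0 (mul_nonneg ha hb), mul_nonneg he0 (mul_nonneg hb hb), sq_nonneg a,
          sq_nonneg b]

theorem ExGrB_DN_abs (D : Blk) (l0 : Fin D.K) (z : ℝ × ℝ) (s : Bool) :
    |DN D l0 z s| ≤ (|D.dbar| + |D.d l0| + 1) * (1 + (|z.1| + |z.2|) + (|z.1| + |z.2|) ^ 2) := by
  unfold DN
  have hs : |spin s| = 1 := abs_spin s
  set a := |z.1|
  set b := |z.2|
  have ha : 0 ≤ a := abs_nonneg _
  have hb : 0 ≤ b := abs_nonneg _
  set e := |D.dbar|
  set e0 := |D.d l0|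
  have he : 0 ≤ e := abs_nonneg _
  have he0 : 0 ≤ e0 := abs_nonneg _
  calc |(1 / 2) * D.dbar + z.2 * spin s - z.1 * z.2 - (1 / 2) * (D.dbar - D.d l0) * z.1 ^ 2|
      ≤ |(1 / 2) * D.dbar| + |z.2 * spin s| + |z.1 * z.2| +
        |(1 / 2) * (D.dbar - D.d l0) * z.1 ^ 2| := by
        refine (abs_sub _ _).trans (add_le_add ((abs_sub _ _).trans
          (add_le_add (abs_add_le _ _) le_rfl)) le_rfl)
    _ ≤ (1 / 2) * e + b + a * b + (1 / 2) * (e + e0) * a ^ 2 := by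
        gcongr
        · rw [abs_mul, abs_of_nonneg (by norm_num : (0 : ℝ) ≤ 1 / 2)]
        · rw [abs_mul, hs, mul_one]
        · rw [abs_mul]
        · rw [abs_mul, abs_mul, abs_of_nonneg (by norm_num : (0 : ℝ) ≤ 1 / 2), abs_pow]
          gcongr
          exact abs_sub _ _
    _ ≤ (e + e0 + 1) * (1 + (a + b) + (a + b) ^ 2) := by
        nlinarith [mul_nonneg he ha, mul_nonneg he hb, mul_nonneg he0 ha, mul_nonneg he0 hb,
          mul_nonneg ha hb, mul_nonneg he (mul_nonneg ha ha), mul_nonneg he (mul_nonneg ha hb),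
          mul_nonneg he (mul_nonneg hb hb), mul_nonneg he0 (mul_nonneg ha ha),
          mul_nonneg he0 (mul_nonneg ha hb), mul_nonneg he0 (mul_nonneg hb hb), sq_nonneg a,
          sq_nonneg b]

theorem jmeas_HZ (D : Blk) (l0 : Fin D.K) (A : ℝ) : JMeas (HZ D l0 A) := by
  unfold JMeas HZ
  exact ((measurable_chi A).1.comp (ExGrB_DZ_meas D l0)).add
    ((measurable_fst.comp measurable_snd).mul ExGrB_spin)

/-- `|χ_A| ≤ A` -/
theorem glin_HZ (D : Blk) (l0 : Fin D.K) {A : ℝ} (hA : 0 ≤ A) : GLin (HZ D l0 A) := by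
  refine ⟨A + 1, by positivity, fun y x s => ?_⟩
  have h1 : |HZ D l0 A y x s| ≤ A + |x| := by
    unfold HZ
    refine (abs_add_le _ _).trans (add_le_add (chi_abs hA _) ?_)
    rw [abs_mul, abs_spin, mul_one]
  have h2 : 0 ≤ |y.1| := abs_nonneg _
  have h3 : 0 ≤ |y.2| := abs_nonneg _
  have h4 : 0 ≤ |x| := abs_nonneg _
  refine h1.trans ?_
  nlinarith [mul_nonneg hA h2, mul_nonneg hA h3, mul_nonneg hA h4]

theorem jmeas_phiT (D : Blk) (l0 : Fin D.K) (A : ℝ) : JMeas (phiT D l0 A) := by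
  unfold JMeas phiT
  exact (((measurable_chi A).1.comp (ExGrB_DZ_meas D l0)).sub (ExGrB_DZ_meas D l0)).max
    measurable_const

theorem gexp_phiT (D : Blk) (l0 : Fin D.K) {A : ℝ} (hA : 0 ≤ A) : GExp (phiT D l0 A) := by
  refine ExGrB_quad (C := |D.dbar| + |D.d l0| + 1) (by positivity) (fun y x s => ?_)
  refine le_trans ?_ (ExGrB_DZ_abs D l0 y s)
  unfold phiT
  have h1 := chi_sub_abs hA (DZ D l0 y s)
  rw [abs_of_nonneg (le_max_right _ _)]
  refine max_le ?_ (abs_nonneg _)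
  calc chi A (DZ D l0 y s) - DZ D l0 y s ≤ |chi A (DZ D l0 y s) - DZ D l0 y s| := le_abs_self _
    _ = |DZ D l0 y s - chi A (DZ D l0 y s)| := abs_sub_comm _ _
    _ ≤ |DZ D l0 y s| := h1

theorem jmeas_FN (D : Blk) : JMeas (FN D) := by
  unfold JMeas FN
  refine measurable_const.add (Measurable.mul ?_ ExGrB_spin)
  fun_prop

theorem glin_FN (D : Blk) : GLin (FN D) := by
  refine ⟨|D.dbar| + 1, by positivity, fun y x s => ?_⟩
  have h1 : |FN D y x s| ≤ |D.dbar| + (|y.2| + |x|) := by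
    unfold FN
    refine (abs_add_le _ _).trans (add_le_add ?_ ?_)
    · rw [abs_mul, abs_of_nonneg (by norm_num : (0 : ℝ) ≤ 1 / 2)]
      have := abs_nonneg D.dbar
      linarith
    · rw [abs_mul, abs_spin, mul_one]
      exact abs_add_le _ _
  have h2 : 0 ≤ |y.1| := abs_nonneg _
  have h3 : 0 ≤ |y.2| := abs_nonneg _
  have h4 : 0 ≤ |x| := abs_nonneg _
  have h5 : 0 ≤ |D.dbar| := abs_nonneg _
  refine h1.trans ?_
  nlinarith [mul_nonneg h5 h2, mul_nonneg h5 h3, mul_nonneg h5 h4]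

theorem jmeas_phiN (D : Blk) (l0 : Fin D.K) (A : ℝ) : JMeas (phiN D l0 A) := by
  unfold JMeas phiN
  exact ((ExGrB_DN_meas D l0).sub ((measurable_chi A).1.comp (ExGrB_DN_meas D l0))).max
    measurable_const

/-- `chi_sub_abs : |x - χ_A x| ≤ |x|`; quadratic growth `≤ C exp (C ·)` -/
theorem gexp_phiN (D : Blk) (l0 : Fin D.K) {A : ℝ} (hA : 0 ≤ A) : GExp (phiN D l0 A) := by
  refine ExGrB_quad (C := |D.dbar| + |D.d l0| + 1) (by positivity) (fun y x s => ?_)
  refine le_trans ?_ (ExGrB_DN_abs D l0 y s)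
  unfold phiN
  have h1 := chi_sub_abs hA (DN D l0 y s)
  rw [abs_of_nonneg (le_max_right _ _)]
  refine max_le ?_ (abs_nonneg _)
  exact (le_abs_self _).trans h1

end Crest.Agent.RI
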