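import Crest.Agent.RI.ExAbs
import Crest.Agent.RI.ExGrB
import Crest.Agent.RI.ExCloB

/-!
# Row 164, Part 8.5: smallness of the error of the clamp in the new tower (chunk EXSL)
-/

set_option autoImplicit false

namespace Crest.Agent.RI

open MeasureTheory ProbabilityTheory

private theorem ExSL_DN (D : Blk) (l0 : Fin D.K) (y : ℝ × ℝ) (s : Bool) :
    |DN D l0 y s| ≤ (2 + |D.dbar| + D.M) * Real.exp (2 * (|y.1| + |y.2|)) := by
  unfold DN
  have hs : |spin s| = 1 := by cases s <;> simp [spin]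
  have hM := D.abs_d_le l0
  have hM0 := D.M_nonneg
  set a := |y.1| with ha
  set b := |y.2| with hb
  have ha0 : 0 ≤ a := abs_nonneg _
  have hb0 : 0 ≤ b := abs_nonneg _
  have hd0 := abs_nonneg D.dbar
  have e1 : |1 / 2 * D.dbar + y.2 * spin s - y.1 * y.2 - 1 / 2 * (D.dbar - D.d l0) * y.1 ^ 2| ≤
      (1 / 2) * |D.dbar| + b + a * b + (1 / 2) * (|D.dbar| + D.M) * a ^ 2 := by
    have t1 : |1 / 2 * D.dbar| = (1 / 2) * |D.dbar| := by rw [abs_mul]; norm_num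
    have t2 : |y.2 * spin s| = b := by rw [abs_mul, hs, mul_one]
    have t3 : |y.1 * y.2| = a * b := abs_mul _ _
    have t4 : |1 / 2 * (D.dbar - D.d l0) * y.1 ^ 2| ≤ (1 / 2) * (|D.dbar| + D.M) * a ^ 2 := by
      rw [abs_mul, abs_mul, abs_pow]
      have : |D.dbar - D.d l0| ≤ |D.dbar| + D.M := by
        refine (abs_sub _ _).trans ?_
        linarith
      have h2 : |(1 / 2 : ℝ)| = 1 / 2 := by norm_num
      rw [h2]
      gcongr
    calc _ ≤ |1 / 2 * D.dbar + y.2 * spin s - y.1 * y.2| + |1 / 2 * (D.dbar - D.d l0) * y.1 ^ 2| :=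
          abs_sub _ _
      _ ≤ |1 / 2 * D.dbar + y.2 * spin s| + |y.1 * y.2| + |1 / 2 * (D.dbar - D.d l0) * y.1 ^ 2| := by
          gcongr; exact abs_sub _ _
      _ ≤ |1 / 2 * D.dbar| + |y.2 * spin s| + |y.1 * y.2| +
          |1 / 2 * (D.dbar - D.d l0) * y.1 ^ 2| := by
          gcongr; exact abs_add_le _ _
      _ ≤ _ := by rw [t1, t2, t3]; gcongr
  refine e1.trans ?_
  have h1 : 1 + 2 * (a + b) + (2 * (a + b)) ^ 2 / 2 ≤ Real.exp (2 * (a + b)) :=
    Real.quadratic_le_exp_of_nonneg (by positivity)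
  have h3 : 1 ≤ Real.exp (2 * (a + b)) := Real.one_le_exp (by positivity)
  have hab := mul_nonneg ha0 hb0
  have h4 : a ^ 2 ≤ Real.exp (2 * (a + b)) := by nlinarith
  have h5 : b + a * b ≤ Real.exp (2 * (a + b)) := by nlinarith
  nlinarith [mul_le_mul_of_nonneg_left h4 (by positivity : 0 ≤ (1 / 2) * (|D.dbar| + D.M)),
    mul_le_mul_of_nonneg_left h3 hd0, mul_le_mul_of_nonneg_left h3 hM0]

private theorem ExSL_phi (D : Blk) (l0 : Fin D.K) {A : ℝ} (hA : 1 ≤ A) (y : ℝ × ℝ) (x : ℝ) (s : Bool) :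
    phiN D l0 A y x s ^ 2 ≤ (2 * Real.exp (-A) + 8 * (2 + |D.dbar| + D.M) ^ 4 / A) *
      Real.exp (8 * (|y.1| + |y.2|)) := by
  have hA0 : 0 ≤ A := by linarith
  have hM0 := D.M_nonneg
  set C := 2 + |D.dbar| + D.M with hC
  have hC0 : 0 ≤ C := by have := abs_nonneg D.dbar; positivity
  set Δ := DN D l0 y s with hΔ
  have hb := ExSL_DN D l0 y s
  rw [← hΔ, ← hC] at hb
  have h1 : phiN D l0 A y x s ≤ Real.exp (-A) + 2 * Δ ^ 2 / A := by
    unfold phiN
    rw [← hΔ]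
    refine max_le ?_ (by positivity)
    rcases le_total |Δ| (A / 2) with h | h
    · have := chi_sub_small hA0 h
      have h2 : 0 ≤ 2 * Δ ^ 2 / A := by positivity
      linarith [le_abs_self (Δ - chi A Δ)]
    · have h3 := chi_sub_abs hA0 Δ
      have h4 : |Δ| ≤ 2 * Δ ^ 2 / A := by
        rw [le_div_iff₀ (by linarith), ← sq_abs Δ]
        nlinarith [abs_nonneg Δ]
      have := Real.exp_pos (-A)
      linarith [le_abs_self (Δ - chi A Δ)]
  have h0 : 0 ≤ phiN D l0 A y x s := le_max_right _ _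
  have he8 : Real.exp (2 * (|y.1| + |y.2|)) ^ 4 = Real.exp (8 * (|y.1| + |y.2|)) := by
    rw [← Real.exp_nat_mul]; congr 1; push_cast; ring
  have hΔ4 : Δ ^ 4 ≤ C ^ 4 * Real.exp (8 * (|y.1| + |y.2|)) := by
    have := pow_le_pow_left₀ (abs_nonneg Δ) hb 4
    rw [mul_pow, he8] at this
    have e : |Δ| ^ 4 = Δ ^ 4 := by
      rw [show (4 : ℕ) = 2 * 2 from rfl, pow_mul, sq_abs, ← pow_mul]
    rwa [e] at this
  have h1e : 1 ≤ Real.exp (8 * (|y.1| + |y.2|)) := Real.one_le_exp (by positivity)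
  have heA : Real.exp (-A) ^ 2 ≤ Real.exp (-A) := by
    have h5 : Real.exp (-A) ≤ 1 := Real.exp_le_one_iff.2 (by linarith)
    nlinarith [Real.exp_pos (-A)]
  have h6 : (2 * Δ ^ 2 / A) ^ 2 ≤ 4 * (C ^ 4 * Real.exp (8 * (|y.1| + |y.2|))) / A := by
    rw [div_pow, div_le_div_iff₀ (by positivity) (by linarith)]
    have : (2 * Δ ^ 2) ^ 2 = 4 * Δ ^ 4 := by ring
    rw [this]
    have h7 : 0 ≤ Δ ^ 4 := by positivity
    nlinarith [mul_le_mul_of_nonneg_left hΔ4 (by positivity : 0 ≤ 4 * A), mul_nonneg h7 hA0,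
      mul_nonneg (mul_nonneg hA0 (by linarith : 0 ≤ A - 1)) (le_trans h7 hΔ4)]
  calc phiN D l0 A y x s ^ 2 ≤ (Real.exp (-A) + 2 * Δ ^ 2 / A) ^ 2 := pow_le_pow_left₀ h0 h1 2
    _ ≤ 2 * Real.exp (-A) ^ 2 + 2 * (2 * Δ ^ 2 / A) ^ 2 := by
        nlinarith [sq_nonneg (Real.exp (-A) - 2 * Δ ^ 2 / A)]
    _ ≤ 2 * Real.exp (-A) + 2 * (4 * (C ^ 4 * Real.exp (8 * (|y.1| + |y.2|))) / A) := by gcongr
    _ ≤ 2 * Real.exp (-A) * Real.exp (8 * (|y.1| + |y.2|)) +
        2 * (4 * (C ^ 4 * Real.exp (8 * (|y.1| + |y.2|))) / A) := by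
        exact add_le_add (le_mul_of_one_le_right (by positivity) h1e) le_rfl
    _ = _ := by ring

/-- `a/A + b e^{-A} → 0` -/
theorem small_fun (a b : ℝ) {ε : ℝ} (hε : 0 < ε) : ∃ A₀ : ℝ, 2 ≤ A₀ ∧ ∀ A ≥ A₀,
    a * Real.exp (-A) + b / A ≤ ε := by
  refine ⟨max 2 ((|a| + |b|) / ε), le_max_left _ _, fun A hA => ?_⟩
  have h2 : 2 ≤ A := le_trans (le_max_left _ _) hA
  have h3 : (|a| + |b|) / ε ≤ A := le_trans (le_max_right _ _) hA
  have hA0 : 0 < A := by linarith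
  have h4 : Real.exp (-A) ≤ 1 / A := by
    rw [Real.exp_neg, inv_eq_one_div]
    exact one_div_le_one_div_of_le hA0 (by linarith [Real.add_one_le_exp A])
  have h5 : a * Real.exp (-A) ≤ |a| * (1 / A) :=
    mul_le_mul (le_abs_self a) h4 (Real.exp_pos _).le (abs_nonneg a)
  have h6 : b / A ≤ |b| * (1 / A) := by
    rw [div_eq_mul_one_div]
    exact mul_le_mul_of_nonneg_right (le_abs_self b) (by positivity)
  have h7 : (|a| + |b|) * (1 / A) ≤ ε := by
    rw [mul_one_div, div_le_iff₀ hA0]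
    rw [div_le_iff₀ hε] at h3
    linarith
  linarith

/-- `E_{F} (Δ - χ_A(Δ))_+ → 0` as `A → ∞` in the new tower, uniformly in `k`, `p`. -/
theorem small_N (D : Blk) (bm : ℝ) {ε : ℝ} (hε : 0 < ε) : ∃ A₀ : ℝ, ∀ A ≥ A₀, ∀ (k i0 : ℕ), 0 < k →
    ∀ (p : ℕ → ℝ), PathOK k p → ∀ (l0 : Fin D.K) (b v : ℝ), |b| ≤ bm → 0 ≤ v → v ≤ 1 →
    pathE mEX2 (ζLB k) (k + 1) 0 (pthN (sN D l0 k p) (tN D k p) (vN i0 v) 0 (FN D) 0 b)
      (pthN (sN D l0 k p) (tN D k p) (vN i0 v) 0 (phiN D l0 A) 0 b) ≤ ε := by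
  have := mEX2_prob
  obtain ⟨Ct, hCt0, hCt⟩ := tN2_sum D
  set C := 2 + |D.dbar| + D.M with hC
  have hd0 := abs_nonneg D.dbar
  have hM0 := D.M_nonneg
  have hC0 : 0 ≤ C := by positivity
  set Ca := ∑ l, 1 / D.α l with hCa
  have hCa0 : 0 ≤ Ca := Finset.sum_nonneg fun l _ => by have := D.pos l; positivity
  set B := 8 * (Real.exp (10 * bm) * Real.exp ((1 / 2) * (10 ^ 2 * (Ca + Ct + 1)))) with hB
  set E1 := Real.exp (|D.dbar|) with hE1
  obtain ⟨A₀, hA2, hA₀⟩ := small_fun (2 * E1 * E1 * B ^ 2) (8 * C ^ 4 * E1 * E1 * B ^ 2)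
    (pow_pos hε 2)
  refine ⟨A₀, fun A hA k i0 hk p hp l0 b v hb hv0 hv1 => ?_⟩
  have hA1 : 1 ≤ A := by linarith
  set κ := 2 * Real.exp (-A) + 8 * C ^ 4 / A with hκ
  have hκ0 : 0 ≤ κ := by positivity
  have hsum : ∑ j ∈ Finset.range (k + 1), (sN D l0 k p j ^ 2 + tN D k p j ^ 2 + vN i0 v j ^ 2) ≤
      Ca + Ct + 1 := by
    rw [Finset.sum_add_distrib, Finset.sum_add_distrib]
    refine add_le_add (add_le_add ?_ ?_) ?_
    · have hr := rC_facts D hk hp l0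
      have hα := D.pos l0
      have e : ∀ j, sN D l0 k p j ^ 2 = rC D k p j l0 / D.α l0 := fun j =>
        Real.sq_sqrt (div_nonneg (hr.1 j) hα.le)
      simp only [e, ← Finset.sum_div]
      refine le_trans (div_le_div_of_nonneg_right hr.2 hα.le) ?_
      exact Finset.single_le_sum (f := fun l => 1 / D.α l)
        (fun l _ => by have := D.pos l; positivity) (Finset.mem_univ l0)
    · have e : ∀ j, tN D k p j ^ 2 = tN2 D k p j := fun j => Real.sq_sqrt (tN2_nonneg D hk hp j)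
      simp only [e]
      exact hCt k p hk hp
    · refine (sum_vN i0 v (k + 1)).trans ?_
      nlinarith
  have hbd := absN (sN D l0 k p) (tN D k p) (vN i0 v) (ζLB k) (exps_LB k) k (c := 10) (by norm_num) b
  have hB' : pathE mEX2 (ζLB k) (k + 1) 0 (fun _ => 0)
      (pthN (sN D l0 k p) (tN D k p) (vN i0 v) 0 (SA 10) 0 b) ≤ B := by
    refine hbd.trans ?_
    rw [hB]
    gcongr
  have key := pathE_small (m := mEX2) (ζ := ζLB k) dom_mEX2 (exps_LB k) (ζLB_mono k) k (ζLB_last hk)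
    (U := pthN (sN D l0 k p) (tN D k p) (vN i0 v) 0 (FN D) 0 b)
    (Φ := pthN (sN D l0 k p) (tN D k p) (vN i0 v) 0 (phiN D l0 A) 0 b)
    (S := pthN (sN D l0 k p) (tN D k p) (vN i0 v) 0 (SA 10) 0 b)
    (ham_pthN _ _ _ 0 k (jmeas_FN D) (glin_FN D) 0 b)
    (tame_pthN _ _ _ 0 k (jmeas_phiN D l0 A) (gexp_phiN D l0 (by linarith)) 0 b)
    (fun ω => le_max_right _ _)
    (tame_pthN _ _ _ 0 k (jmeas_SA 10) (gexp_SA (by norm_num)) 0 b)
    (A := 0) (κ := κ * E1) (C := E1) (B := B) (by positivity) (by positivity)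
    (fun ω => by
      unfold pthN
      generalize ((0 : ℝ × ℝ) + ∑ j : Fin (k + 1), (sN D l0 k p (0 + (j : ℕ)) * (ω j).1.1,
        tN D k p (0 + (j : ℕ)) * (ω j).1.2)) = y
      generalize (b + ∑ j : Fin (k + 1), vN i0 v (0 + (j : ℕ)) * (ω j).2.1) = x
      generalize (ω (Fin.last k)).2.2 = s
      have h1 := ExSL_phi D l0 hA1 y x s
      rw [← hC, ← hκ] at h1
      have hs : |spin s| = 1 := by cases s <;> simp [spin]
      have h2 : Real.exp (2 * FN D y x s + 2 * 0) ≤ E1 * Real.exp (2 * (|y.2| + |x|)) := by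
        rw [hE1, ← Real.exp_add]
        refine Real.exp_le_exp.2 ?_
        unfold FN
        have e1 : (y.2 + x) * spin s ≤ |y.2| + |x| := by
          refine (le_abs_self _).trans ?_
          rw [abs_mul, hs, mul_one]
          exact abs_add_le _ _
        linarith [le_abs_self D.dbar]
      unfold SA
      calc phiN D l0 A y x s ^ 2 * Real.exp (2 * FN D y x s + 2 * 0) ≤
          (κ * Real.exp (8 * (|y.1| + |y.2|))) * (E1 * Real.exp (2 * (|y.2| + |x|))) :=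
            mul_le_mul h1 h2 (Real.exp_pos _).le (by positivity)
        _ = κ * E1 * Real.exp (8 * (|y.1| + |y.2|) + 2 * (|y.2| + |x|)) := by
            rw [Real.exp_add]; ring
        _ ≤ κ * E1 * Real.exp (10 * (|y.1| + |y.2| + |x|)) := by
            refine mul_le_mul_of_nonneg_left (Real.exp_le_exp.2 ?_) (by positivity)
            linarith [abs_nonneg y.1, abs_nonneg y.2, abs_nonneg x])
    (fun ω => by
      unfold pthN
      generalize ((0 : ℝ × ℝ) + ∑ j : Fin (k + 1), (sN D l0 k p (0 + (j : ℕ)) * (ω j).1.1,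
        tN D k p (0 + (j : ℕ)) * (ω j).1.2)) = y
      generalize (b + ∑ j : Fin (k + 1), vN i0 v (0 + (j : ℕ)) * (ω j).2.1) = x
      generalize (ω (Fin.last k)).2.2 = s
      have hs : |spin s| = 1 := by cases s <;> simp [spin]
      unfold SA
      rw [hE1, ← Real.exp_add]
      refine Real.exp_le_exp.2 ?_
      unfold FN
      have e1 : -((y.2 + x) * spin s) ≤ |y.2| + |x| := by
        refine (neg_le_abs _).trans ?_
        rw [abs_mul, hs, mul_one]
        exact abs_add_le _ _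
      linarith [neg_le_abs D.dbar, abs_nonneg y.1, abs_nonneg y.2, abs_nonneg x])
    (fun ω => (Real.exp_pos _).le) hB'
  have hfin : κ * E1 * E1 * B ^ 2 ≤ ε ^ 2 := by
    have h3 := hA₀ A hA
    have e : κ * E1 * E1 * B ^ 2 = 2 * E1 * E1 * B ^ 2 * Real.exp (-A) +
        8 * C ^ 4 * E1 * E1 * B ^ 2 / A := by
      rw [hκ]; ring
    rw [e]
    exact h3
  exact abs_le_of_sq_le_sq' (key.trans hfin) hε.le |>.2

end Crest.Agent.RI
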