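import Crest.Agent.RI.TConvB
import Crest.Agent.RI.RhoFacts

/-!
# Row 164, Part 8.5: tools for the smallness of the clamp error (helper70)
-/

set_option autoImplicit false

namespace Crest.Agent.RI

open MeasureTheory ProbabilityTheory

section
variable {E : Type} [MeasurableSpace E] {m : Measure E} [IsProbabilityMeasure m] {ζ : ℕ → ℝ}
  {β : E → ℝ}

theorem ExSA_ham_abs {n : ℕ} {H : (Fin n → E) → ℝ} (h : Ham β H) : Ham β (fun ω => |H ω|) := by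
  obtain ⟨C, h0, h1⟩ := h.bound
  exact ⟨continuous_abs.measurable.comp h.meas, C, h0, fun ω => by rw [abs_abs]; exact h1 ω⟩

theorem ExSA_ham_zero {n : ℕ} : Ham β (fun _ : Fin n → E => (0 : ℝ)) :=
  ⟨measurable_const, 0, le_rfl, fun ω => by simp⟩

theorem ExSA_spin (y : ℝ) : ∃ s : Bool, spin s * y = |y| := by
  rcases le_total 0 y with h | h
  · exact ⟨true, by rw [abs_of_nonneg h]; simp [spin]⟩
  · exact ⟨false, by rw [abs_of_nonpos h]; simp [spin]⟩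

/-- exponentials of absolute values from exponentials of linear functions -/
theorem ExSA_abs (hβ : Dom m β) (hζ : Exps ζ) (n i : ℕ) {Y1 Y2 X : (Fin n → E) → ℝ}
    (h1 : Ham β Y1) (h2 : Ham β Y2) (h3 : Ham β X) {a b c M : ℝ}
    (hM : ∀ a' b' c' : ℝ, |a'| = |a| → |b'| = |b| → |c'| = |c| →
      pathE m ζ n i (fun _ => 0) (fun ω => Real.exp (a' * Y1 ω + b' * Y2 ω + c' * X ω)) ≤ M) :
    pathE m ζ n i (fun _ => 0) (fun ω => Real.exp (a * |Y1 ω| + b * |Y2 ω| + c * |X ω|)) ≤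
      8 * M := by
  have h0 : Ham β (fun _ : Fin n → E => (0 : ℝ)) := ExSA_ham_zero
  have hlin : ∀ a b c : ℝ, Tame β (fun ω => Real.exp (a * Y1 ω + b * Y2 ω + c * X ω)) :=
    fun a b c => Tame.exp hβ
      (((h1.const_mul a).add hβ (h2.const_mul b)).add hβ (h3.const_mul c))
  have habs : Tame β (fun ω => Real.exp (a * |Y1 ω| + b * |Y2 ω| + c * |X ω|)) :=
    Tame.exp hβ ((((ExSA_ham_abs h1).const_mul a).add hβ ((ExSA_ham_abs h2).const_mul b)).add hβ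
      ((ExSA_ham_abs h3).const_mul c))
  set f : Bool × Bool × Bool → (Fin n → E) → ℝ := fun t ω =>
    Real.exp (a * spin t.1 * Y1 ω + b * spin t.2.1 * Y2 ω + c * spin t.2.2 * X ω) with hf
  have hft : ∀ t ∈ (Finset.univ : Finset (Bool × Bool × Bool)), Tame β (f t) := fun t _ =>
    hlin _ _ _
  have hpt : ∀ ω, Real.exp (a * |Y1 ω| + b * |Y2 ω| + c * |X ω|) ≤ ∑ t, f t ω := by
    intro ω
    obtain ⟨s1, e1⟩ := ExSA_spin (Y1 ω)
    obtain ⟨s2, e2⟩ := ExSA_spin (Y2 ω)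
    obtain ⟨s3, e3⟩ := ExSA_spin (X ω)
    have h4 := Finset.single_le_sum (f := fun t => f t ω) (fun t _ => (Real.exp_pos _).le)
      (Finset.mem_univ (s1, s2, s3))
    refine le_trans (le_of_eq ?_) h4
    simp only [hf]
    rw [← e1, ← e2, ← e3]
    congr 1
    ring
  have hsp : ∀ (x : ℝ) (s : Bool), |x * spin s| = |x| := fun x s => by
    rw [abs_mul, abs_spin, mul_one]
  calc _ ≤ pathE m ζ n i (fun _ => 0) (fun ω => ∑ t, f t ω) :=
        pathE_mono hβ hζ n i h0 habs (tame_fsum hβ _ hft) hpt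
    _ = ∑ t, pathE m ζ n i (fun _ => 0) (f t) := pathE_fsum hβ hζ n i h0 _ hft
    _ ≤ ∑ _t : Bool × Bool × Bool, M :=
        Finset.sum_le_sum fun t _ => hM _ _ _ (hsp _ _) (hsp _ _) (hsp _ _)
    _ = 8 * M := by
        rw [Finset.sum_const, Finset.card_univ, nsmul_eq_mul]
        simp

/-- the density bound with a common dominating function -/
theorem ExSA_core (hβ : Dom m β) (hζ : Exps ζ) (hmono : Monotone ζ) (n : ℕ) (hlast : ζ n = 1)
    {U Φ G : (Fin (n + 1) → E) → ℝ} (hU : Ham β U) (hΦ : Tame β Φ) (h0 : ∀ ω, 0 ≤ Φ ω)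
    (hG : Tame β G) {K1 K2 B ε : ℝ} (hK1 : 0 ≤ K1)
    (hK2 : 0 ≤ K2) (hG0 : ∀ ω, 0 ≤ G ω)
    (h1 : ∀ ω, Φ ω ^ 2 * Real.exp (2 * U ω) ≤ K1 * G ω)
    (h2 : ∀ ω, Real.exp (-2 * U ω) ≤ K2 * G ω)
    (hB : pathE m ζ (n + 1) 0 (fun _ => 0) G ≤ B) (hε : 0 ≤ ε) (hfin : K1 * K2 * B ^ 2 ≤ ε ^ 2) :
    pathE m ζ (n + 1) 0 U Φ ≤ ε := by
  have hH : Ham β (fun _ : Fin (n + 1) → E => (0 : ℝ)) := ExSA_ham_zero
  have hd := pathE_density_sq hβ hζ hmono n 0 (by rw [zero_add]; exact hlast) hH hU hΦ h0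
  have e0 : (fun ω => (0 : ℝ) + U ω) = U := by
    funext ω
    rw [zero_add]
  rw [e0] at hd
  have t1 : Tame β (fun ω => Φ ω ^ 2 * Real.exp (2 * U ω)) :=
    Tame.mul hβ (TVar_tame_sq hβ hΦ) (Tame.exp hβ (hU.const_mul 2))
  have t2 : Tame β (fun ω => Real.exp (-2 * U ω)) := Tame.exp hβ (hU.const_mul (-2))
  have b1 := pathE_mono hβ hζ (n + 1) 0 hH t1 (TVar_tame_cmul hβ K1 hG) h1
  have b2 := pathE_mono hβ hζ (n + 1) 0 hH t2 (TVar_tame_cmul hβ K2 hG) h2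
  rw [pathE_mul] at b1 b2
  have g0 := TVar_pathE_nonneg hβ hζ (n + 1) 0 hH hG hG0
  have p2 := TVar_pathE_nonneg hβ hζ (n + 1) 0 hH t2 (fun ω => (Real.exp_pos _).le)
  have h3 : pathE m ζ (n + 1) 0 U Φ ^ 2 ≤ ε ^ 2 := by
    refine hd.trans ((mul_le_mul b1 b2 p2 (mul_nonneg hK1 g0)).trans (le_trans ?_ hfin))
    have h4 : pathE m ζ (n + 1) 0 (fun _ => 0) G ^ 2 ≤ B ^ 2 := pow_le_pow_left₀ g0 hB 2
    calc _ = K1 * K2 * pathE m ζ (n + 1) 0 (fun _ => 0) G ^ 2 := by ring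
      _ ≤ _ := mul_le_mul_of_nonneg_left h4 (mul_nonneg hK1 hK2)
  exact le_of_sq_le_sq h3 hε

end

theorem ExSA_cube {r : ℝ} (hr : 0 ≤ r) : (1 + r + r ^ 2) ^ 3 ≤ 18 ^ 3 * Real.exp r := by
  have h1 := Real.quadratic_le_exp_of_nonneg (show 0 ≤ r / 3 by positivity)
  have h2 : 1 + r + r ^ 2 ≤ 18 * Real.exp (r / 3) := by nlinarith
  refine (pow_le_pow_left₀ (by positivity) h2 3).trans (le_of_eq ?_)
  rw [mul_pow, ← Real.exp_nat_mul]
  congr 2
  push_cast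
  ring

theorem ExSA_four {r : ℝ} (hr : 0 ≤ r) : (1 + r + r ^ 2) ^ 4 ≤ 32 ^ 4 * Real.exp r := by
  have h1 := Real.quadratic_le_exp_of_nonneg (show 0 ≤ r / 4 by positivity)
  have h2 : 1 + r + r ^ 2 ≤ 32 * Real.exp (r / 4) := by nlinarith
  refine (pow_le_pow_left₀ (by positivity) h2 4).trans (le_of_eq ?_)
  rw [mul_pow, ← Real.exp_nat_mul]
  congr 2
  push_cast
  ring

theorem ExSA_exp_neg {A : ℝ} (hA : 0 < A) : Real.exp (-A) ≤ 1 / A := by
  rw [Real.exp_neg, ← one_div]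
  exact one_div_le_one_div_of_le hA (by linarith [Real.add_one_le_exp A])

end Crest.Agent.RI
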