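import Crest.Agent.RI.ExExp
import Crest.Agent.RI.ExGrB
import Crest.Agent.RI.ExCloB
import Crest.Agent.RI.ExSA

/-!
# Row 164, Part 8.5: smallness of the error of the clamp in the old tower (chunk EXSU)
-/

set_option autoImplicit false

namespace Crest.Agent.RI

open MeasureTheory ProbabilityTheory

theorem ExSU_glin1 : GLin (fun z _ _ => z.1) :=
  ⟨1, zero_le_one, fun y x s => by
    have h1 := abs_nonneg y.1
    have h2 := abs_nonneg y.2
    have h3 := abs_nonneg x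
    simp only
    linarith⟩

theorem ExSU_glin2 : GLin (fun z _ _ => z.2) :=
  ⟨1, zero_le_one, fun y x s => by
    have h1 := abs_nonneg y.1
    have h2 := abs_nonneg y.2
    have h3 := abs_nonneg x
    simp only
    linarith⟩

theorem ExSU_glin3 : GLin (fun _ x _ => x) :=
  ⟨1, zero_le_one, fun y x s => by
    have h1 := abs_nonneg y.1
    have h2 := abs_nonneg y.2
    have h3 := abs_nonneg x
    linarith⟩

theorem ExSU_jm1 : JMeas (fun z _ _ => z.1) := by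
  unfold JMeas
  fun_prop

theorem ExSU_jm2 : JMeas (fun z _ _ => z.2) := by
  unfold JMeas
  fun_prop

theorem ExSU_jm3 : JMeas (fun _ x _ => x) := by
  unfold JMeas
  fun_prop

theorem ExSU_vN (i0 k : ℕ) (v : ℝ) : ∑ j ∈ Finset.range (k + 1), vN i0 v j ^ 2 ≤ v ^ 2 := by
  unfold vN
  by_cases h : i0 ∈ Finset.range (k + 1)
  · rw [Finset.sum_eq_single i0]
    · simp
    · intro b _ hb
      simp [hb]
    · intro h'; exact absurd h h'
  · rw [Finset.sum_eq_zero]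
    · exact sq_nonneg _
    · intro b hb
      have : b ≠ i0 := fun e => h (e ▸ hb)
      simp [this]

/-- uniform exponential moment -/
theorem ExSU_mgf (D : Blk) : ∃ B : ℝ, 0 ≤ B ∧ ∀ (k i0 : ℕ), 0 < k → ∀ p : ℕ → ℝ, PathOK k p →
    ∀ v : ℝ, 0 ≤ v → v ≤ 1 →
    pathE (mT D.K) (ζLB k) (k + 1) 0 (fun _ => 0)
      (fun ω => Real.exp (1 * |pthT D (rC D k p) (vN i0 v) 0 (n := k) (fun z _ _ => z.1) 0 0 ω| +
        1 * |pthT D (rC D k p) (vN i0 v) 0 (n := k) (fun z _ _ => z.2) 0 0 ω| +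
        2 * |pthT D (rC D k p) (vN i0 v) 0 (n := k) (fun _ x _ => x) 0 0 ω|)) ≤ B := by
  set Dm := ∑ l, |D.d l| with hDm
  have hDm0 : 0 ≤ Dm := Finset.sum_nonneg fun l _ => abs_nonneg _
  refine ⟨8 * Real.exp ((1 / 2) * ((1 + Dm) ^ 2 * D.K + 4)), by positivity, ?_⟩
  intro k i0 hk p hp v hv0 hv1
  have hprob := mT_prob D.K
  have hβ := dom_mT D.K
  have hζ := exps_LB k
  have hr : ∀ i l, 0 ≤ rC D k p i l := fun i l => (rC_facts D hk hp l).1 i
  refine ExSA_abs hβ hζ (k + 1) 0 (ham_pthT D _ _ 0 k ExSU_jm1 ExSU_glin1 0 0)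
    (ham_pthT D _ _ 0 k ExSU_jm2 ExSU_glin2 0 0) (ham_pthT D _ _ 0 k ExSU_jm3 ExSU_glin3 0 0) ?_
  intro a b c ha hb hc
  rw [abs_one] at ha hb
  have hc' : c ^ 2 = 4 := by
    rw [← sq_abs, hc, sq_abs]
    norm_num
  have h := mgf_T D (rC D k p) hr (vN i0 v) (ζLB k) k a b c
  have e : (fun ω => Real.exp (a * pthT D (rC D k p) (vN i0 v) 0 (n := k)
        (fun z _ _ => z.1) 0 0 ω +
      b * pthT D (rC D k p) (vN i0 v) 0 (n := k) (fun z _ _ => z.2) 0 0 ω +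
      c * pthT D (rC D k p) (vN i0 v) 0 (n := k) (fun _ x _ => x) 0 0 ω)) =
      pthT D (rC D k p) (vN i0 v) 0 (n := k)
        (fun z x _ => Real.exp (a * z.1 + b * z.2 + c * x)) 0 0 := rfl
  rw [e, h]
  apply Real.exp_le_exp.2
  apply mul_le_mul_of_nonneg_left _ (by norm_num : (0 : ℝ) ≤ 1 / 2)
  rw [Finset.sum_add_distrib]
  refine add_le_add ?_ ?_
  · rw [Finset.sum_comm]
    have h1 : ∀ l : Fin D.K, ∑ j ∈ Finset.range (k + 1), (a + b * D.d l) ^ 2 * rC D k p j l ≤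
        (1 + Dm) ^ 2 := by
      intro l
      rw [← Finset.mul_sum]
      have h2 : |a + b * D.d l| ≤ 1 + Dm := by
        refine (abs_add_le _ _).trans ?_
        rw [ha, abs_mul, hb, one_mul]
        have := Finset.single_le_sum (f := fun l => |D.d l|) (fun l _ => abs_nonneg _)
          (Finset.mem_univ l)
        linarith
      have h3 : (a + b * D.d l) ^ 2 ≤ (1 + Dm) ^ 2 := by
        rw [← sq_abs (a + b * D.d l)]
        exact pow_le_pow_left₀ (abs_nonneg _) h2 2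
      have h4 := (rC_facts D hk hp l).2
      have h5 : 0 ≤ ∑ j ∈ Finset.range (k + 1), rC D k p j l :=
        Finset.sum_nonneg fun j _ => hr j l
      calc _ ≤ (1 + Dm) ^ 2 * 1 := mul_le_mul h3 h4 h5 (by positivity)
        _ = _ := mul_one _
    refine (Finset.sum_le_sum fun l _ => h1 l).trans (le_of_eq ?_)
    rw [Finset.sum_const, Finset.card_univ, Fintype.card_fin, nsmul_eq_mul]
    ring
  · rw [← Finset.mul_sum, hc']
    have h1 := ExSU_vN i0 k v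
    have h2 : v ^ 2 ≤ 1 := by nlinarith
    linarith

/-- `E_{H_A} (χ_A(Δ) - Δ)_+ → 0` as `A → ∞`, uniformly in `k`, `p`.
PROOF: `pathE_density_sq` with `H = 0`, `U = H_A = χ_A(Δ) + xε`, `Φ = phiT ≥ 0`, `n = k`, `i = 0` (`ζLB_last`):
`(E_{H_A} Φ)² ≤ E_0(Φ² e^{2U}) · E_0 e^{-2U}`.  `e^{-2U} ≤ e^{2A} e^{2|x|}` (`chi_abs`), so the product is at most
`E_0(Φ² e^{2χ_A(Δ) + 2A} e^{2|x|}) · E_0 e^{2|x|}` and by `chi_key`
`Φ² e^{2χ_A(Δ)+2A} ≤ 2 (e^{-A} + |Δ|³/A)`.  `|Δ| ≤ C (1 + g² + G²)`, `|Δ|³ ≤ C' (e^{|g|} + e^{|G|})`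
(`|x|⁶ ≤ 720 e^{|x|}`), `e^{|y|} ≤ e^y + e^{-y}`, so everything is a finite sum of exponentials
`exp (a g + b G + c x)`, `|a|, |b| ≤ 2`, `|c| ≤ 2`, with `x = b₀ + v η'` and `E_0 exp(…) ≤ exp(const)` by `mgf_T` and
`rC_facts` (`Σ_j r_{j,l} ≤ 1`), `Σ_j vN_j² ≤ v² ≤ 1`.  The constants depend on `D`, `bm` only. -/
theorem small_T (D : Blk) (bm : ℝ) {ε : ℝ} (hε : 0 < ε) : ∃ A₀ : ℝ, ∀ A ≥ A₀, ∀ (k i0 : ℕ), 0 < k →
    ∀ (p : ℕ → ℝ), PathOK k p → ∀ (l0 : Fin D.K) (b v : ℝ), |b| ≤ bm → 0 ≤ v → v ≤ 1 →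
    pathE (mT D.K) (ζLB k) (k + 1) 0 (pthT D (rC D k p) (vN i0 v) 0 (HZ D l0 A) 0 b)
      (pthT D (rC D k p) (vN i0 v) 0 (phiT D l0 A) 0 b) ≤ ε := by
  obtain ⟨B, hB0, hB⟩ := ExSU_mgf D
  set C0 : ℝ := |D.dbar| + (∑ l, |D.d l|) + 1 with hC0
  have hC00 : 0 ≤ C0 := by
    have := Finset.sum_nonneg fun (l : Fin D.K) (_ : l ∈ Finset.univ) => abs_nonneg (D.d l)
    positivity
  set C1 : ℝ := C0 ^ 3 * 18 ^ 3 with hC1
  have hC10 : 0 ≤ C1 := by positivity
  set C2 : ℝ := 2 * (1 + C1) * Real.exp (2 * bm) * Real.exp (2 * bm) * B ^ 2 with hC2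
  have hC20 : 0 ≤ C2 := by positivity
  refine ⟨max 2 (C2 / ε ^ 2), ?_⟩
  intro A hA k i0 hk p hp l0 b v hb hv0 hv1
  have hA2 : 2 ≤ A := (le_max_left _ _).trans hA
  have hA0 : 0 < A := by linarith
  have hAC : C2 / ε ^ 2 ≤ A := (le_max_right _ _).trans hA
  have hprob := mT_prob D.K
  have hβ := dom_mT D.K
  have hζ := exps_LB k
  set Y1 : (Fin (k + 1) → ET D.K) → ℝ :=
    pthT D (rC D k p) (vN i0 v) 0 (n := k) (fun z _ _ => z.1) 0 0 with hY1
  set Y2 : (Fin (k + 1) → ET D.K) → ℝ :=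
    pthT D (rC D k p) (vN i0 v) 0 (n := k) (fun z _ _ => z.2) 0 0 with hY2
  set X : (Fin (k + 1) → ET D.K) → ℝ :=
    pthT D (rC D k p) (vN i0 v) 0 (n := k) (fun _ x _ => x) 0 0 with hX
  have hYH1 : Ham βT Y1 := ham_pthT D _ _ 0 k ExSU_jm1 ExSU_glin1 0 0
  have hYH2 : Ham βT Y2 := ham_pthT D _ _ 0 k ExSU_jm2 ExSU_glin2 0 0
  have hXH : Ham βT X := ham_pthT D _ _ 0 k ExSU_jm3 ExSU_glin3 0 0
  have hev : ∀ (F : ℝ × ℝ → ℝ → Bool → ℝ) (ω : Fin (k + 1) → ET D.K),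
      pthT D (rC D k p) (vN i0 v) 0 F 0 b ω = F (Y1 ω, Y2 ω) (b + X ω) (ω (Fin.last k)).2.2 := by
    intro F ω
    simp only [hY1, hY2, hX, pthT, zero_add, Prod.mk.eta]
  have hexp1 : ∀ ω, Real.exp (2 * |b + X ω|) ≤ Real.exp (2 * bm) * Real.exp (2 * |X ω|) := by
    intro ω
    rw [← Real.exp_add]
    apply Real.exp_le_exp.2
    have := abs_add_le b (X ω)
    linarith
  have hbm : 0 ≤ bm := (abs_nonneg _).trans hb
  -- the bound of `Φ² exp (2χ + 2A)`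
  have hkey : ∀ (y : ℝ × ℝ) (s : Bool), (max (chi A (DZ D l0 y s) - DZ D l0 y s) 0) ^ 2 *
      Real.exp (2 * chi A (DZ D l0 y s) + 2 * A) ≤
      (2 * (1 + C1) / A) * Real.exp (|y.1| + |y.2|) := by
    intro y s
    refine (chi_key hA2).trans ?_
    have hr0 : 0 ≤ |y.1| + |y.2| := by positivity
    have h1 : |DZ D l0 y s| ≤ C0 * (1 + (|y.1| + |y.2|) + (|y.1| + |y.2|) ^ 2) := by
      refine (ExGrB_DZ_abs D l0 y s).trans (mul_le_mul_of_nonneg_right ?_ (by positivity))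
      have := Finset.single_le_sum (f := fun l => |D.d l|) (fun l _ => abs_nonneg _)
        (Finset.mem_univ l0)
      rw [hC0]
      linarith
    have h2 : |DZ D l0 y s| ^ 3 ≤ C1 * Real.exp (|y.1| + |y.2|) := by
      refine (pow_le_pow_left₀ (abs_nonneg _) h1 3).trans ?_
      rw [mul_pow, hC1, mul_assoc]
      exact mul_le_mul_of_nonneg_left (ExSA_cube hr0) (by positivity)
    have h3 : Real.exp (-A) ≤ 1 / A := ExSA_exp_neg hA0
    have h4 : (1 : ℝ) ≤ Real.exp (|y.1| + |y.2|) := Real.one_le_exp hr0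
    have h5 : Real.exp (-A) ≤ Real.exp (|y.1| + |y.2|) / A := by
      refine h3.trans (div_le_div_of_nonneg_right h4 hA0.le)
    have h6 : |DZ D l0 y s| ^ 3 / A ≤ C1 * Real.exp (|y.1| + |y.2|) / A :=
      div_le_div_of_nonneg_right h2 hA0.le
    calc 2 * (Real.exp (-A) + |DZ D l0 y s| ^ 3 / A) ≤
        2 * (Real.exp (|y.1| + |y.2|) / A + C1 * Real.exp (|y.1| + |y.2|) / A) := by linarith
      _ = _ := by ring
  refine ExSA_core hβ hζ (ζLB_mono k) k (ζLB_last hk) (G := fun ω =>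
      Real.exp (1 * |Y1 ω| + 1 * |Y2 ω| + 2 * |X ω|))
    (K1 := (2 * (1 + C1) / A) * Real.exp (-(2 * A)) * Real.exp (2 * bm))
    (K2 := Real.exp (2 * A) * Real.exp (2 * bm)) (B := B)
    (ham_pthT D _ _ 0 k (jmeas_HZ D l0 A) (glin_HZ D l0 hA0.le) 0 b)
    (tame_pthT D _ _ 0 k (jmeas_phiT D l0 A) (gexp_phiT D l0 hA0.le) 0 b) ?_ ?_ (by positivity)
    (by positivity) ?_ ?_ ?_ (hB k i0 hk p hp v hv0 hv1) hε.le ?_
  · intro ω
    rw [hev]
    exact le_max_right _ _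
  · exact Tame.exp hβ ((((ExSA_ham_abs hYH1).const_mul 1).add hβ
      ((ExSA_ham_abs hYH2).const_mul 1)).add hβ ((ExSA_ham_abs hXH).const_mul 2))
  · intro ω
    exact (Real.exp_pos _).le
  · intro ω
    rw [hev, hev]
    set s := (ω (Fin.last k)).2.2
    have h1 := hkey (Y1 ω, Y2 ω) s
    have h2 := hexp1 ω
    have h3 : Real.exp (2 * ((b + X ω) * spin s)) ≤ Real.exp (2 * |b + X ω|) := by
      apply Real.exp_le_exp.2
      have : (b + X ω) * spin s ≤ |b + X ω| := by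
        refine (le_abs_self _).trans (le_of_eq ?_)
        rw [abs_mul, abs_spin, mul_one]
      linarith
    have e1 : Real.exp (2 * (HZ D l0 A (Y1 ω, Y2 ω) (b + X ω) s)) =
        Real.exp (2 * chi A (DZ D l0 (Y1 ω, Y2 ω) s) + 2 * A) * Real.exp (-(2 * A)) *
          Real.exp (2 * ((b + X ω) * spin s)) := by
      rw [← Real.exp_add, ← Real.exp_add]
      congr 1
      unfold HZ
      ring
    have e2 : Real.exp (1 * |Y1 ω| + 1 * |Y2 ω| + 2 * |X ω|) =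
        Real.exp (|Y1 ω| + |Y2 ω|) * Real.exp (2 * |X ω|) := by
      rw [← Real.exp_add]
      congr 1
      ring
    rw [e1, e2]
    unfold phiT
    calc _ = ((max (chi A (DZ D l0 (Y1 ω, Y2 ω) s) - DZ D l0 (Y1 ω, Y2 ω) s) 0) ^ 2 *
          Real.exp (2 * chi A (DZ D l0 (Y1 ω, Y2 ω) s) + 2 * A)) * Real.exp (-(2 * A)) *
          Real.exp (2 * ((b + X ω) * spin s)) := by ring
      _ ≤ ((2 * (1 + C1) / A) * Real.exp (|Y1 ω| + |Y2 ω|)) * Real.exp (-(2 * A)) *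
          (Real.exp (2 * bm) * Real.exp (2 * |X ω|)) :=
          mul_le_mul (mul_le_mul_of_nonneg_right h1 (Real.exp_pos _).le) (h3.trans h2)
            (Real.exp_pos _).le (by positivity)
      _ = _ := by ring
  · intro ω
    rw [hev]
    set s := (ω (Fin.last k)).2.2
    have h2 := hexp1 ω
    have h3 : Real.exp (-2 * ((b + X ω) * spin s)) ≤ Real.exp (2 * |b + X ω|) := by
      apply Real.exp_le_exp.2
      have : -((b + X ω) * spin s) ≤ |b + X ω| := by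
        refine (neg_le_abs _).trans (le_of_eq ?_)
        rw [abs_mul, abs_spin, mul_one]
      linarith
    have h4 : Real.exp (-2 * chi A (DZ D l0 (Y1 ω, Y2 ω) s)) ≤ Real.exp (2 * A) := by
      apply Real.exp_le_exp.2
      have := (abs_le.1 (chi_abs hA0.le (DZ D l0 (Y1 ω, Y2 ω) s))).1
      linarith
    have h5 : (1 : ℝ) ≤ Real.exp (|Y1 ω| + |Y2 ω|) := Real.one_le_exp (by positivity)
    have e1 : Real.exp (-2 * (HZ D l0 A (Y1 ω, Y2 ω) (b + X ω) s)) =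
        Real.exp (-2 * chi A (DZ D l0 (Y1 ω, Y2 ω) s)) *
          Real.exp (-2 * ((b + X ω) * spin s)) := by
      rw [← Real.exp_add]
      congr 1
      unfold HZ
      ring
    have e2 : Real.exp (1 * |Y1 ω| + 1 * |Y2 ω| + 2 * |X ω|) =
        Real.exp (|Y1 ω| + |Y2 ω|) * Real.exp (2 * |X ω|) := by
      rw [← Real.exp_add]
      congr 1
      ring
    rw [e1, e2]
    calc _ ≤ Real.exp (2 * A) * (Real.exp (2 * bm) * Real.exp (2 * |X ω|)) :=
          mul_le_mul h4 (h3.trans h2) (Real.exp_pos _).le (Real.exp_pos _).le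
      _ = Real.exp (2 * A) * Real.exp (2 * bm) * (1 * Real.exp (2 * |X ω|)) := by ring
      _ ≤ _ := mul_le_mul_of_nonneg_left
          (mul_le_mul_of_nonneg_right h5 (Real.exp_pos _).le) (by positivity)
  · have e1 : Real.exp (-(2 * A)) * Real.exp (2 * A) = 1 := by
      rw [← Real.exp_add, neg_add_cancel, Real.exp_zero]
    have e2 : 2 * (1 + C1) / A * Real.exp (-(2 * A)) * Real.exp (2 * bm) *
        (Real.exp (2 * A) * Real.exp (2 * bm)) * B ^ 2 = C2 / A := by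
      calc _ = (Real.exp (-(2 * A)) * Real.exp (2 * A)) *
            (2 * (1 + C1) * Real.exp (2 * bm) * Real.exp (2 * bm) * B ^ 2) / A := by ring
        _ = _ := by rw [e1, one_mul]
    rw [e2, div_le_iff₀ hA0]
    rw [div_le_iff₀ (by positivity)] at hAC
    linarith

end Crest.Agent.RI
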