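import Crest.Agent.RI.RPrimeA

/-!
# Row 164, Part 8.5: facts about `ψ_l`, `ψ'_l` (helper50)
-/

set_option autoImplicit false

namespace Crest.Agent.RI

open MeasureTheory ProbabilityTheory
open Crest.ProbabilityR.InvariantGlass

variable (D : Blk)

theorem Blk.ψ_eq {x : ℝ} (hx : 0 ≤ x) (l : Fin D.K) : D.ψ l x = Real.log (D.V l x) := by
  unfold Blk.ψ
  rcases hx.eq_or_lt with h | h
  · rw [← h, if_neg (lt_irrefl _), D.V_zero, Real.log_one]
  · rw [if_pos h, D.V_eq h]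

/-- `𝒢(x) = ∫_0^x R` -/
noncomputable def Blk.Gc (x : ℝ) : ℝ := ∫ t in (0 : ℝ)..x, D.R t

theorem Blk.Gc_zero : D.Gc 0 = 0 := intervalIntegral.integral_same

theorem Blk.Gc_hasDerivWithinAt {x : ℝ} (hx : 0 ≤ x) :
    HasDerivWithinAt D.Gc (D.R x) (Set.Ici 0) x := by
  have hc : ContinuousOn D.R (Set.Icc 0 (x + 1)) := D.R_continuousOn.mono fun y hy => hy.1
  have hii : IntervalIntegrable D.R volume 0 x := by
    apply ContinuousOn.intervalIntegrable
    rw [Set.uIcc_of_le hx]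
    exact D.R_continuousOn.mono fun y hy => hy.1
  have hx' : x ∈ Set.Icc (0 : ℝ) (x + 1) := ⟨hx, by linarith⟩
  have : Fact (x ∈ Set.Icc (0 : ℝ) (x + 1)) := ⟨hx'⟩
  have h1 : HasDerivWithinAt (fun u => ∫ t in (0 : ℝ)..u, D.R t) (D.R x) (Set.Icc 0 (x + 1)) x :=
    intervalIntegral.integral_hasDerivWithinAt_right hii
      (hc.stronglyMeasurableAtFilter_nhdsWithin measurableSet_Icc x) (hc x hx')
  refine h1.mono_of_mem_nhdsWithin ?_
  rw [← Set.Ici_inter_Iic]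
  exact inter_mem_nhdsWithin _ (Iic_mem_nhds (by linarith))

/-- `Σ α_l (R - d_l)/V_l = 0` -/
theorem Blk.sum_αV {x : ℝ} (hx : 0 ≤ x) : ∑ l, D.α l * (D.R x - D.d l) / D.V l x = 0 := by
  have e : ∀ l, D.α l * (D.R x - D.d l) / D.V l x =
      D.R x * (D.α l / D.V l x) - D.α l * D.d l / D.V l x := by intro l; ring
  rw [Finset.sum_congr rfl fun l _ => e l, Finset.sum_sub_distrib, ← Finset.mul_sum,
    D.sum_V hx, D.sum_V_d hx]
  ring

theorem Blk.ψ_hasDerivWithinAt {x : ℝ} (hx : 0 ≤ x) (l : Fin D.K) :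
    HasDerivWithinAt (D.ψ l) ((D.Θ x - D.d l) / D.V l x) (Set.Ici 0) x := by
  have h1 : HasDerivWithinAt (D.V l) (D.Θ x - D.d l) (Set.Ici 0) x := by
    have := ((D.F_hasDerivWithinAt hx).const_add 1).sub
      ((hasDerivWithinAt_id x (Set.Ici 0)).mul_const (D.d l))
    rw [one_mul] at this
    exact this
  have h2 := h1.log (D.V_pos hx l).ne'
  exact h2.congr (fun y hy => D.ψ_eq hy l) (D.ψ_eq hx l)

theorem Blk.sum_ψ {x : ℝ} (hx : 0 ≤ x) : ∑ l, D.α l * D.ψ l x = x * D.R x - D.Gc x := by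
  -- `Z = Σ α ψ - F + Gc` has zero derivative
  have h1 : ∀ y, 0 ≤ y → HasDerivWithinAt (fun y => ∑ l, D.α l * D.ψ l y - D.F y + D.Gc y) 0
      (Set.Ici 0) y := by
    intro y hy
    have h2 : HasDerivWithinAt (fun y => ∑ l, D.α l * D.ψ l y)
        (∑ l, D.α l * ((D.Θ y - D.d l) / D.V l y)) (Set.Ici 0) y :=
      HasDerivWithinAt.fun_sum fun l _ => (D.ψ_hasDerivWithinAt hy l).const_mul (D.α l)
    have h3 := (h2.sub (D.F_hasDerivWithinAt hy)).add (D.Gc_hasDerivWithinAt hy)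
    refine h3.congr_deriv ?_
    have e : ∀ l, D.α l * ((D.Θ y - D.d l) / D.V l y) =
        D.Θ y * (D.α l / D.V l y) - D.α l * D.d l / D.V l y := by intro l; ring
    rw [Finset.sum_congr rfl fun l _ => e l, Finset.sum_sub_distrib, ← Finset.mul_sum,
      D.sum_V hy, D.sum_V_d hy]
    ring
  have h4 : (∑ l, D.α l * D.ψ l x - D.F x + D.Gc x) = ∑ l, D.α l * D.ψ l 0 - D.F 0 + D.Gc 0 := by
    refine (convex_Ici (0 : ℝ)).is_const_of_fderivWithin_eq_zero
      (f := fun y => ∑ l, D.α l * D.ψ l y - D.F y + D.Gc y) (𝕜 := ℝ)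
      (fun y hy => (h1 y hy).differentiableWithinAt) (fun y hy => ?_) hx (Set.mem_Ici.2 le_rfl)
    have := (h1 y hy).hasFDerivWithinAt.fderivWithin ((uniqueDiffOn_Ici 0) y hy)
    rw [this]
    ext
    simp
  have h5 : ∀ l, D.ψ l 0 = 0 := fun l => by unfold Blk.ψ; rw [if_neg (lt_irrefl _)]
  have h6 : ∑ l, D.α l * D.ψ l 0 = 0 := Finset.sum_eq_zero fun l _ => by rw [h5, mul_zero]
  rw [h6, D.F_zero, D.Gc_zero] at h4
  have h7 : D.F x = x * D.R x := rfl
  linarith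

theorem Blk.sum_ψ' {x : ℝ} (hx : 0 ≤ x) : ∑ l, D.α l * D.ψ' l x = x * D.R' x := by
  have hW := D.W_ge_one hx
  have hW0 : D.W x ≠ 0 := by linarith
  have e : ∀ l, D.α l * D.ψ' l x = (x * D.R' x) * D.α l +
      (1 / D.W x) * (D.α l * (D.R x - D.d l) / D.V l x) := by
    intro l
    have h3 := (D.V_pos hx l).ne'
    rw [D.ψ'_eq hx]
    field_simp
  rw [Finset.sum_congr rfl fun l _ => e l, Finset.sum_add_distrib, ← Finset.mul_sum,
    ← Finset.mul_sum, D.sum_αV hx, D.sum]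
  ring

end Crest.Agent.RI
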