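import Crest.Agent.RI.ExTr
import Crest.Agent.RI.ExNew
import Crest.Agent.RI.ExSU
import Crest.Agent.RI.ExSL
import Crest.Agent.RI.RPrime

/-!
# Row 164, Part 8.5: the exact evaluation of the one-step functional (helper35)
-/

set_option autoImplicit false

namespace Crest.Agent.RI

open MeasureTheory ProbabilityTheory
open Crest.ProbabilityR.InvariantGlass

private theorem ExFin_recT_congr {ζ τ τ' : ℕ → ℝ} (n : ℕ) : ∀ (i : ℕ) (f : ℝ → ℝ),
    (∀ j, i ≤ j → j < i + n → τ j = τ' j) → recT ζ τ n i f = recT ζ τ' n i f := by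
  induction n with
  | zero => intro i f _; rfl
  | succ n ih =>
    intro i f h
    simp only [recT]
    rw [h i le_rfl (by omega), ih (i + 1) f fun j h1 h2 => h j (by omega) (by omega)]

theorem HT_eq {k : ℕ} (D : Blk) (l0 : Fin D.K) (A b v : ℝ) (i0 : Fin k) (r : ℕ → Fin D.K → ℝ)
    (ω : Fin (k + 1) → ET D.K) :
    HT D l0 A b v i0 r ω = pthT D r (vN i0 v) 0 (HZ D l0 A) 0 b ω := by
  unfold HT pthT HZ DZ DInf epT zT vN dz
  have h1 : ∑ j : Fin (k + 1), (if (0 + (j : ℕ)) = (i0 : ℕ) then v else 0) * (ω j).2.1 =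
      v * (ω i0.castSucc).2.1 := by
    rw [Finset.sum_eq_single i0.castSucc]
    · simp
    · intro j _ hj
      rw [if_neg, zero_mul]
      intro h
      apply hj
      ext
      simpa using h
    · simp
  rw [h1]
  have h2 : (0 + ∑ j : Fin (k + 1), ((∑ l, Real.sqrt (r (0 + (j : ℕ)) l) * (ω j).1 l,
      ∑ l, D.d l * (Real.sqrt (r (0 + (j : ℕ)) l) * (ω j).1 l)) : ℝ × ℝ)) =
      (∑ l, ∑ i : Fin (k + 1), Real.sqrt (r i l) * (ω i).1 l,
        ∑ l, D.d l * ∑ i : Fin (k + 1), Real.sqrt (r i l) * (ω i).1 l) := by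
    rw [zero_add]
    refine Prod.ext ?_ ?_
    · rw [Prod.fst_sum]
      simp only [zero_add]
      exact Finset.sum_comm
    · rw [Prod.snd_sum]
      simp only [zero_add, Finset.mul_sum]
      exact Finset.sum_comm
  rw [h2]

theorem HZ_sub (D : Blk) (l0 : Fin D.K) (A : ℝ) (z : ℝ × ℝ) (x : ℝ) (s : Bool) :
    HZ D l0 A z x s - phiT D l0 A z x s =
      exqq D l0 0 z + (FN D (exZ D l0 0 z) x s - phiN D l0 A (exZ D l0 0 z) x s) := by
  have hV : D.V l0 0 = 1 := D.V_zero l0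
  have hR : D.R 0 = D.dbar := D.R_zero
  have e1 : DN D l0 (exZ D l0 0 z) s = DZ D l0 z s := by
    unfold DN exZ DZ DI
    rw [hV, hR]
    simp only
    ring
  have e2 : exqq D l0 0 z + FN D (exZ D l0 0 z) x s = DZ D l0 z s + x * spin s := by
    unfold exqq FN exZ DZ DI
    rw [hV, hR]
    simp only
    ring
  have e3 : max (chi A (DZ D l0 z s) - DZ D l0 z s) 0 - max (DZ D l0 z s - chi A (DZ D l0 z s)) 0 =
      chi A (DZ D l0 z s) - DZ D l0 z s := by
    rcases le_total (chi A (DZ D l0 z s)) (DZ D l0 z s) with h | h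
    · rw [max_eq_right (by linarith), max_eq_left (by linarith)]; ring
    · rw [max_eq_left (by linarith), max_eq_right (by linarith)]; ring
  unfold HZ phiT phiN
  rw [e1]
  linarith

theorem vN_gt {i0 : ℕ} {v : ℝ} {k : ℕ} (h : i0 < k) : vN i0 v k = 0 := by
  unfold vN
  rw [if_neg (by omega)]

/-- (EXACT EVALUATION 8.5), uniformly in `k`, `p` -/
theorem TT_exact (D : Blk) (bm : ℝ) {ε : ℝ} (hε : 0 < ε) : ∃ A₀ : ℝ, ∀ A ≥ A₀, ∀ (k : ℕ) (i0 : Fin k)
    (p : ℕ → ℝ), PathOK k p → ∀ (l0 : Fin D.K) (b v : ℝ), |b| ≤ bm → 0 ≤ v → v ≤ 1 →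
    |TTA D l0 A b v i0 (rC D k p) -
      (rowVal D l0 k p + siteVal (ζLB k) (fun i => tauC D k p i + if i = (i0 : ℕ) then v ^ 2 else 0) k b +
        (1 / 2) * v ^ 2)| ≤ ε := by
  obtain ⟨A1, h1⟩ := small_T D bm hε
  obtain ⟨A2, h2⟩ := small_N D bm hε
  refine ⟨max 0 (max A1 A2), fun A hA k i0 p hp l0 b v hb hv0 hv1 => ?_⟩
  have hA0 : 0 ≤ A := le_trans (le_max_left _ _) hA
  have hA1 : A ≥ A1 := le_trans (le_trans (le_max_left _ _) (le_max_right _ _)) hA
  have hA2 : A ≥ A2 := le_trans (le_trans (le_max_right _ _) (le_max_right _ _)) hA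
  have hk : 0 < k := lt_of_le_of_lt (Nat.zero_le _) i0.2
  have s1 := h1 A hA1 k i0 hk p hp l0 b v hb hv0 hv1
  have s2 := h2 A hA2 k i0 hk p hp l0 b v hb hv0 hv1
  have := mT_prob D.K
  have := mEX2_prob
  have hζ : Exps (ζLB k) := by
    intro i
    unfold ζLB
    constructor
    · exact le_min zero_le_one (by positivity)
    · exact min_le_left _ _
  -- old tower
  have b1 := nest_sub_bounds (m := mT D.K) (dom_mT D.K) hζ (k + 1) 0
    (ham_pthT D (rC D k p) (vN i0 v) 0 k (jmeas_HZ D l0 A) (glin_HZ D l0 hA0) 0 b)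
    (tame_pthT D (rC D k p) (vN i0 v) 0 k (jmeas_phiT D l0 A) (gexp_phiT D l0 hA0) 0 b)
    (fun ω => le_max_right _ _)
  have b2 := nest_sub_bounds (m := mEX2) dom_mEX2 hζ (k + 1) 0
    (ham_pthN (sN D l0 k p) (tN D k p) (vN i0 v) 0 k (jmeas_FN D) (glin_FN D) 0 b)
    (tame_pthN (sN D l0 k p) (tN D k p) (vN i0 v) 0 k (jmeas_phiN D l0 A) (gexp_phiN D l0 hA0) 0 b)
    (fun ω => le_max_right _ _)
  -- transfer
  obtain ⟨n, rfl⟩ : ∃ n, k = n + 1 := ⟨k - 1, by omega⟩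
  have hTT : TTA D l0 A b v i0 (rC D (n + 1) p) = nest (mT D.K) (ζLB (n + 1)) (n + 1 + 1) 0
      (pthT D (rC D (n + 1) p) (vN i0 v) 0 (HZ D l0 A) 0 b) := by
    unfold TTA
    congr 1
    funext ω
    exact HT_eq D l0 A b v i0 _ ω
  have htr := transfer0 D l0 (ζLB (n + 1)) (muL (n + 1) p) hζ (by simp [ζLB])
    (fun i hi => by
      unfold ζLB
      refine lt_min one_pos ?_
      have : (0 : ℝ) < i := by exact_mod_cast hi
      positivity)
    (fun i hi => muL_mem hk hp hi) (rC D (n + 1) p)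
    (fun i hi l => rC_eq D hk hp l hi) (p := p 0) (hp.mem 0 hk).1
    (fun l => by rw [rC_zero D hk hp l, muL_one hk p]) (sN D l0 (n + 1) p) (tN D (n + 1) p)
    (vN i0 v) (fun i => rfl)
    (fun i hi => by unfold tN; rw [tN2_eq D hk hp hi])
    (by unfold tN tN2; rw [if_pos hk, tauC_zero D hk hp, muL_one hk p])
    (jmeas_FN D) (glin_FN D) (jmeas_phiN D l0 A) (gexp_phiN D l0 hA0)
    (fun y x b => le_max_right _ _) n (muL_last (n + 1) p) b
  have hfun : (fun ω => pthT D (rC D (n + 1) p) (vN i0 v) 0 (HZ D l0 A) 0 b ω -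
      pthT D (rC D (n + 1) p) (vN i0 v) 0 (phiT D l0 A) 0 b ω) =
      pthT (n := n + 1) D (rC D (n + 1) p) (vN i0 v) 0 (fun z x b => exqq D l0 0 z +
        (FN D (exZ D l0 0 z) x b - phiN D l0 A (exZ D l0 0 z) x b)) 0 b := by
    funext ω
    exact HZ_sub D l0 A _ _ _
  have hfun2 : (fun ω => pthN (sN D l0 (n + 1) p) (tN D (n + 1) p) (vN i0 v) 0 (FN D) 0 b ω -
      pthN (sN D l0 (n + 1) p) (tN D (n + 1) p) (vN i0 v) 0 (phiN D l0 A) 0 b ω) =
      pthN (n := n + 1) (sN D l0 (n + 1) p) (tN D (n + 1) p) (vN i0 v) 0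
        (fun y x b => FN D y x b - phiN D l0 A y x b) 0 b := by
    funext ω
    rfl
  have hnew := nest_new D (ζLB (n + 1)) (sN D l0 (n + 1) p) (tN D (n + 1) p) (vN i0 v)
    (fun i => (hζ i).1) (n + 1) 0 0 b (by rw [zero_add]; exact ζLB_last hk)
  rw [hfun] at b1
  rw [hfun2] at b2
  rw [htr] at b1
  rw [hTT]
  -- the constants
  have hc : -(1 / 2) * p 0 * D.ψ' l0 (muL (n + 1) p 1) -
        ∑ j ∈ Finset.range (n + 1), (Real.log (D.V l0 (muL (n + 1) p (1 + j))) -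
          Real.log (D.V l0 (muL (n + 1) p (1 + j + 1)))) / (2 * ζLB (n + 1) (1 + j)) =
      -(1 / 2) * TrP (n + 1) p (D.ψ l0) (D.ψ' l0) := by
    unfold TrP
    rw [muL_one hk p]
    have hm : ∀ i, 1 ≤ i → Real.log (D.V l0 (muL (n + 1) p i)) = D.ψ l0 (muL (n + 1) p i) := by
      intro i hi
      rcases Nat.lt_or_ge 1 i with h | h
      · obtain ⟨j, rfl⟩ : ∃ j, i = j + 1 := ⟨i - 1, by omega⟩
        exact (D.ψ_eq (muL_mem hk hp (by omega : 1 ≤ j)).1 l0).symm
      · have : i = 1 := by omega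
        subst this
        exact (D.ψ_eq (le_trans (muL_mem hk hp le_rfl).1 (muL_mem hk hp le_rfl).2.1) l0).symm
    rw [Finset.sum_range_succ]
    have hlast : (Real.log (D.V l0 (muL (n + 1) p (1 + n))) -
        Real.log (D.V l0 (muL (n + 1) p (1 + n + 1)))) / (2 * ζLB (n + 1) (1 + n)) =
        (1 / 2) * D.ψ l0 (lamC (n + 1) p (n + 1 - 1)) := by
      rw [hm _ (by omega), show 1 + n = n + 1 by ring, muL_last, D.V_zero, Real.log_one,
        ζLB_last hk, muL_le le_rfl p]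
      ring
    rw [hlast]
    have hsum : ∑ j ∈ Finset.range n, (Real.log (D.V l0 (muL (n + 1) p (1 + j))) -
        Real.log (D.V l0 (muL (n + 1) p (1 + j + 1)))) / (2 * ζLB (n + 1) (1 + j)) =
        (1 / 2) * ∑ i ∈ Finset.Ico 1 (n + 1), (D.ψ l0 (lamC (n + 1) p (i - 1)) -
          D.ψ l0 (lamC (n + 1) p i)) / ζLB (n + 1) i := by
      rw [Finset.sum_Ico_eq_sum_range, Nat.add_sub_cancel, Finset.mul_sum]
      refine Finset.sum_congr rfl fun j hj => ?_
      rw [Finset.mem_range] at hj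
      rw [hm _ (by omega), hm _ (by omega), muL_le (by omega : 1 + j ≤ n + 1) p,
        muL_le (by omega : 1 + j + 1 ≤ n + 1) p, Nat.add_sub_cancel]
      rw [mul_comm 2 (ζLB (n + 1) (1 + j)), ← div_div]
      ring
    rw [hsum]
    ring
  -- the value of the new tower
  have hrec : recT (ζLB (n + 1)) (fun j => tN D (n + 1) p j ^ 2 + vN i0 v j ^ 2) (n + 1) 0 lch b =
      recT (ζLB (n + 1)) (fun i => tauC D (n + 1) p i + if i = (i0 : ℕ) then v ^ 2 else 0)
        (n + 1) 0 lch b := by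
    refine congrFun (ExFin_recT_congr (n + 1) 0 lch fun j _ hj => ?_) b
    rw [zero_add] at hj
    unfold tN vN
    rw [Real.sq_sqrt (tN2_nonneg D hk hp j)]
    unfold tN2
    rw [if_pos hj]
    split_ifs <;> simp
  have hval : nest mEX2 (ζLB (n + 1)) (n + 1 + 1) 0
      (pthN (sN D l0 (n + 1) p) (tN D (n + 1) p) (vN i0 v) 0 (FN D) 0 b) =
      (1 / 2) * D.R (lamC (n + 1) p (n + 1 - 1)) + recT (ζLB (n + 1)) (fun i => tauC D (n + 1) p i +
        if i = (i0 : ℕ) then v ^ 2 else 0) (n + 1) 0 lch b := by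
    rw [hnew, Prod.snd_zero, zero_add, zero_add, hrec, vN_gt i0.2]
    unfold tN
    rw [Real.sq_sqrt (tN2_nonneg D hk hp (n + 1))]
    unfold tN2
    rw [if_neg (lt_irrefl _), if_pos rfl]
    ring
  have hsite : rowVal D l0 (n + 1) p + siteVal (ζLB (n + 1)) (fun i => tauC D (n + 1) p i +
      if i = (i0 : ℕ) then v ^ 2 else 0) (n + 1) b + (1 / 2) * v ^ 2 =
      -(1 / 2) * TrP (n + 1) p (D.ψ l0) (D.ψ' l0) + ((1 / 2) * D.R (lamC (n + 1) p (n + 1 - 1)) +
        recT (ζLB (n + 1)) (fun i => tauC D (n + 1) p i +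
          if i = (i0 : ℕ) then v ^ 2 else 0) (n + 1) 0 lch b) := by
    unfold rowVal siteVal
    rw [Finset.sum_add_distrib, Finset.sum_ite_eq', if_pos (Finset.mem_range.2 i0.2)]
    ring
  rw [hc] at b1
  rw [hsite, ← hval, abs_le]
  constructor
  · linarith [b1.1, b1.2, b2.1, b2.2]
  · linarith [b1.1, b1.2, b2.1, b2.2]

end Crest.Agent.RI
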