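import Crest.Agent.RI.ExDefs

/-!
# Row 164, Part 8.5: classes of the path functionals (chunk EXGRA)
-/

set_option autoImplicit false

namespace Crest.Agent.RI

open MeasureTheory ProbabilityTheory

private theorem ExGrA_dom_prod {A B : Type} [MeasurableSpace A] [MeasurableSpace B]
    {a : Measure A} {b : Measure B} [SFinite a] [SFinite b] {f : A → ℝ} {g : B → ℝ}
    (hf : Dom a f) (hg : Dom b g) : Dom (a.prod b) (fun p : A × B => f p.1 + g p.2) where
  meas := (hf.meas.comp measurable_fst).add (hg.meas.comp measurable_snd)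
  nonneg := fun e => add_nonneg (hf.nonneg _) (hg.nonneg _)
  int := fun c => by
    refine ((hf.int c).mul_prod (hg.int c)).congr (Filter.Eventually.of_forall (fun p => ?_))
    simp only
    rw [← Real.exp_add]; congr 1; ring

private theorem ExGrA_one (c : ℝ) :
    Integrable (fun x : ℝ => Real.exp (c * |x|)) (gaussianReal 0 1) :=
  integrable_exp_mul_abs (X := fun x : ℝ => x) (t := c)
    (integrable_exp_mul_gaussianReal c) (integrable_exp_mul_gaussianReal (-c))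

private theorem ExGrA_dg1 : Dom (gaussianReal 0 1) (fun x : ℝ => |x|) where
  meas := by fun_prop
  nonneg := fun x => abs_nonneg x
  int := fun c => ExGrA_one c

private theorem ExGrA_dg {n : ℕ} : Dom (gvec n) (fun x : Fin n → ℝ => ∑ a, |x a|) where
  meas := by fun_prop
  nonneg := fun x => by positivity
  int := fun c => by
    have h := Integrable.fintype_prod (ι := Fin n) (E := ℝ) (𝕜 := ℝ)
      (f := fun _ x => Real.exp (c * |x|)) (μ := fun _ => gaussianReal 0 1) (fun _ => ExGrA_one c)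
    have e : (fun x : Fin n → ℝ => ∏ i, Real.exp (c * |x i|)) =
        fun x : Fin n → ℝ => Real.exp (c * ∑ a, |x a|) := by
      funext x
      rw [← Real.exp_sum, Finset.mul_sum]
    rw [e] at h
    exact h

/-- the new level law: probability measure -/
theorem mEX2_prob : IsProbabilityMeasure mEX2 := by
  unfold mEX2
  infer_instance

/-- `dom_mX` (RI/CoupMP) for the second factor, Gaussian exponential moments (`Dom` of `|x|` under
`gaussianReal 0 1`) for the first. -/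
theorem dom_mEX2 : Dom mEX2 βEX2 :=
  ExGrA_dom_prod (ExGrA_dom_prod ExGrA_dg1 ExGrA_dg1) dom_mX

theorem mT_prob (K : ℕ) : IsProbabilityMeasure (mT K) := by
  unfold mT
  infer_instance

theorem dom_mT (K : ℕ) : Dom (mT K) (βT (K := K)) :=
  ExGrA_dom_prod ExGrA_dg dom_mX

private theorem ExGrA_sum {n : ℕ} (u C b : Fin n → ℝ) (hC : ∀ j, 0 ≤ C j) (hb : ∀ j, 0 ≤ b j)
    (h : ∀ j, |u j| ≤ C j * b j) : |∑ j, u j| ≤ (∑ j, C j) * ∑ j, b j := by
  refine (Finset.abs_sum_le_sum_abs _ _).trans ?_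
  rw [Finset.sum_mul]
  refine Finset.sum_le_sum fun j _ => (h j).trans ?_
  exact mul_le_mul_of_nonneg_left
    (Finset.single_le_sum (f := b) (fun i _ => hb i) (Finset.mem_univ j)) (hC j)

private theorem ExGrA_ham {E : Type} [MeasurableSpace E] {β : E → ℝ} (hβ : ∀ e, 0 ≤ β e) {n : ℕ}
    {F : ℝ × ℝ → ℝ → Bool → ℝ} (hg : GLin F) {Y : (Fin n → E) → ℝ × ℝ} {X : (Fin n → E) → ℝ}
    {S : (Fin n → E) → Bool} {K M : ℝ} (hK : 0 ≤ K) (hM : 0 ≤ M)
    (hb : ∀ ω, |(Y ω).1| + |(Y ω).2| + |X ω| ≤ K + M * ∑ j, β (ω j))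
    (hm : Measurable fun ω => F (Y ω) (X ω) (S ω)) : Ham β (fun ω => F (Y ω) (X ω) (S ω)) := by
  obtain ⟨C, hC, h⟩ := hg
  refine ⟨hm, C * (1 + K + M), by positivity, fun ω => (h _ _ _).trans ?_⟩
  have hS : 0 ≤ ∑ j, β (ω j) := Finset.sum_nonneg fun j _ => hβ _
  have h1 := hb ω
  rw [mul_assoc]
  refine mul_le_mul_of_nonneg_left ?_ hC
  have h2 := mul_nonneg hK hS
  nlinarith

private theorem ExGrA_tame {E : Type} [MeasurableSpace E] {β : E → ℝ} (hβ : ∀ e, 0 ≤ β e) {n : ℕ}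
    {F : ℝ × ℝ → ℝ → Bool → ℝ} (hg : GExp F) {Y : (Fin n → E) → ℝ × ℝ} {X : (Fin n → E) → ℝ}
    {S : (Fin n → E) → Bool} {K M : ℝ} (hK : 0 ≤ K) (hM : 0 ≤ M)
    (hb : ∀ ω, |(Y ω).1| + |(Y ω).2| + |X ω| ≤ K + M * ∑ j, β (ω j))
    (hm : Measurable fun ω => F (Y ω) (X ω) (S ω)) : Tame β (fun ω => F (Y ω) (X ω) (S ω)) := by
  obtain ⟨C, hC, h⟩ := hg
  refine ⟨hm, C * Real.exp (C * K) + C * M, by positivity, fun ω => (h _ _ _).trans ?_⟩
  have hS : 0 ≤ ∑ j, β (ω j) := Finset.sum_nonneg fun j _ => hβ _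
  have h1 : Real.exp (C * (|(Y ω).1| + |(Y ω).2| + |X ω|)) ≤
      Real.exp (C * K) * Real.exp (C * M * ∑ j, β (ω j)) := by
    rw [← Real.exp_add]
    refine Real.exp_le_exp.2 ?_
    have := mul_le_mul_of_nonneg_left (hb ω) hC
    linarith
  have h2 : Real.exp (C * M * ∑ j, β (ω j)) ≤
      Real.exp ((C * Real.exp (C * K) + C * M) * ∑ j, β (ω j)) := by
    refine Real.exp_le_exp.2 (mul_le_mul_of_nonneg_right ?_ hS)
    have : 0 ≤ C * Real.exp (C * K) := by positivity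
    linarith
  calc C * Real.exp (C * (|(Y ω).1| + |(Y ω).2| + |X ω|))
      ≤ C * (Real.exp (C * K) * Real.exp (C * M * ∑ j, β (ω j))) :=
        mul_le_mul_of_nonneg_left h1 hC
    _ = (C * Real.exp (C * K)) * Real.exp (C * M * ∑ j, β (ω j)) := by ring
    _ ≤ (C * Real.exp (C * K) + C * M) *
          Real.exp ((C * Real.exp (C * K) + C * M) * ∑ j, β (ω j)) := by
        refine mul_le_mul ?_ h2 (Real.exp_pos _).le (by positivity)
        have : 0 ≤ C * M := by positivity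
        linarith

/-- joint measurability in (parameters, path) -/
private theorem ExGrA_mN (s t v : ℕ → ℝ) (i n : ℕ) {F : ℝ × ℝ → ℝ → Bool → ℝ} (hm : JMeas F) :
    Measurable (fun q : ((ℝ × ℝ) × ℝ) × (Fin (n + 1) → EX2) => pthN s t v i F q.1.1 q.1.2 q.2) := by
  have hω : ∀ j : Fin (n + 1), Measurable (fun q : ((ℝ × ℝ) × ℝ) × (Fin (n + 1) → EX2) => q.2 j) :=
    fun j => (measurable_pi_apply j).comp measurable_snd
  have h1 : Measurable (fun q : ((ℝ × ℝ) × ℝ) × (Fin (n + 1) → EX2) =>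
      q.1.1 + ∑ j : Fin (n + 1), (s (i + j) * (q.2 j).1.1, t (i + j) * (q.2 j).1.2)) := by
    refine (measurable_fst.comp measurable_fst).add (Finset.measurable_sum _ fun j _ => ?_)
    exact ((measurable_fst.comp (measurable_fst.comp (hω j))).const_mul _).prodMk
      ((measurable_snd.comp (measurable_fst.comp (hω j))).const_mul _)
  have h2 : Measurable (fun q : ((ℝ × ℝ) × ℝ) × (Fin (n + 1) → EX2) =>
      q.1.2 + ∑ j : Fin (n + 1), v (i + j) * (q.2 j).2.1) := by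
    refine (measurable_snd.comp measurable_fst).add (Finset.measurable_sum _ fun j _ => ?_)
    exact (measurable_fst.comp (measurable_snd.comp (hω j))).const_mul _
  have h3 : Measurable (fun q : ((ℝ × ℝ) × ℝ) × (Fin (n + 1) → EX2) => (q.2 (Fin.last n)).2.2) :=
    measurable_snd.comp (measurable_snd.comp (hω (Fin.last n)))
  exact Measurable.comp (g := fun q : (ℝ × ℝ) × (ℝ × Bool) => F q.1 q.2.1 q.2.2) hm
    (h1.prodMk (h2.prodMk h3))

private theorem ExGrA_mN1 (s t v : ℕ → ℝ) (i n : ℕ) {F : ℝ × ℝ → ℝ → Bool → ℝ} (hm : JMeas F)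
    (y : ℝ × ℝ) (x : ℝ) : Measurable (pthN s t v i (n := n) F y x) := by
  have h : Measurable (fun ω : Fin (n + 1) → EX2 =>
      (((y, x), ω) : ((ℝ × ℝ) × ℝ) × (Fin (n + 1) → EX2))) := measurable_prodMk_left
  exact (ExGrA_mN s t v i n hm).comp h

private theorem ExGrA_bN (s t v : ℕ → ℝ) (i n : ℕ) (y : ℝ × ℝ) (x : ℝ)
    (ω : Fin (n + 1) → EX2) :
    |(y + ∑ j : Fin (n + 1), ((s (i + j) * (ω j).1.1, t (i + j) * (ω j).1.2) : ℝ × ℝ)).1| +
      |(y + ∑ j : Fin (n + 1), ((s (i + j) * (ω j).1.1, t (i + j) * (ω j).1.2) : ℝ × ℝ)).2| +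
      |x + ∑ j : Fin (n + 1), v (i + j) * (ω j).2.1| ≤
    (|y.1| + |y.2| + |x|) + (∑ j : Fin (n + 1), |s (i + j)| + ∑ j : Fin (n + 1), |t (i + j)| +
      ∑ j : Fin (n + 1), |v (i + j)|) * ∑ j, βEX2 (ω j) := by
  have hb : ∀ j, 0 ≤ βEX2 (ω j) := fun j => by unfold βEX2 βX; positivity
  rw [Prod.fst_add, Prod.snd_add, Prod.fst_sum, Prod.snd_sum]
  simp only
  have h1 := ExGrA_sum (fun j : Fin (n + 1) => s (i + j) * (ω j).1.1) (fun j => |s (i + j)|)
    (fun j => βEX2 (ω j)) (fun j => abs_nonneg _) hb (fun j => by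
      rw [abs_mul]
      refine mul_le_mul_of_nonneg_left ?_ (abs_nonneg _)
      unfold βEX2 βX
      have := abs_nonneg (ω j).1.2
      have := abs_nonneg (ω j).2.1
      linarith)
  have h2 := ExGrA_sum (fun j : Fin (n + 1) => t (i + j) * (ω j).1.2) (fun j => |t (i + j)|)
    (fun j => βEX2 (ω j)) (fun j => abs_nonneg _) hb (fun j => by
      rw [abs_mul]
      refine mul_le_mul_of_nonneg_left ?_ (abs_nonneg _)
      unfold βEX2 βX
      have := abs_nonneg (ω j).1.1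
      have := abs_nonneg (ω j).2.1
      linarith)
  have h3 := ExGrA_sum (fun j : Fin (n + 1) => v (i + j) * (ω j).2.1) (fun j => |v (i + j)|)
    (fun j => βEX2 (ω j)) (fun j => abs_nonneg _) hb (fun j => by
      rw [abs_mul]
      refine mul_le_mul_of_nonneg_left ?_ (abs_nonneg _)
      unfold βEX2 βX
      have := abs_nonneg (ω j).1.1
      have := abs_nonneg (ω j).1.2
      linarith)
  have g1 := abs_add_le y.1 (∑ j : Fin (n + 1), s (i + j) * (ω j).1.1)
  have g2 := abs_add_le y.2 (∑ j : Fin (n + 1), t (i + j) * (ω j).1.2)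
  have g3 := abs_add_le x (∑ j : Fin (n + 1), v (i + j) * (ω j).2.1)
  linarith

private theorem ExGrA_βEX2 (e : EX2) : 0 ≤ βEX2 e := by unfold βEX2 βX; positivity

/-- `y`-path: measurability and growth.  PROOF: `|y.1 + Σ s_j x_j| ≤ |y.1| + max|s| Σ |x_j|` etc.;
`Σ_j (|..| + |..| + |η'|) = Σ_j βEX2 (ω j)`. -/
theorem ham_pthN (s t v : ℕ → ℝ) (i n : ℕ) {F : ℝ × ℝ → ℝ → Bool → ℝ} (hm : JMeas F) (hg : GLin F)
    (y : ℝ × ℝ) (x : ℝ) : Ham βEX2 (pthN s t v i (n := n) F y x) :=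
  ExGrA_ham ExGrA_βEX2 hg (by positivity) (by positivity) (ExGrA_bN s t v i n y x)
    (ExGrA_mN1 s t v i n hm y x)

theorem tame_pthN (s t v : ℕ → ℝ) (i n : ℕ) {F : ℝ × ℝ → ℝ → Bool → ℝ} (hm : JMeas F) (hg : GExp F)
    (y : ℝ × ℝ) (x : ℝ) : Tame βEX2 (pthN s t v i (n := n) F y x) :=
  ExGrA_tame ExGrA_βEX2 hg (by positivity) (by positivity) (ExGrA_bN s t v i n y x)
    (ExGrA_mN1 s t v i n hm y x)

private theorem ExGrA_mT (D : Blk) (r : ℕ → Fin D.K → ℝ) (v : ℕ → ℝ) (i n : ℕ)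
    {F : ℝ × ℝ → ℝ → Bool → ℝ} (hm : JMeas F) (z : ℝ × ℝ) (x : ℝ) :
    Measurable (pthT D r v i (n := n) F z x) := by
  have hω : ∀ j : Fin (n + 1), Measurable (fun ω : Fin (n + 1) → ET D.K => ω j) :=
    fun j => measurable_pi_apply j
  have hη : ∀ (j : Fin (n + 1)) (l : Fin D.K),
      Measurable (fun ω : Fin (n + 1) → ET D.K => (ω j).1 l) := fun j l =>
    (measurable_pi_apply l).comp (measurable_fst.comp (hω j))
  have h1 : Measurable (fun ω : Fin (n + 1) → ET D.K =>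
      z + ∑ j : Fin (n + 1), dz D (r (i + j)) (ω j).1) := by
    refine measurable_const.add (Finset.measurable_sum _ fun j _ => ?_)
    unfold dz
    exact (Finset.measurable_sum _ fun l _ => (hη j l).const_mul _).prodMk
      (Finset.measurable_sum _ fun l _ => ((hη j l).const_mul _).const_mul _)
  have h2 : Measurable (fun ω : Fin (n + 1) → ET D.K =>
      x + ∑ j : Fin (n + 1), v (i + j) * (ω j).2.1) := by
    refine measurable_const.add (Finset.measurable_sum _ fun j _ => ?_)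
    exact (measurable_fst.comp (measurable_snd.comp (hω j))).const_mul _
  have h3 : Measurable (fun ω : Fin (n + 1) → ET D.K => (ω (Fin.last n)).2.2) :=
    measurable_snd.comp (measurable_snd.comp (hω (Fin.last n)))
  exact Measurable.comp (g := fun q : (ℝ × ℝ) × (ℝ × Bool) => F q.1 q.2.1 q.2.2) hm
    (h1.prodMk (h2.prodMk h3))

private theorem ExGrA_dz (D : Blk) (ρ η : Fin D.K → ℝ) :
    |(dz D ρ η).1| ≤ (∑ l, Real.sqrt (ρ l)) * ∑ l, |η l| ∧
    |(dz D ρ η).2| ≤ (∑ l, |D.d l| * Real.sqrt (ρ l)) * ∑ l, |η l| := by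
  unfold dz
  constructor
  · refine ExGrA_sum _ _ _ (fun l => Real.sqrt_nonneg _) (fun l => abs_nonneg _) (fun l => ?_)
    rw [abs_mul, abs_of_nonneg (Real.sqrt_nonneg _)]
  · refine ExGrA_sum _ _ _ (fun l => by positivity) (fun l => abs_nonneg _) (fun l => ?_)
    rw [abs_mul, abs_mul, abs_of_nonneg (Real.sqrt_nonneg _), mul_assoc]

private theorem ExGrA_bT (D : Blk) (r : ℕ → Fin D.K → ℝ) (v : ℕ → ℝ) (i n : ℕ) (z : ℝ × ℝ) (x : ℝ)
    (ω : Fin (n + 1) → ET D.K) :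
    |(z + ∑ j : Fin (n + 1), dz D (r (i + j)) (ω j).1).1| +
      |(z + ∑ j : Fin (n + 1), dz D (r (i + j)) (ω j).1).2| +
      |x + ∑ j : Fin (n + 1), v (i + j) * (ω j).2.1| ≤
    (|z.1| + |z.2| + |x|) + (∑ j : Fin (n + 1), (∑ l, Real.sqrt (r (i + j) l)) +
      ∑ j : Fin (n + 1), (∑ l, |D.d l| * Real.sqrt (r (i + j) l)) +
      ∑ j : Fin (n + 1), |v (i + j)|) * ∑ j, βT (ω j) := by
  have hb : ∀ j, 0 ≤ βT (ω j) := fun j => by unfold βT; positivity
  have hη : ∀ j, ∑ l, |(ω j).1 l| ≤ βT (ω j) := fun j => by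
    unfold βT
    have := abs_nonneg (ω j).2.1
    linarith
  rw [Prod.fst_add, Prod.snd_add, Prod.fst_sum, Prod.snd_sum]
  have h1 := ExGrA_sum (fun j : Fin (n + 1) => (dz D (r (i + j)) (ω j).1).1)
    (fun j => ∑ l, Real.sqrt (r (i + j) l))
    (fun j => βT (ω j)) (fun j => by positivity) hb (fun j =>
      (ExGrA_dz D (r (i + j)) (ω j).1).1.trans
        (mul_le_mul_of_nonneg_left (hη j) (by positivity)))
  have h2 := ExGrA_sum (fun j : Fin (n + 1) => (dz D (r (i + j)) (ω j).1).2)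
    (fun j => ∑ l, |D.d l| * Real.sqrt (r (i + j) l))
    (fun j => βT (ω j)) (fun j => by positivity) hb (fun j =>
      (ExGrA_dz D (r (i + j)) (ω j).1).2.trans
        (mul_le_mul_of_nonneg_left (hη j) (by positivity)))
  have h3 := ExGrA_sum (fun j : Fin (n + 1) => v (i + j) * (ω j).2.1) (fun j => |v (i + j)|)
    (fun j => βT (ω j)) (fun j => abs_nonneg _) hb (fun j => by
      rw [abs_mul]
      refine mul_le_mul_of_nonneg_left ?_ (abs_nonneg _)
      unfold βT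
      have : 0 ≤ ∑ l, |(ω j).1 l| := by positivity
      linarith)
  have g1 := abs_add_le z.1 (∑ j : Fin (n + 1), (dz D (r (i + j)) (ω j).1).1)
  have g2 := abs_add_le z.2 (∑ j : Fin (n + 1), (dz D (r (i + j)) (ω j).1).2)
  have g3 := abs_add_le x (∑ j : Fin (n + 1), v (i + j) * (ω j).2.1)
  linarith

private theorem ExGrA_βT {K : ℕ} (e : ET K) : 0 ≤ βT e := by unfold βT; positivity

theorem tame_pthT (D : Blk) (r : ℕ → Fin D.K → ℝ) (v : ℕ → ℝ) (i n : ℕ)
    {F : ℝ × ℝ → ℝ → Bool → ℝ} (hm : JMeas F) (hg : GExp F)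
    (z : ℝ × ℝ) (x : ℝ) : Tame βT (pthT D r v i (n := n) F z x) :=
  ExGrA_tame ExGrA_βT hg (by positivity) (by positivity) (ExGrA_bT D r v i n z x)
    (ExGrA_mT D r v i n hm z x)

/-- bounded + linear in `x` -/
theorem ham_pthT (D : Blk) (r : ℕ → Fin D.K → ℝ) (v : ℕ → ℝ) (i n : ℕ)
    {F : ℝ × ℝ → ℝ → Bool → ℝ} (hm : JMeas F) (hg : GLin F)
    (z : ℝ × ℝ) (x : ℝ) : Ham βT (pthT D r v i (n := n) F z x) :=
  ExGrA_ham ExGrA_βT hg (by positivity) (by positivity) (ExGrA_bT D r v i n z x)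
    (ExGrA_mT D r v i n hm z x)

/-- joint measurability in (parameters, path) -/
theorem measurable_pthN (s t v : ℕ → ℝ) (i n : ℕ) {F : ℝ × ℝ → ℝ → Bool → ℝ} (hm : JMeas F) :
    Measurable (fun q : ((ℝ × ℝ) × ℝ) × (Fin (n + 1) → EX2) => pthN s t v i F q.1.1 q.1.2 q.2) :=
  ExGrA_mN s t v i n hm

end Crest.Agent.RI
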