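import Crest.Agent.RI.TowerAPI

/-!
# Row 164, Part 8.5, LEMMA J: perturbation of a Hamiltonian by a nonnegative tame function (chunk EXJ)

For `H` of class `Ham` and `0 ≤ φ` of class `Tame`: `nest H - pathE_H φ ≤ nest (H - φ) ≤ nest H`, and the
inner functions of `nest (H - φ)` are integrable together with their exponentials.
-/

set_option autoImplicit false

namespace Crest.Agent.RI

open MeasureTheory ProbabilityTheory

variable {E : Type} [MeasurableSpace E]
variable {m : Measure E} [IsProbabilityMeasure m] {ζ : ℕ → ℝ} {β : E → ℝ}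

omit [IsProbabilityMeasure m] in
private theorem ExJ_integrable_beta (hβ : Dom m β) : Integrable β m := by
  refine Integrable.mono' (hβ.int 1) hβ.meas.aestronglyMeasurable ?_
  refine Filter.Eventually.of_forall fun e => ?_
  rw [Real.norm_eq_abs, abs_of_nonneg (hβ.nonneg e), one_mul]
  have := Real.add_one_le_exp (β e)
  linarith

private theorem ExJ_meas_cons {n : ℕ} {H : (Fin (n + 1) → E) → ℝ} (hH : Measurable H) :
    Measurable (Function.uncurry fun (e : E) (ω : Fin n → E) => H (Fin.cons e ω)) := by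
  refine hH.comp ?_
  refine measurable_pi_lambda _ fun j => ?_
  refine Fin.cases ?_ (fun j => ?_) j
  · simpa using measurable_fst
  · have h : Measurable (fun p : E × (Fin n → E) => p.2 j) :=
      (measurable_pi_apply j).comp measurable_snd
    simpa using h

private theorem ExJ_nest_lin (hβ : Dom m β) (hζ : Exps ζ) (n i : ℕ)
    {H : (Fin (n + 1) → E) → ℝ} (hH : Ham β H) :
    ∃ K : ℝ, 0 ≤ K ∧ ∀ e, |nest m ζ n i (fun ω => H (Fin.cons e ω))| ≤ K + K * β e := by
  obtain ⟨C, hC, hb⟩ := hH.bound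
  obtain ⟨K, hK, h⟩ := nest_bound (m := m) hβ n C hC
  refine ⟨C + K, by positivity, fun e => ?_⟩
  have h1 := h ζ hζ i (C * (1 + β e)) (by have := hβ.nonneg e; positivity)
    (fun ω => H (Fin.cons e ω))
    ((ExJ_meas_cons hH.meas).comp (measurable_const.prodMk measurable_id)) (by
      intro ω
      refine (hb _).trans (le_of_eq ?_)
      rw [Fin.sum_univ_succ]
      simp only [Fin.cons_zero, Fin.cons_succ]
      ring)
  have := hβ.nonneg e
  nlinarith

private theorem ExJ_nest_int (hβ : Dom m β) (hζ : Exps ζ) (n i : ℕ)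
    {H : (Fin (n + 1) → E) → ℝ} (hH : Ham β H) :
    Integrable (fun e => nest m ζ n i (fun ω => H (Fin.cons e ω))) m := by
  obtain ⟨K, hK, h⟩ := ExJ_nest_lin (m := m) hβ hζ n i hH
  refine Integrable.mono' ((integrable_const K).add ((ExJ_integrable_beta hβ).const_mul K))
    (measurable_nest m ζ n i (ExJ_meas_cons hH.meas)).aestronglyMeasurable ?_
  exact Filter.Eventually.of_forall fun e => by simpa [Real.norm_eq_abs] using h e

private theorem ExJ_nest_expint (hβ : Dom m β) (hζ : Exps ζ) (n i : ℕ) {z : ℝ} (hz : 0 ≤ z)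
    {H : (Fin (n + 1) → E) → ℝ} (hH : Ham β H) :
    Integrable (fun e => Real.exp (z * nest m ζ n i (fun ω => H (Fin.cons e ω)))) m := by
  obtain ⟨K, hK, h⟩ := ExJ_nest_lin (m := m) hβ hζ n i hH
  refine Integrable.mono' ((hβ.int (z * K)).const_mul (Real.exp (z * K)))
    (Real.measurable_exp.comp
      ((measurable_nest m ζ n i (ExJ_meas_cons hH.meas)).const_mul z)).aestronglyMeasurable ?_
  refine Filter.Eventually.of_forall fun e => ?_
  rw [Real.norm_eq_abs, Real.abs_exp, ← Real.exp_add]
  refine Real.exp_le_exp.2 ?_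
  have := (abs_le.1 (h e)).2
  nlinarith [mul_le_mul_of_nonneg_left this hz]

private theorem ExJ_pathE_int (hβ : Dom m β) (hζ : Exps ζ) (n i : ℕ)
    {H Φ : (Fin (n + 1) → E) → ℝ} (hH : Ham β H) (hΦ : Tame β Φ) :
    Integrable (fun e => pathE m ζ n i (fun ω => H (Fin.cons e ω))
      (fun ω => Φ (Fin.cons e ω))) m := by
  obtain ⟨C, hC, hb⟩ := hH.bound
  obtain ⟨B, hB, hb'⟩ := hΦ.bound
  obtain ⟨K, hK, h⟩ := pathE_bound (m := m) hβ n C B hC hB
  refine Integrable.mono' ((hβ.int (B + K * C)).const_mul (B * K * Real.exp (K * C)))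
    (measurable_pathE m ζ n i (ExJ_meas_cons hH.meas)
      (ExJ_meas_cons hΦ.meas)).aestronglyMeasurable ?_
  refine Filter.Eventually.of_forall fun e => ?_
  have h1 := h ζ hζ i (C * (1 + β e)) (B * Real.exp (B * β e))
    (by have := hβ.nonneg e; positivity) (by positivity)
    (fun ω => H (Fin.cons e ω)) (fun ω => Φ (Fin.cons e ω))
    ((ExJ_meas_cons hH.meas).comp (measurable_const.prodMk measurable_id))
    ((ExJ_meas_cons hΦ.meas).comp (measurable_const.prodMk measurable_id)) (by
      intro ω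
      refine (hb _).trans (le_of_eq ?_)
      rw [Fin.sum_univ_succ]
      simp only [Fin.cons_zero, Fin.cons_succ]
      ring) (by
      intro ω
      refine (hb' _).trans (le_of_eq ?_)
      rw [Fin.sum_univ_succ]
      simp only [Fin.cons_zero, Fin.cons_succ]
      rw [mul_assoc B, ← Real.exp_add]
      ring_nf)
  rw [Real.norm_eq_abs]
  refine h1.trans (le_of_eq ?_)
  have h2 : Real.exp ((B + K * C) * β e) * Real.exp (K * C) =
      Real.exp (B * β e) * Real.exp (K * (C * (1 + β e))) := by
    rw [← Real.exp_add, ← Real.exp_add]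
    congr 1
    ring
  calc B * Real.exp (B * β e) * (K * Real.exp (K * (C * (1 + β e))))
      = B * K * (Real.exp (B * β e) * Real.exp (K * (C * (1 + β e)))) := by ring
    _ = B * K * (Real.exp ((B + K * C) * β e) * Real.exp (K * C)) := by rw [h2]
    _ = B * K * Real.exp (K * C) * Real.exp ((B + K * C) * β e) := by ring

private theorem ExJ_aux (hβ : Dom m β) (hζ : Exps ζ) (n i : ℕ) {H φ : (Fin (n + 1) → E) → ℝ}
    (hH : Ham β H) (hφ : Tame β φ)
    (hb : ∀ e, nest m ζ n i (fun ω => H (Fin.cons e ω)) -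
        pathE m ζ n i (fun ω => H (Fin.cons e ω)) (fun ω => φ (Fin.cons e ω)) ≤
        nest m ζ n i (fun ω => H (Fin.cons e ω) - φ (Fin.cons e ω)) ∧
      nest m ζ n i (fun ω => H (Fin.cons e ω) - φ (Fin.cons e ω)) ≤
        nest m ζ n i (fun ω => H (Fin.cons e ω))) :
    Integrable (fun e => nest m ζ n i (fun ω => H (Fin.cons e ω) - φ (Fin.cons e ω))) m ∧
      ∀ z : ℝ, 0 ≤ z → Integrable (fun e => Real.exp (z *
        nest m ζ n i (fun ω => H (Fin.cons e ω) - φ (Fin.cons e ω)))) m := by
  have hmg : Measurable (fun e => nest m ζ n i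
      (fun ω => H (Fin.cons e ω) - φ (Fin.cons e ω))) :=
    measurable_nest m ζ n i (ExJ_meas_cons (hH.meas.sub hφ.meas))
  have hf := ExJ_nest_int (m := m) hβ hζ n i hH
  have hu := ExJ_pathE_int (m := m) hβ hζ n i hH hφ
  refine ⟨?_, fun z hz => ?_⟩
  · refine Integrable.mono' (hf.abs.add hu.abs) hmg.aestronglyMeasurable ?_
    refine Filter.Eventually.of_forall fun e => ?_
    obtain ⟨h1, h2⟩ := hb e
    rw [Real.norm_eq_abs]
    show _ ≤ |nest m ζ n i (fun ω => H (Fin.cons e ω))| +
      |pathE m ζ n i (fun ω => H (Fin.cons e ω)) (fun ω => φ (Fin.cons e ω))|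
    have a1 := neg_abs_le (nest m ζ n i (fun ω => H (Fin.cons e ω)))
    have a2 := le_abs_self (nest m ζ n i (fun ω => H (Fin.cons e ω)))
    have a3 := le_abs_self (pathE m ζ n i (fun ω => H (Fin.cons e ω)) (fun ω => φ (Fin.cons e ω)))
    have a4 := abs_nonneg
      (pathE m ζ n i (fun ω => H (Fin.cons e ω)) (fun ω => φ (Fin.cons e ω)))
    exact abs_le.2 ⟨by linarith, by linarith⟩
  · refine Integrable.mono' (ExJ_nest_expint (m := m) hβ hζ n i hz hH)
      (Real.measurable_exp.comp (hmg.const_mul z)).aestronglyMeasurable ?_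
    refine Filter.Eventually.of_forall fun e => ?_
    rw [Real.norm_eq_abs, Real.abs_exp]
    exact Real.exp_le_exp.2 (mul_le_mul_of_nonneg_left (hb e).2 hz)

/-- PROOF: the four statements TOGETHER by induction on `n` (generalizing `i H φ`).  `n = 0` trivial.
`n + 1`: `f e = nest n (i+1) (H (cons e ·))`, `g e = nest n (i+1) ((H-φ) (cons e ·))`,
`u e = pathE n (i+1) (H (cons e ·)) (φ (cons e ·)) ≥ 0`; induction hypothesis `f - u ≤ g ≤ f`.
Integrability of `f`, `exp (z f)` (`z ≥ 0`), `u`, `u * exp (ζ_i f)`: see the private lemmas `tconvA_nest_int`,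
`tconvA_nest_expint`, `tconvA_pathE_int` and the proof of `nest_tangent` in `RI/TConvA.lean` (copy them);
`g` is measurable (`measurable_nest`), hence integrable (`|g| ≤ |f| + u`) and `exp (z g) ≤ exp (z f)`.
Upper bound: monotonicity of `TT`.  Lower bound: `TT_tangent` with `u := -u` gives
`TT f - (∫ u e^{ζf})/(∫ e^{ζf}) ≤ TT (f - u) ≤ TT g` (`exp (ζ (f-u)) ≤ exp (ζ g)`), and the quotient is
`pathE (n+1) i H φ` (`wgt_eq`, as in the proof of `nest_tangent`). -/
theorem nest_sub_bounds (hβ : Dom m β) (hζ : Exps ζ) (n i : ℕ) {H φ : (Fin n → E) → ℝ}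
    (hH : Ham β H) (hφ : Tame β φ) (h0 : ∀ ω, 0 ≤ φ ω) :
    nest m ζ n i H - pathE m ζ n i H φ ≤ nest m ζ n i (fun ω => H ω - φ ω) ∧
      nest m ζ n i (fun ω => H ω - φ ω) ≤ nest m ζ n i H := by
  induction n generalizing i with
  | zero =>
    simp only [nest, pathE]
    exact ⟨le_refl _, by have := h0 Fin.elim0; linarith⟩
  | succ n ih =>
    have hIH := fun e => ih (i + 1) (hH.cons hβ e) (hφ.cons hβ e) (fun ω => h0 _)
    have hz : 0 ≤ ζ i := (hζ i).1
    obtain ⟨hg, hegz⟩ := ExJ_aux (m := m) hβ hζ n (i + 1) hH hφ hIH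
    have heg := hegz (ζ i) hz
    set f : E → ℝ := fun e => nest m ζ n (i + 1) (fun ω => H (Fin.cons e ω)) with hfdef
    set u : E → ℝ := fun e => pathE m ζ n (i + 1) (fun ω => H (Fin.cons e ω))
      (fun ω => φ (Fin.cons e ω)) with hudef
    set g : E → ℝ := fun e => nest m ζ n (i + 1)
      (fun ω => H (Fin.cons e ω) - φ (Fin.cons e ω)) with hgdef
    have hb1 : ∀ e, f e - u e ≤ g e := fun e => (hIH e).1
    have hb2 : ∀ e, g e ≤ f e := fun e => (hIH e).2
    have hf : Integrable f m := ExJ_nest_int hβ hζ n (i + 1) hH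
    have hu : Integrable u m := ExJ_pathE_int hβ hζ n (i + 1) hH hφ
    have hef : Integrable (fun e => Real.exp (ζ i * f e)) m :=
      ExJ_nest_expint hβ hζ n (i + 1) hz hH
    have hmf : Measurable f := measurable_nest m ζ n (i + 1) (ExJ_meas_cons hH.meas)
    have hmu : Measurable u := measurable_pathE m ζ n (i + 1) (ExJ_meas_cons hH.meas)
      (ExJ_meas_cons hφ.meas)
    have hefu : Integrable (fun e => Real.exp (ζ i * (f e + -u e))) m := by
      refine Integrable.mono' heg
        (Real.measurable_exp.comp ((hmf.add hmu.neg).const_mul (ζ i))).aestronglyMeasurable ?_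
      refine Filter.Eventually.of_forall fun e => ?_
      rw [Real.norm_eq_abs, Real.abs_exp]
      refine Real.exp_le_exp.2 (mul_le_mul_of_nonneg_left ?_ hz)
      have := hb1 e
      linarith
    have hZ : 0 < ∫ e, Real.exp (ζ i * f e) ∂m := integral_exp_pos hef
    have hw : ∀ e, wgt m ζ n i H e = Real.exp (ζ i * f e) / ∫ e, Real.exp (ζ i * f e) ∂m :=
      fun e => wgt_eq hβ hζ n i hH e
    have heu : Integrable (fun e => -u e * Real.exp (ζ i * f e)) m := by
      have h1 := (integrable_wgt_pathE (m := m) hβ hζ n i hH hφ).const_mul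
        (-∫ e, Real.exp (ζ i * f e) ∂m)
      refine h1.congr (Filter.Eventually.of_forall fun e => ?_)
      show (-∫ e, Real.exp (ζ i * f e) ∂m) * (wgt m ζ n i H e * u e) = -u e * Real.exp (ζ i * f e)
      rw [hw e]
      field_simp
    have hpath : pathE m ζ (n + 1) i H φ =
        -((∫ e, -u e * Real.exp (ζ i * f e) ∂m) / ∫ e, Real.exp (ζ i * f e) ∂m) := by
      rw [← integral_div, ← integral_neg]
      show ∫ e, wgt m ζ n i H e * u e ∂m = _
      refine integral_congr_ae (Filter.Eventually.of_forall fun e => ?_)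
      show wgt m ζ n i H e * u e = -(-u e * Real.exp (ζ i * f e) / _)
      rw [hw e]
      ring
    have hT := TT_tangent m hz hf hu.neg hef heu hefu
    constructor
    · rw [hpath]
      have hT2 : nest m ζ (n + 1) i H -
          -((∫ e, -u e * Real.exp (ζ i * f e) ∂m) / ∫ e, Real.exp (ζ i * f e) ∂m) ≤
          TT m (ζ i) (fun e => f e + -u e) := by
        rw [sub_neg_eq_add]
        exact hT
      refine hT2.trans ?_
      show TT m (ζ i) (fun e => f e + -u e) ≤ TT m (ζ i) g
      unfold TT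
      split_ifs with h0
      · refine integral_mono (hf.add hu.neg) hg fun e => ?_
        have := hb1 e
        show f e + -u e ≤ g e
        linarith
      · have hz' : 0 < ζ i := lt_of_le_of_ne hz (Ne.symm h0)
        refine mul_le_mul_of_nonneg_left ?_ (inv_nonneg.2 hz)
        refine Real.log_le_log (integral_exp_pos hefu) ?_
        refine integral_mono hefu heg fun e => ?_
        refine Real.exp_le_exp.2 (mul_le_mul_of_nonneg_left ?_ hz)
        have := hb1 e
        linarith
    · show TT m (ζ i) g ≤ TT m (ζ i) f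
      unfold TT
      split_ifs with h0
      · exact integral_mono hg hf hb2
      · have hz' : 0 < ζ i := lt_of_le_of_ne hz (Ne.symm h0)
        refine mul_le_mul_of_nonneg_left ?_ (inv_nonneg.2 hz)
        refine Real.log_le_log (integral_exp_pos heg) ?_
        refine integral_mono heg hef fun e => ?_
        exact Real.exp_le_exp.2 (mul_le_mul_of_nonneg_left (hb2 e) hz)

/-- PROOF: `nest_sub_bounds` inside: `f - u ≤ g ≤ f` with `f`, `u` integrable. -/
theorem nest_sub_int (hβ : Dom m β) (hζ : Exps ζ) (n i : ℕ) {H φ : (Fin (n + 1) → E) → ℝ}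
    (hH : Ham β H) (hφ : Tame β φ) (h0 : ∀ ω, 0 ≤ φ ω) :
    Integrable (fun e => nest m ζ n i (fun ω => H (Fin.cons e ω) - φ (Fin.cons e ω))) m ∧
      ∀ z : ℝ, 0 ≤ z → Integrable (fun e => Real.exp (z *
        nest m ζ n i (fun ω => H (Fin.cons e ω) - φ (Fin.cons e ω)))) m :=
  ExJ_aux (m := m) hβ hζ n i hH hφ
    (fun e => nest_sub_bounds hβ hζ n i (hH.cons hβ e) (hφ.cons hβ e) (fun _ => h0 _))

end Crest.Agent.RI
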