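import Crest.Agent.RI.ExKer
import Crest.Agent.RI.ExGrA

/-!
# Row 164, Part 8.5: one level of the transfer (chunk EXLEV)
-/

set_option autoImplicit false

namespace Crest.Agent.RI

open MeasureTheory ProbabilityTheory

private theorem ExLev_meas_exZ (D : Blk) (l0 : Fin D.K) (x : ℝ) : Measurable (exZ D l0 x) := by
  unfold exZ
  fun_prop

private theorem ExLev_meas_qq (D : Blk) (l0 : Fin D.K) (x : ℝ) : Measurable (exqq D l0 x) := by
  unfold exqq
  fun_prop

private theorem ExLev_meas_dz (D : Blk) (r : Fin D.K → ℝ) : Measurable (dz D r) := by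
  unfold dz
  fun_prop

/-- ONE LEVEL, `ζ > 0`.
PROOF: both `TT` are `ζ⁻¹ log ∫ exp (ζ ·)`; the integrand on the left is
`exp (ζ c) * exp (ζ qq_{x'}(z+dz)) * exp (ζ N (exZ x' (z + dz)) e.2)`.  Convert both Bochner integrals to `lintegral`
(`integral_eq_lintegral_of_nonneg_ae`, everything measurable), on `mT K = (gvec K).prod mX` integrate first over
`e.1` at fixed `e.2` (`lintegral_prod_symm`), apply `ker_level` with `F y = ofReal (exp (ζ * N y e.2))`, and back
(`lintegral_prod_symm` for `mEX2`).  Hence `∫ exp (ζ ·) ∂mT = exp (ζ c) * exp (ζ qq_x z - ½(log V x - log V x')) * ∫ exp (ζ N) ∂mEX2`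
(the last integral is finite by `hint` and positive: `integral_exp_pos`); take logarithms. -/
theorem level_eq (D : Blk) (l0 : Fin D.K) {x x' ζ : ℝ} (hx' : 0 ≤ x') (hxx : x' ≤ x) (hx1 : x ≤ 1)
    (hζ : 0 < ζ) (r : Fin D.K → ℝ) (hr : ∀ l, r l = (D.f l x - D.f l x') / ζ) (z : ℝ × ℝ) (c : ℝ)
    {N : ℝ × ℝ → ℝ × Bool → ℝ} (hN : Measurable (fun q : (ℝ × ℝ) × (ℝ × Bool) => N q.1 q.2))
    (hint : Integrable (fun e : EX2 => Real.exp (ζ * N (exZ D l0 x z +
      (Real.sqrt (r l0 / D.α l0) * e.1.1, Real.sqrt ((D.R x - D.R x') / ζ) * e.1.2)) e.2)) mEX2) :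
    TT (mT D.K) ζ (fun e => exqq D l0 x' (z + dz D r e.1) + c + N (exZ D l0 x' (z + dz D r e.1)) e.2) =
      exqq D l0 x z + (c - (Real.log (D.V l0 x) - Real.log (D.V l0 x')) / (2 * ζ)) +
        TT mEX2 ζ (fun e => N (exZ D l0 x z +
          (Real.sqrt (r l0 / D.α l0) * e.1.1, Real.sqrt ((D.R x - D.R x') / ζ) * e.1.2)) e.2) := by
  have := mEX2_prob
  have := mT_prob D.K
  have hdz : Measurable (fun η => z + dz D r η) := (ExLev_meas_dz D r).const_add z
  have hq : Measurable (fun η => exqq D l0 x' (z + dz D r η)) := (ExLev_meas_qq D l0 x').comp hdz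
  have hZ : Measurable (fun η => exZ D l0 x' (z + dz D r η)) := (ExLev_meas_exZ D l0 x').comp hdz
  have hNm : Measurable (fun e : ET D.K => N (exZ D l0 x' (z + dz D r e.1)) e.2) :=
    hN.comp (f := fun e : ET D.K => (exZ D l0 x' (z + dz D r e.1), e.2))
      ((hZ.comp measurable_fst).prodMk measurable_snd)
  set s1 : ℝ := Real.sqrt (r l0 / D.α l0) with hs1
  set s2 : ℝ := Real.sqrt ((D.R x - D.R x') / ζ) with hs2
  have hN2 : Measurable (fun e : EX2 => N (exZ D l0 x z + (s1 * e.1.1, s2 * e.1.2)) e.2) :=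
    hN.comp (f := fun e : EX2 => (exZ D l0 x z + (s1 * e.1.1, s2 * e.1.2), e.2)) (by fun_prop)
  set Λ : ℝ := ζ * exqq D l0 x z - (1 / 2) * (Real.log (D.V l0 x) - Real.log (D.V l0 x')) with hΛ
  -- the lintegral identity
  have key : ∫⁻ e, ENNReal.ofReal (Real.exp (ζ * (exqq D l0 x' (z + dz D r e.1) + c +
      N (exZ D l0 x' (z + dz D r e.1)) e.2))) ∂(mT D.K) =
      ENNReal.ofReal (Real.exp (ζ * c + Λ)) *
        ∫⁻ e, ENNReal.ofReal (Real.exp (ζ * N (exZ D l0 x z + (s1 * e.1.1, s2 * e.1.2)) e.2)) ∂mEX2 := by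
    have m1 : Measurable (fun e : ET D.K => ENNReal.ofReal (Real.exp (ζ *
        (exqq D l0 x' (z + dz D r e.1) + c + N (exZ D l0 x' (z + dz D r e.1)) e.2)))) := by
      refine ENNReal.measurable_ofReal.comp (Real.measurable_exp.comp (Measurable.const_mul ?_ _))
      exact ((hq.comp measurable_fst).add_const c).add hNm
    have m2 : Measurable (fun e : EX2 => ENNReal.ofReal (Real.exp (ζ *
        N (exZ D l0 x z + (s1 * e.1.1, s2 * e.1.2)) e.2))) :=
      ENNReal.measurable_ofReal.comp (Real.measurable_exp.comp (hN2.const_mul _))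
    unfold mT mEX2
    rw [lintegral_prod_symm' _ m1, lintegral_prod_symm' _ m2]
    have e1 : ∀ y : ℝ × Bool, ∫⁻ η, ENNReal.ofReal (Real.exp (ζ * (exqq D l0 x' (z + dz D r η) + c +
        N (exZ D l0 x' (z + dz D r η)) y))) ∂(gvec D.K) =
        ENNReal.ofReal (Real.exp (ζ * c + Λ)) *
          ∫⁻ h, ENNReal.ofReal (Real.exp (ζ * N (exZ D l0 x z + (s1 * h.1, s2 * h.2)) y))
            ∂((gaussianReal 0 1).prod (gaussianReal 0 1)) := by
      intro y
      have hF : Measurable (fun w : ℝ × ℝ => ENNReal.ofReal (Real.exp (ζ * N w y))) :=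
        ENNReal.measurable_ofReal.comp (Real.measurable_exp.comp
          ((hN.comp (f := fun w : ℝ × ℝ => (w, y)) (by fun_prop)).const_mul _))
      have k1 := ker_level D l0 hx' hxx hx1 hζ r hr z hF
      have e2 : ∀ η, ENNReal.ofReal (Real.exp (ζ * (exqq D l0 x' (z + dz D r η) + c +
          N (exZ D l0 x' (z + dz D r η)) y))) = ENNReal.ofReal (Real.exp (ζ * c)) *
          (ENNReal.ofReal (Real.exp (ζ * exqq D l0 x' (z + dz D r η))) *
            ENNReal.ofReal (Real.exp (ζ * N (exZ D l0 x' (z + dz D r η)) y))) := by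
        intro η
        rw [← ENNReal.ofReal_mul (Real.exp_pos _).le, ← ENNReal.ofReal_mul (Real.exp_pos _).le,
          ← Real.exp_add, ← Real.exp_add]
        congr 2
        ring
      simp_rw [e2]
      rw [lintegral_const_mul' _ _ ENNReal.ofReal_ne_top, k1, ← mul_assoc,
        ← ENNReal.ofReal_mul (Real.exp_pos _).le, ← Real.exp_add]
    simp_rw [e1]
    rw [lintegral_const_mul' _ _ ENNReal.ofReal_ne_top]
  have i1 : ∫ e, Real.exp (ζ * (exqq D l0 x' (z + dz D r e.1) + c +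
      N (exZ D l0 x' (z + dz D r e.1)) e.2)) ∂(mT D.K) =
      Real.exp (ζ * c + Λ) *
        ∫ e, Real.exp (ζ * N (exZ D l0 x z + (s1 * e.1.1, s2 * e.1.2)) e.2) ∂mEX2 := by
    rw [integral_eq_lintegral_of_nonneg_ae (Filter.Eventually.of_forall fun _ => (Real.exp_pos _).le)
      ?_, integral_eq_lintegral_of_nonneg_ae
      (Filter.Eventually.of_forall fun _ => (Real.exp_pos _).le) hint.aestronglyMeasurable, key,
      ENNReal.toReal_mul, ENNReal.toReal_ofReal (Real.exp_pos _).le]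
    refine Measurable.aestronglyMeasurable (Real.measurable_exp.comp (Measurable.const_mul ?_ _))
    exact ((hq.comp measurable_fst).add_const c).add hNm
  have hpos : 0 < ∫ e, Real.exp (ζ * N (exZ D l0 x z + (s1 * e.1.1, s2 * e.1.2)) e.2) ∂mEX2 :=
    integral_exp_pos hint
  unfold TT
  rw [if_neg hζ.ne', if_neg hζ.ne', i1, Real.log_mul (Real.exp_pos _).ne' hpos.ne', Real.log_exp,
    mul_add]
  refine congrArg₂ (· + ·) ?_ rfl
  rw [hΛ]
  field_simp
  ring

end Crest.Agent.RI
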