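import Crest.Agent.RI.ExKer
import Crest.Agent.RI.ExGrA

/-!
# Row 164, Part 8.5: level 0 of the transfer (chunk EXLEV0)
-/

set_option autoImplicit false

namespace Crest.Agent.RI

open MeasureTheory ProbabilityTheory

theorem ExLev0_measZ (D : Blk) (l0 : Fin D.K) (x : ℝ) (r : Fin D.K → ℝ) :
    Measurable (fun η : Fin D.K → ℝ => exZ D l0 x (dz D r η)) := by
  unfold exZ dz
  refine Measurable.prodMk ?_ ?_ <;> fun_prop

/-- LEVEL 0 (`ζ = 0`, plain expectation), start at `z = 0`.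
PROOF: `TT 0 = ∫`; the sum of three integrable functions; the first by `ker_zero_qq` (function of `e.1`, `mT` a product of
probability measures), the third: the map `e ↦ (exZ x (dz r e.1), e.2)` sends `mT` to the image of `mEX2` under
`e ↦ ((√.. e.1.1, √.. e.1.2), e.2)` (`ker_zero` and `Measure.map_prod_map`/`Measure.prod`), `integral_map`;
integrability of the third from `hint` in the same way. -/
theorem level0_eq (D : Blk) (l0 : Fin D.K) {x p : ℝ} (hx : 0 ≤ x) (hx1 : x ≤ 1) (hp : 0 ≤ p)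
    (r : Fin D.K → ℝ) (hr : ∀ l, r l = p * D.f' l x) (c : ℝ)
    {N : ℝ × ℝ → ℝ × Bool → ℝ} (hN : Measurable (fun q : (ℝ × ℝ) × (ℝ × Bool) => N q.1 q.2))
    (hint : Integrable (fun e : EX2 => N
      (Real.sqrt (r l0 / D.α l0) * e.1.1, Real.sqrt (p * D.R' x) * e.1.2) e.2) mEX2) :
    TT (mT D.K) 0 (fun e => exqq D l0 x (dz D r e.1) + c + N (exZ D l0 x (dz D r e.1)) e.2) =
      (c - (1 / 2) * p * D.ψ' l0 x) +
        TT mEX2 0 (fun e => N
          (Real.sqrt (r l0 / D.α l0) * e.1.1, Real.sqrt (p * D.R' x) * e.1.2) e.2) := by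
  have hk := ker_zero D l0 hx hx1 hp r hr
  obtain ⟨hq1, hq2⟩ := ker_zero_qq D l0 hx hx1 hp r hr
  set ν : Measure (ℝ × ℝ) := (gvec D.K).map (fun η => exZ D l0 x (dz D r η)) with hν
  have hmZ := ExLev0_measZ D l0 x r
  have : IsProbabilityMeasure ν := by
    rw [hν]
    exact Measure.isProbabilityMeasure_map hmZ.aemeasurable
  have h1 : MeasurePreserving (fun η : Fin D.K → ℝ => exZ D l0 x (dz D r η)) (gvec D.K) ν :=
    ⟨hmZ, rfl⟩
  have h2 : MeasurePreserving (fun h : ℝ × ℝ =>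
      ((Real.sqrt (r l0 / D.α l0) * h.1, Real.sqrt (p * D.R' x) * h.2) : ℝ × ℝ))
      ((gaussianReal 0 1).prod (gaussianReal 0 1)) ν := ⟨by fun_prop, hk.symm⟩
  have hT : MeasurePreserving (fun e : ET D.K =>
      ((exZ D l0 x (dz D r e.1), e.2) : (ℝ × ℝ) × (ℝ × Bool))) (mT D.K) (ν.prod mX) :=
    h1.prod (MeasurePreserving.id mX)
  have hS : MeasurePreserving (fun e : EX2 =>
      (((Real.sqrt (r l0 / D.α l0) * e.1.1, Real.sqrt (p * D.R' x) * e.1.2), e.2) :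
        (ℝ × ℝ) × (ℝ × Bool))) mEX2 (ν.prod mX) :=
    h2.prod (MeasurePreserving.id mX)
  have hNI : Integrable (fun q : (ℝ × ℝ) × (ℝ × Bool) => N q.1 q.2) (ν.prod mX) :=
    (hS.integrable_comp hN.aestronglyMeasurable).mp hint
  have hTI : Integrable (fun e : ET D.K => N (exZ D l0 x (dz D r e.1)) e.2) (mT D.K) :=
    (hT.integrable_comp hN.aestronglyMeasurable).mpr hNI
  have hqI : Integrable (fun e : ET D.K => exqq D l0 x (dz D r e.1)) (mT D.K) :=
    hq1.comp_fst mX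
  have eT : ∫ e, N (exZ D l0 x (dz D r e.1)) e.2 ∂(mT D.K) =
      ∫ q, N q.1 q.2 ∂(ν.prod mX) := by
    rw [← hT.map_eq, integral_map hT.measurable.aemeasurable
      (by rw [hT.map_eq]; exact hN.aestronglyMeasurable)]
  have eS : ∫ e : EX2, N (Real.sqrt (r l0 / D.α l0) * e.1.1, Real.sqrt (p * D.R' x) * e.1.2) e.2
      ∂mEX2 = ∫ q, N q.1 q.2 ∂(ν.prod mX) := by
    rw [← hS.map_eq, integral_map hS.measurable.aemeasurable
      (by rw [hS.map_eq]; exact hN.aestronglyMeasurable)]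
  have eq1 : ∫ e : ET D.K, exqq D l0 x (dz D r e.1) ∂(mT D.K) = -(1 / 2) * p * D.ψ' l0 x := by
    unfold mT
    rw [integral_fun_fst (fun η => exqq D l0 x (dz D r η)), hq2]
    simp
  have := mT_prob D.K
  have e1 : ∫ e : ET D.K, (exqq D l0 x (dz D r e.1) + c) + N (exZ D l0 x (dz D r e.1)) e.2
      ∂(mT D.K) = (∫ e : ET D.K, (exqq D l0 x (dz D r e.1) + c) ∂(mT D.K)) +
        ∫ e : ET D.K, N (exZ D l0 x (dz D r e.1)) e.2 ∂(mT D.K) :=
    integral_add (hqI.add (integrable_const c)) hTI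
  have e2 : ∫ e : ET D.K, (exqq D l0 x (dz D r e.1) + c) ∂(mT D.K) =
      (∫ e : ET D.K, exqq D l0 x (dz D r e.1) ∂(mT D.K)) + ∫ _ : ET D.K, c ∂(mT D.K) :=
    integral_add hqI (integrable_const c)
  have e3 : ∫ _ : ET D.K, c ∂(mT D.K) = c := by simp
  unfold TT
  rw [if_pos rfl, if_pos rfl]
  show ∫ e : ET D.K, (exqq D l0 x (dz D r e.1) + c) + N (exZ D l0 x (dz D r e.1)) e.2
      ∂(mT D.K) = (c - (1 / 2) * p * D.ψ' l0 x) +
    ∫ e : EX2, N (Real.sqrt (r l0 / D.α l0) * e.1.1, Real.sqrt (p * D.R' x) * e.1.2) e.2 ∂mEX2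
  rw [e1, e2, e3, eq1, eT, eS]
  ring

end Crest.Agent.RI
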