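import Crest.Agent.RI.ExLev
import Crest.Agent.RI.ExLev0
import Crest.Agent.RI.ExJ

/-!
# Row 164, Part 8.5: the transfer through all levels (chunk EXTR)
-/

set_option autoImplicit false

namespace Crest.Agent.RI

open MeasureTheory ProbabilityTheory

private theorem ExTr_consT (D : Blk) (r : ℕ → Fin D.K → ℝ) (v : ℕ → ℝ) (i n : ℕ)
    (F : ℝ × ℝ → ℝ → Bool → ℝ) (z : ℝ × ℝ) (x : ℝ) (e : ET D.K) (ω : Fin (n + 1) → ET D.K) :
    pthT D r v i (n := n + 1) F z x (Fin.cons e ω) =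
      pthT D r v (i + 1) (n := n) F (z + dz D (r i) e.1) (x + v i * e.2.1) ω := by
  unfold pthT
  have h1 : ∑ j : Fin (n + 1 + 1), dz D (r (i + j)) ((Fin.cons e ω : Fin (n + 1 + 1) → ET D.K) j).1 =
      dz D (r i) e.1 + ∑ j : Fin (n + 1), dz D (r (i + 1 + j)) (ω j).1 := by
    rw [Fin.sum_univ_succ]
    simp only [Fin.cons_zero, Fin.cons_succ, Fin.val_zero, Fin.val_succ, add_zero]
    congr 1
    refine Finset.sum_congr rfl fun j _ => ?_
    rw [show i + 1 + (j : ℕ) = i + ((j : ℕ) + 1) by omega]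
  have h2 : ∑ j : Fin (n + 1 + 1), v (i + j) * ((Fin.cons e ω : Fin (n + 1 + 1) → ET D.K) j).2.1 =
      v i * e.2.1 + ∑ j : Fin (n + 1), v (i + 1 + j) * (ω j).2.1 := by
    rw [Fin.sum_univ_succ]
    simp only [Fin.cons_zero, Fin.cons_succ, Fin.val_zero, Fin.val_succ, add_zero]
    congr 1
    refine Finset.sum_congr rfl fun j _ => ?_
    rw [show i + 1 + (j : ℕ) = i + ((j : ℕ) + 1) by omega]
  have h3 : (Fin.cons e ω : Fin (n + 1 + 1) → ET D.K) (Fin.last (n + 1)) = ω (Fin.last n) := by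
    rw [← Fin.succ_last, Fin.cons_succ]
  rw [h1, h2, h3, ← add_assoc, ← add_assoc]

private theorem ExTr_consN (s t v : ℕ → ℝ) (i n : ℕ)
    (F : ℝ × ℝ → ℝ → Bool → ℝ) (y : ℝ × ℝ) (x : ℝ) (e : EX2) (ω : Fin (n + 1) → EX2) :
    pthN s t v i (n := n + 1) F y x (Fin.cons e ω) =
      pthN s t v (i + 1) (n := n) F (y + (s i * e.1.1, t i * e.1.2)) (x + v i * e.2.1) ω := by
  unfold pthN
  have h1 : ∑ j : Fin (n + 1 + 1), ((s (i + j) * ((Fin.cons e ω : Fin (n + 1 + 1) → EX2) j).1.1,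
        t (i + j) * ((Fin.cons e ω : Fin (n + 1 + 1) → EX2) j).1.2) : ℝ × ℝ) =
      (s i * e.1.1, t i * e.1.2) +
        ∑ j : Fin (n + 1), ((s (i + 1 + j) * (ω j).1.1, t (i + 1 + j) * (ω j).1.2) : ℝ × ℝ) := by
    rw [Fin.sum_univ_succ]
    simp only [Fin.cons_zero, Fin.cons_succ, Fin.val_zero, Fin.val_succ, add_zero]
    congr 1
    refine Finset.sum_congr rfl fun j _ => ?_
    rw [show i + 1 + (j : ℕ) = i + ((j : ℕ) + 1) by omega]
  have h2 : ∑ j : Fin (n + 1 + 1), v (i + j) * ((Fin.cons e ω : Fin (n + 1 + 1) → EX2) j).2.1 =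
      v i * e.2.1 + ∑ j : Fin (n + 1), v (i + 1 + j) * (ω j).2.1 := by
    rw [Fin.sum_univ_succ]
    simp only [Fin.cons_zero, Fin.cons_succ, Fin.val_zero, Fin.val_succ, add_zero]
    congr 1
    refine Finset.sum_congr rfl fun j _ => ?_
    rw [show i + 1 + (j : ℕ) = i + ((j : ℕ) + 1) by omega]
  have h3 : (Fin.cons e ω : Fin (n + 1 + 1) → EX2) (Fin.last (n + 1)) = ω (Fin.last n) := by
    rw [← Fin.succ_last, Fin.cons_succ]
  rw [h1, h2, h3, ← add_assoc, ← add_assoc]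

private theorem ExTr_oneT (D : Blk) (r : ℕ → Fin D.K → ℝ) (v : ℕ → ℝ) (i : ℕ)
    (F : ℝ × ℝ → ℝ → Bool → ℝ) (z : ℝ × ℝ) (x : ℝ) (e : ET D.K) (ω : Fin 0 → ET D.K) :
    pthT D r v i (n := 0) F z x (Fin.cons e ω) =
      F (z + dz D (r i) e.1) (x + v i * e.2.1) e.2.2 := by
  unfold pthT
  have h3 : (Fin.cons e ω : Fin (0 + 1) → ET D.K) (Fin.last 0) = e := rfl
  rw [h3]
  simp

private theorem ExTr_oneN (s t v : ℕ → ℝ) (i : ℕ)
    (F : ℝ × ℝ → ℝ → Bool → ℝ) (y : ℝ × ℝ) (x : ℝ) (e : EX2) (ω : Fin 0 → EX2) :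
    pthN s t v i (n := 0) F y x (Fin.cons e ω) =
      F (y + (s i * e.1.1, t i * e.1.2)) (x + v i * e.2.1) e.2.2 := by
  unfold pthN
  have h3 : (Fin.cons e ω : Fin (0 + 1) → EX2) (Fin.last 0) = e := rfl
  rw [h3]
  simp

private theorem ExTr_jsub {F φ : ℝ × ℝ → ℝ → Bool → ℝ} (hF : JMeas F) (hφ : JMeas φ) :
    JMeas (fun y x b => F y x b - φ y x b) :=
  Measurable.sub hF hφ

private theorem ExTr_measN (ζ s t v : ℕ → ℝ) (i n : ℕ) {F : ℝ × ℝ → ℝ → Bool → ℝ} (hF : JMeas F)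
    (x c : ℝ) : Measurable (fun q : (ℝ × ℝ) × (ℝ × Bool) =>
      nest mEX2 ζ (n + 1) i (pthN s t v i (n := n) F q.1 (x + c * q.2.1))) := by
  have := mEX2_prob
  refine measurable_nest mEX2 ζ (n + 1) i
    (H := fun q : (ℝ × ℝ) × (ℝ × Bool) => pthN s t v i (n := n) F q.1 (x + c * q.2.1)) ?_
  have h := measurable_pthN s t v i n hF
  exact h.comp (g := fun q : ((ℝ × ℝ) × ℝ) × (Fin (n + 1) → EX2) =>
      pthN s t v i F q.1.1 q.1.2 q.2)
    (f := fun w : ((ℝ × ℝ) × (ℝ × Bool)) × (Fin (n + 1) → EX2) =>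
      (((w.1.1, x + c * w.1.2.1), w.2) : ((ℝ × ℝ) × ℝ) × (Fin (n + 1) → EX2))) (by fun_prop)

/-- TRANSFER, levels `i, …, i + n` (`i ≥ 1`), the last one is the leaf.
PROOF: induction on `n` generalizing `i z x`.
`n = 0`: `nest _ ζ 1 i H = TT _ (ζ i) (fun e => H (cons e elim0))`; `∑ j : Fin 1`, `Fin.last 0 = 0`; this is `level_eq` with
`c = 0`, `N y q = F₀ y (x + v_i q.1) q.2 - φ y (x + v_i q.1) q.2`; `hint` from `nest_sub_int (n := 0)` applied to the new tower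
(`ham_pthN`, `tame_pthN`; `i + 0 = i`).
`n + 1`: `nest (n+2) i H = TT (ζ i) (fun e => nest (n+1) (i+1) (H (cons e ·)))`, and `H (cons e ω)` is the path functional
from level `i + 1` on with start `z + dz (r i) e.1`, `x + v_i e.2.1` (`Fin.sum_univ_succ`, `Fin.cons_zero`, `Fin.cons_succ`,
`add_assoc`, `i + 1 + j = i + (j + 1)`, `Fin.cons_last`: `(cons e ω) (Fin.last (n+1)) = ω (Fin.last n)`); induction hypothesis gives
`exqq (μ (i+1)) (z + dz) + c_{i+1} + nest mEX2 ζ (n+1) (i+1) (pthN … (exZ (μ (i+1)) (z + dz)) (x + v_i e.2.1))`; then `level_eq` with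
`N y q = nest mEX2 ζ (n+1) (i+1) (pthN s t v (i+1) F y (x + v_i q.1))` (measurable: `measurable_nest`, `measurable_pthN`), `hint` by
`nest_sub_int` for the new tower, and the same `cons` identity for `pthN` in the other direction.
The constants: `Finset.sum_range_succ'`. -/
theorem transfer (D : Blk) (l0 : Fin D.K) (ζ μ : ℕ → ℝ) (hζ : Exps ζ) (hζp : ∀ i, 1 ≤ i → 0 < ζ i)
    (hμ : ∀ i, 1 ≤ i → 0 ≤ μ (i + 1) ∧ μ (i + 1) ≤ μ i ∧ μ i ≤ 1) (r : ℕ → Fin D.K → ℝ)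
    (hr : ∀ i, 1 ≤ i → ∀ l, r i l = (D.f l (μ i) - D.f l (μ (i + 1))) / ζ i) (s t v : ℕ → ℝ)
    (hs : ∀ i, s i = Real.sqrt (r i l0 / D.α l0))
    (ht : ∀ i, 1 ≤ i → t i = Real.sqrt ((D.R (μ i) - D.R (μ (i + 1))) / ζ i))
    {F₀ φ : ℝ × ℝ → ℝ → Bool → ℝ} (hF : JMeas F₀) (hFg : GLin F₀) (hφ : JMeas φ) (hφg : GExp φ)
    (hφ0 : ∀ y x b, 0 ≤ φ y x b) (n i : ℕ) (hi : 1 ≤ i) (h0 : μ (i + n + 1) = 0)
    (z : ℝ × ℝ) (x : ℝ) :
    nest (mT D.K) ζ (n + 1) i (pthT D r v i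
        (fun z x b => exqq D l0 0 z + (F₀ (exZ D l0 0 z) x b - φ (exZ D l0 0 z) x b)) z x) =
      exqq D l0 (μ i) z -
        ∑ j ∈ Finset.range (n + 1), (Real.log (D.V l0 (μ (i + j))) -
          Real.log (D.V l0 (μ (i + j + 1)))) / (2 * ζ (i + j)) +
        nest mEX2 ζ (n + 1) i (pthN s t v i (fun y x b => F₀ y x b - φ y x b)
          (exZ D l0 (μ i) z) x) := by
  have := mEX2_prob
  have := mT_prob D.K
  induction n generalizing i z x with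
  | zero =>
    obtain ⟨m1, m2, m3⟩ := hμ i hi
    have h0' : μ (i + 1) = 0 := h0
    set N : ℝ × ℝ → ℝ × Bool → ℝ := fun y q => F₀ y (x + v i * q.1) q.2 - φ y (x + v i * q.1) q.2
      with hN
    have hNm : Measurable (fun q : (ℝ × ℝ) × (ℝ × Bool) => N q.1 q.2) :=
      (ExTr_jsub hF hφ).comp (g := fun q : (ℝ × ℝ) × (ℝ × Bool) =>
          F₀ q.1 q.2.1 q.2.2 - φ q.1 q.2.1 q.2.2)
        (f := fun q : (ℝ × ℝ) × (ℝ × Bool) =>
          ((q.1, (x + v i * q.2.1, q.2.2)) : (ℝ × ℝ) × (ℝ × Bool))) (by fun_prop)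
    have hI := (nest_sub_int (m := mEX2) dom_mEX2 hζ 0 (i + 1)
      (ham_pthN s t v i 0 hF hFg (exZ D l0 (μ i) z) x)
      (tame_pthN s t v i 0 hφ hφg (exZ D l0 (μ i) z) x) (fun ω => hφ0 _ _ _)).2 (ζ i) (hζ i).1
    have hE : ∀ e : EX2, nest mEX2 ζ 0 (i + 1) (fun ω =>
        pthN s t v i (n := 0) F₀ (exZ D l0 (μ i) z) x (Fin.cons e ω) -
          pthN s t v i (n := 0) φ (exZ D l0 (μ i) z) x (Fin.cons e ω)) =
        N (exZ D l0 (μ i) z + (Real.sqrt (r i l0 / D.α l0) * e.1.1,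
          Real.sqrt ((D.R (μ i) - D.R (μ (i + 1))) / ζ i) * e.1.2)) e.2 := by
      intro e
      simp only [nest]
      rw [ExTr_oneN, ExTr_oneN, hs i, ht i hi]
    simp_rw [hE] at hI
    have key := level_eq D l0 (x := μ i) (x' := μ (i + 1)) m1 m2 m3 (hζp i hi) (r i)
      (hr i hi) z 0 hNm hI
    have hL : nest (mT D.K) ζ (0 + 1) i (pthT D r v i
        (fun z x b => exqq D l0 0 z + (F₀ (exZ D l0 0 z) x b - φ (exZ D l0 0 z) x b)) z x) =
        TT (mT D.K) (ζ i) (fun e => exqq D l0 (μ (i + 1)) (z + dz D (r i) e.1) + 0 +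
          N (exZ D l0 (μ (i + 1)) (z + dz D (r i) e.1)) e.2) := by
      show TT (mT D.K) (ζ i) (fun e => nest (mT D.K) ζ 0 (i + 1) _) = _
      congr 1
      funext e
      simp only [nest]
      rw [ExTr_oneT, h0', add_zero]
    have hR : nest mEX2 ζ (0 + 1) i (pthN s t v i (fun y x b => F₀ y x b - φ y x b)
          (exZ D l0 (μ i) z) x) =
        TT mEX2 (ζ i) (fun e => N (exZ D l0 (μ i) z + (Real.sqrt (r i l0 / D.α l0) * e.1.1,
          Real.sqrt ((D.R (μ i) - D.R (μ (i + 1))) / ζ i) * e.1.2)) e.2) := by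
      show TT mEX2 (ζ i) (fun e => nest mEX2 ζ 0 (i + 1) _) = _
      congr 1
      funext e
      simp only [nest]
      rw [ExTr_oneN, hs i, ht i hi]
    rw [hL, hR, key]
    simp only [zero_add, Finset.range_one, Finset.sum_singleton, add_zero]
    ring
  | succ n ih =>
    obtain ⟨m1, m2, m3⟩ := hμ i hi
    set N : ℝ × ℝ → ℝ × Bool → ℝ := fun y q => nest mEX2 ζ (n + 1) (i + 1)
      (pthN s t v (i + 1) (n := n) (fun y x b => F₀ y x b - φ y x b) y (x + v i * q.1)) with hN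
    have hNm : Measurable (fun q : (ℝ × ℝ) × (ℝ × Bool) => N q.1 q.2) :=
      ExTr_measN ζ s t v (i + 1) n (ExTr_jsub hF hφ) x (v i)
    have hI := (nest_sub_int (m := mEX2) dom_mEX2 hζ (n + 1) (i + 1)
      (ham_pthN s t v i (n + 1) hF hFg (exZ D l0 (μ i) z) x)
      (tame_pthN s t v i (n + 1) hφ hφg (exZ D l0 (μ i) z) x) (fun ω => hφ0 _ _ _)).2 (ζ i) (hζ i).1
    have hE : ∀ e : EX2, nest mEX2 ζ (n + 1) (i + 1) (fun ω =>
        pthN s t v i (n := n + 1) F₀ (exZ D l0 (μ i) z) x (Fin.cons e ω) -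
          pthN s t v i (n := n + 1) φ (exZ D l0 (μ i) z) x (Fin.cons e ω)) =
        N (exZ D l0 (μ i) z + (Real.sqrt (r i l0 / D.α l0) * e.1.1,
          Real.sqrt ((D.R (μ i) - D.R (μ (i + 1))) / ζ i) * e.1.2)) e.2 := by
      intro e
      rw [hN]
      show _ = nest mEX2 ζ (n + 1) (i + 1) _
      congr 1
      funext ω
      rw [ExTr_consN, ExTr_consN, hs i, ht i hi]
      rfl
    simp_rw [hE] at hI
    have key := level_eq D l0 (x := μ i) (x' := μ (i + 1)) m1 m2 m3 (hζp i hi) (r i)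
      (hr i hi) z (-∑ j ∈ Finset.range (n + 1), (Real.log (D.V l0 (μ (i + 1 + j))) -
          Real.log (D.V l0 (μ (i + 1 + j + 1)))) / (2 * ζ (i + 1 + j))) hNm hI
    have hL : nest (mT D.K) ζ (n + 1 + 1) i (pthT D r v i
        (fun z x b => exqq D l0 0 z + (F₀ (exZ D l0 0 z) x b - φ (exZ D l0 0 z) x b)) z x) =
        TT (mT D.K) (ζ i) (fun e => exqq D l0 (μ (i + 1)) (z + dz D (r i) e.1) +
          (-∑ j ∈ Finset.range (n + 1), (Real.log (D.V l0 (μ (i + 1 + j))) -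
          Real.log (D.V l0 (μ (i + 1 + j + 1)))) / (2 * ζ (i + 1 + j))) +
          N (exZ D l0 (μ (i + 1)) (z + dz D (r i) e.1)) e.2) := by
      show TT (mT D.K) (ζ i) (fun e => nest (mT D.K) ζ (n + 1) (i + 1) _) = _
      congr 1
      funext e
      have h1 := ih (i + 1) (by omega)
        (by rw [show i + 1 + n + 1 = i + (n + 1) + 1 by omega]; exact h0)
        (z + dz D (r i) e.1) (x + v i * e.2.1)
      rw [← sub_eq_add_neg]
      refine Eq.trans ?_ h1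
      congr 1
      funext ω
      rw [ExTr_consT]
    have hR : nest mEX2 ζ (n + 1 + 1) i (pthN s t v i (fun y x b => F₀ y x b - φ y x b)
          (exZ D l0 (μ i) z) x) =
        TT mEX2 (ζ i) (fun e => N (exZ D l0 (μ i) z + (Real.sqrt (r i l0 / D.α l0) * e.1.1,
          Real.sqrt ((D.R (μ i) - D.R (μ (i + 1))) / ζ i) * e.1.2)) e.2) := by
      show TT mEX2 (ζ i) (fun e => nest mEX2 ζ (n + 1) (i + 1) _) = _
      congr 1
      funext e
      rw [hN]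
      show _ = nest mEX2 ζ (n + 1) (i + 1) _
      congr 1
      funext ω
      rw [ExTr_consN, hs i, ht i hi]
    have hc : ∑ j ∈ Finset.range (n + 1), (Real.log (D.V l0 (μ (i + (j + 1)))) -
          Real.log (D.V l0 (μ (i + (j + 1) + 1)))) / (2 * ζ (i + (j + 1))) =
        ∑ j ∈ Finset.range (n + 1), (Real.log (D.V l0 (μ (i + 1 + j))) -
          Real.log (D.V l0 (μ (i + 1 + j + 1)))) / (2 * ζ (i + 1 + j)) := by
      refine Finset.sum_congr rfl fun j _ => ?_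
      rw [show i + (j + 1) = i + 1 + j by omega]
    rw [hL, hR, key, Finset.sum_range_succ' (fun j => (Real.log (D.V l0 (μ (i + j))) -
      Real.log (D.V l0 (μ (i + j + 1)))) / (2 * ζ (i + j))) (n + 1), hc, add_zero]
    ring

/-- all levels: `transfer` with `i = 1` for the inner levels and `level0_eq` -/
theorem transfer0 (D : Blk) (l0 : Fin D.K) (ζ μ : ℕ → ℝ) (hζ : Exps ζ) (hζ0 : ζ 0 = 0)
    (hζp : ∀ i, 1 ≤ i → 0 < ζ i)
    (hμ : ∀ i, 1 ≤ i → 0 ≤ μ (i + 1) ∧ μ (i + 1) ≤ μ i ∧ μ i ≤ 1) (r : ℕ → Fin D.K → ℝ)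
    (hr : ∀ i, 1 ≤ i → ∀ l, r i l = (D.f l (μ i) - D.f l (μ (i + 1))) / ζ i)
    {p : ℝ} (hp : 0 ≤ p) (hr0 : ∀ l, r 0 l = p * D.f' l (μ 1)) (s t v : ℕ → ℝ)
    (hs : ∀ i, s i = Real.sqrt (r i l0 / D.α l0))
    (ht : ∀ i, 1 ≤ i → t i = Real.sqrt ((D.R (μ i) - D.R (μ (i + 1))) / ζ i))
    (ht0 : t 0 = Real.sqrt (p * D.R' (μ 1)))
    {F₀ φ : ℝ × ℝ → ℝ → Bool → ℝ} (hF : JMeas F₀) (hFg : GLin F₀) (hφ : JMeas φ) (hφg : GExp φ)
    (hφ0 : ∀ y x b, 0 ≤ φ y x b) (n : ℕ) (h0 : μ (n + 2) = 0) (x : ℝ) :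
    nest (mT D.K) ζ (n + 2) 0 (pthT D r v 0
        (fun z x b => exqq D l0 0 z + (F₀ (exZ D l0 0 z) x b - φ (exZ D l0 0 z) x b)) 0 x) =
      -(1 / 2) * p * D.ψ' l0 (μ 1) -
        ∑ j ∈ Finset.range (n + 1), (Real.log (D.V l0 (μ (1 + j))) -
          Real.log (D.V l0 (μ (1 + j + 1)))) / (2 * ζ (1 + j)) +
        nest mEX2 ζ (n + 2) 0 (pthN s t v 0 (fun y x b => F₀ y x b - φ y x b) 0 x) := by
  have := mEX2_prob
  have := mT_prob D.K
  obtain ⟨m1, m2, m3⟩ := hμ 1 le_rfl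
  have m1' : 0 ≤ μ 1 := m1.trans m2
  set N : ℝ × ℝ → ℝ × Bool → ℝ := fun y q => nest mEX2 ζ (n + 1) 1
    (pthN s t v 1 (n := n) (fun y x b => F₀ y x b - φ y x b) y (x + v 0 * q.1)) with hN
  have hNm : Measurable (fun q : (ℝ × ℝ) × (ℝ × Bool) => N q.1 q.2) :=
    ExTr_measN ζ s t v 1 n (ExTr_jsub hF hφ) x (v 0)
  have hI := (nest_sub_int (m := mEX2) dom_mEX2 hζ (n + 1) 1
    (ham_pthN s t v 0 (n + 1) hF hFg 0 x)
    (tame_pthN s t v 0 (n + 1) hφ hφg 0 x) (fun ω => hφ0 _ _ _)).1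
  have hE : ∀ e : EX2, nest mEX2 ζ (n + 1) 1 (fun ω =>
      pthN s t v 0 (n := n + 1) F₀ 0 x (Fin.cons e ω) -
        pthN s t v 0 (n := n + 1) φ 0 x (Fin.cons e ω)) =
      N (Real.sqrt (r 0 l0 / D.α l0) * e.1.1, Real.sqrt (p * D.R' (μ 1)) * e.1.2) e.2 := by
    intro e
    rw [hN]
    show _ = nest mEX2 ζ (n + 1) 1 _
    congr 1
    funext ω
    rw [ExTr_consN, ExTr_consN, hs 0, ht0]
    simp only [zero_add]
    rfl
  simp_rw [hE] at hI
  have key := level0_eq D l0 (x := μ 1) m1' m3 hp (r 0) hr0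
    (-∑ j ∈ Finset.range (n + 1), (Real.log (D.V l0 (μ (1 + j))) -
        Real.log (D.V l0 (μ (1 + j + 1)))) / (2 * ζ (1 + j))) hNm hI
  have hL : nest (mT D.K) ζ (n + 2) 0 (pthT D r v 0
      (fun z x b => exqq D l0 0 z + (F₀ (exZ D l0 0 z) x b - φ (exZ D l0 0 z) x b)) 0 x) =
      TT (mT D.K) 0 (fun e => exqq D l0 (μ 1) (dz D (r 0) e.1) +
        (-∑ j ∈ Finset.range (n + 1), (Real.log (D.V l0 (μ (1 + j))) -
        Real.log (D.V l0 (μ (1 + j + 1)))) / (2 * ζ (1 + j))) +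
        N (exZ D l0 (μ 1) (dz D (r 0) e.1)) e.2) := by
    show TT (mT D.K) (ζ 0) (fun e => nest (mT D.K) ζ (n + 1) (0 + 1) _) = _
    rw [hζ0]
    congr 1
    funext e
    have h1 := transfer D l0 ζ μ hζ hζp hμ r hr s t v hs ht hF hFg hφ hφg hφ0 n 1 le_rfl
      (by rw [show 1 + n + 1 = n + 2 by omega]; exact h0)
      (dz D (r 0) e.1) (x + v 0 * e.2.1)
    rw [← sub_eq_add_neg]
    refine Eq.trans ?_ h1
    congr 1
    funext ω
    rw [ExTr_consT]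
    simp only [zero_add]
  have hR : nest mEX2 ζ (n + 2) 0 (pthN s t v 0 (fun y x b => F₀ y x b - φ y x b) 0 x) =
      TT mEX2 0 (fun e => N (Real.sqrt (r 0 l0 / D.α l0) * e.1.1,
        Real.sqrt (p * D.R' (μ 1)) * e.1.2) e.2) := by
    show TT mEX2 (ζ 0) (fun e => nest mEX2 ζ (n + 1) (0 + 1) _) = _
    rw [hζ0]
    congr 1
    funext e
    rw [hN]
    show _ = nest mEX2 ζ (n + 1) 1 _
    congr 1
    funext ω
    rw [ExTr_consN, hs 0, ht0]
    simp only [zero_add]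
  rw [hL, hR, key]
  ring

end Crest.Agent.RI
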