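import Crest.Agent.RI.LBDefs
import Crest.Agent.RI.TowerAPI

/-!
# Row 164, Part 8/9: permutations of the spins and of the rows
-/

set_option autoImplicit false

namespace Crest.Agent.RI

open MeasureTheory ProbabilityTheory

variable {N K J k : ℕ}

/-- permutation of the columns of `O`, of the spins and of the main field -/
def permC (π : Equiv.Perm (Fin N)) (x : EN N) : EN N :=
  (⟨fun a r => x.1.1 a (π r), by
    have h := x.1.2
    rw [Matrix.mem_orthogonalGroup_iff] at h ⊢
    have e : Matrix.of (fun a r => x.1.1 a (π r)) = (Matrix.of x.1.1).submatrix id π := rfl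
    rw [e]
    have h2 : ((Matrix.of x.1.1).submatrix id π) * ((Matrix.of x.1.1).submatrix id π).transpose =
        (Matrix.of x.1.1) * (Matrix.of x.1.1).transpose := by
      ext i j
      simp only [Matrix.mul_apply, Matrix.transpose_apply, Matrix.submatrix_apply, id_eq]
      exact Equiv.sum_comp π (fun r => (Matrix.of x.1.1) i r * (Matrix.of x.1.1) j r)
    rw [h2, h]⟩,
    fun r => x.2.1 (π r), x.2.2.1, fun r => x.2.2.2 (π r))

/-- permutation of the rows of `O` and of the perturbation field -/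
def permR (π : Equiv.Perm (Fin N)) (x : EN N) : EN N :=
  (⟨fun a r => x.1.1 (π a) r, by
    have h := x.1.2
    rw [Matrix.mem_orthogonalGroup_iff'] at h ⊢
    have e : Matrix.of (fun a r => x.1.1 (π a) r) = (Matrix.of x.1.1).submatrix π id := rfl
    rw [e]
    have h2 : ((Matrix.of x.1.1).submatrix π id).transpose * ((Matrix.of x.1.1).submatrix π id) =
        (Matrix.of x.1.1).transpose * (Matrix.of x.1.1) := by
      ext i j
      simp only [Matrix.mul_apply, Matrix.transpose_apply, Matrix.submatrix_apply, id_eq]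
      exact Equiv.sum_comp π (fun r => (Matrix.of x.1.1) r i * (Matrix.of x.1.1) r j)
    rw [h2, h]⟩,
    x.2.1, fun a => x.2.2.1 (π a), x.2.2.2)

/-! auxiliary facts -/

private theorem exch_pi_perm {α : Type} [MeasurableSpace α] (ν : Measure α) [SigmaFinite ν]
    (π : Equiv.Perm (Fin N)) :
    MeasurePreserving (fun g : Fin N → α => fun a => g (π a)) (Measure.pi fun _ => ν)
      (Measure.pi fun _ => ν) := by
  have h := measurePreserving_arrowCongr' (α₁ := Fin N) (α₂ := Fin N) (β₁ := α) (β₂ := α)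
    (fun _ => ν) (fun _ => ν) π.symm (MeasurableEquiv.refl α)
    (fun _ => MeasurePreserving.id ν)
  exact h

private def exch_colp (π : Equiv.Perm (Fin N)) (U : ON N) : ON N :=
  (permC π (U, fun _ => 0, fun _ => 0, fun _ => true)).1

private def exch_rowp (π : Equiv.Perm (Fin N)) (U : ON N) : ON N :=
  (permR π (U, fun _ => 0, fun _ => 0, fun _ => true)).1

private def exch_one : ON N := ⟨fun i j => (1 : Matrix (Fin N) (Fin N) ℝ) i j,
  (Matrix.orthogonalGroup (Fin N) ℝ).one_mem⟩

private theorem exch_colp_eq (π : Equiv.Perm (Fin N)) (U : ON N) :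
    exch_colp π U = ON.mul U (exch_colp π exch_one) := by
  refine Subtype.ext ?_
  funext a r
  show U.1 a (π r) = ∑ i, U.1 a i * (1 : Matrix (Fin N) (Fin N) ℝ) i (π r)
  simp [Matrix.one_apply]

private theorem exch_rowp_eq (π : Equiv.Perm (Fin N)) (U : ON N) :
    exch_rowp π U = ON.mul (exch_rowp π exch_one) U := by
  refine Subtype.ext ?_
  funext a r
  show U.1 (π a) r = ∑ i, (1 : Matrix (Fin N) (Fin N) ℝ) (π a) i * U.1 i r
  simp [Matrix.one_apply]

private theorem exch_colp_mp {P : Measure (ON N)} (hP : HaarO P) (π : Equiv.Perm (Fin N)) :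
    MeasurePreserving (exch_colp π) P P := by
  refine ⟨?_, ?_⟩
  · refine Measurable.subtype_mk (measurable_pi_iff.2 fun a => measurable_pi_iff.2 fun r => ?_)
    exact (measurable_pi_apply (π r)).comp ((measurable_pi_apply a).comp measurable_subtype_coe)
  · have : exch_colp π = fun U : ON N => ON.mul U (exch_colp π exch_one) :=
      funext fun U => exch_colp_eq π U
    rw [this]
    exact hP.right _

private theorem exch_rowp_mp {P : Measure (ON N)} (hP : HaarO P) (π : Equiv.Perm (Fin N)) :
    MeasurePreserving (exch_rowp π) P P := by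
  refine ⟨?_, ?_⟩
  · refine Measurable.subtype_mk (measurable_pi_iff.2 fun a => measurable_pi_iff.2 fun r => ?_)
    exact (measurable_pi_apply r).comp ((measurable_pi_apply (π a)).comp measurable_subtype_coe)
  · have : exch_rowp π = fun U : ON N => ON.mul (exch_rowp π exch_one) U :=
      funext fun U => exch_rowp_eq π U
    rw [this]
    exact hP.left _

private theorem exch_half_sf : SigmaFinite
    ((2 : ENNReal)⁻¹ • (Measure.dirac true + Measure.dirac false : Measure Bool)) := by
  have : IsProbabilityMeasure ((2 : ENNReal)⁻¹ •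
      (Measure.dirac true + Measure.dirac false : Measure Bool)) := by
    constructor
    simp only [Measure.smul_apply, Measure.add_apply, measure_univ, smul_eq_mul]
    rw [one_add_one_eq_two, ENNReal.inv_mul_cancel two_ne_zero ENNReal.ofNat_ne_top]
  infer_instance

/-- PROOF: `permC π` multiplies `O` from the right by a permutation matrix (`HaarO.right`), permutes the coordinates of product measures. -/
theorem permC_mp {P : Measure (ON N)} (hP : HaarO P) (π : Equiv.Perm (Fin N)) :
    MeasurePreserving (permC π) (mN P (unifA N)) (mN P (unifA N)) := by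
  have := hP.prob
  have := exch_half_sf
  unfold mN
  exact (exch_colp_mp hP π).prod ((exch_pi_perm (gaussianReal 0 1) π).prod
    ((MeasurePreserving.id (gvec N)).prod (exch_pi_perm _ π)))

theorem permR_mp {P : Measure (ON N)} (hP : HaarO P) (π : Equiv.Perm (Fin N)) :
    MeasurePreserving (permR π) (mN P (unifA N)) (mN P (unifA N)) := by
  have := hP.prob
  unfold mN
  exact (exch_rowp_mp hP π).prod ((MeasurePreserving.id (gvec N)).prod
    ((exch_pi_perm (gaussianReal 0 1) π).prod (MeasurePreserving.id (unifA N))))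

/-- `y` is unchanged -/
theorem yv_permC (π : Equiv.Perm (Fin N)) (ω : Fin (k + 1) → EN N) :
    yv k (fun j => permC π (ω j)) = yv k ω := by
  funext a
  exact Equiv.sum_comp π (fun r => (ω 0).1.1 a r * spin ((ω (Fin.last k)).2.2.2 r))

theorem yv_permR (π : Equiv.Perm (Fin N)) (ω : Fin (k + 1) → EN N) :
    yv k (fun j => permR π (ω j)) = fun a => yv k ω (π a) := rfl

theorem TJ_perm (π : Equiv.Perm (Fin N)) (lab : Fin N → Fin J) (j : Fin J) (σ : Fin N → Bool) :
    TJ (fun r => lab (π r)) j (fun r => σ (π r)) = TJ lab j σ :=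
  Equiv.sum_comp π (fun r => if lab r = j then spin (σ r) else 0)

/-- the Hamiltonian with permuted classes / labels -/
theorem HN_permC (D : Blk) (L : LBd J) (s : ℝ) (x : XI k D.K J → ℝ) (κ : Fin N → Fin D.K)
    (lab : Fin N → Fin J) (π : Equiv.Perm (Fin N)) (ω : Fin (k + 1) → EN N) :
    HN k (θL D L k s x κ (fun r => lab (π r))) (fun j => permC π (ω j)) =
      HN k (θL D L k s x κ lab) ω := by
  unfold HN
  rw [yv_permC]
  have hB : (θL D L k s x κ (fun r => lab (π r))).B (permC π (ω (Fin.last k))).2.2.2 =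
      (θL D L k s x κ lab).B (ω (Fin.last k)).2.2.2 := by
    show BL L s (fun j => x (Sum.inr (Sum.inl j))) (fun r => lab (π r))
      (fun r => (ω (Fin.last k)).2.2.2 (π r)) = BL L s (fun j => x (Sum.inr (Sum.inl j))) lab
      (ω (Fin.last k)).2.2.2
    unfold BL
    simp only [TJ_perm]
  have hv : ∀ i, (θL D L k s x κ (fun r => lab (π r))).v i = 0 := fun _ => rfl
  have hv' : ∀ i, (θL D L k s x κ lab).v i = 0 := fun _ => rfl
  simp only [hv, hv', zero_mul, Finset.sum_const_zero]
  rw [hB]
  rfl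

theorem HN_permR (D : Blk) (L : LBd J) (s : ℝ) (x : XI k D.K J → ℝ) (κ : Fin N → Fin D.K)
    (lab : Fin N → Fin J) (π : Equiv.Perm (Fin N)) (ω : Fin (k + 1) → EN N) :
    HN k (θL D L k s x (fun a => κ (π a)) lab) (fun j => permR π (ω j)) =
      HN k (θL D L k s x κ lab) ω := by
  unfold HN
  rw [yv_permR]
  have h1 : ∑ a : Fin N, (θL D L k s x (fun a => κ (π a)) lab).e
      ((θL D L k s x (fun a => κ (π a)) lab).κ a) * (fun a => yv k ω (π a)) a ^ 2 =
      ∑ a : Fin N, (θL D L k s x κ lab).e ((θL D L k s x κ lab).κ a) * yv k ω a ^ 2 :=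
    Equiv.sum_comp π (fun a => (θL D L k s x κ lab).e ((θL D L k s x κ lab).κ a) * yv k ω a ^ 2)
  have h2 : ∀ i : Fin k, ∑ a : Fin N, (θL D L k s x (fun a => κ (π a)) lab).c i
      ((θL D L k s x (fun a => κ (π a)) lab).κ a) * (permR π (ω i.castSucc)).2.2.1 a *
        (fun a => yv k ω (π a)) a =
      ∑ a : Fin N, (θL D L k s x κ lab).c i ((θL D L k s x κ lab).κ a) *
        (ω i.castSucc).2.2.1 a * yv k ω a := fun i =>
    Equiv.sum_comp π (fun a => (θL D L k s x κ lab).c i ((θL D L k s x κ lab).κ a) *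
        (ω i.castSucc).2.2.1 a * yv k ω a)
  rw [h1]
  simp only [h2]
  rfl

private theorem exch_comp_C (π : Equiv.Perm (Fin N)) (D : Blk) (L : LBd J) (s : ℝ)
    (x : XI k D.K J → ℝ) (κ : Fin N → Fin D.K) (lab : Fin N → Fin J) :
    HN k (θL D L k s x κ lab) =
      fun ω => HN k (θL D L k s x κ (fun r => lab (π r))) (fun j => permC π (ω j)) :=
  funext fun ω => (HN_permC D L s x κ lab π ω).symm

private theorem exch_comp_R (π : Equiv.Perm (Fin N)) (D : Blk) (L : LBd J) (s : ℝ)
    (x : XI k D.K J → ℝ) (κ : Fin N → Fin D.K) (lab : Fin N → Fin J) :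
    HN k (θL D L k s x κ lab) =
      fun ω => HN k (θL D L k s x (fun a => κ (π a)) lab) (fun j => permR π (ω j)) :=
  funext fun ω => (HN_permR D L s x κ lab π ω).symm

/-- expectations with permuted classes -/
theorem EL_permC {P : Measure (ON N)} (hP : HaarO P) (D : Blk) (L : LBd J) (s : ℝ)
    (x : XI k D.K J → ℝ) (κ : Fin N → Fin D.K) (lab : Fin N → Fin J) (π : Equiv.Perm (Fin N))
    {Φ : (Fin (k + 1) → EN N) → ℝ} (hΦ : Measurable Φ) :
    EL P D L k s x κ lab (fun ω => Φ (fun j => permC π (ω j))) =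
      EL P D L k s x κ (fun r => lab (π r)) Φ := by
  have := prob_mN hP (unifA N)
  unfold EL
  rw [exch_comp_C π D L s x κ lab]
  exact pathE_map (permC_mp hP π) (k + 1) 0 (HN_ham k _).meas hΦ

theorem EL_permR {P : Measure (ON N)} (hP : HaarO P) (D : Blk) (L : LBd J) (s : ℝ)
    (x : XI k D.K J → ℝ) (κ : Fin N → Fin D.K) (lab : Fin N → Fin J) (π : Equiv.Perm (Fin N))
    {Φ : (Fin (k + 1) → EN N) → ℝ} (hΦ : Measurable Φ) :
    EL P D L k s x κ lab (fun ω => Φ (fun j => permR π (ω j))) =
      EL P D L k s x (fun a => κ (π a)) lab Φ := by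
  have := prob_mN hP (unifA N)
  unfold EL
  rw [exch_comp_R π D L s x κ lab]
  exact pathE_map (permR_mp hP π) (k + 1) 0 (HN_ham k _).meas hΦ

theorem EL2_permC {P : Measure (ON N)} (hP : HaarO P) (D : Blk) (L : LBd J) (s : ℝ)
    (x : XI k D.K J → ℝ) (κ : Fin N → Fin D.K) (lab : Fin N → Fin J) (π : Equiv.Perm (Fin N))
    (r : ℕ) {Φ : (Fin (k + 1) → EN N) → (Fin (k + 1) → EN N) → ℝ}
    (hΦ : Measurable (Function.uncurry Φ)) :
    EL2 P D L k s x κ lab r (fun ω ω' => Φ (fun j => permC π (ω j)) (fun j => permC π (ω' j))) =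
      EL2 P D L k s x κ (fun r => lab (π r)) r Φ := by
  have := prob_mN hP (unifA N)
  unfold EL2
  rw [exch_comp_C π D L s x κ lab]
  exact pairE_map (permC_mp hP π) r (k + 1) 0 (HN_ham k _).meas hΦ

theorem FL_permC {P : Measure (ON N)} (hP : HaarO P) (D : Blk) (L : LBd J) (s : ℝ)
    (x : XI k D.K J → ℝ) (κ : Fin N → Fin D.K) (lab : Fin N → Fin J) (π : Equiv.Perm (Fin N)) :
    FL P D L k s x κ (fun r => lab (π r)) = FL P D L k s x κ lab := by
  have := prob_mN hP (unifA N)
  unfold FL
  rw [exch_comp_C π D L s x κ lab]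
  exact (nest_map (permC_mp hP π) (k + 1) 0 (HN_ham k _).meas).symm

theorem FL_permR {P : Measure (ON N)} (hP : HaarO P) (D : Blk) (L : LBd J) (s : ℝ)
    (x : XI k D.K J → ℝ) (κ : Fin N → Fin D.K) (lab : Fin N → Fin J) (π : Equiv.Perm (Fin N)) :
    FL P D L k s x (fun a => κ (π a)) lab = FL P D L k s x κ lab := by
  have := prob_mN hP (unifA N)
  unfold FL
  rw [exch_comp_R π D L s x κ lab]
  exact (nest_map (permR_mp hP π) (k + 1) 0 (HN_ham k _).meas).symm

end Crest.Agent.RI
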