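import Crest.Agent.RI.TBasicA

/-!
# Row 164, tower: conditional expectations.
-/

set_option autoImplicit false

namespace Crest.Agent.RI
open MeasureTheory ProbabilityTheory

variable {E : Type} [MeasurableSpace E]
variable {m : Measure E} [IsProbabilityMeasure m] {ζ : ℕ → ℝ} {β : E → ℝ}

theorem TBasicB_succ (r n i : ℕ) (H Φ : (Fin (n + 1) → E) → ℝ) (ω : Fin (n + 1) → E) :
    condE m ζ (r + 1) (n + 1) i H Φ ω =
      condE m ζ r n (i + 1) (fun ω' => H (Fin.cons (ω 0) ω')) (fun ω' => Φ (Fin.cons (ω 0) ω'))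
        (Fin.tail ω) := rfl

theorem TBasicB_succ_cons (r n i : ℕ) (H Φ : (Fin (n + 1) → E) → ℝ) (e : E) (ω : Fin n → E) :
    condE m ζ (r + 1) (n + 1) i H Φ (Fin.cons e ω : Fin (n + 1) → E) =
      condE m ζ r n (i + 1) (fun ω' => H (Fin.cons e ω')) (fun ω' => Φ (Fin.cons e ω')) ω := by
  rw [TBasicB_succ, Fin.tail_cons, Fin.cons_zero]

/-- `condE` with all levels is the identity. -/
theorem condE_all (n i : ℕ) (H Φ : (Fin n → E) → ℝ) (r : ℕ) (hr : n ≤ r) (ω : Fin n → E) :
    condE m ζ r n i H Φ ω = Φ ω := by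
  induction n generalizing i r with
  | zero =>
    cases r with
    | zero =>
      show Φ Fin.elim0 = Φ ω
      exact congrArg Φ (Subsingleton.elim _ _)
    | succ r => rfl
  | succ n ih =>
    cases r with
    | zero => omega
    | succ r =>
      rw [TBasicB_succ, ih _ _ _ _ (by omega)]
      exact congrArg Φ (Fin.cons_self_tail ω)

/-- `condE r` depends only on the first `r` coordinates. -/
theorem condE_congr (r n i : ℕ) (H Φ : (Fin n → E) → ℝ) (ω ω' : Fin n → E)
    (h : ∀ j : Fin n, (j : ℕ) < r → ω j = ω' j) :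
    condE m ζ r n i H Φ ω = condE m ζ r n i H Φ ω' := by
  induction r generalizing n i with
  | zero => cases n <;> rfl
  | succ r ih =>
    cases n with
    | zero => exact congrArg Φ (Subsingleton.elim _ _)
    | succ n =>
      rw [TBasicB_succ, TBasicB_succ, h 0 (by simp)]
      apply ih
      intro j hj
      exact h j.succ (by simpa using hj)

/-- pull out a factor depending only on the first `r` coordinates -/
theorem condE_pull (hβ : Dom m β) (hζ : Exps ζ) (r n i : ℕ) {H Φ Ψ : (Fin n → E) → ℝ} (hH : Ham β H)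
    (hΦ : Tame β Φ) (hΨ : Tame β Ψ)
    (h : ∀ ω ω' : Fin n → E, (∀ j : Fin n, (j : ℕ) < r → ω j = ω' j) → Ψ ω = Ψ ω') (ω : Fin n → E) :
    condE m ζ r n i H (fun ω => Φ ω * Ψ ω) ω = condE m ζ r n i H Φ ω * Ψ ω := by
  clear hH hΦ hΨ hβ hζ
  induction r generalizing n i with
  | zero =>
    have hc : (fun ω' => Φ ω' * Ψ ω') = fun ω' => Ψ ω * Φ ω' := by
      funext ω'
      rw [h ω' ω (by intro j hj; omega), mul_comm]
    have e0 : ∀ X : (Fin n → E) → ℝ, condE m ζ 0 n i H X ω = pathE m ζ n i H X := by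
      intro X; cases n <;> rfl
    rw [e0, e0, hc, pathE_mul, mul_comm]
  | succ r ih =>
    cases n with
    | zero => rfl
    | succ n =>
      rw [TBasicB_succ, TBasicB_succ]
      have := ih n (i + 1) (H := fun ω' => H (Fin.cons (ω 0) ω'))
        (Φ := fun ω' => Φ (Fin.cons (ω 0) ω')) (Ψ := fun ω' => Ψ (Fin.cons (ω 0) ω')) ?_ (Fin.tail ω)
      · rw [this]
        congr 1
        exact congrArg Ψ (Fin.cons_self_tail ω)
      · intro a b hab
        apply h
        intro j
        refine Fin.cases ?_ ?_ j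
        · intro _; simp
        · intro j hj
          simp only [Fin.cons_succ]
          exact hab j (by simpa using hj)

theorem condE_add (hβ : Dom m β) (hζ : Exps ζ) (r n i : ℕ) {H Φ Ψ : (Fin n → E) → ℝ} (hH : Ham β H)
    (hΦ : Tame β Φ) (hΨ : Tame β Ψ) (ω : Fin n → E) :
    condE m ζ r n i H (fun ω => Φ ω + Ψ ω) ω = condE m ζ r n i H Φ ω + condE m ζ r n i H Ψ ω := by
  induction r generalizing n i with
  | zero =>
    have e0 : ∀ X : (Fin n → E) → ℝ, condE m ζ 0 n i H X ω = pathE m ζ n i H X := by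
      intro X; cases n <;> rfl
    rw [e0, e0, e0, pathE_add hβ hζ n i hH hΦ hΨ]
  | succ r ih =>
    cases n with
    | zero => rfl
    | succ n =>
      rw [TBasicB_succ, TBasicB_succ, TBasicB_succ]
      exact ih n (i + 1) (hH.cons hβ (ω 0)) (hΦ.cons hβ (ω 0)) (hΨ.cons hβ (ω 0)) (Fin.tail ω)

theorem condE_mul (r n i : ℕ) (H Φ : (Fin n → E) → ℝ) (c : ℝ) (ω : Fin n → E) :
    condE m ζ r n i H (fun ω => c * Φ ω) ω = c * condE m ζ r n i H Φ ω := by
  induction r generalizing n i with
  | zero =>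
    have e0 : ∀ X : (Fin n → E) → ℝ, condE m ζ 0 n i H X ω = pathE m ζ n i H X := by
      intro X; cases n <;> rfl
    rw [e0, e0, pathE_mul]
  | succ r ih =>
    cases n with
    | zero => rfl
    | succ n =>
      rw [TBasicB_succ, TBasicB_succ]
      exact ih n (i + 1) _ _ (Fin.tail ω)

theorem condE_mono (hβ : Dom m β) (hζ : Exps ζ) (r n i : ℕ) {H Φ Ψ : (Fin n → E) → ℝ} (hH : Ham β H)
    (hΦ : Tame β Φ) (hΨ : Tame β Ψ) (h : ∀ ω, Φ ω ≤ Ψ ω) (ω : Fin n → E) :
    condE m ζ r n i H Φ ω ≤ condE m ζ r n i H Ψ ω := by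
  induction r generalizing n i with
  | zero =>
    have e0 : ∀ X : (Fin n → E) → ℝ, condE m ζ 0 n i H X ω = pathE m ζ n i H X := by
      intro X; cases n <;> rfl
    rw [e0, e0]
    exact pathE_mono hβ hζ n i hH hΦ hΨ h
  | succ r ih =>
    cases n with
    | zero => exact h ω
    | succ n =>
      rw [TBasicB_succ, TBasicB_succ]
      exact ih n (i + 1) (hH.cons hβ (ω 0)) (hΦ.cons hβ (ω 0)) (hΨ.cons hβ (ω 0))
        (fun ω' => h _) (Fin.tail ω)

theorem pathE_condE_self (hβ : Dom m β) (hζ : Exps ζ) (r n i : ℕ) {H Φ : (Fin n → E) → ℝ}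
    (hH : Ham β H) (hΦ : Tame β Φ) :
    pathE m ζ n i H (condE m ζ r n i H Φ) = pathE m ζ n i H Φ := by
  induction r generalizing n i with
  | zero =>
    have e0 : condE m ζ 0 n i H Φ = fun _ => pathE m ζ n i H Φ := by
      funext ω; cases n <;> rfl
    rw [e0, pathE_const hβ hζ n i hH]
  | succ r ih =>
    cases n with
    | zero => rfl
    | succ n =>
      simp only [pathE]
      congr 1
      funext e
      congr 1
      have : (fun ω : Fin n → E => condE m ζ (r + 1) (n + 1) i H Φ (Fin.cons e ω : Fin (n + 1) → E)) =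
          condE m ζ r n (i + 1) (fun ω' => H (Fin.cons e ω')) (fun ω' => Φ (Fin.cons e ω')) := by
        funext ω
        exact TBasicB_succ_cons r n i H Φ e ω
      rw [this]
      exact ih n (i + 1) (hH.cons hβ e) (hΦ.cons hβ e)

/-- tower property, also for iterated conditional expectations -/
theorem condE_condE (hβ : Dom m β) (hζ : Exps ζ) (r r' n i : ℕ) (h : r ≤ r') {H Φ : (Fin n → E) → ℝ}
    (hH : Ham β H) (hΦ : Tame β Φ) (ω : Fin n → E) :
    condE m ζ r n i H (condE m ζ r' n i H Φ) ω = condE m ζ r n i H Φ ω := by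
  induction r generalizing n i r' with
  | zero =>
    have e0 : ∀ X : (Fin n → E) → ℝ, condE m ζ 0 n i H X ω = pathE m ζ n i H X := by
      intro X; cases n <;> rfl
    rw [e0, e0, pathE_condE_self hβ hζ r' n i hH hΦ]
  | succ r ih =>
    cases n with
    | zero =>
      cases r' with
      | zero => omega
      | succ s => rfl
    | succ n =>
      cases r' with
      | zero => omega
      | succ s =>
        rw [TBasicB_succ, TBasicB_succ]
        have : (fun ω' : Fin n → E =>
            condE m ζ (s + 1) (n + 1) i H Φ (Fin.cons (ω 0) ω' : Fin (n + 1) → E)) =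
            condE m ζ s n (i + 1) (fun ω' => H (Fin.cons (ω 0) ω'))
              (fun ω' => Φ (Fin.cons (ω 0) ω')) := by
          funext ω'
          exact TBasicB_succ_cons s n i H Φ (ω 0) ω'
        rw [this]
        exact ih s n (i + 1) (by omega) (hH.cons hβ (ω 0)) (hΦ.cons hβ (ω 0)) (Fin.tail ω)

/-- Tower property. -/
theorem pathE_condE (hβ : Dom m β) (hζ : Exps ζ) (r n i : ℕ) {H Φ Ψ : (Fin n → E) → ℝ}
    (hH : Ham β H) (hΦ : Tame β Φ) (hΨ : Tame β Ψ) :
    pathE m ζ n i H (fun ω => Φ ω * condE m ζ r n i H Ψ ω) =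
      pathE m ζ n i H (fun ω => condE m ζ r n i H Φ ω * condE m ζ r n i H Ψ ω) := by
  have hcΨ := condE_tame hβ hζ r n i hH hΨ
  rw [← pathE_condE_self hβ hζ r n i hH (hΦ.mul hβ hcΨ)]
  congr 1
  funext ω
  exact condE_pull hβ hζ r n i hH hΦ hcΨ
    (fun a b hab => condE_congr r n i H Ψ a b hab) ω

/-- orthogonality of martingale increments -/
theorem pathE_incr_orth (hβ : Dom m β) (hζ : Exps ζ) (r r' n i : ℕ) (h : r < r')
    {H Φ Ψ : (Fin n → E) → ℝ} (hH : Ham β H) (hΦ : Tame β Φ) (hΨ : Tame β Ψ) :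
    pathE m ζ n i H (fun ω => (condE m ζ (r + 1) n i H Φ ω - condE m ζ r n i H Φ ω) *
      (condE m ζ (r' + 1) n i H Ψ ω - condE m ζ r' n i H Ψ ω)) = 0 := by
  have t1 := condE_tame hβ hζ (r + 1) n i hH hΦ
  have t2 := condE_tame hβ hζ r n i hH hΦ
  have t3 := condE_tame hβ hζ (r' + 1) n i hH hΨ
  have t4 := condE_tame hβ hζ r' n i hH hΨ
  have n2 : Tame β (fun ω => (-1 : ℝ) * condE m ζ r n i H Φ ω) := (Tame.const hβ (-1)).mul hβ t2
  have n4 : Tame β (fun ω => (-1 : ℝ) * condE m ζ r' n i H Ψ ω) := (Tame.const hβ (-1)).mul hβ t4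
  have hD : Tame β (fun ω => condE m ζ (r + 1) n i H Φ ω - condE m ζ r n i H Φ ω) := by
    have := t1.add hβ n2
    convert this using 2
    ring
  have hD' : Tame β (fun ω => condE m ζ (r' + 1) n i H Ψ ω - condE m ζ r' n i H Ψ ω) := by
    have := t3.add hβ n4
    convert this using 2
    ring
  have hprod : (fun ω => (condE m ζ (r + 1) n i H Φ ω - condE m ζ r n i H Φ ω) *
      (condE m ζ (r' + 1) n i H Ψ ω - condE m ζ r' n i H Ψ ω)) =
      fun ω => (condE m ζ (r' + 1) n i H Ψ ω - condE m ζ r' n i H Ψ ω) *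
      (condE m ζ (r + 1) n i H Φ ω - condE m ζ r n i H Φ ω) := by
    funext ω; ring
  rw [hprod, ← pathE_condE_self hβ hζ r' n i hH (hD'.mul hβ hD)]
  have hz : condE m ζ r' n i H (fun ω => (condE m ζ (r' + 1) n i H Ψ ω - condE m ζ r' n i H Ψ ω) *
      (condE m ζ (r + 1) n i H Φ ω - condE m ζ r n i H Φ ω)) = fun _ => 0 := by
    funext ω
    rw [condE_pull hβ hζ r' n i hH hD' hD]
    · have : condE m ζ r' n i H (fun ω => condE m ζ (r' + 1) n i H Ψ ω - condE m ζ r' n i H Ψ ω) ω
          = 0 := by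
        have e1 : (fun ω => condE m ζ (r' + 1) n i H Ψ ω - condE m ζ r' n i H Ψ ω) =
            fun ω => condE m ζ (r' + 1) n i H Ψ ω + (-1 : ℝ) * condE m ζ r' n i H Ψ ω := by
          funext ω; ring
        rw [e1, condE_add hβ hζ r' n i hH t3 n4, condE_mul,
          condE_condE hβ hζ r' (r' + 1) n i (by omega) hH hΨ,
          condE_condE hβ hζ r' r' n i le_rfl hH hΨ]
        ring
      rw [this, zero_mul]
    · intro a b hab
      show condE m ζ (r + 1) n i H Φ a - condE m ζ r n i H Φ a =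
        condE m ζ (r + 1) n i H Φ b - condE m ζ r n i H Φ b
      rw [condE_congr (r + 1) n i H Φ a b (fun j hj => hab j (by omega)),
        condE_congr r n i H Φ a b (fun j hj => hab j (by omega))]
  rw [hz]
  exact pathE_const hβ hζ n i hH 0

end Crest.Agent.RI
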