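import Crest.Agent.RI.TPairA
import Crest.Agent.RI.TBasicB

/-!
# Row 164, tower: pair expectations and conditional expectations.
-/

set_option autoImplicit false

namespace Crest.Agent.RI
open MeasureTheory ProbabilityTheory

variable {E : Type} [MeasurableSpace E]
variable {m : Measure E} [IsProbabilityMeasure m] {ζ : ℕ → ℝ} {β : E → ℝ}

private theorem TPairB_measurable_cons {n : ℕ} (e : E) :
    Measurable (fun ω : Fin n → E => (Fin.cons e ω : Fin (n + 1) → E)) := by
  refine measurable_pi_iff.mpr (fun j => ?_)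
  refine Fin.cases ?_ (fun j => ?_) j
  · simpa using measurable_const
  · simpa using measurable_pi_apply j

private theorem TPairB_Tame2_left {n : ℕ} {Φ : (Fin n → E) → (Fin n → E) → ℝ}
    (hβ : ∀ e, 0 ≤ β e) (h : Tame2 β Φ) (ω : Fin n → E) : Tame β (Φ ω) := by
  obtain ⟨C, hC, hb⟩ := h.bound
  refine ⟨h.meas.comp measurable_prodMk_left,
    C * Real.exp (C * ∑ i, β (ω i)) + C, by positivity, fun ω' => (hb ω ω').trans ?_⟩
  have h1 : 0 ≤ ∑ i, β (ω' i) := Finset.sum_nonneg (fun i _ => hβ _)
  have h2 : C * Real.exp (C * ∑ i, (β (ω i) + β (ω' i))) =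
      (C * Real.exp (C * ∑ i, β (ω i))) * Real.exp (C * ∑ i, β (ω' i)) := by
    rw [Finset.sum_add_distrib, mul_add, Real.exp_add]; ring
  rw [h2]
  refine mul_le_mul (by linarith) ?_ (Real.exp_pos _).le (by positivity)
  apply Real.exp_le_exp.mpr
  refine mul_le_mul_of_nonneg_right ?_ h1
  have : 0 ≤ C * Real.exp (C * ∑ i, β (ω i)) := by positivity
  linarith

private theorem TPairB_Tame2_cons {n : ℕ} {Φ : (Fin (n + 1) → E) → (Fin (n + 1) → E) → ℝ}
    (hβ : ∀ e, 0 ≤ β e) (h : Tame2 β Φ) (e : E) :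
    Tame2 β (fun ω ω' : Fin n → E => Φ (Fin.cons e ω) (Fin.cons e ω')) := by
  obtain ⟨C, hC, hb⟩ := h.bound
  refine ⟨?_, C * Real.exp (C * (β e + β e)) + C, by positivity, fun ω ω' =>
    (hb (Fin.cons e ω) (Fin.cons e ω')).trans ?_⟩
  · have := h.meas.comp (((TPairB_measurable_cons (n := n) e).comp measurable_fst).prodMk
      ((TPairB_measurable_cons (n := n) e).comp measurable_snd))
    exact this
  · have h1 : 0 ≤ ∑ i, (β (ω i) + β (ω' i)) :=
      Finset.sum_nonneg (fun i _ => add_nonneg (hβ _) (hβ _))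
    have h2 : C * Real.exp (C * ∑ i, (β ((Fin.cons e ω : Fin (n + 1) → E) i) +
        β ((Fin.cons e ω' : Fin (n + 1) → E) i))) =
        (C * Real.exp (C * (β e + β e))) * Real.exp (C * ∑ i, (β (ω i) + β (ω' i))) := by
      rw [Fin.sum_univ_succ]
      simp only [Fin.cons_zero, Fin.cons_succ]
      rw [mul_add, Real.exp_add]; ring
    rw [h2]
    refine mul_le_mul (by linarith) ?_ (Real.exp_pos _).le (by positivity)
    apply Real.exp_le_exp.mpr
    refine mul_le_mul_of_nonneg_right ?_ h1
    have : 0 ≤ C * Real.exp (C * (β e + β e)) := by positivity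
    linarith

/-- a function of the first path only -/
theorem pairE_fst (hβ : Dom m β) (hζ : Exps ζ) (r n i : ℕ) {H Φ : (Fin n → E) → ℝ}
    (hH : Ham β H) (hΦ : Tame β Φ) :
    pairE m ζ r n i H (fun ω _ => Φ ω) = pathE m ζ n i H Φ := by
  induction n generalizing r i with
  | zero =>
    cases r with
    | zero => simp [pairE, pathE]
    | succ r => simp [pairE, pathE]
  | succ n ih =>
    cases r with
    | zero =>
      rw [pairE]
      congr 1
      funext ω
      exact pathE_const hβ hζ _ _ hH _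
    | succ r =>
      rw [pairE, pathE]
      congr 1
      funext e
      rw [ih r (i + 1) (hH.cons hβ e) (hΦ.cons hβ e)]

private theorem TPairB_condE_cons (r n i : ℕ) (H Φ : (Fin (n + 1) → E) → ℝ) (e : E)
    (ω : Fin n → E) :
    condE m ζ (r + 1) (n + 1) i H Φ (Fin.cons e ω) =
      condE m ζ r n (i + 1) (fun ω' => H (Fin.cons e ω')) (fun ω' => Φ (Fin.cons e ω')) ω := by
  rw [condE]
  simp only [Fin.cons_zero, Fin.tail_cons]

/-- Pair expectation of a product. -/
theorem pairE_mul (hβ : Dom m β) (hζ : Exps ζ) (r n i : ℕ) {H Φ Ψ : (Fin n → E) → ℝ}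
    (hH : Ham β H) (hΦ : Tame β Φ) (hΨ : Tame β Ψ) :
    pairE m ζ r n i H (fun ω ω' => Φ ω * Ψ ω') =
      pathE m ζ n i H (fun ω => condE m ζ r n i H Φ ω * condE m ζ r n i H Ψ ω) := by
  induction n generalizing r i with
  | zero =>
    cases r with
    | zero => simp [pairE, pathE, condE]
    | succ r => simp [pairE, pathE, condE]
  | succ n ih =>
    cases r with
    | zero =>
      have h1 : ∀ Φ' : (Fin (n + 1) → E) → ℝ,
          (fun ω => condE m ζ 0 (n + 1) i H Φ' ω) = fun _ => pathE m ζ (n + 1) i H Φ' := by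
        intro Φ'; funext ω; rw [condE]
      have h2 : (fun ω => condE m ζ 0 (n + 1) i H Φ ω * condE m ζ 0 (n + 1) i H Ψ ω) =
          fun _ => pathE m ζ (n + 1) i H Φ * pathE m ζ (n + 1) i H Ψ := by
        funext ω; rw [condE, condE]
      rw [h2, pathE_const hβ hζ _ _ hH, pairE]
      have h3 : (fun ω => pathE m ζ (n + 1) i H (fun ω' => Φ ω * Ψ ω')) =
          fun ω => pathE m ζ (n + 1) i H Ψ * Φ ω := by
        funext ω; rw [pathE_mul, mul_comm]
      rw [h3, pathE_mul, mul_comm]
    | succ r =>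
      rw [pairE, pathE]
      congr 1
      funext e
      rw [ih r (i + 1) (hH.cons hβ e) (hΦ.cons hβ e) (hΨ.cons hβ e)]
      simp only [TPairB_condE_cons]

/-- conditioning the second path on its first `r' ≥ r` coordinates, the first path being fixed:
if `Φ ω ω'` is multiplied by a function of `(ω, first r' coordinates of ω')` we may replace `Φ` by its
conditional expectation. -/
theorem pairE_condE (hβ : Dom m β) (hζ : Exps ζ) (r r' n i : ℕ) (hr : r ≤ r') {H : (Fin n → E) → ℝ}
    {Φ Ψ : (Fin n → E) → (Fin n → E) → ℝ} (hH : Ham β H) (hΦ : Tame2 β Φ) (hΨ : Tame2 β Ψ)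
    (h : ∀ ω ω₁ ω₂ : Fin n → E, (∀ j : Fin n, (j : ℕ) < r' → ω₁ j = ω₂ j) → Ψ ω ω₁ = Ψ ω ω₂) :
    pairE m ζ r n i H (fun ω ω' => Φ ω ω' * Ψ ω ω') =
      pairE m ζ r n i H (fun ω ω' => condE m ζ r' n i H (Φ ω) ω' * Ψ ω ω') := by
  induction n generalizing r r' i with
  | zero =>
    cases r with
    | zero =>
      cases r' with
      | zero =>
        simp only [pairE, pathE, condE]
      | succ r' => simp only [pairE, pathE, condE]
    | succ r =>
      obtain ⟨r'', rfl⟩ : ∃ r'', r' = r'' + 1 := ⟨r' - 1, by omega⟩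
      simp only [pairE, condE]
  | succ n ih =>
    cases r with
    | zero =>
      rw [pairE, pairE]
      congr 1
      funext ω
      have hΦω := TPairB_Tame2_left hβ.nonneg hΦ ω
      have hΨω := TPairB_Tame2_left hβ.nonneg hΨ ω
      have h1 := pathE_condE_self hβ hζ r' (n + 1) i hH (Tame.mul hβ hΦω hΨω)
      rw [← h1]
      congr 1
      funext ω'
      exact condE_pull hβ hζ r' (n + 1) i hH hΦω hΨω (fun a b hab => h ω a b hab) ω'
    | succ r =>
      obtain ⟨r'', rfl⟩ : ∃ r'', r' = r'' + 1 := ⟨r' - 1, by omega⟩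
      rw [pairE, pairE]
      congr 1
      funext e
      congr 1
      simp only [TPairB_condE_cons]
      refine ih r r'' (i + 1) (by omega) (hH.cons hβ e) (TPairB_Tame2_cons hβ.nonneg hΦ e)
        (TPairB_Tame2_cons hβ.nonneg hΨ e) (fun ω ω₁ ω₂ hω => ?_)
      refine h _ _ _ (fun j => ?_)
      refine Fin.cases ?_ (fun j => ?_) j
      · intro _; simp
      · intro hj
        simp only [Fin.cons_succ]
        exact hω j (by simpa using hj)

/-- in a pair sharing `r` coordinates, functions of the first `r` coordinates coincide -/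
theorem pairE_shared (r n i : ℕ) (H : (Fin n → E) → ℝ)
    (Φ Ψ : (Fin n → E) → (Fin n → E) → ℝ)
    (h : ∀ ω ω' : Fin n → E, (∀ j : Fin n, (j : ℕ) < r → ω j = ω' j) → Φ ω ω' = Ψ ω ω') :
    pairE m ζ r n i H Φ = pairE m ζ r n i H Ψ := by
  induction n generalizing r i with
  | zero =>
    have : Φ = Ψ := by
      funext ω ω'
      exact h ω ω' (fun j => j.elim0)
    rw [this]
  | succ n ih =>
    cases r with
    | zero =>
      have : Φ = Ψ := by
        funext ω ω'
        exact h ω ω' (fun j hj => absurd hj (Nat.not_lt_zero _))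
      rw [this]
    | succ r =>
      rw [pairE, pairE]
      congr 1
      funext e
      congr 1
      refine ih r (i + 1) _ _ _ (fun ω ω' hω => ?_)
      refine h _ _ (fun j => ?_)
      refine Fin.cases ?_ (fun j => ?_) j
      · intro _; simp
      · intro hj
        simp only [Fin.cons_succ]
        exact hω j (by simpa using hj)

end Crest.Agent.RI
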