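import Crest.Agent.RI.TMapA
import Crest.Agent.RI.TPairB

/-!
# Row 164, tower: independent towers.
-/

set_option autoImplicit false

namespace Crest.Agent.RI
open MeasureTheory ProbabilityTheory

variable {E : Type} [MeasurableSpace E]
variable {m : Measure E} [IsProbabilityMeasure m] {ζ : ℕ → ℝ} {β : E → ℝ}
variable {E' : Type} [MeasurableSpace E'] {m' : Measure E'} [IsProbabilityMeasure m'] {β' : E' → ℝ}

/-! ## auxiliary lemmas -/

omit [MeasurableSpace E] [MeasurableSpace E'] in
private theorem tmapb_cons_fst {n : ℕ} (p : E × E') (ω : Fin n → E × E') :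
    (fun j => ((Fin.cons p ω : Fin (n + 1) → E × E') j).1) =
      (Fin.cons p.1 (fun j => (ω j).1) : Fin (n + 1) → E) := by
  funext j
  refine Fin.cases ?_ (fun j => ?_) j <;> simp

omit [MeasurableSpace E] [MeasurableSpace E'] in
private theorem tmapb_cons_snd {n : ℕ} (p : E × E') (ω : Fin n → E × E') :
    (fun j => ((Fin.cons p ω : Fin (n + 1) → E × E') j).2) =
      (Fin.cons p.2 (fun j => (ω j).2) : Fin (n + 1) → E') := by
  funext j
  refine Fin.cases ?_ (fun j => ?_) j <;> simp

private theorem tmapb_meas_cons {A : Type} [MeasurableSpace A] {n : ℕ} {f : A → E}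
    {g : A → (Fin n → E)} (hf : Measurable f) (hg : Measurable g) :
    Measurable (fun a => (Fin.cons (f a) (g a) : Fin (n + 1) → E)) := by
  refine measurable_pi_iff.2 (fun j => ?_)
  refine Fin.cases ?_ (fun j => ?_) j
  · simpa using hf
  · simp only [Fin.cons_succ]; exact (measurable_pi_apply j).comp hg

private theorem tmapb_g_meas (n i : ℕ) {H : (Fin (n + 1) → E) → ℝ} (hH : Measurable H) :
    Measurable (fun e => nest m ζ n i (fun ω => H (Fin.cons e ω))) := by
  refine measurable_nest m ζ n i (H := fun e ω => H (Fin.cons e ω)) ?_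
  exact hH.comp (tmapb_meas_cons measurable_fst measurable_snd)

private theorem tmapb_g_bound (hβ : Dom m β) (hζ : Exps ζ) (n i : ℕ) {H : (Fin (n + 1) → E) → ℝ}
    (hH : Ham β H) :
    ∃ K : ℝ, 0 ≤ K ∧ ∀ e, |nest m ζ n i (fun ω => H (Fin.cons e ω))| ≤ K * (1 + β e) := by
  obtain ⟨C, hC, hb⟩ := hH.bound
  obtain ⟨K, hK, hKb⟩ := nest_bound hβ n C hC
  refine ⟨C + K, by positivity, fun e => ?_⟩
  have hβe := hβ.nonneg e
  have h1 := hKb ζ hζ i (C * (1 + β e)) (by positivity) (fun ω => H (Fin.cons e ω))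
    (hH.meas.comp (tmapb_meas_cons measurable_const measurable_id)) (fun ω => by
      refine (hb _).trans (le_of_eq ?_)
      rw [Fin.sum_univ_succ]; simp only [Fin.cons_zero, Fin.cons_succ]; ring)
  nlinarith

omit [IsProbabilityMeasure m] in
private theorem tmapb_int_exp (hβ : Dom m β) {f : E → ℝ} (hf : Measurable f) {K : ℝ}
    (hb : ∀ e, |f e| ≤ K * (1 + β e)) (c : ℝ) : Integrable (fun e => Real.exp (c * f e)) m := by
  refine ((hβ.int (|c| * K)).const_mul (Real.exp (|c| * K))).mono'
    (by fun_prop) (Filter.Eventually.of_forall (fun e => ?_))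
  rw [Real.norm_eq_abs, abs_of_pos (Real.exp_pos _), ← Real.exp_add]
  apply Real.exp_le_exp.2
  calc c * f e ≤ |c * f e| := le_abs_self _
    _ = |c| * |f e| := abs_mul _ _
    _ ≤ |c| * (K * (1 + β e)) := mul_le_mul_of_nonneg_left (hb e) (abs_nonneg _)
    _ = _ := by ring

omit [IsProbabilityMeasure m] in
private theorem tmapb_int (hβ : Dom m β) {f : E → ℝ} (hf : Measurable f) {K : ℝ} (hK : 0 ≤ K)
    (hb : ∀ e, |f e| ≤ K * (1 + β e)) : Integrable f m := by
  refine ((hβ.int 1).const_mul K).mono' hf.aestronglyMeasurable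
    (Filter.Eventually.of_forall (fun e => ?_))
  rw [Real.norm_eq_abs]
  refine (hb e).trans (mul_le_mul_of_nonneg_left ?_ hK)
  have := Real.add_one_le_exp (1 * β e)
  linarith

private theorem tmapb_TT_prod {f : E → ℝ} {g : E' → ℝ} (z : ℝ) (hf : Integrable f m)
    (hg : Integrable g m') (hf' : Integrable (fun e => Real.exp (z * f e)) m)
    (hg' : Integrable (fun e => Real.exp (z * g e)) m') :
    TT (m.prod m') z (fun p => f p.1 + g p.2) = TT m z f + TT m' z g := by
  unfold TT
  by_cases hz : z = 0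
  · simp only [hz, if_true]
    rw [integral_add (hf.comp_fst m') (hg.comp_snd m), integral_fun_fst, integral_fun_snd]
    simp
  · simp only [hz, if_false]
    have h1 : ∫ p : E × E', Real.exp (z * (f p.1 + g p.2)) ∂(m.prod m') =
        (∫ e, Real.exp (z * f e) ∂m) * ∫ e, Real.exp (z * g e) ∂m' := by
      rw [← integral_prod_mul]
      refine integral_congr_ae (Filter.Eventually.of_forall (fun p => ?_))
      simp only
      rw [← Real.exp_add]; congr 1; ring
    rw [h1, Real.log_mul (integral_exp_pos hf').ne' (integral_exp_pos hg').ne']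
    ring

/-- Independent towers add. -/
theorem nest_indep (hβ : Dom m β) (hβ' : Dom m' β') (hζ : Exps ζ) (n i : ℕ) {H : (Fin n → E) → ℝ}
    {H' : (Fin n → E') → ℝ} (hH : Ham β H) (hH' : Ham β' H') :
    nest (m.prod m') ζ n i (fun ω => H (fun j => (ω j).1) + H' (fun j => (ω j).2)) =
      nest m ζ n i H + nest m' ζ n i H' := by
  induction n generalizing i with
  | zero =>
    simp only [nest]
    congr 1
    · congr 1; exact Subsingleton.elim _ _
    · congr 1; exact Subsingleton.elim _ _
  | succ n ih =>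
    obtain ⟨K, hK, hKb⟩ := tmapb_g_bound (m := m) (ζ := ζ) hβ hζ n (i + 1) hH
    obtain ⟨K', hK', hKb'⟩ := tmapb_g_bound (m := m') (ζ := ζ) hβ' hζ n (i + 1) hH'
    have hm := tmapb_g_meas (m := m) (ζ := ζ) n (i + 1) hH.meas
    have hm' := tmapb_g_meas (m := m') (ζ := ζ) n (i + 1) hH'.meas
    simp only [nest]
    rw [← tmapb_TT_prod (ζ i) (tmapb_int hβ hm hK hKb) (tmapb_int hβ' hm' hK' hKb')
      (tmapb_int_exp hβ hm hKb _) (tmapb_int_exp hβ' hm' hKb' _)]
    congr 1
    funext p
    simp only [tmapb_cons_fst, tmapb_cons_snd]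
    exact ih (i + 1) (hH.cons hβ p.1) (hH'.cons hβ' p.2)

/-- a Hamiltonian which ignores the second component -/
theorem nest_fst (n i : ℕ) {H : (Fin n → E) → ℝ} (hH : Measurable H) :
    nest (m.prod m') ζ n i (fun ω => H (fun j => (ω j).1)) = nest m ζ n i H :=
  nest_map (m := m.prod m') (m' := m) (T := Prod.fst) measurePreserving_fst n i hH

theorem pathE_fst (n i : ℕ) {H Φ : (Fin n → E) → ℝ} (hH : Measurable H) (hΦ : Measurable Φ) :
    pathE (m.prod m') ζ n i (fun ω => H (fun j => (ω j).1)) (fun ω => Φ (fun j => (ω j).1)) =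
      pathE m ζ n i H Φ :=
  pathE_map (m := m.prod m') (m' := m) (T := Prod.fst) measurePreserving_fst n i hH hΦ

theorem pairE_fst' (r n i : ℕ) {H : (Fin n → E) → ℝ} {Φ : (Fin n → E) → (Fin n → E) → ℝ}
    (hH : Measurable H) (hΦ : Measurable (Function.uncurry Φ)) :
    pairE (m.prod m') ζ r n i (fun ω => H (fun j => (ω j).1))
      (fun ω ω' => Φ (fun j => (ω j).1) (fun j => (ω' j).1)) = pairE m ζ r n i H Φ :=
  pairE_map (m := m.prod m') (m' := m) (T := Prod.fst) measurePreserving_fst r n i hH hΦ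

/-- density of the path measure with respect to the product measure -/
noncomputable def tmapbDens (m : Measure E) (ζ : ℕ → ℝ) :
    (n i : ℕ) → ((Fin n → E) → ℝ) → (Fin n → E) → ℝ
  | 0, _, _, _ => 1
  | n + 1, i, H, ω => wgt m ζ n i H (ω 0) *
      tmapbDens m ζ n (i + 1) (fun ω' => H (Fin.cons (ω 0) ω')) (Fin.tail ω)

private theorem tmapb_dens_meas (m : Measure E) [IsProbabilityMeasure m] (ζ : ℕ → ℝ) (n : ℕ) :
    ∀ (i : ℕ) {A : Type} [MeasurableSpace A] {H : A → (Fin n → E) → ℝ},
      Measurable (Function.uncurry H) →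
      Measurable (fun p : A × (Fin n → E) => tmapbDens m ζ n i (H p.1) p.2) := by
  induction n with
  | zero => intro i A _ H _; simp only [tmapbDens]; exact measurable_const
  | succ n ih =>
    intro i A _ H hH
    simp only [tmapbDens, wgt]
    have h0 : Measurable (fun p : A × (Fin (n + 1) → E) => p.2 0) :=
      (measurable_pi_apply 0).comp measurable_snd
    have h1 : Measurable (fun p : A × (Fin (n + 1) → E) =>
        nest m ζ n (i + 1) (fun ω => H p.1 (Fin.cons (p.2 0) ω))) := by
      refine measurable_nest m ζ n (i + 1)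
        (H := fun (p : A × (Fin (n + 1) → E)) ω => H p.1 (Fin.cons (p.2 0) ω)) ?_
      exact hH.comp ((measurable_fst.comp measurable_fst).prodMk
        (tmapb_meas_cons (h0.comp measurable_fst) measurable_snd))
    have h2 : Measurable (fun p : A × (Fin (n + 1) → E) => nest m ζ (n + 1) i (H p.1)) :=
      (measurable_nest m ζ (n + 1) i hH).comp measurable_fst
    have h3 := ih (i + 1) (A := A × (Fin (n + 1) → E))
      (H := fun p ω' => H p.1 (Fin.cons (p.2 0) ω'))
      (hH.comp ((measurable_fst.comp measurable_fst).prodMk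
        (tmapb_meas_cons (h0.comp measurable_fst) measurable_snd)))
    have h4 : Measurable (fun p : A × (Fin (n + 1) → E) =>
        (p, (Fin.tail p.2 : Fin n → E))) := by
      refine measurable_id.prodMk ?_
      refine measurable_pi_iff.2 (fun j => ?_)
      exact (measurable_pi_apply (Fin.succ j)).comp measurable_snd
    have h5 := h3.comp h4
    refine Measurable.mul ?_ h5
    exact ((h1.sub h2).const_mul (ζ i)).exp

private theorem tmapb_dens_bound (hβ : Dom m β) (n : ℕ) (C : ℝ) (hC : 0 ≤ C) :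
    ∃ K : ℝ, 0 ≤ K ∧ ∀ (ζ : ℕ → ℝ), Exps ζ → ∀ (i : ℕ) (a : ℝ), 0 ≤ a → ∀ H : (Fin n → E) → ℝ,
      Measurable H → (∀ ω, |H ω| ≤ a + C * ∑ j, β (ω j)) → ∀ ω, 0 ≤ tmapbDens m ζ n i H ω ∧
        tmapbDens m ζ n i H ω ≤ Real.exp (K * (1 + a + ∑ j, β (ω j))) := by
  induction n with
  | zero =>
    refine ⟨0, le_rfl, fun ζ _ i a _ H _ _ ω => ?_⟩
    simp [tmapbDens]
  | succ n ih =>
    obtain ⟨K, hK, hKb⟩ := ih
    obtain ⟨K1, hK1, hb1⟩ := nest_bound hβ n C hC
    obtain ⟨K2, hK2, hb2⟩ := nest_bound hβ (n + 1) C hC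
    refine ⟨2 + C + K1 + K2 + K * (1 + C), by positivity, fun ζ hζ i a ha H hH hHb ω => ?_⟩
    have hβe := hβ.nonneg (ω 0)
    have hS : 0 ≤ ∑ j : Fin n, β (Fin.tail ω j) := Finset.sum_nonneg (fun j _ => hβ.nonneg _)
    have hcm : Measurable (fun ω' : Fin n → E => H (Fin.cons (ω 0) ω')) :=
      hH.comp (tmapb_meas_cons measurable_const measurable_id)
    have hcb : ∀ ω' : Fin n → E, |H (Fin.cons (ω 0) ω')| ≤ (a + C * β (ω 0)) + C * ∑ j, β (ω' j) := by
      intro ω'
      refine (hHb _).trans (le_of_eq ?_)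
      rw [Fin.sum_univ_succ]; simp only [Fin.cons_zero, Fin.cons_succ]; ring
    have hce : 0 ≤ a + C * β (ω 0) := by positivity
    have e1 := hb1 ζ hζ (i + 1) _ hce _ hcm hcb
    have e2 := hb2 ζ hζ i a ha H hH hHb
    have e3 := hKb ζ hζ (i + 1) _ hce _ hcm hcb (Fin.tail ω)
    have hw : wgt m ζ n i H (ω 0) ≤ Real.exp (2 * a + C * β (ω 0) + K1 + K2) := by
      unfold wgt
      apply Real.exp_le_exp.2
      have e4 := abs_le.1 e1
      have e5 := abs_le.1 e2
      obtain ⟨z0, z1⟩ := hζ i
      have e6 : nest m ζ n (i + 1) (fun ω_1 => H (Fin.cons (ω 0) ω_1)) - nest m ζ (n + 1) i H ≤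
          2 * a + C * β (ω 0) + K1 + K2 := by linarith [e4.2, e5.1]
      have e7 : 0 ≤ 2 * a + C * β (ω 0) + K1 + K2 := by positivity
      calc _ ≤ ζ i * (2 * a + C * β (ω 0) + K1 + K2) := mul_le_mul_of_nonneg_left e6 z0
        _ ≤ 1 * (2 * a + C * β (ω 0) + K1 + K2) := mul_le_mul_of_nonneg_right z1 e7
        _ = _ := one_mul _
    have hw0 : 0 ≤ wgt m ζ n i H (ω 0) := (wgt_pos m ζ n i H (ω 0)).le
    simp only [tmapbDens]
    refine ⟨mul_nonneg hw0 e3.1, ?_⟩
    calc _ ≤ Real.exp (2 * a + C * β (ω 0) + K1 + K2) *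
        Real.exp (K * (1 + (a + C * β (ω 0)) + ∑ j, β (Fin.tail ω j))) :=
          mul_le_mul hw e3.2 e3.1 (Real.exp_pos _).le
      _ = Real.exp (2 * a + C * β (ω 0) + K1 + K2 +
        K * (1 + (a + C * β (ω 0)) + ∑ j, β (Fin.tail ω j))) := (Real.exp_add _ _).symm
      _ ≤ _ := by
        apply Real.exp_le_exp.2
        rw [Fin.sum_univ_succ]
        have hS2 : ∑ j : Fin n, β (ω j.succ) = ∑ j : Fin n, β (Fin.tail ω j) := rfl
        rw [hS2]
        set b := β (ω 0)
        set S := ∑ j : Fin n, β (Fin.tail ω j)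
        have p1 := mul_nonneg hC ha
        have p2 := mul_nonneg hC hS
        have p3 := mul_nonneg hK hS
        have p4 := mul_nonneg hK ha
        have p5 := mul_nonneg hK hβe
        have p6 := mul_nonneg hC hβe
        have p7 := mul_nonneg (mul_nonneg hK hC) ha
        have p8 := mul_nonneg (mul_nonneg hK hC) hS
        have p9 := mul_nonneg (mul_nonneg hK hC) hβe
        have p10 := mul_nonneg hK1 ha
        have p11 := mul_nonneg hK1 hS
        have p12 := mul_nonneg hK1 hβe
        have p13 := mul_nonneg hK2 ha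
        have p14 := mul_nonneg hK2 hS
        have p15 := mul_nonneg hK2 hβe
        have p16 := mul_nonneg hK hC
        nlinarith

private theorem tmapb_int_exp_sum (hβ : Dom m β) (n : ℕ) (c : ℝ) :
    Integrable (fun ω : Fin n → E => Real.exp (c * ∑ j, β (ω j))) (Measure.pi (fun _ => m)) := by
  have h := Integrable.fintype_prod (ι := Fin n) (f := fun _ e => Real.exp (c * β e))
    (μ := fun _ => m) (fun _ => hβ.int c)
  refine h.congr (Filter.Eventually.of_forall (fun ω => ?_))
  simp only
  rw [← Real.exp_sum, Finset.mul_sum]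

private theorem tmapb_dens_int (hβ : Dom m β) (hζ : Exps ζ) (n i : ℕ) {H Φ : (Fin n → E) → ℝ}
    (hH : Ham β H) (hΦ : Tame β Φ) :
    Integrable (fun ω => tmapbDens m ζ n i H ω * Φ ω) (Measure.pi (fun _ => m)) := by
  obtain ⟨C, hC, hCb⟩ := hH.bound
  obtain ⟨B, hB, hBb⟩ := hΦ.bound
  obtain ⟨K, hK, hKb⟩ := tmapb_dens_bound hβ n C hC
  have hd : Measurable (fun ω : Fin n → E => tmapbDens m ζ n i H ω) := by
    have := tmapb_dens_meas m ζ n i (A := Unit) (H := fun _ => H) (hH.meas.comp measurable_snd)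
    exact this.comp (measurable_const.prodMk measurable_id : Measurable (fun ω : Fin n → E => ((), ω)))
  refine ((tmapb_int_exp_sum hβ n (K + B)).const_mul (Real.exp (K * (1 + C)) * B)).mono'
    (hd.mul hΦ.meas).aestronglyMeasurable (Filter.Eventually.of_forall (fun ω => ?_))
  obtain ⟨h1, h2⟩ := hKb ζ hζ i C hC H hH.meas (fun ω => by
    refine (hCb ω).trans (le_of_eq ?_); ring) ω
  rw [Real.norm_eq_abs, abs_mul, abs_of_nonneg h1]
  calc _ ≤ Real.exp (K * (1 + C + ∑ j, β (ω j))) * (B * Real.exp (B * ∑ j, β (ω j))) :=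
        mul_le_mul h2 (hBb ω) (abs_nonneg _) (Real.exp_pos _).le
    _ = _ := by
        rw [show K * (1 + C + ∑ j, β (ω j)) = K * (1 + C) + K * ∑ j, β (ω j) by ring, Real.exp_add,
          add_mul K B, Real.exp_add]
        ring

omit [IsProbabilityMeasure m] in
private theorem tmapb_succ_symm (n : ℕ) (p : E × (Fin n → E)) :
    (MeasurableEquiv.piFinSuccAbove (fun _ : Fin (n + 1) => E) 0).symm p =
      (Fin.cons p.1 p.2 : Fin (n + 1) → E) := by
  simp only [MeasurableEquiv.piFinSuccAbove_symm_apply, Fin.insertNthEquiv, Equiv.coe_fn_mk]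
  exact Fin.insertNth_zero' _ _

private theorem tmapb_pathE (hβ : Dom m β) (hζ : Exps ζ) (n : ℕ) : ∀ (i : ℕ)
    {H Φ : (Fin n → E) → ℝ}, Ham β H → Tame β Φ →
    pathE m ζ n i H Φ = ∫ ω, tmapbDens m ζ n i H ω * Φ ω ∂(Measure.pi (fun _ => m)) := by
  induction n with
  | zero =>
    intro i H Φ _ _
    simp only [pathE, tmapbDens, one_mul]
    have h : ∀ ω : Fin 0 → E, Φ ω = Φ Fin.elim0 := fun ω => by
      congr 1; exact Subsingleton.elim _ _
    simp_rw [h]
    simp
  | succ n ih =>
    intro i H Φ hH hΦ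
    have hint := tmapb_dens_int hβ hζ (n + 1) i hH hΦ
    have hmp := (measurePreserving_piFinSuccAbove (fun _ : Fin (n + 1) => m) 0).symm
    rw [← hmp.integral_comp' (g := fun ω => tmapbDens m ζ (n + 1) i H ω * Φ ω)]
    have hint2 : Integrable (fun p : E × (Fin n → E) =>
        tmapbDens m ζ (n + 1) i H (Fin.cons p.1 p.2) * Φ (Fin.cons p.1 p.2))
        (m.prod (Measure.pi (fun _ => m))) := by
      have h := hmp.integrable_comp_emb (MeasurableEquiv.measurableEmbedding _)
        (g := fun ω => tmapbDens m ζ (n + 1) i H ω * Φ ω)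
      have h2 := h.2 hint
      refine h2.congr (Filter.Eventually.of_forall (fun p => ?_))
      simp only [Function.comp]
      rw [tmapb_succ_symm]
    have e1 : ∫ p : E × (Fin n → E), (fun ω => tmapbDens m ζ (n + 1) i H ω * Φ ω)
        ((MeasurableEquiv.piFinSuccAbove (fun _ : Fin (n + 1) => E) 0).symm p)
        ∂(m.prod (Measure.pi (fun _ => m))) =
        ∫ p : E × (Fin n → E), tmapbDens m ζ (n + 1) i H (Fin.cons p.1 p.2) *
          Φ (Fin.cons p.1 p.2) ∂(m.prod (Measure.pi (fun _ => m))) := by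
      refine integral_congr_ae (Filter.Eventually.of_forall (fun p => ?_))
      simp only
      rw [tmapb_succ_symm]
    refine Eq.trans ?_ e1.symm
    rw [integral_prod _ hint2]
    simp only [pathE]
    refine integral_congr_ae (Filter.Eventually.of_forall (fun e => ?_))
    simp only
    rw [ih (i + 1) (hH.cons hβ e) (hΦ.cons hβ e), ← integral_const_mul]
    refine integral_congr_ae (Filter.Eventually.of_forall (fun ω => ?_))
    simp only [tmapbDens, Fin.cons_zero, Fin.tail_cons]
    ring

private theorem tmapb_dens_fst (n : ℕ) : ∀ (i : ℕ) {H : (Fin n → E) → ℝ}, Measurable H →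
    ∀ ω : Fin n → E × E', tmapbDens (m.prod m') ζ n i (fun ω => H (fun j => (ω j).1)) ω =
      tmapbDens m ζ n i H (fun j => (ω j).1) := by
  induction n with
  | zero => intro i H _ ω; rfl
  | succ n ih =>
    intro i H hH ω
    simp only [tmapbDens]
    have hc : Measurable (fun ω' : Fin n → E => H (Fin.cons (ω 0).1 ω')) :=
      hH.comp (tmapb_meas_cons measurable_const measurable_id)
    congr 1
    · unfold wgt
      rw [nest_fst (n + 1) i hH]
      simp only [tmapb_cons_fst]
      rw [nest_fst n (i + 1) hc]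
    · simp only [tmapb_cons_fst]
      exact ih (i + 1) hc (Fin.tail ω)

private theorem tmapb_dom (hβ : Dom m β) (hβ' : Dom m' β') :
    Dom (m.prod m') (fun p : E × E' => β p.1 + β' p.2) where
  meas := (hβ.meas.comp measurable_fst).add (hβ'.meas.comp measurable_snd)
  nonneg := fun e => add_nonneg (hβ.nonneg _) (hβ'.nonneg _)
  int := fun c => by
    refine ((hβ.int c).mul_prod (hβ'.int c)).congr (Filter.Eventually.of_forall (fun p => ?_))
    simp only
    rw [← Real.exp_add]; congr 1; ring

/-- expectation of a function of the two components: the ignored component stays distributed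
according to the product law.  (`H` ignores the second component.) -/
theorem pathE_prod (hβ : Dom m β) (hβ' : Dom m' β') (hζ : Exps ζ) (n i : ℕ)
    {H : (Fin n → E) → ℝ} {Φ : (Fin n → E × E') → ℝ} (hH : Ham β H)
    (hΦ : Tame (fun p : E × E' => β p.1 + β' p.2) Φ) :
    pathE (m.prod m') ζ n i (fun ω => H (fun j => (ω j).1)) Φ =
      pathE m ζ n i H (fun ω => ∫ y, Φ (fun j => (ω j, y j)) ∂(Measure.pi (fun _ => m'))) := by
  have hD := tmapb_dom hβ hβ'
  have hfst : Measurable (fun ω : Fin n → E × E' => (fun j => (ω j).1 : Fin n → E)) :=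
    measurable_pi_iff.2 (fun j => measurable_fst.comp (measurable_pi_apply j))
  have hmk : Measurable (fun p : (Fin n → E) × (Fin n → E') =>
      (fun j => (p.1 j, p.2 j) : Fin n → E × E')) :=
    measurable_pi_iff.2 (fun j => ((measurable_pi_apply j).comp measurable_fst).prodMk
      ((measurable_pi_apply j).comp measurable_snd))
  have hH2 : Ham (fun p : E × E' => β p.1 + β' p.2) (fun ω : Fin n → E × E' => H (fun j => (ω j).1)) := by
    obtain ⟨C, hC, hCb⟩ := hH.bound
    refine ⟨hH.meas.comp hfst, C, hC, fun ω => (hCb _).trans ?_⟩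
    refine mul_le_mul_of_nonneg_left ?_ hC
    have : ∑ j, β (ω j).1 ≤ ∑ j, (β (ω j).1 + β' (ω j).2) :=
      Finset.sum_le_sum (fun j _ => le_add_of_nonneg_right (hβ'.nonneg _))
    linarith
  have hint := tmapb_dens_int (m := m.prod m') (ζ := ζ) hD hζ n i hH2 hΦ
  rw [tmapb_pathE (m := m.prod m') (ζ := ζ) hD hζ n i hH2 hΦ]
  have hmp := (measurePreserving_arrowProdEquivProdArrow E E' (Fin n) (fun _ => m)
    (fun _ => m')).symm
  rw [← hmp.integral_comp' (g := fun ω => tmapbDens (m.prod m') ζ n i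
    (fun ω => H (fun j => (ω j).1)) ω * Φ ω)]
  have hsymm : ∀ p : (Fin n → E) × (Fin n → E'),
      (MeasurableEquiv.arrowProdEquivProdArrow E E' (Fin n)).symm p = fun j => (p.1 j, p.2 j) := by
    intro p; rfl
  have hint2 : Integrable (fun p : (Fin n → E) × (Fin n → E') =>
      tmapbDens m ζ n i H p.1 * Φ (fun j => (p.1 j, p.2 j)))
      ((Measure.pi (fun _ => m)).prod (Measure.pi (fun _ => m'))) := by
    have h := (hmp.integrable_comp_emb (MeasurableEquiv.measurableEmbedding _)
      (g := fun ω => tmapbDens (m.prod m') ζ n i (fun ω => H (fun j => (ω j).1)) ω * Φ ω)).2 hint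
    refine h.congr (Filter.Eventually.of_forall (fun p => ?_))
    simp only [Function.comp]
    rw [hsymm, tmapb_dens_fst n i hH.meas]
  have e1 : ∫ p : (Fin n → E) × (Fin n → E'), (fun ω => tmapbDens (m.prod m') ζ n i
      (fun ω => H (fun j => (ω j).1)) ω * Φ ω)
      ((MeasurableEquiv.arrowProdEquivProdArrow E E' (Fin n)).symm p)
      ∂((Measure.pi (fun _ => m)).prod (Measure.pi (fun _ => m'))) =
      ∫ p : (Fin n → E) × (Fin n → E'), tmapbDens m ζ n i H p.1 * Φ (fun j => (p.1 j, p.2 j))
        ∂((Measure.pi (fun _ => m)).prod (Measure.pi (fun _ => m'))) := by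
    refine integral_congr_ae (Filter.Eventually.of_forall (fun p => ?_))
    simp only
    rw [hsymm, tmapb_dens_fst n i hH.meas]
  refine e1.trans ?_
  rw [integral_prod _ hint2]
  -- tameness of the integrated function
  have hT : Tame β (fun ω : Fin n → E =>
      ∫ y, Φ (fun j => (ω j, y j)) ∂(Measure.pi (fun _ : Fin n => m'))) := by
    obtain ⟨C, hC, hCb⟩ := hΦ.bound
    refine ⟨?_, ?_⟩
    · have h := (hΦ.meas.comp hmk).stronglyMeasurable.integral_prod_right'
        (ν := Measure.pi (fun _ : Fin n => m'))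
      exact h.measurable
    · set I := ∫ y : Fin n → E', Real.exp (C * ∑ j, β' (y j)) ∂(Measure.pi (fun _ => m')) with hI
      have hI0 : 0 ≤ I := integral_nonneg (fun y => (Real.exp_pos _).le)
      refine ⟨C + C * I, by positivity, fun ω => ?_⟩
      have h1 : |∫ y, Φ (fun j => (ω j, y j)) ∂(Measure.pi (fun _ : Fin n => m'))| ≤
          ∫ y : Fin n → E', (C * Real.exp (C * ∑ j, β (ω j))) * Real.exp (C * ∑ j, β' (y j))
            ∂(Measure.pi (fun _ => m')) := by
        rw [← Real.norm_eq_abs]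
        refine norm_integral_le_of_norm_le ((tmapb_int_exp_sum hβ' n C).const_mul _)
          (Filter.Eventually.of_forall (fun y => ?_))
        rw [Real.norm_eq_abs]
        refine (hCb _).trans (le_of_eq ?_)
        simp only
        rw [Finset.sum_add_distrib, mul_add, Real.exp_add]
        ring
      rw [integral_const_mul, ← hI] at h1
      refine h1.trans ?_
      have hS : 0 ≤ ∑ j, β (ω j) := Finset.sum_nonneg (fun j _ => hβ.nonneg _)
      have h2 : Real.exp (C * ∑ j, β (ω j)) ≤ Real.exp ((C + C * I) * ∑ j, β (ω j)) := by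
        apply Real.exp_le_exp.2
        nlinarith [mul_nonneg (mul_nonneg hC hI0) hS]
      calc C * Real.exp (C * ∑ j, β (ω j)) * I = (C * I) * Real.exp (C * ∑ j, β (ω j)) := by ring
        _ ≤ (C * I) * Real.exp ((C + C * I) * ∑ j, β (ω j)) :=
            mul_le_mul_of_nonneg_left h2 (by positivity)
        _ ≤ _ := mul_le_mul_of_nonneg_right (by linarith) (Real.exp_pos _).le
  rw [tmapb_pathE hβ hζ n i hH hT]
  refine integral_congr_ae (Filter.Eventually.of_forall (fun ω => ?_))
  exact integral_const_mul (tmapbDens m ζ n i H ω)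
    (fun y : Fin n → E' => Φ (fun j => (ω j, y j)))

end Crest.Agent.RI
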