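import Crest.Agent.RI.CavD
import Crest.Agent.RI.TMapB
import Crest.Agent.RI.HaarON

/-!
# Row 164, Part 9: the unperturbed functional, link with the pressure
-/

set_option autoImplicit false

namespace Crest.Agent.RI

open MeasureTheory ProbabilityTheory
open Crest.ProbabilityR.InvariantGlass

variable {N K J k : ℕ}

private theorem FLZero_TT_const {E : Type} [MeasurableSpace E] (m : Measure E)
    [IsProbabilityMeasure m] (z c : ℝ) : TT m z (fun _ => c) = c := by
  unfold TT
  split_ifs with h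
  · simp
  · simp only [integral_const, probReal_univ, smul_eq_mul, one_mul, Real.log_exp]
    field_simp

private theorem FLZero_nest_last {E : Type} [MeasurableSpace E] (m : Measure E)
    [IsProbabilityMeasure m] (ζ : ℕ → ℝ) (G : E → ℝ) (n i : ℕ) :
    nest m ζ (n + 1) i (fun ω => G (ω (Fin.last n))) = TT m (ζ (i + n)) G := by
  induction n generalizing i with
  | zero =>
    simp only [nest]
    rfl
  | succ n ih =>
    have h1 : nest m ζ (n + 1 + 1) i (fun ω => G (ω (Fin.last (n + 1)))) =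
        TT m (ζ i) (fun e => nest m ζ (n + 1) (i + 1) (fun ω : Fin (n + 1) → E =>
          G ((Fin.cons e ω : Fin (n + 1 + 1) → E) (Fin.last (n + 1))))) := rfl
    rw [h1]
    have h2 : ∀ (e : E) (ω : Fin (n + 1) → E),
        (Fin.cons e ω : Fin (n + 1 + 1) → E) (Fin.last (n + 1)) = ω (Fin.last n) := by
      intro e ω
      rw [← Fin.succ_last, Fin.cons_succ]
    simp only [h2, ih (i + 1)]
    rw [FLZero_TT_const]
    congr 1
    congr 1
    omega

private theorem FLZero_int_cfg {P : Measure (ON N)} (hP : HaarO P)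
    {A : Measure (Fin N → Bool)} [IsProbabilityMeasure A]
    (f : (Fin N → Bool) → ℝ) : ∫ e, f e.2.2.2 ∂(mN P A) = ∫ σ, f σ ∂A := by
  have := hP.prob
  have h : MeasurePreserving (fun e : EN N => e.2.2.2) (mN P A) A := by
    have h1 : MeasurePreserving (Prod.snd : EN N → _) (mN P A) ((gvec N).prod ((gvec N).prod A)) :=
      measurePreserving_snd
    have h2 : MeasurePreserving (Prod.snd : (Fin N → ℝ) × (Fin N → ℝ) × (Fin N → Bool) → _)
      ((gvec N).prod ((gvec N).prod A)) ((gvec N).prod A) := measurePreserving_snd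
    have h3 : MeasurePreserving (Prod.snd : (Fin N → ℝ) × (Fin N → Bool) → _)
      ((gvec N).prod A) A := measurePreserving_snd
    exact h3.comp (h2.comp h1)
  have h' := integral_map (μ := mN P A) (φ := fun e : EN N => e.2.2.2) h.measurable.aemeasurable
    (f := f) (Measurable.of_discrete (f := f)).aestronglyMeasurable
  rw [h.map_eq] at h'
  exact h'.symm

private theorem FLZero_int_mat {P : Measure (ON N)} (hP : HaarO P)
    {A : Measure (Fin N → Bool)} [IsProbabilityMeasure A]
    {f : ON N → ℝ} (hf : Measurable f) : ∫ e, f e.1 ∂(mN P A) = ∫ U, f U ∂P := by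
  have := hP.prob
  have h : MeasurePreserving (Prod.fst : EN N → ON N) (mN P A) P := measurePreserving_fst
  have h' := integral_map (μ := mN P A) (φ := (Prod.fst : EN N → ON N)) h.measurable.aemeasurable
    (f := f) hf.aestronglyMeasurable
  rw [h.map_eq] at h'
  exact h'.symm

private theorem FLZero_integral_unifA (f : (Fin N → Bool) → ℝ) :
    ∫ σ, f σ ∂(unifA N) = (1 / 2) ^ N * ∑ σ, f σ := by
  rw [integral_fintype Integrable.of_finite, Finset.mul_sum]
  apply Finset.sum_congr rfl
  intro σ _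
  rw [smul_eq_mul]
  congr 1
  unfold unifA
  have hprob : IsProbabilityMeasure ((2 : ENNReal)⁻¹ •
      (Measure.dirac true + Measure.dirac false : Measure Bool)) := by
    constructor
    simp only [Measure.smul_apply, Measure.add_apply, measure_univ, smul_eq_mul]
    rw [one_add_one_eq_two, ENNReal.inv_mul_cancel two_ne_zero ENNReal.ofNat_ne_top]
  rw [Measure.real, Measure.pi_singleton, ENNReal.toReal_prod]
  have h : ∀ b : Bool, (((2 : ENNReal)⁻¹ • (Measure.dirac true + Measure.dirac false)) {b}).toReal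
      = 1 / 2 := by
    intro b
    cases b <;> simp
  rw [Finset.prod_congr rfl (fun a _ => h (σ a))]
  simp

/-- the exponent -/
noncomputable def FLZero_F (D : Blk) (κ : Fin N → Fin D.K) (B : (Fin N → Bool) → ℝ) (U : ON N)
    (σ : Fin N → Bool) : ℝ := (1 / 2) * ∑ a, D.d (κ a) * rot U σ a ^ 2 + B σ

private theorem FLZero_F_meas (D : Blk) (κ : Fin N → Fin D.K) (B : (Fin N → Bool) → ℝ) :
    Measurable (fun x : ON N × (Fin N → Bool) => FLZero_F D κ B x.1 x.2) := by
  unfold FLZero_F
  refine Measurable.add ?_ ((Measurable.of_discrete (f := B)).comp measurable_snd)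
  refine Measurable.const_mul (Finset.measurable_sum _ fun a _ => ?_) _
  exact ((measurable_rot a).pow_const 2).const_mul _

private theorem FLZero_g_meas (D : Blk) (κ : Fin N → Fin D.K) (B : (Fin N → Bool) → ℝ) :
    Measurable (fun U : ON N => Real.log (∫ σ, Real.exp (FLZero_F D κ B U σ) ∂(unifA N))) := by
  refine Real.measurable_log.comp ?_
  exact ((Real.measurable_exp.comp
    (FLZero_F_meas D κ B)).stronglyMeasurable.integral_prod_right').measurable

private theorem FLZero_g_bound (D : Blk) (κ : Fin N → Fin D.K) (B : (Fin N → Bool) → ℝ) :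
    ∃ C : ℝ, ∀ U : ON N, |Real.log (∫ σ, Real.exp (FLZero_F D κ B U σ) ∂(unifA N))| ≤ C := by
  set C : ℝ := (1 / 2) * ∑ a, |D.d (κ a)| * N + ∑ σ, |B σ| with hC
  have hF : ∀ (U : ON N) (σ : Fin N → Bool), |FLZero_F D κ B U σ| ≤ C := by
    intro U σ
    unfold FLZero_F
    refine (abs_add_le _ _).trans (add_le_add ?_ ?_)
    · rw [abs_mul, abs_of_pos (by norm_num : (0 : ℝ) < 1 / 2)]
      refine mul_le_mul_of_nonneg_left ?_ (by norm_num)
      refine (Finset.abs_sum_le_sum_abs _ _).trans (Finset.sum_le_sum fun a _ => ?_)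
      rw [abs_mul, abs_of_nonneg (sq_nonneg (rot U σ a))]
      refine mul_le_mul_of_nonneg_left ?_ (abs_nonneg _)
      rw [← sum_rot_sq U σ]
      exact Finset.single_le_sum (f := fun a => rot U σ a ^ 2) (fun a _ => sq_nonneg _)
        (Finset.mem_univ a)
    · exact Finset.single_le_sum (f := fun σ => |B σ|) (fun σ _ => abs_nonneg _)
        (Finset.mem_univ σ)
  refine ⟨C, fun U => ?_⟩
  have h1 : Real.exp (-C) ≤ ∫ σ, Real.exp (FLZero_F D κ B U σ) ∂(unifA N) := by
    have : ∫ _σ : Fin N → Bool, Real.exp (-C) ∂(unifA N) = Real.exp (-C) := by simp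
    rw [← this]
    exact integral_mono Integrable.of_finite Integrable.of_finite
      (fun σ => Real.exp_le_exp.2 (neg_le_of_abs_le (hF U σ)))
  have h2 : ∫ σ, Real.exp (FLZero_F D κ B U σ) ∂(unifA N) ≤ Real.exp C := by
    have : ∫ _σ : Fin N → Bool, Real.exp C ∂(unifA N) = Real.exp C := by simp
    rw [← this]
    exact integral_mono Integrable.of_finite Integrable.of_finite
      (fun σ => Real.exp_le_exp.2 (le_of_abs_le (hF U σ)))
  have hpos := (Real.exp_pos (-C)).trans_le h1
  rw [abs_le]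
  constructor
  · rw [Real.le_log_iff_exp_le hpos]; exact h1
  · rw [Real.log_le_iff_le_exp hpos]; exact h2

private theorem FLZero_g_int {P : Measure (ON N)} (hP : HaarO P) (D : Blk) (κ : Fin N → Fin D.K)
    (B : (Fin N → Bool) → ℝ) :
    Integrable (fun U : ON N => Real.log (∫ σ, Real.exp (FLZero_F D κ B U σ) ∂(unifA N))) P := by
  have := hP.prob
  obtain ⟨C, hC⟩ := FLZero_g_bound D κ B
  refine Integrable.of_bound (FLZero_g_meas D κ B).aestronglyMeasurable C
    (Filter.Eventually.of_forall fun U => ?_)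
  rw [Real.norm_eq_abs]
  exact hC U

/-- PROOF: at `x = 0` the Hamiltonian depends only on the matrix of level `0` and the spins of the last level: the levels `1..k-1` see constants (`TT_const`),
`ζ_0 = 0`, `ζ_k = 1`; integrals over `mN` of functions of one component. -/
theorem FL_zero_eq (hk : 0 < k) {P : Measure (ON N)} (hP : HaarO P) (D : Blk) (L : LBd J) (s : ℝ)
    (κ : Fin N → Fin D.K) (lab : Fin N → Fin J) :
    FL P D L k s 0 κ lab = ∫ U, Real.log (∫ σ, Real.exp ((1 / 2) *
      ∑ a, D.d (κ a) * rot U σ a ^ 2 + BL L 0 0 lab σ) ∂(unifA N)) ∂P := by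
  have hprob := prob_mN hP (unifA N)
  have := hP.prob
  obtain ⟨k', rfl⟩ : ∃ k', k = k' + 1 := ⟨k - 1, by omega⟩
  unfold FL
  set m := mN P (unifA N) with hm
  set B := BL L 0 0 lab with hB
  have h0 : nest m (ζLB (k' + 1)) (k' + 1 + 1) 0 (HN (k' + 1) (θL D L (k' + 1) s 0 κ lab)) =
      TT m (ζLB (k' + 1) 0) (fun e => nest m (ζLB (k' + 1)) (k' + 1) (0 + 1)
        (fun ω : Fin (k' + 1) → EN N => FLZero_F D κ B e.1 (ω (Fin.last k')).2.2.2)) := by
    show TT m (ζLB (k' + 1) 0) (fun e => nest m (ζLB (k' + 1)) (k' + 1) (0 + 1)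
        (fun ω : Fin (k' + 1) → EN N => HN (k' + 1) (θL D L (k' + 1) s 0 κ lab)
          (Fin.cons e ω))) = _
    congr 1
    funext e
    congr 1
    funext ω
    have h2 : (Fin.cons e ω : Fin (k' + 1 + 1) → EN N) (Fin.last (k' + 1)) = ω (Fin.last k') := by
      rw [← Fin.succ_last, Fin.cons_succ]
    simp only [HN, θL, yv, Fin.cons_zero, h2, zero_mul, Finset.sum_const_zero, add_zero, FLZero_F,
      hB, BL, Pi.zero_apply, mul_zero, ite_self, dite_eq_ite]
  rw [h0]
  have hζ1 : ζLB (k' + 1) (0 + 1 + k') = 1 := by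
    unfold ζLB
    apply min_eq_left
    rw [le_div_iff₀ (by positivity)]
    push_cast
    linarith
  have hζ0 : ζLB (k' + 1) 0 = 0 := by
    unfold ζLB
    simp
  have h1 : ∀ e : EN N, nest m (ζLB (k' + 1)) (k' + 1) (0 + 1)
      (fun ω : Fin (k' + 1) → EN N => FLZero_F D κ B e.1 (ω (Fin.last k')).2.2.2) =
      Real.log (∫ σ, Real.exp (FLZero_F D κ B e.1 σ) ∂(unifA N)) := by
    intro e
    rw [FLZero_nest_last m (ζLB (k' + 1)) (fun e' : EN N => FLZero_F D κ B e.1 e'.2.2.2) k'
      (0 + 1), hζ1]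
    unfold TT
    rw [if_neg one_ne_zero, inv_one, one_mul]
    simp only [one_mul]
    rw [hm, FLZero_int_cfg hP (fun σ => Real.exp (FLZero_F D κ B e.1 σ))]
  simp only [h1, hζ0]
  unfold TT
  rw [if_pos rfl, hm, FLZero_int_mat hP (FLZero_g_meas D κ B)]
  rfl

/-- PROOF: the penalty is `≤ 0`; `∫ f d(unifA N) = 2^{-N} Σ_σ f σ`; `IsHaar.integral_comap`, `HaarO.unique`. -/
theorem FL_le_pressure (hk : 0 < k) (hN : 0 < N) {P₀ : Measure (Fin N → Fin N → ℝ)}
    (h₀ : IsHaar P₀) {P : Measure (ON N)} (hP : HaarO P) (D : Blk) (L : LBd J)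
    (h0 : 0 ≤ L.kap) (s : ℝ) (κ : Fin N → Fin D.K) (lab : Fin N → Fin J) :
    FL P D L k s 0 κ lab ≤ N * ∫ U, pressureFieldN (fun a => D.d (κ a)) (Matrix.of U)
      (fun r => L.c (lab r)) ∂P₀ := by
  rw [FL_zero_eq hk hP]
  have hPe : P = P₀.comap (Subtype.val : ON N → _) := hP.unique h₀.haarO
  have hNr : (0 : ℝ) < N := by exact_mod_cast hN
  rw [← h₀.integral_comap (fun U => pressureFieldN (fun a => D.d (κ a)) (Matrix.of U)
      (fun r => L.c (lab r))), ← hPe, ← integral_const_mul]
  set B' : (Fin N → Bool) → ℝ := fun σ => ∑ r : Fin N, L.c (lab r) * spin (σ r) with hB'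
  have hp : ∀ U : ON N, (N : ℝ) * pressureFieldN (fun a => D.d (κ a)) (Matrix.of U.1)
      (fun r => L.c (lab r)) = Real.log (∫ σ, Real.exp (FLZero_F D κ B' U σ) ∂(unifA N)) := by
    intro U
    unfold pressureFieldN
    rw [FLZero_integral_unifA, ← mul_assoc, mul_one_div_cancel hNr.ne', one_mul]
    rfl
  simp only [hp]
  refine integral_mono (FLZero_g_int hP D κ _) (FLZero_g_int hP D κ _) (fun U => ?_)
  have hpos : ∀ B : (Fin N → Bool) → ℝ, 0 < ∫ σ, Real.exp (FLZero_F D κ B U σ) ∂(unifA N) := by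
    intro B
    rw [FLZero_integral_unifA]
    have : 0 < ∑ σ : Fin N → Bool, Real.exp (FLZero_F D κ B U σ) :=
      Finset.sum_pos (fun _ _ => Real.exp_pos _) Finset.univ_nonempty
    positivity
  refine Real.log_le_log (hpos _) ?_
  refine integral_mono Integrable.of_finite Integrable.of_finite (fun σ => ?_)
  apply Real.exp_le_exp.2
  unfold FLZero_F
  refine add_le_add le_rfl ?_
  have hTJ : ∑ j, L.c j * TJ lab j σ = B' σ := by
    simp only [hB', TJ, Finset.mul_sum, mul_ite, mul_zero]
    rw [Finset.sum_comm]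
    refine Finset.sum_congr rfl fun r _ => ?_
    rw [Finset.sum_ite_eq Finset.univ (lab r)]
    simp
  unfold BL
  simp only [zero_mul, add_zero, hTJ]
  have : 0 ≤ L.kap / (N : ℝ) * ∑ j, (TJ lab j σ - L.γ j * L.m j * (N : ℝ)) ^ 2 := by positivity
  linarith

end Crest.Agent.RI
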