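import Crest.Agent.RI.FLZero

/-!
# Row 164, Part 9: lower bound of the unperturbed functional, uniform in the penalty
-/

set_option autoImplicit false

namespace Crest.Agent.RI

open MeasureTheory ProbabilityTheory
open Crest.ProbabilityR.InvariantGlass

variable {N K J k : ℕ}

/-- a configuration with prescribed class sums.  PROOF: in the class `j` choose `⌊(N_j + t_j)/2⌋` spins `+` (`Finset.exists_subset_card_eq`). -/
theorem exists_sigma (lab : Fin N → Fin J) (t : Fin J → ℝ)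
    (ht : ∀ j, |t j| ≤ ((Finset.univ.filter (fun r => lab r = j)).card : ℝ)) :
    ∃ σ : Fin N → Bool, ∀ j, |TJ lab j σ - t j| ≤ 2 := by
  classical
  have hex : ∀ j, ∃ S : Finset (Fin N), S ⊆ Finset.univ.filter (fun r => lab r = j) ∧
      S.card = ⌊(((Finset.univ.filter (fun r => lab r = j)).card : ℝ) + t j) / 2⌋₊ := by
    intro j
    refine Finset.exists_subset_card_eq ?_
    have h := abs_le.1 (ht j)
    refine Nat.floor_le_of_le ?_
    linarith [h.2]
  choose S hS hc using hex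
  refine ⟨fun r => decide (r ∈ S (lab r)), fun j => ?_⟩
  have h1 : TJ lab j (fun r => decide (r ∈ S (lab r))) =
      2 * ((S j).card : ℝ) - ((Finset.univ.filter (fun r => lab r = j)).card : ℝ) := by
    unfold TJ
    rw [← Finset.sum_filter]
    have h2 : ∀ r ∈ Finset.univ.filter (fun r => lab r = j),
        spin (decide (r ∈ S (lab r))) = 2 * (if r ∈ S j then (1 : ℝ) else 0) - 1 := by
      intro r hr
      have hr' : lab r = j := (Finset.mem_filter.1 hr).2
      rw [hr']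
      unfold spin
      by_cases h : r ∈ S j
      · simp [h]; norm_num
      · simp [h]
    rw [Finset.sum_congr rfl h2, Finset.sum_sub_distrib, ← Finset.mul_sum, ← Finset.sum_filter,
      Finset.sum_const, Finset.sum_const, nsmul_eq_mul, nsmul_eq_mul, mul_one, mul_one]
    have h3 : (Finset.univ.filter (fun r => lab r = j)).filter (fun r => r ∈ S j) = S j := by
      ext r
      simp only [Finset.mem_filter, Finset.mem_univ, true_and]
      constructor
      · exact fun h => h.2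
      · intro h
        exact ⟨(Finset.mem_filter.1 (hS j h)).2, h⟩
    rw [h3]
  rw [h1, hc j]
  have h := abs_le.1 (ht j)
  have h0 : 0 ≤ (((Finset.univ.filter (fun r => lab r = j)).card : ℝ) + t j) / 2 := by
    linarith [h.1]
  have h4 := Nat.floor_le h0
  have h5 := Nat.lt_floor_add_one
    ((((Finset.univ.filter (fun r => lab r = j)).card : ℝ) + t j) / 2)
  rw [abs_le]
  constructor <;> linarith

private theorem FLZeroB_integral_unifA {N : ℕ} (f : (Fin N → Bool) → ℝ) :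
    ∫ σ, f σ ∂(unifA N) = (1 / 2) ^ N * ∑ σ, f σ := by
  have : IsProbabilityMeasure ((2 : ENNReal)⁻¹ •
      (Measure.dirac true + Measure.dirac false) : Measure Bool) := by
    constructor
    simp only [Measure.smul_apply, Measure.add_apply, measure_univ, smul_eq_mul]
    rw [one_add_one_eq_two, ENNReal.inv_mul_cancel two_ne_zero ENNReal.ofNat_ne_top]
  rw [integral_fintype Integrable.of_finite, Finset.mul_sum]
  apply Finset.sum_congr rfl
  intro σ _
  rw [smul_eq_mul]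
  congr 1
  unfold unifA
  rw [Measure.real, Measure.pi_singleton, ENNReal.toReal_prod]
  have h : ∀ b : Bool, (((2 : ENNReal)⁻¹ • (Measure.dirac true + Measure.dirac false)) {b}).toReal
      = 1 / 2 := by
    intro b
    cases b <;> simp
  rw [Finset.prod_congr rfl (fun a _ => h (σ a))]
  simp

private theorem FLZeroB_log_ge {N : ℕ} (f : (Fin N → Bool) → ℝ) (σ₀ : Fin N → Bool) :
    f σ₀ - N * Real.log 2 ≤ Real.log (∫ σ, Real.exp (f σ) ∂(unifA N)) := by
  rw [FLZeroB_integral_unifA]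
  have h1 : Real.exp (f σ₀) ≤ ∑ σ, Real.exp (f σ) :=
    Finset.single_le_sum (f := fun σ => Real.exp (f σ)) (fun σ _ => (Real.exp_pos _).le)
      (Finset.mem_univ σ₀)
  have h2 : (1 / 2 : ℝ) ^ N * Real.exp (f σ₀) ≤ (1 / 2 : ℝ) ^ N * ∑ σ, Real.exp (f σ) :=
    mul_le_mul_of_nonneg_left h1 (by positivity)
  have h3 := Real.log_le_log (by positivity) h2
  rw [Real.log_mul (by positivity) (Real.exp_pos _).ne', Real.log_exp, Real.log_pow,
    one_div, Real.log_inv] at h3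
  linarith

/-- lower bound, uniform in `kap`.  PROOF: `FL_zero_eq`, one configuration (`exists_sigma` with `t_j = γ_j m_j N`) has weight `2^{-N}`;
`η ≤ min γ_j (1 - |m_j|)`, `N ≥ Km + 1`. -/
theorem FL_zero_ge (D : Blk) (γ c m : Fin J → ℝ) (hγ : ∀ j, 0 < γ j) (hs : ∑ j, γ j = 1)
    (hm : ∀ j, |m j| < 1) : ∃ C : ℝ, 0 ≤ C ∧ ∀ Km : ℝ, 0 ≤ Km → ∃ (N₀ : ℕ) (η : ℝ), 0 < η ∧
    ∀ N ≥ N₀, 0 < N → ∀ P : Measure (ON N), HaarO P → ∀ k : ℕ, 0 < k → ∀ s kap : ℝ, 0 ≤ kap →
      kap ≤ Km → ∀ (κ : Fin N → Fin D.K) (lab : Fin N → Fin J), LClose γ η lab →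
      - C * N ≤ FL P D ⟨γ, c, m, kap⟩ k s 0 κ lab := by
  have hη : ∃ η : ℝ, 0 < η ∧ ∀ j, η ≤ γ j * (1 - |m j|) := by
    rcases isEmpty_or_nonempty (Fin J) with h | h
    · exact ⟨1, one_pos, fun j => (h.false j).elim⟩
    · obtain ⟨j₀, hj₀⟩ := Finite.exists_min (fun j => γ j * (1 - |m j|))
      exact ⟨γ j₀ * (1 - |m j₀|), mul_pos (hγ j₀) (by linarith [hm j₀]), hj₀⟩
  obtain ⟨η, hη0, hη⟩ := hη
  have hlog : 0 ≤ Real.log 2 := Real.log_nonneg (by norm_num)
  have hd0 : 0 ≤ ∑ l, |D.d l| := Finset.sum_nonneg fun _ _ => abs_nonneg _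
  have hc0 : 0 ≤ ∑ j, |c j| := Finset.sum_nonneg fun _ _ => abs_nonneg _
  refine ⟨Real.log 2 + (1 / 2) * ∑ l, |D.d l| + ∑ j, |c j| + 1, by positivity, fun Km hKm =>
    ⟨⌈4 * (J : ℝ) * Km⌉₊ + 1, η, hη0, fun N hN hN0 P hP k hk s kap hkap hkm κ lab hl => ?_⟩⟩
  have hNR : (0 : ℝ) < N := by exact_mod_cast hN0
  have hNR1 : (1 : ℝ) ≤ N := by exact_mod_cast hN0
  have hNK : 4 * (J : ℝ) * Km ≤ N := by
    have h1 := Nat.le_ceil (4 * (J : ℝ) * Km)
    have h2 : ((⌈4 * (J : ℝ) * Km⌉₊ + 1 : ℕ) : ℝ) ≤ N := by exact_mod_cast hN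
    push_cast at h2
    linarith
  have := hP.prob
  -- the configuration
  obtain ⟨σ₀, hσ⟩ := exists_sigma lab (fun j => γ j * m j * (N : ℝ)) (fun j => by
    have h1 := abs_le.1 (hl j)
    have h2 := hη j
    have h3 : γ j * |m j| ≤ γ j - η := by nlinarith
    have h4 : (γ j - η) * N ≤ ((Finset.univ.filter (fun r => lab r = j)).card : ℝ) := by
      have h5 : γ j - η ≤ ((Finset.univ.filter (fun r => lab r = j)).card : ℝ) / N := by
        linarith [h1.1]
      exact (le_div_iff₀ hNR).1 h5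
    rw [abs_mul, abs_mul, abs_of_pos (hγ j), Nat.abs_cast]
    exact (mul_le_mul_of_nonneg_right h3 hNR.le).trans h4)
  have hTJ : ∀ j, |TJ lab j σ₀| ≤ N := by
    intro j
    unfold TJ
    refine (Finset.abs_sum_le_sum_abs _ _).trans ?_
    calc ∑ r : Fin N, |if lab r = j then spin (σ₀ r) else 0| ≤ ∑ _r : Fin N, (1 : ℝ) := by
          refine Finset.sum_le_sum fun r _ => ?_
          split_ifs
          · rw [abs_spin]
          · simp
      _ = N := by simp
  have hBL : - (∑ j, |c j|) * N - 1 ≤ BL ⟨γ, c, m, kap⟩ 0 0 lab σ₀ := by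
    unfold BL
    have h1 : - (∑ j, |c j|) * N ≤ ∑ j, (c j + 0 * (0 : Fin J → ℝ) j) * TJ lab j σ₀ := by
      rw [neg_mul, Finset.sum_mul, ← Finset.sum_neg_distrib]
      refine Finset.sum_le_sum fun j _ => ?_
      rw [zero_mul, add_zero]
      have h2 : |c j * TJ lab j σ₀| ≤ |c j| * N := by
        rw [abs_mul]
        exact mul_le_mul_of_nonneg_left (hTJ j) (abs_nonneg _)
      linarith [(abs_le.1 h2).1]
    have h2 : (kap / (N : ℝ)) * ∑ j, (TJ lab j σ₀ - γ j * m j * (N : ℝ)) ^ 2 ≤ 1 := by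
      have h3 : ∑ j, (TJ lab j σ₀ - γ j * m j * (N : ℝ)) ^ 2 ≤ ∑ _j : Fin J, (4 : ℝ) := by
        refine Finset.sum_le_sum fun j _ => ?_
        have h4 := hσ j
        rw [← sq_abs]
        have h5 := abs_nonneg (TJ lab j σ₀ - γ j * m j * (N : ℝ))
        nlinarith
      rw [Finset.sum_const, Finset.card_univ, Fintype.card_fin, nsmul_eq_mul] at h3
      have h6 : (kap / (N : ℝ)) * ∑ j, (TJ lab j σ₀ - γ j * m j * (N : ℝ)) ^ 2 ≤
          (Km / (N : ℝ)) * ((J : ℝ) * 4) :=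
        mul_le_mul (div_le_div_of_nonneg_right hkm hNR.le) h3
          (Finset.sum_nonneg fun _ _ => sq_nonneg _) (div_nonneg hKm hNR.le)
      refine h6.trans ?_
      rw [div_mul_eq_mul_div, div_le_one hNR]
      linarith
    show - (∑ j, |c j|) * N - 1 ≤ ∑ j, (c j + 0 * (0 : Fin J → ℝ) j) * TJ lab j σ₀ -
      (kap / (N : ℝ)) * ∑ j, (TJ lab j σ₀ - γ j * m j * (N : ℝ)) ^ 2
    linarith
  have hpt : ∀ U : ON N, - (Real.log 2 + (1 / 2) * ∑ l, |D.d l| + ∑ j, |c j| + 1) * N ≤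
      Real.log (∫ σ, Real.exp ((1 / 2) * ∑ a, D.d (κ a) * rot U σ a ^ 2 +
        BL ⟨γ, c, m, kap⟩ 0 0 lab σ) ∂(unifA N)) := by
    intro U
    refine le_trans ?_ (FLZeroB_log_ge (fun σ => (1 / 2) * ∑ a, D.d (κ a) * rot U σ a ^ 2 +
        BL ⟨γ, c, m, kap⟩ 0 0 lab σ) σ₀)
    have h1 : - (∑ l, |D.d l|) * N ≤ ∑ a, D.d (κ a) * rot U σ₀ a ^ 2 := by
      have h2 : ∀ a : Fin N, - (∑ l, |D.d l|) * rot U σ₀ a ^ 2 ≤ D.d (κ a) * rot U σ₀ a ^ 2 := by
        intro a
        refine mul_le_mul_of_nonneg_right ?_ (sq_nonneg _)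
        have h3 : |D.d (κ a)| ≤ ∑ l, |D.d l| :=
          Finset.single_le_sum (f := fun l => |D.d l|) (fun _ _ => abs_nonneg _)
            (Finset.mem_univ _)
        linarith [(abs_le.1 h3).1]
      have h4 := Finset.sum_le_sum fun a (_ : a ∈ (Finset.univ : Finset (Fin N))) => h2 a
      rw [← Finset.mul_sum, sum_rot_sq] at h4
      exact h4
    show _ ≤ (1 / 2) * ∑ a, D.d (κ a) * rot U σ₀ a ^ 2 + BL ⟨γ, c, m, kap⟩ 0 0 lab σ₀ -
      N * Real.log 2
    nlinarith
  rw [FL_zero_eq hk hP]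
  by_cases hint : Integrable (fun U : ON N => Real.log (∫ σ, Real.exp ((1 / 2) *
      ∑ a, D.d (κ a) * rot U σ a ^ 2 + BL ⟨γ, c, m, kap⟩ 0 0 lab σ) ∂(unifA N))) P
  · have h1 := integral_mono (integrable_const (μ := P)
      (- (Real.log 2 + (1 / 2) * ∑ l, |D.d l| + ∑ j, |c j| + 1) * (N : ℝ))) hint hpt
    rw [integral_const, probReal_univ, one_smul] at h1
    exact h1
  · rw [integral_undef hint]
    have : 0 ≤ (Real.log 2 + (1 / 2) * ∑ l, |D.d l| + ∑ j, |c j| + 1) * N := by positivity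
    linarith

end Crest.Agent.RI
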