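import Crest.Agent.RI.FVal

/-!
# Row 164: links between `siteVal`, `siteLeg`, `fieldValueAt`, `FVal`
-/

set_option autoImplicit false

namespace Crest.Agent.RI

open MeasureTheory ProbabilityTheory
open Crest.ProbabilityR.InvariantGlass

theorem recT_eq_foldr (ζ τ : ℕ → ℝ) (f : ℝ → ℝ) (n i : ℕ) :
    recT ζ τ n i f = (List.range' i n).foldr (fun j acc => gaussOp (ζ j) (τ j) acc) f := by
  induction n generalizing i with
  | zero => rfl
  | succ n ih =>
    rw [List.range'_succ, List.foldr_cons, ← ih]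
    rfl

theorem recT_congr {ζ ζ' τ τ' : ℕ → ℝ} (f : ℝ → ℝ) {n i i' : ℕ}
    (h : ∀ j < n, ζ (i + j) = ζ' (i' + j) ∧ τ (i + j) = τ' (i' + j)) :
    recT ζ τ n i f = recT ζ' τ' n i' f := by
  induction n generalizing i i' with
  | zero => rfl
  | succ n ih =>
    have h0 := h 0 (by omega)
    simp only [Nat.add_zero] at h0
    show gaussOp (ζ i) (τ i) (recT ζ τ n (i + 1) f) = gaussOp (ζ' i') (τ' i') (recT ζ' τ' n (i' + 1) f)
    rw [h0.1, h0.2, ih (i := i + 1) (i' := i' + 1)]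
    intro j hj
    have := h (j + 1) (by omega)
    rw [show i + 1 + j = i + (j + 1) by ring, show i' + 1 + j = i' + (j + 1) by ring]
    exact this

theorem siteVal_eq_fieldValueAt {k : ℕ} {ζ τ : ℕ → ℝ} {w hv : Fin k → ℝ}
    (h1 : ∀ i : Fin k, ζ i = leftEnd w i) (h2 : ∀ i : Fin k, τ i = increment hv i) (b : ℝ) :
    siteVal ζ τ k b = fieldValueAt b w hv := by
  unfold siteVal fieldValueAt
  have e1 : recT ζ τ k 0 lch = (List.finRange k).foldr
      (fun i acc => gaussOp (leftEnd w i) (increment hv i) acc) (fun z => Real.log (Real.cosh z)) := by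
    rw [recT_eq_foldr, ← List.range_eq_range', ← List.map_coe_finRange_eq_range, List.foldr_map]
    have : (fun (x : Fin k) (acc : ℝ → ℝ) => gaussOp (ζ x) (τ x) acc) =
        fun i acc => gaussOp (leftEnd w i) (increment hv i) acc := by
      funext i acc
      rw [h1, h2]
    rw [this]
    rfl
  have e2 : ∑ i ∈ Finset.range k, τ i = ∑ l : Fin k, if l.val + 1 = k then hv l else 0 := by
    rw [← sum_increment_all, Finset.sum_range]
    exact Finset.sum_congr rfl fun i _ => h2 i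
  rw [e1, e2]
  ring

/-- shift: a first level without increment -/
theorem siteVal_shift (ζ τ : ℕ → ℝ) (k : ℕ) (b : ℝ) (h0 : τ 0 = 0) :
    siteVal ζ τ (k + 1) b = siteVal (fun i => ζ (i + 1)) (fun i => τ (i + 1)) k b := by
  unfold siteVal
  have e1 : recT ζ τ (k + 1) 0 lch = recT (fun i => ζ (i + 1)) (fun i => τ (i + 1)) k 0 lch := by
    show gaussOp (ζ 0) (τ 0) (recT ζ τ k 1 lch) = _
    rw [h0, gaussOp_zero_var]
    refine recT_congr _ fun j _ => ?_
    simp only [Nat.zero_add]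
    rw [Nat.add_comm 1 j]
    exact ⟨rfl, rfl⟩
  rw [e1, Finset.sum_range_succ', h0, add_zero]

theorem leftEnd_const {k : ℕ} (c : ℝ) (i : Fin k) : leftEnd (fun _ : Fin k => c) i = i * c := by
  unfold leftEnd
  rw [← Finset.sum_filter, Finset.sum_const, nsmul_eq_mul]
  congr 1
  norm_cast
  have : (Finset.univ.filter (fun a : Fin k => a < i)) = Finset.Iio i := by ext; simp
  rw [this, Fin.card_Iio]

/-- path values of the upper bound tower as a step field with `k + 1` steps -/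
noncomputable def hvUB (k : ℕ) (τ : ℕ → ℝ) : Fin (k + 1) → ℝ := fun i => ∑ j ∈ Finset.range i, τ j

theorem isStepField_UB (k : ℕ) {τ : ℕ → ℝ} (hτ : ∀ i, 0 ≤ τ i) :
    IsStepField (fun _ : Fin (k + 1) => 1 / ((k : ℝ) + 1)) (hvUB k τ) := by
  refine ⟨by omega, fun i => by positivity, ?_, ?_, ?_⟩
  · rw [Finset.sum_const, Finset.card_univ, Fintype.card_fin, nsmul_eq_mul]
    push_cast
    field_simp
  · intro i j hij
    exact Finset.sum_le_sum_of_subset_of_nonneg (Finset.range_mono hij) fun l _ _ => hτ l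
  · intro i
    exact Finset.sum_nonneg fun l _ => hτ l

theorem siteVal_UB (k : ℕ) (τ : ℕ → ℝ) (b : ℝ) :
    siteVal (fun i => ((i : ℝ) + 1) / ((k : ℝ) + 1)) τ k b =
      fieldValueAt b (fun _ : Fin (k + 1) => 1 / ((k : ℝ) + 1)) (hvUB k τ) := by
  set ζ' : ℕ → ℝ := fun i => (i : ℝ) / ((k : ℝ) + 1) with hζ'
  set τ' : ℕ → ℝ := fun i => if i = 0 then 0 else τ (i - 1) with hτ'
  have h := siteVal_shift ζ' τ' k b (by simp [hτ'])
  have e1 : (fun i => ζ' (i + 1)) = (fun i : ℕ => ((i : ℝ) + 1) / ((k : ℝ) + 1)) := by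
    funext i; simp [hζ']
  have e2 : (fun i => τ' (i + 1)) = τ := by
    funext i; simp [hτ']
  rw [e1, e2] at h
  rw [← h]
  refine siteVal_eq_fieldValueAt (fun i => ?_) (fun i => ?_) b
  · rw [leftEnd_const]; simp only [hζ']; ring
  · refine Fin.cases ?_ (fun i => ?_) i
    · rw [increment_zero]; simp [hτ', hvUB]
    · rw [increment_succ]
      simp only [hτ', hvUB, Fin.val_succ, Fin.val_castSucc]
      rw [Finset.sum_range_succ]
      simp

/-! ### integrals against step functions -/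

theorem integral_mul_stepFn {k : ℕ} {w hv : Fin k → ℝ} (h : IsStepField w hv) {p : ℝ → ℝ}
    (hp : IntegrableOn p (Set.Ioo (0:ℝ) 1)) :
    ∫ u in Set.Ioo (0 : ℝ) 1, p u * stepFn w hv u =
      ∑ i, hv i * ∫ u in Set.Ioc (leftEnd w i) (leftEnd w i + w i), p u := by
  have hp' : IntegrableOn p (Set.Ioc (0:ℝ) 1) := by
    rwa [integrableOn_Ioc_iff_integrableOn_Ioo]
  rw [← integral_Ioc_eq_integral_Ioo]
  have e : ∀ u, p u * stepFn w hv u =
      ∑ i, hv i * (Set.Ioc (leftEnd w i) (leftEnd w i + w i)).indicator p u := by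
    intro u
    unfold stepFn
    rw [Finset.mul_sum]
    refine Finset.sum_congr rfl fun i _ => ?_
    by_cases hi : leftEnd w i < u ∧ u ≤ leftEnd w i + w i
    · rw [if_pos hi, Set.indicator_of_mem (show u ∈ Set.Ioc _ _ from hi)]; ring
    · rw [if_neg hi, Set.indicator_of_notMem (show u ∉ Set.Ioc _ _ from hi)]; ring
  simp only [e]
  have hsub : ∀ i, Set.Ioc (leftEnd w i) (leftEnd w i + w i) ⊆ Set.Ioc 0 1 := by
    intro i
    refine Set.Ioc_subset_Ioc (leftEnd_nonneg h.2.1 i) ?_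
    have := leftEnd_add_le h.2.1 i
    rwa [h.2.2.1] at this
  rw [integral_finsetSum]
  · refine Finset.sum_congr rfl fun i _ => ?_
    rw [integral_const_mul, setIntegral_indicator measurableSet_Ioc,
      Set.inter_eq_right.mpr (hsub i)]
  · intro i _
    exact (hp'.indicator measurableSet_Ioc).const_mul _

/-- equal steps: integral against the path of the upper bound tower. -/
theorem integral_mul_stepFn_UB (k : ℕ) {τ : ℕ → ℝ} (hτ : ∀ i, 0 ≤ τ i) {p : ℝ → ℝ}
    (hp : IntegrableOn p (Set.Ioo (0:ℝ) 1)) :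
    ∫ u in Set.Ioo (0 : ℝ) 1, p u * stepFn (fun _ : Fin (k + 1) => 1 / ((k : ℝ) + 1)) (hvUB k τ) u =
      ∑ i ∈ Finset.range k, hh τ i *
        ∫ u in Set.Ioc (((i : ℝ) + 1) / ((k : ℝ) + 1)) (((i : ℝ) + 2) / ((k : ℝ) + 1)), p u := by
  rw [integral_mul_stepFn (isStepField_UB k hτ) hp, Fin.sum_univ_succ]
  have e0 : hvUB k τ 0 = 0 := by simp [hvUB]
  rw [e0, zero_mul, zero_add, Finset.sum_range]
  refine Finset.sum_congr rfl fun i _ => ?_
  rw [leftEnd_const]
  have e1 : hvUB k τ i.succ = hh τ i := by simp [hvUB, hh]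
  have e2 : (((i.succ : Fin (k + 1)) : ℕ) : ℝ) * (1 / ((k : ℝ) + 1)) = ((i : ℝ) + 1) / ((k : ℝ) + 1) := by
    simp only [Fin.val_succ]; push_cast; ring
  have e3 : ((i : ℝ) + 1) / ((k : ℝ) + 1) + 1 / ((k : ℝ) + 1) = ((i : ℝ) + 2) / ((k : ℝ) + 1) := by
    ring
  rw [e1, e2, e3]

end Crest.Agent.RI
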