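import Crest.Agent.RI.VDef
import Crest.Agent.RI.GOp

/-!
# Row 164: the one-site value as a function of finitely many jumps
-/

set_option autoImplicit false

namespace Crest.Agent.RI

open MeasureTheory ProbabilityTheory
open Crest.ProbabilityR.InvariantGlass

/-- Levels at the positions in `L`, with increments `τ`. -/
noncomputable def LRec (τ : ℝ → ℝ) (L : List ℝ) : ℝ → ℝ :=
  L.foldr (fun t acc => gaussOp t (τ t) acc) lch

/-- Levels at the positions in `S` (increasing order, innermost = last). -/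
noncomputable def FRec (S : Finset ℝ) (τ : ℝ → ℝ) : ℝ → ℝ := LRec τ (S.sort (· ≤ ·))

/-- The one-site value `ℓ_b`. -/
noncomputable def FVal (S : Finset ℝ) (τ : ℝ → ℝ) (b : ℝ) : ℝ :=
  FRec S τ b - (1 / 2) * ∑ t ∈ S, τ t

/-- `ℓ^[m]` -/
noncomputable def FLeg (S : Finset ℝ) (τ : ℝ → ℝ) (m : ℝ) : ℝ := ⨅ b : ℝ, (FVal S τ b - b * m)

/-- The path `h(u) = Σ_{t < u} τ_t`. -/
noncomputable def FH (S : Finset ℝ) (τ : ℝ → ℝ) (u : ℝ) : ℝ := ∑ t ∈ S, if t < u then τ t else 0

theorem LRec_filter (τ : ℝ → ℝ) (L : List ℝ) :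
    LRec τ (L.filter (fun t => decide (τ t ≠ 0))) = LRec τ L := by
  unfold LRec
  induction L with
  | nil => rfl
  | cons a L ih =>
    by_cases h : τ a = 0
    · rw [List.filter_cons_of_neg (by simp [h])]
      rw [ih, List.foldr_cons, h, gaussOp_zero_var]
    · rw [List.filter_cons_of_pos (by simp [h])]
      rw [List.foldr_cons, List.foldr_cons, ih]

theorem sort_filter_eq (S : Finset ℝ) (p : ℝ → Prop) [DecidablePred p] :
    (S.filter p).sort (· ≤ ·) = (S.sort (· ≤ ·)).filter (fun t => decide (p t)) := by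
  have h1 : ((S.sort (· ≤ ·)).filter (fun t => decide (p t))).Nodup :=
    (Finset.sort_nodup S (· ≤ ·)).filter _
  have h2 : ((S.sort (· ≤ ·)).filter (fun t => decide (p t))).Pairwise (· ≤ ·) :=
    (Finset.pairwise_sort S (· ≤ ·)).filter _
  have h3 := (List.toFinset_sort (· ≤ ·) h1).mpr h2
  rw [← h3]
  congr 1
  ext t
  simp

theorem FRec_filter (S : Finset ℝ) (τ : ℝ → ℝ) :
    FRec (S.filter (fun t => τ t ≠ 0)) τ = FRec S τ := by
  unfold FRec
  rw [sort_filter_eq, LRec_filter]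

/-- adding positions without jump -/
theorem FRec_superset {S S' : Finset ℝ} (h : S ⊆ S') {τ : ℝ → ℝ} (h0 : ∀ t ∈ S', t ∉ S → τ t = 0) :
    FRec S' τ = FRec S τ := by
  rw [← FRec_filter S', ← FRec_filter S]
  congr 1
  ext t
  simp only [Finset.mem_filter]
  constructor
  · rintro ⟨h1, h2⟩
    refine ⟨?_, h2⟩
    by_contra h3
    exact h2 (h0 t h1 h3)
  · rintro ⟨h1, h2⟩
    exact ⟨h h1, h2⟩

theorem FVal_superset {S S' : Finset ℝ} (h : S ⊆ S') {τ : ℝ → ℝ} (h0 : ∀ t ∈ S', t ∉ S → τ t = 0) :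
    FVal S' τ = FVal S τ := by
  funext b
  unfold FVal
  rw [FRec_superset h h0, Finset.sum_subset h h0]

theorem FLeg_superset {S S' : Finset ℝ} (h : S ⊆ S') {τ : ℝ → ℝ} (h0 : ∀ t ∈ S', t ∉ S → τ t = 0) :
    FLeg S' τ = FLeg S τ := by
  funext m
  unfold FLeg
  rw [FVal_superset h h0]

theorem FH_superset {S S' : Finset ℝ} (h : S ⊆ S') {τ : ℝ → ℝ} (h0 : ∀ t ∈ S', t ∉ S → τ t = 0) :
    FH S' τ = FH S τ := by
  funext u
  unfold FH
  symm
  refine Finset.sum_subset h fun t h1 h2 => ?_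
  rw [h0 t h1 h2, ite_self]

theorem LRec_congr {τ τ' : ℝ → ℝ} {L : List ℝ} (h : ∀ t ∈ L, τ t = τ' t) : LRec τ L = LRec τ' L := by
  unfold LRec
  induction L with
  | nil => rfl
  | cons a L ih =>
    rw [List.foldr_cons, List.foldr_cons, h a (by simp), ih (fun t ht => h t (by simp [ht]))]

theorem FRec_congr {S : Finset ℝ} {τ τ' : ℝ → ℝ} (h : ∀ t ∈ S, τ t = τ' t) : FRec S τ = FRec S τ' := by
  unfold FRec
  exact LRec_congr fun t ht => h t ((Finset.mem_sort (· ≤ ·)).mp ht)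

theorem FVal_congr {S : Finset ℝ} {τ τ' : ℝ → ℝ} (h : ∀ t ∈ S, τ t = τ' t) : FVal S τ = FVal S τ' := by
  funext b
  unfold FVal
  rw [FRec_congr h, Finset.sum_congr rfl h]

theorem FLeg_congr {S : Finset ℝ} {τ τ' : ℝ → ℝ} (h : ∀ t ∈ S, τ t = τ' t) : FLeg S τ = FLeg S τ' := by
  funext m
  unfold FLeg
  rw [FVal_congr h]

theorem FH_congr {S : Finset ℝ} {τ τ' : ℝ → ℝ} (h : ∀ t ∈ S, τ t = τ' t) : FH S τ = FH S τ' := by
  funext u
  unfold FH
  exact Finset.sum_congr rfl fun t ht => by rw [h t ht]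

/-! ### bounds -/

theorem LRec_SF {τ : ℝ → ℝ} {L : List ℝ} (hL : ∀ t ∈ L, 0 ≤ t) : SF (LRec τ L) := by
  unfold LRec
  induction L with
  | nil => exact SF.lch
  | cons a L ih =>
    rw [List.foldr_cons]
    exact (ih (fun t ht => hL t (by simp [ht]))).gop (hL a (by simp)) _

theorem LRec_le {τ : ℝ → ℝ} {L : List ℝ} (hL : ∀ t ∈ L, 0 ≤ t ∧ t ≤ 1) (hτ : ∀ t ∈ L, 0 ≤ τ t) (z : ℝ) :
    LRec τ L z ≤ lch z + (1 / 2) * (L.map τ).sum := by
  induction L generalizing z with
  | nil => simp [LRec]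
  | cons a L ih =>
    have hL' : ∀ t ∈ L, 0 ≤ t ∧ t ≤ 1 := fun t ht => hL t (by simp [ht])
    have hτ' : ∀ t ∈ L, 0 ≤ τ t := fun t ht => hτ t (by simp [ht])
    have h1 : LRec τ (a :: L) z = gaussOp a (τ a) (LRec τ L) z := rfl
    have hsf := LRec_SF (τ := τ) (L := L) fun t ht => (hL' t ht).1
    rw [h1]
    calc gaussOp a (τ a) (LRec τ L) z ≤ gaussOp 1 (τ a) (LRec τ L) z :=
          gaussOp_mono_a (hL a (by simp)).1 (hL a (by simp)).2 _ hsf.lg z
      _ ≤ gaussOp 1 (τ a) (fun x => lch x + (1 / 2) * (L.map τ).sum) z :=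
          gaussOp_mono zero_le_one _ hsf.lg (SF.lch.lg.add_const _) (ih hL' hτ') z
      _ = gaussOp 1 (τ a) (fun z => Real.log (Real.cosh z)) z + (1 / 2) * (L.map τ).sum :=
          gaussOp_add_const 1 _ _ SF.lch.lg z
      _ = lch z + (1 / 2) * ((a :: L).map τ).sum := by
          rw [gaussOp_one_lch (hτ a (by simp)), List.map_cons, List.sum_cons]
          unfold lch; ring

theorem le_lch (z : ℝ) : z - Real.log 2 ≤ lch z := by
  unfold lch
  rw [← Real.log_exp z, ← Real.log_div (Real.exp_pos _).ne' two_ne_zero]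
  simp only [Real.log_exp]
  refine Real.log_le_log (by positivity) ?_
  rw [Real.cosh_eq]
  have := Real.exp_pos (-z)
  linarith

theorem le_LRec {τ : ℝ → ℝ} {L : List ℝ} (hL : ∀ t ∈ L, 0 ≤ t) (hτ : ∀ t ∈ L, 0 ≤ τ t) (z : ℝ) :
    z - Real.log 2 + (1 / 2) * (L.map (fun t => t * τ t)).sum ≤ LRec τ L z := by
  induction L generalizing z with
  | nil => simpa [LRec] using le_lch z
  | cons a L ih =>
    have hL' : ∀ t ∈ L, 0 ≤ t := fun t ht => hL t (by simp [ht])
    have hτ' : ∀ t ∈ L, 0 ≤ τ t := fun t ht => hτ t (by simp [ht])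
    have h1 : LRec τ (a :: L) z = gaussOp a (τ a) (LRec τ L) z := rfl
    have hsf := LRec_SF (τ := τ) (L := L) hL'
    rw [h1, gaussOp_eq_lem]
    set c := - Real.log 2 + (1 / 2) * (L.map (fun t => t * τ t)).sum with hc
    have hlg : LG (fun g : ℝ => z + Real.sqrt (τ a) * g + c) := by
      refine ⟨by fun_prop, |z| + |c|, |Real.sqrt (τ a)|, fun x => ?_⟩
      calc |z + Real.sqrt (τ a) * x + c| ≤ |z + Real.sqrt (τ a) * x| + |c| := abs_add_le _ _
        _ ≤ |z| + |Real.sqrt (τ a) * x| + |c| := by gcongr; exact abs_add_le _ _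
        _ = _ := by rw [abs_mul]; ring
    have h2 : lem a (fun g => z + Real.sqrt (τ a) * g + c) ≤
        lem a (fun g => LRec τ L (z + Real.sqrt (τ a) * g)) := by
      refine lem_mono (hL a (by simp)) hlg (hsf.lg.aff z _) fun g => ?_
      have := ih hL' hτ' (z + Real.sqrt (τ a) * g)
      rw [hc]; linarith
    refine le_trans (le_of_eq ?_) h2
    rw [lem_affine, Real.sq_sqrt (hτ a (by simp)), hc, List.map_cons, List.sum_cons]
    ring

/-- positions in `[0,1)` -/
def Pos (S : Finset ℝ) : Prop := ∀ t ∈ S, 0 ≤ t ∧ t < 1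

theorem sum_sort (S : Finset ℝ) (f : ℝ → ℝ) : ((S.sort (· ≤ ·)).map f).sum = ∑ t ∈ S, f t := by
  rw [← List.sum_toFinset f (Finset.sort_nodup S (· ≤ ·)), Finset.sort_toFinset]

theorem FRec_SF {S : Finset ℝ} (hS : Pos S) (τ : ℝ → ℝ) : SF (FRec S τ) :=
  LRec_SF fun t ht => (hS t ((Finset.mem_sort (· ≤ ·)).mp ht)).1

theorem FVal_SF {S : Finset ℝ} (hS : Pos S) (τ : ℝ → ℝ) : SF (FVal S τ) := by
  have := (FRec_SF hS τ).add_const (-((1 / 2) * ∑ t ∈ S, τ t))
  exact this

theorem FVal_le_lch {S : Finset ℝ} (hS : Pos S) {τ : ℝ → ℝ} (hτ : ∀ t ∈ S, 0 ≤ τ t) (b : ℝ) :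
    FVal S τ b ≤ lch b := by
  unfold FVal FRec
  have h := LRec_le (τ := τ) (L := S.sort (· ≤ ·))
    (fun t ht => ⟨(hS t ((Finset.mem_sort (· ≤ ·)).mp ht)).1,
      (hS t ((Finset.mem_sort (· ≤ ·)).mp ht)).2.le⟩)
    (fun t ht => hτ t ((Finset.mem_sort (· ≤ ·)).mp ht)) b
  rw [sum_sort] at h
  linarith

theorem le_FVal {S : Finset ℝ} (hS : Pos S) {τ : ℝ → ℝ} (hτ : ∀ t ∈ S, 0 ≤ τ t) (b : ℝ) :
    |b| - Real.log 2 - (1 / 2) * ∑ t ∈ S, (1 - t) * τ t ≤ FVal S τ b := by
  have key : ∀ b : ℝ, b - Real.log 2 - (1 / 2) * ∑ t ∈ S, (1 - t) * τ t ≤ FVal S τ b := by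
    intro b
    unfold FVal FRec
    have h := le_LRec (τ := τ) (L := S.sort (· ≤ ·))
      (fun t ht => (hS t ((Finset.mem_sort (· ≤ ·)).mp ht)).1)
      (fun t ht => hτ t ((Finset.mem_sort (· ≤ ·)).mp ht)) b
    rw [sum_sort] at h
    have e : ∑ t ∈ S, (1 - t) * τ t = ∑ t ∈ S, τ t - ∑ t ∈ S, t * τ t := by
      rw [← Finset.sum_sub_distrib]
      exact Finset.sum_congr rfl fun t _ => by ring
    rw [e]; linarith
  rcases le_total 0 b with h | h
  · rw [abs_of_nonneg h]; exact key b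
  · rw [abs_of_nonpos h, ← (FVal_SF hS τ).even]; exact key (-b)

theorem FLeg_bdd {S : Finset ℝ} (hS : Pos S) {τ : ℝ → ℝ} (hτ : ∀ t ∈ S, 0 ≤ τ t) {m : ℝ}
    (hm : |m| ≤ 1) : BddBelow (Set.range fun b : ℝ => FVal S τ b - b * m) := by
  refine ⟨- Real.log 2 - (1 / 2) * ∑ t ∈ S, (1 - t) * τ t, ?_⟩
  rintro _ ⟨b, rfl⟩
  have h := le_FVal hS hτ b
  have h2 : b * m ≤ |b| := by
    calc b * m ≤ |b * m| := le_abs_self _
      _ = |b| * |m| := abs_mul _ _
      _ ≤ |b| * 1 := mul_le_mul_of_nonneg_left hm (abs_nonneg _)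
      _ = |b| := mul_one _
  simp only
  linarith

theorem FLeg_le {S : Finset ℝ} (hS : Pos S) {τ : ℝ → ℝ} (hτ : ∀ t ∈ S, 0 ≤ τ t) {m : ℝ}
    (hm : |m| ≤ 1) (b : ℝ) : FLeg S τ m ≤ FVal S τ b - b * m :=
  ciInf_le (FLeg_bdd hS hτ hm) b

theorem FLeg_le_zero {S : Finset ℝ} (hS : Pos S) {τ : ℝ → ℝ} (hτ : ∀ t ∈ S, 0 ≤ τ t) {m : ℝ}
    (hm : |m| ≤ 1) : FLeg S τ m ≤ 0 := by
  have h := FLeg_le hS hτ hm 0
  have h2 := FVal_le_lch hS hτ 0
  have h3 : lch 0 = 0 := by simp [lch]
  rw [h3] at h2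
  linarith

theorem FLeg_zero {S : Finset ℝ} (hS : Pos S) {τ : ℝ → ℝ} (hτ : ∀ t ∈ S, 0 ≤ τ t) :
    FLeg S τ 0 = FVal S τ 0 := by
  refine le_antisymm ?_ ?_
  · have := FLeg_le hS hτ (m := 0) (by simp) 0
    simpa using this
  · refine le_ciInf fun b => ?_
    have := (FVal_SF hS τ).zero_le b
    simpa using this

theorem le_FLeg {S : Finset ℝ} (hS : Pos S) {τ : ℝ → ℝ} (hτ : ∀ t ∈ S, 0 ≤ τ t) {m : ℝ}
    (hm : |m| ≤ 1) : - Real.log 2 - (1 / 2) * ∑ t ∈ S, (1 - t) * τ t ≤ FLeg S τ m := by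
  refine le_ciInf fun b => ?_
  have h := le_FVal hS hτ b
  have h2 : b * m ≤ |b| := by
    calc b * m ≤ |b * m| := le_abs_self _
      _ = |b| * |m| := abs_mul _ _
      _ ≤ |b| * 1 := mul_le_mul_of_nonneg_left hm (abs_nonneg _)
      _ = |b| := mul_one _
  linarith


/-! ### Link with `fieldValueAt` -/

theorem sort_image {k : ℕ} {f : Fin k → ℝ} (hf : StrictMono f) :
    (Finset.univ.image f).sort (· ≤ ·) = (List.finRange k).map f := by
  have h1 : ((List.finRange k).map f).Nodup := (List.nodup_finRange k).map hf.injective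
  have h2 : ((List.finRange k).map f).Pairwise (· ≤ ·) := by
    rw [List.pairwise_map]
    exact (List.pairwise_le_finRange k).imp fun h => hf.monotone h
  have h3 := (List.toFinset_sort (· ≤ ·) h1).mpr h2
  rw [← h3]
  congr 1

theorem leftEnd_strictMono {k : ℕ} {w : Fin k → ℝ} (hw : ∀ i, 0 < w i) : StrictMono (leftEnd w) := by
  intro i j hij
  unfold leftEnd
  refine Finset.sum_lt_sum (fun l _ => ?_) ⟨i, Finset.mem_univ _, ?_⟩
  · by_cases h : l < i
    · rw [if_pos h, if_pos (h.trans hij)]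
    · rw [if_neg h]; split_ifs
      · exact (hw l).le
      · exact le_refl _
  · rw [if_neg (lt_irrefl i), if_pos hij]; exact hw i

theorem leftEnd_nonneg {k : ℕ} {w : Fin k → ℝ} (hw : ∀ i, 0 < w i) (i : Fin k) : 0 ≤ leftEnd w i := by
  unfold leftEnd
  refine Finset.sum_nonneg fun l _ => ?_
  split_ifs
  · exact (hw l).le
  · exact le_refl _

theorem leftEnd_add_le {k : ℕ} {w : Fin k → ℝ} (hw : ∀ i, 0 < w i) (i : Fin k) :
    leftEnd w i + w i ≤ ∑ l, w l := by
  unfold leftEnd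
  have : w i = ∑ l, if l = i then w l else 0 := by simp
  rw [this, ← Finset.sum_add_distrib]
  refine Finset.sum_le_sum fun l _ => ?_
  by_cases h1 : l < i
  · rw [if_pos h1, if_neg h1.ne]; simp
  · rw [if_neg h1]
    by_cases h2 : l = i
    · rw [if_pos h2]; simp
    · rw [if_neg h2]; simp [(hw l).le]

/-- positions of a step field -/
noncomputable def fS {k : ℕ} (w : Fin k → ℝ) : Finset ℝ := Finset.univ.image (leftEnd w)

/-- jumps of a step field -/
noncomputable def fτ {k : ℕ} (w hv : Fin k → ℝ) (t : ℝ) : ℝ :=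
  ∑ i, if leftEnd w i = t then increment hv i else 0

theorem fτ_leftEnd {k : ℕ} {w : Fin k → ℝ} (hw : ∀ i, 0 < w i) (hv : Fin k → ℝ) (i : Fin k) :
    fτ w hv (leftEnd w i) = increment hv i := by
  unfold fτ
  have hinj := (leftEnd_strictMono hw).injective
  rw [Finset.sum_eq_single i]
  · simp
  · intro j _ hj
    rw [if_neg fun h => hj (hinj h)]
  · simp

theorem sum_fS {k : ℕ} {w : Fin k → ℝ} (hw : ∀ i, 0 < w i) (F : ℝ → ℝ) :
    ∑ t ∈ fS w, F t = ∑ i, F (leftEnd w i) := by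
  unfold fS
  rw [Finset.sum_image fun i _ j _ h => (leftEnd_strictMono hw).injective h]

theorem increment_zero {k : ℕ} (hv : Fin (k + 1) → ℝ) : increment hv 0 = hv 0 := by
  unfold increment
  simp

theorem increment_succ {k : ℕ} (hv : Fin (k + 1) → ℝ) (i : Fin k) :
    increment hv i.succ = hv i.succ - hv i.castSucc := by
  unfold increment
  congr 1
  rw [Finset.sum_eq_single i.castSucc]
  · simp
  · intro j _ hj
    rw [if_neg]
    intro h
    apply hj
    ext
    simp at h ⊢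
    omega
  · simp

theorem increment_nonneg {k : ℕ} {w hv : Fin k → ℝ} (h : IsStepField w hv) (i : Fin k) :
    0 ≤ increment hv i := by
  obtain ⟨hk, -, -, hm, h0⟩ := h
  cases k with
  | zero => exact i.elim0
  | succ k =>
    refine Fin.cases ?_ (fun i => ?_) i
    · rw [increment_zero]; exact h0 0
    · rw [increment_succ]
      have := hm (Fin.castSucc_lt_succ (i := i)).le
      linarith

/-- partial sums of the increments -/
theorem sum_increment {k : ℕ} (hv : Fin k → ℝ) (i : Fin k) :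
    ∑ j, (if j ≤ i then increment hv j else 0) = hv i := by
  cases k with
  | zero => exact i.elim0
  | succ k =>
    rw [Fin.sum_univ_succ, increment_zero, if_pos (Fin.zero_le i)]
    obtain ⟨n, hn⟩ := i
    induction n with
    | zero =>
      have : ∀ j : Fin k, ¬ (j.succ ≤ (⟨0, hn⟩ : Fin (k+1))) := fun j h => by
        simp at h
      simp
    | succ n ih =>
      have ih' := ih (by omega)
      have e : ∑ j : Fin k, (if j.succ ≤ (⟨n + 1, hn⟩ : Fin (k+1)) then increment hv j.succ else 0) =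
          ∑ j : Fin k, (if j.succ ≤ (⟨n, by omega⟩ : Fin (k+1)) then increment hv j.succ else 0) +
          ∑ j : Fin k, (if j = ⟨n, by omega⟩ then increment hv j.succ else 0) := by
        rw [← Finset.sum_add_distrib]
        refine Finset.sum_congr rfl fun j _ => ?_
        simp only [Fin.le_def, Fin.val_succ, Fin.ext_iff]
        by_cases h1 : (j : ℕ) + 1 ≤ n
        · rw [if_pos (by omega), if_pos h1, if_neg (by omega)]; ring
        · by_cases h2 : (j : ℕ) = n
          · rw [if_pos (by omega), if_neg h1, if_pos h2]; ring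
          · rw [if_neg (by omega), if_neg h1, if_neg h2]; ring
      rw [e, ← add_assoc, ih', Finset.sum_ite_eq' Finset.univ]
      simp only [Finset.mem_univ, if_true]
      rw [increment_succ]
      have e1 : (⟨n, by omega⟩ : Fin k).succ = (⟨n + 1, hn⟩ : Fin (k+1)) := rfl
      have e2 : (⟨n, by omega⟩ : Fin k).castSucc = (⟨n, by omega⟩ : Fin (k+1)) := rfl
      rw [e1, e2]; ring

theorem sum_increment_all {k : ℕ} (hv : Fin k → ℝ) :
    ∑ j, increment hv j = ∑ l : Fin k, if l.val + 1 = k then hv l else 0 := by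
  cases k with
  | zero => simp
  | succ k =>
    have h := sum_increment hv (Fin.last k)
    have e : ∑ j, (if j ≤ Fin.last k then increment hv j else 0) = ∑ j, increment hv j :=
      Finset.sum_congr rfl fun j _ => if_pos (Fin.le_last j)
    rw [e] at h
    rw [h, Finset.sum_eq_single (Fin.last k)]
    · simp
    · intro j _ hj
      rw [if_neg]
      intro h
      apply hj
      ext
      simp at h ⊢
      omega
    · simp

theorem fS_pos {k : ℕ} {w hv : Fin k → ℝ} (h : IsStepField w hv) : Pos (fS w) := by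
  intro t ht
  simp only [fS, Finset.mem_image, Finset.mem_univ, true_and] at ht
  obtain ⟨i, rfl⟩ := ht
  refine ⟨leftEnd_nonneg h.2.1 i, ?_⟩
  have h1 := leftEnd_add_le h.2.1 i
  have h2 := h.2.1 i
  rw [h.2.2.1] at h1
  linarith

theorem fτ_nonneg {k : ℕ} {w hv : Fin k → ℝ} (h : IsStepField w hv) (t : ℝ) : 0 ≤ fτ w hv t := by
  unfold fτ
  refine Finset.sum_nonneg fun i _ => ?_
  split_ifs
  · exact increment_nonneg h i
  · exact le_refl _

theorem fieldValueAt_eq_FVal {k : ℕ} {w hv : Fin k → ℝ} (hw : ∀ i, 0 < w i) (b : ℝ) :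
    fieldValueAt b w hv = FVal (fS w) (fτ w hv) b := by
  unfold fieldValueAt FVal FRec
  rw [sum_fS hw]
  simp only [fτ_leftEnd hw]
  rw [sum_increment_all]
  have e : LRec (fτ w hv) ((fS w).sort (· ≤ ·)) =
      (List.finRange k).foldr (fun i acc => gaussOp (leftEnd w i) (increment hv i) acc)
      (fun z => Real.log (Real.cosh z)) := by
    unfold fS
    rw [sort_image (leftEnd_strictMono hw)]
    unfold LRec
    rw [List.foldr_map]
    simp only [fτ_leftEnd hw]
    rfl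
  rw [e]
  ring


theorem leftEnd_add_le_of_lt {k : ℕ} {w : Fin k → ℝ} (hw : ∀ i, 0 < w i) {i j : Fin k} (h : i < j) :
    leftEnd w i + w i ≤ leftEnd w j := by
  unfold leftEnd
  have : w i = ∑ l, if l = i then w l else 0 := by simp
  rw [this, ← Finset.sum_add_distrib]
  refine Finset.sum_le_sum fun l _ => ?_
  by_cases h1 : l < i
  · rw [if_pos h1, if_neg h1.ne, if_pos (h1.trans h)]; simp
  · rw [if_neg h1]
    by_cases h2 : l = i
    · rw [if_pos h2, h2, if_pos h]; simp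
    · rw [if_neg h2]; split_ifs <;> simp [(hw l).le]

theorem leftEnd_succ {k : ℕ} (w : Fin (k + 1) → ℝ) (i : Fin k) :
    leftEnd w i.succ = leftEnd w i.castSucc + w i.castSucc := by
  unfold leftEnd
  have : w i.castSucc = ∑ l, if l = i.castSucc then w l else 0 := by simp
  rw [this, ← Finset.sum_add_distrib]
  refine Finset.sum_congr rfl fun l _ => ?_
  simp only [Fin.lt_def, Fin.ext_iff, Fin.val_succ, Fin.val_castSucc]
  by_cases h1 : (l : ℕ) < i
  · rw [if_pos (by omega), if_pos h1, if_neg (by omega)]; ring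
  · by_cases h2 : (l : ℕ) = i
    · rw [if_pos (by omega), if_neg h1, if_pos h2]; ring
    · rw [if_neg (by omega), if_neg h1, if_neg h2]; ring

theorem leftEnd_last {k : ℕ} (w : Fin (k + 1) → ℝ) :
    leftEnd w (Fin.last k) + w (Fin.last k) = ∑ l, w l := by
  unfold leftEnd
  have : w (Fin.last k) = ∑ l, if l = Fin.last k then w l else 0 := by simp
  rw [this, ← Finset.sum_add_distrib]
  refine Finset.sum_congr rfl fun l _ => ?_
  by_cases h1 : l = Fin.last k
  · rw [if_pos h1, h1, if_neg (lt_irrefl _)]; ring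
  · rw [if_neg h1, if_pos (lt_of_le_of_ne (Fin.le_last l) h1)]; ring

theorem leftEnd_zero {k : ℕ} (w : Fin (k + 1) → ℝ) : leftEnd w 0 = 0 := by
  unfold leftEnd
  exact Finset.sum_eq_zero fun l _ => if_neg (Fin.not_lt_zero l)

/-- the block containing `u` -/
theorem exists_step_block {k : ℕ} {w : Fin k → ℝ} (hk : 0 < k) (hs : ∑ i, w i = 1)
    {u : ℝ} (hu : u ∈ Set.Ioo (0:ℝ) 1) : ∃ i, leftEnd w i < u ∧ u ≤ leftEnd w i + w i := by
  obtain ⟨n, rfl⟩ : ∃ n, k = n + 1 := ⟨k - 1, by omega⟩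
  have hne : (Finset.univ.filter (fun i : Fin (n + 1) => leftEnd w i < u)).Nonempty :=
    ⟨0, by simp [leftEnd_zero, hu.1]⟩
  set I := (Finset.univ.filter (fun i : Fin (n + 1) => leftEnd w i < u)).max' hne with hI
  have hI1 : leftEnd w I < u := by
    have := Finset.max'_mem _ hne
    rw [← hI] at this
    simpa using this
  refine ⟨I, hI1, ?_⟩
  by_cases hl : I = Fin.last n
  · rw [hl, leftEnd_last, hs]; exact hu.2.le
  · obtain ⟨j, hj⟩ : ∃ j : Fin n, I = j.castSucc :=
      ⟨I.castPred hl, (Fin.castSucc_castPred I hl).symm⟩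
    rw [hj, ← leftEnd_succ]
    by_contra hc
    push Not at hc
    have hm : j.succ ∈ Finset.univ.filter (fun i : Fin (n + 1) => leftEnd w i < u) := by simp [hc]
    have := Finset.le_max' _ _ hm
    rw [← hI, hj] at this
    exact absurd this (not_le.mpr Fin.castSucc_lt_succ)

theorem stepFn_eq_FH {k : ℕ} {w hv : Fin k → ℝ} (h : IsStepField w hv) {u : ℝ} (hu : u ∈ Set.Ioo (0:ℝ) 1) :
    stepFn w hv u = FH (fS w) (fτ w hv) u := by
  unfold FH
  rw [sum_fS h.2.1]
  simp only [fτ_leftEnd h.2.1]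
  unfold stepFn
  obtain ⟨I, hI1, hI2⟩ := exists_step_block h.1 h.2.2.1 hu
  have hlt : ∀ i, leftEnd w i < u ↔ i ≤ I := by
    intro i
    constructor
    · intro hi
      by_contra hc
      push Not at hc
      have := leftEnd_add_le_of_lt h.2.1 hc
      linarith
    · intro hi
      exact lt_of_le_of_lt ((leftEnd_strictMono h.2.1).monotone hi) hI1
  have e1 : ∑ i, (if leftEnd w i < u ∧ u ≤ leftEnd w i + w i then hv i else 0) = hv I := by
    rw [Finset.sum_eq_single I]
    · rw [if_pos ⟨hI1, hI2⟩]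
    · intro j _ hj
      rw [if_neg]
      rintro ⟨h1, h2⟩
      rw [hlt] at h1
      have h3 : j < I := lt_of_le_of_ne h1 hj
      have := leftEnd_add_le_of_lt h.2.1 h3
      linarith
    · simp
  rw [e1, ← sum_increment hv I]
  exact Finset.sum_congr rfl fun i _ => by simp only [hlt]

end Crest.Agent.RI
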