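import Crest.Agent.RI.Site

/-!
# Row 164, evaluation of the configuration tower (`siteA`)  (helper50)

`nest ((gvec N).prod A)` of the main field alone is an iterated Gaussian smoothing of
`leafF A z = log ∫ exp (Σ z_a σ_a) dA`; for the uniform law it is a sum of one-site values.
-/

set_option autoImplicit false

namespace Crest.Agent.RI.FN

open MeasureTheory ProbabilityTheory
open Crest.ProbabilityR.InvariantGlass
open Crest.Agent.RI

instance {N : ℕ} : IsProbabilityMeasure (gvec N) := by unfold gvec; infer_instance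

/-! ### One-level functional on a probability space -/

section TT

variable {E : Type*} [MeasurableSpace E] {m : Measure E} [IsProbabilityMeasure m]

theorem TT_mono {ζ : ℝ} (hζ : 0 ≤ ζ) {f f' : E → ℝ}
    (hf : Integrable f m) (hf' : Integrable f' m)
    (he : Integrable (fun e => Real.exp (ζ * f e)) m)
    (he' : Integrable (fun e => Real.exp (ζ * f' e)) m)
    (h : ∀ e, f e ≤ f' e) : TT m ζ f ≤ TT m ζ f' := by
  unfold TT
  split_ifs with h0
  · exact integral_mono hf hf' h
  · have hpos : 0 < ζ := lt_of_le_of_ne hζ (Ne.symm h0)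
    apply mul_le_mul_of_nonneg_left _ (inv_nonneg.2 hζ)
    apply Real.log_le_log
    · exact integral_exp_pos he
    · exact integral_mono he he' (fun e => Real.exp_le_exp.2 (mul_le_mul_of_nonneg_left (h e) hζ))

theorem TT_add_const {ζ : ℝ} {f : E → ℝ}
    (hf : Integrable f m) (he : Integrable (fun e => Real.exp (ζ * f e)) m) (c : ℝ) :
    TT m ζ (fun e => f e + c) = TT m ζ f + c := by
  unfold TT
  split_ifs with h0
  · rw [integral_add hf (integrable_const c)]
    simp
  · have h1 : ∀ e, Real.exp (ζ * (f e + c)) = Real.exp (ζ * f e) * Real.exp (ζ * c) := by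
      intro e; rw [← Real.exp_add]; ring_nf
    simp only [h1]
    rw [integral_mul_const, Real.log_mul (integral_exp_pos he).ne' (Real.exp_pos _).ne',
      Real.log_exp]
    field_simp

end TT

/-! ### ℓ¹-Lipschitz functions -/

/-- `1`-Lipschitz for the `ℓ¹` norm. -/
def FLip {N : ℕ} (F : (Fin N → ℝ) → ℝ) : Prop := ∀ z z', F z ≤ F z' + ∑ a, |z a - z' a|

theorem FLip.abs {N : ℕ} {F : (Fin N → ℝ) → ℝ} (hF : FLip F) (z z' : Fin N → ℝ) :
    |F z - F z'| ≤ ∑ a, |z a - z' a| := by
  rw [abs_le]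
  have h1 := hF z z'
  have h2 := hF z' z
  have h3 : ∑ a, |z' a - z a| = ∑ a, |z a - z' a| := by
    apply Finset.sum_congr rfl; intro a _; exact abs_sub_comm _ _
  constructor <;> linarith

theorem FLip.continuous {N : ℕ} {F : (Fin N → ℝ) → ℝ} (hF : FLip F) : Continuous F := by
  have : LipschitzWith N F := by
    apply LipschitzWith.of_dist_le_mul
    intro z z'
    rw [Real.dist_eq]
    refine (hF.abs z z').trans ?_
    calc ∑ a, |z a - z' a| ≤ ∑ _a : Fin N, dist z z' := by
          apply Finset.sum_le_sum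
          intro a _
          rw [← Real.dist_eq]
          exact dist_le_pi_dist z z' a
      _ = (N : ℝ) * dist z z' := by simp
      _ = _ := by simp
  exact this.continuous

/-- One-dimensional exponential moment. -/
theorem integrable_exp_abs (c : ℝ) :
    Integrable (fun x : ℝ => Real.exp (c * |x|)) (gaussianReal 0 1) := by
  have h1 := integrable_exp_mul_gaussianReal (μ := 0) (v := 1) c
  have h2 := integrable_exp_mul_gaussianReal (μ := 0) (v := 1) (-c)
  refine (h1.add h2).mono' (by fun_prop) ?_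
  refine Filter.Eventually.of_forall (fun x => ?_)
  rw [Real.norm_eq_abs, abs_of_pos (Real.exp_pos _)]
  simp only [Pi.add_apply]
  rcases abs_cases x with ⟨h, _⟩ | ⟨h, _⟩
  · rw [h]; linarith [Real.exp_pos (-c * x)]
  · rw [h, mul_neg, ← neg_mul]; linarith [Real.exp_pos (c * x)]

theorem integrable_exp_sum {N : ℕ} (c : ℝ) :
    Integrable (fun g : Fin N → ℝ => Real.exp (c * ∑ a, |g a|)) (gvec N) := by
  have h : (fun g : Fin N → ℝ => Real.exp (c * ∑ a, |g a|)) =
      fun g => ∏ a, (fun (x : ℝ) => Real.exp (c * |x|)) (g a) := by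
    funext g
    rw [Finset.mul_sum, Real.exp_sum]
  rw [h]
  unfold gvec
  exact Integrable.fintype_prod (f := fun _ (x : ℝ) => Real.exp (c * |x|))
    (fun _ => integrable_exp_abs c)

theorem FLip.bound {N : ℕ} {F : (Fin N → ℝ) → ℝ} (hF : FLip F) (z g : Fin N → ℝ) (s : ℝ) :
    |F (fun a => z a + s * g a)| ≤ |F z| + |s| * ∑ a, |g a| := by
  have h := hF.abs (fun a => z a + s * g a) z
  have h2 : ∑ a, |(z a + s * g a) - z a| = |s| * ∑ a, |g a| := by
    rw [Finset.mul_sum]
    apply Finset.sum_congr rfl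
    intro a _
    rw [add_sub_cancel_left, abs_mul]
  have h3 : |F (fun a => z a + s * g a)| - |F z| ≤ |F (fun a => z a + s * g a) - F z| :=
    abs_sub_abs_le_abs_sub _ _
  linarith

theorem FLip.integrable_exp {N : ℕ} {F : (Fin N → ℝ) → ℝ} (hF : FLip F) (ζ s : ℝ)
    (z : Fin N → ℝ) :
    Integrable (fun g => Real.exp (ζ * F (fun a => z a + s * g a))) (gvec N) := by
  have hc := hF.continuous
  refine ((integrable_exp_sum (N := N) (|ζ| * |s|)).const_mul (Real.exp (|ζ| * |F z|))).mono'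
    (Continuous.aestronglyMeasurable (by fun_prop)) ?_
  refine Filter.Eventually.of_forall (fun g => ?_)
  rw [Real.norm_eq_abs, abs_of_pos (Real.exp_pos _), ← Real.exp_add, Real.exp_le_exp]
  have h := hF.bound z g s
  calc ζ * F (fun a => z a + s * g a) ≤ |ζ * F (fun a => z a + s * g a)| := le_abs_self _
    _ = |ζ| * |F (fun a => z a + s * g a)| := abs_mul _ _
    _ ≤ |ζ| * (|F z| + |s| * ∑ a, |g a|) := mul_le_mul_of_nonneg_left h (abs_nonneg _)
    _ = _ := by ring

theorem FLip.integrable {N : ℕ} {F : (Fin N → ℝ) → ℝ} (hF : FLip F) (s : ℝ)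
    (z : Fin N → ℝ) :
    Integrable (fun g => F (fun a => z a + s * g a)) (gvec N) := by
  have hc := hF.continuous
  refine ((integrable_exp_sum (N := N) |s|).const_mul (Real.exp |F z|)).mono'
    (Continuous.aestronglyMeasurable (by fun_prop)) ?_
  refine Filter.Eventually.of_forall (fun g => ?_)
  rw [Real.norm_eq_abs, ← Real.exp_add]
  have h := hF.bound z g s
  refine h.trans ?_
  have := Real.add_one_le_exp (|F z| + |s| * ∑ a, |g a|)
  linarith

/-- Gaussian smoothing on `ℝ^N`. -/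
noncomputable def GV {N : ℕ} (ζ v : ℝ) (F : (Fin N → ℝ) → ℝ) (z : Fin N → ℝ) : ℝ :=
  TT (gvec N) ζ (fun g => F (fun a => z a + Real.sqrt v * g a))

theorem GV_mono {N : ℕ} {ζ : ℝ} (hζ : 0 ≤ ζ) (v : ℝ) {F F' : (Fin N → ℝ) → ℝ}
    (hF : FLip F) (hF' : FLip F') (h : ∀ z, F z ≤ F' z) (z : Fin N → ℝ) :
    GV ζ v F z ≤ GV ζ v F' z :=
  TT_mono hζ (hF.integrable _ z) (hF'.integrable _ z) (hF.integrable_exp ζ _ z)
    (hF'.integrable_exp ζ _ z) (fun _ => h _)

theorem GV_lip {N : ℕ} {ζ : ℝ} (hζ : 0 ≤ ζ) (v : ℝ) {F : (Fin N → ℝ) → ℝ} (hF : FLip F) :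
    FLip (GV ζ v F) := by
  intro z z'
  have hi := hF.integrable (Real.sqrt v) z'
  have he := hF.integrable_exp ζ (Real.sqrt v) z'
  rw [GV, GV, ← TT_add_const hi he]
  apply TT_mono hζ (hF.integrable _ z) (hi.add (integrable_const _)) (hF.integrable_exp ζ _ z)
  · refine (he.mul_const (Real.exp (ζ * ∑ a, |z a - z' a|))).congr
      (Filter.Eventually.of_forall fun g => ?_)
    change _ = Real.exp (ζ * (F (fun a => z' a + Real.sqrt v * g a) + ∑ a, |z a - z' a|))
    rw [mul_add, Real.exp_add]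
  · intro g
    have h := hF (fun a => z a + Real.sqrt v * g a) (fun a => z' a + Real.sqrt v * g a)
    simpa using h

theorem GV_add_const {N : ℕ} {ζ : ℝ} (v : ℝ) {F : (Fin N → ℝ) → ℝ} (hF : FLip F) (c : ℝ)
    (z : Fin N → ℝ) : GV ζ v (fun z => F z + c) z = GV ζ v F z + c :=
  TT_add_const (hF.integrable _ z) (hF.integrable_exp ζ _ z) c

/-! ### Product functions -/

/-- `1`-Lipschitz on `ℝ`. -/
def Lip1 (f : ℝ → ℝ) : Prop := ∀ x y, f x ≤ f y + |x - y|

theorem flip_sum {N : ℕ} {f : Fin N → ℝ → ℝ} (hf : ∀ a, Lip1 (f a)) :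
    FLip (fun z : Fin N → ℝ => ∑ a, f a (z a)) := by
  intro z z'
  rw [← Finset.sum_add_distrib]
  exact Finset.sum_le_sum (fun a _ => hf a _ _)

theorem Lip1.continuous {f : ℝ → ℝ} (hf : Lip1 f) : Continuous f := by
  have : LipschitzWith 1 f := by
    apply LipschitzWith.of_dist_le_mul
    intro x y
    rw [Real.dist_eq, Real.dist_eq, NNReal.coe_one, one_mul, abs_le]
    have h1 := hf x y
    have h2 := hf y x
    rw [abs_sub_comm y x] at h2
    constructor <;> linarith
  exact this.continuous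

theorem Lip1.bound {f : ℝ → ℝ} (hf : Lip1 f) (x s g : ℝ) :
    |f (x + s * g)| ≤ |f x| + |s| * |g| := by
  have h1 := hf (x + s * g) x
  have h2 := hf x (x + s * g)
  have h3 : |x + s * g - x| = |s| * |g| := by rw [add_sub_cancel_left, abs_mul]
  have h4 : |x - (x + s * g)| = |s| * |g| := by
    rw [show x - (x + s * g) = -(s * g) by ring, abs_neg, abs_mul]
  rw [h3] at h1
  rw [h4] at h2
  have h5 := abs_le.1 (le_refl |f x|)
  rw [abs_le]
  constructor <;> linarith [h5.1, h5.2]

theorem Lip1.integrable_exp {f : ℝ → ℝ} (hf : Lip1 f) (ζ s x : ℝ) :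
    Integrable (fun g => Real.exp (ζ * f (x + s * g))) (gaussianReal 0 1) := by
  have hc := hf.continuous
  refine ((integrable_exp_abs (|ζ| * |s|)).const_mul (Real.exp (|ζ| * |f x|))).mono'
    (Continuous.aestronglyMeasurable (by fun_prop)) ?_
  refine Filter.Eventually.of_forall (fun g => ?_)
  rw [Real.norm_eq_abs, abs_of_pos (Real.exp_pos _), ← Real.exp_add, Real.exp_le_exp]
  have h := hf.bound x s g
  calc ζ * f (x + s * g) ≤ |ζ * f (x + s * g)| := le_abs_self _
    _ = |ζ| * |f (x + s * g)| := abs_mul _ _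
    _ ≤ |ζ| * (|f x| + |s| * |g|) := mul_le_mul_of_nonneg_left h (abs_nonneg _)
    _ = _ := by ring

theorem Lip1.integrable {f : ℝ → ℝ} (hf : Lip1 f) (s x : ℝ) :
    Integrable (fun g => f (x + s * g)) (gaussianReal 0 1) := by
  have hc := hf.continuous
  refine ((integrable_exp_abs |s|).const_mul (Real.exp |f x|)).mono'
    (Continuous.aestronglyMeasurable (by fun_prop)) ?_
  refine Filter.Eventually.of_forall (fun g => ?_)
  rw [Real.norm_eq_abs, ← Real.exp_add]
  have h := hf.bound x s g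
  refine h.trans ?_
  have := Real.add_one_le_exp (|f x| + |s| * |g|)
  linarith

theorem gaussOp_eq_TT (a v : ℝ) (f : ℝ → ℝ) (z : ℝ) :
    gaussOp a v f z = TT (gaussianReal 0 1) a (fun g => f (z + Real.sqrt v * g)) := rfl

theorem Lip1.gaussOp {f : ℝ → ℝ} (hf : Lip1 f) {ζ : ℝ} (hζ : 0 ≤ ζ) (v : ℝ) :
    Lip1 (gaussOp ζ v f) := by
  intro x y
  have hi := hf.integrable (Real.sqrt v) y
  have he := hf.integrable_exp ζ (Real.sqrt v) y
  rw [gaussOp_eq_TT, gaussOp_eq_TT, ← TT_add_const hi he]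
  apply TT_mono hζ (hf.integrable _ x) (hi.add (integrable_const _)) (hf.integrable_exp ζ _ x)
  · refine (he.mul_const (Real.exp (ζ * |x - y|))).congr
      (Filter.Eventually.of_forall fun g => ?_)
    change _ = Real.exp (ζ * (f (y + Real.sqrt v * g) + |x - y|))
    rw [mul_add, Real.exp_add]
  · intro g
    have h := hf (x + Real.sqrt v * g) (y + Real.sqrt v * g)
    simpa using h

theorem gaussOp_mono {f f' : ℝ → ℝ} (hf : Lip1 f) (hf' : Lip1 f') {ζ : ℝ} (hζ : 0 ≤ ζ) (v : ℝ)
    (h : ∀ x, f x ≤ f' x) (x : ℝ) : gaussOp ζ v f x ≤ gaussOp ζ v f' x :=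
  TT_mono hζ (hf.integrable _ x) (hf'.integrable _ x) (hf.integrable_exp ζ _ x)
    (hf'.integrable_exp ζ _ x) (fun _ => h _)

theorem gaussOp_add_const {f : ℝ → ℝ} (hf : Lip1 f) (ζ v c x : ℝ) :
    gaussOp ζ v (fun x => f x + c) x = gaussOp ζ v f x + c :=
  TT_add_const (hf.integrable _ x) (hf.integrable_exp ζ _ x) c

theorem GV_sum {N : ℕ} (ζ v : ℝ) {f : Fin N → ℝ → ℝ} (hf : ∀ a, Lip1 (f a))
    (z : Fin N → ℝ) :
    GV ζ v (fun z : Fin N → ℝ => ∑ a, f a (z a)) z = ∑ a, gaussOp ζ v (f a) (z a) := by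
  unfold GV gaussOp TT
  split_ifs with h0
  · rw [integral_finsetSum]
    · apply Finset.sum_congr rfl
      intro a _
      have : MeasurePreserving (Function.eval a) (gvec N) (gaussianReal 0 1) := by
        unfold gvec
        exact measurePreserving_eval (fun _ : Fin N => gaussianReal 0 1) a
      have hc := (hf a).continuous
      rw [← this.map_eq, integral_map this.measurable.aemeasurable
        (Continuous.aestronglyMeasurable (by fun_prop))]
    · intro a _
      have : MeasurePreserving (Function.eval a) (gvec N) (gaussianReal 0 1) := by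
        unfold gvec
        exact measurePreserving_eval (fun _ : Fin N => gaussianReal 0 1) a
      have := this.integrable_comp_of_integrable ((hf a).integrable (Real.sqrt v) (z a))
      exact this
  · have h1 : ∀ g : Fin N → ℝ, Real.exp (ζ * ∑ a, f a (z a + Real.sqrt v * g a)) =
        ∏ a, (fun (a : Fin N) (x : ℝ) => Real.exp (ζ * f a (z a + Real.sqrt v * x))) a (g a) := by
      intro g
      rw [Finset.mul_sum, Real.exp_sum]
    simp only [h1]
    unfold gvec
    rw [integral_fintype_prod_eq_prod (𝕜 := ℝ)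
      (f := fun (a : Fin N) (x : ℝ) => Real.exp (ζ * f a (z a + Real.sqrt v * x))),
      Real.log_prod, Finset.mul_sum]
    intro a _
    exact (integral_exp_pos ((hf a).integrable_exp ζ _ _)).ne'

/-! ### Iterated smoothing -/

/-- Iterated Gaussian smoothing. -/
noncomputable def recG {N : ℕ} (ζ τ : ℕ → ℝ) :
    (n i : ℕ) → ((Fin N → ℝ) → ℝ) → (Fin N → ℝ) → ℝ
  | 0, _, F => F
  | n + 1, i, F => GV (ζ i) (τ i) (recG ζ τ n (i + 1) F)

theorem recG_lip {N : ℕ} {ζ τ : ℕ → ℝ} (hζ : ∀ i, 0 ≤ ζ i) {F : (Fin N → ℝ) → ℝ} (hF : FLip F) :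
    ∀ n i : ℕ, FLip (recG ζ τ n i F)
  | 0, _ => hF
  | n + 1, i => GV_lip (hζ i) _ (recG_lip hζ hF n (i + 1))

theorem recG_mono {N : ℕ} {ζ τ : ℕ → ℝ} (hζ : ∀ i, 0 ≤ ζ i) {F F' : (Fin N → ℝ) → ℝ}
    (hF : FLip F) (hF' : FLip F') (h : ∀ z, F z ≤ F' z) :
    ∀ (n i : ℕ) (z : Fin N → ℝ), recG ζ τ n i F z ≤ recG ζ τ n i F' z
  | 0, _, z => h z
  | n + 1, i, z => GV_mono (hζ i) _ (recG_lip hζ hF n (i + 1)) (recG_lip hζ hF' n (i + 1))
      (recG_mono hζ hF hF' h n (i + 1)) z

theorem recG_add_const {N : ℕ} {ζ τ : ℕ → ℝ} (hζ : ∀ i, 0 ≤ ζ i) {F : (Fin N → ℝ) → ℝ}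
    (hF : FLip F) (c : ℝ) :
    ∀ (n i : ℕ) (z : Fin N → ℝ), recG ζ τ n i (fun z => F z + c) z = recG ζ τ n i F z + c
  | 0, _, z => rfl
  | n + 1, i, z => by
      have h : recG ζ τ n (i + 1) (fun z => F z + c) = fun z => recG ζ τ n (i + 1) F z + c := by
        funext z; exact recG_add_const hζ hF c n (i + 1) z
      change GV (ζ i) (τ i) (recG ζ τ n (i + 1) (fun z => F z + c)) z = _
      rw [h]
      exact GV_add_const _ (recG_lip hζ hF n (i + 1)) c z

theorem recT_lip {ζ τ : ℕ → ℝ} (hζ : ∀ i, 0 ≤ ζ i) {f : ℝ → ℝ} (hf : Lip1 f) :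
    ∀ n i : ℕ, Lip1 (recT ζ τ n i f)
  | 0, _ => hf
  | n + 1, i => (recT_lip hζ hf n (i + 1)).gaussOp (hζ i) _

theorem recT_mono {ζ τ : ℕ → ℝ} (hζ : ∀ i, 0 ≤ ζ i) {f f' : ℝ → ℝ} (hf : Lip1 f) (hf' : Lip1 f')
    (h : ∀ x, f x ≤ f' x) : ∀ (n i : ℕ) (x : ℝ), recT ζ τ n i f x ≤ recT ζ τ n i f' x
  | 0, _, x => h x
  | n + 1, i, x => gaussOp_mono (recT_lip hζ hf n (i + 1)) (recT_lip hζ hf' n (i + 1)) (hζ i) _
      (recT_mono hζ hf hf' h n (i + 1)) x

theorem recT_add_const {ζ τ : ℕ → ℝ} (hζ : ∀ i, 0 ≤ ζ i) {f : ℝ → ℝ} (hf : Lip1 f) (c : ℝ) :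
    ∀ (n i : ℕ) (x : ℝ), recT ζ τ n i (fun x => f x + c) x = recT ζ τ n i f x + c
  | 0, _, x => rfl
  | n + 1, i, x => by
      have h : recT ζ τ n (i + 1) (fun x => f x + c) = fun x => recT ζ τ n (i + 1) f x + c := by
        funext z; exact recT_add_const hζ hf c n (i + 1) z
      change gaussOp (ζ i) (τ i) (recT ζ τ n (i + 1) (fun x => f x + c)) x = _
      rw [h]
      exact gaussOp_add_const (recT_lip hζ hf n (i + 1)) _ _ c x

/-- Translation. -/
theorem recT_shift {ζ τ : ℕ → ℝ} {f : ℝ → ℝ} (b : ℝ) :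
    ∀ (n i : ℕ) (x : ℝ), recT ζ τ n i (fun x => f (x + b)) x = recT ζ τ n i f (x + b)
  | 0, _, x => rfl
  | n + 1, i, x => by
      have h : recT ζ τ n (i + 1) (fun x => f (x + b)) = fun x => recT ζ τ n (i + 1) f (x + b) := by
        funext z; exact recT_shift b n (i + 1) z
      change gaussOp (ζ i) (τ i) (recT ζ τ n (i + 1) (fun x => f (x + b))) x =
        gaussOp (ζ i) (τ i) (recT ζ τ n (i + 1) f) (x + b)
      rw [h]
      unfold gaussOp
      have h2 : ∀ g : ℝ, x + Real.sqrt (τ i) * g + b = x + b + Real.sqrt (τ i) * g := by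
        intro g; ring
      simp only [h2]

theorem recG_sum {N : ℕ} {ζ τ : ℕ → ℝ} (hζ : ∀ i, 0 ≤ ζ i) {f : Fin N → ℝ → ℝ}
    (hf : ∀ a, Lip1 (f a)) :
    ∀ (n i : ℕ) (z : Fin N → ℝ),
      recG ζ τ n i (fun z : Fin N → ℝ => ∑ a, f a (z a)) z = ∑ a, recT ζ τ n i (f a) (z a)
  | 0, _, z => rfl
  | n + 1, i, z => by
      have h : recG ζ τ n (i + 1) (fun z : Fin N → ℝ => ∑ a, f a (z a)) =
          fun z => ∑ a, recT ζ τ n (i + 1) (f a) (z a) := by
        funext z; exact recG_sum hζ hf n (i + 1) z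
      change GV (ζ i) (τ i) (recG ζ τ n (i + 1) _) z = _
      rw [h]
      exact GV_sum _ _ (fun a => recT_lip hζ (hf a) n (i + 1)) z

/-! ### The leaf functional -/

/-- `log ∫ exp (Σ z_a σ_a) dA`. -/
noncomputable def leafF {N : ℕ} (A : Measure (Fin N → Bool)) (z : Fin N → ℝ) : ℝ :=
  Real.log (∫ σ, Real.exp (∑ a, z a * spin (σ a)) ∂A)

theorem abs_spin (b : Bool) : |spin b| = 1 := by
  cases b <;> simp [spin]

theorem integrable_cube {N : ℕ} (A : Measure (Fin N → Bool)) [IsFiniteMeasure A]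
    (f : (Fin N → Bool) → ℝ) : Integrable f A := Integrable.of_finite

theorem leafF_lip {N : ℕ} (A : Measure (Fin N → Bool)) [IsProbabilityMeasure A] :
    FLip (leafF A) := by
  intro z z'
  unfold leafF
  have hpos : 0 < ∫ σ, Real.exp (∑ a, z a * spin (σ a)) ∂A :=
    integral_exp_pos (integrable_cube A _)
  have hpos' : 0 < ∫ σ, Real.exp (∑ a, z' a * spin (σ a)) ∂A :=
    integral_exp_pos (integrable_cube A _)
  have h : ∫ σ, Real.exp (∑ a, z a * spin (σ a)) ∂A ≤
      Real.exp (∑ a, |z a - z' a|) * ∫ σ, Real.exp (∑ a, z' a * spin (σ a)) ∂A := by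
    rw [← integral_const_mul]
    apply integral_mono (integrable_cube A _) (integrable_cube A _)
    intro σ
    change Real.exp _ ≤ Real.exp _ * Real.exp _
    rw [← Real.exp_add, Real.exp_le_exp, ← Finset.sum_add_distrib]
    apply Finset.sum_le_sum
    intro a _
    have h1 : (z a - z' a) * spin (σ a) ≤ |z a - z' a| := by
      refine (le_abs_self _).trans ?_
      rw [abs_mul, abs_spin, mul_one]
    linarith
  calc Real.log (∫ σ, Real.exp (∑ a, z a * spin (σ a)) ∂A) ≤
        Real.log (Real.exp (∑ a, |z a - z' a|) * ∫ σ, Real.exp (∑ a, z' a * spin (σ a)) ∂A) :=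
      Real.log_le_log hpos h
    _ = _ := by
      rw [Real.log_mul (Real.exp_pos _).ne' hpos'.ne', Real.log_exp]
      ring

/-- Hamiltonian of the main field on `n + 1` levels starting at level `i`, with external field
`z`. -/
noncomputable def fieldH {N : ℕ} (τ : ℕ → ℝ) (n i : ℕ) (z : Fin N → ℝ)
    (ω : Fin (n + 1) → (Fin N → ℝ) × (Fin N → Bool)) : ℝ :=
  ∑ j : Fin n, Real.sqrt (τ (i + j)) * ∑ a : Fin N, (ω j.castSucc).1 a * spin ((ω (Fin.last n)).2 a)
    + ∑ a : Fin N, z a * spin ((ω (Fin.last n)).2 a)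

theorem fieldH_cons {N : ℕ} (τ : ℕ → ℝ) (n i : ℕ) (z : Fin N → ℝ)
    (e : (Fin N → ℝ) × (Fin N → Bool)) (ω : Fin (n + 1) → (Fin N → ℝ) × (Fin N → Bool)) :
    fieldH τ (n + 1) i z (Fin.cons e ω) =
      fieldH τ n (i + 1) (fun a => z a + Real.sqrt (τ i) * e.1 a) ω := by
  unfold fieldH
  rw [Fin.sum_univ_succ]
  have h0 : (Fin.cons e ω : Fin (n + 2) → (Fin N → ℝ) × (Fin N → Bool)) (Fin.last (n + 1)) =
      ω (Fin.last n) := by
    rw [← Fin.succ_last, Fin.cons_succ]
  have h1 : ∀ j : Fin n, (Fin.cons e ω : Fin (n + 2) → (Fin N → ℝ) × (Fin N → Bool))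
      (j.succ).castSucc = ω j.castSucc := by
    intro j
    rw [Fin.castSucc_succ, Fin.cons_succ]
  have h2 : (Fin.cons e ω : Fin (n + 2) → (Fin N → ℝ) × (Fin N → Bool))
      (0 : Fin (n + 1)).castSucc = e := by
    simp
  rw [h0, h2]
  simp only [h1]
  have h3 : ∀ j : Fin n, i + ((j.succ : Fin (n + 1)) : ℕ) = i + 1 + (j : ℕ) := by
    intro j; rw [Fin.val_succ]; ring
  simp only [h3]
  have h4 : ∑ a, (z a + Real.sqrt (τ i) * e.1 a) * spin ((ω (Fin.last n)).2 a) =
      ∑ a, z a * spin ((ω (Fin.last n)).2 a) +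
        Real.sqrt (τ i) * ∑ a, e.1 a * spin ((ω (Fin.last n)).2 a) := by
    rw [Finset.mul_sum, ← Finset.sum_add_distrib]
    apply Finset.sum_congr rfl; intro a _; ring
  rw [h4]
  simp only [Fin.val_zero, add_zero]
  ring

/-- The nested functional of the main field is an iterated smoothing of `leafF`. -/
theorem nest_fieldH {N : ℕ} (A : Measure (Fin N → Bool)) [IsProbabilityMeasure A]
    (ζ τ : ℕ → ℝ) : ∀ (n i : ℕ) (_ : ζ (i + n) = 1) (z : Fin N → ℝ),
      nest ((gvec N).prod A) ζ (n + 1) i (fieldH τ n i z) = recG ζ τ n i (leafF A) z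
  | 0, i, h, z => by
      have hζ : ζ i = 1 := by simpa using h
      change TT ((gvec N).prod A) (ζ i) (fun e => fieldH τ 0 i z (Fin.cons e Fin.elim0)) =
        leafF A z
      have h1 : ∀ e : (Fin N → ℝ) × (Fin N → Bool), fieldH τ 0 i z (Fin.cons e Fin.elim0) =
          ∑ a, z a * spin (e.2 a) := by
        intro e
        unfold fieldH
        simp
      simp only [h1]
      unfold TT leafF
      rw [hζ, if_neg one_ne_zero]
      simp only [inv_one, one_mul]
      have h2 := integral_fun_snd (μ := gvec N) (ν := A)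
        (fun σ : Fin N → Bool => Real.exp (∑ a, z a * spin (σ a)))
      rw [h2]
      simp
  | n + 1, i, h, z => by
      change TT ((gvec N).prod A) (ζ i)
        (fun e => nest ((gvec N).prod A) ζ (n + 1) (i + 1)
          (fun ω => fieldH τ (n + 1) i z (Fin.cons e ω))) =
        GV (ζ i) (τ i) (recG ζ τ n (i + 1) (leafF A)) z
      have h1 : ∀ e : (Fin N → ℝ) × (Fin N → Bool),
          nest ((gvec N).prod A) ζ (n + 1) (i + 1)
            (fun ω => fieldH τ (n + 1) i z (Fin.cons e ω)) =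
          recG ζ τ n (i + 1) (leafF A) (fun a => z a + Real.sqrt (τ i) * e.1 a) := by
        intro e
        simp only [fieldH_cons]
        apply nest_fieldH A ζ τ n (i + 1)
        rw [← h]; congr 1; ring
      simp only [h1]
      unfold GV TT
      split_ifs with h0
      · have h2 := integral_fun_fst (μ := gvec N) (ν := A)
          (fun g : Fin N → ℝ => recG ζ τ n (i + 1) (leafF A)
            (fun a => z a + Real.sqrt (τ i) * g a))
        rw [h2]
        simp
      · have h2 := integral_fun_fst (μ := gvec N) (ν := A)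
          (fun g : Fin N → ℝ => Real.exp (ζ i * recG ζ τ n (i + 1) (leafF A)
            (fun a => z a + Real.sqrt (τ i) * g a)))
        rw [h2]
        simp

/-- `siteA` as an iterated smoothing. -/
theorem nest_main {N : ℕ} (A : Measure (Fin N → Bool)) [IsProbabilityMeasure A] (k : ℕ)
    (τ : ℕ → ℝ) :
    nest ((gvec N).prod A) (ζUB k) (k + 1) 0
      (fun ω => ∑ i : Fin k, Real.sqrt (τ i) *
        ∑ a : Fin N, (ω i.castSucc).1 a * spin ((ω (Fin.last k)).2 a)) =
    recG (ζUB k) τ k 0 (leafF A) (fun _ => 0) := by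
  have hζ : ζUB k (0 + k) = 1 := by
    unfold ζUB
    rw [zero_add, div_self (by positivity)]
    simp
  rw [← nest_fieldH A (ζUB k) τ k 0 hζ]
  congr 1
  funext ω
  unfold fieldH
  simp

theorem ζUB_nonneg (k i : ℕ) : 0 ≤ ζUB k i := by
  unfold ζUB
  exact le_min zero_le_one (by positivity)

/-! ### Leaf functionals -/

theorem lch_lip : Lip1 lch := by
  intro x y
  unfold lch
  have hx := Real.cosh_pos x
  have hy := Real.cosh_pos y
  have h : Real.cosh x ≤ Real.exp |x - y| * Real.cosh y := by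
    rw [Real.cosh_eq, Real.cosh_eq]
    have h1 : Real.exp x ≤ Real.exp |x - y| * Real.exp y := by
      rw [← Real.exp_add, Real.exp_le_exp]
      linarith [le_abs_self (x - y)]
    have h2 : Real.exp (-x) ≤ Real.exp |x - y| * Real.exp (-y) := by
      rw [← Real.exp_add, Real.exp_le_exp]
      linarith [neg_abs_le (x - y)]
    linarith
  calc Real.log (Real.cosh x) ≤ Real.log (Real.exp |x - y| * Real.cosh y) :=
        Real.log_le_log hx h
    _ = _ := by
      rw [Real.log_mul (Real.exp_pos _).ne' hy.ne', Real.log_exp]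
      ring

instance isProb_half : IsProbabilityMeasure
    ((2 : ENNReal)⁻¹ • (Measure.dirac true + Measure.dirac false)) := by
  constructor
  simp only [Measure.smul_apply, Measure.add_apply, measure_univ, smul_eq_mul]
  rw [one_add_one_eq_two]
  exact ENNReal.inv_mul_cancel (by norm_num) (by norm_num)

instance {N : ℕ} : IsProbabilityMeasure (unifA N) := by unfold unifA; infer_instance

theorem integral_half (f : Bool → ℝ) :
    ∫ s, f s ∂((2 : ENNReal)⁻¹ • (Measure.dirac true + Measure.dirac false)) =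
      (f true + f false) / 2 := by
  rw [integral_smul_measure, integral_add_measure Integrable.of_finite Integrable.of_finite,
    integral_dirac, integral_dirac]
  simp
  ring

theorem leafF_unifA {N : ℕ} (z : Fin N → ℝ) : leafF (unifA N) z = ∑ a, lch (z a) := by
  unfold leafF unifA
  have h1 : ∀ σ : Fin N → Bool, Real.exp (∑ a, z a * spin (σ a)) =
      ∏ a, (fun (a : Fin N) (s : Bool) => Real.exp (z a * spin s)) a (σ a) := by
    intro σ; rw [Real.exp_sum]
  simp only [h1]
  rw [integral_fintype_prod_eq_prod (𝕜 := ℝ)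
    (f := fun (a : Fin N) (s : Bool) => Real.exp (z a * spin s)), Real.log_prod]
  · apply Finset.sum_congr rfl
    intro a _
    rw [integral_half]
    unfold lch
    rw [Real.cosh_eq]
    simp [spin]
  · intro a _
    rw [integral_half]
    positivity

/-- Uniform law on a finite set of configurations. -/
noncomputable def unifS {N : ℕ} (S : Finset (Fin N → Bool)) : Measure (Fin N → Bool) :=
  (S.card : ENNReal)⁻¹ • ∑ σ ∈ S, Measure.dirac σ

theorem isProb_unifS {N : ℕ} {S : Finset (Fin N → Bool)} (hS : S.Nonempty) :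
    IsProbabilityMeasure (unifS S) := by
  constructor
  unfold unifS
  simp only [Measure.smul_apply, Measure.finsetSum_apply, measure_univ, smul_eq_mul,
    Finset.sum_const, nsmul_eq_mul, mul_one]
  apply ENNReal.inv_mul_cancel
  · simpa using hS.ne_empty
  · exact ENNReal.natCast_ne_top _

theorem integral_unifS {N : ℕ} (S : Finset (Fin N → Bool)) (f : (Fin N → Bool) → ℝ) :
    ∫ σ, f σ ∂(unifS S) = (S.card : ℝ)⁻¹ * ∑ σ ∈ S, f σ := by
  unfold unifS
  rw [integral_smul_measure, integral_finsetSum_measure (fun _ _ => Integrable.of_finite)]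
  simp

theorem integral_unifA {N : ℕ} (f : (Fin N → Bool) → ℝ) :
    ∫ σ, f σ ∂(unifA N) = (1 / 2) ^ N * ∑ σ, f σ := by
  rw [integral_fintype Integrable.of_finite, Finset.mul_sum]
  apply Finset.sum_congr rfl
  intro σ _
  rw [smul_eq_mul]
  congr 1
  unfold unifA
  rw [Measure.real, Measure.pi_singleton, ENNReal.toReal_prod]
  have h : ∀ b : Bool, (((2 : ENNReal)⁻¹ • (Measure.dirac true + Measure.dirac false)) {b}).toReal
      = 1 / 2 := by
    intro b
    cases b <;> simp
  rw [Finset.prod_congr rfl (fun a _ => h (σ a))]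
  simp

theorem leafF_unifS_le {N : ℕ} {S : Finset (Fin N → Bool)} (hS : S.Nonempty) (b : Fin N → ℝ)
    (B : ℝ) (hB : ∀ σ ∈ S, ∑ a, b a * spin (σ a) = B) (z : Fin N → ℝ) :
    leafF (unifS S) z ≤ Real.log (2 ^ N / (S.card : ℝ)) - B + ∑ a, lch (z a + b a) := by
  have hc : (0 : ℝ) < S.card := by exact_mod_cast hS.card_pos
  have h0 : ∑ a, lch (z a + b a) = leafF (unifA N) (fun a => z a + b a) := (leafF_unifA _).symm
  rw [h0]
  unfold leafF
  rw [integral_unifS, integral_unifA]
  have hpos : 0 < ∑ σ ∈ S, Real.exp (∑ a, z a * spin (σ a)) :=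
    Finset.sum_pos (fun _ _ => Real.exp_pos _) hS
  have hpos2 : 0 < ∑ σ : Fin N → Bool, Real.exp (∑ a, (z a + b a) * spin (σ a)) :=
    Finset.sum_pos (fun _ _ => Real.exp_pos _) Finset.univ_nonempty
  have h1 : ∑ σ ∈ S, Real.exp (∑ a, z a * spin (σ a)) ≤
      Real.exp (-B) * ∑ σ : Fin N → Bool, Real.exp (∑ a, (z a + b a) * spin (σ a)) := by
    calc ∑ σ ∈ S, Real.exp (∑ a, z a * spin (σ a)) =
          ∑ σ ∈ S, Real.exp (-B) * Real.exp (∑ a, (z a + b a) * spin (σ a)) := by
          apply Finset.sum_congr rfl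
          intro σ hσ
          rw [← Real.exp_add]
          congr 1
          have := hB σ hσ
          simp only [add_mul, Finset.sum_add_distrib]
          linarith
      _ = Real.exp (-B) * ∑ σ ∈ S, Real.exp (∑ a, (z a + b a) * spin (σ a)) := by
          rw [Finset.mul_sum]
      _ ≤ _ := by
          apply mul_le_mul_of_nonneg_left _ (Real.exp_pos _).le
          exact Finset.sum_le_sum_of_subset_of_nonneg (Finset.subset_univ _)
            (fun _ _ _ => (Real.exp_pos _).le)
  have h2 : (S.card : ℝ)⁻¹ * ∑ σ ∈ S, Real.exp (∑ a, z a * spin (σ a)) ≤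
      (2 ^ N / (S.card : ℝ)) * Real.exp (-B) *
        ((1 / 2) ^ N * ∑ σ : Fin N → Bool, Real.exp (∑ a, (z a + b a) * spin (σ a))) := by
    have h3 : (2 ^ N / (S.card : ℝ)) * Real.exp (-B) *
        ((1 / 2) ^ N * ∑ σ : Fin N → Bool, Real.exp (∑ a, (z a + b a) * spin (σ a))) =
        (S.card : ℝ)⁻¹ * (Real.exp (-B) *
          ∑ σ : Fin N → Bool, Real.exp (∑ a, (z a + b a) * spin (σ a))) := by
      have : (2 : ℝ) ^ N * (1 / 2) ^ N = 1 := by rw [← mul_pow]; norm_num
      calc _ = ((2 : ℝ) ^ N * (1 / 2) ^ N) * ((S.card : ℝ)⁻¹ * (Real.exp (-B) *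
          ∑ σ : Fin N → Bool, Real.exp (∑ a, (z a + b a) * spin (σ a)))) := by ring
        _ = _ := by rw [this, one_mul]
    rw [h3]
    exact mul_le_mul_of_nonneg_left h1 (inv_nonneg.2 hc.le)
  refine (Real.log_le_log (by positivity) h2).trans (le_of_eq ?_)
  rw [Real.log_mul (by positivity) (by positivity), Real.log_mul (by positivity) (by positivity),
    Real.log_exp]
  ring

/-- The main field tower of the full cube. -/
theorem nest_unifA (N k : ℕ) (τ : ℕ → ℝ) :
    nest ((gvec N).prod (unifA N)) (ζUB k) (k + 1) 0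
      (fun ω => ∑ i : Fin k, Real.sqrt (τ i) *
        ∑ a : Fin N, (ω i.castSucc).1 a * spin ((ω (Fin.last k)).2 a)) =
    N * recT (ζUB k) τ k 0 lch 0 := by
  rw [nest_main]
  have h : leafF (unifA N) = fun z => ∑ a, lch (z a) := by
    funext z; exact leafF_unifA z
  rw [h, recG_sum (ζUB_nonneg k) (fun _ => lch_lip)]
  simp

/-- The main field tower of a set of configurations: Chernoff bound. -/
theorem nest_unifS_le {N : ℕ} {S : Finset (Fin N → Bool)} (hS : S.Nonempty) (k : ℕ) (τ : ℕ → ℝ)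
    (b : Fin N → ℝ) (B : ℝ) (hB : ∀ σ ∈ S, ∑ a, b a * spin (σ a) = B) :
    nest ((gvec N).prod (unifS S)) (ζUB k) (k + 1) 0
      (fun ω => ∑ i : Fin k, Real.sqrt (τ i) *
        ∑ a : Fin N, (ω i.castSucc).1 a * spin ((ω (Fin.last k)).2 a)) ≤
    Real.log (2 ^ N / (S.card : ℝ)) - B + ∑ a, recT (ζUB k) τ k 0 lch (b a) := by
  have := isProb_unifS hS
  rw [nest_main]
  have hl : ∀ a : Fin N, Lip1 (fun x => lch (x + b a)) := by
    intro a x y
    have := lch_lip (x + b a) (y + b a)
    simpa using this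
  have hF : FLip (fun z : Fin N → ℝ => ∑ a, lch (z a + b a)) := flip_sum hl
  set C := Real.log (2 ^ N / (S.card : ℝ)) - B with hC
  have hFC : FLip (fun z : Fin N → ℝ => ∑ a, lch (z a + b a) + C) := by
    intro z z'
    have := hF z z'
    dsimp only at this ⊢
    linarith
  refine (recG_mono (ζUB_nonneg k) (leafF_lip _) hFC ?_ k 0 _).trans (le_of_eq ?_)
  · intro z
    have := leafF_unifS_le hS b B hB z
    linarith
  · rw [recG_add_const (ζUB_nonneg k) hF, recG_sum (ζUB_nonneg k) hl, add_comm]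
    congr 1
    apply Finset.sum_congr rfl
    intro a _
    rw [recT_shift]
    simp

end Crest.Agent.RI.FN
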