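import Crest.Agent.RI.Tower

/-!
# Row 164: one-coordinate flows (helper44), definitions
-/

set_option autoImplicit false

namespace Crest.Agent.RI

open MeasureTheory

variable {E : Type} [MeasurableSpace E]

/-- one-variable tame function -/
structure Tame1 (β : E → ℝ) (F : E → ℝ) : Prop where
  meas : Measurable F
  bound : ∃ C : ℝ, 0 ≤ C ∧ ∀ e, |F e| ≤ C * Real.exp (C * β e)

/-- A flow on one coordinate, with divergence `δ`: `∫ F' = ∫ δ F` where `F'` = derivative of `F` along the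
flow. (Rotations of a Haar matrix: `δ = 0`. Shift of a Gaussian coordinate `g_a`: `δ = g_a`.) -/
structure CFlow (m : Measure E) (β : E → ℝ) (φ : ℝ → E → E) (δ : E → ℝ) : Prop where
  zero : ∀ e, φ 0 e = e
  add : ∀ s t e, φ (s + t) e = φ s (φ t e)
  meas : ∀ t, Measurable (φ t)
  growth : ∃ C : ℝ, 0 ≤ C ∧ ∀ t e, |t| ≤ 1 → β (φ t e) ≤ C * (1 + β e)
  δ_meas : Measurable δ
  δ_bound : ∃ C : ℝ, 0 ≤ C ∧ ∀ e, |δ e| ≤ C * (1 + β e)
  base : ∀ F F' : E → ℝ, Tame1 β F → Tame1 β F' →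
    (∀ e t, HasDerivAt (fun s => F (φ s e)) (F' (φ t e)) t) → ∫ e, F' e ∂m = ∫ e, δ e * F e ∂m

/-- `Φ'` is the derivative of `Φ` along the flow acting on coordinate `j`. -/
def IsD (φ : ℝ → E → E) {n : ℕ} (j : Fin n) (Φ Φ' : (Fin n → E) → ℝ) : Prop :=
  ∀ ω t, HasDerivAt (fun s => Φ (Function.update ω j (φ s (ω j))))
    (Φ' (Function.update ω j (φ t (ω j)))) t

/-- the part of the score coming from the coordinates `≥ r`: `Σ_{q≥r} ζ_{i+q} (C_{q+1} V - C_q V)` -/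
noncomputable def sAfter (m : Measure E) (ζ : ℕ → ℝ) (r n i : ℕ) (H V : (Fin n → E) → ℝ)
    (ω : Fin n → E) : ℝ :=
  ∑ q ∈ Finset.Ico r n, ζ (i + q) * (condE m ζ (q + 1) n i H V ω - condE m ζ q n i H V ω)

end Crest.Agent.RI
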