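import Crest.Agent.RI.SysA

/-!
# Row 164: basic facts on the concrete system, part B (exponential moments)
-/

set_option autoImplicit false

namespace Crest.Agent.RI

open MeasureTheory ProbabilityTheory

variable {N K : ℕ}

private theorem sysB_one (c : ℝ) :
    Integrable (fun x : ℝ => Real.exp (c * |x|)) (gaussianReal 0 1) :=
  integrable_exp_mul_abs (X := fun x : ℝ => x) (t := c)
    (integrable_exp_mul_gaussianReal c) (integrable_exp_mul_gaussianReal (-c))

private theorem sysB_gvec (c : ℝ) :
    Integrable (fun x : Fin N → ℝ => Real.exp (c * ∑ a, |x a|)) (gvec N) := by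
  have h := Integrable.fintype_prod (ι := Fin N) (E := ℝ) (𝕜 := ℝ)
    (f := fun _ x => Real.exp (c * |x|)) (μ := fun _ => gaussianReal 0 1) (fun _ => sysB_one c)
  have e : (fun x : Fin N → ℝ => ∏ i, Real.exp (c * |x i|)) =
      fun x : Fin N → ℝ => Real.exp (c * ∑ a, |x a|) := by
    funext x
    rw [← Real.exp_sum, Finset.mul_sum]
  rw [e] at h
  exact h

/-- All exponential moments of `βN`. PROOF: `exp (c |g|) ≤ exp (c g) + exp (-c g)`, the exponential
of a sum over coordinates is a product, `integrable` by `Integrable.fintype_prod` etc.; `βN` does not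
depend on the `O` and `σ` components. -/
theorem dom_mN {P : Measure (ON N)} (hP : HaarO P) (A : Measure (Fin N → Bool))
    [IsProbabilityMeasure A] : Dom (mN P A) (βN (N := N)) := by
  have := hP.prob
  refine ⟨?_, ?_, ?_⟩
  · unfold βN
    fun_prop
  · intro x
    unfold βN
    positivity
  · intro c
    have h1 : Integrable (fun z : (Fin N → ℝ) × (Fin N → Bool) =>
        Real.exp (c * ∑ a, |z.1 a|) * (1 : ℝ)) ((gvec N).prod A) :=
      Integrable.mul_prod (f := fun x : Fin N → ℝ => Real.exp (c * ∑ a, |x a|))
        (g := fun _ : Fin N → Bool => (1 : ℝ)) (sysB_gvec c) (integrable_const 1)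
    have h2 := Integrable.mul_prod (f := fun x : Fin N → ℝ => Real.exp (c * ∑ a, |x a|))
        (g := fun z : (Fin N → ℝ) × (Fin N → Bool) => Real.exp (c * ∑ a, |z.1 a|) * (1 : ℝ))
        (sysB_gvec c) h1
    have h3 := Integrable.mul_prod (f := fun _ : ON N => (1 : ℝ)) (μ := P) (integrable_const 1) h2
    refine h3.congr (Filter.Eventually.of_forall (fun x => ?_))
    simp only [βN]
    rw [mul_add, Real.exp_add]
    ring

end Crest.Agent.RI
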