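import Crest.Agent.RI.System
import Crest.Agent.RI.SysB
import Crest.Agent.RI.FlowC

/-!
# Row 164: concrete flows on the level space `EN N`: rotation of the orthogonal matrix in the plane of
two rows `a ≠ b`
-/

set_option autoImplicit false

namespace Crest.Agent.RI

open MeasureTheory ProbabilityTheory

variable {N K : ℕ}

/-- The matrix of the rotation `z_a ↦ cos t z_a + sin t z_b`, `z_b ↦ - sin t z_a + cos t z_b`. -/
noncomputable def planeM (a b : Fin N) (t : ℝ) : Fin N → Fin N → ℝ := fun i j =>
  if i = a then (if j = a then Real.cos t else if j = b then Real.sin t else 0)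
  else if i = b then (if j = a then -Real.sin t else if j = b then Real.cos t else 0)
  else if i = j then 1 else 0

private theorem planeM_sum {a b : Fin N} (hab : a ≠ b) (t : ℝ) (i : Fin N) (f : Fin N → ℝ) :
    ∑ j, planeM a b t i j * f j =
      if i = a then Real.cos t * f a + Real.sin t * f b
      else if i = b then -Real.sin t * f a + Real.cos t * f b else f i := by
  have key : ∀ x y : ℝ, ∑ j, (if j = a then x else if j = b then y else 0) * f j =
      x * f a + y * f b := by
    intro x y
    have h1 : ∀ j, (if j = a then x else if j = b then y else 0) * f j =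
        (if j = a then x * f a else 0) + (if j = b then y * f b else 0) := by
      intro j
      by_cases ha : j = a
      · subst ha; simp [hab]
      · by_cases hb : j = b
        · subst hb; simp [ha]
        · simp [ha, hb]
    rw [Finset.sum_congr rfl fun j _ => h1 j, Finset.sum_add_distrib]
    simp
  by_cases ha : i = a
  · simp only [planeM, if_pos ha]
    exact key _ _
  · by_cases hb : i = b
    · simp only [planeM, if_neg ha, if_pos hb]
      exact key _ _
    · simp only [planeM, if_neg ha, if_neg hb]
      simp

theorem planeM_mem {a b : Fin N} (hab : a ≠ b) (t : ℝ) :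
    Matrix.of (planeM a b t) ∈ Matrix.orthogonalGroup (Fin N) ℝ := by
  rw [Matrix.mem_orthogonalGroup_iff]
  ext i k
  have h0 : (Matrix.of (planeM a b t) * (Matrix.of (planeM a b t)).transpose) i k =
      ∑ j, planeM a b t i j * planeM a b t k j := by
    simp [Matrix.mul_apply]
  rw [h0, planeM_sum hab, Matrix.one_apply]
  have hba : b ≠ a := fun h => hab h.symm
  have hcs := Real.sin_sq_add_cos_sq t
  by_cases ha : i = a
  · subst ha
    by_cases hka : k = i
    · subst hka
      simp only [planeM, if_true, if_neg hba]
      linarith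
    · have hik : i ≠ k := fun h => hka h.symm
      by_cases hkb : k = b
      · subst hkb
        simp only [planeM, if_true, if_neg hka, if_neg hik]
        ring
      · simp only [planeM, if_true, if_neg hka, if_neg hkb, if_neg hik]
        simp
  · by_cases hb : i = b
    · subst hb
      by_cases hka : k = a
      · subst hka
        simp only [planeM, if_true, if_neg ha]
        ring
      · by_cases hki : k = i
        · subst hki
          simp only [planeM, if_true, if_neg ha]
          linarith
        · have hik : i ≠ k := fun h => hki h.symm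
          simp only [planeM, if_true, if_neg ha, if_neg hki, if_neg hka, if_neg hik]
          simp
    · simp only [if_neg ha, if_neg hb]
      by_cases hka : k = a
      · subst hka
        simp only [planeM, if_true, if_neg ha, if_neg hb]
      · by_cases hkb : k = b
        · subst hkb
          simp only [planeM, if_true, if_neg ha, if_neg hb, if_neg hka]
        · simp only [planeM, if_neg hka, if_neg hkb]
          by_cases hik : i = k
          · subst hik; simp
          · rw [if_neg (fun h => hik h.symm), if_neg hik]

/-- as an element of `ON N` -/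
noncomputable def planeR {a b : Fin N} (hab : a ≠ b) (t : ℝ) : ON N := ⟨planeM a b t, planeM_mem hab t⟩

private theorem ON_mul_val (U V : ON N) (i k : Fin N) :
    (ON.mul U V).1 i k = ∑ j, U.1 i j * V.1 j k := by
  simp [ON.mul, Matrix.mul_apply]

private theorem ON_mul_assoc (U V W : ON N) : ON.mul (ON.mul U V) W = ON.mul U (ON.mul V W) := by
  apply Subtype.ext
  funext i k
  rw [ON_mul_val, ON_mul_val]
  simp only [ON_mul_val, Finset.sum_mul, Finset.mul_sum]
  rw [Finset.sum_comm]
  refine Finset.sum_congr rfl fun j _ => Finset.sum_congr rfl fun l _ => ?_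
  ring

private theorem plane_mul_val {a b : Fin N} (hab : a ≠ b) (t : ℝ) (O : ON N) (i k : Fin N) :
    (ON.mul (planeR hab t) O).1 i k =
      if i = a then Real.cos t * O.1 a k + Real.sin t * O.1 b k
      else if i = b then -Real.sin t * O.1 a k + Real.cos t * O.1 b k else O.1 i k := by
  rw [ON_mul_val]
  exact planeM_sum hab t i (fun j => O.1 j k)

theorem planeR_add {a b : Fin N} (hab : a ≠ b) (s t : ℝ) :
    ON.mul (planeR hab s) (planeR hab t) = planeR hab (s + t) := by
  apply Subtype.ext
  funext i k
  rw [plane_mul_val]
  have hba : b ≠ a := fun h => hab h.symm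
  by_cases ha : i = a
  · subst ha
    simp only [planeR, planeM, if_true, if_neg hba]
    by_cases hka : k = i
    · simp only [if_pos hka]
      rw [Real.cos_add]; ring
    · by_cases hkb : k = b
      · simp only [if_pos hkb, if_neg hka]
        rw [Real.sin_add]; ring
      · simp only [if_neg hkb, if_neg hka]
        ring
  · by_cases hb : i = b
    · subst hb
      simp only [planeR, planeM, if_true, if_neg ha]
      by_cases hka : k = a
      · simp only [if_pos hka]
        rw [Real.sin_add]; ring
      · by_cases hkb : k = i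
        · simp only [if_pos hkb, if_neg hka]
          rw [Real.cos_add]; ring
        · simp only [if_neg hkb, if_neg hka]
          ring
    · simp only [planeR, planeM, if_neg ha, if_neg hb]

/-- rotation of the orthogonal matrix -/
noncomputable def rotF {a b : Fin N} (hab : a ≠ b) (t : ℝ) (x : EN N) : EN N :=
  (ON.mul (planeR hab t) x.1, x.2)

/-- `rot (R O) σ` -/
theorem rot_plane {a b : Fin N} (hab : a ≠ b) (t : ℝ) (O : ON N) (σ : Fin N → Bool) (c : Fin N) :
    rot (ON.mul (planeR hab t) O) σ c =
      if c = a then Real.cos t * rot O σ a + Real.sin t * rot O σ b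
      else if c = b then -Real.sin t * rot O σ a + Real.cos t * rot O σ b
      else rot O σ c := by
  unfold rot
  simp only [plane_mul_val]
  by_cases ha : c = a
  · simp only [if_pos ha]
    rw [Finset.mul_sum, Finset.mul_sum, ← Finset.sum_add_distrib]
    exact Finset.sum_congr rfl fun r _ => by ring
  · by_cases hb : c = b
    · simp only [if_neg ha, if_pos hb]
      rw [Finset.mul_sum, Finset.mul_sum, ← Finset.sum_add_distrib]
      exact Finset.sum_congr rfl fun r _ => by ring
    · simp only [if_neg ha, if_neg hb]

private theorem rotF_add {a b : Fin N} (hab : a ≠ b) (s t : ℝ) (x : EN N) :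
    rotF hab (s + t) x = rotF hab s (rotF hab t x) := by
  simp only [rotF]
  rw [← ON_mul_assoc, planeR_add]

private theorem rotF_zero {a b : Fin N} (hab : a ≠ b) (x : EN N) : rotF hab 0 x = x := by
  have h : ON.mul (planeR hab 0) x.1 = x.1 := by
    apply Subtype.ext
    funext i k
    rw [plane_mul_val]
    by_cases ha : i = a
    · subst ha; simp
    · by_cases hb : i = b
      · subst hb; simp [ha]
      · simp [ha, hb]
  simp only [rotF, h]

private theorem measurable_ONmul (R : ON N) : Measurable (fun U : ON N => ON.mul R U) := by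
  refine Measurable.subtype_mk ?_
  refine measurable_pi_lambda _ fun i => measurable_pi_lambda _ fun k => ?_
  simp only [Matrix.mul_apply]
  refine Finset.measurable_sum _ fun j _ => ?_
  refine Measurable.const_mul ?_ _
  exact (measurable_pi_apply k).comp ((measurable_pi_apply j).comp measurable_subtype_coe)

private theorem measurable_rotF {a b : Fin N} (hab : a ≠ b) (t : ℝ) :
    Measurable (rotF hab t : EN N → EN N) :=
  ((measurable_ONmul (planeR hab t)).comp measurable_fst).prodMk measurable_snd

private theorem map_rotF {P : Measure (ON N)} {A : Measure (Fin N → Bool)} (hP : HaarO P)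
    [IsProbabilityMeasure A] {a b : Fin N} (hab : a ≠ b) (t : ℝ) :
    (mN P A).map (rotF hab t) = mN P A := by
  have := hP.prob
  have h1 : (rotF hab t : EN N → EN N) =
      Prod.map (fun U : ON N => ON.mul (planeR hab t) U) id := by
    funext x; rfl
  rw [h1]
  unfold mN
  rw [← Measure.map_prod_map _ _ (measurable_ONmul _) measurable_id, hP.left, Measure.map_id]

private theorem βN_rotF {a b : Fin N} (hab : a ≠ b) (t : ℝ) (x : EN N) :
    βN (rotF hab t x) = βN x := rfl

/-- PROOF of `base`: `∫ F (rotF s x) dm = ∫ F dm` for all `s` (left invariance; product measure), differentiate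
at `s = 0` under the integral (`|F' (rotF s x)| ≤ C exp (C βN x)`, `βN` does not see the matrix). -/
theorem cflow_rotF {P : Measure (ON N)} {A : Measure (Fin N → Bool)} (hP : HaarO P)
    [IsProbabilityMeasure A] {a b : Fin N} (hab : a ≠ b) :
    CFlow (mN P A) βN (rotF hab) (fun _ => 0) := by
  have hD := dom_mN hP A
  refine ⟨rotF_zero hab, rotF_add hab, measurable_rotF hab, ⟨1, zero_le_one, fun t e _ => ?_⟩,
    measurable_const, ⟨1, zero_le_one, fun e => ?_⟩, ?_⟩
  · rw [βN_rotF]; linarith
  · have := hD.nonneg e
    simp only [abs_zero]; linarith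
  · intro F F' hF hF' hd
    obtain ⟨C, hC, hb⟩ := hF.bound
    obtain ⟨C', hC', hb'⟩ := hF'.bound
    have hint : Integrable F (mN P A) := by
      refine Integrable.mono' ((hD.int C).const_mul C) hF.meas.aestronglyMeasurable ?_
      exact Filter.Eventually.of_forall fun x => hb x
    have hder := hasDerivAt_integral_of_dominated_loc_of_deriv_le (μ := mN P A)
      (F := fun s x => F (rotF hab s x)) (F' := fun s x => F' (rotF hab s x))
      (x₀ := (0 : ℝ)) (s := Set.univ) (bound := fun x => C' * Real.exp (C' * βN x))
      Filter.univ_mem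
      (Filter.Eventually.of_forall fun s => (hF.meas.comp (measurable_rotF hab s)).aestronglyMeasurable)
      (by simpa only [rotF_zero] using hint)
      ((hF'.meas.comp (measurable_rotF hab 0)).aestronglyMeasurable)
      (Filter.Eventually.of_forall fun x s _ => by
        have := hb' (rotF hab s x)
        rw [βN_rotF] at this
        exact this)
      ((hD.int C').const_mul C')
      (Filter.Eventually.of_forall fun x s _ => hd x s)
    have hconst : (fun s => ∫ x, F (rotF hab s x) ∂(mN P A)) = fun _ => ∫ x, F x ∂(mN P A) := by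
      funext s
      rw [← integral_map (measurable_rotF hab s).aemeasurable (by
        rw [map_rotF hP hab s]
        exact hF.meas.aestronglyMeasurable), map_rotF hP hab s]
    have h0 := hder.2
    rw [hconst] at h0
    have h1 := h0.unique (hasDerivAt_const (0 : ℝ) (∫ x, F x ∂(mN P A)))
    simp only [rotF_zero] at h1
    rw [h1]
    simp

private theorem yv_upd {k : ℕ} (ω : Fin (k + 1) → EN N) {a b : Fin N} (hab : a ≠ b) (t : ℝ)
    (c : Fin N) :
    yv k (Function.update ω 0 (rotF hab t (ω 0))) c =
      if c = a then Real.cos t * yv k ω a + Real.sin t * yv k ω b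
      else if c = b then -Real.sin t * yv k ω a + Real.cos t * yv k ω b
      else yv k ω c := by
  have h2 : (Function.update ω 0 (rotF hab t (ω 0)) (Fin.last k)).2.2.2 =
      (ω (Fin.last k)).2.2.2 := by
    by_cases hk : Fin.last k = 0
    · rw [hk, Function.update_self]; rfl
    · rw [Function.update_of_ne hk]
  unfold yv
  rw [h2, Function.update_self]
  exact rot_plane hab t _ _ c

theorem yv_isD_rot_a (k : ℕ) {a b : Fin N} (hab : a ≠ b) :
    IsD (rotF hab) (0 : Fin (k + 1)) (fun ω => yv k ω a) (fun ω => yv k ω b) := by
  intro ω t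
  have hba : b ≠ a := fun h => hab h.symm
  simp only [yv_upd, if_true, if_neg hba]
  have h1 := ((Real.hasDerivAt_cos t).mul_const (yv k ω a)).add
    ((Real.hasDerivAt_sin t).mul_const (yv k ω b))
  exact h1

theorem yv_isD_rot_b (k : ℕ) {a b : Fin N} (hab : a ≠ b) :
    IsD (rotF hab) (0 : Fin (k + 1)) (fun ω => yv k ω b) (fun ω => -yv k ω a) := by
  intro ω t
  have hba : b ≠ a := fun h => hab h.symm
  simp only [yv_upd, if_true, if_neg hba]
  have h1 := (((Real.hasDerivAt_sin t).neg).mul_const (yv k ω a)).add
    ((Real.hasDerivAt_cos t).mul_const (yv k ω b))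
  refine h1.congr_deriv ?_
  ring

private theorem yv_isD_rot_c (k : ℕ) {a b : Fin N} (hab : a ≠ b) {c : Fin N} (hca : c ≠ a)
    (hcb : c ≠ b) :
    IsD (rotF hab) (0 : Fin (k + 1)) (fun ω => yv k ω c) (fun _ => 0) := by
  intro ω t
  simp only [yv_upd, if_neg hca, if_neg hcb]
  exact hasDerivAt_const t _

private theorem yv_isD_rot (k : ℕ) {a b : Fin N} (hab : a ≠ b) (c : Fin N) :
    IsD (rotF hab) (0 : Fin (k + 1)) (fun ω => yv k ω c)
      (fun ω => if c = a then yv k ω b else if c = b then -yv k ω a else 0) := by
  by_cases ha : c = a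
  · subst ha
    simpa only [if_true] using yv_isD_rot_a k hab
  · by_cases hb : c = b
    · subst hb
      simpa only [if_true, if_neg ha] using yv_isD_rot_b k hab
    · simpa only [if_neg ha, if_neg hb] using yv_isD_rot_c k hab ha hb

private theorem indepG {k : ℕ} {a b : Fin N} (hab : a ≠ b) {Φ : (Fin (k + 1) → EN N) → ℝ}
    (h : ∀ ω x, Φ (Function.update ω 0 (x, (ω 0).2)) = Φ ω) :
    IsD (rotF hab) (0 : Fin (k + 1)) Φ (fun _ => 0) := by
  intro ω t
  have : (fun s => Φ (Function.update ω 0 (rotF hab s (ω 0)))) = fun _ => Φ ω := by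
    funext s
    exact h ω _
  rw [this]
  exact hasDerivAt_const t _

private theorem upd_snd {k : ℕ} (ω : Fin (k + 1) → EN N) (x : ON N) (i : Fin (k + 1)) :
    (Function.update ω 0 (x, (ω 0).2) i).2 = (ω i).2 := by
  by_cases hi : i = 0
  · subst hi; rw [Function.update_self]
  · rw [Function.update_of_ne hi]

/-- derivative of the Hamiltonian (needs `1 ≤ k`, so that the leaf coordinate is not the first one) -/
theorem HN_isD_rot {k : ℕ} (hk : 1 ≤ k) (θ : Par N K) {a b : Fin N} (hab : a ≠ b) :
    IsD (rotF hab) (0 : Fin (k + 1)) (HN k θ)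
      (fun ω => (θ.e (θ.κ a) - θ.e (θ.κ b)) * (yv k ω a * yv k ω b) +
        ∑ i : Fin k, (θ.c i (θ.κ a) * (ω i.castSucc).2.2.1 a * yv k ω b -
          θ.c i (θ.κ b) * (ω i.castSucc).2.2.1 b * yv k ω a)) := by
  have hba : b ≠ a := fun h => hab h.symm
  -- quadratic part
  have h1 : IsD (rotF hab) (0 : Fin (k + 1))
      (fun ω => (1 / 2) * ∑ c : Fin N, θ.e (θ.κ c) * yv k ω c ^ 2)
      (fun ω => (1 / 2) * ∑ c : Fin N, θ.e (θ.κ c) *
        ((if c = a then yv k ω b else if c = b then -yv k ω a else 0) * yv k ω c +
          yv k ω c * (if c = a then yv k ω b else if c = b then -yv k ω a else 0))) := by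
    refine IsD.const_mul _ (IsD.sum _ fun c _ => IsD.const_mul _ ?_)
    have := IsD.mul (yv_isD_rot k hab c) (yv_isD_rot k hab c)
    simpa only [← pow_two] using this
  -- main field
  have h2 : IsD (rotF hab) (0 : Fin (k + 1))
      (fun ω => ∑ i : Fin k, θ.v i * ∑ r : Fin N, (ω i.castSucc).2.1 r *
        spin ((ω (Fin.last k)).2.2.2 r)) (fun _ => 0) := by
    refine indepG hab fun ω x => ?_
    simp only [upd_snd]
  -- perturbation field
  have h3 : IsD (rotF hab) (0 : Fin (k + 1))
      (fun ω => ∑ i : Fin k, ∑ c : Fin N, θ.c i (θ.κ c) * (ω i.castSucc).2.2.1 c * yv k ω c)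
      (fun ω => ∑ i : Fin k, ∑ c : Fin N, (0 * yv k ω c +
        θ.c i (θ.κ c) * (ω i.castSucc).2.2.1 c *
          (if c = a then yv k ω b else if c = b then -yv k ω a else 0))) := by
    refine IsD.sum _ fun i _ => IsD.sum _ fun c _ => ?_
    refine IsD.mul ?_ (yv_isD_rot k hab c)
    refine indepG hab fun ω x => ?_
    simp only [upd_snd]
  -- magnetic part
  have h4 : IsD (rotF hab) (0 : Fin (k + 1))
      (fun ω : Fin (k + 1) → EN N => θ.B (ω (Fin.last k)).2.2.2) (fun _ => 0) := by
    refine indepG hab fun ω x => ?_
    simp only [upd_snd]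
  have h5 := ((h1.add h2).add h3).add h4
  have key : ∀ (g : Fin N → ℝ) (x y : ℝ), ∑ c, g c * (if c = a then x else if c = b then y else 0) =
      g a * x + g b * y := by
    intro g x y
    have h1 : ∀ c, g c * (if c = a then x else if c = b then y else 0) =
        (if c = a then g a * x else 0) + (if c = b then g b * y else 0) := by
      intro c
      by_cases ha : c = a
      · subst ha; simp [hab]
      · by_cases hb : c = b
        · subst hb; simp [ha]
        · simp [ha, hb]
    rw [Finset.sum_congr rfl fun c _ => h1 c, Finset.sum_add_distrib]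
    simp
  have e : (fun ω : Fin (k + 1) → EN N => ((1 / 2) * ∑ c : Fin N, θ.e (θ.κ c) *
        ((if c = a then yv k ω b else if c = b then -yv k ω a else 0) * yv k ω c +
          yv k ω c * (if c = a then yv k ω b else if c = b then -yv k ω a else 0)) + 0 +
        ∑ i : Fin k, ∑ c : Fin N, (0 * yv k ω c +
        θ.c i (θ.κ c) * (ω i.castSucc).2.2.1 c *
          (if c = a then yv k ω b else if c = b then -yv k ω a else 0))) + 0) =
      (fun ω => (θ.e (θ.κ a) - θ.e (θ.κ b)) * (yv k ω a * yv k ω b) +
        ∑ i : Fin k, (θ.c i (θ.κ a) * (ω i.castSucc).2.2.1 a * yv k ω b -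
          θ.c i (θ.κ b) * (ω i.castSucc).2.2.1 b * yv k ω a)) := by
    funext ω
    have e1 : ∀ c, θ.e (θ.κ c) *
        ((if c = a then yv k ω b else if c = b then -yv k ω a else 0) * yv k ω c +
          yv k ω c * (if c = a then yv k ω b else if c = b then -yv k ω a else 0)) =
        (2 * θ.e (θ.κ c) * yv k ω c) *
          (if c = a then yv k ω b else if c = b then -yv k ω a else 0) := fun c => by ring
    have e2 : ∀ (i : Fin k) (c : Fin N), (0 * yv k ω c +
        θ.c i (θ.κ c) * (ω i.castSucc).2.2.1 c *
          (if c = a then yv k ω b else if c = b then -yv k ω a else 0)) =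
        (θ.c i (θ.κ c) * (ω i.castSucc).2.2.1 c) *
          (if c = a then yv k ω b else if c = b then -yv k ω a else 0) := fun i c => by ring
    simp only [e1, e2]
    rw [key (fun c => 2 * θ.e (θ.κ c) * yv k ω c)]
    have e3 : ∀ i : Fin k, ∑ c : Fin N, (θ.c i (θ.κ c) * (ω i.castSucc).2.2.1 c) *
          (if c = a then yv k ω b else if c = b then -yv k ω a else 0) =
        (θ.c i (θ.κ a) * (ω i.castSucc).2.2.1 a * yv k ω b -
          θ.c i (θ.κ b) * (ω i.castSucc).2.2.1 b * yv k ω a) := by
      intro i
      rw [key (fun c => θ.c i (θ.κ c) * (ω i.castSucc).2.2.1 c)]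
      ring
    simp only [e3]
    ring
  rw [← e]
  exact h5

end Crest.Agent.RI
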