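import Crest.Agent.RI.ErrS
import Crest.Agent.RI.CavLow
import Crest.Agent.RI.CavUp

/-!
# Row 164, Part 9: value of one cavity step
-/

set_option autoImplicit false

namespace Crest.Agent.RI

open MeasureTheory ProbabilityTheory

variable {N K J k : ℕ}

/-- VALUE OF `FLW` FOR ONE CAVITY STEP (base size `N`), `r = rC p` any closure values.  PROOF: `cav_low`, `cav_up`, `TT_exact` with `A` large
(`|b| ≤ c₀ + 4 Km + 1`), `rC_nonneg`, `rC_sum` for the side conditions. -/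
theorem flw_value (D : Blk) (J : ℕ) (Km c₀ Ty : ℝ) (hKm : 0 ≤ Km) (hc₀ : 0 ≤ c₀) (hTy : 0 ≤ Ty)
    {ε : ℝ} (hε : 0 < ε) :
    ∃ δ₁ : ℝ, 0 < δ₁ ∧ ∀ k : ℕ, 0 < k → ∃ (s₀ : ℝ) (N₀ : ℕ) (η : ℝ),
      0 < s₀ ∧ 0 < η ∧ ∀ N ≥ N₀, ∀ (P : Measure (ON N)) (P' : Measure (ON (N + 1))), HaarO P →
      HaarO P' → ∀ (L : LBd J), LOK L Km c₀ → ∀ (s : ℝ), 0 ≤ s → s ≤ s₀ →
      ∀ (x : XI k D.K J → ℝ), XOK x → ∀ (κ : Fin N → Fin D.K) (lab : Fin N → Fin J), D.Close η κ →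
      ∀ (l0 : Fin D.K) (j0 : Fin J) (τ : Fin J → ℝ), (∀ j, |τ j| ≤ 1) →
      ∀ (t v : ℝ) (i0 : Fin k), |t| ≤ 1 → 0 ≤ v → v ≤ 1 →
      ∀ p : ℕ → ℝ, PathOK k p →
      errS P D L k s x κ lab (rC D k p) ≤ δ₁ →
      (∑ j, EL P D L k s x κ lab (fun ω => |TJ lab j (cfg k ω) / (N : ℝ) - τ j|) ≤ δ₁ →
        FL P D L k s x κ lab + (rowVal D l0 k p +
          siteVal (ζLB k) (fun i => tauC D k p i + if i = (i0 : ℕ) then v ^ 2 else 0) k
            (bb L τ j0 + t) + (1 / 2) * v ^ 2) + cc L τ - ε ≤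
          FLW P' D L k s x (kc l0 κ) (Fin.cons j0 lab) t v i0) ∧
      (Typ Ty (kc l0 κ) (Fin.cons j0 lab : Fin (N + 1) → Fin J) →
        ∑ j, EL P' D L k s x (kc l0 κ) (Fin.cons j0 lab)
          (fun ω => |TJ (Fin.cons j0 lab : Fin (N + 1) → Fin J) j (cfg k ω) / ((N : ℝ) + 1) - τ j|) ≤
          δ₁ →
        FLW P' D L k s x (kc l0 κ) (Fin.cons j0 lab) t v i0 ≤
          FL P D L k s x κ lab + (rowVal D l0 k p +
          siteVal (ζLB k) (fun i => tauC D k p i + if i = (i0 : ℕ) then v ^ 2 else 0) k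
            (bb L τ j0 + t) + (1 / 2) * v ^ 2) + cc L τ + ε) := by
  have hε2 : 0 < ε / 2 := by positivity
  obtain ⟨A₁, hA₁⟩ := cav_low D J Km c₀ hKm hc₀ hε2
  obtain ⟨A₂, hA₂⟩ := cav_up D J Km c₀ Ty hKm hc₀ hTy hε2
  obtain ⟨A₃, hA₃⟩ := TT_exact D (c₀ + 4 * Km + 1) hε2
  obtain ⟨A, hAd⟩ : ∃ A : ℝ, A = max A₁ (max A₂ A₃) := ⟨_, rfl⟩
  have hA1 : A₁ ≤ A := hAd ▸ le_max_left _ _
  have hA2 : A₂ ≤ A := hAd ▸ (le_max_left _ _).trans (le_max_right _ _)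
  have hA3 : A₃ ≤ A := hAd ▸ (le_max_right _ _).trans (le_max_right _ _)
  obtain ⟨δa, hδa, ha⟩ := hA₁ A hA1
  obtain ⟨δb, hδb, hb⟩ := hA₂ A hA2
  refine ⟨min δa δb, lt_min hδa hδb, fun k hk => ?_⟩
  obtain ⟨sa, Na, ηa, hsa, hηa, ha⟩ := ha k hk
  obtain ⟨sb, Nb, ηb, hsb, hηb, hb⟩ := hb k hk
  refine ⟨min sa sb, max Na Nb, min ηa ηb, lt_min hsa hsb, lt_min hηa hηb, ?_⟩
  intro N hN P P' hP hP' L hL s hs0 hs x hx κ lab hκ l0 j0 τ hτ t v i0 ht hv0 hv1 p hp herr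
  have hNa : Na ≤ N := (le_max_left _ _).trans hN
  have hNb : Nb ≤ N := (le_max_right _ _).trans hN
  have hκa : D.Close ηa κ := fun l => (hκ l).trans (min_le_left _ _)
  have hκb : D.Close ηb κ := fun l => (hκ l).trans (min_le_right _ _)
  have hr0 : ∀ i l, 0 ≤ rC D k p i l := fun i l => rC_nonneg D hk hp i l
  have hr1 : ∀ l, c2 (rC D k p) k l ≤ 1 := by
    intro l
    have h := rC_sum D hk hp l
    unfold c2
    rw [h.1]
    exact h.2.1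
  have hb1 : |bb L τ j0 + t| ≤ c₀ + 4 * Km + 1 := by
    unfold bb
    have h1 := hL.c j0
    have h2 := hτ j0
    have h3 := hL.gm j0
    have h4 := hL.k0
    have h5 := hL.k1
    rw [abs_le] at h1 h2 h3 ht ⊢
    have h6 : |τ j0 - L.γ j0 * L.m j0| ≤ 2 := by
      rw [abs_le]; constructor <;> linarith
    have h7 : |2 * L.kap * (τ j0 - L.γ j0 * L.m j0)| ≤ 4 * Km := by
      rw [abs_mul, abs_of_nonneg (by positivity : (0 : ℝ) ≤ 2 * L.kap)]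
      have := abs_nonneg (τ j0 - L.γ j0 * L.m j0)
      nlinarith
    rw [abs_le] at h7
    constructor <;> linarith
  have hT := hA₃ A hA3 k i0 p hp l0 (bb L τ j0 + t) v hb1 hv0 hv1
  rw [abs_le] at hT
  constructor
  · intro hTJ
    have h := ha N hNa P P' hP hP' L hL s hs0 (hs.trans (min_le_left _ _)) x hx κ lab hκa l0 j0 τ hτ
      t v i0 ht hv0 hv1 (rC D k p) hr0 hr1 (herr.trans (min_le_left _ _))
      (hTJ.trans (min_le_left _ _))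
    linarith [hT.1, hT.2]
  · intro hTyp hTJ
    have h := hb N hNb P P' hP hP' L hL s hs0 (hs.trans (min_le_right _ _)) x hx κ lab hκb l0 j0
      hTyp τ hτ t v i0 ht hv0 hv1 (rC D k p) hr0 hr1 (herr.trans (min_le_right _ _))
      (hTJ.trans (min_le_right _ _))
    linarith [hT.1, hT.2]

end Crest.Agent.RI
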