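import Crest.Agent.RI.SysA

/-!
# Row 164, Part 7 (H6): fourth moment of a Gaussian vector under a Lipschitz tilt
-/

set_option autoImplicit false

namespace Crest.Agent.RI

open MeasureTheory ProbabilityTheory

variable {N : ℕ}

private theorem gt_pdf (x : ℝ) : gaussianPDFReal 0 1 x * Real.exp (x ^ 2 / 4) =
    (Real.sqrt (2 * Real.pi))⁻¹ * Real.exp (-(1 / 4) * x ^ 2) := by
  rw [gaussianPDFReal_def]
  simp only [sub_zero, NNReal.coe_one, mul_one]
  rw [mul_assoc, ← Real.exp_add]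
  congr 2
  ring

private theorem gt_one_int :
    Integrable (fun x : ℝ => Real.exp (x ^ 2 / 4)) (gaussianReal 0 1) := by
  rw [gaussianReal_of_var_ne_zero _ one_ne_zero,
    integrable_withDensity_iff (measurable_gaussianPDF _ _) (ae_of_all _ fun _ => gaussianPDF_lt_top)]
  have h : (fun x : ℝ => Real.exp (x ^ 2 / 4) * (gaussianPDF 0 1 x).toReal) =
      fun x => (Real.sqrt (2 * Real.pi))⁻¹ * Real.exp (-(1 / 4) * x ^ 2) := by
    funext x
    rw [toReal_gaussianPDF, mul_comm, gt_pdf]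
  rw [h]
  exact (integrable_exp_neg_mul_sq (by norm_num)).const_mul _

private theorem gt_one_val :
    ∫ x : ℝ, Real.exp (x ^ 2 / 4) ∂(gaussianReal 0 1) = Real.sqrt 2 := by
  rw [integral_gaussianReal_eq_integral_smul one_ne_zero]
  have h : (fun x : ℝ => gaussianPDFReal 0 1 x • Real.exp (x ^ 2 / 4)) =
      fun x => (Real.sqrt (2 * Real.pi))⁻¹ * Real.exp (-(1 / 4) * x ^ 2) := by
    funext x
    rw [smul_eq_mul, gt_pdf]
  rw [h, integral_const_mul, integral_gaussian, ← Real.sqrt_inv, ← Real.sqrt_mul (by positivity)]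
  congr 1
  have := Real.pi_pos.ne'
  field_simp
  norm_num

private theorem gt_exp_prod (x : Fin N → ℝ) : Real.exp ((∑ a, x a ^ 2) / 4) =
    ∏ a, Real.exp (x a ^ 2 / 4) := by
  rw [Finset.sum_div, Real.exp_sum]

/-- `∫ e^{|x|²/4} dγ = 2^{N/2} ≤ e^N`.  PROOF.  One dimension: `∫ e^{x²/4} dN(0,1) = √2` (Gaussian density, `integral_gaussian`), product over the
coordinates (`integral_fintype_prod_eq_prod`, `Integrable.fintype_prod`). -/
theorem gauss_exp_sq_integrable :
    Integrable (fun x : Fin N → ℝ => Real.exp ((∑ a, x a ^ 2) / 4)) (gvec N) := by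
  unfold gvec
  simp_rw [gt_exp_prod]
  exact Integrable.fintype_prod (f := fun _ x => Real.exp (x ^ 2 / 4)) (fun _ => gt_one_int)

theorem gauss_exp_sq_le :
    ∫ x : Fin N → ℝ, Real.exp ((∑ a, x a ^ 2) / 4) ∂gvec N ≤ Real.exp N := by
  unfold gvec
  simp_rw [gt_exp_prod]
  rw [integral_fintype_prod_eq_prod (fun (_ : Fin N) (x : ℝ) => Real.exp (x ^ 2 / 4)), gt_one_val,
    Finset.prod_const, Finset.card_univ, Fintype.card_fin, ← Real.exp_one_pow]
  apply pow_le_pow_left₀ (Real.sqrt_nonneg 2)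
  have h1 : Real.sqrt 2 ≤ 2 := by
    rw [Real.sqrt_le_left (by norm_num)]; norm_num
  have h2 : (1 : ℝ) + 1 ≤ Real.exp 1 := Real.add_one_le_exp 1
  linarith

private theorem gt_map_eval (a : Fin N) : MeasurePreserving (fun x : Fin N → ℝ => x a) (gvec N)
    (gaussianReal 0 1) := by
  unfold gvec
  exact measurePreserving_eval _ a

private theorem gt_sq_one_int : Integrable (fun x : ℝ => x ^ 2) (gaussianReal 0 1) :=
  (memLp_id_gaussianReal 2).integrable_sq

private theorem gt_sq_one : ∫ x : ℝ, x ^ 2 ∂(gaussianReal 0 1) = 1 := by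
  have h := variance_fun_id_gaussianReal (μ := 0) (v := 1)
  rw [variance_eq_integral (by fun_prop)] at h
  simpa [integral_id_gaussianReal] using h

private theorem gt_sq_int (a : Fin N) : Integrable (fun x : Fin N → ℝ => x a ^ 2) (gvec N) :=
  (gt_map_eval a).integrable_comp_of_integrable gt_sq_one_int

private theorem gt_S_int : Integrable (fun x : Fin N → ℝ => ∑ a, x a ^ 2) (gvec N) :=
  integrable_finsetSum _ (fun a _ => gt_sq_int a)

/-- `E |x|² = N` -/
theorem gauss_sq : ∫ x : Fin N → ℝ, (∑ a, x a ^ 2) ∂gvec N = N := by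
  rw [integral_finsetSum _ (fun a _ => gt_sq_int a)]
  have h : ∀ a : Fin N, ∫ x : Fin N → ℝ, x a ^ 2 ∂gvec N = 1 := by
    intro a
    rw [← gt_sq_one, ← (gt_map_eval a).map_eq,
      integral_map (gt_map_eval a).measurable.aemeasurable (by fun_prop)]
  simp [h]

private theorem gt_rho_meas : Measurable (fun x : Fin N → ℝ => Real.sqrt (∑ a, x a ^ 2)) := by
  fun_prop

/-- Jensen: `∫ e^{-L|x|} ≥ e^{-L E|x|} ≥ e^{-L √N}` -/
theorem gauss_exp_neg {L : ℝ} (hL : 0 ≤ L) :
    Real.exp (-(L * Real.sqrt N)) ≤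
      ∫ x : Fin N → ℝ, Real.exp (-(L * Real.sqrt (∑ a, x a ^ 2))) ∂gvec N := by
  rcases Nat.eq_zero_or_pos N with hN | hN
  · subst hN
    simp
  have hNr : (0 : ℝ) < N := by exact_mod_cast hN
  have hs : 0 < Real.sqrt N := Real.sqrt_pos.mpr hNr
  have hss : Real.sqrt N * Real.sqrt N = N := Real.mul_self_sqrt hNr.le
  have hint : Integrable (fun x : Fin N → ℝ => Real.exp (-(L * Real.sqrt (∑ a, x a ^ 2)))) (gvec N) := by
    refine Integrable.mono' (integrable_const (1 : ℝ)) ?_ ?_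
    · exact (Real.measurable_exp.comp (gt_rho_meas.const_mul L).neg).aestronglyMeasurable
    · refine ae_of_all _ fun x => ?_
      rw [Real.norm_eq_abs, abs_of_pos (Real.exp_pos _), Real.exp_le_one_iff]
      have := mul_nonneg hL (Real.sqrt_nonneg (∑ a, x a ^ 2))
      linarith
  have hlow : ∀ x : Fin N → ℝ, Real.exp (-(L * Real.sqrt N)) *
      (1 - L * ((∑ a, x a ^ 2) / Real.sqrt N + Real.sqrt N) / 2 + L * Real.sqrt N) ≤
      Real.exp (-(L * Real.sqrt (∑ a, x a ^ 2))) := by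
    intro x
    set S := ∑ a, x a ^ 2 with hS
    have hS0 : 0 ≤ S := Finset.sum_nonneg fun a _ => sq_nonneg _
    have hr : Real.sqrt S * Real.sqrt S = S := Real.mul_self_sqrt hS0
    have h1 : Real.sqrt S ≤ (S / Real.sqrt N + Real.sqrt N) / 2 := by
      rw [le_div_iff₀ (by norm_num : (0:ℝ) < 2)]
      have : S / Real.sqrt N + Real.sqrt N - Real.sqrt S * 2 =
          (Real.sqrt S - Real.sqrt N) ^ 2 / Real.sqrt N := by
        field_simp
        nlinarith
      have h3 : 0 ≤ (Real.sqrt S - Real.sqrt N) ^ 2 / Real.sqrt N := by positivity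
      linarith
    have h2 : Real.exp (-(L * Real.sqrt S)) =
        Real.exp (-(L * Real.sqrt N)) * Real.exp (L * Real.sqrt N - L * Real.sqrt S) := by
      rw [← Real.exp_add]; congr 1; ring
    rw [h2]
    refine mul_le_mul_of_nonneg_left ?_ (Real.exp_pos _).le
    have h3 := Real.add_one_le_exp (L * Real.sqrt N - L * Real.sqrt S)
    have h4 := mul_le_mul_of_nonneg_left h1 hL
    linarith
  have hint2 : Integrable (fun x : Fin N → ℝ => Real.exp (-(L * Real.sqrt N)) *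
      (1 - L * ((∑ a, x a ^ 2) / Real.sqrt N + Real.sqrt N) / 2 + L * Real.sqrt N)) (gvec N) := by
    have hi := gt_S_int (N := N)
    have : Integrable (fun x : Fin N → ℝ =>
      (1 - L * ((∑ a, x a ^ 2) / Real.sqrt N + Real.sqrt N) / 2 + L * Real.sqrt N)) (gvec N) := by
      refine Integrable.add (Integrable.sub (integrable_const _) ?_) (integrable_const _)
      exact (((hi.div_const _).add (integrable_const _)).const_mul L).div_const 2
    exact this.const_mul _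
  have hmono := integral_mono hint2 hint hlow
  refine le_trans (le_of_eq ?_) hmono
  rw [integral_const_mul]
  have hval : ∫ x : Fin N → ℝ, (1 - L * ((∑ a, x a ^ 2) / Real.sqrt N + Real.sqrt N) / 2 +
      L * Real.sqrt N) ∂gvec N = 1 := by
    have e : (fun x : Fin N → ℝ => 1 - L * ((∑ a, x a ^ 2) / Real.sqrt N + Real.sqrt N) / 2 +
      L * Real.sqrt N) = fun x => (1 + L * Real.sqrt N / 2) +
        (-(L / (2 * Real.sqrt N))) * (∑ a, x a ^ 2) := by
      funext x
      field_simp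
      ring
    rw [e, integral_add (integrable_const _) (gt_S_int.const_mul _), integral_const_mul, gauss_sq]
    simp
    field_simp
    nlinarith
  rw [hval, mul_one]

private theorem gt_f_bounds {L : ℝ} {f : (Fin N → ℝ) → ℝ}
    (hlip : ∀ x y, |f x - f y| ≤ L * Real.sqrt (∑ a, (x a - y a) ^ 2)) (x : Fin N → ℝ) :
    f x ≤ f 0 + L * Real.sqrt (∑ a, x a ^ 2) ∧ f 0 - L * Real.sqrt (∑ a, x a ^ 2) ≤ f x := by
  have h := abs_le.mp (hlip x 0)
  simp only [Pi.zero_apply, sub_zero] at h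
  constructor <;> linarith [h.1, h.2]

private theorem gt_upper {L : ℝ} {f : (Fin N → ℝ) → ℝ}
    (hlip : ∀ x y, |f x - f y| ≤ L * Real.sqrt (∑ a, (x a - y a) ^ 2)) (x : Fin N → ℝ) :
    Real.exp ((∑ a, x a ^ 2) / 8 + f x) ≤
      Real.exp (f 0 + 2 * L ^ 2) * Real.exp ((∑ a, x a ^ 2) / 4) := by
  rw [← Real.exp_add]
  apply Real.exp_le_exp.mpr
  have h1 := (gt_f_bounds hlip x).1
  have hS0 : 0 ≤ ∑ a, x a ^ 2 := Finset.sum_nonneg fun a _ => sq_nonneg _
  have hr : Real.sqrt (∑ a, x a ^ 2) * Real.sqrt (∑ a, x a ^ 2) = ∑ a, x a ^ 2 :=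
    Real.mul_self_sqrt hS0
  nlinarith [sq_nonneg (Real.sqrt (∑ a, x a ^ 2) - 4 * L)]

private theorem gt_int8 {L : ℝ} {f : (Fin N → ℝ) → ℝ} (hf : Measurable f)
    (hlip : ∀ x y, |f x - f y| ≤ L * Real.sqrt (∑ a, (x a - y a) ^ 2)) :
    Integrable (fun x : Fin N → ℝ => Real.exp ((∑ a, x a ^ 2) / 8 + f x)) (gvec N) := by
  refine Integrable.mono' (gauss_exp_sq_integrable.const_mul (Real.exp (f 0 + 2 * L ^ 2))) ?_ ?_
  · refine Measurable.aestronglyMeasurable ?_
    fun_prop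
  · refine ae_of_all _ fun x => ?_
    rw [Real.norm_eq_abs, abs_of_pos (Real.exp_pos _)]
    exact gt_upper hlip x

private theorem gt_intf {L : ℝ} {f : (Fin N → ℝ) → ℝ} (hf : Measurable f)
    (hlip : ∀ x y, |f x - f y| ≤ L * Real.sqrt (∑ a, (x a - y a) ^ 2)) :
    Integrable (fun x : Fin N → ℝ => Real.exp (f x)) (gvec N) := by
  refine Integrable.mono' (gt_int8 hf hlip) ?_ ?_
  · refine Measurable.aestronglyMeasurable ?_
    fun_prop
  · refine ae_of_all _ fun x => ?_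
    rw [Real.norm_eq_abs, abs_of_pos (Real.exp_pos _)]
    apply Real.exp_le_exp.mpr
    have hS0 : 0 ≤ ∑ a, x a ^ 2 := Finset.sum_nonneg fun a _ => sq_nonneg _
    linarith

private theorem gt_pt (M t : ℝ) (hM : 0 ≤ M) (ht : 0 ≤ t) :
    t ^ 2 ≤ 2 * M ^ 2 + 4 * (Real.exp (-M) * Real.exp t) := by
  rw [← Real.exp_add]
  rcases le_total t M with h | h
  · have := Real.exp_pos (-M + t)
    nlinarith
  · have h1 := Real.quadratic_le_exp_of_nonneg (x := -M + t) (by linarith)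
    nlinarith [sq_nonneg (M - (t - M))]

private theorem gt_pt2 (M S F : ℝ) (hM : 0 ≤ M) (hS : 0 ≤ S) :
    S ^ 2 * Real.exp F ≤ 128 * M ^ 2 * Real.exp F + 256 * Real.exp (-M) * Real.exp (S / 8 + F) := by
  have h := gt_pt M (S / 8) hM (by positivity)
  rw [Real.exp_add]
  have hF := Real.exp_pos F
  have h2 := mul_le_mul_of_nonneg_right h hF.le
  nlinarith

theorem gauss_tilt_integrable_aux {L : ℝ} {f : (Fin N → ℝ) → ℝ} (hf : Measurable f)
    (hlip : ∀ x y, |f x - f y| ≤ L * Real.sqrt (∑ a, (x a - y a) ^ 2)) :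
    Integrable (fun x : Fin N → ℝ => (∑ a, x a ^ 2) ^ 2 * Real.exp (f x)) (gvec N) := by
  refine Integrable.mono' (((gt_intf hf hlip).const_mul (128 * (0:ℝ) ^ 2)).add
    ((gt_int8 hf hlip).const_mul (256 * Real.exp (-0)))) ?_ ?_
  · refine Measurable.aestronglyMeasurable ?_
    fun_prop
  · refine ae_of_all _ fun x => ?_
    have hS0 : 0 ≤ ∑ a, x a ^ 2 := Finset.sum_nonneg fun a _ => sq_nonneg _
    rw [Real.norm_eq_abs, abs_of_nonneg (by positivity)]
    exact gt_pt2 0 _ _ le_rfl hS0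

/-- TILT LEMMA.  PROOF.  `M = 3 L² + 2 N`.  Upper bound `f x ≤ f 0 + L|x| ≤ f 0 + 2 L² + |x|²/8`, so
`∫ e^{|x|²/8 + f} ≤ e^{f 0 + 2 L²} ∫ e^{|x|²/4} ≤ e^{f 0 + 2L² + N}`; lower bound `∫ e^f ≥ e^{f 0} ∫ e^{-L|x|} ≥ e^{f 0 - L√N} ≥ e^{f 0 - L² - N}`; so
`∫ e^{|x|²/8 + f} ≤ e^M ∫ e^f`.  With `t = |x|²/8`: `t² ≤ 2 M² + 4 e^{t - M}` (`s² ≤ 2 e^s` for `s = (t-M)_+ ≥ 0`), so
`∫ t² e^f ≤ (2 M² + 4) ∫ e^f`. -/
theorem gauss_tilt {L : ℝ} (hL : 0 ≤ L) {f : (Fin N → ℝ) → ℝ} (hf : Measurable f)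
    (hlip : ∀ x y, |f x - f y| ≤ L * Real.sqrt (∑ a, (x a - y a) ^ 2)) :
    ∫ x : Fin N → ℝ, (∑ a, x a ^ 2) ^ 2 * Real.exp (f x) ∂gvec N ≤
      64 * (2 * (3 * L ^ 2 + 2 * N) ^ 2 + 4) * ∫ x, Real.exp (f x) ∂gvec N := by
  set M : ℝ := 3 * L ^ 2 + 2 * N with hMdef
  have hM : 0 ≤ M := by positivity
  set I : ℝ := ∫ x, Real.exp (f x) ∂gvec N with hI
  set J : ℝ := ∫ x, Real.exp ((∑ a, x a ^ 2) / 8 + f x) ∂gvec N with hJ
  have hJu : J ≤ Real.exp (f 0 + 2 * L ^ 2) * Real.exp N := by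
    calc J ≤ ∫ x, Real.exp (f 0 + 2 * L ^ 2) * Real.exp ((∑ a, x a ^ 2) / 4) ∂gvec N :=
          integral_mono (gt_int8 hf hlip) (gauss_exp_sq_integrable.const_mul _) (gt_upper hlip)
      _ = Real.exp (f 0 + 2 * L ^ 2) * ∫ x, Real.exp ((∑ a, x a ^ 2) / 4) ∂gvec N := by
          rw [integral_const_mul]
      _ ≤ _ := mul_le_mul_of_nonneg_left gauss_exp_sq_le (Real.exp_pos _).le
  have hneg_int : Integrable (fun x : Fin N → ℝ => Real.exp (-(L * Real.sqrt (∑ a, x a ^ 2))))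
      (gvec N) := by
    refine Integrable.mono' (integrable_const (1 : ℝ)) ?_ ?_
    · exact (Real.measurable_exp.comp (gt_rho_meas.const_mul L).neg).aestronglyMeasurable
    · refine ae_of_all _ fun x => ?_
      rw [Real.norm_eq_abs, abs_of_pos (Real.exp_pos _), Real.exp_le_one_iff]
      have := mul_nonneg hL (Real.sqrt_nonneg (∑ a, x a ^ 2))
      linarith
  have hIl : Real.exp (f 0) * Real.exp (-(L * Real.sqrt N)) ≤ I := by
    calc Real.exp (f 0) * Real.exp (-(L * Real.sqrt N)) ≤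
        Real.exp (f 0) * ∫ x : Fin N → ℝ, Real.exp (-(L * Real.sqrt (∑ a, x a ^ 2))) ∂gvec N :=
          mul_le_mul_of_nonneg_left (gauss_exp_neg hL) (Real.exp_pos _).le
      _ = ∫ x : Fin N → ℝ, Real.exp (f 0) * Real.exp (-(L * Real.sqrt (∑ a, x a ^ 2))) ∂gvec N := by
          rw [integral_const_mul]
      _ ≤ I := by
          refine integral_mono (hneg_int.const_mul _) (gt_intf hf hlip) fun x => ?_
          simp only
          rw [← Real.exp_add]
          apply Real.exp_le_exp.mpr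
          have := (gt_f_bounds hlip x).2
          linarith
  have hJM : Real.exp (-M) * J ≤ I := by
    calc Real.exp (-M) * J ≤ Real.exp (-M) * (Real.exp (f 0 + 2 * L ^ 2) * Real.exp N) :=
          mul_le_mul_of_nonneg_left hJu (Real.exp_pos _).le
      _ ≤ Real.exp (f 0) * Real.exp (-(L * Real.sqrt N)) := by
          rw [← Real.exp_add, ← Real.exp_add, ← Real.exp_add]
          apply Real.exp_le_exp.mpr
          have hN0 : (0 : ℝ) ≤ N := Nat.cast_nonneg N
          have hss : Real.sqrt N * Real.sqrt N = N := Real.mul_self_sqrt hN0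
          rw [hMdef]
          nlinarith [sq_nonneg (Real.sqrt N - L), sq_nonneg L]
      _ ≤ I := hIl
  calc ∫ x : Fin N → ℝ, (∑ a, x a ^ 2) ^ 2 * Real.exp (f x) ∂gvec N
      ≤ ∫ x : Fin N → ℝ, (128 * M ^ 2 * Real.exp (f x) +
          256 * Real.exp (-M) * Real.exp ((∑ a, x a ^ 2) / 8 + f x)) ∂gvec N := by
        refine integral_mono (gauss_tilt_integrable_aux hf hlip)
          (((gt_intf hf hlip).const_mul _).add ((gt_int8 hf hlip).const_mul _)) fun x => ?_
        exact gt_pt2 M _ _ hM (Finset.sum_nonneg fun a _ => sq_nonneg _)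
    _ = 128 * M ^ 2 * I + 256 * Real.exp (-M) * J := by
        rw [integral_add ((gt_intf hf hlip).const_mul _) ((gt_int8 hf hlip).const_mul _),
          integral_const_mul, integral_const_mul]
    _ ≤ 64 * (2 * M ^ 2 + 4) * I := by
        nlinarith

theorem gauss_tilt_integrable {L : ℝ} (hL : 0 ≤ L) {f : (Fin N → ℝ) → ℝ} (hf : Measurable f)
    (hlip : ∀ x y, |f x - f y| ≤ L * Real.sqrt (∑ a, (x a - y a) ^ 2)) :
    Integrable (fun x : Fin N → ℝ => (∑ a, x a ^ 2) ^ 2 * Real.exp (f x)) (gvec N) :=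
  gauss_tilt_integrable_aux hf hlip

end Crest.Agent.RI
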