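import Crest.Agent.RI.SelfTop
import Crest.Agent.RI.CloseAvg
import Crest.Agent.RI.CavCr

/-!
# Row 164, Part 9: most parameters are good
-/

set_option autoImplicit false

namespace Crest.Agent.RI

open MeasureTheory ProbabilityTheory

variable {J k : ℕ}

private theorem goodM_min {ι : Type*} [Finite ι] (f : ι → ℝ) (hf : ∀ i, 0 < f i) :
    ∃ c : ℝ, 0 < c ∧ ∀ i, c ≤ f i := by
  cases isEmpty_or_nonempty ι with
  | inl h => exact ⟨1, one_pos, fun i => (h.false i).elim⟩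
  | inr h =>
    obtain ⟨i0, h0⟩ := Finite.exists_min f
    exact ⟨f i0, hf i0, h0⟩

private theorem goodM_card {M n : ℕ} (hM : 0 < M) (κ : Fin M → Fin n) (α : Fin n → ℝ) {c : ℝ}
    (hc : 0 < c) (hα : ∀ l, c ≤ α l)
    (h : ∀ l, |((Finset.univ.filter (fun a => κ a = l)).card : ℝ) / (M : ℝ) - α l| ≤ c / 2)
    (b : Fin M) :
    (M : ℝ) ≤ (2 / c) * ((Finset.univ.filter (fun a => κ a = κ b)).card : ℝ) := by
  have h1 := (abs_le.1 (h (κ b))).1
  have h2 := hα (κ b)
  have hMr : (0 : ℝ) < M := Nat.cast_pos.2 hM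
  set X : ℝ := ((Finset.univ.filter (fun a => κ a = κ b)).card : ℝ) with hX
  have h3 : c / 2 ≤ X / M := by linarith
  rw [le_div_iff₀ hMr] at h3
  have h4 : (2 / c) * (c / 2 * (M : ℝ)) ≤ (2 / c) * X :=
    mul_le_mul_of_nonneg_left h3 (by positivity)
  have h5 : (2 / c) * (c / 2 * (M : ℝ)) = M := by field_simp
  linarith

private theorem goodM_union {ι : Type*} [Fintype ι] {K J k : ℕ}
    (F : ι → (XI k K J → ℝ) → ℝ) {B ε' δ : ℝ} (hδ : 0 < δ)
    (hF : ∀ a, Measurable (F a)) (hB : ∀ a, ∀ x, InC x → |F a x| ≤ B)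
    (h0 : ∀ a x, 0 ≤ F a x) (h : ∀ a, ∫ x, F a x ∂(cubeM k K J) ≤ ε' * δ) :
    (cubeM k K J).real (⋃ a, {x | δ < F a x}) ≤ (Fintype.card ι : ℝ) * ε' ∧
      MeasurableSet (⋃ a, {x : XI k K J → ℝ | δ < F a x}) := by
  haveI := cubeM_prob k K J
  refine ⟨?_, MeasurableSet.iUnion fun a => measurableSet_lt measurable_const (hF a)⟩
  calc (cubeM k K J).real (⋃ a, {x | δ < F a x})
      ≤ ∑ a, (cubeM k K J).real {x | δ < F a x} := measureReal_iUnion_fintype_le _
    _ ≤ ∑ _a : ι, ε' := Finset.sum_le_sum fun a _ =>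
        cube_markov (hF a) (hB a) (h0 a) hδ (h a)
    _ = (Fintype.card ι : ℝ) * ε' := by
        rw [Finset.sum_const, Finset.card_univ, nsmul_eq_mul]

/-- MOST PARAMETERS ARE GOOD.  PROOF: `conc_avg` (top and bases: `close_tail`), `close_avg` with the constant of `cav_crude` (`|FL top - FL base| ≤ C` for all `x` by
`FL_swap`, `kc (κ 0) (tail κ) = κ`, `Typ` of the top from the closeness of the counts), `cube_markov` for each of the finitely many functionals. -/
theorem good_most (D : Blk) (γ : Fin J → ℝ) (hγ : ∀ j, 0 < γ j) (hs : ∑ j, γ j = 1)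
    (Km c₀ : ℝ) (hKm : 0 ≤ Km) (hc₀ : 0 ≤ c₀) (k : ℕ) (hk : 0 < k) {s : ℝ} (hs0 : 0 < s)
    (hs1 : 3 * s * (1 + k) ≤ 1) {δ ε : ℝ} (hδ : 0 < δ) (hε : 0 < ε) :
    ∃ (N₀ : ℕ) (η : ℝ), 0 < η ∧ ∀ N ≥ N₀, ∀ (P : Measure (ON N)) (P' : Measure (ON (N + 1))),
      HaarO P → HaarO P' → ∀ (L : LBd J), LOK L Km c₀ → L.γ = γ →
      ∀ (κ : Fin (N + 1) → Fin D.K) (lab : Fin (N + 1) → Fin J), D.Close η κ → LClose γ η lab →
      ∀ (r : Fin J → Fin (N + 1)), (∀ j, lab (r j) = j) →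
      (cubeM k D.K J).real {x | ¬ GoodX P P' D L k s x κ lab r δ} ≤ ε ∧
      MeasurableSet {x : XI k D.K J → ℝ | ¬ GoodX P P' D L k s x κ lab r δ} := by
  have hkr : (0 : ℝ) ≤ k := Nat.cast_nonneg k
  have hs3 : 3 * s ≤ 1 := by nlinarith
  have hs1' : s * (1 + k) ≤ 1 := by nlinarith
  -- constants
  obtain ⟨cα, hcα, hcα'⟩ := goodM_min D.α D.pos
  obtain ⟨cγ, hcγ, hcγ'⟩ := goodM_min γ hγ
  set c : ℝ := min cα cγ with hcdef
  have hc : 0 < c := lt_min hcα hcγ
  have hcα2 : ∀ l, c ≤ D.α l := fun l => (min_le_left _ _).trans (hcα' l)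
  have hcγ2 : ∀ j, c ≤ γ j := fun j => (min_le_right _ _).trans (hcγ' j)
  obtain ⟨C, hC, hcav⟩ := cav_crude D J Km c₀ (2 / c) hKm hc₀ (by positivity)
  -- index type
  let ι : Type := XI k D.K J ⊕ (Fin J × XI k D.K J) ⊕ (Fin J × XI k D.K J)
  set m : ℝ := (Fintype.card ι : ℝ) with hm
  have hm0 : 0 ≤ m := Nat.cast_nonneg _
  set ε' : ℝ := ε / (m + 1) with hε'
  have hε'0 : 0 < ε' := by positivity
  have hmε : m * ε' ≤ ε := by
    rw [hε', ← mul_div_assoc, div_le_iff₀ (by positivity)]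
    nlinarith
  have hεδ : 0 < ε' * δ := mul_pos hε'0 hδ
  obtain ⟨N1, η1, hη1, hconc⟩ := conc_avg D J k hk hs0 hs3 hεδ
  obtain ⟨N2, hclose⟩ := close_avg D J k hk hs0 hs3 Km c₀ C hεδ
  refine ⟨N1 + N2 + 1 + ⌈6 / η1⌉₊, min (η1 / 4) (c / 2), lt_min (by positivity) (by positivity), ?_⟩
  intro N hN P P' hP hP' L hL hLγ κ lab hκ hlab r hr
  have hN0 : 0 < N := by omega
  have hN1 : N1 ≤ N := by omega
  have hN2 : N2 ≤ N := by omega
  have hNr : (0 : ℝ) < N := Nat.cast_pos.2 hN0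
  have hN3 : 6 / η1 ≤ (N : ℝ) := by
    refine (Nat.le_ceil _).trans ?_
    have : ⌈6 / η1⌉₊ ≤ N := by omega
    exact_mod_cast this
  have h3N : 3 / (N : ℝ) ≤ η1 / 2 := by
    rw [div_le_iff₀ hη1] at hN3
    rw [div_le_iff₀ hNr]
    linarith
  -- closeness
  have hκtop : D.Close η1 κ := fun l =>
    (hκ l).trans ((min_le_left _ _).trans (by linarith))
  have hκtail : D.Close η1 (Fin.tail κ : Fin N → Fin D.K) := by
    intro l
    refine (close_tail D hN0 hκ l).trans ?_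
    have : min (η1 / 4) (c / 2) ≤ η1 / 4 := min_le_left _ _
    linarith
  have hTyp : Typ (2 / c) κ lab := by
    refine ⟨fun b => ?_, fun b => ?_⟩
    · exact goodM_card (Nat.succ_pos N) κ D.α hc hcα2
        (fun l => (hκ l).trans (min_le_right _ _)) b
    · exact goodM_card (Nat.succ_pos N) lab γ hc hcγ2
        (fun l => (hlab l).trans (min_le_right _ _)) b
  -- the increments
  have hinc : ∀ j, ∀ x : XI k D.K J → ℝ, XOK x →
      |FL P' D L k s x κ lab -
        FL P D L k s x (Fin.tail κ : Fin N → Fin D.K) (rml lab (r j))| ≤ C := by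
    intro j x hx
    have hkc : kc (κ 0) (Fin.tail κ : Fin N → Fin D.K) = κ := Fin.cons_self_tail κ
    obtain ⟨h1, h2⟩ := hcav k hk N (by omega) P P' hP hP' L hL s hs0.le hs1' x hx
      (Fin.tail κ : Fin N → Fin D.K) (rml lab (r j)) (κ 0) (lab (r j))
    rw [hkc] at h1 h2
    have h3 := h2 (typ_swap hTyp (r j))
    rw [FL_swap hP' D L s x κ lab (r j)] at h1 h3
    rw [abs_le]
    constructor <;> linarith
  -- the functionals
  let F : ι → (XI k D.K J → ℝ) → ℝ := fun a x =>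
    Sum.elim (fun i => flu P' D L k s x κ lab i)
      (Sum.elim (fun q : Fin J × XI k D.K J =>
          flu P D L k s x (Fin.tail κ : Fin N → Fin D.K) (rml lab (r q.1)) q.2)
        (fun q : Fin J × XI k D.K J => |EL P' D L k s x κ lab (dirV k κ lab q.2) -
          EL P D L k s x (Fin.tail κ : Fin N → Fin D.K) (rml lab (r q.1))
            (dirV k (Fin.tail κ : Fin N → Fin D.K) (rml lab (r q.1)) q.2)|)) a
  have hset : {x : XI k D.K J → ℝ | ¬ GoodX P P' D L k s x κ lab r δ} =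
      ⋃ a, {x | δ < F a x} := by
    ext x
    simp only [Set.mem_setOf_eq, Set.mem_iUnion]
    constructor
    · intro hx
      by_contra hcon
      push Not at hcon
      apply hx
      refine ⟨fun i => hcon (Sum.inl i), fun j i => hcon (Sum.inr (Sum.inl (j, i))),
        fun j i => hcon (Sum.inr (Sum.inr (j, i)))⟩
    · rintro ⟨a, ha⟩ hG
      rcases a with i | ⟨j, i⟩ | ⟨j, i⟩
      · exact absurd (hG.top i) (not_le.2 ha)
      · exact absurd (hG.base j i) (not_le.2 ha)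
      · exact absurd (hG.mean j i) (not_le.2 ha)
  have hdm1 : ∀ i, Measurable (Function.uncurry fun (_ : XI k D.K J → ℝ)
      (ω : Fin (k + 1) → EN (N + 1)) => dirV k κ lab i ω) := fun i =>
    (dirV_ham κ lab i).meas.comp measurable_snd
  have hdm2 : ∀ (lab' : Fin N → Fin J) i, Measurable (Function.uncurry fun (_ : XI k D.K J → ℝ)
      (ω : Fin (k + 1) → EN N) => dirV k (Fin.tail κ : Fin N → Fin D.K) lab' i ω) :=
    fun lab' i => (dirV_ham _ lab' i).meas.comp measurable_snd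
  have hFm : ∀ a, Measurable (F a) := by
    rintro (i | ⟨j, i⟩ | ⟨j, i⟩)
    · exact measurable_flu hP' D L s κ lab i
    · exact measurable_flu hP D L s _ _ i
    · exact measurable_abs.comp ((measurable_ELx hP' D L s κ lab (hdm1 i)).sub
        (measurable_ELx hP D L s _ _ (hdm2 _ i)))
  have hF0 : ∀ a x, 0 ≤ F a x := by
    rintro (i | ⟨j, i⟩ | ⟨j, i⟩) x
    · exact flu_nonneg hP' D L s x κ lab i
    · exact flu_nonneg hP D L s x _ _ i
    · exact abs_nonneg _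
  have hFB : ∃ B : ℝ, ∀ a, ∀ x, InC x → |F a x| ≤ B := by
    have h1 : ∀ a : ι, ∃ B : ℝ, ∀ x, InC x → |F a x| ≤ B := by
      rintro (i | ⟨j, i⟩ | ⟨j, i⟩)
      · exact flu_bdd hk (Nat.succ_pos N) hP' D L hs0.le hs3 κ lab i
      · exact flu_bdd hk hN0 hP D L hs0.le hs3 _ _ i
      · refine ⟨2, fun x hx => ?_⟩
        have h1 := EL_dirV_abs hk (Nat.succ_pos N) hP' D L hs0.le hs3 hx.xok κ lab i
        have h2 := EL_dirV_abs hk hN0 hP D L hs0.le hs3 hx.xok
          (Fin.tail κ : Fin N → Fin D.K) (rml lab (r j)) i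
        have h3 := abs_sub (EL P' D L k s x κ lab (dirV k κ lab i))
          (EL P D L k s x (Fin.tail κ : Fin N → Fin D.K) (rml lab (r j))
            (dirV k (Fin.tail κ : Fin N → Fin D.K) (rml lab (r j)) i))
        show |(|_|)| ≤ 2
        rw [abs_abs]
        exact h3.trans (by linarith)
    choose B hB using h1
    refine ⟨∑ a, |B a|, fun a x hx => (hB a x hx).trans ((le_abs_self _).trans ?_)⟩
    exact Finset.single_le_sum (f := fun a => |B a|) (fun a _ => abs_nonneg _)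
      (Finset.mem_univ a)
  obtain ⟨B, hB⟩ := hFB
  have hFi : ∀ a, ∫ x, F a x ∂(cubeM k D.K J) ≤ ε' * δ := by
    rintro (i | ⟨j, i⟩ | ⟨j, i⟩)
    · exact hconc (N + 1) (by omega) (Nat.succ_pos N) P' hP' L κ lab hκtop i
    · exact hconc N hN1 hN0 P hP L _ _ hκtail i
    · exact hclose N hN2 hN0 P P' hP hP' L hL _ _ κ lab (hinc j) i
  have key := goodM_union F (ε' := ε') hδ hFm hB hF0 hFi
  rw [hset]
  exact ⟨key.1.trans hmε, key.2⟩

end Crest.Agent.RI
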