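import Crest.Agent.RI.GrowX
import Crest.Agent.RI.CavCr

/-!
# Row 164, Part 9: crude bound of the increment
-/

set_option autoImplicit false

namespace Crest.Agent.RI

open MeasureTheory ProbabilityTheory

variable {J k : ℕ}

theorem measurable_tLBx {N : ℕ} {P : Measure (ON N)} (hP : HaarO P) (D : Blk) (L : LBd J) (s : ℝ)
    (κ : Fin N → Fin D.K) (lab : Fin N → Fin J) (j : Fin J) :
    Measurable (fun x : XI k D.K J → ℝ => tLB P D L k s x κ lab j) := by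
  have hT : Measurable (Function.uncurry fun (_ : XI k D.K J → ℝ) (ω : Fin (k + 1) → EN N) =>
      TJ lab j (cfg k ω) / (N : ℝ)) := by
    exact (((LBLinB_TJ_meas lab j).comp (LBLinB_cfg_meas k)).comp measurable_snd).div_const _
  exact measurable_ELx hP D L s κ lab hT

/-- lower bound of the increment for ALL labels.  PROOF: `cav_crude` (first half), `Σ α_l γ_j = 1`. -/
theorem incL_ge (D : Blk) (γ : Fin J → ℝ) (hγ : ∀ j, 0 < γ j) (hs : ∑ j, γ j = 1) (Km c₀ : ℝ)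
    (hKm : 0 ≤ Km) (hc₀ : 0 ≤ c₀) : ∃ C : ℝ, 0 ≤ C ∧ ∀ k : ℕ, 0 < k → ∀ N : ℕ, 1 ≤ N →
    ∀ (P : Measure (ON N)) (P' : Measure (ON (N + 1))), HaarO P → HaarO P' → ∀ (L : LBd J),
      LOK L Km c₀ → L.γ = γ → ∀ (s : ℝ), 0 ≤ s → s * (1 + k) ≤ 1 →
      ∀ (x : XI k D.K J → ℝ), XOK x → ∀ (κ : Fin N → Fin D.K) (lab : Fin N → Fin J),
      - C ≤ incL P P' D L k s x κ lab := by
  obtain ⟨C, hC, h⟩ := cav_crude D J Km c₀ 0 hKm hc₀ le_rfl
  refine ⟨C, hC, ?_⟩
  intro k hk N hN P P' hP hP' L hL hLγ s hs0 hs1 x hx κ lab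
  unfold incL
  have hsum : ∑ l, ∑ j, D.α l * L.γ j = 1 := by
    have h1 : ∀ l, ∑ j, D.α l * L.γ j = D.α l := by
      intro l
      rw [← Finset.mul_sum, hLγ, hs, mul_one]
    rw [Finset.sum_congr rfl fun l _ => h1 l, D.sum]
  have h2 : - C = ∑ l, ∑ j, D.α l * L.γ j * (-C) := by
    simp_rw [← Finset.sum_mul]
    rw [hsum, one_mul]
  rw [h2]
  refine Finset.sum_le_sum fun l _ => Finset.sum_le_sum fun j _ => ?_
  refine mul_le_mul_of_nonneg_left ?_ (mul_nonneg (D.pos l).le ?_)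
  · have h3 := (h k hk N hN P P' hP hP' L hL s hs0 hs1 x hx κ lab l j).1
    linarith
  · rw [hLγ]
    exact (hγ j).le

end Crest.Agent.RI
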