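import Crest.Agent.RI.GrowA
import Crest.Agent.RI.GoodM

/-!
# Row 164, Part 9: growth of the free energy averaged over the parameters
-/

set_option autoImplicit false

namespace Crest.Agent.RI

open MeasureTheory ProbabilityTheory

variable {J k : ℕ}

private theorem GrowAvg_close_mono (D : Blk) {η η' : ℝ} (h : η ≤ η') {N : ℕ}
    {κ : Fin N → Fin D.K} (hc : D.Close η κ) : D.Close η' κ :=
  fun l => (hc l).trans h

/-- a positive lower bound of finitely many positive numbers -/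
private theorem GrowAvg_min (γ : Fin J → ℝ) (hγ : ∀ j, 0 < γ j) :
    ∃ g : ℝ, 0 < g ∧ ∀ j, g ≤ γ j := by
  classical
  by_cases hJ : Nonempty (Fin J)
  · obtain ⟨j0, -, hj0⟩ := Finset.exists_min_image (Finset.univ : Finset (Fin J)) γ
      Finset.univ_nonempty
    exact ⟨γ j0, hγ j0, fun j => hj0 j (Finset.mem_univ j)⟩
  · exact ⟨1, one_pos, fun j => (hJ ⟨j⟩).elim⟩

/-- `incL` is integrable over the cube -/
private theorem GrowAvg_int (D : Blk) (hk : 0 < k) {s : ℝ} (hs : 0 ≤ s) (hs1 : 3 * s ≤ 1)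
    {Km c₀ : ℝ} {N : ℕ} (hN : 0 < N) {P : Measure (ON N)} {P' : Measure (ON (N + 1))}
    (hP : HaarO P) (hP' : HaarO P') {L : LBd J} (hL : LOK L Km c₀) (κ : Fin N → Fin D.K)
    (lab : Fin N → Fin J) :
    Integrable (fun x => incL P P' D L k s x κ lab) (cubeM k D.K J) := by
  unfold incL
  refine integrable_finsetSum _ fun l _ => integrable_finsetSum _ fun j _ => ?_
  refine Integrable.const_mul (Integrable.sub ?_ ?_) _
  · refine cube_integrable (measurable_FLx hP' D L s _ _)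
      (B := 3 * s * (N + 1 : ℕ) * ((D.K : ℝ) + J + k * D.K) +
        ((∑ l, |D.d l|) + (∑ j, |L.c j|) + 4 * J * L.kap) * (N + 1 : ℕ)) ?_
    intro x hx
    have h1 := FL_pert hk (Nat.succ_pos N) hP' D L hs hs1 hx.xok (kc l κ)
      (Fin.cons j lab : Fin (N + 1) → Fin J)
    have h2 := FL_zero_abs hk (Nat.succ_pos N) hP' D L hL.k0 hL.gm s (kc l κ)
      (Fin.cons j lab : Fin (N + 1) → Fin J)
    have h3 := abs_add_le (FL P' D L k s x (kc l κ) (Fin.cons j lab) -
      FL P' D L k s 0 (kc l κ) (Fin.cons j lab)) (FL P' D L k s 0 (kc l κ) (Fin.cons j lab))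
    rw [sub_add_cancel] at h3
    linarith
  · refine cube_integrable (measurable_FLx hP D L s _ _)
      (B := 3 * s * N * ((D.K : ℝ) + J + k * D.K) +
        ((∑ l, |D.d l|) + (∑ j, |L.c j|) + 4 * J * L.kap) * N) ?_
    intro x hx
    have h1 := FL_pert hk hN hP D L hs hs1 hx.xok κ lab
    have h2 := FL_zero_abs hk hN hP D L hL.k0 hL.gm s κ lab
    have h3 := abs_add_le (FL P D L k s x κ lab - FL P D L k s 0 κ lab)
      (FL P D L k s 0 κ lab)
    rw [sub_add_cancel] at h3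
    linarith

/-- the quadratic deviation is integrable -/
private theorem GrowAvg_intQ (D : Blk) (s : ℝ) {N : ℕ} {P : Measure (ON N)}
    (hP : HaarO P) (L : LBd J) (κ : Fin N → Fin D.K) (lab : Fin N → Fin J) (a : Fin J → ℝ) :
    Integrable (fun x => ∑ j, (tLB P D L k s x κ lab j - a j) ^ 2) (cubeM k D.K J) := by
  refine cube_integrable (B := ∑ j, (1 + |a j|) ^ 2) ?_ ?_
  · refine Finset.measurable_sum _ fun j _ => ?_
    exact ((measurable_tLBx hP D L s κ lab j).sub_const _).pow_const 2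
  · intro x _
    rw [abs_of_nonneg (Finset.sum_nonneg fun j _ => sq_nonneg _)]
    refine Finset.sum_le_sum fun j _ => ?_
    have h1 := tLB_abs hP D L s x κ lab j
    have h2 : |tLB P D L k s x κ lab j - a j| ≤ 1 + |a j| := by
      have := abs_sub (tLB P D L k s x κ lab j) (a j)
      linarith
    rw [← sq_abs]
    exact pow_le_pow_left₀ (abs_nonneg _) h2 2

/-- GROWTH AVERAGED OVER THE CUBE.  PROOF: on the good set `growth_good`, on the bad set `incL ≥ -C` (`incL_ge`) and `A - .. ≤ |A|`, `good_most` with `ε/(C + |A|)`;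
every class is nonempty for `η` small, so `r` exists. -/
theorem growth_avg (D : Blk) (γ c m : Fin J → ℝ) (hγ : ∀ j, 0 < γ j) (hs : ∑ j, γ j = 1)
    (hm : ∀ j, |m j| < 1) {V ε : ℝ} (hε : 0 < ε) (hV : VLe D γ m V) :
    ∃ Cδ : ℝ, 0 ≤ Cδ ∧ ∀ Km : ℝ, 0 ≤ Km → ∃ k₀ : ℕ, ∀ k ≥ k₀, 0 < k →
    ∃ s₀ : ℝ, 0 < s₀ ∧ ∀ s : ℝ, 0 < s → s ≤ s₀ → ∃ (N₀ : ℕ) (η : ℝ), 0 < η ∧
    ∀ N ≥ N₀, ∀ (P : Measure (ON (N + 1))) (P' : Measure (ON (N + 1 + 1))),
      HaarO P → HaarO P' → ∀ kap : ℝ, 0 ≤ kap → kap ≤ Km →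
      ∀ (κ : Fin (N + 1) → Fin D.K) (lab : Fin (N + 1) → Fin J), D.Close η κ → LClose γ η lab →
      ∑ j, γ j * c j * m j + V - ε - (Cδ + kap) * ∫ x,
          ∑ j, (tLB P D ⟨γ, c, m, kap⟩ k s x κ lab j - γ j * m j) ^ 2 ∂(cubeM k D.K J) ≤
        ∫ x, incL P P' D ⟨γ, c, m, kap⟩ k s x κ lab ∂(cubeM k D.K J) := by
  classical
  obtain ⟨Cδ, hCδ, hgood⟩ := growth_good D γ c m hγ hs hm (half_pos hε) hV
  refine ⟨Cδ, hCδ, fun Km hKm => ?_⟩
  set c₀ : ℝ := ∑ j, |c j| with hc₀def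
  have hc₀ : 0 ≤ c₀ := Finset.sum_nonneg fun j _ => abs_nonneg _
  obtain ⟨C, hC, hge⟩ := incL_ge D γ hγ hs Km c₀ hKm hc₀
  obtain ⟨k₀, hk₀⟩ := hgood Km hKm
  refine ⟨k₀, fun k hk hk0 => ?_⟩
  obtain ⟨s₁, hs₁, hs₁'⟩ := hk₀ k hk hk0
  have hkk : (0 : ℝ) < 3 * (1 + k) := by positivity
  refine ⟨min s₁ (1 / (3 * (1 + k))), lt_min hs₁ (by positivity), fun s hs0 hss => ?_⟩
  have hsa : s ≤ s₁ := hss.trans (min_le_left _ _)
  have hsb : s ≤ 1 / (3 * (1 + k)) := hss.trans (min_le_right _ _)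
  have hsc : 3 * s * (1 + k) ≤ 1 := by
    rw [le_div_iff₀ hkk] at hsb
    linarith
  have hkr : (0 : ℝ) ≤ k := Nat.cast_nonneg k
  have hsk : 0 ≤ s * k := mul_nonneg hs0.le hkr
  have hsd : s * (1 + k) ≤ 1 := by nlinarith
  have hse : 3 * s ≤ 1 := by nlinarith
  obtain ⟨δ, N₁, η₁, hδ, hη₁, h1⟩ := hs₁' s hs0 hsa
  set A : ℝ := ∑ j, γ j * c j * m j + V - ε / 2 with hA
  have hAC : 0 < C + |A| + 1 := by positivity
  obtain ⟨N₂, η₂, hη₂, h2⟩ := good_most D γ hγ hs Km c₀ hKm hc₀ k hk0 hs0 hsc hδ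
    (ε := ε / 2 / (C + |A| + 1)) (by positivity)
  obtain ⟨g, hg, hgγ⟩ := GrowAvg_min γ hγ
  refine ⟨max N₁ N₂, min (min η₁ η₂) (g / 2), by positivity, ?_⟩
  intro N hN P P' hP hP' kap hkap hkap' κ lab hκ hlab
  have hκ1 : D.Close η₁ κ := GrowAvg_close_mono D ((min_le_left _ _).trans (min_le_left _ _)) hκ
  have hκ2 : D.Close η₂ κ := GrowAvg_close_mono D ((min_le_left _ _).trans (min_le_right _ _)) hκ
  have hl1 : LClose γ η₁ lab :=
    fun j => (hlab j).trans ((min_le_left _ _).trans (min_le_left _ _))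
  have hl2 : LClose γ η₂ lab :=
    fun j => (hlab j).trans ((min_le_left _ _).trans (min_le_right _ _))
  -- representatives
  have hr : ∀ j, ∃ r : Fin (N + 1), lab r = j := by
    intro j
    by_contra hne
    push Not at hne
    have hemp : Finset.univ.filter (fun r => lab r = j) = ∅ := by
      rw [Finset.filter_eq_empty_iff]
      intro r _
      exact hne r
    have h3 := (hlab j).trans (min_le_right _ _)
    rw [hemp] at h3
    simp only [Finset.card_empty, Nat.cast_zero, zero_div, zero_sub, abs_neg] at h3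
    rw [abs_of_pos (hγ j)] at h3
    have := hgγ j
    linarith
  choose r hr using hr
  obtain ⟨P₀, hP₀⟩ := exists_haarO N
  -- the data
  set L : LBd J := ⟨γ, c, m, kap⟩ with hLdef
  have hγ1 : ∀ j, γ j ≤ 1 := fun j => by
    rw [← hs]
    exact Finset.single_le_sum (f := γ) (fun i _ => (hγ i).le) (Finset.mem_univ j)
  have hL : LOK L Km c₀ :=
    { k0 := hkap
      k1 := hkap'
      gm := fun j => by
        show |γ j * m j| ≤ 1
        rw [abs_mul, abs_of_pos (hγ j)]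
        exact mul_le_one₀ (hγ1 j) (abs_nonneg _) (hm j).le
      c := fun j => Finset.single_le_sum (f := fun j => |c j|) (fun i _ => abs_nonneg _)
        (Finset.mem_univ j) }
  obtain ⟨hbad, hbadm⟩ := h2 N (le_trans (le_max_right _ _) hN) P₀ P hP₀ hP L hL rfl κ lab hκ2 hl2
    r hr
  set B : Set (XI k D.K J → ℝ) := {x | ¬ GoodX P₀ P D L k s x κ lab r δ} with hB
  set Q : (XI k D.K J → ℝ) → ℝ :=
    fun x => ∑ j, (tLB P D L k s x κ lab j - γ j * m j) ^ 2 with hQ
  have hQ0 : ∀ x, 0 ≤ Q x := fun x => Finset.sum_nonneg fun j _ => sq_nonneg _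
  have hQi : Integrable Q (cubeM k D.K J) := GrowAvg_intQ D s hP L κ lab (fun j => γ j * m j)
  have hIi : Integrable (fun x => incL P P' D L k s x κ lab) (cubeM k D.K J) :=
    GrowAvg_int D hk0 hs0.le hse (Nat.succ_pos N) hP hP' hL κ lab
  have := cubeM_prob k D.K J
  have hBi : Integrable (B.indicator (fun _ => C + |A|)) (cubeM k D.K J) :=
    (integrable_const _).indicator hbadm
  have hpt : ∀ᵐ x ∂(cubeM k D.K J), A - (Cδ + kap) * Q x - B.indicator (fun _ => C + |A|) x ≤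
      incL P P' D L k s x κ lab := by
    filter_upwards [cubeM_ae k D.K J] with x hx
    by_cases hxB : x ∈ B
    · rw [Set.indicator_of_mem hxB]
      have h4 := hge k hk0 (N + 1) (Nat.succ_le_succ (Nat.zero_le N)) P P' hP hP' L hL rfl s hs0.le
        hsd x hx.xok κ lab
      have h5 := le_abs_self A
      have h6 : 0 ≤ (Cδ + kap) * Q x := mul_nonneg (by linarith) (hQ0 x)
      linarith
    · rw [Set.indicator_of_notMem hxB]
      have hgx : GoodX P₀ P D L k s x κ lab r δ := by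
        by_contra h
        exact hxB h
      have h4 := h1 N (le_trans (le_max_left _ _) hN) P₀ P P' hP₀ hP hP' kap hkap hkap' κ lab hκ1
        hl1 r hr x hx hgx
      rw [sub_zero]
      exact h4
  have hint := integral_mono_ae (((integrable_const A).sub (hQi.const_mul (Cδ + kap))).sub hBi)
    hIi hpt
  have e1 : ∫ x, (A - (Cδ + kap) * Q x - B.indicator (fun _ => C + |A|) x) ∂(cubeM k D.K J) =
      A - (Cδ + kap) * ∫ x, Q x ∂(cubeM k D.K J) - (cubeM k D.K J).real B * (C + |A|) := by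
    have hi1 : Integrable (fun x => A - (Cδ + kap) * Q x) (cubeM k D.K J) :=
      (integrable_const A).sub (hQi.const_mul (Cδ + kap))
    rw [integral_sub hi1 hBi,
      integral_sub (integrable_const A) (hQi.const_mul (Cδ + kap)), integral_const_mul,
      integral_indicator hbadm, integral_const, setIntegral_const]
    simp
  have hint' : A - (Cδ + kap) * ∫ x, Q x ∂(cubeM k D.K J) - (cubeM k D.K J).real B * (C + |A|) ≤
      ∫ x, incL P P' D L k s x κ lab ∂(cubeM k D.K J) := by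
    rw [← e1]
    exact hint
  have h7 : (cubeM k D.K J).real B * (C + |A|) ≤ ε / 2 := by
    have h8 : (cubeM k D.K J).real B * (C + |A|) ≤ ε / 2 / (C + |A| + 1) * (C + |A| + 1) := by
      refine mul_le_mul hbad (by linarith) (by positivity) (by positivity)
    rwa [div_mul_cancel₀ _ hAC.ne'] at h8
  have e2 : A = ∑ j, γ j * c j * m j + V - ε / 2 := rfl
  linarith

end Crest.Agent.RI
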