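import Crest.Agent.RI.ValA

/-!
# Row 164, Part 9: the variational inequality for self-consistent data (pure analysis)
-/

set_option autoImplicit false

namespace Crest.Agent.RI

open MeasureTheory ProbabilityTheory

variable {J : ℕ}

private theorem ValIneq_gmin (γ : Fin J → ℝ) (hγ : ∀ j, 0 < γ j) : ∃ g : ℝ, 0 < g ∧ ∀ j, g ≤ γ j := by
  rcases isEmpty_or_nonempty (Fin J) with h | h
  · exact ⟨1, one_pos, fun j => (h.false j).elim⟩
  · obtain ⟨j0, hj0⟩ := Finite.exists_min γ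
    exact ⟨γ j0, hγ j0, hj0⟩

/-- the magnetic algebra: `Σ b_j τ_j + cc = Σ c_j τ_j - kap Σ δ_j²` -/
private theorem ValIneq_alg (γ c m τ : Fin J → ℝ) (kap : ℝ) :
    ∑ j, bb ⟨γ, c, m, kap⟩ τ j * τ j + cc ⟨γ, c, m, kap⟩ τ =
      ∑ j, γ j * c j * m j + ∑ j, c j * (τ j - γ j * m j) -
        kap * ∑ j, (τ j - γ j * m j) ^ 2 := by
  unfold bb cc
  simp only
  have e1 : ∑ j, (c j - 2 * kap * (τ j - γ j * m j)) * τ j =
      ∑ j, γ j * c j * m j + ∑ j, c j * (τ j - γ j * m j) -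
        2 * kap * ∑ j, (τ j - γ j * m j) ^ 2 -
        2 * kap * ∑ j, (τ j - γ j * m j) * (γ j * m j) := by
    rw [Finset.mul_sum, Finset.mul_sum, ← Finset.sum_add_distrib, ← Finset.sum_sub_distrib,
      ← Finset.sum_sub_distrib]
    refine Finset.sum_congr rfl fun j _ => ?_
    ring
  rw [e1]
  ring

private theorem ValIneq_cs (c δ : Fin J → ℝ) {ε : ℝ} (hε : 0 < ε) :
    -(ε / 4 + (∑ j, c j ^ 2) / ε * ∑ j, δ j ^ 2) ≤ ∑ j, c j * δ j := by
  have h := Finset.sum_mul_sq_le_sq_mul_sq Finset.univ c δ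
  set x := ∑ j, c j * δ j
  set A := ∑ j, c j ^ 2
  set B := ∑ j, δ j ^ 2
  have h1 : 0 ≤ (x + ε / 2) ^ 2 / ε := by positivity
  have h2 : (x + ε / 2) ^ 2 / ε = x ^ 2 / ε + x + ε / 4 := by
    field_simp
    ring
  have h3 : x ^ 2 / ε ≤ A * B / ε := div_le_div_of_nonneg_right h hε.le
  have h4 : A * B / ε = A / ε * B := by ring
  linarith

/-- THE VARIATIONAL INEQUALITY.  `L = ⟨γ, c, m, kap⟩`, `b_j = c_j - 2 kap (τ_j - γ_j m_j)` (`bb L τ j`), `m°_j = siteM(b_j)`, `q = Σ γ_j siteQ(b_j)`, `δ_j = τ_j - γ_j m_j`.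
PROOF.  (1) `siteVal(b_j) = siteLeg(m°_j) + b_j m°_j` (`siteLeg_crit`, `abs_siteM_lt`); (2) `SB_site` and `stepK k q` a trial path (`isTrialPath_stepK`): if `VLe D γ m° W` then
`W ≤ Σ γ_j siteLeg(m°_j) + ½ (1/k) Σ q_i h*_i + G(stepK q)`; (3) `p → q`: `abel_hh`, `hC_bound`, `pdist_stepK`, `GLip` (`Blk.G_lip`) cost `C ε₄`;
(4) `Σ γ_j b_j m°_j + cc ≥ Σ c_j τ_j - kap Σ δ_j² - C ε₄` by `|τ_j - γ_j m°_j| ≤ ε₄`; `Σ c_j τ_j ≥ Σ γ_j c_j m_j - ε/4 - (Σ c_j²/ε) Σ δ_j²`;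
(5) if `|m°_j - m_j| ≤ δ_V` for all `j` (`VLe_cont_of` with `ε/4`) take `W = V - ε/4`; otherwise `Σ δ_j² ≥ (γ_min δ_V/2)²` and the bracket in (2) is `≥ - log 2 - C_G` (`SB_ge`, `G_bdd`). -/
theorem value_ineq (D : Blk) (γ c m : Fin J → ℝ) (hγ : ∀ j, 0 < γ j) (hs : ∑ j, γ j = 1)
    (hm : ∀ j, |m j| < 1) {V ε : ℝ} (hε : 0 < ε) (hV : VLe D γ m V) :
    ∃ Cδ : ℝ, 0 ≤ Cδ ∧ ∀ Km : ℝ, 0 ≤ Km → ∃ ε₄ : ℝ, 0 < ε₄ ∧ ∀ k : ℕ, 0 < k → ∀ kap : ℝ, 0 ≤ kap →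
      kap ≤ Km → ∀ (p : ℕ → ℝ), PathOK k p → ∀ τ : Fin J → ℝ, (∀ j, |τ j| ≤ 1) →
      (∀ j, |τ j - γ j * siteM (ζLB k) (tauC D k p) k (bb ⟨γ, c, m, kap⟩ τ j)| ≤ ε₄) →
      (∀ i < k, |∑ q ∈ Finset.Ico i k, (1 / (k : ℝ)) * (p q -
        ∑ j, γ j * siteQ (ζLB k) (tauC D k p) k (bb ⟨γ, c, m, kap⟩ τ j) q)| ≤ ε₄) →
      ∑ j, γ j * c j * m j + V - ε - (Cδ + kap) * ∑ j, (τ j - γ j * m j) ^ 2 ≤
        ∑ j, γ j * siteVal (ζLB k) (tauC D k p) k (bb ⟨γ, c, m, kap⟩ τ j) +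
          (1 / 2) * ((1 / (k : ℝ)) * ∑ i ∈ Finset.range k, p i * hh (tauC D k p) i) +
          D.G (stepK k p) + cc ⟨γ, c, m, kap⟩ τ := by
  obtain ⟨CL, hCL⟩ := D.G_lip
  obtain ⟨CG, hCG0, hCG⟩ := G_bdd D
  obtain ⟨Ch, hCh0, hCh⟩ := hC_bound D
  obtain ⟨g, hg0, hg⟩ := ValIneq_gmin γ hγ
  obtain ⟨δV, hδV0, hδV⟩ := VLe_cont_of D hCL γ m (fun j => (hγ j).le) hs hm
    (show 0 < ε / 4 by positivity) hV
  have hlog2 : 0 < Real.log 2 := Real.log_pos (by norm_num)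
  set A : ℝ := ∑ j, c j ^ 2 with hA
  have hA0 : 0 ≤ A := Finset.sum_nonneg fun j _ => sq_nonneg _
  set B : ℝ := (|V| + Real.log 2 + CG) / (g * δV / 2) ^ 2 with hB
  have hgδ : 0 < g * δV / 2 := by positivity
  have hB0 : 0 ≤ B := by positivity
  refine ⟨A / ε + B, by positivity, ?_⟩
  intro Km hKm
  set C1 : ℝ := (1 / 2) * Ch + CL + ∑ j, (|c j| + 4 * Km) with hC1
  have hC10 : 0 ≤ C1 := by
    have h1 : 0 ≤ ∑ j, (|c j| + 4 * Km) := Finset.sum_nonneg fun j _ => by positivity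
    have := hCL.1
    positivity
  refine ⟨min (ε / (4 * (C1 + 1))) (g * δV / 2), lt_min (by positivity) hgδ, ?_⟩
  set ε₄ : ℝ := min (ε / (4 * (C1 + 1))) (g * δV / 2) with hε₄
  have hε₄0 : 0 < ε₄ := lt_min (by positivity) hgδ
  have hε₄1 : C1 * ε₄ ≤ ε / 4 := by
    have h1 : ε₄ ≤ ε / (4 * (C1 + 1)) := min_le_left _ _
    calc C1 * ε₄ ≤ (C1 + 1) * (ε / (4 * (C1 + 1))) :=
          mul_le_mul (by linarith) h1 hε₄0.le (by linarith)
      _ = ε / 4 := by field_simp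
  have hε₄2 : ε₄ ≤ g * δV / 2 := min_le_right _ _
  intro k hk kap hkap hkapK p hp τ hτ hM hQ
  have hζ := exps_LB k
  have hζk := ζLB_last hk
  set T := tauC D k p with hT
  have hT0 : ∀ i, 0 ≤ T i := fun i => tauC_nonneg D hk hp i
  set b : Fin J → ℝ := fun j => bb ⟨γ, c, m, kap⟩ τ j with hb
  set mo : Fin J → ℝ := fun j => siteM (ζLB k) T k (b j) with hmo
  set q : ℕ → ℝ := fun i => ∑ j, γ j * siteQ (ζLB k) T k (b j) i with hq
  have hmo1 : ∀ j, |mo j| < 1 := fun j => abs_siteM_lt hζ hζk hT0 (b j)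
  have hSB := SB_site γ b (fun j => (hγ j).le) hk hT0 hmo1
  set S : ℝ := ∑ j, γ j * siteLeg (ζLB k) T k (siteM (ζLB k) T k (b j)) +
        (1 / 2) * ((1 / (k : ℝ)) * ∑ i ∈ Finset.range k,
          (∑ j, γ j * siteQ (ζLB k) T k (b j) i) * hh T i) with hS
  have htq : Crest.ProbabilityR.InvariantGlass.IsTrialPath (stepK k q) := by
    refine isTrialPath_stepK hk (fun i hi => ⟨?_, ?_⟩) (fun i j hij hj => ?_)
    · exact Finset.sum_nonneg fun j _ => mul_nonneg (hγ j).le (siteQ_nonneg hζ T (b j) hi)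
    · calc ∑ j, γ j * siteQ (ζLB k) T k (b j) i ≤ ∑ j, γ j * 1 :=
            Finset.sum_le_sum fun j _ => mul_le_mul_of_nonneg_left (siteQ_le_one hζ T (b j) hi)
              (hγ j).le
        _ = 1 := by simp only [mul_one]; exact hs
    · exact Finset.sum_le_sum fun l _ => mul_le_mul_of_nonneg_left
        (siteQ_mono hζ T (b l) hij hj) (hγ l).le
  have htp : Crest.ProbabilityR.InvariantGlass.IsTrialPath (stepK k p) :=
    isTrialPath_stepK hk hp.mem hp.mono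
  -- the bracket
  have hSlow : - Real.log 2 ≤ S := SB_ge (fun j => (hγ j).le) hs (fun j => (hmo1 j).le) hSB
  have hGq := abs_le.1 (hCG _ htq)
  -- (3)
  have h3a : |∑ i ∈ Finset.range k, ((1 / (k : ℝ)) * (p i - q i)) * hh T i| ≤
      ε₄ * ∑ i ∈ Finset.range k, T i := abel_hh T _ hT0 hQ
  have h3b : ∑ i ∈ Finset.range k, T i ≤ Ch := by
    obtain ⟨h1, h2⟩ := hCh k p hk hp (k - 1) (by omega)
    have h3 : hh T (k - 1) = ∑ i ∈ Finset.range k, T i := by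
      unfold hh
      rw [Nat.sub_add_cancel hk]
    rw [← h3, h1]
    exact h2
  have h3c : ∑ i ∈ Finset.range k, ((1 / (k : ℝ)) * (p i - q i)) * hh T i =
      (1 / (k : ℝ)) * ∑ i ∈ Finset.range k, p i * hh T i -
        (1 / (k : ℝ)) * ∑ i ∈ Finset.range k, q i * hh T i := by
    rw [Finset.mul_sum, Finset.mul_sum, ← Finset.sum_sub_distrib]
    refine Finset.sum_congr rfl fun i _ => ?_
    ring
  have h3d : (1 / (k : ℝ)) * ∑ i ∈ Finset.range k, q i * hh T i - Ch * ε₄ ≤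
      (1 / (k : ℝ)) * ∑ i ∈ Finset.range k, p i * hh T i := by
    have h1 := (abs_le.1 h3a).1
    rw [h3c] at h1
    have h2 : ε₄ * ∑ i ∈ Finset.range k, T i ≤ ε₄ * Ch := mul_le_mul_of_nonneg_left h3b hε₄0.le
    linarith
  have h3e : D.G (stepK k q) - CL * ε₄ ≤ D.G (stepK k p) := by
    have h1 := hCL.2 (stepK k p) (stepK k q) htp htq ε₄ hε₄0.le (pdist_stepK hk p q hε₄0.le hQ)
    have h2 := (abs_le.1 h1).1
    linarith
  -- (1)
  have h1 : ∑ j, γ j * siteVal (ζLB k) T k (b j) =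
      ∑ j, γ j * siteLeg (ζLB k) T k (siteM (ζLB k) T k (b j)) + ∑ j, γ j * (b j * mo j) := by
    rw [← Finset.sum_add_distrib]
    refine Finset.sum_congr rfl fun j _ => ?_
    rw [siteLeg_crit hζ (sExps_LB hk) hζk hT0 (b j) (hmo1 j).le]
    ring
  -- (4)
  have hγ1 : ∀ j, γ j ≤ 1 := fun j => by
    rw [← hs]
    exact Finset.single_le_sum (f := γ) (fun i _ => (hγ i).le) (Finset.mem_univ j)
  have hbj : ∀ j, |b j| ≤ |c j| + 4 * Km := by
    intro j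
    have e1 : b j = c j - 2 * kap * (τ j - γ j * m j) := rfl
    have e2 : |γ j * m j| ≤ 1 := by
      rw [abs_mul, abs_of_pos (hγ j)]
      calc γ j * |m j| ≤ 1 * 1 := mul_le_mul (hγ1 j) (hm j).le (abs_nonneg _) zero_le_one
        _ = 1 := one_mul 1
    have e3 : |τ j - γ j * m j| ≤ 2 := by
      calc |τ j - γ j * m j| ≤ |τ j| + |γ j * m j| := abs_sub _ _
        _ ≤ 2 := by linarith [hτ j]
    calc |b j| ≤ |c j| + |2 * kap * (τ j - γ j * m j)| := by rw [e1]; exact abs_sub _ _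
      _ = |c j| + 2 * kap * |τ j - γ j * m j| := by
          rw [abs_mul, abs_of_nonneg (by linarith : (0 : ℝ) ≤ 2 * kap)]
      _ ≤ |c j| + 2 * Km * 2 := by
          have : 2 * kap * |τ j - γ j * m j| ≤ 2 * Km * 2 :=
            mul_le_mul (by linarith) e3 (abs_nonneg _) (by linarith)
          linarith
      _ = |c j| + 4 * Km := by ring
  have h4a : ∑ j, b j * τ j - (∑ j, (|c j| + 4 * Km)) * ε₄ ≤ ∑ j, γ j * (b j * mo j) := by
    rw [Finset.sum_mul, ← Finset.sum_sub_distrib]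
    refine Finset.sum_le_sum fun j _ => ?_
    have e1 : b j * (τ j - γ j * mo j) ≤ (|c j| + 4 * Km) * ε₄ := by
      calc b j * (τ j - γ j * mo j) ≤ |b j * (τ j - γ j * mo j)| := le_abs_self _
        _ = |b j| * |τ j - γ j * mo j| := abs_mul _ _
        _ ≤ _ := mul_le_mul (hbj j) (hM j) (abs_nonneg _) ((abs_nonneg _).trans (hbj j))
    nlinarith [e1]
  have h4b := ValIneq_alg γ c m τ kap
  have h4c := ValIneq_cs c (fun j => τ j - γ j * m j) hε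
  set Dl : ℝ := ∑ j, (τ j - γ j * m j) ^ 2 with hDl
  have hDl0 : 0 ≤ Dl := Finset.sum_nonneg fun j _ => sq_nonneg _
  -- total
  have hbk : (A / ε + B + kap) * Dl = A / ε * Dl + B * Dl + kap * Dl := by ring
  have hC1e : C1 * ε₄ = (1 / 2) * (Ch * ε₄) + CL * ε₄ + (∑ j, (|c j| + 4 * Km)) * ε₄ := by
    rw [hC1]; ring
  suffices hmain : V - ε * (3 / 4) - B * Dl ≤ S + D.G (stepK k q) - C1 * ε₄ by
    rw [hbk, h1]
    have hSe : S = ∑ j, γ j * siteLeg (ζLB k) T k (siteM (ζLB k) T k (b j)) +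
        (1 / 2) * ((1 / (k : ℝ)) * ∑ i ∈ Finset.range k, q i * hh T i) := rfl
    have h4b' : ∑ j, b j * τ j + cc ⟨γ, c, m, kap⟩ τ =
      ∑ j, γ j * c j * m j + ∑ j, c j * (τ j - γ j * m j) - kap * Dl := h4b
    linarith
  by_cases hcase : ∀ j, |mo j - m j| ≤ δV
  · have h5 := hδV mo hcase (stepK k q) htq S hSB
    have h6 : 0 ≤ B * Dl := mul_nonneg hB0 hDl0
    linarith
  · push Not at hcase
    obtain ⟨j, hj⟩ := hcase
    have h5 : g * δV / 2 ≤ |τ j - γ j * m j| := by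
      have e1 : |γ j * (mo j - m j)| ≤ |τ j - γ j * m j| + |τ j - γ j * mo j| := by
        have : γ j * (mo j - m j) = (τ j - γ j * m j) - (τ j - γ j * mo j) := by ring
        rw [this]
        exact abs_sub _ _
      have e2 : g * δV ≤ |γ j * (mo j - m j)| := by
        rw [abs_mul, abs_of_pos (hγ j)]
        exact mul_le_mul (hg j) hj.le hδV0.le (hγ j).le
      have e3 := hM j
      have e4 : |τ j - γ j * mo j| ≤ g * δV / 2 := le_trans e3 hε₄2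
      linarith
    have h6 : (g * δV / 2) ^ 2 ≤ Dl := by
      calc (g * δV / 2) ^ 2 ≤ |τ j - γ j * m j| ^ 2 := pow_le_pow_left₀ hgδ.le h5 2
        _ = (τ j - γ j * m j) ^ 2 := sq_abs _
        _ ≤ Dl := Finset.single_le_sum (f := fun j => (τ j - γ j * m j) ^ 2)
            (fun i _ => sq_nonneg _) (Finset.mem_univ j)
    have h7 : |V| + Real.log 2 + CG ≤ B * Dl := by
      calc |V| + Real.log 2 + CG = B * (g * δV / 2) ^ 2 := by
            rw [hB]; field_simp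
        _ ≤ B * Dl := mul_le_mul_of_nonneg_left h6 hB0
    have h8 := le_abs_self V
    linarith [hGq.1]

end Crest.Agent.RI
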