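import Crest.Agent.RI.SelfTop
import Crest.Agent.RI.ValIneq

/-!
# Row 164, Part 9: growth of the free energy at good parameters
-/

set_option autoImplicit false

namespace Crest.Agent.RI

open MeasureTheory ProbabilityTheory

variable {J k : ℕ}

/-- averaged increment of the free energy: one row with law `α`, one spin with law `γ` -/
noncomputable def incL {N : ℕ} (P : Measure (ON N)) (P' : Measure (ON (N + 1))) (D : Blk)
    (L : LBd J) (k : ℕ) (s : ℝ) (x : XI k D.K J → ℝ) (κ : Fin N → Fin D.K)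
    (lab : Fin N → Fin J) : ℝ :=
  ∑ l, ∑ j, D.α l * L.γ j *
    (FL P' D L k s x (kc l κ) (Fin.cons j lab) - FL P D L k s x κ lab)

theorem GrowX_FLW_zero {N : ℕ} (P : Measure (ON (N + 1))) (D : Blk) (L : LBd J) (s : ℝ)
    (x : XI k D.K J → ℝ) (κ : Fin (N + 1) → Fin D.K) (lab : Fin (N + 1) → Fin J) (i0 : Fin k) :
    FLW P D L k s x κ lab 0 0 i0 = FL P D L k s x κ lab := by
  unfold FLW FL
  congr 1
  funext ω
  unfold Wf
  ring

theorem GrowX_typ (D : Blk) (γ : Fin J → ℝ) (hγ : ∀ j, 0 < γ j) :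
    ∃ (Ty η₀ : ℝ), 0 ≤ Ty ∧ 0 < η₀ ∧ ∀ (N : ℕ) (κ : Fin N → Fin D.K) (lab : Fin N → Fin J),
      D.Close η₀ κ → LClose γ η₀ lab → Typ Ty κ lab := by
  set S : ℝ := ∑ l, (D.α l)⁻¹ + ∑ j, (γ j)⁻¹ + 1 with hS
  have h1 : ∀ l, (D.α l)⁻¹ ≤ S := by
    intro l
    have a1 : (D.α l)⁻¹ ≤ ∑ l, (D.α l)⁻¹ :=
      Finset.single_le_sum (f := fun l => (D.α l)⁻¹) (fun i _ => (inv_pos.2 (D.pos i)).le)
        (Finset.mem_univ l)
    have a2 : 0 ≤ ∑ j, (γ j)⁻¹ := Finset.sum_nonneg fun j _ => (inv_pos.2 (hγ j)).le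
    linarith
  have h2 : ∀ j, (γ j)⁻¹ ≤ S := by
    intro j
    have a1 : (γ j)⁻¹ ≤ ∑ j, (γ j)⁻¹ :=
      Finset.single_le_sum (f := fun j => (γ j)⁻¹) (fun i _ => (inv_pos.2 (hγ i)).le)
        (Finset.mem_univ j)
    have a2 : 0 ≤ ∑ l, (D.α l)⁻¹ := Finset.sum_nonneg fun j _ => (inv_pos.2 (D.pos j)).le
    linarith
  have hS0 : 0 < S := by
    have a1 : 0 ≤ ∑ j, (γ j)⁻¹ := Finset.sum_nonneg fun j _ => (inv_pos.2 (hγ j)).le
    have a2 : 0 ≤ ∑ l, (D.α l)⁻¹ := Finset.sum_nonneg fun j _ => (inv_pos.2 (D.pos j)).le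
    linarith
  have key : ∀ (N : ℕ) (c a : ℝ), 0 ≤ c → 0 < a → a⁻¹ ≤ S → |c / (N : ℝ) - a| ≤ S⁻¹ / 2 →
      (N : ℝ) ≤ 2 * S * c := by
    intro N c a hc ha haS h
    rcases Nat.eq_zero_or_pos N with h0 | hN
    · subst h0
      simp only [Nat.cast_zero]
      positivity
    · have hN' : (0 : ℝ) < N := by exact_mod_cast hN
      have hSi : S⁻¹ ≤ a := by
        rw [inv_le_comm₀ hS0 ha]
        exact haS
      have h3 := (abs_le.1 h).1
      have h4 : S⁻¹ / 2 ≤ c / N := by linarith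
      rw [le_div_iff₀ hN'] at h4
      have h5 : S * S⁻¹ = 1 := mul_inv_cancel₀ hS0.ne'
      have h6 : 2 * S * (S⁻¹ / 2 * N) ≤ 2 * S * c := mul_le_mul_of_nonneg_left h4 (by positivity)
      have h7 : 2 * S * (S⁻¹ / 2 * N) = (S * S⁻¹) * N := by ring
      rw [h7, h5, one_mul] at h6
      exact h6
  refine ⟨2 * S, S⁻¹ / 2, by positivity, by positivity, fun N κ lab hκ hlab => ⟨fun b => ?_, fun b => ?_⟩⟩
  · exact key N _ _ (Nat.cast_nonneg _) (D.pos (κ b)) (h1 _) (hκ (κ b))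
  · exact key N _ _ (Nat.cast_nonneg _) (hγ (lab b)) (h2 _) (hlab (lab b))

set_option maxHeartbeats 1000000 in
/-- GROWTH AT GOOD PARAMETERS.  PROOF: `incL ≥ Σ_l α_l rowVal_l + Σ_j γ_j siteVal(b_j) + cc - ε/4` by `flw_value` at the base `(κ, lab)` (`t = v = 0`: `FLW = FL`;
`errS_top`; `Σ_j E|T_j/N - τ_j| ≤ Σ flu`), `row_avg`, then `value_ineq` with `self_top` (`prop lab j` replaced by `γ_j`: `|prop - γ| ≤ η`, `|siteM|, |siteQ| ≤ 1`).
ORDER OF CHOICES: `Cδ` from `value_ineq` (with `ε/2`), then `Km`, `ε₄`, then `flw_value` (δ₁), `self_top (ε₄/2)`, `errS_top (δ₁)`. `Ty = 2 / min(α, γ)`. -/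
theorem growth_good (D : Blk) (γ c m : Fin J → ℝ) (hγ : ∀ j, 0 < γ j) (hs : ∑ j, γ j = 1)
    (hm : ∀ j, |m j| < 1) {V ε : ℝ} (hε : 0 < ε) (hV : VLe D γ m V) :
    ∃ Cδ : ℝ, 0 ≤ Cδ ∧ ∀ Km : ℝ, 0 ≤ Km → ∃ k₀ : ℕ, ∀ k ≥ k₀, 0 < k →
    ∃ s₀ : ℝ, 0 < s₀ ∧ ∀ s : ℝ, 0 < s → s ≤ s₀ → ∃ (δ : ℝ) (N₀ : ℕ) (η : ℝ), 0 < δ ∧ 0 < η ∧
    ∀ N ≥ N₀, ∀ (P : Measure (ON N)) (P' : Measure (ON (N + 1))) (P'' : Measure (ON (N + 1 + 1))),
      HaarO P → HaarO P' → HaarO P'' → ∀ kap : ℝ, 0 ≤ kap → kap ≤ Km →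
      ∀ (κ : Fin (N + 1) → Fin D.K) (lab : Fin (N + 1) → Fin J), D.Close η κ → LClose γ η lab →
      ∀ (r : Fin J → Fin (N + 1)), (∀ j, lab (r j) = j) →
      ∀ x : XI k D.K J → ℝ, InC x → GoodX P P' D ⟨γ, c, m, kap⟩ k s x κ lab r δ →
      ∑ j, γ j * c j * m j + V - ε - (Cδ + kap) *
          ∑ j, (tLB P' D ⟨γ, c, m, kap⟩ k s x κ lab j - γ j * m j) ^ 2 ≤
        incL P' P'' D ⟨γ, c, m, kap⟩ k s x κ lab := by
  obtain ⟨Cδ, hCδ, hval⟩ := value_ineq D γ c m hγ hs hm (half_pos hε) hV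
  refine ⟨Cδ, hCδ, fun Km hKm => ?_⟩
  obtain ⟨ε₄, hε₄, hval⟩ := hval Km hKm
  obtain ⟨Ty, η₀, hTy, hη₀, htyp⟩ := GrowX_typ D γ hγ
  set c₀ : ℝ := ∑ j, |c j| with hc₀
  have hc₀0 : 0 ≤ c₀ := Finset.sum_nonneg fun j _ => abs_nonneg _
  obtain ⟨δ₁, hδ₁, hflw⟩ := flw_value D J Km c₀ Ty hKm hc₀0 hTy (half_pos hε)
  obtain ⟨k₁, hself⟩ := self_top D J Km c₀ Ty hKm hc₀0 hTy (half_pos hε₄)
  obtain ⟨k₂, herr⟩ := errS_top D J hδ₁
  refine ⟨max k₁ k₂, fun k hk hk0 => ?_⟩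
  obtain ⟨s₁, N₁, η₁, hs₁, hη₁, hflw⟩ := hflw k hk0
  obtain ⟨s₂, hs₂, hself⟩ := hself k (le_of_max_le_left hk) hk0
  obtain ⟨s₃, hs₃, herr⟩ := herr k (le_of_max_le_right hk) hk0
  refine ⟨min s₁ (min s₂ s₃), lt_min hs₁ (lt_min hs₂ hs₃), fun s hs0 hss => ?_⟩
  have hss1 : s ≤ s₁ := hss.trans (min_le_left _ _)
  have hss2 : s ≤ s₂ := hss.trans ((min_le_right _ _).trans (min_le_left _ _))
  have hss3 : s ≤ s₃ := hss.trans ((min_le_right _ _).trans (min_le_right _ _))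
  obtain ⟨δ₂, N₂, η₂, hδ₂, hη₂, hself⟩ := hself s hs0 hss2
  obtain ⟨δ₃, η₃, hδ₃, hη₃, herr⟩ := herr s hs0 hss3
  have hJ1 : (0 : ℝ) < (J : ℝ) + 1 := by positivity
  set δ : ℝ := min (min δ₂ δ₃) (δ₁ / ((J : ℝ) + 1)) with hδdef
  set η : ℝ := min (min η₀ η₁) (min (min η₂ η₃) (ε₄ / 2 / ((J : ℝ) + 1))) with hηdef
  have hδ0 : 0 < δ := lt_min (lt_min hδ₂ hδ₃) (by positivity)
  have hη0 : 0 < η := lt_min (lt_min hη₀ hη₁) (lt_min (lt_min hη₂ hη₃) (by positivity))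
  have e0 : η ≤ η₀ := (min_le_left _ _).trans (min_le_left _ _)
  have e1 : η ≤ η₁ := (min_le_left _ _).trans (min_le_right _ _)
  have e2 : η ≤ η₂ := (min_le_right _ _).trans ((min_le_left _ _).trans (min_le_left _ _))
  have e3 : η ≤ η₃ := (min_le_right _ _).trans ((min_le_left _ _).trans (min_le_right _ _))
  have e4 : η ≤ ε₄ / 2 / ((J : ℝ) + 1) := (min_le_right _ _).trans (min_le_right _ _)
  have d2 : δ ≤ δ₂ := (min_le_left _ _).trans (min_le_left _ _)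
  have d3 : δ ≤ δ₃ := (min_le_left _ _).trans (min_le_right _ _)
  have d1 : δ ≤ δ₁ / ((J : ℝ) + 1) := min_le_right _ _
  refine ⟨δ, max N₁ N₂, η, hδ0, hη0, ?_⟩
  intro N hN P P' P'' hP hP' hP'' kap hkap0 hkap κ lab hκ hlab r hr x hx hG
  have hN1 : N + 1 ≥ N₁ := (le_of_max_le_left hN).trans (Nat.le_succ N)
  have hN2 : N ≥ N₂ := le_of_max_le_right hN
  set L : LBd J := ⟨γ, c, m, kap⟩ with hL
  have hγ1 : ∀ j, γ j ≤ 1 := by
    intro j
    rw [← hs]
    exact Finset.single_le_sum (f := γ) (fun i _ => (hγ i).le) (Finset.mem_univ j)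
  have hLOK : LOK L Km c₀ := by
    refine ⟨hkap0, hkap, fun j => ?_, fun j => ?_⟩
    · show |γ j * m j| ≤ 1
      rw [abs_mul, abs_of_pos (hγ j)]
      have h1 := hγ1 j
      have h2 := (hm j).le
      have h3 := hγ j
      have h4 := abs_nonneg (m j)
      nlinarith
    · show |c j| ≤ c₀
      exact Finset.single_le_sum (f := fun j => |c j|) (fun i _ => abs_nonneg _)
        (Finset.mem_univ j)
  have hκ' : ∀ η', η ≤ η' → D.Close η' κ := fun η' h l => (hκ l).trans h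
  have hlab' : ∀ η', η ≤ η' → LClose γ η' lab := fun η' h j => (hlab j).trans h
  have hTyp : Typ Ty κ lab := htyp (N + 1) κ lab (hκ' _ e0) (hlab' _ e0)
  set p : ℕ → ℝ := pLB P' D L k s x κ lab with hpdef
  set τ : Fin J → ℝ := tLB P' D L k s x κ lab with hτdef
  have hpOK : PathOK k p := pLB_ok hk0 (Nat.succ_pos N) hP' D L s x κ lab
  have hτ1 : ∀ j, |τ j| ≤ 1 := fun j => tLB_abs hP' D L s x κ lab j
  -- self-consistency
  have hG2 : GoodX P P' D L k s x κ lab r δ₂ :=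
    ⟨fun i => (hG.top i).trans d2, fun j i => (hG.base j i).trans d2,
      fun j i => (hG.mean j i).trans d2⟩
  have hSC := hself N hN2 P P' hP hP' L hLOK κ lab (hκ' _ e2) hTyp r hr x hx hG2
  have hpg : ∀ j, |prop lab j - γ j| ≤ η := fun j => hlab j
  have hηJ : ((J : ℝ) + 1) * η ≤ ε₄ / 2 := by
    have := (le_div_iff₀ hJ1).1 e4
    linarith [mul_comm ((J : ℝ) + 1) η]
  have hηe : η ≤ ε₄ / 2 := by
    have : (0 : ℝ) ≤ J := Nat.cast_nonneg J
    nlinarith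
  have hτ0 : ∀ i, 0 ≤ tauC D k p i := tauC_nonneg D hk0 hpOK
  have hM1 : ∀ b, |siteM (ζLB k) (tauC D k p) k b| ≤ 1 := fun b =>
    (abs_siteM_lt (exps_LB k) (ζLB_last hk0) hτ0 b).le
  have hQ1 : ∀ b, ∀ q < k, |siteQ (ζLB k) (tauC D k p) k b q| ≤ 1 := by
    intro b q hq
    rw [abs_of_nonneg (siteQ_nonneg (exps_LB k) _ b hq)]
    exact siteQ_le_one (exps_LB k) _ b hq
  have hA : ∀ j, |τ j - γ j * siteM (ζLB k) (tauC D k p) k (bb L τ j)| ≤ ε₄ := by
    intro j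
    have h1 := hSC.1 j
    have h2 : |(prop lab j - γ j) * siteM (ζLB k) (tauC D k p) k (bb L τ j)| ≤ ε₄ / 2 := by
      rw [abs_mul]
      have h3 := hpg j
      have h4 := hM1 (bb L τ j)
      have h5 := abs_nonneg (prop lab j - γ j)
      have h6 := abs_nonneg (siteM (ζLB k) (tauC D k p) k (bb L τ j))
      nlinarith
    have h3 : τ j - γ j * siteM (ζLB k) (tauC D k p) k (bb L τ j) =
        (τ j - prop lab j * siteM (ζLB k) (tauC D k p) k (bb L τ j)) +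
        (prop lab j - γ j) * siteM (ζLB k) (tauC D k p) k (bb L τ j) := by ring
    rw [h3]
    refine (abs_add_le _ _).trans ?_
    have h4 : |τ j - prop lab j * siteM (ζLB k) (tauC D k p) k (bb L τ j)| ≤ ε₄ / 2 := h1
    linarith
  have hkR : (0 : ℝ) < k := by exact_mod_cast hk0
  have hB : ∀ i < k, |∑ q ∈ Finset.Ico i k, (1 / (k : ℝ)) * (p q -
        ∑ j, γ j * siteQ (ζLB k) (tauC D k p) k (bb L τ j) q)| ≤ ε₄ := by
    intro i hi
    have h1 : |∑ q ∈ Finset.Ico i k, (1 / (k : ℝ)) * (p q -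
        ∑ j, prop lab j * siteQ (ζLB k) (tauC D k p) k (bb L τ j) q)| ≤ ε₄ / 2 := hSC.2 i hi
    have h2 : |∑ q ∈ Finset.Ico i k, (1 / (k : ℝ)) *
        (∑ j, (prop lab j - γ j) * siteQ (ζLB k) (tauC D k p) k (bb L τ j) q)| ≤ ε₄ / 2 := by
      refine (Finset.abs_sum_le_sum_abs _ _).trans ?_
      have h3 : ∀ q ∈ Finset.Ico i k, |(1 / (k : ℝ)) *
          (∑ j, (prop lab j - γ j) * siteQ (ζLB k) (tauC D k p) k (bb L τ j) q)| ≤
          (1 / (k : ℝ)) * (J * η) := by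
        intro q hq
        have hqk : q < k := (Finset.mem_Ico.1 hq).2
        rw [abs_mul, abs_of_pos (by positivity : (0 : ℝ) < 1 / (k : ℝ))]
        refine mul_le_mul_of_nonneg_left ?_ (by positivity)
        refine (Finset.abs_sum_le_sum_abs _ _).trans ?_
        have h4 : ∀ j ∈ (Finset.univ : Finset (Fin J)),
            |(prop lab j - γ j) * siteQ (ζLB k) (tauC D k p) k (bb L τ j) q| ≤ η := by
          intro j _
          rw [abs_mul]
          have h3 := hpg j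
          have h4 := hQ1 (bb L τ j) q hqk
          have h5 := abs_nonneg (prop lab j - γ j)
          have h6 := abs_nonneg (siteQ (ζLB k) (tauC D k p) k (bb L τ j) q)
          nlinarith
        refine (Finset.sum_le_sum h4).trans (le_of_eq ?_)
        rw [Finset.sum_const, Finset.card_univ, Fintype.card_fin, nsmul_eq_mul]
      refine (Finset.sum_le_sum h3).trans ?_
      rw [Finset.sum_const, Nat.card_Ico, nsmul_eq_mul]
      have h5 : ((k - i : ℕ) : ℝ) ≤ k := by exact_mod_cast Nat.sub_le k i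
      have h6 : 0 ≤ (1 / (k : ℝ)) * (J * η) := by positivity
      calc ((k - i : ℕ) : ℝ) * ((1 / (k : ℝ)) * (J * η))
          ≤ (k : ℝ) * ((1 / (k : ℝ)) * (J * η)) := mul_le_mul_of_nonneg_right h5 h6
        _ = J * η := by field_simp
        _ ≤ ε₄ / 2 := by nlinarith
    have h3 : ∑ q ∈ Finset.Ico i k, (1 / (k : ℝ)) * (p q -
        ∑ j, γ j * siteQ (ζLB k) (tauC D k p) k (bb L τ j) q) =
        ∑ q ∈ Finset.Ico i k, (1 / (k : ℝ)) * (p q -
        ∑ j, prop lab j * siteQ (ζLB k) (tauC D k p) k (bb L τ j) q) +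
        ∑ q ∈ Finset.Ico i k, (1 / (k : ℝ)) *
        (∑ j, (prop lab j - γ j) * siteQ (ζLB k) (tauC D k p) k (bb L τ j) q) := by
      rw [← Finset.sum_add_distrib]
      refine Finset.sum_congr rfl fun q _ => ?_
      rw [← mul_add]
      congr 1
      have h4 : ∑ j, (prop lab j - γ j) * siteQ (ζLB k) (tauC D k p) k (bb L τ j) q =
          ∑ j, prop lab j * siteQ (ζLB k) (tauC D k p) k (bb L τ j) q -
          ∑ j, γ j * siteQ (ζLB k) (tauC D k p) k (bb L τ j) q := by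
        rw [← Finset.sum_sub_distrib]
        exact Finset.sum_congr rfl fun j _ => by ring
      rw [h4]
      ring
    rw [h3]
    refine (abs_add_le _ _).trans ?_
    linarith
  have hVI := hval k hk0 kap hkap0 hkap p hpOK τ hτ1 hA hB
  -- the increment
  have hErr : errS P' D L k s x κ lab (rC D k p) ≤ δ₁ :=
    herr (N + 1) (Nat.succ_pos N) P' hP' L κ lab (hκ' _ e3) x hx fun i => (hG.top i).trans d3
  have hT : ∑ j, EL P' D L k s x κ lab
      (fun ω => |TJ lab j (cfg k ω) / ((N + 1 : ℕ) : ℝ) - τ j|) ≤ δ₁ := by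
    have h1 : ∀ j ∈ (Finset.univ : Finset (Fin J)), EL P' D L k s x κ lab
      (fun ω => |TJ lab j (cfg k ω) / ((N + 1 : ℕ) : ℝ) - τ j|) ≤ δ₁ / ((J : ℝ) + 1) := by
      intro j _
      exact (hG.top (Sum.inr (Sum.inl j))).trans d1
    refine (Finset.sum_le_sum h1).trans ?_
    rw [Finset.sum_const, Finset.card_univ, Fintype.card_fin, nsmul_eq_mul, ← mul_div_assoc,
      div_le_iff₀ hJ1]
    nlinarith
  set i0 : Fin k := ⟨0, hk0⟩ with hi0
  have hinc : ∀ l j, rowVal D l k p + siteVal (ζLB k) (tauC D k p) k (bb L τ j) + cc L τ - ε / 2 ≤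
      FL P'' D L k s x (kc l κ) (Fin.cons j lab) - FL P' D L k s x κ lab := by
    intro l j
    have h := (hflw (N + 1) hN1 P' P'' hP' hP'' L hLOK s hs0.le hss1 x hx.xok κ lab (hκ' _ e1)
      l j τ hτ1 0 0 i0 (by simp) le_rfl zero_le_one p hpOK hErr).1 hT
    rw [GrowX_FLW_zero] at h
    have e : (fun i => tauC D k p i + if i = (i0 : ℕ) then (0 : ℝ) ^ 2 else 0) = tauC D k p := by
      funext i
      split <;> simp
    rw [e, add_zero] at h
    linarith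
  have hsum : ∑ l, ∑ j, D.α l * γ j * (rowVal D l k p +
      siteVal (ζLB k) (tauC D k p) k (bb L τ j) + cc L τ - ε / 2) ≤
      incL P' P'' D L k s x κ lab := by
    unfold incL
    refine Finset.sum_le_sum fun l _ => Finset.sum_le_sum fun j _ => ?_
    exact mul_le_mul_of_nonneg_left (hinc l j) (mul_nonneg (D.pos l).le (hγ j).le)
  have hexp : ∑ l, ∑ j, D.α l * γ j * (rowVal D l k p +
      siteVal (ζLB k) (tauC D k p) k (bb L τ j) + cc L τ - ε / 2) =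
      ∑ l, D.α l * rowVal D l k p + ∑ j, γ j * siteVal (ζLB k) (tauC D k p) k (bb L τ j) +
      cc L τ - ε / 2 := by
    have h1 : ∀ l, ∑ j, D.α l * γ j * (rowVal D l k p +
      siteVal (ζLB k) (tauC D k p) k (bb L τ j) + cc L τ - ε / 2) =
      D.α l * rowVal D l k p + D.α l * (∑ j, γ j * siteVal (ζLB k) (tauC D k p) k (bb L τ j) +
        cc L τ - ε / 2) := by
      intro l
      have h2 : ∀ j, D.α l * γ j * (rowVal D l k p +
        siteVal (ζLB k) (tauC D k p) k (bb L τ j) + cc L τ - ε / 2) =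
        D.α l * (rowVal D l k p + cc L τ - ε / 2) * γ j +
          D.α l * (γ j * siteVal (ζLB k) (tauC D k p) k (bb L τ j)) := by intro j; ring
      rw [Finset.sum_congr rfl fun j _ => h2 j, Finset.sum_add_distrib, ← Finset.mul_sum, hs,
        ← Finset.mul_sum]
      ring
    rw [Finset.sum_congr rfl fun l _ => h1 l, Finset.sum_add_distrib, ← Finset.sum_mul, D.sum]
    ring
  rw [hexp, row_avg D hk0 hpOK] at hsum
  linarith

end Crest.Agent.RI
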