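import Crest.Agent.RI.HaarDefs

/-!
# Row 164, Part 7: algebra of arrays, reflections (easy)
-/

set_option autoImplicit false

namespace Crest.Agent.RI

open MeasureTheory ProbabilityTheory

variable {N : ℕ}

theorem amul_eq (A B : Fin N → Fin N → ℝ) :
    amul A B = fun i j => (Matrix.of A * Matrix.of B) i j := by
  funext i j
  rw [Matrix.mul_apply]
  rfl

theorem isO_iff_rows {A : Fin N → Fin N → ℝ} :
    IsO A ↔ ∀ i j, ∑ k, A i k * A j k = if i = j then 1 else 0 := by
  unfold IsO
  rw [Matrix.mem_orthogonalGroup_iff]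
  constructor
  · intro h i j
    have := congrFun (congrFun h i) j
    rw [Matrix.mul_apply] at this
    simpa [Matrix.star_apply, Matrix.one_apply] using this
  · intro h
    ext i j
    rw [Matrix.mul_apply]
    simpa [Matrix.star_apply, Matrix.one_apply] using h i j

theorem isO_iff_cols {A : Fin N → Fin N → ℝ} :
    IsO A ↔ ∀ i j, ∑ k, A k i * A k j = if i = j then 1 else 0 := by
  unfold IsO
  rw [Matrix.mem_orthogonalGroup_iff']
  constructor
  · intro h i j
    have := congrFun (congrFun h i) j
    rw [Matrix.mul_apply] at this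
    simpa [Matrix.star_apply, Matrix.one_apply] using this
  · intro h
    ext i j
    rw [Matrix.mul_apply]
    simpa [Matrix.star_apply, Matrix.one_apply] using h i j

theorem isO_one : IsO (aone N) := by
  rw [isO_iff_rows]
  intro i j
  simp [aone]

theorem IsO.mul {A B : Fin N → Fin N → ℝ} (hA : IsO A) (hB : IsO B) : IsO (amul A B) := by
  have h := Submonoid.mul_mem (Matrix.orthogonalGroup (Fin N) ℝ) hA hB
  rw [amul_eq]
  exact h

theorem IsO.tr {A : Fin N → Fin N → ℝ} (hA : IsO A) : IsO (atr A) := by
  rw [isO_iff_rows]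
  exact isO_iff_cols.1 hA

theorem amul_assoc (A B C : Fin N → Fin N → ℝ) : amul (amul A B) C = amul A (amul B C) := by
  funext i j
  simp only [amul, Finset.sum_mul, Finset.mul_sum]
  rw [Finset.sum_comm]
  simp only [mul_assoc]

theorem aone_amul (A : Fin N → Fin N → ℝ) : amul (aone N) A = A := by
  funext i j
  simp [amul, aone]

theorem amul_aone (A : Fin N → Fin N → ℝ) : amul A (aone N) = A := by
  funext i j
  simp [amul, aone]

theorem atr_atr (A : Fin N → Fin N → ℝ) : atr (atr A) = A := rfl

theorem atr_amul (A B : Fin N → Fin N → ℝ) : atr (amul A B) = amul (atr B) (atr A) := by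
  funext i j
  simp only [amul, atr]
  exact Finset.sum_congr rfl fun k _ => mul_comm _ _

theorem IsO.amul_atr {A : Fin N → Fin N → ℝ} (hA : IsO A) : amul A (atr A) = aone N := by
  funext i j
  exact isO_iff_rows.1 hA i j

theorem IsO.atr_amul {A : Fin N → Fin N → ℝ} (hA : IsO A) : amul (atr A) A = aone N := by
  funext i j
  exact isO_iff_cols.1 hA i j

theorem avec_amul (A B : Fin N → Fin N → ℝ) (x : Fin N → ℝ) :
    avec (amul A B) x = avec A (avec B x) := by
  funext i
  simp only [amul, avec, Finset.sum_mul, Finset.mul_sum]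
  rw [Finset.sum_comm]
  simp only [mul_assoc]

theorem avec_aone (x : Fin N → ℝ) : avec (aone N) x = x := by
  funext i
  simp [avec, aone]

theorem avec_ev (A : Fin N → Fin N → ℝ) (a : Fin N) : avec A (ev a) = fun i => A i a := by
  funext i
  simp [avec, ev]

theorem ip_comm (x y : Fin N → ℝ) : ip x y = ip y x :=
  Finset.sum_congr rfl fun k _ => mul_comm _ _

theorem ip_nonneg (x : Fin N → ℝ) : 0 ≤ ip x x :=
  Finset.sum_nonneg fun k _ => mul_self_nonneg _

theorem ip_avec (A : Fin N → Fin N → ℝ) (x y : Fin N → ℝ) :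
    ip (avec A x) y = ip x (avec (atr A) y) := by
  simp only [ip, avec, atr, Finset.sum_mul, Finset.mul_sum]
  rw [Finset.sum_comm]
  refine Finset.sum_congr rfl fun k _ => Finset.sum_congr rfl fun l _ => ?_
  ring

theorem IsO.ip_avec {A : Fin N → Fin N → ℝ} (hA : IsO A) (x y : Fin N → ℝ) :
    ip (avec A x) (avec A y) = ip x y := by
  rw [Crest.Agent.RI.ip_avec, ← avec_amul, hA.atr_amul, avec_aone]

theorem IsO.abs_le {A : Fin N → Fin N → ℝ} (hA : IsO A) (i j : Fin N) : |A i j| ≤ 1 := by
  have h := isO_iff_rows.1 hA i i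
  rw [if_pos rfl] at h
  have h2 : A i j * A i j ≤ ∑ k, A i k * A i k :=
    Finset.single_le_sum (f := fun k => A i k * A i k) (fun k _ => mul_self_nonneg _)
      (Finset.mem_univ j)
  rw [h] at h2
  exact abs_le_one_iff_mul_self_le_one.2 h2

/-! ### Reflections -/

theorem avec_refl (q x : Fin N → ℝ) : avec (refl q) x = fun i => x i - 2 * ip q x * q i := by
  funext i
  simp only [avec, refl, ip, sub_mul, Finset.sum_sub_distrib, ite_mul, one_mul, zero_mul,
    Finset.sum_ite_eq, Finset.mem_univ, if_true, Finset.mul_sum, Finset.sum_mul]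
  congr 1
  exact Finset.sum_congr rfl fun k _ => by ring

theorem atr_refl (q : Fin N → ℝ) : atr (refl q) = refl q := by
  funext i j
  simp only [atr, refl, eq_comm (a := j) (b := i), mul_comm (q j) (q i)]

private theorem refl_sq {q : Fin N → ℝ} (hq : UZ q) (i j : Fin N) :
    ∑ k, refl q i k * refl q k j = aone N i j := by
  have key : (fun i => ∑ k, refl q i k * refl q k j) = avec (refl q) (fun k => refl q k j) := rfl
  have e1 : ∑ k, refl q i k * refl q k j = avec (refl q) (fun k => refl q k j) i := rfl
  rw [e1, avec_refl]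
  have e2 : ip q (fun k => refl q k j) = q j - 2 * ip q q * q j := by
    simp only [ip, refl, mul_sub, Finset.sum_sub_distrib, mul_ite, mul_one, mul_zero,
      Finset.sum_ite_eq', Finset.mem_univ, if_true, Finset.mul_sum, Finset.sum_mul]
    congr 1
    exact Finset.sum_congr rfl fun k _ => by ring
  rw [e2]
  rcases hq with h | h
  · rw [h]
    simp only [refl, aone]
    ring
  · subst h
    simp [refl, aone]

theorem isO_refl {q : Fin N → ℝ} (hq : UZ q) : IsO (refl q) := by
  rw [isO_iff_rows]
  intro i j
  have h := refl_sq hq i j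
  have e : ∀ k, refl q j k = refl q k j := fun k => congrFun (congrFun (atr_refl q) k) j
  simp only [e]
  exact h

theorem refl_refl {q : Fin N → ℝ} (hq : UZ q) : amul (refl q) (refl q) = aone N := by
  funext i j
  exact refl_sq hq i j

private theorem ip_smul_smul (c : ℝ) (x : Fin N → ℝ) :
    ip (fun i => x i / c) (fun i => x i / c) = ip x x / (c * c) := by
  simp only [ip, Finset.sum_div]
  exact Finset.sum_congr rfl fun k _ => by rw [div_mul_div_comm]

private theorem eq_zero_of_ip {x : Fin N → ℝ} (h : ip x x = 0) : x = 0 := by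
  funext i
  have := (Finset.sum_eq_zero_iff_of_nonneg (fun k _ => mul_self_nonneg (x k))).1 h i
    (Finset.mem_univ i)
  exact mul_self_eq_zero.1 this

theorem uz_qv (a : Fin N) (u : Fin N → ℝ) : UZ (qv a u) := by
  by_cases h : ip (fun j => ev a j - u j) (fun j => ev a j - u j) = 0
  · right
    funext i
    simp [qv, h]
  · left
    have h0 := ip_nonneg (fun j => ev a j - u j)
    change ip (fun i => (ev a i - u i) / _) (fun i => (ev a i - u i) / _) = 1
    rw [ip_smul_smul, Real.mul_self_sqrt h0, div_self h]

private theorem ip_ev_ev (a : Fin N) : ip (ev a) (ev a) = 1 := by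
  simp [ip, ev]

private theorem ip_sub_left (x y z : Fin N → ℝ) : ip (fun j => x j - y j) z = ip x z - ip y z := by
  simp only [ip, sub_mul, Finset.sum_sub_distrib]

private theorem ip_div_left (x z : Fin N → ℝ) (c : ℝ) : ip (fun j => x j / c) z = ip x z / c := by
  simp only [ip, Finset.sum_div]
  exact Finset.sum_congr rfl fun k _ => by ring

/-- `H e_a = u` for unit `u` -/
theorem refl_qv_ev {a : Fin N} {u : Fin N → ℝ} (hu : ip u u = 1) :
    avec (refl (qv a u)) (ev a) = u := by
  rw [avec_refl]
  set s := ip (fun j => ev a j - u j) (fun j => ev a j - u j) with hs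
  have hs0 : 0 ≤ s := ip_nonneg _
  have e1 : ip (fun j => ev a j - u j) (ev a) = s / 2 := by
    have h1 : s = ip (ev a) (fun j => ev a j - u j) - ip u (fun j => ev a j - u j) :=
      ip_sub_left (ev a) u (fun j => ev a j - u j)
    have h2 : ip (ev a) (fun j => ev a j - u j) = 1 - ip u (ev a) := by
      rw [ip_comm, ip_sub_left, ip_ev_ev]
    have h3 : ip u (fun j => ev a j - u j) = ip u (ev a) - 1 := by
      rw [ip_comm, ip_sub_left, hu, ip_comm]
    rw [ip_sub_left, ip_ev_ev]
    linarith
  have e2 : ip (qv a u) (ev a) = s / 2 / Real.sqrt s := by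
    unfold qv
    rw [ip_div_left, e1, hs]
  funext i
  rw [e2]
  by_cases h : s = 0
  · have := congrFun (eq_zero_of_ip h) i
    simp only [Pi.zero_apply] at this
    rw [h]
    simp
    linarith
  · have hpos : 0 < s := lt_of_le_of_ne hs0 (Ne.symm h)
    have hsq : Real.sqrt s ≠ 0 := (Real.sqrt_pos.2 hpos).ne'
    have : 2 * (s / 2 / Real.sqrt s) * qv a u i = ev a i - u i := by
      unfold qv
      rw [← hs]
      have h3 : Real.sqrt s * Real.sqrt s = s := Real.mul_self_sqrt hs0
      field_simp
      rw [sq, h3]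
    rw [this]
    ring

/-- `H u = e_a` for unit `u` -/
theorem refl_qv_self {a : Fin N} {u : Fin N → ℝ} (hu : ip u u = 1) :
    avec (refl (qv a u)) u = ev a := by
  have h := refl_qv_ev (a := a) hu
  have h2 := congrArg (avec (refl (qv a u))) h
  rw [← avec_amul, refl_refl (uz_qv a u), avec_aone] at h2
  exact h2.symm

/-- the reflection `H(u)` of a rotated vector: if `R e_a = e_a`, `R` orthogonal, then
`qv a (R u) = R (qv a u)` -/
theorem qv_avec {a : Fin N} {R : Fin N → Fin N → ℝ} (hR : IsO R) (ha : avec R (ev a) = ev a)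
    (u : Fin N → ℝ) : qv a (avec R u) = avec R (qv a u) := by
  have e1 : (fun j => ev a j - avec R u j) = avec R (fun j => ev a j - u j) := by
    funext i
    have := congrFun ha i
    rw [← this]
    simp only [avec, mul_sub, Finset.sum_sub_distrib]
  have e2 : ip (fun j => ev a j - avec R u j) (fun j => ev a j - avec R u j)
      = ip (fun j => ev a j - u j) (fun j => ev a j - u j) := by
    rw [e1, hR.ip_avec]
  funext i
  unfold qv
  rw [e2]
  have e3 : ev a i - avec R u i = avec R (fun j => ev a j - u j) i := congrFun e1 i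
  rw [e3]
  simp only [avec, Finset.sum_div]
  exact Finset.sum_congr rfl fun k _ => by rw [mul_div_assoc]

end Crest.Agent.RI
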