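import Crest.Agent.RI.HaarGauss

/-!
# Row 164, Part 7: cavity decomposition (H3)
-/

set_option autoImplicit false

namespace Crest.Agent.RI

open MeasureTheory ProbabilityTheory

variable {N : ℕ}

/-- `1 ⊕ O` on `Fin (N+1)` -/
def oneSum (O : Fin N → Fin N → ℝ) : Fin (N + 1) → Fin (N + 1) → ℝ :=
  Fin.cons (Fin.cons 1 (fun _ => 0)) (fun i => Fin.cons 0 (O i))

theorem HaarCav_00 (O : Fin N → Fin N → ℝ) : oneSum O 0 0 = 1 := rfl

theorem HaarCav_0s (O : Fin N → Fin N → ℝ) (j : Fin N) : oneSum O 0 j.succ = 0 := rfl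

theorem HaarCav_s0 (O : Fin N → Fin N → ℝ) (i : Fin N) : oneSum O i.succ 0 = 0 := rfl

theorem HaarCav_ss (O : Fin N → Fin N → ℝ) (i j : Fin N) : oneSum O i.succ j.succ = O i j := rfl

theorem oneSum_isO {O : Fin N → Fin N → ℝ} (hO : IsO O) : IsO (oneSum O) := by
  rw [isO_iff_rows] at hO ⊢
  intro i j
  rw [Fin.sum_univ_succ]
  refine Fin.cases ?_ (fun i => ?_) i <;> refine Fin.cases ?_ (fun j => ?_) j
  · simp [HaarCav_00, HaarCav_0s]
  · simp [HaarCav_00, HaarCav_0s, HaarCav_s0, HaarCav_ss, (Fin.succ_ne_zero j).symm]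
  · simp [HaarCav_00, HaarCav_0s, HaarCav_s0, HaarCav_ss]
  · simp [HaarCav_s0, HaarCav_ss, hO i j]

theorem HaarCav_isO_of {O : Fin N → Fin N → ℝ} (hO : IsO (oneSum O)) : IsO O := by
  rw [isO_iff_rows] at hO ⊢
  intro i j
  have := hO i.succ j.succ
  rw [Fin.sum_univ_succ] at this
  simpa [HaarCav_s0, HaarCav_ss] using this

theorem HaarCav_mul (A B : Fin N → Fin N → ℝ) :
    amul (oneSum A) (oneSum B) = oneSum (amul A B) := by
  funext i j
  show ∑ k, oneSum A i k * oneSum B k j = _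
  rw [Fin.sum_univ_succ]
  refine Fin.cases ?_ (fun i => ?_) i <;> refine Fin.cases ?_ (fun j => ?_) j
  · simp [HaarCav_00, HaarCav_0s]
  · simp [HaarCav_0s, HaarCav_ss]
  · simp [HaarCav_00, HaarCav_s0]
  · simp [HaarCav_s0, HaarCav_ss, amul]

theorem HaarCav_ev (O : Fin N → Fin N → ℝ) : avec (oneSum O) (ev 0) = ev 0 := by
  rw [avec_ev]
  funext i
  refine Fin.cases ?_ (fun i => ?_) i
  · simp [HaarCav_00, ev]
  · simp [HaarCav_s0, ev]

theorem HaarCav_exists {A : Fin (N + 1) → Fin (N + 1) → ℝ} (hA : IsO A)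
    (h : avec A (ev 0) = ev 0) : ∃ O : Fin N → Fin N → ℝ, IsO O ∧ A = oneSum O := by
  have hcol : ∀ i, A i 0 = ev 0 i := by
    intro i
    have := congrFun h i
    rwa [avec_ev] at this
  have h00 : A 0 0 = 1 := by rw [hcol]; simp [ev]
  have hs0 : ∀ i : Fin N, A i.succ 0 = 0 := by
    intro i; rw [hcol]; simp [ev]
  have h0s : ∀ j : Fin N, A 0 j.succ = 0 := by
    have hr := (isO_iff_rows.1 hA) 0 0
    rw [Fin.sum_univ_succ, h00] at hr
    have hz : ∑ k : Fin N, A 0 k.succ * A 0 k.succ = 0 := by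
      have : (if (0 : Fin (N + 1)) = 0 then (1 : ℝ) else 0) = 1 := if_pos rfl
      rw [this] at hr
      linarith
    intro j
    have := (Finset.sum_eq_zero_iff_of_nonneg (fun k _ => mul_self_nonneg (A 0 (Fin.succ k)))).1 hz
      j (Finset.mem_univ _)
    exact mul_self_eq_zero.1 this
  have hAe : A = oneSum (fun i j => A i.succ j.succ) := by
    funext i j
    refine Fin.cases ?_ (fun i => ?_) i <;> refine Fin.cases ?_ (fun j => ?_) j
    · rw [HaarCav_00, h00]
    · rw [HaarCav_0s, h0s]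
    · rw [HaarCav_s0, hs0]
    · rw [HaarCav_ss]
  refine ⟨fun i j => A i.succ j.succ, ?_, hAe⟩
  apply HaarCav_isO_of
  rw [← hAe]
  exact hA

theorem measurable_oneSum : Measurable (oneSum : (Fin N → Fin N → ℝ) → _) := by
  refine measurable_pi_iff.2 fun i => measurable_pi_iff.2 fun j => ?_
  refine Fin.cases ?_ (fun i => ?_) i <;> refine Fin.cases ?_ (fun j => ?_) j
  · exact measurable_const
  · exact measurable_const
  · exact measurable_const
  · show Measurable fun O : Fin N → Fin N → ℝ => O i j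
    exact (measurable_pi_apply j).comp (measurable_pi_apply i)

theorem HaarCav_nrm {W : Fin N → Fin N → ℝ} (hW : IsO W) (ξ : Fin N → ℝ) :
    nrm (avec W ξ) = avec W (nrm ξ) := by
  funext i
  simp only [nrm, hW.ip_avec, avec, Finset.sum_div, mul_div_assoc]

theorem HaarCav_key {W : Fin (N + 1) → Fin (N + 1) → ℝ} (hW : IsO W) (ξ : Fin (N + 1) → ℝ)
    (hξ : ip ξ ξ ≠ 0) : ∃ R : Fin N → Fin N → ℝ, IsO R ∧
      amul W (refl (qv 0 (nrm ξ))) = amul (refl (qv 0 (nrm (avec W ξ)))) (oneSum R) := by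
  have h1 : ip (avec W ξ) (avec W ξ) ≠ 0 := by rw [hW.ip_avec]; exact hξ
  set H := refl (qv 0 (nrm ξ)) with hH
  set H' := refl (qv 0 (nrm (avec W ξ))) with hH'
  have oH : IsO H := isO_refl (uz_qv _ _)
  have oH' : IsO H' := isO_refl (uz_qv _ _)
  have hT : IsO (amul H' (amul W H)) := oH'.mul (hW.mul oH)
  have hTe : avec (amul H' (amul W H)) (ev 0) = ev 0 := by
    rw [avec_amul, avec_amul, hH, refl_qv_ev (ip_nrm hξ), ← HaarCav_nrm hW, hH',
      refl_qv_self (ip_nrm h1)]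
  obtain ⟨R, hR, hRe⟩ := HaarCav_exists hT hTe
  refine ⟨R, hR, ?_⟩
  rw [← hRe, ← amul_assoc, hH', refl_refl (uz_qv _ _), aone_amul]

theorem HaarCav_meas : Measurable
    (fun x : (Fin (N + 1) → ℝ) × (Fin N → Fin N → ℝ) =>
      amul (refl (qv 0 (nrm x.1))) (oneSum x.2)) := by
  have h1 : Measurable (fun x : (Fin (N + 1) → ℝ) × (Fin N → Fin N → ℝ) =>
      (refl (qv 0 (nrm x.1)), oneSum x.2)) :=
    (measurable_refl.comp ((measurable_qv 0).comp (measurable_nrm.comp measurable_fst))).prodMk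
      (measurable_oneSum.comp measurable_snd)
  exact measurable_amul.comp h1

theorem HaarCav_measavec (W : Fin N → Fin N → ℝ) : Measurable (avec W) :=
  measurable_avec.comp (measurable_const.prodMk measurable_id)

theorem HaarCav_left {P : Measure (Fin N → Fin N → ℝ)} (hP : IsHaar P)
    (W : Fin (N + 1) → Fin (N + 1) → ℝ) (hW : IsO W) :
    (((gvec (N + 1)).prod P).map
      (fun x => amul (refl (qv 0 (nrm x.1))) (oneSum x.2))).map (fun V => amul W V) =
    ((gvec (N + 1)).prod P).map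
      (fun x => amul (refl (qv 0 (nrm x.1))) (oneSum x.2)) := by
  haveI := hP.prob
  rw [Measure.map_map (measurable_amul_left W) HaarCav_meas]
  ext B hB
  have hm1 : Measurable ((fun V => amul W V) ∘
      (fun x : (Fin (N + 1) → ℝ) × (Fin N → Fin N → ℝ) =>
        amul (refl (qv 0 (nrm x.1))) (oneSum x.2))) := (measurable_amul_left W).comp HaarCav_meas
  rw [Measure.map_apply hm1 hB, Measure.map_apply HaarCav_meas hB,
    Measure.prod_apply (hm1 hB), Measure.prod_apply (HaarCav_meas hB)]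
  set G : (Fin (N + 1) → ℝ) → ENNReal := fun ξ => P (Prod.mk ξ ⁻¹'
    ((fun x : (Fin (N + 1) → ℝ) × (Fin N → Fin N → ℝ) =>
        amul (refl (qv 0 (nrm x.1))) (oneSum x.2)) ⁻¹' B)) with hG
  have hGm : Measurable G := measurable_measure_prodMk_left (HaarCav_meas hB)
  have key : ∀ᵐ ξ ∂gvec (N + 1), P (Prod.mk ξ ⁻¹' ((fun V => amul W V) ∘
      (fun x : (Fin (N + 1) → ℝ) × (Fin N → Fin N → ℝ) =>
        amul (refl (qv 0 (nrm x.1))) (oneSum x.2)) ⁻¹' B)) = G (avec W ξ) := by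
    filter_upwards [gvec_ne_zero (Nat.succ_pos N)] with ξ hξ
    obtain ⟨R, hR, hRe⟩ := HaarCav_key hW ξ hξ
    have hset : Prod.mk ξ ⁻¹' ((fun V => amul W V) ∘
        (fun x : (Fin (N + 1) → ℝ) × (Fin N → Fin N → ℝ) =>
          amul (refl (qv 0 (nrm x.1))) (oneSum x.2)) ⁻¹' B) =
        (fun V => amul R V) ⁻¹' (Prod.mk (avec W ξ) ⁻¹'
          ((fun x : (Fin (N + 1) → ℝ) × (Fin N → Fin N → ℝ) =>
            amul (refl (qv 0 (nrm x.1))) (oneSum x.2)) ⁻¹' B)) := by
      ext O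
      simp only [Set.mem_preimage, Function.comp]
      rw [← amul_assoc, hRe, amul_assoc, HaarCav_mul]
    rw [hset, ← Measure.map_apply (measurable_amul_left R)
      (measurable_prodMk_left (HaarCav_meas hB)), hP.left hR]
  rw [lintegral_congr_ae key]
  calc ∫⁻ ξ, G (avec W ξ) ∂gvec (N + 1)
      = ∫⁻ ξ, G ξ ∂((gvec (N + 1)).map (avec W)) := (lintegral_map hGm (HaarCav_measavec W)).symm
    _ = ∫⁻ ξ, G ξ ∂(gvec (N + 1)) := by rw [gvec_map_avec hW]

/-- (H3) CAVITY DECOMPOSITION.  `refl (qv 0 (nrm ξ)) (1 ⊕ O)` is Haar on `O(N+1)` if `ξ ~ gvec (N+1)` and `O` Haar on `O(N)` are independent.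
PROOF.  Show left invariance (then `haar_unique_aux` with `univ`, against a right invariant law from `exists_isHaar`; orthogonality a.s. is clear).
Let `R ∈ O(N+1)`, `v` a unit vector, `H(v) = refl (qv 0 v)`.  `R H(v)` and `H(R v)` both map `e_0` to `R v`, so `R H(v) = H(R v) (1 ⊕ R'')` with
`R'' ∈ O(N)` depending on `R, v` only (an orthogonal array on `Fin (N+1)` fixing `e_0` is `oneSum` of an orthogonal array).
So `R H(v)(1 ⊕ O) = H(R v)(1 ⊕ R'' O)`; for fixed `v` the law of `R'' O` is the law of `O`; then the law of `R ξ` is the law of `ξ`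
(`nrm (R ξ) = R nrm ξ`, `gvec_map_avec`). -/
theorem haar_cavity {P : Measure (Fin N → Fin N → ℝ)} (hP : IsHaar P) :
    IsHaar (((gvec (N + 1)).prod P).map
      (fun x => amul (refl (qv 0 (nrm x.1))) (oneSum x.2))) := by
  haveI := hP.prob
  obtain ⟨Q, hQ⟩ := exists_isHaar (N + 1)
  have hQS := hQ.isHaarS
  have hpr : IsProbabilityMeasure (((gvec (N + 1)).prod P).map
      (fun x => amul (refl (qv 0 (nrm x.1))) (oneSum x.2))) :=
    Measure.isProbabilityMeasure_map HaarCav_meas.aemeasurable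
  have hfix : ∀ᵐ V ∂(((gvec (N + 1)).prod P).map
      (fun x => amul (refl (qv 0 (nrm x.1))) (oneSum x.2))), Fixes Finset.univ V := by
    rw [ae_map_iff HaarCav_meas.aemeasurable (measurableSet_fixes _)]
    have h2 : ∀ᵐ x ∂((gvec (N + 1)).prod P), IsO x.2 := by
      have : ∀ᵐ O ∂P, IsO O := hP.orth
      exact (Measure.quasiMeasurePreserving_snd (μ := gvec (N + 1)) (ν := P)).ae this
    filter_upwards [h2] with x hx
    rw [fixes_univ]
    exact (isO_refl (uz_qv _ _)).mul (oneSum_isO hx)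
  have heq := haar_unique_aux Finset.univ Q _ hQS.prob hpr hQS.fix hfix hQS.right
    (fun W hW => HaarCav_left hP W (fixes_univ.1 hW))
  rw [← heq]
  exact hQ

/-- product form of (H2)+(H3): the first column of the cavity matrix is `ξ/|ξ|`. -/
theorem cavity_col (ξ : Fin (N + 1) → ℝ) (hξ : ip ξ ξ ≠ 0) (O : Fin N → Fin N → ℝ) :
    avec (amul (refl (qv 0 (nrm ξ))) (oneSum O)) (ev 0) = nrm ξ := by
  rw [avec_amul, HaarCav_ev, refl_qv_ev (ip_nrm hξ)]

end Crest.Agent.RI
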