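import Crest.Agent.RI.System

/-!
# Row 164, Part 7: definitions (arrays, reflections, groups)

Everything is written for arrays `Fin N → Fin N → ℝ` (this is the type used in the statements).
-/

set_option autoImplicit false

namespace Crest.Agent.RI

open MeasureTheory ProbabilityTheory

variable {N : ℕ}

/-- orthogonal array -/
def IsO (A : Fin N → Fin N → ℝ) : Prop := Matrix.of A ∈ Matrix.orthogonalGroup (Fin N) ℝ

/-- identity array -/
def aone (N : ℕ) : Fin N → Fin N → ℝ := fun i j => if i = j then 1 else 0

/-- product of arrays, definitionally the matrix product -/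
def amul (A B : Fin N → Fin N → ℝ) : Fin N → Fin N → ℝ := fun i j => ∑ k, A i k * B k j

/-- transpose -/
def atr (A : Fin N → Fin N → ℝ) : Fin N → Fin N → ℝ := fun i j => A j i

/-- array times vector -/
def avec (A : Fin N → Fin N → ℝ) (x : Fin N → ℝ) : Fin N → ℝ := fun i => ∑ j, A i j * x j

/-- inner product -/
def ip (x y : Fin N → ℝ) : ℝ := ∑ i, x i * y i

/-- basis vector -/
def ev (a : Fin N) : Fin N → ℝ := fun i => if i = a then 1 else 0

/-- Householder reflection `1 - 2 q qᵀ` -/
def refl (q : Fin N → ℝ) : Fin N → Fin N → ℝ :=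
  fun i j => (if i = j then 1 else 0) - 2 * (q i * q j)

/-- unit vector of the reflection exchanging `e_a` and `u`; it is `0` if `u = e_a` (`0/0 = 0`) -/
noncomputable def qv (a : Fin N) (u : Fin N → ℝ) : Fin N → ℝ :=
  fun i => (ev a i - u i) / Real.sqrt (ip (fun j => ev a j - u j) (fun j => ev a j - u j))

/-- `q` is a unit vector or `0` -/
def UZ (q : Fin N → ℝ) : Prop := ip q q = 1 ∨ q = 0

/-- `A` is orthogonal and acts only on the coordinates in `S` -/
def Fixes (S : Finset (Fin N)) (A : Fin N → Fin N → ℝ) : Prop :=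
  IsO A ∧ ∀ i ∉ S, ∀ j, A i j = aone N i j ∧ A j i = aone N j i

/-- the coordinates `≥ k` -/
def tailS (N k : ℕ) : Finset (Fin N) := Finset.univ.filter (fun b => k ≤ b.val)

/-- Haar law of the group `Fixes S` -/
structure IsHaarS (S : Finset (Fin N)) (μ : Measure (Fin N → Fin N → ℝ)) : Prop where
  prob : IsProbabilityMeasure μ
  fix : ∀ᵐ V ∂μ, Fixes S V
  left : ∀ W, Fixes S W → μ.map (fun V => amul W V) = μ
  right : ∀ W, Fixes S W → μ.map (fun V => amul V W) = μ

end Crest.Agent.RI
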