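import Crest.Agent.RI.HaarUniq

/-!
# Row 164, Part 7: existence of Haar laws
-/

set_option autoImplicit false

namespace Crest.Agent.RI

open MeasureTheory ProbabilityTheory

variable {N : ℕ}

/-- the subgroup of the orthogonal group acting only on the coordinates in `S` -/
private def HaarExistK (S : Finset (Fin N)) : Subgroup (Matrix.orthogonalGroup (Fin N) ℝ) where
  carrier := {A | Fixes S (fun i j => A.1 i j)}
  mul_mem' := by
    intro A B hA hB
    exact Fixes.mul hA hB
  one_mem' := by
    have h : (fun i j => (1 : Matrix.orthogonalGroup (Fin N) ℝ).1 i j) = aone N := by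
      funext i j
      simp [aone, Matrix.one_apply]
    change Fixes S (fun i j => (1 : Matrix.orthogonalGroup (Fin N) ℝ).1 i j)
    rw [h]
    exact fixes_one S
  inv_mem' := by
    intro A hA
    exact Fixes.tr hA

private theorem HaarExist_closed (S : Finset (Fin N)) :
    IsClosed {A : Fin N → Fin N → ℝ | Fixes S A} := by
  have h : {A : Fin N → Fin N → ℝ | Fixes S A} =
      {A | ∀ i j, ∑ k, A i k * A j k = if i = j then 1 else 0} ∩
      {A | ∀ i ∉ S, ∀ j, A i j = aone N i j ∧ A j i = aone N j i} := by
    ext A
    simp only [Fixes, isO_iff_rows, Set.mem_setOf_eq, Set.mem_inter_iff]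
  rw [h]
  refine IsClosed.inter ?_ ?_
  · simp only [Set.setOf_forall]
    refine isClosed_iInter fun i => isClosed_iInter fun j => isClosed_eq ?_ continuous_const
    fun_prop
  · simp only [Set.setOf_forall, Set.setOf_and]
    refine isClosed_iInter fun i => isClosed_iInter fun _ => isClosed_iInter fun j =>
      IsClosed.inter (isClosed_eq ?_ continuous_const) (isClosed_eq ?_ continuous_const)
    · fun_prop
    · fun_prop

private theorem HaarExist_compact (S : Finset (Fin N)) :
    IsCompact {A : Fin N → Fin N → ℝ | Fixes S A} := by
  have hc : IsCompact (Set.pi Set.univ (fun _ : Fin N =>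
      Set.pi Set.univ (fun _ : Fin N => Set.Icc (-1 : ℝ) 1))) :=
    isCompact_univ_pi fun _ => isCompact_univ_pi fun _ => isCompact_Icc
  refine hc.of_isClosed_subset (HaarExist_closed S) ?_
  intro A hA i _ j _
  exact Set.mem_Icc.mpr (abs_le.mp (hA.1.abs_le i j))

private def HaarExistι (S : Finset (Fin N)) (A : HaarExistK S) : Fin N → Fin N → ℝ :=
  fun i j => A.1.1 i j

private theorem HaarExist_inducing (S : Finset (Fin N)) :
    Topology.IsInducing (HaarExistι S) := by
  have h : Topology.IsInducing (fun A : HaarExistK S => (A.1.1 : Matrix (Fin N) (Fin N) ℝ)) :=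
    Topology.IsInducing.subtypeVal.comp Topology.IsInducing.subtypeVal
  exact h

private instance HaarExist_compactSpace (S : Finset (Fin N)) : CompactSpace (HaarExistK S) := by
  refine ⟨?_⟩
  rw [(HaarExist_inducing S).isCompact_iff, Set.image_univ]
  have h : Set.range (HaarExistι S) = {A : Fin N → Fin N → ℝ | Fixes S A} := by
    ext A
    constructor
    · rintro ⟨B, rfl⟩
      exact B.2
    · intro hA
      exact ⟨⟨⟨Matrix.of A, hA.1⟩, hA⟩, rfl⟩
  rw [h]
  exact HaarExist_compact S

/-- EXISTENCE.  PROOF.  Let `K` be the subgroup `{A | Fixes S A}` of the group `Matrix.orthogonalGroup (Fin N) ℝ` (topological group: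
Mathlib.Topology.Algebra.Star.Unitary), closed; it is compact because it is (homeomorphic to) a closed and bounded subset of
`Fin N → Fin N → ℝ` (entries bounded by `1`, `IsO.abs_le`).  Take `haarMeasure` of the compact group (`⊤ : PositiveCompacts`, with the Borel
σ-algebra as local instance), a left invariant probability measure, and let `ν` be its image under the continuous map `V ↦ (V : array)`;
`ν.map atr` is right invariant: `isHaarS_of_right`. -/
theorem exists_isHaarS (S : Finset (Fin N)) : ∃ μ : Measure (Fin N → Fin N → ℝ), IsHaarS S μ := by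
  classical
  letI : MeasurableSpace (HaarExistK S) := borel (HaarExistK S)
  haveI : BorelSpace (HaarExistK S) := ⟨rfl⟩
  let K₀ : TopologicalSpace.PositiveCompacts (HaarExistK S) := ⊤
  let h : Measure (HaarExistK S) := Measure.haarMeasure K₀
  have hι : Measurable (HaarExistι S) := (HaarExist_inducing S).continuous.measurable
  have hprob : IsProbabilityMeasure h := by
    refine ⟨?_⟩
    have := Measure.haarMeasure_self (K₀ := K₀)
    simpa [K₀] using this
  let ν : Measure (Fin N → Fin N → ℝ) := h.map (HaarExistι S)
  have hνp : IsProbabilityMeasure ν := Measure.isProbabilityMeasure_map hι.aemeasurable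
  have hνfix : ∀ᵐ V ∂ν, Fixes S V := by
    rw [ae_map_iff hι.aemeasurable (measurableSet_fixes S)]
    exact Filter.Eventually.of_forall fun A => A.2
  have hleft : ∀ W, Fixes S W → ν.map (fun V => amul W V) = ν := by
    intro W hW
    let w : HaarExistK S := ⟨⟨Matrix.of W, hW.1⟩, hW⟩
    have e1 : (fun V => amul W V) ∘ (HaarExistι S) = (HaarExistι S) ∘ (fun v => w * v) := by
      funext v
      rfl
    have hmul : Measurable (fun v : HaarExistK S => w * v) :=
      (continuous_const.mul continuous_id).measurable
    calc ν.map (fun V => amul W V) = h.map ((fun V => amul W V) ∘ (HaarExistι S)) :=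
          Measure.map_map (measurable_amul_left W) hι
      _ = h.map ((HaarExistι S) ∘ (fun v => w * v)) := by rw [e1]
      _ = (h.map (fun v => w * v)).map (HaarExistι S) := (Measure.map_map hι hmul).symm
      _ = ν := by
          have := map_mul_left_eq_self h w
          rw [this]
  refine ⟨ν.map atr, isHaarS_of_right S _ (Measure.isProbabilityMeasure_map
    measurable_atr.aemeasurable) ?_ ?_⟩
  · rw [ae_map_iff measurable_atr.aemeasurable (measurableSet_fixes S)]
    filter_upwards [hνfix] with V hV
    exact hV.tr
  · intro W hW
    have e2 : (fun V => amul V W) ∘ atr = atr ∘ (fun V => amul (atr W) V) := by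
      funext V
      simp only [Function.comp]
      rw [atr_amul, atr_atr]
    calc (ν.map atr).map (fun V => amul V W) = ν.map ((fun V => amul V W) ∘ atr) :=
          Measure.map_map (measurable_amul_right W) measurable_atr
      _ = ν.map (atr ∘ (fun V => amul (atr W) V)) := by rw [e2]
      _ = (ν.map (fun V => amul (atr W) V)).map atr :=
          (Measure.map_map measurable_atr (measurable_amul_left _)).symm
      _ = ν.map atr := by rw [hleft _ hW.tr]

end Crest.Agent.RI
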