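import Crest.Agent.RI.HaarAlg

/-!
# Row 164, Part 7: the groups Fixes S (easy)
-/

set_option autoImplicit false

namespace Crest.Agent.RI

open MeasureTheory ProbabilityTheory

variable {N : ℕ}

private theorem haarFix_aone_symm (i j : Fin N) : aone N i j = aone N j i := by
  unfold aone
  by_cases h : i = j
  · subst h; rfl
  · rw [if_neg h, if_neg (Ne.symm h)]

private theorem haarFix_aone_sum (i : Fin N) (x : Fin N → ℝ) : ∑ k, aone N i k * x k = x i := by
  unfold aone
  simp

private theorem haarFix_sum_aone (i : Fin N) (x : Fin N → ℝ) : ∑ k, x k * aone N k i = x i := by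
  unfold aone
  simp

theorem fixes_one (S : Finset (Fin N)) : Fixes S (aone N) :=
  ⟨isO_one, fun _ _ _ => ⟨rfl, rfl⟩⟩

theorem Fixes.mul {S : Finset (Fin N)} {A B : Fin N → Fin N → ℝ} (hA : Fixes S A)
    (hB : Fixes S B) : Fixes S (amul A B) := by
  refine ⟨IsO.mul hA.1 hB.1, fun i hi j => ⟨?_, ?_⟩⟩
  · unfold amul
    rw [Finset.sum_congr rfl (fun k _ => by rw [(hA.2 i hi k).1]), haarFix_aone_sum]
    exact (hB.2 i hi j).1
  · unfold amul
    rw [Finset.sum_congr rfl (fun k _ => by rw [(hB.2 i hi k).2]), haarFix_sum_aone]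
    exact (hA.2 i hi j).2

theorem Fixes.tr {S : Finset (Fin N)} {A : Fin N → Fin N → ℝ} (hA : Fixes S A) :
    Fixes S (atr A) := by
  refine ⟨IsO.tr hA.1, fun i hi j => ⟨?_, ?_⟩⟩
  · unfold atr
    rw [(hA.2 i hi j).2, haarFix_aone_symm]
  · unfold atr
    rw [(hA.2 i hi j).1, haarFix_aone_symm]

theorem fixes_univ {A : Fin N → Fin N → ℝ} : Fixes Finset.univ A ↔ IsO A :=
  ⟨fun h => h.1, fun h => ⟨h, fun i hi => absurd (Finset.mem_univ i) hi⟩⟩

theorem fixes_empty {A : Fin N → Fin N → ℝ} : Fixes ∅ A ↔ A = aone N := by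
  constructor
  · intro h
    funext i j
    exact (h.2 i (Finset.notMem_empty i) j).1
  · rintro rfl
    exact fixes_one _

theorem Fixes.mono {S S' : Finset (Fin N)} (h : S ⊆ S') {A : Fin N → Fin N → ℝ}
    (hA : Fixes S A) : Fixes S' A :=
  ⟨hA.1, fun i hi j => hA.2 i (fun h' => hi (h h')) j⟩

theorem fixes_refl {S : Finset (Fin N)} {q : Fin N → ℝ} (hq : UZ q) (h : ∀ i ∉ S, q i = 0) :
    Fixes S (refl q) := by
  refine ⟨isO_refl hq, fun i hi j => ⟨?_, ?_⟩⟩
  · unfold refl aone
    rw [h i hi]; ring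
  · unfold refl aone
    rw [h i hi]; ring

theorem Fixes.avec_off {S : Finset (Fin N)} {A : Fin N → Fin N → ℝ} (hA : Fixes S A)
    (x : Fin N → ℝ) {i : Fin N} (hi : i ∉ S) : avec A x i = x i := by
  unfold avec
  rw [Finset.sum_congr rfl (fun k _ => by rw [(hA.2 i hi k).1]), haarFix_aone_sum]

/-- `A` preserves inner products of the `S`-parts -/
private theorem haarFix_sum_mul {S : Finset (Fin N)} {A : Fin N → Fin N → ℝ} (hA : Fixes S A)
    (x y : Fin N → ℝ) : ∑ i ∈ S, avec A x i * avec A y i = ∑ i ∈ S, x i * y i := by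
  have h1 := IsO.ip_avec hA.1 x y
  unfold ip at h1
  rw [← Finset.sum_add_sum_compl S, ← Finset.sum_add_sum_compl S (fun i => x i * y i)] at h1
  have h2 : ∑ i ∈ Sᶜ, avec A x i * avec A y i = ∑ i ∈ Sᶜ, x i * y i := by
    refine Finset.sum_congr rfl fun i hi => ?_
    rw [Finset.mem_compl] at hi
    rw [hA.avec_off x hi, hA.avec_off y hi]
  linarith

/-- `A` preserves the norm of the `S`-part -/
theorem Fixes.sum_sq {S : Finset (Fin N)} {A : Fin N → Fin N → ℝ} (hA : Fixes S A)
    (x : Fin N → ℝ) : ∑ i ∈ S, avec A x i ^ 2 = ∑ i ∈ S, x i ^ 2 := by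
  have := haarFix_sum_mul hA x x
  simpa only [pow_two] using this

/-- `A` preserves inner products of the `S`-parts -/
theorem Fixes.sum_mul {S : Finset (Fin N)} {A : Fin N → Fin N → ℝ} (hA : Fixes S A)
    (x y : Fin N → ℝ) : ∑ i ∈ S, avec A x i * avec A y i = ∑ i ∈ S, x i * y i :=
  haarFix_sum_mul hA x y

/-- fixing the basis vectors outside `S` suffices -/
theorem fixes_of_ev {S : Finset (Fin N)} {A : Fin N → Fin N → ℝ} (hA : IsO A)
    (h : ∀ i ∉ S, avec A (ev i) = ev i) : Fixes S A := by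
  have hcol : ∀ i ∉ S, ∀ j, A j i = aone N j i := by
    intro i hi j
    have h1 := congrFun (h i hi) j
    rw [avec_ev] at h1
    exact h1
  refine ⟨hA, fun i hi j => ⟨?_, hcol i hi j⟩⟩
  have h1 := isO_iff_cols.1 hA i j
  rw [Finset.sum_congr rfl (fun k _ => by rw [hcol i hi k, haarFix_aone_symm]),
    haarFix_aone_sum] at h1
  exact h1

private theorem haarFix_qv_zero {k : Fin N} {W : Fin N → Fin N → ℝ}
    (hW : Fixes (tailS N k.val) W) {b : Fin N} (hb : b ∉ tailS N k.val) :
    qv k (avec W (ev k)) b = 0 := by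
  unfold qv
  have hbk : b ≠ k := by
    rintro rfl
    apply hb
    simp [tailS]
  have h1 : ev k b = 0 := if_neg hbk
  have h2 : avec W (ev k) b = 0 := by rw [hW.avec_off _ hb, h1]
  rw [h1, h2]
  simp

private theorem haarFix_unit {W : Fin N → Fin N → ℝ} (hW : IsO W) (k : Fin N) :
    ip (avec W (ev k)) (avec W (ev k)) = 1 := by
  rw [hW.ip_avec]
  unfold ip ev
  simp

/-- coset decomposition: `H(W e_k) W` fixes `e_b`, `b ≤ k` -/
theorem fixes_coset {k : Fin N} {W : Fin N → Fin N → ℝ} (hW : Fixes (tailS N k.val) W) :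
    Fixes (tailS N (k.val + 1)) (amul (refl (qv k (avec W (ev k)))) W) := by
  apply fixes_of_ev (IsO.mul (isO_refl (uz_qv _ _)) hW.1)
  intro b hb
  rw [avec_amul]
  by_cases hbk : b = k
  · subst hbk
    exact refl_qv_self (haarFix_unit hW.1 b)
  · have hb' : b ∉ tailS N k.val := by
      intro h
      apply hb
      simp only [tailS, Finset.mem_filter, Finset.mem_univ, true_and] at h ⊢
      have : b.val ≠ k.val := fun h' => hbk (Fin.ext h')
      omega
    have h1 : avec W (ev b) = ev b := by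
      rw [avec_ev]
      funext i
      exact (hW.2 b hb' i).2
    rw [h1, avec_refl]
    funext i
    have h2 : ip (qv k (avec W (ev k))) (ev b) = 0 := by
      unfold ip
      apply Finset.sum_eq_zero
      intro j _
      by_cases hj : j = b
      · rw [hj, haarFix_qv_zero hW hb']; ring
      · have : ev b j = 0 := if_neg hj
        rw [this]; ring
    rw [h2]; ring

/-- the reflection `H(W e_k)` belongs to the group of the coordinates `≥ k` -/
theorem fixes_refl_coset {k : Fin N} {W : Fin N → Fin N → ℝ} (hW : Fixes (tailS N k.val) W) :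
    Fixes (tailS N k.val) (refl (qv k (avec W (ev k)))) :=
  fixes_refl (uz_qv _ _) fun _ hi => haarFix_qv_zero hW hi

end Crest.Agent.RI
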