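import Crest.Agent.RI.HaarEx

/-!
# Row 164, Part 7: Gaussian vectors and the first column of a Haar matrix (H2)
-/

set_option autoImplicit false

namespace Crest.Agent.RI

open MeasureTheory ProbabilityTheory

variable {N : ℕ}

instance : IsProbabilityMeasure (gvec N) := by
  unfold gvec
  infer_instance

/-- the isometry of the Euclidean space given by an orthogonal array -/
private noncomputable def avecLI {A : Fin N → Fin N → ℝ} (hA : IsO A) :
    EuclideanSpace ℝ (Fin N) →ₗᵢ[ℝ] EuclideanSpace ℝ (Fin N) where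
  toFun x := WithLp.toLp 2 (avec A (WithLp.ofLp x))
  map_add' x y := by
    ext i
    simp [avec, mul_add, Finset.sum_add_distrib]
  map_smul' c x := by
    ext i
    simp only [avec, smul_eq_mul, RingHom.id_apply, PiLp.smul_apply]
    rw [Finset.mul_sum]
    exact Finset.sum_congr rfl fun j _ => by ring
  norm_map' x := by
    have h := hA.ip_avec (WithLp.ofLp x) (WithLp.ofLp x)
    have h2 : ‖WithLp.toLp 2 (avec A (WithLp.ofLp x))‖ ^ 2 = ‖x‖ ^ 2 := by
      rw [EuclideanSpace.real_norm_sq_eq, EuclideanSpace.real_norm_sq_eq]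
      simpa [ip, ← sq] using h
    exact (sq_eq_sq₀ (norm_nonneg _) (norm_nonneg _)).1 h2

private theorem measurable_avec' (A : Fin N → Fin N → ℝ) : Measurable (avec A) :=
  measurable_avec.comp (measurable_const.prodMk measurable_id)

/-- Gaussian rotation invariance.  PROOF.  `ProbabilityTheory.map_pi_eq_stdGaussian`, `stdGaussian_map` for the isometry of
`EuclideanSpace ℝ (Fin N)` given by the orthogonal matrix (or `Measure.ext_of_charFun`). -/
theorem gvec_map_avec {A : Fin N → Fin N → ℝ} (hA : IsO A) :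
    (gvec N).map (avec A) = gvec N := by
  have h1 : (gvec N).map (WithLp.toLp 2) = stdGaussian (EuclideanSpace ℝ (Fin N)) :=
    map_pi_eq_stdGaussian
  let f := (avecLI hA).toLinearIsometryEquiv rfl
  have h2 : (stdGaussian (EuclideanSpace ℝ (Fin N))).map f = stdGaussian (EuclideanSpace ℝ (Fin N)) :=
    stdGaussian_map f
  have hm1 : Measurable (WithLp.toLp 2 : (Fin N → ℝ) → EuclideanSpace ℝ (Fin N)) := by fun_prop
  have hm2 : Measurable (WithLp.ofLp : EuclideanSpace ℝ (Fin N) → (Fin N → ℝ)) := by fun_prop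
  have hmf : Measurable f := f.continuous.measurable
  have h3 : avec A = WithLp.ofLp ∘ f ∘ WithLp.toLp 2 := by
    funext x
    rfl
  have h4 : ((stdGaussian (EuclideanSpace ℝ (Fin N))).map (WithLp.ofLp)) = gvec N := by
    rw [← h1, Measure.map_map hm2 hm1]
    have : (WithLp.ofLp : EuclideanSpace ℝ (Fin N) → (Fin N → ℝ)) ∘ WithLp.toLp 2 = id := by
      funext x; rfl
    rw [this, Measure.map_id]
  rw [h3, ← Measure.map_map hm2 (hmf.comp hm1), ← Measure.map_map hmf hm1, h1, h2, h4]

/-- a Gaussian vector is a.s. nonzero -/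
theorem gvec_ne_zero (hN : 0 < N) : ∀ᵐ x ∂gvec N, ip x x ≠ 0 := by
  let i0 : Fin N := ⟨0, hN⟩
  have h1 : MeasurePreserving (Function.eval i0) (gvec N) (gaussianReal 0 1) := by
    unfold gvec
    exact measurePreserving_eval (fun _ : Fin N => gaussianReal 0 1) i0
  have h2 : ∀ᵐ y ∂(gaussianReal 0 1), y ≠ 0 := by
    have := nullSingletonClass_gaussianReal (μ := 0) (v := 1) one_ne_zero
    rw [ae_iff]
    simp
  have h3 := h1.quasiMeasurePreserving.ae h2
  filter_upwards [h3] with x hx h0
  apply hx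
  have h4 : x i0 * x i0 ≤ ip x x :=
    Finset.single_le_sum (f := fun i => x i * x i) (fun i _ => mul_self_nonneg (x i))
      (Finset.mem_univ i0)
  rw [h0] at h4
  exact mul_self_eq_zero.1 (le_antisymm h4 (mul_self_nonneg _))

/-- normalised vector -/
noncomputable def nrm (x : Fin N → ℝ) : Fin N → ℝ := fun i => x i / Real.sqrt (ip x x)

theorem measurable_nrm : Measurable (nrm : (Fin N → ℝ) → _) := by
  have h1 : Measurable (fun x : Fin N → ℝ => ip x x) :=
    measurable_ip.comp (measurable_id.prodMk measurable_id)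
  exact measurable_pi_lambda _ fun i => (measurable_pi_apply i).div h1.sqrt

theorem ip_nrm {x : Fin N → ℝ} (h : ip x x ≠ 0) : ip (nrm x) (nrm x) = 1 := by
  have h1 : ip (nrm x) (nrm x) = ip x x / (Real.sqrt (ip x x) * Real.sqrt (ip x x)) := by
    simp only [ip, nrm]
    rw [Finset.sum_div]
    exact Finset.sum_congr rfl fun i _ => by rw [div_mul_div_comm]
  rw [h1, Real.mul_self_sqrt (ip_nonneg x), div_self h]

private theorem avec_nrm {A : Fin N → Fin N → ℝ} (hA : IsO A) (x : Fin N → ℝ) :
    avec A (nrm x) = nrm (avec A x) := by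
  funext i
  simp only [nrm, hA.ip_avec]
  simp only [avec]
  rw [Finset.sum_div]
  exact Finset.sum_congr rfl fun j _ => by rw [mul_div_assoc]; rfl

/-- (H2) law of `U e_a`.  PROOF.  Consider `U (ξ/|ξ|)`, `U ~ P`, `ξ ~ gvec` independent.  For fixed `ξ ≠ 0` there is an orthogonal `R` (a reflection
`refl (qv a (nrm ξ))`) with `R e_a = nrm ξ`; `U nrm ξ = (U R) e_a` has the law of `U e_a` (`hP.right`).  For fixed `U`: `U nrm ξ = nrm (U ξ)` has the law
of `nrm ξ` (`gvec_map_avec`).  Fubini for measurable sets. -/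
theorem haar_col {P : Measure (Fin N → Fin N → ℝ)} (hP : IsHaar P) (a : Fin N) :
    P.map (fun U => avec U (ev a)) = (gvec N).map nrm := by
  have : IsProbabilityMeasure P := hP.prob
  have hN : 0 < N := a.pos
  have hmU : Measurable (fun U : Fin N → Fin N → ℝ => avec U (ev a)) :=
    measurable_avec.comp (measurable_id.prodMk measurable_const)
  have hmG : Measurable (fun p : (Fin N → Fin N → ℝ) × (Fin N → ℝ) => avec p.1 (nrm p.2)) :=
    measurable_avec.comp (measurable_fst.prodMk (measurable_nrm.comp measurable_snd))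
  refine Measure.ext fun s hs => ?_
  rw [Measure.map_apply hmU hs, Measure.map_apply measurable_nrm hs]
  set T : Set ((Fin N → Fin N → ℝ) × (Fin N → ℝ)) :=
    (fun p : (Fin N → Fin N → ℝ) × (Fin N → ℝ) => avec p.1 (nrm p.2)) ⁻¹' s with hT
  have hTm : MeasurableSet T := hmG hs
  have hA : (P.prod (gvec N)) T = (gvec N) (nrm ⁻¹' s) := by
    rw [Measure.prod_apply hTm]
    have h1 : ∀ᵐ U ∂P, (gvec N) (Prod.mk U ⁻¹' T) = (gvec N) (nrm ⁻¹' s) := by
      filter_upwards [hP.orth] with U hU
      have hU' : IsO U := hU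
      have h2 : Prod.mk U ⁻¹' T = (avec U) ⁻¹' (nrm ⁻¹' s) := by
        ext ξ
        simp only [hT, Set.mem_preimage]
        rw [avec_nrm hU']
      rw [h2, ← Measure.map_apply (measurable_avec' U) (measurable_nrm hs), gvec_map_avec hU']
    rw [lintegral_congr_ae h1]
    simp
  have hB : (P.prod (gvec N)) T = P ((fun U => avec U (ev a)) ⁻¹' s) := by
    rw [Measure.prod_apply_symm hTm]
    have h1 : ∀ᵐ ξ ∂(gvec N), P ((fun U => (U, ξ)) ⁻¹' T) = P ((fun U => avec U (ev a)) ⁻¹' s) := by
      filter_upwards [gvec_ne_zero hN] with ξ hξ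
      set R := refl (qv a (nrm ξ)) with hR
      have hRO : IsO R := isO_refl (uz_qv a _)
      have hRe : avec R (ev a) = nrm ξ := refl_qv_ev (ip_nrm hξ)
      have h2 : (fun U => (U, ξ)) ⁻¹' T =
          (fun V => amul V R) ⁻¹' ((fun U => avec U (ev a)) ⁻¹' s) := by
        ext U
        simp only [hT, Set.mem_preimage]
        rw [avec_amul, hRe]
      rw [h2, ← Measure.map_apply (measurable_amul_right R) (hmU hs), hP.right hRO]
    rw [lintegral_congr_ae h1]
    simp
  rw [← hB, hA]

end Crest.Agent.RI
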