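import Crest.Agent.RI.HaarFix
import Crest.Agent.RI.HaarMb

/-!
# Row 164, Part 7: uniqueness of Haar laws
-/

set_option autoImplicit false

namespace Crest.Agent.RI

open MeasureTheory ProbabilityTheory

variable {N : ℕ}

/-- UNIQUENESS TRICK.  PROOF.  For a measurable set `B` (or bounded measurable `f = 1_B`):
`∫ f dμ = ∫_{w ~ μ'} ∫_{u ~ μ} f(u) = ∫_w ∫_u f(u w)` (`right`, a.e. `w`) `= ∫_u ∫_w f(u w)` (Fubini) `= ∫_u ∫_w f(w) = ∫ f dμ'`
(`left`, a.e. `u`).  Use `lintegral` with indicators and `measurable_amul`. -/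
theorem haar_unique_aux (S : Finset (Fin N)) (μ μ' : Measure (Fin N → Fin N → ℝ))
    (hp : IsProbabilityMeasure μ) (hp' : IsProbabilityMeasure μ')
    (hfix : ∀ᵐ V ∂μ, Fixes S V) (hfix' : ∀ᵐ V ∂μ', Fixes S V)
    (hright : ∀ W, Fixes S W → μ.map (fun V => amul V W) = μ)
    (hleft : ∀ W, Fixes S W → μ'.map (fun V => amul W V) = μ') : μ = μ' := by
  ext B hB
  have hm : Measurable (Function.uncurry
      (fun (w V : Fin N → Fin N → ℝ) => B.indicator (fun _ => (1 : ENNReal)) (amul V w))) := by
    have h1 : Measurable (fun p : (Fin N → Fin N → ℝ) × (Fin N → Fin N → ℝ) =>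
        amul p.2 p.1) := measurable_amul.comp measurable_swap
    exact (measurable_one.indicator hB).comp h1
  have e1 : ∀ᵐ w ∂μ', μ B = ∫⁻ V, B.indicator (fun _ => (1 : ENNReal)) (amul V w) ∂μ := by
    filter_upwards [hfix'] with w hw
    have h1 : μ B = μ.map (fun V => amul V w) B := by rw [hright w hw]
    rw [h1, Measure.map_apply (measurable_amul_right w) hB]
    have h2 : (fun V => B.indicator (fun _ => (1 : ENNReal)) (amul V w)) =
        ((fun V => amul V w) ⁻¹' B).indicator (fun _ => (1 : ENNReal)) := by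
      rfl
    rw [h2, lintegral_indicator_const (measurable_amul_right w hB), one_mul]
  have e2 : ∀ᵐ V ∂μ, μ' B = ∫⁻ w, B.indicator (fun _ => (1 : ENNReal)) (amul V w) ∂μ' := by
    filter_upwards [hfix] with V hV
    have h1 : μ' B = μ'.map (fun w => amul V w) B := by rw [hleft V hV]
    rw [h1, Measure.map_apply (measurable_amul_left V) hB]
    have h2 : (fun w => B.indicator (fun _ => (1 : ENNReal)) (amul V w)) =
        ((fun w => amul V w) ⁻¹' B).indicator (fun _ => (1 : ENNReal)) := by
      rfl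
    rw [h2, lintegral_indicator_const (measurable_amul_left V hB), one_mul]
  calc μ B = ∫⁻ _w, μ B ∂μ' := by rw [lintegral_const, measure_univ, mul_one]
    _ = ∫⁻ w, ∫⁻ V, B.indicator (fun _ => (1 : ENNReal)) (amul V w) ∂μ ∂μ' := lintegral_congr_ae e1
    _ = ∫⁻ V, ∫⁻ w, B.indicator (fun _ => (1 : ENNReal)) (amul V w) ∂μ' ∂μ :=
        lintegral_lintegral_swap hm.aemeasurable
    _ = ∫⁻ _V, μ' B ∂μ := (lintegral_congr_ae e2).symm
    _ = μ' B := by rw [lintegral_const, measure_univ, mul_one]

private theorem HaarUniq_left_tr (S : Finset (Fin N)) (μ : Measure (Fin N → Fin N → ℝ))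
    (hright : ∀ W, Fixes S W → μ.map (fun V => amul V W) = μ) (W : Fin N → Fin N → ℝ)
    (hW : Fixes S W) : (μ.map atr).map (fun V => amul W V) = μ.map atr := by
  rw [Measure.map_map (measurable_amul_left W) measurable_atr]
  have h1 : (fun V => amul W V) ∘ atr = atr ∘ (fun V : Fin N → Fin N → ℝ => amul V (atr W)) := by
    ext V i j
    simp only [Function.comp_apply]
    rw [atr_amul, atr_atr]
  rw [h1, ← Measure.map_map measurable_atr (measurable_amul_right _), hright _ hW.tr]

private theorem HaarUniq_fix_tr (S : Finset (Fin N)) (μ : Measure (Fin N → Fin N → ℝ))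
    (hfix : ∀ᵐ V ∂μ, Fixes S V) : ∀ᵐ V ∂(μ.map atr), Fixes S V := by
  rw [ae_map_iff measurable_atr.aemeasurable (measurableSet_fixes S)]
  filter_upwards [hfix] with V hV
  exact hV.tr

private theorem HaarUniq_eq_tr (S : Finset (Fin N)) (μ : Measure (Fin N → Fin N → ℝ))
    (hp : IsProbabilityMeasure μ) (hfix : ∀ᵐ V ∂μ, Fixes S V)
    (hright : ∀ W, Fixes S W → μ.map (fun V => amul V W) = μ) : μ = μ.map atr :=
  haar_unique_aux S μ (μ.map atr) hp (Measure.isProbabilityMeasure_map measurable_atr.aemeasurable)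
    hfix (HaarUniq_fix_tr S μ hfix) hright (HaarUniq_left_tr S μ hright)

/-- A right invariant law is a Haar law.  PROOF.  The transposed law `μ.map atr` is left invariant (`atr (amul A B) = amul (atr B) (atr A)`),
supported on `Fixes S`; `haar_unique_aux` gives `μ = μ.map atr`, so `μ` is left invariant too. -/
theorem isHaarS_of_right (S : Finset (Fin N)) (μ : Measure (Fin N → Fin N → ℝ))
    (hp : IsProbabilityMeasure μ) (hfix : ∀ᵐ V ∂μ, Fixes S V)
    (hright : ∀ W, Fixes S W → μ.map (fun V => amul V W) = μ) : IsHaarS S μ := by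
  refine ⟨hp, hfix, fun W hW => ?_, hright⟩
  have h := HaarUniq_eq_tr S μ hp hfix hright
  have h2 := HaarUniq_left_tr S μ hright W hW
  rw [← h] at h2
  exact h2

/-- uniqueness -/
theorem IsHaarS.unique {S : Finset (Fin N)} {μ μ' : Measure (Fin N → Fin N → ℝ)}
    (h : IsHaarS S μ) (h' : IsHaarS S μ') : μ = μ' :=
  haar_unique_aux S μ μ' h.prob h'.prob h.fix h'.fix h.right h'.left

/-- invariance under transposition -/
theorem IsHaarS.transpose {S : Finset (Fin N)} {μ : Measure (Fin N → Fin N → ℝ)}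
    (h : IsHaarS S μ) : μ.map atr = μ :=
  (HaarUniq_eq_tr S μ h.prob h.fix h.right).symm

end Crest.Agent.RI
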