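import Crest.Agent.RI.SiteADef

/-!
# Row 164: shared definitions of the interface statements (`siteA`, `SB`, `VLe`) and the interface
statements UBmain, LBmain, pressure_conc as `Prop`s (helper50)
-/

set_option autoImplicit false

namespace Crest.Agent.RI

open MeasureTheory ProbabilityTheory
open Crest.ProbabilityR.InvariantGlass

/-- `s` bounds `S_m(p)`. -/
def SB {J : ℕ} (γ m : Fin J → ℝ) (p : ℝ → ℝ) (s : ℝ) : Prop :=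
  ∀ (k : ℕ) (w hv : Fin k → ℝ), IsStepField w hv →
    ∑ j, γ j * (⨅ b : ℝ, (fieldValueAt b w hv - b * m j)) +
      (1 / 2) * ∫ u in Set.Ioo (0 : ℝ) 1, p u * stepFn w hv u ≤ s

/-- `V ≤ V(m) = inf_p (S_m(p) + G(p))`. -/
def VLe (D : Blk) {J : ℕ} (γ m : Fin J → ℝ) (V : ℝ) : Prop :=
  ∀ p : ℝ → ℝ, IsTrialPath p → ∀ s : ℝ, SB γ m p s → V ≤ s + D.G p

/-- Statement of `UBmain`. -/
def UBmainStmt (D : Blk) : Prop := ∀ {ε δ : ℝ}, 0 < ε → 0 < δ →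
    ∃ k₀ : ℕ, ∀ k ≥ k₀, ∃ (N₀ : ℕ) (η : ℝ), 0 < η ∧ ∀ N ≥ N₀, ∀ κ : Fin N → Fin D.K, D.Close η κ →
      ∀ P : Measure (Fin N → Fin N → ℝ), IsHaar P →
      ∀ A : Measure (Fin N → Bool), IsProbabilityMeasure A →
      ∀ p : ℕ → ℝ, Monotone p → (∀ i, 0 ≤ p i ∧ p i ≤ 1 - δ) →
      ∀ s : ℝ, (∀ τ : ℕ → ℝ, (∀ i, 0 ≤ τ i) → siteA A k τ +
        (1 / 2) * ((1 / ((k : ℝ) + 1)) * ∑ i ∈ Finset.range k, p i * hh τ i) ≤ s) →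
      (1 / (N : ℝ)) * (((k : ℝ) + 1) * Real.log (∫ U, Real.exp ((1 / ((k : ℝ) + 1)) *
        Real.log (∫ σ, Real.exp ((1 / 2) * ∑ a, D.d (κ a) * (∑ r, U a r * spin (σ r)) ^ 2) ∂A)) ∂P))
        ≤ s + D.G (stepUB k p) + ε

/-- Statement of `LBmain`. -/
def LBmainStmt (D : Blk) : Prop := ∀ {J : ℕ} (γ c m : Fin J → ℝ), (∀ j, 0 < γ j) → ∑ j, γ j = 1 →
    (∀ j, |m j| < 1) → ∀ {V ε : ℝ}, 0 < ε → VLe D γ m V →
    ∃ (N₀ : ℕ) (η : ℝ), 0 < η ∧ ∀ N ≥ N₀, ∀ κ : Fin N → Fin D.K, D.Close η κ →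
      ∀ lab : Fin N → Fin J,
      (∀ j, |((Finset.univ.filter (fun r => lab r = j)).card : ℝ) / (N : ℝ) - γ j| ≤ η) →
      ∀ P : Measure (Fin N → Fin N → ℝ), IsHaar P →
      ∑ j, γ j * c j * m j + V - ε ≤
        ∫ U, pressureFieldN (fun a => D.d (κ a)) (Matrix.of U) (fun r => c (lab r)) ∂P

/-- Statement of `pressure_conc`. -/
def ConcStmt (D : Blk) : Prop := ∀ {J : ℕ} (c : Fin J → ℝ), ∃ (C : ℝ) (N₀ : ℕ) (η : ℝ), 0 < η ∧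
    ∀ N ≥ N₀, ∀ κ : Fin N → Fin D.K, D.Close η κ → ∀ lab : Fin N → Fin J,
    ∀ P : Measure (Fin N → Fin N → ℝ), IsHaar P →
    ∫ U, |pressureFieldN (fun a => D.d (κ a)) (Matrix.of U) (fun r => c (lab r)) -
      ∫ U', pressureFieldN (fun a => D.d (κ a)) (Matrix.of U') (fun r => c (lab r)) ∂P| ^ 4 ∂P ≤
      C / (N : ℝ) ^ 2

end Crest.Agent.RI
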