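import Mathlib

/-!
# Row 164, Part 9: matching label functions by a permutation
-/

set_option autoImplicit false

namespace Crest.Agent.RI

variable {A : Type} [Fintype A] {N : ℕ}

/-- two label functions with close counts differ in few places after a permutation.  PROOF: match `min(#κ⁻¹(l), #κ'⁻¹(l))` positions for every label,
extend to a permutation (`Equiv.extendSubtype`). -/
theorem exists_perm_close [DecidableEq A] (κ κ' : Fin N → A) : ∃ π : Equiv.Perm (Fin N),
    ((Finset.univ.filter (fun a => κ (π a) ≠ κ' a)).card : ℝ) ≤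
      ∑ l, |((Finset.univ.filter (fun a => κ a = l)).card : ℝ) -
        ((Finset.univ.filter (fun a => κ' a = l)).card : ℝ)| := by
  classical
  set K : A → Finset (Fin N) := fun l => Finset.univ.filter (fun a => κ a = l) with hK
  set K' : A → Finset (Fin N) := fun l => Finset.univ.filter (fun a => κ' a = l) with hK'
  have hex : ∀ l, ∃ t ⊆ K' l, t.card = min (K l).card (K' l).card := fun l =>
    Finset.exists_subset_card_eq (min_le_right _ _)
  choose S hS hScard using hex
  have hemb : ∀ l, Nonempty ({a // a ∈ S l} ↪ {a // a ∈ K l}) := fun l => by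
    apply Function.Embedding.nonempty_of_card_le
    simp only [Fintype.card_coe]
    rw [hScard]
    exact min_le_left _ _
  let emb : ∀ l, {a // a ∈ S l} ↪ {a // a ∈ K l} := fun l => (hemb l).some
  let f : Fin N → Fin N := fun a => if h : a ∈ S (κ' a) then (emb (κ' a) ⟨a, h⟩ : Fin N) else a
  let T : Finset (Fin N) := Finset.univ.filter (fun a => a ∈ S (κ' a))
  have hf : ∀ a ∈ T, κ (f a) = κ' a := by
    intro a ha
    have h : a ∈ S (κ' a) := (Finset.mem_filter.mp ha).2
    have h1 : f a = (emb (κ' a) ⟨a, h⟩ : Fin N) := by simp only [f, dif_pos h]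
    rw [h1]
    exact (Finset.mem_filter.mp (emb (κ' a) ⟨a, h⟩).2).2
  have hinj : Set.InjOn f (T : Set (Fin N)) := by
    intro a ha b hb hab
    have ha' : a ∈ T := ha
    have hb' : b ∈ T := hb
    have hl : κ' a = κ' b := by rw [← hf a ha', ← hf b hb', hab]
    have h : a ∈ S (κ' a) := (Finset.mem_filter.mp ha').2
    have h' : b ∈ S (κ' a) := by rw [hl]; exact (Finset.mem_filter.mp hb').2
    have h1 : f a = (emb (κ' a) ⟨a, h⟩ : Fin N) := by simp only [f, dif_pos h]
    have h2 : f b = (emb (κ' a) ⟨b, h'⟩ : Fin N) := by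
      have : ∀ l (hl : κ' b = l) (hb : b ∈ S l), f b = (emb l ⟨b, hb⟩ : Fin N) := by
        rintro l rfl hb
        simp only [f, dif_pos hb]
      exact this _ hl.symm h'
    rw [h1, h2] at hab
    have := (emb (κ' a)).injective (Subtype.ext hab)
    exact congrArg Subtype.val this
  obtain ⟨g, hg⟩ := Finset.exists_equiv_extend_of_card_eq (α := Fin N) (β := Fin N)
    (t := Finset.univ) (by simp) (s := T) (f := f) (Finset.subset_univ _) hinj
  let π : Equiv.Perm (Fin N) := g.trans (Equiv.subtypeUnivEquiv (fun x => Finset.mem_univ x))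
  refine ⟨π, ?_⟩
  have hπ : ∀ a ∈ T, κ (π a) = κ' a := by
    intro a ha
    have : π a = f a := hg a ha
    rw [this]; exact hf a ha
  have hsub : Finset.univ.filter (fun a => κ (π a) ≠ κ' a) ⊆
      Finset.univ.biUnion (fun l => K' l \ S l) := by
    intro a ha
    have hne := (Finset.mem_filter.mp ha).2
    have haT : a ∉ T := fun h => hne (hπ a h)
    simp only [Finset.mem_biUnion, Finset.mem_univ, true_and]
    refine ⟨κ' a, ?_⟩
    rw [Finset.mem_sdiff]
    refine ⟨Finset.mem_filter.mpr ⟨Finset.mem_univ _, rfl⟩, fun h => haT ?_⟩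
    exact Finset.mem_filter.mpr ⟨Finset.mem_univ _, h⟩
  calc ((Finset.univ.filter (fun a => κ (π a) ≠ κ' a)).card : ℝ)
      ≤ ((Finset.univ.biUnion (fun l => K' l \ S l)).card : ℝ) := by
        exact_mod_cast Finset.card_le_card hsub
    _ ≤ ((∑ l, (K' l \ S l).card : ℕ) : ℝ) := by
        exact_mod_cast Finset.card_biUnion_le
    _ = ∑ l, ((K' l \ S l).card : ℝ) := by push_cast; rfl
    _ ≤ ∑ l, |((K l).card : ℝ) - ((K' l).card : ℝ)| := by
        apply Finset.sum_le_sum
        intro l _
        have h1 : (K' l \ S l).card = (K' l).card - (S l).card := by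
          rw [Finset.card_sdiff_of_subset (hS l)]
        have h2 : (S l).card ≤ (K' l).card := Finset.card_le_card (hS l)
        rw [h1, Nat.cast_sub h2, hScard]
        rcases le_total (K l).card (K' l).card with h | h
        · rw [min_eq_left h, abs_sub_comm]
          exact le_abs_self _
        · rw [min_eq_right h, sub_self]
          exact abs_nonneg _

end Crest.Agent.RI
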