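import Mathlib

/-!
# Row 164, Part 9: product weights on label functions
-/

set_option autoImplicit false

namespace Crest.Agent.RI

variable {A : Type} [Fintype A] {N : ℕ}

/-- weight of an iid sequence of labels -/
noncomputable def Wt (α : A → ℝ) {N : ℕ} (κ : Fin N → A) : ℝ := ∏ a, α (κ a)

theorem Wt_nonneg {α : A → ℝ} (h : ∀ l, 0 ≤ α l) (κ : Fin N → A) : 0 ≤ Wt α κ :=
  Finset.prod_nonneg fun a _ => h (κ a)

theorem Wt_succ (α : A → ℝ) (f : (Fin (N + 1) → A) → ℝ) :
    ∑ κ' : Fin (N + 1) → A, Wt α κ' * f κ' =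
      ∑ l, ∑ κ : Fin N → A, α l * (Wt α κ * f (Fin.cons l κ)) := by
  rw [← Equiv.sum_comp (Fin.consEquiv (fun _ : Fin (N + 1) => A)), Fintype.sum_prod_type]
  refine Finset.sum_congr rfl fun l _ => Finset.sum_congr rfl fun κ _ => ?_
  change Wt α (Fin.cons l κ : Fin (N + 1) → A) * f (Fin.cons l κ) = _
  simp only [Wt, Fin.prod_univ_succ, Fin.cons_zero, Fin.cons_succ]
  ring

theorem Wt_sum {α : A → ℝ} (h : ∑ l, α l = 1) (N : ℕ) : ∑ κ : Fin N → A, Wt α κ = 1 := by
  induction N with
  | zero => simp [Wt]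
  | succ n ih =>
    have := Wt_succ (N := n) α (fun _ => 1)
    simp only [mul_one] at this
    rw [this]
    simp only [← Finset.mul_sum, ih, mul_one, h]

private theorem IIDw_card_cons [DecidableEq A] (l l' : A) (κ : Fin N → A) :
    ((Finset.univ.filter (fun a => (Fin.cons l' κ : Fin (N + 1) → A) a = l)).card : ℝ) =
      (if l' = l then 1 else 0) + ((Finset.univ.filter (fun a => κ a = l)).card : ℝ) := by
  rw [Finset.card_filter, Finset.card_filter]
  push_cast
  rw [Fin.sum_univ_succ]
  simp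

private theorem IIDw_mean [DecidableEq A] {α : A → ℝ} (h : ∑ l, α l = 1) (l : A) (N : ℕ) :
    ∑ κ : Fin N → A, Wt α κ *
      (((Finset.univ.filter (fun a => κ a = l)).card : ℝ) - N * α l) = 0 := by
  induction N with
  | zero => simp [Wt]
  | succ n ih =>
    rw [Wt_succ (N := n) α]
    have e : ∀ l', ∑ κ : Fin n → A, α l' * (Wt α κ *
        (((Finset.univ.filter (fun a => (Fin.cons l' κ : Fin (n + 1) → A) a = l)).card : ℝ) -
          ((n + 1 : ℕ) : ℝ) * α l)) = α l' * ((if l' = l then 1 else 0) - α l) := by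
      intro l'
      have : ∀ κ : Fin n → A, α l' * (Wt α κ *
        (((Finset.univ.filter (fun a => (Fin.cons l' κ : Fin (n + 1) → A) a = l)).card : ℝ) -
          ((n + 1 : ℕ) : ℝ) * α l)) =
          α l' * (Wt α κ *
            (((Finset.univ.filter (fun a => κ a = l)).card : ℝ) - n * α l)) +
          (α l' * ((if l' = l then 1 else 0) - α l)) * Wt α κ := by
        intro κ
        rw [IIDw_card_cons]
        push_cast
        ring
      rw [Finset.sum_congr rfl fun κ _ => this κ, Finset.sum_add_distrib, ← Finset.mul_sum,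
        ← Finset.mul_sum, ih, Wt_sum h]
      ring
    rw [Finset.sum_congr rfl fun l' _ => e l']
    simp only [mul_sub, Finset.sum_sub_distrib, mul_ite, mul_one, mul_zero,
      Finset.sum_ite_eq', Finset.mem_univ, if_true, ← Finset.sum_mul, h, one_mul, sub_self]

/-- variance of the counts: `E (#{κ = l} - N α_l)² = N α_l (1 - α_l) ≤ N`.  PROOF: induction on `N` with `Wt_succ`. -/
theorem Wt_var [DecidableEq A] {α : A → ℝ} (h0 : ∀ l, 0 ≤ α l) (h : ∑ l, α l = 1) (l : A) (N : ℕ) :
    ∑ κ : Fin N → A, Wt α κ *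
      (((Finset.univ.filter (fun a => κ a = l)).card : ℝ) - N * α l) ^ 2 ≤ N := by
  have hl1 : α l ≤ 1 := by
    rw [← h]
    exact Finset.single_le_sum (fun i _ => h0 i) (Finset.mem_univ l)
  induction N with
  | zero => simp [Wt]
  | succ n ih =>
    rw [Wt_succ (N := n) α]
    have e : ∀ l', ∑ κ : Fin n → A, α l' * (Wt α κ *
        (((Finset.univ.filter (fun a => (Fin.cons l' κ : Fin (n + 1) → A) a = l)).card : ℝ) -
          ((n + 1 : ℕ) : ℝ) * α l) ^ 2) ≤ α l' * (1 + n) := by
      intro l'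
      have : ∀ κ : Fin n → A, α l' * (Wt α κ *
        (((Finset.univ.filter (fun a => (Fin.cons l' κ : Fin (n + 1) → A) a = l)).card : ℝ) -
          ((n + 1 : ℕ) : ℝ) * α l) ^ 2) =
          α l' * (Wt α κ *
            (((Finset.univ.filter (fun a => κ a = l)).card : ℝ) - n * α l) ^ 2) +
          (α l' * 2 * ((if l' = l then 1 else 0) - α l)) * (Wt α κ *
            (((Finset.univ.filter (fun a => κ a = l)).card : ℝ) - n * α l)) +
          (α l' * ((if l' = l then 1 else 0) - α l) ^ 2) * Wt α κ := by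
        intro κ
        rw [IIDw_card_cons]
        push_cast
        ring
      rw [Finset.sum_congr rfl fun κ _ => this κ, Finset.sum_add_distrib, Finset.sum_add_distrib,
        ← Finset.mul_sum, ← Finset.mul_sum, ← Finset.mul_sum, IIDw_mean h, Wt_sum h]
      have h1 : ((if l' = l then 1 else 0) - α l) ^ 2 ≤ 1 := by
        split_ifs
        · nlinarith [h0 l]
        · nlinarith [h0 l]
      have h2 := mul_le_mul_of_nonneg_left ih (h0 l')
      have h3 := mul_le_mul_of_nonneg_left h1 (h0 l')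
      linarith
    refine (Finset.sum_le_sum fun l' _ => e l').trans ?_
    rw [← Finset.sum_mul, h]
    push_cast
    linarith

/-- atypical labels (Chebyshev).  `g` vanishes on typical labels. -/
theorem Wt_atyp [DecidableEq A] {α : A → ℝ} (h0 : ∀ l, 0 ≤ α l) (h : ∑ l, α l = 1) {η : ℝ}
    (hη : 0 < η) {N : ℕ} (hN : 0 < N) (g : (Fin N → A) → ℝ) (hg0 : ∀ κ, 0 ≤ g κ)
    (hg1 : ∀ κ, g κ ≤ 1) (hg : ∀ κ, (∀ l,
      |((Finset.univ.filter (fun a => κ a = l)).card : ℝ) / (N : ℝ) - α l| ≤ η) → g κ = 0) :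
    ∑ κ : Fin N → A, Wt α κ * g κ ≤ (Fintype.card A : ℝ) / (N * η ^ 2) := by
  have hNr : (0 : ℝ) < N := by exact_mod_cast hN
  have key : ∀ κ : Fin N → A, g κ ≤ ∑ l : A, (1 / (N * η) ^ 2) *
      (((Finset.univ.filter (fun a => κ a = l)).card : ℝ) - N * α l) ^ 2 := by
    intro κ
    by_cases hk : ∀ l, |((Finset.univ.filter (fun a => κ a = l)).card : ℝ) / (N : ℝ) - α l| ≤ η
    · rw [hg κ hk]
      exact Finset.sum_nonneg fun l _ => by positivity
    · push Not at hk
      obtain ⟨l, hl⟩ := hk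
      refine (hg1 κ).trans ?_
      refine le_trans ?_ (Finset.single_le_sum (f := fun l : A => (1 / (N * η) ^ 2) *
        (((Finset.univ.filter (fun a => κ a = l)).card : ℝ) - N * α l) ^ 2)
        (fun i _ => by positivity) (Finset.mem_univ l))
      have h1 : (N : ℝ) * η ≤ |((Finset.univ.filter (fun a => κ a = l)).card : ℝ) - N * α l| := by
        have : ((Finset.univ.filter (fun a => κ a = l)).card : ℝ) - N * α l =
            N * (((Finset.univ.filter (fun a => κ a = l)).card : ℝ) / (N : ℝ) - α l) := by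
          field_simp
        rw [this, abs_mul, abs_of_pos hNr]
        exact mul_le_mul_of_nonneg_left hl.le hNr.le
      have h2 : ((N : ℝ) * η) ^ 2 ≤
          (((Finset.univ.filter (fun a => κ a = l)).card : ℝ) - N * α l) ^ 2 := by
        rw [← sq_abs (((Finset.univ.filter (fun a => κ a = l)).card : ℝ) - N * α l)]
        exact pow_le_pow_left₀ (by positivity) h1 2
      have h3 : (0 : ℝ) < (N * η) ^ 2 := by positivity
      change 1 ≤ (1 / (N * η) ^ 2) *
        (((Finset.univ.filter (fun a => κ a = l)).card : ℝ) - N * α l) ^ 2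
      rw [one_div, ← div_eq_inv_mul, le_div_iff₀ h3, one_mul]
      exact h2
  calc ∑ κ : Fin N → A, Wt α κ * g κ
      ≤ ∑ κ : Fin N → A, Wt α κ * ∑ l : A, (1 / (N * η) ^ 2) *
        (((Finset.univ.filter (fun a => κ a = l)).card : ℝ) - N * α l) ^ 2 :=
        Finset.sum_le_sum fun κ _ => mul_le_mul_of_nonneg_left (key κ) (Wt_nonneg h0 κ)
    _ = ∑ l : A, (1 / (N * η) ^ 2) * ∑ κ : Fin N → A, Wt α κ *
        (((Finset.univ.filter (fun a => κ a = l)).card : ℝ) - N * α l) ^ 2 := by
        simp only [Finset.mul_sum]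
        rw [Finset.sum_comm]
        exact Finset.sum_congr rfl fun l _ => Finset.sum_congr rfl fun κ _ => by ring
    _ ≤ ∑ l : A, (1 / ((N : ℝ) * η) ^ 2) * N :=
        Finset.sum_le_sum fun l _ => mul_le_mul_of_nonneg_left (Wt_var h0 h l N) (by positivity)
    _ = (Fintype.card A : ℝ) / (N * η ^ 2) := by
        rw [Finset.sum_const, Finset.card_univ, nsmul_eq_mul]
        field_simp

end Crest.Agent.RI
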