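import Crest.Agent.RI.CalcSys
import Crest.Agent.RI.TPairB

/-!
# Row 164: the tower is an instance of the abstract conditional calculus (helper44)
-/

set_option autoImplicit false

namespace Crest.Agent.RI

open MeasureTheory

variable {E : Type} [MeasurableSpace E]
variable {m : Measure E} [IsProbabilityMeasure m] {ζ : ℕ → ℝ} {β : E → ℝ}

/-- the algebra of tame functions -/
def tameAlg (m : Measure E) (β : E → ℝ) (hβ : Dom m β) [IsProbabilityMeasure m] (n : ℕ) :
    Subalgebra ℝ ((Fin n → E) → ℝ) where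
  carrier := {Φ | Tame β Φ}
  mul_mem' := fun {a b} ha hb => Tame.mul hβ ha hb
  add_mem' := fun {a b} ha hb => Tame.add hβ ha hb
  algebraMap_mem' := fun c => Tame.const hβ c

theorem condE_const (hβ : Dom m β) (hζ : Exps ζ) (c : ℝ) (r : ℕ) :
    ∀ (n i : ℕ) {H : (Fin n → E) → ℝ} (_ : Ham β H) (ω : Fin n → E),
      condE m ζ r n i H (fun _ => c) ω = c := by
  induction r with
  | zero => intro n i H hH ω; exact pathE_const hβ hζ n i hH c
  | succ r ih =>
    intro n i H hH ω
    cases n with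
    | zero => rfl
    | succ n => exact ih n (i + 1) (hH.cons hβ (ω 0)) (Fin.tail ω)

theorem condE_nonneg (hβ : Dom m β) (hζ : Exps ζ) (r n i : ℕ) {H Φ : (Fin n → E) → ℝ}
    (hH : Ham β H) (hΦ : Tame β Φ) (h : ∀ ω, 0 ≤ Φ ω) (ω : Fin n → E) :
    0 ≤ condE m ζ r n i H Φ ω := by
  have := condE_mono hβ hζ r n i hH (Tame.const hβ 0) hΦ h ω
  rwa [condE_const hβ hζ 0 r n i hH] at this

/-- `condE r (condE r' Φ) = condE r' Φ` for `r' ≤ r` -/
theorem condE_condE_ge (hβ : Dom m β) (hζ : Exps ζ) (r r' n i : ℕ) (h : r' ≤ r)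
    {H Φ : (Fin n → E) → ℝ} (hH : Ham β H) (hΦ : Tame β Φ) (ω : Fin n → E) :
    condE m ζ r n i H (condE m ζ r' n i H Φ) ω = condE m ζ r' n i H Φ ω := by
  have h1 := condE_pull hβ hζ r n i hH (Tame.const hβ 1) (condE_tame hβ hζ r' n i hH hΦ)
    (fun ω ω' hω => condE_congr r' n i H Φ ω ω' fun j hj => hω j (lt_of_lt_of_le hj h)) ω
  rw [condE_const hβ hζ 1 r n i hH, one_mul] at h1
  rw [← h1]
  congr 1
  funext ω
  rw [one_mul]

/-- The tower as a conditional calculus. -/
noncomputable def towerCalc (hβ : Dom m β) (hζ : Exps ζ) (n i : ℕ) {H : (Fin n → E) → ℝ}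
    (hH : Ham β H) : Calc (Fin n → E) where
  G := tameAlg m β hβ n
  E :=
    { toFun := fun f => pathE m ζ n i H f.1
      map_add' := fun f g => pathE_add hβ hζ n i hH f.2 g.2
      map_smul' := fun c f => pathE_mul n i H f.1 c }
  C := fun r =>
    { toFun := fun f => ⟨condE m ζ r n i H f.1, condE_tame hβ hζ r n i hH f.2⟩
      map_add' := fun f g => Subtype.ext (funext fun ω => condE_add hβ hζ r n i hH f.2 g.2 ω)
      map_smul' := fun c f => Subtype.ext (funext fun ω => condE_mul r n i H f.1 c ω) }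
  E_one := pathE_one hβ hζ n i hH
  E_nonneg := fun f hf => by
    have := pathE_mono hβ hζ n i hH (Tame.const hβ 0) f.2 hf
    rwa [pathE_const hβ hζ n i hH 0] at this
  E_C := fun r f => pathE_condE_self hβ hζ r n i hH f.2
  C_one := fun r => Subtype.ext (funext fun ω => condE_const hβ hζ 1 r n i hH ω)
  C_nonneg := fun r f hf ω => condE_nonneg hβ hζ r n i hH f.2 hf ω
  C_C := fun r r' f => by
    refine Subtype.ext (funext fun ω => ?_)
    rcases le_total r r' with h | h
    · rw [min_eq_left h]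
      exact condE_condE hβ hζ r r' n i h hH f.2 ω
    · rw [min_eq_right h]
      exact condE_condE_ge hβ hζ r r' n i h hH f.2 ω
  C_pull := fun r f g => Subtype.ext (funext fun ω =>
    condE_pull hβ hζ r n i hH f.2 (condE_tame hβ hζ r n i hH g.2)
      (fun ω ω' hω => condE_congr r n i H g.1 ω ω' hω) ω)

end Crest.Agent.RI
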