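import Crest.Agent.RI.LBLin
import Crest.Agent.RI.CubeX

/-!
# Row 164, Part 9: measurability, bounds for the lower bound functionals
-/

set_option autoImplicit false

namespace Crest.Agent.RI

open MeasureTheory ProbabilityTheory

variable {N K J k : ℕ}

theorem LBLinB_cfg_meas (k : ℕ) : Measurable (fun ω : Fin (k + 1) → EN N => cfg k ω) := by
  unfold cfg
  exact (measurable_snd.comp (measurable_snd.comp (measurable_snd.comp
    (measurable_pi_apply (Fin.last k)))))

theorem LBLinB_TJ_meas (lab : Fin N → Fin J) (j : Fin J) :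
    Measurable (fun σ : Fin N → Bool => TJ lab j σ) := measurable_of_finite _

theorem LBLinB_TJ_abs (lab : Fin N → Fin J) (j : Fin J) (σ : Fin N → Bool) :
    |TJ lab j σ| ≤ N := by
  unfold TJ
  refine (Finset.abs_sum_le_sum_abs _ _).trans ?_
  refine (Finset.sum_le_sum (g := fun _ => (1 : ℝ)) fun r _ => ?_).trans (by simp)
  split_ifs
  · rw [abs_spin]
  · simp

/-- `(x, ω) ↦ H_x(ω)` is measurable.  (Write `H` as in `HN_lin`, or directly.) -/
theorem measurable_HNx (D : Blk) (L : LBd J) (s : ℝ) (κ : Fin N → Fin D.K) (lab : Fin N → Fin J) :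
    Measurable (Function.uncurry fun (x : XI k D.K J → ℝ) (ω : Fin (k + 1) → EN N) =>
      HN k (θL D L k s x κ lab) ω) := by
  have hy : ∀ a : Fin N, Measurable
      (fun p : (XI k D.K J → ℝ) × (Fin (k + 1) → EN N) => yv k p.2 a) :=
    fun a => (measurable_yv k a).comp measurable_snd
  have hx : ∀ i : XI k D.K J, Measurable
      (fun p : (XI k D.K J → ℝ) × (Fin (k + 1) → EN N) => p.1 i) :=
    fun i => (measurable_pi_apply i).comp measurable_fst
  have hT : ∀ j : Fin J, Measurable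
      (fun p : (XI k D.K J → ℝ) × (Fin (k + 1) → EN N) =>
        TJ lab j ((p.2 (Fin.last k)).2.2.2)) :=
    fun j => (LBLinB_TJ_meas lab j).comp ((LBLinB_cfg_meas k).comp measurable_snd)
  have hg : ∀ (i : Fin k) (a : Fin N), Measurable
      (fun p : (XI k D.K J → ℝ) × (Fin (k + 1) → EN N) => (p.2 i.castSucc).2.2.1 a) := by
    intro i a
    exact (measurable_pi_apply a).comp (measurable_fst.comp (measurable_snd.comp
      (measurable_snd.comp ((measurable_pi_apply i.castSucc).comp measurable_snd))))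
  unfold Function.uncurry HN θL BL
  simp only
  refine Measurable.add (Measurable.add (Measurable.add ?_ ?_) ?_) ?_
  · refine Measurable.const_mul (Finset.measurable_sum _ fun a _ => ?_) _
    exact (((hx _).const_mul s).const_add _).mul ((hy a).pow_const 2)
  · simp only [zero_mul, Finset.sum_const_zero]
    exact measurable_const
  · refine Finset.measurable_sum _ fun i _ => Finset.measurable_sum _ fun a _ => ?_
    refine Measurable.mul (Measurable.mul ?_ (hg i a)) (hy a)
    by_cases h : (i : ℕ) < k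
    · simp only [h, dif_pos]
      by_cases h0 : (i : ℕ) = 0
      · simp only [h0, if_true]
        exact measurable_const
      · simp only [h0, if_false]
        exact (hx _).const_mul s
    · simp only [h, dif_neg, not_false_iff]
      exact measurable_const
  · refine Measurable.sub ?_ ?_
    · refine Finset.measurable_sum _ fun j _ => ?_
      exact (((hx _).const_mul s).const_add _).mul (hT j)
    · refine Measurable.const_mul (Finset.measurable_sum _ fun j _ => ?_) _
      exact ((hT j).sub_const _).pow_const 2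

theorem measurable_FLx {P : Measure (ON N)} (hP : HaarO P) (D : Blk) (L : LBd J) (s : ℝ)
    (κ : Fin N → Fin D.K) (lab : Fin N → Fin J) :
    Measurable (fun x : XI k D.K J → ℝ => FL P D L k s x κ lab) := by
  have := prob_mN hP (unifA N)
  exact measurable_nest (mN P (unifA N)) (ζLB k) (k + 1) 0 (measurable_HNx D L s κ lab)

theorem measurable_ELx {P : Measure (ON N)} (hP : HaarO P) (D : Blk) (L : LBd J) (s : ℝ)
    (κ : Fin N → Fin D.K) (lab : Fin N → Fin J)
    {Φ : (XI k D.K J → ℝ) → (Fin (k + 1) → EN N) → ℝ} (hΦ : Measurable (Function.uncurry Φ)) :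
    Measurable (fun x : XI k D.K J → ℝ => EL P D L k s x κ lab (Φ x)) := by
  have := prob_mN hP (unifA N)
  exact measurable_pathE (mN P (unifA N)) (ζLB k) (k + 1) 0 (measurable_HNx D L s κ lab) hΦ

/-- uniform bound of the Hamiltonians -/
theorem LBLinB_HN_bound (D : Blk) (L : LBd J) (s : ℝ)
    (κ : Fin N → Fin D.K) (lab : Fin N → Fin J) : ∃ C : ℝ, 0 ≤ C ∧
    ∀ x : XI k D.K J → ℝ, XOK x → ∀ ω : Fin (k + 1) → EN N,
      |HN k (θL D L k s x κ lab) ω| ≤ C * (1 + ∑ j, βN (ω j)) := by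
  obtain ⟨C0, hC0, h0⟩ := (HN_ham k (θL D L k s (0 : XI k D.K J → ℝ) κ lab)).bound
  have hb : ∀ ω : Fin (k + 1) → EN N, 0 ≤ 1 + ∑ j, βN (ω j) := fun ω =>
    add_nonneg zero_le_one (Finset.sum_nonneg fun j _ => βN_nonneg' (ω j))
  rcases Nat.eq_zero_or_pos N with hN | hN
  · subst hN
    refine ⟨C0, hC0, fun x _ ω => ?_⟩
    have : HN k (θL D L k s x κ lab) ω = HN k (θL D L k s 0 κ lab) ω := by
      simp [HN, θL, BL, TJ]
    rw [this]
    exact h0 ω
  · choose C hC h using fun i : XI k D.K J => (dirV_ham (N := N) κ lab i).bound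
    refine ⟨C0 + ∑ i, 3 * (|s * N| * C i), add_nonneg hC0 (Finset.sum_nonneg fun i _ => by
      have := hC i; positivity), fun x hx ω => ?_⟩
    rw [HN_lin hN, add_mul]
    refine (abs_add_le _ _).trans (add_le_add (h0 ω) ?_)
    refine (Finset.abs_sum_le_sum_abs _ _).trans ?_
    rw [Finset.sum_mul]
    refine Finset.sum_le_sum fun i _ => ?_
    rw [abs_mul, abs_mul, mul_assoc, mul_assoc]
    have h1 : |x i| ≤ 3 := abs_le.2 ⟨by linarith [(hx i).1], (hx i).2⟩
    exact mul_le_mul h1 (mul_le_mul_of_nonneg_left (h i ω) (abs_nonneg _)) (by positivity)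
      (by norm_num)

/-- a bounded functional -/
theorem EL_bdd {P : Measure (ON N)} (hP : HaarO P) (D : Blk) (L : LBd J) (s : ℝ)
    (κ : Fin N → Fin D.K) (lab : Fin N → Fin J) {Φ : (Fin (k + 1) → EN N) → ℝ}
    (hΦ : Tame (βN (N := N)) Φ) : ∃ B : ℝ, ∀ x : XI k D.K J → ℝ, XOK x →
    |EL P D L k s x κ lab Φ| ≤ B := by
  have := prob_mN hP (unifA N)
  obtain ⟨C, hC, hH⟩ := LBLinB_HN_bound (k := k) D L s κ lab
  obtain ⟨B, hB, hΦ'⟩ := hΦ.bound
  obtain ⟨K', hK', hb⟩ := pathE_bound (dom_mN hP (unifA N)) (k + 1) C B hC hB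
  refine ⟨B * (K' * Real.exp (K' * C)), fun x hx => ?_⟩
  refine hb (ζLB k) (exps_LB k) 0 C B hC hB _ Φ (HN_ham k _).meas hΦ.meas (fun ω => ?_) hΦ'
  have := hH x hx ω
  rwa [mul_add, mul_one] at this

/-- PROOF: `|ovl| ≤ 1`, `|T_j/N| ≤ 1`; `pathE_gy`: `E gy = s x (c_l - Σ w ρ_{l,j})`, `0 ≤ c_l - Σ_{j ≥ i} w ρ ≤ 1` (`rho_le_self`, `self_nonneg`, `sum_self`). -/
theorem EL_dirV_abs (hk : 0 < k) (hN : 0 < N) {P : Measure (ON N)} (hP : HaarO P) (D : Blk)
    (L : LBd J) {s : ℝ} (hs : 0 ≤ s) (hs1 : 3 * s ≤ 1) {x : XI k D.K J → ℝ} (hx : XOK x)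
    (κ : Fin N → Fin D.K) (lab : Fin N → Fin J) (i : XI k D.K J) :
    |EL P D L k s x κ lab (dirV k κ lab i)| ≤ 1 := by
  have := prob_mN hP (unifA N)
  have hdom := dom_mN hP (unifA N)
  have hζ := exps_LB k
  have hH := HN_ham k (θL D L k s x κ lab)
  have hself : ∀ l, 0 ≤ selfOv P (unifA N) (ζLB k) k (θL D L k s x κ lab) l :=
    fun l => self_nonneg hP hζ _ l
  have hself1 : ∀ l, selfOv P (unifA N) (ζLB k) k (θL D L k s x κ lab) l ≤ 1 := by
    intro l
    rw [← sum_self hN hP hζ (θL D L k s x κ lab) (A := unifA N) (k := k) (ζ := ζLB k)]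
    exact Finset.single_le_sum (f := fun l => selfOv P (unifA N) (ζLB k) k
      (θL D L k s x κ lab) l) (fun l _ => hself l) (Finset.mem_univ l)
  have bd : ∀ Φ : (Fin (k + 1) → EN N) → ℝ, Tame (βN (N := N)) Φ → (∀ ω, |Φ ω| ≤ 1) →
      |EL P D L k s x κ lab Φ| ≤ 1 := by
    intro Φ hΦ h1
    have habs : Tame (βN (N := N)) (fun ω => |Φ ω|) := by
      refine ⟨hΦ.meas.abs, ?_⟩
      obtain ⟨C, hC, h⟩ := hΦ.bound
      exact ⟨C, hC, fun ω => by rw [abs_abs]; exact h ω⟩
    refine (pathE_abs_le hdom hζ (k + 1) 0 hH hΦ).trans ?_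
    refine (pathE_mono hdom hζ (k + 1) 0 hH habs (Tame.const hdom 1) h1).trans ?_
    rw [pathE_const hdom hζ (k + 1) 0 hH 1]
  rcases i with l | j | ⟨i, l⟩
  · refine bd _ (Ham.tame0 βN_nonneg' (dirV_ham κ lab (Sum.inl l))) (fun ω => ?_)
    simp only [dirV]
    rw [abs_mul, abs_of_nonneg (by norm_num : (0 : ℝ) ≤ 1 / 2)]
    have := abs_ovl_le k κ l ω ω
    linarith
  · refine bd _ (Ham.tame0 βN_nonneg' (dirV_ham κ lab (Sum.inr (Sum.inl j)))) (fun ω => ?_)
    simp only [dirV]
    have hN' : (0 : ℝ) < N := by exact_mod_cast hN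
    rw [abs_div, abs_of_pos hN', div_le_one hN']
    exact LBLinB_TJ_abs lab j _
  · by_cases h0 : (i : ℕ) = 0
    · simp only [dirV, h0, if_true]
      refine bd _ (Tame.const hdom 0) (fun ω => by simp)
    · simp only [dirV, h0, if_false]
      have hk1 : ζLB k k = 1 := by
        unfold ζLB
        rw [div_self (by exact_mod_cast hk.ne'), min_self]
      have key := pathE_gy (A := unifA N) hP hζ hk1 (θL D L k s x κ lab) i l
      have e1 : EL P D L k s x κ lab (gy k κ i l) = pathE (mN P (unifA N)) (ζLB k) (k + 1) 0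
        (HN k (θL D L k s x κ lab)) (gy k (θL D L k s x κ lab).κ i l) := rfl
      rw [e1, key]
      have hc : (θL D L k s x κ lab).c i l = s * x (Sum.inr (Sum.inr (i, l))) := by
        simp [θL, i.2, h0]
      rw [hc]
      have hx1 := hx (Sum.inr (Sum.inr (i, l)))
      have hc0 : 0 ≤ s * x (Sum.inr (Sum.inr (i, l))) := mul_nonneg hs hx1.1
      have hc1 : s * x (Sum.inr (Sum.inr (i, l))) ≤ 1 := by nlinarith [hx1.1, hx1.2]
      have hmono : ∀ j, ζLB k j ≤ ζLB k (j + 1) := by
        intro j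
        unfold ζLB
        refine min_le_min le_rfl ?_
        have : (0 : ℝ) < k := by exact_mod_cast hk
        gcongr
        push_cast
        linarith
      have hsum0 : 0 ≤ ∑ j ∈ Finset.Ico (i : ℕ) k, (ζLB k (j + 1) - ζLB k j) *
          rhoOv P (unifA N) (ζLB k) k (θL D L k s x κ lab) l j :=
        Finset.sum_nonneg fun j hj => mul_nonneg (sub_nonneg.2 (hmono j))
          (rho_nonneg hP hζ _ l (Finset.mem_Ico.1 hj).2)
      have hsum1 : ∑ j ∈ Finset.Ico (i : ℕ) k, (ζLB k (j + 1) - ζLB k j) *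
          rhoOv P (unifA N) (ζLB k) k (θL D L k s x κ lab) l j ≤
          selfOv P (unifA N) (ζLB k) k (θL D L k s x κ lab) l := by
        refine (Finset.sum_le_sum fun j hj => mul_le_mul_of_nonneg_left
          (rho_le_self hP hζ (θL D L k s x κ lab) l (Finset.mem_Ico.1 hj).2)
          (sub_nonneg.2 (hmono j))).trans ?_
        rw [← Finset.sum_mul]
        have ht : ∑ j ∈ Finset.Ico (i : ℕ) k, (ζLB k (j + 1) - ζLB k j) ≤ 1 := by
          rw [Finset.sum_Ico_sub (fun j => ζLB k j) i.2.le, hk1]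
          linarith [(hζ (i : ℕ)).1]
        have := mul_le_mul_of_nonneg_right ht (hself l)
        linarith
      have ha := hself l
      have hb := hself1 l
      rw [abs_le]
      constructor
      · nlinarith [mul_nonneg hc0 (sub_nonneg.2 hsum1)]
      · have : selfOv P (unifA N) (ζLB k) k (θL D L k s x κ lab) l -
          ∑ j ∈ Finset.Ico (i : ℕ) k, (ζLB k (j + 1) - ζLB k j) *
          rhoOv P (unifA N) (ζLB k) k (θL D L k s x κ lab) l j ≤ 1 := by linarith
        exact mul_le_one₀ hc1 (sub_nonneg.2 hsum1) this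

/-- REMOVAL OF THE PERTURBATION.  PROOF: along the segment `t ↦ t x` the derivative of `FL` is `s N Σ_i x_i E dirV_i` (`nest_hasDerivAt`, `HN_lin`), bounded by
`3 s N (K + J + k K)` (`EL_dirV_abs`); or change the coordinates one after another. -/
theorem FL_pert (hk : 0 < k) (hN : 0 < N) {P : Measure (ON N)} (hP : HaarO P) (D : Blk)
    (L : LBd J) {s : ℝ} (hs : 0 ≤ s) (hs1 : 3 * s ≤ 1) {x : XI k D.K J → ℝ} (hx : XOK x)
    (κ : Fin N → Fin D.K) (lab : Fin N → Fin J) :
    |FL P D L k s x κ lab - FL P D L k s 0 κ lab| ≤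
      3 * s * N * ((D.K : ℝ) + J + k * D.K) := by
  have := prob_mN hP (unifA N)
  have hdom := dom_mN hP (unifA N)
  have hζ := exps_LB k
  have hH := HN_ham k (θL D L k s (0 : XI k D.K J → ℝ) κ lab)
  set V : (Fin (k + 1) → EN N) → ℝ := fun ω => ∑ i, x i * ((s * N) * dirV k κ lab i ω) with hV
  have hVt : ∀ i, Ham (βN (N := N)) (fun ω => x i * ((s * N) * dirV k κ lab i ω)) :=
    fun i => ((dirV_ham κ lab i).smul (s * N)).smul (x i)
  have hVham : Ham (βN (N := N)) V := Ham.sum βN_nonneg' Finset.univ fun i _ => hVt i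
  have hline : ∀ t : ℝ, HN k (θL D L k s (t • x) κ lab) =
      fun ω => HN k (θL D L k s 0 κ lab) ω + t * V ω := by
    intro t
    funext ω
    rw [HN_lin hN, hV, Finset.mul_sum]
    simp only [Pi.smul_apply, smul_eq_mul, mul_assoc]
  have hFL : ∀ t : ℝ, FL P D L k s (t • x) κ lab = nest (mN P (unifA N)) (ζLB k) (k + 1) 0
      (fun ω => HN k (θL D L k s 0 κ lab) ω + t * V ω) := by
    intro t
    unfold FL
    rw [hline t]
  have hder : ∀ t ∈ Set.Icc (0 : ℝ) 1, HasDerivWithinAt (fun t => FL P D L k s (t • x) κ lab)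
      (pathE (mN P (unifA N)) (ζLB k) (k + 1) 0
        (fun ω => HN k (θL D L k s 0 κ lab) ω + t * V ω) V) (Set.Icc (0 : ℝ) 1) t := by
    intro t _
    have := (nest_hasDerivAt hdom hζ (k + 1) 0 hH hVham t).hasDerivWithinAt (s := Set.Icc (0 : ℝ) 1)
    refine this.congr (fun u _ => hFL u) (hFL t)
  have hbd : ∀ t ∈ Set.Ico (0 : ℝ) 1, ‖pathE (mN P (unifA N)) (ζLB k) (k + 1) 0
        (fun ω => HN k (θL D L k s 0 κ lab) ω + t * V ω) V‖ ≤
      3 * s * N * ((D.K : ℝ) + J + k * D.K) := by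
    intro t ht
    rw [← hline t, Real.norm_eq_abs, hV]
    have hxt : XOK (t • x) := fun i => by
      simp only [Pi.smul_apply, smul_eq_mul]
      exact ⟨mul_nonneg ht.1 (hx i).1, by nlinarith [ht.1, ht.2, (hx i).1, (hx i).2]⟩
    rw [pathE_fsum hdom hζ (k + 1) 0 (HN_ham k _) Finset.univ
      (f := fun i ω => x i * ((s * N) * dirV k κ lab i ω)) (fun i _ => Ham.tame0 βN_nonneg' (hVt i))]
    refine (Finset.abs_sum_le_sum_abs _ _).trans ?_
    have hone : ∀ i ∈ (Finset.univ : Finset (XI k D.K J)),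
        |pathE (mN P (unifA N)) (ζLB k) (k + 1) 0 (HN k (θL D L k s (t • x) κ lab))
          (fun ω => x i * ((s * N) * dirV k κ lab i ω))| ≤ 3 * s * N := by
      intro i _
      rw [pathE_mul, pathE_mul, abs_mul, abs_mul]
      have h1 : |x i| ≤ 3 := abs_le.2 ⟨by linarith [(hx i).1], (hx i).2⟩
      have h2 : |s * (N : ℝ)| = s * N := abs_of_nonneg (by positivity)
      have h3 := EL_dirV_abs hk hN hP D L hs hs1 hxt κ lab i
      unfold EL at h3
      rw [h2]
      calc |x i| * (s * N * |pathE (mN P (unifA N)) (ζLB k) (k + 1) 0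
              (HN k (θL D L k s (t • x) κ lab)) (fun ω => dirV k κ lab i ω)|)
          ≤ 3 * (s * N * 1) := by
            refine mul_le_mul h1 (mul_le_mul_of_nonneg_left h3 (by positivity)) (by positivity)
              (by norm_num)
        _ = 3 * s * N := by ring
    refine (Finset.sum_le_sum hone).trans (le_of_eq ?_)
    rw [Finset.sum_const, nsmul_eq_mul, Finset.card_univ]
    have hcard : (Fintype.card (XI k D.K J) : ℝ) = (D.K : ℝ) + J + k * D.K := by
      simp [XI, Fintype.card_sum, Fintype.card_prod]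
      ring
    rw [hcard]
    ring
  have h := norm_image_sub_le_of_norm_deriv_le_segment_01' hder hbd
  simp only [one_smul, zero_smul, Real.norm_eq_abs] at h
  exact h

end Crest.Agent.RI
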