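import Crest.Agent.RI.FLZeroB
import Crest.Agent.RI.LBLinB
import Crest.Agent.RI.LBLinC
import Crest.Agent.RI.ClassB

/-!
# Row 164, Part 9: the penalty
-/

set_option autoImplicit false

namespace Crest.Agent.RI

open MeasureTheory ProbabilityTheory

variable {N J k : ℕ}

private theorem KapSum_ham_cfg (F : (Fin N → Bool) → ℝ) :
    Ham (βN (N := N)) (fun ω : Fin (k + 1) → EN N => F (cfg k ω)) := by
  refine ⟨(measurable_of_countable F).comp (LBLinB_cfg_meas k), ∑ σ, |F σ|,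
    Finset.sum_nonneg (fun _ _ => abs_nonneg _), fun ω => ?_⟩
  have h1 : |F (cfg k ω)| ≤ ∑ σ, |F σ| :=
    Finset.single_le_sum (f := fun σ => |F σ|) (fun j _ => abs_nonneg _) (Finset.mem_univ _)
  have h2 : 0 ≤ ∑ i, βN (ω i) := Finset.sum_nonneg (fun i _ => βN_nonneg' _)
  have h3 : 0 ≤ ∑ σ, |F σ| := Finset.sum_nonneg (fun _ _ => abs_nonneg _)
  nlinarith [mul_nonneg h3 h2]

private theorem KapSum_HN (hN : 0 < N) (D : Blk) (γ c m : Fin J → ℝ) (s : ℝ)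
    (x : XI k D.K J → ℝ) (κ : Fin N → Fin D.K) (lab : Fin N → Fin J) (kap kap' : ℝ)
    (ω : Fin (k + 1) → EN N) :
    HN k (θL D ⟨γ, c, m, kap'⟩ k s x κ lab) ω = HN k (θL D ⟨γ, c, m, kap⟩ k s x κ lab) ω +
      (kap - kap') * N * ∑ j, (TJ lab j (cfg k ω) / (N : ℝ) - γ j * m j) ^ 2 := by
  have hN' : (N : ℝ) ≠ 0 := by positivity
  have hs : ∑ j, (TJ lab j (cfg k ω) - γ j * m j * (N : ℝ)) ^ 2 =
      (N : ℝ) ^ 2 * ∑ j, (TJ lab j (cfg k ω) / (N : ℝ) - γ j * m j) ^ 2 := by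
    rw [Finset.mul_sum]
    refine Finset.sum_congr rfl fun j _ => ?_
    field_simp
  have hb : BL (⟨γ, c, m, kap'⟩ : LBd J) s (fun j => x (Sum.inr (Sum.inl j))) lab (cfg k ω) =
      BL (⟨γ, c, m, kap⟩ : LBd J) s (fun j => x (Sum.inr (Sum.inl j))) lab (cfg k ω) +
      (kap - kap') * N * ∑ j, (TJ lab j (cfg k ω) / (N : ℝ) - γ j * m j) ^ 2 := by
    unfold BL
    simp only
    rw [hs]
    field_simp
    ring
  unfold cfg at hb ⊢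
  unfold HN θL
  simp only
  rw [hb]
  ring

/-- PROOF: `B_{kap'} - B_{kap} = (kap - kap') N Σ_j (T_j/N - γ_j m_j)²`, `nest_tangent`, Jensen `E (T_j/N - γ_j m_j)² ≥ (τ_j - γ_j m_j)²`. -/
theorem kap_tangent (hk : 0 < k) (hN : 0 < N) {P : Measure (ON N)} (hP : HaarO P) (D : Blk)
    (γ c m : Fin J → ℝ) (s : ℝ) (x : XI k D.K J → ℝ) (κ : Fin N → Fin D.K)
    (lab : Fin N → Fin J) {kap kap' : ℝ} (h : kap' ≤ kap) :
    FL P D ⟨γ, c, m, kap⟩ k s x κ lab + (kap - kap') * N *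
      ∑ j, (tLB P D ⟨γ, c, m, kap⟩ k s x κ lab j - γ j * m j) ^ 2 ≤
      FL P D ⟨γ, c, m, kap'⟩ k s x κ lab := by
  have := prob_mN hP (unifA N)
  have hdom := dom_mN hP (unifA N)
  have hζ := exps_LB k
  have hH := HN_ham k (θL D (⟨γ, c, m, kap⟩ : LBd J) k s x κ lab)
  have hX : ∀ j, Tame (βN (N := N)) (fun ω : Fin (k + 1) → EN N =>
      TJ lab j (cfg k ω) / (N : ℝ) - γ j * m j) := fun j =>
    Ham.tame0 βN_nonneg' (KapSum_ham_cfg (fun σ => TJ lab j σ / (N : ℝ) - γ j * m j))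
  have hX0 : ∀ j, Tame (βN (N := N)) (fun ω : Fin (k + 1) → EN N =>
      TJ lab j (cfg k ω) / (N : ℝ)) := fun j =>
    Ham.tame0 βN_nonneg' (KapSum_ham_cfg (fun σ => TJ lab j σ / (N : ℝ)))
  have hX2 : ∀ j, Tame (βN (N := N)) (fun ω : Fin (k + 1) → EN N =>
      (TJ lab j (cfg k ω) / (N : ℝ) - γ j * m j) ^ 2) := fun j =>
    Ham.tame0 βN_nonneg' (KapSum_ham_cfg (fun σ => (TJ lab j σ / (N : ℝ) - γ j * m j) ^ 2))
  have hU : Ham (βN (N := N)) (fun ω : Fin (k + 1) → EN N =>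
      (kap - kap') * N * ∑ j, (TJ lab j (cfg k ω) / (N : ℝ) - γ j * m j) ^ 2) :=
    KapSum_ham_cfg (fun σ => (kap - kap') * N * ∑ j, (TJ lab j σ / (N : ℝ) - γ j * m j) ^ 2)
  have ht := nest_tangent (m := mN P (unifA N)) hdom hζ (k + 1) 0 hH hU
  have e1 : FL P D ⟨γ, c, m, kap'⟩ k s x κ lab = nest (mN P (unifA N)) (ζLB k) (k + 1) 0
      (fun ω => HN k (θL D ⟨γ, c, m, kap⟩ k s x κ lab) ω +
        (kap - kap') * N * ∑ j, (TJ lab j (cfg k ω) / (N : ℝ) - γ j * m j) ^ 2) := by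
    unfold FL
    congr 1
    funext ω
    exact KapSum_HN hN D γ c m s x κ lab kap kap' ω
  rw [e1]
  refine le_trans ?_ ht
  unfold FL
  refine add_le_add le_rfl ?_
  rw [pathE_mul, pathE_fsum hdom hζ (k + 1) 0 hH Finset.univ (fun j _ => hX2 j)]
  refine mul_le_mul_of_nonneg_left (Finset.sum_le_sum fun j _ => ?_)
    (mul_nonneg (sub_nonneg.2 h) (Nat.cast_nonneg N))
  -- Jensen
  have hcs := pathE_cs hdom hζ (k + 1) 0 hH (hX j) (Tame.const (n := k + 1) hdom 1)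
  simp only [mul_one, one_pow] at hcs
  rw [pathE_const hdom hζ (k + 1) 0 hH 1, mul_one] at hcs
  have hlin : pathE (mN P (unifA N)) (ζLB k) (k + 1) 0
      (HN k (θL D (⟨γ, c, m, kap⟩ : LBd J) k s x κ lab))
      (fun ω => TJ lab j (cfg k ω) / (N : ℝ) - γ j * m j) =
      tLB P D ⟨γ, c, m, kap⟩ k s x κ lab j - γ j * m j := by
    unfold tLB EL
    have := pathE_add hdom hζ (k + 1) 0 hH (hX0 j) (Tame.const (n := k + 1) hdom (-(γ j * m j)))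
    rw [pathE_const hdom hζ (k + 1) 0 hH] at this
    simpa only [sub_eq_add_neg] using this
  rw [hlin] at hcs
  exact hcs

/-- PROOF: `kap_tangent` with `kap = K₀ 2^{i+1}`, `kap' = kap/2`, telescoping, `FL(K₀) - FL(K₀ 2^n) ≤ C N` by `FL_pert`, `FL_zero_le`, `FL_zero_ge`. -/
theorem kap_sum (D : Blk) (γ c m : Fin J → ℝ) (hγ : ∀ j, 0 < γ j) (hs : ∑ j, γ j = 1)
    (hm : ∀ j, |m j| < 1) : ∃ C₁ : ℝ, 0 ≤ C₁ ∧ ∀ K₀ : ℝ, 0 < K₀ → ∀ n : ℕ,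
    ∃ (N₀ : ℕ) (η : ℝ), 0 < η ∧ ∀ N ≥ N₀, 0 < N → ∀ P : Measure (ON N), HaarO P →
    ∀ k : ℕ, 0 < k → ∀ s : ℝ, 0 ≤ s → 3 * s * (1 + k) ≤ 1 →
    ∀ (κ : Fin N → Fin D.K) (lab : Fin N → Fin J), LClose γ η lab →
    ∀ x : XI k D.K J → ℝ, XOK x →
    ∑ i ∈ Finset.range n, (K₀ * 2 ^ (i + 1)) *
      ∑ j, (tLB P D ⟨γ, c, m, K₀ * 2 ^ (i + 1)⟩ k s x κ lab j - γ j * m j) ^ 2 ≤ C₁ := by
  obtain ⟨C, hC, hlow⟩ := FL_zero_ge D γ c m hγ hs hm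
  refine ⟨2 * ((∑ l, |D.d l|) + (∑ j, |c j|) + C + 2 * ((D.K : ℝ) + J)), ?_, ?_⟩
  · have h1 : 0 ≤ ∑ l, |D.d l| := Finset.sum_nonneg fun _ _ => abs_nonneg _
    have h2 : 0 ≤ ∑ j, |c j| := Finset.sum_nonneg fun _ _ => abs_nonneg _
    positivity
  intro K₀ hK₀ n
  obtain ⟨N₀, η, hη, hmain⟩ := hlow (K₀ * 2 ^ n) (by positivity)
  refine ⟨N₀, η, hη, ?_⟩
  intro N hNN hN P hP k hk s hs0 hs1 κ lab hlab x hx
  have hN' : (0 : ℝ) < N := by exact_mod_cast hN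
  have hk' : (0 : ℝ) ≤ k := Nat.cast_nonneg k
  have hs3 : 3 * s ≤ 1 := by nlinarith
  set F : ℕ → ℝ := fun i => FL P D ⟨γ, c, m, K₀ * 2 ^ i⟩ k s x κ lab with hF
  set Q : ℕ → ℝ := fun i =>
    ∑ j, (tLB P D ⟨γ, c, m, K₀ * 2 ^ (i + 1)⟩ k s x κ lab j - γ j * m j) ^ 2 with hQ
  have hstep : ∀ i, (N : ℝ) * ((K₀ * 2 ^ (i + 1)) * Q i) ≤ 2 * (F i - F (i + 1)) := by
    intro i
    have hle : K₀ * 2 ^ i ≤ K₀ * 2 ^ (i + 1) := by
      rw [pow_succ]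
      nlinarith [mul_pos hK₀ (pow_pos (by norm_num : (0 : ℝ) < 2) i)]
    have := kap_tangent hk hN hP D γ c m s x κ lab hle
    have e : K₀ * 2 ^ (i + 1) - K₀ * 2 ^ i = K₀ * 2 ^ i := by
      rw [pow_succ]
      ring
    rw [e] at this
    have this' : F (i + 1) + K₀ * 2 ^ i * N * Q i ≤ F i := this
    have e3 : (N : ℝ) * ((K₀ * 2 ^ (i + 1)) * Q i) = 2 * (K₀ * 2 ^ i * N * Q i) := by
      generalize Q i = q
      rw [pow_succ]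
      ring
    rw [e3]
    linarith
  have hsum : (N : ℝ) * ∑ i ∈ Finset.range n, (K₀ * 2 ^ (i + 1)) * Q i ≤ 2 * (F 0 - F n) := by
    rw [Finset.mul_sum]
    refine (Finset.sum_le_sum fun i _ => hstep i).trans ?_
    rw [← Finset.mul_sum, Finset.sum_range_sub']
  have hpert : ∀ kap : ℝ, |FL P D ⟨γ, c, m, kap⟩ k s x κ lab - FL P D ⟨γ, c, m, kap⟩ k s 0 κ lab| ≤
      N * ((D.K : ℝ) + J) := by
    intro kap
    refine (FL_pert hk hN hP D ⟨γ, c, m, kap⟩ hs0 hs3 hx κ lab).trans ?_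
    have hKJ : (0 : ℝ) ≤ D.K := Nat.cast_nonneg _
    have hJ : (0 : ℝ) ≤ J := Nat.cast_nonneg _
    have h1 : 3 * s * ((D.K : ℝ) + J + k * D.K) ≤ (D.K : ℝ) + J := by
      have h2 : 3 * s * (1 + k) * (D.K : ℝ) ≤ 1 * D.K := mul_le_mul_of_nonneg_right hs1 hKJ
      have h3 : 3 * s * (J : ℝ) ≤ 1 * J := mul_le_mul_of_nonneg_right hs3 hJ
      nlinarith
    calc 3 * s * N * ((D.K : ℝ) + J + k * D.K) = N * (3 * s * ((D.K : ℝ) + J + k * D.K)) := by ring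
      _ ≤ N * ((D.K : ℝ) + J) := mul_le_mul_of_nonneg_left h1 hN'.le
  have hup : F 0 ≤ ((∑ l, |D.d l|) + ∑ j, |c j|) * N + N * ((D.K : ℝ) + J) := by
    have h1 := (abs_le.1 (hpert (K₀ * 2 ^ 0))).2
    have h2 : FL P D ⟨γ, c, m, K₀ * 2 ^ 0⟩ k s 0 κ lab ≤ ((∑ l, |D.d l|) + ∑ j, |c j|) * N :=
      FL_zero_le hk hN hP D ⟨γ, c, m, K₀ * 2 ^ 0⟩ (by positivity) s κ lab
    have h3 : F 0 = FL P D ⟨γ, c, m, K₀ * 2 ^ 0⟩ k s x κ lab := rfl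
    rw [h3]
    linarith
  have hlo : - C * N - N * ((D.K : ℝ) + J) ≤ F n := by
    have h1 := (abs_le.1 (hpert (K₀ * 2 ^ n))).1
    have h2 := hmain N hNN hN P hP k hk s (K₀ * 2 ^ n) (by positivity) le_rfl κ lab hlab
    have h3 : F n = FL P D ⟨γ, c, m, K₀ * 2 ^ n⟩ k s x κ lab := rfl
    rw [h3]
    linarith
  have hfin : (N : ℝ) * ∑ i ∈ Finset.range n, (K₀ * 2 ^ (i + 1)) * Q i ≤
      N * (2 * ((∑ l, |D.d l|) + (∑ j, |c j|) + C + 2 * ((D.K : ℝ) + J))) := by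
    refine hsum.trans ?_
    nlinarith
  exact le_of_mul_le_mul_left hfin hN'

end Crest.Agent.RI
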