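import Crest.Agent.RI.HaarDefs

/-!
# Row 164, Part 7: Khintchine inequalities
-/

set_option autoImplicit false

namespace Crest.Agent.RI

open MeasureTheory ProbabilityTheory

variable {N : ℕ}

private theorem khin_succ (N : ℕ) (f : (Fin (N + 1) → Bool) → ℝ) :
    ∑ σ : Fin (N + 1) → Bool, f σ =
      ∑ σ : Fin N → Bool, (f (Fin.cons true σ) + f (Fin.cons false σ)) := by
  rw [← (Fin.consEquiv (fun _ : Fin (N + 1) => Bool)).sum_comp]
  rw [Fintype.sum_prod_type, Finset.sum_comm]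
  refine Finset.sum_congr rfl fun σ _ => ?_
  simp [Fin.consEquiv]

private theorem khin_all (N : ℕ) (a : Fin N → ℝ) :
    (1 / 2 : ℝ) ^ N * ∑ _σ : Fin N → Bool, (1 : ℝ) = 1 ∧
    (1 / 2 : ℝ) ^ N * ∑ σ : Fin N → Bool, (∑ i, spin (σ i) * a i) ^ 2 = ∑ i, a i ^ 2 ∧
    (1 / 2 : ℝ) ^ N * ∑ σ : Fin N → Bool, (∑ i, spin (σ i) * a i) ^ 4 ≤ 3 * (∑ i, a i ^ 2) ^ 2 ∧
    (1 / 2 : ℝ) ^ N * ∑ σ : Fin N → Bool, (∑ i, spin (σ i) * a i) ^ 6 ≤ 15 * (∑ i, a i ^ 2) ^ 3 ∧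
    (1 / 2 : ℝ) ^ N * ∑ σ : Fin N → Bool, (∑ i, spin (σ i) * a i) ^ 8 ≤ 105 * (∑ i, a i ^ 2) ^ 4 := by
  induction N with
  | zero => simp
  | succ N ih =>
    obtain ⟨i0, i2, i4, i6, i8⟩ := ih (fun i => a i.succ)
    set v : ℝ := ∑ i, a (Fin.succ i) ^ 2 with hv
    have hv0 : 0 ≤ v := Finset.sum_nonneg fun _ _ => sq_nonneg _
    set x : ℝ := a 0 with hx
    set S : (Fin N → Bool) → ℝ := fun σ => ∑ i, spin (σ i) * a (Fin.succ i) with hS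
    have hsum : ∀ p : ℕ, (1 / 2 : ℝ) ^ (N + 1) *
        ∑ σ : Fin (N + 1) → Bool, (∑ i, spin (σ i) * a i) ^ p =
        (1 / 2 : ℝ) ^ N * ∑ σ : Fin N → Bool, ((x + S σ) ^ p + (-x + S σ) ^ p) / 2 := by
      intro p
      rw [khin_succ N (fun σ => (∑ i, spin (σ i) * a i) ^ p), pow_succ, mul_assoc, Finset.mul_sum]
      congr 1
      refine Finset.sum_congr rfl fun σ _ => ?_
      simp only [Fin.sum_univ_succ, Fin.cons_zero, Fin.cons_succ, spin]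
      simp only [hx, hS, spin, if_true, one_mul, Bool.false_eq_true, if_false, neg_mul]
      ring
    have hva : ∑ i, a i ^ 2 = x ^ 2 + v := by rw [Fin.sum_univ_succ]
    set M : ℕ → ℝ := fun p => (1 / 2 : ℝ) ^ N * ∑ σ : Fin N → Bool, S σ ^ p with hM
    have m0 : (1 / 2 : ℝ) ^ N * ∑ _σ : Fin N → Bool, (1 : ℝ) = 1 := i0
    have m2 : M 2 = v := i2
    have m4 : M 4 ≤ 3 * v ^ 2 := i4
    have m6 : M 6 ≤ 15 * v ^ 3 := i6
    have m8 : M 8 ≤ 105 * v ^ 4 := i8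
    have e2 : (1 / 2 : ℝ) ^ N * ∑ σ : Fin N → Bool, ((x + S σ) ^ 2 + (-x + S σ) ^ 2) / 2 =
        M 2 + x ^ 2 := by
      have : ∀ σ : Fin N → Bool, ((x + S σ) ^ 2 + (-x + S σ) ^ 2) / 2 =
          S σ ^ 2 + x ^ 2 * 1 := by intro σ; ring
      simp only [this, Finset.sum_add_distrib, ← Finset.mul_sum, mul_add]
      rw [mul_left_comm _ (x ^ 2), m0]
      simp [hM]
    have e4 : (1 / 2 : ℝ) ^ N * ∑ σ : Fin N → Bool, ((x + S σ) ^ 4 + (-x + S σ) ^ 4) / 2 =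
        M 4 + 6 * x ^ 2 * M 2 + x ^ 4 := by
      have : ∀ σ : Fin N → Bool, ((x + S σ) ^ 4 + (-x + S σ) ^ 4) / 2 =
          S σ ^ 4 + (6 * x ^ 2) * S σ ^ 2 + x ^ 4 * 1 := by intro σ; ring
      simp only [this, Finset.sum_add_distrib, ← Finset.mul_sum, mul_add]
      rw [mul_left_comm _ (x ^ 4), m0, mul_left_comm _ (6 * x ^ 2)]
      simp [hM]
    have e6 : (1 / 2 : ℝ) ^ N * ∑ σ : Fin N → Bool, ((x + S σ) ^ 6 + (-x + S σ) ^ 6) / 2 =
        M 6 + 15 * x ^ 2 * M 4 + 15 * x ^ 4 * M 2 + x ^ 6 := by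
      have : ∀ σ : Fin N → Bool, ((x + S σ) ^ 6 + (-x + S σ) ^ 6) / 2 =
          S σ ^ 6 + (15 * x ^ 2) * S σ ^ 4 + (15 * x ^ 4) * S σ ^ 2 + x ^ 6 * 1 := by
        intro σ; ring
      simp only [this, Finset.sum_add_distrib, ← Finset.mul_sum, mul_add]
      rw [mul_left_comm _ (x ^ 6), m0, mul_left_comm _ (15 * x ^ 2), mul_left_comm _ (15 * x ^ 4)]
      simp [hM]
    have e8 : (1 / 2 : ℝ) ^ N * ∑ σ : Fin N → Bool, ((x + S σ) ^ 8 + (-x + S σ) ^ 8) / 2 =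
        M 8 + 28 * x ^ 2 * M 6 + 70 * x ^ 4 * M 4 + 28 * x ^ 6 * M 2 + x ^ 8 := by
      have : ∀ σ : Fin N → Bool, ((x + S σ) ^ 8 + (-x + S σ) ^ 8) / 2 =
          S σ ^ 8 + (28 * x ^ 2) * S σ ^ 6 + (70 * x ^ 4) * S σ ^ 4 + (28 * x ^ 6) * S σ ^ 2 +
            x ^ 8 * 1 := by
        intro σ; ring
      simp only [this, Finset.sum_add_distrib, ← Finset.mul_sum, mul_add]
      rw [mul_left_comm _ (x ^ 8), m0, mul_left_comm _ (28 * x ^ 2), mul_left_comm _ (70 * x ^ 4),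
        mul_left_comm _ (28 * x ^ 6)]
      simp [hM]
    have hx2 : 0 ≤ x ^ 2 := sq_nonneg x
    refine ⟨?_, ?_, ?_, ?_, ?_⟩
    · have := hsum 0
      simp only [pow_zero] at this
      rw [this]
      have h : ∀ σ : Fin N → Bool, ((1 : ℝ) + 1) / 2 = 1 := fun _ => by norm_num
      rw [Finset.sum_congr rfl (fun σ _ => h σ)]
      exact m0
    · rw [hsum 2, e2, m2, hva]
      ring
    · rw [hsum 4, e4, m2, hva]
      set y := x ^ 2 with hy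
      have h4 : x ^ 4 = y ^ 2 := by rw [hy]; ring
      rw [h4]
      nlinarith [mul_nonneg hx2 hx2]
    · rw [hsum 6, e6, m2, hva]
      set y := x ^ 2 with hy
      have h4 : x ^ 4 = y ^ 2 := by rw [hy]; ring
      have h6 : x ^ 6 = y ^ 3 := by rw [hy]; ring
      rw [h4, h6]
      have k1 : 15 * y * M 4 ≤ 15 * y * (3 * v ^ 2) := mul_le_mul_of_nonneg_left m4 (by positivity)
      have k2 : 0 ≤ y ^ 2 * v := by positivity
      have k3 : 0 ≤ y ^ 3 := by positivity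
      nlinarith
    · rw [hsum 8, e8, m2, hva]
      set y := x ^ 2 with hy
      have h4 : x ^ 4 = y ^ 2 := by rw [hy]; ring
      have h6 : x ^ 6 = y ^ 3 := by rw [hy]; ring
      have h8 : x ^ 8 = y ^ 4 := by rw [hy]; ring
      rw [h4, h6, h8]
      have k1 : 28 * y * M 6 ≤ 28 * y * (15 * v ^ 3) := mul_le_mul_of_nonneg_left m6 (by positivity)
      have k2 : 70 * y ^ 2 * M 4 ≤ 70 * y ^ 2 * (3 * v ^ 2) :=
        mul_le_mul_of_nonneg_left m4 (by positivity)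
      have k3 : 0 ≤ y ^ 2 * v ^ 2 := by positivity
      have k4 : 0 ≤ y ^ 3 * v := by positivity
      have k5 : 0 ≤ y ^ 4 := by positivity
      nlinarith

/-- Khintchine for the 8th moment.  PROOF.  Induction on the number of nonzero coefficients (or over finsets `s`, sum over `i ∈ s`), proving
simultaneously for `X = Σ_{i∈s} ε_i a_i`, `v = Σ_{i ∈ s} a_i²`: `E X² = v`, `E X⁴ ≤ 3 v²`, `E X⁶ ≤ 15 v³`, `E X⁸ ≤ 105 v⁴`.  Adding `ε a`:
`E (X+εa)^8 = E X^8 + 28 a² E X^6 + 70 a⁴ E X⁴ + 28 a⁶ E X² + a⁸`, etc.; all coefficients are at most those of `105 (v + a²)^4`. -/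
theorem khintchine8 (a : Fin N → ℝ) :
    (1 / 2 : ℝ) ^ N * ∑ σ : Fin N → Bool, (∑ i, spin (σ i) * a i) ^ 8 ≤ 105 * (∑ i, a i ^ 2) ^ 4 :=
  (khin_all N a).2.2.2.2

theorem khintchine4 (a : Fin N → ℝ) :
    (1 / 2 : ℝ) ^ N * ∑ σ : Fin N → Bool, (∑ i, spin (σ i) * a i) ^ 4 ≤ 3 * (∑ i, a i ^ 2) ^ 2 :=
  (khin_all N a).2.2.1

end Crest.Agent.RI
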