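import Crest.Agent.RI.UBDefs
import Crest.Agent.RI.IDefs
import Crest.Agent.RI.SysBasic

/-!
# Row 164, Parts 8, 9 (lower bound): definitions

The lower bound tower: exponents `ζLB k i = min 1 (i/k)`, no main field, perturbation fields at the
levels `1 ≤ i < k`.
-/

set_option autoImplicit false

namespace Crest.Agent.RI

open MeasureTheory ProbabilityTheory
open Crest.ProbabilityR.InvariantGlass

/-- index set of the perturbation parameters: `x'_l` (blocks), `x''_j` (classes), `x_{i,l}` (fields) -/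
abbrev XI (k K J : ℕ) : Type := Fin K ⊕ Fin J ⊕ (Fin k × Fin K)

/-- law of the parameters: uniform on `[1,2]^XI` -/
noncomputable def cubeM (k K J : ℕ) : Measure (XI k K J → ℝ) :=
  Measure.pi (fun _ => (volume : Measure ℝ).restrict (Set.Icc 1 2))

/-- class sums `T_j = Σ_{lab r = j} σ_r` -/
noncomputable def TJ {N J : ℕ} (lab : Fin N → Fin J) (j : Fin J) (σ : Fin N → Bool) : ℝ :=
  ∑ r, if lab r = j then spin (σ r) else 0

/-- data of the lower bound: proportions `γ`, fields `c`, targets `m`, penalty `kap` -/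
structure LBd (J : ℕ) where
  γ : Fin J → ℝ
  c : Fin J → ℝ
  m : Fin J → ℝ
  kap : ℝ

/-- the magnetic part
`B(σ) = Σ_j (c_j + s x''_j) T_j - (kap/N) Σ_j (T_j - γ_j m_j N)²` -/
noncomputable def BL {J N : ℕ} (L : LBd J) (s : ℝ) (x'' : Fin J → ℝ) (lab : Fin N → Fin J)
    (σ : Fin N → Bool) : ℝ :=
  ∑ j, (L.c j + s * x'' j) * TJ lab j σ -
    (L.kap / (N : ℝ)) * ∑ j, (TJ lab j σ - L.γ j * L.m j * (N : ℝ)) ^ 2

/-- parameters of the lower bound Hamiltonian -/
noncomputable def θL (D : Blk) {J N : ℕ} (L : LBd J) (k : ℕ) (s : ℝ) (x : XI k D.K J → ℝ)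
    (κ : Fin N → Fin D.K) (lab : Fin N → Fin J) : Par N D.K where
  κ := κ
  e := fun l => D.d l + s * x (Sum.inl l)
  v := fun _ => 0
  c := fun i l => if h : i < k then (if i = 0 then 0 else s * x (Sum.inr (Sum.inr (⟨i, h⟩, l))))
    else 0
  B := BL L s (fun j => x (Sum.inr (Sum.inl j))) lab

/-- `F_S(x) = nest H` (not normalised) -/
noncomputable def FL {N : ℕ} (P : Measure (ON N)) (D : Blk) {J : ℕ} (L : LBd J) (k : ℕ) (s : ℝ)
    (x : XI k D.K J → ℝ) (κ : Fin N → Fin D.K) (lab : Fin N → Fin J) : ℝ :=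
  nest (mN P (unifA N)) (ζLB k) (k + 1) 0 (HN k (θL D L k s x κ lab))

/-- path expectation of the lower bound tower -/
noncomputable def EL {N : ℕ} (P : Measure (ON N)) (D : Blk) {J : ℕ} (L : LBd J) (k : ℕ) (s : ℝ)
    (x : XI k D.K J → ℝ) (κ : Fin N → Fin D.K) (lab : Fin N → Fin J)
    (Φ : (Fin (k + 1) → EN N) → ℝ) : ℝ :=
  pathE (mN P (unifA N)) (ζLB k) (k + 1) 0 (HN k (θL D L k s x κ lab)) Φ

/-- pair expectation of the lower bound tower (the paths share the first `r` levels) -/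
noncomputable def EL2 {N : ℕ} (P : Measure (ON N)) (D : Blk) {J : ℕ} (L : LBd J) (k : ℕ) (s : ℝ)
    (x : XI k D.K J → ℝ) (κ : Fin N → Fin D.K) (lab : Fin N → Fin J) (r : ℕ)
    (Φ : (Fin (k + 1) → EN N) → (Fin (k + 1) → EN N) → ℝ) : ℝ :=
  pairE (mN P (unifA N)) (ζLB k) r (k + 1) 0 (HN k (θL D L k s x κ lab)) Φ

/-- the configuration of a path -/
def cfg {N : ℕ} (k : ℕ) (ω : Fin (k + 1) → EN N) : Fin N → Bool := (ω (Fin.last k)).2.2.2

/-- the perturbation `(t + v g^{i0}_0) σ_0` of the spin `0` -/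
noncomputable def Wf {N : ℕ} (k : ℕ) (t v : ℝ) (i0 : Fin k) (ω : Fin (k + 1) → EN (N + 1)) : ℝ :=
  (t + v * (ω i0.castSucc).2.1 0) * spin (cfg k ω 0)

/-- `F_S` with the field `(t + v g^{i0}_0) σ_0` on the spin `0` -/
noncomputable def FLW {N : ℕ} (P : Measure (ON (N + 1))) (D : Blk) {J : ℕ} (L : LBd J) (k : ℕ)
    (s : ℝ) (x : XI k D.K J → ℝ) (κ : Fin (N + 1) → Fin D.K) (lab : Fin (N + 1) → Fin J)
    (t v : ℝ) (i0 : Fin k) : ℝ :=
  nest (mN P (unifA (N + 1))) (ζLB k) (k + 1) 0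
    (fun ω => HN k (θL D L k s x κ lab) ω + Wf k t v i0 ω)

/-- the counts are close to the proportions -/
def LClose {J : ℕ} (γ : Fin J → ℝ) (η : ℝ) {N : ℕ} (lab : Fin N → Fin J) : Prop :=
  ∀ j, |((Finset.univ.filter (fun r => lab r = j)).card : ℝ) / (N : ℝ) - γ j| ≤ η

/-- admissible parameters -/
def XOK {k K J : ℕ} (x : XI k K J → ℝ) : Prop := ∀ i, 0 ≤ x i ∧ x i ≤ 3

end Crest.Agent.RI
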