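import Crest.Agent.RI.TDerA

/-!
# Row 164, tower: second derivative, total variation estimate.
-/

set_option autoImplicit false

namespace Crest.Agent.RI
open MeasureTheory

variable {E : Type} [MeasurableSpace E]
variable {m : Measure E} [IsProbabilityMeasure m] {ζ : ℕ → ℝ} {β : E → ℝ}

theorem TVar_tame_cmul {n : ℕ} (hβ : Dom m β) (c : ℝ) {Φ : (Fin n → E) → ℝ} (h : Tame β Φ) :
    Tame β (fun ω => c * Φ ω) :=
  Tame.mul hβ (Tame.const hβ c) h

theorem TVar_tame_sub {n : ℕ} (hβ : Dom m β) {Φ Ψ : (Fin n → E) → ℝ} (h : Tame β Φ)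
    (h' : Tame β Ψ) : Tame β (fun ω => Φ ω - Ψ ω) := by
  have e : (fun ω => Φ ω - Ψ ω) = (fun ω => Φ ω + (-1) * Ψ ω) := by funext ω; ring
  rw [e]
  exact Tame.add hβ h (TVar_tame_cmul hβ (-1) h')

theorem TVar_tame_sq {n : ℕ} (hβ : Dom m β) {Φ : (Fin n → E) → ℝ} (h : Tame β Φ) :
    Tame β (fun ω => Φ ω ^ 2) := by
  have e : (fun ω => Φ ω ^ 2) = (fun ω => Φ ω * Φ ω) := by funext ω; ring
  rw [e]
  exact Tame.mul hβ h h

theorem TVar_tame_sum {n : ℕ} (hβ : Dom m β) (s : Finset ℕ) {f : ℕ → (Fin n → E) → ℝ}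
    (h : ∀ j ∈ s, Tame β (f j)) : Tame β (fun ω => ∑ j ∈ s, f j ω) := by
  classical
  induction s using Finset.induction_on with
  | empty => simpa using Tame.const (n := n) hβ 0
  | insert a s ha ih =>
    have e : (fun ω => ∑ j ∈ insert a s, f j ω) = (fun ω => f a ω + ∑ j ∈ s, f j ω) := by
      funext ω
      rw [Finset.sum_insert ha]
    rw [e]
    exact Tame.add hβ (h a (Finset.mem_insert_self _ _))
      (ih fun j hj => h j (Finset.mem_insert_of_mem hj))

theorem TVar_pathE_sub (hβ : Dom m β) (hζ : Exps ζ) (n i : ℕ) {H Φ Ψ : (Fin n → E) → ℝ}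
    (hH : Ham β H) (hΦ : Tame β Φ) (hΨ : Tame β Ψ) :
    pathE m ζ n i H (fun ω => Φ ω - Ψ ω) = pathE m ζ n i H Φ - pathE m ζ n i H Ψ := by
  have e : (fun ω => Φ ω - Ψ ω) = (fun ω => Φ ω + (-1) * Ψ ω) := by funext ω; ring
  rw [e, pathE_add hβ hζ n i hH hΦ (TVar_tame_cmul hβ (-1) hΨ), pathE_mul]
  ring

theorem TVar_pathE_sum (hβ : Dom m β) (hζ : Exps ζ) (n i : ℕ) {H : (Fin n → E) → ℝ}
    (hH : Ham β H) (s : Finset ℕ) {f : ℕ → (Fin n → E) → ℝ} (h : ∀ j ∈ s, Tame β (f j)) :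
    pathE m ζ n i H (fun ω => ∑ j ∈ s, f j ω) = ∑ j ∈ s, pathE m ζ n i H (f j) := by
  classical
  induction s using Finset.induction_on with
  | empty => simpa using pathE_const hβ hζ n i hH 0
  | insert a s ha ih =>
    have e : (fun ω => ∑ j ∈ insert a s, f j ω) = (fun ω => f a ω + ∑ j ∈ s, f j ω) := by
      funext ω
      rw [Finset.sum_insert ha]
    rw [e, pathE_add hβ hζ n i hH (h a (Finset.mem_insert_self _ _))
      (TVar_tame_sum hβ s fun j hj => h j (Finset.mem_insert_of_mem hj)), Finset.sum_insert ha,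
      ih fun j hj => h j (Finset.mem_insert_of_mem hj)]

theorem TVar_pathE_nonneg (hβ : Dom m β) (hζ : Exps ζ) (n i : ℕ) {H Φ : (Fin n → E) → ℝ}
    (hH : Ham β H) (hΦ : Tame β Φ) (h : ∀ ω, 0 ≤ Φ ω) : 0 ≤ pathE m ζ n i H Φ := by
  rw [← pathE_const hβ hζ n i hH 0]
  exact pathE_mono hβ hζ n i hH (Tame.const hβ 0) hΦ h

/-- `E (Φ Δ_j) = E (Φ_{j+1} ..)` -/
theorem TVar_mul_condE (hβ : Dom m β) (hζ : Exps ζ) (r n i : ℕ) {H V : (Fin n → E) → ℝ}
    (hH : Ham β H) (hV : Tame β V) :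
    pathE m ζ n i H (fun ω => V ω * condE m ζ r n i H V ω) =
      pathE m ζ n i H (fun ω => condE m ζ r n i H V ω ^ 2) := by
  rw [pathE_condE hβ hζ r n i hH hV hV]
  congr 1
  funext ω
  ring

theorem TVar_mul_incr (hβ : Dom m β) (hζ : Exps ζ) (j n i : ℕ) {H V : (Fin n → E) → ℝ}
    (hH : Ham β H) (hV : Tame β V) :
    pathE m ζ n i H (fun ω => V ω * (condE m ζ (j + 1) n i H V ω - condE m ζ j n i H V ω)) =
      pathE m ζ n i H (fun ω => condE m ζ (j + 1) n i H V ω ^ 2) -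
        pathE m ζ n i H (fun ω => condE m ζ j n i H V ω ^ 2) := by
  rw [← TVar_mul_condE hβ hζ (j + 1) n i hH hV, ← TVar_mul_condE hβ hζ j n i hH hV,
    ← TVar_pathE_sub hβ hζ n i hH (Tame.mul hβ hV (condE_tame hβ hζ _ n i hH hV))
      (Tame.mul hβ hV (condE_tame hβ hζ _ n i hH hV))]
  congr 1
  funext ω
  ring

theorem TVar_incr_sq (hβ : Dom m β) (hζ : Exps ζ) (j n i : ℕ) {H V : (Fin n → E) → ℝ}
    (hH : Ham β H) (hV : Tame β V) :
    pathE m ζ n i H (fun ω => (condE m ζ (j + 1) n i H V ω - condE m ζ j n i H V ω) ^ 2) =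
      pathE m ζ n i H (fun ω => condE m ζ (j + 1) n i H V ω ^ 2) -
        pathE m ζ n i H (fun ω => condE m ζ j n i H V ω ^ 2) := by
  have t1 := condE_tame hβ hζ (j + 1) n i hH hV
  have t0 := condE_tame hβ hζ j n i hH hV
  have e1 : pathE m ζ n i H (fun ω => condE m ζ (j + 1) n i H V ω * condE m ζ j n i H V ω) =
      pathE m ζ n i H (fun ω => condE m ζ j n i H V ω ^ 2) := by
    rw [pathE_condE hβ hζ j n i hH t1 hV]
    congr 1
    funext ω
    rw [condE_condE hβ hζ j (j + 1) n i (Nat.le_succ j) hH hV ω]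
    ring
  have e2 : (fun ω => (condE m ζ (j + 1) n i H V ω - condE m ζ j n i H V ω) ^ 2) =
      (fun ω => (condE m ζ (j + 1) n i H V ω ^ 2 + condE m ζ j n i H V ω ^ 2) -
        2 * (condE m ζ (j + 1) n i H V ω * condE m ζ j n i H V ω)) := by
    funext ω
    ring
  rw [e2, TVar_pathE_sub hβ hζ n i hH (Tame.add hβ (TVar_tame_sq hβ t1) (TVar_tame_sq hβ t0))
    (TVar_tame_cmul hβ 2 (Tame.mul hβ t1 t0)), pathE_mul, e1,
    pathE_add hβ hζ n i hH (TVar_tame_sq hβ t1) (TVar_tame_sq hβ t0)]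
  ring

theorem TVar_tame_incr (hβ : Dom m β) (hζ : Exps ζ) (j n i : ℕ) {H V : (Fin n → E) → ℝ}
    (hH : Ham β H) (hV : Tame β V) :
    Tame β (fun ω => condE m ζ (j + 1) n i H V ω - condE m ζ j n i H V ω) :=
  TVar_tame_sub hβ (condE_tame hβ hζ _ n i hH hV) (condE_tame hβ hζ _ n i hH hV)

theorem TVar_tame_score (hβ : Dom m β) (hζ : Exps ζ) (n i : ℕ) {H V : (Fin n → E) → ℝ}
    (hH : Ham β H) (hV : Tame β V) : Tame β (score m ζ n i H V) :=
  TVar_tame_sum (f := fun j ω => ζ (i + j) * (condE m ζ (j + 1) n i H V ω - condE m ζ j n i H V ω))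
    hβ _ fun j _ => TVar_tame_cmul hβ _ (TVar_tame_incr hβ hζ j n i hH hV)

/-- `E_Q (V · score V) = Jvar` (orthogonality of increments, `V = ∑ increments + mean`) -/
theorem pathE_V_score (hβ : Dom m β) (hζ : Exps ζ) (n i : ℕ) {H V : (Fin n → E) → ℝ}
    (hH : Ham β H) (hV : Tame β V) :
    pathE m ζ n i H (fun ω => V ω * score m ζ n i H V ω) = Jvar m ζ n i H V := by
  have e : (fun ω => V ω * score m ζ n i H V ω) = (fun ω => ∑ j ∈ Finset.range n, ζ (i + j) *
      (V ω * (condE m ζ (j + 1) n i H V ω - condE m ζ j n i H V ω))) := by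
    funext ω
    unfold score
    rw [Finset.mul_sum]
    refine Finset.sum_congr rfl fun j _ => ?_
    ring
  rw [e, TVar_pathE_sum hβ hζ n i hH (Finset.range n) (f := fun j ω => ζ (i + j) *
      (V ω * (condE m ζ (j + 1) n i H V ω - condE m ζ j n i H V ω)))
    (fun j _ => TVar_tame_cmul hβ _ (Tame.mul hβ hV (TVar_tame_incr hβ hζ j n i hH hV)))]
  unfold Jvar
  refine Finset.sum_congr rfl fun j _ => ?_
  rw [pathE_mul, TVar_mul_incr hβ hζ j n i hH hV, TVar_incr_sq hβ hζ j n i hH hV]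

theorem pathE_V_hasDerivAt (hβ : Dom m β) (hζ : Exps ζ) (n i : ℕ) {H V : (Fin n → E) → ℝ}
    (hH : Ham β H) (hV : Ham β V) (t : ℝ) :
    HasDerivAt (fun t => pathE m ζ n i (fun ω => H ω + t * V ω) V)
      (Jvar m ζ n i (fun ω => H ω + t * V ω) V) t := by
  have h := pathE_hasDerivAt hβ hζ n i hH hV (hV.tame hβ) t
  rwa [pathE_V_score hβ hζ n i (hH.add hβ (hV.const_mul t)) (hV.tame hβ)] at h

theorem Jvar_nonneg (hβ : Dom m β) (hζ : Exps ζ) (n i : ℕ) {H V : (Fin n → E) → ℝ}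
    (hH : Ham β H) (hV : Tame β V) : 0 ≤ Jvar m ζ n i H V := by
  unfold Jvar
  refine Finset.sum_nonneg fun j _ => mul_nonneg (hζ _).1 ?_
  exact TVar_pathE_nonneg hβ hζ n i hH (TVar_tame_sq hβ (TVar_tame_incr hβ hζ j n i hH hV))
    fun ω => sq_nonneg _

theorem TVar_partial_sq (hβ : Dom m β) (hζ : Exps ζ) (n i : ℕ) {H V : (Fin n → E) → ℝ}
    (hH : Ham β H) (hV : Tame β V) (k : ℕ) :
    pathE m ζ n i H (fun ω => (∑ j ∈ Finset.range k, ζ (i + j) *
      (condE m ζ (j + 1) n i H V ω - condE m ζ j n i H V ω)) ^ 2) =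
    ∑ j ∈ Finset.range k, ζ (i + j) ^ 2 * pathE m ζ n i H
      (fun ω => (condE m ζ (j + 1) n i H V ω - condE m ζ j n i H V ω) ^ 2) := by
  induction k with
  | zero => simpa using pathE_const hβ hζ n i hH 0
  | succ k ih =>
    have tS : Tame β (fun ω => ∑ j ∈ Finset.range k, ζ (i + j) *
        (condE m ζ (j + 1) n i H V ω - condE m ζ j n i H V ω)) :=
      TVar_tame_sum (f := fun j ω => ζ (i + j) *
        (condE m ζ (j + 1) n i H V ω - condE m ζ j n i H V ω)) hβ _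
        fun j _ => TVar_tame_cmul hβ _ (TVar_tame_incr hβ hζ j n i hH hV)
    have tk := TVar_tame_incr hβ hζ k n i hH hV
    have e : (fun ω => (∑ j ∈ Finset.range (k + 1), ζ (i + j) *
        (condE m ζ (j + 1) n i H V ω - condE m ζ j n i H V ω)) ^ 2) =
        (fun ω => ((∑ j ∈ Finset.range k, ζ (i + j) *
        (condE m ζ (j + 1) n i H V ω - condE m ζ j n i H V ω)) ^ 2 +
        ζ (i + k) ^ 2 * (condE m ζ (k + 1) n i H V ω - condE m ζ k n i H V ω) ^ 2) +
        ∑ j ∈ Finset.range k, (2 * ζ (i + k) * ζ (i + j)) *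
          ((condE m ζ (j + 1) n i H V ω - condE m ζ j n i H V ω) *
          (condE m ζ (k + 1) n i H V ω - condE m ζ k n i H V ω))) := by
      funext ω
      rw [Finset.sum_range_succ]
      have : ∑ j ∈ Finset.range k, (2 * ζ (i + k) * ζ (i + j)) *
          ((condE m ζ (j + 1) n i H V ω - condE m ζ j n i H V ω) *
          (condE m ζ (k + 1) n i H V ω - condE m ζ k n i H V ω)) =
          2 * ζ (i + k) * (condE m ζ (k + 1) n i H V ω - condE m ζ k n i H V ω) *
          ∑ j ∈ Finset.range k, ζ (i + j) *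
            (condE m ζ (j + 1) n i H V ω - condE m ζ j n i H V ω) := by
        rw [Finset.mul_sum]
        refine Finset.sum_congr rfl fun j _ => ?_
        ring
      rw [this]
      ring
    have tc : ∀ j ∈ Finset.range k, Tame β (fun ω => (2 * ζ (i + k) * ζ (i + j)) *
          ((condE m ζ (j + 1) n i H V ω - condE m ζ j n i H V ω) *
          (condE m ζ (k + 1) n i H V ω - condE m ζ k n i H V ω))) := fun j _ =>
      TVar_tame_cmul hβ _ (Tame.mul hβ (TVar_tame_incr hβ hζ j n i hH hV) tk)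
    rw [e, pathE_add hβ hζ n i hH (Tame.add hβ (TVar_tame_sq hβ tS)
        (TVar_tame_cmul hβ _ (TVar_tame_sq hβ tk)))
        (TVar_tame_sum (f := fun j ω => (2 * ζ (i + k) * ζ (i + j)) *
          ((condE m ζ (j + 1) n i H V ω - condE m ζ j n i H V ω) *
          (condE m ζ (k + 1) n i H V ω - condE m ζ k n i H V ω))) hβ _ tc),
      TVar_pathE_sum hβ hζ n i hH (Finset.range k) (f := fun j ω => (2 * ζ (i + k) * ζ (i + j)) *
          ((condE m ζ (j + 1) n i H V ω - condE m ζ j n i H V ω) *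
          (condE m ζ (k + 1) n i H V ω - condE m ζ k n i H V ω))) tc,
      pathE_add hβ hζ n i hH (TVar_tame_sq hβ tS) (TVar_tame_cmul hβ _ (TVar_tame_sq hβ tk)),
      ih, pathE_mul, Finset.sum_range_succ]
    have h0 : ∑ j ∈ Finset.range k, pathE m ζ n i H (fun ω => (2 * ζ (i + k) * ζ (i + j)) *
          ((condE m ζ (j + 1) n i H V ω - condE m ζ j n i H V ω) *
          (condE m ζ (k + 1) n i H V ω - condE m ζ k n i H V ω))) = 0 := by
      refine Finset.sum_eq_zero fun j hj => ?_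
      rw [pathE_mul, pathE_incr_orth hβ hζ j k n i (Finset.mem_range.1 hj) hH hV hV, mul_zero]
    rw [h0, add_zero]

theorem score_sq_le (hβ : Dom m β) (hζ : Exps ζ) (n i : ℕ) {H V : (Fin n → E) → ℝ}
    (hH : Ham β H) (hV : Tame β V) :
    pathE m ζ n i H (fun ω => score m ζ n i H V ω ^ 2) ≤ Jvar m ζ n i H V := by
  unfold score Jvar
  rw [TVar_partial_sq hβ hζ n i hH hV n]
  refine Finset.sum_le_sum fun j _ => ?_
  refine mul_le_mul_of_nonneg_right ?_ (TVar_pathE_nonneg hβ hζ n i hH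
    (TVar_tame_sq hβ (TVar_tame_incr hβ hζ j n i hH hV)) fun ω => sq_nonneg _)
  have h1 := (hζ (i + j)).1
  have h2 := (hζ (i + j)).2
  nlinarith

/-- `Jvar ≥ z · Var_Q V` if all exponents are `≥ z` -/
theorem Jvar_ge_var (hβ : Dom m β) (hζ : Exps ζ) (n i : ℕ) {H V : (Fin n → E) → ℝ}
    (hH : Ham β H) (hV : Tame β V) {z : ℝ} (hz : ∀ j, i ≤ j → z ≤ ζ j) (hz0 : 0 ≤ z) :
    z * (pathE m ζ n i H (fun ω => V ω ^ 2) - pathE m ζ n i H V ^ 2) ≤ Jvar m ζ n i H V := by
  have h1 : z * ∑ j ∈ Finset.range n, pathE m ζ n i H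
      (fun ω => (condE m ζ (j + 1) n i H V ω - condE m ζ j n i H V ω) ^ 2) ≤ Jvar m ζ n i H V := by
    unfold Jvar
    rw [Finset.mul_sum]
    refine Finset.sum_le_sum fun j _ => ?_
    exact mul_le_mul_of_nonneg_right (hz _ (Nat.le_add_right i j)) (TVar_pathE_nonneg hβ hζ n i hH
      (TVar_tame_sq hβ (TVar_tame_incr hβ hζ j n i hH hV)) fun ω => sq_nonneg _)
  have h2 : ∑ j ∈ Finset.range n, pathE m ζ n i H
      (fun ω => (condE m ζ (j + 1) n i H V ω - condE m ζ j n i H V ω) ^ 2) =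
      pathE m ζ n i H (fun ω => V ω ^ 2) - pathE m ζ n i H V ^ 2 := by
    rw [Finset.sum_congr rfl fun j _ => TVar_incr_sq hβ hζ j n i hH hV,
      Finset.sum_range_sub (fun j => pathE m ζ n i H (fun ω => condE m ζ j n i H V ω ^ 2))]
    congr 1
    · congr 1
      funext ω
      rw [condE_all n i H V n le_rfl ω]
    · have : (fun ω => condE m ζ 0 n i H V ω ^ 2) = (fun _ : Fin n → E => pathE m ζ n i H V ^ 2) := by
        funext ω
        rw [condE]
      rw [this, pathE_const hβ hζ n i hH]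
  rwa [h2] at h1

/-- `Jvar ≥ z · E_Q (V - E[V|F_0])²` (`F_0` = first coordinate, `condE 1`) if the exponents after the
first one are `≥ z` (the first one may be `0`). -/
theorem Jvar_ge_condvar (hβ : Dom m β) (hζ : Exps ζ) (n i : ℕ) {H V : (Fin (n + 1) → E) → ℝ}
    (hH : Ham β H) (hV : Tame β V) {z : ℝ} (hz : ∀ j, i < j → z ≤ ζ j) (hz0 : 0 ≤ z) :
    z * pathE m ζ (n + 1) i H (fun ω => (V ω - condE m ζ 1 (n + 1) i H V ω) ^ 2) ≤
      Jvar m ζ (n + 1) i H V := by
  have h1 : z * ∑ j ∈ Finset.range n, pathE m ζ (n + 1) i H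
      (fun ω => (condE m ζ (j + 1 + 1) (n + 1) i H V ω - condE m ζ (j + 1) (n + 1) i H V ω) ^ 2) ≤
      Jvar m ζ (n + 1) i H V := by
    unfold Jvar
    rw [Finset.sum_range_succ', Finset.mul_sum]
    have h0 : 0 ≤ ζ (i + 0) * pathE m ζ (n + 1) i H (fun ω =>
        (condE m ζ (0 + 1) (n + 1) i H V ω - condE m ζ 0 (n + 1) i H V ω) ^ 2) :=
      mul_nonneg (hζ _).1 (TVar_pathE_nonneg hβ hζ _ i hH
        (TVar_tame_sq hβ (TVar_tame_incr hβ hζ 0 _ i hH hV)) fun ω => sq_nonneg _)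
    refine le_trans (Finset.sum_le_sum fun j _ => ?_) (le_add_of_nonneg_right h0)
    exact mul_le_mul_of_nonneg_right (hz _ (by omega)) (TVar_pathE_nonneg hβ hζ _ i hH
      (TVar_tame_sq hβ (TVar_tame_incr hβ hζ (j + 1) _ i hH hV)) fun ω => sq_nonneg _)
  have h2 : ∑ j ∈ Finset.range n, pathE m ζ (n + 1) i H
      (fun ω => (condE m ζ (j + 1 + 1) (n + 1) i H V ω - condE m ζ (j + 1) (n + 1) i H V ω) ^ 2) =
      pathE m ζ (n + 1) i H (fun ω => (V ω - condE m ζ 1 (n + 1) i H V ω) ^ 2) := by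
    have t1 := condE_tame hβ hζ 1 (n + 1) i hH hV
    have e2 : (fun ω => (V ω - condE m ζ 1 (n + 1) i H V ω) ^ 2) =
        (fun ω => (V ω ^ 2 + condE m ζ 1 (n + 1) i H V ω ^ 2) -
          2 * (V ω * condE m ζ 1 (n + 1) i H V ω)) := by
      funext ω
      ring
    rw [Finset.sum_congr rfl fun j _ => TVar_incr_sq hβ hζ (j + 1) (n + 1) i hH hV,
      Finset.sum_range_sub (fun j => pathE m ζ (n + 1) i H
        (fun ω => condE m ζ (j + 1) (n + 1) i H V ω ^ 2)), e2,
      TVar_pathE_sub hβ hζ _ i hH (Tame.add hβ (TVar_tame_sq hβ hV) (TVar_tame_sq hβ t1))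
        (TVar_tame_cmul hβ 2 (Tame.mul hβ hV t1)), pathE_mul,
      TVar_mul_condE hβ hζ 1 (n + 1) i hH hV,
      pathE_add hβ hζ _ i hH (TVar_tame_sq hβ hV) (TVar_tame_sq hβ t1)]
    have e3 : (fun ω => condE m ζ (n + 1) (n + 1) i H V ω ^ 2) = (fun ω => V ω ^ 2) := by
      funext ω
      rw [condE_all (n + 1) i H V (n + 1) le_rfl ω]
    rw [e3, zero_add]
    ring
  rwa [h2] at h1

theorem TVar_deriv_bound (hβ : Dom m β) (hζ : Exps ζ) (n i : ℕ) {H U Φ : (Fin n → E) → ℝ}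
    (hH : Ham β H) (hU : Tame β U) (hΦ : Tame β Φ) {B : ℝ} (hB0 : 0 ≤ B) (hB : ∀ ω, |Φ ω| ≤ B)
    {η : ℝ} (hη : 0 < η) :
    |pathE m ζ n i H (fun ω => Φ ω * score m ζ n i H U ω)| ≤
      B * (Jvar m ζ n i H U / η + η) / 2 := by
  have hJ := Jvar_nonneg hβ hζ n i hH hU
  have h1 := pathE_cs hβ hζ n i hH hΦ (TVar_tame_score hβ hζ n i hH hU)
  have h2 : pathE m ζ n i H (fun ω => Φ ω ^ 2) ≤ B ^ 2 := by
    rw [← pathE_const hβ hζ n i hH (B ^ 2)]
    refine pathE_mono hβ hζ n i hH (TVar_tame_sq hβ hΦ) (Tame.const hβ _) fun ω => ?_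
    rw [← sq_abs]
    exact pow_le_pow_left₀ (abs_nonneg _) (hB ω) 2
  have h3 := score_sq_le hβ hζ n i hH hU
  have h4 : pathE m ζ n i H (fun ω => Φ ω * score m ζ n i H U ω) ^ 2 ≤
      B ^ 2 * Jvar m ζ n i H U := by
    refine h1.trans (mul_le_mul h2 h3 ?_ (sq_nonneg B))
    exact TVar_pathE_nonneg hβ hζ n i hH (TVar_tame_sq hβ (TVar_tame_score hβ hζ n i hH hU))
      fun ω => sq_nonneg _
  apply abs_le_of_sq_le_sq _ (by positivity)
  refine h4.trans ?_
  have h5 : Jvar m ζ n i H U ≤ ((Jvar m ζ n i H U / η + η) / 2) ^ 2 := by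
    have h6 : Jvar m ζ n i H U = (Jvar m ζ n i H U / η) * η := by field_simp
    nlinarith [sq_nonneg (Jvar m ζ n i H U / η - η)]
  calc B ^ 2 * Jvar m ζ n i H U ≤ B ^ 2 * ((Jvar m ζ n i H U / η + η) / 2) ^ 2 :=
        mul_le_mul_of_nonneg_left h5 (sq_nonneg B)
    _ = _ := by ring

/-- (TV) total variation estimate.  PROOF: `U^c = H + c U`, `F(c) = E_{U^c} U` nondecreasing with derivative `Jvar`,
`|d/dc E_{U^c} Φ| = |E Φ score| ≤ B (Jvar_c)^{1/2}`; integrate and use Cauchy–Schwarz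
(`∫ √J ≤ √(∫ J)`); or: for every `η>0`, `√J ≤ (J/η + η)/2`, mean value theorem applied to
`E_{U^c} Φ ± B (F(c)/η + η c)/2`, then optimise `η`. -/
theorem pathE_tv (hβ : Dom m β) (hζ : Exps ζ) (n i : ℕ) {H U Φ : (Fin n → E) → ℝ}
    (hH : Ham β H) (hU : Ham β U) (hΦ : Tame β Φ) {B : ℝ} (hB : ∀ ω, |Φ ω| ≤ B) :
    |pathE m ζ n i (fun ω => H ω + U ω) Φ - pathE m ζ n i H Φ| ≤
      B * Real.sqrt (pathE m ζ n i (fun ω => H ω + U ω) U - pathE m ζ n i H U) := by
  have hne : Nonempty E := by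
    by_contra hc
    rw [not_nonempty_iff] at hc
    have h1 := IsProbabilityMeasure.measure_univ (μ := m)
    rw [Set.univ_eq_empty_iff.2 hc, measure_empty] at h1
    exact zero_ne_one h1
  have hB0 : 0 ≤ B := (abs_nonneg _).trans (hB (fun _ => hne.some))
  have hUt := hU.tame hβ
  have hHc : ∀ t : ℝ, Ham β (fun ω => H ω + t * U ω) := fun t => hH.add hβ (hU.const_mul t)
  -- for a sign `s = ±1` and `η > 0`
  have key : ∀ (s η : ℝ), |s| = 1 → 0 < η →
      s * (pathE m ζ n i (fun ω => H ω + U ω) Φ - pathE m ζ n i H Φ) ≤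
        B * ((pathE m ζ n i (fun ω => H ω + U ω) U - pathE m ζ n i H U) / η + η) / 2 := by
    intro s η hs hη
    set g : ℝ → ℝ := fun t => s * pathE m ζ n i (fun ω => H ω + t * U ω) Φ -
      B * (pathE m ζ n i (fun ω => H ω + t * U ω) U / η + η * t) / 2 with hg
    have hd : ∀ t, HasDerivAt g (s * pathE m ζ n i (fun ω => H ω + t * U ω)
        (fun ω => Φ ω * score m ζ n i (fun ω => H ω + t * U ω) U ω) -
        B * (Jvar m ζ n i (fun ω => H ω + t * U ω) U / η + η) / 2) t := by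
      intro t
      have h1 := (pathE_hasDerivAt hβ hζ n i hH hU hΦ t).const_mul s
      have h2 := (pathE_V_hasDerivAt hβ hζ n i hH hU t).div_const η
      have h3 := (hasDerivAt_id t).const_mul η
      have h4 := ((h2.add h3).const_mul B).div_const 2
      have h5 := h1.sub h4
      rw [mul_one] at h5
      exact h5
    have hanti : Antitone g := by
      apply antitone_of_deriv_nonpos (fun t => (hd t).differentiableAt)
      intro t
      rw [(hd t).deriv]
      have h1 := TVar_deriv_bound hβ hζ n i (hHc t) hUt hΦ hB0 hB hη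
      have h2 : s * pathE m ζ n i (fun ω => H ω + t * U ω)
        (fun ω => Φ ω * score m ζ n i (fun ω => H ω + t * U ω) U ω) ≤
          |pathE m ζ n i (fun ω => H ω + t * U ω)
        (fun ω => Φ ω * score m ζ n i (fun ω => H ω + t * U ω) U ω)| := by
        refine (le_abs_self _).trans ?_
        rw [abs_mul, hs, one_mul]
      linarith
    have h1 := hanti (zero_le_one (α := ℝ))
    have e0 : (fun ω => H ω + (0 : ℝ) * U ω) = H := by funext ω; ring
    have e1 : (fun ω => H ω + (1 : ℝ) * U ω) = fun ω => H ω + U ω := by funext ω; ring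
    simp only [hg, e0, e1, mul_one, mul_zero, add_zero] at h1
    have h2 : B * ((pathE m ζ n i (fun ω => H ω + U ω) U - pathE m ζ n i H U) / η + η) / 2 =
        B * (pathE m ζ n i (fun ω => H ω + U ω) U / η + η) / 2 -
          B * (pathE m ζ n i H U / η) / 2 := by
      ring
    rw [h2]
    linarith
  set D := pathE m ζ n i (fun ω => H ω + U ω) U - pathE m ζ n i H U with hD
  have hD0 : 0 ≤ D := by
    have hmono : Monotone (fun t : ℝ => pathE m ζ n i (fun ω => H ω + t * U ω) U) := by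
      apply monotone_of_deriv_nonneg
        (fun t => (pathE_V_hasDerivAt hβ hζ n i hH hU t).differentiableAt)
      intro t
      rw [(pathE_V_hasDerivAt hβ hζ n i hH hU t).deriv]
      exact Jvar_nonneg hβ hζ n i (hHc t) hUt
    have h1 := hmono (zero_le_one (α := ℝ))
    have e0 : (fun ω => H ω + (0 : ℝ) * U ω) = H := by funext ω; ring
    have e1 : (fun ω => H ω + (1 : ℝ) * U ω) = fun ω => H ω + U ω := by funext ω; ring
    simp only [e0, e1] at h1
    linarith
  have key2 : ∀ η : ℝ, 0 < η →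
      |pathE m ζ n i (fun ω => H ω + U ω) Φ - pathE m ζ n i H Φ| ≤ B * (D / η + η) / 2 := by
    intro η hη
    rw [abs_le]
    have h1 := key 1 η (by simp) hη
    have h2 := key (-1) η (by simp) hη
    constructor <;> linarith
  rcases hD0.eq_or_lt with h0 | h0
  · rw [← h0, Real.sqrt_zero, mul_zero]
    apply le_of_forall_pos_le_add
    intro ε hε
    have h1 := key2 (ε / (B + 1)) (by positivity)
    rw [← h0, zero_div, zero_add] at h1
    refine h1.trans ?_
    have h2 : B * (ε / (B + 1)) ≤ ε := by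
      rw [mul_div_assoc', div_le_iff₀ (by positivity)]
      nlinarith
    linarith
  · have hs : 0 < Real.sqrt D := Real.sqrt_pos.2 h0
    have h1 := key2 (Real.sqrt D) hs
    have h2 : D / Real.sqrt D = Real.sqrt D := Real.div_sqrt
    rw [h2] at h1
    linarith

end Crest.Agent.RI
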