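import Crest.Agent.RI.CavD
import Crest.Agent.RI.IbpFacts
import Crest.Agent.RI.TVar

/-!
# Row 164, Part 9: the Hamiltonian is linear in the perturbation parameters; derivatives
-/

set_option autoImplicit false

namespace Crest.Agent.RI

open MeasureTheory ProbabilityTheory

variable {N K J k : ℕ}

/-- normalised direction field of the parameter `i`: `∂H/∂x_i = s N dirV i` -/
noncomputable def dirV (k : ℕ) (κ : Fin N → Fin K) (lab : Fin N → Fin J) :
    XI k K J → (Fin (k + 1) → EN N) → ℝ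
  | Sum.inl l => fun ω => (1 / 2) * ovl k κ l ω ω
  | Sum.inr (Sum.inl j) => fun ω => TJ lab j (cfg k ω) / (N : ℝ)
  | Sum.inr (Sum.inr (i, l)) => if (i : ℕ) = 0 then fun _ => 0 else gy k κ i l

private theorem LBLin_meas_cfg : Measurable (fun ω : Fin (k + 1) → EN N => cfg k ω) :=
  (measurable_snd.comp (measurable_snd.comp measurable_snd)).comp
    (measurable_pi_apply (Fin.last k))

private theorem LBLin_ham_cfg (F : (Fin N → Bool) → ℝ) :
    Ham (βN (N := N)) (fun ω : Fin (k + 1) → EN N => F (cfg k ω)) := by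
  refine ⟨(measurable_of_countable F).comp LBLin_meas_cfg, ∑ σ, |F σ|,
    Finset.sum_nonneg (fun _ _ => abs_nonneg _), fun ω => ?_⟩
  have h1 : |F (cfg k ω)| ≤ ∑ σ, |F σ| :=
    Finset.single_le_sum (f := fun σ => |F σ|) (fun j _ => abs_nonneg _) (Finset.mem_univ _)
  have h2 : 0 ≤ ∑ i, βN (ω i) := Finset.sum_nonneg (fun i _ => βN_nonneg' _)
  have h3 : 0 ≤ ∑ σ, |F σ| := Finset.sum_nonneg (fun _ _ => abs_nonneg _)
  nlinarith [mul_nonneg h3 h2]

theorem dirV_ham (κ : Fin N → Fin K) (lab : Fin N → Fin J) (i : XI k K J) :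
    Ham (βN (N := N)) (dirV k κ lab i) := by
  rcases i with l | j | ⟨i, l⟩
  · exact Ham.smul (ham_ovl_self k κ l) (1 / 2)
  · exact LBLin_ham_cfg (fun σ => TJ lab j σ / (N : ℝ))
  · by_cases h : (i : ℕ) = 0
    · have e : dirV (J := J) k κ lab (Sum.inr (Sum.inr (i, l))) = fun _ => 0 := by
        simp only [dirV, if_pos h]
      rw [e]
      exact Ham.const (n := k + 1) (βN_nonneg' (N := N)) 0
    · have e : dirV (J := J) k κ lab (Sum.inr (Sum.inr (i, l))) = gy k κ i l := by
        simp only [dirV, if_neg h]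
      rw [e]
      exact ham_gy k κ i l

private theorem LBLin_blk (hN : 0 < N) (κ : Fin N → Fin K) (f : Fin K → ℝ) (g : Fin N → ℝ) :
    ∑ a, f (κ a) * g a =
      ∑ l, f l * ((N : ℝ) * ((1 / (N : ℝ)) * ∑ a, if κ a = l then g a else 0)) := by
  have hN' : (N : ℝ) ≠ 0 := by positivity
  have e : ∀ l, f l * ((N : ℝ) * ((1 / (N : ℝ)) * ∑ a, if κ a = l then g a else 0)) =
      ∑ a, if κ a = l then f l * g a else 0 := by
    intro l
    rw [← mul_assoc (N : ℝ), mul_one_div_cancel hN', one_mul, Finset.mul_sum]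
    refine Finset.sum_congr rfl fun a _ => ?_
    split_ifs <;> simp
  rw [Finset.sum_congr rfl fun l _ => e l, Finset.sum_comm]
  refine Finset.sum_congr rfl fun a _ => ?_
  rw [Finset.sum_ite_eq]
  simp

/-- PROOF: expand; `Σ_a f(κ a) y_a² = Σ_l f_l Σ_{κ a = l} y_a²` etc. -/
theorem HN_lin (hN : 0 < N) (D : Blk) (L : LBd J) (s : ℝ) (x : XI k D.K J → ℝ)
    (κ : Fin N → Fin D.K) (lab : Fin N → Fin J) (ω : Fin (k + 1) → EN N) :
    HN k (θL D L k s x κ lab) ω = HN k (θL D L k s 0 κ lab) ω +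
      ∑ i, x i * ((s * N) * dirV k κ lab i ω) := by
  have hN' : (N : ℝ) ≠ 0 := by positivity
  rw [Fintype.sum_sum_type, Fintype.sum_sum_type, Fintype.sum_prod_type]
  -- the three parts
  have q : (1 / 2 : ℝ) * ∑ a : Fin N, (D.d (κ a) + s * x (Sum.inl (κ a))) * yv k ω a ^ 2 =
      (1 / 2 : ℝ) * ∑ a : Fin N, (D.d (κ a) + s * 0) * yv k ω a ^ 2 +
      ∑ l, x (Sum.inl l) * ((s * N) * ((1 / 2) * ovl k κ l ω ω)) := by
    have h1 := LBLin_blk hN κ (fun l => s * x (Sum.inl l)) (fun a => yv k ω a * yv k ω a)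
    have h2 : ∑ l, x (Sum.inl l) * ((s * N) * ((1 / 2) * ovl k κ l ω ω)) =
        (1 / 2) * ∑ l, s * x (Sum.inl l) * ((N : ℝ) * ((1 / (N : ℝ)) *
          ∑ a, if κ a = l then yv k ω a * yv k ω a else 0)) := by
      rw [Finset.mul_sum]
      refine Finset.sum_congr rfl fun l _ => ?_
      unfold ovl
      ring
    rw [h2, ← h1, ← mul_add, ← Finset.sum_add_distrib]
    congr 1
    refine Finset.sum_congr rfl fun a _ => ?_
    ring
  have g : ∀ i : Fin k, ∑ a : Fin N, (if h : (i : ℕ) < k then (if (i : ℕ) = 0 then 0 else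
        s * x (Sum.inr (Sum.inr (⟨i, h⟩, κ a)))) else 0) * (ω i.castSucc).2.2.1 a * yv k ω a =
      ∑ l, x (Sum.inr (Sum.inr (i, l))) * ((s * N) *
        dirV (J := J) k κ lab (Sum.inr (Sum.inr (i, l))) ω) := by
    intro i
    by_cases h0 : (i : ℕ) = 0
    · simp only [dirV, if_pos h0, mul_zero, Finset.sum_const_zero]
      refine Finset.sum_eq_zero fun a _ => ?_
      simp
    · simp only [dirV, if_neg h0]
      have h1 := LBLin_blk hN κ (fun l => s * x (Sum.inr (Sum.inr (i, l))))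
        (fun a => (ω i.castSucc).2.2.1 a * yv k ω a)
      have h2 : ∑ l, x (Sum.inr (Sum.inr (i, l))) * ((s * N) * gy k κ i l ω) =
          ∑ l, s * x (Sum.inr (Sum.inr (i, l))) * ((N : ℝ) * ((1 / (N : ℝ)) *
            ∑ a, if κ a = l then (ω i.castSucc).2.2.1 a * yv k ω a else 0)) := by
        refine Finset.sum_congr rfl fun l _ => ?_
        unfold gy
        ring
      rw [h2, ← h1]
      refine Finset.sum_congr rfl fun a _ => ?_
      rw [dif_pos i.2]
      ring
  have g0 : ∀ i : Fin k, ∑ a : Fin N, (if h : (i : ℕ) < k then (if (i : ℕ) = 0 then (0 : ℝ) else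
        s * 0) else 0) * (ω i.castSucc).2.2.1 a * yv k ω a = 0 := by
    intro i
    refine Finset.sum_eq_zero fun a _ => ?_
    simp
  have b : BL L s (fun j => x (Sum.inr (Sum.inl j))) lab (ω (Fin.last k)).2.2.2 =
      BL L s (fun _ => 0) lab (ω (Fin.last k)).2.2.2 +
      ∑ j, x (Sum.inr (Sum.inl j)) * ((s * N) * (TJ lab j (cfg k ω) / (N : ℝ))) := by
    have h1 : ∑ j, x (Sum.inr (Sum.inl j)) * ((s * N) * (TJ lab j (cfg k ω) / (N : ℝ))) =
        ∑ j, s * x (Sum.inr (Sum.inl j)) * TJ lab j (cfg k ω) := by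
      refine Finset.sum_congr rfl fun j _ => ?_
      field_simp
    rw [h1]
    unfold BL cfg
    rw [sub_add_eq_add_sub, ← Finset.sum_add_distrib]
    congr 1
    refine Finset.sum_congr rfl fun j _ => ?_
    ring
  have hx : HN k (θL D L k s x κ lab) ω =
      (1 / 2 : ℝ) * ∑ a : Fin N, (D.d (κ a) + s * x (Sum.inl (κ a))) * yv k ω a ^ 2 +
      ∑ i : Fin k, (0 : ℝ) * ∑ r : Fin N, (ω i.castSucc).2.1 r * spin ((ω (Fin.last k)).2.2.2 r) +
      ∑ i : Fin k, ∑ a : Fin N, (if h : (i : ℕ) < k then (if (i : ℕ) = 0 then 0 else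
        s * x (Sum.inr (Sum.inr (⟨i, h⟩, κ a)))) else 0) * (ω i.castSucc).2.2.1 a * yv k ω a +
      BL L s (fun j => x (Sum.inr (Sum.inl j))) lab (ω (Fin.last k)).2.2.2 := rfl
  have h0 : HN k (θL D L k s 0 κ lab) ω =
      (1 / 2 : ℝ) * ∑ a : Fin N, (D.d (κ a) + s * 0) * yv k ω a ^ 2 +
      ∑ i : Fin k, (0 : ℝ) * ∑ r : Fin N, (ω i.castSucc).2.1 r * spin ((ω (Fin.last k)).2.2.2 r) +
      ∑ i : Fin k, ∑ a : Fin N, (if h : (i : ℕ) < k then (if (i : ℕ) = 0 then (0 : ℝ) else
        s * 0) else 0) * (ω i.castSucc).2.2.1 a * yv k ω a +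
      BL L s (fun _ => 0) lab (ω (Fin.last k)).2.2.2 := rfl
  rw [hx, h0, q, b, Finset.sum_congr rfl fun i _ => g i, Finset.sum_congr rfl fun i _ => g0 i,
    Finset.sum_const_zero]
  simp only [dirV]
  ring

theorem HN_upd (hN : 0 < N) (D : Blk) (L : LBd J) (s : ℝ) (x : XI k D.K J → ℝ)
    (κ : Fin N → Fin D.K) (lab : Fin N → Fin J) (i : XI k D.K J) (t : ℝ)
    (ω : Fin (k + 1) → EN N) :
    HN k (θL D L k s (Function.update x i t) κ lab) ω =
      HN k (θL D L k s (Function.update x i 0) κ lab) ω + t * ((s * N) * dirV k κ lab i ω) := by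
  classical
  rw [HN_lin hN D L s (Function.update x i t), HN_lin hN D L s (Function.update x i 0)]
  have h : ∀ u : ℝ, ∑ j, Function.update x i u j * ((s * N) * dirV k κ lab j ω) =
      u * ((s * N) * dirV k κ lab i ω) +
        ∑ j ∈ Finset.univ.erase i, x j * ((s * N) * dirV k κ lab j ω) := by
    intro u
    rw [← Finset.add_sum_erase _ _ (Finset.mem_univ i), Function.update_self]
    congr 1
    refine Finset.sum_congr rfl fun j hj => ?_
    rw [Function.update_of_ne (Finset.ne_of_mem_erase hj)]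
  rw [h t, h 0]
  ring

private theorem LBLin_upd (hN : 0 < N) (D : Blk) (L : LBd J) (s : ℝ) (x : XI k D.K J → ℝ)
    (κ : Fin N → Fin D.K) (lab : Fin N → Fin J) (i : XI k D.K J) (t : ℝ) :
    HN k (θL D L k s (Function.update x i t) κ lab) = fun ω =>
      HN k (θL D L k s (Function.update x i 0) κ lab) ω + t * ((s * N) * dirV k κ lab i ω) :=
  funext fun ω => HN_upd hN D L s x κ lab i t ω

/-- PROOF: `HN_upd`, `nest_hasDerivAt`, `pathE_cmul`-like. -/
theorem FL_hasDerivAt (hN : 0 < N) {P : Measure (ON N)} (hP : HaarO P) (D : Blk) (L : LBd J)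
    (s : ℝ) (x : XI k D.K J → ℝ) (κ : Fin N → Fin D.K) (lab : Fin N → Fin J) (i : XI k D.K J)
    (t : ℝ) :
    HasDerivAt (fun t => FL P D L k s (Function.update x i t) κ lab)
      (s * N * EL P D L k s (Function.update x i t) κ lab (dirV k κ lab i)) t := by
  have i1 : IsProbabilityMeasure (mN P (unifA N)) := prob_mN hP (unifA N)
  have hβ : Dom (mN P (unifA N)) (βN (N := N)) := dom_mN hP (unifA N)
  have h := nest_hasDerivAt hβ (exps_LB k) (k + 1) 0
    (HN_ham k (θL D L k s (Function.update x i 0) κ lab))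
    (Ham.smul (dirV_ham (k := k) κ lab i) (s * N)) t
  unfold FL EL
  have e : ∀ t, HN k (θL D L k s (Function.update x i t) κ lab) = fun ω =>
      HN k (θL D L k s (Function.update x i 0) κ lab) ω + t * ((s * N) * dirV k κ lab i ω) :=
    LBLin_upd hN D L s x κ lab i
  have e1 : (fun t => nest (mN P (unifA N)) (ζLB k) (k + 1) 0
      (HN k (θL D L k s (Function.update x i t) κ lab))) = fun t =>
      nest (mN P (unifA N)) (ζLB k) (k + 1) 0 (fun ω =>
      HN k (θL D L k s (Function.update x i 0) κ lab) ω + t * ((s * N) * dirV k κ lab i ω)) :=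
    funext fun t => by rw [e t]
  rw [e1, e t]
  rw [pathE_mul] at h
  exact h

/-- PROOF: `nest_convexOn`. -/
theorem FL_convexOn (hN : 0 < N) {P : Measure (ON N)} (hP : HaarO P) (D : Blk) (L : LBd J)
    (s : ℝ) (x : XI k D.K J → ℝ) (κ : Fin N → Fin D.K) (lab : Fin N → Fin J) (i : XI k D.K J) :
    ConvexOn ℝ Set.univ (fun t => FL P D L k s (Function.update x i t) κ lab) := by
  have i1 : IsProbabilityMeasure (mN P (unifA N)) := prob_mN hP (unifA N)
  have hβ : Dom (mN P (unifA N)) (βN (N := N)) := dom_mN hP (unifA N)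
  have h := nest_convexOn hβ (exps_LB k) (k + 1) 0
    (HN_ham k (θL D L k s (Function.update x i 0) κ lab))
    (Ham.smul (dirV_ham (k := k) κ lab i) (s * N))
  unfold FL
  have e1 : (fun t => nest (mN P (unifA N)) (ζLB k) (k + 1) 0
      (HN k (θL D L k s (Function.update x i t) κ lab))) = fun t =>
      nest (mN P (unifA N)) (ζLB k) (k + 1) 0 (fun ω =>
      HN k (θL D L k s (Function.update x i 0) κ lab) ω + t * ((s * N) * dirV k κ lab i ω)) :=
    funext fun t => by rw [LBLin_upd hN D L s x κ lab i t]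
  rw [e1]
  exact h

/-- second derivative.  PROOF: `pathE_V_hasDerivAt` with `V = s N dirV i`. -/
theorem EL_hasDerivAt (hN : 0 < N) {P : Measure (ON N)} (hP : HaarO P) (D : Blk) (L : LBd J)
    (s : ℝ) (x : XI k D.K J → ℝ) (κ : Fin N → Fin D.K) (lab : Fin N → Fin J) (i : XI k D.K J)
    (t : ℝ) :
    HasDerivAt (fun t => s * N * EL P D L k s (Function.update x i t) κ lab (dirV k κ lab i))
      (Jvar (mN P (unifA N)) (ζLB k) (k + 1) 0
        (HN k (θL D L k s (Function.update x i t) κ lab))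
        (fun ω => (s * N) * dirV k κ lab i ω)) t := by
  have i1 : IsProbabilityMeasure (mN P (unifA N)) := prob_mN hP (unifA N)
  have hβ : Dom (mN P (unifA N)) (βN (N := N)) := dom_mN hP (unifA N)
  have h := pathE_V_hasDerivAt hβ (exps_LB k) (k + 1) 0
    (HN_ham k (θL D L k s (Function.update x i 0) κ lab))
    (Ham.smul (dirV_ham (k := k) κ lab i) (s * N)) t
  unfold EL
  have e1 : (fun t => s * N * pathE (mN P (unifA N)) (ζLB k) (k + 1) 0
      (HN k (θL D L k s (Function.update x i t) κ lab)) (dirV k κ lab i)) = fun t =>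
      pathE (mN P (unifA N)) (ζLB k) (k + 1) 0 (fun ω =>
      HN k (θL D L k s (Function.update x i 0) κ lab) ω + t * ((s * N) * dirV k κ lab i ω))
      (fun ω => (s * N) * dirV k κ lab i ω) :=
    funext fun t => by rw [LBLin_upd hN D L s x κ lab i t, pathE_mul]
  rw [e1, LBLin_upd hN D L s x κ lab i t]
  exact h

end Crest.Agent.RI
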