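import Crest.Prelude.Def_InvariantGlass

/-!
# Row 164, Part 0.6, file a: monotonicity and integrability of the pressure
-/

set_option autoImplicit false

namespace Crest.Agent.RI

open MeasureTheory
open Crest.ProbabilityR.InvariantGlass

/-- the partition function is positive -/
theorem P06_Z_pos {N : ℕ} (eig : Fin N → ℝ) (U : Matrix (Fin N) (Fin N) ℝ) (c : Fin N → ℝ) :
    0 < (1 / 2 : ℝ) ^ N * ∑ σ : Fin N → Bool,
      Real.exp ((1 / 2) * (∑ i : Fin N, eig i * (U.mulVec (spinVec σ) i) ^ 2) +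
        ∑ r : Fin N, c r * spinVec σ r) := by
  apply mul_pos (by positivity)
  exact Finset.sum_pos (fun σ _ => Real.exp_pos _) Finset.univ_nonempty

/-- monotonicity in the spectrum -/
theorem pressureFieldN_mono {N : ℕ} {eig eig' : Fin N → ℝ} (h : ∀ i, eig i ≤ eig' i)
    (U : Matrix (Fin N) (Fin N) ℝ) (c : Fin N → ℝ) :
    pressureFieldN eig U c ≤ pressureFieldN eig' U c := by
  unfold pressureFieldN
  apply mul_le_mul_of_nonneg_left _ (by positivity)
  apply Real.log_le_log (P06_Z_pos eig U c)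
  apply mul_le_mul_of_nonneg_left _ (by positivity)
  refine Finset.sum_le_sum fun σ _ => ?_
  apply Real.exp_le_exp.2
  have h1 : ∑ i : Fin N, eig i * (U.mulVec (spinVec σ) i) ^ 2 ≤
      ∑ i : Fin N, eig' i * (U.mulVec (spinVec σ) i) ^ 2 :=
    Finset.sum_le_sum fun i _ => mul_le_mul_of_nonneg_right (h i) (sq_nonneg _)
  linarith

theorem P06_spin_sq {N : ℕ} (σ : Fin N → Bool) (i : Fin N) : spinVec σ i ^ 2 = 1 := by
  unfold spinVec
  split_ifs <;> norm_num

theorem P06_spin_abs {N : ℕ} (σ : Fin N → Bool) (i : Fin N) : |spinVec σ i| = 1 := by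
  unfold spinVec
  split_ifs <;> norm_num

/-- `‖Uσ‖² = N` -/
theorem P06_norm_sq {N : ℕ} {U : Matrix (Fin N) (Fin N) ℝ}
    (hU : U ∈ Matrix.orthogonalGroup (Fin N) ℝ) (σ : Fin N → Bool) :
    ∑ i : Fin N, (U.mulVec (spinVec σ) i) ^ 2 = N := by
  have h1 : ∑ i : Fin N, (U.mulVec (spinVec σ) i) ^ 2 =
      (U.mulVec (spinVec σ)) ⬝ᵥ (U.mulVec (spinVec σ)) := by
    unfold dotProduct
    exact Finset.sum_congr rfl fun i _ => by ring
  have h2 : U.transpose * U = 1 := by
    have := (Matrix.mem_orthogonalGroup_iff' (Fin N) ℝ).1 hU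
    exact this
  rw [h1, Matrix.dotProduct_mulVec, Matrix.vecMul_mulVec, h2, Matrix.vecMul_one]
  unfold dotProduct
  have : ∀ i, spinVec σ i * spinVec σ i = 1 := fun i => by rw [← P06_spin_sq σ i]; ring
  rw [Finset.sum_congr rfl fun i _ => this i]
  simp

/-- a bound for the pressure -/
theorem P06_bound {N : ℕ} (eig : Fin N → ℝ) {U : Matrix (Fin N) (Fin N) ℝ}
    (hU : U ∈ Matrix.orthogonalGroup (Fin N) ℝ) (c : Fin N → ℝ) :
    |pressureFieldN eig U c| ≤ (1 / (N : ℝ)) * ((∑ i, |eig i|) * N + ∑ r, |c r|) := by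
  set B : ℝ := (∑ i, |eig i|) * N + ∑ r, |c r| with hB
  have hX : ∀ σ : Fin N → Bool, |(1 / 2) * (∑ i : Fin N, eig i * (U.mulVec (spinVec σ) i) ^ 2) +
        ∑ r : Fin N, c r * spinVec σ r| ≤ B := by
    intro σ
    have h1 : |∑ i : Fin N, eig i * (U.mulVec (spinVec σ) i) ^ 2| ≤ (∑ i, |eig i|) * N := by
      calc |∑ i : Fin N, eig i * (U.mulVec (spinVec σ) i) ^ 2|
          ≤ ∑ i : Fin N, |eig i * (U.mulVec (spinVec σ) i) ^ 2| := Finset.abs_sum_le_sum_abs _ _
        _ ≤ ∑ i : Fin N, |eig i| * N := by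
            refine Finset.sum_le_sum fun i _ => ?_
            rw [abs_mul, abs_of_nonneg (sq_nonneg (U.mulVec (spinVec σ) i))]
            apply mul_le_mul_of_nonneg_left _ (abs_nonneg _)
            rw [← P06_norm_sq hU σ]
            exact Finset.single_le_sum (f := fun i => (U.mulVec (spinVec σ) i) ^ 2)
              (fun i _ => sq_nonneg _) (Finset.mem_univ i)
        _ = (∑ i, |eig i|) * N := by rw [Finset.sum_mul]
    have h2 : |∑ r : Fin N, c r * spinVec σ r| ≤ ∑ r, |c r| := by
      refine (Finset.abs_sum_le_sum_abs _ _).trans (Finset.sum_le_sum fun r _ => ?_)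
      rw [abs_mul, P06_spin_abs, mul_one]
    have h3 : |(1 / 2 : ℝ) * (∑ i : Fin N, eig i * (U.mulVec (spinVec σ) i) ^ 2)| ≤
        (∑ i, |eig i|) * N := by
      rw [abs_mul, abs_of_nonneg (by norm_num : (0:ℝ) ≤ 1 / 2)]
      have := abs_nonneg (∑ i : Fin N, eig i * (U.mulVec (spinVec σ) i) ^ 2)
      linarith
    calc _ ≤ _ := abs_add_le _ _
      _ ≤ B := add_le_add h3 h2
  have hcard : (1 / 2 : ℝ) ^ N * ∑ _σ : Fin N → Bool, (1 : ℝ) = 1 := by
    rw [Finset.sum_const, Finset.card_univ]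
    simp only [Fintype.card_pi, Fintype.card_bool, Finset.prod_const, Finset.card_univ,
      Fintype.card_fin, nsmul_eq_mul, mul_one]
    push_cast
    rw [← mul_pow]
    norm_num
  unfold pressureFieldN
  rw [abs_mul, abs_of_nonneg (by positivity : (0:ℝ) ≤ 1 / (N : ℝ))]
  apply mul_le_mul_of_nonneg_left _ (by positivity)
  rw [abs_le]
  constructor
  · rw [← Real.log_exp (-B)]
    apply Real.log_le_log (Real.exp_pos _)
    calc Real.exp (-B) = (1 / 2 : ℝ) ^ N * ∑ _σ : Fin N → Bool, Real.exp (-B) := by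
          rw [← mul_one (Real.exp (-B)), ← Finset.mul_sum, mul_left_comm, hcard]
      _ ≤ _ := by
          apply mul_le_mul_of_nonneg_left _ (by positivity)
          exact Finset.sum_le_sum fun σ _ => Real.exp_le_exp.2 (abs_le.1 (hX σ)).1
  · rw [← Real.log_exp B]
    apply Real.log_le_log (P06_Z_pos eig U c)
    calc _ ≤ (1 / 2 : ℝ) ^ N * ∑ _σ : Fin N → Bool, Real.exp B := by
          apply mul_le_mul_of_nonneg_left _ (by positivity)
          exact Finset.sum_le_sum fun σ _ => Real.exp_le_exp.2 (abs_le.1 (hX σ)).2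
      _ = Real.exp B := by
          rw [← mul_one (Real.exp B), ← Finset.mul_sum, mul_left_comm, hcard]

theorem P06_measurable {N : ℕ} (eig : Fin N → ℝ) (c : Fin N → ℝ) :
    Measurable fun U : Fin N → Fin N → ℝ => pressureFieldN eig (Matrix.of U) c := by
  unfold pressureFieldN
  apply Measurable.const_mul
  apply Real.measurable_log.comp
  apply Measurable.const_mul
  refine Finset.measurable_sum _ fun σ _ => ?_
  apply Real.measurable_exp.comp
  apply Measurable.add
  · apply Measurable.const_mul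
    refine Finset.measurable_sum _ fun i _ => ?_
    apply Measurable.const_mul
    apply Measurable.pow_const
    simp only [Matrix.mulVec, dotProduct, Matrix.of_apply]
    refine Finset.measurable_sum _ fun j _ => ?_
    apply Measurable.mul_const
    exact (measurable_pi_apply j).comp (measurable_pi_apply i)
  · exact measurable_const

/-- the pressure is integrable -/
theorem P06_integrable {N : ℕ} (eig : Fin N → ℝ) (c : Fin N → ℝ)
    {Ω : Type} [MeasurableSpace Ω] (P : Measure Ω) [IsProbabilityMeasure P]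
    (U : Ω → (Fin N → Fin N → ℝ)) (hmeas : Measurable U)
    (horth : ∀ᵐ ω ∂P, Matrix.of (U ω) ∈ Matrix.orthogonalGroup (Fin N) ℝ) :
    Integrable (fun ω => pressureFieldN eig (Matrix.of (U ω)) c) P := by
  refine Integrable.of_bound (((P06_measurable eig c).comp hmeas).aestronglyMeasurable)
    ((1 / (N : ℝ)) * ((∑ i, |eig i|) * N + ∑ r, |c r|)) ?_
  filter_upwards [horth] with ω hω
  rw [Real.norm_eq_abs]
  exact P06_bound eig hω c

end Crest.Agent.RI
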