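import Crest.Agent.RI.TeleD
import Crest.Agent.RI.FLZero
import Crest.Agent.RI.LBLinB
import Crest.Agent.RI.LBLinC
import Crest.Agent.RI.IDefs
import Crest.Agent.RI.P06a

/-!
# Row 164, Part 9: upper bound of the averaged functional, bound of the pressure
-/

set_option autoImplicit false

namespace Crest.Agent.RI

open MeasureTheory ProbabilityTheory
open Crest.ProbabilityR.InvariantGlass

variable {J : ℕ}

/-- PROOF: `FL_pert`, `FL_zero_le`; integral over the cube. -/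
theorem Fhat_le (D : Blk) (γ c m : Fin J → ℝ) {K₀ : ℝ} (hK : 0 < K₀) {n k : ℕ} (hn : 0 < n)
    (hk : 0 < k) : ∃ C : ℝ, 0 ≤ C ∧ ∀ s : ℝ, 0 < s → 3 * s * (1 + k) ≤ 1 → ∀ N : ℕ, 0 < N →
    ∀ (κ : Fin N → Fin D.K) (lab : Fin N → Fin J), Fhat D γ c m K₀ n k s κ lab ≤ C * N := by
  set C : ℝ := ((∑ l, |D.d l|) + ∑ j, |c j|) + ((D.K : ℝ) + J + k * D.K) with hC
  have hC0 : 0 ≤ C := by
    have h1 : 0 ≤ ∑ l, |D.d l| := Finset.sum_nonneg fun _ _ => abs_nonneg _
    have h2 : 0 ≤ ∑ j, |c j| := Finset.sum_nonneg fun _ _ => abs_nonneg _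
    positivity
  refine ⟨C, hC0, ?_⟩
  intro s hs hs1 N hN κ lab
  have hN' : (0 : ℝ) < N := by exact_mod_cast hN
  have hP := PH_haar N
  have hs3 : 3 * s ≤ 1 := by
    have : 0 ≤ 3 * s * (k : ℝ) := by positivity
    nlinarith
  have key : ∀ i : ℕ, ∀ x, InC x → FL (PH N) D ⟨γ, c, m, K₀ * 2 ^ (i + 1)⟩ k s x κ lab ≤ C * N := by
    intro i x hx
    have h1 := FL_pert hk hN hP D (⟨γ, c, m, K₀ * 2 ^ (i + 1)⟩ : LBd J) hs.le hs3 hx.xok κ lab
    have h2 := FL_zero_le hk hN hP D (⟨γ, c, m, K₀ * 2 ^ (i + 1)⟩ : LBd J)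
      (by show 0 ≤ K₀ * 2 ^ (i + 1); positivity) s κ lab
    have h3 := (abs_le.1 h1).2
    have h4 : 3 * s * N * ((D.K : ℝ) + J + k * D.K) ≤ 1 * N * ((D.K : ℝ) + J + k * D.K) := by
      have : 0 ≤ (N : ℝ) * ((D.K : ℝ) + J + k * D.K) := by positivity
      nlinarith
    have h5 : C * N = ((∑ l, |D.d l|) + ∑ j, |c j|) * N + 1 * N * ((D.K : ℝ) + J + k * D.K) := by
      rw [hC]; ring
    rw [h5]
    have h6 : FL (PH N) D ⟨γ, c, m, K₀ * 2 ^ (i + 1)⟩ k s 0 κ lab ≤
      ((∑ l, |D.d l|) + ∑ j, |c j|) * N := h2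
    linarith
  have hint : ∀ i : ℕ, ∫ x, FL (PH N) D ⟨γ, c, m, K₀ * 2 ^ (i + 1)⟩ k s x κ lab ∂(cubeM k D.K J) ≤
      C * N := by
    intro i
    haveI := cubeM_prob k D.K J
    by_cases hi : Integrable (fun x => FL (PH N) D ⟨γ, c, m, K₀ * 2 ^ (i + 1)⟩ k s x κ lab)
        (cubeM k D.K J)
    · calc ∫ x, FL (PH N) D ⟨γ, c, m, K₀ * 2 ^ (i + 1)⟩ k s x κ lab ∂(cubeM k D.K J)
          ≤ ∫ _x, C * N ∂(cubeM k D.K J) := by
            refine integral_mono_ae hi (integrable_const _) ?_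
            filter_upwards [cubeM_ae k D.K J] with x hx
            exact key i x hx
        _ = C * N := by simp
    · rw [integral_undef hi]
      positivity
  unfold Fhat
  have hn' : (0 : ℝ) < n := by exact_mod_cast hn
  calc (1 / (n : ℝ)) * ∑ i ∈ Finset.range n,
        ∫ x, FL (PH N) D ⟨γ, c, m, K₀ * 2 ^ (i + 1)⟩ k s x κ lab ∂(cubeM k D.K J)
      ≤ (1 / (n : ℝ)) * ∑ _i ∈ Finset.range n, C * N := by
        refine mul_le_mul_of_nonneg_left (Finset.sum_le_sum fun i _ => hint i) (by positivity)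
    _ = C * N := by
        rw [Finset.sum_const, Finset.card_range, nsmul_eq_mul]
        field_simp

/-- bound of the pressure for orthogonal `U`, uniform in the size -/
theorem LBMa_pressure_bound (D : Blk) (c : Fin J → ℝ) {N : ℕ} (hN : 0 < N)
    {U : Matrix (Fin N) (Fin N) ℝ} (hU : U ∈ Matrix.orthogonalGroup (Fin N) ℝ)
    (κ : Fin N → Fin D.K) (lab : Fin N → Fin J) :
    |pressureFieldN (fun a => D.d (κ a)) U (fun r => c (lab r))| ≤
      (∑ l, |D.d l|) + ∑ j, |c j| := by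
  have hN' : (0 : ℝ) < N := by exact_mod_cast hN
  set B : ℝ := ((∑ l, |D.d l|) + ∑ j, |c j|) * N with hB
  have hd0 : 0 ≤ ∑ l, |D.d l| := Finset.sum_nonneg fun _ _ => abs_nonneg _
  have hX : ∀ σ : Fin N → Bool, |(1 / 2) * (∑ i : Fin N, D.d (κ i) * (U.mulVec (spinVec σ) i) ^ 2) +
        ∑ r : Fin N, c (lab r) * spinVec σ r| ≤ B := by
    intro σ
    have h1 : |∑ i : Fin N, D.d (κ i) * (U.mulVec (spinVec σ) i) ^ 2| ≤ (∑ l, |D.d l|) * N := by
      calc |∑ i : Fin N, D.d (κ i) * (U.mulVec (spinVec σ) i) ^ 2|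
          ≤ ∑ i : Fin N, |D.d (κ i) * (U.mulVec (spinVec σ) i) ^ 2| :=
            Finset.abs_sum_le_sum_abs _ _
        _ ≤ ∑ i : Fin N, (∑ l, |D.d l|) * (U.mulVec (spinVec σ) i) ^ 2 := by
            refine Finset.sum_le_sum fun i _ => ?_
            rw [abs_mul, abs_of_nonneg (sq_nonneg (U.mulVec (spinVec σ) i))]
            exact mul_le_mul_of_nonneg_right
              (Finset.single_le_sum (f := fun l => |D.d l|) (fun _ _ => abs_nonneg _)
                (Finset.mem_univ (κ i))) (sq_nonneg _)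
        _ = (∑ l, |D.d l|) * N := by rw [← Finset.mul_sum, P06_norm_sq hU σ]
    have h2 : |∑ r : Fin N, c (lab r) * spinVec σ r| ≤ (∑ j, |c j|) * N := by
      calc |∑ r : Fin N, c (lab r) * spinVec σ r| ≤ ∑ r : Fin N, |c (lab r) * spinVec σ r| :=
            Finset.abs_sum_le_sum_abs _ _
        _ ≤ ∑ _r : Fin N, ∑ j, |c j| := by
            refine Finset.sum_le_sum fun r _ => ?_
            rw [abs_mul, P06_spin_abs, mul_one]
            exact Finset.single_le_sum (f := fun j => |c j|) (fun _ _ => abs_nonneg _)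
              (Finset.mem_univ (lab r))
        _ = (∑ j, |c j|) * N := by
            rw [Finset.sum_const, Finset.card_univ, Fintype.card_fin, nsmul_eq_mul, mul_comm]
    have h3 : |(1 / 2 : ℝ) * (∑ i : Fin N, D.d (κ i) * (U.mulVec (spinVec σ) i) ^ 2)| ≤
        (∑ l, |D.d l|) * N := by
      rw [abs_mul, abs_of_nonneg (by norm_num : (0:ℝ) ≤ 1 / 2)]
      have := abs_nonneg (∑ i : Fin N, D.d (κ i) * (U.mulVec (spinVec σ) i) ^ 2)
      linarith
    calc _ ≤ _ := abs_add_le _ _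
      _ ≤ (∑ l, |D.d l|) * N + (∑ j, |c j|) * N := add_le_add h3 h2
      _ = B := by rw [hB]; ring
  have hcard : (1 / 2 : ℝ) ^ N * ∑ _σ : Fin N → Bool, (1 : ℝ) = 1 := by
    rw [Finset.sum_const, Finset.card_univ]
    simp only [Fintype.card_pi, Fintype.card_bool, Finset.prod_const, Finset.card_univ,
      Fintype.card_fin, nsmul_eq_mul, mul_one]
    push_cast
    rw [← mul_pow]
    norm_num
  have hmain : |Real.log ((1 / 2) ^ N * ∑ σ : Fin N → Bool,
      Real.exp ((1 / 2) * (∑ i : Fin N, D.d (κ i) * (U.mulVec (spinVec σ) i) ^ 2) +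
        ∑ r : Fin N, c (lab r) * spinVec σ r))| ≤ B := by
    rw [abs_le]
    constructor
    · rw [← Real.log_exp (-B)]
      apply Real.log_le_log (Real.exp_pos _)
      calc Real.exp (-B) = (1 / 2 : ℝ) ^ N * ∑ _σ : Fin N → Bool, Real.exp (-B) := by
            rw [← mul_one (Real.exp (-B)), ← Finset.mul_sum, mul_left_comm, hcard]
        _ ≤ _ := by
            apply mul_le_mul_of_nonneg_left _ (by positivity)
            exact Finset.sum_le_sum fun σ _ => Real.exp_le_exp.2 (abs_le.1 (hX σ)).1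
    · rw [← Real.log_exp B]
      apply Real.log_le_log (P06_Z_pos _ U _)
      calc _ ≤ (1 / 2 : ℝ) ^ N * ∑ _σ : Fin N → Bool, Real.exp B := by
            apply mul_le_mul_of_nonneg_left _ (by positivity)
            exact Finset.sum_le_sum fun σ _ => Real.exp_le_exp.2 (abs_le.1 (hX σ)).2
        _ = Real.exp B := by
            rw [← mul_one (Real.exp B), ← Finset.mul_sum, mul_left_comm, hcard]
  unfold pressureFieldN
  rw [abs_mul, abs_of_nonneg (by positivity : (0:ℝ) ≤ 1 / (N : ℝ))]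
  calc _ ≤ (1 / (N : ℝ)) * B := mul_le_mul_of_nonneg_left hmain (by positivity)
    _ = (∑ l, |D.d l|) + ∑ j, |c j| := by
      rw [hB]; field_simp

/-- the pressure is bounded -/
theorem pressure_abs (D : Blk) (c : Fin J → ℝ) : ∃ C : ℝ, 0 ≤ C ∧ ∀ N : ℕ, 0 < N →
    ∀ P₀ : Measure (Fin N → Fin N → ℝ), IsHaar P₀ → ∀ (κ : Fin N → Fin D.K) (lab : Fin N → Fin J),
    |∫ U, pressureFieldN (fun a => D.d (κ a)) (Matrix.of U) (fun r => c (lab r)) ∂P₀| ≤ C := by
  refine ⟨(∑ l, |D.d l|) + ∑ j, |c j|, add_nonneg (Finset.sum_nonneg fun _ _ => abs_nonneg _)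
    (Finset.sum_nonneg fun _ _ => abs_nonneg _), ?_⟩
  intro N hN P₀ hP₀ κ lab
  haveI := hP₀.prob
  have h := norm_integral_le_of_norm_le_const (μ := P₀)
    (f := fun U => pressureFieldN (fun a => D.d (κ a)) (Matrix.of U) (fun r => c (lab r)))
    (C := (∑ l, |D.d l|) + ∑ j, |c j|) (by
      filter_upwards [hP₀.orth] with U hU
      rw [Real.norm_eq_abs]
      exact LBMa_pressure_bound D c hN hU κ lab)
  rw [Real.norm_eq_abs] at h
  simpa using h

end Crest.Agent.RI
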