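import Crest.Agent.RI.TeleD
import Crest.Agent.RI.FLZero
import Crest.Agent.RI.LBLinB
import Crest.Agent.RI.LBLinC
import Crest.Agent.RI.CountC
import Crest.Agent.RI.IIDp
import Crest.Agent.RI.IDefs

/-!
# Row 164, Part 9: comparison of typical labels with given labels
-/

set_option autoImplicit false

namespace Crest.Agent.RI

open MeasureTheory ProbabilityTheory
open Crest.ProbabilityR.InvariantGlass

variable {J : ℕ}

theorem LBMb_block (D : Blk) {N : ℕ} (hN : 0 < N) {κ : Fin N → Fin D.K} {η : ℝ}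
    (h : D.Close η κ) (hη : η ≤ 1 / ∑ l, 2 / D.α l) (b : Fin N) :
    (N : ℝ) ≤ (∑ l, 2 / D.α l) * ((Finset.univ.filter (fun a => κ a = κ b)).card : ℝ) := by
  have hN' : (0 : ℝ) < N := by exact_mod_cast hN
  have hα := D.pos (κ b)
  have h3 : 2 / D.α (κ b) ≤ ∑ l, 2 / D.α l :=
    Finset.single_le_sum (f := fun l => 2 / D.α l) (fun l _ => by have := D.pos l; positivity)
      (Finset.mem_univ _)
  have h0 : 0 < 2 / D.α (κ b) := by positivity
  have h4 : 1 / ∑ l, 2 / D.α l ≤ 1 / (2 / D.α (κ b)) := one_div_le_one_div_of_le h0 h3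
  have h5 : 1 / (2 / D.α (κ b)) = D.α (κ b) / 2 := by field_simp
  have h6 := (abs_le.mp (h (κ b))).1
  set c : ℝ := ((Finset.univ.filter (fun a => κ a = κ b)).card : ℝ) with hc
  have hc0 : 0 ≤ c := by positivity
  have h7 : D.α (κ b) / 2 ≤ c / N := by linarith
  rw [le_div_iff₀ hN'] at h7
  calc (N : ℝ) = (2 / D.α (κ b)) * (D.α (κ b) / 2 * N) := by field_simp
    _ ≤ (2 / D.α (κ b)) * c := mul_le_mul_of_nonneg_left h7 h0.le
    _ ≤ _ := mul_le_mul_of_nonneg_right h3 hc0

/-- close counts: few mismatches -/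
theorem LBMb_counts {n N : ℕ} (hN : 0 < N) {α : Fin n → ℝ} {κ κ' : Fin N → Fin n} {η : ℝ}
    (h : ∀ l, |((Finset.univ.filter (fun a => κ a = l)).card : ℝ) / (N : ℝ) - α l| ≤ η)
    (h' : ∀ l, |((Finset.univ.filter (fun a => κ' a = l)).card : ℝ) / (N : ℝ) - α l| ≤ η) :
    ∑ l, |((Finset.univ.filter (fun a => κ a = l)).card : ℝ) -
        ((Finset.univ.filter (fun a => κ' a = l)).card : ℝ)| ≤ 2 * η * n * N := by
  have hN' : (0 : ℝ) < N := by exact_mod_cast hN
  have e : ∀ l, |((Finset.univ.filter (fun a => κ a = l)).card : ℝ) -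
        ((Finset.univ.filter (fun a => κ' a = l)).card : ℝ)| ≤ 2 * η * N := by
    intro l
    set c : ℝ := ((Finset.univ.filter (fun a => κ a = l)).card : ℝ) with hc
    set c' : ℝ := ((Finset.univ.filter (fun a => κ' a = l)).card : ℝ) with hc'
    have h1 : |c / N - c' / N| ≤ 2 * η := by
      have e1 : c / N - c' / N = (c / N - α l) - (c' / N - α l) := by ring
      rw [e1]
      refine (abs_sub _ _).trans ?_
      linarith [h l, h' l]
    have h2 : c - c' = (c / N - c' / N) * N := by field_simp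
    rw [h2, abs_mul, abs_of_pos hN']
    exact mul_le_mul_of_nonneg_right h1 hN'.le
  refine (Finset.sum_le_sum fun l _ => e l).trans (le_of_eq ?_)
  simp only [Finset.sum_const, Finset.card_univ, Fintype.card_fin, nsmul_eq_mul]
  ring

/-- COMPARISON OF TYPICAL LABELS WITH GIVEN LABELS.  PROOF: for every `i`, `x`: `FL(κ,lab,x) ≤ FL(κ,lab,0) + ε/4 N` (`FL_pert`, `s` small),
`= FL(κ∘π, lab∘π', 0)` (`FL_permR`, `FL_permC`, `exists_perm_close`), `≤ FL(κ*, lab*, 0) + C 4 η (K + J) N` (`FL_count`; `HaarO.unique` not needed), `FL_le_pressure`. -/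
theorem Fhat_compare (D : Blk) (γ c m : Fin J → ℝ) (hγ : ∀ j, 0 < γ j) (hs : ∑ j, γ j = 1)
    (hm : ∀ j, |m j| < 1) {K₀ : ℝ} (hK : 0 < K₀) {n k : ℕ} (hn : 0 < n) (hk : 0 < k)
    {ε : ℝ} (hε : 0 < ε) : ∃ s₀ : ℝ, 0 < s₀ ∧ ∀ s : ℝ, 0 < s → s ≤ s₀ → ∃ η : ℝ, 0 < η ∧
    ∀ N : ℕ, 0 < N → ∀ P₀ : Measure (Fin N → Fin N → ℝ), IsHaar P₀ →
    ∀ (κ κs : Fin N → Fin D.K) (lab labs : Fin N → Fin J), D.Close η κ → D.Close η κs →
      LClose γ η lab → LClose γ η labs →
      Fhat D γ c m K₀ n k s κ lab ≤ N * (∫ U, pressureFieldN (fun a => D.d (κs a)) (Matrix.of U)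
        (fun r => c (labs r)) ∂P₀) + ε * N := by
  set Km : ℝ := K₀ * 2 ^ n with hKm
  have hKm0 : 0 ≤ Km := by positivity
  set c₀ : ℝ := ∑ j, |c j| with hc₀
  have hc₀0 : 0 ≤ c₀ := Finset.sum_nonneg fun j _ => abs_nonneg _
  set Ty : ℝ := ∑ l, 2 / D.α l with hTy
  have hK1 : 0 < D.K := by
    rcases Nat.eq_zero_or_pos D.K with h | h
    · exfalso
      have h1 := D.sum
      have : IsEmpty (Fin D.K) := by rw [h]; infer_instance
      rw [Finset.univ_eq_empty, Finset.sum_empty] at h1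
      norm_num at h1
    · exact h
  have hTy0 : 0 < Ty := by
    have : Nonempty (Fin D.K) := ⟨⟨0, hK1⟩⟩
    exact Finset.sum_pos (fun l _ => by have := D.pos l; positivity) Finset.univ_nonempty
  obtain ⟨C₃, hC₃, hcount⟩ := FL_count D J Km c₀ Ty hKm0 hc₀0 hTy0.le
  set M : ℝ := (D.K : ℝ) + J + k * D.K with hM
  have hM0 : 0 ≤ M := by positivity
  refine ⟨min (1 / 3) (ε / (6 * M + 1)), lt_min (by norm_num) (by positivity), fun s hs0 hs1 => ?_⟩
  have h3s : 3 * s ≤ 1 := by have := hs1.trans (min_le_left _ _); linarith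
  have hsM : 3 * s * M ≤ ε / 2 := by
    have h1 := hs1.trans (min_le_right _ _)
    rw [le_div_iff₀ (by positivity)] at h1
    nlinarith
  set η : ℝ := min (1 / Ty) (ε / (4 * C₃ * ((D.K : ℝ) + J) + 1)) with hηdef
  have hη0 : 0 < η := lt_min (by positivity) (by positivity)
  have hηC : 2 * C₃ * η * ((D.K : ℝ) + J) ≤ ε / 2 := by
    have h1 : η ≤ ε / (4 * C₃ * ((D.K : ℝ) + J) + 1) := min_le_right _ _
    rw [le_div_iff₀ (by positivity)] at h1
    nlinarith
  refine ⟨η, hη0, fun N hN P₀ hP₀ κ κs lab labs hκ hκs hlab hlabs => ?_⟩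
  have hNr : (0 : ℝ) < N := by exact_mod_cast hN
  set X : ℝ := ∫ U, pressureFieldN (fun a => D.d (κs a)) (Matrix.of U) (fun r => c (labs r)) ∂P₀
    with hX
  obtain ⟨π, hπ⟩ := exists_perm_close κs κ
  obtain ⟨π', hπ'⟩ := exists_perm_close labs lab
  have hπ2 := hπ.trans (LBMb_counts hN hκs hκ)
  have hπ2' := hπ'.trans (LBMb_counts hN hlabs hlab)
  have hP := PH_haar N
  have hprob := cubeM_prob k D.K J
  -- pointwise bound
  have key : ∀ i ∈ Finset.range n, ∀ x : XI k D.K J → ℝ, XOK x →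
      FL (PH N) D ⟨γ, c, m, K₀ * 2 ^ (i + 1)⟩ k s x κ lab ≤ N * X + ε * N := by
    intro i hi x hx
    set L : LBd J := ⟨γ, c, m, K₀ * 2 ^ (i + 1)⟩ with hL
    have hkap : 0 ≤ L.kap := by show 0 ≤ K₀ * 2 ^ (i + 1); positivity
    have hLOK : LOK L Km c₀ := by
      refine ⟨hkap, ?_, fun j => ?_, fun j => ?_⟩
      · show K₀ * 2 ^ (i + 1) ≤ K₀ * 2 ^ n
        refine mul_le_mul_of_nonneg_left ?_ hK.le
        exact pow_le_pow_right₀ (by norm_num) (Finset.mem_range.mp hi)
      · show |γ j * m j| ≤ 1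
        have h1 : γ j ≤ 1 := by
          rw [← hs]
          exact Finset.single_le_sum (f := γ) (fun i _ => (hγ i).le) (Finset.mem_univ j)
        rw [abs_mul, abs_of_pos (hγ j)]
        calc γ j * |m j| ≤ 1 * 1 := mul_le_mul h1 (hm j).le (abs_nonneg _) (by norm_num)
          _ = 1 := one_mul 1
      · exact Finset.single_le_sum (f := fun j => |c j|) (fun i _ => abs_nonneg _)
          (Finset.mem_univ j)
    have h1 := (abs_le.mp (FL_pert hk hN hP D L hs0.le h3s hx κ lab)).2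
    have h2 := hcount k hk N hN (PH N) hP L hLOK s κ (fun a => κs (π a)) lab
      (fun r => labs (π' r)) (fun b => LBMb_block D hN hκ (min_le_left _ _) b)
    rw [FL_permR hP, FL_permC hP] at h2
    have h3 := FL_le_pressure hk hN hP₀ hP D L hkap s κs labs
    have e1 : ((Finset.univ.filter (fun a => κ a ≠ κs (π a))).card : ℝ) =
        ((Finset.univ.filter (fun a => κs (π a) ≠ κ a)).card : ℝ) := by
      congr 2
      ext a
      simp only [Finset.mem_filter, Finset.mem_univ, true_and]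
      exact ne_comm
    have e2 : ((Finset.univ.filter (fun a => lab a ≠ labs (π' a))).card : ℝ) =
        ((Finset.univ.filter (fun a => labs (π' a) ≠ lab a)).card : ℝ) := by
      congr 2
      ext a
      simp only [Finset.mem_filter, Finset.mem_univ, true_and]
      exact ne_comm
    rw [e1, e2] at h2
    have h4 : C₃ * (((Finset.univ.filter (fun a => κs (π a) ≠ κ a)).card : ℝ) +
        ((Finset.univ.filter (fun a => labs (π' a) ≠ lab a)).card : ℝ)) ≤ ε / 2 * N := by
      calc C₃ * (((Finset.univ.filter (fun a => κs (π a) ≠ κ a)).card : ℝ) +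
          ((Finset.univ.filter (fun a => labs (π' a) ≠ lab a)).card : ℝ)) ≤
          C₃ * (2 * η * D.K * N + 2 * η * J * N) :=
            mul_le_mul_of_nonneg_left (add_le_add hπ2 hπ2') hC₃
        _ = (2 * C₃ * η * ((D.K : ℝ) + J)) * N := by ring
        _ ≤ ε / 2 * N := mul_le_mul_of_nonneg_right hηC hNr.le
    have h5 : 3 * s * N * M ≤ ε / 2 * N := by
      calc 3 * s * N * M = (3 * s * M) * N := by ring
        _ ≤ ε / 2 * N := mul_le_mul_of_nonneg_right hsM hNr.le
    have h6 : FL (PH N) D L k s 0 κs labs ≤ N * X := h3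
    have h7 : FL (PH N) D L k s x κ lab - FL (PH N) D L k s 0 κ lab ≤ 3 * s * N * M := h1
    linarith
  -- integrals
  have hint : ∀ i ∈ Finset.range n,
      ∫ x, FL (PH N) D ⟨γ, c, m, K₀ * 2 ^ (i + 1)⟩ k s x κ lab ∂(cubeM k D.K J) ≤
        N * X + ε * N := by
    intro i hi
    set L : LBd J := ⟨γ, c, m, K₀ * 2 ^ (i + 1)⟩ with hL
    have hI : Integrable (fun x => FL (PH N) D L k s x κ lab) (cubeM k D.K J) := by
      refine cube_integrable (measurable_FLx hP D L s κ lab)
        (B := |FL (PH N) D L k s 0 κ lab| + 3 * s * N * M) fun x hx => ?_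
      have h1 := FL_pert hk hN hP D L hs0.le h3s hx.xok κ lab
      have h2 : |FL (PH N) D L k s x κ lab| ≤ |FL (PH N) D L k s x κ lab -
        FL (PH N) D L k s 0 κ lab| + |FL (PH N) D L k s 0 κ lab| := by
        have := abs_add_le (FL (PH N) D L k s x κ lab - FL (PH N) D L k s 0 κ lab)
          (FL (PH N) D L k s 0 κ lab)
        rwa [sub_add_cancel] at this
      linarith
    calc ∫ x, FL (PH N) D L k s x κ lab ∂(cubeM k D.K J) ≤
        ∫ _x, (N * X + ε * N) ∂(cubeM k D.K J) := by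
          refine integral_mono_ae hI (integrable_const _) ?_
          filter_upwards [cubeM_ae k D.K J] with x hx
          exact key i hi x hx.xok
      _ = N * X + ε * N := by
          rw [integral_const, probReal_univ, one_smul]
  unfold Fhat
  have hn' : (0 : ℝ) < n := by exact_mod_cast hn
  calc (1 / (n : ℝ)) * ∑ i ∈ Finset.range n,
      ∫ x, FL (PH N) D ⟨γ, c, m, K₀ * 2 ^ (i + 1)⟩ k s x κ lab ∂(cubeM k D.K J) ≤
      (1 / (n : ℝ)) * ∑ _i ∈ Finset.range n, (N * X + ε * N) :=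
        mul_le_mul_of_nonneg_left (Finset.sum_le_sum hint) (by positivity)
    _ = N * X + ε * N := by
        rw [Finset.sum_const, Finset.card_range, nsmul_eq_mul]
        field_simp

end Crest.Agent.RI
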