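import Crest.Agent.RI.Tele
import Crest.Agent.RI.LBMa
import Crest.Agent.RI.LBMb

/-!
# Row 164, Part 9: the lower bound
-/

set_option autoImplicit false

namespace Crest.Agent.RI

open MeasureTheory ProbabilityTheory
open Crest.ProbabilityR.InvariantGlass

variable {J : ℕ}

/-- average of a bound over iid labels -/
theorem LBMain_avg {A B : Type} [Fintype A] [Fintype B] {α : A → ℝ} {γ : B → ℝ}
    (hα : ∀ l, 0 ≤ α l) (hγ : ∀ l, 0 ≤ γ l) (h1 : ∑ l, α l = 1) (h2 : ∑ l, γ l = 1) {N : ℕ}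
    (F : (Fin N → A) → (Fin N → B) → ℝ) (g : (Fin N → A) → ℝ) (g' : (Fin N → B) → ℝ) {a b : ℝ}
    (hF : ∀ κ lab, F κ lab ≤ a + b * (g κ + g' lab)) :
    ∑ κ : Fin N → A, Wt α κ * ∑ lab : Fin N → B, Wt γ lab * F κ lab ≤
      a + b * ((∑ κ : Fin N → A, Wt α κ * g κ) + ∑ lab : Fin N → B, Wt γ lab * g' lab) := by
  have hs1 := Wt_sum h1 N
  have hs2 := Wt_sum h2 N
  calc ∑ κ : Fin N → A, Wt α κ * ∑ lab : Fin N → B, Wt γ lab * F κ lab
      ≤ ∑ κ : Fin N → A, Wt α κ * ∑ lab : Fin N → B, Wt γ lab * (a + b * (g κ + g' lab)) := by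
        refine Finset.sum_le_sum fun κ _ => mul_le_mul_of_nonneg_left ?_ (Wt_nonneg hα κ)
        exact Finset.sum_le_sum fun lab _ =>
          mul_le_mul_of_nonneg_left (hF κ lab) (Wt_nonneg hγ lab)
    _ = ∑ κ : Fin N → A, Wt α κ * ((a + b * g κ) + b * ∑ lab : Fin N → B, Wt γ lab * g' lab) := by
        refine Finset.sum_congr rfl fun κ _ => ?_
        congr 1
        have e : ∀ lab : Fin N → B, Wt γ lab * (a + b * (g κ + g' lab)) =
            Wt γ lab * (a + b * g κ) + b * (Wt γ lab * g' lab) := fun lab => by ring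
        rw [Finset.sum_congr rfl fun lab _ => e lab, Finset.sum_add_distrib, ← Finset.sum_mul,
          hs2, one_mul, ← Finset.mul_sum]
    _ = a + b * ((∑ κ : Fin N → A, Wt α κ * g κ) + ∑ lab : Fin N → B, Wt γ lab * g' lab) := by
        set T := ∑ lab : Fin N → B, Wt γ lab * g' lab with hT
        have e : ∀ κ : Fin N → A, Wt α κ * ((a + b * g κ) + b * T) =
            Wt α κ * (a + b * T) + b * (Wt α κ * g κ) := fun κ => by ring
        rw [Finset.sum_congr rfl fun κ _ => e κ, Finset.sum_add_distrib, ← Finset.sum_mul,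
          hs1, one_mul, ← Finset.mul_sum]
        ring

/-- LOWER BOUND.  PROOF: `Fbar_lower` (with `ε/4`), `Fhat_compare` (`ε/4`), `Fhat_le` and `Wt_atyp` for atypical labels, `pressure_abs`. -/
theorem LBmain (D : Blk) : LBmainStmt D := by
  classical
  intro J γ c m hγ hs hm V ε hε hV
  have hε4 : 0 < ε / 4 := by positivity
  obtain ⟨K₀, hK, n, hn, k₀, h1⟩ := Fbar_lower D γ c m hγ hs hm hε4 hV
  set k := max k₀ 1 with hk
  have hk0 : 0 < k := lt_of_lt_of_le one_pos (le_max_right _ _)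
  obtain ⟨s₁, hs₁, h2⟩ := h1 k (le_max_left _ _) hk0
  obtain ⟨s₂, hs₂, h3⟩ := Fhat_compare D γ c m hγ hs hm hK hn hk0 hε4
  set s₃ : ℝ := 1 / (3 * (1 + (k : ℝ))) with hs₃
  have hk' : (0 : ℝ) < 3 * (1 + (k : ℝ)) := by positivity
  have hs₃0 : 0 < s₃ := by positivity
  set s := min (min s₁ s₂) s₃ with hsdef
  have hs0 : 0 < s := lt_min (lt_min hs₁ hs₂) hs₃0
  have hsa : s ≤ s₁ := (min_le_left _ _).trans (min_le_left _ _)
  have hsb : s ≤ s₂ := (min_le_left _ _).trans (min_le_right _ _)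
  have hsc : 3 * s * (1 + k) ≤ 1 := by
    have h := (min_le_right (min s₁ s₂) s₃)
    rw [← hsdef, hs₃, le_div_iff₀ hk'] at h
    linarith
  obtain ⟨N₁, hN₁⟩ := h2 s hs0 hsa
  obtain ⟨η, hη, h4⟩ := h3 s hs0 hsb
  obtain ⟨C₁, hC₁, h5⟩ := Fhat_le D γ c m hK hn hk0
  obtain ⟨C₂, hC₂, h6⟩ := pressure_abs D c
  set Q : ℝ := (C₁ + C₂) * (((D.K : ℝ) + J) / η ^ 2) with hQ
  have hQ0 : 0 ≤ Q := by positivity
  obtain ⟨N₂, hN₂⟩ := exists_nat_gt (Q / (ε / 4))
  refine ⟨max N₁ (max N₂ 1), η, hη, fun N hN κs hκs labs hlabs P₀ hP₀ => ?_⟩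
  have hNa : N₁ ≤ N := (le_max_left _ _).trans hN
  have hNb : N₂ ≤ N := ((le_max_left _ _).trans (le_max_right _ _)).trans hN
  have hN0 : 0 < N := lt_of_lt_of_le one_pos (((le_max_right _ _).trans (le_max_right _ _)).trans hN)
  have hNr : (0 : ℝ) < N := by exact_mod_cast hN0
  set X : ℝ := ∫ U, pressureFieldN (fun a => D.d (κs a)) (Matrix.of U) (fun r => c (labs r)) ∂P₀
    with hX
  have hX1 : |X| ≤ C₂ := h6 N hN0 P₀ hP₀ κs labs
  set g : (Fin N → Fin D.K) → ℝ := fun κ => if D.Close η κ then 0 else 1 with hg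
  set g' : (Fin N → Fin J) → ℝ := fun lab => if LClose γ η lab then 0 else 1 with hg'
  have hg0 : ∀ κ, 0 ≤ g κ := fun κ => by simp only [hg]; split_ifs <;> norm_num
  have hg1 : ∀ κ, g κ ≤ 1 := fun κ => by simp only [hg]; split_ifs <;> norm_num
  have hg0' : ∀ κ, 0 ≤ g' κ := fun κ => by simp only [hg']; split_ifs <;> norm_num
  have hg1' : ∀ κ, g' κ ≤ 1 := fun κ => by simp only [hg']; split_ifs <;> norm_num
  have hF : ∀ (κ : Fin N → Fin D.K) (lab : Fin N → Fin J), Fhat D γ c m K₀ n k s κ lab ≤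
      (N * X + ε / 4 * N) + ((C₁ + C₂) * N) * (g κ + g' lab) := by
    intro κ lab
    by_cases hc : D.Close η κ ∧ LClose γ η lab
    · have e1 : g κ = 0 := if_pos hc.1
      have e2 : g' lab = 0 := if_pos hc.2
      rw [e1, e2]
      have := h4 N hN0 P₀ hP₀ κ κs lab labs hc.1 hκs hc.2 hlabs
      rw [← hX] at this
      linarith
    · have e1 : 1 ≤ g κ + g' lab := by
        rcases not_and_or.mp hc with h | h
        · have : g κ = 1 := if_neg h
          linarith [hg0' lab]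
        · have : g' lab = 1 := if_neg h
          linarith [hg0 κ]
      have h7 := h5 s hs0 hsc N hN0 κ lab
      have h8 : - C₂ ≤ X := (abs_le.mp hX1).1
      have h9 : (C₁ + C₂) * N * 1 ≤ ((C₁ + C₂) * N) * (g κ + g' lab) :=
        mul_le_mul_of_nonneg_left e1 (by positivity)
      have h10 : -C₂ * N ≤ N * X := by nlinarith
      have h11 : 0 ≤ ε / 4 * N := by positivity
      linarith
  have h12 := LBMain_avg (fun l => (D.pos l).le) (fun l => (hγ l).le) D.sum hs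
    (fun κ lab => Fhat D γ c m K₀ n k s κ lab) g g' hF
  have h13 := hN₁ N hNa
  have h14 : Fbar D γ c m K₀ n k s N = ∑ κ : Fin N → Fin D.K, Wt D.α κ *
      ∑ lab : Fin N → Fin J, Wt γ lab * Fhat D γ c m K₀ n k s κ lab := rfl
  rw [h14] at h13
  have h15 := Wt_atyp (fun l => (D.pos l).le) D.sum hη hN0 g hg0 hg1
    (fun κ h => if_pos h)
  have h16 := Wt_atyp (fun l => (hγ l).le) hs hη hN0 g' hg0' hg1'
    (fun κ h => if_pos h)
  rw [Fintype.card_fin] at h15 h16
  have h17 : ((C₁ + C₂) * N) * ((∑ κ : Fin N → Fin D.K, Wt D.α κ * g κ) +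
      ∑ lab : Fin N → Fin J, Wt γ lab * g' lab) ≤ Q := by
    calc ((C₁ + C₂) * N) * ((∑ κ : Fin N → Fin D.K, Wt D.α κ * g κ) +
      ∑ lab : Fin N → Fin J, Wt γ lab * g' lab) ≤
        ((C₁ + C₂) * N) * ((D.K : ℝ) / (N * η ^ 2) + (J : ℝ) / (N * η ^ 2)) :=
          mul_le_mul_of_nonneg_left (add_le_add h15 h16) (by positivity)
      _ = Q := by
          rw [hQ]
          field_simp
  have h18 : Q ≤ ε / 4 * N := by
    have : Q / (ε / 4) < N := hN₂.trans_le (by exact_mod_cast hNb)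
    rw [div_lt_iff₀ hε4] at this
    linarith
  have h19 : (∑ j, γ j * c j * m j + V - ε / 4) * N ≤ N * X + ε / 4 * N + ε / 4 * N := by
    linarith
  have h20 : (∑ j, γ j * c j * m j + V - ε / 4) * N ≤ (X + ε / 4 + ε / 4) * N := by
    linarith
  have h21 := le_of_mul_le_mul_right h20 hNr
  linarith

end Crest.Agent.RI
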