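import Crest.Agent.RI.ConcDoob
import Crest.Agent.RI.HaarON

/-!
# Row 164, Part 7 (H6): Doob on the subtype
-/

set_option autoImplicit false

namespace Crest.Agent.RI

open MeasureTheory ProbabilityTheory

variable {N K : ℕ}

open Classical in
/-- extension by `0` to non-orthogonal arrays -/
private noncomputable def l0aE (φ : ON N → ℝ) (O : Fin N → Fin N → ℝ) : ℝ :=
  if h : IsO O then φ ⟨O, h⟩ else 0

open Classical in
private theorem l0aE_val (φ : ON N → ℝ) (U : ON N) : l0aE φ U.1 = φ U := by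
  unfold l0aE
  have h : IsO U.1 := U.2
  rw [dif_pos h]

open Classical in
private theorem l0aE_meas2 {ψ : ON N → (Fin N → ℝ) → ℝ}
    (hψ : Measurable (fun x : ON N × (Fin N → ℝ) => ψ x.1 x.2)) :
    Measurable (fun x : (Fin N → Fin N → ℝ) × (Fin N → ℝ) => l0aE (fun U => ψ U x.2) x.1) := by
  have hs : MeasurableSet {x : (Fin N → Fin N → ℝ) × (Fin N → ℝ) | IsO x.1} :=
    measurable_fst measurableSet_isO
  have h1 : Measurable (fun y : {x : (Fin N → Fin N → ℝ) × (Fin N → ℝ) | IsO x.1} =>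
      ψ ⟨y.1.1, y.2⟩ y.1.2) :=
    hψ.comp (((measurable_fst.comp measurable_subtype_coe).subtype_mk).prodMk
      (measurable_snd.comp measurable_subtype_coe))
  have h2 := Measurable.dite h1 (g := fun _ => (0:ℝ)) measurable_const hs
  exact h2

open Classical in
private theorem l0aE_meas {φ : ON N → ℝ} (hφ : Measurable φ) :
    Measurable (l0aE φ) := by
  have h1 : Measurable (fun y : {x : Fin N → Fin N → ℝ | IsO x} => φ ⟨y.1, y.2⟩) :=
    hφ.comp (measurable_subtype_coe.subtype_mk)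
  have h2 := Measurable.dite h1 (g := fun _ => (0:ℝ)) measurable_const measurableSet_isO
  exact h2

private theorem l0aE_amul (φ : ON N → ℝ) {q : Fin N → ℝ} (hq : UZ q) (U : ON N) :
    l0aE φ (amul (refl q) U.1) = φ (ON.mul (ON.refl q) U) := by
  have h : amul (refl q) U.1 = (ON.mul (ON.refl q) U).1 := by
    rw [HaarON_mul_val, ON.refl_val hq]
  rw [h, l0aE_val]

private theorem l0a_avec_UZ (k : Fin N) (W : Fin N → Fin N → ℝ) : UZ (qv k (avec W (ev k))) :=
  uz_qv k _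

/-- `doob2` on the subtype.  PROOF: extend `φ` by `0` to non-orthogonal arrays (measurable), `P.map val` is a Haar law (`HaarO.isHaar`), `doob2`. -/
theorem doob2_ON {P : Measure (ON N)} (hP : HaarO P) {φ : ON N → ℝ} (hφ : Measurable φ) {C : ℝ}
    (hC : ∀ U, |φ U| ≤ C) :
    ∫ U, (φ U - ∫ U', φ U' ∂P) ^ 2 ∂P ≤
      ∑ k : Fin N, ∫ W, ∫ U, (φ U - φ (ON.mul (ON.refl (qv k (avec W (ev k)))) U)) ^ 2 ∂P
        ∂kap N k.val := by
  have h := doob2 hP.isHaar (l0aE_meas hφ) (C := C) (by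
    intro O hO
    have h1 := l0aE_val φ ⟨O, hO⟩
    rw [show l0aE φ O = φ ⟨O, hO⟩ from h1]
    exact hC _)
  simp only [HaarO.integral_map_val, l0aE_val] at h
  have e : ∀ (k : Fin N) (W : Fin N → Fin N → ℝ) (U : ON N),
      l0aE φ (amul (refl (qv k (avec W (ev k)))) U.1) =
        φ (ON.mul (ON.refl (qv k (avec W (ev k)))) U) :=
    fun k W U => l0aE_amul φ (l0a_avec_UZ k W) U
  simp only [e] at h
  exact h

/-- `refl_double` on the subtype -/
theorem refl_double_ON {P : Measure (ON N)} (hP : HaarO P) (k : Fin N)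
    {φ : ON N → ℝ} (hφ : Measurable φ) {C : ℝ} (hC : ∀ U, |φ U| ≤ C)
    {ψ : ON N → (Fin N → ℝ) → ℝ} (hψ : Measurable (fun x : ON N × (Fin N → ℝ) => ψ x.1 x.2))
    (hψ0 : ∀ U q, 0 ≤ ψ U q) {C' : ℝ} (hψC : ∀ U q, UZ q → ψ U q ≤ C')
    (h : ∀ U q, UZ q → (φ U - φ (ON.mul (ON.refl q) U)) ^ 2 ≤ ψ U q + ψ (ON.mul (ON.refl q) U) q) :
    ∫ W, ∫ U, (φ U - φ (ON.mul (ON.refl (qv k (avec W (ev k)))) U)) ^ 2 ∂P ∂kap N k.val ≤
      2 * ∫ U, ∫ W, ψ U (qv k (avec W (ev k))) ∂kap N k.val ∂P := by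
  have hv : ∀ (O : Fin N → Fin N → ℝ) (hO : IsO O) (f : ON N → ℝ), l0aE f O = f ⟨O, hO⟩ :=
    fun O hO f => l0aE_val f ⟨O, hO⟩
  have h' := refl_double hP.isHaar k 2 (Or.inl rfl) (l0aE_meas hφ) (C := C) (by
    intro O hO
    rw [hv O hO]
    exact hC _) (ψ := fun O q => l0aE (fun U => ψ U q) O) (l0aE_meas2 hψ) (by
    intro O q
    unfold l0aE
    split_ifs with hO
    · exact hψ0 _ _
    · exact le_rfl) (C' := C') (by
    intro O q hO hq
    show l0aE (fun U => ψ U q) O ≤ C'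
    rw [hv O hO]
    exact hψC _ _ hq) (by
    intro O q hO hq
    have h1 := h ⟨O, hO⟩ q hq
    show (l0aE φ O - l0aE φ (amul (refl q) O)) ^ 2 ≤
      l0aE (fun U => ψ U q) O + l0aE (fun U => ψ U q) (amul (refl q) O)
    have e1 : l0aE φ (amul (refl q) O) = φ (ON.mul (ON.refl q) ⟨O, hO⟩) :=
      l0aE_amul φ hq ⟨O, hO⟩
    have e2 : l0aE (fun U => ψ U q) (amul (refl q) O) = ψ (ON.mul (ON.refl q) ⟨O, hO⟩) q :=
      l0aE_amul (fun U => ψ U q) hq ⟨O, hO⟩
    rw [e1, e2, hv O hO, hv O hO]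
    exact h1)
  simp only [HaarO.integral_map_val, l0aE_val] at h'
  have e : ∀ (W : Fin N → Fin N → ℝ) (U : ON N),
      l0aE φ (amul (refl (qv k (avec W (ev k)))) U.1) =
        φ (ON.mul (ON.refl (qv k (avec W (ev k)))) U) :=
    fun W U => l0aE_amul φ (l0a_avec_UZ k W) U
  simp only [e] at h'
  exact h'

end Crest.Agent.RI
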