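import Crest.Agent.RI.TowerAPI

/-!
# Row 164, Part 7 (H6): exchange of a path expectation with an external integral
-/

set_option autoImplicit false

namespace Crest.Agent.RI

open MeasureTheory ProbabilityTheory

variable {E : Type} [MeasurableSpace E]
variable {m : Measure E} [IsProbabilityMeasure m] {ζ : ℕ → ℝ} {β : E → ℝ}

private theorem swap_aux (hβ : Dom m β) (hζ : Exps ζ) {X : Type} [MeasurableSpace X]
    (ν : Measure X) [IsProbabilityMeasure ν] (n : ℕ) :
    ∀ (i : ℕ) {H : (Fin n → E) → ℝ}, Ham β H → ∀ (F : X → (Fin n → E) → ℝ),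
      Measurable (Function.uncurry F) → ∀ (C D : ℝ), 0 ≤ C → 0 ≤ D →
      (∀ x ω, |F x ω| ≤ D * Real.exp (C * ∑ j, β (ω j))) →
      pathE m ζ n i H (fun ω => ∫ x, F x ω ∂ν) = ∫ x, pathE m ζ n i H (F x) ∂ν := by
  induction n with
  | zero => intro i H hH F hF C D hC hD hb; simp [pathE]
  | succ n ih =>
    intro i H hH F hF C D hC hD hb
    obtain ⟨A, hA, hHb⟩ := TPairA_ham_bd hH
    obtain ⟨K, hK0, hK⟩ := pathE_bound hβ n A C hA hC
    have hb' : ∀ e' x (ω : Fin n → E), |F x (Fin.cons e' ω)| ≤
        (D * Real.exp (C * β e')) * Real.exp (C * ∑ j, β (ω j)) := by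
      intro e' x ω
      refine (hb _ _).trans (le_of_eq ?_)
      rw [Fin.sum_univ_succ, mul_assoc, ← Real.exp_add]
      simp only [Fin.cons_zero, Fin.cons_succ]
      congr 2
      ring
    have hFm : ∀ e', Measurable (Function.uncurry (fun x (ω : Fin n → E) => F x (Fin.cons e' ω))) :=
      fun e' => hF.comp (measurable_fst.prodMk
        (TPairA_measurable_cons measurable_const measurable_snd))
    have step : ∀ e', pathE m ζ n (i + 1) (fun ω => H (Fin.cons e' ω))
        (fun ω => ∫ x, F x (Fin.cons e' ω) ∂ν) =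
        ∫ x, pathE m ζ n (i + 1) (fun ω => H (Fin.cons e' ω))
          (fun ω => F x (Fin.cons e' ω)) ∂ν := fun e' =>
      ih (i + 1) (hH.cons hβ e') (fun x ω => F x (Fin.cons e' ω)) (hFm e') C
        (D * Real.exp (C * β e')) hC (by positivity) (hb' e')
    simp only [pathE, step]
    have hmeasG : Measurable (fun p : E × X => pathE m ζ n (i + 1) (fun ω => H (Fin.cons p.1 ω))
        (fun ω => F p.2 (Fin.cons p.1 ω))) := by
      refine measurable_pathE m ζ n (i + 1) (A := E × X) (H := fun p ω => H (Fin.cons p.1 ω))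
        (Φ := fun p ω => F p.2 (Fin.cons p.1 ω)) ?_ ?_
      · exact hH.meas.comp (TPairA_measurable_cons (measurable_fst.comp measurable_fst)
          measurable_snd)
      · exact hF.comp ((measurable_snd.comp measurable_fst).prodMk
          (TPairA_measurable_cons (measurable_fst.comp measurable_fst) measurable_snd))
    have hInt : Integrable (Function.uncurry (fun e' x => wgt m ζ n i H e' *
        pathE m ζ n (i + 1) (fun ω => H (Fin.cons e' ω)) (fun ω => F x (Fin.cons e' ω))))
        (m.prod ν) := by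
      have hI := ((TPairA_wgt_exp hβ hζ n i hH (C + K * A) (by positivity)).const_mul
        (D * (K * Real.exp (K * A)))).mul_prod (integrable_const (μ := ν) (1 : ℝ))
      refine hI.mono' ?_ (Filter.Eventually.of_forall fun p => ?_)
      · exact (((TPairA_wgt_meas hH.meas).comp measurable_fst).mul hmeasG).aestronglyMeasurable
      · obtain ⟨e', x⟩ := p
        have hβe' := hβ.nonneg e'
        have h1 := hK ζ hζ (i + 1) (A + A * β e') (D * Real.exp (C * β e'))
          (by positivity) (by positivity) (fun ω => H (Fin.cons e' ω))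
          (fun ω => F x (Fin.cons e' ω))
          (hH.meas.comp (TPairA_measurable_cons measurable_const measurable_id))
          ((hFm e').comp (measurable_const.prodMk measurable_id))
          (fun ω => TPairA_cons_bound hHb e' ω) (fun ω => hb' e' x ω)
        simp only [Function.uncurry_apply_pair]
        rw [Real.norm_eq_abs, abs_mul, abs_of_pos (wgt_pos m ζ n i H e')]
        have hw1 := (wgt_pos m ζ n i H e').le
        refine (mul_le_mul_of_nonneg_left h1 hw1).trans (le_of_eq ?_)
        have e1 : Real.exp (K * (A + A * β e')) = Real.exp (K * A) * Real.exp (K * A * β e') := by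
          rw [← Real.exp_add]; congr 1; ring
        have e2 : Real.exp ((C + K * A) * β e') =
            Real.exp (C * β e') * Real.exp (K * A * β e') := by
          rw [← Real.exp_add]; congr 1; ring
        rw [e1, e2]; ring
    have hswap := integral_integral_swap hInt
    calc ∫ e', wgt m ζ n i H e' * ∫ x, pathE m ζ n (i + 1) (fun ω => H (Fin.cons e' ω))
          (fun ω => F x (Fin.cons e' ω)) ∂ν ∂m
        = ∫ e', ∫ x, wgt m ζ n i H e' * pathE m ζ n (i + 1) (fun ω => H (Fin.cons e' ω))
          (fun ω => F x (Fin.cons e' ω)) ∂ν ∂m := by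
          refine integral_congr_ae (Filter.Eventually.of_forall fun e' => ?_)
          simp only
          rw [integral_const_mul]
      _ = ∫ x, ∫ e', wgt m ζ n i H e' * pathE m ζ n (i + 1) (fun ω => H (Fin.cons e' ω))
          (fun ω => F x (Fin.cons e' ω)) ∂m ∂ν := hswap

/-- FUBINI.  PROOF.  Induction on `n` (all `i`, `H`, `F`, constants) like `TPairA_pathE_integral` in RI/TPairA.lean (there the external space is `E`
itself; copy the proof with the weight `1` and the space `(X, ν)`): the integrand at the first level is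
`wgt e * pathE (H (cons e ·)) (fun ω => ∫ x, F x (cons e ω) ∂ν) = ∫ x, wgt e * pathE .. (F x (cons e ·)) ∂ν` by induction, then `integral_integral_swap`
(integrable on the product by `pathE_bound`, `measurable_pathE`). -/
theorem pathE_integral_swap (hβ : Dom m β) (hζ : Exps ζ) {X : Type} [MeasurableSpace X]
    (ν : Measure X) [IsProbabilityMeasure ν] (n i : ℕ) {H : (Fin n → E) → ℝ} (hH : Ham β H)
    {F : X → (Fin n → E) → ℝ} (hF : Measurable (Function.uncurry F)) {C : ℝ} (hC : 0 ≤ C)
    (hb : ∀ x ω, |F x ω| ≤ C * Real.exp (C * ∑ j, β (ω j))) :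
    pathE m ζ n i H (fun ω => ∫ x, F x ω ∂ν) = ∫ x, pathE m ζ n i H (F x) ∂ν :=
  swap_aux hβ hζ ν n i hH F hF C C hC hC hb

/-- integrability of `x ↦ pathE (F x)` -/
theorem pathE_param_integrable (hβ : Dom m β) (hζ : Exps ζ) {X : Type} [MeasurableSpace X]
    (ν : Measure X) [IsProbabilityMeasure ν] (n i : ℕ) {H : (Fin n → E) → ℝ} (hH : Ham β H)
    {F : X → (Fin n → E) → ℝ} (hF : Measurable (Function.uncurry F)) {C : ℝ} (hC : 0 ≤ C)
    (hb : ∀ x ω, |F x ω| ≤ C * Real.exp (C * ∑ j, β (ω j))) :
    Integrable (fun x => pathE m ζ n i H (F x)) ν := by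
  obtain ⟨A, hA, hHb⟩ := TPairA_ham_bd hH
  obtain ⟨K, hK0, hK⟩ := pathE_bound hβ n A C hA hC
  have hm : Measurable (fun x => pathE m ζ n i H (F x)) :=
    measurable_pathE m ζ n i (A := X) (H := fun _ => H) (Φ := F) (hH.meas.comp measurable_snd) hF
  refine (integrable_const (C * (K * Real.exp (K * A)))).mono' hm.aestronglyMeasurable
    (Filter.Eventually.of_forall fun x => ?_)
  rw [Real.norm_eq_abs]
  exact hK ζ hζ i A C hA hC H (F x) hH.meas (hF.comp (measurable_const.prodMk measurable_id))
    hHb (hb x)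

/-- LEVEL LEMMA.  `F` is a nonnegative tame function of one coordinate `j`.  If for every admissible "rest" the tilted average of `F` at one level is at most
`K` then `pathE F(ω_j) ≤ K`.  The class of rests is described by a predicate `Good n H` stable under fixing the first coordinate.
PROOF.  Induction on `n`: `j = 0`: `∫ wgt e * F e = ∫ F e exp(ζ_i nest(H(cons e ·))) / ∫ exp(ζ_i nest(..)) ≤ K`, (`pathE` of a constant is the constant);
`j = j'+1`: `∫ wgt e * pathE (..) (F ∘ ω_{j'}) ≤ K ∫ wgt e = K`. -/
theorem pathE_level_le (hβ : Dom m β) (hζ : Exps ζ) {F : E → ℝ} (hF0 : ∀ e, 0 ≤ F e)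
    (hFm : Measurable F) {C : ℝ} (hC : 0 ≤ C) (hFb : ∀ e, F e ≤ C * Real.exp (C * β e)) {K : ℝ}
    (Good : (n : ℕ) → ((Fin n → E) → ℝ) → Prop)
    (hgood : ∀ (n : ℕ) (H : (Fin (n + 1) → E) → ℝ), Good (n + 1) H →
      ∀ e, Good n (fun ω => H (Fin.cons e ω)))
    (hK : ∀ (n i : ℕ) (H : (Fin (n + 1) → E) → ℝ), Ham β H → Good (n + 1) H →
      ∫ e, F e * Real.exp (ζ i * nest m ζ n (i + 1) (fun ω => H (Fin.cons e ω))) ∂m ≤
        K * ∫ e, Real.exp (ζ i * nest m ζ n (i + 1) (fun ω => H (Fin.cons e ω))) ∂m)
    (n i : ℕ) (j : Fin n) {H : (Fin n → E) → ℝ} (hH : Ham β H) (hg : Good n H) :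
    pathE m ζ n i H (fun ω => F (ω j)) ≤ K := by
  have tame : ∀ (n : ℕ) (j : Fin n), Tame β (fun ω : Fin n → E => F (ω j)) := by
    intro n j
    refine ⟨hFm.comp (measurable_pi_apply j), C, hC, fun ω => ?_⟩
    rw [abs_of_nonneg (hF0 _)]
    refine (hFb _).trans (mul_le_mul_of_nonneg_left (Real.exp_le_exp.2
      (mul_le_mul_of_nonneg_left ?_ hC)) hC)
    exact Finset.single_le_sum (f := fun j => β (ω j)) (fun j _ => hβ.nonneg _)
      (Finset.mem_univ j)
  induction n generalizing i with
  | zero => exact j.elim0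
  | succ n ih =>
    obtain ⟨hwi, hw1⟩ := wgt_integral hβ hζ n i hH
    revert j
    refine Fin.cases ?_ (fun j => ?_)
    · have e1 : pathE m ζ (n + 1) i H (fun ω => F (ω 0)) = ∫ e, wgt m ζ n i H e * F e ∂m := by
        simp only [pathE, Fin.cons_zero]
        refine integral_congr_ae (Filter.Eventually.of_forall fun e => ?_)
        simp only
        rw [pathE_const hβ hζ n (i + 1) (hH.cons hβ e)]
      rw [e1]
      set Z := ∫ e, Real.exp (ζ i * nest m ζ n (i + 1) (fun ω => H (Fin.cons e ω))) ∂m with hZ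
      have hwe : ∀ e, wgt m ζ n i H e =
          Real.exp (ζ i * nest m ζ n (i + 1) (fun ω => H (Fin.cons e ω))) / Z :=
        fun e => wgt_eq hβ hζ n i hH e
      have hZ1 : Z / Z = 1 := by
        rw [← hw1]
        simp only [hwe]
        rw [integral_div]
      have hZ0 : Z ≠ 0 := by
        intro h; rw [h] at hZ1; norm_num at hZ1
      have hZp : 0 < Z :=
        lt_of_le_of_ne (integral_nonneg fun e => (Real.exp_pos _).le) (Ne.symm hZ0)
      have e2 : ∫ e, wgt m ζ n i H e * F e ∂m =
          (∫ e, F e * Real.exp (ζ i * nest m ζ n (i + 1) (fun ω => H (Fin.cons e ω))) ∂m) / Z := by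
        rw [← integral_div]
        refine integral_congr_ae (Filter.Eventually.of_forall fun e => ?_)
        simp only [hwe]
        ring
      rw [e2, div_le_iff₀ hZp]
      exact hK n i H hH hg
    · have hint := integrable_wgt_pathE hβ hζ n i hH (tame (n + 1) j.succ)
      have h1 : pathE m ζ (n + 1) i H (fun ω => F (ω j.succ)) ≤ ∫ e, wgt m ζ n i H e * K ∂m := by
        simp only [pathE]
        refine integral_mono hint (hwi.mul_const K) fun e => ?_
        refine mul_le_mul_of_nonneg_left ?_ (wgt_pos m ζ n i H e).le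
        simp only [Fin.cons_succ]
        exact ih (i + 1) j (hH.cons hβ e) (hgood n H hg e)
      rwa [integral_mul_const, hw1, one_mul] at h1

end Crest.Agent.RI
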