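import Crest.Agent.RI.TowRot
import Crest.Agent.RI.PathSwap

/-!
# Row 164, Part 7 (H6): change of X1 under a reflection
-/

set_option autoImplicit false

namespace Crest.Agent.RI

open MeasureTheory ProbabilityTheory

variable {N K : ℕ}

/-- the function `ψ` -/
noncomputable def psiT (P : Measure (ON N)) (A : Measure (Fin N → Bool)) (ζ : ℕ → ℝ) (D : ℝ) (k : ℕ)
    (θ : Par N K) (U : ON N) (q : Fin N → ℝ) : ℝ :=
  pathE (mN P A) ζ k 1 (HU k θ U) (bdT D k θ q U)

private theorem Level0B_βN_nonneg (x : EN N) : 0 ≤ βN x :=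
  add_nonneg (Finset.sum_nonneg (fun _ _ => abs_nonneg _)) (Finset.sum_nonneg (fun _ _ => abs_nonneg _))

private theorem Level0B_cons_meas {E : Type} [MeasurableSpace E] {n : ℕ} (e : E) :
    Measurable (fun ω : Fin n → E => (Fin.cons e ω : Fin (n + 1) → E)) := by
  rw [measurable_pi_iff]
  intro j
  refine Fin.cases ?_ (fun j => ?_) j
  · simp
  · simpa using measurable_pi_apply j

private theorem Level0B_ham_yU (k : ℕ) (U : ON N) (a : Fin N) :
    Ham (βN (N := N)) (fun ω : Fin k → EN N => yU k U ω a) := by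
  refine ⟨(measurable_yv k a).comp (Level0B_cons_meas (e0 U)), N, by positivity, fun ω => ?_⟩
  have h : |yU k U ω a| ≤ N := abs_yv_le k _ a
  have h1 : 0 ≤ ∑ i, βN (ω i) := Finset.sum_nonneg (fun i _ => Level0B_βN_nonneg _)
  have h2 : (0 : ℝ) ≤ N := by positivity
  nlinarith [mul_nonneg h2 h1]

private theorem Level0B_βN_e0 (U : ON N) : βN (e0 U) = 0 := by
  simp [βN, e0]

private theorem Level0B_ham_gU (k : ℕ) (i : Fin k) (U : ON N) (a : Fin N) :
    Ham (βN (N := N)) (fun ω : Fin k → EN N => gU k i U ω a) := by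
  refine ⟨?_, 1, zero_le_one, fun ω => ?_⟩
  · have h := (measurable_pi_apply (i.castSucc)).comp (Level0B_cons_meas (n := k) (e0 U))
    exact (measurable_pi_apply a).comp
      (measurable_fst.comp (measurable_snd.comp (measurable_snd.comp h)))
  · have h1 : |gU k i U ω a| ≤ βN ((Fin.cons (e0 U) ω : Fin (k + 1) → EN N) i.castSucc) := by
      unfold gU βN
      have h2 := Finset.single_le_sum
        (f := fun a => |((Fin.cons (e0 U) ω : Fin (k + 1) → EN N) i.castSucc).2.2.1 a|)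
        (fun j _ => abs_nonneg _) (Finset.mem_univ a)
      have h3 : 0 ≤ ∑ a, |((Fin.cons (e0 U) ω : Fin (k + 1) → EN N) i.castSucc).2.1 a| :=
        Finset.sum_nonneg (fun j _ => abs_nonneg _)
      linarith
    have h4 := Finset.single_le_sum
      (f := fun j => βN ((Fin.cons (e0 U) ω : Fin (k + 1) → EN N) j))
      (fun j _ => Level0B_βN_nonneg _) (Finset.mem_univ i.castSucc)
    simp only [Fin.sum_univ_succ, Fin.cons_zero, Fin.cons_succ, Level0B_βN_e0, zero_add] at h4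
    linarith

private theorem Level0B_ham_ip {k : ℕ} (q : Fin N → ℝ) {x : (Fin k → EN N) → Fin N → ℝ}
    (hx : ∀ a, Ham (βN (N := N)) (fun ω => x ω a)) :
    Ham (βN (N := N)) (fun ω => ip q (x ω)) := by
  unfold ip
  exact Ham.sum Level0B_βN_nonneg _ (fun a _ => (hx a).smul (q a))

private theorem Level0B_ham_blk {k : ℕ} (κ : Fin N → Fin K) (d : Fin K → ℝ)
    {x : (Fin k → EN N) → Fin N → ℝ} (hx : ∀ a, Ham (βN (N := N)) (fun ω => x ω a)) (a : Fin N) :
    Ham (βN (N := N)) (fun ω => blk κ d (x ω) a) := by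
  unfold blk
  exact (hx a).smul (d (κ a))

private theorem Level0B_tame_pow {P : Measure (ON N)} {A : Measure (Fin N → Bool)} {k : ℕ}
    [IsProbabilityMeasure (mN P A)] (hβ : Dom (mN P A) (βN (N := N))) {H : (Fin k → EN N) → ℝ} (hH : Ham (βN (N := N)) H) :
    Tame (βN (N := N)) (fun ω => H ω ^ 4) := by
  have h := hH.tame hβ
  have h2 := (h.mul hβ h).mul hβ (h.mul hβ h)
  have : (fun ω => H ω ^ 4) = fun ω => H ω * H ω * (H ω * H ω) := by
    funext ω; ring
  rw [this]; exact h2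

private theorem Level0B_tame_smul {P : Measure (ON N)} {A : Measure (Fin N → Bool)} {k : ℕ}
    [IsProbabilityMeasure (mN P A)] (hβ : Dom (mN P A) (βN (N := N))) {Φ : (Fin k → EN N) → ℝ} (c : ℝ)
    (h : Tame (βN (N := N)) Φ) : Tame (βN (N := N)) (fun ω => c * Φ ω) :=
  (Tame.const hβ c).mul hβ h

private theorem Level0B_tame_sum {P : Measure (ON N)} {A : Measure (Fin N → Bool)} {k : ℕ}
    [IsProbabilityMeasure (mN P A)] (hβ : Dom (mN P A) (βN (N := N))) {ι : Type} (s : Finset ι) {Φ : ι → (Fin k → EN N) → ℝ}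
    (h : ∀ i, Tame (βN (N := N)) (Φ i)) : Tame (βN (N := N)) (fun ω => ∑ i ∈ s, Φ i ω) := by
  classical
  induction s using Finset.induction_on with
  | empty => simpa using Tame.const (n := k) hβ 0
  | insert a s ha ih =>
    simp only [Finset.sum_insert ha]
    exact (h a).add hβ ih

private theorem Level0B_tame_bdT {P : Measure (ON N)} {A : Measure (Fin N → Bool)}
    [IsProbabilityMeasure (mN P A)] (hβ : Dom (mN P A) (βN (N := N))) (D : ℝ) (k : ℕ) (θ : Par N K) (q : Fin N → ℝ) (U : ON N) :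
    Tame (βN (N := N)) (bdT D k θ q U) := by
  have hy : ∀ a, Ham (βN (N := N)) (fun ω : Fin k → EN N => yU k U ω a) :=
    Level0B_ham_yU k U
  have hg : ∀ i : Fin k, ∀ a, Ham (βN (N := N)) (fun ω : Fin k → EN N => gU k i U ω a) :=
    fun i => Level0B_ham_gU k i U
  have h1 := Level0B_tame_smul hβ ((1 + 2 * D) ^ 2)
    (Level0B_tame_pow hβ (Level0B_ham_ip q hy))
  have h2 := Level0B_tame_pow hβ (Level0B_ham_ip q (Level0B_ham_blk θ.κ θ.e hy))
  have h3 : ∀ i : Fin k, Tame (βN (N := N)) (fun ω : Fin k → EN N =>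
      (1 + 2 * D) ^ 2 * ip q (gU k i U ω) ^ 4 +
      ip q (blk θ.κ (θ.c i) (yU k U ω)) ^ 4 + (1 + 2 * D) ^ 2 * ip q (yU k U ω) ^ 4 +
      ip q (blk θ.κ (θ.c i) (gU k i U ω)) ^ 4) := fun i =>
    (((Level0B_tame_smul hβ ((1 + 2 * D) ^ 2)
      (Level0B_tame_pow hβ (Level0B_ham_ip q (hg i)))).add hβ
      (Level0B_tame_pow hβ (Level0B_ham_ip q (Level0B_ham_blk θ.κ (θ.c i) hy)))).add hβ h1).add hβ
      (Level0B_tame_pow hβ (Level0B_ham_ip q (Level0B_ham_blk θ.κ (θ.c i) (hg i))))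
  have h4 := Level0B_tame_sum hβ Finset.univ h3
  exact Level0B_tame_smul hβ (2 + 4 * (k : ℝ)) ((h1.add hβ h2).add hβ h4)

private theorem Level0B_psi_nonneg {P : Measure (ON N)} (hP : HaarO P) (A : Measure (Fin N → Bool))
    [IsProbabilityMeasure A] {ζ : ℕ → ℝ} (hζ : Exps ζ) (k : ℕ) (θ : Par N K) {D : ℝ}
    (q : Fin N → ℝ) (U : ON N) : 0 ≤ psiT P A ζ D k θ U q := by
  have := prob_mN hP A
  have hβ := dom_mN hP A
  have h := pathE_mono hβ hζ k 1 (HU_ham k θ U) (Tame.const hβ 0) (Level0B_tame_bdT hβ D k θ q U)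
    (fun ω => by
      unfold bdT
      have : ∀ x : ℝ, 0 ≤ x ^ 4 := fun x => by positivity
      positivity)
  rw [pathE_const hβ hζ k 1 (HU_ham k θ U)] at h
  exact h

private theorem Level0B_one {P : Measure (ON N)} (hP : HaarO P) (A : Measure (Fin N → Bool))
    [IsProbabilityMeasure A] {ζ : ℕ → ℝ} (hζ : Exps ζ) (k : ℕ) (θ : Par N K) {D : ℝ} (hD0 : 0 ≤ D)
    (he : ∀ l, |θ.e l| ≤ D) (hc : ∀ (i : ℕ) l, |θ.c i l| ≤ D) {q : Fin N → ℝ} (hq : UZ q)
    (U : ON N) :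
    X1 P A ζ k θ U - X1 P A ζ k θ (ON.mul (ON.refl q) U) ≤ Real.sqrt (psiT P A ζ D k θ U q) := by
  have := prob_mN hP A
  have hβ := dom_mN hP A
  set u : (Fin k → EN N) → ℝ := fun ω =>
    HU k θ (ON.mul (ON.refl q) U) (fun j => rotL (refl q) (ω j)) - HU k θ U ω with hu
  have hmp := rotL_mp hP A (isO_refl hq)
  have hHU : ∀ V : ON N, Measurable (HU k θ V) := fun V => (HU_ham k θ V).meas
  have hmap : Measurable (fun ω : Fin k → EN N => fun j => rotL (refl q) (ω j)) :=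
    measurable_pi_lambda _ fun j => hmp.measurable.comp (measurable_pi_apply j)
  have hrotβ : ∃ B : ℝ, 0 ≤ B ∧ ∀ x : EN N, βN (rotL (refl q) x) ≤ B * βN x := by
    refine ⟨1 + ∑ a, ∑ j, |refl q a j|, by positivity, fun x => ?_⟩
    unfold βN rotL
    simp only
    have h1 : ∀ a, |avec (refl q) x.2.2.1 a| ≤ (∑ j, |refl q a j|) * ∑ j, |x.2.2.1 j| := by
      intro a
      unfold avec
      calc |∑ j, refl q a j * x.2.2.1 j| ≤ ∑ j, |refl q a j * x.2.2.1 j| :=
            Finset.abs_sum_le_sum_abs _ _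
        _ = ∑ j, |refl q a j| * |x.2.2.1 j| := by simp only [abs_mul]
        _ ≤ ∑ j, |refl q a j| * ∑ j, |x.2.2.1 j| := by
            refine Finset.sum_le_sum fun j _ => ?_
            exact mul_le_mul_of_nonneg_left
              (Finset.single_le_sum (f := fun j => |x.2.2.1 j|) (fun _ _ => abs_nonneg _)
                (Finset.mem_univ j)) (abs_nonneg _)
        _ = (∑ j, |refl q a j|) * ∑ j, |x.2.2.1 j| := by rw [Finset.sum_mul]
    have h2 : ∑ a, |avec (refl q) x.2.2.1 a| ≤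
        (∑ a, ∑ j, |refl q a j|) * ∑ j, |x.2.2.1 j| := by
      rw [Finset.sum_mul]
      exact Finset.sum_le_sum fun a _ => h1 a
    have h3 : 0 ≤ ∑ a, |x.2.1 a| := Finset.sum_nonneg fun _ _ => abs_nonneg _
    have h4 : 0 ≤ ∑ j, |x.2.2.1 j| := Finset.sum_nonneg fun _ _ => abs_nonneg _
    have h5 : 0 ≤ ∑ a, ∑ j, |refl q a j| :=
      Finset.sum_nonneg fun _ _ => Finset.sum_nonneg fun _ _ => abs_nonneg _
    nlinarith [mul_nonneg h5 h3]
  have hH1 : Ham (βN (N := N)) (fun ω : Fin k → EN N =>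
      HU k θ (ON.mul (ON.refl q) U) (fun j => rotL (refl q) (ω j))) := by
    obtain ⟨C, hC, hb⟩ := (HU_ham k θ (ON.mul (ON.refl q) U)).bound
    obtain ⟨B, hB, hrb⟩ := hrotβ
    refine ⟨(hHU _).comp hmap, C * (1 + B), by positivity, fun ω => (hb _).trans ?_⟩
    have h1 : ∑ i, βN (rotL (refl q) (ω i)) ≤ B * ∑ i, βN (ω i) := by
      rw [Finset.mul_sum]
      exact Finset.sum_le_sum fun i _ => hrb _
    have h2 : 0 ≤ ∑ i, βN (ω i) := Finset.sum_nonneg fun _ _ => Level0B_βN_nonneg _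
    rw [mul_assoc]
    refine mul_le_mul_of_nonneg_left ?_ hC
    nlinarith
  have huH : Ham (βN (N := N)) u := by
    have h := hH1.add hβ ((HU_ham k θ U).const_mul (-1))
    have : u = fun ω => HU k θ (ON.mul (ON.refl q) U) (fun j => rotL (refl q) (ω j)) +
      (-1) * HU k θ U ω := by
      funext ω; simp only [hu]; ring
    rw [this]; exact h
  have h1 := nest_tangent hβ hζ k 1 (HU_ham k θ U) huH
  have h2 : nest (mN P A) ζ k 1 (fun ω => HU k θ U ω + u ω) =
      X1 P A ζ k θ (ON.mul (ON.refl q) U) := by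
    have : (fun ω => HU k θ U ω + u ω) = fun ω : Fin k → EN N =>
        HU k θ (ON.mul (ON.refl q) U) (fun j => rotL (refl q) (ω j)) := by
      funext ω; simp only [hu]; ring
    rw [this, nest_map hmp k 1 (hHU _)]
    rfl
  rw [h2] at h1
  have hut := huH.tame hβ
  have hu2 : Tame (βN (N := N)) (fun ω => u ω ^ 2) := by
    have : (fun ω => u ω ^ 2) = fun ω => u ω * u ω := by funext ω; ring
    rw [this]; exact hut.mul hβ hut
  have hcs := pathE_cs hβ hζ k 1 (HU_ham k θ U) hut (Tame.const hβ 1)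
  simp only [mul_one, one_pow] at hcs
  rw [pathE_const hβ hζ k 1 (HU_ham k θ U), mul_one] at hcs
  have hle : pathE (mN P A) ζ k 1 (HU k θ U) (fun ω => u ω ^ 2) ≤ psiT P A ζ D k θ U q :=
    pathE_mono hβ hζ k 1 (HU_ham k θ U) hu2 (Level0B_tame_bdT hβ D k θ q U)
      (fun ω => HU_refl_sq k θ hD0 he hc hq U ω)
  have habs : |pathE (mN P A) ζ k 1 (HU k θ U) u| ≤ Real.sqrt (psiT P A ζ D k θ U q) := by
    apply Real.abs_le_sqrt
    exact hcs.trans hle
  have := (abs_le.1 habs).1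
  have hX : X1 P A ζ k θ U = nest (mN P A) ζ k 1 (HU k θ U) := rfl
  rw [hX]
  linarith

/-- PROOF.  `R = ON.refl q`.  `X1 (R U) = nest (HU (R U) ∘ rotL) = nest (HU U + u)`, `u = HU (R U) ∘ rotL - HU U` (`nest_map`, `rotL_mp`), so
`X1 (R U) - X1 U ≥ pathE (HU U) u` (`nest_tangent`) `≥ - (pathE (HU U) u²)^{1/2} ≥ -(psiT U q)^{1/2}` (`pathE_cs`, `HU_refl_sq`).  The same with `U`
replaced by `R U` (`R (R U) = U`): `X1 U - X1 (R U) ≥ - (psiT (R U) q)^{1/2}`. -/
theorem X1_refl {P : Measure (ON N)} (hP : HaarO P) (A : Measure (Fin N → Bool))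
    [IsProbabilityMeasure A] {ζ : ℕ → ℝ} (hζ : Exps ζ) (k : ℕ) (θ : Par N K) {D : ℝ} (hD0 : 0 ≤ D)
    (he : ∀ l, |θ.e l| ≤ D) (hc : ∀ (i : ℕ) l, |θ.c i l| ≤ D) {q : Fin N → ℝ} (hq : UZ q)
    (U : ON N) :
    (X1 P A ζ k θ U - X1 P A ζ k θ (ON.mul (ON.refl q) U)) ^ 2 ≤
      psiT P A ζ D k θ U q + psiT P A ζ D k θ (ON.mul (ON.refl q) U) q := by
  have h1 := Level0B_one hP A hζ k θ hD0 he hc hq U
  have h2 := Level0B_one hP A hζ k θ hD0 he hc hq (ON.mul (ON.refl q) U)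
  rw [ON.refl_mul_self] at h2
  have n1 := Level0B_psi_nonneg hP A hζ k θ (D := D) q U
  have n2 := Level0B_psi_nonneg hP A hζ k θ (D := D) q (ON.mul (ON.refl q) U)
  rcases le_total (X1 P A ζ k θ (ON.mul (ON.refl q) U)) (X1 P A ζ k θ U) with h | h
  · have h3 : (X1 P A ζ k θ U - X1 P A ζ k θ (ON.mul (ON.refl q) U)) ^ 2 ≤
        Real.sqrt (psiT P A ζ D k θ U q) ^ 2 :=
      pow_le_pow_left₀ (sub_nonneg.2 h) h1 2
    rw [Real.sq_sqrt n1] at h3
    linarith
  · have h3 : (X1 P A ζ k θ (ON.mul (ON.refl q) U) - X1 P A ζ k θ U) ^ 2 ≤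
        Real.sqrt (psiT P A ζ D k θ (ON.mul (ON.refl q) U) q) ^ 2 :=
      pow_le_pow_left₀ (sub_nonneg.2 h) h2 2
    rw [Real.sq_sqrt n2] at h3
    nlinarith

/-- measurability and boundedness -/
theorem measurable_X1 {P : Measure (ON N)} (hP : HaarO P) (A : Measure (Fin N → Bool))
    [IsProbabilityMeasure A] (ζ : ℕ → ℝ) (k : ℕ) (θ : Par N K) :
    Measurable (X1 P A ζ k θ) := by
  have := prob_mN hP A
  exact measurable_nest (mN P A) ζ k 1 (H := HU k θ) (measurable_HU k θ)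

theorem X1_bdd {P : Measure (ON N)} (hP : HaarO P) (A : Measure (Fin N → Bool))
    [IsProbabilityMeasure A] {ζ : ℕ → ℝ} (hζ : Exps ζ) (k : ℕ) (θ : Par N K) :
    ∃ C : ℝ, ∀ U, |X1 P A ζ k θ U| ≤ C := by
  have := prob_mN hP A
  have hβ := dom_mN hP A
  obtain ⟨C, hC, hb⟩ := HU_bound k θ
  obtain ⟨L, hL, h⟩ := nest_bound hβ k C hC
  refine ⟨C + L, fun U => h ζ hζ 1 C hC (HU k θ U) (HU_ham k θ U).meas fun ω => ?_⟩
  have := hb U ω
  linarith

end Crest.Agent.RI
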