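import Crest.Agent.RI.SyncA

/-!
# Row 164: loop equations, abstract form (helper44), blueprint 2.3
-/

set_option autoImplicit false

namespace Crest.Agent.RI

open Finset

namespace ASys

variable {P : Type*} {S : Calc P} {N : ℕ} (X : ASys S N)

/-- `Z = y_a y_b - Σ_m w_m C_m(y_a y_b)` -/
noncomputable def Z1 (k : ℕ) (ζ : ℕ → ℝ) (a b : Fin N) : S.G :=
  X.y a * X.y b - ∑ m ∈ range k, (ζ (m + 1) - ζ m) • S.C (m + 1) (X.y a * X.y b)

/-- multiplier of the second loop equation -/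
noncomputable def Z2 (k : ℕ) (ζ : ℕ → ℝ) (i : ℕ) (a b : Fin N) : S.G :=
  X.M i a * X.y b - ∑ m ∈ Ico (i + 1) k, (ζ (m + 1) - ζ m) • (X.M i a * X.M m b) -
    ζ (i + 1) • (X.M i a * X.M i b) + X.y a * X.M i b -
    ∑ m ∈ Ico i k, (ζ (m + 1) - ζ m) • (X.M m a * X.M i b) -
    ∑ m ∈ range i, (ζ (m + 1) - ζ m) • S.C (m + 1) (X.M i a * X.M i b)

/-- Hypotheses of the loop equations for two blocks. -/
structure LoopHyp (c c' : Fin N → ℝ) (k : ℕ) (ζ : ℕ → ℝ) (τ : ℝ) (F : Fin N → Fin N → S.G)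
    (δ B : ℝ) : Prop where
  Npos : 0 < N
  c_nonneg : ∀ a, 0 ≤ c a
  c_le : ∀ a, c a ≤ 1 / (N : ℝ)
  c'_nonneg : ∀ a, 0 ≤ c' a
  c'_le : ∀ a, c' a ≤ 1 / (N : ℝ)
  z0 : 0 ≤ ζ 0
  mono : ∀ i, i < k → ζ i ≤ ζ (i + 1)
  last : ζ k = 1
  concQ : ∀ f : S.G, (∀ p, |f.1 p| ≤ 1) → |S.E (X.Q c * f) - S.E (X.Q c) * S.E f| ≤ δ
  concQ' : ∀ f : S.G, (∀ p, |f.1 p| ≤ 1) → |S.E (X.Q c' * f) - S.E (X.Q c') * S.E f| ≤ δ
  r1 : ∀ a b, c a ≠ 0 → c' b ≠ 0 → S.E (X.y b * X.y b) - S.E (X.y a * X.y a) +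
    S.E ((τ • (X.y a * X.y b) + F a b) * X.Z1 k ζ a b) = 0
  r2 : ∀ i, i < k → ∀ a b, c a ≠ 0 → c' b ≠ 0 → S.E (X.y b * X.M i b) - S.E (X.y a * X.M i a) +
    S.E ((τ • (X.y a * X.y b) + F a b) * X.Z2 k ζ i a b) = 0
  fb1 : |∑ a, ∑ b, c a * c' b * S.E (F a b * X.Z1 k ζ a b)| ≤ B
  fb2 : ∀ i, i < k → |∑ a, ∑ b, c a * c' b * S.E (F a b * X.Z2 k ζ i a b)| ≤ B

variable {X} {c c' : Fin N → ℝ} {k : ℕ} {ζ : ℕ → ℝ} {τ : ℝ} {F : Fin N → Fin N → S.G} {δ B : ℝ}

/-- product of two weighted sums -/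
theorem dsum_E (c c' : Fin N → ℝ) (f g : Fin N → S.G) :
    ∑ a, ∑ b, c a * c' b * S.E (f a * g b) = S.E ((∑ a, c a • f a) * (∑ b, c' b • g b)) := by
  rw [sum_mul_sum, map_sum]
  refine sum_congr rfl fun a _ => ?_
  rw [map_sum]
  refine sum_congr rfl fun b _ => ?_
  rw [smul_mul_smul_comm, map_smul, smul_eq_mul]

theorem E_Q (X : ASys S N) (c : Fin N → ℝ) : S.E (X.Q c) = ∑ a, c a * S.E (X.y a * X.y a) := by
  unfold Q; rw [map_sum]; exact sum_congr rfl fun a _ => by rw [map_smul, smul_eq_mul]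

theorem rho_eq (X : ASys S N) (c : Fin N → ℝ) (i : ℕ) :
    X.rho c i = ∑ a, c a * S.E (X.y a * X.M i a) := by
  rw [← X.E_A]; unfold A; rw [map_sum]; exact sum_congr rfl fun a _ => by rw [map_smul, smul_eq_mul]

theorem LL_yy (X : ASys S N) (c : Fin N → ℝ) (m : ℕ) : S.LL (m + 1) X.y X.y c = X.rho c m := rfl

theorem LL_yM (X : ASys S N) (c : Fin N → ℝ) {m i : ℕ} (h : m ≤ i) :
    S.LL (m + 1) X.y (X.M i) c = X.rho c m := by
  unfold Calc.LL rho
  refine sum_congr rfl fun a _ => ?_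
  have : S.C (m + 1) (X.M i a) = X.M m a := by
    unfold M; rw [S.C_C, min_eq_left (by omega)]
  rw [this]; rfl

/-- `|E[A_i A'_m] - ρ_i ρ'_m| ≤ ½ (η_i + η'_m)` -/
theorem EAA_bound (X : ASys S N) (c c' : Fin N → ℝ) (i m : ℕ) :
    |S.E (X.A c i * X.A c' m) - X.rho c i * X.rho c' m| ≤ (1 / 2) * (X.eta c i + X.eta c' m) := by
  have key : ∀ s : ℝ, s ^ 2 = 1 → -(s * (S.E (X.A c i * X.A c' m) - X.rho c i * X.rho c' m)) ≤
      (1 / 2) * (X.eta c i + X.eta c' m) := by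
    intro s hs
    have h := S.E_nonneg (((X.A c i - X.rho c i • (1 : S.G)) + s • (X.A c' m - X.rho c' m • (1 : S.G)))
      * ((X.A c i - X.rho c i • (1 : S.G)) + s • (X.A c' m - X.rho c' m • (1 : S.G)))) (fun p => by
        simp only [MulMemClass.coe_mul, Pi.mul_apply]; exact mul_self_nonneg _)
    set u := X.A c i - X.rho c i • (1 : S.G) with hu
    set v := X.A c' m - X.rho c' m • (1 : S.G) with hv
    have e : (u + s • v) * (u + s • v) = u * u + (2 * s) • (u * v) + (s ^ 2) • (v * v) := by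
      rw [add_mul, mul_add, mul_add, smul_mul_smul_comm, smul_mul_assoc, mul_smul_comm,
        mul_comm v u, two_mul, add_smul, sq]
      abel
    rw [e, map_add, map_add, map_smul, map_smul, hs] at h
    have e1 : ∀ (c : Fin N → ℝ) (i : ℕ), S.E ((X.A c i - X.rho c i • (1 : S.G)) *
        (X.A c i - X.rho c i • (1 : S.G))) = X.b2 c i - X.rho c i ^ 2 := by
      intro c i
      rw [sub_mul, mul_sub, mul_sub, smul_mul_smul_comm, mul_one, mul_smul_comm, mul_one,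
        smul_mul_assoc, one_mul, map_sub, map_sub, map_sub, map_smul, map_smul, X.E_A, S.E_one]
      simp only [smul_eq_mul]
      unfold b2; ring
    have e2 : S.E (u * v) = S.E (X.A c i * X.A c' m) - X.rho c i * X.rho c' m := by
      rw [hu, hv, sub_mul, mul_sub, mul_sub, smul_mul_smul_comm, mul_one, mul_smul_comm, mul_one,
        smul_mul_assoc, one_mul, map_sub, map_sub, map_sub, map_smul, map_smul, map_smul, X.E_A,
        X.E_A, S.E_one]
      simp only [smul_eq_mul]; ring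
    rw [hu, e1, hv, e1, ← hu, ← hv, e2] at h
    simp only [smul_eq_mul] at h
    have h1 : X.b2 c i ≤ X.a2 c i := X.b2_le_a2 i
    have h2 : X.b2 c' m ≤ X.a2 c' m := X.b2_le_a2 m
    unfold eta
    nlinarith
  rw [abs_le]
  constructor
  · have := key 1 (by norm_num); linarith
  · have := key (-1) (by norm_num); linarith

theorem BByy_bound (X : ASys S N) (c c' : Fin N → ℝ) (m : ℕ) :
    |S.BB (m + 1) X.y X.y c c' - X.rho c m * X.rho c' m| ≤ (1 / 2) * (X.eta c m + X.eta c' m) :=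
  S.BB_cov (m + 1) X.y X.y c c'

theorem BByM_bound (X : ASys S N) (c c' : Fin N → ℝ) {m i : ℕ} (h : m ≤ i) :
    |S.BB (m + 1) X.y (X.M i) c c' - X.rho c m * X.rho c' m| ≤
      (1 / 2) * (X.eta c m + X.eta c' m) := by
  have h1 := S.BB_cov (m + 1) X.y (X.M i) c c'
  rw [X.LL_yM c h, X.LL_yM c' h] at h1
  have h2 : S.BB (m + 1) X.y (X.M i) c c ≤ X.a2 c m := X.r2_le_a2 h
  have h3 : S.BB (m + 1) X.y (X.M i) c' c' ≤ X.a2 c' m := X.r2_le_a2 h
  unfold eta
  linarith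

theorem eta_nonneg (X : ASys S N) (c : Fin N → ℝ) (m : ℕ) : 0 ≤ X.eta c m := by
  have := S.LL_sq_le (m + 1) X.y X.y c
  rw [X.LL_yy] at this
  unfold eta a2; linarith

/-- the weighted double sum as a linear functional -/
noncomputable def DS (S : Calc P) (c c' : Fin N → ℝ) (Φ : Fin N → Fin N → S.G) : ℝ :=
  ∑ a, ∑ b, c a * c' b * S.E (Φ a b)

theorem DS_add (c c' : Fin N → ℝ) (Φ Ψ : Fin N → Fin N → S.G) :
    DS S c c' (fun a b => Φ a b + Ψ a b) = DS S c c' Φ + DS S c c' Ψ := by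
  unfold DS
  simp only [← sum_add_distrib]
  refine sum_congr rfl fun a _ => sum_congr rfl fun b _ => ?_
  rw [map_add]; ring

theorem DS_sub (c c' : Fin N → ℝ) (Φ Ψ : Fin N → Fin N → S.G) :
    DS S c c' (fun a b => Φ a b - Ψ a b) = DS S c c' Φ - DS S c c' Ψ := by
  unfold DS
  simp only [← sum_sub_distrib]
  refine sum_congr rfl fun a _ => sum_congr rfl fun b _ => ?_
  rw [map_sub]; ring

theorem DS_smul (c c' : Fin N → ℝ) (w : ℝ) (Φ : Fin N → Fin N → S.G) :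
    DS S c c' (fun a b => w • Φ a b) = w * DS S c c' Φ := by
  unfold DS
  simp only [mul_sum]
  refine sum_congr rfl fun a _ => sum_congr rfl fun b _ => ?_
  rw [map_smul, smul_eq_mul]; ring

theorem DS_sum {ι : Type*} (s : Finset ι) (c c' : Fin N → ℝ) (Φ : ι → Fin N → Fin N → S.G) :
    DS S c c' (fun a b => ∑ m ∈ s, Φ m a b) = ∑ m ∈ s, DS S c c' (Φ m) := by
  classical
  induction s using Finset.induction_on with
  | empty => simp [DS]
  | insert m s hm ih =>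
    rw [sum_insert hm, ← ih, ← DS_add]
    unfold DS
    refine sum_congr rfl fun a _ => sum_congr rfl fun b _ => ?_
    simp only [sum_insert hm]

theorem DS_prod (c c' : Fin N → ℝ) (f g : Fin N → S.G) :
    DS S c c' (fun a b => f a * g b) = S.E ((∑ a, c a • f a) * (∑ b, c' b • g b)) :=
  dsum_E c c' f g

theorem DS_left (c c' : Fin N → ℝ) (f : Fin N → S.G) :
    DS S c c' (fun a _ => f a) = (∑ b, c' b) * ∑ a, c a * S.E (f a) := by
  unfold DS
  rw [mul_sum]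
  refine sum_congr rfl fun a _ => ?_
  rw [sum_mul]
  exact sum_congr rfl fun b _ => by ring

theorem DS_right (c c' : Fin N → ℝ) (g : Fin N → S.G) :
    DS S c c' (fun _ b => g b) = (∑ a, c a) * ∑ b, c' b * S.E (g b) := by
  unfold DS
  rw [sum_mul]
  refine sum_congr rfl fun a _ => ?_
  rw [mul_sum]
  exact sum_congr rfl fun b _ => by ring

/-- main part of the first loop equation -/
theorem main1 (X : ASys S N) (c c' : Fin N → ℝ) (k : ℕ) (ζ : ℕ → ℝ) :
    DS S c c' (fun a b => (X.y a * X.y b) * X.Z1 k ζ a b) =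
      S.E (X.Q c * X.Q c') - ∑ m ∈ range k, (ζ (m + 1) - ζ m) * S.BB (m + 1) X.y X.y c c' := by
  have e : ∀ a b, (X.y a * X.y b) * X.Z1 k ζ a b = (X.y a * X.y a) * (X.y b * X.y b) -
      ∑ m ∈ range k, (ζ (m + 1) - ζ m) • ((X.y a * X.y b) * S.C (m + 1) (X.y a * X.y b)) := by
    intro a b
    unfold Z1
    rw [mul_sub, mul_sum]
    congr 1
    · ring
    · exact sum_congr rfl fun m _ => by rw [mul_smul_comm]
  simp only [e]
  rw [DS_sub, DS_prod, DS_sum]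
  congr 1
  refine sum_congr rfl fun m _ => ?_
  rw [DS_smul]
  congr 1
  unfold DS Calc.BB
  refine sum_congr rfl fun a _ => sum_congr rfl fun b _ => ?_
  rw [S.E_mul_C]

/-- main part of the second loop equation -/
theorem main2 (X : ASys S N) (c c' : Fin N → ℝ) (k : ℕ) (ζ : ℕ → ℝ) (i : ℕ) :
    DS S c c' (fun a b => (X.y a * X.y b) * X.Z2 k ζ i a b) =
      S.E (X.A c i * X.Q c') - ∑ m ∈ Ico (i + 1) k, (ζ (m + 1) - ζ m) * S.E (X.A c i * X.A c' m) -
      ζ (i + 1) * S.E (X.A c i * X.A c' i) + S.E (X.Q c * X.A c' i) -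
      ∑ m ∈ Ico i k, (ζ (m + 1) - ζ m) * S.E (X.A c m * X.A c' i) -
      ∑ m ∈ range i, (ζ (m + 1) - ζ m) * S.BB (m + 1) X.y (X.M i) c c' := by
  have e : ∀ a b, (X.y a * X.y b) * X.Z2 k ζ i a b =
      (X.y a * X.M i a) * (X.y b * X.y b) -
      ∑ m ∈ Ico (i + 1) k, (ζ (m + 1) - ζ m) • ((X.y a * X.M i a) * (X.y b * X.M m b)) -
      ζ (i + 1) • ((X.y a * X.M i a) * (X.y b * X.M i b)) + (X.y a * X.y a) * (X.y b * X.M i b) -
      ∑ m ∈ Ico i k, (ζ (m + 1) - ζ m) • ((X.y a * X.M m a) * (X.y b * X.M i b)) -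
      ∑ m ∈ range i, (ζ (m + 1) - ζ m) •
        ((X.y a * X.y b) * S.C (m + 1) (X.M i a * X.M i b)) := by
    intro a b
    unfold Z2
    rw [mul_sub, mul_sub, mul_add, mul_sub, mul_sub, mul_sum, mul_sum, mul_sum, mul_smul_comm]
    congr 1
    · congr 1
      · congr 1
        · congr 1
          · congr 1
            · ring
            · refine sum_congr rfl fun m _ => ?_
              rw [mul_smul_comm]; congr 1; ring
          · congr 1; ring
        · ring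
      · refine sum_congr rfl fun m _ => ?_
        rw [mul_smul_comm]; congr 1; ring
    · refine sum_congr rfl fun m _ => ?_
      rw [mul_smul_comm]
  simp only [e]
  rw [DS_sub, DS_sub, DS_add, DS_sub, DS_sub, DS_sum, DS_sum, DS_sum]
  simp only [DS_smul, DS_prod]
  have e2 : ∀ m, DS S c c' (fun a b => (X.y a * X.y b) * S.C (m + 1) (X.M i a * X.M i b)) =
      S.BB (m + 1) X.y (X.M i) c c' := by
    intro m
    unfold DS Calc.BB
    exact sum_congr rfl fun a _ => sum_congr rfl fun b _ => by rw [S.E_mul_C]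
  simp only [e2]
  rfl

theorem LoopHyp.A_le (h : LoopHyp X c c' k ζ τ F δ B) (i : ℕ) : ∀ p, |(X.A c i).1 p| ≤ 1 :=
  X.A_abs_le h.Npos h.c_nonneg h.c_le i

theorem LoopHyp.A'_le (h : LoopHyp X c c' k ζ τ F δ B) (i : ℕ) : ∀ p, |(X.A c' i).1 p| ≤ 1 :=
  X.A_abs_le h.Npos h.c'_nonneg h.c'_le i

theorem LoopHyp.tel (h : LoopHyp X c c' k ζ τ F δ B) {i : ℕ} (hi : i ≤ k) :
    ∑ m ∈ Ico i k, (ζ (m + 1) - ζ m) = 1 - ζ i := by
  rw [sum_Ico_eq_sum_range]
  have : ∀ n, ∑ m ∈ range n, (ζ (i + m + 1) - ζ (i + m)) = ζ (i + n) - ζ i := by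
    intro n
    induction n with
    | zero => simp
    | succ n ih => rw [sum_range_succ, ih]; ring_nf
  rw [this, show i + (k - i) = k by omega, h.last]

/-- FIRST LOOP EQUATION. -/
theorem LoopHyp.loopD (h : LoopHyp X c c' k ζ τ F δ B) :
    |(∑ a, c a) * S.E (X.Q c') - (∑ b, c' b) * S.E (X.Q c) +
      τ * (S.E (X.Q c) * S.E (X.Q c') -
        ∑ m ∈ range k, (ζ (m + 1) - ζ m) * (X.rho c m * X.rho c' m))| ≤
      |τ| * (δ + (1 / 2) * ∑ m ∈ range k, (ζ (m + 1) - ζ m) * (X.eta c m + X.eta c' m)) + B := by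
  have h0 : DS S c c' (fun _ b => X.y b * X.y b) - DS S c c' (fun a _ => X.y a * X.y a) +
      (τ * DS S c c' (fun a b => (X.y a * X.y b) * X.Z1 k ζ a b) +
      DS S c c' (fun a b => F a b * X.Z1 k ζ a b)) = 0 := by
    rw [← DS_smul, ← DS_add, ← DS_sub, ← DS_add]
    unfold DS
    refine sum_eq_zero fun a _ => sum_eq_zero fun b _ => ?_
    by_cases ha : c a = 0
    · rw [ha]; ring
    by_cases hb : c' b = 0
    · rw [hb]; ring
    have := h.r1 a b ha hb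
    rw [add_mul, smul_mul_assoc] at this
    rw [map_add, map_sub, this, mul_zero]
  rw [DS_right, DS_left, ← X.E_Q, ← X.E_Q, main1] at h0
  have hB := h.fb1
  have h1 := h.concQ (X.Q c') (X.Q_abs_le h.Npos h.c'_nonneg h.c'_le)
  have h2 : |∑ m ∈ range k, (ζ (m + 1) - ζ m) * (S.BB (m + 1) X.y X.y c c' -
      X.rho c m * X.rho c' m)| ≤
      (1 / 2) * ∑ m ∈ range k, (ζ (m + 1) - ζ m) * (X.eta c m + X.eta c' m) := by
    refine (abs_sum_le_sum_abs _ _).trans ?_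
    rw [mul_sum]
    refine sum_le_sum fun m hm => ?_
    have hw : 0 ≤ ζ (m + 1) - ζ m := by have := h.mono m (mem_range.1 hm); linarith
    rw [abs_mul, abs_of_nonneg hw]
    calc _ ≤ (ζ (m + 1) - ζ m) * ((1 / 2) * (X.eta c m + X.eta c' m)) :=
          mul_le_mul_of_nonneg_left (X.BByy_bound c c' m) hw
      _ = _ := by ring
  have hB' : |DS S c c' (fun a b => F a b * X.Z1 k ζ a b)| ≤ B := hB
  set W := ∑ m ∈ range k, (ζ (m + 1) - ζ m) * (X.rho c m * X.rho c' m) with hW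
  set U := ∑ m ∈ range k, (ζ (m + 1) - ζ m) * S.BB (m + 1) X.y X.y c c' with hU
  have e3 : ∑ m ∈ range k, (ζ (m + 1) - ζ m) * (S.BB (m + 1) X.y X.y c c' -
      X.rho c m * X.rho c' m) = U - W := by
    rw [hU, hW, ← sum_sub_distrib]; exact sum_congr rfl fun m _ => by ring
  rw [e3] at h2
  set D := DS S c c' (fun a b => F a b * X.Z1 k ζ a b)
  have e4 : (∑ a, c a) * S.E (X.Q c') - (∑ b, c' b) * S.E (X.Q c) +
      τ * (S.E (X.Q c) * S.E (X.Q c') - W) =
      τ * ((U - W) - (S.E (X.Q c * X.Q c') - S.E (X.Q c) * S.E (X.Q c'))) - D := by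
    linarith
  rw [e4]
  calc |τ * ((U - W) - (S.E (X.Q c * X.Q c') - S.E (X.Q c) * S.E (X.Q c'))) - D|
      ≤ |τ * ((U - W) - (S.E (X.Q c * X.Q c') - S.E (X.Q c) * S.E (X.Q c')))| + |D| := abs_sub _ _
    _ ≤ |τ| * (|U - W| + |S.E (X.Q c * X.Q c') - S.E (X.Q c) * S.E (X.Q c')|) + B := by
        rw [abs_mul]
        gcongr
        exact abs_sub _ _
    _ ≤ _ := by
        have h3 : |U - W| + |S.E (X.Q c * X.Q c') - S.E (X.Q c) * S.E (X.Q c')| ≤
          δ + 1 / 2 * ∑ m ∈ range k, (ζ (m + 1) - ζ m) * (X.eta c m + X.eta c' m) := by linarith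
        have := mul_le_mul_of_nonneg_left h3 (abs_nonneg τ)
        linarith

/-- SECOND LOOP EQUATION. -/
theorem LoopHyp.loopE (h : LoopHyp X c c' k ζ τ F δ B) {i : ℕ} (hi : i < k) :
    |(∑ a, c a) * X.rho c' i - (∑ b, c' b) * X.rho c i +
      τ * (S.E (X.Q c) * X.rho c' i + X.rho c i * S.E (X.Q c') -
        ∑ m ∈ Ioo i k, (ζ (m + 1) - ζ m) * (X.rho c m * X.rho c' i + X.rho c i * X.rho c' m) -
        (2 * ζ (i + 1) - ζ i) * (X.rho c i * X.rho c' i) -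
        ∑ m ∈ range i, (ζ (m + 1) - ζ m) * (X.rho c m * X.rho c' m))| ≤
      |τ| * (2 * δ + 2 * (X.eta c i + X.eta c' i) +
        (1 / 2) * ∑ m ∈ range k, (ζ (m + 1) - ζ m) * (X.eta c m + X.eta c' m)) + B := by
  have h0 : DS S c c' (fun _ b => X.y b * X.M i b) - DS S c c' (fun a _ => X.y a * X.M i a) +
      (τ * DS S c c' (fun a b => (X.y a * X.y b) * X.Z2 k ζ i a b) +
      DS S c c' (fun a b => F a b * X.Z2 k ζ i a b)) = 0 := by
    rw [← DS_smul, ← DS_add, ← DS_sub, ← DS_add]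
    unfold DS
    refine sum_eq_zero fun a _ => sum_eq_zero fun b _ => ?_
    by_cases ha : c a = 0
    · rw [ha]; ring
    by_cases hb : c' b = 0
    · rw [hb]; ring
    have := h.r2 i hi a b ha hb
    rw [add_mul, smul_mul_assoc] at this
    rw [map_add, map_sub, this, mul_zero]
  rw [DS_right, DS_left, ← X.rho_eq, ← X.rho_eq, main2] at h0
  have hB : |DS S c c' (fun a b => F a b * X.Z2 k ζ i a b)| ≤ B := h.fb2 i hi
  have hwt : ∀ m, m < k → 0 ≤ ζ (m + 1) - ζ m := fun m hm => by have := h.mono m hm; linarith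
  -- the individual errors
  have q1 := h.concQ' (X.A c i) (h.A_le i)
  have q2 := h.concQ (X.A c' i) (h.A'_le i)
  rw [X.E_A] at q1 q2
  rw [mul_comm (X.Q c')] at q1
  have q3 : |∑ m ∈ Ico (i + 1) k, (ζ (m + 1) - ζ m) * (S.E (X.A c i * X.A c' m) -
      X.rho c i * X.rho c' m)| ≤
      (1 / 2) * ∑ m ∈ Ico (i + 1) k, (ζ (m + 1) - ζ m) * (X.eta c i + X.eta c' m) := by
    refine (abs_sum_le_sum_abs _ _).trans ?_
    rw [mul_sum]
    refine sum_le_sum fun m hm => ?_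
    have hw := hwt m (mem_Ico.1 hm).2
    rw [abs_mul, abs_of_nonneg hw]
    calc _ ≤ (ζ (m + 1) - ζ m) * ((1 / 2) * (X.eta c i + X.eta c' m)) :=
          mul_le_mul_of_nonneg_left (X.EAA_bound c c' i m) hw
      _ = _ := by ring
  have q4 := X.EAA_bound c c' i i
  have q5 : |∑ m ∈ Ico i k, (ζ (m + 1) - ζ m) * (S.E (X.A c m * X.A c' i) -
      X.rho c m * X.rho c' i)| ≤
      (1 / 2) * ∑ m ∈ Ico i k, (ζ (m + 1) - ζ m) * (X.eta c m + X.eta c' i) := by
    refine (abs_sum_le_sum_abs _ _).trans ?_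
    rw [mul_sum]
    refine sum_le_sum fun m hm => ?_
    have hw := hwt m (mem_Ico.1 hm).2
    rw [abs_mul, abs_of_nonneg hw]
    calc _ ≤ (ζ (m + 1) - ζ m) * ((1 / 2) * (X.eta c m + X.eta c' i)) :=
          mul_le_mul_of_nonneg_left (X.EAA_bound c c' m i) hw
      _ = _ := by ring
  have q6 : |∑ m ∈ range i, (ζ (m + 1) - ζ m) * (S.BB (m + 1) X.y (X.M i) c c' -
      X.rho c m * X.rho c' m)| ≤
      (1 / 2) * ∑ m ∈ range i, (ζ (m + 1) - ζ m) * (X.eta c m + X.eta c' m) := by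
    refine (abs_sum_le_sum_abs _ _).trans ?_
    rw [mul_sum]
    refine sum_le_sum fun m hm => ?_
    have hmi := mem_range.1 hm
    have hw := hwt m (by omega)
    rw [abs_mul, abs_of_nonneg hw]
    calc _ ≤ (ζ (m + 1) - ζ m) * ((1 / 2) * (X.eta c m + X.eta c' m)) :=
          mul_le_mul_of_nonneg_left (X.BByM_bound c c' (by omega)) hw
      _ = _ := by ring
  -- names
  set U1 := ∑ m ∈ Ico (i + 1) k, (ζ (m + 1) - ζ m) * S.E (X.A c i * X.A c' m) with hU1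
  set U2 := ∑ m ∈ Ico i k, (ζ (m + 1) - ζ m) * S.E (X.A c m * X.A c' i) with hU2
  set U3 := ∑ m ∈ range i, (ζ (m + 1) - ζ m) * S.BB (m + 1) X.y (X.M i) c c' with hU3
  set R := ∑ m ∈ Ico (i + 1) k, (ζ (m + 1) - ζ m) * X.rho c m with hR
  set R' := ∑ m ∈ Ico (i + 1) k, (ζ (m + 1) - ζ m) * X.rho c' m with hR'
  set T3 := ∑ m ∈ range i, (ζ (m + 1) - ζ m) * (X.rho c m * X.rho c' m) with hT3
  have e1 : ∑ m ∈ Ico (i + 1) k, (ζ (m + 1) - ζ m) * (S.E (X.A c i * X.A c' m) -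
      X.rho c i * X.rho c' m) = U1 - X.rho c i * R' := by
    rw [hU1, hR', mul_sum, ← sum_sub_distrib]; exact sum_congr rfl fun m _ => by ring
  have e2 : ∑ m ∈ Ico i k, (ζ (m + 1) - ζ m) * (S.E (X.A c m * X.A c' i) -
      X.rho c m * X.rho c' i) = U2 - ((ζ (i + 1) - ζ i) * (X.rho c i * X.rho c' i) +
        R * X.rho c' i) := by
    have : ∑ m ∈ Ico i k, (ζ (m + 1) - ζ m) * (X.rho c m * X.rho c' i) =
        (ζ (i + 1) - ζ i) * (X.rho c i * X.rho c' i) + R * X.rho c' i := by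
      rw [sum_eq_sum_Ico_succ_bot hi, hR, sum_mul]
      congr 1
      exact sum_congr rfl fun m _ => by ring
    rw [← this, hU2, ← sum_sub_distrib]; exact sum_congr rfl fun m _ => by ring
  have e3 : ∑ m ∈ range i, (ζ (m + 1) - ζ m) * (S.BB (m + 1) X.y (X.M i) c c' -
      X.rho c m * X.rho c' m) = U3 - T3 := by
    rw [hU3, hT3, ← sum_sub_distrib]; exact sum_congr rfl fun m _ => by ring
  have e4 : ∑ m ∈ Ioo i k, (ζ (m + 1) - ζ m) * (X.rho c m * X.rho c' i + X.rho c i * X.rho c' m) =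
      R * X.rho c' i + X.rho c i * R' := by
    have hIoo : Ioo i k = Ico (i + 1) k := by ext x; simp [mem_Ioo, mem_Ico, Nat.succ_le_iff]
    rw [hIoo, hR, hR', sum_mul, mul_sum, ← sum_add_distrib]
    exact sum_congr rfl fun m _ => by ring
  rw [e1] at q3
  rw [e2] at q5
  rw [e3] at q6
  rw [e4]
  -- sums of the errors
  have t1 := h.tel (i := i) (by omega)
  have t2 := h.tel (i := i + 1) (by omega)
  have t0 := h.tel (i := 0) (by omega)
  have hz0 := h.z0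
  have hn := X.eta_nonneg c i
  have hn' := X.eta_nonneg c' i
  have hζ1 : ζ (i + 1) ≤ 1 := by
    have : 0 ≤ ∑ m ∈ Ico (i + 1) k, (ζ (m + 1) - ζ m) :=
      sum_nonneg fun m hm => hwt m (mem_Ico.1 hm).2
    linarith
  have hζi : 0 ≤ ζ i := by
    have e : ∑ m ∈ range i, (ζ (m + 1) - ζ m) = ζ i - ζ 0 := sum_range_sub (fun m => ζ m) i
    have : 0 ≤ ∑ m ∈ range i, (ζ (m + 1) - ζ m) :=
      sum_nonneg fun m hm => hwt m (by have := mem_range.1 hm; omega)
    linarith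
  have hζi1 : 0 ≤ ζ (i + 1) := by have := h.mono i hi; linarith
  set G := ∑ m ∈ range k, (ζ (m + 1) - ζ m) * (X.eta c m + X.eta c' m) with hG
  have g1 : ∑ m ∈ Ico (i + 1) k, (ζ (m + 1) - ζ m) * (X.eta c i + X.eta c' m) =
      (1 - ζ (i + 1)) * X.eta c i + ∑ m ∈ Ico (i + 1) k, (ζ (m + 1) - ζ m) * X.eta c' m := by
    rw [← t2, sum_mul, ← sum_add_distrib]; exact sum_congr rfl fun m _ => by ring
  have g2 : ∑ m ∈ Ico i k, (ζ (m + 1) - ζ m) * (X.eta c m + X.eta c' i) =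
      (1 - ζ i) * X.eta c' i + ∑ m ∈ Ico i k, (ζ (m + 1) - ζ m) * X.eta c m := by
    rw [← t1, sum_mul, ← sum_add_distrib]; exact sum_congr rfl fun m _ => by ring
  have g3 : ∑ m ∈ Ico (i + 1) k, (ζ (m + 1) - ζ m) * X.eta c' m +
      ∑ m ∈ Ico i k, (ζ (m + 1) - ζ m) * X.eta c m +
      ∑ m ∈ range i, (ζ (m + 1) - ζ m) * (X.eta c m + X.eta c' m) ≤ G := by
    have a1 : ∑ m ∈ Ico (i + 1) k, (ζ (m + 1) - ζ m) * X.eta c' m ≤
        ∑ m ∈ Ico i k, (ζ (m + 1) - ζ m) * X.eta c' m := by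
      refine sum_le_sum_of_subset_of_nonneg (Ico_subset_Ico (by omega) le_rfl) fun m hm _ => ?_
      exact mul_nonneg (hwt m (mem_Ico.1 hm).2) (X.eta_nonneg c' m)
    have a2 : ∑ m ∈ Ico i k, (ζ (m + 1) - ζ m) * (X.eta c m + X.eta c' m) =
        ∑ m ∈ Ico i k, (ζ (m + 1) - ζ m) * X.eta c m +
        ∑ m ∈ Ico i k, (ζ (m + 1) - ζ m) * X.eta c' m := by
      rw [← sum_add_distrib]; exact sum_congr rfl fun m _ => by ring
    have a3 : ∑ m ∈ range i, (ζ (m + 1) - ζ m) * (X.eta c m + X.eta c' m) +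
        ∑ m ∈ Ico i k, (ζ (m + 1) - ζ m) * (X.eta c m + X.eta c' m) = G := by
      rw [hG, range_eq_Ico, range_eq_Ico, sum_Ico_consecutive _ (by omega) (by omega)]
    linarith
  rw [g1] at q3
  rw [g2] at q5
  set D := DS S c c' (fun a b => F a b * X.Z2 k ζ i a b)
  set s1 := ∑ m ∈ Ico (i + 1) k, (ζ (m + 1) - ζ m) * X.eta c' m
  set s2 := ∑ m ∈ Ico i k, (ζ (m + 1) - ζ m) * X.eta c m
  set s3 := ∑ m ∈ range i, (ζ (m + 1) - ζ m) * (X.eta c m + X.eta c' m)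
  have e5 : (∑ a, c a) * X.rho c' i - (∑ b, c' b) * X.rho c i +
      τ * (S.E (X.Q c) * X.rho c' i + X.rho c i * S.E (X.Q c') -
        (R * X.rho c' i + X.rho c i * R') -
        (2 * ζ (i + 1) - ζ i) * (X.rho c i * X.rho c' i) - T3) =
      τ * (-(S.E (X.A c i * X.Q c') - S.E (X.Q c') * X.rho c i) -
        (S.E (X.Q c * X.A c' i) - S.E (X.Q c) * X.rho c' i) +
        (U1 - X.rho c i * R') +
        ζ (i + 1) * (S.E (X.A c i * X.A c' i) - X.rho c i * X.rho c' i) +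
        (U2 - ((ζ (i + 1) - ζ i) * (X.rho c i * X.rho c' i) + R * X.rho c' i)) +
        (U3 - T3)) - D := by
    linarith
  rw [e5]
  have q7 : |ζ (i + 1) * (S.E (X.A c i * X.A c' i) - X.rho c i * X.rho c' i)| ≤
      (1 / 2) * (X.eta c i + X.eta c' i) := by
    rw [abs_mul, abs_of_nonneg hζi1]
    calc _ ≤ 1 * |S.E (X.A c i * X.A c' i) - X.rho c i * X.rho c' i| := by gcongr
      _ ≤ _ := by rw [one_mul]; exact q4
  have hbr : |-(S.E (X.A c i * X.Q c') - S.E (X.Q c') * X.rho c i) -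
        (S.E (X.Q c * X.A c' i) - S.E (X.Q c) * X.rho c' i) +
        (U1 - X.rho c i * R') +
        ζ (i + 1) * (S.E (X.A c i * X.A c' i) - X.rho c i * X.rho c' i) +
        (U2 - ((ζ (i + 1) - ζ i) * (X.rho c i * X.rho c' i) + R * X.rho c' i)) +
        (U3 - T3)| ≤ 2 * δ + 2 * (X.eta c i + X.eta c' i) + (1 / 2) * G := by
    have b1 : (1 - ζ (i + 1)) * X.eta c i ≤ X.eta c i :=
      mul_le_of_le_one_left hn (by linarith)
    have b2 : (1 - ζ i) * X.eta c' i ≤ X.eta c' i :=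
      mul_le_of_le_one_left hn' (by linarith)
    rw [abs_le] at q1 q2 q3 q5 q6 q7 ⊢
    constructor <;> linarith [q1.1, q1.2, q2.1, q2.2, q3.1, q3.2, q5.1, q5.2, q6.1, q6.2, q7.1, q7.2]
  calc _ ≤ |τ * (-(S.E (X.A c i * X.Q c') - S.E (X.Q c') * X.rho c i) -
        (S.E (X.Q c * X.A c' i) - S.E (X.Q c) * X.rho c' i) +
        (U1 - X.rho c i * R') +
        ζ (i + 1) * (S.E (X.A c i * X.A c' i) - X.rho c i * X.rho c' i) +
        (U2 - ((ζ (i + 1) - ζ i) * (X.rho c i * X.rho c' i) + R * X.rho c' i)) +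
        (U3 - T3))| + |D| := abs_sub _ _
    _ ≤ _ := by
        rw [abs_mul]
        exact add_le_add (mul_le_mul_of_nonneg_left hbr (abs_nonneg τ)) hB

end ASys

end Crest.Agent.RI
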