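import Crest.Agent.RI.LoopA

/-!
# Row 164: the perturbation fields in the loop equations are negligible (helper44)
-/

set_option autoImplicit false

namespace Crest.Agent.RI

open Finset

namespace Calc

variable {P : Type*} (S : Calc P)

/-- abs of `E` from a pointwise bound -/
theorem E_abs_le {f K : S.G} (h : ∀ p, |f.1 p| ≤ K.1 p) : |S.E f| ≤ S.E K := by
  rw [abs_le]
  constructor
  · rw [← map_neg]
    exact S.E_mono fun p => by
      rw [NegMemClass.coe_neg, Pi.neg_apply]; exact (abs_le.1 (h p)).1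
  · exact S.E_mono fun p => (abs_le.1 (h p)).2

theorem C_abs_le (r : ℕ) {f K : S.G} (h : ∀ p, |f.1 p| ≤ K.1 p) (p : P) :
    |(S.C r f).1 p| ≤ (S.C r K).1 p := by
  rw [abs_le]
  constructor
  · have h1 := S.C_mono r (f := -K) (g := f) (fun p => by
      rw [NegMemClass.coe_neg, Pi.neg_apply]; exact (abs_le.1 (h p)).1) p
    rw [map_neg, NegMemClass.coe_neg, Pi.neg_apply] at h1
    exact h1
  · exact S.C_mono r (fun p => (abs_le.1 (h p)).2) p

/-- `|Σ f_α(p) u_α(q)| ≤ K(p)` for all `p, q` implies `|Σ E[C f_α C u_α]| ≤ E K`. -/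
theorem C_pair_bound {ι : Type*} [Fintype ι] (r : ℕ) (f u : ι → S.G) (K : S.G)
    (h : ∀ p q, |∑ α, (f α).1 p * (u α).1 q| ≤ K.1 p) :
    |∑ α, S.E (S.C r (f α) * S.C r (u α))| ≤ S.E K := by
  -- step 1: condition the first variable
  have h1 : ∀ p q, |∑ α, (S.C r (f α)).1 p * (u α).1 q| ≤ (S.C r K).1 p := by
    intro p q
    have h0 := S.C_abs_le r (f := ∑ α, (u α).1 q • f α) (K := K) (fun p' => by
      rw [S.coe_sum]
      refine le_trans (le_of_eq ?_) (h p' q)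
      congr 1
      refine sum_congr rfl fun α _ => ?_
      simp only [SetLike.val_smul, Pi.smul_apply, smul_eq_mul]; ring) p
    rw [map_sum, S.coe_sum] at h0
    refine le_trans (le_of_eq ?_) h0
    congr 1
    refine sum_congr rfl fun α _ => ?_
    rw [map_smul]
    simp only [SetLike.val_smul, Pi.smul_apply, smul_eq_mul]; ring
  -- step 2: condition the second variable, at the same point
  have h2 : ∀ p, |∑ α, (S.C r (f α)).1 p * (S.C r (u α)).1 p| ≤ (S.C r K).1 p := by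
    intro p
    have h0 := S.C_abs_le r (f := ∑ α, (S.C r (f α)).1 p • u α) (K := (S.C r K).1 p • (1 : S.G))
      (fun q => by
        rw [S.coe_sum]
        refine le_trans (le_of_eq ?_) ((h1 p q).trans (le_of_eq ?_))
        · congr 1
        · simp only [SetLike.val_smul, Pi.smul_apply, smul_eq_mul, OneMemClass.coe_one,
            Pi.one_apply, mul_one]) p
    rw [map_sum, S.coe_sum, map_smul, S.C_one] at h0
    refine le_trans (le_of_eq ?_) (h0.trans (le_of_eq ?_))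
    · congr 1
      refine sum_congr rfl fun α _ => ?_
      rw [map_smul]; rfl
    · simp only [SetLike.val_smul, Pi.smul_apply, smul_eq_mul, OneMemClass.coe_one,
        Pi.one_apply, mul_one]
  rw [← map_sum, ← S.E_C r K]
  refine S.E_abs_le fun p => ?_
  rw [S.coe_sum]
  exact h2 p

end Calc

namespace ASys

variable {P : Type*} {S : Calc P} {N : ℕ} (X : ASys S N)

/-- `K(g) = ½ (N⁻¹ |g|² + 1)` -/
noncomputable def KK (S : Calc P) (g : Fin N → S.G) : S.G :=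
  (1 / 2 : ℝ) • ((1 / (N : ℝ)) • (∑ a, g a * g a) + 1)

theorem KK_pt (g : Fin N → S.G) (p : P) :
    (KK S g).1 p = (1 / 2) * ((1 / (N : ℝ)) * ∑ a, (g a).1 p ^ 2 + 1) := by
  unfold KK
  simp only [SetLike.val_smul, AddMemClass.coe_add, Pi.smul_apply, Pi.add_apply, smul_eq_mul,
    OneMemClass.coe_one, Pi.one_apply]
  rw [S.coe_sum]
  congr 3
  exact sum_congr rfl fun a _ => by simp only [MulMemClass.coe_mul, Pi.mul_apply]; ring

theorem E_KK (g : Fin N → S.G) :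
    S.E (KK S g) = (1 / 2) * ((1 / (N : ℝ)) * (∑ a, S.E (g a * g a)) + 1) := by
  unfold KK
  rw [map_smul, map_add, map_smul, map_sum, S.E_one]; rfl

/-- `|⟨g,u⟩_c| ≤ K(g)` for `|u|² ≤ N` -/
theorem inn_g_le (hN : 0 < N) {c : Fin N → ℝ} (hc0 : ∀ a, 0 ≤ c a) (hc1 : ∀ a, c a ≤ 1 / (N : ℝ))
    (g : Fin N → S.G) (p : P) (u : Fin N → ℝ) (hu : ∑ a, u a ^ 2 ≤ (N : ℝ)) :
    |∑ a, c a * ((g a).1 p * u a)| ≤ (KK S g).1 p := by
  have hN' : (0 : ℝ) < N := by exact_mod_cast hN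
  rw [KK_pt]
  calc |∑ a, c a * ((g a).1 p * u a)| ≤ ∑ a, |c a * ((g a).1 p * u a)| := abs_sum_le_sum_abs _ _
    _ ≤ ∑ a, (1 / (N : ℝ)) * ((1 / 2) * ((g a).1 p ^ 2 + u a ^ 2)) := by
        refine sum_le_sum fun a _ => ?_
        rw [abs_mul, abs_of_nonneg (hc0 a)]
        refine mul_le_mul (hc1 a) ?_ (abs_nonneg _) (by positivity)
        rw [abs_le]
        constructor <;> nlinarith [sq_nonneg ((g a).1 p - u a), sq_nonneg ((g a).1 p + u a)]
    _ = (1 / 2) * ((1 / (N : ℝ)) * ∑ a, (g a).1 p ^ 2 + (1 / (N : ℝ)) * ∑ a, u a ^ 2) := by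
        simp only [mul_add, mul_sum, ← sum_add_distrib]
        refine sum_congr rfl fun a _ => ?_
        ring
    _ ≤ (1 / 2) * ((1 / (N : ℝ)) * ∑ a, (g a).1 p ^ 2 + (1 / (N : ℝ)) * N) := by gcongr
    _ = _ := by rw [one_div_mul_cancel hN'.ne']

/-- `Z` is bounded with constant `w`. -/
def BdZ (Z : Fin N → Fin N → S.G) (w : ℝ) : Prop :=
  ∀ (c c' : Fin N → ℝ) (g : Fin N → S.G), 0 < N → (∀ a, 0 ≤ c a) → (∀ a, c a ≤ 1 / (N : ℝ)) →
    (∀ a, 0 ≤ c' a) → (∀ a, c' a ≤ 1 / (N : ℝ)) →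
    |DS S c c' (fun a b => (g a * X.y b) * Z a b)| ≤ w * S.E (KK S g) ∧
    |DS S c c' (fun a b => (g b * X.y a) * Z a b)| ≤ w * S.E (KK S g)

variable {X}

theorem BdZ.add {Z Z' : Fin N → Fin N → S.G} {w w' : ℝ} (h : X.BdZ Z w) (h' : X.BdZ Z' w') :
    X.BdZ (fun a b => Z a b + Z' a b) (w + w') := by
  intro c c' g hN h0 h1 h2 h3
  obtain ⟨a1, a2⟩ := h c c' g hN h0 h1 h2 h3
  obtain ⟨b1, b2⟩ := h' c c' g hN h0 h1 h2 h3
  constructor
  · have : DS S c c' (fun a b => (g a * X.y b) * (Z a b + Z' a b)) =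
      DS S c c' (fun a b => (g a * X.y b) * Z a b) + DS S c c' (fun a b => (g a * X.y b) * Z' a b) := by
        rw [← DS_add]; congr 1; funext a b; ring
    rw [this, add_mul]
    exact (abs_add_le _ _).trans (add_le_add a1 b1)
  · have : DS S c c' (fun a b => (g b * X.y a) * (Z a b + Z' a b)) =
      DS S c c' (fun a b => (g b * X.y a) * Z a b) + DS S c c' (fun a b => (g b * X.y a) * Z' a b) := by
        rw [← DS_add]; congr 1; funext a b; ring
    rw [this, add_mul]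
    exact (abs_add_le _ _).trans (add_le_add a2 b2)

theorem BdZ.smul {Z : Fin N → Fin N → S.G} {w : ℝ} (h : X.BdZ Z w) (s : ℝ) :
    X.BdZ (fun a b => s • Z a b) (|s| * w) := by
  intro c c' g hN h0 h1 h2 h3
  obtain ⟨a1, a2⟩ := h c c' g hN h0 h1 h2 h3
  constructor
  · have : DS S c c' (fun a b => (g a * X.y b) * (s • Z a b)) =
      s * DS S c c' (fun a b => (g a * X.y b) * Z a b) := by
        rw [← DS_smul]; congr 1; funext a b; rw [mul_smul_comm]
    rw [this, abs_mul, mul_assoc]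
    exact mul_le_mul_of_nonneg_left a1 (abs_nonneg _)
  · have : DS S c c' (fun a b => (g b * X.y a) * (s • Z a b)) =
      s * DS S c c' (fun a b => (g b * X.y a) * Z a b) := by
        rw [← DS_smul]; congr 1; funext a b; rw [mul_smul_comm]
    rw [this, abs_mul, mul_assoc]
    exact mul_le_mul_of_nonneg_left a2 (abs_nonneg _)

theorem BdZ.sub {Z Z' : Fin N → Fin N → S.G} {w w' : ℝ} (h : X.BdZ Z w) (h' : X.BdZ Z' w') :
    X.BdZ (fun a b => Z a b - Z' a b) (w + w') := by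
  have := h.add (h'.smul (-1))
  rw [abs_neg, abs_one, one_mul] at this
  have e : (fun a b => Z a b - Z' a b) = (fun a b => Z a b + (-1 : ℝ) • Z' a b) := by
    funext a b; rw [neg_one_smul]; ring
  rw [e]; exact this

theorem BdZ.sum {ι : Type*} (s : Finset ι) {Z : ι → Fin N → Fin N → S.G} {w : ι → ℝ}
    (h : ∀ i ∈ s, X.BdZ (Z i) (w i)) :
    X.BdZ (fun a b => ∑ i ∈ s, Z i a b) (∑ i ∈ s, w i) := by
  classical
  induction s using Finset.induction_on with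
  | empty =>
    intro c c' g hN h0 h1 h2 h3
    simp [DS]
  | insert m s hm ih =>
    have h1 := (h m (mem_insert_self _ _)).add (ih fun i hi => h i (mem_insert_of_mem hi))
    simp only [sum_insert hm]
    exact h1

/-- products `u_a v_b` of vectors of square norm at most `N` -/
theorem BdZ.prod (u v : Fin N → S.G) (hu : ∀ p, ∑ a, (u a).1 p ^ 2 ≤ (N : ℝ))
    (hv : ∀ p, ∑ a, (v a).1 p ^ 2 ≤ (N : ℝ)) : X.BdZ (fun a b => u a * v b) 1 := by
  have main : ∀ (c c' : Fin N → ℝ) (g u v : Fin N → S.G), (∀ p, ∑ a, (u a).1 p ^ 2 ≤ (N : ℝ)) →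
      (∀ p, ∑ a, (v a).1 p ^ 2 ≤ (N : ℝ)) → 0 < N → (∀ a, 0 ≤ c a) → (∀ a, c a ≤ 1 / (N : ℝ)) →
      (∀ a, 0 ≤ c' a) → (∀ a, c' a ≤ 1 / (N : ℝ)) →
      |S.E ((∑ a, c a • (g a * u a)) * (∑ b, c' b • (X.y b * v b)))| ≤ S.E (KK S g) := by
    intro c c' g u v hu hv hN h0 h1 h2 h3
    refine S.E_abs_le fun p => ?_
    have e : ((∑ a, c a • (g a * u a)) * (∑ b, c' b • (X.y b * v b))).1 p =
        (∑ a, c a * ((g a).1 p * (u a).1 p)) * (∑ b, c' b * ((X.y b).1 p * (v b).1 p)) := by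
      rw [MulMemClass.coe_mul, Pi.mul_apply, S.coe_sum, S.coe_sum]; rfl
    rw [e, abs_mul]
    have a1 := inn_g_le hN h0 h1 g p (fun a => (u a).1 p) (hu p)
    have a2 := inn_abs_le hN h2 h3 (fun a => (X.y a).1 p) (fun a => (v a).1 p) (X.ysq p).le (hv p)
    calc _ ≤ (KK S g).1 p * 1 := mul_le_mul a1 a2 (abs_nonneg _) ((abs_nonneg _).trans a1)
      _ = _ := mul_one _
  intro c c' g hN h0 h1 h2 h3
  rw [one_mul]
  constructor
  · have e : DS S c c' (fun a b => (g a * X.y b) * (u a * v b)) =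
        S.E ((∑ a, c a • (g a * u a)) * (∑ b, c' b • (X.y b * v b))) := by
      rw [← DS_prod]; congr 1; funext a b; ring
    rw [e]
    exact main c c' g u v hu hv hN h0 h1 h2 h3
  · have e : DS S c c' (fun a b => (g b * X.y a) * (u a * v b)) =
        S.E ((∑ b, c' b • (g b * v b)) * (∑ a, c a • (X.y a * u a))) := by
      rw [mul_comm, ← DS_prod]; congr 1; funext a b; ring
    rw [e]
    exact main c' c g v u hv hu hN h2 h3 h0 h1

/-- conditional expectations of products -/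
theorem BdZ.Cprod (r : ℕ) (u v : Fin N → S.G) (hu : ∀ p, ∑ a, (u a).1 p ^ 2 ≤ (N : ℝ))
    (hv : ∀ p, ∑ a, (v a).1 p ^ 2 ≤ (N : ℝ)) : X.BdZ (fun a b => S.C r (u a * v b)) 1 := by
  have main : ∀ (c c' : Fin N → ℝ) (g u v : Fin N → S.G), (∀ p, ∑ a, (u a).1 p ^ 2 ≤ (N : ℝ)) →
      (∀ p, ∑ a, (v a).1 p ^ 2 ≤ (N : ℝ)) → 0 < N → (∀ a, 0 ≤ c a) → (∀ a, c a ≤ 1 / (N : ℝ)) →
      (∀ a, 0 ≤ c' a) → (∀ a, c' a ≤ 1 / (N : ℝ)) →
      |DS S c c' (fun a b => (g a * X.y b) * S.C r (u a * v b))| ≤ S.E (KK S g) := by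
    intro c c' g u v hu hv hN h0 h1 h2 h3
    have e : DS S c c' (fun a b => (g a * X.y b) * S.C r (u a * v b)) =
        ∑ q : Fin N × Fin N, S.E (S.C r ((c q.1 * c' q.2) • (g q.1 * X.y q.2)) *
          S.C r (u q.1 * v q.2)) := by
      rw [Fintype.sum_prod_type]
      unfold DS
      refine sum_congr rfl fun a _ => sum_congr rfl fun b _ => ?_
      rw [map_smul, smul_mul_assoc, map_smul, smul_eq_mul, S.E_mul_C]
    rw [e]
    refine S.C_pair_bound r _ _ (KK S g) fun p q => ?_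
    have e2 : ∑ α : Fin N × Fin N, ((c α.1 * c' α.2) • (g α.1 * X.y α.2)).1 p *
        (u α.1 * v α.2).1 q =
        (∑ a, c a * ((g a).1 p * (u a).1 q)) * (∑ b, c' b * ((X.y b).1 p * (v b).1 q)) := by
      rw [Fintype.sum_prod_type, sum_mul_sum]
      refine sum_congr rfl fun a _ => sum_congr rfl fun b _ => ?_
      simp only [SetLike.val_smul, Pi.smul_apply, smul_eq_mul, MulMemClass.coe_mul, Pi.mul_apply]
      ring
    rw [e2, abs_mul]
    have a1 := inn_g_le hN h0 h1 g p (fun a => (u a).1 q) (hu q)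
    have a2 := inn_abs_le hN h2 h3 (fun a => (X.y a).1 p) (fun a => (v a).1 q) (X.ysq p).le (hv q)
    calc _ ≤ (KK S g).1 p * 1 := mul_le_mul a1 a2 (abs_nonneg _) ((abs_nonneg _).trans a1)
      _ = _ := mul_one _
  intro c c' g hN h0 h1 h2 h3
  rw [one_mul]
  refine ⟨main c c' g u v hu hv hN h0 h1 h2 h3, ?_⟩
  have e : DS S c c' (fun a b => (g b * X.y a) * S.C r (u a * v b)) =
      DS S c' c (fun b a => (g b * X.y a) * S.C r (v b * u a)) := by
    unfold DS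
    rw [sum_comm]
    refine sum_congr rfl fun b _ => sum_congr rfl fun a _ => ?_
    show c a * c' b * S.E (g b * X.y a * S.C r (u a * v b)) =
      c' b * c a * S.E (g b * X.y a * S.C r (v b * u a))
    rw [mul_comm (u a)]; ring
  rw [e]
  exact main c' c g v u hv hu hN h2 h3 h0 h1

theorem y_sq_le (p : P) : ∑ a, (X.y a).1 p ^ 2 ≤ (N : ℝ) := (X.ysq p).le

theorem tel_gen {k : ℕ} {ζ : ℕ → ℝ} {i j : ℕ} (h : i ≤ j) :
    ∑ m ∈ Ico i j, (ζ (m + 1) - ζ m) = ζ j - ζ i := by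
  rw [sum_Ico_eq_sum_range]
  have : ∀ n, ∑ m ∈ range n, (ζ (i + m + 1) - ζ (i + m)) = ζ (i + n) - ζ i := by
    intro n
    induction n with
    | zero => simp
    | succ n ih => rw [sum_range_succ, ih]; ring_nf
  rw [this, show i + (j - i) = j by omega]

theorem BdZ.mono {Z : Fin N → Fin N → S.G} {w w' : ℝ} (h : X.BdZ Z w) (hw : w ≤ w') :
    X.BdZ Z w' := by
  intro c c' g hN h0 h1 h2 h3
  obtain ⟨a1, a2⟩ := h c c' g hN h0 h1 h2 h3
  have hK : 0 ≤ S.E (KK S g) := S.E_nonneg _ fun p => by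
    rw [KK_pt]; positivity
  exact ⟨a1.trans (mul_le_mul_of_nonneg_right hw hK), a2.trans (mul_le_mul_of_nonneg_right hw hK)⟩

theorem BdZ_Z1 {k : ℕ} {ζ : ℕ → ℝ} (z0 : 0 ≤ ζ 0) (mono : ∀ i, i < k → ζ i ≤ ζ (i + 1))
    (last : ζ k = 1) : X.BdZ (X.Z1 k ζ) 2 := by
  have h := (BdZ.prod (X := X) X.y X.y (X.y_sq_le) (X.y_sq_le)).sub
    (BdZ.sum (range k) (Z := fun m a b => (ζ (m + 1) - ζ m) • S.C (m + 1) (X.y a * X.y b))
      (w := fun m => |ζ (m + 1) - ζ m| * 1)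
      (fun m _ => (BdZ.Cprod (m + 1) X.y X.y (X.y_sq_le) (X.y_sq_le)).smul _))
  refine BdZ.mono h ?_
  have : ∑ m ∈ range k, |ζ (m + 1) - ζ m| * 1 = ζ k - ζ 0 := by
    rw [← sum_range_sub (fun m => ζ m) k]
    refine sum_congr rfl fun m hm => ?_
    rw [abs_of_nonneg (by have := mono m (mem_range.1 hm); linarith), mul_one]
  rw [this, last]; linarith

theorem BdZ_Z2 {k : ℕ} {ζ : ℕ → ℝ} (z0 : 0 ≤ ζ 0) (mono : ∀ i, i < k → ζ i ≤ ζ (i + 1))
    (last : ζ k = 1) {i : ℕ} (hi : i < k) : X.BdZ (X.Z2 k ζ i) 4 := by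
  have hy := X.y_sq_le
  have hM := fun j => X.M_sq_sum j
  have hw : ∀ m, m < k → |ζ (m + 1) - ζ m| * 1 = ζ (m + 1) - ζ m := fun m hm => by
    rw [abs_of_nonneg (by have := mono m hm; linarith), mul_one]
  have hζ : 0 ≤ ζ (i + 1) := by
    have e : ∑ m ∈ range (i + 1), (ζ (m + 1) - ζ m) = ζ (i + 1) - ζ 0 :=
      sum_range_sub (fun m => ζ m) (i + 1)
    have : 0 ≤ ∑ m ∈ range (i + 1), (ζ (m + 1) - ζ m) :=
      sum_nonneg fun m hm => by
        have := mono m (by have := mem_range.1 hm; omega); linarith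
    linarith
  have h := ((((((BdZ.prod (X := X) (X.M i) X.y (hM i) hy).sub
    (BdZ.sum (Ico (i + 1) k) (Z := fun m a b => (ζ (m + 1) - ζ m) • (X.M i a * X.M m b))
      (w := fun m => |ζ (m + 1) - ζ m| * 1)
      (fun m _ => (BdZ.prod (X.M i) (X.M m) (hM i) (hM m)).smul _))).sub
    ((BdZ.prod (X.M i) (X.M i) (hM i) (hM i)).smul (ζ (i + 1)))).add
    (BdZ.prod X.y (X.M i) hy (hM i))).sub
    (BdZ.sum (Ico i k) (Z := fun m a b => (ζ (m + 1) - ζ m) • (X.M m a * X.M i b))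
      (w := fun m => |ζ (m + 1) - ζ m| * 1)
      (fun m _ => (BdZ.prod (X.M m) (X.M i) (hM m) (hM i)).smul _))).sub
    (BdZ.sum (range i) (Z := fun m a b => (ζ (m + 1) - ζ m) • S.C (m + 1) (X.M i a * X.M i b))
      (w := fun m => |ζ (m + 1) - ζ m| * 1)
      (fun m _ => (BdZ.Cprod (m + 1) (X.M i) (X.M i) (hM i) (hM i)).smul _)))
  refine BdZ.mono h ?_
  have s1 : ∑ m ∈ Ico (i + 1) k, |ζ (m + 1) - ζ m| * 1 = ζ k - ζ (i + 1) := by
    rw [← tel_gen (k := k) (by omega : i + 1 ≤ k)]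
    exact sum_congr rfl fun m hm => hw m (mem_Ico.1 hm).2
  have s2 : ∑ m ∈ Ico i k, |ζ (m + 1) - ζ m| * 1 = ζ k - ζ i := by
    rw [← tel_gen (k := k) (by omega : i ≤ k)]
    exact sum_congr rfl fun m hm => hw m (mem_Ico.1 hm).2
  have s3 : ∑ m ∈ range i, |ζ (m + 1) - ζ m| * 1 = ζ i - ζ 0 := by
    rw [← sum_range_sub (fun m => ζ m) i]
    exact sum_congr rfl fun m hm => hw m (by have := mem_range.1 hm; omega)
  rw [s1, s2, s3, last, abs_of_nonneg hζ]
  linarith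

/-- The perturbation part `F_ab = Σ_j (α_j g_{j,a} y_b - β_j g_{j,b} y_a)`. -/
noncomputable def FF (X : ASys S N) (k : ℕ) (g : ℕ → Fin N → S.G) (α β : ℕ → ℝ) (a b : Fin N) :
    S.G := ∑ j ∈ range k, (α j • (g j a * X.y b) - β j • (g j b * X.y a))

theorem FF_bound {k : ℕ} {g : ℕ → Fin N → S.G} {α β : ℕ → ℝ} {c1 Γ : ℝ} (hc1 : 0 ≤ c1)
    (hα : ∀ j, j < k → |α j| ≤ c1) (hβ : ∀ j, j < k → |β j| ≤ c1)
    (hΓ : ∀ j, j < k → (1 / (N : ℝ)) * ∑ a, S.E (g j a * g j a) ≤ Γ)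
    {c c' : Fin N → ℝ} (hN : 0 < N) (h0 : ∀ a, 0 ≤ c a) (h1 : ∀ a, c a ≤ 1 / (N : ℝ))
    (h2 : ∀ a, 0 ≤ c' a) (h3 : ∀ a, c' a ≤ 1 / (N : ℝ)) {Z : Fin N → Fin N → S.G} {w : ℝ}
    (hw : 0 ≤ w) (hZ : X.BdZ Z w) :
    |DS S c c' (fun a b => X.FF k g α β a b * Z a b)| ≤ k * (c1 * w * (Γ + 1)) := by
  have e : (fun a b => X.FF k g α β a b * Z a b) = fun a b => ∑ j ∈ range k,
      (α j • ((g j a * X.y b) * Z a b) - β j • ((g j b * X.y a) * Z a b)) := by
    funext a b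
    unfold FF
    rw [sum_mul]
    refine sum_congr rfl fun j _ => ?_
    rw [sub_mul, smul_mul_assoc, smul_mul_assoc]
  rw [e, DS_sum]
  refine (abs_sum_le_sum_abs _ _).trans ?_
  have hterm : ∀ j ∈ range k, |DS S c c' (fun a b => α j • ((g j a * X.y b) * Z a b) -
      β j • ((g j b * X.y a) * Z a b))| ≤ c1 * w * (Γ + 1) := by
    intro j hj
    have hj' := mem_range.1 hj
    rw [DS_sub, DS_smul, DS_smul]
    obtain ⟨a1, a2⟩ := hZ c c' (g j) hN h0 h1 h2 h3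
    have hK : S.E (KK S (g j)) ≤ (1 / 2) * (Γ + 1) := by
      rw [E_KK]; have := hΓ j hj'; linarith
    have hK0 : 0 ≤ S.E (KK S (g j)) := S.E_nonneg _ fun p => by
      rw [KK_pt]; positivity
    calc _ ≤ |α j * DS S c c' (fun a b => (g j a * X.y b) * Z a b)| +
          |β j * DS S c c' (fun a b => (g j b * X.y a) * Z a b)| := abs_sub _ _
      _ ≤ c1 * (w * S.E (KK S (g j))) + c1 * (w * S.E (KK S (g j))) := by
          rw [abs_mul, abs_mul]
          exact add_le_add (mul_le_mul (hα j hj') a1 (abs_nonneg _) hc1)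
            (mul_le_mul (hβ j hj') a2 (abs_nonneg _) hc1)
      _ ≤ c1 * (w * ((1 / 2) * (Γ + 1))) + c1 * (w * ((1 / 2) * (Γ + 1))) := by gcongr
      _ = _ := by ring
  refine (sum_le_sum hterm).trans (le_of_eq ?_)
  rw [sum_const, card_range, nsmul_eq_mul]

end ASys

end Crest.Agent.RI
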