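import Crest.Agent.RI.SysA

/-!
# Row 164: basic facts on the concrete system, part C (admissible Hamiltonians)
-/

set_option autoImplicit false

namespace Crest.Agent.RI

open MeasureTheory ProbabilityTheory

variable {N K : ℕ}

/-- `Ham` is closed under linear combinations. -/
theorem Ham.add0 {E : Type*} [MeasurableSpace E] {β : E → ℝ} (hβ : ∀ e, 0 ≤ β e) {n : ℕ}
    {H H' : (Fin n → E) → ℝ} (h : Ham β H) (h' : Ham β H') : Ham β (fun ω => H ω + H' ω) := by
  obtain ⟨C, hC, hb⟩ := h.bound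
  obtain ⟨C', hC', hb'⟩ := h'.bound
  refine ⟨h.meas.add h'.meas, C + C', by positivity, fun ω => ?_⟩
  calc |H ω + H' ω| ≤ |H ω| + |H' ω| := abs_add_le _ _
    _ ≤ C * (1 + ∑ i, β (ω i)) + C' * (1 + ∑ i, β (ω i)) := add_le_add (hb ω) (hb' ω)
    _ = (C + C') * (1 + ∑ i, β (ω i)) := by ring

theorem Ham.smul {E : Type*} [MeasurableSpace E] {β : E → ℝ} {n : ℕ}
    {H : (Fin n → E) → ℝ} (h : Ham β H) (c : ℝ) : Ham β (fun ω => c * H ω) := by
  obtain ⟨C, hC, hb⟩ := h.bound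
  refine ⟨h.meas.const_mul c, |c| * C, by positivity, fun ω => ?_⟩
  rw [abs_mul, mul_assoc]
  exact mul_le_mul_of_nonneg_left (hb ω) (abs_nonneg c)

private theorem ham_of_bdd {E : Type*} [MeasurableSpace E] {β : E → ℝ} (hβ : ∀ e, 0 ≤ β e) {n : ℕ}
    {H : (Fin n → E) → ℝ} (hm : Measurable H) (C : ℝ) (hC : 0 ≤ C) (hb : ∀ ω, |H ω| ≤ C) :
    Ham β H := by
  refine ⟨hm, C, hC, fun ω => (hb ω).trans ?_⟩
  have h1 : 0 ≤ ∑ i, β (ω i) := Finset.sum_nonneg (fun i _ => hβ _)
  nlinarith [mul_nonneg hC h1]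

theorem Ham.const {E : Type*} [MeasurableSpace E] {β : E → ℝ} (hβ : ∀ e, 0 ≤ β e) {n : ℕ} (c : ℝ) :
    Ham β (fun _ : Fin n → E => c) :=
  ham_of_bdd hβ measurable_const |c| (abs_nonneg c) (fun _ => le_rfl)

theorem Ham.sum {E : Type*} [MeasurableSpace E] {β : E → ℝ} (hβ : ∀ e, 0 ≤ β e) {n : ℕ} {ι : Type*}
    (s : Finset ι) {H : ι → (Fin n → E) → ℝ} (h : ∀ i ∈ s, Ham β (H i)) :
    Ham β (fun ω => ∑ i ∈ s, H i ω) := by
  classical
  induction s using Finset.induction_on with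
  | empty => simpa using Ham.const (n := n) hβ 0
  | insert a s ha ih =>
    have h1 := Ham.add0 hβ (h a (Finset.mem_insert_self a s))
      (ih (fun i hi => h i (Finset.mem_insert_of_mem hi)))
    simpa [Finset.sum_insert ha] using h1

/-- `|H| ≤ C (1 + Σ β)` is tame. PROOF: `1 + x ≤ exp x`. -/
theorem Ham.tame0 {E : Type*} [MeasurableSpace E] {β : E → ℝ} {n : ℕ} (hβ : ∀ e, 0 ≤ β e)
    {H : (Fin n → E) → ℝ} (h : Ham β H) : Tame β H := by
  obtain ⟨C, hC, hb⟩ := h.bound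
  refine ⟨h.meas, C + 1, by positivity, fun ω => (hb ω).trans ?_⟩
  have h1 : 0 ≤ ∑ i, β (ω i) := Finset.sum_nonneg (fun i _ => hβ _)
  have h2 : 1 + ∑ i, β (ω i) ≤ Real.exp ((C + 1) * ∑ i, β (ω i)) := by
    calc 1 + ∑ i, β (ω i) = (∑ i, β (ω i)) + 1 := by ring
      _ ≤ Real.exp (∑ i, β (ω i)) := Real.add_one_le_exp _
      _ ≤ Real.exp ((C + 1) * ∑ i, β (ω i)) := by
        apply Real.exp_le_exp.mpr
        nlinarith [mul_nonneg hC h1]
  exact mul_le_mul (by linarith) h2 (by linarith) (by linarith)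

/-- main field of level `i` -/
noncomputable def gs (k : ℕ) (i : Fin k) (ω : Fin (k + 1) → EN N) : ℝ :=
  ∑ r : Fin N, (ω i.castSucc).2.1 r * spin ((ω (Fin.last k)).2.2.2 r)

private theorem βN_nonneg (x : EN N) : 0 ≤ βN x :=
  add_nonneg (Finset.sum_nonneg (fun _ _ => abs_nonneg _)) (Finset.sum_nonneg (fun _ _ => abs_nonneg _))

private theorem measurable_spin : Measurable spin := measurable_of_countable spin

private theorem meas_cfg (k : ℕ) (r : Fin N) :
    Measurable (fun ω : Fin (k + 1) → EN N => (ω (Fin.last k)).2.2.2 r) :=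
  (measurable_pi_apply r).comp ((measurable_snd.comp (measurable_snd.comp measurable_snd)).comp
    (measurable_pi_apply (Fin.last k)))

private theorem meas_g1 (k : ℕ) (i : Fin (k + 1)) (r : Fin N) :
    Measurable (fun ω : Fin (k + 1) → EN N => (ω i).2.1 r) :=
  (measurable_pi_apply r).comp ((measurable_fst.comp measurable_snd).comp (measurable_pi_apply i))

private theorem meas_g2 (k : ℕ) (i : Fin (k + 1)) (r : Fin N) :
    Measurable (fun ω : Fin (k + 1) → EN N => (ω i).2.2.1 r) :=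
  (measurable_pi_apply r).comp ((measurable_fst.comp (measurable_snd.comp measurable_snd)).comp
    (measurable_pi_apply i))

private theorem βN_le (k : ℕ) (ω : Fin (k + 1) → EN N) (i : Fin (k + 1)) :
    βN (ω i) ≤ 1 + ∑ j, βN (ω j) := by
  have := Finset.single_le_sum (f := fun j => βN (ω j)) (fun j _ => βN_nonneg _) (Finset.mem_univ i)
  linarith

private theorem abs_g1_le (x : EN N) (r : Fin N) : |x.2.1 r| ≤ βN x := by
  have h1 := Finset.single_le_sum (f := fun a => |x.2.1 a|) (fun j _ => abs_nonneg _)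
    (Finset.mem_univ r)
  have h2 : 0 ≤ ∑ a, |x.2.2.1 a| := Finset.sum_nonneg (fun _ _ => abs_nonneg _)
  unfold βN
  linarith

private theorem abs_g2_le (x : EN N) (r : Fin N) : |x.2.2.1 r| ≤ βN x := by
  have h1 := Finset.single_le_sum (f := fun a => |x.2.2.1 a|) (fun j _ => abs_nonneg _)
    (Finset.mem_univ r)
  have h2 : 0 ≤ ∑ a, |x.2.1 a| := Finset.sum_nonneg (fun _ _ => abs_nonneg _)
  unfold βN
  linarith

private theorem ham_g1s (k : ℕ) (i : Fin k) (r : Fin N) :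
    Ham (βN (N := N)) (fun ω : Fin (k + 1) → EN N =>
      (ω i.castSucc).2.1 r * spin ((ω (Fin.last k)).2.2.2 r)) := by
  refine ⟨(meas_g1 k _ r).mul (measurable_spin.comp (meas_cfg k r)), 1, zero_le_one, fun ω => ?_⟩
  rw [abs_mul, abs_spin, mul_one, one_mul]
  exact (abs_g1_le _ _).trans (βN_le k ω _)

private theorem ham_g2y (k : ℕ) (i : Fin k) (a : Fin N) :
    Ham (βN (N := N)) (fun ω : Fin (k + 1) → EN N => (ω i.castSucc).2.2.1 a * yv k ω a) := by
  refine ⟨(meas_g2 k _ a).mul (measurable_yv k a), N, Nat.cast_nonneg N, fun ω => ?_⟩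
  rw [abs_mul, mul_comm]
  exact mul_le_mul (abs_yv_le k ω a) ((abs_g2_le _ _).trans (βN_le k ω _)) (abs_nonneg _)
    (Nat.cast_nonneg N)

private theorem ham_yy (k : ℕ) (a : Fin N) :
    Ham (βN (N := N)) (fun ω : Fin (k + 1) → EN N => yv k ω a * yv k ω a) := by
  refine ham_of_bdd βN_nonneg ((measurable_yv k a).mul (measurable_yv k a)) (N * N)
    (by positivity) (fun ω => ?_)
  rw [abs_mul]
  exact mul_le_mul (abs_yv_le k ω a) (abs_yv_le k ω a) (abs_nonneg _) (Nat.cast_nonneg N)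

theorem ham_gs (k : ℕ) (i : Fin k) : Ham (βN (N := N)) (gs k i) :=
  Ham.sum βN_nonneg Finset.univ (fun r _ => ham_g1s k i r)

theorem ham_gy (k : ℕ) (κ : Fin N → Fin K) (i : Fin k) (l : Fin K) :
    Ham (βN (N := N)) (gy k κ i l) := by
  refine Ham.smul (Ham.sum βN_nonneg Finset.univ (fun a _ => ?_)) _
  by_cases h : κ a = l
  · simpa [h] using ham_g2y k i a
  · simpa [h] using Ham.const (n := k + 1) (βN_nonneg (N := N)) 0

theorem ham_ovl_self (k : ℕ) (κ : Fin N → Fin K) (l : Fin K) :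
    Ham (βN (N := N)) (fun ω => ovl k κ l ω ω) := by
  refine Ham.smul (Ham.sum βN_nonneg Finset.univ (fun a _ => ?_)) _
  by_cases h : κ a = l
  · simpa [h] using ham_yy k a
  · simpa [h] using Ham.const (n := k + 1) (βN_nonneg (N := N)) 0

theorem HN_ham (k : ℕ) (θ : Par N K) : Ham (βN (N := N)) (HN k θ) := by
  have hB : Ham (βN (N := N)) (fun ω : Fin (k + 1) → EN N => θ.B (ω (Fin.last k)).2.2.2) := by
    refine ham_of_bdd βN_nonneg ?_ (∑ σ, |θ.B σ|)
      (Finset.sum_nonneg (fun _ _ => abs_nonneg _)) (fun ω => ?_)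
    · exact (measurable_of_countable θ.B).comp
        ((measurable_snd.comp (measurable_snd.comp measurable_snd)).comp
          (measurable_pi_apply (Fin.last k)))
    · exact Finset.single_le_sum (f := fun σ => |θ.B σ|) (fun j _ => abs_nonneg _)
        (Finset.mem_univ _)
  have h1 : Ham (βN (N := N)) (fun ω : Fin (k + 1) → EN N =>
      (1 / 2) * ∑ a : Fin N, θ.e (θ.κ a) * yv k ω a ^ 2) := by
    refine Ham.smul (Ham.sum βN_nonneg Finset.univ (fun a _ => ?_)) _
    have := Ham.smul (ham_yy k a) (θ.e (θ.κ a))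
    simpa [sq] using this
  have h2 : Ham (βN (N := N)) (fun ω : Fin (k + 1) → EN N =>
      ∑ i : Fin k, θ.v i * ∑ r : Fin N, (ω i.castSucc).2.1 r * spin ((ω (Fin.last k)).2.2.2 r)) :=
    Ham.sum βN_nonneg Finset.univ (fun i _ => Ham.smul (ham_gs k i) (θ.v i))
  have h3 : Ham (βN (N := N)) (fun ω : Fin (k + 1) → EN N =>
      ∑ i : Fin k, ∑ a : Fin N, θ.c i (θ.κ a) * (ω i.castSucc).2.2.1 a * yv k ω a) := by
    refine Ham.sum βN_nonneg Finset.univ (fun i _ => Ham.sum βN_nonneg Finset.univ (fun a _ => ?_))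
    have := Ham.smul (ham_g2y k i a) (θ.c i (θ.κ a))
    simpa [mul_assoc] using this
  exact Ham.add0 βN_nonneg (Ham.add0 βN_nonneg (Ham.add0 βN_nonneg h1 h2) h3) hB

end Crest.Agent.RI
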