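import Crest.Agent.RI.MidD
import Crest.Agent.RI.SysC

/-!
# Row 164, Part 8.4: the coupled tower seen from the decoupling theorem
-/

set_option autoImplicit false

namespace Crest.Agent.RI

open MeasureTheory ProbabilityTheory

variable {N K J k : ℕ}

/-- common level space: (system, `ξ_⊥`, (`g_0`, `ε`)) -/
abbrev MidA_E (N : ℕ) : Type := EN N × ((Fin N → ℝ) × (ℝ × Bool))

/-- its law -/
noncomputable def MidA_m (P : Measure (ON N)) : Measure (MidA_E N) :=
  (mN P (unifA N)).prod ((gvec N).prod mX)

/-- the common Hamiltonian -/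
noncomputable def MidA_H (D : Blk) (L : LBd J) (s : ℝ) (x : XI k D.K J → ℝ) (κ : Fin N → Fin D.K)
    (lab : Fin N → Fin J) (l0 : Fin D.K) (A b v : ℝ) (i0 : Fin k)
    (ω : Fin (k + 1) → MidA_E N) : ℝ :=
  HN k (θL D L k s x κ lab) (fun j => (ω j).1) +
    chi A (DInf D l0 (fun l => (Real.sqrt N)⁻¹ * ∑ a : Fin N,
      if κ a = l then (ω 0).2.1 a * yv k (fun j => (ω j).1) a else 0)
      (spin (ω (Fin.last k)).2.2.2)) +
    (b + v * (ω i0.castSucc).2.2.1) * spin (ω (Fin.last k)).2.2.2

theorem MidA_tail : MeasurePreserving (fun p : Fin (N + 1) → ℝ => (Fin.tail p : Fin N → ℝ))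
    (gvec (N + 1)) (gvec N) := by
  have h := measurePreserving_piFinSuccAbove (fun _ : Fin (N + 1) => gaussianReal 0 1) 0
  have h2 := (measurePreserving_snd (μ := gaussianReal 0 1)
    (ν := Measure.pi fun _ : Fin N => gaussianReal 0 1)).comp h
  have e : (fun p : Fin (N + 1) → ℝ => (Fin.tail p : Fin N → ℝ)) =
      Prod.snd ∘ (MeasurableEquiv.piFinSuccAbove (fun _ : Fin (N + 1) => ℝ) 0) := by
    funext p
    rfl
  rw [e]
  exact h2

/-- first projection -/
def MidA_T1 (x : EC N) : MidA_E N := (x.1.1, (Fin.tail x.1.2.1, x.2))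

/-- second projection -/
def MidA_T2 (x : E2 (EM N) N K) : MidA_E N := (x.1.1, (x.2.1, x.1.2))

theorem MidA_T1_mp {P : Measure (ON N)} (hP : HaarO P) :
    MeasurePreserving (MidA_T1 (N := N)) (mC P) (MidA_m P) := by
  have := prob_mN hP (unifA N)
  have i1 : IsProbabilityMeasure (gvec (N + 1)) := by unfold gvec; infer_instance
  have i2 : IsProbabilityMeasure (gvec N) := by unfold gvec; infer_instance
  have h1 : MeasurePreserving (fun p : (Fin (N + 1) → ℝ) × ℝ => (Fin.tail p.1 : Fin N → ℝ))
      ((gvec (N + 1)).prod (gaussianReal 0 1)) (gvec N) :=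
    MidA_tail.comp measurePreserving_fst
  have h2 := measurePreserving_prodAssoc (mN P (unifA N))
    ((gvec (N + 1)).prod (gaussianReal 0 1)) mX
  have h3 := (MeasurePreserving.id (mN P (unifA N))).prod (h1.prod (MeasurePreserving.id mX))
  exact h3.comp h2

theorem MidA_T2_mp {P : Measure (ON N)} (hP : HaarO P) :
    MeasurePreserving (MidA_T2 (N := N) (K := K)) (m2 (mM P) N K) (MidA_m P) := by
  have := prob_mN hP (unifA N)
  have i2 : IsProbabilityMeasure (gvec N) := by unfold gvec; infer_instance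
  have i3 : IsProbabilityMeasure (gvec K) := by unfold gvec; infer_instance
  have h1 : MeasurePreserving (fun p : (ℝ × Bool) × ((Fin N → ℝ) × (Fin K → ℝ)) =>
      ((p.2.1, p.1) : (Fin N → ℝ) × (ℝ × Bool)))
      (mX.prod ((gvec N).prod (gvec K))) ((gvec N).prod mX) := by
    have a1 : MeasurePreserving (Prod.map id Prod.fst) (mX.prod ((gvec N).prod (gvec K)))
        (mX.prod (gvec N)) := (MeasurePreserving.id mX).prod measurePreserving_fst
    exact (Measure.measurePreserving_swap (μ := mX) (ν := gvec N)).comp a1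
  have h2 := measurePreserving_prodAssoc (mN P (unifA N)) mX ((gvec N).prod (gvec K))
  have h3 := (MeasurePreserving.id (mN P (unifA N))).prod h1
  exact h3.comp h2

theorem MidA_H_meas (D : Blk) (L : LBd J) (s : ℝ) (x : XI k D.K J → ℝ) (κ : Fin N → Fin D.K)
    (lab : Fin N → Fin J) (l0 : Fin D.K) (A b v : ℝ) (i0 : Fin k) :
    Measurable (MidA_H D L s x κ lab l0 A b v i0) := by
  have m0 : Measurable (fun ω : Fin (k + 1) → MidA_E N => (fun j => (ω j).1)) :=
    measurable_pi_iff.2 fun j => measurable_fst.comp (measurable_pi_apply j)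
  have m1 := (HN_ham k (θL D L k s x κ lab)).meas.comp m0
  have m2 : Measurable (fun ω : Fin (k + 1) → MidA_E N => spin (ω (Fin.last k)).2.2.2) := by
    have : Measurable spin := measurable_of_finite _
    exact this.comp (measurable_snd.comp (measurable_snd.comp (measurable_snd.comp
      (measurable_pi_apply (Fin.last k)))))
  have m3 : Measurable (fun ω : Fin (k + 1) → MidA_E N => (ω i0.castSucc).2.2.1) :=
    measurable_fst.comp (measurable_snd.comp (measurable_snd.comp (measurable_pi_apply _)))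
  have m4 : ∀ a : Fin N, Measurable (fun ω : Fin (k + 1) → MidA_E N =>
      (ω 0).2.1 a * yv k (fun j => (ω j).1) a) := by
    intro a
    have u1 : Measurable (fun ω : Fin (k + 1) → MidA_E N => (ω 0).2.1 a) :=
      (measurable_pi_apply a).comp (measurable_fst.comp (measurable_snd.comp
        (measurable_pi_apply _)))
    exact u1.mul ((measurable_yv k a).comp m0)
  have m5 : ∀ l : Fin D.K, Measurable (fun ω : Fin (k + 1) → MidA_E N =>
      (Real.sqrt N)⁻¹ * ∑ a : Fin N,
      if κ a = l then (ω 0).2.1 a * yv k (fun j => (ω j).1) a else 0) := by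
    intro l
    refine Measurable.const_mul (Finset.measurable_sum _ fun a _ => ?_) _
    by_cases h : κ a = l
    · simp only [h, if_true]
      exact m4 a
    · simp only [h, if_false]
      exact measurable_const
  have m6 : Measurable (fun ω : Fin (k + 1) → MidA_E N =>
      DInf D l0 (fun l => (Real.sqrt N)⁻¹ * ∑ a : Fin N,
      if κ a = l then (ω 0).2.1 a * yv k (fun j => (ω j).1) a else 0)
      (spin (ω (Fin.last k)).2.2.2)) := by
    unfold DInf DI
    have s1 := Finset.measurable_sum (Finset.univ : Finset (Fin D.K)) fun l _ => m5 l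
    have s2 := Finset.measurable_sum (Finset.univ : Finset (Fin D.K))
      fun l _ => (m5 l).const_mul (D.d l)
    exact ((measurable_const.add (m2.mul (s2.sub (measurable_const.mul s1)))).sub
      (s1.mul s2)).add ((s1.pow_const 2).const_mul _)
  unfold MidA_H
  exact (m1.add ((measurable_chi A).1.comp m6)).add
    ((measurable_const.add (m3.const_mul v)).mul m2)

/-- (a) the tower on `EC N` of a Hamiltonian which sees only (system, `ξ_⊥`, `g_0`, `ε`) is the tower on `E2 (EM N) N K` at the field `z1`.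
PROOF: both are images of the common level space under measure preserving projections (`nest_map`): `T1 : EC N → EN N × (Fin N → ℝ) × (ℝ × Bool)`
(`ξ ↦ Fin.tail ξ`), `T2 : E2 (EM N) N K → ` same. -/
theorem nest_EC_z1 {P : Measure (ON N)} (hP : HaarO P) (D : Blk) (L : LBd J) (s : ℝ)
    (x : XI k D.K J → ℝ) (κ : Fin N → Fin D.K) (lab : Fin N → Fin J) (l0 : Fin D.K)
    (A b v : ℝ) (i0 : Fin k) (ζ : ℕ → ℝ) :
    nest (mC P) ζ (k + 1) 0 (fun ω => HN k (θL D L k s x κ lab) (b0 ω) +
        chi A (DInf D l0 (zx κ ω) (ep ω)) + (b + v * (ω i0.castSucc).2.1) * ep ω) =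
      nest (m2 (mM P) N D.K) ζ (k + 1) 0 (fun ω => HM D L s x κ lab b v i0 (bp ω) +
        UM D l0 A (z1 κ (qM (N := N) (k := k)) ω) (bp ω)) := by
  have p1 := prob_mC hP
  have p2 : IsProbabilityMeasure (m2 (mM P) N D.K) := by
    have := prob_mN hP (unifA N)
    unfold m2 mM gvec
    infer_instance
  have p3 : IsProbabilityMeasure (MidA_m P) := by
    have := prob_mN hP (unifA N)
    unfold MidA_m gvec
    infer_instance
  have hm := MidA_H_meas D L s x κ lab l0 A b v i0
  have h1 := nest_map (ζ := ζ) (MidA_T1_mp hP) (k + 1) 0 hm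
  have h2 := nest_map (ζ := ζ) (MidA_T2_mp (K := D.K) hP) (k + 1) 0 hm
  have e1 : (fun ω : Fin (k + 1) → EC N => HN k (θL D L k s x κ lab) (b0 ω) +
        chi A (DInf D l0 (zx κ ω) (ep ω)) + (b + v * (ω i0.castSucc).2.1) * ep ω) =
      fun ω => MidA_H D L s x κ lab l0 A b v i0 (fun j => MidA_T1 (ω j)) := by
    funext ω
    rfl
  have e2 : (fun ω : Fin (k + 1) → E2 (EM N) N D.K => HM D L s x κ lab b v i0 (bp ω) +
        UM D l0 A (z1 κ (qM (N := N) (k := k)) ω) (bp ω)) =
      fun ω => MidA_H D L s x κ lab l0 A b v i0 (fun j => MidA_T2 (ω j)) := by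
    funext ω
    have hz : z1 κ (qM (N := N) (k := k)) ω = fun l => (Real.sqrt N)⁻¹ * ∑ a : Fin N,
        if κ a = l then (ω 0).2.1 a * yv k (fun j => (ω j).1.1) a else 0 := by
      funext l
      unfold z1 qM bp
      rw [Finset.mul_sum]
      refine Finset.sum_congr rfl fun a _ => ?_
      split_ifs
      · ring
      · simp
    unfold HM UM MidA_H MidA_T2
    rw [hz]
    simp only [bp]
    ring
  rw [e1, e2, h1, h2]

end Crest.Agent.RI
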