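import Crest.Agent.RI.TowerAPI

/-!
# Row 164, tower: expectations in a sum of independent towers
-/

set_option autoImplicit false

namespace Crest.Agent.RI
open MeasureTheory ProbabilityTheory

variable {E : Type} [MeasurableSpace E]
variable {m : Measure E} [IsProbabilityMeasure m] {ζ : ℕ → ℝ} {β : E → ℝ}
variable {E' : Type} [MeasurableSpace E'] {m' : Measure E'} [IsProbabilityMeasure m'] {β' : E' → ℝ}

omit [MeasurableSpace E] [MeasurableSpace E'] in
private theorem tindep_cons_fst {n : ℕ} (p : E × E') (ω : Fin n → E × E') :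
    (fun j => ((Fin.cons p ω : Fin (n + 1) → E × E') j).1) =
      (Fin.cons p.1 (fun j => (ω j).1) : Fin (n + 1) → E) := by
  funext j
  refine Fin.cases ?_ (fun j => ?_) j <;> simp

omit [MeasurableSpace E] [MeasurableSpace E'] in
private theorem tindep_cons_snd {n : ℕ} (p : E × E') (ω : Fin n → E × E') :
    (fun j => ((Fin.cons p ω : Fin (n + 1) → E × E') j).2) =
      (Fin.cons p.2 (fun j => (ω j).2) : Fin (n + 1) → E') := by
  funext j
  refine Fin.cases ?_ (fun j => ?_) j <;> simp

private theorem tindep_wgt (hβ : Dom m β) (hβ' : Dom m' β') (hζ : Exps ζ) (n i : ℕ)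
    {H : (Fin (n + 1) → E) → ℝ} {H' : (Fin (n + 1) → E') → ℝ} (hH : Ham β H) (hH' : Ham β' H')
    (p : E × E') :
    wgt (m.prod m') ζ n i (fun ω => H (fun j => (ω j).1) + H' (fun j => (ω j).2)) p =
      wgt m ζ n i H p.1 * wgt m' ζ n i H' p.2 := by
  rw [wgt, wgt, wgt, nest_indep hβ hβ' hζ (n + 1) i hH hH', ← Real.exp_add]
  have h1 : nest (m.prod m') ζ n (i + 1)
      (fun ω => H (fun j => ((Fin.cons p ω : Fin (n + 1) → E × E') j).1) +
        H' (fun j => ((Fin.cons p ω : Fin (n + 1) → E × E') j).2)) =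
      nest m ζ n (i + 1) (fun ω => H (Fin.cons p.1 ω)) +
        nest m' ζ n (i + 1) (fun ω => H' (Fin.cons p.2 ω)) := by
    simp only [tindep_cons_fst, tindep_cons_snd]
    exact nest_indep hβ hβ' hζ n (i + 1) (hH.cons hβ p.1) (hH'.cons hβ' p.2)
  rw [h1]
  congr 1
  ring

/-- PROOF: induction on `n`: the weight of the first level is `wgt(H)(e) · wgt(H')(e')` (`nest_indep` for `n` and `n+1` levels), Fubini, `pathE_one` for the second
tower (or `pathE_const`). -/
theorem pathE_indep_mul (hβ : Dom m β) (hβ' : Dom m' β') (hζ : Exps ζ) (n i : ℕ)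
    {H Φ : (Fin n → E) → ℝ} {H' Ψ : (Fin n → E') → ℝ} (hH : Ham β H) (hH' : Ham β' H')
    (hΦ : Tame β Φ) (hΨ : Tame β' Ψ) :
    pathE (m.prod m') ζ n i (fun ω => H (fun j => (ω j).1) + H' (fun j => (ω j).2))
      (fun ω => Φ (fun j => (ω j).1) * Ψ (fun j => (ω j).2)) =
      pathE m ζ n i H Φ * pathE m' ζ n i H' Ψ := by
  induction n generalizing i with
  | zero =>
    simp only [pathE]
    congr 1
    · congr 1; exact Subsingleton.elim _ _
    · congr 1; exact Subsingleton.elim _ _
  | succ n ih =>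
    simp only [pathE]
    rw [← integral_prod_mul]
    congr 1
    funext p
    rw [tindep_wgt hβ hβ' hζ n i hH hH' p]
    have h1 := ih (i + 1) (hH.cons hβ p.1) (hH'.cons hβ' p.2) (hΦ.cons hβ p.1) (hΨ.cons hβ' p.2)
    simp only [tindep_cons_fst, tindep_cons_snd]
    rw [h1]
    ring

theorem pathE_indep_fst (hβ : Dom m β) (hβ' : Dom m' β') (hζ : Exps ζ) (n i : ℕ)
    {H Φ : (Fin n → E) → ℝ} {H' : (Fin n → E') → ℝ} (hH : Ham β H) (hH' : Ham β' H')
    (hΦ : Tame β Φ) :
    pathE (m.prod m') ζ n i (fun ω => H (fun j => (ω j).1) + H' (fun j => (ω j).2))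
      (fun ω => Φ (fun j => (ω j).1)) = pathE m ζ n i H Φ := by
  have h1 := pathE_indep_mul hβ hβ' hζ n i hH hH' hΦ (Tame.const (n := n) hβ' 1)
  rw [pathE_const hβ' hζ n i hH' 1, mul_one] at h1
  simpa only [mul_one] using h1

theorem pairE_indep_fst (hβ : Dom m β) (hβ' : Dom m' β') (hζ : Exps ζ) (r n i : ℕ)
    {H : (Fin n → E) → ℝ} {H' : (Fin n → E') → ℝ} {Φ : (Fin n → E) → (Fin n → E) → ℝ}
    (hH : Ham β H) (hH' : Ham β' H') (hΦ : Tame2 β Φ) :
    pairE (m.prod m') ζ r n i (fun ω => H (fun j => (ω j).1) + H' (fun j => (ω j).2))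
      (fun ω ω' => Φ (fun j => (ω j).1) (fun j => (ω' j).1)) = pairE m ζ r n i H Φ := by
  induction r generalizing n i with
  | zero =>
    have e0 : ∀ {X : Type} [MeasurableSpace X] (μ : Measure X) (K : (Fin n → X) → ℝ)
        (Ψ : (Fin n → X) → (Fin n → X) → ℝ),
        pairE μ ζ 0 n i K Ψ = pathE μ ζ n i K (fun ω => pathE μ ζ n i K (fun ω' => Ψ ω ω')) := by
      intro X _ μ K Ψ
      cases n <;> rfl
    rw [e0, e0]
    have h1 : (fun ω : Fin n → E × E' => pathE (m.prod m') ζ n i
        (fun ω => H (fun j => (ω j).1) + H' (fun j => (ω j).2))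
        (fun ω' => Φ (fun j => (ω j).1) (fun j => (ω' j).1))) =
        fun ω => (fun ω0 => pathE m ζ n i H (Φ ω0)) (fun j => (ω j).1) := by
      funext ω
      exact pathE_indep_fst hβ hβ' hζ n i hH hH' (TPairA_t2_right hβ hΦ _)
    rw [h1]
    exact pathE_indep_fst hβ hβ' hζ n i hH hH' (TPairA_t2_inner hβ hζ i hH hΦ)
  | succ r ih =>
    cases n with
    | zero =>
      simp only [pairE]
      congr 1 <;> exact Subsingleton.elim _ _
    | succ n =>
      simp only [pairE]
      have h2 := (wgt_integral hβ' hζ n i hH').2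
      calc _ = ∫ p : E × E', (wgt m ζ n i H p.1 * pairE m ζ r n (i + 1)
              (fun ω => H (Fin.cons p.1 ω)) (fun ω ω' => Φ (Fin.cons p.1 ω) (Fin.cons p.1 ω'))) *
              wgt m' ζ n i H' p.2 ∂(m.prod m') := by
            congr 1
            funext p
            rw [tindep_wgt hβ hβ' hζ n i hH hH' p]
            have h1 := ih n (i + 1) (hH.cons hβ p.1) (hH'.cons hβ' p.2) (TPairA_t2_cons hβ hΦ p.1)
            simp only [tindep_cons_fst, tindep_cons_snd]
            rw [h1]
            ring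
        _ = _ := by
            rw [integral_prod_mul (fun e => wgt m ζ n i H e * pairE m ζ r n (i + 1)
              (fun ω => H (Fin.cons e ω)) (fun ω ω' => Φ (Fin.cons e ω) (Fin.cons e ω')))
              (fun e => wgt m' ζ n i H' e), h2, mul_one]

end Crest.Agent.RI
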