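import Crest.Agent.RI.MidInst
import Crest.Agent.RI.TIndep

/-!
# Row 164, Part 8.4: definitions for the truncated cavity functional
-/

set_option autoImplicit false

namespace Crest.Agent.RI

open MeasureTheory ProbabilityTheory

variable {N K J k : ℕ}

/-- overlap error of the system `S` with respect to the prescribed values `r` -/
noncomputable def errS {N : ℕ} (P : Measure (ON N)) (D : Blk) (L : LBd J) (k : ℕ) (s : ℝ)
    (x : XI k D.K J → ℝ) (κ : Fin N → Fin D.K) (lab : Fin N → Fin J) (r : ℕ → Fin D.K → ℝ) : ℝ :=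
  ∑ l, EL P D L k s x κ lab (fun ω => |ovl k κ l ω ω - c2 r k l|) +
    ∑ j ∈ Finset.range k, (1 / (k : ℝ)) *
      ∑ l, EL2 P D L k s x κ lab (j + 1) (fun ω ω' => |ovl k κ l ω ω' - c2 r j l|)

/-- the truncated Hamiltonian on the coupled tower -/
noncomputable def HU0 (D : Blk) (L : LBd J) (s : ℝ) (x : XI k D.K J → ℝ) (κ : Fin N → Fin D.K)
    (lab : Fin N → Fin J) (l0 : Fin D.K) (j0 : Fin J) (τ : Fin J → ℝ) (A t v : ℝ) (i0 : Fin k)
    (ω : Fin (k + 1) → EC N) : ℝ :=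
  HN k (θL D L k s x κ lab) (b0 ω) + chi A (DInf D l0 (zx κ ω) (ep ω)) + dB L τ j0 (ep ω) +
    (t + v * (ω i0.castSucc).2.1) * ep ω

/-- field on the new spin -/
noncomputable def bb (L : LBd J) (τ : Fin J → ℝ) (j0 : Fin J) : ℝ :=
  L.c j0 - 2 * L.kap * (τ j0 - L.γ j0 * L.m j0)

/-- magnetic constant -/
noncomputable def cc (L : LBd J) (τ : Fin J → ℝ) : ℝ :=
  L.kap * ∑ j, (τ j - L.γ j * L.m j) ^ 2 + 2 * L.kap * ∑ j, (τ j - L.γ j * L.m j) * (L.γ j * L.m j)

theorem dB_eq (L : LBd J) (τ : Fin J → ℝ) (j0 : Fin J) (ε : ℝ) :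
    dB L τ j0 ε = bb L τ j0 * ε + cc L τ := by
  unfold dB bb cc
  ring

end Crest.Agent.RI
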