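import Crest.Agent.RI.CoupMP
import Crest.Agent.RI.TTDefs
import Crest.Agent.RI.DecC
import Crest.Agent.RI.CoupPt

/-!
# Row 164, Part 8.4: the decoupling theorem for the cavity field, instance of the hypotheses
-/

set_option autoImplicit false

namespace Crest.Agent.RI

open MeasureTheory ProbabilityTheory

variable {N K J k : ℕ}

/-- base level space: system and (field, spin) of the new spin -/
abbrev EM (N : ℕ) : Type := EN N × (ℝ × Bool)
noncomputable def mM (P : Measure (ON N)) : Measure (EM N) := (mN P (unifA N)).prod mX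
noncomputable def βM (x : EM N) : ℝ := βN x.1 + βX x.2

noncomputable def HM (D : Blk) (L : LBd J) (s : ℝ) (x : XI k D.K J → ℝ) (κ : Fin N → Fin D.K)
    (lab : Fin N → Fin J) (b v : ℝ) (i0 : Fin k) (ω : Fin (k + 1) → EM N) : ℝ :=
  HN k (θL D L k s x κ lab) (fun j => (ω j).1) +
    (b + v * (ω i0.castSucc).2.1) * spin (ω (Fin.last k)).2.2

noncomputable def qM (a : Fin N) (ω : Fin (k + 1) → EM N) : ℝ :=
  (Real.sqrt N)⁻¹ * yv k (fun j => (ω j).1) a

noncomputable def UM (D : Blk) (l0 : Fin D.K) (A : ℝ) (z : Fin D.K → ℝ) (ω : Fin (k + 1) → EM N) : ℝ :=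
  chi A (DInf D l0 z (spin (ω (Fin.last k)).2.2))

/-- `∂_l DInf` -/
noncomputable def dDI (D : Blk) (l0 l : Fin D.K) (z : Fin D.K → ℝ) (ε : ℝ) : ℝ :=
  ε * (D.d l - D.dbar) - (∑ l', D.d l' * z l') - (∑ l', z l') * D.d l +
    (D.d l0 + D.dbar) * ∑ l', z l'

noncomputable def UM1 (D : Blk) (l0 : Fin D.K) (A : ℝ) (l : Fin D.K) (z : Fin D.K → ℝ)
    (ω : Fin (k + 1) → EM N) : ℝ :=
  chi1 A (DInf D l0 z (spin (ω (Fin.last k)).2.2)) * dDI D l0 l z (spin (ω (Fin.last k)).2.2)

noncomputable def UM2 (D : Blk) (l0 : Fin D.K) (A : ℝ) (l : Fin D.K) (z : Fin D.K → ℝ)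
    (ω : Fin (k + 1) → EM N) : ℝ :=
  chi2 A (DInf D l0 z (spin (ω (Fin.last k)).2.2)) * dDI D l0 l z (spin (ω (Fin.last k)).2.2) ^ 2 +
    chi1 A (DInf D l0 z (spin (ω (Fin.last k)).2.2)) * (D.d l0 + D.dbar - 2 * D.d l)

private theorem MidInst_dom_prod {A B : Type} [MeasurableSpace A] [MeasurableSpace B]
    {a : Measure A} {b : Measure B} [SFinite a] [SFinite b] {f : A → ℝ} {g : B → ℝ}
    (hf : Dom a f) (hg : Dom b g) : Dom (a.prod b) (fun p : A × B => f p.1 + g p.2) where
  meas := (hf.meas.comp measurable_fst).add (hg.meas.comp measurable_snd)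
  nonneg := fun e => add_nonneg (hf.nonneg _) (hg.nonneg _)
  int := fun c => by
    refine ((hf.int c).mul_prod (hg.int c)).congr (Filter.Eventually.of_forall (fun p => ?_))
    simp only
    rw [← Real.exp_add]; congr 1; ring

private theorem MidInst_dom {P : Measure (ON N)} (hP : HaarO P) : Dom (mM P) (βM (N := N)) := by
  have := prob_mN hP (unifA N)
  exact MidInst_dom_prod (dom_mN hP (unifA N)) dom_mX

private theorem MidInst_spin : Measurable spin := measurable_of_countable spin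

private theorem MidInst_sp : Measurable (fun ω : Fin (k + 1) → EM N =>
    spin (ω (Fin.last k)).2.2) :=
  MidInst_spin.comp ((measurable_snd.comp measurable_snd).comp (measurable_pi_apply (Fin.last k)))

private theorem MidInst_b0 : Measurable (fun ω : Fin (k + 1) → EM N =>
    (fun j => (ω j).1 : Fin (k + 1) → EN N)) :=
  measurable_pi_iff.2 fun j => measurable_fst.comp (measurable_pi_apply j)

private theorem MidInst_abs_spin (b : Bool) : |spin b| ≤ 1 := (abs_spin b).le

private theorem MidInst_ham (D : Blk) (L : LBd J) (s : ℝ) (x : XI k D.K J → ℝ)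
    (κ : Fin N → Fin D.K) (lab : Fin N → Fin J) (b v : ℝ) (i0 : Fin k)
    (hβ : ∀ e : EM N, 0 ≤ βM e) (hβN : ∀ e : EN N, 0 ≤ βN e) :
    Ham (βM (N := N)) (HM D L s x κ lab b v i0) := by
  obtain ⟨C, hC, hb⟩ := (HN_ham k (θL D L k s x κ lab)).bound
  refine ⟨?_, C + |b| + |v|, by positivity, fun ω => ?_⟩
  · unfold HM
    have h1 : Measurable (fun ω : Fin (k + 1) → EM N =>
        HN k (θL D L k s x κ lab) (fun j => (ω j).1)) :=
      (HN_ham k (θL D L k s x κ lab)).meas.comp MidInst_b0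
    have h2 : Measurable (fun ω : Fin (k + 1) → EM N => (ω i0.castSucc).2.1) :=
      (measurable_fst.comp measurable_snd).comp (measurable_pi_apply i0.castSucc)
    exact h1.add (((h2.const_mul v).const_add b).mul MidInst_sp)
  · have h1 : |HN k (θL D L k s x κ lab) (fun j => (ω j).1)| ≤ C * (1 + ∑ i, βM (ω i)) := by
      refine (hb _).trans (mul_le_mul_of_nonneg_left ?_ hC)
      refine add_le_add le_rfl (Finset.sum_le_sum fun i _ => ?_)
      unfold βM βX
      have := abs_nonneg (ω i).2.1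
      linarith
    have h2 : |(ω i0.castSucc).2.1| ≤ ∑ i, βM (ω i) := by
      have h3 : |(ω i0.castSucc).2.1| ≤ βM (ω i0.castSucc) := by
        unfold βM βX
        have := hβN (ω i0.castSucc).1
        linarith
      exact h3.trans (Finset.single_le_sum (f := fun i => βM (ω i)) (fun i _ => hβ _)
        (Finset.mem_univ i0.castSucc))
    have hS : 0 ≤ ∑ i, βM (ω i) := Finset.sum_nonneg fun i _ => hβ _
    have h4 : |(b + v * (ω i0.castSucc).2.1) * spin (ω (Fin.last k)).2.2| ≤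
        |b| + |v| * ∑ i, βM (ω i) := by
      rw [abs_mul, abs_spin, mul_one]
      refine (abs_add_le _ _).trans (add_le_add le_rfl ?_)
      rw [abs_mul]
      exact mul_le_mul_of_nonneg_left h2 (abs_nonneg _)
    unfold HM
    refine (abs_add_le _ _).trans ?_
    have h5 := mul_nonneg (abs_nonneg b) hS
    have h6 := abs_nonneg v
    nlinarith

/-- derivative of `DI` along curves -/
private theorem MidInst_DI {e0 eb ε t g' G' : ℝ} {g G : ℝ → ℝ} (hg : HasDerivAt g g' t)
    (hG : HasDerivAt G G' t) :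
    HasDerivAt (fun t => DI e0 eb (g t) (G t) ε)
      (ε * (G' - eb * g') - (g' * G t + g t * G') + (e0 + eb) * (g t * g')) t := by
  have h1 := ((((hG.sub (hg.const_mul eb)).const_mul ε).const_add ((1 / 2) * eb)).sub
    (hg.mul hG)).add ((hg.pow 2).const_mul ((1 / 2) * (e0 + eb)))
  have h2 : ε * (G' - eb * g') - (g' * G t + g t * G') + (1 / 2) * (e0 + eb) *
      (((2 : ℕ) : ℝ) * g t ^ (2 - 1) * g') =
      ε * (G' - eb * g') - (g' * G t + g t * G') + (e0 + eb) * (g t * g') := by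
    norm_num
    ring
  rw [h2] at h1
  exact h1

private theorem MidInst_upd {K : ℕ} (z : Fin K → ℝ) (l : Fin K) (c : Fin K → ℝ) (t : ℝ) :
    HasDerivAt (fun t => ∑ l', c l' * Function.update z l t l') (c l) t := by
  have h1 : ∀ l' ∈ (Finset.univ : Finset (Fin K)), HasDerivAt
      (fun t => c l' * Function.update z l t l') (if l' = l then c l else 0) t := by
    intro l' _
    by_cases h : l' = l
    · subst h
      simp only [Function.update_self, if_true]
      simpa using (hasDerivAt_id t).const_mul (c l')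
    · simp only [Function.update_of_ne h, if_neg h]
      exact hasDerivAt_const _ _
  have h2 := HasDerivAt.fun_sum h1
  simpa using h2

private theorem MidInst_dbound (D : Blk) : ∃ Dm : ℝ, 0 ≤ Dm ∧ (∀ l, |D.d l| ≤ Dm) ∧
    |D.dbar| ≤ Dm := by
  refine ⟨∑ l, |D.d l| + |D.dbar|, by positivity, fun l => ?_, ?_⟩
  · have := Finset.single_le_sum (f := fun l => |D.d l|) (fun _ _ => abs_nonneg _)
      (Finset.mem_univ l)
    have h2 := abs_nonneg D.dbar
    linarith
  · have : 0 ≤ ∑ l, |D.d l| := by positivity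
    linarith

private theorem MidInst_dDI {D : Blk} {Dm : ℝ} (h0 : 0 ≤ Dm) (hd : ∀ l, |D.d l| ≤ Dm)
    (hb : |D.dbar| ≤ Dm) (l0 l : Fin D.K) (z : Fin D.K → ℝ) {ε : ℝ} (hε : |ε| ≤ 1) :
    |dDI D l0 l z ε| ≤ 6 * Dm * (1 + ∑ l', |z l'|) := by
  have hS : 0 ≤ ∑ l', |z l'| := Finset.sum_nonneg fun _ _ => abs_nonneg _
  have h1 : |∑ l', z l'| ≤ ∑ l', |z l'| := Finset.abs_sum_le_sum_abs _ _
  have h2 : |∑ l', D.d l' * z l'| ≤ Dm * ∑ l', |z l'| := by
    refine (Finset.abs_sum_le_sum_abs _ _).trans ?_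
    rw [Finset.mul_sum]
    refine Finset.sum_le_sum fun l' _ => ?_
    rw [abs_mul]
    exact mul_le_mul_of_nonneg_right (hd l') (abs_nonneg _)
  have h3 : |ε * (D.d l - D.dbar)| ≤ 1 * (Dm + Dm) := by
    rw [abs_mul]
    refine mul_le_mul hε ((abs_sub _ _).trans (add_le_add (hd l) hb)) (abs_nonneg _) zero_le_one
  have h4 : |(∑ l', z l') * D.d l| ≤ (∑ l', |z l'|) * Dm := by
    rw [abs_mul]
    exact mul_le_mul h1 (hd l) (abs_nonneg _) hS
  have h5 : |(D.d l0 + D.dbar) * ∑ l', z l'| ≤ (Dm + Dm) * ∑ l', |z l'| := by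
    rw [abs_mul]
    refine mul_le_mul ((abs_add_le _ _).trans (add_le_add (hd l0) hb)) h1 (abs_nonneg _)
      (by positivity)
  unfold dDI
  have h6 : |ε * (D.d l - D.dbar) - (∑ l', D.d l' * z l') - (∑ l', z l') * D.d l +
      (D.d l0 + D.dbar) * ∑ l', z l'| ≤ 1 * (Dm + Dm) + Dm * (∑ l', |z l'|) +
        (∑ l', |z l'|) * Dm + (Dm + Dm) * ∑ l', |z l'| := by
    refine (abs_add_le _ _).trans (add_le_add ?_ h5)
    refine (abs_sub _ _).trans (add_le_add ?_ h4)
    exact (abs_sub _ _).trans (add_le_add h3 h2)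
  refine h6.trans ?_
  have h7 := mul_nonneg h0 hS
  linarith

private theorem MidInst_mDInf (D : Blk) (l0 : Fin D.K) :
    Measurable (fun p : (Fin D.K → ℝ) × (Fin (k + 1) → EM N) =>
      DInf D l0 p.1 (spin (p.2 (Fin.last k)).2.2)) := by
  have h1 : Measurable (fun p : (Fin D.K → ℝ) × (Fin (k + 1) → EM N) =>
      spin (p.2 (Fin.last k)).2.2) := MidInst_sp.comp measurable_snd
  have h2 : Measurable (fun p : (Fin D.K → ℝ) × (Fin (k + 1) → EM N) => ∑ l, p.1 l) :=
    Finset.measurable_sum _ fun l _ => (measurable_pi_apply l).comp measurable_fst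
  have h3 : Measurable (fun p : (Fin D.K → ℝ) × (Fin (k + 1) → EM N) => ∑ l, D.d l * p.1 l) :=
    Finset.measurable_sum _ fun l _ =>
      ((measurable_pi_apply l).comp measurable_fst).const_mul _
  unfold DInf DI
  exact (((h1.mul (h3.sub (h2.const_mul _))).const_add _).sub (h2.mul h3)).add
    ((h2.pow_const 2).const_mul _)

private theorem MidInst_mdDI (D : Blk) (l0 l : Fin D.K) :
    Measurable (fun p : (Fin D.K → ℝ) × (Fin (k + 1) → EM N) =>
      dDI D l0 l p.1 (spin (p.2 (Fin.last k)).2.2)) := by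
  have h1 : Measurable (fun p : (Fin D.K → ℝ) × (Fin (k + 1) → EM N) =>
      spin (p.2 (Fin.last k)).2.2) := MidInst_sp.comp measurable_snd
  have h2 : Measurable (fun p : (Fin D.K → ℝ) × (Fin (k + 1) → EM N) => ∑ l, p.1 l) :=
    Finset.measurable_sum _ fun l _ => (measurable_pi_apply l).comp measurable_fst
  have h3 : Measurable (fun p : (Fin D.K → ℝ) × (Fin (k + 1) → EM N) => ∑ l, D.d l * p.1 l) :=
    Finset.measurable_sum _ fun l _ =>
      ((measurable_pi_apply l).comp measurable_fst).const_mul _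
  unfold dDI
  exact (((h1.mul_const _).sub h3).sub (h2.mul_const _)).add (h2.const_mul _)

private theorem MidInst_sum {K : ℕ} (d v : Fin K → ℝ) (ε c S G E : ℝ) :
    ∑ l, (ε * (d l - c) - G - S * d l + E * S) * v l =
      ε * (∑ l, d l * v l - c * ∑ l, v l) - G * ∑ l, v l - S * ∑ l, d l * v l +
        E * S * ∑ l, v l := by
  have h : ∀ l, (ε * (d l - c) - G - S * d l + E * S) * v l =
      (ε - S) * (d l * v l) + (E * S - G - ε * c) * v l := fun l => by ring
  simp only [h]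
  rw [Finset.sum_add_distrib, ← Finset.mul_sum, ← Finset.mul_sum]
  ring

private theorem MidInst_fderiv (D : Blk) (l0 : Fin D.K) (z : Fin D.K → ℝ) (ε : ℝ) :
    HasFDerivAt (fun z => DInf D l0 z ε)
      (∑ l, dDI D l0 l z ε • (ContinuousLinearMap.proj l : (Fin D.K → ℝ) →L[ℝ] ℝ)) z := by
  have hg : HasFDerivAt (fun z : Fin D.K → ℝ => ∑ l, z l)
      (∑ l, (ContinuousLinearMap.proj l : (Fin D.K → ℝ) →L[ℝ] ℝ)) z :=
    HasFDerivAt.fun_sum fun l _ => hasFDerivAt_apply l z
  have hG : HasFDerivAt (fun z : Fin D.K → ℝ => ∑ l, D.d l * z l)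
      (∑ l, D.d l • (ContinuousLinearMap.proj l : (Fin D.K → ℝ) →L[ℝ] ℝ)) z :=
    HasFDerivAt.fun_sum fun l _ => (hasFDerivAt_apply l z).const_mul (D.d l)
  have h1 := ((((hG.sub (hg.const_mul D.dbar)).const_mul ε).const_add ((1 / 2) * D.dbar)).sub
    (hg.mul hG)).add ((hg.pow 2).const_mul ((1 / 2) * (D.d l0 + D.dbar)))
  refine h1.congr_fderiv ?_
  ext v
  simp only [add_apply, sub_apply, smul_apply, sum_apply, ContinuousLinearMap.proj_apply,
    smul_eq_mul, dDI]
  rw [MidInst_sum]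
  norm_num
  ring

/-- PROOF: `chi_deriv`, `chi1_deriv`, `chi1_mem`, `chi2_abs`, `chi_abs`; `DInf` is a polynomial of degree `2` in `z`; `Σ q_a² = N⁻¹ Σ y_a² = 1`. -/
theorem decInst (D : Blk) : ∃ B : ℝ, 0 ≤ B ∧ ∀ {N J k : ℕ} {P : Measure (ON N)}, 1 ≤ N → HaarO P →
    0 < k → ∀ (L : LBd J) (s : ℝ) (x : XI k D.K J → ℝ) (κ : Fin N → Fin D.K) (lab : Fin N → Fin J)
      (b v : ℝ) (i0 : Fin k) (l0 : Fin D.K) (A : ℝ), 0 ≤ A → ∀ r : ℕ → Fin D.K → ℝ,
      (∀ i l, 0 ≤ r i l) → (∀ l, c2 r k l ≤ 1) →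
      DecH (mM P) (βM (N := N)) (ζLB k) k (HM D L s x κ lab b v i0) κ (qM (N := N) (k := k)) r
        (UM D l0 A) (UM1 D l0 A) (UM2 D l0 A) A B := by
  obtain ⟨Dm, hDm, hd, hdb⟩ := MidInst_dbound D
  refine ⟨36 * Dm ^ 2 + 6 * Dm, by positivity, ?_⟩
  intro N J k P hN hP hk L s x κ lab b v i0 l0 A hA r hr hrb
  have hβ := MidInst_dom hP
  have hN0 : (0 : ℝ) < N := by exact_mod_cast hN
  have hβN : ∀ e : EN N, 0 ≤ βN e := fun e => by unfold βN; positivity
  obtain ⟨mc, mc1, mc2⟩ := measurable_chi A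
  have hS0 : ∀ z : Fin D.K → ℝ, 0 ≤ ∑ l', |z l'| := fun z =>
    Finset.sum_nonneg fun _ _ => abs_nonneg _
  refine
    { dom := hβ
      exps := exps_LB k
      mono := ?_
      last := ?_
      ham := MidInst_ham D L s x κ lab b v i0 hβ.nonneg hβN
      qm := ?_
      qb := ?_
      r0 := hr
      rb := hrb
      Um := mc.comp (MidInst_mDInf D l0)
      U1m := fun l => (mc1.comp (MidInst_mDInf D l0)).mul (MidInst_mdDI D l0 l)
      U2m := fun l => ((mc2.comp (MidInst_mDInf D l0)).mul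
        ((MidInst_mdDI D l0 l).pow_const 2)).add ((mc1.comp (MidInst_mDInf D l0)).mul_const _)
      dU := ?_
      dU1 := ?_
      A0 := hA
      B0 := by positivity
      bU := fun z ω => chi_abs hA _
      bU1 := ?_
      bU2 := ?_ }
  · intro i j hij
    unfold ζLB
    have : (i : ℝ) ≤ j := by exact_mod_cast hij
    exact min_le_min_left _ (div_le_div_of_nonneg_right this (Nat.cast_nonneg k))
  · unfold ζLB
    have : (k : ℝ) ≠ 0 := by exact_mod_cast hk.ne'
    rw [div_self this, min_self]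
  · intro a
    unfold qM
    exact ((measurable_yv k a).comp MidInst_b0).const_mul _
  · intro ω
    unfold qM
    have h1 : ∑ a, ((Real.sqrt N)⁻¹ * yv k (fun j => (ω j).1) a) ^ 2 =
        (Real.sqrt N)⁻¹ ^ 2 * ∑ a, yv k (fun j => (ω j).1) a ^ 2 := by
      rw [Finset.mul_sum]
      exact Finset.sum_congr rfl fun a _ => by ring
    rw [h1, sum_yv_sq, inv_pow, Real.sq_sqrt hN0.le, inv_mul_cancel₀ hN0.ne']
  · intro z ω
    have h1 := (chi_deriv A (DInf D l0 z (spin (ω (Fin.last k)).2.2))).comp_hasFDerivAt z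
      (MidInst_fderiv D l0 z (spin (ω (Fin.last k)).2.2))
    refine h1.congr_fderiv ?_
    rw [Finset.smul_sum]
    refine Finset.sum_congr rfl fun l _ => ?_
    rw [smul_smul]
    rfl
  · intro l z ω
    set ε := spin (ω (Fin.last k)).2.2 with hε
    have hg : HasDerivAt (fun t => ∑ l', Function.update z l t l') 1 (z l) := by
      have := MidInst_upd z l (fun _ => 1) (z l)
      simpa using this
    have hG := MidInst_upd z l D.d (z l)
    have hz : Function.update z l (z l) = z := Function.update_eq_self l z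
    have h1 := MidInst_DI (e0 := D.d l0) (eb := D.dbar) (ε := ε) hg hG
    have h2 : HasDerivAt (fun t => DInf D l0 (Function.update z l t) ε) (dDI D l0 l z ε) (z l) := by
      refine h1.congr_deriv ?_
      rw [hz]
      unfold dDI
      ring
    have h3 : HasDerivAt (fun t => dDI D l0 l (Function.update z l t) ε)
        (D.d l0 + D.dbar - 2 * D.d l) (z l) := by
      have h4 := (((hasDerivAt_const (z l) (ε * (D.d l - D.dbar))).sub hG).sub
        (hg.mul_const (D.d l))).add (hg.const_mul (D.d l0 + D.dbar))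
      refine h4.congr_deriv ?_
      ring
    have h5 : HasDerivAt (fun t => chi1 A (DInf D l0 (Function.update z l t) ε))
        (chi2 A (DInf D l0 z ε) * dDI D l0 l z ε) (z l) := by
      have h6 : HasDerivAt (chi1 A) (chi2 A (DInf D l0 (Function.update z l (z l)) ε))
          (DInf D l0 (Function.update z l (z l)) ε) := chi1_deriv A _
      have h7 := HasDerivAt.comp (z l) h6 h2
      rw [hz] at h7
      exact h7
    have h8 := h5.mul h3
    refine h8.congr_deriv ?_
    rw [hz]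
    unfold UM2
    rw [← hε]
    ring
  · intro l z ω
    unfold UM1
    obtain ⟨c0, c1⟩ := chi1_mem hA (DInf D l0 z (spin (ω (Fin.last k)).2.2))
    have h1 := MidInst_dDI hDm hd hdb l0 l z (MidInst_abs_spin (ω (Fin.last k)).2.2)
    rw [abs_mul, abs_of_nonneg c0]
    have h2 : chi1 A (DInf D l0 z (spin (ω (Fin.last k)).2.2)) *
        |dDI D l0 l z (spin (ω (Fin.last k)).2.2)| ≤
        1 * (6 * Dm * (1 + ∑ l', |z l'|)) :=
      mul_le_mul c1 h1 (abs_nonneg _) zero_le_one
    have h3 := hS0 z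
    have h4 : 0 ≤ 36 * Dm ^ 2 * (1 + ∑ l', |z l'|) := by positivity
    linarith
  · intro l z ω
    unfold UM2
    obtain ⟨c0, c1⟩ := chi1_mem hA (DInf D l0 z (spin (ω (Fin.last k)).2.2))
    have c2 := chi2_abs A (DInf D l0 z (spin (ω (Fin.last k)).2.2))
    have h1 := MidInst_dDI hDm hd hdb l0 l z (MidInst_abs_spin (ω (Fin.last k)).2.2)
    have h3 := hS0 z
    have h4 : dDI D l0 l z (spin (ω (Fin.last k)).2.2) ^ 2 ≤ (6 * Dm * (1 + ∑ l', |z l'|)) ^ 2 := by
      rw [← sq_abs]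
      exact pow_le_pow_left₀ (abs_nonneg _) h1 2
    have h5 : |D.d l0 + D.dbar - 2 * D.d l| ≤ 4 * Dm := by
      have a1 := abs_le.1 (hd l0)
      have a2 := abs_le.1 (hd l)
      have a3 := abs_le.1 hdb
      rw [abs_le]
      constructor <;> linarith [a1.1, a1.2, a2.1, a2.2, a3.1, a3.2]
    refine (abs_add_le _ _).trans ?_
    rw [abs_mul, abs_mul, abs_of_nonneg c0, abs_of_nonneg (sq_nonneg (dDI D l0 l z _))]
    have h6 : |chi2 A (DInf D l0 z (spin (ω (Fin.last k)).2.2))| *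
        dDI D l0 l z (spin (ω (Fin.last k)).2.2) ^ 2 ≤ 1 * (6 * Dm * (1 + ∑ l', |z l'|)) ^ 2 :=
      mul_le_mul c2 h4 (sq_nonneg _) zero_le_one
    have h7 : chi1 A (DInf D l0 z (spin (ω (Fin.last k)).2.2)) *
        |D.d l0 + D.dbar - 2 * D.d l| ≤ 1 * (4 * Dm) :=
      mul_le_mul c1 h5 (abs_nonneg _) zero_le_one
    have h8 : 1 ≤ (1 + ∑ l', |z l'|) ^ 2 := one_le_pow₀ (by linarith)
    have h9 : 4 * Dm ≤ 6 * Dm * (1 + ∑ l', |z l'|) ^ 2 := by nlinarith
    have h10 : (6 * Dm * (1 + ∑ l', |z l'|)) ^ 2 = 36 * Dm ^ 2 * (1 + ∑ l', |z l'|) ^ 2 := by ring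
    rw [h10] at h6
    linarith

end Crest.Agent.RI
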