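import Crest.Agent.RI.MomLa

/-!
# Row 164, Part 8.2: tameness of the pieces
-/

set_option autoImplicit false

namespace Crest.Agent.RI

open MeasureTheory ProbabilityTheory

variable {N K J k : ℕ}

private theorem MomLt_βC_nn (x : EC N) : 0 ≤ βC x := by
  unfold βC βC1 βX βN
  positivity

private theorem MomLt_βN_nn (x : EN N) : 0 ≤ βN x := by
  unfold βN
  positivity

private theorem MomLt_sum_nn (ω : Fin (k + 1) → EC N) : 0 ≤ ∑ i, βC (ω i) :=
  Finset.sum_nonneg fun i _ => MomLt_βC_nn _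

private theorem MomLt_bdd {Φ : (Fin (k + 1) → EC N) → ℝ} (hm : Measurable Φ) {C : ℝ}
    (hb : ∀ ω, |Φ ω| ≤ C) : Tame (βC (N := N)) Φ := by
  refine ⟨hm, |C|, abs_nonneg _, fun ω => ?_⟩
  have h1 : (1 : ℝ) ≤ Real.exp (|C| * ∑ i, βC (ω i)) :=
    Real.one_le_exp (mul_nonneg (abs_nonneg _) (MomLt_sum_nn ω))
  calc |Φ ω| ≤ C := hb ω
    _ ≤ |C| * 1 := by rw [mul_one]; exact le_abs_self C
    _ ≤ _ := mul_le_mul_of_nonneg_left h1 (abs_nonneg _)

private theorem MomLt_lin {Φ : (Fin (k + 1) → EC N) → ℝ} (hm : Measurable Φ) (i : Fin (k + 1))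
    (hb : ∀ ω, |Φ ω| ≤ βC (ω i)) : Tame (βC (N := N)) Φ := by
  refine ⟨hm, 1, zero_le_one, fun ω => ?_⟩
  have h2 := Finset.single_le_sum (f := fun i => βC (ω i)) (fun i _ => MomLt_βC_nn _)
    (Finset.mem_univ i)
  have h3 := Real.add_one_le_exp (1 * ∑ i, βC (ω i))
  rw [one_mul] at h3 ⊢
  rw [one_mul]
  have h4 := hb ω
  linarith

private theorem MomLt_c (c : ℝ) : Tame (βC (N := N)) (fun _ : Fin (k + 1) → EC N => c) :=
  MomLt_bdd measurable_const (C := |c|) fun _ => le_refl _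

private theorem MomLt_add {Φ Ψ : (Fin (k + 1) → EC N) → ℝ} (h : Tame (βC (N := N)) Φ)
    (h' : Tame (βC (N := N)) Ψ) : Tame (βC (N := N)) (fun ω => Φ ω + Ψ ω) := by
  obtain ⟨C, hC, hb⟩ := h.bound
  obtain ⟨C', hC', hb'⟩ := h'.bound
  refine ⟨h.meas.add h'.meas, C + C', add_nonneg hC hC', fun ω => ?_⟩
  have hS := MomLt_sum_nn ω
  have e1 : Real.exp (C * ∑ i, βC (ω i)) ≤ Real.exp ((C + C') * ∑ i, βC (ω i)) :=
    Real.exp_le_exp.mpr (mul_le_mul_of_nonneg_right (by linarith) hS)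
  have e2 : Real.exp (C' * ∑ i, βC (ω i)) ≤ Real.exp ((C + C') * ∑ i, βC (ω i)) :=
    Real.exp_le_exp.mpr (mul_le_mul_of_nonneg_right (by linarith) hS)
  calc |Φ ω + Ψ ω| ≤ |Φ ω| + |Ψ ω| := abs_add_le _ _
    _ ≤ C * Real.exp (C * ∑ i, βC (ω i)) + C' * Real.exp (C' * ∑ i, βC (ω i)) :=
        add_le_add (hb ω) (hb' ω)
    _ ≤ C * Real.exp ((C + C') * ∑ i, βC (ω i)) + C' * Real.exp ((C + C') * ∑ i, βC (ω i)) :=
        add_le_add (mul_le_mul_of_nonneg_left e1 hC) (mul_le_mul_of_nonneg_left e2 hC')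
    _ = (C + C') * Real.exp ((C + C') * ∑ i, βC (ω i)) := by ring

private theorem MomLt_mul {Φ Ψ : (Fin (k + 1) → EC N) → ℝ} (h : Tame (βC (N := N)) Φ)
    (h' : Tame (βC (N := N)) Ψ) : Tame (βC (N := N)) (fun ω => Φ ω * Ψ ω) := by
  obtain ⟨C, hC, hb⟩ := h.bound
  obtain ⟨C', hC', hb'⟩ := h'.bound
  have hCC := mul_nonneg hC hC'
  refine ⟨h.meas.mul h'.meas, C * C' + (C + C'), by positivity, fun ω => ?_⟩
  have hS := MomLt_sum_nn ω
  have e1 : Real.exp (C * ∑ i, βC (ω i)) * Real.exp (C' * ∑ i, βC (ω i)) ≤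
      Real.exp ((C * C' + (C + C')) * ∑ i, βC (ω i)) := by
    rw [← Real.exp_add]
    refine Real.exp_le_exp.mpr ?_
    nlinarith [mul_nonneg hCC hS]
  have e2 : (0 : ℝ) ≤ Real.exp ((C * C' + (C + C')) * ∑ i, βC (ω i)) := (Real.exp_pos _).le
  calc |Φ ω * Ψ ω| = |Φ ω| * |Ψ ω| := abs_mul _ _
    _ ≤ (C * Real.exp (C * ∑ i, βC (ω i))) * (C' * Real.exp (C' * ∑ i, βC (ω i))) :=
        mul_le_mul (hb ω) (hb' ω) (abs_nonneg _) (mul_nonneg hC (Real.exp_pos _).le)
    _ = (C * C') * (Real.exp (C * ∑ i, βC (ω i)) * Real.exp (C' * ∑ i, βC (ω i))) := by ring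
    _ ≤ (C * C') * Real.exp ((C * C' + (C + C')) * ∑ i, βC (ω i)) :=
        mul_le_mul_of_nonneg_left e1 hCC
    _ ≤ (C * C' + (C + C')) * Real.exp ((C * C' + (C + C')) * ∑ i, βC (ω i)) :=
        mul_le_mul_of_nonneg_right (by linarith) e2

private theorem MomLt_abs {Φ : (Fin (k + 1) → EC N) → ℝ} (h : Tame (βC (N := N)) Φ) :
    Tame (βC (N := N)) (fun ω => |Φ ω|) := by
  obtain ⟨C, hC, hb⟩ := h.bound
  exact ⟨continuous_abs.measurable.comp h.meas, C, hC, fun ω => by rw [abs_abs]; exact hb ω⟩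

private theorem MomLt_pow {Φ : (Fin (k + 1) → EC N) → ℝ} (h : Tame (βC (N := N)) Φ) (n : ℕ) :
    Tame (βC (N := N)) (fun ω => Φ ω ^ n) := by
  induction n with
  | zero => simpa using MomLt_c (N := N) (k := k) 1
  | succ n ih =>
    have := MomLt_mul ih h
    simpa only [pow_succ] using this

private theorem MomLt_sum {ι : Type} (s : Finset ι) {Φ : ι → (Fin (k + 1) → EC N) → ℝ}
    (h : ∀ i, Tame (βC (N := N)) (Φ i)) : Tame (βC (N := N)) (fun ω => ∑ i ∈ s, Φ i ω) := by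
  classical
  induction s using Finset.induction_on with
  | empty => simpa using MomLt_c (N := N) (k := k) 0
  | insert a s ha ih =>
    have := MomLt_add (h a) ih
    simpa only [Finset.sum_insert ha] using this

private theorem MomLt_sub {Φ Ψ : (Fin (k + 1) → EC N) → ℝ} (h : Tame (βC (N := N)) Φ)
    (h' : Tame (βC (N := N)) Ψ) : Tame (βC (N := N)) (fun ω => Φ ω - Ψ ω) := by
  have := MomLt_add h (MomLt_mul (MomLt_c (-1)) h')
  have e : (fun ω => Φ ω - Ψ ω) = fun ω => Φ ω + -1 * Ψ ω := by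
    funext ω; ring
  rw [e]
  exact this

private theorem MomLt_divc {Φ : (Fin (k + 1) → EC N) → ℝ} (h : Tame (βC (N := N)) Φ) (c : ℝ) :
    Tame (βC (N := N)) (fun ω => Φ ω / c) := by
  have := MomLt_mul h (MomLt_c (N := N) (k := k) c⁻¹)
  simpa only [div_eq_mul_inv] using this

/-- coordinates -/
private theorem MomLt_xi (a : Fin (N + 1)) :
    Tame (βC (N := N)) (fun ω : Fin (k + 1) → EC N => xi ω a) := by
  refine MomLt_lin ?_ 0 fun ω => ?_
  · exact (measurable_pi_apply a).comp (measurable_fst.comp (measurable_snd.comp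
      (measurable_fst.comp (measurable_pi_apply 0))))
  · unfold xi βC βC1 βX
    have h1 := Finset.single_le_sum (f := fun a => |(ω 0).1.2.1 a|) (fun i _ => abs_nonneg _)
      (Finset.mem_univ a)
    have h2 := MomLt_βN_nn (ω 0).1.1
    have h3 := abs_nonneg (ω 0).1.2.2
    have h4 := abs_nonneg (ω 0).2.1
    linarith

private theorem MomLt_g (i : Fin k) (a : Fin N) :
    Tame (βC (N := N)) (fun ω : Fin (k + 1) → EC N => (ω i.castSucc).1.1.2.2.1 a) := by
  refine MomLt_lin ?_ i.castSucc fun ω => ?_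
  · exact (measurable_pi_apply a).comp (measurable_fst.comp (measurable_snd.comp
      (measurable_snd.comp (measurable_fst.comp (measurable_fst.comp
        (measurable_pi_apply i.castSucc))))))
  · unfold βC βC1 βX βN
    have h1 := Finset.single_le_sum (f := fun a => |(ω i.castSucc).1.1.2.2.1 a|)
      (fun i _ => abs_nonneg _) (Finset.mem_univ a)
    have h2 : 0 ≤ ∑ a, |(ω i.castSucc).1.1.2.1 a| := Finset.sum_nonneg fun _ _ => abs_nonneg _
    have h3 : 0 ≤ ∑ a, |(ω i.castSucc).1.2.1 a| := Finset.sum_nonneg fun _ _ => abs_nonneg _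
    have h4 := abs_nonneg (ω i.castSucc).1.2.2
    have h5 := abs_nonneg (ω i.castSucc).2.1
    linarith

private theorem MomLt_G0 (i : Fin k) :
    Tame (βC (N := N)) (fun ω : Fin (k + 1) → EC N => G0 i ω) := by
  refine MomLt_lin ?_ i.castSucc fun ω => ?_
  · exact measurable_snd.comp (measurable_snd.comp (measurable_fst.comp
      (measurable_pi_apply i.castSucc)))
  · unfold G0 βC βC1 βX
    have h2 := MomLt_βN_nn (ω i.castSucc).1.1
    have h3 : 0 ≤ ∑ a, |(ω i.castSucc).1.2.1 a| := Finset.sum_nonneg fun _ _ => abs_nonneg _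
    have h5 := abs_nonneg (ω i.castSucc).2.1
    linarith

private theorem MomLt_ep : Tame (βC (N := N)) (fun ω : Fin (k + 1) → EC N => ep ω) := by
  have h1 : Measurable (fun b : Bool => spin b) := measurable_of_finite _
  refine MomLt_bdd (C := 1) (h1.comp (measurable_snd.comp (measurable_snd.comp
    (measurable_pi_apply (Fin.last k))))) fun ω => ?_
  unfold ep
  rw [abs_spin]

private theorem MomLt_y (a : Fin N) :
    Tame (βC (N := N)) (fun ω : Fin (k + 1) → EC N => yv k (b0 ω) a) :=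
  MomLt_bdd (C := N) ((measurable_yv k a).comp measurable_b0) fun ω => abs_yv_le k (b0 ω) a

private theorem MomLt_abs_uv (ξ : Fin (N + 1) → ℝ) (a : Fin (N + 1)) : |uv ξ a| ≤ 1 := by
  rcases CoupInv_uv ξ with h | h
  · rw [h]; simp
  · unfold ip at h
    have h1 := Finset.single_le_sum (f := fun i => uv ξ i * uv ξ i) (fun i _ => mul_self_nonneg _)
      (Finset.mem_univ a)
    rw [h] at h1
    rw [← sq_le_one_iff_abs_le_one, sq]
    exact h1

private theorem MomLt_u (a : Fin (N + 1)) :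
    Tame (βC (N := N)) (fun ω : Fin (k + 1) → EC N => uv (xi ω) a) := by
  refine MomLt_bdd (C := 1) ?_ fun ω => MomLt_abs_uv (xi ω) a
  have h1 : Measurable (fun ω : Fin (k + 1) → EC N => xi ω) :=
    measurable_fst.comp (measurable_snd.comp (measurable_fst.comp (measurable_pi_apply 0)))
  exact (measurable_pi_apply a).comp (CoupMA_measurable_uv.comp h1)

private theorem MomLt_Aw (κ : Fin N → Fin K) (f : Fin K → ℝ) :
    Tame (βC (N := N)) (fun ω : Fin (k + 1) → EC N => Aw κ f ω) := by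
  unfold Aw
  exact MomLt_sum _ fun a => MomLt_mul (MomLt_mul (MomLt_c _) (MomLt_u _)) (MomLt_y a)

private theorem MomLt_Gw (κ : Fin N → Fin K) (f : Fin K → ℝ) (i : Fin k) :
    Tame (βC (N := N)) (fun ω : Fin (k + 1) → EC N => Gw κ f i ω) := by
  unfold Gw
  exact MomLt_sum _ fun a => MomLt_mul (MomLt_mul (MomLt_c _) (MomLt_u _)) (MomLt_g i a)

private theorem MomLt_TJ (lab : Fin N → Fin J) (j : Fin J) :
    Tame (βC (N := N)) (fun ω : Fin (k + 1) → EC N => TJ lab j (cfg k (b0 ω))) := by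
  unfold TJ
  refine MomLt_sum _ fun r => ?_
  have h1 : Measurable (fun b : Bool => spin b) := measurable_of_finite _
  have h2 : Measurable (fun ω : Fin (k + 1) → EC N => spin (cfg k (b0 ω) r)) := by
    unfold cfg
    exact h1.comp ((measurable_pi_apply r).comp (measurable_snd.comp (measurable_snd.comp
      (measurable_snd.comp ((measurable_pi_apply (Fin.last k)).comp measurable_b0)))))
  by_cases h : lab r = j
  · simp only [h, if_true]
    exact MomLt_bdd (C := 1) h2 fun ω => by rw [abs_spin]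
  · simp only [h, if_false]
    exact MomLt_c 0

private theorem MomLt_zx (κ : Fin N → Fin K) (l : Fin K) :
    Tame (βC (N := N)) (fun ω : Fin (k + 1) → EC N => zx κ ω l) := by
  unfold zx
  refine MomLt_mul (MomLt_c _) (MomLt_sum _ fun a => ?_)
  by_cases h : κ a = l
  · simp only [h, if_true]
    exact MomLt_mul (MomLt_xi _) (MomLt_y a)
  · simp only [h, if_false]
    exact MomLt_c 0

/-- all pieces are tame -/
theorem tame_pieces (D : Blk) (x : XI k D.K J → ℝ) (κ : Fin N → Fin D.K) (lab : Fin N → Fin J)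
    (τ : Fin J → ℝ) (l0 : Fin D.K) :
    Tame (βC (N := N)) (fun ω : Fin (k + 1) → EC N => M1 D κ ω) ∧
    Tame (βC (N := N)) (fun ω : Fin (k + 1) → EC N => M2 D x κ ω) ∧
    Tame (βC (N := N)) (fun ω : Fin (k + 1) → EC N => Tdev lab τ ω) ∧
    Tame (βC (N := N)) (fun ω : Fin (k + 1) → EC N => dev κ D.d D.dbar (xi ω) ^ 4) ∧
    Tame (βC (N := N)) (fun ω : Fin (k + 1) → EC N => DInf D l0 (zx κ ω) (ep ω)) := by
  refine ⟨?_, ?_, ?_, ?_, ?_⟩
  · unfold M1
    exact MomLt_add (MomLt_add (MomLt_c 1) (MomLt_pow (MomLt_Aw κ _) 4)) (MomLt_pow (MomLt_Aw κ _) 2)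
  · unfold M2
    refine MomLt_add (MomLt_add (MomLt_add (MomLt_c 1) (MomLt_pow (MomLt_Aw κ _) 2))
      (MomLt_pow (MomLt_Aw κ _) 2)) (MomLt_sum _ fun i => ?_)
    exact MomLt_add (MomLt_add (MomLt_add (MomLt_add (MomLt_add (MomLt_c 1)
      (MomLt_pow (MomLt_Aw κ _) 2)) (MomLt_pow (MomLt_Aw κ _) 2)) (MomLt_pow (MomLt_Gw κ _ i) 2))
      (MomLt_pow (MomLt_Gw κ _ i) 2)) (MomLt_pow (MomLt_G0 i) 2)
  · unfold Tdev
    exact MomLt_sum _ fun j => MomLt_abs (MomLt_sub (MomLt_divc (MomLt_TJ lab j) _) (MomLt_c _))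
  · refine MomLt_pow ?_ 4
    unfold dev ip
    refine MomLt_add (MomLt_add (MomLt_add ?_ ?_) ?_) (MomLt_c _)
    · exact MomLt_abs (MomLt_sub (MomLt_divc (MomLt_sum _ fun a =>
        MomLt_mul (MomLt_xi a) (MomLt_xi a)) _) (MomLt_c 1))
    · exact MomLt_divc (MomLt_abs (MomLt_xi 0)) _
    · exact MomLt_abs (MomLt_mul (MomLt_c _) (MomLt_sum _ fun a =>
        MomLt_mul (MomLt_c _) (MomLt_sub (MomLt_pow (MomLt_xi _) 2) (MomLt_c 1))))
  · unfold DInf DI
    have hg : Tame (βC (N := N)) (fun ω : Fin (k + 1) → EC N => ∑ l, zx κ ω l) :=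
      MomLt_sum _ fun l => MomLt_zx κ l
    have hG : Tame (βC (N := N)) (fun ω : Fin (k + 1) → EC N => ∑ l, D.d l * zx κ ω l) :=
      MomLt_sum _ fun l => MomLt_mul (MomLt_c _) (MomLt_zx κ l)
    exact MomLt_add (MomLt_sub (MomLt_add (MomLt_c _) (MomLt_mul MomLt_ep
      (MomLt_sub hG (MomLt_mul (MomLt_c _) hg)))) (MomLt_mul hg hG))
      (MomLt_mul (MomLt_c _) (MomLt_pow hg 2))

end Crest.Agent.RI
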