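import Crest.Agent.RI.SyncA

/-!
# Row 164: SYNC lemma, abstract form, main inequality (helper44)
-/

set_option autoImplicit false

namespace Crest.Agent.RI

open Finset

namespace ASys

variable {P : Type*} {S : Calc P} {N : ℕ} (X : ASys S N)

/-- The hypotheses of SYNC for one block with weights `c`: `T j` = `N⁻¹⟨g̃^j_l, y_l⟩`, `cf j` its coefficient
in the Hamiltonian; the three consequences of Gaussian integration by parts; concentration in dual form. -/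
structure SyncHyp (c : Fin N → ℝ) (k : ℕ) (ζ : ℕ → ℝ) (T : ℕ → S.G) (cf : ℕ → ℝ) (δ c0 : ℝ) :
    Prop where
  Npos : 0 < N
  c_nonneg : ∀ a, 0 ≤ c a
  c_le : ∀ a, c a ≤ 1 / (N : ℝ)
  mono : ∀ i, i < k → ζ i ≤ ζ (i + 1)
  last : ζ k = 1
  δ0 : 0 ≤ δ
  c0pos : 0 < c0
  cf_ge : ∀ j, 1 ≤ j → j < k → c0 ≤ cf j
  ibp0 : ∀ j, 1 ≤ j → j < k → S.E (T j) =
    cf j * (S.E (X.Q c) - ∑ m ∈ Ico j k, (ζ (m + 1) - ζ m) * X.rho c m)
  ibpS : ∀ i j, i < j → j < k → S.E (T j * X.Sx c i) =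
    cf j * (S.E (X.Q c * X.Sx c i) - ∑ m ∈ Ico j k, (ζ (m + 1) - ζ m) * S.E (X.A c m * X.Sx c i))
  ibpA : ∀ i j, i < j → j < k → S.E (T j * X.A c i) =
    cf j * (S.E (X.Q c * X.A c i) - ∑ m ∈ Ico j k, (ζ (m + 1) - ζ m) * S.E (X.A c m * X.A c i))
  ibpI : ∀ i, 1 ≤ i → i < k → S.E (T i * X.A c i) =
    cf i * (S.E (X.Q c * X.A c i) - ∑ m ∈ Ico i k, (ζ (m + 1) - ζ m) * S.E (X.A c m * X.A c i)
      + X.a2 c i - ∑ m ∈ Ico (i + 1) k, (ζ (m + 1) - ζ m) * X.r2 c i m - ζ (i + 1) * X.b2 c i)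
  concT : ∀ j, 1 ≤ j → j < k → ∀ f : S.G, (∀ p, |f.1 p| ≤ 1) →
    |S.E (T j * f) - S.E (T j) * S.E f| ≤ δ
  concQ : ∀ f : S.G, (∀ p, |f.1 p| ≤ 1) → |S.E (X.Q c * f) - S.E (X.Q c) * S.E f| ≤ δ

variable {X} {c : Fin N → ℝ} {k : ℕ} {ζ : ℕ → ℝ} {T : ℕ → S.G} {cf : ℕ → ℝ} {δ c0 : ℝ}

/-- `Σ_{m≥j} w_m (E[X_i A_m] - ρ_i ρ_m)` is small (`X_i = S_i` or `A_i`). -/
theorem SyncHyp.core (h : SyncHyp X c k ζ T cf δ c0) {j : ℕ} (hj1 : 1 ≤ j) (hj : j < k) {F : S.G}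
    (hF : ∀ p, |F.1 p| ≤ 1) (r : ℝ) (hr : S.E F = r)
    (hib : S.E (T j * F) = cf j * (S.E (X.Q c * F) -
      ∑ m ∈ Ico j k, (ζ (m + 1) - ζ m) * S.E (X.A c m * F))) :
    |∑ m ∈ Ico j k, (ζ (m + 1) - ζ m) * (S.E (X.A c m * F) - X.rho c m * r)| ≤ δ / c0 + δ := by
  have h1 := h.concT j hj1 hj F hF
  have h2 := h.concQ F hF
  rw [h.ibp0 j hj1 hj, hib, hr] at h1
  rw [hr] at h2
  have hc := h.cf_ge j hj1 hj
  have hcpos : 0 < cf j := lt_of_lt_of_le h.c0pos hc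
  set A1 := ∑ m ∈ Ico j k, (ζ (m + 1) - ζ m) * S.E (X.A c m * F) with hA1
  set A2 := ∑ m ∈ Ico j k, (ζ (m + 1) - ζ m) * X.rho c m with hA2
  have e : ∑ m ∈ Ico j k, (ζ (m + 1) - ζ m) * (S.E (X.A c m * F) - X.rho c m * r) = A1 - A2 * r := by
    rw [hA1, hA2, sum_mul, ← sum_sub_distrib]
    exact sum_congr rfl fun m _ => by ring
  rw [e]
  have h3 : cf j * |(S.E (X.Q c * F) - S.E (X.Q c) * r) - (A1 - A2 * r)| ≤ δ := by
    have e0 : cf j * |(S.E (X.Q c * F) - S.E (X.Q c) * r) - (A1 - A2 * r)| =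
        |cf j * ((S.E (X.Q c * F) - S.E (X.Q c) * r) - (A1 - A2 * r))| := by
      rw [abs_mul, abs_of_pos hcpos]
    rw [e0]
    refine le_trans (le_of_eq ?_) h1
    congr 1; ring
  have h4 : |(S.E (X.Q c * F) - S.E (X.Q c) * r) - (A1 - A2 * r)| ≤ δ / c0 := by
    rw [le_div_iff₀ h.c0pos]
    calc _ ≤ |(S.E (X.Q c * F) - S.E (X.Q c) * r) - (A1 - A2 * r)| * cf j := by
          gcongr
      _ = cf j * |(S.E (X.Q c * F) - S.E (X.Q c) * r) - (A1 - A2 * r)| := by ring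
      _ ≤ δ := h3
  have h5 : |A1 - A2 * r| ≤ |(S.E (X.Q c * F) - S.E (X.Q c) * r) - (A1 - A2 * r)| +
      |S.E (X.Q c * F) - S.E (X.Q c) * r| := by
    have := abs_sub_abs_le_abs_sub (A1 - A2 * r) (S.E (X.Q c * F) - S.E (X.Q c) * r)
    rw [abs_sub_comm (A1 - A2 * r)] at this
    linarith
  linarith

theorem SyncHyp.rho_nonneg (h : SyncHyp X c k ζ T cf δ c0) (j : ℕ) : 0 ≤ X.rho c j := by
  unfold rho
  exact sum_nonneg fun a _ => mul_nonneg (h.c_nonneg a) (S.E_nonneg _ fun p => by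
    simp only [MulMemClass.coe_mul, Pi.mul_apply]; exact mul_self_nonneg _)

theorem SyncHyp.rho_le_one (h : SyncHyp X c k ζ T cf δ c0) (j : ℕ) : X.rho c j ≤ 1 := by
  have := S.E_abs_le_one (f := X.Sx c j) (X.Sx_abs_le h.Npos h.c_nonneg h.c_le j)
  rw [X.E_Sx] at this
  exact (abs_le.1 this).2

/-- Step A: `Cov(S_i, S_{i+1})` is small. -/
theorem SyncHyp.cov_succ (h : SyncHyp X c k ζ T cf δ c0) {i : ℕ} (hi : i + 1 < k)
    (hw : 0 < ζ (i + 2) - ζ (i + 1)) :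
    |S.E (X.Sx c i * X.Sx c (i + 1)) - X.rho c i * X.rho c (i + 1)| ≤
      2 * (δ / c0 + δ) / (ζ (i + 2) - ζ (i + 1)) := by
  have hF := X.Sx_abs_le h.Npos h.c_nonneg h.c_le i
  have h1 := h.core (j := i + 1) (by omega) hi hF (X.rho c i) (X.E_Sx c i)
    (h.ibpS i (i + 1) (by omega) hi)
  have hlast : |∑ m ∈ Ico (i + 2) k, (ζ (m + 1) - ζ m) *
      (S.E (X.A c m * X.Sx c i) - X.rho c m * X.rho c i)| ≤ δ / c0 + δ := by
    rcases Nat.lt_or_ge (i + 2) k with h2 | h2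
    · exact h.core (j := i + 2) (by omega) h2 hF (X.rho c i) (X.E_Sx c i)
        (h.ibpS i (i + 2) (by omega) h2)
    · rw [Ico_eq_empty (by omega), sum_empty, abs_zero]
      have := h.δ0; have := h.c0pos; positivity
  rw [sum_eq_sum_Ico_succ_bot (by omega : i + 1 < k)] at h1
  have e : S.E (X.A c (i + 1) * X.Sx c i) = S.E (X.Sx c i * X.Sx c (i + 1)) := by
    rw [X.E_A_mul c (i + 1) ((X.Sx_ms c i).mono (by omega)), mul_comm]
  rw [e] at h1
  set Rst := ∑ m ∈ Ico (i + 1 + 1) k, (ζ (m + 1) - ζ m) *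
      (S.E (X.A c m * X.Sx c i) - X.rho c m * X.rho c i) with hR
  have hlast' : |Rst| ≤ δ / c0 + δ := hlast
  have hw' : 0 < ζ (i + 1 + 1) - ζ (i + 1) := hw
  have e0 : |S.E (X.Sx c i * X.Sx c (i + 1)) - X.rho c i * X.rho c (i + 1)| *
      (ζ (i + 1 + 1) - ζ (i + 1)) =
      |(ζ (i + 1 + 1) - ζ (i + 1)) * (S.E (X.Sx c i * X.Sx c (i + 1)) -
        X.rho c (i + 1) * X.rho c i)| := by
    rw [abs_mul, abs_of_pos hw', mul_comm (X.rho c (i + 1)), mul_comm]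
  rw [le_div_iff₀ hw', e0]
  rw [abs_le] at h1 hlast' ⊢
  constructor <;> linarith [h1.1, h1.2, hlast'.1, hlast'.2]

/-- `|E[(S_{i+1} - S_i) F]| ≤ ½ (λ (ρ_{i+1} - ρ_i) + 4/λ)` for `|F| ≤ 1` -/
theorem SyncHyp.incr (h : SyncHyp X c k ζ T cf δ c0) (i : ℕ) {lam : ℝ} (hl : 0 < lam) {F : S.G}
    (hF : ∀ p, |F.1 p| ≤ 1) :
    |S.E ((X.Sx c (i + 1) - X.Sx c i) * F)| ≤
      (1 / 2) * (lam * (X.rho c (i + 1) - X.rho c i) + 4 / lam) := by
  set D : S.G := ∑ a, c a • ((X.M (i + 1) a - X.M i a) * (X.M (i + 1) a - X.M i a)) with hD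
  have hED : S.E D = X.rho c (i + 1) - X.rho c i := by
    rw [hD, map_sum]
    unfold rho
    rw [← sum_sub_distrib]
    refine sum_congr rfl fun a _ => ?_
    rw [map_smul, smul_eq_mul, ← mul_sub]
    congr 1
    have e1 : (X.M (i + 1) a - X.M i a) * (X.M (i + 1) a - X.M i a) =
      X.M (i + 1) a * X.M (i + 1) a - (2 : ℝ) • (X.M (i + 1) a * X.M i a) + X.M i a * X.M i a := by
        rw [two_smul]; ring
    rw [e1, map_add, map_sub, map_smul, (X.M_ms i a).E_mul]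
    have : S.C (i + 1) (X.M (i + 1) a) = X.M i a := by
      unfold M; rw [S.C_C, min_eq_left (by omega)]
    rw [this, smul_eq_mul]; ring
  have hDp : ∀ p, D.1 p = ∑ a, c a * ((X.M (i + 1) a).1 p - (X.M i a).1 p) ^ 2 := by
    intro p
    rw [hD, S.coe_sum]
    refine sum_congr rfl fun a _ => ?_
    simp only [SetLike.val_smul, Pi.smul_apply, smul_eq_mul, MulMemClass.coe_mul, Pi.mul_apply,
      AddSubgroupClass.coe_sub, Pi.sub_apply]
    ring
  have hN' : (0 : ℝ) < N := by exact_mod_cast h.Npos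
  -- pointwise bound of the increment
  have hpt : ∀ p, |((X.Sx c (i + 1) - X.Sx c i) * F).1 p| ≤ (1 / 2) * (lam * D.1 p + 4 / lam) := by
    intro p
    have e1 : (X.Sx c (i + 1) - X.Sx c i).1 p = ∑ a, c a *
        (((X.M (i + 1) a).1 p - (X.M i a).1 p) * ((X.M (i + 1) a).1 p + (X.M i a).1 p)) := by
      have : (X.Sx c (i + 1) - X.Sx c i).1 p = (X.Sx c (i + 1)).1 p - (X.Sx c i).1 p := rfl
      rw [this]
      unfold Sx
      rw [S.coe_sum, S.coe_sum, ← sum_sub_distrib]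
      refine sum_congr rfl fun a _ => ?_
      simp only [SetLike.val_smul, Pi.smul_apply, smul_eq_mul, MulMemClass.coe_mul, Pi.mul_apply]
      ring
    have e2 : |((X.Sx c (i + 1) - X.Sx c i) * F).1 p| ≤ |(X.Sx c (i + 1) - X.Sx c i).1 p| := by
      have : ((X.Sx c (i + 1) - X.Sx c i) * F).1 p = (X.Sx c (i + 1) - X.Sx c i).1 p * F.1 p := rfl
      rw [this, abs_mul]
      exact mul_le_of_le_one_right (abs_nonneg _) (hF p)
    refine e2.trans ?_
    rw [e1]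
    have h4 : ∑ a, c a * ((X.M (i + 1) a).1 p + (X.M i a).1 p) ^ 2 ≤ 4 := by
      calc ∑ a, c a * ((X.M (i + 1) a).1 p + (X.M i a).1 p) ^ 2
          ≤ ∑ a, (1 / (N : ℝ)) * (2 * (X.M (i + 1) a).1 p ^ 2 + 2 * (X.M i a).1 p ^ 2) := by
            refine sum_le_sum fun a _ => ?_
            refine mul_le_mul (h.c_le a) ?_ (sq_nonneg _) (by positivity)
            nlinarith [sq_nonneg ((X.M (i + 1) a).1 p - (X.M i a).1 p)]
        _ = (1 / (N : ℝ)) * (2 * ∑ a, (X.M (i + 1) a).1 p ^ 2 + 2 * ∑ a, (X.M i a).1 p ^ 2) := by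
            rw [mul_sum, mul_sum, ← sum_add_distrib, mul_sum]
        _ ≤ (1 / (N : ℝ)) * (2 * N + 2 * N) := by
            have := X.M_sq_sum (i + 1) p
            have := X.M_sq_sum i p
            gcongr
        _ = 4 := by field_simp; ring
    calc |∑ a, c a * (((X.M (i + 1) a).1 p - (X.M i a).1 p) * ((X.M (i + 1) a).1 p + (X.M i a).1 p))|
        ≤ ∑ a, |c a * (((X.M (i + 1) a).1 p - (X.M i a).1 p) *
            ((X.M (i + 1) a).1 p + (X.M i a).1 p))| := abs_sum_le_sum_abs _ _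
      _ ≤ ∑ a, (1 / 2) * (lam * (c a * ((X.M (i + 1) a).1 p - (X.M i a).1 p) ^ 2) +
            (1 / lam) * (c a * ((X.M (i + 1) a).1 p + (X.M i a).1 p) ^ 2)) := by
          refine sum_le_sum fun a _ => ?_
          rw [abs_mul, abs_of_nonneg (h.c_nonneg a), abs_mul]
          set u := (X.M (i + 1) a).1 p - (X.M i a).1 p
          set v := (X.M (i + 1) a).1 p + (X.M i a).1 p
          have key : |u| * |v| ≤ (1 / 2) * (lam * u ^ 2 + (1 / lam) * v ^ 2) := by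
            have h0 := sq_nonneg (lam * |u| - |v|)
            have hu : |u| ^ 2 = u ^ 2 := sq_abs u
            have hv : |v| ^ 2 = v ^ 2 := sq_abs v
            have : (1 / 2) * (lam * u ^ 2 + (1 / lam) * v ^ 2) - |u| * |v| =
              (1 / (2 * lam)) * (lam * |u| - |v|) ^ 2 := by
                rw [← hu, ← hv]; field_simp; ring
            have h1 : 0 ≤ (1 / (2 * lam)) * (lam * |u| - |v|) ^ 2 := by positivity
            linarith
          have := mul_le_mul_of_nonneg_left key (h.c_nonneg a)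
          linarith
      _ = (1 / 2) * (lam * D.1 p + (1 / lam) *
            ∑ a, c a * ((X.M (i + 1) a).1 p + (X.M i a).1 p) ^ 2) := by
          rw [hDp, ← mul_sum, sum_add_distrib, mul_sum, mul_sum]
      _ ≤ (1 / 2) * (lam * D.1 p + (1 / lam) * 4) := by gcongr
      _ = (1 / 2) * (lam * D.1 p + 4 / lam) := by ring
  have hE1 : S.E ((1 / 2 : ℝ) • (lam • D + (4 / lam) • (1 : S.G))) =
      (1 / 2) * (lam * (X.rho c (i + 1) - X.rho c i) + 4 / lam) := by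
    rw [map_smul, map_add, map_smul, map_smul, hED, S.E_one]
    simp only [smul_eq_mul]; ring
  rw [← hE1, abs_le]
  have hval : ∀ p, ((1 / 2 : ℝ) • (lam • D + (4 / lam) • (1 : S.G))).1 p =
      (1 / 2) * (lam * D.1 p + 4 / lam) := by
    intro p
    simp only [SetLike.val_smul, AddMemClass.coe_add, Pi.smul_apply, Pi.add_apply, smul_eq_mul,
      OneMemClass.coe_one, Pi.one_apply, mul_one]
  constructor
  · rw [← map_neg]
    refine S.E_mono fun p => ?_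
    rw [NegMemClass.coe_neg, Pi.neg_apply, hval]
    exact (abs_le.1 (hpt p)).1
  · refine S.E_mono fun p => ?_
    rw [hval]
    exact (abs_le.1 (hpt p)).2

/-- Step A: variance of `S_i`. -/
theorem SyncHyp.var_S (h : SyncHyp X c k ζ T cf δ c0) {i : ℕ} (hi : i + 1 < k)
    (hw : 0 < ζ (i + 2) - ζ (i + 1)) {lam : ℝ} (hl : 0 < lam) :
    S.E (X.Sx c i * X.Sx c i) - X.rho c i ^ 2 ≤
      2 * (δ / c0 + δ) / (ζ (i + 2) - ζ (i + 1)) +
        (1 / 2) * (lam * (X.rho c (i + 1) - X.rho c i) + 4 / lam) := by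
  have h1 := h.cov_succ hi hw
  have hr0 := h.rho_nonneg i
  have hr1 := h.rho_le_one i
  have hF : ∀ p, |(X.Sx c i - (X.rho c i) • (1 : S.G)).1 p| ≤ 1 := by
    intro p
    have e : (X.Sx c i - (X.rho c i) • (1 : S.G)).1 p = (X.Sx c i).1 p - X.rho c i := by
      simp only [AddSubgroupClass.coe_sub, Pi.sub_apply, SetLike.val_smul, Pi.smul_apply,
        OneMemClass.coe_one, Pi.one_apply, smul_eq_mul, mul_one]
    have h0 : 0 ≤ (X.Sx c i).1 p := by
      unfold Sx; rw [S.coe_sum]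
      refine sum_nonneg fun a _ => ?_
      simp only [SetLike.val_smul, Pi.smul_apply, smul_eq_mul, MulMemClass.coe_mul, Pi.mul_apply]
      exact mul_nonneg (h.c_nonneg a) (mul_self_nonneg _)
    have h2 := (abs_le.1 (X.Sx_abs_le h.Npos h.c_nonneg h.c_le i p)).2
    rw [e, abs_le]
    constructor <;> linarith
  have h2 := h.incr i hl hF
  have e : S.E ((X.Sx c (i + 1) - X.Sx c i) * (X.Sx c i - (X.rho c i) • (1 : S.G))) =
      (S.E (X.Sx c i * X.Sx c (i + 1)) - X.rho c i * X.rho c (i + 1)) -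
        (S.E (X.Sx c i * X.Sx c i) - X.rho c i ^ 2) := by
    have : (X.Sx c (i + 1) - X.Sx c i) * (X.Sx c i - (X.rho c i) • (1 : S.G)) =
      X.Sx c i * X.Sx c (i + 1) - (X.rho c i) • X.Sx c (i + 1) - X.Sx c i * X.Sx c i +
        (X.rho c i) • X.Sx c i := by
      rw [mul_sub, mul_smul_comm, mul_one, smul_sub]
      ring
    rw [this, map_add, map_sub, map_sub, map_smul, map_smul, X.E_Sx, X.E_Sx]
    simp only [smul_eq_mul]; ring
  rw [e] at h2
  have := (abs_le.1 h1).2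
  have := (abs_le.1 h2).1
  linarith

/-- SYNC LEMMA. -/
theorem SyncHyp.sync (h : SyncHyp X c k ζ T cf δ c0) {i : ℕ} (hi1 : 1 ≤ i) (hi : i + 1 < k)
    (hw : 0 < ζ (i + 2) - ζ (i + 1)) (hz : 0 < ζ (i + 1)) {lam : ℝ} (hl : 0 < lam) :
    X.eta c i ≤ 2 * ((ζ (i + 1) - ζ i) + 2 * (δ / c0 + δ)) / ζ (i + 1) +
      2 * (δ / c0 + δ) / (ζ (i + 2) - ζ (i + 1)) +
        (1 / 2) * (lam * (X.rho c (i + 1) - X.rho c i) + 4 / lam) := by
  set ε := δ / c0 + δ with hε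
  have hA := X.A_abs_le h.Npos h.c_nonneg h.c_le i
  have h1 := h.core (j := i + 1) (by omega) hi hA (X.rho c i) (X.E_A c i)
    (h.ibpA i (i + 1) (by omega) hi)
  have hT := h.concT i hi1 (by omega) (X.A c i) hA
  have hQ := h.concQ (X.A c i) hA
  rw [X.E_A, h.ibp0 i hi1 (by omega), h.ibpI i hi1 (by omega)] at hT
  rw [X.E_A] at hQ
  have hc := h.cf_ge i hi1 (by omega)
  have hcpos : 0 < cf i := lt_of_lt_of_le h.c0pos hc
  have hsplit : ∀ f : ℕ → ℝ, ∑ m ∈ Ico i k, f m = f i + ∑ m ∈ Ico (i + 1) k, f m := fun f =>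
    sum_eq_sum_Ico_succ_bot (by omega) f
  rw [hsplit, hsplit] at hT
  have hAA : S.E (X.A c i * X.A c i) = X.b2 c i := rfl
  rw [hAA] at hT
  set U := ∑ m ∈ Ico (i + 1) k, (ζ (m + 1) - ζ m) * S.E (X.A c m * X.A c i) with hU
  set W := ∑ m ∈ Ico (i + 1) k, (ζ (m + 1) - ζ m) * X.rho c m with hW
  set V := ∑ m ∈ Ico (i + 1) k, (ζ (m + 1) - ζ m) * X.r2 c i m with hV
  have e1 : ∑ m ∈ Ico (i + 1) k, (ζ (m + 1) - ζ m) * (S.E (X.A c m * X.A c i) -
      X.rho c m * X.rho c i) = U - W * X.rho c i := by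
    rw [hU, hW, sum_mul, ← sum_sub_distrib]
    exact sum_congr rfl fun m _ => by ring
  rw [e1] at h1
  -- divide by `cf i`
  set Z := (S.E (X.Q c * X.A c i) - ((ζ (i + 1) - ζ i) * X.b2 c i + U) + X.a2 c i - V -
      ζ (i + 1) * X.b2 c i) - (S.E (X.Q c) - ((ζ (i + 1) - ζ i) * X.rho c i + W)) * X.rho c i with hZ
  have hZ1 : cf i * |Z| ≤ δ := by
    have e0 : cf i * |Z| = |cf i * Z| := by rw [abs_mul, abs_of_pos hcpos]
    rw [e0]
    refine le_trans (le_of_eq ?_) hT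
    congr 1; rw [hZ]; ring
  have hZ2 : |Z| ≤ δ / c0 := by
    rw [le_div_iff₀ h.c0pos]
    calc |Z| * c0 ≤ |Z| * cf i := by gcongr
      _ = cf i * |Z| := by ring
      _ ≤ δ := hZ1
  -- `Σ_{m>i} w_m r_m ≤ (1 - ζ_{i+1}) a`
  have htel : ∑ m ∈ Ico (i + 1) k, (ζ (m + 1) - ζ m) = 1 - ζ (i + 1) := by
    rw [sum_Ico_eq_sum_range]
    have : ∀ n, ∑ m ∈ range n, (ζ (i + 1 + m + 1) - ζ (i + 1 + m)) = ζ (i + 1 + n) - ζ (i + 1) := by
      intro n
      induction n with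
      | zero => simp
      | succ n ih => rw [sum_range_succ, ih]; ring_nf
    rw [this, show i + 1 + (k - (i + 1)) = k by omega, h.last]
  have hVle : V ≤ (1 - ζ (i + 1)) * X.a2 c i := by
    rw [← htel, sum_mul, hV]
    refine sum_le_sum fun m hm => ?_
    have hm' := mem_Ico.1 hm
    have h0 := h.mono m hm'.2
    exact mul_le_mul_of_nonneg_left (X.r2_le_a2 (by omega)) (by linarith)
  have hb1 : X.b2 c i ≤ 1 := by
    have := S.E_abs_le_one (f := X.A c i * X.A c i) (fun p => by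
      have := hA p
      have e : (X.A c i * X.A c i).1 p = (X.A c i).1 p * (X.A c i).1 p := rfl
      rw [e, abs_mul]
      exact mul_le_one₀ this (abs_nonneg _) this)
    exact (abs_le.1 this).2
  have hwi : 0 ≤ ζ (i + 1) - ζ i := by have := h.mono i (by omega); linarith
  -- main inequality
  have hmain : ζ (i + 1) * (X.a2 c i - X.b2 c i) ≤ (ζ (i + 1) - ζ i) + 2 * ε := by
    have a1 := (abs_le.1 hZ2).2
    have a2' := (abs_le.1 h1).2
    have a3 := (abs_le.1 hQ).1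
    have hsq : 0 ≤ (ζ (i + 1) - ζ i) * X.rho c i ^ 2 := mul_nonneg hwi (sq_nonneg _)
    have hwb : (ζ (i + 1) - ζ i) * X.b2 c i ≤ (ζ (i + 1) - ζ i) :=
      mul_le_of_le_one_right hwi hb1
    have hδ := h.δ0
    have : δ / c0 = ε - δ := by rw [hε]; ring
    rw [this] at a1 a2'
    nlinarith [a1, a2', a3, hsq, hwb, hVle]
  have hq := X.quad_nonneg h.c_nonneg i
  have hvar := h.var_S (i := i) hi hw hl
  have hab : X.a2 c i - X.b2 c i ≤ ((ζ (i + 1) - ζ i) + 2 * ε) / ζ (i + 1) := by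
    rw [le_div_iff₀ hz]; linarith
  unfold eta
  have e3 : 2 * ((ζ (i + 1) - ζ i) + 2 * ε) / ζ (i + 1) =
    2 * (((ζ (i + 1) - ζ i) + 2 * ε) / ζ (i + 1)) := by ring
  rw [e3]
  linarith

end ASys

end Crest.Agent.RI
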