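import Crest.Agent.RI.SiteADef

/-!
# Row 164, Part 6 (upper bound), definitions and the two interfaces I2 (SYNC + LOOPS, helper44) and
I3 (CLOSURE, helper8)
-/

set_option autoImplicit false

namespace Crest.Agent.RI

open MeasureTheory ProbabilityTheory
open Crest.ProbabilityR.InvariantGlass

variable {N K : ℕ}

/-! ### perturbation property -/

/-- `(C_δ)` -/
structure Conc (P : Measure (ON N)) (A : Measure (Fin N → Bool)) (ζ : ℕ → ℝ) (k : ℕ)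
    (θ : Par N K) (δ : ℝ) : Prop where
  self : ∀ l, pathE (mN P A) ζ (k + 1) 0 (HN k θ)
    (fun ω => |ovl k θ.κ l ω ω - selfOv P A ζ k θ l|) ≤ δ
  gy : ∀ i : Fin k, 1 ≤ (i : ℕ) → ∀ l, pathE (mN P A) ζ (k + 1) 0 (HN k θ)
    (fun ω => |gy k θ.κ i l ω - pathE (mN P A) ζ (k + 1) 0 (HN k θ) (gy k θ.κ i l)|) ≤ δ

/-! ### loop expressions for step data (`k` values, level exponents `ζ`, equal weights `w`) -/

/-- `D_{ll'}` -/
noncomputable def Dst (k : ℕ) (w τ a a' c c' : ℝ) (ρ ρ' : ℕ → ℝ) : ℝ :=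
  a * c' - a' * c + τ * (c * c' - ∑ j ∈ Finset.range k, w * (ρ j * ρ' j))

/-- `E_{ll'}(i)` -/
noncomputable def Est (ζ : ℕ → ℝ) (k : ℕ) (w τ a a' c c' : ℝ) (ρ ρ' : ℕ → ℝ) (i : ℕ) : ℝ :=
  a * ρ' i - a' * ρ i + τ * (c * ρ' i + ρ i * c' -
    ∑ j ∈ Finset.Ioo i k, w * (ρ j * ρ' i + ρ i * ρ' j) -
    (2 * ζ (i + 1) - ζ i) * (ρ i * ρ' i) - ∑ j ∈ Finset.range i, w * (ρ j * ρ' j))

/-- proportion of the label `l` -/
noncomputable def prop (κ : Fin N → Fin K) (l : Fin K) : ℝ :=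
  ((Finset.univ.filter (fun a => κ a = l)).card : ℝ) / (N : ℝ)

/-! ### loop expressions for paths on `(0,1)` -/

/-- `λ_l(s) = c - ∫_s^1 ρ - s ρ(s)` -/
noncomputable def lamF (c : ℝ) (ρ : ℝ → ℝ) (s : ℝ) : ℝ :=
  c - (∫ u in Set.Ioo s 1, ρ u) - s * ρ s

/-- `e_{ll'}(s)` -/
noncomputable def eF (τ a a' c c' : ℝ) (ρ ρ' : ℝ → ℝ) (s : ℝ) : ℝ :=
  a * ρ' s - a' * ρ s + τ * (lamF c ρ s * ρ' s + lamF c' ρ' s * ρ s + s * (ρ s * ρ' s) -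
    ∫ u in Set.Ioo 0 s, ρ u * ρ' u)

/-- `D_{ll'}` -/
noncomputable def DF (τ a a' c c' : ℝ) (ρ ρ' : ℝ → ℝ) : ℝ :=
  a * c' - a' * c + τ * (c * c' - ∫ u in Set.Ioo (0 : ℝ) 1, ρ u * ρ' u)

/-! ### the family of Hamiltonians of the contact argument -/

/-- Parameters `(v, x', x)`. -/
abbrev ZU (k K : ℕ) : Type := (Fin k → ℝ) × (Fin K → ℝ) × (Fin k → Fin K → ℝ)

/-- The parameters of the Hamiltonian at "time" `t`, perturbation strength `s`. No perturbation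
field at level `0`. -/
noncomputable def θU (κ : Fin N → Fin K) (d : Fin K → ℝ) (k : ℕ) (s t : ℝ) (z : ZU k K) :
    Par N K where
  κ := κ
  e := fun l => t * d l + s * z.2.1 l
  v := fun i => if h : i < k then z.1 ⟨i, h⟩ else 0
  c := fun i l => if h : i < k then (if i = 0 then 0 else s * z.2.2 ⟨i, h⟩ l) else 0
  B := fun _ => 0

/-- `f_N(t, z)` for the upper bound tower. -/
noncomputable def fU (P : Measure (ON N)) (A : Measure (Fin N → Bool)) (κ : Fin N → Fin K)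
    (d : Fin K → ℝ) (k : ℕ) (s t : ℝ) (z : ZU k K) : ℝ :=
  fN P A (ζUB k) k (θU κ d k s t z)

/-- `h_i = Σ_{j ≤ i} v_j²` as a function of `z`. -/
noncomputable def hU (k : ℕ) {K : ℕ} (z : ZU k K) (i : ℕ) : ℝ :=
  ∑ j ∈ Finset.range (i + 1), (if h : j < k then z.1 ⟨j, h⟩ else 0) ^ 2

/-- The penalty `½ Σ w p_i h_i - Σ (x - 3/2)²`. -/
noncomputable def penU (k : ℕ) {K : ℕ} (p : ℕ → ℝ) (z : ZU k K) : ℝ :=
  (1 / 2) * ((1 / ((k : ℝ) + 1)) * ∑ i ∈ Finset.range k, p i * hU k z i) -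
    ∑ l, (z.2.1 l - 3 / 2) ^ 2 - ∑ i, ∑ l, (z.2.2 i l - 3 / 2) ^ 2

/-- Admissible parameters. -/
def SU (k K : ℕ) : Set (ZU k K) :=
  {z | (∀ l, z.2.1 l ∈ Set.Icc (1 : ℝ) 2) ∧ ∀ i l, z.2.2 i l ∈ Set.Icc (1 : ℝ) 2}

/-- `g_t(p) = ½ ∫ Θ(t D_p(r)) dr` for a step path. -/
noncomputable def gD (D : Blk) (k : ℕ) (p : ℕ → ℝ) (t : ℝ) : ℝ :=
  (1 / 2) * ∫ r in Set.Ioo (0 : ℝ) 1, D.Θ (t * deficit (stepUB k p) r)

/-- `p^N_i = Σ_l ρ_{l,i}` -/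
noncomputable def pN (P : Measure (ON N)) (A : Measure (Fin N → Bool)) (ζ : ℕ → ℝ) (k : ℕ)
    (θ : Par N K) (i : ℕ) : ℝ := ∑ l, rhoOv P A ζ k θ l i

end Crest.Agent.RI
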