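import Crest.Agent.RI.Inst
import Crest.Agent.RI.SyncB
import Crest.Agent.RI.LoopF
import Crest.Agent.RI.FlowB
import Crest.Agent.RI.FlowD
import Crest.Agent.RI.FlowE
import Crest.Agent.RI.SysBasic
import Crest.Agent.RI.UBDefs

/-!
# Row 164: the concrete system as an abstract system (helper44)
-/

set_option autoImplicit false

namespace Crest.Agent.RI

open MeasureTheory Finset

/-! ### Abel summation -/

theorem abel_a (ζ C : ℕ → ℝ) {j k : ℕ} (h : j ≤ k) :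
    ζ j * C (j + 1) + ∑ q ∈ Ico (j + 1) (k + 1), ζ q * (C (q + 1) - C q) =
      ζ k * C (k + 1) - ∑ m ∈ Ico j k, (ζ (m + 1) - ζ m) * C (m + 1) := by
  induction k, h using Nat.le_induction with
  | base => simp
  | succ k hk ih =>
    rw [sum_Ico_succ_top (a := j + 1) (b := k + 1) (by omega),
      sum_Ico_succ_top (a := j) (b := k) (by omega)]
    linarith

theorem abel_b (ζ C : ℕ → ℝ) {i k : ℕ} (h : i < k) :
    ∑ q ∈ Ico (i + 1) (k + 1), ζ q * (C (q + 1) - C q) =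
      ζ k * C (k + 1) - ∑ m ∈ Ico (i + 1) k, (ζ (m + 1) - ζ m) * C (m + 1) -
        ζ (i + 1) * C (i + 1) := by
  have h1 := abel_a ζ C h.le
  rw [sum_eq_sum_Ico_succ_bot h] at h1
  linarith

/-! ### the calculus of the concrete system -/

variable {N K : ℕ} {P : Measure (ON N)} {A : Measure (Fin N → Bool)} {ζ : ℕ → ℝ}

/-- The conditional calculus of the system. -/
noncomputable def SC (hP : HaarO P) (A : Measure (Fin N → Bool)) [IsProbabilityMeasure A]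
    (hζ : Exps ζ) (k : ℕ) (θ : Par N K) : Calc (Fin (k + 1) → EN N) :=
  haveI := prob_mN hP A
  towerCalc (dom_mN hP A) hζ (k + 1) 0 (HN_ham k θ)

section

variable (hP : HaarO P) [IsProbabilityMeasure A] (hζ : Exps ζ) {k : ℕ} (θ : Par N K)

local notation "𝒮" => SC hP A hζ k θ

theorem SC_E (f : (𝒮).G) : (𝒮).E f = pathE (mN P A) ζ (k + 1) 0 (HN k θ) f.1 := rfl

theorem SC_C (r : ℕ) (f : (𝒮).G) : ((𝒮).C r f).1 = condE (mN P A) ζ r (k + 1) 0 (HN k θ) f.1 := rfl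

theorem SC_mem {f : (Fin (k + 1) → EN N) → ℝ} : f ∈ (𝒮).G ↔ Tame βN f := Iff.rfl

theorem SC_C_top (f : (𝒮).G) : (𝒮).C (k + 1) f = f :=
  haveI := prob_mN hP A
  Subtype.ext (funext fun ω => condE_all (k + 1) 0 (HN k θ) f.1 (k + 1) le_rfl ω)

theorem βN_nn (x : EN N) : 0 ≤ βN x := by unfold βN; positivity

theorem tame_yv (k : ℕ) (a : Fin N) : Tame (βN (N := N)) (fun ω : Fin (k + 1) → EN N => yv k ω a) := by
  refine ⟨measurable_yv k a, N, Nat.cast_nonneg _, fun ω => (abs_yv_le k ω a).trans ?_⟩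
  have h : 0 ≤ ∑ i, βN (ω i) := sum_nonneg fun i _ => βN_nn _
  have : (1 : ℝ) ≤ Real.exp (N * ∑ i, βN (ω i)) := Real.one_le_exp (by positivity)
  nlinarith [Nat.cast_nonneg (α := ℝ) N]

theorem abs_coord_le (x : EN N) (a : Fin N) : |x.2.2.1 a| ≤ βN x := by
  unfold βN
  have h1 := single_le_sum (f := fun a => |x.2.2.1 a|) (fun i _ => abs_nonneg _) (mem_univ a)
  have h2 : 0 ≤ ∑ a, |x.2.1 a| := sum_nonneg fun _ _ => abs_nonneg _
  linarith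

theorem tame_coord (k : ℕ) (i : Fin (k + 1)) (a : Fin N) :
    Tame (βN (N := N)) (fun ω : Fin (k + 1) → EN N => (ω i).2.2.1 a) := by
  refine ⟨(measurable_pi_apply a).comp (measurable_fst.comp (measurable_snd.comp
    (measurable_snd.comp (measurable_pi_apply i)))), 1, zero_le_one, fun ω => ?_⟩
  have h1 := abs_coord_le (ω i) a
  have h2 := single_le_sum (f := fun i => βN (ω i)) (fun i _ => βN_nn _) (mem_univ i)
  have h3 := Real.add_one_le_exp (1 * ∑ i, βN (ω i))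
  rw [one_mul] at h3
  rw [one_mul, one_mul]
  linarith

/-- `y_a` -/
noncomputable def yG (a : Fin N) : (𝒮).G := ⟨fun ω => yv k ω a, tame_yv k a⟩

/-- `g̃^j_a` (`0` for `j ≥ k`) -/
noncomputable def gG (j : ℕ) (a : Fin N) : (𝒮).G :=
  if h : j < k then ⟨fun ω => (ω (Fin.castSucc ⟨j, h⟩)).2.2.1 a, tame_coord k _ a⟩ else 0

/-- the abstract system -/
noncomputable def XS : ASys (𝒮) N where
  y := yG hP hζ θ
  ysq := fun ω => sum_yv_sq k ω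

/-- block weights -/
noncomputable def cl (κ : Fin N → Fin K) (l : Fin K) (a : Fin N) : ℝ := if κ a = l then 1 / (N : ℝ) else 0

theorem cl_nonneg (κ : Fin N → Fin K) (l : Fin K) (a : Fin N) : 0 ≤ cl κ l a := by
  unfold cl; split_ifs <;> positivity

theorem cl_le (κ : Fin N → Fin K) (l : Fin K) (a : Fin N) : cl κ l a ≤ 1 / (N : ℝ) := by
  unfold cl; split_ifs
  · exact le_rfl
  · positivity

theorem sum_cl (κ : Fin N → Fin K) (l : Fin K) : ∑ a, cl κ l a = prop κ l := by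
  unfold cl prop
  rw [← sum_filter, sum_const, nsmul_eq_mul]
  ring

theorem cl_ne {κ : Fin N → Fin K} {l : Fin K} {a : Fin N} (h : cl κ l a ≠ 0) : κ a = l := by
  by_contra h'
  exact h (by unfold cl; rw [if_neg h'])

theorem Q_coe (κ : Fin N → Fin K) (l : Fin K) (ω : Fin (k + 1) → EN N) :
    ((XS (A := A) hP hζ θ).Q (cl κ l)).1 ω = ovl k κ l ω ω := by
  unfold ASys.Q ovl
  rw [Calc.coe_sum, mul_sum]
  refine sum_congr rfl fun a _ => ?_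
  show cl κ l a * (yv k ω a * yv k ω a) = _
  unfold cl
  split_ifs <;> ring

/-- `T_j = N⁻¹ ⟨g̃^j_l, y_l⟩` -/
noncomputable def TG (κ : Fin N → Fin K) (l : Fin K) (j : ℕ) : (𝒮).G :=
  ∑ a, cl κ l a • (gG hP hζ θ j a * yG hP hζ θ a)

theorem TG_coe (κ : Fin N → Fin K) (l : Fin K) (j : Fin k) (ω : Fin (k + 1) → EN N) :
    (TG (A := A) hP hζ θ κ l j).1 ω = gy k κ j l ω := by
  unfold TG gy
  rw [Calc.coe_sum, mul_sum]
  refine sum_congr rfl fun a _ => ?_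
  have : (gG (A := A) hP hζ θ (j : ℕ) a).1 ω = (ω j.castSucc).2.2.1 a := by
    unfold gG; rw [dif_pos j.2]
  show cl κ l a * ((gG (A := A) hP hζ θ (j : ℕ) a).1 ω * yv k ω a) = _
  rw [this]
  unfold cl
  split_ifs <;> ring

theorem self_eq (l : Fin K) :
    selfOv P A ζ k θ l = (𝒮).E ((XS (A := A) hP hζ θ).Q (cl θ.κ l)) := by
  rw [SC_E]
  unfold selfOv
  congr 1
  funext ω
  rw [Q_coe]

/-! ### derivatives in the algebra -/

/-- derivation relation on the algebra -/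
def DG {hP : HaarO P} {hζ : Exps ζ} {θ : Par N K} (φ : ℝ → EN N → EN N) (j : Fin (k + 1))
    (Φ Φ' : (SC hP A hζ k θ).G) : Prop := IsD φ j Φ.1 Φ'.1

variable {hP hζ θ} {φ : ℝ → EN N → EN N} {j : Fin (k + 1)}

theorem DG.add {Φ Φ' Ψ Ψ' : (𝒮).G} (h : DG φ j Φ Φ') (h' : DG φ j Ψ Ψ') :
    DG φ j (Φ + Ψ) (Φ' + Ψ') := IsD.add h h'

theorem DG.mul {Φ Φ' Ψ Ψ' : (𝒮).G} (h : DG φ j Φ Φ') (h' : DG φ j Ψ Ψ') :
    DG φ j (Φ * Ψ) (Φ' * Ψ + Φ * Ψ') := IsD.mul h h'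

theorem DG.smul (c : ℝ) {Φ Φ' : (𝒮).G} (h : DG φ j Φ Φ') : DG φ j (c • Φ) (c • Φ') :=
  IsD.const_mul c h

theorem DG.sum {ι : Type*} (s : Finset ι) {Φ Φ' : ι → (𝒮).G} (h : ∀ i ∈ s, DG φ j (Φ i) (Φ' i)) :
    DG φ j (∑ i ∈ s, Φ i) (∑ i ∈ s, Φ' i) := by
  have h1 := IsD.sum s (φ := φ) (j := j) (Φ := fun i => (Φ i).1) (Φ' := fun i => (Φ' i).1) h
  unfold DG
  have e : ∀ F : ι → (𝒮).G, (∑ i ∈ s, F i).1 = fun ω => ∑ i ∈ s, (F i).1 ω := fun F =>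
    funext fun ω => Calc.coe_sum _ s F ω
  rw [e, e]
  exact h1

/-- score part in the algebra -/
noncomputable def scG (r : ℕ) (V : (𝒮).G) : (𝒮).G :=
  ∑ q ∈ Ico r (k + 1), ζ q • ((𝒮).C (q + 1) V - (𝒮).C q V)

theorem scG_coe (r : ℕ) (V : (𝒮).G) (ω : Fin (k + 1) → EN N) :
    (scG r V).1 ω = sAfter (mN P A) ζ r (k + 1) 0 (HN k θ) V.1 ω := by
  unfold scG sAfter
  rw [Calc.coe_sum]
  refine sum_congr rfl fun q _ => ?_
  rw [zero_add]; rfl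

theorem scG_eq {i : ℕ} (hi : i < k) (hk : ζ k = 1) (V : (𝒮).G) :
    scG (i + 1) V = V - ∑ m ∈ Ico (i + 1) k, (ζ (m + 1) - ζ m) • (𝒮).C (m + 1) V -
      ζ (i + 1) • (𝒮).C (i + 1) V := by
  apply Subtype.ext
  funext ω
  have h := abel_b ζ (fun q => ((𝒮).C q V).1 ω) hi
  have e1 : (scG (i + 1) V).1 ω = ∑ q ∈ Ico (i + 1) (k + 1), ζ q *
      (((𝒮).C (q + 1) V).1 ω - ((𝒮).C q V).1 ω) := by
    unfold scG; rw [Calc.coe_sum]; rfl
  rw [e1, h, hk, one_mul, SC_C_top]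
  have e2 : (V - ∑ m ∈ Ico (i + 1) k, (ζ (m + 1) - ζ m) • (𝒮).C (m + 1) V -
      ζ (i + 1) • (𝒮).C (i + 1) V).1 ω = V.1 ω -
      (∑ m ∈ Ico (i + 1) k, (ζ (m + 1) - ζ m) • (𝒮).C (m + 1) V).1 ω -
      ζ (i + 1) * ((𝒮).C (i + 1) V).1 ω := rfl
  rw [e2, Calc.coe_sum]; rfl

theorem scG_eq' {j : ℕ} (hj : j ≤ k) (hk : ζ k = 1) (V : (𝒮).G) :
    ζ j • (𝒮).C (j + 1) V + scG (j + 1) V =
      V - ∑ m ∈ Ico j k, (ζ (m + 1) - ζ m) • (𝒮).C (m + 1) V := by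
  apply Subtype.ext
  funext ω
  have h := abel_a ζ (fun q => ((𝒮).C q V).1 ω) hj
  have e1 : (ζ j • (𝒮).C (j + 1) V + scG (j + 1) V).1 ω = ζ j * ((𝒮).C (j + 1) V).1 ω +
      ∑ q ∈ Ico (j + 1) (k + 1), ζ q * (((𝒮).C (q + 1) V).1 ω - ((𝒮).C q V).1 ω) := by
    have : (ζ j • (𝒮).C (j + 1) V + scG (j + 1) V).1 ω = ζ j * ((𝒮).C (j + 1) V).1 ω +
      (scG (j + 1) V).1 ω := rfl
    rw [this]
    unfold scG; rw [Calc.coe_sum]; rfl
  rw [e1, h, hk, one_mul, SC_C_top]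
  have e2 : (V - ∑ m ∈ Ico j k, (ζ (m + 1) - ζ m) • (𝒮).C (m + 1) V).1 ω = V.1 ω -
      (∑ m ∈ Ico j k, (ζ (m + 1) - ζ m) • (𝒮).C (m + 1) V).1 ω := rfl
  rw [e2, Calc.coe_sum]; rfl

/-- derivative of a conditional expectation -/
theorem DG.C {δ : EN N → ℝ} (hφ : CFlow (mN P A) βN φ δ) {r : ℕ} (hr : (j : ℕ) < r)
    {V Φ Φ' : (𝒮).G} (hV : IsD φ j (HN k θ) V.1) (h : DG φ j Φ Φ') :
    DG φ j ((𝒮).C r Φ) ((𝒮).C r (Φ' + Φ * scG r V)) := by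
  haveI := prob_mN hP A
  have h1 := condE_isD (dom_mN hP A) hζ hφ j r 0 hr (HN_ham k θ) V.2 Φ.2 Φ'.2 hV h
  unfold DG
  rw [SC_C, SC_C]
  have e : (fun ω => Φ'.1 ω + Φ.1 ω * sAfter (mN P A) ζ r (k + 1) 0 (HN k θ) V.1 ω) =
      (Φ' + Φ * scG r V).1 := by
    funext ω
    rw [← scG_coe]; rfl
  rw [← e]
  exact h1

theorem DG.C_zero {r : ℕ} (hr : r ≤ (j : ℕ)) (Φ : (𝒮).G) : DG φ j ((𝒮).C r Φ) 0 := by
  haveI := prob_mN hP A
  exact condE_isD_zero j r 0 hr (HN k θ) Φ.1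

/-- (GIBP) in the algebra -/
theorem gibpG {δ : (𝒮).G} {δ' : EN N → ℝ} (hφ : CFlow (mN P A) βN φ δ')
    (hδ : ∀ ω, δ.1 ω = δ' (ω j)) (hk : ζ k = 1) {V Φ Φ' : (𝒮).G} (hV : IsD φ j (HN k θ) V.1)
    (h : DG φ j Φ Φ') :
    (𝒮).E (δ * Φ) = (𝒮).E Φ' + (𝒮).E (Φ * (V - ∑ m ∈ Ico (j : ℕ) k, (ζ (m + 1) - ζ m) •
      (𝒮).C (m + 1) V)) := by
  haveI := prob_mN hP A
  have h1 := gibp (dom_mN hP A) hζ hφ (k + 1) 0 j (HN_ham k θ) V.2 Φ.2 Φ'.2 hV h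
  rw [← scG_eq' (by omega) hk]
  rw [SC_E, SC_E, SC_E]
  have e0 : (δ * Φ).1 = fun ω => δ' (ω j) * Φ.1 ω := by
    funext ω; rw [← hδ]; rfl
  have e : (Φ * (ζ (j : ℕ) • (𝒮).C ((j : ℕ) + 1) V + scG ((j : ℕ) + 1) V)).1 =
      fun ω => Φ.1 ω * (ζ (0 + (j : ℕ)) * condE (mN P A) ζ ((j : ℕ) + 1) (k + 1) 0 (HN k θ) V.1 ω +
        sAfter (mN P A) ζ ((j : ℕ) + 1) (k + 1) 0 (HN k θ) V.1 ω) := by
    funext ω
    rw [← scG_coe, zero_add]; rfl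
  rw [e0, e]
  exact h1

end

end Crest.Agent.RI
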