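import Crest.Agent.RI.MomLa
import Crest.Agent.RI.MomLt
import Crest.Agent.RI.RhoFacts
import Crest.Agent.RI.SysInst

/-!
# Row 164, Part 8.2: moments under the product law (system, new spin and Gaussians independent)
-/

set_option autoImplicit false

namespace Crest.Agent.RI

open MeasureTheory ProbabilityTheory

variable {N K J k : ℕ}

/-! ### tools -/

section tools

/-- law of `(ξ, g̃_0)` -/
noncomputable abbrev MomL_mE (N : ℕ) : Measure ((Fin (N + 1) → ℝ) × ℝ) :=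
  (gvec (N + 1)).prod (gaussianReal 0 1)

noncomputable def MomL_βE (x : (Fin (N + 1) → ℝ) × ℝ) : ℝ := ∑ a, |x.1 a| + |x.2|

theorem MomL_one (c : ℝ) :
    Integrable (fun x : ℝ => Real.exp (c * |x|)) (gaussianReal 0 1) :=
  integrable_exp_mul_abs (X := fun x : ℝ => x) (t := c)
    (integrable_exp_mul_gaussianReal c) (integrable_exp_mul_gaussianReal (-c))

theorem MomL_gvec {n : ℕ} (c : ℝ) :
    Integrable (fun x : Fin n → ℝ => Real.exp (c * ∑ a, |x a|)) (gvec n) := by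
  have h := Integrable.fintype_prod (ι := Fin n) (E := ℝ) (𝕜 := ℝ)
    (f := fun _ x => Real.exp (c * |x|)) (μ := fun _ => gaussianReal 0 1) (fun _ => MomL_one c)
  have e : (fun x : Fin n → ℝ => ∏ i, Real.exp (c * |x i|)) =
      fun x : Fin n → ℝ => Real.exp (c * ∑ a, |x a|) := by
    funext x
    rw [← Real.exp_sum, Finset.mul_sum]
  rw [e] at h
  exact h

theorem MomL_domE : Dom (MomL_mE N) (MomL_βE (N := N)) where
  meas := by unfold MomL_βE; fun_prop
  nonneg := fun e => by unfold MomL_βE; positivity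
  int := fun c => by
    refine ((MomL_gvec c).mul_prod (MomL_one c)).congr (Filter.Eventually.of_forall (fun p => ?_))
    simp only [MomL_βE]
    rw [← Real.exp_add]; congr 1; ring

theorem MomL_int_exp_sum {E' : Type} [MeasurableSpace E'] {m' : Measure E'}
    [IsProbabilityMeasure m'] {β' : E' → ℝ} (hβ' : Dom m' β') (n : ℕ) (C : ℝ) :
    Integrable (fun y : Fin n → E' => Real.exp (C * ∑ j, β' (y j))) (Measure.pi (fun _ => m')) := by
  have h := Integrable.fintype_prod (ι := Fin n) (E := E') (𝕜 := ℝ)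
    (f := fun _ x => Real.exp (C * β' x)) (μ := fun _ => m') (fun _ => hβ'.int C)
  have e : (fun y : Fin n → E' => ∏ i, Real.exp (C * β' (y i))) =
      fun y : Fin n → E' => Real.exp (C * ∑ j, β' (y j)) := by
    funext y
    rw [← Real.exp_sum, Finset.mul_sum]
  rw [e] at h
  exact h

theorem MomL_tame_int {E E' : Type} [MeasurableSpace E] [MeasurableSpace E'] {m' : Measure E'}
    [IsProbabilityMeasure m'] {β : E → ℝ} {β' : E' → ℝ} (hβ : ∀ e, 0 ≤ β e) (hβ' : Dom m' β')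
    {n : ℕ} {Φ : (Fin n → E × E') → ℝ} (hΦ : Tame (fun p : E × E' => β p.1 + β' p.2) Φ) :
    Tame β (fun ω : Fin n → E =>
      ∫ y, Φ (fun j => (ω j, y j)) ∂(Measure.pi (fun _ : Fin n => m'))) := by
  have hmk : Measurable (fun p : (Fin n → E) × (Fin n → E') =>
      (fun j => (p.1 j, p.2 j) : Fin n → E × E')) :=
    measurable_pi_iff.2 (fun j => ((measurable_pi_apply j).comp measurable_fst).prodMk
      ((measurable_pi_apply j).comp measurable_snd))
  obtain ⟨C, hC, hCb⟩ := hΦ.bound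
  refine ⟨?_, ?_⟩
  · have h := (hΦ.meas.comp hmk).stronglyMeasurable.integral_prod_right'
      (ν := Measure.pi (fun _ : Fin n => m'))
    exact h.measurable
  · set I := ∫ y : Fin n → E', Real.exp (C * ∑ j, β' (y j)) ∂(Measure.pi (fun _ => m')) with hI
    have hI0 : 0 ≤ I := integral_nonneg (fun y => (Real.exp_pos _).le)
    refine ⟨C + C * I, by positivity, fun ω => ?_⟩
    have h1 : |∫ y, Φ (fun j => (ω j, y j)) ∂(Measure.pi (fun _ : Fin n => m'))| ≤
        ∫ y : Fin n → E', (C * Real.exp (C * ∑ j, β (ω j))) * Real.exp (C * ∑ j, β' (y j))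
          ∂(Measure.pi (fun _ => m')) := by
      rw [← Real.norm_eq_abs]
      refine norm_integral_le_of_norm_le ((MomL_int_exp_sum hβ' n C).const_mul _)
        (Filter.Eventually.of_forall (fun y => ?_))
      rw [Real.norm_eq_abs]
      refine (hCb _).trans (le_of_eq ?_)
      simp only
      rw [Finset.sum_add_distrib, mul_add, Real.exp_add]
      ring
    rw [integral_const_mul, ← hI] at h1
    refine h1.trans ?_
    have hS : 0 ≤ ∑ j, β (ω j) := Finset.sum_nonneg (fun j _ => hβ _)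
    have h2 : Real.exp (C * ∑ j, β (ω j)) ≤ Real.exp ((C + C * I) * ∑ j, β (ω j)) := by
      apply Real.exp_le_exp.2
      nlinarith [mul_nonneg (mul_nonneg hC hI0) hS]
    calc C * Real.exp (C * ∑ j, β (ω j)) * I = (C * I) * Real.exp (C * ∑ j, β (ω j)) := by ring
      _ ≤ (C * I) * Real.exp ((C + C * I) * ∑ j, β (ω j)) :=
          mul_le_mul_of_nonneg_left h2 (by positivity)
      _ ≤ _ := mul_le_mul_of_nonneg_right (by linarith) (Real.exp_pos _).le

/-- reduction of a function of (system, `ξ`, `g̃_0`) to a function of the system -/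
theorem MomL_main {P : Measure (ON N)} (hP : HaarO P) (D : Blk) (L : LBd J) (s : ℝ)
    (x : XI k D.K J → ℝ) (κ : Fin N → Fin D.K) (lab : Fin N → Fin J) {b v : ℝ} (hv0 : 0 ≤ v)
    (hv1 : v ≤ 1) (i0 : Fin k) {Ψ : (Fin (k + 1) → EC1 N) → ℝ} (hΨ : Tame (βC1 (N := N)) Ψ)
    (h0 : ∀ ω, 0 ≤ Ψ ω) {G : (Fin (k + 1) → EN N) → ℝ} (hG : Tame (βN (N := N)) G)
    (hle : ∀ ωs : Fin (k + 1) → EN N, ∫ y, Ψ (fun j => (ωs j, y j))
      ∂(Measure.pi (fun _ : Fin (k + 1) => MomL_mE N)) ≤ G ωs) :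
    EH1 P D L k s x κ lab b v i0 (fun ω => Ψ (fun j => (ω j).1)) ≤
      Real.exp (2 * |b|) * 60 * EL P D L k s x κ lab G := by
  have := prob_mN hP (unifA N)
  refine (EH1_red hP D L s x κ lab hv0 hv1 i0 hΨ h0).trans ?_
  refine mul_le_mul_of_nonneg_left ?_ (by positivity)
  have hd := dom_mN hP (unifA N)
  have e := pathE_prod (m := mN P (unifA N)) (m' := MomL_mE N) hd MomL_domE (exps_LB k) (k + 1) 0
    (H := HN k (θL D L k s x κ lab)) (Φ := Ψ) (HN_ham k _) hΨ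
  unfold mC1 EL
  refine (le_of_eq e).trans ?_
  exact pathE_mono hd (exps_LB k) (k + 1) 0 (HN_ham k _)
    (MomL_tame_int (fun e => hd.nonneg e) MomL_domE hΨ) hG hle

theorem MomL_int0 {F : (Fin (N + 1) → ℝ) → ℝ} (hF : Measurable F) :
    ∫ y : Fin (k + 1) → ((Fin (N + 1) → ℝ) × ℝ), F ((y 0).1)
      ∂(Measure.pi (fun _ : Fin (k + 1) => MomL_mE N)) = ∫ ξ, F ξ ∂(gvec (N + 1)) := by
  have h1 := (measurePreserving_eval (fun _ : Fin (k + 1) => MomL_mE N) 0)
  have h2 : MeasurePreserving (Prod.fst : (Fin (N + 1) → ℝ) × ℝ → _) (MomL_mE N) (gvec (N + 1)) :=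
    measurePreserving_fst
  have h3 := h2.comp h1
  rw [← h3.map_eq, integral_map h3.measurable.aemeasurable hF.aestronglyMeasurable]
  rfl

theorem MomL_int2 (i : Fin (k + 1)) :
    ∫ y : Fin (k + 1) → ((Fin (N + 1) → ℝ) × ℝ), (y i).2 ^ 2
      ∂(Measure.pi (fun _ : Fin (k + 1) => MomL_mE N)) = 1 := by
  have h1 := (measurePreserving_eval (fun _ : Fin (k + 1) => MomL_mE N) i)
  have h2 : MeasurePreserving (Prod.snd : (Fin (N + 1) → ℝ) × ℝ → _) (MomL_mE N)
    (gaussianReal 0 1) := measurePreserving_snd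
  have h3 := h2.comp h1
  have e : ∫ x, x ^ 2 ∂(gaussianReal 0 1) = 1 := by
    have h := variance_id_gaussianReal (μ := 0) (v := 1)
    rw [variance_eq_integral (by fun_prop)] at h
    simpa using h
  rw [← e, ← h3.map_eq, integral_map h3.measurable.aemeasurable (by fun_prop)]
  rfl

/-! ### closure of `Tame` -/

variable {E : Type} [MeasurableSpace E] {m : Measure E} [IsProbabilityMeasure m] {β : E → ℝ}

theorem MomL_tame_bdd (hβ : ∀ e, 0 ≤ β e) {n : ℕ} {Φ : (Fin n → E) → ℝ} (hm : Measurable Φ)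
    {C : ℝ} (hC : 0 ≤ C) (hb : ∀ ω, |Φ ω| ≤ C * (1 + ∑ i, β (ω i))) : Tame β Φ :=
  Ham.tame0 hβ ⟨hm, C, hC, hb⟩

theorem MomL_tame_abs {n : ℕ} {Φ : (Fin n → E) → ℝ} (hΦ : Tame β Φ) :
    Tame β (fun ω => |Φ ω|) := by
  obtain ⟨C, hC, hb⟩ := hΦ.bound
  refine ⟨hΦ.meas.abs, C, hC, fun ω => ?_⟩
  rw [abs_abs]
  exact hb ω

theorem MomL_tame_pow (hβ : Dom m β) {n : ℕ} {Φ : (Fin n → E) → ℝ} (hΦ : Tame β Φ) (j : ℕ) :
    Tame β (fun ω => Φ ω ^ j) := by
  induction j with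
  | zero => simpa using Tame.const (n := n) hβ (1 : ℝ)
  | succ j ih => simpa only [pow_succ] using Tame.mul hβ ih hΦ

end tools

/-! ### the pieces as functions on `EC1` -/

section pieces

noncomputable def MomL_Aw (κ : Fin N → Fin K) (f : Fin K → ℝ) (ω : Fin (k + 1) → EC1 N) : ℝ :=
  ∑ a : Fin N, f (κ a) * uv (ω 0).2.1 a.succ * yv k (fun j => (ω j).1) a

noncomputable def MomL_Gw (κ : Fin N → Fin K) (f : Fin K → ℝ) (i : Fin k)
    (ω : Fin (k + 1) → EC1 N) : ℝ :=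
  ∑ a : Fin N, f (κ a) * uv (ω 0).2.1 a.succ * (ω i.castSucc).1.2.2.1 a

noncomputable def MomL_zx (κ : Fin N → Fin K) (ω : Fin (k + 1) → EC1 N) (l : Fin K) : ℝ :=
  (Real.sqrt N)⁻¹ * ∑ a : Fin N, if κ a = l then (ω 0).2.1 a.succ * yv k (fun j => (ω j).1) a else 0

theorem MomL_uv_le (ξ : Fin (N + 1) → ℝ) (a : Fin (N + 1)) : |uv ξ a| ≤ 1 := by
  rcases CoupInv_uv ξ with h | h
  · rw [h]; simp
  · have h2 : uv ξ a * uv ξ a ≤ ip (uv ξ) (uv ξ) :=
      Finset.single_le_sum (f := fun a => uv ξ a * uv ξ a) (fun _ _ => mul_self_nonneg _)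
        (Finset.mem_univ a)
    rw [h] at h2
    exact abs_le_one_iff_mul_self_le_one.2 h2

theorem MomL_meas_fst : Measurable (fun ω : Fin (k + 1) → EC1 N => (fun j => (ω j).1 : Fin (k + 1) → EN N)) :=
  measurable_pi_iff.2 fun j => measurable_fst.comp (measurable_pi_apply j)

theorem MomL_meas_y (a : Fin N) :
    Measurable (fun ω : Fin (k + 1) → EC1 N => yv k (fun j => (ω j).1) a) :=
  (measurable_yv k a).comp MomL_meas_fst

theorem MomL_meas_xi : Measurable (fun ω : Fin (k + 1) → EC1 N => (ω 0).2.1) :=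
  measurable_fst.comp (measurable_snd.comp (measurable_pi_apply 0))

theorem MomL_meas_u (a : Fin (N + 1)) :
    Measurable (fun ω : Fin (k + 1) → EC1 N => uv (ω 0).2.1 a) :=
  (measurable_pi_apply a).comp (CoupMA_measurable_uv.comp MomL_meas_xi)

theorem MomL_meas_g (i : Fin (k + 1)) (a : Fin N) :
    Measurable (fun ω : Fin (k + 1) → EC1 N => (ω i).1.2.2.1 a) :=
  (measurable_pi_apply a).comp (measurable_fst.comp (measurable_snd.comp
    (measurable_snd.comp (measurable_fst.comp (measurable_pi_apply i)))))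

theorem MomL_β_nn (e : EC1 N) : 0 ≤ βC1 e := by
  unfold βC1
  have := βN_nn e.1
  positivity

theorem MomL_β_le (ω : Fin (k + 1) → EC1 N) (i : Fin (k + 1)) : βC1 (ω i) ≤ ∑ j, βC1 (ω j) :=
  Finset.single_le_sum (f := fun j => βC1 (ω j)) (fun _ _ => MomL_β_nn _) (Finset.mem_univ i)

theorem MomL_tame_u (a : Fin (N + 1)) :
    Tame (βC1 (N := N)) (fun ω : Fin (k + 1) → EC1 N => uv (ω 0).2.1 a) := by
  refine MomL_tame_bdd MomL_β_nn (MomL_meas_u a) zero_le_one fun ω => ?_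
  have h1 := MomL_uv_le (ω 0).2.1 a
  have h2 := MomL_β_le ω 0
  have h3 := MomL_β_nn (ω 0)
  linarith

theorem MomL_tame_y (a : Fin N) :
    Tame (βC1 (N := N)) (fun ω : Fin (k + 1) → EC1 N => yv k (fun j => (ω j).1) a) := by
  refine MomL_tame_bdd MomL_β_nn (MomL_meas_y a) (Nat.cast_nonneg N) fun ω => ?_
  have h1 := abs_yv_le k (fun j => (ω j).1) a
  have h2 := MomL_β_le ω 0
  have h3 := MomL_β_nn (ω 0)
  have h4 : 0 ≤ (N : ℝ) * ∑ j, βC1 (ω j) := mul_nonneg (Nat.cast_nonneg N) (h3.trans h2)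
  linarith

theorem MomL_tame_xi (a : Fin (N + 1)) :
    Tame (βC1 (N := N)) (fun ω : Fin (k + 1) → EC1 N => (ω 0).2.1 a) := by
  refine MomL_tame_bdd MomL_β_nn ((measurable_pi_apply a).comp MomL_meas_xi) zero_le_one
    fun ω => ?_
  have h2 := MomL_β_le ω 0
  have h3 : |(ω 0).2.1 a| ≤ βC1 (ω 0) := by
    unfold βC1
    have h4 := βN_nn (ω 0).1
    have h5 := Finset.single_le_sum (f := fun a => |(ω 0).2.1 a|) (fun _ _ => abs_nonneg _)
      (Finset.mem_univ a)
    have h6 := abs_nonneg (ω 0).2.2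
    linarith
  linarith

theorem MomL_tame_g (i : Fin (k + 1)) (a : Fin N) :
    Tame (βC1 (N := N)) (fun ω : Fin (k + 1) → EC1 N => (ω i).1.2.2.1 a) := by
  refine MomL_tame_bdd MomL_β_nn (MomL_meas_g i a) zero_le_one fun ω => ?_
  have h2 := MomL_β_le ω i
  have h3 : |(ω i).1.2.2.1 a| ≤ βC1 (ω i) := by
    unfold βC1
    have h4 := abs_coord_le (ω i).1 a
    have h5 : 0 ≤ ∑ a, |(ω i).2.1 a| + |(ω i).2.2| := by positivity
    linarith
  linarith

theorem MomL_tame_g0 (i : Fin (k + 1)) :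
    Tame (βC1 (N := N)) (fun ω : Fin (k + 1) → EC1 N => (ω i).2.2) := by
  refine MomL_tame_bdd MomL_β_nn (measurable_snd.comp (measurable_snd.comp
    (measurable_pi_apply i))) zero_le_one fun ω => ?_
  have h2 := MomL_β_le ω i
  have h3 : |(ω i).2.2| ≤ βC1 (ω i) := by
    unfold βC1
    have h4 := βN_nn (ω i).1
    have h5 : 0 ≤ ∑ a, |(ω i).2.1 a| := by positivity
    linarith
  linarith

theorem MomL_tame_Aw {P : Measure (ON N)} (hP : HaarO P) (κ : Fin N → Fin K) (f : Fin K → ℝ) :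
    Tame (βC1 (N := N)) (MomL_Aw (k := k) κ f) := by
  have := prob_mC1 hP
  have hd := dom_mC1 hP
  unfold MomL_Aw
  exact tame_fsum hd _ fun a _ => Tame.mul hd (Tame.mul hd (Tame.const hd _) (MomL_tame_u _))
    (MomL_tame_y a)

theorem MomL_tame_Gw {P : Measure (ON N)} (hP : HaarO P) (κ : Fin N → Fin K) (f : Fin K → ℝ)
    (i : Fin k) : Tame (βC1 (N := N)) (MomL_Gw (k := k) κ f i) := by
  have := prob_mC1 hP
  have hd := dom_mC1 hP
  unfold MomL_Gw
  exact tame_fsum hd _ fun a _ => Tame.mul hd (Tame.mul hd (Tame.const hd _) (MomL_tame_u _))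
    (MomL_tame_g _ a)

theorem MomL_tame_zx {P : Measure (ON N)} (hP : HaarO P) (κ : Fin N → Fin K) (l : Fin K) :
    Tame (βC1 (N := N)) (fun ω : Fin (k + 1) → EC1 N => MomL_zx κ ω l) := by
  have := prob_mC1 hP
  have hd := dom_mC1 hP
  unfold MomL_zx
  refine Tame.mul hd (Tame.const hd _) (tame_fsum hd _ fun a _ => ?_)
  by_cases h : κ a = l
  · simp only [h, if_true]
    exact Tame.mul hd (MomL_tame_xi _) (MomL_tame_y a)
  · simp only [h, if_false]
    exact Tame.const hd 0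

/-- pull back to `EC` -/
theorem MomL_tame_pull {Ψ : (Fin (k + 1) → EC1 N) → ℝ} (hΨ : Tame (βC1 (N := N)) Ψ) :
    Tame (βC (N := N)) (fun ω : Fin (k + 1) → EC N => Ψ (fun j => (ω j).1)) := by
  obtain ⟨C, hC, hb⟩ := hΨ.bound
  refine ⟨hΨ.meas.comp (measurable_pi_iff.2 fun j => measurable_fst.comp (measurable_pi_apply j)),
    C, hC, fun ω => (hb _).trans ?_⟩
  refine mul_le_mul_of_nonneg_left (Real.exp_le_exp.2 (mul_le_mul_of_nonneg_left ?_ hC)) hC
  refine Finset.sum_le_sum fun j _ => ?_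
  unfold βC βX
  have := abs_nonneg (ω j).2.1
  linarith

end pieces

/-! ### the theorems -/

/-- PROOF: `EH1_red`, `pathE_prod` (for a fixed system path `ξ` is Gaussian), `u_mom4` with `v_a = f(κ a) y_a`, `Σ v² ≤ F² N`. -/
theorem momL_A : ∃ C : ℝ, 0 ≤ C ∧ ∀ {N J k : ℕ} {P : Measure (ON N)}, 1 ≤ N → HaarO P →
    ∀ (D : Blk) (L : LBd J), 0 < k → ∀ (s : ℝ) (x : XI k D.K J → ℝ)
      (κ : Fin N → Fin D.K) (lab : Fin N → Fin J) (b v : ℝ) (i0 : Fin k), 0 ≤ v → v ≤ 1 →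
    ∀ (f : Fin D.K → ℝ) (F : ℝ), (∀ l, |f l| ≤ F) →
      EH1 P D L k s x κ lab b v i0 (fun ω => Aw κ f ω ^ 4) ≤ C * Real.exp (2 * |b|) * F ^ 4 ∧
      EH1 P D L k s x κ lab b v i0 (fun ω => Aw κ f ω ^ 2) ≤ C * Real.exp (2 * |b|) * F ^ 2 := by
  obtain ⟨C4, hC4, h4⟩ := u_mom4
  obtain ⟨C2, hC2, h2⟩ := u_mom2
  refine ⟨60 * (C4 + C2), by positivity, ?_⟩
  intro N J k P hN hP D L hk s x κ lab b v i0 hv0 hv1 f F hf
  have := prob_mN hP (unifA N)
  have := prob_mC1 hP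
  have hd := dom_mC1 hP
  have hdN := dom_mN hP (unifA N)
  have hN0 : (0 : ℝ) < N := by exact_mod_cast hN
  have hT := MomL_tame_Aw (k := k) hP κ f
  have hsum : ∀ ωs : Fin (k + 1) → EN N, ∑ a, (f (κ a) * yv k ωs a) ^ 2 ≤ F ^ 2 * N := by
    intro ωs
    rw [← sum_yv_sq k ωs, Finset.mul_sum]
    refine Finset.sum_le_sum fun a _ => ?_
    rw [mul_pow]
    refine mul_le_mul_of_nonneg_right ?_ (sq_nonneg _)
    exact sq_le_sq' (neg_le_of_abs_le (hf _)) (le_of_abs_le (hf _))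
  have hsum0 : ∀ ωs : Fin (k + 1) → EN N, 0 ≤ ∑ a, (f (κ a) * yv k ωs a) ^ 2 :=
    fun ωs => Finset.sum_nonneg fun _ _ => sq_nonneg _
  have hmeas : ∀ (ωs : Fin (k + 1) → EN N) (j : ℕ), Measurable (fun ξ : Fin (N + 1) → ℝ =>
      (∑ a : Fin N, uv ξ a.succ * (f (κ a) * yv k ωs a)) ^ j) := by
    intro ωs j
    refine Measurable.pow_const (Finset.measurable_sum _ fun a _ => Measurable.mul ?_
      measurable_const) j
    exact (measurable_pi_apply _).comp CoupMA_measurable_uv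
  have hint : ∀ (ωs : Fin (k + 1) → EN N) (j : ℕ),
      ∫ y, MomL_Aw κ f (fun i => (ωs i, y i)) ^ j
        ∂(Measure.pi (fun _ : Fin (k + 1) => MomL_mE N)) =
      ∫ ξ, (∑ a : Fin N, uv ξ a.succ * (f (κ a) * yv k ωs a)) ^ j ∂(gvec (N + 1)) := by
    intro ωs j
    rw [← MomL_int0 (k := k) (hmeas ωs j)]
    refine integral_congr_ae (Filter.Eventually.of_forall fun y => ?_)
    simp only [MomL_Aw]
    congr 1
    refine Finset.sum_congr rfl fun a _ => ?_
    ring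
  constructor
  · have h := MomL_main hP D L s x κ lab (b := b) hv0 hv1 i0 (Ψ := fun ω => MomL_Aw κ f ω ^ 4)
      (MomL_tame_pow hd hT 4) (fun ω => by positivity) (G := fun _ => C4 * F ^ 4)
      (Tame.const hdN _) (fun ωs => by
        rw [hint ωs 4]
        refine (h4 hN _).2.trans ?_
        rw [div_le_iff₀ (by positivity)]
        have h5 : (∑ a, (f (κ a) * yv k ωs a) ^ 2) ^ 2 ≤ (F ^ 2 * N) ^ 2 :=
          pow_le_pow_left₀ (hsum0 ωs) (hsum ωs) 2
        calc C4 * (∑ a, (f (κ a) * yv k ωs a) ^ 2) ^ 2 ≤ C4 * (F ^ 2 * N) ^ 2 :=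
              mul_le_mul_of_nonneg_left h5 hC4
          _ = C4 * F ^ 4 * (N : ℝ) ^ 2 := by ring)
    have e : EL P D L k s x κ lab (fun _ => C4 * F ^ 4) = C4 * F ^ 4 :=
      pathE_const hdN (exps_LB k) (k + 1) 0 (HN_ham k _) _
    rw [e] at h
    refine h.trans ?_
    have h6 : 0 ≤ Real.exp (2 * |b|) * F ^ 4 * C2 := by positivity
    calc _ = 60 * C4 * Real.exp (2 * |b|) * F ^ 4 := by ring
      _ ≤ _ := by nlinarith
  · have h := MomL_main hP D L s x κ lab (b := b) hv0 hv1 i0 (Ψ := fun ω => MomL_Aw κ f ω ^ 2)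
      (MomL_tame_pow hd hT 2) (fun ω => by positivity) (G := fun _ => C2 * F ^ 2)
      (Tame.const hdN _) (fun ωs => by
        rw [hint ωs 2]
        refine (h2 hN _).2.trans ?_
        rw [div_le_iff₀ (by positivity)]
        calc C2 * (∑ a, (f (κ a) * yv k ωs a) ^ 2) ≤ C2 * (F ^ 2 * N) :=
              mul_le_mul_of_nonneg_left (hsum ωs) hC2
          _ = C2 * F ^ 2 * (N : ℝ) := by ring)
    have e : EL P D L k s x κ lab (fun _ => C2 * F ^ 2) = C2 * F ^ 2 :=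
      pathE_const hdN (exps_LB k) (k + 1) 0 (HN_ham k _) _
    rw [e] at h
    refine h.trans ?_
    have h6 : 0 ≤ Real.exp (2 * |b|) * F ^ 2 * C4 := by positivity
    calc _ = 60 * C2 * Real.exp (2 * |b|) * F ^ 2 := by ring
      _ ≤ _ := by nlinarith

/-- PROOF: `EH1_red`, `pathE_prod`, `u_mom2` with `v_a = f(κ a) g̃_a`, `EL_g2`. -/
theorem momL_G (Dm : ℝ) : ∃ C : ℝ, 0 ≤ C ∧ ∀ {N J k : ℕ} {P : Measure (ON N)}, 1 ≤ N → HaarO P →
    ∀ (D : Blk) (L : LBd J), 0 < k → ∀ (s : ℝ) (x : XI k D.K J → ℝ), COK D Dm s x →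
    ∀ (κ : Fin N → Fin D.K) (lab : Fin N → Fin J) (b v : ℝ) (i0 : Fin k), 0 ≤ v → v ≤ 1 →
    ∀ (f : Fin D.K → ℝ) (F : ℝ), (∀ l, |f l| ≤ F) → ∀ i : Fin k,
      EH1 P D L k s x κ lab b v i0 (fun ω => Gw κ f i ω ^ 2) ≤ C * Real.exp (2 * |b|) * F ^ 2 ∧
      EH1 P D L k s x κ lab b v i0 (fun ω => G0 i ω ^ 2) ≤ C * Real.exp (2 * |b|) := by
  obtain ⟨C2, hC2, h2⟩ := u_mom2
  obtain ⟨Cg, hCg, hg⟩ := EL_g2 Dm
  refine ⟨60 * (C2 * Cg) + 60, by positivity, ?_⟩
  intro N J k P hN hP D L hk s x hx κ lab b v i0 hv0 hv1 f F hf i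
  have := prob_mN hP (unifA N)
  have := prob_mC1 hP
  have hd := dom_mC1 hP
  have hdN := dom_mN hP (unifA N)
  have hN0 : (0 : ℝ) < N := by exact_mod_cast hN
  constructor
  · have hT := MomL_tame_Gw (k := k) hP κ f i
    have hTS : Tame (βN (N := N)) (fun ω : Fin (k + 1) → EN N =>
        ∑ a, (ω i.castSucc).2.2.1 a ^ 2) :=
      tame_fsum hdN _ fun a _ => MomL_tame_pow hdN (tame_coord k _ a) 2
    have h := MomL_main hP D L s x κ lab (b := b) hv0 hv1 i0 (Ψ := fun ω => MomL_Gw κ f i ω ^ 2)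
      (MomL_tame_pow hd hT 2) (fun ω => by positivity)
      (G := fun ω => (C2 * F ^ 2 / N) * ∑ a, (ω i.castSucc).2.2.1 a ^ 2)
      (Tame.mul hdN (Tame.const hdN _) hTS) (fun ωs => by
        have hmeas : Measurable (fun ξ : Fin (N + 1) → ℝ =>
            (∑ a : Fin N, uv ξ a.succ * (f (κ a) * (ωs i.castSucc).2.2.1 a)) ^ 2) := by
          refine Measurable.pow_const (Finset.measurable_sum _ fun a _ => Measurable.mul ?_
            measurable_const) 2
          exact (measurable_pi_apply _).comp CoupMA_measurable_uv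
        have hint : ∫ y, MomL_Gw κ f i (fun j => (ωs j, y j)) ^ 2
            ∂(Measure.pi (fun _ : Fin (k + 1) => MomL_mE N)) =
            ∫ ξ, (∑ a : Fin N, uv ξ a.succ * (f (κ a) * (ωs i.castSucc).2.2.1 a)) ^ 2
              ∂(gvec (N + 1)) := by
          rw [← MomL_int0 (k := k) hmeas]
          refine integral_congr_ae (Filter.Eventually.of_forall fun y => ?_)
          simp only [MomL_Gw]
          congr 1
          refine Finset.sum_congr rfl fun a _ => ?_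
          ring
        rw [hint]
        refine (h2 hN _).2.trans ?_
        have h5 : ∑ a, (f (κ a) * (ωs i.castSucc).2.2.1 a) ^ 2 ≤
            F ^ 2 * ∑ a, (ωs i.castSucc).2.2.1 a ^ 2 := by
          rw [Finset.mul_sum]
          refine Finset.sum_le_sum fun a _ => ?_
          rw [mul_pow]
          refine mul_le_mul_of_nonneg_right ?_ (sq_nonneg _)
          exact sq_le_sq' (neg_le_of_abs_le (hf _)) (le_of_abs_le (hf _))
        rw [div_mul_eq_mul_div]
        refine div_le_div_of_nonneg_right ?_ hN0.le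
        calc C2 * ∑ a, (f (κ a) * (ωs i.castSucc).2.2.1 a) ^ 2 ≤
              C2 * (F ^ 2 * ∑ a, (ωs i.castSucc).2.2.1 a ^ 2) :=
              mul_le_mul_of_nonneg_left h5 hC2
          _ = _ := by ring)
    have e : EL P D L k s x κ lab (fun ω => (C2 * F ^ 2 / N) * ∑ a, (ω i.castSucc).2.2.1 a ^ 2) =
        (C2 * F ^ 2 / N) * EL P D L k s x κ lab (fun ω => ∑ a, (ω i.castSucc).2.2.1 a ^ 2) :=
      pathE_mul _ _ _ _ _
    rw [e] at h
    have h7 := hg hN hP D L hk s x hx κ lab i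
    have h8 : (C2 * F ^ 2 / N) * EL P D L k s x κ lab (fun ω => ∑ a, (ω i.castSucc).2.2.1 a ^ 2) ≤
        C2 * F ^ 2 * Cg := by
      refine (mul_le_mul_of_nonneg_left h7 (by positivity)).trans (le_of_eq ?_)
      field_simp
    have h9 : (fun ω : Fin (k + 1) → EC N => Gw κ f i ω ^ 2) =
        fun ω => (fun ω => MomL_Gw κ f i ω ^ 2) (fun j => (ω j).1) := rfl
    rw [h9]
    refine h.trans ((mul_le_mul_of_nonneg_left h8 (by positivity)).trans ?_)
    have h6 : 0 ≤ Real.exp (2 * |b|) * F ^ 2 := by positivity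
    nlinarith
  · have h := MomL_main hP D L s x κ lab (b := b) hv0 hv1 i0
      (Ψ := fun ω : Fin (k + 1) → EC1 N => (ω i.castSucc).2.2 ^ 2)
      (MomL_tame_pow hd (MomL_tame_g0 _) 2) (fun ω => by positivity) (G := fun _ => 1)
      (Tame.const hdN _) (fun ωs => le_of_eq (MomL_int2 i.castSucc))
    have e : EL P D L k s x κ lab (fun _ => (1 : ℝ)) = 1 :=
      pathE_const hdN (exps_LB k) (k + 1) 0 (HN_ham k _) _
    rw [e] at h
    have h9 : (fun ω : Fin (k + 1) → EC N => G0 i ω ^ 2) =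
        fun ω => (fun ω : Fin (k + 1) → EC1 N => (ω i.castSucc).2.2 ^ 2) (fun j => (ω j).1) := rfl
    rw [h9]
    refine h.trans ?_
    have h6 : 0 ≤ Real.exp (2 * |b|) * (C2 * Cg) := by positivity
    nlinarith

/-- PROOF: sum of the two values of `ε`, `EH1_red`, `pathE_prod`, `DInf_mom3`. -/
theorem momL_D3 (D : Blk) : ∃ C : ℝ, 0 ≤ C ∧ ∀ {N J k : ℕ} {P : Measure (ON N)}, 1 ≤ N → HaarO P →
    ∀ (L : LBd J), 0 < k → ∀ (s : ℝ) (x : XI k D.K J → ℝ)
      (κ : Fin N → Fin D.K) (lab : Fin N → Fin J) (b v : ℝ) (i0 : Fin k), 0 ≤ v → v ≤ 1 →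
    ∀ l0 : Fin D.K,
      EH1 P D L k s x κ lab b v i0 (fun ω => |DInf D l0 (zx κ ω) (ep ω)| ^ 3) ≤
        C * Real.exp (2 * |b|) := by
  obtain ⟨C3, hC3, h3⟩ := DInf_mom3 D
  refine ⟨120 * C3, by positivity, ?_⟩
  intro N J k P hN hP L hk s x κ lab b v i0 hv0 hv1 l0
  have := prob_mN hP (unifA N)
  have := prob_mC1 hP
  have := prob_mC hP
  have hd := dom_mC1 hP
  have hdC := dom_mC hP
  have hdN := dom_mN hP (unifA N)
  have hDI : ∀ ε : ℝ, Tame (βC1 (N := N)) (fun ω : Fin (k + 1) → EC1 N =>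
      |DInf D l0 (MomL_zx κ ω) ε| ^ 3) := by
    intro ε
    refine MomL_tame_pow hd (MomL_tame_abs ?_) 3
    have hg : Tame (βC1 (N := N)) (fun ω : Fin (k + 1) → EC1 N => ∑ l, MomL_zx κ ω l) :=
      tame_fsum hd _ fun l _ => MomL_tame_zx hP κ l
    have hG : Tame (βC1 (N := N)) (fun ω : Fin (k + 1) → EC1 N => ∑ l, D.d l * MomL_zx κ ω l) :=
      tame_fsum hd _ fun l _ => Tame.mul hd (Tame.const hd _) (MomL_tame_zx hP κ l)
    have h1 := Tame.add hd (Tame.add hd (Tame.const hd (1 / 2 * D.dbar))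
      (Tame.mul hd (Tame.const hd ε) (Tame.add hd hG (Tame.mul hd (Tame.const hd (-D.dbar)) hg))))
      (Tame.add hd (Tame.mul hd (Tame.const hd (-1)) (Tame.mul hd hg hG))
        (Tame.mul hd (Tame.const hd (1 / 2 * (D.d l0 + D.dbar))) (MomL_tame_pow hd hg 2)))
    have e : (fun ω : Fin (k + 1) → EC1 N => DInf D l0 (MomL_zx κ ω) ε) = fun ω =>
        ((1 / 2 * D.dbar) + ε * ((∑ l, D.d l * MomL_zx κ ω l) + (-D.dbar) * ∑ l, MomL_zx κ ω l)) +
        ((-1) * ((∑ l, MomL_zx κ ω l) * ∑ l, D.d l * MomL_zx κ ω l) +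
          (1 / 2 * (D.d l0 + D.dbar)) * (∑ l, MomL_zx κ ω l) ^ 2) := by
      funext ω
      unfold DInf DI
      ring
    rw [e]
    exact h1
  set Ψ : (Fin (k + 1) → EC1 N) → ℝ := fun ω =>
    |DInf D l0 (MomL_zx κ ω) 1| ^ 3 + |DInf D l0 (MomL_zx κ ω) (-1)| ^ 3 with hΨdef
  have hΨ : Tame (βC1 (N := N)) Ψ := Tame.add hd (hDI 1) (hDI (-1))
  have hT5 := (tame_pieces (k := k) D x κ lab (fun _ => 0) l0).2.2.2.2
  have hmono : EH1 P D L k s x κ lab b v i0 (fun ω => |DInf D l0 (zx κ ω) (ep ω)| ^ 3) ≤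
      EH1 P D L k s x κ lab b v i0 (fun ω => Ψ (fun j => (ω j).1)) := by
    refine pathE_mono hdC (exps_LB k) (k + 1) 0 (H1_ham D L s x κ lab b v i0)
      (MomL_tame_pow hdC (MomL_tame_abs hT5) 3) (MomL_tame_pull hΨ) fun ω => ?_
    have e1 : MomL_zx κ (fun j => (ω j).1) = zx κ ω := rfl
    simp only [hΨdef, e1]
    have hs : ep ω = 1 ∨ ep ω = -1 := by
      unfold ep spin
      split_ifs <;> simp
    rcases hs with hs | hs
    · rw [hs]
      have : 0 ≤ |DInf D l0 (zx κ ω) (-1)| ^ 3 := by positivity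
      linarith
    · rw [hs]
      have : 0 ≤ |DInf D l0 (zx κ ω) 1| ^ 3 := by positivity
      linarith
  refine hmono.trans ?_
  have h := MomL_main hP D L s x κ lab (b := b) hv0 hv1 i0 hΨ
    (fun ω => by simp only [hΨdef]; positivity) (G := fun _ => 2 * C3) (Tame.const hdN _)
    (fun ωs => by
      have hy : ∑ a, yv k ωs a ^ 2 = N := sum_yv_sq k ωs
      have i1 := h3 hN κ l0 (yv k ωs) hy 1 (by norm_num)
      have i2 := h3 hN κ l0 (yv k ωs) hy (-1) (by norm_num)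
      have hm : ∀ ε : ℝ, Measurable (fun ξ : Fin (N + 1) → ℝ => |DInf D l0 (fun l =>
          (Real.sqrt N)⁻¹ * ∑ a : Fin N, if κ a = l then ξ a.succ * yv k ωs a else 0) ε| ^ 3) := by
        intro ε
        have hz : ∀ l, Measurable (fun ξ : Fin (N + 1) → ℝ => (Real.sqrt N)⁻¹ *
            ∑ a : Fin N, if κ a = l then ξ a.succ * yv k ωs a else 0) := by
          intro l
          refine measurable_const.mul (Finset.measurable_sum _ fun a _ => ?_)
          by_cases hh : κ a = l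
          · simp only [hh, if_true]
            exact (measurable_pi_apply _).mul measurable_const
          · simp only [hh, if_false]
            exact measurable_const
        have hg := Finset.measurable_sum (f := fun l (ξ : Fin (N + 1) → ℝ) => (Real.sqrt N)⁻¹ *
            ∑ a : Fin N, if κ a = l then ξ a.succ * yv k ωs a else 0) Finset.univ
            (fun l _ => hz l)
        have hG := Finset.measurable_sum (f := fun l (ξ : Fin (N + 1) → ℝ) => D.d l *
            ((Real.sqrt N)⁻¹ * ∑ a : Fin N, if κ a = l then ξ a.succ * yv k ωs a else 0))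
            Finset.univ (fun l _ => measurable_const.mul (hz l))
        unfold DInf DI
        refine Measurable.pow_const (Measurable.abs ?_) 3
        exact (((measurable_const.add (measurable_const.mul (hG.sub (measurable_const.mul hg)))).sub
          (hg.mul hG)).add (measurable_const.mul (hg.pow_const 2)))
      have e2 : ∫ y, Ψ (fun j => (ωs j, y j)) ∂(Measure.pi (fun _ : Fin (k + 1) => MomL_mE N)) =
          ∫ ξ : Fin (N + 1) → ℝ, (|DInf D l0 (fun l => (Real.sqrt N)⁻¹ *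
            ∑ a : Fin N, if κ a = l then ξ a.succ * yv k ωs a else 0) 1| ^ 3 +
            |DInf D l0 (fun l => (Real.sqrt N)⁻¹ *
            ∑ a : Fin N, if κ a = l then ξ a.succ * yv k ωs a else 0) (-1)| ^ 3)
            ∂(gvec (N + 1)) := by
        have hm2 : Measurable (fun ξ : Fin (N + 1) → ℝ => |DInf D l0 (fun l => (Real.sqrt N)⁻¹ *
            ∑ a : Fin N, if κ a = l then ξ a.succ * yv k ωs a else 0) 1| ^ 3 +
            |DInf D l0 (fun l => (Real.sqrt N)⁻¹ *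
            ∑ a : Fin N, if κ a = l then ξ a.succ * yv k ωs a else 0) (-1)| ^ 3) :=
          (hm 1).add (hm (-1))
        rw [← MomL_int0 (k := k) hm2]
        rfl
      rw [e2, integral_add i1.1 i2.1]
      linarith [i1.2, i2.2])
  have e : EL P D L k s x κ lab (fun _ => 2 * C3) = 2 * C3 :=
    pathE_const hdN (exps_LB k) (k + 1) 0 (HN_ham k _) _
  rw [e] at h
  refine h.trans (le_of_eq ?_)
  ring

/-- summary for `M1`, `M2` -/
theorem momL_M (D : Blk) (J : ℕ) : ∃ C : ℝ, 0 ≤ C ∧ ∀ {N k : ℕ} {P : Measure (ON N)}, 1 ≤ N →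
    HaarO P → ∀ (L : LBd J), 0 < k → ∀ (s : ℝ), 0 ≤ s → s ≤ 1 → ∀ (x : XI k D.K J → ℝ), XOK x →
    ∀ (κ : Fin N → Fin D.K) (lab : Fin N → Fin J) (b v : ℝ) (i0 : Fin k), 0 ≤ v → v ≤ 1 →
      EH1 P D L k s x κ lab b v i0 (M1 D κ) ≤ C * Real.exp (2 * |b|) ∧
      EH1 P D L k s x κ lab b v i0 (M2 D x κ) ≤ C * Real.exp (2 * |b|) * (1 + k) := by
  obtain ⟨CA, hCA, hA⟩ := momL_A
  set Dm : ℝ := ∑ l, |D.d l| with hDm
  have hDmb : ∀ l, |D.d l| ≤ Dm := fun l =>
    Finset.single_le_sum (f := fun l => |D.d l|) (fun _ _ => abs_nonneg _) (Finset.mem_univ l)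
  have hDm0 : 0 ≤ Dm := Finset.sum_nonneg fun _ _ => abs_nonneg _
  obtain ⟨CG, hCG, hG⟩ := momL_G Dm
  refine ⟨1 + CA * (20 + Dm ^ 2) + CG * 20, by positivity, ?_⟩
  intro N k P hN hP L hk s hs0 hs1 x hx κ lab b v i0 hv0 hv1
  have := prob_mC hP
  have := prob_mC1 hP
  have hdC := dom_mC hP
  have hd1 := dom_mC1 hP
  have hHam := H1_ham D L s x κ lab b v i0
  have hcok : COK D Dm s x := ⟨hDmb, hs0, hs1, hx⟩
  have hE1 : (1 : ℝ) ≤ Real.exp (2 * |b|) := Real.one_le_exp (by positivity)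
  have hx3 : ∀ i, |x i| ≤ 3 := fun i => by
    rw [abs_of_nonneg (hx i).1]; exact (hx i).2
  have tA : ∀ (f : Fin D.K → ℝ) (j : ℕ), Tame (βC (N := N))
      (fun ω : Fin (k + 1) → EC N => Aw κ f ω ^ j) := fun f j =>
    MomL_tame_pull (MomL_tame_pow hd1 (MomL_tame_Aw (k := k) hP κ f) j)
  have tG : ∀ (f : Fin D.K → ℝ) (i : Fin k), Tame (βC (N := N))
      (fun ω : Fin (k + 1) → EC N => Gw κ f i ω ^ 2) := fun f i =>
    MomL_tame_pull (MomL_tame_pow hd1 (MomL_tame_Gw (k := k) hP κ f i) 2)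
  have t0 : ∀ (i : Fin k), Tame (βC (N := N))
      (fun ω : Fin (k + 1) → EC N => G0 i ω ^ 2) := fun i =>
    MomL_tame_pull (Ψ := fun ω : Fin (k + 1) → EC1 N => (ω i.castSucc).2.2 ^ 2)
      (MomL_tame_pow hd1 (MomL_tame_g0 _) 2)
  have add : ∀ {Φ Ψ : (Fin (k + 1) → EC N) → ℝ}, Tame (βC (N := N)) Φ → Tame (βC (N := N)) Ψ →
      EH1 P D L k s x κ lab b v i0 (fun ω => Φ ω + Ψ ω) =
        EH1 P D L k s x κ lab b v i0 Φ + EH1 P D L k s x κ lab b v i0 Ψ := fun h h' =>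
    pathE_add hdC (exps_LB k) (k + 1) 0 hHam h h'
  have c1 : Tame (βC (N := N)) (fun _ : Fin (k + 1) → EC N => (1 : ℝ)) := Tame.const hdC 1
  have e1 : EH1 P D L k s x κ lab b v i0 (fun _ => (1 : ℝ)) = 1 :=
    pathE_const hdC (exps_LB k) (k + 1) 0 hHam 1
  have bA1 := hA hN hP D L hk s x κ lab b v i0 hv0 hv1 (fun _ => 1) 1 (fun _ => by simp)
  have bAd := hA hN hP D L hk s x κ lab b v i0 hv0 hv1 D.d Dm hDmb
  have bAx := hA hN hP D L hk s x κ lab b v i0 hv0 hv1 (fun l => x (Sum.inl l)) 3 (fun _ => hx3 _)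
  constructor
  · have e : M1 D κ = fun ω : Fin (k + 1) → EC N =>
        (1 + Aw κ (fun _ => 1) ω ^ 4) + Aw κ D.d ω ^ 2 := rfl
    rw [e, add (Tame.add hdC c1 (tA _ 4)) (tA _ 2), add c1 (tA _ 4), e1]
    have h1 := bA1.1
    have h2 := bAd.2
    have h3 : 0 ≤ CA * Real.exp (2 * |b|) := by positivity
    have h4 : 0 ≤ CG * Real.exp (2 * |b|) := by positivity
    nlinarith
  · have e : M2 D x κ = fun ω : Fin (k + 1) → EC N =>
        ((1 + Aw κ (fun _ => 1) ω ^ 2) + Aw κ (fun l => x (Sum.inl l)) ω ^ 2) +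
        ∑ i : Fin k, (((((1 + Aw κ (fun _ => 1) ω ^ 2) +
          Aw κ (fun l => x (Sum.inr (Sum.inr (i, l)))) ω ^ 2) + Gw κ (fun _ => 1) i ω ^ 2) +
          Gw κ (fun l => x (Sum.inr (Sum.inr (i, l)))) i ω ^ 2) + G0 i ω ^ 2) := rfl
    have tS : ∀ i : Fin k, Tame (βC (N := N)) (fun ω : Fin (k + 1) → EC N =>
        (((((1 + Aw κ (fun _ => 1) ω ^ 2) +
          Aw κ (fun l => x (Sum.inr (Sum.inr (i, l)))) ω ^ 2) + Gw κ (fun _ => 1) i ω ^ 2) +
          Gw κ (fun l => x (Sum.inr (Sum.inr (i, l)))) i ω ^ 2) + G0 i ω ^ 2)) := fun i =>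
      Tame.add hdC (Tame.add hdC (Tame.add hdC (Tame.add hdC (Tame.add hdC c1 (tA _ 2)) (tA _ 2))
        (tG _ i)) (tG _ i)) (t0 i)
    have hsum : EH1 P D L k s x κ lab b v i0 (fun ω => ∑ i : Fin k,
        (((((1 + Aw κ (fun _ => 1) ω ^ 2) +
          Aw κ (fun l => x (Sum.inr (Sum.inr (i, l)))) ω ^ 2) + Gw κ (fun _ => 1) i ω ^ 2) +
          Gw κ (fun l => x (Sum.inr (Sum.inr (i, l)))) i ω ^ 2) + G0 i ω ^ 2)) ≤
        k * ((1 + CA * 10 + CG * 11) * Real.exp (2 * |b|)) := by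
      have := pathE_fsum hdC (exps_LB k) (k + 1) 0 hHam Finset.univ (fun i _ => tS i)
      refine (le_of_eq this).trans ?_
      have hle : ∀ i ∈ (Finset.univ : Finset (Fin k)),
          pathE (mC P) (ζLB k) (k + 1) 0 (H1 D L s x κ lab b v i0)
          (fun ω : Fin (k + 1) → EC N => (((((1 + Aw κ (fun _ => 1) ω ^ 2) +
          Aw κ (fun l => x (Sum.inr (Sum.inr (i, l)))) ω ^ 2) + Gw κ (fun _ => 1) i ω ^ 2) +
          Gw κ (fun l => x (Sum.inr (Sum.inr (i, l)))) i ω ^ 2) + G0 i ω ^ 2)) ≤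
          (1 + CA * 10 + CG * 11) * Real.exp (2 * |b|) := by
        intro i _
        have hh : EH1 P D L k s x κ lab b v i0 (fun ω => (((((1 + Aw κ (fun _ => 1) ω ^ 2) +
          Aw κ (fun l => x (Sum.inr (Sum.inr (i, l)))) ω ^ 2) + Gw κ (fun _ => 1) i ω ^ 2) +
          Gw κ (fun l => x (Sum.inr (Sum.inr (i, l)))) i ω ^ 2) + G0 i ω ^ 2)) ≤
          (1 + CA * 10 + CG * 11) * Real.exp (2 * |b|) := by
          rw [add (Tame.add hdC (Tame.add hdC (Tame.add hdC (Tame.add hdC c1 (tA _ 2)) (tA _ 2))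
              (tG _ i)) (tG _ i)) (t0 i),
            add (Tame.add hdC (Tame.add hdC (Tame.add hdC c1 (tA _ 2)) (tA _ 2)) (tG _ i)) (tG _ i),
            add (Tame.add hdC (Tame.add hdC c1 (tA _ 2)) (tA _ 2)) (tG _ i),
            add (Tame.add hdC c1 (tA _ 2)) (tA _ 2), add c1 (tA _ 2), e1]
          have b1 := bA1.2
          have b2 := (hA hN hP D L hk s x κ lab b v i0 hv0 hv1
            (fun l => x (Sum.inr (Sum.inr (i, l)))) 3 (fun _ => hx3 _)).2
          have b3 := hG hN hP D L hk s x hcok κ lab b v i0 hv0 hv1 (fun _ => 1) 1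
            (fun _ => by simp) i
          have b4 := (hG hN hP D L hk s x hcok κ lab b v i0 hv0 hv1
            (fun l => x (Sum.inr (Sum.inr (i, l)))) 3 (fun _ => hx3 _) i).1
          have b31 := b3.1
          have b32 := b3.2
          nlinarith
        exact hh
      refine (Finset.sum_le_sum hle).trans (le_of_eq ?_)
      rw [Finset.sum_const, Finset.card_univ, Fintype.card_fin, nsmul_eq_mul]
    rw [e, add (Tame.add hdC (Tame.add hdC c1 (tA _ 2)) (tA _ 2))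
        (tame_fsum hdC _ fun i _ => tS i), add (Tame.add hdC c1 (tA _ 2)) (tA _ 2),
      add c1 (tA _ 2), e1]
    have h1 := bA1.2
    have h2 := bAx.2
    have hk0 : (0 : ℝ) ≤ k := Nat.cast_nonneg k
    have h3 : 0 ≤ CA * Real.exp (2 * |b|) := by positivity
    have h4 : 0 ≤ CG * Real.exp (2 * |b|) := by positivity
    have h5 : 0 ≤ (k : ℝ) * (CA * Real.exp (2 * |b|)) := by positivity
    have h6 : 0 ≤ (k : ℝ) * (CG * Real.exp (2 * |b|)) := by positivity
    have h7 : 0 ≤ (CA * Real.exp (2 * |b|)) * Dm ^ 2 := by positivity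
    have h8 : 0 ≤ (k : ℝ) * ((CA * Real.exp (2 * |b|)) * Dm ^ 2) := by positivity
    have h9 : (1 + CA * (20 + Dm ^ 2) + CG * 20) * Real.exp (2 * |b|) * (1 + k) =
      Real.exp (2 * |b|) + k * Real.exp (2 * |b|) + 20 * (CA * Real.exp (2 * |b|)) +
      (CA * Real.exp (2 * |b|)) * Dm ^ 2 + 20 * (CG * Real.exp (2 * |b|)) +
      20 * ((k : ℝ) * (CA * Real.exp (2 * |b|))) + (k : ℝ) * ((CA * Real.exp (2 * |b|)) * Dm ^ 2) +
      20 * ((k : ℝ) * (CG * Real.exp (2 * |b|))) := by ring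
    rw [h9]
    have h10 : (k : ℝ) * ((1 + CA * 10 + CG * 11) * Real.exp (2 * |b|)) =
      k * Real.exp (2 * |b|) + 10 * ((k : ℝ) * (CA * Real.exp (2 * |b|))) +
      11 * ((k : ℝ) * (CG * Real.exp (2 * |b|))) := by ring
    rw [h10] at hsum
    linarith

end Crest.Agent.RI
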