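import Crest.Agent.RI.CoupDefs
import Crest.Agent.RI.DecM

/-!
# Row 164, Part 8: Gaussian moments of the coupling variable `ξ`
-/

set_option autoImplicit false

namespace Crest.Agent.RI

open MeasureTheory ProbabilityTheory

variable {N K : ℕ}

private theorem XiMom_exp_one (c : ℝ) :
    Integrable (fun x : ℝ => Real.exp (c * |x|)) (gaussianReal 0 1) :=
  integrable_exp_mul_abs (X := fun x : ℝ => x) (t := c)
    (integrable_exp_mul_gaussianReal c) (integrable_exp_mul_gaussianReal (-c))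

private theorem XiMom_dom : Dom (gaussianReal 0 1) (fun x : ℝ => |x|) :=
  ⟨measurable_abs, fun x => abs_nonneg x, XiMom_exp_one⟩

private theorem XiMom_exp_gvec {M : ℕ} (c : ℝ) :
    Integrable (fun x : Fin M → ℝ => Real.exp (c * ∑ a, |x a|)) (gvec M) := by
  have h := Integrable.fintype_prod (ι := Fin M) (E := ℝ) (𝕜 := ℝ)
    (f := fun _ x => Real.exp (c * |x|)) (μ := fun _ => gaussianReal 0 1) (fun _ => XiMom_exp_one c)
  have e : (fun x : Fin M → ℝ => ∏ i, Real.exp (c * |x i|)) =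
      fun x : Fin M → ℝ => Real.exp (c * ∑ a, |x a|) := by
    funext x
    rw [← Real.exp_sum, Finset.mul_sum]
  rw [e] at h
  exact h

/-- class of functions with exponential growth -/
private abbrev XT {M : ℕ} (F : (Fin M → ℝ) → ℝ) : Prop := Tame (fun x : ℝ => |x|) F

private theorem XT_int {M : ℕ} {F : (Fin M → ℝ) → ℝ} (hF : XT F) : Integrable F (gvec M) := by
  obtain ⟨C, hC, hb⟩ := hF.bound
  exact ((XiMom_exp_gvec C).const_mul C).mono' hF.meas.aestronglyMeasurable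
    (Filter.Eventually.of_forall hb)

private theorem XT_const {M : ℕ} (c : ℝ) : XT (fun _ : Fin M → ℝ => c) := Tame.const XiMom_dom c

private theorem XT_coord {M : ℕ} (a : Fin M) : XT (fun ω : Fin M → ℝ => ω a) := by
  refine Ham.tame XiMom_dom ⟨measurable_pi_apply a, 1, zero_le_one, fun ω => ?_⟩
  have h1 : |ω a| ≤ ∑ b, |ω b| :=
    Finset.single_le_sum (f := fun b => |ω b|) (fun _ _ => abs_nonneg _) (Finset.mem_univ a)
  linarith

private theorem XT_add {M : ℕ} {F G : (Fin M → ℝ) → ℝ} (hF : XT F) (hG : XT G) :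
    XT (fun ω => F ω + G ω) := hF.add XiMom_dom hG

private theorem XT_mul {M : ℕ} {F G : (Fin M → ℝ) → ℝ} (hF : XT F) (hG : XT G) :
    XT (fun ω => F ω * G ω) := hF.mul XiMom_dom hG

private theorem XT_cmul {M : ℕ} {F : (Fin M → ℝ) → ℝ} (c : ℝ) (hF : XT F) :
    XT (fun ω => c * F ω) := XT_mul (XT_const c) hF

private theorem XT_pow {M : ℕ} {F : (Fin M → ℝ) → ℝ} (hF : XT F) (n : ℕ) :
    XT (fun ω => F ω ^ n) := by
  induction n with
  | zero => simpa using XT_const (M := M) 1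
  | succ n ih =>
    simp only [pow_succ]
    exact XT_mul ih hF

private theorem XT_sum {M : ℕ} {ι : Type} (s : Finset ι) {F : ι → (Fin M → ℝ) → ℝ}
    (hF : ∀ i, XT (F i)) : XT (fun ω => ∑ i ∈ s, F i ω) := by
  classical
  induction s using Finset.induction_on with
  | empty => simpa using XT_const (M := M) 0
  | insert a s ha ih =>
    simp only [Finset.sum_insert ha]
    exact XT_add (hF a) ih

private theorem XT_of_le {M : ℕ} {F G : (Fin M → ℝ) → ℝ} (hF : XT F) (hm : Measurable G)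
    (h : ∀ ω, |G ω| ≤ F ω) : XT G := by
  obtain ⟨C, hC, hb⟩ := hF.bound
  exact ⟨hm, C, hC, fun ω => (h ω).trans ((le_abs_self _).trans (hb ω))⟩

/-- 1-dimensional moments -/
private theorem XiMom_rec (n : ℕ) : ∫ x : ℝ, x ^ (n + 2) ∂(gaussianReal 0 1) =
    ((n : ℝ) + 1) * ∫ x : ℝ, x ^ n ∂(gaussianReal 0 1) := by
  have hf1 : (1 : ℝ) ≤ ((n + 1).factorial : ℝ) := by
    exact_mod_cast Nat.one_le_iff_ne_zero.2 (Nat.factorial_ne_zero _)
  have hexp : ∀ x : ℝ, Real.exp |x| ≤ Real.exp (((n + 1).factorial : ℝ) * |x|) := fun x =>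
    Real.exp_le_exp.2 (by have := abs_nonneg x; nlinarith)
  have h := stein_one (f := fun x => x ^ (n + 1)) (f' := fun x => ((n : ℝ) + 1) * x ^ n)
    (C := ((n + 1).factorial : ℝ))
    (fun x => by simpa using hasDerivAt_pow (n + 1) x) (by fun_prop) (fun x => by
      have h1 := Real.pow_div_factorial_le_exp |x| (abs_nonneg x) (n + 1)
      rw [div_le_iff₀ (by positivity)] at h1
      have h2 := hexp x
      rw [abs_pow]
      nlinarith) (fun x => by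
      have h1 := Real.pow_div_factorial_le_exp |x| (abs_nonneg x) n
      rw [div_le_iff₀ (by positivity)] at h1
      have h2 := hexp x
      rw [abs_mul, abs_pow, abs_of_nonneg (by positivity : (0:ℝ) ≤ (n : ℝ) + 1)]
      have h3 : ((n + 1).factorial : ℝ) = ((n : ℝ) + 1) * (n.factorial : ℝ) := by
        rw [Nat.factorial_succ]; push_cast; ring
      calc ((n : ℝ) + 1) * |x| ^ n ≤ ((n : ℝ) + 1) * (Real.exp |x| * (n.factorial : ℝ)) := by
            exact mul_le_mul_of_nonneg_left h1 (by positivity)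
        _ = ((n + 1).factorial : ℝ) * Real.exp |x| := by rw [h3]; ring
        _ ≤ _ := mul_le_mul_of_nonneg_left h2 (by positivity))
  rw [integral_const_mul] at h
  rw [h]
  congr 1
  funext x
  ring

private theorem XiMom_m0 : ∫ x : ℝ, x ^ 0 ∂(gaussianReal 0 1) = 1 := by simp

private theorem XiMom_m2 : ∫ x : ℝ, x ^ 2 ∂(gaussianReal 0 1) = 1 := by
  have := XiMom_rec 0
  rw [XiMom_m0] at this
  simpa using this

private theorem XiMom_m4 : ∫ x : ℝ, x ^ 4 ∂(gaussianReal 0 1) = 3 := by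
  have := XiMom_rec 2
  rw [XiMom_m2] at this
  rw [this]; norm_num

private theorem XiMom_m6 : ∫ x : ℝ, x ^ 6 ∂(gaussianReal 0 1) = 15 := by
  have := XiMom_rec 4
  rw [XiMom_m4] at this
  rw [this]; norm_num

private theorem XiMom_m8 : ∫ x : ℝ, x ^ 8 ∂(gaussianReal 0 1) = 105 := by
  have := XiMom_rec 6
  rw [XiMom_m6] at this
  rw [this]; norm_num

private theorem XiMom_pow_int (n : ℕ) : Integrable (fun x : ℝ => x ^ n) (gaussianReal 0 1) := by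
  have h := (XiMom_exp_one 1).const_mul (n.factorial : ℝ)
  refine h.mono' (by fun_prop) (Filter.Eventually.of_forall fun x => ?_)
  have h1 := Real.pow_div_factorial_le_exp |x| (abs_nonneg x) n
  rw [div_le_iff₀ (by positivity)] at h1
  rw [Real.norm_eq_abs, abs_pow, one_mul]
  linarith

/-- expansion of a fourth power -/
private theorem XiMom_exp4 {Ω : Type*} [MeasurableSpace Ω] {P : Measure Ω} [IsProbabilityMeasure P]
    {T : Ω → ℝ} (h1 : Integrable T P) (h2 : Integrable (fun ω => T ω ^ 2) P)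
    (h3 : Integrable (fun ω => T ω ^ 3) P) (h4 : Integrable (fun ω => T ω ^ 4) P) (a : ℝ) :
    ∫ ω, (a + T ω) ^ 4 ∂P = a ^ 4 + 4 * a ^ 3 * ∫ ω, T ω ∂P + 6 * a ^ 2 * ∫ ω, T ω ^ 2 ∂P +
      4 * a * ∫ ω, T ω ^ 3 ∂P + ∫ ω, T ω ^ 4 ∂P := by
  have e : (fun ω => (a + T ω) ^ 4) = fun ω => a ^ 4 + 4 * a ^ 3 * T ω + 6 * a ^ 2 * T ω ^ 2 +
      4 * a * T ω ^ 3 + T ω ^ 4 := by funext ω; ring
  rw [e, integral_add _ h4, integral_add _ (h3.const_mul _), integral_add _ (h2.const_mul _),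
    integral_add (integrable_const _) (h1.const_mul _), integral_const_mul, integral_const_mul,
    integral_const_mul]
  · simp
  · exact (integrable_const _).add (h1.const_mul _)
  · exact ((integrable_const _).add (h1.const_mul _)).add (h2.const_mul _)
  · exact (((integrable_const _).add (h1.const_mul _)).add (h2.const_mul _)).add (h3.const_mul _)

private theorem XiMom_symm {M : ℕ} (p : ℝ × (Fin M → ℝ)) :
    (MeasurableEquiv.piFinSuccAbove (fun _ : Fin (M + 1) => ℝ) 0).symm p =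
      (Fin.cons p.1 p.2 : Fin (M + 1) → ℝ) := by
  rw [MeasurableEquiv.symm_apply_eq]
  rfl

/-- splitting off the coordinate `0` -/
private theorem XiMom_split {M : ℕ} {F : (Fin (M + 1) → ℝ) → ℝ} (hF : XT F) :
    ∫ ω, F ω ∂(gvec (M + 1)) = ∫ x, ∫ ξ, F (Fin.cons x ξ) ∂(gvec M) ∂(gaussianReal 0 1) := by
  have mp := measurePreserving_piFinSuccAbove (fun _ : Fin (M + 1) => gaussianReal 0 1) 0
  have h1 : ∫ ω, F ω ∂(gvec (M + 1)) = ∫ p : ℝ × (Fin M → ℝ), F (Fin.cons p.1 p.2)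
      ∂((gaussianReal 0 1).prod (gvec M)) := by
    have h2 := mp.symm.integral_comp' (g := F)
    unfold gvec
    rw [← h2]
    congr 1
    funext p
    rw [XiMom_symm]
  have h3 : Integrable (fun p : ℝ × (Fin M → ℝ) => F (Fin.cons p.1 p.2))
      ((gaussianReal 0 1).prod (gvec M)) := by
    have h4 := (mp.symm.integrable_comp_emb (MeasurableEquiv.measurableEmbedding _) (g := F)).2
      (XT_int hF)
    have h5 : (F ∘ (MeasurableEquiv.piFinSuccAbove (fun _ : Fin (M + 1) => ℝ) 0).symm) =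
        fun p : ℝ × (Fin M → ℝ) => F (Fin.cons p.1 p.2) := by
      funext p
      simp only [Function.comp_apply, XiMom_symm]
    rw [h5] at h4
    exact h4
  rw [h1, integral_prod _ h3]

private theorem XiMom_XI {M : ℕ} (c : Fin M → ℝ) : XT (fun ξ => ∑ a, c a * (ξ a ^ 2 - 1)) := by
  refine XT_sum _ fun a => XT_cmul _ ?_
  simp only [sub_eq_add_neg]
  exact XT_add (XT_pow (XT_coord a) 2) (XT_const _)

private theorem XiMom_xint (n : ℕ) : Integrable (fun x : ℝ => (x ^ 2 - 1) ^ n)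
    (gaussianReal 0 1) := by
  have h : XT (fun ω : Fin 1 → ℝ => (ω 0 ^ 2 - 1) ^ n) := by
    refine XT_pow ?_ n
    simp only [sub_eq_add_neg]
    exact XT_add (XT_pow (XT_coord 0) 2) (XT_const _)
  obtain ⟨C, hC, hb⟩ := h.bound
  refine ((XiMom_exp_one C).const_mul C).mono' (by fun_prop)
    (Filter.Eventually.of_forall fun x => ?_)
  have := hb (fun _ => x)
  simpa using this

private theorem XiMom_x1 : ∫ x : ℝ, (x ^ 2 - 1) ∂(gaussianReal 0 1) = 0 := by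
  rw [integral_sub (XiMom_pow_int 2) (integrable_const _), XiMom_m2]
  simp

private theorem XiMom_x2 : ∫ x : ℝ, (x ^ 2 - 1) ^ 2 ∂(gaussianReal 0 1) = 2 := by
  have e : (fun x : ℝ => (x ^ 2 - 1) ^ 2) = fun x => x ^ 4 - 2 * x ^ 2 + 1 := by funext x; ring
  rw [e, integral_add _ (integrable_const _),
    integral_sub (XiMom_pow_int 4) ((XiMom_pow_int 2).const_mul 2), integral_const_mul, XiMom_m2,
    XiMom_m4]
  · simp
    norm_num
  · exact (XiMom_pow_int 4).sub ((XiMom_pow_int 2).const_mul 2)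

private theorem XiMom_x4 : ∫ x : ℝ, (x ^ 2 - 1) ^ 4 ∂(gaussianReal 0 1) = 60 := by
  have e : (fun x : ℝ => (x ^ 2 - 1) ^ 4) = fun x => x ^ 8 + (-4) * x ^ 6 + 6 * x ^ 4 +
      (-4) * x ^ 2 + 1 := by funext x; ring
  have i8 := XiMom_pow_int 8
  have i6 := (XiMom_pow_int 6).const_mul (-4)
  have i4 := (XiMom_pow_int 4).const_mul 6
  have i2 := (XiMom_pow_int 2).const_mul (-4)
  rw [e, integral_add _ (integrable_const _), integral_add _ i2, integral_add _ i4,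
    integral_add i8 i6,
    integral_const_mul, integral_const_mul, integral_const_mul, XiMom_m2, XiMom_m4, XiMom_m6,
    XiMom_m8]
  · simp
    norm_num
  · exact i8.add i6
  · exact (i8.add i6).add i4
  · exact ((i8.add i6).add i4).add i2

private theorem XiMom_ind (M : ℕ) : ∀ (c : Fin M → ℝ),
    ∫ ξ, (∑ a, c a * (ξ a ^ 2 - 1)) ∂(gvec M) = 0 ∧
    ∫ ξ, (∑ a, c a * (ξ a ^ 2 - 1)) ^ 2 ∂(gvec M) = 2 * ∑ a, c a ^ 2 ∧
    ∫ ξ, (∑ a, c a * (ξ a ^ 2 - 1)) ^ 4 ∂(gvec M) ≤ 60 * (∑ a, c a ^ 2) ^ 2 := by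
  induction M with
  | zero =>
    intro c
    simp
  | succ M ih =>
    intro c
    obtain ⟨e1, e2, e4⟩ := ih (fun a => c a.succ)
    set S : (Fin M → ℝ) → ℝ := fun ξ => ∑ a : Fin M, c a.succ * (ξ a ^ 2 - 1) with hS
    set σ : ℝ := ∑ a : Fin M, c a.succ ^ 2 with hσ
    have hσ0 : 0 ≤ σ := Finset.sum_nonneg fun _ _ => sq_nonneg _
    have hST : XT S := XiMom_XI _
    have s1 := XT_int hST
    have s2 := XT_int (XT_pow hST 2)
    have s3 := XT_int (XT_pow hST 3)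
    have s4 := XT_int (XT_pow hST 4)
    have hc : ∀ (x : ℝ) (ξ : Fin M → ℝ), ∑ a, c a * ((Fin.cons x ξ : Fin (M + 1) → ℝ) a ^ 2 - 1) =
        c 0 * (x ^ 2 - 1) + S ξ := by
      intro x ξ
      rw [Fin.sum_univ_succ]
      simp only [Fin.cons_zero, Fin.cons_succ, hS]
    have hX := XiMom_XI c
    have hsum : ∑ a, c a ^ 2 = c 0 ^ 2 + σ := by rw [Fin.sum_univ_succ]
    refine ⟨?_, ?_, ?_⟩
    · rw [XiMom_split hX]
      simp only [hc]
      have h1 : ∀ x : ℝ, ∫ ξ, (c 0 * (x ^ 2 - 1) + S ξ) ∂(gvec M) = c 0 * (x ^ 2 - 1) := by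
        intro x
        rw [integral_add (integrable_const _) s1, e1]
        simp
      simp only [h1]
      rw [integral_const_mul, XiMom_x1, mul_zero]
    · rw [XiMom_split (XT_pow hX 2)]
      simp only [hc]
      have h1 : ∀ x : ℝ, ∫ ξ, (c 0 * (x ^ 2 - 1) + S ξ) ^ 2 ∂(gvec M) =
          c 0 ^ 2 * (x ^ 2 - 1) ^ 2 + 2 * σ := by
        intro x
        have e : (fun ξ => (c 0 * (x ^ 2 - 1) + S ξ) ^ 2) = fun ξ => (c 0 * (x ^ 2 - 1)) ^ 2 +
            2 * (c 0 * (x ^ 2 - 1)) * S ξ + S ξ ^ 2 := by funext ξ; ring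
        rw [e, integral_add _ s2,
          integral_add (integrable_const _) (s1.const_mul _), integral_const_mul, e1, e2]
        · simp
          ring
        · exact (integrable_const _).add (s1.const_mul _)
      simp only [h1]
      rw [integral_add ((XiMom_xint 2).const_mul _) (integrable_const _), integral_const_mul,
        XiMom_x2, hsum]
      simp
      ring
    · rw [XiMom_split (XT_pow hX 4)]
      simp only [hc]
      set m3 : ℝ := ∫ ξ, S ξ ^ 3 ∂(gvec M) with hm3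
      set m4 : ℝ := ∫ ξ, S ξ ^ 4 ∂(gvec M) with hm4
      have h1 : ∀ x : ℝ, ∫ ξ, (c 0 * (x ^ 2 - 1) + S ξ) ^ 4 ∂(gvec M) =
          c 0 ^ 4 * (x ^ 2 - 1) ^ 4 + 12 * σ * c 0 ^ 2 * (x ^ 2 - 1) ^ 2 +
            4 * m3 * c 0 * (x ^ 2 - 1) + m4 := by
        intro x
        rw [XiMom_exp4 s1 s2 s3 s4, e1, e2]
        ring
      simp only [h1]
      have i4 := (XiMom_xint 4).const_mul (c 0 ^ 4)
      have i2 := (XiMom_xint 2).const_mul (12 * σ * c 0 ^ 2)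
      have i1 : Integrable (fun x : ℝ => 4 * m3 * c 0 * (x ^ 2 - 1)) (gaussianReal 0 1) := by
        have := (XiMom_xint 1).const_mul (4 * m3 * c 0)
        simpa only [pow_one] using this
      rw [integral_add _ (integrable_const _), integral_add _ i1,
        integral_add i4 i2, integral_const_mul, integral_const_mul, integral_const_mul, XiMom_x1,
        XiMom_x2, XiMom_x4, hsum]
      · simp only [integral_const, probReal_univ, smul_eq_mul, one_mul, mul_zero, add_zero]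
        nlinarith [mul_nonneg hσ0 (sq_nonneg (c 0))]
      · exact i4.add i2
      · exact (i4.add i2).add i1

/-- PROOF: expand the fourth power of `Σ c_a (ξ_a² - 1)` (independent, centred, `E(ξ²-1)² = 2`, `E(ξ²-1)⁴ = 60`):
`= Σ c_a⁴ 60 + 3 Σ_{a≠b} c_a² c_b² 4 ≤ 60 (Σ c_a²)²`; induction on the number of coordinates. -/
theorem gvec_sq4 {M : ℕ} (c : Fin M → ℝ) :
    Integrable (fun ξ => (∑ a, c a * (ξ a ^ 2 - 1)) ^ 4) (gvec M) ∧
      ∫ ξ, (∑ a, c a * (ξ a ^ 2 - 1)) ^ 4 ∂(gvec M) ≤ 60 * (∑ a, c a ^ 2) ^ 2 :=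
  ⟨XT_int (XT_pow (XiMom_XI c) 4), (XiMom_ind M c).2.2⟩

private theorem XT_abs {M : ℕ} {F : (Fin M → ℝ) → ℝ} (hF : XT F) : XT (fun ω => |F ω|) := by
  obtain ⟨C, hC, hb⟩ := hF.bound
  exact ⟨hF.meas.abs, C, hC, fun ω => by rw [abs_abs]; exact hb ω⟩

private theorem XiMom_A_eq {N : ℕ} (hN : 1 ≤ N) (ξ : Fin (N + 1) → ℝ) :
    ip ξ ξ / (N : ℝ) - 1 = ∑ a, (1 / (N : ℝ)) * (ξ a ^ 2 - 1) + 1 / (N : ℝ) := by
  have hN0 : (N : ℝ) ≠ 0 := by
    have : (0 : ℝ) < N := by exact_mod_cast hN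
    exact this.ne'
  rw [← Finset.mul_sum, Finset.sum_sub_distrib]
  simp only [Finset.sum_const, Finset.card_univ, Fintype.card_fin, nsmul_eq_mul, mul_one]
  have e : ip ξ ξ = ∑ a, ξ a ^ 2 := by
    unfold ip
    exact Finset.sum_congr rfl fun a _ => (pow_two _).symm
  rw [e]
  push_cast
  field_simp
  ring

private theorem XiMom_AT {N : ℕ} : XT (fun ξ : Fin (N + 1) → ℝ => ip ξ ξ / (N : ℝ) - 1) := by
  have h : XT (fun ξ : Fin (N + 1) → ℝ => (1 / (N : ℝ)) * (∑ a, ξ a * ξ a) + (-1)) :=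
    XT_add (XT_cmul _ (XT_sum _ fun a => XT_mul (XT_coord a) (XT_coord a))) (XT_const _)
  have e : (fun ξ : Fin (N + 1) → ℝ => ip ξ ξ / (N : ℝ) - 1) =
      fun ξ => (1 / (N : ℝ)) * (∑ a, ξ a * ξ a) + (-1) := by
    funext ξ
    unfold ip
    ring
  rw [e]
  exact h

private theorem XiMom_norm4 {N : ℕ} (hN : 1 ≤ N) :
    ∫ ξ, (ip ξ ξ / (N : ℝ) - 1) ^ 4 ∂(gvec (N + 1)) ≤ 1928 / (N : ℝ) ^ 2 := by
  have hN1 : (1 : ℝ) ≤ N := by exact_mod_cast hN
  have hN0 : (0 : ℝ) < N := by linarith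
  obtain ⟨i1, h1⟩ := gvec_sq4 (fun _ : Fin (N + 1) => 1 / (N : ℝ))
  have hle : ∀ ξ : Fin (N + 1) → ℝ, (ip ξ ξ / (N : ℝ) - 1) ^ 4 ≤
      8 * (∑ a, (1 / (N : ℝ)) * (ξ a ^ 2 - 1)) ^ 4 + 8 * (1 / (N : ℝ)) ^ 4 := by
    intro ξ
    rw [XiMom_A_eq hN]
    set x := ∑ a, (1 / (N : ℝ)) * (ξ a ^ 2 - 1)
    set y := 1 / (N : ℝ)
    have e1 : (x + y) ^ 2 ≤ 2 * (x ^ 2 + y ^ 2) := by nlinarith [sq_nonneg (x - y)]
    calc (x + y) ^ 4 = ((x + y) ^ 2) ^ 2 := by ring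
      _ ≤ (2 * (x ^ 2 + y ^ 2)) ^ 2 := pow_le_pow_left₀ (sq_nonneg _) e1 2
      _ ≤ 8 * x ^ 4 + 8 * y ^ 4 := by nlinarith [sq_nonneg (x ^ 2 - y ^ 2)]
  have h2 := integral_mono (XT_int (XT_pow XiMom_AT 4)) ((i1.const_mul 8).add (integrable_const _))
    hle
  refine h2.trans ?_
  simp only [Pi.add_apply]
  rw [integral_add (i1.const_mul 8) (integrable_const _), integral_const_mul]
  simp only [integral_const, probReal_univ, smul_eq_mul, one_mul]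
  have h3 : (∑ _a : Fin (N + 1), (1 / (N : ℝ)) ^ 2) ^ 2 ≤ 4 / (N : ℝ) ^ 2 := by
    simp only [Finset.sum_const, Finset.card_univ, Fintype.card_fin, nsmul_eq_mul]
    have e : (((N + 1 : ℕ) : ℝ) * (1 / (N : ℝ)) ^ 2) ^ 2 = ((N : ℝ) + 1) ^ 2 / (N : ℝ) ^ 4 := by
      push_cast
      field_simp
    rw [e, div_le_div_iff₀ (by positivity) (by positivity)]
    have h5 : ((N : ℝ) + 1) ^ 2 ≤ 4 * (N : ℝ) ^ 2 := by nlinarith
    calc ((N : ℝ) + 1) ^ 2 * (N : ℝ) ^ 2 ≤ 4 * (N : ℝ) ^ 2 * (N : ℝ) ^ 2 :=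
          mul_le_mul_of_nonneg_right h5 (by positivity)
      _ = 4 * (N : ℝ) ^ 4 := by ring
  have h4 : (1 / (N : ℝ)) ^ 4 ≤ 1 / (N : ℝ) ^ 2 := by
    rw [one_div, inv_pow, ← one_div, div_le_div_iff₀ (by positivity) (by positivity)]
    have : (1 : ℝ) ≤ (N : ℝ) ^ 2 := by nlinarith
    nlinarith [pow_pos hN0 2]
  calc 8 * ∫ ξ, (∑ a, (1 / (N : ℝ)) * (ξ a ^ 2 - 1)) ^ 4 ∂(gvec (N + 1)) + 8 * (1 / (N : ℝ)) ^ 4 ≤
      8 * (60 * (4 / (N : ℝ) ^ 2)) + 8 * (1 / (N : ℝ) ^ 2) := by linarith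
    _ = 1928 / (N : ℝ) ^ 2 := by ring

private theorem XiMom_four (a b c d : ℝ) : (|a| + |b| + |c| + |d|) ^ 4 ≤
    64 * (a ^ 4 + b ^ 4 + c ^ 4 + d ^ 4) := by
  have e1 : (|a| + |b| + |c| + |d|) ^ 2 ≤ 4 * (a ^ 2 + b ^ 2 + c ^ 2 + d ^ 2) := by
    rw [← sq_abs a, ← sq_abs b, ← sq_abs c, ← sq_abs d]
    nlinarith [sq_nonneg (|a| - |b|), sq_nonneg (|a| - |c|), sq_nonneg (|a| - |d|),
      sq_nonneg (|b| - |c|), sq_nonneg (|b| - |d|), sq_nonneg (|c| - |d|)]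
  calc (|a| + |b| + |c| + |d|) ^ 4 = ((|a| + |b| + |c| + |d|) ^ 2) ^ 2 := by ring
    _ ≤ (4 * (a ^ 2 + b ^ 2 + c ^ 2 + d ^ 2)) ^ 2 := pow_le_pow_left₀ (sq_nonneg _) e1 2
    _ ≤ _ := by
      nlinarith [sq_nonneg (a ^ 2 - b ^ 2), sq_nonneg (a ^ 2 - c ^ 2), sq_nonneg (a ^ 2 - d ^ 2),
        sq_nonneg (b ^ 2 - c ^ 2), sq_nonneg (b ^ 2 - d ^ 2), sq_nonneg (c ^ 2 - d ^ 2)]

/-- `dev⁴` is small.  PROOF: `(a+b+c+d)⁴ ≤ 64 (a⁴+b⁴+c⁴+d⁴)`; `ip ξ ξ/N - 1 = N⁻¹ Σ_{a ≤ N} (ξ_a² - 1) + 1/N`. -/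
theorem dev_mom (D : ℝ) (hD : 0 ≤ D) : ∃ C : ℝ, 0 ≤ C ∧ ∀ {N K : ℕ}, 1 ≤ N → ∀ (κ : Fin N → Fin K)
    (d : Fin K → ℝ) (eb : ℝ), (∀ l, |d l| ≤ D) →
    Integrable (fun ξ => dev κ d eb ξ ^ 4) (gvec (N + 1)) ∧
      ∫ ξ, dev κ d eb ξ ^ 4 ∂(gvec (N + 1)) ≤
        C * (1 / (N : ℝ) ^ 2 + |(1 / (N : ℝ)) * ∑ a : Fin N, d (κ a) - eb| ^ 4) := by
  refine ⟨64 * (1931 + 60 * D ^ 4 + 1), by positivity, fun {N K} hN κ d eb hd => ?_⟩
  have hN1 : (1 : ℝ) ≤ N := by exact_mod_cast hN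
  have hN0 : (0 : ℝ) < N := by linarith
  set A : (Fin (N + 1) → ℝ) → ℝ := fun ξ => ip ξ ξ / (N : ℝ) - 1 with hA
  set B : (Fin (N + 1) → ℝ) → ℝ := fun ξ =>
    ∑ a, (Fin.cons (Real.sqrt N)⁻¹ (fun _ => 0) : Fin (N + 1) → ℝ) a * ξ a with hB
  set G : (Fin (N + 1) → ℝ) → ℝ := fun ξ =>
    ∑ a, (Fin.cons 0 (fun a => (1 / (N : ℝ)) * d (κ a)) : Fin (N + 1) → ℝ) a * (ξ a ^ 2 - 1)
    with hG
  set F : ℝ := (1 / (N : ℝ)) * ∑ a : Fin N, d (κ a) - eb with hF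
  have hAT : XT A := XiMom_AT
  have hBT : XT B := XT_sum _ fun a => XT_cmul _ (XT_coord a)
  have hGT : XT G := XiMom_XI _
  have hBe : ∀ ξ, B ξ = ξ 0 / Real.sqrt N := by
    intro ξ
    rw [hB]
    simp only
    rw [Fin.sum_univ_succ]
    simp only [Fin.cons_zero, Fin.cons_succ, zero_mul, Finset.sum_const_zero, add_zero]
    rw [div_eq_mul_inv, mul_comm]
  have hGe : ∀ ξ, G ξ = (1 / (N : ℝ)) * ∑ a : Fin N, d (κ a) * (ξ a.succ ^ 2 - 1) := by
    intro ξ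
    rw [hG]
    simp only
    rw [Fin.sum_univ_succ]
    simp only [Fin.cons_zero, Fin.cons_succ, zero_mul, zero_add, Finset.mul_sum, mul_assoc]
  have hdev : ∀ ξ, dev κ d eb ξ = |A ξ| + |B ξ| + |G ξ| + |F| := by
    intro ξ
    unfold dev
    rw [hBe, hGe, abs_div, abs_of_nonneg (Real.sqrt_nonneg (N : ℝ))]
  have hdT : XT (fun ξ => dev κ d eb ξ) := by
    simp only [hdev]
    exact XT_add (XT_add (XT_add (XT_abs hAT) (XT_abs hBT)) (XT_abs hGT)) (XT_const _)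
  refine ⟨XT_int (XT_pow hdT 4), ?_⟩
  have iA := XT_int (XT_pow hAT 4)
  have iB := XT_int (XT_pow hBT 4)
  have iG := XT_int (XT_pow hGT 4)
  have hle : ∀ ξ, dev κ d eb ξ ^ 4 ≤ 64 * (A ξ ^ 4 + B ξ ^ 4 + G ξ ^ 4 + F ^ 4) := by
    intro ξ
    rw [hdev]
    exact XiMom_four _ _ _ _
  have h1 := integral_mono (XT_int (XT_pow hdT 4))
    ((((iA.add iB).add iG).add (integrable_const _)).const_mul 64) hle
  refine h1.trans ?_
  simp only [Pi.add_apply]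
  rw [integral_const_mul, integral_add _ (integrable_const _), integral_add _ iG,
    integral_add iA iB]
  · simp only [integral_const, probReal_univ, smul_eq_mul, one_mul]
    have hA4 : ∫ ξ, A ξ ^ 4 ∂(gvec (N + 1)) ≤ 1928 / (N : ℝ) ^ 2 := XiMom_norm4 hN
    have hB4 : ∫ ξ, B ξ ^ 4 ∂(gvec (N + 1)) = 3 / (N : ℝ) ^ 2 := by
      rw [hB, gvec_lin4, Fin.sum_univ_succ]
      simp only [Fin.cons_zero, Fin.cons_succ]
      rw [inv_pow, Real.sq_sqrt hN0.le]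
      simp
      rw [div_eq_mul_inv]
    have hG4 : ∫ ξ, G ξ ^ 4 ∂(gvec (N + 1)) ≤ 60 * D ^ 4 / (N : ℝ) ^ 2 := by
      refine (gvec_sq4 _).2.trans ?_
      rw [Fin.sum_univ_succ]
      simp only [Fin.cons_zero, Fin.cons_succ]
      have h2 : ∑ a : Fin N, ((1 / (N : ℝ)) * d (κ a)) ^ 2 ≤ D ^ 2 / N := by
        have h3 : ∀ a : Fin N, ((1 / (N : ℝ)) * d (κ a)) ^ 2 ≤ (1 / (N : ℝ)) ^ 2 * D ^ 2 := by
          intro a
          rw [mul_pow]
          refine mul_le_mul_of_nonneg_left ?_ (sq_nonneg _)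
          exact sq_le_sq' (by have := (abs_le.1 (hd (κ a))).1; linarith) (abs_le.1 (hd (κ a))).2
        refine (Finset.sum_le_sum fun a _ => h3 a).trans ?_
        simp only [Finset.sum_const, Finset.card_univ, Fintype.card_fin, nsmul_eq_mul]
        apply le_of_eq
        field_simp
      have h4 : 0 ≤ ∑ a : Fin N, ((1 / (N : ℝ)) * d (κ a)) ^ 2 :=
        Finset.sum_nonneg fun _ _ => sq_nonneg _
      rw [zero_pow two_ne_zero, zero_add]
      calc 60 * (∑ a : Fin N, ((1 / (N : ℝ)) * d (κ a)) ^ 2) ^ 2 ≤ 60 * (D ^ 2 / N) ^ 2 := by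
            gcongr
        _ = 60 * D ^ 4 / (N : ℝ) ^ 2 := by ring
    have hF4 : F ^ 4 = |F| ^ 4 := by
      rw [show (4 : ℕ) = 2 * 2 from rfl, pow_mul, pow_mul, sq_abs]
    rw [hF4]
    have hF0 : 0 ≤ |F| ^ 4 := by positivity
    have hi0 : 0 ≤ 1 / (N : ℝ) ^ 2 := by positivity
    have hDD : 0 ≤ D ^ 4 := by positivity
    calc 64 * (∫ ξ, A ξ ^ 4 ∂(gvec (N + 1)) + ∫ ξ, B ξ ^ 4 ∂(gvec (N + 1)) +
          ∫ ξ, G ξ ^ 4 ∂(gvec (N + 1)) + |F| ^ 4) ≤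
        64 * (1928 / (N : ℝ) ^ 2 + 3 / (N : ℝ) ^ 2 + 60 * D ^ 4 / (N : ℝ) ^ 2 + |F| ^ 4) := by
          rw [hB4]; linarith
      _ = 64 * ((1931 + 60 * D ^ 4) * (1 / (N : ℝ) ^ 2) + |F| ^ 4) := by ring
      _ ≤ 64 * (1931 + 60 * D ^ 4 + 1) * (1 / (N : ℝ) ^ 2 + |F| ^ 4) := by
          nlinarith [mul_nonneg hDD hF0]
  · exact iA.add iB
  · exact (iA.add iB).add iG

private theorem XiMom_law {ι : Type*} [Fintype ι] {Ω : ι → Type*} [∀ i, MeasurableSpace (Ω i)]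
    {μ : ∀ i, Measure (Ω i)} [∀ i, IsProbabilityMeasure (μ i)] {X : ∀ i, Ω i → ℝ}
    (hX : ∀ i, Measurable (X i)) (hl : ∀ i, (μ i).map (X i) = gaussianReal 0 1) (c : ι → ℝ) :
    (Measure.pi μ).map (fun ω => ∑ i, c i * X i (ω i)) =
      gaussianReal 0 (∑ i, c i ^ 2).toNNReal := by
  set P := Measure.pi μ with hP
  have hm : ∀ i, Measurable (fun ω : ∀ i, Ω i => c i * X i (ω i)) := fun i =>
    ((hX i).comp (measurable_pi_apply i)).const_mul _
  have h1 : ∀ i, P.map (fun ω => X i (ω i)) = gaussianReal 0 1 := fun i => by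
    rw [← hl i]
    have := (measurePreserving_eval μ i).map_eq
    rw [← this, Measure.map_map (hX i) (measurable_pi_apply i)]
    rfl
  have h2 : ∀ i, P.map (fun ω => c i * X i (ω i)) = gaussianReal 0 (NNReal.mk (c i ^ 2) (sq_nonneg _)) := fun i => by
    have h3 := gaussianReal_map_const_mul (μ := 0) (v := 1) (c i)
    have h4 : Measurable (fun ω : ∀ i, Ω i => X i (ω i)) := (hX i).comp (measurable_pi_apply i)
    rw [← h1 i, Measure.map_map (g := fun x => c i * x) (measurable_const_mul _) h4, mul_zero,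
      mul_one] at h3
    exact h3
  have hG : ∀ i, HasGaussianLaw (fun ω => c i * X i (ω i)) P := fun i => ⟨by
    rw [h2 i]; infer_instance⟩
  have hI : iIndepFun (fun i (ω : ∀ i, Ω i) => c i * X i (ω i)) P :=
    iIndepFun_pi (X := fun i x => c i * X i x) fun i => ((hX i).const_mul _).aemeasurable
  have hS := (iIndepFun.hasGaussianLaw_fun_sum hG hI).map_eq_gaussianReal
  rw [hS]
  have hL : ∀ i, MemLp (X i) 2 (μ i) := fun i => by
    have h := memLp_id_gaussianReal (μ := 0) (v := 1) 2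
    rw [← hl i, memLp_map_measure_iff (by fun_prop) (hX i).aemeasurable] at h
    exact h
  have e1 : ∫ ω : ∀ i, Ω i, ∑ i, c i * X i (ω i) ∂P = 0 := by
    rw [integral_finsetSum]
    · refine Finset.sum_eq_zero fun i _ => ?_
      rw [integral_const_mul]
      have h3 : ∫ x, x ∂(P.map (fun ω => X i (ω i))) = ∫ ω, X i (ω i) ∂P :=
        integral_map ((hX i).comp (measurable_pi_apply i)).aemeasurable (by fun_prop)
      rw [← h3, h1, integral_id_gaussianReal, mul_zero]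
    · intro i _
      exact (((hL i).comp_measurePreserving (measurePreserving_eval μ i)).integrable
        (by norm_num)).const_mul _
  have e2 : Var[fun ω => ∑ i, c i * X i (ω i); P] = ∑ i, c i ^ 2 := by
    have h3 := variance_sum_pi (μ := μ) (X := fun i x => c i * X i x) fun i => (hL i).const_mul _
    have h4 : (∑ i, fun ω : ∀ i, Ω i => c i * X i (ω i)) = fun ω => ∑ i, c i * X i (ω i) := by
      funext ω; simp
    rw [h4] at h3
    rw [h3]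
    refine Finset.sum_congr rfl fun i _ => ?_
    rw [variance_const_mul]
    have h5 : Var[X i; μ i] = 1 := by
      have h6 := variance_id_gaussianReal (μ := 0) (v := 1)
      rw [← hl i, variance_map aemeasurable_id (hX i).aemeasurable] at h6
      simpa using h6
    rw [h5, mul_one]
  rw [e1, e2]

private theorem XiMom_moment {ι : Type*} [Fintype ι] {Ω : ι → Type*} [∀ i, MeasurableSpace (Ω i)]
    {μ : ∀ i, Measure (Ω i)} [∀ i, IsProbabilityMeasure (μ i)] {X : ∀ i, Ω i → ℝ}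
    (hX : ∀ i, Measurable (X i)) (hl : ∀ i, (μ i).map (X i) = gaussianReal 0 1) (c : ι → ℝ)
    (n : ℕ) :
    ∫ ω, (∑ i, c i * X i (ω i)) ^ n ∂(Measure.pi μ) =
      (Real.sqrt (∑ i, c i ^ 2)) ^ n * ∫ x : ℝ, x ^ n ∂(gaussianReal 0 1) := by
  have h0 : 0 ≤ ∑ i, c i ^ 2 := Finset.sum_nonneg fun _ _ => sq_nonneg _
  have h1 : ∫ x, x ^ n ∂((Measure.pi μ).map (fun ω => ∑ i, c i * X i (ω i))) =
      ∫ ω, (∑ i, c i * X i (ω i)) ^ n ∂(Measure.pi μ) :=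
    integral_map (Finset.measurable_sum _ fun i _ =>
      ((hX i).comp (measurable_pi_apply i)).const_mul _).aemeasurable (by fun_prop)
  rw [← h1, XiMom_law hX hl c]
  have h2 := gaussianReal_map_const_mul (μ := 0) (v := 1) (Real.sqrt (∑ i, c i ^ 2))
  have h3 : (NNReal.mk (Real.sqrt (∑ i, c i ^ 2) ^ 2) (sq_nonneg _)) * 1 =
      (∑ i, c i ^ 2).toNNReal := by
    rw [mul_one]
    ext
    rw [Real.coe_toNNReal _ h0]
    exact Real.sq_sqrt h0
  rw [h3, mul_zero] at h2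
  rw [← h2, integral_map (by fun_prop) (by fun_prop)]
  rw [← integral_const_mul]
  congr 1
  funext x
  ring

private theorem XiMom_uv {N : ℕ} (ξ : Fin (N + 1) → ℝ) (a : Fin N) :
    uv ξ a.succ = ξ a.succ / Real.sqrt (ip ξ ξ) := by
  unfold uv nrm
  have e : ip (Fin.cons (-|ξ 0|) (Fin.tail ξ) : Fin (N + 1) → ℝ)
      (Fin.cons (-|ξ 0|) (Fin.tail ξ) : Fin (N + 1) → ℝ) = ip ξ ξ := by
    unfold ip
    rw [Fin.sum_univ_succ, Fin.sum_univ_succ]
    simp only [Fin.cons_zero, Fin.cons_succ, Fin.tail, neg_mul_neg, abs_mul_abs_self]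
  rw [e, Fin.cons_succ]
  rfl

private theorem XiMom_sum_uv {N : ℕ} (v : Fin N → ℝ) (ξ : Fin (N + 1) → ℝ) :
    ∑ a : Fin N, uv ξ a.succ * v a = (∑ a : Fin N, ξ a.succ * v a) / Real.sqrt (ip ξ ξ) := by
  rw [Finset.sum_div]
  refine Finset.sum_congr rfl fun a _ => ?_
  rw [XiMom_uv]
  ring

private theorem XiMom_uv_meas {N : ℕ} (v : Fin N → ℝ) :
    Measurable (fun ξ : Fin (N + 1) → ℝ => ∑ a : Fin N, uv ξ a.succ * v a) := by
  simp only [XiMom_sum_uv]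
  unfold ip
  fun_prop

private theorem XiMom_uv_pt {N : ℕ} (hN : 1 ≤ N) (v : Fin N → ℝ) (ξ : Fin (N + 1) → ℝ) :
    (∑ a : Fin N, uv ξ a.succ * v a) ^ 4 ≤
      4 / (N : ℝ) ^ 2 * (∑ a : Fin N, ξ a.succ * v a) ^ 4 +
        16 * (∑ a, v a ^ 2) ^ 2 * (ip ξ ξ / (N : ℝ) - 1) ^ 4 := by
  have hN1 : (1 : ℝ) ≤ N := by exact_mod_cast hN
  have hN0 : (0 : ℝ) < N := by linarith
  rw [XiMom_sum_uv]
  set L := ∑ a : Fin N, ξ a.succ * v a with hL
  set V := ∑ a, v a ^ 2 with hV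
  set s := ip ξ ξ with hs
  have hs0 : 0 ≤ s := ip_nonneg ξ
  have hV0 : 0 ≤ V := Finset.sum_nonneg fun _ _ => sq_nonneg _
  have e4 : (L / Real.sqrt s) ^ 4 = L ^ 4 / s ^ 2 := by
    rw [div_pow]
    congr 1
    calc Real.sqrt s ^ 4 = (Real.sqrt s ^ 2) ^ 2 := by ring
      _ = s ^ 2 := by rw [Real.sq_sqrt hs0]
  have hL2 : L ^ 2 ≤ s * V := by
    have h1 : L ^ 2 ≤ (∑ a : Fin N, ξ a.succ ^ 2) * V := Finset.sum_mul_sq_le_sq_mul_sq _ _ _
    have h2 : ∑ a : Fin N, ξ a.succ ^ 2 ≤ s := by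
      rw [hs]
      unfold ip
      rw [Fin.sum_univ_succ]
      have h3 : ∑ a : Fin N, ξ a.succ ^ 2 = ∑ a : Fin N, ξ a.succ * ξ a.succ :=
        Finset.sum_congr rfl fun a _ => pow_two _
      have h4 := mul_self_nonneg (ξ 0)
      linarith
    exact h1.trans (mul_le_mul_of_nonneg_right h2 hV0)
  have hL4 : 0 ≤ L ^ 4 := by positivity
  have hd4 : 0 ≤ (s / (N : ℝ) - 1) ^ 4 := by positivity
  rw [e4]
  rcases le_or_gt ((N : ℝ) / 2) s with h | h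
  · have h1 : L ^ 4 / s ^ 2 ≤ 4 / (N : ℝ) ^ 2 * L ^ 4 := by
      have h2 : (N : ℝ) ^ 2 / 4 ≤ s ^ 2 := by nlinarith
      calc L ^ 4 / s ^ 2 ≤ L ^ 4 / ((N : ℝ) ^ 2 / 4) :=
            div_le_div_of_nonneg_left hL4 (by positivity) h2
        _ = 4 / (N : ℝ) ^ 2 * L ^ 4 := by field_simp
    have h3 : 0 ≤ 16 * V ^ 2 * (s / (N : ℝ) - 1) ^ 4 := by positivity
    linarith
  · have h1 : L ^ 4 / s ^ 2 ≤ V ^ 2 := by
      rcases hs0.eq_or_lt with h0 | h0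
      · rw [← h0]
        simp
        positivity
      · rw [div_le_iff₀ (by positivity)]
        calc L ^ 4 = (L ^ 2) ^ 2 := by ring
          _ ≤ (s * V) ^ 2 := pow_le_pow_left₀ (sq_nonneg _) hL2 2
          _ = V ^ 2 * s ^ 2 := by ring
    have h2 : 1 / 2 ≤ 1 - s / (N : ℝ) := by
      have : s / (N : ℝ) ≤ 1 / 2 := by
        rw [div_le_iff₀ hN0]; linarith
      linarith
    have h3 : 1 / 16 ≤ (s / (N : ℝ) - 1) ^ 4 := by
      have e : (s / (N : ℝ) - 1) ^ 4 = (1 - s / (N : ℝ)) ^ 4 := by ring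
      rw [e]
      calc (1 : ℝ) / 16 = (1 / 2) ^ 4 := by norm_num
        _ ≤ _ := pow_le_pow_left₀ (by norm_num) h2 4
    have h4 : 0 ≤ 4 / (N : ℝ) ^ 2 * L ^ 4 := by positivity
    have h5 : V ^ 2 ≤ 16 * V ^ 2 * (s / (N : ℝ) - 1) ^ 4 := by nlinarith [sq_nonneg V]
    linarith

private theorem XiMom_LT {N : ℕ} (v : Fin N → ℝ) :
    XT (fun ξ : Fin (N + 1) → ℝ => ∑ a : Fin N, ξ a.succ * v a) := by
  refine XT_sum _ fun a => XT_mul (XT_coord _) (XT_const _)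

private theorem XiMom_L_eq {N : ℕ} (v : Fin N → ℝ) (ξ : Fin (N + 1) → ℝ) :
    ∑ a : Fin N, ξ a.succ * v a = ∑ a, (Fin.cons 0 v : Fin (N + 1) → ℝ) a * ξ a := by
  rw [Fin.sum_univ_succ]
  simp only [Fin.cons_zero, Fin.cons_succ, zero_mul, zero_add]
  exact Finset.sum_congr rfl fun a _ => mul_comm _ _

private theorem XiMom_cons_sq {N : ℕ} (v : Fin N → ℝ) :
    ∑ a, (Fin.cons 0 v : Fin (N + 1) → ℝ) a ^ 2 = ∑ a, v a ^ 2 := by
  rw [Fin.sum_univ_succ]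
  simp only [Fin.cons_zero, Fin.cons_succ]
  ring

/-- PROOF: pointwise `(Σ u v)⁴ ≤ 4 (Σ ξ v)⁴/N² + 16 |v|⁴ (ip ξ ξ/N - 1)⁴` (if `ip ξ ξ ≥ N/2` the first term suffices, else the second, `|u| ≤ 1`);
`gvec_lin4`, `gvec_sq4`. -/
theorem u_mom4 : ∃ C : ℝ, 0 ≤ C ∧ ∀ {N : ℕ}, 1 ≤ N → ∀ v : Fin N → ℝ,
    Integrable (fun ξ => (∑ a : Fin N, uv ξ a.succ * v a) ^ 4) (gvec (N + 1)) ∧
    ∫ ξ, (∑ a : Fin N, uv ξ a.succ * v a) ^ 4 ∂(gvec (N + 1)) ≤ C * (∑ a, v a ^ 2) ^ 2 / (N : ℝ) ^ 2 := by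
  refine ⟨12 + 16 * 1928, by norm_num, fun {N} hN v => ?_⟩
  have hN1 : (1 : ℝ) ≤ N := by exact_mod_cast hN
  have hN0 : (0 : ℝ) < N := by linarith
  have i1 : Integrable (fun ξ => 4 / (N : ℝ) ^ 2 * (∑ a : Fin N, ξ a.succ * v a) ^ 4)
      (gvec (N + 1)) := (XT_int (XT_pow (XiMom_LT v) 4)).const_mul _
  have i2 : Integrable (fun ξ : Fin (N + 1) → ℝ =>
      16 * (∑ a, v a ^ 2) ^ 2 * (ip ξ ξ / (N : ℝ) - 1) ^ 4) (gvec (N + 1)) :=
    (XT_int (XT_pow XiMom_AT 4)).const_mul _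
  have i3 : Integrable (fun ξ => (∑ a : Fin N, uv ξ a.succ * v a) ^ 4) (gvec (N + 1)) := by
    refine (i1.add i2).mono' ((XiMom_uv_meas v).pow_const 4).aestronglyMeasurable
      (Filter.Eventually.of_forall fun ξ => ?_)
    rw [Real.norm_eq_abs, abs_of_nonneg (by positivity)]
    exact XiMom_uv_pt hN v ξ
  refine ⟨i3, ?_⟩
  refine (integral_mono i3 (i1.add i2) fun ξ => XiMom_uv_pt hN v ξ).trans ?_
  simp only [Pi.add_apply]
  rw [integral_add i1 i2, integral_const_mul, integral_const_mul]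
  have h1 : ∫ ξ : Fin (N + 1) → ℝ, (∑ a : Fin N, ξ a.succ * v a) ^ 4 ∂(gvec (N + 1)) =
      3 * (∑ a, v a ^ 2) ^ 2 := by
    simp only [XiMom_L_eq]
    rw [gvec_lin4, XiMom_cons_sq]
  have h2 := XiMom_norm4 hN
  rw [h1]
  have h3 : 0 ≤ 16 * (∑ a, v a ^ 2) ^ 2 := by positivity
  calc 4 / (N : ℝ) ^ 2 * (3 * (∑ a, v a ^ 2) ^ 2) + 16 * (∑ a, v a ^ 2) ^ 2 *
        ∫ ξ : Fin (N + 1) → ℝ, (ip ξ ξ / (N : ℝ) - 1) ^ 4 ∂(gvec (N + 1)) ≤
      4 / (N : ℝ) ^ 2 * (3 * (∑ a, v a ^ 2) ^ 2) + 16 * (∑ a, v a ^ 2) ^ 2 * (1928 / (N : ℝ) ^ 2) :=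
        add_le_add le_rfl (mul_le_mul_of_nonneg_left h2 h3)
    _ = (12 + 16 * 1928) * (∑ a, v a ^ 2) ^ 2 / (N : ℝ) ^ 2 := by ring

theorem u_mom2 : ∃ C : ℝ, 0 ≤ C ∧ ∀ {N : ℕ}, 1 ≤ N → ∀ v : Fin N → ℝ,
    Integrable (fun ξ => (∑ a : Fin N, uv ξ a.succ * v a) ^ 2) (gvec (N + 1)) ∧
    ∫ ξ, (∑ a : Fin N, uv ξ a.succ * v a) ^ 2 ∂(gvec (N + 1)) ≤ C * (∑ a, v a ^ 2) / (N : ℝ) := by
  obtain ⟨C, hC, h4⟩ := u_mom4
  refine ⟨C + 1, by linarith, fun {N} hN v => ?_⟩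
  have hN1 : (1 : ℝ) ≤ N := by exact_mod_cast hN
  have hN0 : (0 : ℝ) < N := by linarith
  obtain ⟨i4, h⟩ := h4 hN v
  set V := ∑ a, v a ^ 2 with hV
  have hV0 : 0 ≤ V := Finset.sum_nonneg fun _ _ => sq_nonneg _
  rcases hV0.eq_or_lt with h0 | h0
  · have hz : ∀ ξ : Fin (N + 1) → ℝ, ∑ a : Fin N, uv ξ a.succ * v a = 0 := by
      intro ξ
      refine Finset.sum_eq_zero fun a _ => ?_
      have h1 : v a ^ 2 ≤ V := Finset.single_le_sum (f := fun a => v a ^ 2)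
        (fun _ _ => sq_nonneg _) (Finset.mem_univ a)
      have h2 : v a = 0 := by
        rw [← h0] at h1
        exact pow_eq_zero_iff two_ne_zero |>.1 (le_antisymm h1 (sq_nonneg _))
      rw [h2, mul_zero]
    simp only [hz]
    refine ⟨by simp, ?_⟩
    rw [← h0]
    simp
  · have hpt : ∀ ξ : Fin (N + 1) → ℝ, (∑ a : Fin N, uv ξ a.succ * v a) ^ 2 ≤
        (N : ℝ) / V * (∑ a : Fin N, uv ξ a.succ * v a) ^ 4 + V / N := by
      intro ξ
      set x := (∑ a : Fin N, uv ξ a.succ * v a) ^ 2 with hx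
      have hx0 : 0 ≤ x := sq_nonneg _
      have e : (∑ a : Fin N, uv ξ a.succ * v a) ^ 4 = x ^ 2 := by rw [hx]; ring
      rw [e]
      have h1 : (N : ℝ) / V * x ^ 2 + V / N = (N ^ 2 * x ^ 2 + V ^ 2) / (V * N) := by
        field_simp
      rw [h1, le_div_iff₀ (by positivity)]
      nlinarith [sq_nonneg (N * x - V), mul_nonneg (mul_nonneg hx0 hV0) hN0.le]
    have i5 : Integrable (fun ξ => (N : ℝ) / V * (∑ a : Fin N, uv ξ a.succ * v a) ^ 4 + V / N)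
        (gvec (N + 1)) := (i4.const_mul _).add (integrable_const _)
    have i2 : Integrable (fun ξ => (∑ a : Fin N, uv ξ a.succ * v a) ^ 2) (gvec (N + 1)) := by
      refine i5.mono' ((XiMom_uv_meas v).pow_const 2).aestronglyMeasurable
        (Filter.Eventually.of_forall fun ξ => ?_)
      rw [Real.norm_eq_abs, abs_of_nonneg (by positivity)]
      exact hpt ξ
    refine ⟨i2, ?_⟩
    refine (integral_mono i2 i5 hpt).trans ?_
    rw [integral_add (i4.const_mul _) (integrable_const _), integral_const_mul]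
    simp only [integral_const, probReal_univ, smul_eq_mul, one_mul]
    calc (N : ℝ) / V * ∫ ξ, (∑ a : Fin N, uv ξ a.succ * v a) ^ 4 ∂(gvec (N + 1)) + V / N ≤
        (N : ℝ) / V * (C * V ^ 2 / (N : ℝ) ^ 2) + V / N :=
          add_le_add (mul_le_mul_of_nonneg_left h (by positivity)) le_rfl
      _ = (C + 1) * V / N := by field_simp

/-- sixth moment of a Gaussian linear form -/
theorem gvec_lin6 {M : ℕ} (c : Fin M → ℝ) :
    Integrable (fun ξ => (∑ a, c a * ξ a) ^ 6) (gvec M) ∧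
      ∫ ξ, (∑ a, c a * ξ a) ^ 6 ∂(gvec M) = 15 * (∑ a, c a ^ 2) ^ 3 := by
  refine ⟨XT_int (XT_pow (XT_sum _ fun a => XT_cmul _ (XT_coord a)) 6), ?_⟩
  have h := XiMom_moment (μ := fun _ : Fin M => gaussianReal 0 1) (X := fun _ x => x)
    (fun _ => measurable_id) (fun _ => Measure.map_id) c 6
  have h0 : 0 ≤ ∑ i, c i ^ 2 := Finset.sum_nonneg fun _ _ => sq_nonneg _
  rw [XiMom_m6] at h
  have e : Real.sqrt (∑ i, c i ^ 2) ^ 6 = (∑ i, c i ^ 2) ^ 3 := by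
    calc Real.sqrt (∑ i, c i ^ 2) ^ 6 = (Real.sqrt (∑ i, c i ^ 2) ^ 2) ^ 3 := by ring
      _ = _ := by rw [Real.sq_sqrt h0]
  rw [e] at h
  unfold gvec
  rw [h]
  ring

private theorem XiMom_DI_bound (e0 eb g G ε : ℝ) (hε : ε ^ 2 = 1) :
    |DI e0 eb g G ε| ≤ (1 + |eb| + |e0|) * (1 + g ^ 2 + G ^ 2) := by
  have hε1 : |ε| = 1 := by
    have h1 : |ε| ^ 2 = 1 := by rw [sq_abs]; exact hε
    nlinarith [abs_nonneg ε]
  have h1 : |DI e0 eb g G ε| ≤ |eb| / 2 + (|G| + |eb| * |g|) + |g| * |G| +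
      (|e0| + |eb|) / 2 * g ^ 2 := by
    unfold DI
    have a1 : |(1 / 2) * eb| = |eb| / 2 := by
      rw [abs_mul, abs_of_pos (by norm_num : (0:ℝ) < 1 / 2)]; ring
    have a2 : |ε * (G - eb * g)| ≤ |G| + |eb| * |g| := by
      rw [abs_mul, hε1, one_mul, ← abs_mul]
      exact abs_sub _ _
    have a3 : |g * G| = |g| * |G| := abs_mul _ _
    have a4 : |(1 / 2) * (e0 + eb) * g ^ 2| ≤ (|e0| + |eb|) / 2 * g ^ 2 := by
      rw [abs_mul, abs_mul, abs_of_pos (by norm_num : (0:ℝ) < 1 / 2), abs_of_nonneg (sq_nonneg g)]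
      have := abs_add_le e0 eb
      have h2 := sq_nonneg g
      nlinarith
    calc |(1 / 2) * eb + ε * (G - eb * g) - g * G + (1 / 2) * (e0 + eb) * g ^ 2| ≤
        |(1 / 2) * eb + ε * (G - eb * g) - g * G| + |(1 / 2) * (e0 + eb) * g ^ 2| := abs_add_le _ _
      _ ≤ |(1 / 2) * eb + ε * (G - eb * g)| + |g * G| + |(1 / 2) * (e0 + eb) * g ^ 2| :=
          add_le_add (abs_sub _ _) le_rfl
      _ ≤ |(1 / 2) * eb| + |ε * (G - eb * g)| + |g * G| + |(1 / 2) * (e0 + eb) * g ^ 2| := by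
          have := abs_add_le ((1 / 2) * eb) (ε * (G - eb * g))
          linarith
      _ ≤ _ := by rw [a1, a3]; linarith
  refine h1.trans ?_
  have b0 := abs_nonneg eb
  have b1 := abs_nonneg e0
  have hg : |g| ^ 2 = g ^ 2 := sq_abs g
  have hG : |G| ^ 2 = G ^ 2 := sq_abs G
  have c1 : |G| ≤ (1 + G ^ 2) / 2 := by nlinarith [sq_nonneg (|G| - 1)]
  have c2 : |g| ≤ (1 + g ^ 2) / 2 := by nlinarith [sq_nonneg (|g| - 1)]
  have c3 : |g| * |G| ≤ (g ^ 2 + G ^ 2) / 2 := by nlinarith [sq_nonneg (|g| - |G|)]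
  have c4 : |eb| * |g| ≤ |eb| * ((1 + g ^ 2) / 2) := mul_le_mul_of_nonneg_left c2 b0
  have d1 : 0 ≤ |eb| * G ^ 2 := by positivity
  have d2 : 0 ≤ |e0| * G ^ 2 := by positivity
  have d3 : 0 ≤ |e0| * g ^ 2 := by positivity
  nlinarith [sq_nonneg g, sq_nonneg G]

private theorem XiMom_cube (x y : ℝ) (hx : 0 ≤ x) (hy : 0 ≤ y) :
    (1 + x + y) ^ 3 ≤ 9 * (1 + x ^ 3 + y ^ 3) := by
  have h : ∀ a b : ℝ, 0 ≤ a → 0 ≤ b → a ^ 2 * b + a * b ^ 2 ≤ a ^ 3 + b ^ 3 := by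
    intro a b ha hb
    nlinarith [mul_nonneg (add_nonneg ha hb) (sq_nonneg (a - b))]
  have h1 := h 1 x zero_le_one hx
  have h2 := h 1 y zero_le_one hy
  have h3 := h x y hx hy
  have h4 : 6 * (x * y) ≤ 2 * (1 + x ^ 3 + y ^ 3) := by
    nlinarith [mul_nonneg (add_nonneg (add_nonneg zero_le_one hx) hy) (add_nonneg (add_nonneg
      (sq_nonneg (x - y)) (sq_nonneg (x - 1))) (sq_nonneg (y - 1)))]
  nlinarith

/-- third moment of `DInf`: `y` with `Σ y² = N`, `z_l = N^{-1/2} Σ_{κ a = l} ξ_{a+1} y_a`.  PROOF: `|DInf| ≤ C (1 + Σ|z_l|)²`,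
`(1+Σ|z|)⁶ ≤ C (1 + Σ z_l⁶)`, `gvec_lin6` (`ξ_⊥` = coordinates `≥ 1` of `ξ`; coefficient `0` for the coordinate `0`). -/
theorem DInf_mom3 (D : Blk) : ∃ C : ℝ, 0 ≤ C ∧ ∀ {N : ℕ}, 1 ≤ N → ∀ (κ : Fin N → Fin D.K)
    (l0 : Fin D.K) (y : Fin N → ℝ), ∑ a, y a ^ 2 = N → ∀ ε : ℝ, ε ^ 2 = 1 →
    Integrable (fun ξ : Fin (N + 1) → ℝ => |DInf D l0 (fun l => (Real.sqrt N)⁻¹ *
      ∑ a : Fin N, if κ a = l then ξ a.succ * y a else 0) ε| ^ 3) (gvec (N + 1)) ∧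
    ∫ ξ, |DInf D l0 (fun l => (Real.sqrt N)⁻¹ *
      ∑ a : Fin N, if κ a = l then ξ a.succ * y a else 0) ε| ^ 3 ∂(gvec (N + 1)) ≤ C := by
  set Dm : ℝ := ∑ l, |D.d l| with hDm
  have hDm0 : 0 ≤ Dm := Finset.sum_nonneg fun _ _ => abs_nonneg _
  have hdl : ∀ l, |D.d l| ≤ Dm := fun l =>
    Finset.single_le_sum (f := fun l => |D.d l|) (fun _ _ => abs_nonneg _) (Finset.mem_univ l)
  have hC1 : 0 ≤ 1 + |D.dbar| + Dm := by positivity
  refine ⟨(1 + |D.dbar| + Dm) ^ 3 * (9 * (1 + 15 + 15 * Dm ^ 6)), by positivity,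
    fun {N} hN κ l0 y hy ε hε => ?_⟩
  have hN1 : (1 : ℝ) ≤ N := by exact_mod_cast hN
  have hN0 : (0 : ℝ) < N := by linarith
  set g : (Fin (N + 1) → ℝ) → ℝ := fun ξ =>
    ∑ a, (Fin.cons 0 (fun a => (Real.sqrt N)⁻¹ * y a) : Fin (N + 1) → ℝ) a * ξ a with hg
  set G : (Fin (N + 1) → ℝ) → ℝ := fun ξ =>
    ∑ a, (Fin.cons 0 (fun a => (Real.sqrt N)⁻¹ * (D.d (κ a) * y a)) : Fin (N + 1) → ℝ) a * ξ a
    with hG
  have hgT : XT g := XT_sum _ fun a => XT_cmul _ (XT_coord a)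
  have hGT : XT G := XT_sum _ fun a => XT_cmul _ (XT_coord a)
  have hge : ∀ ξ : Fin (N + 1) → ℝ, ∑ l : Fin D.K, ((Real.sqrt N)⁻¹ *
      ∑ a : Fin N, if κ a = l then ξ a.succ * y a else 0) = g ξ := by
    intro ξ
    rw [← Finset.mul_sum, Finset.sum_comm, hg]
    simp only
    rw [Fin.sum_univ_succ]
    simp only [Finset.sum_ite_eq, Finset.mem_univ, if_true, Fin.cons_zero, Fin.cons_succ, zero_mul,
      zero_add, Finset.mul_sum]
    exact Finset.sum_congr rfl fun a _ => by ring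
  have hGe : ∀ ξ : Fin (N + 1) → ℝ, ∑ l : Fin D.K, D.d l * ((Real.sqrt N)⁻¹ *
      ∑ a : Fin N, if κ a = l then ξ a.succ * y a else 0) = G ξ := by
    intro ξ
    have e1 : ∀ l : Fin D.K, D.d l * ((Real.sqrt N)⁻¹ *
        ∑ a : Fin N, if κ a = l then ξ a.succ * y a else 0) =
        ∑ a : Fin N, if κ a = l then (Real.sqrt N)⁻¹ * (D.d l * (ξ a.succ * y a)) else 0 := by
      intro l
      rw [Finset.mul_sum, Finset.mul_sum]
      refine Finset.sum_congr rfl fun a _ => ?_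
      split_ifs
      · ring
      · ring
    rw [Finset.sum_congr rfl fun l _ => e1 l, Finset.sum_comm, hG]
    simp only
    rw [Fin.sum_univ_succ]
    simp only [Finset.sum_ite_eq, Finset.mem_univ, if_true, Fin.cons_zero, Fin.cons_succ, zero_mul,
      zero_add]
    exact Finset.sum_congr rfl fun a _ => by ring
  have hD : ∀ ξ : Fin (N + 1) → ℝ, DInf D l0 (fun l => (Real.sqrt N)⁻¹ *
      ∑ a : Fin N, if κ a = l then ξ a.succ * y a else 0) ε =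
      DI (D.d l0) D.dbar (g ξ) (G ξ) ε := by
    intro ξ
    unfold DInf
    rw [hge, hGe]
  simp only [hD]
  have hpt : ∀ ξ, |DI (D.d l0) D.dbar (g ξ) (G ξ) ε| ^ 3 ≤
      (1 + |D.dbar| + Dm) ^ 3 * (9 * (1 + g ξ ^ 6 + G ξ ^ 6)) := by
    intro ξ
    have h1 := XiMom_DI_bound (D.d l0) D.dbar (g ξ) (G ξ) ε hε
    have h2 : |DI (D.d l0) D.dbar (g ξ) (G ξ) ε| ≤
        (1 + |D.dbar| + Dm) * (1 + g ξ ^ 2 + G ξ ^ 2) := by
      refine h1.trans (mul_le_mul_of_nonneg_right ?_ (by positivity))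
      have := hdl l0
      linarith
    calc |DI (D.d l0) D.dbar (g ξ) (G ξ) ε| ^ 3 ≤
        ((1 + |D.dbar| + Dm) * (1 + g ξ ^ 2 + G ξ ^ 2)) ^ 3 :=
          pow_le_pow_left₀ (abs_nonneg _) h2 3
      _ = (1 + |D.dbar| + Dm) ^ 3 * (1 + g ξ ^ 2 + G ξ ^ 2) ^ 3 := mul_pow _ _ _
      _ ≤ (1 + |D.dbar| + Dm) ^ 3 * (9 * (1 + (g ξ ^ 2) ^ 3 + (G ξ ^ 2) ^ 3)) :=
          mul_le_mul_of_nonneg_left (XiMom_cube _ _ (sq_nonneg _) (sq_nonneg _)) (by positivity)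
      _ = _ := by ring
  have i6 := XT_int (XT_pow hgT 6)
  have j6 := XT_int (XT_pow hGT 6)
  have iR : Integrable (fun ξ => (1 + |D.dbar| + Dm) ^ 3 * (9 * (1 + g ξ ^ 6 + G ξ ^ 6)))
      (gvec (N + 1)) := ((((integrable_const _).add i6).add j6).const_mul 9).const_mul _
  have hDT : XT (fun ξ => DI (D.d l0) D.dbar (g ξ) (G ξ) ε) := by
    unfold DI
    simp only [sub_eq_add_neg, neg_mul_eq_neg_mul]
    refine XT_add (XT_add (XT_add (XT_const _) (XT_cmul _ (XT_add hGT (XT_cmul _ hgT))))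
      (XT_mul ?_ hGT)) (XT_cmul _ (XT_pow hgT 2))
    have := XT_cmul (-1) hgT
    simpa only [neg_mul, one_mul] using this
  have iL : Integrable (fun ξ => |DI (D.d l0) D.dbar (g ξ) (G ξ) ε| ^ 3) (gvec (N + 1)) :=
    XT_int (XT_pow (XT_abs hDT) 3)
  refine ⟨iL, (integral_mono iL iR hpt).trans ?_⟩
  rw [integral_const_mul, integral_const_mul, integral_add _ j6,
    integral_add (integrable_const _) i6]
  · simp only [integral_const, probReal_univ, smul_eq_mul, one_mul]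
    have hs : (Real.sqrt N)⁻¹ ^ 2 = 1 / (N : ℝ) := by
      rw [inv_pow, Real.sq_sqrt hN0.le, one_div]
    have hg6 : ∫ ξ, g ξ ^ 6 ∂(gvec (N + 1)) = 15 := by
      rw [hg, (gvec_lin6 _).2, XiMom_cons_sq]
      simp only [mul_pow, hs]
      rw [← Finset.mul_sum, hy]
      rw [one_div, inv_mul_cancel₀ hN0.ne']
      norm_num
    have hG6 : ∫ ξ, G ξ ^ 6 ∂(gvec (N + 1)) ≤ 15 * Dm ^ 6 := by
      rw [hG, (gvec_lin6 _).2, XiMom_cons_sq]
      have h1 : ∑ a : Fin N, ((Real.sqrt N)⁻¹ * (D.d (κ a) * y a)) ^ 2 ≤ Dm ^ 2 := by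
        have h2 : ∀ a : Fin N, ((Real.sqrt N)⁻¹ * (D.d (κ a) * y a)) ^ 2 ≤
            Dm ^ 2 * (1 / (N : ℝ)) * y a ^ 2 := by
          intro a
          rw [mul_pow, mul_pow, hs]
          have h3 : D.d (κ a) ^ 2 ≤ Dm ^ 2 :=
            sq_le_sq' (by have := (abs_le.1 (hdl (κ a))).1; linarith) (abs_le.1 (hdl (κ a))).2
          calc 1 / (N : ℝ) * (D.d (κ a) ^ 2 * y a ^ 2) = D.d (κ a) ^ 2 * (1 / (N : ℝ) * y a ^ 2) := by
                ring
            _ ≤ Dm ^ 2 * (1 / (N : ℝ) * y a ^ 2) := mul_le_mul_of_nonneg_right h3 (by positivity)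
            _ = _ := by ring
        refine (Finset.sum_le_sum fun a _ => h2 a).trans (le_of_eq ?_)
        rw [← Finset.mul_sum, hy]
        field_simp
      have h0 : 0 ≤ ∑ a : Fin N, ((Real.sqrt N)⁻¹ * (D.d (κ a) * y a)) ^ 2 :=
        Finset.sum_nonneg fun _ _ => sq_nonneg _
      calc 15 * (∑ a : Fin N, ((Real.sqrt N)⁻¹ * (D.d (κ a) * y a)) ^ 2) ^ 3 ≤
          15 * (Dm ^ 2) ^ 3 := by gcongr
        _ = 15 * Dm ^ 6 := by ring
    refine mul_le_mul_of_nonneg_left ?_ (by positivity)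
    rw [hg6]
    linarith
  · exact (integrable_const _).add i6

end Crest.Agent.RI
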