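import Crest.Agent.RI.CoupPt
import Crest.Agent.RI.XiMom
import Crest.Agent.RI.CoupMP
import Crest.Agent.RI.TExtra

/-!
# Row 164, Part 8.2: the product law, reductions
-/

set_option autoImplicit false

namespace Crest.Agent.RI

open MeasureTheory ProbabilityTheory

variable {N K J k : ℕ}

/-- decoupled Hamiltonian `H_S(ω_S) + (b + v g^{i0}_0) ε` -/
noncomputable def H1 (D : Blk) (L : LBd J) (s : ℝ) (x : XI k D.K J → ℝ) (κ : Fin N → Fin D.K)
    (lab : Fin N → Fin J) (b v : ℝ) (i0 : Fin k) (ω : Fin (k + 1) → EC N) : ℝ :=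
  HN k (θL D L k s x κ lab) (b0 ω) + (b + v * (ω i0.castSucc).2.1) * ep ω

noncomputable def EH1 (P : Measure (ON N)) (D : Blk) (L : LBd J) (k : ℕ) (s : ℝ)
    (x : XI k D.K J → ℝ) (κ : Fin N → Fin D.K) (lab : Fin N → Fin J) (b v : ℝ) (i0 : Fin k)
    (Φ : (Fin (k + 1) → EC N) → ℝ) : ℝ :=
  pathE (mC P) (ζLB k) (k + 1) 0 (H1 D L s x κ lab b v i0) Φ

private theorem MomLa_tame_fst {X Y : Type} [MeasurableSpace X] [MeasurableSpace Y] {f : X → ℝ}
    {g : Y → ℝ} (hg : ∀ e, 0 ≤ g e) {n : ℕ} {H : (Fin n → X) → ℝ} (hH : Tame f H) :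
    Tame (fun p : X × Y => f p.1 + g p.2) (fun ω : Fin n → X × Y => H (fun j => (ω j).1)) := by
  obtain ⟨C, hC, hCb⟩ := hH.bound
  refine ⟨hH.meas.comp (measurable_pi_iff.2 (fun j => measurable_fst.comp
    (measurable_pi_apply j))), C, hC, fun ω => (hCb _).trans ?_⟩
  refine mul_le_mul_of_nonneg_left (Real.exp_le_exp.2 (mul_le_mul_of_nonneg_left ?_ hC)) hC
  exact Finset.sum_le_sum (fun j _ => le_add_of_nonneg_right (hg _))

private theorem MomLa_ham_fst {X Y : Type} [MeasurableSpace X] [MeasurableSpace Y] {f : X → ℝ}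
    {g : Y → ℝ} (hg : ∀ e, 0 ≤ g e) {n : ℕ} {H : (Fin n → X) → ℝ} (hH : Ham f H) :
    Ham (fun p : X × Y => f p.1 + g p.2) (fun ω : Fin n → X × Y => H (fun j => (ω j).1)) := by
  obtain ⟨C, hC, hCb⟩ := hH.bound
  refine ⟨hH.meas.comp (measurable_pi_iff.2 (fun j => measurable_fst.comp
    (measurable_pi_apply j))), C, hC, fun ω => (hCb _).trans ?_⟩
  refine mul_le_mul_of_nonneg_left ?_ hC
  have : ∑ j, f (ω j).1 ≤ ∑ j, (f (ω j).1 + g (ω j).2) :=
    Finset.sum_le_sum (fun j _ => le_add_of_nonneg_right (hg _))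
  linarith

private theorem MomLa_ham_snd {X Y : Type} [MeasurableSpace X] [MeasurableSpace Y] {f : X → ℝ}
    {g : Y → ℝ} (hf : ∀ e, 0 ≤ f e) {n : ℕ} {H : (Fin n → Y) → ℝ} (hH : Ham g H) :
    Ham (fun p : X × Y => f p.1 + g p.2) (fun ω : Fin n → X × Y => H (fun j => (ω j).2)) := by
  obtain ⟨C, hC, hCb⟩ := hH.bound
  refine ⟨hH.meas.comp (measurable_pi_iff.2 (fun j => measurable_snd.comp
    (measurable_pi_apply j))), C, hC, fun ω => (hCb _).trans ?_⟩
  refine mul_le_mul_of_nonneg_left ?_ hC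
  have : ∑ j, g (ω j).2 ≤ ∑ j, (f (ω j).1 + g (ω j).2) :=
    Finset.sum_le_sum (fun j _ => le_add_of_nonneg_left (hf _))
  linarith

private theorem MomLa_spin (c : Bool) : |spin c| = 1 := abs_spin c

/-- the field on the new spin -/
private noncomputable def MomLa_W (k : ℕ) (b v : ℝ) (i0 : Fin k) (ω : Fin (k + 1) → ℝ × Bool) : ℝ :=
  (b + v * (ω i0.castSucc).1) * spin (ω (Fin.last k)).2

private theorem MomLa_W_bound (b v : ℝ) (i0 : Fin k) (ω : Fin (k + 1) → ℝ × Bool) :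
    |MomLa_W k b v i0 ω| ≤ |b| + |v| * |(ω i0.castSucc).1| := by
  unfold MomLa_W
  rw [abs_mul, MomLa_spin, mul_one, ← abs_mul]
  exact abs_add_le _ _

private theorem MomLa_W_ham (b v : ℝ) (i0 : Fin k) : Ham βX (MomLa_W k b v i0) := by
  refine ⟨?_, |b| + |v|, by positivity, fun ω => (MomLa_W_bound b v i0 ω).trans ?_⟩
  · unfold MomLa_W
    have h1 : Measurable (fun ω : Fin (k + 1) → ℝ × Bool => (ω i0.castSucc).1) :=
      measurable_fst.comp (measurable_pi_apply _)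
    have h2 : Measurable (fun ω : Fin (k + 1) → ℝ × Bool => spin (ω (Fin.last k)).2) :=
      (measurable_of_countable spin).comp (measurable_snd.comp (measurable_pi_apply _))
    exact ((h1.const_mul v).const_add b).mul h2
  · have h0 : ∀ j, 0 ≤ βX (ω j) := fun j => abs_nonneg _
    have h1 : βX (ω i0.castSucc) ≤ ∑ j, βX (ω j) :=
      Finset.single_le_sum (f := fun j => βX (ω j)) (fun j _ => h0 j) (Finset.mem_univ _)
    have h2 : |(ω i0.castSucc).1| ≤ ∑ j, βX (ω j) := h1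
    have h3 : 0 ≤ ∑ j, βX (ω j) := Finset.sum_nonneg fun j _ => h0 j
    have hb := abs_nonneg b
    have hv := abs_nonneg v
    nlinarith [mul_nonneg hb h3, mul_le_mul_of_nonneg_left h2 hv]

private theorem MomLa_H1 (D : Blk) (L : LBd J) (s : ℝ) (x : XI k D.K J → ℝ) (κ : Fin N → Fin D.K)
    (lab : Fin N → Fin J) (b v : ℝ) (i0 : Fin k) :
    H1 D L s x κ lab b v i0 = fun ω : Fin (k + 1) → EC N =>
      (fun ω' : Fin (k + 1) → EC1 N => HN k (θL D L k s x κ lab) (fun j => (ω' j).1))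
        (fun j => (ω j).1) + MomLa_W k b v i0 (fun j => (ω j).2) := rfl

private theorem MomLa_HN1 (D : Blk) (L : LBd J) (s : ℝ) (x : XI k D.K J → ℝ) (κ : Fin N → Fin D.K)
    (lab : Fin N → Fin J) : Ham (βC1 (N := N)) (fun ω : Fin (k + 1) → EC1 N =>
      HN k (θL D L k s x κ lab) (fun j => (ω j).1)) :=
  MomLa_ham_fst (g := fun e : (Fin (N + 1) → ℝ) × ℝ => ∑ a, |e.1 a| + |e.2|)
    (fun e => by positivity) (HN_ham k (θL D L k s x κ lab))

private theorem MomLa_mono (k : ℕ) : Monotone (ζLB k) := by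
  intro i j hij
  unfold ζLB
  refine min_le_min le_rfl ?_
  have : (i : ℝ) ≤ j := by exact_mod_cast hij
  gcongr

private theorem MomLa_zero (k : ℕ) : ζLB k 0 = 0 := by
  unfold ζLB
  simp

theorem H1_ham (D : Blk) (L : LBd J) (s : ℝ) (x : XI k D.K J → ℝ) (κ : Fin N → Fin D.K)
    (lab : Fin N → Fin J) (b v : ℝ) (i0 : Fin k) :
    Ham (βC (N := N)) (H1 D L s x κ lab b v i0) := by
  have h0 : ∀ e : EC1 N, 0 ≤ βC1 e := fun e => by
    unfold βC1 βN
    positivity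
  have h1 : Ham (βC (N := N)) (fun ω : Fin (k + 1) → EC N =>
      (fun ω' : Fin (k + 1) → EC1 N => HN k (θL D L k s x κ lab) (fun j => (ω' j).1))
        (fun j => (ω j).1)) :=
    MomLa_ham_fst (g := βX) (fun e => abs_nonneg _) (MomLa_HN1 D L s x κ lab)
  have h2 : Ham (βC (N := N)) (fun ω : Fin (k + 1) → EC N =>
      MomLa_W k b v i0 (fun j => (ω j).2)) :=
    MomLa_ham_snd (f := βC1) h0 (MomLa_W_ham b v i0)
  obtain ⟨C, hC, hCb⟩ := h1.bound
  obtain ⟨C', hC', hCb'⟩ := h2.bound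
  rw [MomLa_H1]
  refine ⟨h1.meas.add h2.meas, C + C', by positivity, fun ω => ?_⟩
  refine (abs_add_le _ _).trans ?_
  rw [add_mul]
  exact add_le_add (hCb ω) (hCb' ω)

private theorem MomLa_exp_one (c : ℝ) :
    ∫ e, Real.exp (c * |e|) ∂(gaussianReal 0 1) ≤ 2 * Real.exp (c ^ 2 / 2) := by
  have i1 := integrable_exp_mul_gaussianReal (μ := 0) (v := 1) c
  have i2 := integrable_exp_mul_gaussianReal (μ := 0) (v := 1) (-c)
  have e1 : ∫ e, Real.exp (c * e) ∂(gaussianReal 0 1) = Real.exp (c ^ 2 / 2) := by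
    have h := mgf_gaussianReal (p := gaussianReal 0 1) (X := id) (μ := 0) (v := 1)
      (by simp) c
    simpa [mgf] using h
  have e2 : ∫ e, Real.exp (-c * e) ∂(gaussianReal 0 1) = Real.exp (c ^ 2 / 2) := by
    have h := mgf_gaussianReal (p := gaussianReal 0 1) (X := id) (μ := 0) (v := 1)
      (by simp) (-c)
    simpa [mgf] using h
  have h : ∫ e, Real.exp (c * |e|) ∂(gaussianReal 0 1) ≤
      ∫ e, (Real.exp (c * e) + Real.exp (-c * e)) ∂(gaussianReal 0 1) := by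
    refine integral_mono (integrable_exp_mul_abs (X := fun x : ℝ => x) (t := c) i1 i2)
      (i1.add i2) fun e => ?_
    rcases le_total 0 e with he | he
    · simp only [abs_of_nonneg he]
      have := Real.exp_pos (-c * e)
      linarith
    · simp only [abs_of_nonpos he]
      have := Real.exp_pos (c * e)
      have h2 : c * -e = -c * e := by ring
      rw [h2]
      linarith
  rw [integral_add i1 i2, e1, e2] at h
  linarith

private theorem MomLa_X (c : ℝ) :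
    ∫ e, Real.exp (c * |e.1|) ∂mX = ∫ e, Real.exp (c * |e|) ∂(gaussianReal 0 1) := by
  unfold mX
  rw [integral_fun_fst (fun e : ℝ => Real.exp (c * |e|)), probReal_univ, one_smul]

private theorem MomLa_num : (2 * Real.exp (1 ^ 2 / 2)) * (2 * Real.exp (2 ^ 2 / 2)) ≤ 60 := by
  have h1 : (2 * Real.exp (1 ^ 2 / 2)) * (2 * Real.exp (2 ^ 2 / 2)) = 4 * Real.exp (5 / 2) := by
    have : (2 * Real.exp (1 ^ 2 / 2)) * (2 * Real.exp (2 ^ 2 / 2)) =
        4 * (Real.exp (1 ^ 2 / 2) * Real.exp (2 ^ 2 / 2)) := by ring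
    rw [this, ← Real.exp_add]
    norm_num
  rw [h1]
  have h2 : Real.exp (5 / 2) ^ 2 = Real.exp 1 ^ 5 := by
    rw [← Real.exp_nat_mul, ← Real.exp_nat_mul]
    norm_num
  have h3 : Real.exp 1 < 2.7182818286 := Real.exp_one_lt_d9
  have h4 : Real.exp 1 ^ 5 ≤ 2.7182818286 ^ 5 :=
    pow_le_pow_left₀ (Real.exp_pos _).le h3.le 5
  have h5 : Real.exp (5 / 2) ^ 2 ≤ 15 ^ 2 := by
    rw [h2]
    refine h4.trans ?_
    norm_num
  have h6 : Real.exp (5 / 2) ≤ 15 := by
    exact (pow_le_pow_iff_left₀ (Real.exp_pos _).le (by norm_num) two_ne_zero).1 h5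
  linarith

/-- reduction to the tower without the new spin: `extra_density` (`m = mC1`, `m' = mX`, `a (g,e) = |g|`, `W = (b + v g_{i0}) ε`) -/
theorem EH1_red {P : Measure (ON N)} (hP : HaarO P) (D : Blk) (L : LBd J) (s : ℝ)
    (x : XI k D.K J → ℝ) (κ : Fin N → Fin D.K) (lab : Fin N → Fin J) {b v : ℝ} (hv0 : 0 ≤ v)
    (hv1 : v ≤ 1) (i0 : Fin k) {Ψ : (Fin (k + 1) → EC1 N) → ℝ} (hΨ : Tame (βC1 (N := N)) Ψ)
    (h0 : ∀ ω, 0 ≤ Ψ ω) :
    EH1 P D L k s x κ lab b v i0 (fun ω => Ψ (fun j => (ω j).1)) ≤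
      Real.exp (2 * |b|) * 60 * pathE (mC1 P) (ζLB k) (k + 1) 0
        (fun ω => HN k (θL D L k s x κ lab) (fun j => (ω j).1)) Ψ := by
  have := prob_mC1 hP
  have hm : Measurable (fun e : ℝ × Bool => |e.1|) := by fun_prop
  have hW : Ham (fun p : EC1 N × (ℝ × Bool) => βC1 p.1 + βX p.2)
      (fun ω : Fin (k + 1) → EC N => MomLa_W k b v i0 (fun j => (ω j).2)) :=
    MomLa_ham_snd (f := βC1) (dom_mC1 hP).nonneg (MomLa_W_ham b v i0)
  have h1 := extra_density (dom_mC1 hP) dom_mX (exps_LB k) (MomLa_mono k) (k + 1) 0 i0.castSucc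
    (MomLa_HN1 D L s x κ lab) hΨ h0 hW (a := fun e => |e.1|) (fun e => abs_nonneg _) hm (c := 1)
    (fun e => by unfold βX; linarith [abs_nonneg e.1]) (b := |b|) (fun ω => by
      refine (MomLa_W_bound b v i0 _).trans ?_
      have h2 : |v| ≤ 1 := abs_le.2 ⟨by linarith, hv1⟩
      have h3 := abs_nonneg (ω i0.castSucc).2.1
      have h4 : |v| * |(ω i0.castSucc).2.1| ≤ 1 * |(ω i0.castSucc).2.1| :=
        mul_le_mul_of_nonneg_right h2 h3
      linarith)
  have hEnn : 0 ≤ pathE (mC1 P) (ζLB k) (k + 1) 0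
        (fun ω => HN k (θL D L k s x κ lab) (fun j => (ω j).1)) Ψ := by
    have h2 := pathE_mono (dom_mC1 hP) (exps_LB k) (k + 1) 0 (MomLa_HN1 D L s x κ lab)
      (Tame.const (n := k + 1) (dom_mC1 hP) 0) hΨ h0
    rwa [pathE_const (dom_mC1 hP) (exps_LB k) (k + 1) 0 (MomLa_HN1 D L s x κ lab)] at h2
  have h2 : (∫ e : ℝ × Bool, Real.exp |e.1| ∂mX) * (∫ e : ℝ × Bool, Real.exp (2 * |e.1|) ∂mX) ≤
      60 := by
    have e1 := MomLa_X 1
    simp only [one_mul] at e1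
    rw [e1, MomLa_X 2]
    have h3 := MomLa_exp_one 1
    simp only [one_mul] at h3
    have h4 := MomLa_exp_one 2
    refine le_trans ?_ MomLa_num
    exact mul_le_mul h3 h4 (integral_nonneg fun e => (Real.exp_pos _).le) (by positivity)
  refine h1.trans ?_
  refine mul_le_mul_of_nonneg_right ?_ hEnn
  rw [mul_assoc]
  exact mul_le_mul_of_nonneg_left h2 (Real.exp_pos _).le

/-- level-0 functions are not tilted (`ζLB k 0 = 0`) -/
theorem EH1_xi {P : Measure (ON N)} (hP : HaarO P) (D : Blk) (L : LBd J) (hk : 0 < k) (s : ℝ)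
    (x : XI k D.K J → ℝ) (κ : Fin N → Fin D.K) (lab : Fin N → Fin J) (b v : ℝ) (i0 : Fin k)
    (F : (Fin (N + 1) → ℝ) → ℝ) :
    EH1 P D L k s x κ lab b v i0 (fun ω => F (xi ω)) = ∫ ξ, F ξ ∂(gvec (N + 1)) := by
  have := prob_mC hP
  have := prob_mC1 hP
  have := prob_mN hP (unifA N)
  have h1 := pathE_level0 (dom_mC hP) (exps_LB k) k 0 (MomLa_zero k)
    (H1_ham D L s x κ lab b v i0) (fun e : EC N => F e.1.2.1)
  unfold EH1
  refine h1.trans ?_
  unfold mC
  rw [integral_fun_fst (fun e : EC1 N => F e.2.1)]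
  unfold mC1
  rw [integral_fun_snd (fun e : (Fin (N + 1) → ℝ) × ℝ => F e.1), integral_fun_fst F]
  simp

/-- functions of the system only -/
theorem EH1_b0 {P : Measure (ON N)} (hP : HaarO P) (D : Blk) (L : LBd J) (s : ℝ)
    (x : XI k D.K J → ℝ) (κ : Fin N → Fin D.K) (lab : Fin N → Fin J) (b v : ℝ) (i0 : Fin k)
    {Φ : (Fin (k + 1) → EN N) → ℝ} (hΦ : Tame (βN (N := N)) Φ) :
    EH1 P D L k s x κ lab b v i0 (fun ω => Φ (b0 ω)) = EL P D L k s x κ lab Φ := by
  have := prob_mC1 hP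
  have := prob_mN hP (unifA N)
  have hΦ1 : Tame (βC1 (N := N)) (fun ω : Fin (k + 1) → EC1 N => Φ (fun j => (ω j).1)) :=
    MomLa_tame_fst (g := fun e : (Fin (N + 1) → ℝ) × ℝ => ∑ a, |e.1 a| + |e.2|)
      (fun e => by positivity) hΦ
  have h1 := pathE_indep_fst (dom_mC1 hP) dom_mX (exps_LB k) (k + 1) 0
    (MomLa_HN1 D L s x κ lab) (MomLa_W_ham b v i0) hΦ1
  have h2 := pathE_fst (m := mN P (unifA N)) (m' := (gvec (N + 1)).prod (gaussianReal 0 1))
    (ζ := ζLB k) (k + 1) 0 (HN_ham k (θL D L k s x κ lab)).meas hΦ.meas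
  exact h1.trans h2

private theorem MomLa_tame_g2 {n : ℕ} (i : Fin n) : Tame (βN (N := N))
    (fun ω : Fin n → EN N => ∑ a, (ω i).2.2.1 a ^ 2) := by
  have hβ : ∀ e : EN N, 0 ≤ βN e := fun e => by unfold βN; positivity
  refine ⟨Finset.measurable_sum _ fun a _ => ?_, 2, by norm_num, fun ω => ?_⟩
  · have h5 : Measurable (fun e : EN N => e.2.2.1 a ^ 2) := by fun_prop
    exact h5.comp (measurable_pi_apply _)
  rw [abs_of_nonneg (by positivity)]
  have h7 : ∑ a, |(ω i).2.2.1 a| ≤ βN (ω i) := by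
    unfold βN
    have : 0 ≤ ∑ a, |(ω i).2.1 a| := by positivity
    linarith
  have h8 : βN (ω i) ≤ ∑ j, βN (ω j) :=
    Finset.single_le_sum (f := fun j => βN (ω j)) (fun j _ => hβ _) (Finset.mem_univ _)
  have h9 : ∑ a, (ω i).2.2.1 a ^ 2 ≤ (∑ a, |(ω i).2.2.1 a|) ^ 2 := by
    rw [sq (∑ a, |(ω i).2.2.1 a|), Finset.sum_mul]
    refine Finset.sum_le_sum fun a _ => ?_
    rw [← sq_abs, sq]
    exact mul_le_mul_of_nonneg_left
      (Finset.single_le_sum (f := fun a => |(ω i).2.2.1 a|)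
        (fun _ _ => abs_nonneg _) (Finset.mem_univ a)) (abs_nonneg _)
  have h10 : (∑ a, |(ω i).2.2.1 a|) ^ 2 ≤ (∑ j, βN (ω j)) ^ 2 :=
    pow_le_pow_left₀ (by positivity) (h7.trans h8) 2
  have hS : 0 ≤ ∑ j, βN (ω j) := Finset.sum_nonneg fun j _ => hβ _
  have h11 := Real.pow_div_factorial_le_exp (∑ j, βN (ω j)) hS 2
  have h12 : ((2 : ℕ).factorial : ℝ) = 2 := by norm_num [Nat.factorial]
  rw [h12, div_le_iff₀ (by norm_num)] at h11
  have h13 : Real.exp (∑ j, βN (ω j)) ≤ Real.exp (2 * ∑ j, βN (ω j)) :=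
    Real.exp_le_exp.2 (by linarith)
  linarith

/-- second moment of the perturbation fields in the tower `S` (no condition on the block sizes).  PROOF: Gaussian integration by parts or `pathE_gU4`
(`E(Σ g²)² ≤ 64 (2 ((3 D² + 2) N)² + 4)`, level `0`: free Gaussian). -/
theorem EL_g2 (Dm : ℝ) : ∃ C : ℝ, 0 ≤ C ∧ ∀ {N J k : ℕ} {P : Measure (ON N)}, 1 ≤ N → HaarO P →
    ∀ (D : Blk) (L : LBd J), 0 < k → ∀ (s : ℝ) (x : XI k D.K J → ℝ), COK D Dm s x →
    ∀ (κ : Fin N → Fin D.K) (lab : Fin N → Fin J) (i : Fin k),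
      EL P D L k s x κ lab (fun ω => ∑ a, (ω i.castSucc).2.2.1 a ^ 2) ≤ C * N := by
  refine ⟨1 + 32 * (2 * 29 ^ 2 + 4), by norm_num, ?_⟩
  intro N J k P hN hP D L hk s x hx κ lab i
  have := hP.prob
  have := prob_mN hP (unifA N)
  have hβ := dom_mN hP (unifA N)
  have hζ := exps_LB k
  have hNR : (1 : ℝ) ≤ N := by exact_mod_cast hN
  obtain ⟨k', rfl⟩ : ∃ k', k = k' + 1 := ⟨k - 1, by omega⟩
  set θ := θL D L (k' + 1) s x κ lab with hθ
  have hH := HN_ham (k' + 1) θ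
  have hE0 : EL P D L (k' + 1) s x κ lab = pathE (mN P (unifA N)) (ζLB (k' + 1)) (k' + 1 + 1) 0
    (HN (k' + 1) θ) := rfl
  rw [hE0]
  refine Fin.cases ?_ (fun i' => ?_) i
  · have h1 := pathE_level0 hβ hζ (k' + 1) 0 (MomLa_zero (k' + 1)) hH
      (fun e : EN N => ∑ a, e.2.2.1 a ^ 2)
    refine (h1.trans (b := ∫ e : EN N, ∑ a, e.2.2.1 a ^ 2 ∂(mN P (unifA N)))
      (c := (N : ℝ)) ?_).le.trans ?_
    · unfold mN
      rw [integral_fun_snd (fun e : (Fin N → ℝ) × (Fin N → ℝ) × (Fin N → Bool) =>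
        ∑ a, e.2.1 a ^ 2), integral_fun_snd (fun e : (Fin N → ℝ) × (Fin N → Bool) =>
        ∑ a, e.1 a ^ 2), integral_fun_fst (fun e : Fin N → ℝ => ∑ a, e a ^ 2), gauss_sq]
      simp
    · nlinarith
  · have hc : ∀ (i : ℕ) l, |θ.c i l| ≤ 3 := by
      intro i l
      show |if h : i < k' + 1 then (if i = 0 then 0 else s * x (Sum.inr (Sum.inr (⟨i, h⟩, l))))
        else 0| ≤ 3
      split_ifs with h h'
      · simp
      · obtain ⟨h1, h2⟩ := hx.x (Sum.inr (Sum.inr (⟨i, h⟩, l)))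
        rw [abs_of_nonneg (mul_nonneg hx.s0 h1)]
        have := hx.s0
        have := hx.s1
        nlinarith
      · simp
    have hstep : ∀ e : EN N, wgt (mN P (unifA N)) (ζLB (k' + 1)) (k' + 1) 0 (HN (k' + 1) θ) e *
        pathE (mN P (unifA N)) (ζLB (k' + 1)) (k' + 1) (0 + 1)
          (fun ω => HN (k' + 1) θ (Fin.cons e ω))
          (fun ω => ∑ a, ((Fin.cons e ω : Fin (k' + 1 + 1) → EN N) i'.succ.castSucc).2.2.1 a ^ 2) ≤
        (1 + 32 * (2 * 29 ^ 2 + 4)) * N := by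
      intro e
      have hw : wgt (mN P (unifA N)) (ζLB (k' + 1)) (k' + 1) 0 (HN (k' + 1) θ) e = 1 := by
        unfold wgt
        rw [MomLa_zero]
        simp
      rw [hw, one_mul]
      have e1 : (fun ω : Fin (k' + 1) → EN N => HN (k' + 1) θ (Fin.cons e ω)) =
          HU (k' + 1) θ e.1 := by
        funext ω
        exact HN_cons_eq (k' + 1) θ (by omega) rfl (fun l => by
          show (if h : 0 < k' + 1 then (if 0 = 0 then 0 else
            s * x (Sum.inr (Sum.inr (⟨0, h⟩, l)))) else 0) = (0 : ℝ)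
          simp) e ω
      rw [e1]
      have e2 : (fun ω : Fin (k' + 1) → EN N =>
          ∑ a, ((Fin.cons e ω : Fin (k' + 1 + 1) → EN N) i'.succ.castSucc).2.2.1 a ^ 2) =
          fun ω => ∑ a, gU (k' + 1) i'.succ e.1 ω a ^ 2 := by
        funext ω
        rfl
      rw [e2]
      have hHU := HU_ham (k' + 1) θ e.1
      have t4 : Tame (βN (N := N)) (fun ω : Fin (k' + 1) → EN N =>
          ∑ a, gU (k' + 1) i'.succ e.1 ω a ^ 2) := by
        exact MomLa_tame_g2 i'.castSucc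
      have t5 : Tame (βN (N := N)) (fun ω : Fin (k' + 1) → EN N =>
          (∑ a, gU (k' + 1) i'.succ e.1 ω a ^ 2) ^ 2) := by
        have := t4.mul hβ t4
        simpa only [← sq] using this
      have t6 : Tame (βN (N := N)) (fun ω : Fin (k' + 1) → EN N =>
          (1 / (2 * (N : ℝ))) * (∑ a, gU (k' + 1) i'.succ e.1 ω a ^ 2) ^ 2) :=
        (Tame.const (n := k' + 1) hβ (1 / (2 * (N : ℝ)))).mul hβ t5
      have t7 : Tame (βN (N := N)) (fun ω : Fin (k' + 1) → EN N =>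
          (1 / (2 * (N : ℝ))) * (∑ a, gU (k' + 1) i'.succ e.1 ω a ^ 2) ^ 2 + (N : ℝ) / 2) :=
        t6.add hβ (Tame.const (n := k' + 1) hβ ((N : ℝ) / 2))
      have hle := pathE_mono hβ hζ (k' + 1) 1 hHU t4 t7 (fun ω => by
        set q := ∑ a, gU (k' + 1) i'.succ e.1 ω a ^ 2
        have hN0 : (0 : ℝ) < N := by linarith
        have : (1 / (2 * (N : ℝ))) * q ^ 2 + (N : ℝ) / 2 - q =
            (q - N) ^ 2 / (2 * N) := by
          field_simp
          ring
        have h14 : 0 ≤ (q - N) ^ 2 / (2 * N) := by positivity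
        linarith)
      have hadd := pathE_add hβ hζ (k' + 1) 1 hHU t6 (Tame.const (n := k' + 1) hβ ((N : ℝ) / 2))
      rw [pathE_const hβ hζ (k' + 1) 1 hHU, pathE_mul] at hadd
      have h4 := pathE_gU4 hP (unifA N) hζ (k' + 1) θ (D := 3) (by norm_num) hc i'.succ e.1
      have h15 : 1 / (2 * (N : ℝ)) * pathE (mN P (unifA N)) (ζLB (k' + 1)) (k' + 1) 1
          (HU (k' + 1) θ e.1) (fun ω => (∑ a, gU (k' + 1) i'.succ e.1 ω a ^ 2) ^ 2) ≤
          1 / (2 * (N : ℝ)) * (64 * (2 * ((3 * 3 ^ 2 + 2) * N) ^ 2 + 4)) :=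
        mul_le_mul_of_nonneg_left h4 (by positivity)
      have h16 : 1 / (2 * (N : ℝ)) * (64 * (2 * ((3 * 3 ^ 2 + 2) * N) ^ 2 + 4)) ≤
          32 * (2 * 29 ^ 2 + 4) * N := by
        rw [div_mul_eq_mul_div, div_le_iff₀ (by positivity)]
        nlinarith
      have h17 := hle.trans hadd.le
      show pathE (mN P (unifA N)) (ζLB (k' + 1)) (k' + 1) 1 (HU (k' + 1) θ e.1)
        (fun ω => ∑ a, gU (k' + 1) i'.succ e.1 ω a ^ 2) ≤ _
      linarith
    show ∫ e, wgt (mN P (unifA N)) (ζLB (k' + 1)) (k' + 1) 0 (HN (k' + 1) θ) e *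
        pathE (mN P (unifA N)) (ζLB (k' + 1)) (k' + 1) (0 + 1)
          (fun ω => HN (k' + 1) θ (Fin.cons e ω))
          (fun ω => ∑ a, ((Fin.cons e ω : Fin (k' + 1 + 1) → EN N) i'.succ.castSucc).2.2.1 a ^ 2)
          ∂(mN P (unifA N)) ≤ _
    refine (integral_mono_of_nonneg ?_ (integrable_const ((1 + 32 * (2 * 29 ^ 2 + 4)) * (N : ℝ)))
      (Filter.Eventually.of_forall hstep)).trans ?_
    · refine Filter.Eventually.of_forall fun e => ?_
      refine mul_nonneg (Real.exp_pos _).le ?_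
      have hHc := hH.cons hβ e
      have := (prob_mN hP (unifA N))
      have h20 : Tame (βN (N := N)) (fun ω : Fin (k' + 1) → EN N =>
          ∑ a, ((Fin.cons e ω : Fin (k' + 1 + 1) → EN N) i'.succ.castSucc).2.2.1 a ^ 2) :=
        MomLa_tame_g2 i'.castSucc
      have h21 := pathE_mono hβ hζ (k' + 1) (0 + 1) hHc (Tame.const (n := k' + 1) hβ 0) h20
        (fun ω => by positivity)
      rwa [pathE_const hβ hζ (k' + 1) (0 + 1) hHc] at h21
    · simp

end Crest.Agent.RI
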