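import Crest.Agent.RI.MomUD

/-!
# Row 164, Part 8.3: fourth moments (block rotations)
-/

set_option autoImplicit false

namespace Crest.Agent.RI

open MeasureTheory ProbabilityTheory

variable {N K J k : ℕ}

theorem MomUa_zLB (k : ℕ) : ζLB k 0 = 0 := by
  unfold ζLB
  simp

/-- reduction to the level-0 matrix -/
theorem MomUa_red {P : Measure (ON N)} (hP : HaarO P) (D : Blk) (L : LBd J) (hk : 0 < k) (s : ℝ)
    (x : XI k D.K J → ℝ) (κ : Fin N → Fin D.K) (lab : Fin N → Fin J)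
    (Φ : (Fin (k + 1) → EN N) → ℝ) (Ψ : ON N → (Fin k → EN N) → ℝ)
    (h : ∀ e ω, Φ (Fin.cons e ω) = Ψ e.1 ω) :
    EL P D L k s x κ lab Φ =
      ∫ U, pathE (mN P (unifA N)) (ζLB k) k 1 (HU k (θL D L k s x κ lab) U) (Ψ U) ∂P := by
  have := hP.prob
  have hv : (θL D L k s x κ lab).v 0 = 0 := rfl
  have hc : ∀ l, (θL D L k s x κ lab).c 0 l = 0 := by
    intro l
    simp [θL]
  have h1 : EL P D L k s x κ lab Φ = ∫ e, (fun U : ON N =>
      pathE (mN P (unifA N)) (ζLB k) k 1 (HU k (θL D L k s x κ lab) U) (Ψ U)) e.1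
        ∂(mN P (unifA N)) := by
    show ∫ e, wgt (mN P (unifA N)) (ζLB k) k 0 (HN k (θL D L k s x κ lab)) e *
      pathE (mN P (unifA N)) (ζLB k) k (0 + 1)
        (fun ω => HN k (θL D L k s x κ lab) (Fin.cons e ω)) (fun ω => Φ (Fin.cons e ω))
        ∂(mN P (unifA N)) = _
    refine integral_congr_ae (Filter.Eventually.of_forall fun e => ?_)
    simp only
    have hw : wgt (mN P (unifA N)) (ζLB k) k 0 (HN k (θL D L k s x κ lab)) e = 1 := by
      unfold wgt
      rw [MomUa_zLB, zero_mul, Real.exp_zero]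
    rw [hw, one_mul, zero_add]
    congr 1
    · funext ω
      exact HN_cons_eq k _ hk hv hc e ω
    · funext ω
      exact h e ω
  have h2 := integral_fun_fst (μ := P) (ν := (gvec N).prod ((gvec N).prod (unifA N)))
    (fun U : ON N =>
      pathE (mN P (unifA N)) (ζLB k) k 1 (HU k (θL D L k s x κ lab) U) (Ψ U))
  rw [probReal_univ, one_smul] at h2
  exact h1.trans h2

/-- PROOF: `pathE (k+1) 0` with `ζ_0 = 0` is `∫ pathE k 1 (HU U) dP(U)` (fields of level `0` have coefficient `0`: `HN_cons_eq`), then `tow_y4`. -/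
theorem momU_y4 {P : Measure (ON N)} (hP : HaarO P) (D : Blk) (L : LBd J) (hk : 0 < k) (s : ℝ)
    (x : XI k D.K J → ℝ) (κ : Fin N → Fin D.K) (lab : Fin N → Fin J) {A₀ : ℝ} (ht : Typ A₀ κ lab)
    (b : Fin N) : EL P D L k s x κ lab (fun ω => yv k ω b ^ 4) ≤ 3 * A₀ ^ 2 := by
  rw [MomUa_red hP D L hk s x κ lab (fun ω => yv k ω b ^ 4) (fun U ω => yU k U ω b ^ 4)]
  · exact tow_y4 hP (unifA N) (exps_LB k) k (θL D L k s x κ lab) b (ht.row b)
  · intro e ω
    obtain ⟨k, rfl⟩ : ∃ m, k = m + 1 := ⟨k - 1, by omega⟩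
    have hlast : ∀ e' : EN N, (Fin.cons e' ω : Fin (k + 1 + 1) → EN N) (Fin.last (k + 1)) =
        ω (Fin.last k) := by
      intro e'
      rw [← Fin.succ_last, Fin.cons_succ]
    unfold yU yv
    rw [hlast, hlast]
    rfl

theorem MomUa_gauss {P : Measure (ON N)} (hP : HaarO P) (b : Fin N) :
    ∫ e, (e.2.2.1 b) ^ 4 ∂(mN P (unifA N)) = ∫ t : ℝ, t ^ 4 ∂(gaussianReal 0 1) := by
  have := hP.prob
  unfold mN
  have h1 := integral_fun_snd (μ := P) (ν := (gvec N).prod ((gvec N).prod (unifA N)))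
    (fun z : (Fin N → ℝ) × (Fin N → ℝ) × (Fin N → Bool) => (z.2.1 b) ^ 4)
  have h2 := integral_fun_snd (μ := gvec N) (ν := (gvec N).prod (unifA N))
    (fun z : (Fin N → ℝ) × (Fin N → Bool) => (z.1 b) ^ 4)
  have h3 := integral_fun_fst (μ := gvec N) (ν := unifA N)
    (fun z : (Fin N → ℝ) => (z b) ^ 4)
  rw [h1, h2, h3]
  simp only [probReal_univ, one_smul]
  have h4 : MeasurePreserving (fun x : Fin N → ℝ => x b) (gvec N) (gaussianReal 0 1) := by
    unfold gvec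
    exact measurePreserving_eval _ b
  rw [← h4.map_eq, integral_map h4.measurable.aemeasurable (by fun_prop)]

/-- PROOF: `tow_g4` (levels `i ≥ 1`); for the level `0` the field is a free Gaussian (`E g⁴ = 3`).  `C` depends on `Dm`, `A₀` only. -/
theorem momU_g4 (Dm A₀ : ℝ) (hA : 0 ≤ A₀) : ∃ C : ℝ, 0 ≤ C ∧ ∀ {N J k : ℕ} {P : Measure (ON N)},
    HaarO P → ∀ (D : Blk) (L : LBd J), 0 < k → ∀ (s : ℝ) (x : XI k D.K J → ℝ), COK D Dm s x →
    ∀ (κ : Fin N → Fin D.K) (lab : Fin N → Fin J), Typ A₀ κ lab → ∀ (i : Fin k) (b : Fin N),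
      EL P D L k s x κ lab (fun ω => (ω i.castSucc).2.2.1 b ^ 4) ≤ C := by
  have hG : 0 ≤ ∫ t : ℝ, t ^ 4 ∂(gaussianReal 0 1) := integral_nonneg fun t => by positivity
  refine ⟨(∫ t : ℝ, t ^ 4 ∂(gaussianReal 0 1)) +
    3 * A₀ ^ 2 * (64 * (2 * (3 * (3 : ℝ) ^ 2 + 2) ^ 2 + 4)), by positivity, ?_⟩
  intro N J k P hP D L hk s x hx κ lab ht i b
  have := hP.prob
  have := prob_mN hP (unifA N)
  have hβ := dom_mN hP (unifA N)
  by_cases hi : i.val = 0
  · have hi0 : i.castSucc = 0 := Fin.ext hi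
    rw [hi0]
    have h1 := pathE_level0 hβ (exps_LB k) k 0 (MomUa_zLB k)
      (HN_ham k (θL D L k s x κ lab)) (fun e : EN N => (e.2.2.1 b) ^ 4)
    unfold EL
    rw [h1, MomUa_gauss hP b]
    have : (0 : ℝ) ≤ 3 * A₀ ^ 2 * (64 * (2 * (3 * (3 : ℝ) ^ 2 + 2) ^ 2 + 4)) := by positivity
    linarith
  · rw [MomUa_red hP D L hk s x κ lab (fun ω => (ω i.castSucc).2.2.1 b ^ 4)
      (fun U ω => gU k i U ω b ^ 4)]
    · refine (tow_g4 hP (unifA N) (exps_LB k) k (θL D L k s x κ lab) (D := 3) (by norm_num) ?_ i b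
        (ht.row b)).trans ?_
      · intro j l
        unfold θL
        simp only
        split_ifs with h1 h2
        · simp
        · rw [abs_mul, abs_of_nonneg hx.s0, abs_of_nonneg (hx.x _).1]
          calc s * x _ ≤ 1 * 3 := mul_le_mul hx.s1 (hx.x _).2 (hx.x _).1 (by norm_num)
            _ = 3 := by norm_num
        · simp
      · linarith
    · intro e ω
      obtain ⟨k, rfl⟩ : ∃ m, k = m + 1 := ⟨k - 1, by omega⟩
      obtain ⟨j, rfl⟩ : ∃ j : Fin k, i = j.succ := by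
        refine ⟨⟨i.val - 1, by have := i.2; omega⟩, Fin.ext ?_⟩
        simp only [Fin.val_succ]
        omega
      rfl

end Crest.Agent.RI
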