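import Crest.Agent.RI.MomUa

/-!
# Row 164, Part 8.3: second moments of the local fields (exchangeability of spins)
-/

set_option autoImplicit false

namespace Crest.Agent.RI

open MeasureTheory ProbabilityTheory

variable {N K J k : ℕ}

private theorem MomUb_βN_nonneg (x : EN N) : 0 ≤ βN x :=
  add_nonneg (Finset.sum_nonneg fun _ _ => abs_nonneg _) (Finset.sum_nonneg fun _ _ => abs_nonneg _)

private theorem MomUb_tame_O (a r : Fin N) :
    Tame (βN (N := N)) (fun ω : Fin (k + 1) → EN N => (ω 0).1.1 a r) := by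
  refine ⟨?_, 1, zero_le_one, fun ω => ?_⟩
  · exact (measurable_pi_apply r).comp ((measurable_pi_apply a).comp
      (measurable_subtype_coe.comp (measurable_fst.comp (measurable_pi_apply 0))))
  · have h1 : |(ω 0).1.1 a r| ≤ 1 := IsO.abs_le (ω 0).1.2 a r
    have h2 : 0 ≤ ∑ i, βN (ω i) := Finset.sum_nonneg fun _ _ => MomUb_βN_nonneg _
    have h3 := Real.add_one_le_exp (1 * ∑ i, βN (ω i))
    linarith

private theorem MomUb_tame_yv (a : Fin N) :
    Tame (βN (N := N)) (fun ω : Fin (k + 1) → EN N => yv k ω a) := by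
  refine ⟨measurable_yv k a, N, Nat.cast_nonneg N, fun ω => ?_⟩
  have h1 := abs_yv_le k ω a
  have h2 : 0 ≤ ∑ i, βN (ω i) := Finset.sum_nonneg fun _ _ => MomUb_βN_nonneg _
  have h3 : (1 : ℝ) ≤ Real.exp ((N : ℝ) * ∑ i, βN (ω i)) := Real.one_le_exp (by positivity)
  calc |yv k ω a| ≤ N := h1
    _ = N * 1 := (mul_one _).symm
    _ ≤ _ := mul_le_mul_of_nonneg_left h3 (Nat.cast_nonneg N)

private theorem MomUb_tame_g (i : Fin k) (a : Fin N) :
    Tame (βN (N := N)) (fun ω : Fin (k + 1) → EN N => (ω i.castSucc).2.2.1 a) := by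
  refine ⟨?_, 1, zero_le_one, fun ω => ?_⟩
  · exact (measurable_pi_apply a).comp (measurable_fst.comp (measurable_snd.comp
      (measurable_snd.comp (measurable_pi_apply i.castSucc))))
  · have h1 : |(ω i.castSucc).2.2.1 a| ≤ βN (ω i.castSucc) := by
      have h2 : |(ω i.castSucc).2.2.1 a| ≤ ∑ a, |(ω i.castSucc).2.2.1 a| :=
        Finset.single_le_sum (f := fun a => |(ω i.castSucc).2.2.1 a|) (fun _ _ => abs_nonneg _)
          (Finset.mem_univ a)
      have h3 : 0 ≤ ∑ a, |(ω i.castSucc).2.1 a| := Finset.sum_nonneg fun _ _ => abs_nonneg _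
      unfold βN
      linarith
    have h2 : βN (ω i.castSucc) ≤ ∑ i, βN (ω i) :=
      Finset.single_le_sum (f := fun i => βN (ω i)) (fun _ _ => MomUb_βN_nonneg _)
        (Finset.mem_univ _)
    have h3 := Real.add_one_le_exp (1 * ∑ i, βN (ω i))
    linarith

private theorem MomUb_tame_sum {E : Type} [MeasurableSpace E] {m : Measure E}
    [IsProbabilityMeasure m] {β : E → ℝ}
    (hβ : Dom m β) {n : ℕ} {ι : Type} (s : Finset ι) {f : ι → (Fin n → E) → ℝ}
    (h : ∀ j ∈ s, Tame β (f j)) : Tame β (fun ω => ∑ j ∈ s, f j ω) := by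
  classical
  induction s using Finset.induction_on with
  | empty => simpa using Tame.const (n := n) hβ 0
  | insert a s ha ih =>
    have h1 := Tame.add hβ (h a (Finset.mem_insert_self a s))
      (ih (fun q hq => h q (Finset.mem_insert_of_mem hq)))
    have h2 : (fun ω => ∑ q ∈ insert a s, f q ω) = fun ω => f a ω + ∑ q ∈ s, f q ω := by
      funext ω
      rw [Finset.sum_insert ha]
    rw [h2]
    exact h1

private theorem MomUb_pathE_sum {E : Type} [MeasurableSpace E] {m : Measure E}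
    [IsProbabilityMeasure m] {β : E → ℝ} {ζ : ℕ → ℝ} (hβ : Dom m β) (hζ : Exps ζ) (n i : ℕ)
    {H : (Fin n → E) → ℝ} (hH : Ham β H) {ι : Type} (s : Finset ι) {f : ι → (Fin n → E) → ℝ}
    (h : ∀ j ∈ s, Tame β (f j)) :
    pathE m ζ n i H (fun ω => ∑ j ∈ s, f j ω) = ∑ j ∈ s, pathE m ζ n i H (f j) := by
  classical
  induction s using Finset.induction_on with
  | empty =>
    simp only [Finset.sum_empty]
    exact pathE_const hβ hζ n i hH 0
  | insert a s ha ih =>
    have h2 : (fun ω => ∑ q ∈ insert a s, f q ω) = fun ω => f a ω + ∑ q ∈ s, f q ω := by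
      funext ω
      rw [Finset.sum_insert ha]
    rw [h2, Finset.sum_insert ha, ← ih (fun q hq => h q (Finset.mem_insert_of_mem hq))]
    exact pathE_add hβ hζ n i hH (h a (Finset.mem_insert_self a s))
      (MomUb_tame_sum hβ s (fun q hq => h q (Finset.mem_insert_of_mem hq)))

/-- the orthogonal matrix preserves the norm -/
private theorem MomUb_norm (O : ON N) (v : Fin N → ℝ) :
    ∑ r, (∑ a, O.1 a r * v a) ^ 2 = ∑ a, v a ^ 2 := by
  have hO : IsO O.1 := O.2
  have h := hO.tr.ip_avec v v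
  unfold ip avec atr at h
  simp only [← sq] at h
  exact h

/-- exchangeability: second moment of `Σ_a f(κ a) O_{a r} X_a` -/
private theorem MomUb_gen {P : Measure (ON N)} (hP : HaarO P) (D : Blk) (L : LBd J) (s : ℝ)
    (x : XI k D.K J → ℝ) (κ : Fin N → Fin D.K) (lab : Fin N → Fin J) {A₀ : ℝ} (ht : Typ A₀ κ lab)
    (f : Fin D.K → ℝ) (r : Fin N) (X : Fin N → (Fin (k + 1) → EN N) → ℝ)
    (hX : ∀ a, Tame (βN (N := N)) (X a))
    (hperm : ∀ (π : Equiv.Perm (Fin N)) a ω, X a (fun j => permC π (ω j)) = X a ω) :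
    (N : ℝ) * EL P D L k s x κ lab (fun ω => (∑ a, f (κ a) * (ω 0).1.1 a r * X a ω) ^ 2) ≤
      A₀ * EL P D L k s x κ lab (fun ω => ∑ a, (f (κ a) * X a ω) ^ 2) := by
  classical
  have hN : (0 : ℝ) < N := by
    have : 0 < N := lt_of_le_of_lt (Nat.zero_le _) r.2
    exact_mod_cast this
  have := prob_mN hP (unifA N)
  have hD := dom_mN hP (unifA N)
  have hζ := exps_LB k
  have hH := HN_ham (N := N) k (θL D L k s x κ lab)
  set Z : Fin N → (Fin (k + 1) → EN N) → ℝ :=
    fun r ω => ∑ a, f (κ a) * (ω 0).1.1 a r * X a ω with hZ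
  have hZt : ∀ r, Tame (βN (N := N)) (Z r) := fun r =>
    MomUb_tame_sum hD Finset.univ fun a _ =>
      Tame.mul hD (Tame.mul hD (Tame.const hD (f (κ a))) (MomUb_tame_O a r)) (hX a)
  have hZ2 : ∀ r, Tame (βN (N := N)) (fun ω => Z r ω ^ 2) := fun r => TVar_tame_sq hD (hZt r)
  have hsym : ∀ r', lab r' = lab r → EL P D L k s x κ lab (fun ω => Z r' ω ^ 2) =
      EL P D L k s x κ lab (fun ω => Z r ω ^ 2) := by
    intro r' hr'
    have h1 := EL_permC hP D L s x κ lab (Equiv.swap r r') (hZ2 r).meas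
    have h2 : (fun q => lab ((Equiv.swap r r') q)) = lab := by
      funext q
      by_cases h : q = r
      · rw [h, Equiv.swap_apply_left, hr']
      · by_cases h' : q = r'
        · rw [h', Equiv.swap_apply_right, hr']
        · rw [Equiv.swap_apply_of_ne_of_ne h h']
    rw [h2] at h1
    rw [← h1]
    congr 1
    funext ω
    have h3 : Z r (fun j => permC (Equiv.swap r r') (ω j)) = Z r' ω := by
      simp only [hZ]
      refine Finset.sum_congr rfl fun a _ => ?_
      rw [hperm]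
      have : (permC (Equiv.swap r r') (ω 0)).1.1 a r = (ω 0).1.1 a r' := by
        show (ω 0).1.1 a ((Equiv.swap r r') r) = _
        rw [Equiv.swap_apply_left]
      rw [this]
    rw [h3]
  set c := Finset.univ.filter (fun q => lab q = lab r) with hc
  set e := EL P D L k s x κ lab (fun ω => Z r ω ^ 2) with he
  have he0 : 0 ≤ e := TVar_pathE_nonneg hD hζ (k + 1) 0 hH (hZ2 r) (fun ω => sq_nonneg _)
  have hsum : (c.card : ℝ) * e = EL P D L k s x κ lab (fun ω => ∑ q ∈ c, Z q ω ^ 2) := by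
    have h1 : EL P D L k s x κ lab (fun ω => ∑ q ∈ c, Z q ω ^ 2) =
        ∑ q ∈ c, EL P D L k s x κ lab (fun ω => Z q ω ^ 2) :=
      MomUb_pathE_sum hD hζ (k + 1) 0 hH c (fun q _ => hZ2 q)
    rw [h1, Finset.sum_congr rfl (fun q hq => hsym q (Finset.mem_filter.1 hq).2),
      Finset.sum_const, nsmul_eq_mul]
  have hle : EL P D L k s x κ lab (fun ω => ∑ q ∈ c, Z q ω ^ 2) ≤
      EL P D L k s x κ lab (fun ω => ∑ a, (f (κ a) * X a ω) ^ 2) := by
    refine pathE_mono hD hζ (k + 1) 0 hH (MomUb_tame_sum hD c fun q _ => hZ2 q)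
      (MomUb_tame_sum hD Finset.univ fun a _ =>
        TVar_tame_sq hD (Tame.mul hD (Tame.const hD (f (κ a))) (hX a))) (fun ω => ?_)
    calc ∑ q ∈ c, Z q ω ^ 2 ≤ ∑ q, Z q ω ^ 2 :=
          Finset.sum_le_sum_of_subset_of_nonneg (Finset.subset_univ _)
            (fun _ _ _ => sq_nonneg _)
      _ = ∑ a, (f (κ a) * X a ω) ^ 2 := by
          rw [← MomUb_norm (ω 0).1 (fun a => f (κ a) * X a ω)]
          refine Finset.sum_congr rfl fun q _ => ?_
          congr 1
          simp only [hZ]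
          refine Finset.sum_congr rfl fun a _ => ?_
          ring
  have hcol := ht.col r
  have hA : 0 < A₀ := by
    by_contra h
    have h1 : A₀ * (c.card : ℝ) ≤ 0 :=
      mul_nonpos_of_nonpos_of_nonneg (not_lt.1 h) (Nat.cast_nonneg _)
    have h2 : (N : ℝ) ≤ A₀ * (c.card : ℝ) := hcol
    linarith
  calc (N : ℝ) * e ≤ (A₀ * (c.card : ℝ)) * e := mul_le_mul_of_nonneg_right hcol he0
    _ = A₀ * ((c.card : ℝ) * e) := by ring
    _ ≤ _ := mul_le_mul_of_nonneg_left (hsum.le.trans hle) hA.le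

private theorem MomUb_typ_pos {κ : Fin N → Fin K} {lab : Fin N → Fin J} {A₀ : ℝ}
    (ht : Typ A₀ κ lab) (r : Fin N) : 0 < A₀ := by
  have hN : (0 : ℝ) < N := by
    have : 0 < N := lt_of_le_of_lt (Nat.zero_le _) r.2
    exact_mod_cast this
  by_contra h
  have h1 : A₀ * ((Finset.univ.filter (fun q => lab q = lab r)).card : ℝ) ≤ 0 :=
    mul_nonpos_of_nonpos_of_nonneg (not_lt.1 h) (Nat.cast_nonneg _)
  have h2 := ht.col r
  linarith

/-- second moment of the local fields.  PROOF: `EL_permC` with the transposition of `r` and `r'` (same class, so the classes are unchanged): the expectation of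
`Lf f r ^2` is the same for all `r` in a class; `Σ_r Lf f r² = Σ_a f(κ a)² y_a² ≤ C² N` (`O` orthogonal). -/
theorem momU_L {P : Measure (ON N)} (hP : HaarO P) (D : Blk) (L : LBd J) (s : ℝ)
    (x : XI k D.K J → ℝ) (κ : Fin N → Fin D.K) (lab : Fin N → Fin J) {A₀ : ℝ} (ht : Typ A₀ κ lab)
    (f : Fin D.K → ℝ) {C : ℝ} (hf : ∀ l, |f l| ≤ C) (r : Fin N) :
    EL P D L k s x κ lab (fun ω => Lf κ f r ω ^ 2) ≤ C ^ 2 * A₀ := by
  have hN : (0 : ℝ) < N := by
    have : 0 < N := lt_of_le_of_lt (Nat.zero_le _) r.2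
    exact_mod_cast this
  have := prob_mN hP (unifA N)
  have hD := dom_mN hP (unifA N)
  have hζ := exps_LB k
  have hH := HN_ham (N := N) k (θL D L k s x κ lab)
  have hA := MomUb_typ_pos ht r
  have h1 := MomUb_gen hP D L s x κ lab ht f r (fun a ω => yv k ω a)
    (fun a => MomUb_tame_yv a) (fun π a ω => by rw [yv_permC])
  have h2 : EL P D L k s x κ lab (fun ω => ∑ a, (f (κ a) * yv k ω a) ^ 2) ≤ C ^ 2 * N := by
    have h3 : EL P D L k s x κ lab (fun _ => C ^ 2 * (N : ℝ)) = C ^ 2 * N :=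
      pathE_const hD hζ (k + 1) 0 hH _
    rw [← h3]
    refine pathE_mono hD hζ (k + 1) 0 hH (MomUb_tame_sum hD Finset.univ fun a _ =>
        TVar_tame_sq hD (Tame.mul hD (Tame.const hD (f (κ a))) (MomUb_tame_yv a)))
        (Tame.const hD _) (fun ω => ?_)
    rw [← sum_yv_sq k ω, Finset.mul_sum]
    refine Finset.sum_le_sum fun a _ => ?_
    rw [mul_pow]
    refine mul_le_mul_of_nonneg_right ?_ (sq_nonneg _)
    exact sq_le_sq' (by have := (abs_le.1 (hf (κ a))).1; linarith)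
      ((abs_le.1 (hf (κ a))).2)
  have h4 : (N : ℝ) * EL P D L k s x κ lab (fun ω => Lf κ f r ω ^ 2) ≤ N * (C ^ 2 * A₀) := by
    calc (N : ℝ) * EL P D L k s x κ lab (fun ω => Lf κ f r ω ^ 2) ≤
          A₀ * EL P D L k s x κ lab (fun ω => ∑ a, (f (κ a) * yv k ω a) ^ 2) := h1
      _ ≤ A₀ * (C ^ 2 * N) := mul_le_mul_of_nonneg_left h2 hA.le
      _ = _ := by ring
  exact le_of_mul_le_mul_left h4 hN

/-- same for the fields: `Σ_r Gf f i r² = Σ_a f(κ a)² (g̃^i_a)²`, `momU_g4`. -/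
theorem momU_G (Dm A₀ : ℝ) (hA : 0 ≤ A₀) : ∃ C : ℝ, 0 ≤ C ∧ ∀ {N J k : ℕ} {P : Measure (ON N)},
    HaarO P → ∀ (D : Blk) (L : LBd J), 0 < k → ∀ (s : ℝ) (x : XI k D.K J → ℝ), COK D Dm s x →
    ∀ (κ : Fin N → Fin D.K) (lab : Fin N → Fin J), Typ A₀ κ lab → ∀ (i : Fin k) (r : Fin N)
      (f : Fin D.K → ℝ) (Cf : ℝ), (∀ l, |f l| ≤ Cf) →
      EL P D L k s x κ lab (fun ω => Gf κ f i r ω ^ 2) ≤ C * Cf ^ 2 := by
  obtain ⟨C, hC0, hC⟩ := momU_g4 Dm A₀ hA
  refine ⟨A₀ * (1 + C), by positivity, ?_⟩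
  intro N J k P hP D L hk s x hx κ lab ht i r f Cf hf
  have hN : (0 : ℝ) < N := by
    have : 0 < N := lt_of_le_of_lt (Nat.zero_le _) r.2
    exact_mod_cast this
  have := prob_mN hP (unifA N)
  have hD := dom_mN hP (unifA N)
  have hζ := exps_LB k
  have hH := HN_ham (N := N) k (θL D L k s x κ lab)
  have h1 := MomUb_gen hP D L s x κ lab ht f r (fun a ω => (ω i.castSucc).2.2.1 a)
    (fun a => MomUb_tame_g i a) (fun π a ω => rfl)
  have hg4 : ∀ b, EL P D L k s x κ lab (fun ω => (ω i.castSucc).2.2.1 b ^ 4) ≤ C :=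
    fun b => hC hP D L hk s x hx κ lab ht i b
  have htg : ∀ a : Fin N, Tame (βN (N := N))
      (fun ω : Fin (k + 1) → EN N => (ω i.castSucc).2.2.1 a ^ 4) := by
    intro a
    have h2 := TVar_tame_sq hD (TVar_tame_sq hD (MomUb_tame_g (k := k) i a))
    have h3 : (fun ω : Fin (k + 1) → EN N => (ω i.castSucc).2.2.1 a ^ 4) =
        fun ω => ((ω i.castSucc).2.2.1 a ^ 2) ^ 2 := by
      funext ω; ring
    rw [h3]
    exact h2
  have h2 : EL P D L k s x κ lab (fun ω => ∑ a, (f (κ a) * (ω i.castSucc).2.2.1 a) ^ 2) ≤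
      Cf ^ 2 * (N * (1 + C)) := by
    have h3 : EL P D L k s x κ lab
        (fun ω => ∑ a : Fin N, Cf ^ 2 * (1 + (ω i.castSucc).2.2.1 a ^ 4)) ≤
        Cf ^ 2 * (N * (1 + C)) := by
      have ht1 : ∀ a : Fin N, Tame (βN (N := N))
          (fun ω : Fin (k + 1) → EN N => 1 + (ω i.castSucc).2.2.1 a ^ 4) := fun a =>
        Tame.add hD (Tame.const hD 1) (htg a)
      have e1 : EL P D L k s x κ lab
          (fun ω => ∑ a : Fin N, Cf ^ 2 * (1 + (ω i.castSucc).2.2.1 a ^ 4)) =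
          ∑ a : Fin N, EL P D L k s x κ lab
            (fun ω => Cf ^ 2 * (1 + (ω i.castSucc).2.2.1 a ^ 4)) :=
        MomUb_pathE_sum hD hζ (k + 1) 0 hH Finset.univ
          (fun a _ => TVar_tame_cmul hD _ (ht1 a))
      rw [e1]
      have e2 : ∀ a : Fin N, EL P D L k s x κ lab
            (fun ω => Cf ^ 2 * (1 + (ω i.castSucc).2.2.1 a ^ 4)) ≤ Cf ^ 2 * (1 + C) := by
        intro a
        have e3 : EL P D L k s x κ lab
            (fun ω => Cf ^ 2 * (1 + (ω i.castSucc).2.2.1 a ^ 4)) =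
            Cf ^ 2 * EL P D L k s x κ lab (fun ω => 1 + (ω i.castSucc).2.2.1 a ^ 4) :=
          pathE_mul _ _ _ _ _
        have e4 : EL P D L k s x κ lab (fun ω => 1 + (ω i.castSucc).2.2.1 a ^ 4) =
            EL P D L k s x κ lab (fun _ => 1) +
              EL P D L k s x κ lab (fun ω => (ω i.castSucc).2.2.1 a ^ 4) :=
          pathE_add hD hζ (k + 1) 0 hH (Tame.const hD 1) (htg a)
        have e5 : EL P D L k s x κ lab (fun _ => 1) = 1 := pathE_const hD hζ (k + 1) 0 hH 1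
        rw [e3, e4, e5]
        exact mul_le_mul_of_nonneg_left (by have := hg4 a; linarith) (sq_nonneg _)
      refine (Finset.sum_le_sum fun a _ => e2 a).trans (le_of_eq ?_)
      rw [Finset.sum_const, Finset.card_univ, Fintype.card_fin, nsmul_eq_mul]
      ring
    refine le_trans (pathE_mono hD hζ (k + 1) 0 hH (MomUb_tame_sum hD Finset.univ fun a _ =>
        TVar_tame_sq hD (Tame.mul hD (Tame.const hD (f (κ a))) (MomUb_tame_g i a)))
        (MomUb_tame_sum hD Finset.univ fun a _ => TVar_tame_cmul hD _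
          (Tame.add hD (Tame.const hD 1) (htg a))) (fun ω => ?_)) h3
    refine Finset.sum_le_sum fun a _ => ?_
    rw [mul_pow]
    have h5 : f (κ a) ^ 2 ≤ Cf ^ 2 :=
      sq_le_sq' (by have := (abs_le.1 (hf (κ a))).1; linarith) ((abs_le.1 (hf (κ a))).2)
    have h6 : (ω i.castSucc).2.2.1 a ^ 2 ≤ 1 + (ω i.castSucc).2.2.1 a ^ 4 := by
      nlinarith [sq_nonneg ((ω i.castSucc).2.2.1 a ^ 2 - 1), sq_nonneg ((ω i.castSucc).2.2.1 a)]
    exact mul_le_mul h5 h6 (sq_nonneg _) (sq_nonneg _)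
  have h4 : (N : ℝ) * EL P D L k s x κ lab (fun ω => Gf κ f i r ω ^ 2) ≤
      N * (A₀ * (1 + C) * Cf ^ 2) := by
    calc (N : ℝ) * EL P D L k s x κ lab (fun ω => Gf κ f i r ω ^ 2) ≤
          A₀ * EL P D L k s x κ lab (fun ω => ∑ a, (f (κ a) * (ω i.castSucc).2.2.1 a) ^ 2) := h1
      _ ≤ A₀ * (Cf ^ 2 * (N * (1 + C))) := mul_le_mul_of_nonneg_left h2 hA
      _ = _ := by ring
  exact le_of_mul_le_mul_left h4 hN

end Crest.Agent.RI
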