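import Crest.Agent.RI.MomUD
import Crest.Agent.RI.FlowD

/-!
# Row 164, Part 8.3: the additional field costs a constant factor
-/

set_option autoImplicit false

namespace Crest.Agent.RI

open MeasureTheory ProbabilityTheory

variable {N K J k : ℕ}

private theorem MomUw_mgf (c : ℝ) :
    ∫ g, Real.exp (c * g) ∂(gaussianReal 0 1) = Real.exp (c ^ 2 / 2) := by
  have h := congrFun (mgf_id_gaussianReal (μ := 0) (v := 1)) c
  simp only [mgf, id] at h
  rw [h]
  congr 1
  simp

private theorem MomUw_int_abs (c : ℝ) :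
    Integrable (fun g : ℝ => Real.exp (c * |g|)) (gaussianReal 0 1) :=
  integrable_exp_mul_abs (X := fun x : ℝ => x) (t := c)
    (integrable_exp_mul_gaussianReal c) (integrable_exp_mul_gaussianReal (-c))

private theorem MomUw_abs_le (c : ℝ) :
    ∫ g : ℝ, Real.exp (c * |g|) ∂(gaussianReal 0 1) ≤ 2 * Real.exp (c ^ 2 / 2) := by
  have h1 : ∫ g : ℝ, Real.exp (c * |g|) ∂(gaussianReal 0 1) ≤
      ∫ g : ℝ, (Real.exp (c * g) + Real.exp (-c * g)) ∂(gaussianReal 0 1) := by
    refine integral_mono (MomUw_int_abs c)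
      ((integrable_exp_mul_gaussianReal c).add (integrable_exp_mul_gaussianReal (-c)))
      (fun g => ?_)
    simp only
    rcases abs_cases g with ⟨h, _⟩ | ⟨h, _⟩
    · rw [h]
      have := (Real.exp_pos (-c * g)).le
      linarith
    · rw [h]
      have := (Real.exp_pos (c * g)).le
      have e : c * -g = -c * g := by ring
      rw [e]
      linarith
  rw [integral_add (integrable_exp_mul_gaussianReal c) (integrable_exp_mul_gaussianReal (-c)),
    MomUw_mgf, MomUw_mgf] at h1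
  have e : (-c) ^ 2 = c ^ 2 := by ring
  rw [e] at h1
  linarith

private theorem MomUw_dom : Dom (gaussianReal 0 1) (fun g : ℝ => |g|) :=
  ⟨by fun_prop, fun g => abs_nonneg g, fun c => MomUw_int_abs c⟩

private theorem MomUw_pathE_nonneg {E : Type} [MeasurableSpace E] (m : Measure E) (ζ : ℕ → ℝ) :
    ∀ (n i : ℕ) (H Φ : (Fin n → E) → ℝ), (∀ ω, 0 ≤ Φ ω) → 0 ≤ pathE m ζ n i H Φ := by
  intro n
  induction n with
  | zero => intro i H Φ h; exact h _
  | succ n ih =>
    intro i H Φ h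
    unfold pathE
    refine integral_nonneg fun e => mul_nonneg (wgt_pos _ ζ n i H e).le ?_
    exact ih (i + 1) _ _ (fun ω => h _)

private theorem MomUw_const : Real.exp (2 * 1) * (2 * Real.exp ((1 : ℝ) ^ 2 / 2)) *
    (2 * Real.exp ((2 : ℝ) ^ 2 / 2)) ≤ 400 := by
  have e1 : Real.exp (2 * 1) * (2 * Real.exp ((1 : ℝ) ^ 2 / 2)) * (2 * Real.exp ((2 : ℝ) ^ 2 / 2)) =
      4 * Real.exp (9 / 2) := by
    have : Real.exp (9 / 2) = Real.exp (2 * 1) * Real.exp ((1 : ℝ) ^ 2 / 2) *
        Real.exp ((2 : ℝ) ^ 2 / 2) := by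
      rw [← Real.exp_add, ← Real.exp_add]
      congr 1
      norm_num
    rw [this]
    ring
  rw [e1]
  have h1 : Real.exp (9 / 2) ^ 2 = Real.exp 1 ^ 9 := by
    rw [← Real.exp_nat_mul, ← Real.exp_nat_mul]
    congr 1
    norm_num
  have h2 : Real.exp 1 ^ 9 ≤ 10000 := by
    have h3 := Real.exp_one_lt_d9.le
    have h4 := pow_le_pow_left₀ (Real.exp_pos 1).le h3 9
    refine h4.trans ?_
    norm_num
  have h5 : Real.exp (9 / 2) ^ 2 ≤ 100 ^ 2 := by
    rw [h1]
    refine h2.trans ?_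
    norm_num
  have h6 := (pow_le_pow_iff_left₀ (Real.exp_pos _).le (by norm_num) (by norm_num)).1 h5
  linarith

/-- THE ADDITIONAL FIELD COSTS A CONSTANT FACTOR.  PROOF: `pathE_map` with `T : EN (N+1) × ℝ → EN (N+1)`, `T (x, g) = setM 0 x g` (measure preserving from
`(mN P A) × γ`, `gcoord_setM`); `HN` and `Φ` composed with `T` do not see `g`; `Wf ∘ T = (t + v g_{i0}) σ_0`, `|Wf| ≤ 1 + |g_{i0}|`; `extra_density` with `b = 1`,
`a(g) = |g|`; `∫ exp|g| ≤ 2 e^{1/2}`, `∫ exp(2|g|) ≤ 2 e²`: the constant `e² · 2 e^{1/2} · 2 e² ≤ 400`. -/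
theorem ELW_le {P : Measure (ON (N + 1))} (hP : HaarO P) (D : Blk) (L : LBd J) (s : ℝ)
    (x : XI k D.K J → ℝ) (κ : Fin (N + 1) → Fin D.K) (lab : Fin (N + 1) → Fin J)
    {t v : ℝ} (ht : |t| ≤ 1) (hv0 : 0 ≤ v) (hv1 : v ≤ 1) (i0 : Fin k)
    {Φ : (Fin (k + 1) → EN (N + 1)) → ℝ} (hΦ : Tame (βN (N := N + 1)) Φ) (h0 : ∀ ω, 0 ≤ Φ ω)
    (hg : NoG Φ) : ELW P D L k s x κ lab t v i0 Φ ≤ 400 * EL P D L k s x κ lab Φ := by
  have hPp := hP.prob
  have hm := prob_mN hP (unifA (N + 1))
  have hβ := dom_mN hP (unifA (N + 1))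
  have hβ' := MomUw_dom
  have hζ := exps_LB k
  have hmono : Monotone (ζLB k) := by
    intro i j hij
    unfold ζLB
    refine min_le_min le_rfl ?_
    have : (i : ℝ) ≤ (j : ℝ) := by exact_mod_cast hij
    gcongr
  set θ := θL D L k s x κ lab with hθ
  have hH : Ham (βN (N := N + 1)) (HN k θ) := HN_ham k θ
  set T : EN (N + 1) × ℝ → EN (N + 1) := Function.uncurry (setM 0) with hT
  have hgc := gcoord_setM (P := P) (A := unifA (N + 1)) (0 : Fin (N + 1))
  have hTmp : MeasurePreserving T ((mN P (unifA (N + 1))).prod (gaussianReal 0 1))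
      (mN P (unifA (N + 1))) := ⟨hgc.sm, hgc.law⟩
  -- composition with `T`
  have e1 : ∀ ω : Fin (k + 1) → EN (N + 1) × ℝ,
      HN k θ (fun j => T (ω j)) = HN k θ (fun j => (ω j).1) := by
    intro ω
    simp [HN, hθ, θL, hT, yv]
    rfl
  have e2 : ∀ ω : Fin (k + 1) → EN (N + 1) × ℝ,
      Φ (fun j => T (ω j)) = Φ (fun j => (ω j).1) := fun ω => hg _ _ fun j => ⟨rfl, rfl⟩
  set W : (Fin (k + 1) → EN (N + 1) × ℝ) → ℝ := fun ω => Wf k t v i0 (fun j => T (ω j)) with hW
  have eW : ∀ ω : Fin (k + 1) → EN (N + 1) × ℝ, W ω =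
      (t + v * (ω i0.castSucc).2) * spin ((ω (Fin.last k)).1.2.2.2 0) := by
    intro ω
    have hTd : ∀ p : EN (N + 1) × ℝ, T p = setM 0 p.1 p.2 := fun p => rfl
    simp only [hW, Wf, cfg, hTd, setM, Function.update_self]
  have hspin : ∀ b : Bool, |spin b| = 1 := by
    intro b
    cases b <;> simp [spin]
  have hWb : ∀ ω, |W ω| ≤ 1 + |(ω i0.castSucc).2| := by
    intro ω
    rw [eW, abs_mul, hspin, mul_one]
    refine (abs_add_le _ _).trans (add_le_add ht ?_)
    rw [abs_mul, abs_of_nonneg hv0]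
    exact mul_le_of_le_one_left (abs_nonneg _) hv1
  have hms : Measurable spin := measurable_of_countable spin
  have hWm : Measurable W := by
    have : W = fun ω => (t + v * (ω i0.castSucc).2) * spin ((ω (Fin.last k)).1.2.2.2 0) :=
      funext eW
    rw [this]
    have a1 : Measurable (fun ω : Fin (k + 1) → EN (N + 1) × ℝ => (ω i0.castSucc).2) :=
      measurable_snd.comp (measurable_pi_apply _)
    have a2 : Measurable (fun ω : Fin (k + 1) → EN (N + 1) × ℝ =>
        (ω (Fin.last k)).1.2.2.2 0) :=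
      (measurable_pi_apply (0 : Fin (N + 1))).comp (measurable_snd.comp (measurable_snd.comp
        (measurable_snd.comp (measurable_fst.comp (measurable_pi_apply _)))))
    exact (measurable_const.add (a1.const_mul v)).mul (hms.comp a2)
  have hWh : Ham (fun p : EN (N + 1) × ℝ => βN p.1 + |p.2|) W := by
    refine ⟨hWm, 1, zero_le_one, fun ω => (hWb ω).trans ?_⟩
    have h1 : βN (ω i0.castSucc).1 + |(ω i0.castSucc).2| ≤ ∑ j, (βN (ω j).1 + |(ω j).2|) :=
      Finset.single_le_sum (f := fun j => βN (ω j).1 + |(ω j).2|)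
        (fun j _ => add_nonneg (hβ.nonneg _) (abs_nonneg _)) (Finset.mem_univ _)
    have h2 := hβ.nonneg (ω i0.castSucc).1
    linarith
  have hHm := hH.meas
  have hWfm : Measurable (fun ω : Fin (k + 1) → EN (N + 1) => HN k θ ω + Wf k t v i0 ω) := by
    refine hHm.add ?_
    unfold Wf cfg
    have a1 : Measurable (fun ω : Fin (k + 1) → EN (N + 1) => (ω i0.castSucc).2.1 0) :=
      (measurable_pi_apply (0 : Fin (N + 1))).comp (measurable_fst.comp (measurable_snd.comp
        (measurable_pi_apply _)))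
    have a2 : Measurable (fun ω : Fin (k + 1) → EN (N + 1) => (ω (Fin.last k)).2.2.2 0) :=
      (measurable_pi_apply (0 : Fin (N + 1))).comp (measurable_snd.comp (measurable_snd.comp
        (measurable_snd.comp (measurable_pi_apply _))))
    exact (measurable_const.add (a1.const_mul v)).mul (hms.comp a2)
  have key : ELW P D L k s x κ lab t v i0 Φ =
      pathE ((mN P (unifA (N + 1))).prod (gaussianReal 0 1)) (ζLB k) (k + 1) 0
        (fun ω => HN k θ (fun j => (ω j).1) + W ω) (fun ω => Φ (fun j => (ω j).1)) := by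
    unfold ELW
    rw [← pathE_map hTmp (k + 1) 0 hWfm hΦ.meas]
    congr 1
    · funext ω
      rw [e1 ω]
    · funext ω
      exact e2 ω
  rw [key]
  have hd := extra_density hβ hβ' hζ hmono (k + 1) 0 i0.castSucc hH hΦ h0 hWh
    (a := fun g : ℝ => |g|) (fun g => abs_nonneg g) (by fun_prop) (c := 1)
    (fun g => by linarith) (b := 1) hWb
  refine hd.trans ?_
  have hE : 0 ≤ pathE (mN P (unifA (N + 1))) (ζLB k) (k + 1) 0 (HN k θ) Φ :=
    MomUw_pathE_nonneg _ _ _ _ _ _ h0
  unfold EL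
  refine mul_le_mul_of_nonneg_right ?_ hE
  refine le_trans ?_ MomUw_const
  have b1 := MomUw_abs_le 1
  have b2 := MomUw_abs_le 2
  simp only [one_mul] at b1
  have c1 : 0 ≤ ∫ g : ℝ, Real.exp |g| ∂(gaussianReal 0 1) :=
    integral_nonneg fun g => (Real.exp_pos _).le
  refine mul_le_mul (mul_le_mul_of_nonneg_left b1 (Real.exp_pos _).le) b2
    (integral_nonneg fun g => (Real.exp_pos _).le) (by positivity)

end Crest.Agent.RI
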