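import Crest.Agent.RI.RBLevel

/-!
# Row 164: the canonical solution `ρ^c_l(p)`, `c^c_l(p)` of the loop equations (helper50)
-/

set_option autoImplicit false

namespace Crest.Agent.RI

open MeasureTheory ProbabilityTheory
open Crest.ProbabilityR.InvariantGlass

variable (D : Blk)

/-- `φ_l(x) = f_l'(D_p(x))`. -/
noncomputable def Blk.phi (p : ℝ → ℝ) (l : Fin D.K) (x : ℝ) : ℝ := D.f' l (deficit p x)

/-- `H_l(x) = ∫_0^x φ_l`. -/
noncomputable def Blk.Hc (p : ℝ → ℝ) (l : Fin D.K) (x : ℝ) : ℝ := ∫ r in (0 : ℝ)..x, D.phi p l r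

/-- `ρ^c_l(s) = ∫_0^{p(s)} f_l'(D_p(r)) dr`. -/
noncomputable def Blk.ρc (p : ℝ → ℝ) (l : Fin D.K) (s : ℝ) : ℝ := D.Hc p l (p s)

/-- `c^c_l = ∫_0^1 f_l'(D_p(r)) dr`. -/
noncomputable def Blk.cc (p : ℝ → ℝ) (l : Fin D.K) : ℝ := D.Hc p l 1

variable {p : ℝ → ℝ}

theorem Blk.phi_continuousOn (hp : IsTrialPath p) (l : Fin D.K) :
    ContinuousOn (D.phi p l) (Set.Icc 0 1) :=
  (D.f'_continuousOn l).comp (deficit_cont hp) fun _ hx => (deficit_mem hp hx).1

theorem Blk.phi_nonneg (hp : IsTrialPath p) (l : Fin D.K) {x : ℝ} (hx : x ∈ Set.Icc (0 : ℝ) 1) :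
    0 ≤ D.phi p l x := D.f'_nonneg (deficit_mem hp hx).1 l

theorem Blk.phi_le (hp : IsTrialPath p) (l : Fin D.K) {x : ℝ} (hx : x ∈ Set.Icc (0 : ℝ) 1) :
    D.phi p l x ≤ 1 := D.f'_le_one (deficit_mem hp hx).1 l

theorem Blk.phi_ii (hp : IsTrialPath p) (l : Fin D.K) {a b : ℝ} (ha : a ∈ Set.Icc (0 : ℝ) 1)
    (hb : b ∈ Set.Icc (0 : ℝ) 1) : IntervalIntegrable (D.phi p l) volume a b := by
  apply ContinuousOn.intervalIntegrable
  refine (D.phi_continuousOn hp l).mono ?_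
  exact Set.uIcc_subset_Icc ha hb

theorem Blk.phi_integrableOn (hp : IsTrialPath p) (l : Fin D.K) :
    IntegrableOn (D.phi p l) (Set.Ioo (0 : ℝ) 1) :=
  ((D.phi_continuousOn hp l).integrableOn_Icc).mono_set Set.Ioo_subset_Icc_self

theorem Blk.Hc_mono (hp : IsTrialPath p) (l : Fin D.K) : MonotoneOn (D.Hc p l) (Set.Icc 0 1) := by
  intro x hx y hy hxy
  unfold Blk.Hc
  rw [← intervalIntegral.integral_add_adjacent_intervals
    (D.phi_ii hp l ⟨le_rfl, zero_le_one⟩ hx) (D.phi_ii hp l hx hy)]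
  have : 0 ≤ ∫ r in x..y, D.phi p l r := intervalIntegral.integral_nonneg hxy fun _ ht =>
    D.phi_nonneg hp l ⟨hx.1.trans ht.1, ht.2.trans hy.2⟩
  linarith

theorem Blk.Hc_nonneg (hp : IsTrialPath p) (l : Fin D.K) {x : ℝ} (hx : x ∈ Set.Icc (0 : ℝ) 1) :
    0 ≤ D.Hc p l x :=
  intervalIntegral.integral_nonneg hx.1 fun t ht =>
    D.phi_nonneg hp l ⟨ht.1, ht.2.trans hx.2⟩

theorem Blk.Hc_le (hp : IsTrialPath p) (l : Fin D.K) {x : ℝ} (hx : x ∈ Set.Icc (0 : ℝ) 1) :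
    D.Hc p l x ≤ x := by
  have h1 : ∫ _r in (0 : ℝ)..x, (1 : ℝ) = x := by simp
  calc D.Hc p l x ≤ ∫ _r in (0 : ℝ)..x, (1 : ℝ) := by
        refine intervalIntegral.integral_mono_on hx.1 (D.phi_ii hp l ⟨le_rfl, zero_le_one⟩ hx)
          intervalIntegrable_const fun t ht => D.phi_le hp l ⟨ht.1, ht.2.trans hx.2⟩
    _ = x := h1

theorem Blk.sum_Hc (hp : IsTrialPath p) {x : ℝ} (hx : x ∈ Set.Icc (0 : ℝ) 1) :
    ∑ l, D.Hc p l x = x := by
  unfold Blk.Hc
  rw [← intervalIntegral.integral_finsetSum fun l _ => D.phi_ii hp l ⟨le_rfl, zero_le_one⟩ hx]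
  have h1 : ∫ r in (0 : ℝ)..x, ∑ l, D.phi p l r = ∫ _r in (0 : ℝ)..x, (1 : ℝ) := by
    refine intervalIntegral.integral_congr fun t ht => ?_
    rw [Set.uIcc_of_le hx.1] at ht
    exact D.sum_f' (deficit_mem hp ⟨ht.1, ht.2.trans hx.2⟩).1
  rw [h1]
  simp

theorem Blk.Hc_continuousOn (hp : IsTrialPath p) (l : Fin D.K) :
    ContinuousOn (D.Hc p l) (Set.Icc 0 1) := by
  have h := intervalIntegral.continuousOn_primitive_interval (μ := volume) (a := 0) (b := 1)
    (f := D.phi p l) (by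
      rw [Set.uIcc_of_le zero_le_one]
      exact (D.phi_continuousOn hp l).integrableOn_Icc)
  rwa [Set.uIcc_of_le zero_le_one] at h

theorem Blk.Hc_hasDerivAt (hp : IsTrialPath p) (l : Fin D.K) {x : ℝ}
    (hx : x ∈ Set.Ioo (0 : ℝ) 1) : HasDerivAt (D.Hc p l) (D.phi p l x) x := by
  have hx' : x ∈ Set.Icc (0 : ℝ) 1 := ⟨hx.1.le, hx.2.le⟩
  refine intervalIntegral.integral_hasDerivAt_right (D.phi_ii hp l ⟨le_rfl, zero_le_one⟩ hx') ?_ ?_
  · exact (D.phi_continuousOn hp l).stronglyMeasurableAtFilter_nhdsWithin measurableSet_Icc x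
      |>.filter_mono (by rw [nhdsWithin_eq_nhds.2 (Icc_mem_nhds hx.1 hx.2)])
  · exact (D.phi_continuousOn hp l).continuousAt (Icc_mem_nhds hx.1 hx.2)

/-! ### basic properties -/

theorem trial_mem (hp : IsTrialPath p) {s : ℝ} (hs : s ∈ Set.Ioo (0 : ℝ) 1) :
    p s ∈ Set.Icc (0 : ℝ) 1 := hp.2.2 s hs

theorem Blk.ρc_nonneg (hp : IsTrialPath p) (l : Fin D.K) {s : ℝ} (hs : s ∈ Set.Ioo (0 : ℝ) 1) :
    0 ≤ D.ρc p l s := D.Hc_nonneg hp l (trial_mem hp hs)

theorem Blk.ρc_le_one (hp : IsTrialPath p) (l : Fin D.K) {s : ℝ} (hs : s ∈ Set.Ioo (0 : ℝ) 1) :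
    D.ρc p l s ≤ 1 := (D.Hc_le hp l (trial_mem hp hs)).trans (trial_mem hp hs).2

theorem Blk.ρc_mono (hp : IsTrialPath p) (l : Fin D.K) : MonotoneOn (D.ρc p l) (Set.Ioo 0 1) :=
  fun _ hs _ ht hst => D.Hc_mono hp l (trial_mem hp hs) (trial_mem hp ht) (hp.2.1 hs ht hst)

theorem Blk.sum_ρc (hp : IsTrialPath p) {s : ℝ} (hs : s ∈ Set.Ioo (0 : ℝ) 1) :
    ∑ l, D.ρc p l s = p s := D.sum_Hc hp (trial_mem hp hs)

theorem Blk.sum_cc (hp : IsTrialPath p) : ∑ l, D.cc p l = 1 :=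
  D.sum_Hc hp ⟨zero_le_one, le_rfl⟩

theorem Blk.cc_nonneg (hp : IsTrialPath p) (l : Fin D.K) : 0 ≤ D.cc p l :=
  D.Hc_nonneg hp l ⟨zero_le_one, le_rfl⟩

theorem Blk.cc_le_one (hp : IsTrialPath p) (l : Fin D.K) : D.cc p l ≤ 1 :=
  D.Hc_le hp l ⟨zero_le_one, le_rfl⟩

/-- `Σ d_l c^c_l = ∫ Θ(D_p)`. -/
theorem Blk.sum_d_cc (hp : IsTrialPath p) :
    ∑ l, D.d l * D.cc p l = ∫ r in Set.Ioo (0 : ℝ) 1, D.Θ (deficit p r) := by
  unfold Blk.cc Blk.Hc Blk.Θ
  rw [integral_finsetSum]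
  · refine Finset.sum_congr rfl fun l _ => ?_
    rw [integral_const_mul, intervalIntegral.integral_of_le zero_le_one,
      integral_Ioc_eq_integral_Ioo]
    rfl
  · intro l _
    exact (D.phi_integrableOn hp l).const_mul _

/-- A monotone function on `(0,1)` is a.e. measurable / integrable. -/
theorem Blk.ρc_integrableOn (hp : IsTrialPath p) (l : Fin D.K) :
    IntegrableOn (D.ρc p l) (Set.Ioo (0 : ℝ) 1) := by
  have hm : AEMeasurable (D.ρc p l) (volume.restrict (Set.Ioo (0 : ℝ) 1)) :=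
    aemeasurable_restrict_of_monotoneOn measurableSet_Ioo (D.ρc_mono hp l)
  refine Integrable.of_bound hm.aestronglyMeasurable 1 ?_
  refine (ae_restrict_iff' measurableSet_Ioo).2 (Filter.Eventually.of_forall fun u hu => ?_)
  rw [Real.norm_eq_abs, abs_of_nonneg (D.ρc_nonneg hp l hu)]
  exact D.ρc_le_one hp l hu

/-! ### the FTC identity -/

/-- `∫_a^1 f_l'(D_p) w_p = f_l(D_p(a))`. -/
theorem Blk.integral_phi_wp (hp : IsTrialPath p) (l : Fin D.K) {a : ℝ}
    (ha : a ∈ Set.Icc (0 : ℝ) 1) :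
    ∫ x in a..1, D.phi p l x * wp p x = D.f l (deficit p a) := by
  have hf0 : D.f l 0 = 0 := by unfold Blk.f; simp
  rcases deficit_pos_or hp with h | h
  · have hii : IntervalIntegrable (fun x => D.phi p l x * wp p x) volume a 1 :=
      (wp_intervalIntegrable p a 1).continuousOn_mul
        ((D.phi_continuousOn hp l).mono (Set.uIcc_subset_Icc ha ⟨zero_le_one, le_rfl⟩))
    have h1 := integral_eq_of_hasDerivAt_off_countable_of_le
      (fun x => -(D.f l (deficit p x))) (fun x => D.phi p l x * wp p x) ha.2 (wp_countable p)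
      (((D.f_continuousOn l).comp (deficit_cont hp) fun _ hx => (deficit_mem hp hx).1).mono
        (Set.Icc_subset_Icc_left ha.1)).neg
      (by
        intro x hx
        have hx0 : x ∈ Set.Ioo (0 : ℝ) 1 := ⟨lt_of_le_of_lt ha.1 hx.1.1, hx.1.2⟩
        have hc : ContinuousAt (wp p) x := by
          by_contra hc
          exact hx.2 hc
        have h2 := deficit_hasDerivAt hp hx0 hc
        have h3 := D.f_hasDerivAt (h x ⟨hx0.1.le, hx0.2⟩) l
        have h4 := (h3.comp x h2).neg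
        have e : -(D.f' l (deficit p x) * -(wp p x)) = D.phi p l x * wp p x := by
          unfold Blk.phi; ring
        rw [e] at h4
        exact h4) hii
    rw [h1, deficit_one hp, hf0]
    ring
  · have h1 : ∫ x in a..1, D.phi p l x * wp p x = 0 := by
      rw [intervalIntegral.integral_of_le ha.2, integral_Ioc_eq_integral_Ioo]
      refine setIntegral_eq_zero_of_forall_eq_zero fun x hx => ?_
      rw [h x hx.2, mul_zero]
    have h2 : deficit p a = 0 := by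
      rw [deficit_eq hp ha, intervalIntegral.integral_of_le ha.2, integral_Ioc_eq_integral_Ioo]
      exact setIntegral_eq_zero_of_forall_eq_zero fun x hx => h x hx.2
    rw [h1, h2, hf0]

theorem Blk.ρc_eq (hp : IsTrialPath p) (l : Fin D.K) {u : ℝ} (hu : u ∈ Set.Ioo (0 : ℝ) 1) :
    D.ρc p l u = ∫ x in Set.Ioo 0 (p u), D.phi p l x := by
  unfold Blk.ρc Blk.Hc
  rw [intervalIntegral.integral_of_le (trial_mem hp hu).1, integral_Ioc_eq_integral_Ioo]

theorem Blk.cc_eq (l : Fin D.K) : D.cc p l = ∫ x in Set.Ioo (0 : ℝ) 1, D.phi p l x := by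
  unfold Blk.cc Blk.Hc
  rw [intervalIntegral.integral_of_le zero_le_one, integral_Ioc_eq_integral_Ioo]

theorem mul_msp_integrableOn (s : ℝ) {φ : ℝ → ℝ} (hφ : IntegrableOn φ (Set.Ioo (0 : ℝ) 1)) :
    IntegrableOn (fun x => φ x * msp p s x) (Set.Ioo (0 : ℝ) 1) := by
  refine Integrable.mul_bdd (c := volume.real (Set.Ioo s 1)) hφ
    (msp_measurable p s).aestronglyMeasurable ?_
  refine Filter.Eventually.of_forall fun x => ?_
  rw [Real.norm_eq_abs, abs_of_nonneg (msp_nonneg p s x)]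
  exact measureReal_mono (Set.sep_subset _ _) (by simp)

/-- `A^c_l(s) = c^c_l - ∫_s^1 ρ^c_l = ∫_0^1 φ_l (1 - m_s)`. -/
theorem Blk.Ac_eq (hp : IsTrialPath p) (l : Fin D.K) {s : ℝ} (hs : 0 ≤ s) :
    D.cc p l - ∫ u in Set.Ioo s 1, D.ρc p l u =
      ∫ x in Set.Ioo (0 : ℝ) 1, D.phi p l x * (1 - msp p s x) := by
  have h1 : ∫ u in Set.Ioo s 1, D.ρc p l u = ∫ x in Set.Ioo (0 : ℝ) 1, D.phi p l x * msp p s x := by
    rw [← fubini_level hp hs (D.phi_integrableOn hp l)]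
    refine setIntegral_congr_fun measurableSet_Ioo fun u hu => ?_
    exact D.ρc_eq hp l ⟨lt_of_le_of_lt hs hu.1, hu.2⟩
  rw [h1, D.cc_eq, ← integral_sub (D.phi_integrableOn hp l)
    (mul_msp_integrableOn s (D.phi_integrableOn hp l))]
  refine integral_congr_ae (Filter.Eventually.of_forall fun x => ?_)
  dsimp only
  ring

/-- at `s = 0` -/
theorem Blk.Ac_zero (hp : IsTrialPath p) (l : Fin D.K) :
    D.cc p l - ∫ u in Set.Ioo (0 : ℝ) 1, D.ρc p l u = D.f l (deficit p 0) := by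
  rw [D.Ac_eq hp l le_rfl, ← D.integral_phi_wp hp l ⟨le_rfl, zero_le_one⟩,
    intervalIntegral.integral_of_le zero_le_one, integral_Ioc_eq_integral_Ioo]
  rfl

/-- `λ^c_l(s) = f_l(D_p(p(s)))`. -/
theorem Blk.lam_c (hp : IsTrialPath p) (l : Fin D.K) {s : ℝ} (hs : s ∈ Set.Ioo (0 : ℝ) 1) :
    D.cc p l - (∫ u in Set.Ioo s 1, D.ρc p l u) - s * D.ρc p l s =
      D.f l (deficit p (p s)) := by
  have hps := trial_mem hp hs
  rw [D.Ac_eq hp l hs.1.le]
  -- split at `p s`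
  have hint : IntegrableOn (fun x => D.phi p l x * (1 - msp p s x)) (Set.Ioo (0 : ℝ) 1) := by
    have h := (D.phi_integrableOn hp l).sub
      (mul_msp_integrableOn (p := p) s (D.phi_integrableOn hp l))
    refine h.congr (Filter.Eventually.of_forall fun x => ?_)
    simp only [Pi.sub_apply]
    ring
  have hii : ∀ a b : ℝ, 0 ≤ a → a ≤ b → b ≤ 1 →
      IntervalIntegrable (fun x => D.phi p l x * (1 - msp p s x)) volume a b := by
    intro a b ha hab hb
    rw [intervalIntegrable_iff_integrableOn_Ioo_of_le hab]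
    exact hint.mono_set (Set.Ioo_subset_Ioo ha hb)
  have h1 : ∫ x in Set.Ioo (0 : ℝ) 1, D.phi p l x * (1 - msp p s x) =
      (∫ x in (0 : ℝ)..(p s), D.phi p l x * (1 - msp p s x)) +
        ∫ x in (p s)..1, D.phi p l x * (1 - msp p s x) := by
    rw [intervalIntegral.integral_add_adjacent_intervals (hii _ _ le_rfl hps.1 hps.2)
      (hii _ _ hps.1 hps.2 le_rfl), intervalIntegral.integral_of_le zero_le_one,
      integral_Ioc_eq_integral_Ioo]
  have h2 : ∫ x in (0 : ℝ)..(p s), D.phi p l x * (1 - msp p s x) = s * D.ρc p l s := by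
    unfold Blk.ρc Blk.Hc
    rw [← intervalIntegral.integral_const_mul, intervalIntegral.integral_of_le hps.1,
      intervalIntegral.integral_of_le hps.1, integral_Ioc_eq_integral_Ioo,
      integral_Ioc_eq_integral_Ioo]
    refine setIntegral_congr_fun measurableSet_Ioo fun x hx => ?_
    rw [msp_of_lt hp hs hx.2]
    ring
  have h3 : ∫ x in (p s)..1, D.phi p l x * (1 - msp p s x) = D.f l (deficit p (p s)) := by
    rw [← D.integral_phi_wp hp l hps, intervalIntegral.integral_of_le hps.2,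
      intervalIntegral.integral_of_le hps.2, integral_Ioc_eq_integral_Ioo,
      integral_Ioc_eq_integral_Ioo]
    refine setIntegral_congr_fun measurableSet_Ioo fun x hx => ?_
    rw [msp_of_ge hp hs hx.1.le]
    rfl
  rw [h1, h2, h3]
  ring

end Crest.Agent.RI
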