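import Crest.Agent.RI.RBCan
import Crest.Agent.RI.UBDefs

/-!
# Row 164: the canonical solution satisfies `D = 0` (helper50)
-/

set_option autoImplicit false

namespace Crest.Agent.RI

open MeasureTheory ProbabilityTheory
open Crest.ProbabilityR.InvariantGlass

variable (D : Blk) {p : ℝ → ℝ}

/-- derivative form of the closure equations -/
theorem Blk.deriv_identity {x : ℝ} (hx : 0 ≤ x) (l l' : Fin D.K) :
    D.α l * D.f' l' x - D.α l' * D.f' l x +
      (D.d l - D.d l') * (D.f l x * D.f' l' x + D.f l' x * D.f' l x) = 0 := by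
  have hV := D.V_pos hx l
  have hV' := D.V_pos hx l'
  have hg : 0 < D.W x := by linarith [D.W_ge_one hx]
  rw [D.f_eq hx, D.f_eq hx, D.f'_eq hx, D.f'_eq hx]
  set g := D.W x with hg'
  have hVV : D.V l x - D.V l' x = -(x * (D.d l - D.d l')) := by
    unfold Blk.V; ring
  have key : D.V l x ^ 2 - D.V l' x ^ 2 + (D.d l - D.d l') * x * (D.V l x + D.V l' x) = 0 := by
    have : D.V l x ^ 2 - D.V l' x ^ 2 = (D.V l x - D.V l' x) * (D.V l x + D.V l' x) := by ring
    rw [this, hVV]; ring
  have e : D.α l * (D.α l' / D.V l' x ^ 2 / g) - D.α l' * (D.α l / D.V l x ^ 2 / g) +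
      (D.d l - D.d l') * (D.α l * x / D.V l x * (D.α l' / D.V l' x ^ 2 / g) +
        D.α l' * x / D.V l' x * (D.α l / D.V l x ^ 2 / g)) =
      D.α l * D.α l' / (g * D.V l x ^ 2 * D.V l' x ^ 2) *
        (D.V l x ^ 2 - D.V l' x ^ 2 + (D.d l - D.d l') * x * (D.V l x + D.V l' x)) := by
    field_simp
  rw [e, key, mul_zero]

/-- `∫ w φ_l H_{l'} = ∫ f_l(D_p) φ_{l'}` -/
theorem Blk.ibp_c (hp : IsTrialPath p) (l l' : Fin D.K) :
    ∫ x in (0 : ℝ)..1, wp p x * (D.phi p l x * D.Hc p l' x) =
      ∫ x in (0 : ℝ)..1, D.f l (deficit p x) * D.phi p l' x := by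
  have hf0 : D.f l 0 = 0 := by unfold Blk.f; simp
  have hcφ := D.phi_continuousOn hp l
  have hcφ' := D.phi_continuousOn hp l'
  have hcH := D.Hc_continuousOn hp l'
  have hcK : ContinuousOn (fun x => D.f l (deficit p x)) (Set.Icc 0 1) :=
    (D.f_continuousOn l).comp (deficit_cont hp) fun _ hx => (deficit_mem hp hx).1
  have hu : Set.uIcc (0 : ℝ) 1 = Set.Icc 0 1 := Set.uIcc_of_le zero_le_one
  have hi1 : IntervalIntegrable (fun x => wp p x * (D.phi p l x * D.Hc p l' x)) volume 0 1 :=
    (wp_intervalIntegrable p 0 1).mul_continuousOn (by rw [hu]; exact hcφ.mul hcH)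
  have hi2 : IntervalIntegrable (fun x => D.f l (deficit p x) * D.phi p l' x) volume 0 1 := by
    apply ContinuousOn.intervalIntegrable
    rw [hu]
    exact hcK.mul hcφ'
  rcases deficit_pos_or hp with h | h
  · have h1 := integral_eq_of_hasDerivAt_off_countable_of_le
      (fun x => D.f l (deficit p x) * D.Hc p l' x)
      (fun x => D.f l (deficit p x) * D.phi p l' x - wp p x * (D.phi p l x * D.Hc p l' x))
      zero_le_one (wp_countable p) (hcK.mul hcH)
      (by
        intro x hx
        have hc : ContinuousAt (wp p) x := by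
          by_contra hc
          exact hx.2 hc
        have h2 := deficit_hasDerivAt hp hx.1 hc
        have h3 := (D.f_hasDerivAt (h x ⟨hx.1.1.le, hx.1.2⟩) l).comp x h2
        have h4 := h3.mul (D.Hc_hasDerivAt hp l' hx.1)
        refine h4.congr_deriv ?_
        unfold Blk.phi
        simp only [Function.comp_apply]
        ring) (hi2.sub hi1)
    rw [intervalIntegral.integral_sub hi2 hi1] at h1
    have e1 : D.f l (deficit p 1) = 0 := by rw [deficit_one hp, hf0]
    have e2 : D.Hc p l' 0 = 0 := by unfold Blk.Hc; simp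
    rw [e1, e2] at h1
    linarith
  · have h1 : ∫ x in (0 : ℝ)..1, wp p x * (D.phi p l x * D.Hc p l' x) = 0 := by
      rw [intervalIntegral.integral_of_le zero_le_one, integral_Ioc_eq_integral_Ioo]
      refine setIntegral_eq_zero_of_forall_eq_zero fun x hx => ?_
      rw [h x hx.2, zero_mul]
    have h2 : ∫ x in (0 : ℝ)..1, D.f l (deficit p x) * D.phi p l' x = 0 := by
      rw [intervalIntegral.integral_of_le zero_le_one, integral_Ioc_eq_integral_Ioo]
      refine setIntegral_eq_zero_of_forall_eq_zero fun x hx => ?_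
      have h3 : deficit p x = 0 := by
        rw [deficit_eq hp ⟨hx.1.le, hx.2.le⟩, intervalIntegral.integral_of_le hx.2.le,
          integral_Ioc_eq_integral_Ioo]
        exact setIntegral_eq_zero_of_forall_eq_zero fun y hy => h y hy.2
      rw [h3, hf0, zero_mul]
    rw [h1, h2]

/-- `H_l(x) H_{l'}(x) = ∫_0^x (φ_l H_{l'} + H_l φ_{l'})` -/
theorem Blk.Hc_mul (hp : IsTrialPath p) (l l' : Fin D.K) {x : ℝ} (hx : x ∈ Set.Icc (0 : ℝ) 1) :
    D.Hc p l x * D.Hc p l' x =
      ∫ r in (0 : ℝ)..x, (D.phi p l r * D.Hc p l' r + D.Hc p l r * D.phi p l' r) := by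
  have hsub : Set.Icc (0 : ℝ) x ⊆ Set.Icc 0 1 := Set.Icc_subset_Icc_right hx.2
  have hc : ContinuousOn (fun r => D.phi p l r * D.Hc p l' r + D.Hc p l r * D.phi p l' r)
      (Set.Icc 0 1) :=
    ((D.phi_continuousOn hp l).mul (D.Hc_continuousOn hp l')).add
      ((D.Hc_continuousOn hp l).mul (D.phi_continuousOn hp l'))
  have h1 := intervalIntegral.integral_eq_sub_of_hasDerivAt_of_le hx.1
    (f := fun r => D.Hc p l r * D.Hc p l' r)
    (f' := fun r => D.phi p l r * D.Hc p l' r + D.Hc p l r * D.phi p l' r)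
    (((D.Hc_continuousOn hp l).mul (D.Hc_continuousOn hp l')).mono hsub)
    (by
      intro r hr
      have hr' : r ∈ Set.Ioo (0 : ℝ) 1 := ⟨hr.1, lt_of_lt_of_le hr.2 hx.2⟩
      exact (D.Hc_hasDerivAt hp l hr').mul (D.Hc_hasDerivAt hp l' hr'))
    (by
      apply ContinuousOn.intervalIntegrable
      rw [Set.uIcc_of_le hx.1]
      exact hc.mono hsub)
  rw [h1]
  have e2 : D.Hc p l 0 = 0 := by unfold Blk.Hc; simp
  rw [e2]
  ring

/-- the canonical solution satisfies `D = 0`. -/
theorem Blk.DF_c (hp : IsTrialPath p) (l l' : Fin D.K) :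
    DF (D.d l - D.d l') (D.α l) (D.α l') (D.cc p l) (D.cc p l') (D.ρc p l) (D.ρc p l') = 0 := by
  unfold DF
  set φ : ℝ → ℝ := fun r => D.phi p l r * D.Hc p l' r + D.Hc p l r * D.phi p l' r with hφ
  have hc : ContinuousOn φ (Set.Icc 0 1) :=
    ((D.phi_continuousOn hp l).mul (D.Hc_continuousOn hp l')).add
      ((D.Hc_continuousOn hp l).mul (D.phi_continuousOn hp l'))
  have hφi : IntegrableOn φ (Set.Ioo (0 : ℝ) 1) :=
    (hc.integrableOn_Icc).mono_set Set.Ioo_subset_Icc_self
  -- `∫ ρ ρ' = ∫ φ (1 - w)`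
  have h1 : ∫ u in Set.Ioo (0 : ℝ) 1, D.ρc p l u * D.ρc p l' u =
      ∫ x in Set.Ioo (0 : ℝ) 1, φ x * msp p 0 x := by
    rw [← fubini_level hp le_rfl hφi]
    refine setIntegral_congr_fun measurableSet_Ioo fun u hu => ?_
    have hpu := trial_mem hp hu
    change D.Hc p l (p u) * D.Hc p l' (p u) = _
    rw [D.Hc_mul hp l l' hpu, intervalIntegral.integral_of_le hpu.1,
      integral_Ioc_eq_integral_Ioo]
  have h2 : D.cc p l * D.cc p l' = ∫ x in Set.Ioo (0 : ℝ) 1, φ x := by
    change D.Hc p l 1 * D.Hc p l' 1 = _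
    rw [D.Hc_mul hp l l' ⟨zero_le_one, le_rfl⟩, intervalIntegral.integral_of_le zero_le_one,
      integral_Ioc_eq_integral_Ioo]
  have h3 : D.cc p l * D.cc p l' - ∫ u in Set.Ioo (0 : ℝ) 1, D.ρc p l u * D.ρc p l' u =
      (∫ x in (0 : ℝ)..1, wp p x * (D.phi p l x * D.Hc p l' x)) +
        ∫ x in (0 : ℝ)..1, wp p x * (D.phi p l' x * D.Hc p l x) := by
    have hu : Set.uIcc (0 : ℝ) 1 = Set.Icc 0 1 := Set.uIcc_of_le zero_le_one
    have hi1 : IntervalIntegrable (fun x => wp p x * (D.phi p l x * D.Hc p l' x)) volume 0 1 :=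
      (wp_intervalIntegrable p 0 1).mul_continuousOn
        (by rw [hu]; exact (D.phi_continuousOn hp l).mul (D.Hc_continuousOn hp l'))
    have hi2 : IntervalIntegrable (fun x => wp p x * (D.phi p l' x * D.Hc p l x)) volume 0 1 :=
      (wp_intervalIntegrable p 0 1).mul_continuousOn
        (by rw [hu]; exact (D.phi_continuousOn hp l').mul (D.Hc_continuousOn hp l))
    rw [h1, h2, ← integral_sub hφi (mul_msp_integrableOn 0 hφi),
      ← intervalIntegral.integral_add hi1 hi2, intervalIntegral.integral_of_le zero_le_one,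
      integral_Ioc_eq_integral_Ioo]
    refine integral_congr_ae (Filter.Eventually.of_forall fun x => ?_)
    dsimp only
    rw [wp_eq]
    ring
  rw [D.ibp_c hp l l', D.ibp_c hp l' l] at h3
  rw [h3]
  have hcK : ∀ l, ContinuousOn (fun x => D.f l (deficit p x)) (Set.Icc 0 1) := fun l =>
    (D.f_continuousOn l).comp (deficit_cont hp) fun _ hx => (deficit_mem hp hx).1
  have hu : Set.uIcc (0 : ℝ) 1 = Set.Icc 0 1 := Set.uIcc_of_le zero_le_one
  have hii : ∀ {g : ℝ → ℝ}, ContinuousOn g (Set.Icc 0 1) → IntervalIntegrable g volume 0 1 := by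
    intro g hg
    apply ContinuousOn.intervalIntegrable
    rwa [hu]
  have j1 : IntervalIntegrable (fun x => D.f l (deficit p x) * D.phi p l' x) volume 0 1 :=
    hii ((hcK l).mul (D.phi_continuousOn hp l'))
  have j2 : IntervalIntegrable (fun x => D.f l' (deficit p x) * D.phi p l x) volume 0 1 :=
    hii ((hcK l').mul (D.phi_continuousOn hp l))
  have j3 := hii (D.phi_continuousOn hp l)
  have j4 := hii (D.phi_continuousOn hp l')
  have k0 : ∫ x in (0 : ℝ)..1, (D.α l * D.phi p l' x - D.α l' * D.phi p l x +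
      (D.d l - D.d l') * (D.f l (deficit p x) * D.phi p l' x +
        D.f l' (deficit p x) * D.phi p l x)) = 0 := by
    rw [intervalIntegral.integral_of_le zero_le_one, integral_Ioc_eq_integral_Ioo]
    refine setIntegral_eq_zero_of_forall_eq_zero fun x hx => ?_
    have := D.deriv_identity (deficit_mem hp ⟨hx.1.le, hx.2.le⟩).1 l l'
    unfold Blk.phi
    linarith
  have k1 : IntervalIntegrable (fun x => D.α l * D.phi p l' x) volume 0 1 := j4.const_mul _
  have k2 : IntervalIntegrable (fun x => D.α l' * D.phi p l x) volume 0 1 := j3.const_mul _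
  have k3 : IntervalIntegrable (fun x => (D.d l - D.d l') * (D.f l (deficit p x) * D.phi p l' x +
        D.f l' (deficit p x) * D.phi p l x)) volume 0 1 := (j1.add j2).const_mul _
  rw [intervalIntegral.integral_add (k1.sub k2) k3, intervalIntegral.integral_sub k1 k2,
    intervalIntegral.integral_const_mul, intervalIntegral.integral_const_mul,
    intervalIntegral.integral_const_mul, intervalIntegral.integral_add j1 j2] at k0
  unfold Blk.cc Blk.Hc
  linarith

end Crest.Agent.RI
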