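import Crest.Agent.RI.RBTheta

/-!
# Row 164: the algebra of the closure equations (helper50)
-/

set_option autoImplicit false

namespace Crest.Agent.RI

open MeasureTheory ProbabilityTheory
open Crest.ProbabilityR.InvariantGlass

variable (D : Blk)

/-- upper bound of `1/V` -/
noncomputable def Blk.kap : ℝ := ∑ l, 1 / D.α l

theorem Blk.kap_nonneg : 0 ≤ D.kap := Finset.sum_nonneg fun l _ => (one_div_pos.2 (D.pos l)).le

theorem Blk.inv_V_le {x : ℝ} (hx : 0 ≤ x) (l : Fin D.K) : 1 / D.V l x ≤ D.kap :=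
  (one_div_le_one_div_of_le (D.pos l) (D.α_le_V hx l)).trans
    (Finset.single_le_sum (f := fun l => 1 / D.α l) (fun l _ => (one_div_pos.2 (D.pos l)).le)
      (Finset.mem_univ l))

/-- the constant of the closure algebra -/
noncomputable def Blk.C0 : ℝ := D.kap * (1 + (1 + 2 * D.M) * (D.K * D.kap)) * D.K

theorem Blk.C0_nonneg : 0 ≤ D.C0 := by
  have h1 := D.M_nonneg
  have h2 := D.kap_nonneg
  unfold Blk.C0
  positivity

/-- abstract linear estimate -/
theorem Blk.lin_est {x : ℝ} (hx : 0 ≤ x) (hx1 : x ≤ 1) {u g Q : Fin D.K → ℝ} {y q : ℝ}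
    (hg : ∀ l, 0 ≤ g l) (hgs : ∑ l, g l = x) (hu : ∑ l, u l = 0)
    (hQ : ∀ l, |Q l| ≤ q) (h : ∀ l, u l * D.V l x = -(Q l + g l * y)) (l : Fin D.K) :
    |u l| ≤ D.kap * (1 + (1 + 2 * D.M) * (D.K * D.kap)) * q := by
  have hM := D.M_nonneg
  have hk := D.kap_nonneg
  have hVp := fun l => D.V_pos hx l
  have hq : 0 ≤ q := (abs_nonneg _).trans (hQ l)
  -- `x |y| ≤ Vmax Σ |Q|/V`
  have h1 : ∀ l, u l = -(Q l / D.V l x) - y * (g l / D.V l x) := by
    intro l
    have := (hVp l).ne'
    field_simp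
    linarith [h l]
  have h2 : y * ∑ l, g l / D.V l x = -∑ l, Q l / D.V l x := by
    have h3 : ∑ l, u l = -(∑ l, Q l / D.V l x) - y * ∑ l, g l / D.V l x := by
      rw [Finset.mul_sum, ← Finset.sum_neg_distrib, ← Finset.sum_sub_distrib]
      exact Finset.sum_congr rfl fun l _ => h1 l
    rw [hu] at h3
    linarith
  have h4 : x / (1 + 2 * D.M) ≤ ∑ l, g l / D.V l x := by
    have e : x / (1 + 2 * D.M) = ∑ l, g l / (1 + 2 * D.M) := by rw [← Finset.sum_div, hgs]
    rw [e]
    refine Finset.sum_le_sum fun l _ => ?_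
    exact div_le_div_of_nonneg_left (hg l) (hVp l) (D.V_le hx hx1 l)
  have h5 : |∑ l, Q l / D.V l x| ≤ D.K * D.kap * q := by
    calc |∑ l, Q l / D.V l x| ≤ ∑ l, |Q l / D.V l x| := Finset.abs_sum_le_sum_abs _ _
      _ ≤ ∑ _l : Fin D.K, D.kap * q := by
          refine Finset.sum_le_sum fun l _ => ?_
          rw [abs_div, abs_of_pos (hVp l), div_eq_mul_one_div, mul_comm]
          exact mul_le_mul (D.inv_V_le hx l) (hQ l) (abs_nonneg _) hk
      _ = D.K * D.kap * q := by
          rw [Finset.sum_const, Finset.card_univ, Fintype.card_fin, nsmul_eq_mul]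
          ring
  have h6 : x * |y| ≤ (1 + 2 * D.M) * (D.K * D.kap * q) := by
    have h7 : |y| * (x / (1 + 2 * D.M)) ≤ D.K * D.kap * q := by
      calc |y| * (x / (1 + 2 * D.M)) ≤ |y| * ∑ l, g l / D.V l x :=
            mul_le_mul_of_nonneg_left h4 (abs_nonneg _)
        _ = |y * ∑ l, g l / D.V l x| := by
            rw [abs_mul, abs_of_nonneg (Finset.sum_nonneg fun l _ => div_nonneg (hg l) (hVp l).le)]
        _ = |∑ l, Q l / D.V l x| := by rw [h2, abs_neg]
        _ ≤ _ := h5
    have h8 : 0 < 1 + 2 * D.M := by linarith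
    calc x * |y| = (1 + 2 * D.M) * (|y| * (x / (1 + 2 * D.M))) := by field_simp
      _ ≤ _ := mul_le_mul_of_nonneg_left h7 h8.le
  have h9 : g l ≤ x := by
    rw [← hgs]
    exact Finset.single_le_sum (fun l _ => hg l) (Finset.mem_univ l)
  have h10 : |u l| ≤ D.kap * (|Q l| + x * |y|) := by
    have e : u l = -((Q l + g l * y) / D.V l x) := by
      have := (hVp l).ne'
      field_simp
      linarith [h l]
    rw [e, abs_neg, abs_div, abs_of_pos (hVp l), div_eq_mul_one_div, mul_comm]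
    refine mul_le_mul (D.inv_V_le hx l) ?_ (abs_nonneg _) hk
    calc |Q l + g l * y| ≤ |Q l| + |g l * y| := abs_add_le _ _
      _ = |Q l| + g l * |y| := by rw [abs_mul, abs_of_nonneg (hg l)]
      _ ≤ |Q l| + x * |y| := by
          have := mul_le_mul_of_nonneg_right h9 (abs_nonneg y)
          linarith
  calc |u l| ≤ D.kap * (|Q l| + x * |y|) := h10
    _ ≤ D.kap * (q + (1 + 2 * D.M) * (D.K * D.kap * q)) := by
        apply mul_le_mul_of_nonneg_left _ hk
        linarith [hQ l]
    _ = _ := by ring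

/-- **(L1)** -/
theorem Blk.L1 {lam a : Fin D.K → ℝ} {π δ : ℝ} (h0 : ∀ l, 0 ≤ lam l) (hx1 : ∑ l, lam l ≤ 1)
    (ha : ∀ l, |a l - D.α l| ≤ δ)
    (hP : ∀ l l', |a l * lam l' - a l' * lam l + (D.d l - D.d l') * (lam l * lam l')| ≤ π)
    (l : Fin D.K) : |lam l - D.f l (∑ m, lam m)| ≤ D.C0 * (π + 2 * δ) := by
  set x := ∑ l, lam l with hx
  have hx0 : 0 ≤ x := Finset.sum_nonneg fun l _ => h0 l
  have hle : ∀ l, lam l ≤ 1 := fun l =>
    (Finset.single_le_sum (fun l _ => h0 l) (Finset.mem_univ l)).trans hx1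
  have hδ : 0 ≤ δ := (abs_nonneg _).trans (ha l)
  set P : Fin D.K → Fin D.K → ℝ := fun l l' =>
    D.α l * lam l' - D.α l' * lam l + (D.d l - D.d l') * (lam l * lam l') with hPd
  have hP' : ∀ l l', |P l l'| ≤ π + 2 * δ := by
    intro l l'
    have e : P l l' = (a l * lam l' - a l' * lam l + (D.d l - D.d l') * (lam l * lam l')) -
        ((a l - D.α l) * lam l' - (a l' - D.α l') * lam l) := by rw [hPd]; ring
    rw [e]
    have b1 : |(a l - D.α l) * lam l'| ≤ δ := by
      rw [abs_mul, abs_of_nonneg (h0 l')]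
      calc |a l - D.α l| * lam l' ≤ δ * 1 := mul_le_mul (ha l) (hle l') (h0 l') hδ
        _ = δ := mul_one δ
    have b2 : |(a l' - D.α l') * lam l| ≤ δ := by
      rw [abs_mul, abs_of_nonneg (h0 l)]
      calc |a l' - D.α l'| * lam l ≤ δ * 1 := mul_le_mul (ha l') (hle l) (h0 l) hδ
        _ = δ := mul_one δ
    calc _ ≤ |a l * lam l' - a l' * lam l + (D.d l - D.d l') * (lam l * lam l')| +
          |(a l - D.α l) * lam l' - (a l' - D.α l') * lam l| := abs_sub _ _
      _ ≤ π + (δ + δ) := by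
          refine add_le_add (hP l l') ((abs_sub _ _).trans (add_le_add b1 b2))
      _ = π + 2 * δ := by ring
  have key := D.lin_est hx0 hx1 (u := fun l => lam l - D.f l x) (g := lam)
    (Q := fun l => ∑ l', P l l') (y := (∑ l, D.d l * lam l) - x * D.R x) (q := D.K * (π + 2 * δ))
    h0 hx.symm (by rw [Finset.sum_sub_distrib, D.sum_f hx0, ← hx, sub_self])
    (by
      intro l
      calc |∑ l', P l l'| ≤ ∑ l', |P l l'| := Finset.abs_sum_le_sum_abs _ _
        _ ≤ ∑ _l' : Fin D.K, (π + 2 * δ) := Finset.sum_le_sum fun l' _ => hP' l l'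
        _ = _ := by rw [Finset.sum_const, Finset.card_univ, Fintype.card_fin, nsmul_eq_mul])
    (by
      intro l
      have hs : ∑ l', P l l' = D.α l * x - lam l + (D.d l * lam l * x - lam l * ∑ l', D.d l' * lam l') := by
        have e1 : ∀ l', P l l' = D.α l * lam l' - D.α l' * lam l + D.d l * lam l * lam l' -
            lam l * (D.d l' * lam l') := by
          intro l'; rw [hPd]; ring
        rw [Finset.sum_congr rfl fun l' _ => e1 l', Finset.sum_sub_distrib, Finset.sum_add_distrib,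
          Finset.sum_sub_distrib, ← Finset.mul_sum, ← Finset.sum_mul, ← Finset.mul_sum,
          ← Finset.mul_sum, D.sum, ← hx]
        ring
      have hfV : D.f l x * D.V l x = D.α l * x := by
        rw [D.f_eq hx0]
        have := (D.V_pos hx0 l).ne'
        field_simp
      rw [sub_mul, hfV, hs]
      unfold Blk.V
      ring) l
  refine key.trans (le_of_eq ?_)
  unfold Blk.C0
  ring

/-- **(L2)** -/
theorem Blk.L2 {x : ℝ} (hx0 : 0 ≤ x) (hx1 : x ≤ 1) {C : Fin D.K → ℝ} {π : ℝ}
    (hC : ∑ l, C l = 0)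
    (hP : ∀ l l', |D.α l * C l' - D.α l' * C l +
      (D.d l - D.d l') * (D.f l x * C l' + C l * D.f l' x)| ≤ π)
    (l : Fin D.K) : |C l| ≤ D.C0 * π := by
  set P : Fin D.K → Fin D.K → ℝ := fun l l' =>
    D.α l * C l' - D.α l' * C l + (D.d l - D.d l') * (D.f l x * C l' + C l * D.f l' x) with hPd
  have key := D.lin_est hx0 hx1 (u := C) (g := fun l => D.f l x)
    (Q := fun l => ∑ l', P l l') (y := ∑ l, D.d l * C l) (q := D.K * π)
    (fun l => D.f_nonneg hx0 l) (D.sum_f hx0) hC
    (by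
      intro l
      calc |∑ l', P l l'| ≤ ∑ l', |P l l'| := Finset.abs_sum_le_sum_abs _ _
        _ ≤ ∑ _l' : Fin D.K, π := Finset.sum_le_sum fun l' _ => hP l l'
        _ = _ := by rw [Finset.sum_const, Finset.card_univ, Fintype.card_fin, nsmul_eq_mul])
    (by
      intro l
      have hs : ∑ l', P l l' = - C l - D.f l x * (∑ l', D.d l' * C l') +
          C l * (D.d l * x - x * D.R x) := by
        have e1 : ∀ l', P l l' = D.α l * C l' - D.α l' * C l + D.d l * D.f l x * C l' -
            D.f l x * (D.d l' * C l') + C l * D.d l * D.f l' x - C l * (D.d l' * D.f l' x) := by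
          intro l'; rw [hPd]; ring
        rw [Finset.sum_congr rfl fun l' _ => e1 l', Finset.sum_sub_distrib, Finset.sum_add_distrib,
          Finset.sum_sub_distrib, Finset.sum_add_distrib, Finset.sum_sub_distrib,
          ← Finset.mul_sum, ← Finset.sum_mul, ← Finset.mul_sum, ← Finset.mul_sum,
          ← Finset.mul_sum, ← Finset.mul_sum, hC, D.sum, D.sum_f hx0, D.sum_d_f hx0]
        ring
      rw [hs]
      unfold Blk.V
      ring) l
  refine key.trans (le_of_eq ?_)
  unfold Blk.C0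
  ring

end Crest.Agent.RI
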