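import Crest.Agent.RI.RBNice
import Crest.Agent.RI.RBCanD
import Crest.Agent.RI.RBClA

/-!
# Row 164: quantitative closure (helper50)
-/

set_option autoImplicit false

namespace Crest.Agent.RI

open MeasureTheory ProbabilityTheory
open Crest.ProbabilityR.InvariantGlass

/-- the hypotheses of the closure theorem -/
structure ClHyp (D : Blk) (δ : ℝ) (ρ : Fin D.K → ℝ → ℝ) (c a : Fin D.K → ℝ) : Prop where
  meas : ∀ l, Measurable (ρ l)
  mono : ∀ l, MonotoneOn (ρ l) (Set.Ioo 0 1)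
  mem : ∀ l, ∀ s ∈ Set.Ioo (0 : ℝ) 1, 0 ≤ ρ l s ∧ ρ l s ≤ 1
  cmem : ∀ l, 0 ≤ c l ∧ c l ≤ 1
  csum : ∑ l, c l = 1
  lam : ∀ l, ∀ s ∈ Set.Ioo (0 : ℝ) 1, 0 ≤ lamF (c l) (ρ l) s
  al : ∀ l, |a l - D.α l| ≤ δ
  dF : ∀ l l', |DF (D.d l - D.d l') (a l) (a l') (c l) (c l') (ρ l) (ρ l')| ≤ δ
  eF : ∀ l l', ∫ s in Set.Ioo (0 : ℝ) 1,
        |eF (D.d l - D.d l') (a l) (a l') (c l) (c l') (ρ l) (ρ l') s| ≤ δ

theorem Nice.lamF {g : ℝ → ℝ} (C : ℝ) (hg : Nice g) : Nice (lamF C g) :=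
  (((Nice.const C).sub hg.prim).sub (Nice.id'.mul hg) :
    Nice fun u => (C - ∫ v in Set.Ioo u 1, g v) - u * g u)

theorem Nice.eF {ρ ρ' : ℝ → ℝ} (τ a a' c c' : ℝ) (hρ : Nice ρ) (hρ' : Nice ρ') :
    Nice (eF τ a a' c c' ρ ρ') :=
  ((((Nice.const a).mul hρ').sub ((Nice.const a').mul hρ)).add
    ((Nice.const τ).mul (((((hρ.lamF c).mul hρ').add ((hρ'.lamF c').mul hρ)).add
      (Nice.id'.mul (hρ.mul hρ'))).sub (hρ.mul hρ').prim0)) :
    Nice fun s => a * ρ' s - a' * ρ s + τ * (Crest.Agent.RI.lamF c ρ s * ρ' s +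
      Crest.Agent.RI.lamF c' ρ' s * ρ s + s * (ρ s * ρ' s) - ∫ u in Set.Ioo 0 s, ρ u * ρ' u))

theorem lamF_sub {g h : ℝ → ℝ} (C C' : ℝ) (hg : Nice g) (hh : Nice h) {s : ℝ} (hs : 0 ≤ s) :
    lamF (C - C') (fun u => g u - h u) s = lamF C g s - lamF C' h s := by
  unfold lamF
  rw [integral_sub (hg.int.mono_set (Set.Ioo_subset_Ioo_left hs))
    (hh.int.mono_set (Set.Ioo_subset_Ioo_left hs))]
  ring

theorem setInt_mono {f g : ℝ → ℝ} (hf : Nice f) (hg : Nice g)
    (h : ∀ s ∈ Set.Ioo (0 : ℝ) 1, f s ≤ g s) :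
    ∫ s in Set.Ioo (0 : ℝ) 1, f s ≤ ∫ s in Set.Ioo (0 : ℝ) 1, g s :=
  setIntegral_mono_on hf.int hg.int measurableSet_Ioo h

theorem setInt_const (c : ℝ) : ∫ _s in Set.Ioo (0 : ℝ) 1, c = c := by
  rw [setIntegral_const, Real.volume_real_Ioo]
  simp

namespace ClHyp

variable {D : Blk} {δ : ℝ} {ρ : Fin D.K → ℝ → ℝ} {c a : Fin D.K → ℝ}

theorem nice (h : ClHyp D δ ρ c a) (l : Fin D.K) : Nice (ρ l) :=
  Nice.of_mono (B := 1) (h.mono l) fun x hx => by
    rw [abs_of_nonneg (h.mem l x hx).1]; exact (h.mem l x hx).2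

theorem p_mono (h : ClHyp D δ ρ c a) : MonotoneOn (fun s => ∑ l, ρ l s) (Set.Ioo 0 1) :=
  fun _ hs _ ht hst => Finset.sum_le_sum fun l _ => h.mono l hs ht hst

theorem sum_lamF (h : ClHyp D δ ρ c a) {s : ℝ} (hs : 0 ≤ s) :
    ∑ l, lamF (c l) (ρ l) s = 1 - (∫ u in Set.Ioo s 1, ∑ l, ρ l u) - s * ∑ l, ρ l s := by
  unfold lamF
  rw [Finset.sum_sub_distrib, Finset.sum_sub_distrib, h.csum,
    integral_finsetSum _ fun l _ => (h.nice l).int.mono_set (Set.Ioo_subset_Ioo_left hs),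
    Finset.mul_sum]

theorem trial (h : ClHyp D δ ρ c a) : IsTrialPath (fun s => ∑ l, ρ l s) := by
  refine ⟨Finset.measurable_sum _ fun l _ => h.meas l, h.p_mono, fun s hs => ?_⟩
  refine ⟨Finset.sum_nonneg fun l _ => (h.mem l s hs).1, ?_⟩
  have h1 : 0 ≤ ∑ l, lamF (c l) (ρ l) s := Finset.sum_nonneg fun l _ => h.lam l s hs
  rw [h.sum_lamF hs.1.le] at h1
  have h2 : ∫ _u in Set.Ioo s 1, ∑ l, ρ l s ≤ ∫ u in Set.Ioo s 1, ∑ l, ρ l u := by
    refine setIntegral_mono_on (integrableOn_const (by simp)) ?_ measurableSet_Ioo fun u hu => ?_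
    · exact (Nice.sum (s := Finset.univ) fun l _ => h.nice l).int.mono_set
        (Set.Ioo_subset_Ioo_left hs.1.le)
    · exact h.p_mono hs ⟨hs.1.trans hu.1, hu.2⟩ hu.1.le
  rw [setIntegral_const, Real.volume_real_Ioo, max_eq_left (by linarith [hs.2]), smul_eq_mul] at h2
  linarith

theorem niceC (h : ClHyp D δ ρ c a) (l : Fin D.K) : Nice (D.ρc (fun s => ∑ l, ρ l s) l) :=
  Nice.of_mono (B := 1) (D.ρc_mono h.trial l) fun x hx => by
    rw [abs_of_nonneg (D.ρc_nonneg h.trial l hx)]; exact D.ρc_le_one h.trial l hx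

theorem lamC (h : ClHyp D δ ρ c a) (l : Fin D.K) {s : ℝ} (hs : s ∈ Set.Ioo (0 : ℝ) 1) :
    lamF (D.cc (fun s => ∑ l, ρ l s) l) (D.ρc (fun s => ∑ l, ρ l s) l) s =
      D.f l (∑ l, lamF (c l) (ρ l) s) := by
  have h1 := fun l => D.lam_c h.trial l hs
  have h2 : ∑ l, lamF (c l) (ρ l) s =
      deficit (fun s => ∑ l, ρ l s) ((fun s => ∑ l, ρ l s) s) := by
    rw [← D.sum_f (deficit_mem h.trial (trial_mem h.trial hs)).1, h.sum_lamF hs.1.le,
      ← Finset.sum_congr rfl fun l _ => h1 l, Finset.sum_sub_distrib, Finset.sum_sub_distrib,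
      D.sum_cc h.trial, ← Finset.mul_sum, D.sum_ρc h.trial hs,
      ← integral_finsetSum _ fun l _ => (h.niceC l).int.mono_set (Set.Ioo_subset_Ioo_left hs.1.le)]
    congr 2
    refine setIntegral_congr_fun measurableSet_Ioo fun u hu => ?_
    exact (D.sum_ρc h.trial ⟨hs.1.trans hu.1, hu.2⟩).symm
  unfold lamF
  rw [h1 l]
  unfold lamF at h2
  rw [h2]

/-- `η_l` -/
theorem eta_le (h : ClHyp D δ ρ c a) (l : Fin D.K) {s : ℝ} (hs : s ∈ Set.Ioo (0 : ℝ) 1) :
    |lamF (c l - D.cc (fun s => ∑ l, ρ l s) l)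
      (fun u => ρ l u - D.ρc (fun s => ∑ l, ρ l s) l u) s| ≤
    D.C0 * (4 * δ + ∑ l, ∑ l', |Crest.Agent.RI.eF (D.d l - D.d l') (a l) (a l') (c l) (c l') (ρ l) (ρ l') s|) := by
  rw [lamF_sub _ _ (h.nice l) (h.niceC l) hs.1.le, h.lamC l hs]
  have hx1 : ∑ l, lamF (c l) (ρ l) s ≤ 1 := by
    rw [h.sum_lamF hs.1.le]
    have h1 : 0 ≤ ∫ u in Set.Ioo s 1, ∑ l, ρ l u :=
      setIntegral_nonneg measurableSet_Ioo fun u hu =>
        (h.trial.2.2 u ⟨hs.1.trans hu.1, hu.2⟩).1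
    have h2 : 0 ≤ s * ∑ l, ρ l s := mul_nonneg hs.1.le (h.trial.2.2 s hs).1
    linarith
  have key := D.L1 (lam := fun l => lamF (c l) (ρ l) s) (a := a)
    (π := 2 * δ + ∑ l, ∑ l', |Crest.Agent.RI.eF (D.d l - D.d l') (a l) (a l') (c l) (c l') (ρ l) (ρ l') s|)
    (δ := δ) (fun l => h.lam l s hs) hx1 h.al
    (by
      intro l l'
      rw [closure_id (D.d l - D.d l') (a l) (a l') (c l) (c l') (h.nice l) (h.nice l') hs]
      have b1 := h.dF l l'
      have b2 := ((h.nice l).eF (D.d l - D.d l') (a l) (a l') (c l) (c l') (h.nice l')).prim_abs_le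
        hs.1.le
      have b3 := h.eF l l'
      have b4 : |s * Crest.Agent.RI.eF (D.d l - D.d l') (a l) (a l') (c l) (c l') (ρ l) (ρ l') s| ≤
          ∑ l, ∑ l', |Crest.Agent.RI.eF (D.d l - D.d l') (a l) (a l') (c l) (c l') (ρ l) (ρ l') s| := by
        rw [abs_mul, abs_of_pos hs.1]
        calc s * |Crest.Agent.RI.eF (D.d l - D.d l') (a l) (a l') (c l) (c l') (ρ l) (ρ l') s| ≤
            1 * |Crest.Agent.RI.eF (D.d l - D.d l') (a l) (a l') (c l) (c l') (ρ l) (ρ l') s| :=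
              mul_le_mul_of_nonneg_right hs.2.le (abs_nonneg _)
          _ = |Crest.Agent.RI.eF (D.d l - D.d l') (a l) (a l') (c l) (c l') (ρ l) (ρ l') s| := one_mul _
          _ ≤ ∑ l', |Crest.Agent.RI.eF (D.d l - D.d l') (a l) (a l') (c l) (c l') (ρ l) (ρ l') s| :=
              Finset.single_le_sum (f := fun l' =>
                |Crest.Agent.RI.eF (D.d l - D.d l') (a l) (a l') (c l) (c l') (ρ l) (ρ l') s|)
                (fun _ _ => abs_nonneg _) (Finset.mem_univ l')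
          _ ≤ _ := Finset.single_le_sum (f := fun l => ∑ l',
                |Crest.Agent.RI.eF (D.d l - D.d l') (a l) (a l') (c l) (c l') (ρ l) (ρ l') s|)
                (fun _ _ => Finset.sum_nonneg fun _ _ => abs_nonneg _) (Finset.mem_univ l)
      refine (abs_sub _ _).trans ?_
      have b5 := abs_sub (DF (D.d l - D.d l') (a l) (a l') (c l) (c l') (ρ l) (ρ l'))
        (∫ u in Set.Ioo s 1,
          Crest.Agent.RI.eF (D.d l - D.d l') (a l) (a l') (c l) (c l') (ρ l) (ρ l') u)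
      linarith) l
  refine key.trans (le_of_eq ?_)
  ring

/-- the constant -/
noncomputable def _root_.Crest.Agent.RI.Blk.C1 (D : Blk) : ℝ := D.C0 * (4 + (D.K : ℝ) ^ 2)

theorem _root_.Crest.Agent.RI.Blk.C1_nonneg (D : Blk) : 0 ≤ D.C1 := by
  have := D.C0_nonneg
  unfold Blk.C1
  positivity

theorem δ_nonneg (h : ClHyp D δ ρ c a) : 0 ≤ δ := by
  obtain ⟨l⟩ := D.nonempty
  exact (abs_nonneg _).trans (h.al l)

theorem eta_int (h : ClHyp D δ ρ c a) (l : Fin D.K) :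
    ∫ s in Set.Ioo (0 : ℝ) 1, |lamF (c l - D.cc (fun s => ∑ l, ρ l s) l)
      (fun u => ρ l u - D.ρc (fun s => ∑ l, ρ l s) l u) s| ≤ D.C1 * δ := by
  have hn : Nice (lamF (c l - D.cc (fun s => ∑ l, ρ l s) l)
      (fun u => ρ l u - D.ρc (fun s => ∑ l, ρ l s) l u)) := ((h.nice l).sub (h.niceC l)).lamF _
  have hE : ∀ l l', Nice fun s =>
      |Crest.Agent.RI.eF (D.d l - D.d l') (a l) (a l') (c l) (c l') (ρ l) (ρ l') s| :=
    fun l l' => ((h.nice l).eF _ _ _ _ _ (h.nice l')).abs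
  have hE' : Nice fun s => ∑ l, ∑ l',
      |Crest.Agent.RI.eF (D.d l - D.d l') (a l) (a l') (c l) (c l') (ρ l) (ρ l') s| :=
    Nice.sum fun l _ => Nice.sum fun l' _ => hE l l'
  calc _ ≤ ∫ s in Set.Ioo (0 : ℝ) 1, D.C0 * (4 * δ + ∑ l, ∑ l',
        |Crest.Agent.RI.eF (D.d l - D.d l') (a l) (a l') (c l) (c l') (ρ l) (ρ l') s|) :=
        setInt_mono hn.abs ((Nice.const _).mul ((Nice.const _).add hE')) fun s hs => h.eta_le l hs
    _ = D.C0 * (4 * δ + ∑ l, ∑ l', ∫ s in Set.Ioo (0 : ℝ) 1,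
        |Crest.Agent.RI.eF (D.d l - D.d l') (a l) (a l') (c l) (c l') (ρ l) (ρ l') s|) := by
        rw [integral_const_mul, integral_add (Nice.const _).int hE'.int, setInt_const,
          integral_finsetSum _ fun l _ =>
            (Nice.sum (s := Finset.univ) fun l' _ => hE l l').int]
        congr 3
        refine funext fun l => ?_
        rw [integral_finsetSum _ fun l' _ => (hE l l').int]
    _ ≤ D.C0 * (4 * δ + ∑ _l : Fin D.K, ∑ _l' : Fin D.K, δ) := by
        apply mul_le_mul_of_nonneg_left _ D.C0_nonneg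
        have : ∑ l, ∑ l', ∫ s in Set.Ioo (0 : ℝ) 1,
            |Crest.Agent.RI.eF (D.d l - D.d l') (a l) (a l') (c l) (c l') (ρ l) (ρ l') s| ≤
            ∑ _l : Fin D.K, ∑ _l' : Fin D.K, δ :=
          Finset.sum_le_sum fun l _ => Finset.sum_le_sum fun l' _ => h.eF l l'
        linarith
    _ = D.C1 * δ := by
        rw [Finset.sum_const, Finset.sum_const, Finset.card_univ, Fintype.card_fin, nsmul_eq_mul,
          nsmul_eq_mul]
        unfold Blk.C1
        ring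

/-- `∫ |ρ_l - ρ^c_l - C_l|` -/
theorem kappa_le (h : ClHyp D δ ρ c a) (l : Fin D.K) {s₀ : ℝ} (hs0 : 0 < s₀) (hs1 : s₀ ≤ 1) :
    ∫ s in Set.Ioo (0 : ℝ) 1, |ρ l s - D.ρc (fun s => ∑ l, ρ l s) l s -
      (c l - D.cc (fun s => ∑ l, ρ l s) l)| ≤ 2 * D.C1 * δ / s₀ ^ 2 + 2 * s₀ := by
  set C := c l - D.cc (fun s => ∑ l, ρ l s) l with hC
  set g : ℝ → ℝ := fun u => ρ l u - D.ρc (fun s => ∑ l, ρ l s) l u with hg
  have hgn : Nice g := (h.nice l).sub (h.niceC l)
  have hη : Nice (lamF C g) := hgn.lamF C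
  have hI := h.eta_int l
  rw [← hC, ← hg] at hI
  have hC1 := D.C1_nonneg
  have hδ := h.δ_nonneg
  have hind : Nice ((Set.Iio s₀).indicator (fun _ => (2 : ℝ))) := by
    have h1 : Nice fun s => -((Set.Iio s₀).indicator (fun _ => (2 : ℝ)) s) := by
      refine Nice.of_mono (B := 2) ?_ ?_
      · intro x _ y _ hxy
        dsimp only
        by_cases hy : y ∈ Set.Iio s₀
        · have hx : x ∈ Set.Iio s₀ := lt_of_le_of_lt hxy hy
          rw [Set.indicator_of_mem hx, Set.indicator_of_mem hy]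
        · rw [Set.indicator_of_notMem hy]
          by_cases hx : x ∈ Set.Iio s₀
          · rw [Set.indicator_of_mem hx]; norm_num
          · rw [Set.indicator_of_notMem hx]
      · intro x _
        by_cases hx : x ∈ Set.Iio s₀
        · rw [Set.indicator_of_mem hx]; norm_num
        · rw [Set.indicator_of_notMem hx]; norm_num
    have h2 := (Nice.const 0).sub h1
    have e : (fun x => (0 : ℝ) - -((Set.Iio s₀).indicator (fun _ => (2 : ℝ)) x)) =
        (Set.Iio s₀).indicator (fun _ => (2 : ℝ)) := by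
      funext x; ring
    rwa [e] at h2
  have hpt : ∀ s ∈ Set.Ioo (0 : ℝ) 1, |g s - C| ≤
      (Set.Iio s₀).indicator (fun _ => (2 : ℝ)) s + (D.C1 * δ / s₀ ^ 2 + (1 / s₀) * |lamF C g s|) := by
    intro s hs
    by_cases hs' : s < s₀
    · rw [Set.indicator_of_mem (show s ∈ Set.Iio s₀ from hs')]
      have b1 : |g s| ≤ 1 := by
        rw [hg]
        dsimp only
        rw [abs_le]
        have := h.mem l s hs
        have := D.ρc_nonneg h.trial l hs
        have := D.ρc_le_one h.trial l hs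
        constructor <;> linarith
      have b2 : |C| ≤ 1 := by
        rw [hC, abs_le]
        have := h.cmem l
        have := D.cc_nonneg h.trial l
        have := D.cc_le_one h.trial l
        constructor <;> linarith
      have b3 := abs_sub (g s) C
      have b4 : 0 ≤ D.C1 * δ / s₀ ^ 2 := by positivity
      have b5 : 0 ≤ (1 / s₀) * |lamF C g s| := by positivity
      linarith
    · push Not at hs'
      rw [Set.indicator_of_notMem (show s ∉ Set.Iio s₀ from not_lt.2 hs'), zero_add,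
        closure_ode C hgn hs]
      refine (abs_sub _ _).trans (add_le_add ?_ ?_)
      · calc |∫ u in Set.Ioo s 1, lamF C g u / u ^ 2| ≤ ∫ u in Set.Ioo s 1, |lamF C g u / u ^ 2| :=
              abs_integral_le_integral_abs
          _ ≤ ∫ u in Set.Ioo s 1, (1 / s₀ ^ 2) * |lamF C g u| := by
              refine integral_mono_of_nonneg (Filter.Eventually.of_forall fun _ => abs_nonneg _)
                ((hη.abs.int.mono_set (Set.Ioo_subset_Ioo_left hs.1.le)).const_mul _) ?_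
              refine (ae_restrict_iff' measurableSet_Ioo).2
                (Filter.Eventually.of_forall fun u hu => ?_)
              have hu0 : s₀ ≤ u := hs'.trans hu.1.le
              have hu1 : 0 < u := lt_of_lt_of_le hs0 hu0
              dsimp only
              rw [abs_div, abs_of_pos (by positivity : (0 : ℝ) < u ^ 2), div_eq_mul_one_div, mul_comm]
              apply mul_le_mul_of_nonneg_right _ (abs_nonneg _)
              apply one_div_le_one_div_of_le (by positivity)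
              exact pow_le_pow_left₀ hs0.le hu0 2
          _ = (1 / s₀ ^ 2) * ∫ u in Set.Ioo s 1, |lamF C g u| := integral_const_mul _ _
          _ ≤ (1 / s₀ ^ 2) * (D.C1 * δ) := by
              apply mul_le_mul_of_nonneg_left _ (by positivity)
              refine le_trans ?_ hI
              exact setIntegral_mono_set hη.abs.int (Filter.Eventually.of_forall fun _ => abs_nonneg _)
                (Set.Ioo_subset_Ioo_left hs.1.le).eventuallyLE
          _ = D.C1 * δ / s₀ ^ 2 := by ring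
      · rw [abs_div, abs_of_pos hs.1, div_eq_mul_one_div, mul_comm]
        apply mul_le_mul_of_nonneg_right _ (abs_nonneg _)
        exact one_div_le_one_div_of_le hs0 hs'
  calc _ ≤ ∫ s in Set.Ioo (0 : ℝ) 1, ((Set.Iio s₀).indicator (fun _ => (2 : ℝ)) s +
        (D.C1 * δ / s₀ ^ 2 + (1 / s₀) * |lamF C g s|)) :=
        setInt_mono (hgn.sub (Nice.const C)).abs
          (hind.add ((Nice.const _).add ((Nice.const _).mul hη.abs))) hpt
    _ = 2 * s₀ + (D.C1 * δ / s₀ ^ 2 + (1 / s₀) * ∫ s in Set.Ioo (0 : ℝ) 1, |lamF C g s|) := by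
        rw [integral_add hind.int ((Nice.const _).add ((Nice.const _).mul hη.abs)).int,
          integral_add (Nice.const _).int ((Nice.const _).mul hη.abs).int, setInt_const,
          integral_const_mul, setIntegral_indicator measurableSet_Iio]
        congr 1
        have e : Set.Ioo (0 : ℝ) 1 ∩ Set.Iio s₀ = Set.Ioo 0 s₀ := by
          ext x
          simp only [Set.mem_inter_iff, Set.mem_Ioo, Set.mem_Iio]
          constructor
          · rintro ⟨⟨h1, _⟩, h3⟩; exact ⟨h1, h3⟩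
          · rintro ⟨h1, h2⟩; exact ⟨⟨h1, lt_of_lt_of_le h2 hs1⟩, h2⟩
        rw [e, setIntegral_const, Real.volume_real_Ioo, max_eq_left (by linarith), smul_eq_mul]
        ring
    _ ≤ 2 * s₀ + (D.C1 * δ / s₀ ^ 2 + D.C1 * δ / s₀ ^ 2) := by
        gcongr
        have h1 : (1 / s₀) * ∫ s in Set.Ioo (0 : ℝ) 1, |lamF C g s| ≤ (1 / s₀) * (D.C1 * δ) :=
          mul_le_mul_of_nonneg_left hI (by positivity)
        refine h1.trans ?_
        rw [div_mul_eq_mul_div, one_mul]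
        apply div_le_div_of_nonneg_left (by positivity) (by positivity)
        calc s₀ ^ 2 = s₀ * s₀ := by ring
          _ ≤ s₀ * 1 := mul_le_mul_of_nonneg_left hs1 hs0.le
          _ = s₀ := mul_one _
    _ = _ := by ring

/-- bound of `C_l` -/
theorem C_le (h : ClHyp D δ ρ c a) {κ : ℝ}
    (hκ : ∀ l, ∫ s in Set.Ioo (0 : ℝ) 1, |ρ l s - D.ρc (fun s => ∑ l, ρ l s) l s -
      (c l - D.cc (fun s => ∑ l, ρ l s) l)| ≤ κ) (l : Fin D.K) :
    |c l - D.cc (fun s => ∑ l, ρ l s) l| ≤ D.C0 * (3 * δ + 6 * D.M * κ) := by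
  set p : ℝ → ℝ := fun s => ∑ l, ρ l s with hp
  have hM := D.M_nonneg
  have hκ0 : 0 ≤ κ := (setIntegral_nonneg measurableSet_Ioo fun _ _ => abs_nonneg _).trans (hκ l)
  have hδ := h.δ_nonneg
  refine D.L2 (x := deficit p 0) (deficit_mem h.trial ⟨le_rfl, zero_le_one⟩).1
    (deficit_mem h.trial ⟨le_rfl, zero_le_one⟩).2 (C := fun l => c l - D.cc p l)
    (by rw [Finset.sum_sub_distrib, h.csum, D.sum_cc h.trial, sub_self]) ?_ l
  intro l l'
  have hn := h.nice l
  have hn' := h.nice l'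
  have hc := h.niceC l
  have hc' := h.niceC l'
  rw [← hp] at hc hc'
  set C := c l - D.cc p l with hC
  set C' := c l' - D.cc p l' with hC'
  have hf : D.f l (deficit p 0) = D.cc p l - ∫ u in Set.Ioo (0 : ℝ) 1, D.ρc p l u :=
    (D.Ac_zero h.trial l).symm
  have hf' : D.f l' (deficit p 0) = D.cc p l' - ∫ u in Set.Ioo (0 : ℝ) 1, D.ρc p l' u :=
    (D.Ac_zero h.trial l').symm
  have hDc := D.DF_c h.trial l l'
  rw [← hp] at hDc
  -- the remainder
  set Rm : ℝ → ℝ := fun s => (ρ l s - D.ρc p l s - C) * ρ l' s +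
    (D.ρc p l s + C) * (ρ l' s - D.ρc p l' s - C') with hR
  have hRn : Nice Rm := (((hn.sub hc).sub (Nice.const C)).mul hn').add
    ((hc.add (Nice.const C)).mul ((hn'.sub hc').sub (Nice.const C')))
  have e1 : ∫ s in Set.Ioo (0 : ℝ) 1, ρ l s * ρ l' s =
      (∫ s in Set.Ioo (0 : ℝ) 1, D.ρc p l s * D.ρc p l' s) + C' * (∫ s in Set.Ioo (0 : ℝ) 1, D.ρc p l s) +
      C * (∫ s in Set.Ioo (0 : ℝ) 1, D.ρc p l' s) + C * C' + ∫ s in Set.Ioo (0 : ℝ) 1, Rm s := by
    have e2 : ∀ s, ρ l s * ρ l' s = (D.ρc p l s * D.ρc p l' s + C' * D.ρc p l s +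
        C * D.ρc p l' s + C * C') + Rm s := by
      intro s; rw [hR]; ring
    rw [integral_congr_ae (Filter.Eventually.of_forall e2)]
    rw [integral_add ((((hc.mul hc').add ((Nice.const C').mul hc)).add
      ((Nice.const C).mul hc')).add (Nice.const (C * C'))).int hRn.int,
      integral_add (((hc.mul hc').add ((Nice.const C').mul hc)).add
      ((Nice.const C).mul hc')).int (Nice.const (C * C')).int,
      integral_add ((hc.mul hc').add ((Nice.const C').mul hc)).int ((Nice.const C).mul hc').int,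
      integral_add (hc.mul hc').int ((Nice.const C').mul hc).int, integral_const_mul,
      integral_const_mul, setInt_const]
  have hRb : |∫ s in Set.Ioo (0 : ℝ) 1, Rm s| ≤ 3 * κ := by
    have b0 : ∀ s ∈ Set.Ioo (0 : ℝ) 1, |Rm s| ≤ |ρ l s - D.ρc p l s - C| +
        2 * |ρ l' s - D.ρc p l' s - C'| := by
      intro s hs
      rw [hR]
      dsimp only
      refine (abs_add_le _ _).trans (add_le_add ?_ ?_)
      · rw [abs_mul, abs_of_nonneg (h.mem l' s hs).1]
        exact mul_le_of_le_one_right (abs_nonneg _) (h.mem l' s hs).2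
      · rw [abs_mul]
        apply mul_le_mul_of_nonneg_right _ (abs_nonneg _)
        have b1 : |C| ≤ 1 := by
          rw [hC, abs_le]
          have := h.cmem l
          have := D.cc_nonneg h.trial l
          have := D.cc_le_one h.trial l
          constructor <;> linarith
        have b2 : |D.ρc p l s| ≤ 1 := by
          rw [abs_of_nonneg (D.ρc_nonneg h.trial l hs)]; exact D.ρc_le_one h.trial l hs
        have := abs_add_le (D.ρc p l s) C
        linarith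
    have n1 := ((hn.sub hc).sub (Nice.const C)).abs
    have n2 := ((hn'.sub hc').sub (Nice.const C')).abs
    calc |∫ s in Set.Ioo (0 : ℝ) 1, Rm s| ≤ ∫ s in Set.Ioo (0 : ℝ) 1, |Rm s| :=
          abs_integral_le_integral_abs
      _ ≤ ∫ s in Set.Ioo (0 : ℝ) 1, (|ρ l s - D.ρc p l s - C| +
          2 * |ρ l' s - D.ρc p l' s - C'|) := setInt_mono hRn.abs (n1.add ((Nice.const 2).mul n2)) b0
      _ = (∫ s in Set.Ioo (0 : ℝ) 1, |ρ l s - D.ρc p l s - C|) +
          2 * ∫ s in Set.Ioo (0 : ℝ) 1, |ρ l' s - D.ρc p l' s - C'| := by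
          rw [integral_add n1.int ((Nice.const 2).mul n2).int, integral_const_mul]
      _ ≤ κ + 2 * κ := by
          have := hκ l
          have := hκ l'
          linarith
      _ = 3 * κ := by ring
  have key : D.α l * C' - D.α l' * C + (D.d l - D.d l') *
      (D.f l (deficit p 0) * C' + C * D.f l' (deficit p 0)) =
      DF (D.d l - D.d l') (a l) (a l') (c l) (c l') (ρ l) (ρ l') -
      (a l - D.α l) * c l' + (a l' - D.α l') * c l +
      (D.d l - D.d l') * ∫ s in Set.Ioo (0 : ℝ) 1, Rm s := by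
    unfold DF at hDc ⊢
    rw [e1, hf, hf']
    have t1 : c l = D.cc p l + C := by rw [hC]; ring
    have t2 : c l' = D.cc p l' + C' := by rw [hC']; ring
    rw [t1, t2]
    linear_combination (-1) * hDc
  rw [key]
  have b1 := h.dF l l'
  have b2 : |(a l - D.α l) * c l'| ≤ δ := by
    rw [abs_mul, abs_of_nonneg (h.cmem l').1]
    exact (mul_le_of_le_one_right (abs_nonneg _) (h.cmem l').2).trans (h.al l)
  have b3 : |(a l' - D.α l') * c l| ≤ δ := by
    rw [abs_mul, abs_of_nonneg (h.cmem l).1]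
    exact (mul_le_of_le_one_right (abs_nonneg _) (h.cmem l).2).trans (h.al l')
  have b4 : |(D.d l - D.d l') * ∫ s in Set.Ioo (0 : ℝ) 1, Rm s| ≤ 6 * D.M * κ := by
    rw [abs_mul]
    calc |D.d l - D.d l'| * |∫ s in Set.Ioo (0 : ℝ) 1, Rm s| ≤ (2 * D.M) * (3 * κ) := by
          apply mul_le_mul _ hRb (abs_nonneg _) (by linarith)
          have := D.abs_d_le l
          have := D.abs_d_le l'
          have := abs_sub (D.d l) (D.d l')
          linarith
      _ = 6 * D.M * κ := by ring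
  rw [abs_le] at b1 b2 b3 b4 ⊢
  constructor <;> linarith [b1.1, b1.2, b2.1, b2.2, b3.1, b3.2, b4.1, b4.2]

end ClHyp

/-- **(CLOSURE)** -/
theorem closure_full (D : Blk) {ε : ℝ} (hε : 0 < ε) : ∃ δ : ℝ, 0 < δ ∧
    ∀ (ρ : Fin D.K → ℝ → ℝ) (c a : Fin D.K → ℝ), ClHyp D δ ρ c a →
      (∀ l, |c l - D.cc (fun s => ∑ l, ρ l s) l| ≤ ε) ∧
      ∀ l, ∫ s in Set.Ioo (0 : ℝ) 1, |ρ l s - D.ρc (fun s => ∑ l, ρ l s) l s| ≤ ε := by
  have hC0 := D.C0_nonneg
  have hC1 := D.C1_nonneg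
  have hM := D.M_nonneg
  set B : ℝ := D.C0 * (3 + 6 * D.M) + 1 with hB
  have hBp : 0 < B := by positivity
  set s₀ : ℝ := min 1 (ε / (8 * B)) with hs
  have hs0 : 0 < s₀ := by rw [hs]; positivity
  have hs1 : s₀ ≤ 1 := min_le_left _ _
  have hs2 : s₀ ≤ ε / (8 * B) := min_le_right _ _
  set δ : ℝ := min (ε / (4 * B)) (ε * s₀ ^ 2 / (8 * B * (D.C1 + 1))) with hδ
  have hδ0 : 0 < δ := by rw [hδ]; positivity
  have hδ1 : δ ≤ ε / (4 * B) := min_le_left _ _
  have hδ2 : δ ≤ ε * s₀ ^ 2 / (8 * B * (D.C1 + 1)) := min_le_right _ _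
  refine ⟨δ, hδ0, fun ρ c a h => ?_⟩
  set κ : ℝ := 2 * D.C1 * δ / s₀ ^ 2 + 2 * s₀ with hκ
  have hκ0 : 0 ≤ κ := by positivity
  have hk := fun l => h.kappa_le l hs0 hs1
  have hC := fun l => h.C_le hk l
  rw [← hκ] at hC
  -- `B (δ + κ) ≤ ε`
  have t1 : B * δ ≤ ε / 4 := by
    calc B * δ ≤ B * (ε / (4 * B)) := mul_le_mul_of_nonneg_left hδ1 hBp.le
      _ = ε / 4 := by field_simp
  have t2 : B * (2 * s₀) ≤ ε / 4 := by
    calc B * (2 * s₀) ≤ B * (2 * (ε / (8 * B))) := by gcongr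
      _ = ε / 4 := by field_simp; ring
  have t3 : B * (2 * D.C1 * δ / s₀ ^ 2) ≤ ε / 4 := by
    calc B * (2 * D.C1 * δ / s₀ ^ 2) ≤ B * (2 * (D.C1 + 1) * (ε * s₀ ^ 2 / (8 * B * (D.C1 + 1))) / s₀ ^ 2) := by
          gcongr
          linarith
      _ = ε / 4 := by field_simp; ring
  have t4 : B * (δ + κ) ≤ ε := by
    rw [hκ]
    linarith
  have t5 : D.C0 * (3 * δ + 6 * D.M * κ) + κ ≤ B * (δ + κ) := by
    rw [hB]
    have u1 : 0 ≤ D.C0 * (3 * κ) := by positivity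
    have u2 : 0 ≤ D.C0 * (6 * D.M * δ) := by positivity
    nlinarith
  refine ⟨fun l => (hC l).trans (by linarith), fun l => ?_⟩
  have hn := h.nice l
  have hc := h.niceC l
  calc ∫ s in Set.Ioo (0 : ℝ) 1, |ρ l s - D.ρc (fun s => ∑ l, ρ l s) l s| ≤
      ∫ s in Set.Ioo (0 : ℝ) 1, (|ρ l s - D.ρc (fun s => ∑ l, ρ l s) l s -
        (c l - D.cc (fun s => ∑ l, ρ l s) l)| + |c l - D.cc (fun s => ∑ l, ρ l s) l|) := by
        refine setInt_mono (hn.sub hc).abs
          (((hn.sub hc).sub (Nice.const _)).abs.add (Nice.const _)) fun s _ => ?_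
        have := abs_add_le (ρ l s - D.ρc (fun s => ∑ l, ρ l s) l s -
          (c l - D.cc (fun s => ∑ l, ρ l s) l)) (c l - D.cc (fun s => ∑ l, ρ l s) l)
        rwa [sub_add_cancel] at this
    _ = (∫ s in Set.Ioo (0 : ℝ) 1, |ρ l s - D.ρc (fun s => ∑ l, ρ l s) l s -
        (c l - D.cc (fun s => ∑ l, ρ l s) l)|) + |c l - D.cc (fun s => ∑ l, ρ l s) l| := by
        rw [integral_add ((hn.sub hc).sub (Nice.const _)).abs.int (Nice.const _).int, setInt_const]
    _ ≤ κ + D.C0 * (3 * δ + 6 * D.M * κ) := add_le_add (hk l) (hC l)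
    _ ≤ ε := by linarith

/-- (I3) CLOSURE, `ε`-form, for paths on `(0,1)`. -/
theorem closure_eps (D : Blk) {ε : ℝ} (hε : 0 < ε) : ∃ δ : ℝ, 0 < δ ∧
    ∀ (ρ : Fin D.K → ℝ → ℝ) (c a : Fin D.K → ℝ),
      (∀ l, Measurable (ρ l)) → (∀ l, MonotoneOn (ρ l) (Set.Ioo 0 1)) →
      (∀ l, ∀ s ∈ Set.Ioo (0 : ℝ) 1, 0 ≤ ρ l s ∧ ρ l s ≤ 1) →
      (∀ l, 0 ≤ c l ∧ c l ≤ 1) → ∑ l, c l = 1 →
      (∀ l, ∀ s ∈ Set.Ioo (0 : ℝ) 1, 0 ≤ lamF (c l) (ρ l) s) →
      (∀ l, |a l - D.α l| ≤ δ) →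
      (∀ l l', |DF (D.d l - D.d l') (a l) (a l') (c l) (c l') (ρ l) (ρ l')| ≤ δ) →
      (∀ l l', ∫ s in Set.Ioo (0 : ℝ) 1,
        |eF (D.d l - D.d l') (a l) (a l') (c l) (c l') (ρ l) (ρ l') s| ≤ δ) →
      |∑ l, D.d l * c l -
        ∫ r in Set.Ioo (0 : ℝ) 1, D.Θ (deficit (fun s => ∑ l, ρ l s) r)| ≤ ε := by
  have hM := D.M_nonneg
  obtain ⟨δ, hδ, h⟩ := closure_full D (ε := ε / (D.M + 1)) (by positivity)
  refine ⟨δ, hδ, fun ρ c a h1 h2 h3 h4 h5 h6 h7 h8 h9 => ?_⟩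
  have H : ClHyp D δ ρ c a := ⟨h1, h2, h3, h4, h5, h6, h7, h8, h9⟩
  have hc := (h ρ c a H).1
  rw [← D.sum_d_cc H.trial, ← Finset.sum_sub_distrib]
  calc |∑ l, (D.d l * c l - D.d l * D.cc (fun s => ∑ l, ρ l s) l)| ≤
      ∑ l, |D.d l * c l - D.d l * D.cc (fun s => ∑ l, ρ l s) l| := Finset.abs_sum_le_sum_abs _ _
    _ ≤ ∑ l, |D.d l| * (ε / (D.M + 1)) := by
        refine Finset.sum_le_sum fun l _ => ?_
        rw [← mul_sub, abs_mul]
        exact mul_le_mul_of_nonneg_left (hc l) (abs_nonneg _)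
    _ = D.M * (ε / (D.M + 1)) := by rw [← Finset.sum_mul]; rfl
    _ ≤ (D.M + 1) * (ε / (D.M + 1)) := by
        apply mul_le_mul_of_nonneg_right _ (by positivity)
        linarith
    _ = ε := by field_simp

end Crest.Agent.RI
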