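import Crest.Agent.RI.VCont
import Crest.Agent.RI.RBTheta
import Crest.Agent.RI.P06b

/-!
# Row 164, blueprint 0.3: the deficit `D_p` and the functional `G(p)` (helper50)
-/

set_option autoImplicit false

namespace Crest.Agent.RI

open MeasureTheory ProbabilityTheory
open Crest.ProbabilityR.InvariantGlass

/-- `w_p(x) = 1 - |{u ∈ (0,1) : p u > x}|`. -/
noncomputable def wp (p : ℝ → ℝ) (x : ℝ) : ℝ := 1 - volume.real {u ∈ Set.Ioo (0 : ℝ) 1 | x < p u}

theorem integrableOn_pos {p : ℝ → ℝ} (hp : IsTrialPath p) (r : ℝ) :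
    IntegrableOn (fun s => max (p s - r) 0) (Set.Ioo (0 : ℝ) 1) := by
  have hm : Measurable fun s => max (p s - r) 0 := (hp.1.sub measurable_const).max measurable_const
  refine Measure.integrableOn_of_bounded (M := 1 + |r|) (by simp) hm.aestronglyMeasurable ?_
  rw [ae_restrict_iff' measurableSet_Ioo]
  refine Filter.Eventually.of_forall fun s hs => ?_
  have h1 := hp.2.2 s hs
  rw [Real.norm_eq_abs, abs_of_nonneg (le_max_right _ _)]
  apply max_le
  · have := neg_abs_le r
    linarith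
  · positivity

theorem deficit_le (p : ℝ → ℝ) (r : ℝ) : deficit p r ≤ 1 - r := by
  unfold deficit
  have : 0 ≤ ∫ s in Set.Ioo (0 : ℝ) 1, max (p s - r) 0 :=
    setIntegral_nonneg measurableSet_Ioo fun s _ => le_max_right _ _
  linarith

theorem deficit_nonneg {p : ℝ → ℝ} (hp : IsTrialPath p) {r : ℝ} (hr : r ≤ 1) :
    0 ≤ deficit p r := by
  unfold deficit
  have h1 : ∫ s in Set.Ioo (0 : ℝ) 1, max (p s - r) 0 ≤ ∫ _s in Set.Ioo (0 : ℝ) 1, (1 - r) := by
    refine setIntegral_mono_on (integrableOn_pos hp r) (integrableOn_const (by simp))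
      measurableSet_Ioo fun s hs => ?_
    apply max_le
    · linarith [(hp.2.2 s hs).2]
    · linarith
  have h2 : ∫ _s in Set.Ioo (0 : ℝ) 1, (1 - r) = 1 - r := by
    rw [setIntegral_const, Real.volume_real_Ioo]
    simp
  linarith

/-- one-sided comparison -/
theorem int_pos_le {p q : ℝ → ℝ} (hp : IsTrialPath p) (hq : IsTrialPath q) {ε : ℝ} (hε : 0 ≤ ε)
    (h : ∀ s ∈ Set.Icc (0 : ℝ) 1, ∫ u in Set.Ioo s 1, (p u - q u) ≤ ε) (r : ℝ) :
    ∫ s in Set.Ioo (0 : ℝ) 1, max (p s - r) 0 ≤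
      (∫ s in Set.Ioo (0 : ℝ) 1, max (q s - r) 0) + ε := by
  -- the set where `p > r`
  set A : Set ℝ := {u ∈ Set.Ioo (0 : ℝ) 1 | r < p u} with hA
  by_cases hne : A.Nonempty
  · have hbdd : BddBelow A := ⟨0, fun u hu => hu.1.1.le⟩
    set s₀ := sInf A with hs₀
    obtain ⟨a, ha⟩ := hne
    have hs0 : 0 ≤ s₀ := le_csInf ⟨a, ha⟩ fun u hu => hu.1.1.le
    have hs1 : s₀ ≤ 1 := (csInf_le hbdd ha).trans ha.1.2.le
    have hsub : Set.Ioo s₀ 1 ⊆ Set.Ioo (0 : ℝ) 1 := Set.Ioo_subset_Ioo_left hs0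
    -- beyond `s₀` we have `p > r`
    have habove : ∀ u ∈ Set.Ioo s₀ 1, r < p u := by
      intro u hu
      obtain ⟨v, hv, hvu⟩ := exists_lt_of_csInf_lt ⟨a, ha⟩ hu.1
      exact lt_of_lt_of_le hv.2 (hp.2.1 hv.1 (hsub hu) hvu.le)
    -- below `s₀` we have `p ≤ r`
    have hbelow : ∀ u ∈ Set.Ioo (0 : ℝ) 1, u < s₀ → p u ≤ r := by
      intro u hu hus
      by_contra hc
      push Not at hc
      exact absurd (csInf_le hbdd (show u ∈ A from ⟨hu, hc⟩)) (not_le.2 hus)
    have hind : ∀ u ∈ Set.Ioo (0 : ℝ) 1, u ≠ s₀ →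
        max (p u - r) 0 = (Set.Ioo s₀ 1).indicator (fun u => p u - r) u := by
      intro u hu hus
      rcases lt_or_gt_of_ne hus with h1 | h1
      · rw [Set.indicator_of_notMem (fun hc => absurd hc.1 (not_lt.2 h1.le)),
          max_eq_right (by linarith [hbelow u hu h1])]
      · rw [Set.indicator_of_mem (show u ∈ Set.Ioo s₀ 1 from ⟨h1, hu.2⟩),
          max_eq_left (by linarith [habove u ⟨h1, hu.2⟩])]
    have e1 : ∫ s in Set.Ioo (0 : ℝ) 1, max (p s - r) 0 = ∫ u in Set.Ioo s₀ 1, (p u - r) := by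
      have : ∫ s in Set.Ioo (0 : ℝ) 1, max (p s - r) 0 =
          ∫ s in Set.Ioo (0 : ℝ) 1, (Set.Ioo s₀ 1).indicator (fun u => p u - r) s := by
        refine setIntegral_congr_ae measurableSet_Ioo ?_
        have hae : ∀ᵐ u : ℝ, u ≠ s₀ := by
          rw [ae_iff]
          simp
        filter_upwards [hae] with u hu hmem
        exact hind u hmem hu
      rw [this, setIntegral_indicator measurableSet_Ioo, Set.inter_eq_right.2 hsub]
    have hpi := (trial_integrableOn hp).mono_set hsub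
    have hqi := (trial_integrableOn hq).mono_set hsub
    have e2 : ∫ u in Set.Ioo s₀ 1, (p u - r) = (∫ u in Set.Ioo s₀ 1, (p u - q u)) +
        ∫ u in Set.Ioo s₀ 1, (q u - r) := by
      have i1 : IntegrableOn (fun u => p u - q u) (Set.Ioo s₀ 1) := hpi.sub hqi
      have i2 : IntegrableOn (fun u => q u - r) (Set.Ioo s₀ 1) :=
        hqi.sub (integrableOn_const (by simp))
      rw [← integral_add i1 i2]
      refine integral_congr_ae (Filter.Eventually.of_forall fun u => ?_)
      dsimp only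
      ring
    have e3 : ∫ u in Set.Ioo s₀ 1, (q u - r) ≤ ∫ s in Set.Ioo (0 : ℝ) 1, max (q s - r) 0 := by
      calc ∫ u in Set.Ioo s₀ 1, (q u - r) ≤ ∫ u in Set.Ioo s₀ 1, max (q u - r) 0 :=
            setIntegral_mono_on (hqi.sub (integrableOn_const (by simp)))
              ((integrableOn_pos hq r).mono_set hsub) measurableSet_Ioo fun u _ => le_max_left _ _
        _ ≤ _ := setIntegral_mono_set (integrableOn_pos hq r)
              (Filter.Eventually.of_forall fun u => le_max_right _ _) hsub.eventuallyLE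
    have e4 := h s₀ ⟨hs0, hs1⟩
    rw [e1, e2]
    linarith
  · rw [Set.not_nonempty_iff_eq_empty] at hne
    have h0 : ∀ u ∈ Set.Ioo (0 : ℝ) 1, max (p u - r) 0 = 0 := by
      intro u hu
      apply max_eq_right
      by_contra hc
      push Not at hc
      have : u ∈ A := ⟨hu, by linarith⟩
      rw [hne] at this
      exact this
    rw [setIntegral_congr_fun measurableSet_Ioo h0]
    simp only [integral_zero]
    have : 0 ≤ ∫ s in Set.Ioo (0 : ℝ) 1, max (q s - r) 0 :=
      setIntegral_nonneg measurableSet_Ioo fun s _ => le_max_right _ _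
    linarith

theorem deficit_lip {p q : ℝ → ℝ} (hp : IsTrialPath p) (hq : IsTrialPath q) {ε : ℝ} (hε : 0 ≤ ε)
    (h : PDist p q ε) (r : ℝ) : |deficit p r - deficit q r| ≤ ε := by
  have h1 := int_pos_le hp hq hε (fun s hs => (le_abs_self _).trans (h s hs)) r
  have h2 := int_pos_le hq hp hε (fun s hs => by
    have h3 := (neg_abs_le _).trans' (neg_le_neg (h s hs))
    have h4 : ∫ u in Set.Ioo s 1, (q u - p u) = -∫ u in Set.Ioo s 1, (p u - q u) := by
      rw [← integral_neg]
      exact integral_congr_ae (Filter.Eventually.of_forall fun u => by ring)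
    rw [h4]
    linarith) r
  unfold deficit
  rw [abs_le]
  constructor <;> linarith

/-- `G` is Lipschitz. -/
theorem Blk.G_lip (D : Blk) : ∃ C, GLip D C := by
  obtain ⟨L, hL0, hL⟩ := D.R_lip
  obtain ⟨lo, hlo⟩ : ∃ lo : ℝ, D.mu (Set.Icc lo D.top) = 1 := ⟨_, D.mu_Icc⟩
  have := D.isProb
  refine ⟨L, hL0, ?_⟩
  intro p q hp hq ε hε hpq
  unfold Blk.G spectralPart
  have hip := P06_rT_integrable hlo hp
  have hiq := P06_rT_integrable hlo hq
  rw [← mul_sub, ← integral_sub hip hiq, abs_mul]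
  have hb : ‖∫ r in Set.Ioo (0 : ℝ) 1, (rTransform D.mu D.top (deficit p r) -
      rTransform D.mu D.top (deficit q r))‖ ≤ (L * ε) * volume.real (Set.Ioo (0 : ℝ) 1) := by
    apply norm_setIntegral_le_of_norm_le_const (by simp)
    intro r hr
    rw [Real.norm_eq_abs]
    have h1 : deficit p r ∈ Set.Icc (0 : ℝ) 1 :=
      ⟨deficit_nonneg hp hr.2.le, (deficit_le p r).trans (by linarith [hr.1])⟩
    have h2 : deficit q r ∈ Set.Icc (0 : ℝ) 1 :=
      ⟨deficit_nonneg hq hr.2.le, (deficit_le q r).trans (by linarith [hr.1])⟩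
    refine (hL _ h2 _ h1).trans ?_
    exact mul_le_mul_of_nonneg_left (deficit_lip hp hq hε hpq r) hL0
  rw [Real.norm_eq_abs, Real.volume_real_Ioo] at hb
  simp only [sub_zero, zero_le_one, sup_of_le_left, mul_one] at hb
  rw [abs_of_pos (by norm_num : (0 : ℝ) < 1 / 2)]
  have h0 := abs_nonneg (∫ r in Set.Ioo (0 : ℝ) 1, (rTransform D.mu D.top (deficit p r) -
      rTransform D.mu D.top (deficit q r)))
  linarith

end Crest.Agent.RI
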