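import Crest.Agent.RI.RBG

/-!
# Row 164: level sets of a trial path, Fubini, `D_p(a) = ∫_a^1 w_p` (helper50)
-/

set_option autoImplicit false

namespace Crest.Agent.RI

open MeasureTheory ProbabilityTheory
open Crest.ProbabilityR.InvariantGlass

/-- Measure of the level set in `(s,1)`. -/
noncomputable def msp (p : ℝ → ℝ) (s x : ℝ) : ℝ := volume.real {u ∈ Set.Ioo s 1 | x < p u}

theorem wp_eq (p : ℝ → ℝ) (x : ℝ) : wp p x = 1 - msp p 0 x := rfl

theorem measurableSet_level {p : ℝ → ℝ} (hp : Measurable p) (s x : ℝ) :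
    MeasurableSet {u ∈ Set.Ioo s 1 | x < p u} :=
  measurableSet_Ioo.inter (measurableSet_lt measurable_const hp)

theorem level_finite (p : ℝ → ℝ) (s x : ℝ) : volume {u ∈ Set.Ioo s 1 | x < p u} ≠ ⊤ := by
  refine ne_top_of_le_ne_top ?_ (measure_mono (Set.sep_subset _ _))
  simp

theorem msp_nonneg (p : ℝ → ℝ) (s x : ℝ) : 0 ≤ msp p s x := measureReal_nonneg

theorem msp_le (p : ℝ → ℝ) {s : ℝ} (hs : s ≤ 1) (x : ℝ) : msp p s x ≤ 1 - s := by
  have h : msp p s x ≤ volume.real (Set.Ioo s 1) :=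
    measureReal_mono (Set.sep_subset _ _) (by simp)
  rwa [Real.volume_real_Ioo, max_eq_left (by linarith)] at h

theorem msp_anti (p : ℝ → ℝ) (s : ℝ) : Antitone (msp p s) := by
  intro x y hxy
  refine measureReal_mono ?_ (level_finite p s x)
  intro u hu
  exact ⟨hu.1, lt_of_le_of_lt hxy hu.2⟩

theorem wp_mono (p : ℝ → ℝ) : Monotone (wp p) := by
  intro x y hxy
  rw [wp_eq, wp_eq]
  linarith [msp_anti p 0 hxy]

theorem wp_nonneg (p : ℝ → ℝ) (x : ℝ) : 0 ≤ wp p x := by
  rw [wp_eq]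
  linarith [msp_le p zero_le_one x]

theorem wp_le_one (p : ℝ → ℝ) (x : ℝ) : wp p x ≤ 1 := by
  rw [wp_eq]
  linarith [msp_nonneg p 0 x]

/-- for `x < p s` the whole interval `(s,1)` is in the level set -/
theorem msp_of_lt {p : ℝ → ℝ} (hp : IsTrialPath p) {s x : ℝ} (hs : s ∈ Set.Ioo (0 : ℝ) 1)
    (hx : x < p s) : msp p s x = 1 - s := by
  have h : {u ∈ Set.Ioo s 1 | x < p u} = Set.Ioo s 1 := by
    ext u
    simp only [Set.mem_setOf_eq, and_iff_left_iff_imp]
    intro hu
    exact lt_of_lt_of_le hx (hp.2.1 hs ⟨hs.1.trans hu.1, hu.2⟩ hu.1.le)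
  unfold msp
  rw [h, Real.volume_real_Ioo, max_eq_left (by linarith [hs.2])]

/-- for `x ≥ p s` the level set is in `(s,1)` -/
theorem msp_of_ge {p : ℝ → ℝ} (hp : IsTrialPath p) {s x : ℝ} (hs : s ∈ Set.Ioo (0 : ℝ) 1)
    (hx : p s ≤ x) : msp p s x = msp p 0 x := by
  unfold msp
  congr 1
  ext u
  simp only [Set.mem_setOf_eq, Set.mem_Ioo]
  constructor
  · rintro ⟨⟨h1, h2⟩, h3⟩
    exact ⟨⟨hs.1.trans h1, h2⟩, h3⟩
  · rintro ⟨⟨h1, h2⟩, h3⟩
    refine ⟨⟨?_, h2⟩, h3⟩
    by_contra hc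
    push Not at hc
    have := hp.2.1 ⟨h1, h2⟩ hs hc
    linarith

/-- Fubini for the level sets. -/
theorem fubini_level {p : ℝ → ℝ} (hp : IsTrialPath p) {s : ℝ} (hs : 0 ≤ s) {φ : ℝ → ℝ}
    (hφ : IntegrableOn φ (Set.Ioo (0 : ℝ) 1)) :
    ∫ u in Set.Ioo s 1, (∫ x in Set.Ioo 0 (p u), φ x) =
      ∫ x in Set.Ioo (0 : ℝ) 1, φ x * msp p s x := by
  have h1 : ∀ u ∈ Set.Ioo s 1, ∫ x in Set.Ioo 0 (p u), φ x =
      ∫ x in Set.Ioo (0 : ℝ) 1, ({y : ℝ × ℝ | y.2 < p y.1}.indicator (fun y => φ y.2)) (u, x) := by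
    intro u hu
    have hu' : u ∈ Set.Ioo (0 : ℝ) 1 := ⟨lt_of_le_of_lt hs hu.1, hu.2⟩
    have e : (fun x => ({y : ℝ × ℝ | y.2 < p y.1}.indicator (fun y => φ y.2)) (u, x)) =
        (Set.Iio (p u)).indicator φ := by
      funext x
      by_cases hx : x < p u
      · rw [Set.indicator_of_mem (show (u, x) ∈ {y : ℝ × ℝ | y.2 < p y.1} from hx),
          Set.indicator_of_mem (show x ∈ Set.Iio (p u) from hx)]
      · rw [Set.indicator_of_notMem (show (u, x) ∉ {y : ℝ × ℝ | y.2 < p y.1} from hx),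
          Set.indicator_of_notMem (show x ∉ Set.Iio (p u) from hx)]
    rw [e, setIntegral_indicator measurableSet_Iio]
    congr 2
    ext x
    simp only [Set.mem_Ioo, Set.mem_inter_iff, Set.mem_Iio]
    constructor
    · rintro ⟨h1, h2⟩
      exact ⟨⟨h1, lt_of_lt_of_le h2 (hp.2.2 u hu').2⟩, h2⟩
    · rintro ⟨⟨h1, _⟩, h3⟩
      exact ⟨h1, h3⟩
  rw [setIntegral_congr_fun measurableSet_Ioo h1]
  have hS : MeasurableSet {y : ℝ × ℝ | y.2 < p y.1} :=
    measurableSet_lt measurable_snd (hp.1.comp measurable_fst)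
  have hint : Integrable (Function.uncurry fun u x =>
      ({y : ℝ × ℝ | y.2 < p y.1}.indicator (fun y => φ y.2)) (u, x))
      ((volume.restrict (Set.Ioo s 1)).prod (volume.restrict (Set.Ioo (0 : ℝ) 1))) := by
    have : (Function.uncurry fun u x =>
      ({y : ℝ × ℝ | y.2 < p y.1}.indicator (fun y => φ y.2)) (u, x)) =
      {y : ℝ × ℝ | y.2 < p y.1}.indicator (fun y => φ y.2) := by
      funext y; rfl
    rw [this]
    exact (Integrable.comp_snd (f := φ) hφ _).indicator hS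
  rw [integral_integral_swap hint]
  refine integral_congr_ae (Filter.Eventually.of_forall fun x => ?_)
  have e : (fun u => ({y : ℝ × ℝ | y.2 < p y.1}.indicator (fun y => φ y.2)) (u, x)) =
      {u | x < p u}.indicator (fun _ => φ x) := by
    funext u
    by_cases hx : x < p u
    · rw [Set.indicator_of_mem (show (u, x) ∈ {y : ℝ × ℝ | y.2 < p y.1} from hx),
        Set.indicator_of_mem (show u ∈ {u | x < p u} from hx)]
    · rw [Set.indicator_of_notMem (show (u, x) ∉ {y : ℝ × ℝ | y.2 < p y.1} from hx),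
        Set.indicator_of_notMem (show u ∉ {u | x < p u} from hx)]
  dsimp only
  rw [e, setIntegral_indicator (measurableSet_lt measurable_const hp.1), setIntegral_const,
    smul_eq_mul, mul_comm]
  rfl

theorem msp_measurable (p : ℝ → ℝ) (s : ℝ) : Measurable (msp p s) := (msp_anti p s).measurable

theorem wp_measurable (p : ℝ → ℝ) : Measurable (wp p) := (wp_mono p).measurable

theorem wp_intervalIntegrable (p : ℝ → ℝ) (a b : ℝ) : IntervalIntegrable (wp p) volume a b :=
  (wp_mono p).intervalIntegrable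

/-- `D_p(a) = ∫_a^1 w_p`. -/
theorem deficit_eq {p : ℝ → ℝ} (hp : IsTrialPath p) {a : ℝ} (ha : a ∈ Set.Icc (0 : ℝ) 1) :
    deficit p a = ∫ x in a..1, wp p x := by
  have hφ : IntegrableOn ((Set.Ioi a).indicator (fun _ => (1 : ℝ))) (Set.Ioo (0 : ℝ) 1) :=
    (integrableOn_const (by simp)).indicator measurableSet_Ioi
  have h1 := fubini_level hp le_rfl hφ
  have h2 : ∀ u ∈ Set.Ioo (0 : ℝ) 1,
      ∫ x in Set.Ioo 0 (p u), (Set.Ioi a).indicator (fun _ => (1 : ℝ)) x = max (p u - a) 0 := by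
    intro u hu
    rw [setIntegral_indicator measurableSet_Ioi]
    have e : Set.Ioo 0 (p u) ∩ Set.Ioi a = Set.Ioo a (p u) := by
      ext x
      simp only [Set.mem_inter_iff, Set.mem_Ioo, Set.mem_Ioi]
      constructor
      · rintro ⟨⟨_, h2⟩, h3⟩; exact ⟨h3, h2⟩
      · rintro ⟨h1, h2⟩; exact ⟨⟨lt_of_le_of_lt ha.1 h1, h2⟩, h1⟩
    rw [e, setIntegral_const, Real.volume_real_Ioo]
    simp
  rw [setIntegral_congr_fun measurableSet_Ioo h2] at h1
  have h3 : ∫ x in Set.Ioo (0 : ℝ) 1, (Set.Ioi a).indicator (fun _ => (1 : ℝ)) x * msp p 0 x =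
      ∫ x in a..1, msp p 0 x := by
    have e : (fun x => (Set.Ioi a).indicator (fun _ => (1 : ℝ)) x * msp p 0 x) =
        (Set.Ioi a).indicator (msp p 0) := by
      funext x
      by_cases hx : x ∈ Set.Ioi a
      · rw [Set.indicator_of_mem hx, Set.indicator_of_mem hx, one_mul]
      · rw [Set.indicator_of_notMem hx, Set.indicator_of_notMem hx, zero_mul]
    rw [e, setIntegral_indicator measurableSet_Ioi, intervalIntegral.integral_of_le ha.2,
      integral_Ioc_eq_integral_Ioo]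
    congr 2
    ext x
    simp only [Set.mem_inter_iff, Set.mem_Ioo, Set.mem_Ioi]
    constructor
    · rintro ⟨⟨_, h2⟩, h3⟩; exact ⟨h3, h2⟩
    · rintro ⟨h1, h2⟩; exact ⟨⟨lt_of_le_of_lt ha.1 h1, h2⟩, h1⟩
  rw [h3] at h1
  unfold deficit
  rw [h1]
  have h4 : ∫ x in a..1, wp p x = (∫ _x in a..1, (1 : ℝ)) - ∫ x in a..1, msp p 0 x := by
    rw [← intervalIntegral.integral_sub intervalIntegrable_const (msp_anti p 0).intervalIntegrable]
    rfl
  rw [h4, intervalIntegral.integral_const, smul_eq_mul, mul_one]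

theorem deficit_one {p : ℝ → ℝ} (hp : IsTrialPath p) : deficit p 1 = 0 := by
  rw [deficit_eq hp ⟨zero_le_one, le_rfl⟩, intervalIntegral.integral_same]

theorem deficit_mem {p : ℝ → ℝ} (hp : IsTrialPath p) {a : ℝ} (ha : a ∈ Set.Icc (0 : ℝ) 1) :
    deficit p a ∈ Set.Icc (0 : ℝ) 1 :=
  ⟨deficit_nonneg hp ha.2, (deficit_le p a).trans (by linarith [ha.1])⟩

/-- Lipschitz in the position. -/
theorem deficit_cont {p : ℝ → ℝ} (hp : IsTrialPath p) : ContinuousOn (deficit p) (Set.Icc 0 1) := by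
  have h : Set.EqOn (deficit p) (fun a => (∫ x in (0 : ℝ)..1, wp p x) - ∫ x in (0 : ℝ)..a, wp p x)
      (Set.Icc 0 1) := by
    intro a ha
    dsimp only
    rw [deficit_eq hp ha, ← intervalIntegral.integral_add_adjacent_intervals
      (wp_intervalIntegrable p 0 a) (wp_intervalIntegrable p a 1)]
    ring
  refine ContinuousOn.congr ?_ h
  refine ContinuousOn.sub continuousOn_const ?_
  exact (intervalIntegral.continuous_primitive (fun a b => wp_intervalIntegrable p a b) 0).continuousOn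

/-- The deficit is differentiable off a countable set. -/
theorem deficit_hasDerivAt {p : ℝ → ℝ} (hp : IsTrialPath p) {x : ℝ} (hx : x ∈ Set.Ioo (0 : ℝ) 1)
    (hc : ContinuousAt (wp p) x) : HasDerivAt (deficit p) (-(wp p x)) x := by
  have h1 : HasDerivAt (fun a => ∫ x in (0 : ℝ)..a, wp p x) (wp p x) x :=
    intervalIntegral.integral_hasDerivAt_right (wp_intervalIntegrable p 0 x)
      ((wp_measurable p).stronglyMeasurable.stronglyMeasurableAtFilter) hc
  have h2 : HasDerivAt (fun a => (∫ x in (0 : ℝ)..1, wp p x) - ∫ x in (0 : ℝ)..a, wp p x)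
      (-(wp p x)) x := by
    simpa using h1.const_sub (∫ x in (0 : ℝ)..1, wp p x)
  refine h2.congr_of_eventuallyEq ?_
  filter_upwards [Ioo_mem_nhds hx.1 hx.2] with a ha
  rw [deficit_eq hp ⟨ha.1.le, ha.2.le⟩, ← intervalIntegral.integral_add_adjacent_intervals
      (wp_intervalIntegrable p 0 a) (wp_intervalIntegrable p a 1)]
  ring

theorem wp_countable (p : ℝ → ℝ) : {x | ¬ ContinuousAt (wp p) x}.Countable :=
  (wp_mono p).countable_not_continuousAt

/-- either `D_p > 0` on `[0,1)` or `w_p = 0` on `(-∞,1)` -/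
theorem deficit_pos_or {p : ℝ → ℝ} (hp : IsTrialPath p) :
    (∀ x ∈ Set.Ico (0 : ℝ) 1, 0 < deficit p x) ∨ ∀ x < 1, wp p x = 0 := by
  by_cases h : ∀ x < 1, wp p x = 0
  · exact Or.inr h
  · left
    push Not at h
    obtain ⟨y, hy, hy0⟩ := h
    have hy0' : 0 < wp p y := lt_of_le_of_ne (wp_nonneg p y) (Ne.symm hy0)
    intro x hx
    rw [deficit_eq hp ⟨hx.1, hx.2.le⟩]
    set z := max x y with hz
    have hz1 : z < 1 := max_lt hx.2 hy
    have h1 : (1 - z) * wp p y ≤ ∫ t in z..1, wp p t := by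
      have h2 : ∫ _t in z..1, wp p y = (1 - z) * wp p y := by
        rw [intervalIntegral.integral_const, smul_eq_mul]
      rw [← h2]
      refine intervalIntegral.integral_mono_on hz1.le intervalIntegrable_const
        (wp_intervalIntegrable p z 1) fun t ht => ?_
      exact wp_mono p ((le_max_right x y).trans ht.1)
    have h3 : 0 ≤ ∫ t in x..z, wp p t :=
      intervalIntegral.integral_nonneg (le_max_left x y) fun t _ => wp_nonneg p t
    rw [← intervalIntegral.integral_add_adjacent_intervals (wp_intervalIntegrable p x z)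
      (wp_intervalIntegrable p z 1)]
    have h4 : 0 < (1 - z) * wp p y := mul_pos (by linarith) hy0'
    linarith

end Crest.Agent.RI
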