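import Crest.Agent.RI.RBCan
import Crest.Agent.RI.UBDefs

/-!
# Row 164: bounded functions on `(0,1)` continuous off a countable set; FTC identities (helper50)
-/

set_option autoImplicit false

namespace Crest.Agent.RI

open MeasureTheory ProbabilityTheory
open Crest.ProbabilityR.InvariantGlass

/-- bounded functions on `(0,1)`, a.e. measurable, continuous off a countable set -/
structure Nice (g : ℝ → ℝ) : Prop where
  meas : AEStronglyMeasurable g (volume.restrict (Set.Ioo (0 : ℝ) 1))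
  bdd : ∃ B, ∀ x ∈ Set.Ioo (0 : ℝ) 1, |g x| ≤ B
  cts : {x | x ∈ Set.Ioo (0 : ℝ) 1 ∧ ¬ ContinuousAt g x}.Countable

namespace Nice

variable {f g : ℝ → ℝ}

theorem int (h : Nice g) : IntegrableOn g (Set.Ioo (0 : ℝ) 1) := by
  obtain ⟨B, hB⟩ := h.bdd
  refine Integrable.of_bound h.meas B ?_
  refine (ae_restrict_iff' measurableSet_Ioo).2 (Filter.Eventually.of_forall fun u hu => ?_)
  exact hB u hu

theorem of_mono {B : ℝ} (hm : MonotoneOn g (Set.Ioo 0 1)) (hb : ∀ x ∈ Set.Ioo (0 : ℝ) 1, |g x| ≤ B) :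
    Nice g := by
  refine ⟨(aemeasurable_restrict_of_monotoneOn measurableSet_Ioo hm).aestronglyMeasurable,
    ⟨B, hb⟩, ?_⟩
  refine hm.countable_not_continuousWithinAt.mono ?_
  rintro x ⟨hx, hx'⟩
  refine ⟨hx, fun h => hx' ?_⟩
  exact h.continuousAt (isOpen_Ioo.mem_nhds hx)

theorem of_cont {B : ℝ} (hc : ContinuousOn g (Set.Ioo 0 1))
    (hb : ∀ x ∈ Set.Ioo (0 : ℝ) 1, |g x| ≤ B) : Nice g := by
  refine ⟨hc.aestronglyMeasurable measurableSet_Ioo, ⟨B, hb⟩, ?_⟩
  convert Set.countable_empty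
  ext x
  simp only [Set.mem_ofPred_eq, Set.mem_empty_iff_false, iff_false, not_and, not_not]
  intro hx
  exact hc.continuousAt (isOpen_Ioo.mem_nhds hx)

theorem const (c : ℝ) : Nice fun _ => c :=
  of_cont continuousOn_const fun _ _ => le_rfl

theorem id' : Nice fun x => x :=
  of_cont (B := 1) continuousOn_id fun x hx => by
    rw [abs_of_pos hx.1]; exact hx.2.le

theorem add (hf : Nice f) (hg : Nice g) : Nice fun x => f x + g x := by
  obtain ⟨B, hB⟩ := hf.bdd
  obtain ⟨B', hB'⟩ := hg.bdd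
  refine ⟨hf.meas.add hg.meas, ⟨B + B', fun x hx => (abs_add_le _ _).trans
    (add_le_add (hB x hx) (hB' x hx))⟩, (hf.cts.union hg.cts).mono ?_⟩
  rintro x ⟨hx, h⟩
  by_contra hc
  simp only [Set.mem_union, Set.mem_ofPred_eq, not_or, not_and, not_not] at hc
  exact h ((hc.1 hx).add (hc.2 hx))

theorem sub (hf : Nice f) (hg : Nice g) : Nice fun x => f x - g x := by
  obtain ⟨B, hB⟩ := hf.bdd
  obtain ⟨B', hB'⟩ := hg.bdd
  refine ⟨hf.meas.sub hg.meas, ⟨B + B', fun x hx => (abs_sub _ _).trans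
    (add_le_add (hB x hx) (hB' x hx))⟩, (hf.cts.union hg.cts).mono ?_⟩
  rintro x ⟨hx, h⟩
  by_contra hc
  simp only [Set.mem_union, Set.mem_ofPred_eq, not_or, not_and, not_not] at hc
  exact h ((hc.1 hx).sub (hc.2 hx))

theorem mul (hf : Nice f) (hg : Nice g) : Nice fun x => f x * g x := by
  obtain ⟨B, hB⟩ := hf.bdd
  obtain ⟨B', hB'⟩ := hg.bdd
  refine ⟨hf.meas.mul hg.meas, ⟨B * B', fun x hx => ?_⟩, (hf.cts.union hg.cts).mono ?_⟩
  · rw [abs_mul]
    exact mul_le_mul (hB x hx) (hB' x hx) (abs_nonneg _) ((abs_nonneg _).trans (hB x hx))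
  · rintro x ⟨hx, h⟩
    by_contra hc
    simp only [Set.mem_union, Set.mem_ofPred_eq, not_or, not_and, not_not] at hc
    exact h ((hc.1 hx).mul (hc.2 hx))

theorem abs (hf : Nice f) : Nice fun x => |f x| := by
  obtain ⟨B, hB⟩ := hf.bdd
  refine ⟨hf.meas.norm, ⟨B, fun x hx => by rw [abs_abs]; exact hB x hx⟩, hf.cts.mono ?_⟩
  rintro x ⟨hx, h⟩
  exact ⟨hx, fun hc => h hc.abs⟩

theorem sum {ι : Type*} {s : Finset ι} {F : ι → ℝ → ℝ} (h : ∀ i ∈ s, Nice (F i)) :
    Nice fun x => ∑ i ∈ s, F i x := by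
  classical
  induction s using Finset.induction_on with
  | empty => simpa using const 0
  | insert a s ha ih =>
    have h1 := (h a (Finset.mem_insert_self a s)).add
      (ih fun i hi => h i (Finset.mem_insert_of_mem hi))
    have e : (fun x => ∑ i ∈ insert a s, F i x) = fun x => F a x + ∑ i ∈ s, F i x := by
      funext x
      rw [Finset.sum_insert ha]
    rw [e]
    exact h1

/-- the primitive from the right end -/
theorem prim_cont (hg : Nice g) : ContinuousOn (fun s => ∫ u in Set.Ioo s 1, g u) (Set.Icc 0 1) := by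
  have hi : IntegrableOn g (Set.uIcc (0 : ℝ) 1) := by
    rw [Set.uIcc_of_le zero_le_one]
    exact (integrableOn_Icc_iff_integrableOn_Ioo (by simp) (by simp)).2 hg.int
  have h := intervalIntegral.continuousOn_primitive_interval_left (μ := volume) (a := 0) (b := 1)
    (f := g) hi
  rw [Set.uIcc_of_le zero_le_one] at h
  refine h.congr fun s hs => ?_
  dsimp only
  rw [intervalIntegral.integral_of_le hs.2, integral_Ioc_eq_integral_Ioo]

theorem prim_deriv (hg : Nice g) {x : ℝ} (hx : x ∈ Set.Ioo (0 : ℝ) 1) (hc : ContinuousAt g x) :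
    HasDerivAt (fun s => ∫ u in Set.Ioo s 1, g u) (-(g x)) x := by
  have hii : IntervalIntegrable g volume x 1 := by
    rw [intervalIntegrable_iff_integrableOn_Ioo_of_le hx.2.le]
    exact hg.int.mono_set (Set.Ioo_subset_Ioo hx.1.le le_rfl)
  have h1 : HasDerivAt (fun s => ∫ u in s..1, g u) (-(g x)) x := by
    refine intervalIntegral.integral_hasDerivAt_left hii ?_ hc
    exact ⟨Set.Ioo 0 1, isOpen_Ioo.mem_nhds hx, hg.meas⟩
  refine h1.congr_of_eventuallyEq ?_
  filter_upwards [Ioo_mem_nhds hx.1 hx.2] with a ha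
  rw [intervalIntegral.integral_of_le ha.2.le, integral_Ioc_eq_integral_Ioo]

theorem prim_split (hg : Nice g) {s : ℝ} (hs : s ∈ Set.Icc (0 : ℝ) 1) :
    ∫ u in Set.Ioo 0 s, g u = (∫ u in Set.Ioo (0 : ℝ) 1, g u) - ∫ u in Set.Ioo s 1, g u := by
  have hii : ∀ a b : ℝ, 0 ≤ a → a ≤ b → b ≤ 1 → IntervalIntegrable g volume a b := by
    intro a b ha hab hb
    rw [intervalIntegrable_iff_integrableOn_Ioo_of_le hab]
    exact hg.int.mono_set (Set.Ioo_subset_Ioo ha hb)
  rw [← integral_Ioc_eq_integral_Ioo, ← integral_Ioc_eq_integral_Ioo, ← integral_Ioc_eq_integral_Ioo,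
    ← intervalIntegral.integral_of_le hs.1, ← intervalIntegral.integral_of_le zero_le_one,
    ← intervalIntegral.integral_of_le hs.2, ← intervalIntegral.integral_add_adjacent_intervals
      (hii 0 s le_rfl hs.1 hs.2) (hii s 1 hs.1 hs.2 le_rfl)]
  ring

theorem prim0_cont (hg : Nice g) : ContinuousOn (fun s => ∫ u in Set.Ioo 0 s, g u) (Set.Icc 0 1) :=
  (continuousOn_const.sub hg.prim_cont).congr fun _ hs => hg.prim_split hs

theorem prim0_deriv (hg : Nice g) {x : ℝ} (hx : x ∈ Set.Ioo (0 : ℝ) 1) (hc : ContinuousAt g x) :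
    HasDerivAt (fun s => ∫ u in Set.Ioo 0 s, g u) (g x) x := by
  have h1 := (hg.prim_deriv hx hc).const_sub (∫ u in Set.Ioo (0 : ℝ) 1, g u)
  rw [neg_neg] at h1
  refine h1.congr_of_eventuallyEq ?_
  filter_upwards [Ioo_mem_nhds hx.1 hx.2] with a ha
  exact hg.prim_split ⟨ha.1.le, ha.2.le⟩

theorem prim_abs_le (hg : Nice g) {s : ℝ} (hs : 0 ≤ s) :
    |∫ u in Set.Ioo s 1, g u| ≤ ∫ u in Set.Ioo (0 : ℝ) 1, |g u| := by
  refine (abs_integral_le_integral_abs).trans ?_
  exact setIntegral_mono_set hg.abs.int (Filter.Eventually.of_forall fun _ => abs_nonneg _)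
    (Set.Ioo_subset_Ioo_left hs).eventuallyLE

theorem of_contIcc (hc : ContinuousOn g (Set.Icc 0 1)) : Nice g := by
  obtain ⟨B, hB⟩ := isCompact_Icc.exists_bound_of_continuousOn hc
  exact of_cont (B := B) (hc.mono Set.Ioo_subset_Icc_self) fun x hx => hB x ⟨hx.1.le, hx.2.le⟩

theorem prim (hg : Nice g) : Nice fun s => ∫ u in Set.Ioo s 1, g u := of_contIcc hg.prim_cont

theorem prim0 (hg : Nice g) : Nice fun s => ∫ u in Set.Ioo 0 s, g u := of_contIcc hg.prim0_cont

/-- FTC off a countable set -/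
theorem ftc {F : ℝ → ℝ} (hg : Nice g) {s : ℝ} (hs : s ∈ Set.Ioo (0 : ℝ) 1)
    (hF : ContinuousOn F (Set.Icc s 1)) {S : Set ℝ} (hS : S.Countable)
    (hd : ∀ x ∈ Set.Ioo s 1, x ∉ S → HasDerivAt F (g x) x) :
    ∫ u in Set.Ioo s 1, g u = F 1 - F s := by
  have h := integral_eq_of_hasDerivAt_off_countable_of_le F g hs.2.le hS hF
    (fun x hx => hd x hx.1 hx.2) (by
      rw [intervalIntegrable_iff_integrableOn_Ioo_of_le hs.2.le]
      exact hg.int.mono_set (Set.Ioo_subset_Ioo hs.1.le le_rfl))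
  rwa [intervalIntegral.integral_of_le hs.2.le, integral_Ioc_eq_integral_Ioo] at h

end Nice

/-- **(ID)** -/
theorem closure_id (τ a a' c c' : ℝ) {ρ ρ' : ℝ → ℝ} (hρ : Nice ρ) (hρ' : Nice ρ') {s : ℝ}
    (hs : s ∈ Set.Ioo (0 : ℝ) 1) :
    a * lamF c' ρ' s - a' * lamF c ρ s + τ * (lamF c ρ s * lamF c' ρ' s) =
      DF τ a a' c c' ρ ρ' - (∫ u in Set.Ioo s 1, eF τ a a' c c' ρ ρ' u) -
        s * eF τ a a' c c' ρ ρ' s := by
  set A : ℝ → ℝ := fun u => c - ∫ v in Set.Ioo u 1, ρ v with hA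
  set A' : ℝ → ℝ := fun u => c' - ∫ v in Set.Ioo u 1, ρ' v with hA'
  set P : ℝ → ℝ := fun u => ∫ v in Set.Ioo 0 u, ρ v * ρ' v with hP
  have hAc : ContinuousOn A (Set.Icc 0 1) := continuousOn_const.sub hρ.prim_cont
  have hAc' : ContinuousOn A' (Set.Icc 0 1) := continuousOn_const.sub hρ'.prim_cont
  have hPc : ContinuousOn P (Set.Icc 0 1) := (hρ.mul hρ').prim0_cont
  have hsub : Set.Icc s 1 ⊆ Set.Icc 0 1 := Set.Icc_subset_Icc_left hs.1.le
  have e : ∀ u, eF τ a a' c c' ρ ρ' u = a * ρ' u - a' * ρ u +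
      τ * (ρ u * A' u + A u * ρ' u - (P u + u * (ρ u * ρ' u))) := by
    intro u
    simp only [eF, lamF, hA, hA', hP]
    ring
  have hg : Nice (eF τ a a' c c' ρ ρ') := by
    have h1 : Nice fun u => a * ρ' u - a' * ρ u +
      τ * (ρ u * A' u + A u * ρ' u - (P u + u * (ρ u * ρ' u))) :=
      (((Nice.const a).mul hρ').sub ((Nice.const a').mul hρ)).add
        ((Nice.const τ).mul (((hρ.mul (Nice.of_contIcc hAc')).add
          ((Nice.of_contIcc hAc).mul hρ')).sub
            ((Nice.of_contIcc hPc).add (Nice.id'.mul (hρ.mul hρ')))))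
    refine (?_ : _ = eF τ a a' c c' ρ ρ') ▸ h1
    funext u
    exact (e u).symm
  have h1 := hg.ftc hs (F := fun u => a * A' u - a' * A u + τ * (A u * A' u - u * P u))
    (by
      refine ContinuousOn.mono ?_ hsub
      exact ((continuousOn_const.mul hAc').sub (continuousOn_const.mul hAc)).add
        (continuousOn_const.mul ((hAc.mul hAc').sub (continuousOn_id.mul hPc))))
    (hρ.cts.union hρ'.cts)
    (by
      intro x hx hx'
      have hx0 : x ∈ Set.Ioo (0 : ℝ) 1 := ⟨hs.1.trans hx.1, hx.2⟩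
      simp only [Set.mem_union, Set.mem_ofPred_eq, not_or, not_and, not_not] at hx'
      have d1 : HasDerivAt A (ρ x) x := by
        have := (hρ.prim_deriv hx0 (hx'.1 hx0)).const_sub c
        simpa using this
      have d2 : HasDerivAt A' (ρ' x) x := by
        have := (hρ'.prim_deriv hx0 (hx'.2 hx0)).const_sub c'
        simpa using this
      have d3 : HasDerivAt P (ρ x * ρ' x) x :=
        (hρ.mul hρ').prim0_deriv hx0 ((hx'.1 hx0).mul (hx'.2 hx0))
      have d4 := ((d2.const_mul a).sub (d1.const_mul a')).add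
        (((d1.mul d2).sub ((hasDerivAt_id x).mul d3)).const_mul τ)
      rw [e x]
      refine d4.congr_deriv ?_
      simp only [id]
      ring)
  rw [h1, e s]
  have e1 : ∀ g : ℝ → ℝ, ∫ v in Set.Ioo (1 : ℝ) 1, g v = 0 := by intro g; simp
  simp only [DF, lamF, hA, hA', hP, e1]
  ring

/-- **(ODE)** -/
theorem closure_ode (C : ℝ) {g : ℝ → ℝ} (hg : Nice g) {s : ℝ} (hs : s ∈ Set.Ioo (0 : ℝ) 1) :
    g s - C = (∫ u in Set.Ioo s 1, lamF C g u / u ^ 2) - lamF C g s / s := by
  set A : ℝ → ℝ := fun u => C - ∫ v in Set.Ioo u 1, g v with hA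
  have hAc : ContinuousOn A (Set.Icc 0 1) := continuousOn_const.sub hg.prim_cont
  have hsub : Set.Icc s 1 ⊆ Set.Icc 0 1 := Set.Icc_subset_Icc_left hs.1.le
  have hlam : Nice (lamF C g) :=
    ((Nice.of_contIcc hAc).sub (Nice.id'.mul hg) : Nice fun u => A u - u * g u)
  have hii : IntegrableOn (fun u => lamF C g u / u ^ 2) (Set.Ioo s 1) := by
    have h1 : IntegrableOn (lamF C g) (Set.Ioo s 1) :=
      hlam.int.mono_set (Set.Ioo_subset_Ioo_left hs.1.le)
    have h2 : IntegrableOn (fun u => lamF C g u * (u ^ 2)⁻¹) (Set.Ioo s 1) := by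
      refine Integrable.mul_bdd (c := (s ^ 2)⁻¹) h1
        (by exact (measurable_id.pow_const 2).inv.aestronglyMeasurable) ?_
      refine (ae_restrict_iff' measurableSet_Ioo).2 (Filter.Eventually.of_forall fun u hu => ?_)
      have hs0 := hs.1
      have hu0 : 0 < u := hs.1.trans hu.1
      rw [Real.norm_eq_abs, abs_of_pos (by positivity)]
      apply inv_anti₀ (by positivity)
      exact pow_le_pow_left₀ hs.1.le hu.1.le 2
    exact h2
  have h := integral_eq_of_hasDerivAt_off_countable_of_le (fun u => A u / u)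
    (fun u => -(lamF C g u / u ^ 2)) hs.2.le hg.cts
    (by
      refine (hAc.mono hsub).div continuousOn_id ?_
      intro u hu
      exact (lt_of_lt_of_le hs.1 hu.1).ne')
    (by
      intro x hx
      have hx0 : x ∈ Set.Ioo (0 : ℝ) 1 := ⟨hs.1.trans hx.1.1, hx.1.2⟩
      have hx' : ContinuousAt g x := by
        by_contra hc
        exact hx.2 ⟨hx0, hc⟩
      have d1 : HasDerivAt A (g x) x := by
        have := (hg.prim_deriv hx0 hx').const_sub C
        simpa using this
      have d2 := d1.div (hasDerivAt_id x) hx0.1.ne'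
      refine d2.congr_deriv ?_
      simp only [id, lamF, hA]
      ring)
    (by
      rw [intervalIntegrable_iff_integrableOn_Ioo_of_le hs.2.le]
      exact hii.neg)
  rw [intervalIntegral.integral_of_le hs.2.le, integral_Ioc_eq_integral_Ioo, integral_neg] at h
  have e1 : ∀ g : ℝ → ℝ, ∫ v in Set.Ioo (1 : ℝ) 1, g v = 0 := by intro g; simp
  have h2 : ∫ u in Set.Ioo s 1, lamF C g u / u ^ 2 = A s / s - C := by
    have : A 1 / 1 = C := by simp [hA]
    linarith
  rw [h2]
  have hs0 := hs.1.ne'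
  simp only [lamF, hA]
  field_simp
  ring

end Crest.Agent.RI
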