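import Crest.Agent.RI.ExKer

/-!
# Row 164, Part 8.5: derivative and continuity of `R` (helper50)
-/

set_option autoImplicit false

namespace Crest.Agent.RI

open MeasureTheory ProbabilityTheory
open Crest.ProbabilityR.InvariantGlass

variable (D : Blk)

/-- `R(x) = R(0) + x Σ α_l (R - d_l)²/V_l` -/
theorem Blk.R_expand {x : ℝ} (hx : 0 ≤ x) :
    D.R x = D.R 0 + x * ∑ l, D.α l * (D.R x - D.d l) ^ 2 / D.V l x := by
  rcases hx.eq_or_lt with h | h
  · rw [← h, zero_mul, add_zero]
  · have h1 : ∀ l, D.α l / D.V l x = D.α l - x * (D.R x * D.α l - D.α l * D.d l) +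
        x ^ 2 * (D.α l * (D.R x - D.d l) ^ 2 / D.V l x) := by
      intro l
      have h3 := (D.V_pos hx l).ne'
      have h4 : D.V l x = 1 + x * (D.R x - D.d l) := by unfold Blk.V; ring
      field_simp
      rw [h4]
      ring
    have h2 := D.sum_V hx
    rw [Finset.sum_congr rfl fun l _ => h1 l, Finset.sum_add_distrib, Finset.sum_sub_distrib,
      ← Finset.mul_sum, ← Finset.mul_sum, Finset.sum_sub_distrib, ← Finset.mul_sum, D.sum,
      ← D.R_zero] at h2
    have h5 : x * (D.R x - D.R 0) =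
        x * (x * ∑ l, D.α l * (D.R x - D.d l) ^ 2 / D.V l x) := by linarith
    have h6 := mul_left_cancel₀ h.ne' h5
    linarith

theorem Blk.R_continuousOn : ContinuousOn D.R (Set.Ici 0) := by
  intro x hx
  rcases (show (0 : ℝ) ≤ x from hx).eq_or_lt with h | h
  · -- at `0`
    subst h
    obtain ⟨C, hC0, hC⟩ := D.R_lip
    have hcI : ContinuousOn D.R (Set.Icc 0 1) := by
      have hl : LipschitzOnWith (Real.toNNReal C) D.R (Set.Icc 0 1) := by
        refine LipschitzOnWith.of_dist_le_mul fun x hx y hy => ?_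
        rw [Real.dist_eq, Real.dist_eq, Real.coe_toNNReal C hC0, abs_sub_comm, abs_sub_comm x y]
        exact hC x hx y hy
      exact hl.continuousOn
    have h1 := hcI 0 ⟨le_rfl, zero_le_one⟩
    refine h1.mono_of_mem_nhdsWithin ?_
    exact Icc_mem_nhdsGE zero_lt_one
  · have h1 : ContinuousAt (fun y => D.F y / y) x :=
      (D.F_hasDerivAt h).continuousAt.div continuousAt_id h.ne'
    refine (h1.congr ?_).continuousWithinAt
    filter_upwards [lt_mem_nhds h] with y hy
    unfold Blk.F
    field_simp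

theorem Blk.R'_continuousOn : ContinuousOn D.R' (Set.Ici 0) := by
  have h : ContinuousOn (fun x => ∑ l, D.f' l x * (D.d l - D.R x) ^ 2) (Set.Ici 0) := by
    refine continuousOn_finsetSum _ fun l _ => ?_
    exact (D.f'_continuousOn l).mul ((continuousOn_const.sub D.R_continuousOn).pow 2)
  exact h.congr fun x hx => (D.f'_sum_sq hx).symm

/-- `Σ_l f_l'(x) (d_l - R(x)) = x R'(x)` -/
theorem Blk.sum_f'_d {x : ℝ} (hx : 0 ≤ x) : ∑ l, D.f' l x * (D.d l - D.R x) = x * D.R' x := by
  rw [← D.f'_sum_sq hx, Finset.mul_sum]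
  have h1 : ∑ l, D.α l * (D.d l - D.R x) / D.V l x = 0 := by
    have e : ∀ l, D.α l * (D.d l - D.R x) / D.V l x =
        D.α l * D.d l / D.V l x - D.R x * (D.α l / D.V l x) := by intro l; ring
    rw [Finset.sum_congr rfl fun l _ => e l, Finset.sum_sub_distrib, ← Finset.mul_sum,
      D.sum_V hx, D.sum_V_d hx]
    ring
  have hW := D.W_ge_one hx
  have hW0 : D.W x ≠ 0 := by linarith
  have h2 : ∀ l, D.f' l x * (D.d l - D.R x) = x * (D.f' l x * (D.d l - D.R x) ^ 2) +
      (1 / D.W x) * (D.α l * (D.d l - D.R x) / D.V l x) := by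
    intro l
    have h3 := (D.V_pos hx l).ne'
    rw [D.f'_eq hx]
    have h4 : D.V l x = 1 + x * (D.R x - D.d l) := by unfold Blk.V; ring
    field_simp
    rw [h4]
    ring
  rw [Finset.sum_congr rfl fun l _ => h2 l, Finset.sum_add_distrib, ← Finset.mul_sum,
    ← Finset.mul_sum, h1, mul_zero, add_zero]

/-- `x R'(x) = Θ(x) - R(x)` -/
theorem Blk.x_R' {x : ℝ} (hx : 0 ≤ x) : x * D.R' x = D.Θ x - D.R x := by
  rw [← D.sum_f'_d hx]
  unfold Blk.Θ
  have e : ∀ l, D.f' l x * (D.d l - D.R x) = D.d l * D.f' l x - D.R x * D.f' l x := by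
    intro l; ring
  rw [Finset.sum_congr rfl fun l _ => e l, Finset.sum_sub_distrib, ← Finset.mul_sum, D.sum_f' hx,
    mul_one]

theorem Blk.R_hasDerivWithinAt {x : ℝ} (hx : 0 ≤ x) :
    HasDerivWithinAt D.R (D.R' x) (Set.Ici 0) x := by
  rcases hx.eq_or_lt with h | h
  · subst h
    have hQ : ContinuousOn (fun y => ∑ l, D.α l * (D.R y - D.d l) ^ 2 / D.V l y) (Set.Ici 0) := by
      refine continuousOn_finsetSum _ fun l _ => ?_
      refine ContinuousOn.div ?_ (D.V_continuousOn l) fun y hy => (D.V_pos hy l).ne'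
      exact continuousOn_const.mul ((D.R_continuousOn.sub continuousOn_const).pow 2)
    have h0 : ∑ l, D.α l * (D.R 0 - D.d l) ^ 2 / D.V l 0 = D.R' 0 := by
      rw [← D.f'_sum_sq le_rfl]
      refine Finset.sum_congr rfl fun l _ => ?_
      have hW0 : D.W 0 = 1 := by
        unfold Blk.W
        simp only [D.V_zero, one_pow, div_one]
        exact D.sum
      rw [D.f'_eq le_rfl, D.V_zero, hW0]
      ring
    have h1 := hQ 0 (Set.mem_Ici.2 le_rfl)
    unfold ContinuousWithinAt at h1
    change Filter.Tendsto _ _ (nhds (∑ l, D.α l * (D.R 0 - D.d l) ^ 2 / D.V l 0)) at h1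
    rw [h0] at h1
    rw [hasDerivWithinAt_iff_tendsto_slope]
    refine (h1.mono_left (nhdsWithin_mono _ Set.sdiff_subset)).congr' ?_
    filter_upwards [self_mem_nhdsWithin] with y hy
    have hy0 : (0 : ℝ) ≤ y := hy.1
    have hy1 : y ≠ 0 := hy.2
    rw [slope_def_field]
    have := D.R_expand hy0
    rw [sub_zero, eq_div_iff hy1]
    linarith
  · have h1 := (D.F_hasDerivAt h).div (hasDerivAt_id x) h.ne'
    have h2 : HasDerivAt D.R ((D.Θ x * id x - D.F x * 1) / id x ^ 2) x := by
      refine h1.congr_of_eventuallyEq ?_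
      filter_upwards [lt_mem_nhds h] with y hy
      simp only [Pi.div_apply, id]
      unfold Blk.F
      field_simp
    have e : (D.Θ x * id x - D.F x * 1) / id x ^ 2 = D.R' x := by
      have h3 := D.x_R' hx
      simp only [id]
      unfold Blk.F
      have h4 : D.Θ x = x * D.R' x + D.R x := by linarith
      rw [h4]
      field_simp
      ring
    rw [e] at h2
    exact h2.hasDerivWithinAt

end Crest.Agent.RI
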