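import Crest.Agent.RI.ExClo
import Crest.Agent.RI.RPrimeA

/-!
# Row 164, Parts 2.4/8.5: the increments `rC`, `tauC` of the canonical path (helper50)
-/

set_option autoImplicit false

namespace Crest.Agent.RI

open MeasureTheory ProbabilityTheory
open Crest.ProbabilityR.InvariantGlass

section

variable (D : Blk) {k : ℕ} {p : ℕ → ℝ}

/-- the block integrals of a nonnegative function are nonnegative -/
theorem block_nonneg {F' : ℝ → ℝ} (hp : PathOK k p)
    (hF : ∀ x, 0 ≤ x → 0 ≤ F' x) {i : ℕ} (h0 : 1 ≤ i) (hi : i < k) :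
    0 ≤ ∫ u in (p (i - 1))..(p i), F' (deficit (stepK k p) u) := by
  have m1 := hp.mem i hi
  have m2 := hp.mem (i - 1) (by omega)
  refine intervalIntegral.integral_nonneg (hp.mono (i - 1) i (by omega) hi) fun u hu => ?_
  exact hF _ (deficit_mem (hp.trial (by omega)) ⟨m2.1.trans hu.1, hu.2.trans m1.2⟩).1

theorem rC_nonneg (hk : 0 < k) (hp : PathOK k p) (i : ℕ) (l : Fin D.K) : 0 ≤ rC D k p i l := by
  rcases Nat.eq_zero_or_pos i with h | h
  · subst h
    rw [rC_zero_eq D hk hp]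
    exact mul_nonneg (hp.mem 0 hk).1 (D.f'_nonneg (lamC_mem hp hk).1 l)
  · rcases lt_trichotomy i k with h1 | h1 | h1
    · rw [rC_mid_eq D hp h h1,
        ← block_mid hp (fun x hx => D.f_hasDerivWithinAt hx l) (D.f'_continuousOn l) h h1]
      exact block_nonneg hp (fun x hx => D.f'_nonneg hx l) h h1
    · subst h1
      rw [rC_last_eq D hk hp]
      exact D.f_nonneg (lamC_mem hp (by omega)).1 l
    · rw [rC_big D p h1]

theorem rC_sum_lt (_hk : 0 < k) (l : Fin D.K) {j : ℕ} (hj : j < k) :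
    ∑ i ∈ Finset.range (j + 1), rC D k p i l = rhoC D k p l j := by
  induction j with
  | zero =>
    rw [Finset.sum_range_one]
    unfold rC
    rw [if_pos hj, if_pos rfl, sub_zero]
  | succ j ih =>
    rw [Finset.sum_range_succ, ih (by omega)]
    unfold rC
    rw [if_pos hj, if_neg (by omega), Nat.add_sub_cancel]
    ring

theorem rC_sum (hk : 0 < k) (hp : PathOK k p) (l : Fin D.K) :
    (∑ i ∈ Finset.range (k + 1), rC D k p i l = cC D k p l) ∧ cC D k p l ≤ 1 ∧
    ∀ j < k, ∑ i ∈ Finset.range (j + 1), rC D k p i l = rhoC D k p l j := by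
  refine ⟨?_, ?_, fun j hj => rC_sum_lt D hk l hj⟩
  · obtain ⟨m, rfl⟩ : ∃ m, k = m + 1 := ⟨k - 1, by omega⟩
    rw [Finset.sum_range_succ, rC_sum_lt D hk l (by omega)]
    unfold rC
    rw [if_neg (lt_irrefl _), if_pos rfl, if_neg (by omega), Nat.add_sub_cancel]
    ring
  · have h := D.cc_le_one (hp.trial hk) l
    rw [D.cc_eq] at h
    exact h

/-! ### `tauC` -/

theorem tauC_zero_eq (hk : 0 < k) (hp : PathOK k p) :
    tauC D k p 0 = p 0 * D.R' (lamC k p 0) := by
  unfold tauC hC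
  rw [if_pos hk, if_pos rfl, sub_zero]
  exact Ioo_zero hk hp D.R'

theorem tauC_mid_eq (hp : PathOK k p) {i : ℕ} (h0 : 1 ≤ i) (hi : i < k) :
    tauC D k p i = (D.R (lamC k p (i - 1)) - D.R (lamC k p i)) / ζLB k i := by
  unfold tauC hC
  rw [if_pos hi, if_neg (by omega)]
  rw [Ioo_diff (by omega) hp D.R'_continuousOn h0 hi]
  exact block_mid hp (fun x hx => D.R_hasDerivWithinAt hx) D.R'_continuousOn h0 hi

theorem tauC_big (p : ℕ → ℝ) {i : ℕ} (hi : k ≤ i) : tauC D k p i = 0 := by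
  unfold tauC
  rw [if_neg (by omega)]

theorem tauC_nonneg (hk : 0 < k) (hp : PathOK k p) (i : ℕ) : 0 ≤ tauC D k p i := by
  rcases Nat.eq_zero_or_pos i with h | h
  · subst h
    rw [tauC_zero_eq D hk hp]
    exact mul_nonneg (hp.mem 0 hk).1 (D.R'_nonneg (lamC_mem hp hk).1)
  · rcases lt_or_ge i k with h1 | h1
    · rw [tauC_mid_eq D hp h h1,
        ← block_mid hp (fun x hx => D.R_hasDerivWithinAt hx) D.R'_continuousOn h h1]
      exact block_nonneg hp (fun x hx => D.R'_nonneg hx) h h1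
    · rw [tauC_big D p h1]

theorem hh_tauC {i : ℕ} (hi : i < k) : hh (tauC D k p) i = hC D k p i := by
  unfold hh
  induction i with
  | zero =>
    rw [Finset.sum_range_one]
    unfold tauC
    rw [if_pos hi, if_pos rfl, sub_zero]
  | succ j ih =>
    rw [Finset.sum_range_succ, ih (by omega)]
    unfold tauC
    rw [if_pos hi, if_neg (by omega), Nat.add_sub_cancel]
    ring

/-- `h*` is bounded -/
theorem hC_bound (D : Blk) : ∃ C : ℝ, 0 ≤ C ∧ ∀ (k : ℕ) (p : ℕ → ℝ), 0 < k → PathOK k p →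
    ∀ i < k, hh (tauC D k p) i = hC D k p i ∧ hC D k p i ≤ C := by
  obtain ⟨B, hB⟩ := isCompact_Icc.exists_bound_of_continuousOn
    (D.R'_continuousOn.mono (fun x (hx : x ∈ Set.Icc (0 : ℝ) 1) => hx.1))
  refine ⟨max B 0, le_max_right _ _, fun k p hk hp i hi => ⟨hh_tauC D hi, ?_⟩⟩
  have m1 := hp.mem i hi
  unfold hC
  rw [← integral_Ioc_eq_integral_Ioo, ← intervalIntegral.integral_of_le m1.1]
  calc ∫ u in (0 : ℝ)..(p i), D.R' (deficit (stepK k p) u) ≤ ∫ _u in (0 : ℝ)..(p i), max B 0 := by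
        refine intervalIntegral.integral_mono_on m1.1
          (comp_deficit_ii hk hp D.R'_continuousOn ⟨le_rfl, zero_le_one⟩ m1)
          intervalIntegrable_const fun u hu => ?_
        have h1 := deficit_mem (hp.trial hk) ⟨hu.1, hu.2.trans m1.2⟩
        have h2 := hB _ h1
        rw [Real.norm_eq_abs] at h2
        exact (le_abs_self _).trans (h2.trans (le_max_left _ _))
    _ = p i * max B 0 := by rw [intervalIntegral.integral_const, sub_zero, smul_eq_mul]
    _ ≤ 1 * max B 0 := mul_le_mul_of_nonneg_right m1.2 (le_max_right _ _)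
    _ = max B 0 := one_mul _

end

end Crest.Agent.RI
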