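import Crest.Agent.RI.RCfacts
import Crest.Agent.RI.RPrime

/-!
# Row 164, Part 8.5: the average of the row values (helper50)
-/

set_option autoImplicit false

namespace Crest.Agent.RI

open MeasureTheory ProbabilityTheory
open Crest.ProbabilityR.InvariantGlass

variable (D : Blk) {k : ℕ} {p : ℕ → ℝ}

/-- `∫_0^{p_m} F'(D_p)` -/
theorem Ioo_sum {F F' : ℝ → ℝ} (hp : PathOK k p)
    (hF : ∀ x, 0 ≤ x → HasDerivWithinAt F (F' x) (Set.Ici 0) x) (hc : ContinuousOn F' (Set.Ici 0))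
    {m : ℕ} (hm : m < k) :
    ∫ u in Set.Ioo (0 : ℝ) (p m), F' (deficit (stepK k p) u) = p 0 * F' (lamC k p 0) +
      ∑ i ∈ Finset.Ico 1 (m + 1), (F (lamC k p (i - 1)) - F (lamC k p i)) / ζLB k i := by
  induction m with
  | zero => simp [Ioo_zero hm hp F']
  | succ m ih =>
    rw [Finset.sum_Ico_succ_top (by omega), ← add_assoc, ← ih (by omega),
      ← block_mid hp hF hc (by omega) hm, Nat.add_sub_cancel]
    have h := Ioo_diff (by omega) hp hc (i := m + 1) (by omega) hm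
    rw [Nat.add_sub_cancel] at h
    linarith

theorem integral_deficit {F F' : ℝ → ℝ} (hk : 0 < k) (hp : PathOK k p)
    (hF : ∀ x, 0 ≤ x → HasDerivWithinAt F (F' x) (Set.Ici 0) x)
    (hc : ContinuousOn F' (Set.Ici 0)) :
    ∫ u in Set.Ioo (0 : ℝ) 1, F' (deficit (stepK k p) u) = p 0 * F' (lamC k p 0) +
      ∑ i ∈ Finset.Ico 1 k, (F (lamC k p (i - 1)) - F (lamC k p i)) / ζLB k i +
      (F (lamC k p (k - 1)) - F 0) := by
  have h1 := Ioo_diff_last hk hp hc
  rw [block_last hk hp hF hc, Ioo_sum hp hF hc (by omega : k - 1 < k),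
    Nat.sub_add_cancel hk] at h1
  linarith

theorem TrP_sum {ι : Type*} (s : Finset ι) (a : ι → ℝ) (k : ℕ) (p : ℕ → ℝ) (F F' : ι → ℝ → ℝ) :
    ∑ l ∈ s, a l * TrP k p (F l) (F' l) =
      TrP k p (fun x => ∑ l ∈ s, a l * F l x) (fun x => ∑ l ∈ s, a l * F' l x) := by
  unfold TrP
  simp only [mul_add, Finset.sum_add_distrib, Finset.mul_sum]
  congr 1
  · congr 1
    rw [Finset.sum_comm]
    refine Finset.sum_congr rfl fun i _ => ?_
    rw [← Finset.sum_sub_distrib, Finset.sum_div]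
    exact Finset.sum_congr rfl fun l _ => by ring
  · exact Finset.sum_congr rfl fun l _ => by ring

theorem TrP_congr (hk : 0 < k) (hp : PathOK k p) {F F' G G' : ℝ → ℝ} (h : ∀ x, 0 ≤ x → F x = G x)
    (h' : ∀ x, 0 ≤ x → F' x = G' x) : TrP k p F F' = TrP k p G G' := by
  unfold TrP
  rw [h _ (lamC_mem hp (by omega : k - 1 < k)).1, h' _ (lamC_mem hp hk).1]
  congr 2
  refine Finset.sum_congr rfl fun i hi => ?_
  rw [Finset.mem_Ico] at hi
  rw [h _ (lamC_mem hp (by omega : i - 1 < k)).1, h _ (lamC_mem hp hi.2).1]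

/-- `S_j = (1/k) Σ_{i ≥ j} p_i` -/
theorem lamC_S (hp : PathOK k p) {j : ℕ} (hj : j < k) :
    1 - lamC k p j - ζLB k j * p j = ∑ i ∈ Finset.Ico j k, (1 / (k : ℝ)) * p i := by
  have hk : 0 < k := by omega
  have hk' : (k : ℝ) ≠ 0 := by exact_mod_cast hk.ne'
  unfold lamC
  rw [deficit_stepK hk, ζLB_lt hj.le hk, Finset.range_eq_Ico,
    ← Finset.sum_Ico_consecutive _ (Nat.zero_le j) hj.le]
  have a1 : ∑ i ∈ Finset.Ico 0 j, (1 / (k : ℝ)) * max (p i - p j) 0 = 0 := by
    refine Finset.sum_eq_zero fun i hi => ?_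
    rw [Finset.mem_Ico] at hi
    rw [max_eq_right (by linarith [hp.mono i j hi.2.le hj]), mul_zero]
  have a2 : ∑ i ∈ Finset.Ico j k, (1 / (k : ℝ)) * max (p i - p j) 0 =
      ∑ i ∈ Finset.Ico j k, (1 / (k : ℝ)) * p i - ∑ _i ∈ Finset.Ico j k, (1 / (k : ℝ)) * p j := by
    rw [← Finset.sum_sub_distrib]
    refine Finset.sum_congr rfl fun i hi => ?_
    rw [Finset.mem_Ico] at hi
    rw [max_eq_left (by linarith [hp.mono j i hi.1 hi.2])]
    ring
  rw [a1, a2, Finset.sum_const, Nat.card_Ico, nsmul_eq_mul, Nat.cast_sub hj.le]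
  field_simp
  ring

/-- Abel summation -/
theorem row_abel (hp : PathOK k p) {m : ℕ} (hm : m < k) :
    D.R (lamC k p m) * p m - ∑ i ∈ Finset.Ico 1 (m + 1), ((lamC k p (i - 1) * D.R (lamC k p (i - 1)) -
        lamC k p i * D.R (lamC k p i)) / ζLB k i) -
      p 0 * D.R (lamC k p 0) - p 0 * (lamC k p 0 * D.R' (lamC k p 0)) +
      ∑ i ∈ Finset.range (m + 1), tauC D k p i =
      ∑ i ∈ Finset.range (m + 1), tauC D k p i * (1 - lamC k p i - ζLB k i * p i) := by
  induction m with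
  | zero =>
    have hz : ζLB k 0 = 0 := by rw [ζLB_lt (by omega) hm]; simp
    simp only [zero_add, Finset.Ico_self, Finset.sum_empty, Finset.range_one, Finset.sum_singleton]
    rw [tauC_zero_eq D hm hp, hz]
    ring
  | succ m ih =>
    have ih' := ih (by omega)
    rw [Finset.sum_Ico_succ_top (by omega), Finset.sum_range_succ _ (m + 1),
      Finset.sum_range_succ _ (m + 1), ← ih', Nat.add_sub_cancel]
    have hz := ζLB_pos' (k := k) (i := m + 1) (by omega) hm
    have h1 := lamC_pred hp (i := m + 1) (by omega) hm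
    have h2 := tauC_mid_eq D hp (i := m + 1) (by omega) hm
    rw [Nat.add_sub_cancel] at h1 h2
    set R0 := D.R (lamC k p m)
    set R1 := D.R (lamC k p (m + 1))
    have h3 : (lamC k p m * R0 - lamC k p (m + 1) * R1) / ζLB k (m + 1) =
        lamC k p (m + 1) * tauC D k p (m + 1) + R0 * (p (m + 1) - p m) := by
      rw [h2, h1]
      field_simp
      ring
    have h4 : R0 = R1 + ζLB k (m + 1) * tauC D k p (m + 1) := by
      rw [h2]
      field_simp
      ring
    rw [h3, h4]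
    ring

/-- (AVERAGE 8.5) -/
theorem row_avg (hk : 0 < k) (hp : PathOK k p) :
    ∑ l, D.α l * rowVal D l k p =
      (1 / 2) * ((1 / (k : ℝ)) * ∑ i ∈ Finset.range k, p i * hh (tauC D k p) i) + D.G (stepK k p) := by
  have hb := lamC_mem hp (by omega : k - 1 < k)
  -- the left side
  have h1 : ∑ l, D.α l * rowVal D l k p = (1 / 2) * D.R (lamC k p (k - 1)) -
      (1 / 2) * TrP k p (fun x => x * D.R x - D.Gc x) (fun x => x * D.R' x) +
      (1 / 2) * ∑ i ∈ Finset.range k, tauC D k p i := by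
    rw [← TrP_congr hk hp (fun x hx => D.sum_ψ hx) (fun x hx => D.sum_ψ' hx), ← TrP_sum]
    unfold rowVal
    have e : ∀ l, D.α l * ((1 / 2) * D.R (lamC k p (k - 1)) - (1 / 2) * TrP k p (D.ψ l) (D.ψ' l) +
        (1 / 2) * ∑ i ∈ Finset.range k, tauC D k p i) =
        ((1 / 2) * D.R (lamC k p (k - 1)) + (1 / 2) * ∑ i ∈ Finset.range k, tauC D k p i) * D.α l -
        (1 / 2) * (D.α l * TrP k p (D.ψ l) (D.ψ' l)) := by intro l; ring
    rw [Finset.sum_congr rfl fun l _ => e l, Finset.sum_sub_distrib, ← Finset.mul_sum,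
      ← Finset.mul_sum, D.sum]
    ring
  -- the spectral part
  have h2 : D.G (stepK k p) = (1 / 2) * (p 0 * D.R (lamC k p 0) +
      ∑ i ∈ Finset.Ico 1 k, (D.Gc (lamC k p (i - 1)) - D.Gc (lamC k p i)) / ζLB k i +
      D.Gc (lamC k p (k - 1))) := by
    have := integral_deficit hk hp (fun x hx => D.Gc_hasDerivWithinAt hx) D.R_continuousOn
    rw [D.Gc_zero, sub_zero] at this
    rw [← this]
    rfl
  have h3 := row_abel D hp (by omega : k - 1 < k)
  rw [Nat.sub_add_cancel hk] at h3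
  have h4 : (1 / (k : ℝ)) * ∑ i ∈ Finset.range k, p i * hh (tauC D k p) i =
      ∑ i ∈ Finset.range k, tauC D k p i * (1 - lamC k p i - ζLB k i * p i) := by
    have e1 : ∀ i ∈ Finset.range k, tauC D k p i * (1 - lamC k p i - ζLB k i * p i) =
        ∑ j ∈ Finset.Ico i k, (1 / (k : ℝ)) * p j * tauC D k p i := by
      intro i hi
      rw [lamC_S hp (Finset.mem_range.1 hi), Finset.mul_sum]
      exact Finset.sum_congr rfl fun j _ => by ring
    rw [Finset.sum_congr rfl e1, Finset.range_eq_Ico, Finset.sum_Ico_Ico_comm, Finset.mul_sum]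
    refine Finset.sum_congr rfl fun j _ => ?_
    unfold hh
    rw [← Finset.mul_sum, Finset.range_eq_Ico]
    ring
  rw [h1, h2, h4, ← h3]
  unfold TrP
  have e2 : ∑ i ∈ Finset.Ico 1 k, ((lamC k p (i - 1) * D.R (lamC k p (i - 1)) - D.Gc (lamC k p (i - 1))) -
      (lamC k p i * D.R (lamC k p i) - D.Gc (lamC k p i))) / ζLB k i =
      ∑ i ∈ Finset.Ico 1 k, ((lamC k p (i - 1) * D.R (lamC k p (i - 1)) -
        lamC k p i * D.R (lamC k p i)) / ζLB k i) -
      ∑ i ∈ Finset.Ico 1 k, (D.Gc (lamC k p (i - 1)) - D.Gc (lamC k p i)) / ζLB k i := by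
    rw [← Finset.sum_sub_distrib]
    exact Finset.sum_congr rfl fun i _ => by ring
  rw [e2]
  have e3 : lamC k p (k - 1) = 1 - p (k - 1) := lamC_last hk hp
  have e4 : p (k - 1) = 1 - lamC k p (k - 1) := by linarith
  rw [e4]
  ring

end Crest.Agent.RI
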