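import Crest.Agent.RI.TTDefs

/-!
# Row 164, Part 8.5: the row part of the exact value, definitions (helper35)
-/

set_option autoImplicit false

namespace Crest.Agent.RI

open MeasureTheory ProbabilityTheory
open Crest.ProbabilityR.InvariantGlass

/-- `λ_i = D_p(p_i)` -/
noncomputable def lamC (k : ℕ) (p : ℕ → ℝ) (i : ℕ) : ℝ := deficit (stepK k p) (p i)

/-- `ψ_l(x) = log (x (b(x) - d_l))`, `ψ_l(0) = 0` -/
noncomputable def Blk.ψ (D : Blk) (l : Fin D.K) (x : ℝ) : ℝ :=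
  if 0 < x then Real.log (x * (D.b x - D.d l)) else 0

/-- `ψ_l'(x) = 1/x - 1/((b-d_l) g2)`, `ψ_l'(0) = dbar - d_l` -/
noncomputable def Blk.ψ' (D : Blk) (l : Fin D.K) (x : ℝ) : ℝ :=
  if 0 < x then 1 / x - 1 / ((D.b x - D.d l) * D.g2 x) else D.dbar - D.d l

/-- `Tr_p F = F(λ_{k-1}) + Σ_{1 ≤ i < k} (F(λ_{i-1}) - F(λ_i))/ζ_i + p_0 F'(λ_0)` -/
noncomputable def TrP (k : ℕ) (p : ℕ → ℝ) (F F' : ℝ → ℝ) : ℝ :=
  F (lamC k p (k - 1)) +
    ∑ i ∈ Finset.Ico 1 k, (F (lamC k p (i - 1)) - F (lamC k p i)) / ζLB k i +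
    p 0 * F' (lamC k p 0)

/-- the row part of the exact value of the one-step functional (blueprint 8.5) -/
noncomputable def rowVal (D : Blk) (l0 : Fin D.K) (k : ℕ) (p : ℕ → ℝ) : ℝ :=
  (1 / 2) * D.R (lamC k p (k - 1)) - (1 / 2) * TrP k p (D.ψ l0) (D.ψ' l0) +
    (1 / 2) * ∑ i ∈ Finset.range k, tauC D k p i

end Crest.Agent.RI
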