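import Crest.Agent.RI.CavD
import Crest.Agent.RI.Gen
import Crest.Agent.RI.TanH
import Crest.Agent.RI.FlowD

/-!
# Row 164, Part 8.6: self-consistency from the values of `FLW`
-/

set_option autoImplicit false

namespace Crest.Agent.RI

open MeasureTheory ProbabilityTheory

variable {N K J k : ℕ}

/-- the spin `0` of the last level -/
private noncomputable def SelfC_sp {N : ℕ} (k : ℕ) (ω : Fin (k + 1) → EN (N + 1)) : ℝ :=
  spin (cfg k ω 0)

private theorem SelfC_sp_meas {N : ℕ} (k : ℕ) : Measurable (SelfC_sp (N := N) k) := by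
  unfold SelfC_sp cfg
  exact (measurable_of_countable spin).comp ((measurable_pi_apply 0).comp
    ((measurable_snd.comp (measurable_snd.comp measurable_snd)).comp
      (measurable_pi_apply (Fin.last k))))

private theorem SelfC_sp_abs {N : ℕ} (k : ℕ) (ω : Fin (k + 1) → EN (N + 1)) :
    |SelfC_sp k ω| = 1 := by
  unfold SelfC_sp
  exact abs_spin _

private theorem SelfC_sp_sq {N : ℕ} (k : ℕ) (ω : Fin (k + 1) → EN (N + 1)) :
    SelfC_sp k ω ^ 2 = 1 := by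
  rw [← sq_abs, SelfC_sp_abs, one_pow]

private theorem SelfC_sp_ham {N : ℕ} (k : ℕ) :
    Ham (βN (N := N + 1)) (SelfC_sp (N := N) k) := by
  refine ⟨SelfC_sp_meas k, 1, zero_le_one, fun ω => ?_⟩
  rw [SelfC_sp_abs, one_mul]
  have : 0 ≤ ∑ i, βN (ω i) := Finset.sum_nonneg fun i _ => by unfold βN; positivity
  linarith

private theorem SelfC_upd1 {n N : ℕ} (ω : Fin n → EN N) (j l : Fin n) (a : Fin N) (u : ℝ) :
    (Function.update ω j (setM a (ω j) u) l).1 = (ω l).1 := by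
  by_cases h : l = j
  · subst h; simp [setM]
  · rw [Function.update_of_ne h]

private theorem SelfC_upd2 {n N : ℕ} (ω : Fin n → EN N) (j l : Fin n) (a : Fin N) (u : ℝ) :
    (Function.update ω j (setM a (ω j) u) l).2.2 = (ω l).2.2 := by
  by_cases h : l = j
  · subst h; simp [setM]
  · rw [Function.update_of_ne h]

private theorem SelfC_HN_upd {N K k : ℕ} (θ : Par N K) (hv : ∀ i, θ.v i = 0)
    (ω : Fin (k + 1) → EN N) (i : Fin k) (a : Fin N) (t : ℝ) :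
    HN k θ (Function.update ω i.castSucc (setM a (ω i.castSucc) t)) = HN k θ ω := by
  unfold HN yv
  simp only [SelfC_upd1, SelfC_upd2, hv, zero_mul]

private theorem SelfC_sp_upd {N k : ℕ} (ω : Fin (k + 1) → EN (N + 1)) (i : Fin k)
    (a : Fin (N + 1)) (t : ℝ) :
    SelfC_sp k (Function.update ω i.castSucc (setM a (ω i.castSucc) t)) = SelfC_sp k ω := by
  unfold SelfC_sp cfg
  simp only [SelfC_upd2]

private theorem SelfC_FLW0 {N : ℕ} {P' : Measure (ON (N + 1))} (D : Blk) (L : LBd J)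
    (s : ℝ) (x : XI k D.K J → ℝ) (κ' : Fin (N + 1) → Fin D.K) (lab' : Fin (N + 1) → Fin J)
    (i0 : Fin k) :
    FLW P' D L k s x κ' lab' 0 0 i0 =
      nest (mN P' (unifA (N + 1))) (ζLB k) (k + 1) 0 (HN k (θL D L k s x κ' lab')) := by
  unfold FLW
  congr 1
  funext ω
  unfold Wf
  ring

private theorem SelfC_exp {N : ℕ} {P' : Measure (ON (N + 1))} (hP : HaarO P') (hk : 0 < k)
    (D : Blk) (L : LBd J)
    (s : ℝ) (x : XI k D.K J → ℝ) (κ' : Fin (N + 1) → Fin D.K) (lab' : Fin (N + 1) → Fin J)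
    (i0 : Fin k) {r : ℝ} (hr : |r| ≤ 1) :
    |FLW P' D L k s x κ' lab' 0 r i0 - FLW P' D L k s x κ' lab' 0 0 i0 -
      r ^ 2 / 2 * (1 - ∑ q ∈ Finset.Ico (i0 : ℕ) k, (1 / (k : ℝ)) *
        EL2 P' D L k s x κ' lab' (q + 1) (fun ω ω' => spin (cfg k ω 0) * spin (cfg k ω' 0)))| ≤
      20 * |r| ^ 3 := by
  have := hP.prob
  have : IsProbabilityMeasure (mN P' (unifA (N + 1))) := prob_mN hP (unifA (N + 1))
  have hd := dom_mN hP (unifA (N + 1))
  have hζ := exps_LB k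
  have hg := gcoord_setM (P := P') (A := unifA (N + 1)) (0 : Fin (N + 1))
  have h1 := gen_expansion hd hζ (ζLB_mono k) hg k (ζLB_last hk) i0
    (H := HN k (θL D L k s x κ' lab')) (ε := SelfC_sp k) (HN_ham k _) (SelfC_sp_meas k)
    (fun ω => (SelfC_sp_abs k ω).le)
    (fun ω t => SelfC_HN_upd _ (fun _ => rfl) ω i0 0 t) (fun ω t => SelfC_sp_upd ω i0 0 t) hr
  rw [SelfC_FLW0]
  have e1 : FLW P' D L k s x κ' lab' 0 r i0 = nest (mN P' (unifA (N + 1))) (ζLB k) (k + 1) 0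
      (fun ω => HN k (θL D L k s x κ' lab') ω + r * ((ω i0.castSucc).2.1 0 * SelfC_sp k ω)) := by
    unfold FLW
    congr 1
    funext ω
    unfold Wf SelfC_sp
    ring
  have e2 : pathE (mN P' (unifA (N + 1))) (ζLB k) (k + 1) 0 (HN k (θL D L k s x κ' lab'))
      (fun ω => SelfC_sp k ω ^ 2) = 1 := by
    have : (fun ω : Fin (k + 1) → EN (N + 1) => SelfC_sp k ω ^ 2) = fun _ => 1 := by
      funext ω
      exact SelfC_sp_sq k ω
    rw [this]
    exact pathE_const hd hζ _ _ (HN_ham k _) 1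
  have e3 : ∑ j ∈ Finset.Ico (i0 : ℕ) k, (ζLB k (j + 1) - ζLB k j) *
      pairE (mN P' (unifA (N + 1))) (ζLB k) (j + 1) (k + 1) 0 (HN k (θL D L k s x κ' lab'))
        (fun ω ω' => SelfC_sp k ω * SelfC_sp k ω') =
      ∑ q ∈ Finset.Ico (i0 : ℕ) k, (1 / (k : ℝ)) *
        EL2 P' D L k s x κ' lab' (q + 1) (fun ω ω' => spin (cfg k ω 0) * spin (cfg k ω' 0)) := by
    refine Finset.sum_congr rfl fun q hq => ?_
    rw [ζLB_diff (Finset.mem_Ico.1 hq).2]
    rfl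
  rw [e2, e3] at h1
  rw [e1]
  exact h1

/-- SELF-CONSISTENCY OF THE OVERLAP OF THE SPIN `0`.  PROOF: `gen_expansion` (`g` = main field component `0` of level `i0`, `gcoord_setM`, `ε = σ_0`, `H = H_S`:
neither depends on the main fields since `θL.v = 0`), with `σ_0² = 1`:
`|FLW(0,r) - FLW(0,0) - r²/2 (1 - Σ_{q ≥ i0} (1/k) E_2^{(q+1)} σ_0σ_0')| ≤ 20 r³`, and `siteVal_T2q` for the site value (`siteTail`); so
`|Σ (1/k)(E_2 - siteQ)| ≤ (2/r²)(2ε + 40 r³)`; choose `r` with `80 r ≤ ε'/2`, then `ε = ε' r²/8`. -/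
theorem selfQ {ε' : ℝ} (hε' : 0 < ε') : ∃ ε : ℝ, 0 < ε ∧ ∀ {N J k : ℕ}
    {P' : Measure (ON (N + 1))}, HaarO P' → 0 < k → ∀ (D : Blk) (L : LBd J) (s : ℝ)
      (x : XI k D.K J → ℝ) (κ' : Fin (N + 1) → Fin D.K) (lab' : Fin (N + 1) → Fin J) (i0 : Fin k)
      (τ : ℕ → ℝ) (b F0 : ℝ), (∀ i, 0 ≤ τ i) →
      (∀ v : ℝ, 0 ≤ v → v ≤ 1 → |FLW P' D L k s x κ' lab' 0 v i0 -
        (F0 + siteVal (ζLB k) (fun i => τ i + if i = (i0 : ℕ) then v ^ 2 else 0) k b +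
          (1 / 2) * v ^ 2)| ≤ ε) →
      |∑ q ∈ Finset.Ico (i0 : ℕ) k, (1 / (k : ℝ)) *
        (EL2 P' D L k s x κ' lab' (q + 1) (fun ω ω' => spin (cfg k ω 0) * spin (cfg k ω' 0)) -
          siteQ (ζLB k) τ k b q)| ≤ ε' := by
  obtain ⟨r, hr0, hr1, hr2⟩ : ∃ r : ℝ, 0 < r ∧ r ≤ 1 ∧ 160 * r ≤ ε' :=
    ⟨min 1 (ε' / 160), lt_min one_pos (by positivity), min_le_left _ _, by
      have := min_le_right 1 (ε' / 160)
      linarith⟩
  refine ⟨ε' * r ^ 2 / 8, by positivity, ?_⟩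
  intro N J k P' hP hk D L s x κ' lab' i0 τ b F0 hτ hF
  have hr : |r| ≤ 1 := by rwa [abs_of_pos hr0]
  have h1 := SelfC_exp hP hk D L s x κ' lab' i0 hr
  have h2 := siteVal_T2q (exps_LB k) (ζLB_mono k) (ζLB_last hk) hτ b i0.isLt hr
  have h3 := hF r hr0.le hr1
  have h4 := hF 0 le_rfl zero_le_one
  have e4 : (fun i => τ i + if i = (i0 : ℕ) then (0 : ℝ) ^ 2 else 0) = τ := by
    funext i
    split <;> simp
  rw [e4] at h4
  rw [abs_of_pos hr0] at h1 h2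
  have e5 : ∑ q ∈ Finset.Ico (i0 : ℕ) k, (1 / (k : ℝ)) *
        (EL2 P' D L k s x κ' lab' (q + 1) (fun ω ω' => spin (cfg k ω 0) * spin (cfg k ω' 0)) -
          siteQ (ζLB k) τ k b q) =
      ∑ q ∈ Finset.Ico (i0 : ℕ) k, (1 / (k : ℝ)) *
        EL2 P' D L k s x κ' lab' (q + 1) (fun ω ω' => spin (cfg k ω 0) * spin (cfg k ω' 0)) -
      siteTail (ζLB k) τ k b i0 := by
    unfold siteTail
    rw [← Finset.sum_sub_distrib]
    refine Finset.sum_congr rfl fun q hq => ?_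
    rw [ζLB_diff (Finset.mem_Ico.1 hq).2]
    ring
  rw [e5]
  set A := ∑ q ∈ Finset.Ico (i0 : ℕ) k, (1 / (k : ℝ)) *
        EL2 P' D L k s x κ' lab' (q + 1) (fun ω ω' => spin (cfg k ω 0) * spin (cfg k ω' 0))
  set T := siteTail (ζLB k) τ k b i0
  set Fr := FLW P' D L k s x κ' lab' 0 r i0
  set Fz := FLW P' D L k s x κ' lab' 0 0 i0
  set Vr := siteVal (ζLB k) (fun i => τ i + if i = (i0 : ℕ) then r ^ 2 else 0) k b
  set Vz := siteVal (ζLB k) τ k b
  rw [abs_le] at h1 h2 h3 h4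
  have hr3 : (0 : ℝ) < r ^ 2 := by positivity
  have key : r ^ 2 / 2 * |A - T| ≤ r ^ 2 / 2 * ε' := by
    have h5 : r ^ 2 / 2 * |A - T| = |r ^ 2 / 2 * (A - T)| := by
      rw [abs_mul, abs_of_pos (by positivity : (0 : ℝ) < r ^ 2 / 2)]
    rw [h5, abs_le]
    have h6 : 40 * r ^ 3 ≤ r ^ 2 / 4 * ε' := by nlinarith
    constructor <;> nlinarith [h1.1, h1.2, h2.1, h2.2, h3.1, h3.2, h4.1, h4.2]
  exact le_of_mul_le_mul_left key (by positivity)

/-- SELF-CONSISTENCY OF THE MAGNETISATION OF THE SPIN `0`.  PROOF: `FLW(t, 0) ≥ FLW(0,0) + t E σ_0` (`nest_tangent`), for `t = ± r`; `siteVal_second`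
(`|siteVal (b+t) - siteVal b - t siteM| ≤ t²`): `|E σ_0 - siteM| ≤ r + 2ε/r`. -/
theorem selfM {ε' : ℝ} (hε' : 0 < ε') : ∃ ε : ℝ, 0 < ε ∧ ∀ {N J k : ℕ}
    {P' : Measure (ON (N + 1))}, HaarO P' → 0 < k → ∀ (D : Blk) (L : LBd J) (s : ℝ)
      (x : XI k D.K J → ℝ) (κ' : Fin (N + 1) → Fin D.K) (lab' : Fin (N + 1) → Fin J) (i0 : Fin k)
      (τ : ℕ → ℝ) (b F0 : ℝ), (∀ i, 0 ≤ τ i) →
      (∀ t : ℝ, |t| ≤ 1 → |FLW P' D L k s x κ' lab' t 0 i0 -
        (F0 + siteVal (ζLB k) τ k (b + t))| ≤ ε) →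
      |EL P' D L k s x κ' lab' (fun ω => spin (cfg k ω 0)) - siteM (ζLB k) τ k b| ≤ ε' := by
  obtain ⟨r, hr0, hr1, hr2⟩ : ∃ r : ℝ, 0 < r ∧ r ≤ 1 ∧ 2 * r ≤ ε' :=
    ⟨min 1 (ε' / 2), lt_min one_pos (by positivity), min_le_left _ _, by
      have := min_le_right 1 (ε' / 2)
      linarith⟩
  refine ⟨ε' * r / 4, by positivity, ?_⟩
  intro N J k P' hP hk D L s x κ' lab' i0 τ b F0 hτ hF
  have := hP.prob
  have : IsProbabilityMeasure (mN P' (unifA (N + 1))) := prob_mN hP (unifA (N + 1))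
  have hd := dom_mN hP (unifA (N + 1))
  have hζ := exps_LB k
  set E0 := EL P' D L k s x κ' lab' (fun ω => spin (cfg k ω 0)) with hE0
  set Fz := FLW P' D L k s x κ' lab' 0 0 i0 with hFz
  have tang : ∀ t : ℝ, Fz + t * E0 ≤ FLW P' D L k s x κ' lab' t 0 i0 := by
    intro t
    have h1 := nest_tangent hd hζ (k + 1) 0 (HN_ham k (θL D L k s x κ' lab'))
      ((SelfC_sp_ham (N := N) k).const_mul t)
    rw [hFz, SelfC_FLW0]
    have e1 : FLW P' D L k s x κ' lab' t 0 i0 = nest (mN P' (unifA (N + 1))) (ζLB k) (k + 1) 0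
        (fun ω => HN k (θL D L k s x κ' lab') ω + t * SelfC_sp k ω) := by
      unfold FLW
      congr 1
      funext ω
      unfold Wf SelfC_sp
      ring
    have e2 : pathE (mN P' (unifA (N + 1))) (ζLB k) (k + 1) 0 (HN k (θL D L k s x κ' lab'))
        (fun ω => t * SelfC_sp k ω) = t * E0 := by
      rw [pathE_mul]
      rfl
    rw [e1, ← e2]
    exact h1
  have t1 := tang r
  have t2 := tang (-r)
  have f0 := hF 0 (by rw [abs_zero]; exact zero_le_one)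
  have f1 := hF r (by rwa [abs_of_pos hr0])
  have f2 := hF (-r) (by rwa [abs_neg, abs_of_pos hr0])
  have s1 := siteVal_second (exps_LB k) (ζLB_last hk) hτ b r
  have s2 := siteVal_second (exps_LB k) (ζLB_last hk) hτ b (-r)
  rw [add_zero] at f0
  rw [abs_le] at f0 f1 f2 s1 s2
  have key : r * |E0 - siteM (ζLB k) τ k b| ≤ r * ε' := by
    have h5 : r * |E0 - siteM (ζLB k) τ k b| = |r * (E0 - siteM (ζLB k) τ k b)| := by
      rw [abs_mul, abs_of_pos hr0]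
    rw [h5, abs_le]
    have h6 : r ^ 2 ≤ r * ε' / 2 := by nlinarith
    constructor <;> nlinarith [f0.1, f0.2, f1.1, f1.2, f2.1, f2.2, s1.1, s1.2, s2.1, s2.2]
  exact le_of_mul_le_mul_left key hr0

end Crest.Agent.RI
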