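import Crest.Agent.RI.FlwVal
import Crest.Agent.RI.SelfC

/-!
# Row 164, Part 9: self-consistency at good parameters
-/

set_option autoImplicit false

namespace Crest.Agent.RI

open MeasureTheory ProbabilityTheory

variable {N K J k : ℕ}

/-- good parameters for the system `(κ, lab)` of size `N+1`; `r j` is a spin of the class `j`; the base systems are obtained by removing
the row `0` and the spin `r j` -/
structure GoodX (P : Measure (ON N)) (P' : Measure (ON (N + 1))) (D : Blk) (L : LBd J) (k : ℕ)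
    (s : ℝ) (x : XI k D.K J → ℝ) (κ : Fin (N + 1) → Fin D.K) (lab : Fin (N + 1) → Fin J)
    (r : Fin J → Fin (N + 1)) (δ : ℝ) : Prop where
  top : FluOK P' D L k s x κ lab δ
  base : ∀ j, FluOK P D L k s x (Fin.tail κ : Fin N → Fin D.K) (rml lab (r j)) δ
  mean : ∀ j, MeanOK P P' D L k s x (Fin.tail κ : Fin N → Fin D.K) (rml lab (r j)) κ lab δ

private theorem SelfTop_tame_abs {E : Type} [MeasurableSpace E] {β : E → ℝ} {n : ℕ}
    {Φ : (Fin n → E) → ℝ} (hΦ : Tame β Φ) : Tame β (fun ω => |Φ ω|) := by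
  obtain ⟨C, hC, hb⟩ := hΦ.bound
  refine ⟨?_, C, hC, fun ω => by rw [abs_abs]; exact hb ω⟩
  have := hΦ.meas
  fun_prop

/-- `E |V - τ| ≤ E |V - E V| + |E V - τ|` -/
private theorem SelfTop_dev {P : Measure (ON N)} (hP : HaarO P) (D : Blk) (L : LBd J) (s : ℝ)
    (x : XI k D.K J → ℝ) (κ : Fin N → Fin D.K) (lab : Fin N → Fin J) (i : XI k D.K J) (τ : ℝ) :
    EL P D L k s x κ lab (fun ω => |dirV k κ lab i ω - τ|) ≤
      flu P D L k s x κ lab i + |EL P D L k s x κ lab (dirV k κ lab i) - τ| := by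
  have := prob_mN hP (unifA N)
  have hβ : Dom (mN P (unifA N)) (βN (N := N)) := dom_mN hP (unifA N)
  have hζ : Exps (ζLB k) := exps_LB k
  have hH : Ham (βN (N := N)) (HN k (θL D L k s x κ lab)) := HN_ham k _
  have hV := (dirV_ham (k := k) κ lab i).tame hβ
  set c := EL P D L k s x κ lab (dirV k κ lab i) with hc
  have t1 : Tame (βN (N := N)) (fun ω => |dirV k κ lab i ω - c|) := by
    have h := SelfTop_tame_abs (Tame.add hβ hV (Tame.const hβ (-c)))
    simpa [sub_eq_add_neg] using h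
  have t2 : Tame (βN (N := N)) (fun ω => |dirV k κ lab i ω - τ|) := by
    have h := SelfTop_tame_abs (Tame.add hβ hV (Tame.const hβ (-τ)))
    simpa [sub_eq_add_neg] using h
  have t3 : Tame (βN (N := N)) (fun _ : Fin (k + 1) → EN N => |c - τ|) := Tame.const hβ _
  have h1 : EL P D L k s x κ lab (fun ω => |dirV k κ lab i ω - τ|) ≤
      EL P D L k s x κ lab (fun ω => |dirV k κ lab i ω - c| + |c - τ|) :=
    pathE_mono hβ hζ (k + 1) 0 hH t2 (Tame.add hβ t1 t3) fun ω => by
      have := abs_add_le (dirV k κ lab i ω - c) (c - τ)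
      rwa [sub_add_sub_cancel] at this
  refine h1.trans (le_of_eq ?_)
  unfold EL flu
  rw [pathE_add hβ hζ (k + 1) 0 hH t1 t3, pathE_const hβ hζ (k + 1) 0 hH]
  rfl

private theorem SelfTop_prop_nonneg {N K : ℕ} (κ : Fin N → Fin K) (l : Fin K) : 0 ≤ prop κ l := by
  unfold prop
  positivity

private theorem SelfTop_prop_sum {N K : ℕ} (hN : 0 < N) (κ : Fin N → Fin K) :
    ∑ l, prop κ l = 1 := by
  unfold prop
  rw [← Finset.sum_div, ← Nat.cast_sum]
  have h : ∑ l, (Finset.univ.filter (fun a => κ a = l)).card = N := by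
    have := Finset.card_eq_sum_card_fiberwise (s := (Finset.univ : Finset (Fin N)))
      (t := (Finset.univ : Finset (Fin K))) (f := κ) (fun _ _ => Finset.mem_univ _)
    rw [Finset.card_univ, Fintype.card_fin] at this
    exact this.symm
  rw [h]
  have : (N : ℝ) ≠ 0 := by exact_mod_cast hN.ne'
  exact div_self this

/-- SELF-CONSISTENCY.  `τ = tLB top`, `p = pLB top`, `b_j = bb L τ j`.  PROOF: for every class `j`: `flw_value` for the base `(tail κ, rml lab (r j))`, `l0 = κ 0`, `j0 = j`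
(`errS_base`; `Σ E|T_j/N - τ_j| ≤ Σ (flu + mean)`), with `selfQ`, `selfM` (with `F0 = FL base + rowVal + cc`; `kc (κ 0) (tail κ) = κ`), then `EL2_swap`, `EL_swap`, `pLB_class`,
`tLB_class`. -/
theorem self_top (D : Blk) (J : ℕ) (Km c₀ Ty : ℝ) (hKm : 0 ≤ Km) (hc₀ : 0 ≤ c₀) (hTy : 0 ≤ Ty)
    {ε : ℝ} (hε : 0 < ε) : ∃ k₀ : ℕ, ∀ k ≥ k₀, 0 < k →
    ∃ s₀ : ℝ, 0 < s₀ ∧ ∀ s : ℝ, 0 < s → s ≤ s₀ → ∃ (δ : ℝ) (N₀ : ℕ) (η : ℝ), 0 < δ ∧ 0 < η ∧
    ∀ N ≥ N₀, ∀ (P : Measure (ON N)) (P' : Measure (ON (N + 1))), HaarO P → HaarO P' →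
      ∀ (L : LBd J), LOK L Km c₀ → ∀ (κ : Fin (N + 1) → Fin D.K) (lab : Fin (N + 1) → Fin J),
      D.Close η κ → Typ Ty κ lab → ∀ (r : Fin J → Fin (N + 1)), (∀ j, lab (r j) = j) →
      ∀ x : XI k D.K J → ℝ, InC x → GoodX P P' D L k s x κ lab r δ →
      (∀ j, |tLB P' D L k s x κ lab j - prop lab j *
        siteM (ζLB k) (tauC D k (pLB P' D L k s x κ lab)) k (bb L (tLB P' D L k s x κ lab) j)| ≤ ε) ∧
      (∀ i < k, |∑ q ∈ Finset.Ico i k, (1 / (k : ℝ)) * (pLB P' D L k s x κ lab q -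
        ∑ j, prop lab j * siteQ (ζLB k) (tauC D k (pLB P' D L k s x κ lab)) k
          (bb L (tLB P' D L k s x κ lab) j) q)| ≤ ε) := by
  obtain ⟨εQ, hεQ, hQ⟩ := selfQ hε
  obtain ⟨εM, hεM, hM⟩ := selfM hε
  obtain ⟨δ₁, hδ₁, hF⟩ := flw_value D J Km c₀ Ty hKm hc₀ hTy (ε := min εQ εM) (lt_min hεQ hεM)
  obtain ⟨k₀, hE⟩ := errS_base D J hδ₁
  refine ⟨k₀, fun k hk hk0 => ?_⟩
  obtain ⟨s₀, N₀, η, hs₀, hη, hF⟩ := hF k hk0
  obtain ⟨s₁, hs₁, hE⟩ := hE k hk hk0
  refine ⟨min s₀ s₁, lt_min hs₀ hs₁, fun s hs hss => ?_⟩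
  obtain ⟨δ, η', hδ, hη', hE⟩ := hE s hs (hss.trans (min_le_right _ _))
  have hm : 0 < min η η' := lt_min hη hη'
  have hJ1 : (0 : ℝ) < 2 * J + 1 := by positivity
  refine ⟨min δ (δ₁ / (2 * J + 1)), max (max N₀ 1) ⌈9 / min η η'⌉₊, min η η' / 3,
    lt_min hδ (div_pos hδ₁ hJ1), by positivity, ?_⟩
  intro N hN P P' hP hP' L hL κ lab hcl htyp r hr x hx hG
  have hN0 : N₀ ≤ N := (le_max_left _ _).trans ((le_max_left _ _).trans hN)
  have hN1 : 0 < N := lt_of_lt_of_le Nat.one_pos ((le_max_right _ _).trans ((le_max_left _ _).trans hN))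
  have hN2 : 9 / min η η' ≤ (N : ℝ) := (Nat.le_ceil _).trans (by
    exact_mod_cast (le_max_right _ _).trans hN)
  have hNr : (0 : ℝ) < N := by exact_mod_cast hN1
  -- closeness of the tail
  have hct : D.Close (min η η') (Fin.tail κ : Fin N → Fin D.K) := by
    intro l
    refine (close_tail D hN1 hcl l).trans ?_
    have h1 : 3 / (N : ℝ) ≤ min η η' / 3 := by
      rw [div_le_iff₀ hm] at hN2
      rw [div_le_div_iff₀ hNr (by norm_num)]
      linarith
    linarith
  have hct1 : D.Close η (Fin.tail κ : Fin N → Fin D.K) := fun l => (hct l).trans (min_le_left _ _)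
  have hct2 : D.Close η' (Fin.tail κ : Fin N → Fin D.K) := fun l => (hct l).trans (min_le_right _ _)
  have hcl2 : D.Close η' κ := fun l => (hcl l).trans (by
    have := min_le_right η η'
    linarith)
  have hδa : min δ (δ₁ / (2 * J + 1)) ≤ δ := min_le_left _ _
  have hδb : min δ (δ₁ / (2 * J + 1)) ≤ δ₁ / (2 * J + 1) := min_le_right _ _
  set p := pLB P' D L k s x κ lab with hp
  set τ := tLB P' D L k s x κ lab with hτ
  have hpok : PathOK k p := pLB_ok hk0 (Nat.succ_pos N) hP' D L s x κ lab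
  have hτ1 : ∀ j, |τ j| ≤ 1 := fun j => tLB_abs hP' D L s x κ lab j
  -- the value of `FLW`
  have key : ∀ (j : Fin J) (t v : ℝ) (i0 : Fin k), |t| ≤ 1 → 0 ≤ v → v ≤ 1 →
      |FLW P' D L k s x κ (Fin.cons (lab (r j)) (rml lab (r j)) : Fin (N + 1) → Fin J) t v i0 -
        ((FL P D L k s x (Fin.tail κ) (rml lab (r j)) + rowVal D (κ 0) k p + cc L τ) +
          siteVal (ζLB k) (fun i => tauC D k p i + if i = (i0 : ℕ) then v ^ 2 else 0) k
            (bb L τ (lab (r j)) + t) + (1 / 2) * v ^ 2)| ≤ min εQ εM := by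
    intro j t v i0 ht hv0 hv1
    have hκ : (kc (κ 0) (Fin.tail κ) : Fin (N + 1) → Fin D.K) = κ := Fin.cons_self_tail κ
    have herr : errS P D L k s x (Fin.tail κ) (rml lab (r j)) (rC D k p) ≤ δ₁ :=
      hE N (N + 1) hN1 (Nat.succ_pos N) P P' hP hP' L (Fin.tail κ) (rml lab (r j)) κ lab hct2 hcl2
        x hx (fun i => (hG.base j i).trans hδa) (fun i => (hG.top i).trans hδa)
        (fun i => (hG.mean j i).trans hδa)
    obtain ⟨h1, h2⟩ := hF N hN0 P P' hP hP' L hL s hs.le (hss.trans (min_le_left _ _)) x hx.xok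
      (Fin.tail κ) (rml lab (r j)) hct1 (κ 0) (lab (r j)) τ hτ1 t v i0 ht hv0 hv1 p hpok herr
    have hs1 : ∑ j', EL P D L k s x (Fin.tail κ) (rml lab (r j))
        (fun ω => |TJ (rml lab (r j)) j' (cfg k ω) / (N : ℝ) - τ j'|) ≤ δ₁ := by
      have b : ∀ j', EL P D L k s x (Fin.tail κ) (rml lab (r j))
          (fun ω => |TJ (rml lab (r j)) j' (cfg k ω) / (N : ℝ) - τ j'|) ≤
          2 * (δ₁ / (2 * J + 1)) := by
        intro j'
        have c1 := SelfTop_dev hP D L s x (Fin.tail κ) (rml lab (r j)) (Sum.inr (Sum.inl j')) (τ j')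
        have c2 := (hG.base j (Sum.inr (Sum.inl j'))).trans hδb
        have c3 := (hG.mean j (Sum.inr (Sum.inl j'))).trans hδb
        have c4 : EL P' D L k s x κ lab (dirV k κ lab (Sum.inr (Sum.inl j'))) = τ j' := rfl
        rw [c4, abs_sub_comm] at c3
        have c5 : EL P D L k s x (Fin.tail κ) (rml lab (r j))
            (fun ω => |TJ (rml lab (r j)) j' (cfg k ω) / (N : ℝ) - τ j'|) =
            EL P D L k s x (Fin.tail κ) (rml lab (r j))
            (fun ω => |dirV k (Fin.tail κ) (rml lab (r j)) (Sum.inr (Sum.inl j')) ω - τ j'|) := rfl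
        rw [c5]
        linarith
      calc _ ≤ ∑ _j' : Fin J, 2 * (δ₁ / (2 * J + 1)) := Finset.sum_le_sum fun j' _ => b j'
        _ = (2 * J) * (δ₁ / (2 * J + 1)) := by
            rw [Finset.sum_const, Finset.card_univ, Fintype.card_fin, nsmul_eq_mul]
            ring
        _ ≤ (2 * J + 1) * (δ₁ / (2 * J + 1)) := by
            apply mul_le_mul_of_nonneg_right _ (div_pos hδ₁ hJ1).le
            linarith
        _ = δ₁ := by field_simp
    have hs2 : ∑ j', EL P' D L k s x κ (Fin.cons (lab (r j)) (rml lab (r j)) : Fin (N + 1) → Fin J)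
        (fun ω => |TJ (Fin.cons (lab (r j)) (rml lab (r j)) : Fin (N + 1) → Fin J) j' (cfg k ω) /
          ((N : ℝ) + 1) - τ j'|) ≤ δ₁ := by
      have b : ∀ j', EL P' D L k s x κ
          (Fin.cons (lab (r j)) (rml lab (r j)) : Fin (N + 1) → Fin J)
          (fun ω => |TJ (Fin.cons (lab (r j)) (rml lab (r j)) : Fin (N + 1) → Fin J) j' (cfg k ω) /
          ((N : ℝ) + 1) - τ j'|) ≤ δ₁ / (2 * J + 1) := by
        intro j'
        have c0 := EL_swap_T (k := k) hP' D L s x κ lab (r j) j' (fun y => |y / ((N : ℝ) + 1) - τ j'|)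
          (by fun_prop)
        rw [c0]
        have c1 := (hG.top (Sum.inr (Sum.inl j'))).trans hδb
        refine le_trans (le_of_eq ?_) c1
        unfold flu
        have c4 : EL P' D L k s x κ lab (dirV k κ lab (Sum.inr (Sum.inl j'))) = τ j' := rfl
        rw [c4]
        congr 1
        funext ω
        have c6 : dirV k κ lab (Sum.inr (Sum.inl j')) ω = TJ lab j' (cfg k ω) / ((N + 1 : ℕ) : ℝ) := rfl
        rw [c6]
        push_cast
        rfl
      calc _ ≤ ∑ _j' : Fin J, (δ₁ / (2 * J + 1)) := Finset.sum_le_sum fun j' _ => b j'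
        _ = (J : ℝ) * (δ₁ / (2 * J + 1)) := by
            rw [Finset.sum_const, Finset.card_univ, Fintype.card_fin, nsmul_eq_mul]
        _ ≤ (2 * J + 1) * (δ₁ / (2 * J + 1)) := by
            apply mul_le_mul_of_nonneg_right _ (div_pos hδ₁ hJ1).le
            have : (0 : ℝ) ≤ J := Nat.cast_nonneg J
            linarith
        _ = δ₁ := by field_simp
    have h1' := h1 hs1
    rw [hκ] at h1' h2
    have h2' := h2 (typ_swap htyp (r j)) hs2
    rw [abs_le]
    constructor <;> linarith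
  have htau := fun i => tauC_nonneg D hk0 hpok i
  have hprop0 := fun j => SelfTop_prop_nonneg lab j
  have hprops := SelfTop_prop_sum (Nat.succ_pos N) lab
  refine ⟨fun j => ?_, fun i hi => ?_⟩
  · -- magnetisation
    have h1 := hM hP' hk0 D L s x κ
      (Fin.cons (lab (r j)) (rml lab (r j)) : Fin (N + 1) → Fin J) ⟨0, hk0⟩ (tauC D k p)
      (bb L τ (lab (r j))) (FL P D L k s x (Fin.tail κ) (rml lab (r j)) + rowVal D (κ 0) k p + cc L τ)
      htau (fun t ht => by
        have h2 := (key j t 0 ⟨0, hk0⟩ ht le_rfl zero_le_one).trans (min_le_right _ _)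
        simpa using h2)
    rw [EL_swap hP' D L s x κ lab (r j), hr j] at h1
    have h3 : τ j = prop lab j * EL P' D L k s x κ lab (fun ω => spin (cfg k ω (r j))) :=
      tLB_class (Nat.succ_pos N) hP' D L s x κ lab j (r j) (hr j)
    have h4 : τ j - prop lab j * siteM (ζLB k) (tauC D k p) k (bb L τ j) =
        prop lab j * (EL P' D L k s x κ lab (fun ω => spin (cfg k ω (r j))) -
          siteM (ζLB k) (tauC D k p) k (bb L τ j)) := by
      rw [mul_sub, ← h3]
    rw [h4, abs_mul, abs_of_nonneg (hprop0 j)]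
    have h5 : prop lab j ≤ 1 := by
      rw [← hprops]
      exact Finset.single_le_sum (fun l _ => hprop0 l) (Finset.mem_univ j)
    calc prop lab j * _ ≤ 1 * ε := mul_le_mul h5 h1 (abs_nonneg _) zero_le_one
      _ = ε := one_mul ε
  · -- overlaps
    have h1 : ∀ j, |∑ q ∈ Finset.Ico i k, (1 / (k : ℝ)) *
        (EL2 P' D L k s x κ lab (q + 1) (fun ω ω' => spin (cfg k ω (r j)) * spin (cfg k ω' (r j))) -
          siteQ (ζLB k) (tauC D k p) k (bb L τ j) q)| ≤ ε := by
      intro j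
      have h1 := hQ hP' hk0 D L s x κ
        (Fin.cons (lab (r j)) (rml lab (r j)) : Fin (N + 1) → Fin J) ⟨i, hi⟩ (tauC D k p)
        (bb L τ (lab (r j))) (FL P D L k s x (Fin.tail κ) (rml lab (r j)) + rowVal D (κ 0) k p +
          cc L τ)
        htau (fun v hv0 hv1 => by
          have h2 := (key j 0 v ⟨i, hi⟩ (by norm_num) hv0 hv1).trans (min_le_left _ _)
          rw [add_zero] at h2
          exact h2)
      rw [hr j] at h1
      refine le_trans (le_of_eq ?_) h1
      congr 1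
      refine Finset.sum_congr rfl fun q _ => ?_
      have h6 := EL2_swap (k := k) hP' D L s x κ lab (r j) (q + 1)
      rw [hr j] at h6
      rw [h6]
    have h2 : ∑ q ∈ Finset.Ico i k, (1 / (k : ℝ)) * (p q -
        ∑ j, prop lab j * siteQ (ζLB k) (tauC D k p) k (bb L τ j) q) =
        ∑ j, prop lab j * ∑ q ∈ Finset.Ico i k, (1 / (k : ℝ)) *
        (EL2 P' D L k s x κ lab (q + 1) (fun ω ω' => spin (cfg k ω (r j)) * spin (cfg k ω' (r j))) -
          siteQ (ζLB k) (tauC D k p) k (bb L τ j) q) := by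
      simp_rw [Finset.mul_sum]
      rw [Finset.sum_comm]
      refine Finset.sum_congr rfl fun q _ => ?_
      have h3 : p q = ∑ j, prop lab j * EL2 P' D L k s x κ lab (q + 1)
          (fun ω ω' => spin (cfg k ω (r j)) * spin (cfg k ω' (r j))) :=
        pLB_class (Nat.succ_pos N) hP' D L s x κ lab r hr q
      rw [h3, ← Finset.sum_sub_distrib, Finset.mul_sum]
      exact Finset.sum_congr rfl fun j _ => by ring
    rw [h2]
    calc _ ≤ ∑ j, |prop lab j * ∑ q ∈ Finset.Ico i k, (1 / (k : ℝ)) *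
        (EL2 P' D L k s x κ lab (q + 1) (fun ω ω' => spin (cfg k ω (r j)) * spin (cfg k ω' (r j))) -
          siteQ (ζLB k) (tauC D k p) k (bb L τ j) q)| := Finset.abs_sum_le_sum_abs _ _
      _ ≤ ∑ j, prop lab j * ε := by
          refine Finset.sum_le_sum fun j _ => ?_
          rw [abs_mul, abs_of_nonneg (hprop0 j)]
          exact mul_le_mul_of_nonneg_left (h1 j) (hprop0 j)
      _ = ε := by rw [← Finset.sum_mul, hprops, one_mul]

end Crest.Agent.RI
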