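import Crest.Agent.RI.Site

/-!
# Row 164: definition of `siteA`
-/

set_option autoImplicit false

namespace Crest.Agent.RI

open MeasureTheory ProbabilityTheory

/-- Free energy of the configuration law `A` in the main field alone (`k+1` levels, exponents `ζUB`). -/
noncomputable def siteA {N : ℕ} (A : Measure (Fin N → Bool)) (k : ℕ) (τ : ℕ → ℝ) : ℝ :=
  (1 / (N : ℝ)) * nest ((gvec N).prod A) (ζUB k) (k + 1) 0
    (fun ω => ∑ i : Fin k, Real.sqrt (τ i) *
      ∑ a : Fin N, (ω i.castSucc).1 a * spin ((ω (Fin.last k)).2 a)) -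
  (1 / 2) * ∑ i ∈ Finset.range k, τ i

end Crest.Agent.RI
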