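import Crest.Agent.RI.CnFin

/-!
# Row 164, Part 10: THEOREM CONC (concavity of the constrained one-site functional)
-/

set_option autoImplicit false

namespace Crest.Agent.RI

open MeasureTheory ProbabilityTheory
open Crest.ProbabilityR.InvariantGlass

theorem siteLeg_concave {ζ : ℕ → ℝ} {k : ℕ} (hζ : SExps ζ k) {m : ℝ} (hm : |m| < 1)
    {τ₀ τ₁ : ℕ → ℝ} (h0 : ∀ i, 0 ≤ τ₀ i) (h1 : ∀ i, 0 ≤ τ₁ i) {t : ℝ} (ht0 : 0 ≤ t) (ht1 : t ≤ 1) :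
    (1 - t) * siteLeg ζ τ₀ k m + t * siteLeg ζ τ₁ k m ≤
      siteLeg ζ (fun i => (1 - t) * τ₀ i + t * τ₁ i) k m :=
  Cn.conc_of_pos hζ hm (fun τ₀ τ₁ hε t ht0 ht1 => Cn.conc_pos hζ hm τ₀ τ₁ hε t ht0 ht1) h0 h1
    ht0 ht1

end Crest.Agent.RI
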