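import Crest.Agent.RI.VEReal

/-!
# Row 164: growth of the one-site value (blueprint 10.4(c)), elementary proof (helper50)

`FVal S τ 0 ≤ (log 2)/d - ½ (1-d) Σ (1-t) τ_t` for `0 < d ≤ 1`: comparison with
`g(x) = (1/d) log cosh (d x)`, for which `T_{a,v} g ≤ g + ½ (a + d (1-a)) v`.
-/

set_option autoImplicit false

namespace Crest.Agent.RI

open MeasureTheory ProbabilityTheory
open Crest.ProbabilityR.InvariantGlass

/-- Comparison function. -/
noncomputable def gdf (d x : ℝ) : ℝ := (1 / d) * Real.log (Real.cosh (d * x))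

theorem gdf_abs {d : ℝ} (hd : 0 < d) (x : ℝ) : |gdf d x| ≤ |x| := by
  unfold gdf
  have h := SF.lch.lip (d * x) 0
  simp only [Real.cosh_zero, Real.log_one, sub_zero] at h
  rw [abs_mul, abs_of_pos (by positivity : 0 < 1 / d)]
  rw [abs_mul, abs_of_pos hd] at h
  calc 1 / d * |Real.log (Real.cosh (d * x))| ≤ 1 / d * (d * |x|) :=
        mul_le_mul_of_nonneg_left h (by positivity)
    _ = |x| := by field_simp

theorem gdf_lg {d : ℝ} (hd : 0 < d) : LG (gdf d) := by
  refine ⟨?_, 0, 1, fun x => by simpa using gdf_abs hd x⟩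
  unfold gdf
  have := SF.lch.cont
  exact continuous_const.mul (this.comp (continuous_const.mul continuous_id))

theorem gdf_zero (d : ℝ) : gdf d 0 = 0 := by simp [gdf]

theorem lch_le_gdf {d : ℝ} (hd : 0 < d) (x : ℝ) : lch x ≤ gdf d x + Real.log 2 / d := by
  have h1 : lch x ≤ |x| := by
    have h := SF.lch.lip x 0
    simp only [Real.cosh_zero, Real.log_one, sub_zero] at h
    exact (le_abs_self _).trans h
  have h2 : d * |x| - Real.log 2 ≤ Real.log (Real.cosh (d * x)) := by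
    have h3 := le_lch (d * |x|)
    unfold lch at h3
    have h4 : Real.cosh (d * |x|) = Real.cosh (d * x) := by
      rw [← Real.cosh_abs (d * x), abs_mul, abs_of_pos hd]
    rwa [h4] at h3
  unfold gdf
  have h5 : |x| = (1 / d) * (d * |x| - Real.log 2) + Real.log 2 / d := by
    field_simp
    ring
  rw [h5] at h1
  have h6 : (1 / d) * (d * |x| - Real.log 2) ≤ (1 / d) * Real.log (Real.cosh (d * x)) :=
    mul_le_mul_of_nonneg_left h2 (by positivity)
  linarith

theorem gaussOp_gdf_ge {a d v : ℝ} (hd : 0 < d) (had : d ≤ a) (hv : 0 ≤ v) (z : ℝ) :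
    gaussOp a v (gdf d) z ≤ gdf d z + a * v / 2 := by
  have ha : 0 < a := lt_of_lt_of_le hd had
  set θ := a / d with hθ
  have hθ1 : 1 ≤ θ := by rw [hθ, le_div_iff₀ hd]; linarith
  set t := Real.tanh (d * z) with ht
  have ht1 : t < 1 := Real.tanh_lt_one _
  have ht2 : -1 < t := Real.neg_one_lt_tanh _
  have hc : 0 < Real.cosh (d * z) := Real.cosh_pos _
  -- pointwise bound
  have hpt : ∀ g : ℝ, Real.exp (a * gdf d (z + Real.sqrt v * g)) ≤
      (Real.cosh (d * z)) ^ θ * ((1 + t) / 2 * Real.exp (a * Real.sqrt v * g) +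
        (1 - t) / 2 * Real.exp (-(a * Real.sqrt v) * g)) := by
    intro g
    set s := Real.sqrt v * g with hs
    have e1 : Real.exp (a * gdf d (z + s)) = (Real.cosh (d * (z + s))) ^ θ := by
      rw [Real.rpow_def_of_pos (Real.cosh_pos _)]
      unfold gdf
      congr 1
      rw [hθ]; ring
    have e2 : Real.cosh (d * (z + s)) = Real.cosh (d * z) *
        ((1 + t) / 2 * Real.exp (d * s) + (1 - t) / 2 * Real.exp (-(d * s))) := by
      have h1 : Real.sinh (d * z) = Real.cosh (d * z) * t := by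
        rw [ht, Real.tanh_eq_sinh_div_cosh]; field_simp
      rw [mul_add, Real.cosh_add, h1, Real.cosh_eq (d * s), Real.sinh_eq (d * s)]
      ring
    rw [e1, e2, Real.mul_rpow hc.le (by
      have := Real.exp_pos (d * s)
      have := Real.exp_pos (-(d * s))
      have h3 : 0 ≤ (1 + t) / 2 := by linarith
      have h4 : 0 ≤ (1 - t) / 2 := by linarith
      positivity)]
    refine mul_le_mul_of_nonneg_left ?_ (Real.rpow_nonneg hc.le _)
    have h1 := (convexOn_rpow hθ1).2 (x := Real.exp (d * s)) (Real.exp_pos _).le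
      (y := Real.exp (-(d * s))) (Real.exp_pos _).le
      (show 0 ≤ (1 + t) / 2 by linarith) (show 0 ≤ (1 - t) / 2 by linarith) (by ring)
    simp only [smul_eq_mul] at h1
    refine h1.trans (le_of_eq ?_)
    rw [← Real.exp_mul, ← Real.exp_mul]
    have e3 : d * s * θ = a * Real.sqrt v * g := by rw [hθ, hs]; field_simp
    have e4 : -(d * s) * θ = -(a * Real.sqrt v) * g := by rw [hθ, hs]; field_simp
    rw [e3, e4]
  have hmgf : ∀ c : ℝ, ∫ g, Real.exp (c * g) ∂(gaussianReal 0 1) = Real.exp (c ^ 2 / 2) := by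
    intro c
    have h := congrFun (mgf_id_gaussianReal (μ := 0) (v := 1)) c
    simp only [mgf, id] at h
    rw [h]
    simp
  have hi : ∀ c : ℝ, Integrable (fun g => Real.exp (c * g)) (gaussianReal 0 1) := fun c =>
    integrable_exp_mul_gaussianReal c
  have hE : ∫ g, Real.exp (a * gdf d (z + Real.sqrt v * g)) ∂(gaussianReal 0 1) ≤
      (Real.cosh (d * z)) ^ θ * Real.exp (a ^ 2 * v / 2) := by
    have hint : Integrable (fun g => (Real.cosh (d * z)) ^ θ *
        ((1 + t) / 2 * Real.exp (a * Real.sqrt v * g) +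
        (1 - t) / 2 * Real.exp (-(a * Real.sqrt v) * g))) (gaussianReal 0 1) :=
      (((hi _).const_mul _).add ((hi _).const_mul _)).const_mul _
    refine (integral_mono (((gdf_lg hd).aff z (Real.sqrt v)).ce_exp a).int
      hint hpt).trans (le_of_eq ?_)
    rw [integral_const_mul, integral_add ((hi _).const_mul _) ((hi _).const_mul _),
      integral_const_mul, integral_const_mul, hmgf, hmgf]
    have e5 : (a * Real.sqrt v) ^ 2 = a ^ 2 * v := by rw [mul_pow, Real.sq_sqrt hv]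
    have e6 : (-(a * Real.sqrt v)) ^ 2 = a ^ 2 * v := by rw [neg_sq, e5]
    rw [e5, e6]
    ring
  unfold gaussOp
  rw [if_neg ha.ne']
  have hpos : 0 < ∫ g, Real.exp (a * gdf d (z + Real.sqrt v * g)) ∂(gaussianReal 0 1) :=
    int_exp_pos ((gdf_lg hd).aff z (Real.sqrt v)) a
  have h7 := Real.log_le_log hpos hE
  rw [Real.log_mul (Real.rpow_pos_of_pos hc _).ne' (Real.exp_pos _).ne', Real.log_exp,
    Real.log_rpow hc] at h7
  calc a⁻¹ * Real.log (∫ g, Real.exp (a * gdf d (z + Real.sqrt v * g)) ∂(gaussianReal 0 1)) ≤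
        a⁻¹ * (θ * Real.log (Real.cosh (d * z)) + a ^ 2 * v / 2) :=
        mul_le_mul_of_nonneg_left h7 (inv_nonneg.2 ha.le)
    _ = _ := by
        unfold gdf
        rw [hθ]
        field_simp

theorem gaussOp_gdf {a d v : ℝ} (ha0 : 0 ≤ a) (hd : 0 < d) (hd1 : d ≤ 1) (ha1 : a ≤ 1)
    (hv : 0 ≤ v) (z : ℝ) :
    gaussOp a v (gdf d) z ≤ gdf d z + (1 / 2) * ((a + d * (1 - a)) * v) := by
  rcases le_total d a with h | h
  · refine (gaussOp_gdf_ge hd h hv z).trans ?_
    have : a * v ≤ (a + d * (1 - a)) * v := by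
      apply mul_le_mul_of_nonneg_right _ hv
      nlinarith
    linarith
  · refine (gaussOp_mono_a ha0 h v (gdf_lg hd) z).trans ((gaussOp_gdf_ge hd le_rfl hv z).trans ?_)
    have : d * v ≤ (a + d * (1 - a)) * v := by
      apply mul_le_mul_of_nonneg_right _ hv
      nlinarith
    linarith

theorem LRec_grow {τ : ℝ → ℝ} {L : List ℝ} (hL : ∀ t ∈ L, 0 ≤ t ∧ t ≤ 1) (hτ : ∀ t ∈ L, 0 ≤ τ t)
    {d : ℝ} (hd : 0 < d) (hd1 : d ≤ 1) (z : ℝ) :
    LRec τ L z ≤ gdf d z + (Real.log 2 / d +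
      (1 / 2) * (L.map (fun t => (t + d * (1 - t)) * τ t)).sum) := by
  induction L generalizing z with
  | nil => simpa [LRec] using lch_le_gdf hd z
  | cons a L ih =>
    have hL' : ∀ t ∈ L, 0 ≤ t ∧ t ≤ 1 := fun t ht => hL t (by simp [ht])
    have hτ' : ∀ t ∈ L, 0 ≤ τ t := fun t ht => hτ t (by simp [ht])
    have h1 : LRec τ (a :: L) z = gaussOp a (τ a) (LRec τ L) z := rfl
    have hsf := LRec_SF (τ := τ) (L := L) fun t ht => (hL' t ht).1
    have ha := hL a (by simp)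
    rw [h1]
    refine (gaussOp_mono ha.1 _ hsf.lg ((gdf_lg hd).add_const _) (ih hL' hτ') z).trans ?_
    rw [gaussOp_add_const _ _ _ (gdf_lg hd), List.map_cons, List.sum_cons]
    have := gaussOp_gdf ha.1 hd hd1 ha.2 (hτ a (by simp)) z
    linarith

/-- Growth of the one-site value. -/
theorem FVal_grow {S : Finset ℝ} (hS : Pos S) {τ : ℝ → ℝ} (hτ : ∀ t ∈ S, 0 ≤ τ t) {d : ℝ}
    (hd : 0 < d) (hd1 : d ≤ 1) :
    FVal S τ 0 ≤ Real.log 2 / d - (1 / 2) * ((1 - d) * ∑ t ∈ S, (1 - t) * τ t) := by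
  unfold FVal FRec
  have h := LRec_grow (τ := τ) (L := S.sort (· ≤ ·))
    (fun t ht => ⟨(hS t ((Finset.mem_sort (· ≤ ·)).mp ht)).1,
      (hS t ((Finset.mem_sort (· ≤ ·)).mp ht)).2.le⟩)
    (fun t ht => hτ t ((Finset.mem_sort (· ≤ ·)).mp ht)) hd hd1 0
  rw [sum_sort, gdf_zero, zero_add] at h
  have e : ∑ t ∈ S, (t + d * (1 - t)) * τ t - ∑ t ∈ S, τ t = - ((1 - d) * ∑ t ∈ S, (1 - t) * τ t) := by
    rw [← Finset.sum_sub_distrib, Finset.mul_sum, ← Finset.sum_neg_distrib]
    exact Finset.sum_congr rfl fun t _ => by ring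
  linarith

/-! ### Integral of the path -/

theorem integral_FH {S : Finset ℝ} (hS : Pos S) (τ : ℝ → ℝ) :
    ∫ u in Set.Ioo (0 : ℝ) 1, FH S τ u = ∑ t ∈ S, (1 - t) * τ t := by
  unfold FH
  have e : ∀ u : ℝ, (∑ t ∈ S, if t < u then τ t else 0) =
      ∑ t ∈ S, τ t * (Set.Ioi t).indicator (fun _ => (1 : ℝ)) u := by
    intro u
    refine Finset.sum_congr rfl fun t _ => ?_
    by_cases h : t < u
    · rw [if_pos h, Set.indicator_of_mem (show u ∈ Set.Ioi t from h), mul_one]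
    · rw [if_neg h, Set.indicator_of_notMem (show u ∉ Set.Ioi t from h), mul_zero]
  simp only [e]
  rw [integral_finsetSum]
  · refine Finset.sum_congr rfl fun t ht => ?_
    rw [integral_const_mul, setIntegral_indicator measurableSet_Ioi]
    have e2 : Set.Ioo (0 : ℝ) 1 ∩ Set.Ioi t = Set.Ioo t 1 := by
      ext u
      simp only [Set.mem_inter_iff, Set.mem_Ioo, Set.mem_Ioi]
      have := (hS t ht).1
      constructor
      · rintro ⟨⟨_, h2⟩, h3⟩; exact ⟨h3, h2⟩
      · rintro ⟨h1, h2⟩; exact ⟨⟨lt_of_le_of_lt this h1, h2⟩, h1⟩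
    rw [e2]
    have h1 := (hS t ht).2
    simp only [integral_const, MeasurableSet.univ, measureReal_restrict_apply, Set.univ_inter,
      Real.volume_real_Ioo, smul_eq_mul, mul_one]
    rw [max_eq_left (by linarith)]
    ring
  · intro t _
    refine Integrable.const_mul ?_ _
    exact (integrable_const (1 : ℝ)).indicator measurableSet_Ioi

/-- The area under the step field. -/
noncomputable def area {k : ℕ} (w hv : Fin k → ℝ) : ℝ := ∑ t ∈ fS w, (1 - t) * fτ w hv t

theorem integral_stepFn {k : ℕ} {w hv : Fin k → ℝ} (h : IsStepField w hv) :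
    ∫ u in Set.Ioo (0 : ℝ) 1, stepFn w hv u = area w hv := by
  unfold area
  rw [← integral_FH (fS_pos h)]
  exact setIntegral_congr_fun measurableSet_Ioo fun u hu => stepFn_eq_FH h hu

theorem area_nonneg {k : ℕ} {w hv : Fin k → ℝ} (h : IsStepField w hv) : 0 ≤ area w hv := by
  unfold area
  refine Finset.sum_nonneg fun t ht => mul_nonneg ?_ (fτ_nonneg h t)
  have := (fS_pos h t ht).2
  linarith

theorem stepFn_nonneg {k : ℕ} {w hv : Fin k → ℝ} (h : IsStepField w hv) (u : ℝ) :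
    0 ≤ stepFn w hv u := by
  unfold stepFn
  refine Finset.sum_nonneg fun i _ => ?_
  split_ifs
  · exact h.2.2.2.2 i
  · exact le_refl _

theorem stepFn_le {k : ℕ} {w hv : Fin k → ℝ} (h : IsStepField w hv) (u : ℝ) :
    stepFn w hv u ≤ ∑ i, hv i := by
  unfold stepFn
  refine Finset.sum_le_sum fun i _ => ?_
  split_ifs
  · exact le_refl _
  · exact h.2.2.2.2 i

theorem stepFn_measurable {k : ℕ} (w hv : Fin k → ℝ) : Measurable (stepFn w hv) := by
  unfold stepFn
  refine Finset.measurable_sum _ fun i _ => ?_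
  refine Measurable.ite ?_ measurable_const measurable_const
  exact (measurableSet_Ioi.inter measurableSet_Iic)

/-- Integrability of `p h`. -/
theorem integrable_mul_stepFn {k : ℕ} {w hv : Fin k → ℝ} (h : IsStepField w hv) {p : ℝ → ℝ}
    (hp : Measurable p) {C : ℝ} (hC : ∀ s ∈ Set.Ioo (0 : ℝ) 1, |p s| ≤ C) :
    IntegrableOn (fun u => p u * stepFn w hv u) (Set.Ioo (0 : ℝ) 1) := by
  refine Measure.integrableOn_of_bounded (M := C * ∑ i, hv i) (by simp) ?_ ?_
  · exact (hp.mul (stepFn_measurable w hv)).aestronglyMeasurable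
  · refine (ae_restrict_iff' measurableSet_Ioo).2 (Filter.Eventually.of_forall fun u hu => ?_)
    rw [Real.norm_eq_abs, abs_mul, abs_of_nonneg (stepFn_nonneg h u)]
    exact mul_le_mul (hC u hu) (stepFn_le h u) (stepFn_nonneg h u)
      ((abs_nonneg _).trans (hC u hu))

/-- Monotonicity of `∫ p h` in `p`. -/
theorem integral_mul_stepFn_mono {k : ℕ} {w hv : Fin k → ℝ} (h : IsStepField w hv) {p q : ℝ → ℝ}
    (hp : Measurable p) (hq : Measurable q) {C : ℝ} (hC : ∀ s ∈ Set.Ioo (0 : ℝ) 1, |p s| ≤ C)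
    (hC' : ∀ s ∈ Set.Ioo (0 : ℝ) 1, |q s| ≤ C) (hpq : ∀ s ∈ Set.Ioo (0 : ℝ) 1, p s ≤ q s) :
    ∫ u in Set.Ioo (0 : ℝ) 1, p u * stepFn w hv u ≤
      ∫ u in Set.Ioo (0 : ℝ) 1, q u * stepFn w hv u := by
  refine setIntegral_mono_on (integrable_mul_stepFn h hp hC) (integrable_mul_stepFn h hq hC')
    measurableSet_Ioo fun u hu => ?_
  exact mul_le_mul_of_nonneg_right (hpq u hu) (stepFn_nonneg h u)

/-- `∫ p h ≤ c ∫ h` for `p ≤ c`. -/
theorem integral_mul_stepFn_le_area {k : ℕ} {w hv : Fin k → ℝ} (h : IsStepField w hv) {p : ℝ → ℝ}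
    (hp : Measurable p) {c : ℝ} (h0 : ∀ s ∈ Set.Ioo (0 : ℝ) 1, 0 ≤ p s)
    (hc : ∀ s ∈ Set.Ioo (0 : ℝ) 1, p s ≤ c) :
    ∫ u in Set.Ioo (0 : ℝ) 1, p u * stepFn w hv u ≤ c * area w hv := by
  have hc0 : 0 ≤ c := (h0 (1 / 2) (by norm_num)).trans (hc (1 / 2) (by norm_num))
  refine (integral_mul_stepFn_mono h hp measurable_const (C := c)
    (fun s hs => by rw [abs_of_nonneg (h0 s hs)]; exact hc s hs)
    (fun s _ => by rw [abs_of_nonneg hc0]) hc).trans (le_of_eq ?_)
  rw [integral_const_mul, integral_stepFn h]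

/-- The constrained one-site value of a step field. -/
noncomputable def fLeg {k : ℕ} (w hv : Fin k → ℝ) (m : ℝ) : ℝ :=
  ⨅ b : ℝ, (fieldValueAt b w hv - b * m)

theorem fLeg_eq_FLeg {k : ℕ} {w hv : Fin k → ℝ} (h : IsStepField w hv) (m : ℝ) :
    fLeg w hv m = FLeg (fS w) (fτ w hv) m := fieldLeg_eq_FLeg h m

theorem fLeg_le {k : ℕ} {w hv : Fin k → ℝ} (h : IsStepField w hv) {m : ℝ} (hm : |m| ≤ 1) (b : ℝ) :
    fLeg w hv m ≤ fieldValueAt b w hv - b * m := by
  rw [fLeg_eq_FLeg h, fieldValueAt_eq_FVal h.2.1]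
  exact FLeg_le (fS_pos h) (fun t _ => fτ_nonneg h t) hm b

theorem fLeg_le_zero {k : ℕ} {w hv : Fin k → ℝ} (h : IsStepField w hv) {m : ℝ} (hm : |m| ≤ 1) :
    fLeg w hv m ≤ 0 := by
  rw [fLeg_eq_FLeg h]
  exact FLeg_le_zero (fS_pos h) (fun t _ => fτ_nonneg h t) hm

/-- Growth of the constrained one-site value. -/
theorem fLeg_grow {k : ℕ} {w hv : Fin k → ℝ} (h : IsStepField w hv) {m : ℝ} (hm : |m| ≤ 1) {d : ℝ}
    (hd : 0 < d) (hd1 : d ≤ 1) :
    fLeg w hv m ≤ Real.log 2 / d - (1 / 2) * ((1 - d) * area w hv) := by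
  refine (fLeg_le h hm 0).trans ?_
  rw [zero_mul, sub_zero, fieldValueAt_eq_FVal h.2.1]
  exact FVal_grow (fS_pos h) (fun t _ => fτ_nonneg h t) hd hd1

/-- Lower bound for the one-site value. -/
theorem le_fieldValueAt {k : ℕ} {w hv : Fin k → ℝ} (h : IsStepField w hv) (b : ℝ) :
    |b| - Real.log 2 - (1 / 2) * area w hv ≤ fieldValueAt b w hv := by
  rw [fieldValueAt_eq_FVal h.2.1]
  exact le_FVal (fS_pos h) (fun t _ => fτ_nonneg h t) b

end Crest.Agent.RI
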