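import Crest.Agent.RI.CalcSys

/-!
# Row 164: SYNC lemma, abstract form (helper44), blueprint 2.2
-/

set_option autoImplicit false

namespace Crest.Agent.RI

open Finset

/-- Abstract system: spins `y`, perturbation Gaussians `g i a` at level `i`, weights `cl a ∈ [0,1/N]`
of a block (`cl a = 1/N` on the block and `0` outside). -/
structure ASys {P : Type*} (S : Calc P) (N : ℕ) where
  y : Fin N → S.G
  ysq : ∀ p, ∑ a, (y a).1 p ^ 2 = (N : ℝ)

namespace ASys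

variable {P : Type*} {S : Calc P} {N : ℕ} (X : ASys S N)

/-- `M_j = E[y | F_j]` (first `j+1` coordinates) -/
noncomputable def M (j : ℕ) (a : Fin N) : S.G := S.C (j + 1) (X.y a)

/-- `Q_l = Σ_a c_a y_a²` -/
noncomputable def Q (c : Fin N → ℝ) : S.G := ∑ a, c a • (X.y a * X.y a)

/-- `A_j = Σ_a c_a y_a M_{j,a}` -/
noncomputable def A (c : Fin N → ℝ) (j : ℕ) : S.G := ∑ a, c a • (X.y a * X.M j a)

/-- `S_j = Σ_a c_a M_{j,a}²` -/
noncomputable def Sx (c : Fin N → ℝ) (j : ℕ) : S.G := ∑ a, c a • (X.M j a * X.M j a)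

/-- `ρ_j` -/
noncomputable def rho (c : Fin N → ℝ) (j : ℕ) : ℝ := ∑ a, c a * S.E (X.M j a * X.M j a)

/-- `a_j = E_2^{(j)} Q(12)²` -/
noncomputable def a2 (c : Fin N → ℝ) (j : ℕ) : ℝ := S.BB (j + 1) X.y X.y c c

/-- `r_{i,m}` -/
noncomputable def r2 (c : Fin N → ℝ) (i m : ℕ) : ℝ := S.BB (i + 1) X.y (X.M m) c c

/-- `b_i = E A_i²` -/
noncomputable def b2 (c : Fin N → ℝ) (i : ℕ) : ℝ := S.E (X.A c i * X.A c i)

/-- `η_i = E_2^{(i)} (Q(12) - ρ_i)²` -/
noncomputable def eta (c : Fin N → ℝ) (j : ℕ) : ℝ := X.a2 c j - X.rho c j ^ 2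

variable {c : Fin N → ℝ}

theorem M_ms (j : ℕ) (a : Fin N) : S.Ms (j + 1) (X.M j a) := Calc.Ms.C _ _

theorem Sx_ms (c : Fin N → ℝ) (j : ℕ) : S.Ms (j + 1) (X.Sx c j) :=
  Calc.Ms.sum _ fun a _ => ((X.M_ms j a).mul (X.M_ms j a)).smul _

theorem E_A (c : Fin N → ℝ) (j : ℕ) : S.E (X.A c j) = X.rho c j := by
  unfold A rho
  rw [map_sum]
  refine sum_congr rfl fun a _ => ?_
  rw [map_smul, (X.M_ms j a).E_mul]
  rfl

theorem E_Sx (c : Fin N → ℝ) (j : ℕ) : S.E (X.Sx c j) = X.rho c j := by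
  unfold Sx rho
  rw [map_sum]
  exact sum_congr rfl fun a _ => by rw [map_smul]; rfl

/-- `E[A_m f] = E[S_m f]` for `f ∈ F_m`. -/
theorem E_A_mul (c : Fin N → ℝ) (m : ℕ) {f : S.G} (hf : S.Ms (m + 1) f) :
    S.E (X.A c m * f) = S.E (X.Sx c m * f) := by
  unfold A Sx
  rw [sum_mul, sum_mul, map_sum, map_sum]
  refine sum_congr rfl fun a _ => ?_
  rw [smul_mul_assoc, smul_mul_assoc, map_smul, map_smul, mul_assoc,
    ((X.M_ms m a).mul hf).E_mul, mul_assoc]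
  rfl

/-! ### pointwise bounds -/

theorem M_sq_sum (j : ℕ) (p : P) : ∑ a, (X.M j a).1 p ^ 2 ≤ (N : ℝ) := by
  have h : S.C (j + 1) (∑ a, X.y a * X.y a) = (N : ℝ) • 1 := by
    have : (∑ a, X.y a * X.y a) = (N : ℝ) • 1 := by
      apply Subtype.ext
      funext p
      rw [S.coe_sum]
      simp only [MulMemClass.coe_mul, Pi.mul_apply, SetLike.val_smul, Pi.smul_apply, OneMemClass.coe_one,
        Pi.one_apply, smul_eq_mul, mul_one]
      rw [← X.ysq p]
      exact sum_congr rfl fun a _ => by ring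
    rw [this, map_smul, S.C_one]
  have h2 : ∑ a, (S.C (j + 1) (X.y a * X.y a)).1 p = N := by
    rw [← S.coe_sum, ← map_sum, h]
    simp
  rw [← h2]
  exact sum_le_sum fun a _ => S.C_sq_le (j + 1) (X.y a) p

theorem inn_abs_le (hN : 0 < N) (hc0 : ∀ a, 0 ≤ c a) (hc1 : ∀ a, c a ≤ 1 / (N : ℝ))
    (u v : Fin N → ℝ) (hu : ∑ a, u a ^ 2 ≤ (N : ℝ)) (hv : ∑ a, v a ^ 2 ≤ (N : ℝ)) :
    |∑ a, c a * (u a * v a)| ≤ 1 := by
  have hN' : (0 : ℝ) < N := by exact_mod_cast hN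
  calc |∑ a, c a * (u a * v a)| ≤ ∑ a, |c a * (u a * v a)| := abs_sum_le_sum_abs _ _
    _ ≤ ∑ a, (1 / (N : ℝ)) * ((1 / 2) * (u a ^ 2 + v a ^ 2)) := by
        refine sum_le_sum fun a _ => ?_
        rw [abs_mul, abs_of_nonneg (hc0 a)]
        refine mul_le_mul (hc1 a) ?_ (abs_nonneg _) (by positivity)
        rw [abs_le]
        constructor <;> nlinarith [sq_nonneg (u a - v a), sq_nonneg (u a + v a)]
    _ = (1 / (N : ℝ)) * ((1 / 2) * (∑ a, u a ^ 2 + ∑ a, v a ^ 2)) := by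
        rw [← sum_add_distrib, mul_sum, mul_sum]
    _ ≤ (1 / (N : ℝ)) * ((1 / 2) * (N + N)) := by gcongr
    _ = 1 := by field_simp; ring

theorem A_abs_le (hN : 0 < N) (hc0 : ∀ a, 0 ≤ c a) (hc1 : ∀ a, c a ≤ 1 / (N : ℝ)) (j : ℕ) (p : P) :
    |(X.A c j).1 p| ≤ 1 := by
  have : (X.A c j).1 p = ∑ a, c a * ((X.y a).1 p * (X.M j a).1 p) := by
    unfold A; rw [S.coe_sum]; rfl
  rw [this]
  exact inn_abs_le hN hc0 hc1 _ _ (X.ysq p).le (X.M_sq_sum j p)

theorem Sx_abs_le (hN : 0 < N) (hc0 : ∀ a, 0 ≤ c a) (hc1 : ∀ a, c a ≤ 1 / (N : ℝ)) (j : ℕ) (p : P) :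
    |(X.Sx c j).1 p| ≤ 1 := by
  have : (X.Sx c j).1 p = ∑ a, c a * ((X.M j a).1 p * (X.M j a).1 p) := by
    unfold Sx; rw [S.coe_sum]; rfl
  rw [this]
  exact inn_abs_le hN hc0 hc1 _ _ (X.M_sq_sum j p) (X.M_sq_sum j p)

theorem Q_abs_le (hN : 0 < N) (hc0 : ∀ a, 0 ≤ c a) (hc1 : ∀ a, c a ≤ 1 / (N : ℝ)) (p : P) :
    |(X.Q c).1 p| ≤ 1 := by
  have : (X.Q c).1 p = ∑ a, c a * ((X.y a).1 p * (X.y a).1 p) := by
    unfold Q; rw [S.coe_sum]; rfl
  rw [this]
  exact inn_abs_le hN hc0 hc1 _ _ (X.ysq p).le (X.ysq p).le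

/-! ### relations between the second moments -/

theorem b2_eq (c : Fin N → ℝ) (i : ℕ) :
    X.b2 c i = ∑ a, ∑ b, c a * c b * S.E (S.C (i + 1) (X.y a * X.y b) * (X.M i a * X.M i b)) := by
  unfold b2 A
  rw [sum_mul_sum, map_sum]
  refine sum_congr rfl fun a _ => ?_
  rw [map_sum]
  refine sum_congr rfl fun b _ => ?_
  rw [smul_mul_smul_comm, map_smul, smul_eq_mul]
  congr 1
  have : X.y a * X.M i a * (X.y b * X.M i b) = X.y a * X.y b * (X.M i a * X.M i b) := by ring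
  rw [this, ((X.M_ms i a).mul (X.M_ms i b)).E_mul]

theorem ESx_sq (c : Fin N → ℝ) (i : ℕ) :
    S.E (X.Sx c i * X.Sx c i) =
      ∑ a, ∑ b, c a * c b * S.E ((X.M i a * X.M i b) * (X.M i a * X.M i b)) := by
  unfold Sx
  rw [sum_mul_sum, map_sum]
  refine sum_congr rfl fun a _ => ?_
  rw [map_sum]
  refine sum_congr rfl fun b _ => ?_
  rw [smul_mul_smul_comm, map_smul, smul_eq_mul]
  congr 2
  ring

/-- `a - 2b + s ≥ 0` -/
theorem quad_nonneg (hc0 : ∀ a, 0 ≤ c a) (i : ℕ) :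
    0 ≤ X.a2 c i - 2 * X.b2 c i + S.E (X.Sx c i * X.Sx c i) := by
  rw [X.b2_eq, X.ESx_sq]
  unfold a2 Calc.BB
  rw [mul_sum, ← sum_sub_distrib, ← sum_add_distrib]
  refine sum_nonneg fun a _ => ?_
  rw [mul_sum, ← sum_sub_distrib, ← sum_add_distrib]
  refine sum_nonneg fun b _ => ?_
  have h := S.E_nonneg ((S.C (i + 1) (X.y a * X.y b) - X.M i a * X.M i b) *
    (S.C (i + 1) (X.y a * X.y b) - X.M i a * X.M i b)) (fun p => by
      simp only [MulMemClass.coe_mul, Pi.mul_apply]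
      exact mul_self_nonneg _)
  have e : S.E ((S.C (i + 1) (X.y a * X.y b) - X.M i a * X.M i b) *
    (S.C (i + 1) (X.y a * X.y b) - X.M i a * X.M i b)) =
      S.E (S.C (i + 1) (X.y a * X.y b) * S.C (i + 1) (X.y a * X.y b)) -
      2 * S.E (S.C (i + 1) (X.y a * X.y b) * (X.M i a * X.M i b)) +
      S.E (X.M i a * X.M i b * (X.M i a * X.M i b)) := by
    have : (S.C (i + 1) (X.y a * X.y b) - X.M i a * X.M i b) *
      (S.C (i + 1) (X.y a * X.y b) - X.M i a * X.M i b) =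
      S.C (i + 1) (X.y a * X.y b) * S.C (i + 1) (X.y a * X.y b) -
      (2 : ℝ) • (S.C (i + 1) (X.y a * X.y b) * (X.M i a * X.M i b)) +
      X.M i a * X.M i b * (X.M i a * X.M i b) := by
        rw [two_smul]; ring
    rw [this, map_add, map_sub, map_smul, smul_eq_mul]
  rw [e] at h
  have hcc : 0 ≤ c a * c b := mul_nonneg (hc0 a) (hc0 b)
  have := mul_nonneg hcc h
  nlinarith [this]

/-- `b ≤ a` -/
theorem b2_le_a2 (i : ℕ) : X.b2 c i ≤ X.a2 c i := by
  have h := S.psd (i + 1) (fun a => c a • X.y a) (fun a => X.y a - X.M i a)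
  have e : ∀ a b, S.E (S.C (i + 1) (c a • X.y a * c b • X.y b) *
      S.C (i + 1) ((X.y a - X.M i a) * (X.y b - X.M i b))) =
      c a * c b * S.E (S.C (i + 1) (X.y a * X.y b) * S.C (i + 1) (X.y a * X.y b)) -
      c a * c b * S.E (S.C (i + 1) (X.y a * X.y b) * (X.M i a * X.M i b)) := by
    intro a b
    have e1 : S.C (i + 1) ((X.y a - X.M i a) * (X.y b - X.M i b)) =
        S.C (i + 1) (X.y a * X.y b) - X.M i a * X.M i b := by
      have : (X.y a - X.M i a) * (X.y b - X.M i b) =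
        X.y a * X.y b - X.y a * X.M i b - X.y b * X.M i a + X.M i a * X.M i b := by ring
      rw [this, map_add, map_sub, map_sub, (X.M_ms i b).C_mul, (X.M_ms i a).C_mul,
        ((X.M_ms i a).mul (X.M_ms i b) : S.Ms (i + 1) _)]
      unfold M; ring
    rw [e1, smul_mul_smul_comm, map_smul, smul_mul_assoc, map_smul, mul_sub, map_sub]
    simp only [smul_eq_mul]; ring
  simp only [e, sum_sub_distrib] at h
  have e2 := X.b2_eq c i
  unfold a2 Calc.BB
  linarith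

/-- `r_m ≤ a` for `m ≥ i` -/
theorem r2_le_a2 {i m : ℕ} (him : i ≤ m) : X.r2 c i m ≤ X.a2 c i := by
  have h := S.psd (i + 1) (fun a => c a • X.y a) (fun a => X.y a - X.M m a)
  have e : ∀ a b, S.E (S.C (i + 1) (c a • X.y a * c b • X.y b) *
      S.C (i + 1) ((X.y a - X.M m a) * (X.y b - X.M m b))) =
      c a * c b * S.E (S.C (i + 1) (X.y a * X.y b) * S.C (i + 1) (X.y a * X.y b)) -
      c a * c b * S.E (S.C (i + 1) (X.y a * X.y b) * S.C (i + 1) (X.M m a * X.M m b)) := by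
    intro a b
    have e0 : ∀ f : S.G, S.C (i + 1) f = S.C (i + 1) (S.C (m + 1) f) := by
      intro f; rw [S.C_C, min_eq_left (by omega)]
    have e1 : S.C (i + 1) ((X.y a - X.M m a) * (X.y b - X.M m b)) =
        S.C (i + 1) (X.y a * X.y b) - S.C (i + 1) (X.M m a * X.M m b) := by
      have : (X.y a - X.M m a) * (X.y b - X.M m b) =
        X.y a * X.y b - X.y a * X.M m b - X.y b * X.M m a + X.M m a * X.M m b := by ring
      rw [this, map_add, map_sub, map_sub, e0 (X.y a * X.M m b), e0 (X.y b * X.M m a),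
        (X.M_ms m b).C_mul, (X.M_ms m a).C_mul]
      have : S.C (m + 1) (X.y b) * X.M m a = X.M m a * X.M m b := by unfold M; ring
      rw [this]
      have : S.C (m + 1) (X.y a) * X.M m b = X.M m a * X.M m b := rfl
      rw [this]; ring
    rw [e1, smul_mul_smul_comm, map_smul, smul_mul_assoc, map_smul, mul_sub, map_sub]
    simp only [smul_eq_mul]; ring
  simp only [e, sum_sub_distrib] at h
  unfold a2 r2 Calc.BB
  linarith

end ASys

end Crest.Agent.RI
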