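import Crest.Agent.RI.SyncB
import Crest.Agent.RI.LoopA

/-!
# Row 164: the average of `η` over the levels (helper44)
-/

set_option autoImplicit false

namespace Crest.Agent.RI

open Finset

theorem Calc.E_C_sq_le {P : Type*} (S : Calc P) (r : ℕ) (f : S.G) :
    S.E (S.C r f * S.C r f) ≤ S.E (f * f) := by
  rw [← S.E_C r (f * f)]
  refine S.E_mono fun p => ?_
  have h := S.C_sq_le r f p
  have e : (S.C r f * S.C r f).1 p = (S.C r f).1 p * (S.C r f).1 p := rfl
  rw [e, ← sq]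
  exact h

theorem sum_inv_le_sqrt (k : ℕ) : ∑ i ∈ range k, 1 / ((i : ℝ) + 1) ≤ 2 * Real.sqrt k := by
  induction k with
  | zero => simp
  | succ k ih =>
    rw [sum_range_succ]
    have h1 : 0 ≤ Real.sqrt (k : ℝ) := Real.sqrt_nonneg _
    have h2 : 0 < Real.sqrt ((k : ℝ) + 1) := Real.sqrt_pos.2 (by positivity)
    have h3 : Real.sqrt (k : ℝ) ^ 2 = k := Real.sq_sqrt (Nat.cast_nonneg k)
    have h4 : Real.sqrt ((k : ℝ) + 1) ^ 2 = k + 1 := Real.sq_sqrt (by positivity)
    have h5 : 1 ≤ Real.sqrt ((k : ℝ) + 1) := by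
      rw [Real.one_le_sqrt]; linarith [Nat.cast_nonneg (α := ℝ) k]
    have h6 : 1 / ((k : ℝ) + 1) ≤ 2 * (Real.sqrt ((k : ℝ) + 1) - Real.sqrt k) := by
      rw [div_le_iff₀ (by positivity)]
      have h7 : Real.sqrt (k : ℝ) ≤ Real.sqrt ((k : ℝ) + 1) := Real.sqrt_le_sqrt (by linarith)
      have h8 : (Real.sqrt ((k : ℝ) + 1) - Real.sqrt k) *
          (Real.sqrt ((k : ℝ) + 1) + Real.sqrt k) = 1 := by nlinarith
      have h9 : 1 ≤ 2 * (Real.sqrt ((k : ℝ) + 1) - Real.sqrt k) * Real.sqrt ((k : ℝ) + 1) := by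
        nlinarith [mul_nonneg (sub_nonneg.2 h7) (sub_nonneg.2 h7)]
      calc (1 : ℝ) ≤ (2 * (Real.sqrt ((k : ℝ) + 1) - Real.sqrt k) * Real.sqrt ((k : ℝ) + 1)) *
            Real.sqrt ((k : ℝ) + 1) := one_le_mul_of_one_le_of_one_le h9 h5
        _ = 2 * (Real.sqrt ((k : ℝ) + 1) - Real.sqrt k) * Real.sqrt ((k : ℝ) + 1) ^ 2 := by ring
        _ = _ := by rw [h4]
    push_cast
    linarith

namespace ASys

variable {P : Type*} {S : Calc P} {N : ℕ} (X : ASys S N) {c : Fin N → ℝ}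

theorem a2_le_one (hN : 0 < N) (hc0 : ∀ a, 0 ≤ c a) (hc1 : ∀ a, c a ≤ 1 / (N : ℝ)) (j : ℕ) :
    X.a2 c j ≤ 1 := by
  have h1 : X.a2 c j ≤ ∑ a, ∑ b, c a * c b * S.E ((X.y a * X.y b) * (X.y a * X.y b)) := by
    unfold a2 Calc.BB
    refine sum_le_sum fun a _ => sum_le_sum fun b _ => ?_
    exact mul_le_mul_of_nonneg_left (S.E_C_sq_le _ _) (mul_nonneg (hc0 a) (hc0 b))
  have h2 : ∑ a, ∑ b, c a * c b * S.E ((X.y a * X.y b) * (X.y a * X.y b)) =
      S.E (X.Q c * X.Q c) := by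
    unfold Q
    rw [sum_mul_sum, map_sum]
    refine sum_congr rfl fun a _ => ?_
    rw [map_sum]
    refine sum_congr rfl fun b _ => ?_
    rw [smul_mul_smul_comm, map_smul, smul_eq_mul]
    congr 2
    ring
  rw [h2] at h1
  refine h1.trans ?_
  have := S.E_abs_le_one (f := X.Q c * X.Q c) (fun p => by
    have := X.Q_abs_le hN hc0 hc1 p
    have e : (X.Q c * X.Q c).1 p = (X.Q c).1 p * (X.Q c).1 p := rfl
    rw [e, abs_mul]
    exact mul_le_one₀ this (abs_nonneg _) this)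
  exact (abs_le.1 this).2

theorem eta_le_one (hN : 0 < N) (hc0 : ∀ a, 0 ≤ c a) (hc1 : ∀ a, c a ≤ 1 / (N : ℝ)) (j : ℕ) :
    X.eta c j ≤ 1 := by
  have := X.a2_le_one hN hc0 hc1 j
  unfold eta
  nlinarith [sq_nonneg (X.rho c j)]

theorem rho_mono (hc0 : ∀ a, 0 ≤ c a) {i j : ℕ} (hij : i ≤ j) : X.rho c i ≤ X.rho c j := by
  unfold rho
  refine sum_le_sum fun a _ => mul_le_mul_of_nonneg_left ?_ (hc0 a)
  have e : X.M i a = S.C (i + 1) (X.M j a) := by
    unfold M
    rw [S.C_C, min_eq_left (by omega)]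
  rw [e]
  exact S.E_C_sq_le _ _

variable {X} {k : ℕ} {ζ : ℕ → ℝ} {T : ℕ → S.G} {cf : ℕ → ℝ} {δ c0 : ℝ}

/-- The average of `η` over the levels is small. -/
theorem SyncHyp.avg (h : SyncHyp X c k ζ T cf δ c0) {w : ℝ} (hw : 0 < w)
    (hζw : ∀ i, i < k → ζ (i + 1) - ζ i = w) (h0 : 0 ≤ ζ 0) :
    ∑ i ∈ range k, w * X.eta c i ≤ 9 * Real.sqrt w + 6 * (δ / c0 + δ) / w := by
  set δ' := δ / c0 + δ with hδ'
  have hδ0 : 0 ≤ δ' := by have := h.δ0; have := h.c0pos; positivity
  -- values of `ζ`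
  have hζv : ∀ i, i ≤ k → ζ i = ζ 0 + i * w := by
    intro i
    induction i with
    | zero => intro _; simp
    | succ i ih =>
      intro hi
      have h1 := hζw i (by omega)
      rw [ih (by omega)] at h1
      push_cast
      linarith
  have hwk : w * k ≤ 1 := by
    have h1 := hζv k le_rfl
    rw [h.last] at h1
    linarith
  set sw := Real.sqrt w with hsw
  have hsw0 : 0 < sw := Real.sqrt_pos.2 hw
  have hsw2 : sw ^ 2 = w := Real.sq_sqrt hw.le
  rcases Nat.eq_zero_or_pos k with hk0 | hk0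
  · rw [hk0, range_zero, sum_empty]; positivity
  have hw1 : w ≤ 1 := by
    have : (1 : ℝ) ≤ k := by exact_mod_cast hk0
    nlinarith
  have hsw1 : sw ≤ 1 := by
    rw [hsw, ← Real.sqrt_one]; exact Real.sqrt_le_sqrt hw1
  set lam := 1 / sw with hlam
  have hlam0 : 0 < lam := by positivity
  set u : ℕ → ℝ := fun i => (if i = 0 then 1 else 0) + (if i + 1 = k then 1 else 0) with hu
  set v : ℕ → ℝ := fun i => 2 * (1 / ((i : ℝ) + 1)) + 6 * δ' / w +
    (1 / 2) * lam * (X.rho c (i + 1) - X.rho c i) + 2 / lam with hv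
  have hρm : ∀ i, 0 ≤ X.rho c (i + 1) - X.rho c i := fun i => by
    have := X.rho_mono h.c_nonneg (Nat.le_succ i)
    have : X.rho c i ≤ X.rho c (i + 1) := this
    linarith
  have hv0 : ∀ i, 0 ≤ v i := fun i => by
    have := hρm i
    simp only [hv]
    positivity
  have hbd : ∀ i, i < k → X.eta c i ≤ u i + v i := by
    intro i hi
    have he1 := X.eta_le_one h.Npos h.c_nonneg h.c_le i
    have hv1 := hv0 i
    by_cases hi0 : i = 0
    · have : 1 ≤ u i := by
        simp only [hu]; rw [if_pos hi0]; split_ifs <;> linarith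
      linarith
    by_cases hik : i + 1 = k
    · have : 1 ≤ u i := by
        simp only [hu]; rw [if_pos hik]; split_ifs <;> linarith
      linarith
    have hu0 : u i = 0 := by simp only [hu]; rw [if_neg hi0, if_neg hik]; ring
    rw [hu0, zero_add]
    have hi1 : 1 ≤ i := Nat.one_le_iff_ne_zero.2 hi0
    have hik' : i + 1 < k := by omega
    have hz1 := hζv (i + 1) (by omega)
    have hzge : ((i : ℝ) + 1) * w ≤ ζ (i + 1) := by
      rw [hz1]; push_cast; linarith
    have hip : (0 : ℝ) < (i : ℝ) + 1 := by positivity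
    have hzpos : 0 < ζ (i + 1) := lt_of_lt_of_le (by positivity) hzge
    have hw2 : ζ (i + 2) - ζ (i + 1) = w := hζw (i + 1) hik'
    have hs := h.sync hi1 hik' (by rw [hw2]; exact hw) hzpos hlam0
    rw [hw2, hζw i hi] at hs
    refine hs.trans ?_
    have t1 : 2 * (w + 2 * δ') / ζ (i + 1) ≤ 2 * (1 / ((i : ℝ) + 1)) + 4 * δ' / w := by
      calc 2 * (w + 2 * δ') / ζ (i + 1) ≤ 2 * (w + 2 * δ') / (((i : ℝ) + 1) * w) := by gcongr
        _ = 2 * (1 / ((i : ℝ) + 1)) + (4 * δ' / w) * (1 / ((i : ℝ) + 1)) := by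
          field_simp; ring
        _ ≤ 2 * (1 / ((i : ℝ) + 1)) + (4 * δ' / w) * 1 := by
          gcongr
          rw [div_le_one hip]; linarith [Nat.cast_nonneg (α := ℝ) i]
        _ = _ := by rw [mul_one]
    have t2 : (1 / 2) * (lam * (X.rho c (i + 1) - X.rho c i) + 4 / lam) =
        (1 / 2) * lam * (X.rho c (i + 1) - X.rho c i) + 2 / lam := by ring
    rw [t2]
    have t3 : 2 * δ' / w + 4 * δ' / w = 6 * δ' / w := by ring
    simp only [hv]
    linarith
  -- sum
  have hsum1 : ∑ i ∈ range k, u i ≤ 2 := by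
    simp only [hu]
    rw [sum_add_distrib]
    have e1 : ∑ i ∈ range k, (if i = 0 then (1 : ℝ) else 0) ≤ 1 := by
      rw [sum_ite_eq' (range k) 0 (fun _ => (1 : ℝ))]
      split_ifs <;> norm_num
    have e2 : ∑ i ∈ range k, (if i + 1 = k then (1 : ℝ) else 0) ≤ 1 := by
      have : ∑ i ∈ range k, (if i + 1 = k then (1 : ℝ) else 0) =
          ∑ i ∈ range k, (if i = k - 1 then (1 : ℝ) else 0) := by
        refine sum_congr rfl fun i hi => ?_
        have := mem_range.1 hi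
        congr 1
        apply propext
        omega
      rw [this, sum_ite_eq' (range k) (k - 1) (fun _ => (1 : ℝ))]
      split_ifs <;> norm_num
    linarith
  have hsum2 : ∑ i ∈ range k, v i ≤ 4 * Real.sqrt k + k * (6 * δ' / w) + (1 / 2) * lam +
      k * (2 / lam) := by
    simp only [hv]
    rw [sum_add_distrib, sum_add_distrib, sum_add_distrib, ← mul_sum, ← mul_sum, sum_const,
      sum_const, card_range, nsmul_eq_mul, nsmul_eq_mul, sum_range_sub (fun i => X.rho c i)]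
    have h1 := sum_inv_le_sqrt k
    have h2 := h.rho_le_one k
    have h3 := h.rho_nonneg 0
    have h4 : (1 / 2) * lam * (X.rho c k - X.rho c 0) ≤ (1 / 2) * lam := by
      have : (0 : ℝ) ≤ (1 / 2) * lam := by positivity
      nlinarith
    linarith
  have hsqk : w * Real.sqrt k ≤ sw := by
    have h1 : sw * Real.sqrt k ≤ 1 := by
      rw [hsw, ← Real.sqrt_mul hw.le, ← Real.sqrt_one]
      exact Real.sqrt_le_sqrt hwk
    calc w * Real.sqrt k = sw * (sw * Real.sqrt k) := by rw [← hsw2]; ring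
      _ ≤ sw * 1 := by gcongr
      _ = sw := mul_one _
  have hlw : w * lam = sw := by
    rw [hlam, ← hsw2]; field_simp
  have hil : 2 / lam = 2 * sw := by
    rw [hlam]; field_simp
  calc ∑ i ∈ range k, w * X.eta c i ≤ ∑ i ∈ range k, w * (u i + v i) :=
        sum_le_sum fun i hi => mul_le_mul_of_nonneg_left (hbd i (mem_range.1 hi)) hw.le
    _ = w * (∑ i ∈ range k, u i + ∑ i ∈ range k, v i) := by rw [← mul_sum, sum_add_distrib]
    _ ≤ w * (2 + (4 * Real.sqrt k + k * (6 * δ' / w) + (1 / 2) * lam + k * (2 / lam))) := by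
        gcongr
    _ = 2 * w + 4 * (w * Real.sqrt k) + (w * k) * (6 * δ' / w) + (1 / 2) * (w * lam) +
        (w * k) * (2 * sw) := by rw [hil]; ring
    _ ≤ 2 * sw + 4 * sw + 1 * (6 * δ' / w) + (1 / 2) * sw + 1 * (2 * sw) := by
        rw [hlw]
        have h1 : w ≤ sw := by rw [← hsw2]; nlinarith
        gcongr
    _ ≤ 9 * sw + 6 * δ' / w := by linarith

end ASys

end Crest.Agent.RI
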