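import Crest.Agent.RI.SysSync
import Crest.Agent.RI.SyncAvg
import Crest.Agent.RI.RhoFacts

/-!
# Row 164: SYNC + loop equations for the concrete system, quantitative form (helper44)
-/

set_option autoImplicit false

namespace Crest.Agent.RI

open MeasureTheory Finset

variable {N K : ℕ} {P : Measure (ON N)} {A : Measure (Fin N → Bool)} {ζ : ℕ → ℝ}
variable {hP : HaarO P} [IsProbabilityMeasure A] {hζ : Exps ζ} {k : ℕ} {θ : Par N K}

local notation "𝒮" => SC hP A hζ k θ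
local notation "𝒳" => XS (A := A) (k := k) hP hζ θ
local notation "𝓎" => yG (A := A) (k := k) hP hζ θ
local notation "ℊ" => gG (A := A) (k := k) hP hζ θ

variable (hP hζ θ) in
/-- `ρ_{l,i}` in the algebra -/
theorem rhoOv_rho (l : Fin K) (i : ℕ) :
    rhoOv P A ζ k θ l i = (𝒳).rho (cl θ.κ l) i := by
  rw [rhoOv_eq hP hζ θ l i, mul_sum]
  unfold ASys.rho
  refine sum_congr rfl fun a _ => ?_
  have e : (𝒮).E ((𝒳).M i a * (𝒳).M i a) = pathE (mN P A) ζ (k + 1) 0 (HN k θ) (fun ω =>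
      condE (mN P A) ζ (i + 1) (k + 1) 0 (HN k θ) (fun ω => yv k ω a) ω ^ 2) := by
    rw [SC_E]
    congr 1
    funext ω
    rw [sq]; rfl
  rw [e]
  unfold cl
  split_ifs <;> simp

variable (A k hP hζ θ) in
/-- `η_{l,i}`: variance of the block overlap of two paths split at level `i` -/
noncomputable def etaS (l : Fin K) (i : ℕ) : ℝ := (𝒳).eta (cl θ.κ l) i

theorem etaS_nonneg (l : Fin K) (i : ℕ) : 0 ≤ etaS A hP hζ k θ l i := ASys.eta_nonneg _ _ _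

variable (hP hζ θ) in
/-- SYNC: the average over the levels of the variance of the block overlap is small. -/
theorem etaS_avg (hN : 0 < N) (hk : ζ k = 1) {w : ℝ} (hw : 0 < w)
    (hζw : ∀ i, i < k → ζ (i + 1) - ζ i = w) {δ c0 : ℝ} (hδ : 0 ≤ δ) (hc0 : 0 < c0)
    (hc : ∀ j, 1 ≤ j → j < k → ∀ l, c0 ≤ θ.c j l) (hC : Conc P A ζ k θ δ) (l : Fin K) :
    ∑ i ∈ range k, w * etaS A hP hζ k θ l i ≤ 9 * Real.sqrt w + 6 * (δ / c0 + δ) / w :=
  (syncHyp hP hζ θ hN hk (fun i hi => by linarith [hζw i hi]) hδ hc0 hc hC l).avg hw hζw (hζ 0).1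

variable (hP hζ θ) in
/-- First loop equation. -/
theorem loopD_gen (hN : 0 < N) (hk : ζ k = 1) (hk1 : 1 ≤ k)
    {w : ℝ} (hw : 0 < w) (hζw : ∀ i, i < k → ζ (i + 1) - ζ i = w) {δ c1 : ℝ} (hδ : 0 ≤ δ)
    (hc : ∀ j l, 0 ≤ θ.c j l) (hc1 : ∀ j l, θ.c j l ≤ c1) (hc1' : c1 ≤ 1 / 2)
    (hC : Conc P A ζ k θ δ) (l l' : Fin K) :
    |Dst k w (θ.e l - θ.e l') (prop θ.κ l) (prop θ.κ l') (selfOv P A ζ k θ l)
      (selfOv P A ζ k θ l') (rhoOv P A ζ k θ l) (rhoOv P A ζ k θ l')| ≤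
      |θ.e l - θ.e l'| * (δ + (1 / 2) * (∑ m ∈ range k, w * etaS A hP hζ k θ l m +
        ∑ m ∈ range k, w * etaS A hP hζ k θ l' m)) + 16 * k * c1 := by
  have hc10 : 0 ≤ c1 := (hc 0 l).trans (hc1 0 l)
  by_cases hll : l = l'
  · subst hll
    unfold Dst
    have e : prop θ.κ l * selfOv P A ζ k θ l - prop θ.κ l * selfOv P A ζ k θ l +
        (θ.e l - θ.e l) * (selfOv P A ζ k θ l * selfOv P A ζ k θ l -
          ∑ j ∈ range k, w * (rhoOv P A ζ k θ l j * rhoOv P A ζ k θ l j)) = 0 := by ring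
    rw [e, abs_zero, sub_self, abs_zero, zero_mul, zero_add]
    positivity
  have h := (loopHyp hP hζ θ hN hk hk1 (fun i hi => by linarith [hζw i hi]) hc hc1 hc1' hC hll).loopD
  rw [sum_cl, sum_cl, ← self_eq hP hζ θ l, ← self_eq hP hζ θ l'] at h
  have e1 : ∑ m ∈ range k, (ζ (m + 1) - ζ m) * ((𝒳).rho (cl θ.κ l) m * (𝒳).rho (cl θ.κ l') m) =
      ∑ j ∈ range k, w * (rhoOv P A ζ k θ l j * rhoOv P A ζ k θ l' j) :=
    sum_congr rfl fun m hm => by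
      rw [hζw m (mem_range.1 hm), rhoOv_rho hP hζ θ l, rhoOv_rho hP hζ θ l']
  have e2 : ∑ m ∈ range k, (ζ (m + 1) - ζ m) * ((𝒳).eta (cl θ.κ l) m + (𝒳).eta (cl θ.κ l') m) =
      ∑ m ∈ range k, w * etaS A hP hζ k θ l m + ∑ m ∈ range k, w * etaS A hP hζ k θ l' m := by
    rw [← sum_add_distrib]
    refine sum_congr rfl fun m hm => ?_
    rw [hζw m (mem_range.1 hm), ← mul_add]; rfl
  rw [e1, e2] at h
  unfold Dst
  exact h

variable (hP hζ θ) in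
/-- Second loop equation. -/
theorem loopE_gen (hN : 0 < N) (hk : ζ k = 1) (hk1 : 1 ≤ k)
    {w : ℝ} (hw : 0 < w) (hζw : ∀ i, i < k → ζ (i + 1) - ζ i = w) {δ c1 : ℝ} (hδ : 0 ≤ δ)
    (hc : ∀ j l, 0 ≤ θ.c j l) (hc1 : ∀ j l, θ.c j l ≤ c1) (hc1' : c1 ≤ 1 / 2)
    (hC : Conc P A ζ k θ δ) (l l' : Fin K) {i : ℕ} (hi : i < k) :
    |Est ζ k w (θ.e l - θ.e l') (prop θ.κ l) (prop θ.κ l') (selfOv P A ζ k θ l)
      (selfOv P A ζ k θ l') (rhoOv P A ζ k θ l) (rhoOv P A ζ k θ l') i| ≤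
      |θ.e l - θ.e l'| * (2 * δ + 2 * (etaS A hP hζ k θ l i + etaS A hP hζ k θ l' i) +
        (1 / 2) * (∑ m ∈ range k, w * etaS A hP hζ k θ l m +
        ∑ m ∈ range k, w * etaS A hP hζ k θ l' m)) + 16 * k * c1 := by
  have hc10 : 0 ≤ c1 := (hc 0 l).trans (hc1 0 l)
  by_cases hll : l = l'
  · subst hll
    unfold Est
    rw [sub_self (θ.e l), abs_zero, zero_mul, zero_mul, zero_add, sub_self, zero_add, abs_zero]
    positivity
  have h := (loopHyp hP hζ θ hN hk hk1 (fun i hi => by linarith [hζw i hi]) hc hc1 hc1' hC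
    hll).loopE hi
  rw [sum_cl, sum_cl, ← self_eq hP hζ θ l, ← self_eq hP hζ θ l'] at h
  have e1 : ∑ m ∈ range i, (ζ (m + 1) - ζ m) * ((𝒳).rho (cl θ.κ l) m * (𝒳).rho (cl θ.κ l') m) =
      ∑ j ∈ range i, w * (rhoOv P A ζ k θ l j * rhoOv P A ζ k θ l' j) :=
    sum_congr rfl fun m hm => by
      rw [hζw m ((mem_range.1 hm).trans hi), rhoOv_rho hP hζ θ l, rhoOv_rho hP hζ θ l']
  have e2 : ∑ m ∈ range k, (ζ (m + 1) - ζ m) * ((𝒳).eta (cl θ.κ l) m + (𝒳).eta (cl θ.κ l') m) =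
      ∑ m ∈ range k, w * etaS A hP hζ k θ l m + ∑ m ∈ range k, w * etaS A hP hζ k θ l' m := by
    rw [← sum_add_distrib]
    refine sum_congr rfl fun m hm => ?_
    rw [hζw m (mem_range.1 hm), ← mul_add]; rfl
  have e3 : ∑ m ∈ Ioo i k, (ζ (m + 1) - ζ m) * ((𝒳).rho (cl θ.κ l) m * (𝒳).rho (cl θ.κ l') i +
      (𝒳).rho (cl θ.κ l) i * (𝒳).rho (cl θ.κ l') m) =
      ∑ j ∈ Ioo i k, w * (rhoOv P A ζ k θ l j * rhoOv P A ζ k θ l' i +
        rhoOv P A ζ k θ l i * rhoOv P A ζ k θ l' j) :=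
    sum_congr rfl fun m hm => by
      rw [hζw m (mem_Ioo.1 hm).2, rhoOv_rho hP hζ θ l, rhoOv_rho hP hζ θ l', rhoOv_rho hP hζ θ l,
        rhoOv_rho hP hζ θ l']
  rw [e1, e2, e3, ← rhoOv_rho hP hζ θ l, ← rhoOv_rho hP hζ θ l'] at h
  unfold Est
  exact h

end Crest.Agent.RI
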