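import Crest.Agent.RI.SyncLoop
import Crest.Agent.RI.LBDefs

/-!
# Row 164: SYNC + loop equations for the lower bound tower; `η` as a pair expectation (helper44)
-/

set_option autoImplicit false

namespace Crest.Agent.RI

open MeasureTheory Finset
open Crest.ProbabilityR.InvariantGlass

section pair

variable {N K : ℕ} {P : Measure (ON N)} {A : Measure (Fin N → Bool)} {ζ : ℕ → ℝ}
variable {hP : HaarO P} [IsProbabilityMeasure A] {hζ : Exps ζ} {k : ℕ} {θ : Par N K}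

local notation "𝒮" => SC hP A hζ k θ
local notation "𝒳" => XS (A := A) (k := k) hP hζ θ
local notation "𝓎" => yG (A := A) (k := k) hP hζ θ

theorem tame2_bdd {k : ℕ} {f : (Fin (k + 1) → EN N) → (Fin (k + 1) → EN N) → ℝ}
    (hm : Measurable (Function.uncurry f)) {C : ℝ} (hC : 0 ≤ C) (h : ∀ ω ω', |f ω ω'| ≤ C) :
    Tame2 (βN (N := N)) f := by
  refine ⟨hm, C, hC, fun ω ω' => (h ω ω').trans ?_⟩
  have h0 : 0 ≤ ∑ i, (βN (ω i) + βN (ω' i)) :=
    sum_nonneg fun i _ => add_nonneg (βN_nn _) (βN_nn _)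
  have h1 : (1 : ℝ) ≤ Real.exp (C * ∑ i, (βN (ω i) + βN (ω' i))) :=
    Real.one_le_exp (mul_nonneg hC h0)
  calc C = C * 1 := (mul_one C).symm
    _ ≤ _ := mul_le_mul_of_nonneg_left h1 hC

theorem yy_bdd (k : ℕ) (a b : Fin N) (ω ω' : Fin (k + 1) → EN N) :
    |(yv k ω a * yv k ω b) * (yv k ω' a * yv k ω' b)| ≤ ((N : ℝ) * N) * (N * N) := by
  rw [abs_mul, abs_mul, abs_mul]
  have h := abs_yv_le (N := N) k
  have h0 : (0 : ℝ) ≤ N := Nat.cast_nonneg N
  exact mul_le_mul (mul_le_mul (h ω a) (h ω b) (abs_nonneg _) h0)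
    (mul_le_mul (h ω' a) (h ω' b) (abs_nonneg _) h0) (by positivity) (by positivity)

variable (hP hζ θ) in
/-- `η_{l,i}` is the variance of the block overlap of a pair of paths split at level `i`. -/
theorem eta_pair (l : Fin K) (i : ℕ) :
    pairE (mN P A) ζ (i + 1) (k + 1) 0 (HN k θ)
      (fun ω ω' => (ovl k θ.κ l ω ω' - rhoOv P A ζ k θ l i) ^ 2) = etaS A hP hζ k θ l i := by
  have := prob_mN hP A
  have hβ := dom_mN hP A
  have hH := HN_ham k θ
  set ρ := rhoOv P A ζ k θ l i with hρ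
  have hov : ∀ ω ω' : Fin (k + 1) → EN N, ovl k θ.κ l ω ω' =
      ∑ a, cl θ.κ l a * (yv k ω a * yv k ω' a) := by
    intro ω ω'
    unfold ovl cl
    rw [mul_sum]
    refine sum_congr rfl fun a _ => ?_
    split_ifs <;> ring
  have hmy : ∀ a, Measurable (fun ω : Fin (k + 1) → EN N => yv k ω a) := measurable_yv k
  have hmo : Measurable (Function.uncurry (fun ω ω' : Fin (k + 1) → EN N =>
      ovl k θ.κ l ω ω')) := by
    have : (Function.uncurry (fun ω ω' : Fin (k + 1) → EN N => ovl k θ.κ l ω ω')) =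
        fun q => ∑ a, cl θ.κ l a * (yv k q.1 a * yv k q.2 a) := by
      funext q; exact hov q.1 q.2
    rw [this]
    exact Finset.measurable_sum _ fun a _ =>
      (((hmy a).comp measurable_fst).mul ((hmy a).comp measurable_snd)).const_mul _
  -- expansion of the square
  have e : (fun ω ω' : Fin (k + 1) → EN N => (ovl k θ.κ l ω ω' - ρ) ^ 2) =
      fun ω ω' => (∑ a, ∑ b, (cl θ.κ l a * cl θ.κ l b) *
        ((yv k ω a * yv k ω b) * (yv k ω' a * yv k ω' b))) +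
        ((-2 * ρ) * ovl k θ.κ l ω ω' + ρ ^ 2) := by
    funext ω ω'
    have e1 : ovl k θ.κ l ω ω' ^ 2 = ∑ a, ∑ b, (cl θ.κ l a * cl θ.κ l b) *
        ((yv k ω a * yv k ω b) * (yv k ω' a * yv k ω' b)) := by
      rw [hov, sq, sum_mul_sum]
      refine sum_congr rfl fun a _ => sum_congr rfl fun b _ => ?_
      ring
    rw [← e1]; ring
  have t1 : ∀ a b, Tame2 (βN (N := N)) (fun ω ω' : Fin (k + 1) → EN N =>
      (cl θ.κ l a * cl θ.κ l b) * ((yv k ω a * yv k ω b) * (yv k ω' a * yv k ω' b))) := by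
    intro a b
    refine tame2_bdd (C := |cl θ.κ l a * cl θ.κ l b| * (((N : ℝ) * N) * (N * N))) ?_ (by positivity)
      fun ω ω' => ?_
    · exact ((((hmy a).comp measurable_fst).mul ((hmy b).comp measurable_fst)).mul
        (((hmy a).comp measurable_snd).mul ((hmy b).comp measurable_snd))).const_mul _
    · rw [abs_mul]
      exact mul_le_mul_of_nonneg_left (yy_bdd k a b ω ω') (abs_nonneg _)
  have t2 : Tame2 (βN (N := N)) (fun ω ω' : Fin (k + 1) → EN N => (-2 * ρ) * ovl k θ.κ l ω ω') := by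
    refine tame2_bdd (C := |-2 * ρ| * 1) (hmo.const_mul _) (by positivity) fun ω ω' => ?_
    rw [abs_mul]
    exact mul_le_mul_of_nonneg_left (abs_ovl_le k θ.κ l ω ω') (abs_nonneg _)
  have t3 : Tame2 (βN (N := N)) (fun _ _ : Fin (k + 1) → EN N => ρ ^ 2) :=
    tame2_bdd (C := ρ ^ 2) measurable_const (by positivity) fun ω ω' => by
      rw [abs_of_nonneg (by positivity)]
  have t23 : Tame2 (βN (N := N)) (fun ω ω' : Fin (k + 1) → EN N =>
      (-2 * ρ) * ovl k θ.κ l ω ω' + ρ ^ 2) := by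
    refine tame2_bdd (C := |-2 * ρ| * 1 + ρ ^ 2) ((hmo.const_mul _).add_const _) (by positivity)
      fun ω ω' => (abs_add_le _ _).trans (add_le_add ?_ ?_)
    · rw [abs_mul]
      exact mul_le_mul_of_nonneg_left (abs_ovl_le k θ.κ l ω ω') (abs_nonneg _)
    · rw [abs_of_nonneg (by positivity)]
  rw [e, pairE_add hβ hζ (i + 1) (k + 1) 0 hH
    (tame2_fsum hβ univ fun a _ => tame2_fsum hβ univ fun b _ => t1 a b) t23,
    pairE_add hβ hζ (i + 1) (k + 1) 0 hH t2 t3, pairE_cmul, pairE_const hβ hζ _ _ _ hH,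
    pairE_fsum hβ hζ (i + 1) (k + 1) 0 hH univ (fun a _ => tame2_fsum hβ univ fun b _ => t1 a b)]
  have e2 : ∀ a, pairE (mN P A) ζ (i + 1) (k + 1) 0 (HN k θ) (fun ω ω' => ∑ b,
      (cl θ.κ l a * cl θ.κ l b) * ((yv k ω a * yv k ω b) * (yv k ω' a * yv k ω' b))) =
      ∑ b, cl θ.κ l a * cl θ.κ l b *
        (𝒮).E ((𝒮).C (i + 1) (𝓎 a * 𝓎 b) * (𝒮).C (i + 1) (𝓎 a * 𝓎 b)) := by
    intro a
    rw [pairE_fsum hβ hζ (i + 1) (k + 1) 0 hH univ fun b _ => t1 a b]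
    refine sum_congr rfl fun b _ => ?_
    rw [pairE_cmul]
    congr 1
    exact pairE_mul hβ hζ (i + 1) (k + 1) 0 hH (𝓎 a * 𝓎 b).2 (𝓎 a * 𝓎 b).2
  have e3 : pairE (mN P A) ζ (i + 1) (k + 1) 0 (HN k θ) (fun ω ω' => ovl k θ.κ l ω ω') = ρ := rfl
  rw [sum_congr rfl fun a _ => e2 a, e3]
  have e4 : etaS A hP hζ k θ l i = (∑ a, ∑ b, cl θ.κ l a * cl θ.κ l b *
        (𝒮).E ((𝒮).C (i + 1) (𝓎 a * 𝓎 b) * (𝒮).C (i + 1) (𝓎 a * 𝓎 b))) - ρ ^ 2 := by
    rw [hρ, rhoOv_rho hP hζ θ l i]; rfl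
  rw [e4]
  ring

end pair

/-! ### the lower bound tower -/

theorem ζLB_at_k {k : ℕ} (hk : 0 < k) : ζLB k k = 1 := by
  unfold ζLB
  have : (0 : ℝ) < k := by exact_mod_cast hk
  rw [div_self this.ne', min_self]

theorem ζLB_step {k i : ℕ} (hi : i < k) : ζLB k (i + 1) - ζLB k i = 1 / (k : ℝ) := by
  unfold ζLB
  have hk : (0 : ℝ) < k := by exact_mod_cast (by omega : 0 < k)
  have hi' : (i : ℝ) + 1 ≤ k := by exact_mod_cast hi
  rw [min_eq_right, min_eq_right]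
  · push_cast; field_simp; ring
  · rw [div_le_one hk]; linarith
  · rw [div_le_one hk]; push_cast; linarith

/-- SYNC + LOOP EQUATIONS for the lower bound tower. -/
theorem loops_LB (D : Blk) {J : ℕ} {ε : ℝ} (hε : 0 < ε) :
    ∃ k₀ : ℕ, ∀ k ≥ k₀, ∃ s₀ : ℝ, 0 < s₀ ∧ ∀ s : ℝ, 0 < s → s ≤ s₀ → ∃ δ₀ : ℝ, 0 < δ₀ ∧
      ∀ (L : LBd J) (N : ℕ), 0 < N → ∀ κ : Fin N → Fin D.K, ∀ lab : Fin N → Fin J,
      ∀ P : Measure (ON N), HaarO P →
      ∀ x : XI k D.K J → ℝ, (∀ j, x j ∈ Set.Icc (1 : ℝ) 2) →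
      Conc P (unifA N) (ζLB k) k (θL D L k s x κ lab) δ₀ →
      (∀ l l', |Dst k (1 / (k : ℝ)) (D.d l - D.d l') (prop κ l) (prop κ l')
        (selfOv P (unifA N) (ζLB k) k (θL D L k s x κ lab) l)
        (selfOv P (unifA N) (ζLB k) k (θL D L k s x κ lab) l')
        (rhoOv P (unifA N) (ζLB k) k (θL D L k s x κ lab) l)
        (rhoOv P (unifA N) (ζLB k) k (θL D L k s x κ lab) l')| ≤ ε) ∧
      (∀ l l', (1 / (k : ℝ)) * ∑ i ∈ Finset.range k,
        |Est (ζLB k) k (1 / (k : ℝ)) (D.d l - D.d l') (prop κ l) (prop κ l')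
          (selfOv P (unifA N) (ζLB k) k (θL D L k s x κ lab) l)
          (selfOv P (unifA N) (ζLB k) k (θL D L k s x κ lab) l')
          (rhoOv P (unifA N) (ζLB k) k (θL D L k s x κ lab) l)
          (rhoOv P (unifA N) (ζLB k) k (θL D L k s x κ lab) l') i| ≤ ε) ∧
      ∀ l, (1 / (k : ℝ)) * ∑ i ∈ Finset.range k,
        EL2 P D L k s x κ lab (i + 1) (fun ω ω' => (ovl k κ l ω ω' -
          rhoOv P (unifA N) (ζLB k) k (θL D L k s x κ lab) l i) ^ 2) ≤ ε := by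
  classical
  set T : ℝ := ∑ l, ∑ l', |D.d l - D.d l'| with hT
  have hT0 : 0 ≤ T := sum_nonneg fun _ _ => sum_nonneg fun _ _ => abs_nonneg _
  have hTb : ∀ l l', |D.d l - D.d l'| ≤ T := fun l l' =>
    (single_le_sum (f := fun l' => |D.d l - D.d l'|) (fun _ _ => abs_nonneg _)
      (mem_univ l')).trans (single_le_sum (f := fun l => ∑ l', |D.d l - D.d l'|)
      (fun _ _ => sum_nonneg fun _ _ => abs_nonneg _) (mem_univ l))
  obtain ⟨w₀, hw₀, hpar⟩ := choose_params (T := T) hε hT0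
  obtain ⟨n₀, hn₀⟩ := exists_nat_one_div_lt hw₀
  refine ⟨n₀ + 1, fun k hk => ?_⟩
  have hk0 : 0 < k := by omega
  have hkp : (0 : ℝ) < (k : ℝ) := by exact_mod_cast hk0
  have hw : 0 < 1 / (k : ℝ) := by positivity
  have hww : 1 / (k : ℝ) ≤ w₀ := by
    refine le_trans ?_ hn₀.le
    have : (n₀ : ℝ) + 1 ≤ (k : ℝ) := by exact_mod_cast hk
    gcongr
  obtain ⟨s₀, hs₀, hs4, hs⟩ := hpar _ hw hww k
  refine ⟨s₀, hs₀, fun s hs1 hs2 => ?_⟩
  obtain ⟨δ₀, hδ₀, hbd⟩ := hs s hs1 hs2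
  refine ⟨δ₀, hδ₀, fun L N hN κ lab P hP x hx hC => ?_⟩
  have hA : IsProbabilityMeasure (unifA N) := instProb_unifA N
  set θ := θL D L k s x κ lab with hθ
  have hcv : ∀ (j : ℕ) (l : Fin D.K), θ.c j l = 0 ∨ (s ≤ θ.c j l ∧ θ.c j l ≤ 2 * s) := by
    intro j l
    show (if h : j < k then (if j = 0 then 0 else s * x (Sum.inr (Sum.inr (⟨j, h⟩, l)))) else 0) =
      0 ∨ _ ≤ (if h : j < k then (if j = 0 then 0 else s * x (Sum.inr (Sum.inr (⟨j, h⟩, l))))
      else 0) ∧ (if h : j < k then (if j = 0 then 0 else s * x (Sum.inr (Sum.inr (⟨j, h⟩, l))))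
      else 0) ≤ _
    by_cases h : j < k
    · rw [dif_pos h]
      by_cases h0 : j = 0
      · rw [if_pos h0]; exact Or.inl rfl
      · rw [if_neg h0]
        have := hx (Sum.inr (Sum.inr (⟨j, h⟩, l)))
        exact Or.inr ⟨by nlinarith [this.1], by nlinarith [this.2]⟩
    · rw [dif_neg h]; exact Or.inl rfl
  have hcge : ∀ j, 1 ≤ j → j < k → ∀ l, s ≤ θ.c j l := by
    intro j h1 h2 l
    show s ≤ (if h : j < k then (if j = 0 then 0 else s * x (Sum.inr (Sum.inr (⟨j, h⟩, l)))) else 0)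
    rw [dif_pos h2, if_neg (by omega)]
    nlinarith [(hx (Sum.inr (Sum.inr (⟨j, h2⟩, l)))).1]
  have hτ : ∀ l, s ≤ θ.e l - D.d l ∧ θ.e l - D.d l ≤ 2 * s := by
    intro l
    show s ≤ (D.d l + s * x (Sum.inl l)) - D.d l ∧ (D.d l + s * x (Sum.inl l)) - D.d l ≤ 2 * s
    have := hx (Sum.inl l)
    constructor <;> nlinarith [this.1, this.2]
  have h := loops_quant hP (exps_LB k) (A := unifA N) θ hN (ζLB_at_k hk0)
    (by omega) hw (fun i hi => ζLB_step hi) hδ₀.le hs1 (hs2.trans hs4) hcge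
    (fun j l => by
      rcases hcv j l with h | h
      · rw [h]
      · linarith [h.1])
    (fun j l => by
      rcases hcv j l with h | h
      · rw [h]; linarith
      · exact h.2) D.d hτ hTb hC
  refine ⟨fun l l' => (h.1 l l').trans hbd, fun l l' => (h.2 l l').trans hbd, fun l => ?_⟩
  have h1 := etaS_avg hP (exps_LB k) (A := unifA N) θ hN (ζLB_at_k hk0) hw
    (fun i hi => ζLB_step hi) hδ₀.le hs1 hcge hC l
  rw [← mul_sum] at h1
  have e : ∑ i ∈ range k, EL2 P D L k s x κ lab (i + 1) (fun ω ω' => (ovl k κ l ω ω' -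
      rhoOv P (unifA N) (ζLB k) k θ l i) ^ 2) =
      ∑ i ∈ range k, etaS (unifA N) hP (exps_LB k) k θ l i :=
    sum_congr rfl fun i _ => eta_pair hP (exps_LB k) θ l i
  rw [e]
  refine h1.trans (le_trans ?_ hbd)
  set AVG := 9 * Real.sqrt (1 / (k : ℝ)) + 6 * (δ₀ / s + δ₀) / (1 / (k : ℝ)) with hAVG
  have hA0 : 0 ≤ AVG := by positivity
  have h2 : (0 : ℝ) ≤ (32 * k + 5) * s := by positivity
  have h3 : AVG ≤ (T + 1) * (2 * δ₀ + 5 * AVG) := by nlinarith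
  linarith

end Crest.Agent.RI
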