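import Crest.Agent.RI.SyncGen
import Crest.Agent.RI.SysA

/-!
# Row 164: SYNC + loop equations for the towers (helper44)
-/

set_option autoImplicit false

namespace Crest.Agent.RI

open MeasureTheory Finset
open Crest.ProbabilityR.InvariantGlass

/-! ### elementary bounds -/

theorem Dst_shift (k : ℕ) (w τ τ' a a' c c' : ℝ) (ρ ρ' : ℕ → ℝ) :
    Dst k w τ a a' c c' ρ ρ' = Dst k w τ' a a' c c' ρ ρ' +
      (τ - τ') * (c * c' - ∑ j ∈ range k, w * (ρ j * ρ' j)) := by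
  unfold Dst; ring

theorem Est_shift (ζ : ℕ → ℝ) (k : ℕ) (w τ τ' a a' c c' : ℝ) (ρ ρ' : ℕ → ℝ) (i : ℕ) :
    Est ζ k w τ a a' c c' ρ ρ' i = Est ζ k w τ' a a' c c' ρ ρ' i +
      (τ - τ') * (c * ρ' i + ρ i * c' -
    ∑ j ∈ Ioo i k, w * (ρ j * ρ' i + ρ i * ρ' j) -
    (2 * ζ (i + 1) - ζ i) * (ρ i * ρ' i) - ∑ j ∈ range i, w * (ρ j * ρ' j)) := by
  unfold Est; ring

theorem sumw_le {k : ℕ} {w : ℝ} (hw : 0 < w) (hwk : w * k ≤ 1) {s : Finset ℕ} (hs : s ⊆ range k)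
    {f : ℕ → ℝ} {M : ℝ} (hM : 0 ≤ M) (hf : ∀ j ∈ s, 0 ≤ f j ∧ f j ≤ M) :
    0 ≤ ∑ j ∈ s, w * f j ∧ ∑ j ∈ s, w * f j ≤ M := by
  constructor
  · exact sum_nonneg fun j hj => mul_nonneg hw.le (hf j hj).1
  · calc ∑ j ∈ s, w * f j ≤ ∑ _j ∈ s, w * M := sum_le_sum fun j hj =>
          mul_le_mul_of_nonneg_left (hf j hj).2 hw.le
      _ = (s.card : ℝ) * (w * M) := by rw [sum_const, nsmul_eq_mul]
      _ ≤ (k : ℝ) * (w * M) := by
          refine mul_le_mul_of_nonneg_right ?_ (by positivity)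
          have := card_le_card hs
          rw [card_range] at this
          exact_mod_cast this
      _ = (w * k) * M := by ring
      _ ≤ 1 * M := mul_le_mul_of_nonneg_right hwk hM
      _ = M := one_mul M

theorem bracket_D {k : ℕ} {w c c' : ℝ} {ρ ρ' : ℕ → ℝ} (hw : 0 < w) (hwk : w * k ≤ 1)
    (hc : 0 ≤ c ∧ c ≤ 1) (hc' : 0 ≤ c' ∧ c' ≤ 1) (hρ : ∀ i, i < k → 0 ≤ ρ i ∧ ρ i ≤ 1)
    (hρ' : ∀ i, i < k → 0 ≤ ρ' i ∧ ρ' i ≤ 1) :
    |c * c' - ∑ j ∈ range k, w * (ρ j * ρ' j)| ≤ 1 := by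
  have h1 := sumw_le hw hwk (s := range k) (subset_refl _) (f := fun j => ρ j * ρ' j)
    zero_le_one (fun j hj => by
      have hj' := mem_range.1 hj
      exact ⟨mul_nonneg (hρ j hj').1 (hρ' j hj').1,
        mul_le_one₀ (hρ j hj').2 (hρ' j hj').1 (hρ' j hj').2⟩)
  have h2 : 0 ≤ c * c' := mul_nonneg hc.1 hc'.1
  have h3 : c * c' ≤ 1 := mul_le_one₀ hc.2 hc'.1 hc'.2
  rw [abs_le]
  constructor <;> linarith [h1.1, h1.2]

theorem bracket_E {ζ : ℕ → ℝ} {k : ℕ} {w c c' : ℝ} {ρ ρ' : ℕ → ℝ} (hw : 0 < w) (hwk : w * k ≤ 1)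
    (hc : 0 ≤ c ∧ c ≤ 1) (hc' : 0 ≤ c' ∧ c' ≤ 1) (hρ : ∀ i, i < k → 0 ≤ ρ i ∧ ρ i ≤ 1)
    (hρ' : ∀ i, i < k → 0 ≤ ρ' i ∧ ρ' i ≤ 1) (hζ : Exps ζ) {i : ℕ} (hi : i < k)
    (hm : ζ i ≤ ζ (i + 1)) :
    |c * ρ' i + ρ i * c' - ∑ j ∈ Ioo i k, w * (ρ j * ρ' i + ρ i * ρ' j) -
    (2 * ζ (i + 1) - ζ i) * (ρ i * ρ' i) - ∑ j ∈ range i, w * (ρ j * ρ' j)| ≤ 5 := by
  have hp : ∀ x y : ℝ, 0 ≤ x ∧ x ≤ 1 → 0 ≤ y ∧ y ≤ 1 → 0 ≤ x * y ∧ x * y ≤ 1 := fun x y hx hy =>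
    ⟨mul_nonneg hx.1 hy.1, mul_le_one₀ hx.2 hy.1 hy.2⟩
  have hri := hρ i hi
  have hri' := hρ' i hi
  have h1 := sumw_le hw hwk (s := range i) (fun x hx => mem_range.2 ((mem_range.1 hx).trans hi))
    (f := fun j => ρ j * ρ' j) zero_le_one (fun j hj => by
      have hj' := (mem_range.1 hj).trans hi
      exact hp _ _ (hρ j hj') (hρ' j hj'))
  have h2 := sumw_le hw hwk (s := Ioo i k) (fun x hx => mem_range.2 (mem_Ioo.1 hx).2)
    (f := fun j => ρ j * ρ' i + ρ i * ρ' j) (by norm_num : (0 : ℝ) ≤ 2) (fun j hj => by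
      have hj' := (mem_Ioo.1 hj).2
      have a1 := hp _ _ (hρ j hj') hri'
      have a2 := hp _ _ hri (hρ' j hj')
      constructor <;> linarith [a1.1, a1.2, a2.1, a2.2])
  have h3 := hp _ _ hc hri'
  have h4 := hp _ _ hri hc'
  have h5 := hp _ _ hri hri'
  have h6 : 0 ≤ 2 * ζ (i + 1) - ζ i := by linarith [(hζ i).1]
  have h7 : 2 * ζ (i + 1) - ζ i ≤ 2 := by linarith [(hζ i).1, (hζ (i + 1)).2]
  have h8 : 0 ≤ (2 * ζ (i + 1) - ζ i) * (ρ i * ρ' i) := mul_nonneg h6 h5.1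
  have h9 : (2 * ζ (i + 1) - ζ i) * (ρ i * ρ' i) ≤ 2 := by nlinarith [h5.1, h5.2]
  rw [abs_le]
  constructor <;> linarith [h1.1, h1.2, h2.1, h2.2, h3.1, h3.2, h4.1, h4.2]

/-! ### choice of the parameters -/

theorem choose_params {ε T : ℝ} (hε : 0 < ε) (hT : 0 ≤ T) : ∃ w₀ : ℝ, 0 < w₀ ∧
    ∀ w : ℝ, 0 < w → w ≤ w₀ → ∀ k : ℕ, ∃ s₀ : ℝ, 0 < s₀ ∧ s₀ ≤ 1 / 4 ∧ ∀ s : ℝ, 0 < s → s ≤ s₀ →
      ∃ δ₀ : ℝ, 0 < δ₀ ∧ (T + 1) * (2 * δ₀ + 5 * (9 * Real.sqrt w + 6 * (δ₀ / s + δ₀) / w)) +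
        (32 * k + 5) * s ≤ ε := by
  have hT1 : 0 < T + 1 := by linarith
  refine ⟨(ε / (135 * (T + 1))) ^ 2, by positivity, fun w hw hw0 k => ?_⟩
  have hsw : Real.sqrt w ≤ ε / (135 * (T + 1)) := by
    rw [Real.sqrt_le_left (by positivity)]; exact hw0
  have h1 : (T + 1) * (45 * Real.sqrt w) ≤ ε / 3 := by
    calc (T + 1) * (45 * Real.sqrt w) ≤ (T + 1) * (45 * (ε / (135 * (T + 1)))) := by gcongr
      _ = ε / 3 := by field_simp; norm_num
  have hk : (0 : ℝ) < 32 * k + 5 := by positivity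
  refine ⟨min (1 / 4) (ε / (3 * (32 * k + 5))), lt_min (by norm_num) (by positivity),
    min_le_left _ _, fun s hs hs0 => ?_⟩
  have h2 : (32 * k + 5) * s ≤ ε / 3 := by
    calc (32 * k + 5) * s ≤ (32 * k + 5) * (ε / (3 * (32 * k + 5))) := by
          gcongr; exact hs0.trans (min_le_right _ _)
      _ = ε / 3 := by field_simp
  set M : ℝ := (T + 1) * (2 + 30 * (1 / s + 1) / w) with hM
  have hM0 : 0 < M := by positivity
  refine ⟨ε / 3 / M, by positivity, ?_⟩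
  set δ := ε / 3 / M with hδ
  have h3 : (T + 1) * (2 * δ + 30 * (δ / s + δ) / w) = ε / 3 := by
    have : (T + 1) * (2 * δ + 30 * (δ / s + δ) / w) = M * δ := by rw [hM]; ring
    rw [this, hδ]
    field_simp
  have h4 : (T + 1) * (2 * δ + 5 * (9 * Real.sqrt w + 6 * (δ / s + δ) / w)) =
      (T + 1) * (2 * δ + 30 * (δ / s + δ) / w) + (T + 1) * (45 * Real.sqrt w) := by ring
  rw [h4, h3]
  linarith

/-! ### quantitative form -/

theorem comb_D {X Y E T δ AVG s : ℝ} {k : ℕ} (h1 : |X| ≤ E + 16 * k * (2 * s)) (h3 : |Y| ≤ s)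
    (h4 : E ≤ (T + 1) * (2 * δ + 5 * AVG)) :
    |X + Y| ≤ (T + 1) * (2 * δ + 5 * AVG) + (32 * k + 5) * s := by
  have h := abs_add_le X Y
  have hs : 0 ≤ s := (abs_nonneg _).trans h3
  linarith

theorem comb_E {X Y E T δ η AVG s : ℝ} {k : ℕ} (h1 : |X| ≤ E + 16 * k * (2 * s))
    (h3 : |Y| ≤ s * 5) (h4 : E ≤ (T + 1) * (2 * δ + 2 * η + AVG)) :
    |X + Y| ≤ (T + 1) * (2 * δ + AVG) + (32 * k + 5) * s + 2 * (T + 1) * η := by
  have h := abs_add_le X Y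
  linarith

theorem loops_num {K k : ℕ} {ζ : ℕ → ℝ} {w δ s T AVG : ℝ} (hζ : Exps ζ) (hw : 0 < w)
    (hwk : w * k ≤ 1) (hζw : ∀ i, i < k → ζ (i + 1) - ζ i = w) (hδ : 0 ≤ δ) (hs : 0 < s)
    (hs4 : s ≤ 1 / 4) (hA0 : 0 ≤ AVG)
    (a S e τ : Fin K → ℝ) (R η : Fin K → ℕ → ℝ)
    (hS : ∀ l, 0 ≤ S l ∧ S l ≤ 1) (hR : ∀ l i, i < k → 0 ≤ R l i ∧ R l i ≤ 1)
    (hη : ∀ l i, 0 ≤ η l i) (havg : ∀ l, ∑ i ∈ range k, w * η l i ≤ AVG)
    (hτ : ∀ l, s ≤ e l - τ l ∧ e l - τ l ≤ 2 * s) (hT : ∀ l l', |τ l - τ l'| ≤ T)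
    (hD : ∀ l l', |Dst k w (e l - e l') (a l) (a l') (S l) (S l') (R l) (R l')| ≤
      |e l - e l'| * (δ + (1 / 2) * (∑ m ∈ range k, w * η l m + ∑ m ∈ range k, w * η l' m)) +
        16 * k * (2 * s))
    (hE : ∀ l l', ∀ i, i < k → |Est ζ k w (e l - e l') (a l) (a l') (S l) (S l') (R l) (R l') i| ≤
      |e l - e l'| * (2 * δ + 2 * (η l i + η l' i) +
        (1 / 2) * (∑ m ∈ range k, w * η l m + ∑ m ∈ range k, w * η l' m)) + 16 * k * (2 * s)) :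
    (∀ l l', |Dst k w (τ l - τ l') (a l) (a l') (S l) (S l') (R l) (R l')| ≤
      (T + 1) * (2 * δ + 5 * AVG) + (32 * k + 5) * s) ∧
    ∀ l l', w * ∑ i ∈ range k, |Est ζ k w (τ l - τ l') (a l) (a l') (S l) (S l') (R l) (R l') i| ≤
      (T + 1) * (2 * δ + 5 * AVG) + (32 * k + 5) * s := by
  have hshift : ∀ l l', |(τ l - τ l') - (e l - e l')| ≤ s := fun l l' => by
    have h1 := hτ l
    have h2 := hτ l'
    rw [abs_le]
    constructor <;> linarith [h1.1, h1.2, h2.1, h2.2]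
  have hee : ∀ l l', |e l - e l'| ≤ T + 1 := fun l l' => by
    have h1 := abs_le.1 (hshift l l')
    have h2 := abs_le.1 (hT l l')
    rw [abs_le]
    constructor <;> linarith [h1.1, h1.2, h2.1, h2.2]
  have hT1 : ∀ l : Fin K, 0 ≤ T + 1 := fun l => (abs_nonneg _).trans (hee l l)
  have hk0 : (0 : ℝ) ≤ k := Nat.cast_nonneg k
  have hs0 : ∀ l, 0 ≤ ∑ m ∈ range k, w * η l m := fun l =>
    sum_nonneg fun m _ => mul_nonneg hw.le (hη l m)
  constructor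
  · intro l l'
    rw [Dst_shift k w (τ l - τ l') (e l - e l')]
    have h2 := bracket_D (c := S l) (c' := S l') (ρ := R l) (ρ' := R l') hw hwk (hS l) (hS l')
      (hR l) (hR l')
    have h3 : |((τ l - τ l') - (e l - e l')) * (S l * S l' -
        ∑ j ∈ range k, w * (R l j * R l' j))| ≤ s := by
      rw [abs_mul]
      calc _ ≤ s * 1 := mul_le_mul (hshift l l') h2 (abs_nonneg _) hs.le
        _ = s := mul_one s
    have h4 : |e l - e l'| * (δ + (1 / 2) * (∑ m ∈ range k, w * η l m +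
        ∑ m ∈ range k, w * η l' m)) ≤ (T + 1) * (δ + AVG) := by
      refine mul_le_mul (hee l l') ?_ ?_ (hT1 l)
      · linarith [havg l, havg l']
      · linarith [hs0 l, hs0 l']
    have h5 : (T + 1) * (δ + AVG) ≤ (T + 1) * (2 * δ + 5 * AVG) :=
      mul_le_mul_of_nonneg_left (by linarith) (hT1 l)
    exact comb_D (hD l l') h3 (h4.trans h5)
  · intro l l'
    have hbr : ∀ i, i < k → |Est ζ k w (τ l - τ l') (a l) (a l') (S l) (S l') (R l) (R l') i| ≤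
        (T + 1) * (2 * δ + AVG) + (32 * k + 5) * s + 2 * (T + 1) * (η l i + η l' i) := by
      intro i hi
      rw [Est_shift ζ k w (τ l - τ l') (e l - e l')]
      have h2 := bracket_E (ζ := ζ) (c := S l) (c' := S l') (ρ := R l) (ρ' := R l') hw hwk (hS l)
        (hS l') (hR l) (hR l') hζ hi (by linarith [hζw i hi])
      have h4 : |e l - e l'| * (2 * δ + 2 * (η l i + η l' i) +
          (1 / 2) * (∑ m ∈ range k, w * η l m + ∑ m ∈ range k, w * η l' m)) ≤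
          (T + 1) * (2 * δ + 2 * (η l i + η l' i) + AVG) := by
        refine mul_le_mul (hee l l') ?_ ?_ (hT1 l)
        · linarith [havg l, havg l']
        · linarith [hs0 l, hs0 l', hη l i, hη l' i]
      refine comb_E (hE l l' i hi) ?_ h4
      rw [abs_mul]
      exact mul_le_mul (hshift l l') h2 (abs_nonneg _) hs.le
    have hsum : w * ∑ i ∈ range k, |Est ζ k w (τ l - τ l') (a l) (a l') (S l) (S l') (R l)
      (R l') i| ≤ (w * k) * ((T + 1) * (2 * δ + AVG) + (32 * k + 5) * s) +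
          2 * (T + 1) * (∑ i ∈ range k, w * η l i + ∑ i ∈ range k, w * η l' i) := by
      calc _ ≤ w * ∑ i ∈ range k, ((T + 1) * (2 * δ + AVG) + (32 * k + 5) * s +
          2 * (T + 1) * (η l i + η l' i)) :=
            mul_le_mul_of_nonneg_left (sum_le_sum fun i hi => hbr i (mem_range.1 hi)) hw.le
        _ = _ := by
            rw [sum_add_distrib, sum_const, card_range, nsmul_eq_mul, ← mul_sum, sum_add_distrib,
              ← mul_sum, ← mul_sum]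
            ring
    refine hsum.trans ?_
    have hT1' := hT1 l
    have hpos : 0 ≤ (T + 1) * (2 * δ + AVG) + (32 * k + 5) * s := by positivity
    have h1 : (w * k) * ((T + 1) * (2 * δ + AVG) + (32 * k + 5) * s) ≤
        1 * ((T + 1) * (2 * δ + AVG) + (32 * k + 5) * s) :=
      mul_le_mul_of_nonneg_right hwk hpos
    have h2 : 2 * (T + 1) * (∑ i ∈ range k, w * η l i + ∑ i ∈ range k, w * η l' i) ≤
        2 * (T + 1) * (AVG + AVG) :=
      mul_le_mul_of_nonneg_left (add_le_add (havg l) (havg l')) (by positivity)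
    linarith

section

variable {N K : ℕ} {P : Measure (ON N)} {A : Measure (Fin N → Bool)} {ζ : ℕ → ℝ}
variable (hP : HaarO P) [IsProbabilityMeasure A] (hζ : Exps ζ) {k : ℕ} (θ : Par N K)

include hP hζ

theorem self_le_one (hN : 0 < N) (l : Fin K) : selfOv P A ζ k θ l ≤ 1 := by
  rw [← sum_self hN hP hζ θ (A := A) (k := k)]
  exact single_le_sum (f := fun l => selfOv P A ζ k θ l) (fun l _ => self_nonneg hP hζ θ l)
    (mem_univ l)

/-- Loop equations, quantitative form. -/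
theorem loops_quant (hN : 0 < N) (hk : ζ k = 1) (hk1 : 1 ≤ k)
    {w : ℝ} (hw : 0 < w) (hζw : ∀ i, i < k → ζ (i + 1) - ζ i = w) {δ s : ℝ} (hδ : 0 ≤ δ)
    (hs : 0 < s) (hs4 : s ≤ 1 / 4)
    (hcge : ∀ j, 1 ≤ j → j < k → ∀ l, s ≤ θ.c j l) (hc : ∀ j l, 0 ≤ θ.c j l)
    (hc2 : ∀ j l, θ.c j l ≤ 2 * s) (τ : Fin K → ℝ)
    (hτ : ∀ l, s ≤ θ.e l - τ l ∧ θ.e l - τ l ≤ 2 * s) {T : ℝ}
    (hT : ∀ l l', |τ l - τ l'| ≤ T) (hC : Conc P A ζ k θ δ) :
    (∀ l l', |Dst k w (τ l - τ l') (prop θ.κ l) (prop θ.κ l') (selfOv P A ζ k θ l)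
      (selfOv P A ζ k θ l') (rhoOv P A ζ k θ l) (rhoOv P A ζ k θ l')| ≤
      (T + 1) * (2 * δ + 5 * (9 * Real.sqrt w + 6 * (δ / s + δ) / w)) + (32 * k + 5) * s) ∧
    ∀ l l', w * ∑ i ∈ range k, |Est ζ k w (τ l - τ l') (prop θ.κ l) (prop θ.κ l')
      (selfOv P A ζ k θ l) (selfOv P A ζ k θ l') (rhoOv P A ζ k θ l) (rhoOv P A ζ k θ l') i| ≤
      (T + 1) * (2 * δ + 5 * (9 * Real.sqrt w + 6 * (δ / s + δ) / w)) + (32 * k + 5) * s := by
  have hwk : w * k ≤ 1 := by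
    have hζv : ∀ i, i ≤ k → ζ i = ζ 0 + i * w := by
      intro i
      induction i with
      | zero => intro _; simp
      | succ i ih =>
        intro hi
        have h1 := hζw i (by omega)
        rw [ih (by omega)] at h1
        push_cast
        linarith
    have h1 := hζv k le_rfl
    rw [hk] at h1
    linarith [(hζ 0).1]
  exact loops_num hζ hw hwk hζw hδ hs hs4 (by positivity) (prop θ.κ)
    (fun l => selfOv P A ζ k θ l) θ.e τ (fun l => rhoOv P A ζ k θ l)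
    (fun l => etaS A hP hζ k θ l)
    (fun l => ⟨self_nonneg hP hζ θ l, self_le_one hP hζ θ hN l⟩)
    (fun l i hi => ⟨rho_nonneg hP hζ θ l hi,
      (rho_le_self hP hζ θ l hi).trans (self_le_one hP hζ θ hN l)⟩)
    (fun l i => etaS_nonneg l i)
    (fun l => etaS_avg hP hζ θ hN hk hw hζw hδ hs hcge hC l) hτ hT
    (fun l l' => loopD_gen hP hζ θ hN hk hk1 hw hζw hδ hc hc2 (by linarith) hC l l')
    (fun l l' i hi => loopE_gen hP hζ θ hN hk hk1 hw hζw hδ hc hc2 (by linarith) hC l l' hi)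

end

/-! ### the upper bound tower -/

theorem ζUB_at_k (k : ℕ) : ζUB k k = 1 := by
  unfold ζUB
  rw [div_self (by positivity), min_self]

theorem ζUB_step {k i : ℕ} (hi : i < k) : ζUB k (i + 1) - ζUB k i = 1 / ((k : ℝ) + 1) := by
  unfold ζUB
  have hk : (0 : ℝ) < (k : ℝ) + 1 := by positivity
  have hi' : (i : ℝ) + 1 ≤ k := by exact_mod_cast hi
  rw [min_eq_right, min_eq_right]
  · push_cast; field_simp; ring
  · rw [div_le_one hk]; linarith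
  · rw [div_le_one hk]; push_cast; linarith

/-- (I2) SYNC + LOOP EQUATIONS for the upper bound tower. -/
theorem loops_UB (D : Blk) {ε t : ℝ} (hε : 0 < ε) (ht : 0 < t) :
    ∃ k₀ : ℕ, ∀ k ≥ k₀, ∃ s₀ : ℝ, 0 < s₀ ∧ ∀ s : ℝ, 0 < s → s ≤ s₀ → ∃ (δ₀ : ℝ) (N₀ : ℕ), 0 < δ₀ ∧
      ∀ N ≥ N₀, ∀ κ : Fin N → Fin D.K, ∀ P : Measure (ON N), HaarO P →
      ∀ A : Measure (Fin N → Bool), IsProbabilityMeasure A → ∀ z ∈ SU k D.K,
      Conc P A (ζUB k) k (θU κ D.d k s t z) δ₀ →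
      (∀ l l', |Dst k (1 / ((k : ℝ) + 1)) (t * (D.d l - D.d l')) (prop κ l) (prop κ l')
        (selfOv P A (ζUB k) k (θU κ D.d k s t z) l) (selfOv P A (ζUB k) k (θU κ D.d k s t z) l')
        (rhoOv P A (ζUB k) k (θU κ D.d k s t z) l) (rhoOv P A (ζUB k) k (θU κ D.d k s t z) l')| ≤ ε) ∧
      ∀ l l', (1 / ((k : ℝ) + 1)) * ∑ i ∈ Finset.range k,
        |Est (ζUB k) k (1 / ((k : ℝ) + 1)) (t * (D.d l - D.d l')) (prop κ l) (prop κ l')
          (selfOv P A (ζUB k) k (θU κ D.d k s t z) l) (selfOv P A (ζUB k) k (θU κ D.d k s t z) l')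
          (rhoOv P A (ζUB k) k (θU κ D.d k s t z) l)
          (rhoOv P A (ζUB k) k (θU κ D.d k s t z) l') i| ≤ ε := by
  classical
  set T : ℝ := ∑ l, ∑ l', |t * D.d l - t * D.d l'| with hT
  have hT0 : 0 ≤ T := sum_nonneg fun _ _ => sum_nonneg fun _ _ => abs_nonneg _
  have hTb : ∀ l l', |t * D.d l - t * D.d l'| ≤ T := fun l l' =>
    (single_le_sum (f := fun l' => |t * D.d l - t * D.d l'|) (fun _ _ => abs_nonneg _)
      (mem_univ l')).trans (single_le_sum (f := fun l => ∑ l', |t * D.d l - t * D.d l'|)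
      (fun _ _ => sum_nonneg fun _ _ => abs_nonneg _) (mem_univ l))
  obtain ⟨w₀, hw₀, hpar⟩ := choose_params (T := T) hε hT0
  obtain ⟨n₀, hn₀⟩ := exists_nat_one_div_lt hw₀
  refine ⟨n₀ + 1, fun k hk => ?_⟩
  have hkp : (0 : ℝ) < (k : ℝ) + 1 := by positivity
  have hw : 0 < 1 / ((k : ℝ) + 1) := by positivity
  have hww : 1 / ((k : ℝ) + 1) ≤ w₀ := by
    refine le_trans ?_ hn₀.le
    have : (n₀ : ℝ) + 1 ≤ (k : ℝ) := by exact_mod_cast hk
    gcongr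
    linarith
  obtain ⟨s₀, hs₀, hs4, hs⟩ := hpar _ hw hww k
  refine ⟨s₀, hs₀, fun s hs1 hs2 => ?_⟩
  obtain ⟨δ₀, hδ₀, hbd⟩ := hs s hs1 hs2
  refine ⟨δ₀, 1, hδ₀, fun N hN κ P hP A hA z hz hC => ?_⟩
  have hcv : ∀ (j : ℕ) (l : Fin D.K), (θU κ D.d k s t z).c j l = 0 ∨
      (s ≤ (θU κ D.d k s t z).c j l ∧ (θU κ D.d k s t z).c j l ≤ 2 * s) := by
    intro j l
    show (if h : j < k then (if j = 0 then 0 else s * z.2.2 ⟨j, h⟩ l) else 0) = 0 ∨ _ ≤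
      (if h : j < k then (if j = 0 then 0 else s * z.2.2 ⟨j, h⟩ l) else 0) ∧
      (if h : j < k then (if j = 0 then 0 else s * z.2.2 ⟨j, h⟩ l) else 0) ≤ _
    by_cases h : j < k
    · rw [dif_pos h]
      by_cases h0 : j = 0
      · rw [if_pos h0]; exact Or.inl rfl
      · rw [if_neg h0]
        have := hz.2 ⟨j, h⟩ l
        exact Or.inr ⟨by nlinarith [this.1], by nlinarith [this.2]⟩
    · rw [dif_neg h]; exact Or.inl rfl
  have hcge : ∀ j, 1 ≤ j → j < k → ∀ l, s ≤ (θU κ D.d k s t z).c j l := by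
    intro j h1 h2 l
    show s ≤ (if h : j < k then (if j = 0 then 0 else s * z.2.2 ⟨j, h⟩ l) else 0)
    rw [dif_pos h2, if_neg (by omega)]
    nlinarith [(hz.2 ⟨j, h2⟩ l).1]
  have hτ : ∀ l, s ≤ (θU κ D.d k s t z).e l - t * D.d l ∧
      (θU κ D.d k s t z).e l - t * D.d l ≤ 2 * s := by
    intro l
    show s ≤ (t * D.d l + s * z.2.1 l) - t * D.d l ∧ (t * D.d l + s * z.2.1 l) - t * D.d l ≤ 2 * s
    have := hz.1 l
    constructor <;> nlinarith [this.1, this.2]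
  have h := loops_quant hP (exps_UB k) (A := A) (θU κ D.d k s t z) (by omega) (ζUB_at_k k)
    (by omega) hw (fun i hi => ζUB_step hi) hδ₀.le hs1 (hs2.trans hs4) hcge
    (fun j l => by
      rcases hcv j l with h | h
      · rw [h]
      · linarith [h.1])
    (fun j l => by
      rcases hcv j l with h | h
      · rw [h]; linarith
      · exact h.2) (fun l => t * D.d l) hτ hTb hC
  have he : ∀ l l', t * (D.d l - D.d l') = t * D.d l - t * D.d l' := fun l l' => by ring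
  refine ⟨fun l l' => ?_, fun l l' => ?_⟩
  · rw [he]; exact (h.1 l l').trans hbd
  · rw [he]; exact (h.2 l l').trans hbd

end Crest.Agent.RI
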