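import Crest.Agent.RI.SysA

/-!
# Row 164: basic facts on the concrete system, part D (overlaps)
-/

set_option autoImplicit false

namespace Crest.Agent.RI

open MeasureTheory ProbabilityTheory

variable {N K : ℕ}

/-! ### overlaps -/

theorem ovl_self_nonneg (k : ℕ) (κ : Fin N → Fin K) (l : Fin K) (ω : Fin (k + 1) → EN N) :
    0 ≤ ovl k κ l ω ω := by
  unfold ovl
  refine mul_nonneg (by positivity) (Finset.sum_nonneg fun a _ => ?_)
  split_ifs
  · exact mul_self_nonneg _
  · exact le_refl _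

theorem sum_ovl_self (hN : 0 < N) (k : ℕ) (κ : Fin N → Fin K) (ω : Fin (k + 1) → EN N) :
    ∑ l, ovl k κ l ω ω = 1 := by
  unfold ovl
  rw [← Finset.mul_sum, Finset.sum_comm]
  have h : ∀ a : Fin N, ∑ l : Fin K, (if κ a = l then yv k ω a * yv k ω a else 0)
      = yv k ω a ^ 2 := by
    intro a
    rw [Finset.sum_ite_eq Finset.univ (κ a)]
    simp [sq]
  rw [Finset.sum_congr rfl (fun a _ => h a), sum_yv_sq]
  have : (N : ℝ) ≠ 0 := by positivity
  field_simp

/-- partial sums of squares are at most `N` -/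
theorem sum_block_sq_le (k : ℕ) (κ : Fin N → Fin K) (l : Fin K) (ω : Fin (k + 1) → EN N) :
    ∑ a : Fin N, (if κ a = l then yv k ω a else 0) ^ 2 ≤ N := by
  rw [← sum_yv_sq k ω]
  refine Finset.sum_le_sum fun a _ => ?_
  split_ifs
  · exact le_refl _
  · simpa using sq_nonneg (yv k ω a)

/-- Cauchy–Schwarz -/
theorem abs_ovl_le (k : ℕ) (κ : Fin N → Fin K) (l : Fin K) (ω ω' : Fin (k + 1) → EN N) :
    |ovl k κ l ω ω'| ≤ 1 := by
  unfold ovl
  have e : ∀ a : Fin N, (if κ a = l then yv k ω a * yv k ω' a else 0)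
      = (if κ a = l then yv k ω a else 0) * (if κ a = l then yv k ω' a else 0) := by
    intro a
    split_ifs <;> simp
  rw [Finset.sum_congr rfl (fun a _ => e a)]
  set f : Fin N → ℝ := fun a => if κ a = l then yv k ω a else 0 with hf
  set g : Fin N → ℝ := fun a => if κ a = l then yv k ω' a else 0 with hg
  have hCS : (∑ a, f a * g a) ^ 2 ≤ (∑ a, f a ^ 2) * ∑ a, g a ^ 2 :=
    Finset.sum_mul_sq_le_sq_mul_sq Finset.univ f g
  have h1 : ∑ a, f a ^ 2 ≤ N := sum_block_sq_le k κ l ω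
  have h2 : ∑ a, g a ^ 2 ≤ N := sum_block_sq_le k κ l ω'
  have h3 : (∑ a, f a * g a) ^ 2 ≤ (N : ℝ) ^ 2 := by
    refine hCS.trans ?_
    rw [sq]
    exact mul_le_mul h1 h2 (Finset.sum_nonneg fun _ _ => sq_nonneg _) (by positivity)
  have h4 : |∑ a, f a * g a| ≤ N := abs_le_of_sq_le_sq h3 (by positivity)
  rw [abs_mul, abs_of_nonneg (by positivity : (0 : ℝ) ≤ 1 / (N : ℝ))]
  rcases Nat.eq_zero_or_pos N with h0 | h0
  · subst h0
    simp
  · have hN : (0 : ℝ) < N := by exact_mod_cast h0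
    rw [one_div, inv_mul_le_iff₀ hN, mul_one]
    exact h4

theorem ovl_self_le (k : ℕ) (κ : Fin N → Fin K) (l : Fin K) (ω : Fin (k + 1) → EN N) :
    ovl k κ l ω ω ≤ 1 :=
  (le_abs_self _).trans (abs_ovl_le k κ l ω ω)

theorem measurable_ovl (k : ℕ) (κ : Fin N → Fin K) (l : Fin K) :
    Measurable (fun x : (Fin (k + 1) → EN N) × (Fin (k + 1) → EN N) => ovl k κ l x.1 x.2) := by
  unfold ovl
  refine Measurable.const_mul (Finset.measurable_sum _ fun a _ => ?_) _
  by_cases h : κ a = l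
  · simp only [h, if_true]
    exact ((measurable_yv k a).comp measurable_fst).mul ((measurable_yv k a).comp measurable_snd)
  · simp only [h, if_false]
    exact measurable_const

end Crest.Agent.RI
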