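import Crest.Agent.RI.SysInst

/-!
# Row 164: integration by parts for the concrete system (helper44)
-/

set_option autoImplicit false

namespace Crest.Agent.RI

open MeasureTheory Finset

variable {N K : ℕ} {P : Measure (ON N)} {A : Measure (Fin N → Bool)} {ζ : ℕ → ℝ}
variable {hP : HaarO P} [IsProbabilityMeasure A] {hζ : Exps ζ} {k : ℕ} {θ : Par N K}

local notation "𝒮" => SC hP A hζ k θ
local notation "𝒳" => XS (A := A) (k := k) hP hζ θ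
local notation "𝓎" => yG (A := A) (k := k) hP hζ θ
local notation "ℊ" => gG (A := A) (k := k) hP hζ θ

/-- the shift flow of `g̃_a` -/
noncomputable def shG (a : Fin N) (t : ℝ) (x : EN N) : EN N := setG a x (x.2.2.1 a + t)

theorem cflow_shG (hP : HaarO P) (a : Fin N) :
    CFlow (mN P A) βN (shG a) (fun x => x.2.2.1 a) := by
  have := hP.prob
  have := prob_mN hP A
  exact (gcoord_setG (P := P) (A := A) a).cflow (dom_mN hP A)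

theorem gG_val (j : ℕ) (hj : j < k) (a : Fin N) (ω : Fin (k + 1) → EN N) :
    (ℊ j a).1 ω = (ω (Fin.castSucc ⟨j, hj⟩)).2.2.1 a := by
  unfold gG; rw [dif_pos hj]

/-- `V = c_{j, κ a} y_a` is the derivative of the Hamiltonian along the shift of `g̃^j_a`. -/
theorem HN_shG (j : ℕ) (hj : j < k) (a : Fin N) :
    IsD (shG a) (Fin.castSucc ⟨j, hj⟩) (HN k θ) (θ.c j (θ.κ a) • 𝓎 a : (𝒮).G).1 :=
  HN_isD_G k θ ⟨j, hj⟩ a

theorem DG_y (j : ℕ) (hj : j < k) (a b : Fin N) :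
    DG (hP := hP) (hζ := hζ) (θ := θ) (A := A) (shG a) (Fin.castSucc ⟨j, hj⟩) (𝓎 b) 0 :=
  yv_isD_G k ⟨j, hj⟩ a b

theorem DG_g (j : ℕ) (hj : j < k) (a : Fin N) :
    DG (hP := hP) (hζ := hζ) (θ := θ) (A := A) (shG a) (Fin.castSucc ⟨j, hj⟩) (ℊ j a) 1 := by
  have h := g_isD_G (N := N) k ⟨j, hj⟩ a
  unfold DG
  have e : (ℊ j a).1 = fun ω => (ω (Fin.castSucc ⟨j, hj⟩)).2.2.1 a := by
    funext ω; exact gG_val j hj a ω
  rw [e]
  exact h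

/-- Gaussian integration by parts for `g̃^j_a`. -/
theorem ibpG (hk : ζ k = 1) (j : ℕ) (hj : j < k) (a : Fin N) {Φ Φ' : (𝒮).G}
    (h : DG (shG a) (Fin.castSucc ⟨j, hj⟩) Φ Φ') :
    (𝒮).E (ℊ j a * Φ) = (𝒮).E Φ' + θ.c j (θ.κ a) *
      (𝒮).E (Φ * (𝓎 a - ∑ m ∈ Ico j k, (ζ (m + 1) - ζ m) • (𝒳).M m a)) := by
  have h1 := gibpG (δ := ℊ j a) (cflow_shG hP a) (fun ω => gG_val j hj a ω) hk
    (HN_shG (hP := hP) (hζ := hζ) (A := A) (θ := θ) j hj a) h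
  rw [h1]
  congr 1
  have e : (θ.c j (θ.κ a) • 𝓎 a - ∑ m ∈ Ico ((Fin.castSucc ⟨j, hj⟩ : Fin (k + 1)) : ℕ) k,
      (ζ (m + 1) - ζ m) • (𝒮).C (m + 1) (θ.c j (θ.κ a) • 𝓎 a)) =
      θ.c j (θ.κ a) • (𝓎 a - ∑ m ∈ Ico j k, (ζ (m + 1) - ζ m) • (𝒳).M m a) := by
    rw [smul_sub, smul_sum]
    congr 1
    refine sum_congr rfl fun m _ => ?_
    rw [map_smul, smul_comm]; rfl
  rw [e, mul_smul_comm, map_smul, smul_eq_mul]

variable (hP hζ θ) in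
/-- derivative of `M_{i,b}` w.r.t. `g̃^j_a`, `j ≤ i` -/
noncomputable def dM (j i : ℕ) (a b : Fin N) : (SC hP A hζ k θ).G :=
  θ.c j (θ.κ a) • (𝒮).C (i + 1) (𝓎 b * (𝓎 a -
    ∑ m ∈ Ico (i + 1) k, (ζ (m + 1) - ζ m) • (𝒳).M m a - ζ (i + 1) • (𝒳).M i a))

theorem DG_M_zero (i j : ℕ) (hj : j < k) (hij : i < j) (a b : Fin N) :
    DG (hP := hP) (hζ := hζ) (θ := θ) (A := A) (shG a) (Fin.castSucc ⟨j, hj⟩) ((𝒳).M i b) 0 :=
  DG.C_zero (by simpa using hij) _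

theorem DG_M (hk : ζ k = 1) (i j : ℕ) (hj : j < k) (hi : i < k) (hij : j ≤ i) (a b : Fin N) :
    DG (hP := hP) (hζ := hζ) (θ := θ) (A := A) (shG a) (Fin.castSucc ⟨j, hj⟩) ((𝒳).M i b)
      (dM hP hζ θ j i a b) := by
  have h := DG.C (r := i + 1) (cflow_shG hP a) (by simpa using Nat.lt_succ_of_le hij)
    (HN_shG (hP := hP) (hζ := hζ) (A := A) (θ := θ) j hj a)
    (DG_y (hP := hP) (hζ := hζ) (A := A) (θ := θ) j hj a b)
  have e : (𝒮).C (i + 1) (0 + 𝓎 b * scG (i + 1) (θ.c j (θ.κ a) • 𝓎 a)) = dM hP hζ θ j i a b := by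
    unfold dM
    rw [scG_eq hi hk, zero_add]
    refine Eq.trans ?_ (map_smul ((𝒮).C (i + 1)) (θ.c j (θ.κ a)) _)
    congr 1
    rw [← mul_smul_comm]
    congr 1
    rw [smul_sub, smul_sub, smul_sum, map_smul]
    congr 1
    · congr 1
      refine sum_congr rfl fun m _ => ?_
      rw [map_smul, smul_comm]; rfl
    · rw [smul_comm]; rfl
  rw [e] at h
  exact h

/-- `E[T_j F]` when `F` does not depend on `g̃^j`. -/
theorem ET_indep (hk : ζ k = 1) (l : Fin K) (j : ℕ) (hj : j < k) {F : (𝒮).G}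
    (hF : ∀ a, DG (shG a) (Fin.castSucc ⟨j, hj⟩) F 0) :
    (𝒮).E (TG hP hζ θ θ.κ l j * F) = θ.c j l * ((𝒮).E ((𝒳).Q (cl θ.κ l) * F) -
      ∑ m ∈ Ico j k, (ζ (m + 1) - ζ m) * (𝒮).E ((𝒳).A (cl θ.κ l) m * F)) := by
  have e1 : (𝒮).E (TG hP hζ θ θ.κ l j * F) = ∑ a, cl θ.κ l a * (𝒮).E (ℊ j a * (𝓎 a * F)) := by
    unfold TG
    rw [sum_mul, map_sum]
    refine sum_congr rfl fun a _ => ?_
    rw [smul_mul_assoc, map_smul, smul_eq_mul, mul_assoc]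
  have e2 : ∀ a, cl θ.κ l a * (𝒮).E (ℊ j a * (𝓎 a * F)) = θ.c j l * (cl θ.κ l a *
      ((𝒮).E (𝓎 a * 𝓎 a * F) - ∑ m ∈ Ico j k, (ζ (m + 1) - ζ m) *
        (𝒮).E (𝓎 a * (𝒳).M m a * F))) := by
    intro a
    by_cases hc : cl θ.κ l a = 0
    · rw [hc]; ring
    have hl := cl_ne hc
    have hD : DG (shG a) (Fin.castSucc ⟨j, hj⟩) (𝓎 a * F) 0 := by
      have := (DG_y (hP := hP) (hζ := hζ) (A := A) (θ := θ) j hj a a).mul (hF a)
      simpa using this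
    rw [ibpG hk j hj a hD, map_zero, zero_add, hl]
    have e3 : 𝓎 a * F * (𝓎 a - ∑ m ∈ Ico j k, (ζ (m + 1) - ζ m) • (𝒳).M m a) =
        𝓎 a * 𝓎 a * F - ∑ m ∈ Ico j k, (ζ (m + 1) - ζ m) • (𝓎 a * (𝒳).M m a * F) := by
      rw [mul_sub, mul_sum]
      congr 1
      · ring
      · refine sum_congr rfl fun m _ => ?_
        rw [mul_smul_comm]; congr 1; ring
    rw [e3, map_sub, map_sum]
    simp only [map_smul, smul_eq_mul]
    ring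
  rw [e1, sum_congr rfl fun a _ => e2 a, ← mul_sum]
  congr 1
  have e4 : (𝒮).E ((𝒳).Q (cl θ.κ l) * F) = ∑ a, cl θ.κ l a * (𝒮).E (𝓎 a * 𝓎 a * F) := by
    unfold ASys.Q
    rw [sum_mul, map_sum]
    exact sum_congr rfl fun a _ => by rw [smul_mul_assoc, map_smul, smul_eq_mul]; rfl
  have e5 : ∀ m, (𝒮).E ((𝒳).A (cl θ.κ l) m * F) =
      ∑ a, cl θ.κ l a * (𝒮).E (𝓎 a * (𝒳).M m a * F) := by
    intro m
    unfold ASys.A
    rw [sum_mul, map_sum]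
    exact sum_congr rfl fun a _ => by rw [smul_mul_assoc, map_smul, smul_eq_mul]; rfl
  rw [e4]
  simp only [e5, mul_sub, sum_sub_distrib, mul_sum]
  congr 1
  rw [sum_comm]
  refine sum_congr rfl fun m _ => sum_congr rfl fun a _ => ?_
  ring

theorem DG_one (j : Fin (k + 1)) (φ : ℝ → EN N → EN N) :
    DG (hP := hP) (hζ := hζ) (θ := θ) (A := A) φ j 1 0 := IsD.const 1

theorem DG_Sx_zero (c : Fin N → ℝ) (i j : ℕ) (hj : j < k) (hij : i < j) (a : Fin N) :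
    DG (hP := hP) (hζ := hζ) (θ := θ) (A := A) (shG a) (Fin.castSucc ⟨j, hj⟩) ((𝒳).Sx c i) 0 := by
  have h := DG.sum (hP := hP) (hζ := hζ) (θ := θ) (A := A) (φ := shG a)
    (j := Fin.castSucc ⟨j, hj⟩) univ
    (Φ := fun b => c b • ((𝒳).M i b * (𝒳).M i b)) (Φ' := fun _ => 0) (fun b _ => by
      have := ((DG_M_zero (hP := hP) (hζ := hζ) (A := A) (θ := θ) i j hj hij a b).mul
        (DG_M_zero (hP := hP) (hζ := hζ) (A := A) (θ := θ) i j hj hij a b)).smul (c b)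
      simpa using this)
  rw [sum_const_zero] at h
  exact h

theorem DG_A_zero (c : Fin N → ℝ) (i j : ℕ) (hj : j < k) (hij : i < j) (a : Fin N) :
    DG (hP := hP) (hζ := hζ) (θ := θ) (A := A) (shG a) (Fin.castSucc ⟨j, hj⟩) ((𝒳).A c i) 0 := by
  have h := DG.sum (hP := hP) (hζ := hζ) (θ := θ) (A := A) (φ := shG a)
    (j := Fin.castSucc ⟨j, hj⟩) univ
    (Φ := fun b => c b • (𝓎 b * (𝒳).M i b)) (Φ' := fun _ => 0) (fun b _ => by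
      have := ((DG_y (hP := hP) (hζ := hζ) (A := A) (θ := θ) j hj a b).mul
        (DG_M_zero (hP := hP) (hζ := hζ) (A := A) (θ := θ) i j hj hij a b)).smul (c b)
      simpa using this)
  rw [sum_const_zero] at h
  exact h

theorem DG_A (hk : ζ k = 1) (c : Fin N → ℝ) (i : ℕ) (hi : i < k) (a : Fin N) :
    DG (hP := hP) (hζ := hζ) (θ := θ) (A := A) (shG a) (Fin.castSucc ⟨i, hi⟩) ((𝒳).A c i)
      (∑ b, c b • (𝓎 b * dM hP hζ θ i i a b)) := by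
  have h := DG.sum (hP := hP) (hζ := hζ) (θ := θ) (A := A) (φ := shG a)
    (j := Fin.castSucc ⟨i, hi⟩) univ
    (Φ := fun b => c b • (𝓎 b * (𝒳).M i b)) (Φ' := fun b => c b • (𝓎 b * dM hP hζ θ i i a b))
    (fun b _ => by
      have := ((DG_y (hP := hP) (hζ := hζ) (A := A) (θ := θ) i hi a b).mul
        (DG_M (hP := hP) (hζ := hζ) (A := A) (θ := θ) hk i i hi hi le_rfl a b)).smul (c b)
      simpa using this)
  exact h

/-- the shared-level identity -/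
theorem ET_shared (hk : ζ k = 1) (l : Fin K) (i : ℕ) (hi : i < k) :
    (𝒮).E (TG hP hζ θ θ.κ l i * (𝒳).A (cl θ.κ l) i) =
      θ.c i l * ((𝒮).E ((𝒳).Q (cl θ.κ l) * (𝒳).A (cl θ.κ l) i) -
      ∑ m ∈ Ico i k, (ζ (m + 1) - ζ m) * (𝒮).E ((𝒳).A (cl θ.κ l) m * (𝒳).A (cl θ.κ l) i)
      + (𝒳).a2 (cl θ.κ l) i - ∑ m ∈ Ico (i + 1) k, (ζ (m + 1) - ζ m) * (𝒳).r2 (cl θ.κ l) i m -
        ζ (i + 1) * (𝒳).b2 (cl θ.κ l) i) := by
  set c := cl θ.κ l with hc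
  have e1 : (𝒮).E (TG hP hζ θ θ.κ l i * (𝒳).A c i) =
      ∑ a, c a * (𝒮).E (ℊ i a * (𝓎 a * (𝒳).A c i)) := by
    unfold TG
    rw [sum_mul, map_sum]
    refine sum_congr rfl fun a _ => ?_
    rw [smul_mul_assoc, map_smul, smul_eq_mul, mul_assoc]
  -- the derivative term
  have e2 : ∀ a, c a * (𝒮).E (ℊ i a * (𝓎 a * (𝒳).A c i)) = θ.c i l * (c a *
      ((𝒮).E (𝓎 a * 𝓎 a * (𝒳).A c i) - ∑ m ∈ Ico i k, (ζ (m + 1) - ζ m) *
        (𝒮).E (𝓎 a * (𝒳).M m a * (𝒳).A c i) +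
        ∑ b, c b * (𝒮).E (𝓎 a * 𝓎 b * (𝒮).C (i + 1) (𝓎 b * (𝓎 a -
    ∑ m ∈ Ico (i + 1) k, (ζ (m + 1) - ζ m) • (𝒳).M m a - ζ (i + 1) • (𝒳).M i a))))) := by
    intro a
    by_cases hca : c a = 0
    · rw [hca]; ring
    have hl := cl_ne hca
    have hD : DG (shG a) (Fin.castSucc ⟨i, hi⟩) (𝓎 a * (𝒳).A c i)
        (𝓎 a * ∑ b, c b • (𝓎 b * dM hP hζ θ i i a b)) := by
      have := (DG_y (hP := hP) (hζ := hζ) (A := A) (θ := θ) i hi a a).mul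
        (DG_A (hP := hP) (hζ := hζ) (A := A) (θ := θ) hk c i hi a)
      simpa using this
    rw [ibpG hk i hi a hD, hl]
    have e3 : 𝓎 a * (𝒳).A c i * (𝓎 a - ∑ m ∈ Ico i k, (ζ (m + 1) - ζ m) • (𝒳).M m a) =
        𝓎 a * 𝓎 a * (𝒳).A c i -
          ∑ m ∈ Ico i k, (ζ (m + 1) - ζ m) • (𝓎 a * (𝒳).M m a * (𝒳).A c i) := by
      rw [mul_sub, mul_sum]
      congr 1
      · ring
      · refine sum_congr rfl fun m _ => ?_
        rw [mul_smul_comm]; congr 1; ring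
    have e4 : 𝓎 a * ∑ b, c b • (𝓎 b * dM hP hζ θ i i a b) = θ.c i l • ∑ b, c b •
        (𝓎 a * 𝓎 b * (𝒮).C (i + 1) (𝓎 b * (𝓎 a -
    ∑ m ∈ Ico (i + 1) k, (ζ (m + 1) - ζ m) • (𝒳).M m a - ζ (i + 1) • (𝒳).M i a))) := by
      rw [mul_sum, smul_sum]
      refine sum_congr rfl fun b _ => ?_
      unfold dM
      rw [hl, mul_smul_comm, mul_smul_comm, mul_smul_comm, smul_comm, mul_assoc]
    rw [e3, e4, map_sub, map_sum, map_smul, map_sum]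
    simp only [map_smul, smul_eq_mul]
    ring
  rw [e1, sum_congr rfl fun a _ => e2 a, ← mul_sum]
  congr 1
  have q1 : (𝒮).E ((𝒳).Q c * (𝒳).A c i) = ∑ a, c a * (𝒮).E (𝓎 a * 𝓎 a * (𝒳).A c i) := by
    unfold ASys.Q
    rw [sum_mul, map_sum]
    exact sum_congr rfl fun a _ => by rw [smul_mul_assoc, map_smul, smul_eq_mul]; rfl
  have q2 : ∀ m, (𝒮).E ((𝒳).A c m * (𝒳).A c i) =
      ∑ a, c a * (𝒮).E (𝓎 a * (𝒳).M m a * (𝒳).A c i) := by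
    intro m
    conv_lhs => unfold ASys.A
    conv_rhs => unfold ASys.A
    rw [sum_mul, map_sum]
    exact sum_congr rfl fun a _ => by rw [smul_mul_assoc, map_smul, smul_eq_mul]; rfl
  -- the conditional expectation
  have q3 : ∀ a b, (𝒮).E (𝓎 a * 𝓎 b * (𝒮).C (i + 1) (𝓎 b * (𝓎 a -
      ∑ m ∈ Ico (i + 1) k, (ζ (m + 1) - ζ m) • (𝒳).M m a - ζ (i + 1) • (𝒳).M i a))) =
      (𝒮).E ((𝒮).C (i + 1) (𝓎 a * 𝓎 b) * (𝒮).C (i + 1) (𝓎 a * 𝓎 b)) -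
      ∑ m ∈ Ico (i + 1) k, (ζ (m + 1) - ζ m) *
        (𝒮).E ((𝒮).C (i + 1) (𝓎 a * 𝓎 b) * (𝒮).C (i + 1) ((𝒳).M m a * (𝒳).M m b)) -
      ζ (i + 1) * (𝒮).E ((𝒮).C (i + 1) (𝓎 a * 𝓎 b) * ((𝒳).M i a * (𝒳).M i b)) := by
    intro a b
    rw [(𝒮).E_mul_C]
    have r1 : (𝒮).C (i + 1) (𝓎 b * (𝓎 a -
        ∑ m ∈ Ico (i + 1) k, (ζ (m + 1) - ζ m) • (𝒳).M m a - ζ (i + 1) • (𝒳).M i a)) =
        (𝒮).C (i + 1) (𝓎 a * 𝓎 b) - ∑ m ∈ Ico (i + 1) k, (ζ (m + 1) - ζ m) •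
          (𝒮).C (i + 1) ((𝒳).M m a * (𝒳).M m b) - ζ (i + 1) • ((𝒳).M i a * (𝒳).M i b) := by
      rw [mul_sub, mul_sub, map_sub, map_sub, mul_sum, map_sum, mul_comm (𝓎 b) (𝓎 a)]
      congr 1
      · congr 1
        refine sum_congr rfl fun m hm => ?_
        have hm' := (mem_Ico.1 hm).1
        rw [mul_smul_comm, map_smul]
        congr 1
        have : (𝒮).C (i + 1) (𝓎 b * (𝒳).M m a) = (𝒮).C (i + 1) ((𝒮).C (m + 1) (𝓎 b * (𝒳).M m a)) := by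
          rw [(𝒮).C_C, min_eq_left (by omega)]
        rw [this, ((𝒳).M_ms m a).C_mul, mul_comm]; rfl
      · rw [mul_smul_comm, map_smul, ((𝒳).M_ms i a).C_mul, mul_comm]; rfl
    rw [r1, mul_sub, mul_sub, map_sub, map_sub, mul_sum, map_sum]
    simp only [mul_smul_comm, map_smul, smul_eq_mul]
  have q4 : (𝒳).a2 c i - ∑ m ∈ Ico (i + 1) k, (ζ (m + 1) - ζ m) * (𝒳).r2 c i m -
      ζ (i + 1) * (𝒳).b2 c i = ∑ a, c a * ∑ b, c b * (𝒮).E (𝓎 a * 𝓎 b * (𝒮).C (i + 1) (𝓎 b * (𝓎 a -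
    ∑ m ∈ Ico (i + 1) k, (ζ (m + 1) - ζ m) • (𝒳).M m a - ζ (i + 1) • (𝒳).M i a))) := by
    simp only [q3]
    rw [(𝒳).b2_eq]
    unfold ASys.a2 ASys.r2 Calc.BB
    simp only [mul_sub, sum_sub_distrib, mul_sum]
    congr 1
    · congr 1
      · refine sum_congr rfl fun a _ => sum_congr rfl fun b _ => ?_
        rw [← mul_assoc]; rfl
      · rw [sum_comm]
        refine sum_congr rfl fun a _ => ?_
        rw [sum_comm]
        refine sum_congr rfl fun b _ => sum_congr rfl fun m _ => ?_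
        show (ζ (m + 1) - ζ m) * (c a * c b * (𝒮).E ((𝒮).C (i + 1) (𝓎 a * 𝓎 b) *
          (𝒮).C (i + 1) ((𝒳).M m a * (𝒳).M m b))) = _
        ring
    · refine sum_congr rfl fun a _ => sum_congr rfl fun b _ => ?_
      show ζ (i + 1) * (c a * c b * (𝒮).E ((𝒮).C (i + 1) (𝓎 a * 𝓎 b) *
          ((𝒳).M i a * (𝒳).M i b))) = _
      ring
  rw [q1, show (∑ m ∈ Ico i k, (ζ (m + 1) - ζ m) * (𝒮).E ((𝒳).A c m * (𝒳).A c i)) =
    ∑ m ∈ Ico i k, (ζ (m + 1) - ζ m) * ∑ a, c a * (𝒮).E (𝓎 a * (𝒳).M m a * (𝒳).A c i) from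
      sum_congr rfl fun m _ => by rw [q2]]
  have q5 : ∑ m ∈ Ico i k, (ζ (m + 1) - ζ m) * ∑ a, c a * (𝒮).E (𝓎 a * (𝒳).M m a * (𝒳).A c i) =
      ∑ a, c a * ∑ m ∈ Ico i k, (ζ (m + 1) - ζ m) * (𝒮).E (𝓎 a * (𝒳).M m a * (𝒳).A c i) := by
    simp only [mul_sum]
    rw [sum_comm]
    refine sum_congr rfl fun a _ => sum_congr rfl fun m _ => ?_
    ring
  rw [q5]
  simp only [mul_add, mul_sub, sum_add_distrib, sum_sub_distrib] at q4 ⊢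
  linarith

end Crest.Agent.RI
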