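import Crest.Agent.RI.SysIBP

/-!
# Row 164: SYNC and loop hypotheses for the concrete system (helper44)
-/

set_option autoImplicit false

namespace Crest.Agent.RI

open MeasureTheory Finset

variable {N K : ℕ} {P : Measure (ON N)} {A : Measure (Fin N → Bool)} {ζ : ℕ → ℝ}
variable {hP : HaarO P} [IsProbabilityMeasure A] {hζ : Exps ζ} {k : ℕ} {θ : Par N K}

local notation "𝒮" => SC hP A hζ k θ
local notation "𝒳" => XS (A := A) (k := k) hP hζ θ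
local notation "𝓎" => yG (A := A) (k := k) hP hζ θ
local notation "ℊ" => gG (A := A) (k := k) hP hζ θ

theorem tame_abs {n : ℕ} {Φ : (Fin n → EN N) → ℝ} (h : Tame βN Φ) : Tame βN (fun ω => |Φ ω|) := by
  obtain ⟨C, h0, h1⟩ := h.bound
  exact ⟨continuous_abs.measurable.comp h.meas, C, h0, fun ω => by rw [abs_abs]; exact h1 ω⟩

/-- from `L¹` concentration to the dual form -/
theorem dual_of_L1 {T : (𝒮).G} {c δ : ℝ}
    (h : pathE (mN P A) ζ (k + 1) 0 (HN k θ) (fun ω => |T.1 ω - c|) ≤ δ) (f : (𝒮).G)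
    (hf : ∀ p, |f.1 p| ≤ 1) : |(𝒮).E (T * f) - c * (𝒮).E f| ≤ δ := by
  have e : (𝒮).E (T * f) - c * (𝒮).E f = (𝒮).E ((T - c • (1 : (𝒮).G)) * f) := by
    rw [sub_mul, map_sub, smul_mul_assoc, one_mul, map_smul, smul_eq_mul]
  rw [e]
  have hco : ∀ ω, (T - c • (1 : (𝒮).G)).1 ω = T.1 ω - c := fun ω => by
    show T.1 ω - c * 1 = _
    rw [mul_one]
  have ht : Tame βN (fun ω => |T.1 ω - c|) := by
    have := tame_abs (T - c • (1 : (𝒮).G)).2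
    refine ⟨?_, ?_⟩
    · have h1 := this.meas
      simp only [hco] at h1
      exact h1
    · obtain ⟨C, h0, h1⟩ := this.bound
      refine ⟨C, h0, fun ω => ?_⟩
      have h2 := h1 ω
      simp only [hco] at h2
      exact h2
  refine le_trans ((𝒮).E_abs_le (K := (⟨fun ω => |T.1 ω - c|, ht⟩ : (𝒮).G)) fun ω => ?_) h
  show |(T - c • (1 : (𝒮).G)).1 ω * f.1 ω| ≤ |T.1 ω - c|
  rw [hco, abs_mul]
  exact mul_le_of_le_one_right (abs_nonneg _) (hf ω)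

variable (hP hζ θ) in
theorem gy_eq (l : Fin K) (j : Fin k) :
    pathE (mN P A) ζ (k + 1) 0 (HN k θ) (gy k θ.κ j l) = (𝒮).E (TG hP hζ θ θ.κ l j) := by
  rw [SC_E]; congr 1; funext ω; rw [TG_coe]

variable (hP hζ θ) in
/-- the SYNC hypotheses hold for the concrete system -/
theorem syncHyp (hN : 0 < N) (hk : ζ k = 1)
    (hmono : ∀ i, i < k → ζ i ≤ ζ (i + 1))
    {δ c0 : ℝ} (hδ : 0 ≤ δ) (hc0 : 0 < c0) (hc : ∀ j, 1 ≤ j → j < k → ∀ l, c0 ≤ θ.c j l)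
    (hC : Conc P A ζ k θ δ) (l : Fin K) :
    (𝒳).SyncHyp (cl θ.κ l) k ζ (TG hP hζ θ θ.κ l) (fun j => θ.c j l) δ c0 where
  Npos := hN
  c_nonneg := cl_nonneg _ _
  c_le := cl_le _ _
  mono := hmono
  last := hk
  δ0 := hδ
  c0pos := hc0
  cf_ge := fun j h1 h2 => hc j h1 h2 l
  ibp0 := fun j h1 h2 => by
    have := ET_indep (hP := hP) (hζ := hζ) (A := A) (θ := θ) hk l j h2 (F := 1)
      (fun a => DG_one _ _)
    rw [mul_one, mul_one] at this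
    rw [this]
    congr 2
    exact sum_congr rfl fun m _ => by rw [mul_one, (𝒳).E_A]
  ibpS := fun i j hij hj => ET_indep hk l j hj fun a => DG_Sx_zero _ i j hj hij a
  ibpA := fun i j hij hj => ET_indep hk l j hj fun a => DG_A_zero _ i j hj hij a
  ibpI := fun i _ hi => ET_shared hk l i hi
  concT := fun j h1 h2 f hf => by
    have h := hC.gy ⟨j, h2⟩ h1 l
    rw [gy_eq hP hζ θ l ⟨j, h2⟩] at h
    refine dual_of_L1 (T := TG hP hζ θ θ.κ l j) ?_ f hf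
    refine le_trans (le_of_eq ?_) h
    congr 1
    funext ω
    rw [← TG_coe (A := A) hP hζ θ θ.κ l ⟨j, h2⟩ ω]
  concQ := fun f hf => by
    have h := hC.self l
    rw [self_eq hP hζ θ l] at h
    refine dual_of_L1 (T := (𝒳).Q (cl θ.κ l)) ?_ f hf
    refine le_trans (le_of_eq ?_) h
    congr 1
    funext ω
    rw [Q_coe]


/-! ### second moments of the perturbation Gaussians -/

variable (hP hζ θ) in
theorem gsq_bound (hN : 0 < N) (hk : ζ k = 1)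
    (hmono : ∀ i, i < k → ζ i ≤ ζ (i + 1)) (hc : ∀ j l, 0 ≤ θ.c j l) (hc' : ∀ j l, θ.c j l ≤ 1 / 2)
    (j : ℕ) (hj : j < k) :
    (1 / (N : ℝ)) * ∑ a, (𝒮).E (ℊ j a * ℊ j a) ≤ 3 := by
  have hN' : (0 : ℝ) < N := by exact_mod_cast hN
  set G := (1 / (N : ℝ)) * ∑ a, (𝒮).E (ℊ j a * ℊ j a) with hG
  have hK : (𝒮).E (ASys.KK (𝒮) (ℊ j)) = (1 / 2) * (G + 1) := by rw [ASys.E_KK]
  -- integration by parts
  have h1 : ∀ a, (𝒮).E (ℊ j a * ℊ j a) = 1 + θ.c j (θ.κ a) *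
      (𝒮).E (ℊ j a * (𝓎 a - ∑ m ∈ Ico j k, (ζ (m + 1) - ζ m) • (𝒳).M m a)) := by
    intro a
    have h := ibpG (hP := hP) (hζ := hζ) (A := A) (θ := θ) hk j hj a (Φ := ℊ j a) (Φ' := 1)
      (DG_g j hj a)
    rw [h, (𝒮).E_one]
  set cw : Fin N → ℝ := fun a => (1 / (N : ℝ)) * (2 * θ.c j (θ.κ a)) with hcw
  have hcw0 : ∀ a, 0 ≤ cw a := fun a => by have := hc j (θ.κ a); positivity
  have hcw1 : ∀ a, cw a ≤ 1 / (N : ℝ) := fun a => by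
    have := hc' j (θ.κ a)
    have h2 : (1 / (N : ℝ)) * (2 * θ.c j (θ.κ a)) ≤ (1 / (N : ℝ)) * 1 :=
      mul_le_mul_of_nonneg_left (by linarith) (by positivity)
    rw [mul_one] at h2
    exact h2
  have hvec : ∀ u : Fin N → (𝒮).G, (∀ p, ∑ a, (u a).1 p ^ 2 ≤ (N : ℝ)) →
      |∑ a, cw a * (𝒮).E (ℊ j a * u a)| ≤ (1 / 2) * (G + 1) := by
    intro u hu
    have e : ∑ a, cw a * (𝒮).E (ℊ j a * u a) = (𝒮).E (∑ a, cw a • (ℊ j a * u a)) := by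
      rw [map_sum]; exact sum_congr rfl fun a _ => by rw [map_smul, smul_eq_mul]
    rw [e, ← hK]
    refine (𝒮).E_abs_le fun p => ?_
    rw [(𝒮).coe_sum]
    exact ASys.inn_g_le hN hcw0 hcw1 (ℊ j) p (fun a => (u a).1 p) (hu p)
  have h2 : G = 1 + (1 / 2) * (∑ a, cw a * (𝒮).E (ℊ j a * 𝓎 a) -
      ∑ m ∈ Ico j k, (ζ (m + 1) - ζ m) * ∑ a, cw a * (𝒮).E (ℊ j a * (𝒳).M m a)) := by
    have e1 : ∀ a, (𝒮).E (ℊ j a * (𝓎 a - ∑ m ∈ Ico j k, (ζ (m + 1) - ζ m) • (𝒳).M m a)) =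
        (𝒮).E (ℊ j a * 𝓎 a) - ∑ m ∈ Ico j k, (ζ (m + 1) - ζ m) * (𝒮).E (ℊ j a * (𝒳).M m a) := by
      intro a
      rw [mul_sub, map_sub, mul_sum, map_sum]
      congr 1
      exact sum_congr rfl fun m _ => by rw [mul_smul_comm, map_smul, smul_eq_mul]
    have e2 : ∑ m ∈ Ico j k, (ζ (m + 1) - ζ m) * ∑ a, cw a * (𝒮).E (ℊ j a * (𝒳).M m a) =
        ∑ a, cw a * ∑ m ∈ Ico j k, (ζ (m + 1) - ζ m) * (𝒮).E (ℊ j a * (𝒳).M m a) := by
      simp only [mul_sum]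
      rw [sum_comm]
      exact sum_congr rfl fun a _ => sum_congr rfl fun m _ => by ring
    have e3 : ∀ a, (1 / (N : ℝ)) * (𝒮).E (ℊ j a * ℊ j a) = 1 / (N : ℝ) + (1 / 2) *
        (cw a * (𝒮).E (ℊ j a * (𝓎 a - ∑ m ∈ Ico j k, (ζ (m + 1) - ζ m) • (𝒳).M m a))) := by
      intro a
      rw [h1]
      simp only [hcw]
      ring
    rw [e2, ← sum_sub_distrib, hG, mul_sum, sum_congr rfl fun a _ => e3 a, sum_add_distrib,
      ← mul_sum, sum_const, card_univ, Fintype.card_fin, nsmul_eq_mul,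
      mul_one_div_cancel hN'.ne']
    congr 2
    exact sum_congr rfl fun a _ => by rw [e1, mul_sub]
  have hw : ∀ m ∈ Ico j k, 0 ≤ ζ (m + 1) - ζ m := fun m hm => by
    have := hmono m (mem_Ico.1 hm).2; linarith
  have hG1 : 0 ≤ (1 / 2) * (G + 1) := by
    rw [← hK]; exact (𝒮).E_nonneg _ fun p => by rw [ASys.KK_pt]; positivity
  have b1 := hvec 𝓎 (fun p => ((𝒳).ysq p).le)
  have b2 : |∑ m ∈ Ico j k, (ζ (m + 1) - ζ m) * ∑ a, cw a * (𝒮).E (ℊ j a * (𝒳).M m a)| ≤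
      (1 / 2) * (G + 1) := by
    refine (abs_sum_le_sum_abs _ _).trans ?_
    have : ∀ m ∈ Ico j k, |(ζ (m + 1) - ζ m) * ∑ a, cw a * (𝒮).E (ℊ j a * (𝒳).M m a)| ≤
        (ζ (m + 1) - ζ m) * ((1 / 2) * (G + 1)) := fun m hm => by
      rw [abs_mul, abs_of_nonneg (hw m hm)]
      exact mul_le_mul_of_nonneg_left (hvec _ ((𝒳).M_sq_sum m)) (hw m hm)
    refine (sum_le_sum this).trans ?_
    rw [← sum_mul, ASys.tel_gen (k := k) hj.le, hk]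
    have := (hζ j).1
    nlinarith
  have b1' := (abs_le.1 b1).2
  have b2' := (abs_le.1 b2).1
  linarith


/-! ### loop hypotheses -/

theorem conv1 (S : Calc (Fin (k + 1) → EN N)) (s : Finset ℕ) (w : ℕ → ℝ) (Φ V : S.G) :
    S.E (Φ * (V - ∑ m ∈ s, w m • S.C (m + 1) V)) =
      S.E (V * (Φ - ∑ m ∈ s, w m • S.C (m + 1) Φ)) := by
  rw [mul_sub, mul_sub, map_sub, map_sub, mul_sum, mul_sum, map_sum, map_sum, mul_comm Φ V]
  congr 1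
  refine sum_congr rfl fun m _ => ?_
  rw [mul_smul_comm, mul_smul_comm, map_smul, map_smul, ← S.E_C_swap (m + 1) Φ V, mul_comm V]

variable (hP A hζ k θ) in
/-- the derivative of the Hamiltonian along the rotation -/
noncomputable def VR (l l' : Fin K) (a b : Fin N) : (SC hP A hζ k θ).G :=
  (θ.e l - θ.e l') • (𝓎 a * 𝓎 b) + (𝒳).FF k ℊ (fun j => θ.c j l) (fun j => θ.c j l') a b

theorem HN_rotG (hk1 : 1 ≤ k) {l l' : Fin K} {a b : Fin N} (hab : a ≠ b) (ha : θ.κ a = l)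
    (hb : θ.κ b = l') :
    IsD (rotF hab) (0 : Fin (k + 1)) (HN k θ) (VR A hP hζ k θ l l' a b).1 := by
  have h := HN_isD_rot (N := N) hk1 θ hab
  have e : (VR A hP hζ k θ l l' a b).1 = fun ω => (θ.e (θ.κ a) - θ.e (θ.κ b)) * (yv k ω a * yv k ω b) +
        ∑ i : Fin k, (θ.c i (θ.κ a) * (ω i.castSucc).2.2.1 a * yv k ω b -
          θ.c i (θ.κ b) * (ω i.castSucc).2.2.1 b * yv k ω a) := by
    funext ω
    have e1 : (VR A hP hζ k θ l l' a b).1 ω = (θ.e l - θ.e l') * (yv k ω a * yv k ω b) +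
      ((𝒳).FF k ℊ (fun j => θ.c j l) (fun j => θ.c j l') a b).1 ω := rfl
    rw [e1, ha, hb]
    congr 1
    unfold ASys.FF
    rw [(𝒮).coe_sum, ← Fin.sum_univ_eq_sum_range (fun j => (θ.c j l • (ℊ j a * (𝒳).y b) -
      θ.c j l' • (ℊ j b * (𝒳).y a)).1 ω) k]
    refine sum_congr rfl fun i _ => ?_
    have e2 : (θ.c i l • (ℊ i a * (𝒳).y b) - θ.c i l' • (ℊ i b * (𝒳).y a)).1 ω =
      θ.c i l * ((ℊ i a).1 ω * yv k ω b) - θ.c i l' * ((ℊ i b).1 ω * yv k ω a) := rfl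
    rw [e2, gG_val (i : ℕ) i.2 a ω, gG_val (i : ℕ) i.2 b ω]
    simp only [Fin.eta]
    ring
  rw [e]
  exact h

/-- the GIBP identity for the rotation: `0 = E Φ' + E[Φ (V - Σ w_m C_m V)]` -/
theorem rot_ibp (hk : ζ k = 1) {a b : Fin N} (hab : a ≠ b) {V Φ Φ' : (𝒮).G}
    (hV : IsD (rotF hab) (0 : Fin (k + 1)) (HN k θ) V.1) (h : DG (rotF hab) 0 Φ Φ') :
    0 = (𝒮).E Φ' + (𝒮).E (V * (Φ - ∑ m ∈ range k, (ζ (m + 1) - ζ m) • (𝒮).C (m + 1) Φ)) := by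
  have h1 := gibpG (δ := (0 : (𝒮).G)) (cflow_rotF hP hab) (fun ω => rfl) hk hV h
  rw [zero_mul, map_zero] at h1
  rw [← conv1, range_eq_Ico]
  exact h1

theorem DG_rot_a {a b : Fin N} (hab : a ≠ b) :
    DG (hP := hP) (hζ := hζ) (θ := θ) (A := A) (rotF hab) (0 : Fin (k + 1)) (𝓎 a) (𝓎 b) :=
  yv_isD_rot_a k hab

theorem DG_rot_b {a b : Fin N} (hab : a ≠ b) :
    DG (hP := hP) (hζ := hζ) (θ := θ) (A := A) (rotF hab) (0 : Fin (k + 1)) (𝓎 b) (-𝓎 a) :=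
  yv_isD_rot_b k hab

/-- first loop identity -/
theorem loop_r1 (hk : ζ k = 1) (hk1 : 1 ≤ k) {l l' : Fin K} {a b : Fin N} (hab : a ≠ b)
    (ha : θ.κ a = l) (hb : θ.κ b = l') :
    (𝒮).E (𝓎 b * 𝓎 b) - (𝒮).E (𝓎 a * 𝓎 a) + (𝒮).E (VR A hP hζ k θ l l' a b * (𝒳).Z1 k ζ a b) = 0 := by
  have h := rot_ibp hk hab (HN_rotG (hP := hP) (hζ := hζ) (A := A) hk1 hab ha hb)
    ((DG_rot_a (hP := hP) (hζ := hζ) (θ := θ) (A := A) (k := k) hab).mul (DG_rot_b hab))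
  have e : (𝒮).E (𝓎 b * 𝓎 b + 𝓎 a * -𝓎 a) = (𝒮).E (𝓎 b * 𝓎 b) - (𝒮).E (𝓎 a * 𝓎 a) := by
    have e0 : 𝓎 a * -𝓎 a = -(𝓎 a * 𝓎 a) := by ring
    rw [e0, map_add, map_neg]; ring
  rw [e] at h
  exact h.symm

/-- second loop identity -/
theorem loop_r2 (hk : ζ k = 1) {l l' : Fin K} {a b : Fin N} (hab : a ≠ b)
    (ha : θ.κ a = l) (hb : θ.κ b = l') {i : ℕ} (hi : i < k) :
    (𝒮).E (𝓎 b * (𝒳).M i b) - (𝒮).E (𝓎 a * (𝒳).M i a) +
      (𝒮).E (VR A hP hζ k θ l l' a b * (𝒳).Z2 k ζ i a b) = 0 := by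
  set V := VR A hP hζ k θ l l' a b with hV
  have hVD := HN_rotG (hP := hP) (hζ := hζ) (A := A) (θ := θ) (k := k) (by omega) hab ha hb
  have hM : DG (rotF hab) (0 : Fin (k + 1)) ((𝒳).M i b)
      ((𝒮).C (i + 1) (-𝓎 a + 𝓎 b * scG (i + 1) V)) :=
    DG.C (r := i + 1) (cflow_rotF hP hab) (by simp) hVD (DG_rot_b hab)
  have h := rot_ibp hk hab hVD
    ((DG_rot_a (hP := hP) (hζ := hζ) (θ := θ) (A := A) (k := k) hab).mul hM)
  -- the derivative part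
  have e1 : (𝒮).E (𝓎 a * (𝒮).C (i + 1) (-𝓎 a + 𝓎 b * scG (i + 1) V)) =
      -(𝒮).E (𝓎 a * (𝒳).M i a) + (𝒮).E (V * ((𝒳).M i a * 𝓎 b -
        ∑ m ∈ Ico (i + 1) k, (ζ (m + 1) - ζ m) • ((𝒳).M i a * (𝒳).M m b) -
        ζ (i + 1) • ((𝒳).M i a * (𝒳).M i b))) := by
    have e0 : 𝓎 a * (𝒮).C (i + 1) (-𝓎 a + 𝓎 b * scG (i + 1) V) =
        -(𝓎 a * (𝒳).M i a) + 𝓎 a * (𝒮).C (i + 1) (𝓎 b * scG (i + 1) V) := by
      rw [map_add, map_neg, mul_add]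
      congr 1
      show 𝓎 a * -((𝒳).M i a) = _
      ring
    rw [e0, map_add, map_neg]
    congr 1
    rw [← (𝒮).E_C_swap (i + 1) (𝓎 a), scG_eq hi hk]
    have e2 : (𝒮).C (i + 1) (𝓎 a) * (𝓎 b * (V - ∑ m ∈ Ico (i + 1) k, (ζ (m + 1) - ζ m) •
        (𝒮).C (m + 1) V - ζ (i + 1) • (𝒮).C (i + 1) V)) =
        ((𝒳).M i a * 𝓎 b) * (V - ∑ m ∈ Ico (i + 1) k, (ζ (m + 1) - ζ m) • (𝒮).C (m + 1) V) -
        ζ (i + 1) • (((𝒳).M i a * 𝓎 b) * (𝒮).C (i + 1) V) := by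
      rw [← mul_smul_comm, ← mul_sub, mul_assoc]; rfl
    rw [e2, map_sub, map_smul, conv1, ← (𝒮).E_C_swap (i + 1) ((𝒳).M i a * 𝓎 b) V]
    have e3 : ∀ m, i ≤ m → (𝒮).C (m + 1) ((𝒳).M i a * 𝓎 b) = (𝒳).M i a * (𝒳).M m b := by
      intro m hm
      rw [mul_comm, (((𝒳).M_ms i a).mono (by omega : i + 1 ≤ m + 1)).C_mul, mul_comm]; rfl
    rw [e3 i le_rfl]
    have e4 : ∑ m ∈ Ico (i + 1) k, (ζ (m + 1) - ζ m) • (𝒮).C (m + 1) ((𝒳).M i a * 𝓎 b) =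
        ∑ m ∈ Ico (i + 1) k, (ζ (m + 1) - ζ m) • ((𝒳).M i a * (𝒳).M m b) :=
      sum_congr rfl fun m hm => by rw [e3 m (by have := (mem_Ico.1 hm).1; omega)]
    rw [e4]
    conv_rhs => rw [mul_sub, map_sub, mul_smul_comm, map_smul, mul_comm V ((𝒳).M i a * (𝒳).M i b)]
  -- the second part
  have e5 : ∑ m ∈ range k, (ζ (m + 1) - ζ m) • (𝒮).C (m + 1) (𝓎 a * (𝒳).M i b) =
      ∑ m ∈ range i, (ζ (m + 1) - ζ m) • (𝒮).C (m + 1) ((𝒳).M i a * (𝒳).M i b) +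
      ∑ m ∈ Ico i k, (ζ (m + 1) - ζ m) • ((𝒳).M m a * (𝒳).M i b) := by
    have hs := sum_range_add_sum_Ico
      (fun m => (ζ (m + 1) - ζ m) • (𝒮).C (m + 1) (𝓎 a * (𝒳).M i b)) hi.le
    rw [← hs]
    congr 1
    · refine sum_congr rfl fun m hm => ?_
      have hm' := mem_range.1 hm
      congr 1
      have : (𝒮).C (m + 1) (𝓎 a * (𝒳).M i b) =
          (𝒮).C (m + 1) ((𝒮).C (i + 1) (𝓎 a * (𝒳).M i b)) := by
        rw [(𝒮).C_C, min_eq_left (by omega)]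
      rw [this, ((𝒳).M_ms i b).C_mul]; rfl
    · refine sum_congr rfl fun m hm => ?_
      have hm' := (mem_Ico.1 hm).1
      rw [(((𝒳).M_ms i b).mono (by omega : i + 1 ≤ m + 1)).C_mul]; rfl
  rw [e5, map_add, e1] at h
  have e6 : (𝒳).Z2 k ζ i a b = ((𝒳).M i a * 𝓎 b -
        ∑ m ∈ Ico (i + 1) k, (ζ (m + 1) - ζ m) • ((𝒳).M i a * (𝒳).M m b) -
        ζ (i + 1) • ((𝒳).M i a * (𝒳).M i b)) + (𝓎 a * (𝒳).M i b -
      (∑ m ∈ range i, (ζ (m + 1) - ζ m) • (𝒮).C (m + 1) ((𝒳).M i a * (𝒳).M i b) +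
      ∑ m ∈ Ico i k, (ζ (m + 1) - ζ m) • ((𝒳).M m a * (𝒳).M i b))) := by
    unfold ASys.Z2
    show (𝒳).M i a * 𝓎 b - _ - _ + 𝓎 a * (𝒳).M i b - _ - _ = _
    abel
  rw [e6, mul_add, map_add]
  linarith


variable (hP hζ θ) in
/-- the loop hypotheses hold for the concrete system -/
theorem loopHyp (hN : 0 < N) (hk : ζ k = 1)
    (hk1 : 1 ≤ k) (hmono : ∀ i, i < k → ζ i ≤ ζ (i + 1)) {δ c1 : ℝ} (hc : ∀ j l, 0 ≤ θ.c j l)
    (hc1 : ∀ j l, θ.c j l ≤ c1) (hc1' : c1 ≤ 1 / 2)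
    (hC : Conc P A ζ k θ δ) {l l' : Fin K} (hll : l ≠ l') :
    (𝒳).LoopHyp (cl θ.κ l) (cl θ.κ l') k ζ (θ.e l - θ.e l')
      ((𝒳).FF k ℊ (fun j => θ.c j l) (fun j => θ.c j l')) δ (16 * k * c1) where
  Npos := hN
  c_nonneg := cl_nonneg _ _
  c_le := cl_le _ _
  c'_nonneg := cl_nonneg _ _
  c'_le := cl_le _ _
  z0 := (hζ 0).1
  mono := hmono
  last := hk
  concQ := fun f hf => by
    have h := hC.self l
    rw [self_eq hP hζ θ l] at h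
    refine dual_of_L1 (T := (𝒳).Q (cl θ.κ l)) ?_ f hf
    refine le_trans (le_of_eq ?_) h
    congr 1
    funext ω
    rw [Q_coe]
  concQ' := fun f hf => by
    have h := hC.self l'
    rw [self_eq hP hζ θ l'] at h
    refine dual_of_L1 (T := (𝒳).Q (cl θ.κ l')) ?_ f hf
    refine le_trans (le_of_eq ?_) h
    congr 1
    funext ω
    rw [Q_coe]
  r1 := fun a b ha hb => by
    have h1 := cl_ne ha
    have h2 := cl_ne hb
    have hab : a ≠ b := fun h => hll (by rw [← h1, ← h2, h])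
    exact loop_r1 hk hk1 hab h1 h2
  r2 := fun i hi a b ha hb => by
    have h1 := cl_ne ha
    have h2 := cl_ne hb
    have hab : a ≠ b := fun h => hll (by rw [← h1, ← h2, h])
    exact loop_r2 hk hab h1 h2 hi
  fb1 := by
    have hc10 : 0 ≤ c1 := (hc 0 l).trans (hc1 0 l)
    have h := ASys.FF_bound (X := 𝒳) (g := ℊ) (α := fun j => θ.c j l) (β := fun j => θ.c j l')
      (k := k) (c1 := c1) (Γ := 3) hc10 (fun j _ => by rw [abs_of_nonneg (hc j l)]; exact hc1 j l)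
      (fun j _ => by rw [abs_of_nonneg (hc j l')]; exact hc1 j l')
      (fun j hj => gsq_bound hP hζ θ hN hk hmono hc (fun j l => (hc1 j l).trans hc1') j hj)
      hN (cl_nonneg θ.κ l) (cl_le θ.κ l) (cl_nonneg θ.κ l') (cl_le θ.κ l')
      (by norm_num : (0 : ℝ) ≤ 2) (ASys.BdZ_Z1 (hζ 0).1 hmono hk)
    refine le_trans h ?_
    have : (0 : ℝ) ≤ k * c1 := by positivity
    nlinarith
  fb2 := fun i hi => by
    have hc10 : 0 ≤ c1 := (hc 0 l).trans (hc1 0 l)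
    have h := ASys.FF_bound (X := 𝒳) (g := ℊ) (α := fun j => θ.c j l) (β := fun j => θ.c j l')
      (k := k) (c1 := c1) (Γ := 3) hc10 (fun j _ => by rw [abs_of_nonneg (hc j l)]; exact hc1 j l)
      (fun j _ => by rw [abs_of_nonneg (hc j l')]; exact hc1 j l')
      (fun j hj => gsq_bound hP hζ θ hN hk hmono hc (fun j l => (hc1 j l).trans hc1') j hj)
      hN (cl_nonneg θ.κ l) (cl_le θ.κ l) (cl_nonneg θ.κ l') (cl_le θ.κ l')
      (by norm_num : (0 : ℝ) ≤ 4) (ASys.BdZ_Z2 (hζ 0).1 hmono hk hi)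
    refine le_trans h ?_
    have : (0 : ℝ) ≤ k * c1 := by positivity
    nlinarith

end Crest.Agent.RI
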