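import Crest.Agent.RI.Tower

/-!
# Row 164, the concrete system (blueprint 1.6)

Version 2 (helper44, agreed with helper70, helper20): the orthogonal matrix lives in the SUBTYPE
`ON N` (so `|y| = √N` holds pointwise), the main field is written in the SPIN frame with coefficient
`v i` (`τ_i = v_i²`), the perturbation field in the frame of `y`.
-/

set_option autoImplicit false

namespace Crest.Agent.RI

open MeasureTheory ProbabilityTheory

/-- Value of a spin. -/
def spin (b : Bool) : ℝ := if b then 1 else -1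

/-- Orthogonal matrices, as a subtype of arrays. -/
abbrev ON (N : ℕ) : Type := {U : Fin N → Fin N → ℝ // Matrix.of U ∈ Matrix.orthogonalGroup (Fin N) ℝ}

/-- Product of orthogonal matrices. -/
def ON.mul {N : ℕ} (U V : ON N) : ON N :=
  ⟨fun i j => (Matrix.of U.1 * Matrix.of V.1) i j, by
    have h := Submonoid.mul_mem (Matrix.orthogonalGroup (Fin N) ℝ) U.2 V.2
    exact h⟩

/-- One level: orthogonal matrix, main Gaussian field (spin frame), perturbation Gaussian field
(frame of `y`), configuration. -/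
abbrev EN (N : ℕ) : Type := ON N × (Fin N → ℝ) × (Fin N → ℝ) × (Fin N → Bool)

/-- Standard Gaussian vector. -/
noncomputable def gvec (N : ℕ) : Measure (Fin N → ℝ) := Measure.pi (fun _ => gaussianReal 0 1)

/-- `P` is a Haar law on `O(N)` (as in the statements: orthogonal a.s., right invariant). -/
structure IsHaar {N : ℕ} (P : Measure (Fin N → Fin N → ℝ)) : Prop where
  prob : IsProbabilityMeasure P
  orth : ∀ᵐ U ∂P, Matrix.of U ∈ Matrix.orthogonalGroup (Fin N) ℝ
  inv : ∀ O : Matrix (Fin N) (Fin N) ℝ, O ∈ Matrix.orthogonalGroup (Fin N) ℝ →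
    P.map (fun U => fun i j => (Matrix.of U * O) i j) = P

/-- Haar law on the subtype `ON N`: invariant on both sides. (`IsHaar P` gives
`HaarO (P.comap Subtype.val)`: Part 7.) -/
structure HaarO {N : ℕ} (P : Measure (ON N)) : Prop where
  prob : IsProbabilityMeasure P
  left : ∀ R : ON N, P.map (fun U => ON.mul R U) = P
  right : ∀ R : ON N, P.map (fun U => ON.mul U R) = P

/-- Law of one level. `A` = reference law of the configuration. -/
noncomputable def mN {N : ℕ} (P : Measure (ON N)) (A : Measure (Fin N → Bool)) :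
    Measure (EN N) := P.prod ((gvec N).prod ((gvec N).prod A))

/-- Uniform law on the cube. -/
noncomputable def unifA (N : ℕ) : Measure (Fin N → Bool) := Measure.pi (fun _ =>
  (2 : ENNReal)⁻¹ • (Measure.dirac true + Measure.dirac false))

/-- Parameters of the Hamiltonian. -/
structure Par (N K : ℕ) where
  /-- row labels -/
  κ : Fin N → Fin K
  /-- effective eigenvalues `t d_l + s x'_l` -/
  e : Fin K → ℝ
  /-- coefficient of the main field, level `i` (`τ_i = v_i²`) -/
  v : ℕ → ℝ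
  /-- coefficients of the perturbation field, level `i`, block `l` (used at the levels `1 ≤ i < k`) -/
  c : ℕ → Fin K → ℝ
  /-- magnetic part -/
  B : (Fin N → Bool) → ℝ

variable {N K : ℕ}

/-- `O σ` -/
def rot (O : ON N) (σ : Fin N → Bool) (a : Fin N) : ℝ := ∑ r : Fin N, O.1 a r * spin (σ r)

/-- `y = O σ` along a path with `k + 1` levels: `O` from level `0`, `σ` from level `k`. -/
def yv (k : ℕ) (ω : Fin (k + 1) → EN N) (a : Fin N) : ℝ :=
  rot (ω 0).1 (ω (Fin.last k)).2.2.2 a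

/-- The Hamiltonian. -/
noncomputable def HN (k : ℕ) (θ : Par N K) (ω : Fin (k + 1) → EN N) : ℝ :=
  (1 / 2) * ∑ a : Fin N, θ.e (θ.κ a) * yv k ω a ^ 2 +
  ∑ i : Fin k, θ.v i * ∑ r : Fin N, (ω i.castSucc).2.1 r * spin ((ω (Fin.last k)).2.2.2 r) +
  ∑ i : Fin k, ∑ a : Fin N, θ.c i (θ.κ a) * (ω i.castSucc).2.2.1 a * yv k ω a +
  θ.B (ω (Fin.last k)).2.2.2

/-- Block overlap `Q_l` of two paths. -/
noncomputable def ovl (k : ℕ) (κ : Fin N → Fin K) (l : Fin K) (ω ω' : Fin (k + 1) → EN N) : ℝ :=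
  (1 / (N : ℝ)) * ∑ a : Fin N, if κ a = l then yv k ω a * yv k ω' a else 0

/-- `N⁻¹ ⟨g̃^i_l, y_l⟩` -/
noncomputable def gy (k : ℕ) (κ : Fin N → Fin K) (i : Fin k) (l : Fin K)
    (ω : Fin (k + 1) → EN N) : ℝ :=
  (1 / (N : ℝ)) * ∑ a : Fin N, if κ a = l then (ω i.castSucc).2.2.1 a * yv k ω a else 0

/-- Dominating function for one level. -/
noncomputable def βN (x : EN N) : ℝ := ∑ a, |x.2.1 a| + ∑ a, |x.2.2.1 a|

/-- Self-overlap `c_l`. -/
noncomputable def selfOv (P : Measure (ON N)) (A : Measure (Fin N → Bool))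
    (ζ : ℕ → ℝ) (k : ℕ) (θ : Par N K) (l : Fin K) : ℝ :=
  pathE (mN P A) ζ (k + 1) 0 (HN k θ) (fun ω => ovl k θ.κ l ω ω)

/-- `ρ_{l,i}`: mean overlap of a pair split at level `i` (sharing the levels `0..i`). -/
noncomputable def rhoOv (P : Measure (ON N)) (A : Measure (Fin N → Bool))
    (ζ : ℕ → ℝ) (k : ℕ) (θ : Par N K) (l : Fin K) (i : ℕ) : ℝ :=
  pairE (mN P A) ζ (i + 1) (k + 1) 0 (HN k θ) (fun ω ω' => ovl k θ.κ l ω ω')

/-- `f_N = N⁻¹ nest(H) - h_{k-1}/2`. -/
noncomputable def fN (P : Measure (ON N)) (A : Measure (Fin N → Bool))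
    (ζ : ℕ → ℝ) (k : ℕ) (θ : Par N K) : ℝ :=
  (1 / (N : ℝ)) * nest (mN P A) ζ (k + 1) 0 (HN k θ) - (1 / 2) * ∑ i ∈ Finset.range k, θ.v i ^ 2

/-- Exponents of the upper bound tower: `ζ_i = (i+1)/(k+1)`. -/
noncomputable def ζUB (k : ℕ) (i : ℕ) : ℝ := min 1 (((i : ℝ) + 1) / ((k : ℝ) + 1))

/-- Exponents of the lower bound tower: `ζ_i = i/k`. -/
noncomputable def ζLB (k : ℕ) (i : ℕ) : ℝ := min 1 ((i : ℝ) / (k : ℝ))

end Crest.Agent.RI
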