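import Crest.Agent.RI.TMeasC

/-!
# Row 164, tower: monotonicity, linearity, positivity of `nest`, `pathE`.
-/

set_option autoImplicit false

namespace Crest.Agent.RI
open MeasureTheory ProbabilityTheory

variable {E : Type} [MeasurableSpace E]
variable {m : Measure E} [IsProbabilityMeasure m] {ζ : ℕ → ℝ} {β : E → ℝ}

/-- functions with all exponential moments -/
private structure TBasicAGood (m : Measure E) (f : E → ℝ) : Prop where
  int : Integrable f m
  exp : ∀ c : ℝ, Integrable (fun e => Real.exp (c * f e)) m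

private theorem TBasicA_cons_meas (n : ℕ) :
    Measurable (fun p : E × (Fin n → E) => (Fin.cons p.1 p.2 : Fin (n + 1) → E)) := by
  refine measurable_pi_lambda _ (fun j => ?_)
  refine Fin.cases ?_ (fun k => ?_) j
  · simpa using measurable_fst
  · simp only [Fin.cons_succ]
    exact (measurable_pi_apply k).comp measurable_snd

private theorem TBasicA_of_bound (hβ : Dom m β) {f : E → ℝ} (hf : Measurable f) {K : ℝ}
    (hK : 0 ≤ K) (hb : ∀ e, |f e| ≤ K * (1 + β e)) : TBasicAGood m f := by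
  constructor
  · refine Integrable.mono' ((hβ.int 1).const_mul K) hf.aestronglyMeasurable ?_
    refine Filter.Eventually.of_forall fun e => ?_
    rw [Real.norm_eq_abs]
    refine le_trans (hb e) ?_
    apply mul_le_mul_of_nonneg_left _ hK
    have := Real.add_one_le_exp (1 * β e)
    linarith
  · intro c
    refine Integrable.mono' ((hβ.int (|c| * K)).const_mul (Real.exp (|c| * K)))
      (Real.measurable_exp.comp (hf.const_mul c)).aestronglyMeasurable ?_
    refine Filter.Eventually.of_forall fun e => ?_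
    rw [Real.norm_eq_abs, abs_of_pos (Real.exp_pos _), ← Real.exp_add]
    apply Real.exp_le_exp.2
    calc c * f e ≤ |c * f e| := le_abs_self _
      _ = |c| * |f e| := abs_mul _ _
      _ ≤ |c| * (K * (1 + β e)) := mul_le_mul_of_nonneg_left (hb e) (abs_nonneg _)
      _ = |c| * K + |c| * K * β e := by ring

private theorem TBasicA_nest_good (hβ : Dom m β) (hζ : Exps ζ) (n i : ℕ)
    {H : (Fin (n + 1) → E) → ℝ} (hH : Ham β H) :
    TBasicAGood m (fun e => nest m ζ n i (fun ω => H (Fin.cons e ω))) := by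
  obtain ⟨C, hC, hb⟩ := hH.bound
  obtain ⟨K, hK, hnb⟩ := nest_bound (m := m) hβ n C hC
  have hmeas : Measurable (fun e => nest m ζ n i (fun ω => H (Fin.cons e ω))) := by
    apply measurable_nest m ζ n i
    exact hH.meas.comp (TBasicA_cons_meas n)
  refine TBasicA_of_bound hβ hmeas (K := C + K) (by linarith) fun e => ?_
  have h1 := hnb ζ hζ i (C * (1 + β e)) (mul_nonneg hC (by linarith [hβ.nonneg e]))
    (fun ω => H (Fin.cons e ω))
    (hH.meas.comp ((TBasicA_cons_meas n).comp (measurable_const.prodMk measurable_id)))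
    (fun ω => by
      have h2 := hb (Fin.cons e ω)
      rw [Fin.sum_univ_succ] at h2
      simp only [Fin.cons_zero, Fin.cons_succ] at h2
      linarith)
  refine le_trans h1 ?_
  have := hβ.nonneg e
  nlinarith

private theorem TBasicA_exp_int_pos {f : E → ℝ} (hf : TBasicAGood m f) (c : ℝ) :
    0 < ∫ e, Real.exp (c * f e) ∂m := by
  rw [integral_pos_iff_support_of_nonneg (fun e => (Real.exp_pos _).le) (hf.exp c)]
  have : Function.support (fun e => Real.exp (c * f e)) = Set.univ := by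
    ext e; simp [Real.exp_ne_zero]
  rw [this, measure_univ]
  exact one_pos

private theorem TBasicA_TT_mono {z : ℝ} (hz : 0 ≤ z) {f g : E → ℝ} (hf : TBasicAGood m f)
    (hg : TBasicAGood m g) (h : ∀ e, f e ≤ g e) : TT m z f ≤ TT m z g := by
  unfold TT
  by_cases h0 : z = 0
  · rw [if_pos h0, if_pos h0]
    exact integral_mono hf.int hg.int h
  · rw [if_neg h0, if_neg h0]
    apply mul_le_mul_of_nonneg_left _ (inv_nonneg.2 hz)
    apply Real.log_le_log (TBasicA_exp_int_pos hf z)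
    apply integral_mono (hf.exp z) (hg.exp z)
    intro e
    exact Real.exp_le_exp.2 (mul_le_mul_of_nonneg_left (h e) hz)

private theorem TBasicA_TT_add_const (z : ℝ) {f : E → ℝ} (hf : TBasicAGood m f) (c : ℝ) :
    TT m z (fun e => f e + c) = TT m z f + c := by
  unfold TT
  by_cases h0 : z = 0
  · rw [if_pos h0, if_pos h0, integral_add hf.int (integrable_const c)]
    simp
  · rw [if_neg h0, if_neg h0]
    have h1 : (fun e => Real.exp (z * (f e + c))) = fun e => Real.exp (z * c) * Real.exp (z * f e) := by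
      funext e
      rw [← Real.exp_add]; congr 1; ring
    rw [h1, integral_const_mul, Real.log_mul (Real.exp_ne_zero _) (TBasicA_exp_int_pos hf z).ne',
      Real.log_exp]
    field_simp
    ring

theorem nest_mono (hβ : Dom m β) (hζ : Exps ζ) (n i : ℕ) {H H' : (Fin n → E) → ℝ}
    (hH : Ham β H) (hH' : Ham β H') (h : ∀ ω, H ω ≤ H' ω) : nest m ζ n i H ≤ nest m ζ n i H' := by
  induction n generalizing i with
  | zero => exact h _
  | succ n ih =>
    unfold nest
    exact TBasicA_TT_mono (hζ i).1 (TBasicA_nest_good hβ hζ n (i + 1) hH)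
      (TBasicA_nest_good hβ hζ n (i + 1) hH')
      fun e => ih (i + 1) (Ham.cons hβ hH e) (Ham.cons hβ hH' e) fun ω => h _

theorem nest_add_const (hβ : Dom m β) (hζ : Exps ζ) (n i : ℕ) {H : (Fin n → E) → ℝ}
    (hH : Ham β H) (c : ℝ) : nest m ζ n i (fun ω => H ω + c) = nest m ζ n i H + c := by
  induction n generalizing i with
  | zero => rfl
  | succ n ih =>
    unfold nest
    rw [← TBasicA_TT_add_const (ζ i) (TBasicA_nest_good hβ hζ n (i + 1) hH) c]
    congr 1
    funext e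
    exact ih (i + 1) (Ham.cons hβ hH e)

private theorem TBasicA_ham_add_const (hβ : Dom m β) {n : ℕ} {H : (Fin n → E) → ℝ}
    (hH : Ham β H) (c : ℝ) : Ham β (fun ω => H ω + c) := by
  obtain ⟨C, hC, hb⟩ := hH.bound
  refine ⟨hH.meas.add_const c, C + |c|, by positivity, fun ω => ?_⟩
  have h1 := hb ω
  have h2 : 0 ≤ ∑ i, β (ω i) := Finset.sum_nonneg fun i _ => hβ.nonneg _
  calc |H ω + c| ≤ |H ω| + |c| := abs_add_le _ _
    _ ≤ C * (1 + ∑ i, β (ω i)) + |c| * (1 + ∑ i, β (ω i)) := by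
        have h3 : |c| * 1 ≤ |c| * (1 + ∑ i, β (ω i)) :=
          mul_le_mul_of_nonneg_left (by linarith) (abs_nonneg c)
        linarith
    _ = _ := by ring

theorem nest_lip (hβ : Dom m β) (hζ : Exps ζ) (n i : ℕ) {H H' : (Fin n → E) → ℝ}
    (hH : Ham β H) (hH' : Ham β H') {c : ℝ} (h : ∀ ω, |H ω - H' ω| ≤ c) :
    |nest m ζ n i H - nest m ζ n i H'| ≤ c := by
  have h1 : nest m ζ n i H ≤ nest m ζ n i H' + c := by
    rw [← nest_add_const hβ hζ n i hH' c]
    exact nest_mono hβ hζ n i hH (TBasicA_ham_add_const hβ hH' c)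
      fun ω => by linarith [(abs_le.1 (h ω)).2]
  have h2 : nest m ζ n i H' ≤ nest m ζ n i H + c := by
    rw [← nest_add_const hβ hζ n i hH c]
    exact nest_mono hβ hζ n i hH' (TBasicA_ham_add_const hβ hH c)
      fun ω => by linarith [(abs_le.1 (h ω)).1]
  rw [abs_le]
  constructor <;> linarith

theorem pathE_one (hβ : Dom m β) (hζ : Exps ζ) (n i : ℕ) {H : (Fin n → E) → ℝ} (hH : Ham β H) :
    pathE m ζ n i H (fun _ => 1) = 1 := by
  induction n generalizing i with
  | zero => rfl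
  | succ n ih =>
    unfold pathE
    rw [show (fun e => wgt m ζ n i H e * pathE m ζ n (i + 1) (fun ω => H (Fin.cons e ω))
        (fun _ => 1)) = wgt m ζ n i H from funext fun e => by
          rw [ih (i + 1) (Ham.cons hβ hH e), mul_one]]
    exact (wgt_integral hβ hζ n i hH).2

theorem pathE_mul (n i : ℕ) (H Φ : (Fin n → E) → ℝ) (c : ℝ) :
    pathE m ζ n i H (fun ω => c * Φ ω) = c * pathE m ζ n i H Φ := by
  induction n generalizing i with
  | zero => rfl
  | succ n ih =>
    unfold pathE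
    rw [← integral_const_mul]
    congr 1
    funext e
    rw [ih (i + 1)]
    ring

theorem pathE_const (hβ : Dom m β) (hζ : Exps ζ) (n i : ℕ) {H : (Fin n → E) → ℝ} (hH : Ham β H)
    (c : ℝ) : pathE m ζ n i H (fun _ => c) = c := by
  have h1 : (fun _ : Fin n → E => c) = fun ω => c * (fun _ : Fin n → E => (1:ℝ)) ω := by
    funext ω; simp
  rw [h1, pathE_mul, pathE_one hβ hζ n i hH, mul_one]

theorem pathE_add (hβ : Dom m β) (hζ : Exps ζ) (n i : ℕ) {H Φ Ψ : (Fin n → E) → ℝ} (hH : Ham β H)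
    (hΦ : Tame β Φ) (hΨ : Tame β Ψ) :
    pathE m ζ n i H (fun ω => Φ ω + Ψ ω) = pathE m ζ n i H Φ + pathE m ζ n i H Ψ := by
  induction n generalizing i with
  | zero => rfl
  | succ n ih =>
    unfold pathE
    rw [← integral_add (integrable_wgt_pathE hβ hζ n i hH hΦ)
      (integrable_wgt_pathE hβ hζ n i hH hΨ)]
    congr 1
    funext e
    rw [ih (i + 1) (Ham.cons hβ hH e) (Tame.cons hβ hΦ e) (Tame.cons hβ hΨ e)]
    ring

theorem pathE_mono (hβ : Dom m β) (hζ : Exps ζ) (n i : ℕ) {H Φ Ψ : (Fin n → E) → ℝ} (hH : Ham β H)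
    (hΦ : Tame β Φ) (hΨ : Tame β Ψ) (h : ∀ ω, Φ ω ≤ Ψ ω) :
    pathE m ζ n i H Φ ≤ pathE m ζ n i H Ψ := by
  induction n generalizing i with
  | zero => exact h _
  | succ n ih =>
    unfold pathE
    apply integral_mono (integrable_wgt_pathE hβ hζ n i hH hΦ)
      (integrable_wgt_pathE hβ hζ n i hH hΨ)
    intro e
    exact mul_le_mul_of_nonneg_left (ih (i + 1) (Ham.cons hβ hH e) (Tame.cons hβ hΦ e)
      (Tame.cons hβ hΨ e) fun ω => h _) (wgt_pos m ζ n i H e).le

private theorem TBasicA_tame_abs {n : ℕ} {Φ : (Fin n → E) → ℝ} (hΦ : Tame β Φ) :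
    Tame β (fun ω => |Φ ω|) := by
  obtain ⟨C, hC, hb⟩ := hΦ.bound
  refine ⟨hΦ.meas.abs, C, hC, fun ω => ?_⟩
  rw [abs_abs]
  exact hb ω

private theorem TBasicA_tame_smul (hβ : Dom m β) {n : ℕ} {Φ : (Fin n → E) → ℝ} (hΦ : Tame β Φ)
    (c : ℝ) : Tame β (fun ω => c * Φ ω) :=
  Tame.mul hβ (Tame.const hβ c) hΦ

theorem pathE_abs_le (hβ : Dom m β) (hζ : Exps ζ) (n i : ℕ) {H Φ : (Fin n → E) → ℝ} (hH : Ham β H)
    (hΦ : Tame β Φ) : |pathE m ζ n i H Φ| ≤ pathE m ζ n i H (fun ω => |Φ ω|) := by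
  have ha := TBasicA_tame_abs hΦ
  rw [abs_le]
  constructor
  · have h1 := pathE_mono hβ hζ n i hH (TBasicA_tame_smul hβ ha (-1)) hΦ
      (fun ω => by have := neg_abs_le (Φ ω); linarith)
    rw [pathE_mul] at h1
    linarith
  · exact pathE_mono hβ hζ n i hH hΦ ha (fun ω => le_abs_self _)

/-- Cauchy–Schwarz -/
theorem pathE_cs (hβ : Dom m β) (hζ : Exps ζ) (n i : ℕ) {H Φ Ψ : (Fin n → E) → ℝ} (hH : Ham β H)
    (hΦ : Tame β Φ) (hΨ : Tame β Ψ) :
    pathE m ζ n i H (fun ω => Φ ω * Ψ ω) ^ 2 ≤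
      pathE m ζ n i H (fun ω => Φ ω ^ 2) * pathE m ζ n i H (fun ω => Ψ ω ^ 2) := by
  have hΦ2 : Tame β (fun ω => Φ ω ^ 2) := by
    have := Tame.mul hβ hΦ hΦ
    simpa only [pow_two] using this
  have hΨ2 : Tame β (fun ω => Ψ ω ^ 2) := by
    have := Tame.mul hβ hΨ hΨ
    simpa only [pow_two] using this
  have hX := Tame.mul hβ hΦ hΨ
  set a := pathE m ζ n i H (fun ω => Φ ω ^ 2) with ha
  set b := pathE m ζ n i H (fun ω => Φ ω * Ψ ω) with hb
  set c := pathE m ζ n i H (fun ω => Ψ ω ^ 2) with hc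
  have key : ∀ t : ℝ, 0 ≤ a * (t * t) + (2 * b) * t + c := by
    intro t
    have h1 : pathE m ζ n i H (fun ω => (t * t) * Φ ω ^ 2 + ((2 * t) * (Φ ω * Ψ ω) + Ψ ω ^ 2)) =
        (t * t) * a + ((2 * t) * b + c) := by
      rw [pathE_add hβ hζ n i hH (TBasicA_tame_smul hβ hΦ2 (t * t))
        (Tame.add hβ (TBasicA_tame_smul hβ hX (2 * t)) hΨ2),
        pathE_add hβ hζ n i hH (TBasicA_tame_smul hβ hX (2 * t)) hΨ2, pathE_mul, pathE_mul]
    have h2 : (0:ℝ) ≤ pathE m ζ n i H
        (fun ω => (t * t) * Φ ω ^ 2 + ((2 * t) * (Φ ω * Ψ ω) + Ψ ω ^ 2)) := by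
      rw [← pathE_const hβ hζ n i hH 0]
      apply pathE_mono hβ hζ n i hH (Tame.const hβ 0)
        (Tame.add hβ (TBasicA_tame_smul hβ hΦ2 (t * t))
          (Tame.add hβ (TBasicA_tame_smul hβ hX (2 * t)) hΨ2))
      intro ω
      nlinarith [sq_nonneg (t * Φ ω + Ψ ω)]
    rw [h1] at h2
    linarith
  have h3 := discrim_le_zero key
  unfold discrim at h3
  nlinarith

/-- Jensen for `exp`.  (`exp x ≥ 1 + x` around the mean.) -/
theorem pathE_exp_jensen (hβ : Dom m β) (hζ : Exps ζ) (n i : ℕ) {H Φ : (Fin n → E) → ℝ}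
    (hH : Ham β H) (hΦ : Ham β Φ) :
    Real.exp (pathE m ζ n i H Φ) ≤ pathE m ζ n i H (fun ω => Real.exp (Φ ω)) := by
  have hΦt := Ham.tame hβ hΦ
  set μ := pathE m ζ n i H Φ with hμ
  have h1 : pathE m ζ n i H (fun ω => Real.exp μ * Φ ω + Real.exp μ * (1 - μ)) =
      Real.exp μ * μ + Real.exp μ * (1 - μ) := by
    rw [pathE_add hβ hζ n i hH (TBasicA_tame_smul hβ hΦt _) (Tame.const hβ _), pathE_mul,
      pathE_const hβ hζ n i hH]
  have h2 := pathE_mono hβ hζ n i hH
    (Tame.add hβ (TBasicA_tame_smul hβ hΦt (Real.exp μ)) (Tame.const hβ (Real.exp μ * (1 - μ))))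
    (Tame.exp hβ hΦ) (fun ω => by
      have h3 := Real.add_one_le_exp (Φ ω - μ)
      have h4 : Real.exp (Φ ω) = Real.exp μ * Real.exp (Φ ω - μ) := by
        rw [← Real.exp_add]; congr 1; ring
      rw [h4]
      nlinarith [Real.exp_pos μ])
  rw [h1] at h2
  linarith

end Crest.Agent.RI
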