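import Crest.Agent.RI.TBasicB

/-!
# Row 164, tower: convexity (tangent inequality).
-/

set_option autoImplicit false

namespace Crest.Agent.RI
open MeasureTheory ProbabilityTheory

variable {E : Type} [MeasurableSpace E]
variable {m : Measure E} [IsProbabilityMeasure m] {ζ : ℕ → ℝ} {β : E → ℝ}

/-- one level: `TT ζ f + (tilted mean of u) ≤ TT ζ (f + u)`; for `ζ ≠ 0` Jensen for `exp` with the
probability measure `exp(ζ f)/∫ exp(ζ f)`. -/
theorem TT_tangent (m : Measure E) [IsProbabilityMeasure m] {z : ℝ} (hz : 0 ≤ z) {f u : E → ℝ}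
    (hf : Integrable f m) (hu : Integrable u m) (hef : Integrable (fun e => Real.exp (z * f e)) m)
    (heu : Integrable (fun e => u e * Real.exp (z * f e)) m)
    (hefu : Integrable (fun e => Real.exp (z * (f e + u e))) m) :
    TT m z f + (∫ e, u e * Real.exp (z * f e) ∂m) / (∫ e, Real.exp (z * f e) ∂m) ≤
      TT m z (fun e => f e + u e) := by
  unfold TT
  rcases eq_or_lt_of_le hz with h0 | h0
  · subst h0
    simp only [if_true, zero_mul, Real.exp_zero, mul_one, integral_const, smul_eq_mul]
    simp [integral_add hf hu]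
  · rw [if_neg (ne_of_gt h0), if_neg (ne_of_gt h0)]
    set Z : ℝ := ∫ e, Real.exp (z * f e) ∂m with hZ
    set A : ℝ := ∫ e, u e * Real.exp (z * f e) ∂m with hA
    have hZpos : 0 < Z := integral_exp_pos hef
    have key : Real.exp (z * (A / Z)) * Z ≤ ∫ e, Real.exp (z * (f e + u e)) ∂m := by
      have h1 : ∫ e, (Real.exp (z * (A / Z)) * (1 - z * (A / Z)) * Real.exp (z * f e) +
          Real.exp (z * (A / Z)) * z * (u e * Real.exp (z * f e))) ∂m =
          Real.exp (z * (A / Z)) * Z := by
        rw [integral_add (hef.const_mul _) (heu.const_mul _), integral_const_mul,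
          integral_const_mul, ← hZ, ← hA]
        field_simp
        ring
      rw [← h1]
      refine integral_mono ((hef.const_mul _).add (heu.const_mul _)) hefu ?_
      intro e
      have h2 : Real.exp (z * (f e + u e)) =
          Real.exp (z * (A / Z)) * Real.exp (z * f e) * Real.exp (z * u e - z * (A / Z)) := by
        rw [← Real.exp_add, ← Real.exp_add]
        congr 1
        ring
      have h3 : z * u e - z * (A / Z) + 1 ≤ Real.exp (z * u e - z * (A / Z)) :=
        Real.add_one_le_exp _
      have h4 : 0 < Real.exp (z * (A / Z)) * Real.exp (z * f e) := by positivity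
      show Real.exp (z * (A / Z)) * (1 - z * (A / Z)) * Real.exp (z * f e) +
          Real.exp (z * (A / Z)) * z * (u e * Real.exp (z * f e)) ≤ Real.exp (z * (f e + u e))
      rw [h2]
      nlinarith [mul_le_mul_of_nonneg_left h3 h4.le]
    have hlog : z * (A / Z) + Real.log Z ≤ Real.log (∫ e, Real.exp (z * (f e + u e)) ∂m) := by
      have h5 := Real.log_le_log (by positivity) key
      rwa [Real.log_mul (Real.exp_pos _).ne' hZpos.ne', Real.log_exp] at h5
    have h6 : z⁻¹ * (z * (A / Z) + Real.log Z) ≤
        z⁻¹ * Real.log (∫ e, Real.exp (z * (f e + u e)) ∂m) :=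
      mul_le_mul_of_nonneg_left hlog (inv_nonneg.2 h0.le)
    have h7 : z⁻¹ * (z * (A / Z) + Real.log Z) = z⁻¹ * Real.log Z + A / Z := by
      field_simp
      ring
    linarith

omit [IsProbabilityMeasure m] in
private theorem tconvA_integrable_beta (hβ : Dom m β) : Integrable β m := by
  refine Integrable.mono' (hβ.int 1) hβ.meas.aestronglyMeasurable ?_
  refine Filter.Eventually.of_forall fun e => ?_
  rw [Real.norm_eq_abs, abs_of_nonneg (hβ.nonneg e), one_mul]
  have := Real.add_one_le_exp (β e)
  linarith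

private theorem tconvA_meas_cons {n : ℕ} {H : (Fin (n + 1) → E) → ℝ} (hH : Measurable H) :
    Measurable (Function.uncurry fun (e : E) (ω : Fin n → E) => H (Fin.cons e ω)) := by
  refine hH.comp ?_
  refine measurable_pi_lambda _ fun j => ?_
  refine Fin.cases ?_ (fun j => ?_) j
  · simpa using measurable_fst
  · have h : Measurable (fun p : E × (Fin n → E) => p.2 j) :=
      (measurable_pi_apply j).comp measurable_snd
    simpa using h

private theorem tconvA_nest_lin (hβ : Dom m β) (hζ : Exps ζ) (n i : ℕ)
    {H : (Fin (n + 1) → E) → ℝ} (hH : Ham β H) :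
    ∃ K : ℝ, 0 ≤ K ∧ ∀ e, |nest m ζ n i (fun ω => H (Fin.cons e ω))| ≤ K + K * β e := by
  obtain ⟨C, hC, hb⟩ := hH.bound
  obtain ⟨K, hK, h⟩ := nest_bound (m := m) hβ n C hC
  refine ⟨C + K, by positivity, fun e => ?_⟩
  have h1 := h ζ hζ i (C * (1 + β e)) (by have := hβ.nonneg e; positivity)
    (fun ω => H (Fin.cons e ω))
    ((tconvA_meas_cons hH.meas).comp (measurable_const.prodMk measurable_id)) (by
      intro ω
      refine (hb _).trans (le_of_eq ?_)
      rw [Fin.sum_univ_succ]
      simp only [Fin.cons_zero, Fin.cons_succ]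
      ring)
  have := hβ.nonneg e
  nlinarith

private theorem tconvA_nest_int (hβ : Dom m β) (hζ : Exps ζ) (n i : ℕ)
    {H : (Fin (n + 1) → E) → ℝ} (hH : Ham β H) :
    Integrable (fun e => nest m ζ n i (fun ω => H (Fin.cons e ω))) m := by
  obtain ⟨K, hK, h⟩ := tconvA_nest_lin (m := m) hβ hζ n i hH
  refine Integrable.mono' ((integrable_const K).add ((tconvA_integrable_beta hβ).const_mul K))
    (measurable_nest m ζ n i (tconvA_meas_cons hH.meas)).aestronglyMeasurable ?_
  exact Filter.Eventually.of_forall fun e => by simpa [Real.norm_eq_abs] using h e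

private theorem tconvA_nest_expint (hβ : Dom m β) (hζ : Exps ζ) (n i : ℕ) {z : ℝ} (hz : 0 ≤ z)
    {H : (Fin (n + 1) → E) → ℝ} (hH : Ham β H) :
    Integrable (fun e => Real.exp (z * nest m ζ n i (fun ω => H (Fin.cons e ω)))) m := by
  obtain ⟨K, hK, h⟩ := tconvA_nest_lin (m := m) hβ hζ n i hH
  refine Integrable.mono' ((hβ.int (z * K)).const_mul (Real.exp (z * K)))
    (Real.measurable_exp.comp
      ((measurable_nest m ζ n i (tconvA_meas_cons hH.meas)).const_mul z)).aestronglyMeasurable ?_
  refine Filter.Eventually.of_forall fun e => ?_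
  rw [Real.norm_eq_abs, Real.abs_exp, ← Real.exp_add]
  refine Real.exp_le_exp.2 ?_
  have := (abs_le.1 (h e)).2
  nlinarith [mul_le_mul_of_nonneg_left this hz]

private theorem tconvA_pathE_int (hβ : Dom m β) (hζ : Exps ζ) (n i : ℕ)
    {H Φ : (Fin (n + 1) → E) → ℝ} (hH : Ham β H) (hΦ : Tame β Φ) :
    Integrable (fun e => pathE m ζ n i (fun ω => H (Fin.cons e ω))
      (fun ω => Φ (Fin.cons e ω))) m := by
  obtain ⟨C, hC, hb⟩ := hH.bound
  obtain ⟨B, hB, hb'⟩ := hΦ.bound
  obtain ⟨K, hK, h⟩ := pathE_bound (m := m) hβ n C B hC hB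
  refine Integrable.mono' ((hβ.int (B + K * C)).const_mul (B * K * Real.exp (K * C)))
    (measurable_pathE m ζ n i (tconvA_meas_cons hH.meas)
      (tconvA_meas_cons hΦ.meas)).aestronglyMeasurable ?_
  refine Filter.Eventually.of_forall fun e => ?_
  have h1 := h ζ hζ i (C * (1 + β e)) (B * Real.exp (B * β e))
    (by have := hβ.nonneg e; positivity) (by positivity)
    (fun ω => H (Fin.cons e ω)) (fun ω => Φ (Fin.cons e ω))
    ((tconvA_meas_cons hH.meas).comp (measurable_const.prodMk measurable_id))
    ((tconvA_meas_cons hΦ.meas).comp (measurable_const.prodMk measurable_id)) (by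
      intro ω
      refine (hb _).trans (le_of_eq ?_)
      rw [Fin.sum_univ_succ]
      simp only [Fin.cons_zero, Fin.cons_succ]
      ring) (by
      intro ω
      refine (hb' _).trans (le_of_eq ?_)
      rw [Fin.sum_univ_succ]
      simp only [Fin.cons_zero, Fin.cons_succ]
      rw [mul_assoc B, ← Real.exp_add]
      ring_nf)
  rw [Real.norm_eq_abs]
  refine h1.trans (le_of_eq ?_)
  have h2 : Real.exp ((B + K * C) * β e) * Real.exp (K * C) =
      Real.exp (B * β e) * Real.exp (K * (C * (1 + β e))) := by
    rw [← Real.exp_add, ← Real.exp_add]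
    congr 1
    ring
  calc B * Real.exp (B * β e) * (K * Real.exp (K * (C * (1 + β e))))
      = B * K * (Real.exp (B * β e) * Real.exp (K * (C * (1 + β e)))) := by ring
    _ = B * K * (Real.exp ((B + K * C) * β e) * Real.exp (K * C)) := by rw [h2]
    _ = B * K * Real.exp (K * C) * Real.exp ((B + K * C) * β e) := by ring

/-- Tangent inequality (convexity).  PROOF: induction on `n`: inner tangent inequality for every `e`,
monotonicity of `TT`, then `TT_tangent` with `f = nest (H (cons e ·))`, `u = pathE (H (cons e ·)) (U (cons e ·))`,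
and `wgt_eq`. -/
theorem nest_tangent (hβ : Dom m β) (hζ : Exps ζ) (n i : ℕ) {H U : (Fin n → E) → ℝ}
    (hH : Ham β H) (hU : Ham β U) :
    nest m ζ n i H + pathE m ζ n i H U ≤ nest m ζ n i (fun ω => H ω + U ω) := by
  induction n generalizing i with
  | zero => simp [nest, pathE]
  | succ n ih =>
    have hIH : ∀ e, nest m ζ n (i + 1) (fun ω => H (Fin.cons e ω)) +
        pathE m ζ n (i + 1) (fun ω => H (Fin.cons e ω)) (fun ω => U (Fin.cons e ω)) ≤
        nest m ζ n (i + 1) (fun ω => H (Fin.cons e ω) + U (Fin.cons e ω)) := by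
      intro e
      exact ih (i + 1) (hH.cons hβ e) (hU.cons hβ e)
    have hz : 0 ≤ ζ i := (hζ i).1
    have hHU : Ham β (fun ω => H ω + U ω) := hH.add hβ hU
    set f : E → ℝ := fun e => nest m ζ n (i + 1) (fun ω => H (Fin.cons e ω)) with hfdef
    set u : E → ℝ := fun e => pathE m ζ n (i + 1) (fun ω => H (Fin.cons e ω))
      (fun ω => U (Fin.cons e ω)) with hudef
    set g : E → ℝ := fun e => nest m ζ n (i + 1)
      (fun ω => H (Fin.cons e ω) + U (Fin.cons e ω)) with hgdef
    have hf : Integrable f m := tconvA_nest_int hβ hζ n (i + 1) hH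
    have hu : Integrable u m := tconvA_pathE_int hβ hζ n (i + 1) hH (hU.tame hβ)
    have hg : Integrable g m := tconvA_nest_int hβ hζ n (i + 1) hHU
    have hef : Integrable (fun e => Real.exp (ζ i * f e)) m :=
      tconvA_nest_expint hβ hζ n (i + 1) hz hH
    have heg : Integrable (fun e => Real.exp (ζ i * g e)) m :=
      tconvA_nest_expint hβ hζ n (i + 1) hz hHU
    have hmf : Measurable f := measurable_nest m ζ n (i + 1) (tconvA_meas_cons hH.meas)
    have hmu : Measurable u := measurable_pathE m ζ n (i + 1) (tconvA_meas_cons hH.meas)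
      (tconvA_meas_cons hU.meas)
    have hefu : Integrable (fun e => Real.exp (ζ i * (f e + u e))) m := by
      refine Integrable.mono' heg
        (Real.measurable_exp.comp ((hmf.add hmu).const_mul (ζ i))).aestronglyMeasurable ?_
      refine Filter.Eventually.of_forall fun e => ?_
      rw [Real.norm_eq_abs, Real.abs_exp]
      exact Real.exp_le_exp.2 (mul_le_mul_of_nonneg_left (hIH e) hz)
    have hZ : 0 < ∫ e, Real.exp (ζ i * f e) ∂m := integral_exp_pos hef
    have hw : ∀ e, wgt m ζ n i H e = Real.exp (ζ i * f e) / ∫ e, Real.exp (ζ i * f e) ∂m :=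
      fun e => wgt_eq hβ hζ n i hH e
    have heu : Integrable (fun e => u e * Real.exp (ζ i * f e)) m := by
      have h1 := (integrable_wgt_pathE (m := m) hβ hζ n i hH (hU.tame hβ)).const_mul
        (∫ e, Real.exp (ζ i * f e) ∂m)
      refine h1.congr (Filter.Eventually.of_forall fun e => ?_)
      show (∫ e, Real.exp (ζ i * f e) ∂m) * (wgt m ζ n i H e * u e) = u e * Real.exp (ζ i * f e)
      rw [hw e]
      field_simp
    have hpath : pathE m ζ (n + 1) i H U =
        (∫ e, u e * Real.exp (ζ i * f e) ∂m) / ∫ e, Real.exp (ζ i * f e) ∂m := by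
      rw [← integral_div]
      show ∫ e, wgt m ζ n i H e * u e ∂m = _
      refine integral_congr_ae (Filter.Eventually.of_forall fun e => ?_)
      show wgt m ζ n i H e * u e = u e * Real.exp (ζ i * f e) / _
      rw [hw e]
      ring
    have hT := TT_tangent m hz hf hu hef heu hefu
    rw [hpath]
    refine hT.trans ?_
    show TT m (ζ i) (fun e => f e + u e) ≤ TT m (ζ i) g
    unfold TT
    split_ifs with h0
    · exact integral_mono (hf.add hu) hg hIH
    · have hz' : 0 < ζ i := lt_of_le_of_ne hz (Ne.symm h0)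
      refine mul_le_mul_of_nonneg_left ?_ (inv_nonneg.2 hz)
      refine Real.log_le_log (integral_exp_pos hefu) ?_
      refine integral_mono hefu heg fun e => ?_
      exact Real.exp_le_exp.2 (mul_le_mul_of_nonneg_left (hIH e) hz)

/-- convexity along a segment -/
theorem nest_convexOn (hβ : Dom m β) (hζ : Exps ζ) (n i : ℕ) {H V : (Fin n → E) → ℝ}
    (hH : Ham β H) (hV : Ham β V) :
    ConvexOn ℝ Set.univ (fun t : ℝ => nest m ζ n i (fun ω => H ω + t * V ω)) := by
  have tang : ∀ t x : ℝ, nest m ζ n i (fun ω => H ω + t * V ω) +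
      (x - t) * pathE m ζ n i (fun ω => H ω + t * V ω) V ≤
      nest m ζ n i (fun ω => H ω + x * V ω) := by
    intro t x
    have h1 := nest_tangent (m := m) hβ hζ n i (hH.add hβ (hV.const_mul t))
      (hV.const_mul (x - t))
    rw [pathE_mul] at h1
    have h2 : (fun ω => H ω + t * V ω + (x - t) * V ω) = fun ω => H ω + x * V ω := by
      funext ω
      ring
    rwa [h2] at h1
  refine ⟨convex_univ, fun x _ y _ a b ha hb hab => ?_⟩
  simp only [smul_eq_mul]
  have h1 := tang (a * x + b * y) x
  have h2 := tang (a * x + b * y) y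
  have h3 := mul_le_mul_of_nonneg_left h1 ha
  have h4 := mul_le_mul_of_nonneg_left h2 hb
  set D := pathE m ζ n i (fun ω => H ω + (a * x + b * y) * V ω) V
  set N := nest m ζ n i (fun ω => H ω + (a * x + b * y) * V ω)
  have h5 : a * (N + (x - (a * x + b * y)) * D) + b * (N + (y - (a * x + b * y)) * D) = N := by
    have : b = 1 - a := by linarith
    subst this
    ring
  linarith

end Crest.Agent.RI
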