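import Crest.Agent.RI.TConvA
import Crest.Agent.RI.TPairB

/-!
# Row 164, tower: density bounds for a change of the Hamiltonian.
-/

set_option autoImplicit false

namespace Crest.Agent.RI
open MeasureTheory ProbabilityTheory

variable {E : Type} [MeasurableSpace E]
variable {m : Measure E} [IsProbabilityMeasure m] {ζ : ℕ → ℝ} {β : E → ℝ}

/-- Jensen lower bound: `nest (H + U) - nest H ≥ E_Q U`, conditional version: it is `nest_tangent`
applied to the inner towers.  `dX r ω` = difference of the values at level `r`. -/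
noncomputable def nestAt (m : Measure E) (ζ : ℕ → ℝ) :
    (r n i : ℕ) → ((Fin n → E) → ℝ) → (Fin n → E) → ℝ
  | 0, n, i, H, _ => nest m ζ n i H
  | _ + 1, 0, _, H, ω => H ω
  | r + 1, n + 1, i, H, ω => nestAt m ζ r n (i + 1) (fun ω' => H (Fin.cons (ω 0) ω')) (Fin.tail ω)

theorem TConvB_nestAt_zero (n i : ℕ) (H : (Fin n → E) → ℝ) (ω : Fin n → E) :
    nestAt m ζ 0 n i H ω = nest m ζ n i H := by
  cases n <;> rfl

theorem TConvB_nestAt_cons (r n i : ℕ) (H : (Fin (n + 1) → E) → ℝ) (e : E) (ω : Fin n → E) :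
    nestAt m ζ (r + 1) (n + 1) i H (Fin.cons e ω) =
      nestAt m ζ r n (i + 1) (fun ω' => H (Fin.cons e ω')) ω := by
  rw [nestAt]
  simp only [Fin.cons_zero, Fin.tail_cons]

theorem TConvB_nestAt_all (n : ℕ) : ∀ (r i : ℕ) (H : (Fin n → E) → ℝ), n ≤ r → ∀ ω : Fin n → E,
    nestAt m ζ r n i H ω = H ω := by
  induction n with
  | zero =>
    intro r i H _ ω
    cases r with
    | zero => rw [TConvB_nestAt_zero]; show H Fin.elim0 = H ω; congr 1; exact Subsingleton.elim _ _
    | succ r => rfl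
  | succ n ih =>
    intro r i H hr ω
    cases r with
    | zero => omega
    | succ r =>
      rw [nestAt, ih r (i + 1) _ (by omega)]
      simp only [Fin.cons_self_tail]

/-- measurability of `nestAt` -/
theorem TConvB_measurable_nestAt (m : Measure E) [IsProbabilityMeasure m] (ζ : ℕ → ℝ) (n : ℕ) :
    ∀ (r i : ℕ) {A : Type} [MeasurableSpace A] {H : A → (Fin n → E) → ℝ},
      Measurable (Function.uncurry H) →
      Measurable (fun p : A × (Fin n → E) => nestAt m ζ r n i (H p.1) p.2) := by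
  induction n with
  | zero =>
    intro r i A _ H hH
    have : (fun p : A × (Fin 0 → E) => nestAt m ζ r 0 i (H p.1) p.2) = Function.uncurry H := by
      funext p
      rw [TConvB_nestAt_all 0 r i (H p.1) (Nat.zero_le _) p.2]
      rfl
    rw [this]; exact hH
  | succ n ih =>
    intro r i A _ H hH
    cases r with
    | zero =>
      simp only [TConvB_nestAt_zero]
      exact (measurable_nest m ζ (n + 1) i hH).comp measurable_fst
    | succ r =>
      have h1 : Measurable (Function.uncurry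
          (fun (q : A × E) (ω' : Fin n → E) => H q.1 (Fin.cons q.2 ω'))) := by
        have : (Function.uncurry (fun (q : A × E) (ω' : Fin n → E) => H q.1 (Fin.cons q.2 ω')))
            = (Function.uncurry H) ∘ (fun p : (A × E) × (Fin n → E) =>
              (p.1.1, (Fin.cons p.1.2 p.2 : Fin (n + 1) → E))) := rfl
        rw [this]
        refine hH.comp (measurable_fst.fst.prodMk ?_)
        rw [measurable_pi_iff]
        intro j
        refine Fin.cases ?_ (fun j => ?_) j
        · simpa using measurable_fst.snd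
        · simp only [Fin.cons_succ]
          exact (measurable_pi_apply j).comp measurable_snd
      have h2 := ih r (i + 1) h1
      have h3 : Measurable (fun p : A × (Fin (n + 1) → E) => ((p.1, p.2 0), Fin.tail p.2)) := by
        refine (measurable_fst.prodMk ((measurable_pi_apply 0).comp measurable_snd)).prodMk ?_
        rw [measurable_pi_iff]
        intro j
        exact (measurable_pi_apply j.succ).comp measurable_snd
      exact h2.comp h3

theorem TConvB_nestAt_bound (hβ : Dom m β) (n : ℕ) (C : ℝ) (hC : 0 ≤ C) :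
    ∃ K : ℝ, 0 ≤ K ∧ ∀ (ζ : ℕ → ℝ), Exps ζ → ∀ (r i : ℕ) (a : ℝ), 0 ≤ a → ∀ H : (Fin n → E) → ℝ,
      Measurable H → (∀ ω, |H ω| ≤ a + C * ∑ j, β (ω j)) →
      ∀ ω, |nestAt m ζ r n i H ω| ≤ a + C * ∑ j, β (ω j) + K := by
  induction n with
  | zero =>
    refine ⟨0, le_refl _, fun ζ _ r i a ha H _ hb ω => ?_⟩
    rw [TConvB_nestAt_all 0 r i H (Nat.zero_le _) ω]
    simpa using hb ω
  | succ n ih =>
    obtain ⟨K1, hK1, h1⟩ := ih
    obtain ⟨K2, hK2, h2⟩ := nest_bound hβ (n + 1) C hC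
    refine ⟨max K1 K2, le_max_of_le_left hK1, fun ζ hζ r i a ha H hm hb ω => ?_⟩
    have hs : 0 ≤ C * ∑ j, β (ω j) :=
      mul_nonneg hC (Finset.sum_nonneg fun j _ => hβ.nonneg _)
    cases r with
    | zero =>
      rw [TConvB_nestAt_zero]
      have := h2 ζ hζ i a ha H hm hb
      linarith [le_max_right K1 K2]
    | succ r =>
      rw [nestAt]
      have hm' : Measurable (fun ω' : Fin n → E => H (Fin.cons (ω 0) ω')) := by
        refine hm.comp ?_
        rw [measurable_pi_iff]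
        intro j
        refine Fin.cases ?_ (fun j => ?_) j
        · simpa using measurable_const
        · simpa using measurable_pi_apply j
      have hb' : ∀ ω' : Fin n → E, |H (Fin.cons (ω 0) ω')| ≤
          (a + C * β (ω 0)) + C * ∑ j, β (ω' j) := by
        intro ω'
        refine (hb _).trans ?_
        rw [Fin.sum_univ_succ]
        simp only [Fin.cons_zero, Fin.cons_succ]
        linarith
      have ha' : 0 ≤ a + C * β (ω 0) := add_nonneg ha (mul_nonneg hC (hβ.nonneg _))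
      have := h1 ζ hζ r (i + 1) _ ha' _ hm' hb' (Fin.tail ω)
      rw [Fin.sum_univ_succ]
      have e : ∑ j : Fin n, β (Fin.tail ω j) = ∑ j : Fin n, β (ω j.succ) := rfl
      rw [e] at this
      linarith [le_max_left K1 K2]

theorem TConvB_ham_nestAt (hβ : Dom m β) (hζ : Exps ζ) (r n i : ℕ) {H : (Fin n → E) → ℝ}
    (hH : Ham β H) : Ham β (nestAt m ζ r n i H) := by
  obtain ⟨C, hC, hb⟩ := hH.bound
  obtain ⟨K, hK, h⟩ := TConvB_nestAt_bound hβ n C hC
  refine ⟨?_, C + K, by positivity, fun ω => ?_⟩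
  · have := TConvB_measurable_nestAt m ζ n r i (A := Unit) (H := fun _ => H)
      (hH.meas.comp measurable_snd)
    exact this.comp (measurable_const.prodMk measurable_id : Measurable (fun ω : Fin n → E => ((), ω)))
  · have h1 := h ζ hζ r i C hC H hH.meas (fun ω => by have := hb ω; linarith) ω
    have hs : 0 ≤ ∑ j, β (ω j) := Finset.sum_nonneg fun j _ => hβ.nonneg _
    nlinarith [mul_nonneg hK hs]

/-- change of Hamiltonian: `E_{H+U} Φ = E_H (Φ D)` with
`log D = ∑_j ζ_j (δ_{j+1} - δ_j)`, `δ_r = nestAt r (H+U) - nestAt r H` (`δ_n = U`). -/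
theorem pathE_change (hβ : Dom m β) (hζ : Exps ζ) (n i : ℕ) {H U Φ : (Fin n → E) → ℝ}
    (hH : Ham β H) (hU : Ham β U) (hΦ : Tame β Φ) :
    pathE m ζ n i (fun ω => H ω + U ω) Φ =
      pathE m ζ n i H (fun ω => Φ ω * Real.exp (∑ j ∈ Finset.range n, ζ (i + j) *
        ((nestAt m ζ (j + 1) n i (fun ω => H ω + U ω) ω - nestAt m ζ (j + 1) n i H ω) -
          (nestAt m ζ j n i (fun ω => H ω + U ω) ω - nestAt m ζ j n i H ω)))) := by
  induction n generalizing i with
  | zero => simp [pathE]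
  | succ n ih =>
    rw [pathE, pathE]
    refine integral_congr_ae (Filter.Eventually.of_forall fun e => ?_)
    simp only
    rw [ih (i + 1) (hH.cons hβ e) (hU.cons hβ e) (hΦ.cons hβ e)]
    have key : ∀ ω : Fin n → E, Φ (Fin.cons e ω) * Real.exp (∑ j ∈ Finset.range (n + 1), ζ (i + j) *
        ((nestAt m ζ (j + 1) (n + 1) i (fun ω => H ω + U ω) (Fin.cons e ω) -
            nestAt m ζ (j + 1) (n + 1) i H (Fin.cons e ω)) -
          (nestAt m ζ j (n + 1) i (fun ω => H ω + U ω) (Fin.cons e ω) -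
            nestAt m ζ j (n + 1) i H (Fin.cons e ω)))) =
        Real.exp (ζ i * ((nest m ζ n (i + 1) (fun ω => H (Fin.cons e ω) + U (Fin.cons e ω)) -
            nest m ζ n (i + 1) (fun ω => H (Fin.cons e ω))) -
          (nest m ζ (n + 1) i (fun ω => H ω + U ω) - nest m ζ (n + 1) i H))) *
        (Φ (Fin.cons e ω) * Real.exp (∑ j ∈ Finset.range n, ζ (i + 1 + j) *
        ((nestAt m ζ (j + 1) n (i + 1) (fun ω => H (Fin.cons e ω) + U (Fin.cons e ω)) ω -
            nestAt m ζ (j + 1) n (i + 1) (fun ω => H (Fin.cons e ω)) ω) -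
          (nestAt m ζ j n (i + 1) (fun ω => H (Fin.cons e ω) + U (Fin.cons e ω)) ω -
            nestAt m ζ j n (i + 1) (fun ω => H (Fin.cons e ω)) ω)))) := by
      intro ω
      rw [mul_left_comm, ← Real.exp_add]
      refine congrArg (fun t => Φ (Fin.cons e ω) * Real.exp t) ?_
      refine (Finset.sum_range_succ' _ n).trans ((add_comm _ _).trans (congrArg₂ _ ?_ ?_))
      · simp only [TConvB_nestAt_cons, TConvB_nestAt_zero, add_zero]
      · refine Finset.sum_congr rfl fun j _ => ?_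
        simp only [TConvB_nestAt_cons]
        rw [show i + (j + 1) = i + 1 + j by ring]
    simp only [key]
    rw [pathE_mul]
    rw [← mul_assoc]
    congr 1
    unfold wgt
    rw [← Real.exp_add]
    congr 1
    ring

/-- `δ_r ≥ E[U | F_r]` -/
theorem nestAt_tangent (hβ : Dom m β) (hζ : Exps ζ) (r n i : ℕ) {H U : (Fin n → E) → ℝ}
    (hH : Ham β H) (hU : Ham β U) (ω : Fin n → E) :
    nestAt m ζ r n i H ω + condE m ζ r n i H U ω ≤ nestAt m ζ r n i (fun ω => H ω + U ω) ω := by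
  induction n generalizing r i with
  | zero =>
    rw [TConvB_nestAt_all 0 r i _ (Nat.zero_le _) ω, TConvB_nestAt_all 0 r i _ (Nat.zero_le _) ω,
      condE_all 0 i H U r (Nat.zero_le _) ω]
  | succ n ih =>
    cases r with
    | zero =>
      rw [TConvB_nestAt_zero, TConvB_nestAt_zero, condE]
      exact nest_tangent hβ hζ (n + 1) i hH hU
    | succ r =>
      rw [nestAt, nestAt, condE]
      exact ih r (i + 1) (hH.cons hβ _) (hU.cons hβ _) (Fin.tail ω)

theorem TConvB_nest_diff_le (hβ : Dom m β) (hζ : Exps ζ) (n i : ℕ) {H U : (Fin n → E) → ℝ}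
    (hH : Ham β H) (hU : Ham β U) {A : ℝ} (hA : ∀ ω, |U ω| ≤ A) :
    |nest m ζ n i (fun ω => H ω + U ω) - nest m ζ n i H| ≤ A :=
  nest_lip hβ hζ n i (hH.add hβ hU) hH (fun ω => by simpa using hA ω)

theorem TConvB_wgt_change (n i : ℕ) (H U : (Fin (n + 1) → E) → ℝ) (e : E) :
    wgt m ζ n i (fun ω => H ω + U ω) e = wgt m ζ n i H e *
      Real.exp (ζ i * ((nest m ζ n (i + 1) (fun ω => H (Fin.cons e ω) + U (Fin.cons e ω)) -
            nest m ζ n (i + 1) (fun ω => H (Fin.cons e ω))) -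
          (nest m ζ (n + 1) i (fun ω => H ω + U ω) - nest m ζ (n + 1) i H))) := by
  unfold wgt
  rw [← Real.exp_add]
  congr 1
  ring

theorem TConvB_pathE_nonneg (hβ : Dom m β) (hζ : Exps ζ) (n i : ℕ) {H Φ : (Fin n → E) → ℝ}
    (hH : Ham β H) (hΦ : Tame β Φ) (h0 : ∀ ω, 0 ≤ Φ ω) : 0 ≤ pathE m ζ n i H Φ := by
  have := pathE_mono hβ hζ n i hH (Tame.const hβ 0) hΦ h0
  rwa [pathE_const hβ hζ n i hH 0] at this

theorem TConvB_pathE_aux (hβ : Dom m β) (hζ : Exps ζ) (hmono : Monotone ζ) (n i : ℕ)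
    {H U Φ : (Fin n → E) → ℝ} (hH : Ham β H) (hU : Ham β U) (hΦ : Tame β Φ) (h0 : ∀ ω, 0 ≤ Φ ω)
    {A : ℝ} (hA0 : 0 ≤ A) (hA : ∀ ω, |U ω| ≤ A) :
    pathE m ζ n i (fun ω => H ω + U ω) Φ ≤ Real.exp ((2 - ζ i) * A -
      ζ i * (nest m ζ n i (fun ω => H ω + U ω) - nest m ζ n i H)) * pathE m ζ n i H Φ := by
  induction n generalizing i with
  | zero =>
    have h1 := abs_le.1 (TConvB_nest_diff_le hβ hζ 0 i hH hU hA)
    have h2 := hζ i
    show Φ Fin.elim0 ≤ _ * Φ Fin.elim0
    refine le_mul_of_one_le_left (h0 _) (Real.one_le_exp ?_)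
    nlinarith [mul_le_mul_of_nonneg_left h1.2 h2.1, mul_le_mul_of_nonneg_right h2.2 hA0]
  | succ n ih =>
    rw [pathE, pathE, ← integral_const_mul]
    refine integral_mono (integrable_wgt_pathE hβ hζ n i (hH.add hβ hU) hΦ)
      ((integrable_wgt_pathE hβ hζ n i hH hΦ).const_mul _) fun e => ?_
    have h1 := ih (i + 1) (hH.cons hβ e) (hU.cons hβ e) (hΦ.cons hβ e) (fun ω => h0 _)
      (fun ω => hA _)
    have h2 := abs_le.1 (TConvB_nest_diff_le hβ hζ n (i + 1) (hH.cons hβ e) (hU.cons hβ e)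
      (fun ω => hA (Fin.cons e ω)))
    have h3 : ζ i ≤ ζ (i + 1) := hmono (Nat.le_succ i)
    have h4 := TConvB_pathE_nonneg hβ hζ n (i + 1) (hH.cons hβ e) (hΦ.cons hβ e) (fun ω => h0 _)
    simp only
    rw [TConvB_wgt_change]
    set δ1 := nest m ζ n (i + 1) (fun ω => H (Fin.cons e ω) + U (Fin.cons e ω)) -
            nest m ζ n (i + 1) (fun ω => H (Fin.cons e ω)) with hδ1
    set δ0 := nest m ζ (n + 1) i (fun ω => H ω + U ω) - nest m ζ (n + 1) i H with hδ0
    have hw := (wgt_pos m ζ n i H e).le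
    calc wgt m ζ n i H e * Real.exp (ζ i * (δ1 - δ0)) *
          pathE m ζ n (i + 1) (fun ω => H (Fin.cons e ω) + U (Fin.cons e ω))
            (fun ω => Φ (Fin.cons e ω))
        ≤ wgt m ζ n i H e * Real.exp (ζ i * (δ1 - δ0)) *
          (Real.exp ((2 - ζ (i + 1)) * A - ζ (i + 1) * δ1) *
            pathE m ζ n (i + 1) (fun ω => H (Fin.cons e ω)) (fun ω => Φ (Fin.cons e ω))) :=
          mul_le_mul_of_nonneg_left h1 (mul_nonneg hw (Real.exp_pos _).le)
      _ = Real.exp (ζ i * (δ1 - δ0) + ((2 - ζ (i + 1)) * A - ζ (i + 1) * δ1)) *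
          (wgt m ζ n i H e *
            pathE m ζ n (i + 1) (fun ω => H (Fin.cons e ω)) (fun ω => Φ (Fin.cons e ω))) := by
          rw [Real.exp_add]; ring
      _ ≤ _ := by
          refine mul_le_mul_of_nonneg_right (Real.exp_le_exp.2 ?_) (mul_nonneg hw h4)
          nlinarith [mul_le_mul_of_nonneg_left h2.1 (sub_nonneg.2 h3)]

/-- Density bound for bounded `U`: for nondecreasing exponents
`E_{H+U} Φ ≤ exp(2A) E_H Φ` (`Φ ≥ 0`, `|U| ≤ A`).  (`log D = ζ_last U - ∑ (ζ_j - ζ_{j-1}) δ_j - ζ_i δ_0`, Abel.) -/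
theorem pathE_density_le (hβ : Dom m β) (hζ : Exps ζ) (hmono : Monotone ζ) (n i : ℕ)
    {H U Φ : (Fin n → E) → ℝ} (hH : Ham β H) (hU : Ham β U) (hΦ : Tame β Φ) (h0 : ∀ ω, 0 ≤ Φ ω)
    {A : ℝ} (hA : ∀ ω, |U ω| ≤ A) :
    pathE m ζ n i (fun ω => H ω + U ω) Φ ≤ Real.exp (2 * A) * pathE m ζ n i H Φ := by
  obtain ⟨ω₀⟩ : Nonempty (Fin n → E) := by
    have : Nonempty E := by
      by_contra hne
      rw [not_nonempty_iff] at hne
      have := measure_univ (μ := m)
      rw [Set.eq_empty_of_isEmpty (Set.univ : Set E), measure_empty] at this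
      exact zero_ne_one this
    infer_instance
  have hA0 : 0 ≤ A := (abs_nonneg _).trans (hA ω₀)
  refine (TConvB_pathE_aux hβ hζ hmono n i hH hU hΦ h0 hA0 hA).trans ?_
  refine mul_le_mul_of_nonneg_right (Real.exp_le_exp.2 ?_)
    (TConvB_pathE_nonneg hβ hζ n i hH hΦ h0)
  have h1 := abs_le.1 (TConvB_nest_diff_le hβ hζ n i hH hU hA)
  nlinarith [mul_le_mul_of_nonneg_left h1.1 (hζ i).1]

/-! ### pairs -/

theorem TConvB_measurable_cons (n : ℕ) (e : E) :
    Measurable (fun ω : Fin n → E => (Fin.cons e ω : Fin (n + 1) → E)) := by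
  rw [measurable_pi_iff]
  intro j
  refine Fin.cases ?_ (fun j => ?_) j
  · simpa using measurable_const
  · simpa using measurable_pi_apply j

theorem TConvB_measurable_cons' (n : ℕ) :
    Measurable (fun p : E × (Fin n → E) => (Fin.cons p.1 p.2 : Fin (n + 1) → E)) := by
  rw [measurable_pi_iff]
  intro j
  refine Fin.cases ?_ (fun j => ?_) j
  · simpa using measurable_fst
  · simp only [Fin.cons_succ]
    exact (measurable_pi_apply j).comp measurable_snd

theorem TConvB_tame2_cons {n : ℕ} {Φ : (Fin (n + 1) → E) → (Fin (n + 1) → E) → ℝ}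
    (hβ : Dom m β) (h : Tame2 β Φ) (e : E) :
    Tame2 β (fun ω ω' => Φ (Fin.cons e ω) (Fin.cons e ω')) := by
  obtain ⟨C, hC, hb⟩ := h.bound
  refine ⟨?_, max C (C * Real.exp (C * (β e + β e))), le_max_of_le_left hC, fun ω ω' => ?_⟩
  · exact h.meas.comp (((TConvB_measurable_cons n e).comp measurable_fst).prodMk
      ((TConvB_measurable_cons n e).comp measurable_snd))
  · refine (hb _ _).trans ?_
    rw [Fin.sum_univ_succ]
    simp only [Fin.cons_zero, Fin.cons_succ]
    rw [mul_add, Real.exp_add, ← mul_assoc]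
    have hs : 0 ≤ ∑ i, (β (ω i) + β (ω' i)) :=
      Finset.sum_nonneg fun i _ => add_nonneg (hβ.nonneg _) (hβ.nonneg _)
    refine mul_le_mul (le_max_right _ _) (Real.exp_le_exp.2 ?_) (Real.exp_pos _).le
      (le_max_of_le_left hC)
    exact mul_le_mul_of_nonneg_right (le_max_left _ _) hs

theorem TConvB_integrable_wgt_pairE (hβ : Dom m β) (hζ : Exps ζ) (r n i : ℕ)
    {H : (Fin (n + 1) → E) → ℝ} {Φ : (Fin (n + 1) → E) → (Fin (n + 1) → E) → ℝ}
    (hH : Ham β H) (hΦ : Tame2 β Φ) :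
    Integrable (fun e => wgt m ζ n i H e *
      pairE m ζ r n (i + 1) (fun ω => H (Fin.cons e ω))
        (fun ω ω' => Φ (Fin.cons e ω) (Fin.cons e ω'))) m := by
  obtain ⟨C, hC, hHb⟩ := hH.bound
  obtain ⟨B, hB, hΦb⟩ := hΦ.bound
  obtain ⟨K1, hK1, h1⟩ := nest_bound hβ n C hC
  obtain ⟨K2, hK2, h2⟩ := pairE_bound hβ n C B hC hB
  have mH : Measurable (Function.uncurry (fun (e : E) (ω : Fin n → E) => H (Fin.cons e ω))) :=
    hH.meas.comp (TConvB_measurable_cons' n)
  have m1 : Measurable (fun e => wgt m ζ n i H e) := by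
    unfold wgt
    exact Real.measurable_exp.comp (((measurable_nest m ζ n (i + 1) mH).sub_const _).const_mul _)
  have m2 : Measurable (fun e => pairE m ζ r n (i + 1) (fun ω => H (Fin.cons e ω))
        (fun ω ω' => Φ (Fin.cons e ω) (Fin.cons e ω'))) := by
    refine measurable_pairE m ζ n r (i + 1) mH ?_
    refine hΦ.meas.comp (Measurable.prodMk ?_ ?_)
    · exact (TConvB_measurable_cons' n).comp (measurable_fst.prodMk measurable_snd.fst)
    · exact (TConvB_measurable_cons' n).comp (measurable_fst.prodMk measurable_snd.snd)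
  set D : ℝ := Real.exp (C + K1 + |nest m ζ (n + 1) i H|) * (B * (K2 * Real.exp (K2 * C)))
    with hD
  refine Integrable.mono' (g := fun e => D * Real.exp ((C + 2 * B + K2 * C) * β e))
    ((hβ.int _).const_mul _) (m1.mul m2).aestronglyMeasurable
    (Filter.Eventually.of_forall fun e => ?_)
  have hbe := hβ.nonneg e
  have hHe : ∀ ω : Fin n → E, |H (Fin.cons e ω)| ≤ (C + C * β e) + C * ∑ j, β (ω j) := by
    intro ω
    refine (hHb _).trans ?_
    rw [Fin.sum_univ_succ]
    simp only [Fin.cons_zero, Fin.cons_succ]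
    linarith
  have hΦe : ∀ ω ω' : Fin n → E, |Φ (Fin.cons e ω) (Fin.cons e ω')| ≤
      (B * Real.exp (2 * B * β e)) * Real.exp (B * ∑ j, (β (ω j) + β (ω' j))) := by
    intro ω ω'
    refine (hΦb _ _).trans (le_of_eq ?_)
    rw [Fin.sum_univ_succ, mul_assoc, ← Real.exp_add]
    simp only [Fin.cons_zero, Fin.cons_succ]
    congr 2
    ring
  have ha : 0 ≤ C + C * β e := add_nonneg hC (mul_nonneg hC hbe)
  have hn := h1 ζ hζ (i + 1) _ ha (fun ω => H (Fin.cons e ω))
    (hH.meas.comp (TConvB_measurable_cons n e)) hHe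
  have hp := h2 ζ hζ r (i + 1) (C + C * β e) (B * Real.exp (2 * B * β e)) ha
    (mul_nonneg hB (Real.exp_pos _).le) (fun ω => H (Fin.cons e ω))
    (fun ω ω' => Φ (Fin.cons e ω) (Fin.cons e ω')) (hH.meas.comp (TConvB_measurable_cons n e))
    (TConvB_tame2_cons hβ hΦ e).meas hHe hΦe
  have hw : wgt m ζ n i H e ≤ Real.exp (C + K1 + |nest m ζ (n + 1) i H| + C * β e) := by
    unfold wgt
    refine Real.exp_le_exp.2 ?_
    have hz := hζ i
    have h3 : nest m ζ n (i + 1) (fun ω => H (Fin.cons e ω)) - nest m ζ (n + 1) i H ≤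
        C + C * β e + K1 + |nest m ζ (n + 1) i H| := by
      have := le_abs_self (nest m ζ n (i + 1) (fun ω => H (Fin.cons e ω)))
      have := neg_abs_le (nest m ζ (n + 1) i H)
      linarith
    have h4 : 0 ≤ C + C * β e + K1 + |nest m ζ (n + 1) i H| := by positivity
    calc ζ i * (nest m ζ n (i + 1) (fun ω => H (Fin.cons e ω)) - nest m ζ (n + 1) i H)
        ≤ ζ i * (C + C * β e + K1 + |nest m ζ (n + 1) i H|) :=
          mul_le_mul_of_nonneg_left h3 hz.1
      _ ≤ 1 * (C + C * β e + K1 + |nest m ζ (n + 1) i H|) :=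
          mul_le_mul_of_nonneg_right hz.2 h4
      _ = _ := by ring
  rw [Real.norm_eq_abs, abs_mul, abs_of_pos (wgt_pos m ζ n i H e)]
  calc wgt m ζ n i H e * |pairE m ζ r n (i + 1) (fun ω => H (Fin.cons e ω))
        (fun ω ω' => Φ (Fin.cons e ω) (Fin.cons e ω'))|
      ≤ Real.exp (C + K1 + |nest m ζ (n + 1) i H| + C * β e) *
        (B * Real.exp (2 * B * β e) * (K2 * Real.exp (K2 * (C + C * β e)))) :=
        mul_le_mul hw hp (abs_nonneg _) (Real.exp_pos _).le
    _ = D * Real.exp ((C + 2 * B + K2 * C) * β e) := by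
        rw [hD]
        have e1 : Real.exp (C + K1 + |nest m ζ (n + 1) i H| + C * β e) =
            Real.exp (C + K1 + |nest m ζ (n + 1) i H|) * Real.exp (C * β e) := Real.exp_add _ _
        have e2 : Real.exp (K2 * (C + C * β e)) = Real.exp (K2 * C) * Real.exp (K2 * C * β e) := by
          rw [← Real.exp_add]; congr 1; ring
        have e3 : Real.exp ((C + 2 * B + K2 * C) * β e) =
            Real.exp (C * β e) * Real.exp (2 * B * β e) * Real.exp (K2 * C * β e) := by
          rw [← Real.exp_add, ← Real.exp_add]; congr 1; ring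
        rw [e1, e2, e3]; ring

/-- the inner path expectation of a tame pair function is tame -/
theorem TConvB_tame_inner (hβ : Dom m β) (hζ : Exps ζ) (n i : ℕ) {H : (Fin n → E) → ℝ}
    {Φ : (Fin n → E) → (Fin n → E) → ℝ} (hH : Ham β H) (hΦ : Tame2 β Φ) :
    Tame β (fun ω => pathE m ζ n i H (Φ ω)) := by
  obtain ⟨C, hC, hHb⟩ := hH.bound
  obtain ⟨B, hB, hΦb⟩ := hΦ.bound
  obtain ⟨K, hK, h⟩ := pathE_bound hβ n C B hC hB
  refine ⟨?_, max B (B * (K * Real.exp (K * C))), le_max_of_le_left hB, fun ω => ?_⟩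
  · exact measurable_pathE m ζ n i (hH.meas.comp measurable_snd) hΦ.meas
  · have h1 := h ζ hζ i C (B * Real.exp (B * ∑ j, β (ω j))) hC
      (mul_nonneg hB (Real.exp_pos _).le) H (Φ ω) hH.meas (hΦ.meas.comp measurable_prodMk_left)
      (fun ω' => by have := hHb ω'; linarith) (fun ω' => by
        refine (hΦb ω ω').trans (le_of_eq ?_)
        rw [Finset.sum_add_distrib, mul_add, Real.exp_add, mul_assoc])
    refine h1.trans ?_
    have hs : 0 ≤ ∑ j, β (ω j) := Finset.sum_nonneg fun j _ => hβ.nonneg _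
    calc B * Real.exp (B * ∑ j, β (ω j)) * (K * Real.exp (K * C))
        = (B * (K * Real.exp (K * C))) * Real.exp (B * ∑ j, β (ω j)) := by ring
      _ ≤ _ := by
        refine mul_le_mul (le_max_right _ _) (Real.exp_le_exp.2 ?_) (Real.exp_pos _).le
          (le_max_of_le_left hB)
        exact mul_le_mul_of_nonneg_right (le_max_left _ _) hs

theorem TConvB_tame_slice (hβ : Dom m β) {n : ℕ} {Φ : (Fin n → E) → (Fin n → E) → ℝ}
    (hΦ : Tame2 β Φ) (ω : Fin n → E) : Tame β (Φ ω) := by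
  obtain ⟨B, hB, hΦb⟩ := hΦ.bound
  refine ⟨hΦ.meas.comp measurable_prodMk_left,
    max B (B * Real.exp (B * ∑ j, β (ω j))), le_max_of_le_left hB, fun ω' => ?_⟩
  refine (hΦb ω ω').trans ?_
  have hs : 0 ≤ ∑ j, β (ω' j) := Finset.sum_nonneg fun j _ => hβ.nonneg _
  rw [Finset.sum_add_distrib, mul_add, Real.exp_add, ← mul_assoc]
  refine mul_le_mul (le_max_right _ _) (Real.exp_le_exp.2 ?_) (Real.exp_pos _).le
    (le_max_of_le_left hB)
  exact mul_le_mul_of_nonneg_right (le_max_left _ _) hs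

theorem TConvB_pairE_nonneg (hβ : Dom m β) (hζ : Exps ζ) (r n i : ℕ) {H : (Fin n → E) → ℝ}
    {Φ : (Fin n → E) → (Fin n → E) → ℝ} (hH : Ham β H) (hΦ : Tame2 β Φ)
    (h0 : ∀ ω ω', 0 ≤ Φ ω ω') : 0 ≤ pairE m ζ r n i H Φ := by
  have hc : Tame2 β (fun _ _ : Fin n → E => (0 : ℝ)) :=
    ⟨measurable_const, 0, le_refl _, fun ω ω' => by simp⟩
  have := pairE_mono hβ hζ r n i hH hc hΦ h0
  rwa [pairE_const hβ hζ r n i hH 0] at this

theorem TConvB_pairE_aux (hβ : Dom m β) (hζ : Exps ζ) (hmono : Monotone ζ) (r n i : ℕ)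
    {H U : (Fin n → E) → ℝ} {Φ : (Fin n → E) → (Fin n → E) → ℝ} (hH : Ham β H) (hU : Ham β U)
    (hΦ : Tame2 β Φ) (h0 : ∀ ω ω', 0 ≤ Φ ω ω') {A : ℝ} (hA0 : 0 ≤ A) (hA : ∀ ω, |U ω| ≤ A) :
    pairE m ζ r n i (fun ω => H ω + U ω) Φ ≤ Real.exp ((4 - ζ i) * A -
      ζ i * (nest m ζ n i (fun ω => H ω + U ω) - nest m ζ n i H)) * pairE m ζ r n i H Φ := by
  induction r generalizing n i with
  | zero =>
    have e1 : ∀ H' : (Fin n → E) → ℝ, pairE m ζ 0 n i H' Φ =
        pathE m ζ n i H' (fun ω => pathE m ζ n i H' (fun ω' => Φ ω ω')) := by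
      intro H'; cases n <;> rfl
    rw [e1, e1]
    set Y := (2 - ζ i) * A - ζ i * (nest m ζ n i (fun ω => H ω + U ω) - nest m ζ n i H) with hY
    have hHU : Ham β (fun ω => H ω + U ω) := hH.add hβ hU
    have s1 : pathE m ζ n i (fun ω => H ω + U ω)
        (fun ω => pathE m ζ n i (fun ω => H ω + U ω) (fun ω' => Φ ω ω')) ≤
        Real.exp Y * pathE m ζ n i H
          (fun ω => pathE m ζ n i (fun ω => H ω + U ω) (fun ω' => Φ ω ω')) :=
      TConvB_pathE_aux hβ hζ hmono n i hH hU (TConvB_tame_inner hβ hζ n i hHU hΦ)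
        (fun ω => TConvB_pathE_nonneg hβ hζ n i hHU (TConvB_tame_slice hβ hΦ ω) (h0 ω)) hA0 hA
    have s2 : pathE m ζ n i H
          (fun ω => pathE m ζ n i (fun ω => H ω + U ω) (fun ω' => Φ ω ω')) ≤
        pathE m ζ n i H (fun ω => Real.exp Y * pathE m ζ n i H (fun ω' => Φ ω ω')) := by
      refine pathE_mono hβ hζ n i hH (TConvB_tame_inner hβ hζ n i hHU hΦ)
        (Tame.mul hβ (Tame.const hβ _) (TConvB_tame_inner hβ hζ n i hH hΦ)) fun ω => ?_
      exact TConvB_pathE_aux hβ hζ hmono n i hH hU (TConvB_tame_slice hβ hΦ ω) (h0 ω) hA0 hA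
    rw [pathE_mul] at s2
    have hP : 0 ≤ pathE m ζ n i H (fun ω => pathE m ζ n i H (fun ω' => Φ ω ω')) :=
      TConvB_pathE_nonneg hβ hζ n i hH (TConvB_tame_inner hβ hζ n i hH hΦ)
        (fun ω => TConvB_pathE_nonneg hβ hζ n i hH (TConvB_tame_slice hβ hΦ ω) (h0 ω))
    calc _ ≤ Real.exp Y * (Real.exp Y * pathE m ζ n i H
            (fun ω => pathE m ζ n i H (fun ω' => Φ ω ω'))) :=
          s1.trans (mul_le_mul_of_nonneg_left s2 (Real.exp_pos _).le)
      _ = Real.exp (Y + Y) * pathE m ζ n i H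
            (fun ω => pathE m ζ n i H (fun ω' => Φ ω ω')) := by
          rw [Real.exp_add]; ring
      _ ≤ _ := by
          refine mul_le_mul_of_nonneg_right (Real.exp_le_exp.2 ?_) hP
          have h1 := abs_le.1 (TConvB_nest_diff_le hβ hζ n i hH hU hA)
          rw [hY]
          nlinarith [mul_le_mul_of_nonneg_left h1.1 (hζ i).1]
  | succ r ih =>
    cases n with
    | zero =>
      have h1 := abs_le.1 (TConvB_nest_diff_le hβ hζ 0 i hH hU hA)
      have h2 := hζ i
      show Φ Fin.elim0 Fin.elim0 ≤ _ * Φ Fin.elim0 Fin.elim0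
      refine le_mul_of_one_le_left (h0 _ _) (Real.one_le_exp ?_)
      nlinarith [mul_le_mul_of_nonneg_left h1.2 h2.1, mul_le_mul_of_nonneg_right h2.2 hA0]
    | succ n =>
      rw [pairE, pairE, ← integral_const_mul]
      refine integral_mono (TConvB_integrable_wgt_pairE hβ hζ r n i (hH.add hβ hU) hΦ)
        ((TConvB_integrable_wgt_pairE hβ hζ r n i hH hΦ).const_mul _) fun e => ?_
      have h1 := ih n (i + 1) (hH.cons hβ e) (hU.cons hβ e) (TConvB_tame2_cons hβ hΦ e)
        (fun ω ω' => h0 _ _) (fun ω => hA _)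
      have h2 := abs_le.1 (TConvB_nest_diff_le hβ hζ n (i + 1) (hH.cons hβ e) (hU.cons hβ e)
        (fun ω => hA (Fin.cons e ω)))
      have h3 : ζ i ≤ ζ (i + 1) := hmono (Nat.le_succ i)
      have h4 := TConvB_pairE_nonneg hβ hζ r n (i + 1) (hH.cons hβ e)
        (TConvB_tame2_cons hβ hΦ e) (fun ω ω' => h0 _ _)
      simp only
      rw [TConvB_wgt_change]
      set δ1 := nest m ζ n (i + 1) (fun ω => H (Fin.cons e ω) + U (Fin.cons e ω)) -
              nest m ζ n (i + 1) (fun ω => H (Fin.cons e ω)) with hδ1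
      set δ0 := nest m ζ (n + 1) i (fun ω => H ω + U ω) - nest m ζ (n + 1) i H with hδ0
      have hw := (wgt_pos m ζ n i H e).le
      calc wgt m ζ n i H e * Real.exp (ζ i * (δ1 - δ0)) *
            pairE m ζ r n (i + 1) (fun ω => H (Fin.cons e ω) + U (Fin.cons e ω))
              (fun ω ω' => Φ (Fin.cons e ω) (Fin.cons e ω'))
          ≤ wgt m ζ n i H e * Real.exp (ζ i * (δ1 - δ0)) *
            (Real.exp ((4 - ζ (i + 1)) * A - ζ (i + 1) * δ1) *
              pairE m ζ r n (i + 1) (fun ω => H (Fin.cons e ω))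
                (fun ω ω' => Φ (Fin.cons e ω) (Fin.cons e ω'))) :=
            mul_le_mul_of_nonneg_left h1 (mul_nonneg hw (Real.exp_pos _).le)
        _ = Real.exp (ζ i * (δ1 - δ0) + ((4 - ζ (i + 1)) * A - ζ (i + 1) * δ1)) *
            (wgt m ζ n i H e *
              pairE m ζ r n (i + 1) (fun ω => H (Fin.cons e ω))
                (fun ω ω' => Φ (Fin.cons e ω) (Fin.cons e ω'))) := by
            rw [Real.exp_add]; ring
        _ ≤ _ := by
            refine mul_le_mul_of_nonneg_right (Real.exp_le_exp.2 ?_) (mul_nonneg hw h4)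
            nlinarith [mul_le_mul_of_nonneg_left h2.1 (sub_nonneg.2 h3)]

/-! ### the finer density bound -/

theorem TConvB_ham_const {n : ℕ} (hβ : Dom m β) (c : ℝ) : Ham β (fun _ : Fin n → E => c) := by
  refine ⟨measurable_const, |c|, abs_nonneg _, fun ω => ?_⟩
  have hs : 0 ≤ ∑ j, β (ω j) := Finset.sum_nonneg fun j _ => hβ.nonneg _
  nlinarith [mul_nonneg (abs_nonneg c) hs]

theorem TConvB_ham_sum {n : ℕ} (hβ : Dom m β) (s : Finset ℕ) (f : ℕ → (Fin n → E) → ℝ)
    (hf : ∀ j, Ham β (f j)) : Ham β (fun ω => ∑ j ∈ s, f j ω) := by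
  classical
  induction s using Finset.induction_on with
  | empty => simpa using TConvB_ham_const (n := n) hβ 0
  | insert a s ha ih =>
    simp only [Finset.sum_insert ha]
    exact (hf a).add hβ ih

theorem TConvB_ham_neg {n : ℕ} {U : (Fin n → E) → ℝ} (hU : Ham β U) :
    Ham β (fun ω => -U ω) := by
  have := hU.const_mul (-1)
  simpa using this

theorem TConvB_ham_sub {n : ℕ} (hβ : Dom m β) {U V : (Fin n → E) → ℝ} (hU : Ham β U)
    (hV : Ham β V) : Ham β (fun ω => U ω - V ω) := by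
  have := hU.add hβ (TConvB_ham_neg hV)
  simpa [sub_eq_add_neg] using this

/-- the conditional expectation of a Hamiltonian has linear growth -/
theorem TConvB_ham_condE (hβ : Dom m β) (hζ : Exps ζ) (r n i : ℕ) {H U : (Fin n → E) → ℝ}
    (hH : Ham β H) (hU : Ham β U) : Ham β (condE m ζ r n i H U) := by
  have h1 := TConvB_ham_nestAt hβ hζ r n i (m := m) (hH.add hβ hU)
  have h2 := TConvB_ham_nestAt hβ hζ r n i (m := m) (hH.add hβ (TConvB_ham_neg hU))
  have h3 := TConvB_ham_nestAt hβ hζ r n i (m := m) hH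
  obtain ⟨C1, hC1, b1⟩ := h1.bound
  obtain ⟨C2, hC2, b2⟩ := h2.bound
  obtain ⟨C3, hC3, b3⟩ := h3.bound
  refine ⟨(condE_tame hβ hζ r n i hH (hU.tame hβ)).meas, C1 + C2 + C3, by positivity, fun ω => ?_⟩
  have t1 := nestAt_tangent hβ hζ r n i hH hU ω (m := m)
  have t2 := nestAt_tangent hβ hζ r n i hH (TConvB_ham_neg hU) ω (m := m)
  have t3 : condE m ζ r n i H (fun ω => -U ω) ω = -condE m ζ r n i H U ω := by
    have := condE_mul (m := m) (ζ := ζ) r n i H U (-1) ω
    simpa using this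
  rw [t3] at t2
  have a1 := abs_le.1 (b1 ω)
  have a2 := abs_le.1 (b2 ω)
  have a3 := abs_le.1 (b3 ω)
  have hs : 0 ≤ 1 + ∑ j, β (ω j) := by
    have : 0 ≤ ∑ j, β (ω j) := Finset.sum_nonneg fun j _ => hβ.nonneg _
    linarith
  have p1 := mul_nonneg hC1 hs
  have p2 := mul_nonneg hC2 hs
  have p3 := mul_nonneg hC3 hs
  rw [abs_le]
  constructor <;> nlinarith

/-- conditional Jensen for `exp` -/
theorem TConvB_condE_exp_jensen (hβ : Dom m β) (hζ : Exps ζ) (r n i : ℕ)
    {H Φ : (Fin n → E) → ℝ} (hH : Ham β H) (hΦ : Ham β Φ) (ω : Fin n → E) :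
    Real.exp (condE m ζ r n i H Φ ω) ≤ condE m ζ r n i H (fun ω => Real.exp (Φ ω)) ω := by
  induction r generalizing n i with
  | zero =>
    have e1 : ∀ Ψ : (Fin n → E) → ℝ, condE m ζ 0 n i H Ψ ω = pathE m ζ n i H Ψ := by
      intro Ψ; cases n <;> rfl
    rw [e1, e1]
    exact pathE_exp_jensen hβ hζ n i hH hΦ
  | succ r ih =>
    cases n with
    | zero => exact le_refl _
    | succ n =>
      rw [condE, condE]
      exact ih n (i + 1) (hH.cons hβ _) (hΦ.cons hβ _) (Fin.tail ω)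

/-- the weights -/
def TConvB_w (z : ℕ → ℝ) (i : ℕ) : ℕ → ℝ
  | 0 => z i
  | j + 1 => z (i + (j + 1)) - z (i + j)

theorem TConvB_w_nonneg (hζ : Exps ζ) (hmono : Monotone ζ) (i j : ℕ) : 0 ≤ TConvB_w ζ i j := by
  cases j with
  | zero => exact (hζ i).1
  | succ j => exact sub_nonneg.2 (hmono (by omega))

theorem TConvB_w_sum (z : ℕ → ℝ) (i n : ℕ) :
    ∑ j ∈ Finset.range (n + 1), TConvB_w z i j = z (i + n) := by
  induction n with
  | zero => simp [TConvB_w]
  | succ n ih => rw [Finset.sum_range_succ, ih]; simp [TConvB_w]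

theorem TConvB_abel (z d : ℕ → ℝ) (i n : ℕ) :
    ∑ j ∈ Finset.range (n + 1), z (i + j) * (d (j + 1) - d j) =
      z (i + n) * d (n + 1) - ∑ j ∈ Finset.range (n + 1), TConvB_w z i j * d j := by
  induction n with
  | zero => simp [TConvB_w]; ring
  | succ n ih =>
    rw [Finset.sum_range_succ, ih, Finset.sum_range_succ _ (n + 1)]
    simp only [TConvB_w]
    ring

/-- Finer density bound: the last exponent is `1`.
`(E_{H+U} Φ)² ≤ E_H (Φ² exp(2U)) · E_H exp(-2U)`.
PROOF: `D ≤ exp (U - ∑_{j<n} w_j E[U|F_j])` with `w_j ≥ 0`, `∑_j w_j = 1` (`w_0 = ζ_i`,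
`w_j = ζ_{i+j} - ζ_{i+j-1}`) by `nestAt_tangent`; Cauchy–Schwarz; `exp(-2 ∑ w_j V_j) ≤ ∑ w_j exp(-2 V_j)`
and conditional Jensen `E exp(-2 V_j) ≤ E exp (-2U)`. -/
theorem pathE_density_sq (hβ : Dom m β) (hζ : Exps ζ) (hmono : Monotone ζ) (n i : ℕ)
    (hlast : ζ (i + n) = 1)
    {H U Φ : (Fin (n + 1) → E) → ℝ} (hH : Ham β H) (hU : Ham β U) (hΦ : Tame β Φ)
    (h0 : ∀ ω, 0 ≤ Φ ω) :
    pathE m ζ (n + 1) i (fun ω => H ω + U ω) Φ ^ 2 ≤
      pathE m ζ (n + 1) i H (fun ω => Φ ω ^ 2 * Real.exp (2 * U ω)) *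
        pathE m ζ (n + 1) i H (fun ω => Real.exp (-2 * U ω)) := by
  have hHU : Ham β (fun ω => H ω + U ω) := hH.add hβ hU
  -- the density
  have hδ : ∀ j, Ham β (fun ω => nestAt m ζ j (n + 1) i (fun ω => H ω + U ω) ω -
      nestAt m ζ j (n + 1) i H ω) := fun j =>
    TConvB_ham_sub hβ (TConvB_ham_nestAt hβ hζ j (n + 1) i hHU)
      (TConvB_ham_nestAt hβ hζ j (n + 1) i hH)
  have hD : Ham β (fun ω => ∑ j ∈ Finset.range (n + 1), ζ (i + j) *
        ((nestAt m ζ (j + 1) (n + 1) i (fun ω => H ω + U ω) ω - nestAt m ζ (j + 1) (n + 1) i H ω) -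
          (nestAt m ζ j (n + 1) i (fun ω => H ω + U ω) ω - nestAt m ζ j (n + 1) i H ω))) :=
    TConvB_ham_sum hβ _ (fun j ω => ζ (i + j) *
        ((nestAt m ζ (j + 1) (n + 1) i (fun ω => H ω + U ω) ω - nestAt m ζ (j + 1) (n + 1) i H ω) -
          (nestAt m ζ j (n + 1) i (fun ω => H ω + U ω) ω - nestAt m ζ j (n + 1) i H ω)))
      (fun j => (TConvB_ham_sub hβ (hδ (j + 1)) (hδ j)).const_mul _)
  have hV : ∀ j, Ham β (condE m ζ j (n + 1) i H U) := fun j =>
    TConvB_ham_condE hβ hζ j (n + 1) i hH hU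
  have hS : Ham β (fun ω => ∑ j ∈ Finset.range (n + 1),
      TConvB_w ζ i j * condE m ζ j (n + 1) i H U ω) :=
    TConvB_ham_sum hβ _ (fun j ω => TConvB_w ζ i j * condE m ζ j (n + 1) i H U ω)
      (fun j => (hV j).const_mul _)
  have step1 : pathE m ζ (n + 1) i (fun ω => H ω + U ω) Φ ≤
      pathE m ζ (n + 1) i H (fun ω => (Φ ω * Real.exp (U ω)) *
        Real.exp (-(∑ j ∈ Finset.range (n + 1),
          TConvB_w ζ i j * condE m ζ j (n + 1) i H U ω))) := by
    rw [pathE_change hβ hζ (n + 1) i hH hU hΦ]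
    refine pathE_mono hβ hζ (n + 1) i hH (Tame.mul hβ hΦ (Tame.exp hβ hD))
      (Tame.mul hβ (Tame.mul hβ hΦ (Tame.exp hβ hU)) (Tame.exp hβ (TConvB_ham_neg hS)))
      fun ω => ?_
    rw [mul_assoc, ← Real.exp_add]
    refine mul_le_mul_of_nonneg_left (Real.exp_le_exp.2 ?_) (h0 ω)
    rw [TConvB_abel ζ (fun j => nestAt m ζ j (n + 1) i (fun ω => H ω + U ω) ω -
      nestAt m ζ j (n + 1) i H ω) i n, hlast]
    rw [TConvB_nestAt_all (n + 1) (n + 1) i _ (le_refl _) ω,
      TConvB_nestAt_all (n + 1) (n + 1) i _ (le_refl _) ω]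
    have : ∑ j ∈ Finset.range (n + 1), TConvB_w ζ i j * condE m ζ j (n + 1) i H U ω ≤
        ∑ j ∈ Finset.range (n + 1), TConvB_w ζ i j *
          (nestAt m ζ j (n + 1) i (fun ω => H ω + U ω) ω - nestAt m ζ j (n + 1) i H ω) := by
      refine Finset.sum_le_sum fun j _ => mul_le_mul_of_nonneg_left ?_
        (TConvB_w_nonneg hζ hmono i j)
      have := nestAt_tangent hβ hζ j (n + 1) i hH hU ω (m := m)
      linarith
    linarith
  have hP0 : 0 ≤ pathE m ζ (n + 1) i (fun ω => H ω + U ω) Φ :=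
    TConvB_pathE_nonneg hβ hζ (n + 1) i hHU hΦ h0
  have step2 := pathE_cs hβ hζ (n + 1) i hH (m := m) (Tame.mul hβ hΦ (Tame.exp hβ hU))
    (Tame.exp hβ (TConvB_ham_neg hS))
  have e1 : (fun ω => (Φ ω * Real.exp (U ω)) ^ 2) = (fun ω => Φ ω ^ 2 * Real.exp (2 * U ω)) := by
    funext ω
    rw [mul_pow, ← Real.exp_nat_mul]
    norm_num
  rw [e1] at step2
  have step3 : pathE m ζ (n + 1) i H (fun ω => Real.exp (-(∑ j ∈ Finset.range (n + 1),
          TConvB_w ζ i j * condE m ζ j (n + 1) i H U ω)) ^ 2) ≤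
      pathE m ζ (n + 1) i H (fun ω => Real.exp (-2 * U ω)) := by
    have hm2 : Ham β (fun ω => -2 * U ω) := hU.const_mul _
    have hVe : ∀ j, Tame β (fun ω => Real.exp (-2 * condE m ζ j (n + 1) i H U ω)) := fun j =>
      Tame.exp hβ ((hV j).const_mul _)
    have hsumT : ∀ s : Finset ℕ, Tame β (fun ω => ∑ j ∈ s,
        TConvB_w ζ i j * Real.exp (-2 * condE m ζ j (n + 1) i H U ω)) ∧
        pathE m ζ (n + 1) i H (fun ω => ∑ j ∈ s,
          TConvB_w ζ i j * Real.exp (-2 * condE m ζ j (n + 1) i H U ω)) =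
        ∑ j ∈ s, TConvB_w ζ i j * pathE m ζ (n + 1) i H
          (fun ω => Real.exp (-2 * condE m ζ j (n + 1) i H U ω)) := by
      classical
      intro s
      induction s using Finset.induction_on with
      | empty =>
        refine ⟨by simpa using Tame.const (n := n + 1) hβ 0, ?_⟩
        simpa using pathE_const hβ hζ (n + 1) i hH 0 (m := m)
      | insert a s ha ih =>
        have h1 : Tame β (fun ω => TConvB_w ζ i a *
            Real.exp (-2 * condE m ζ a (n + 1) i H U ω)) :=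
          Tame.mul hβ (Tame.const hβ _) (hVe a)
        simp only [Finset.sum_insert ha]
        refine ⟨Tame.add hβ h1 ih.1, ?_⟩
        rw [pathE_add hβ hζ (n + 1) i hH h1 ih.1, ih.2, pathE_mul]
    have hSe : Tame β (fun ω => Real.exp (-(∑ j ∈ Finset.range (n + 1),
          TConvB_w ζ i j * condE m ζ j (n + 1) i H U ω)) ^ 2) := by
      have := Tame.mul hβ (Tame.exp hβ (TConvB_ham_neg hS)) (Tame.exp hβ (TConvB_ham_neg hS))
      simpa [sq] using this
    calc pathE m ζ (n + 1) i H (fun ω => Real.exp (-(∑ j ∈ Finset.range (n + 1),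
          TConvB_w ζ i j * condE m ζ j (n + 1) i H U ω)) ^ 2)
        ≤ pathE m ζ (n + 1) i H (fun ω => ∑ j ∈ Finset.range (n + 1),
          TConvB_w ζ i j * Real.exp (-2 * condE m ζ j (n + 1) i H U ω)) := by
          refine pathE_mono hβ hζ (n + 1) i hH hSe (hsumT _).1 fun ω => ?_
          rw [← Real.exp_nat_mul]
          have hJ := convexOn_exp.map_sum_le (t := Finset.range (n + 1))
            (w := TConvB_w ζ i) (p := fun j => -2 * condE m ζ j (n + 1) i H U ω)
            (fun j _ => TConvB_w_nonneg hζ hmono i j)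
            (by rw [TConvB_w_sum]; exact hlast) (fun j _ => Set.mem_univ _)
          simp only [smul_eq_mul] at hJ
          refine le_trans (le_of_eq ?_) hJ
          congr 1
          push_cast
          rw [← Finset.sum_neg_distrib, Finset.mul_sum]
          exact Finset.sum_congr rfl fun j _ => by ring
      _ = ∑ j ∈ Finset.range (n + 1), TConvB_w ζ i j * pathE m ζ (n + 1) i H
          (fun ω => Real.exp (-2 * condE m ζ j (n + 1) i H U ω)) := (hsumT _).2
      _ ≤ ∑ j ∈ Finset.range (n + 1), TConvB_w ζ i j *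
            pathE m ζ (n + 1) i H (fun ω => Real.exp (-2 * U ω)) := by
          refine Finset.sum_le_sum fun j _ => mul_le_mul_of_nonneg_left ?_
            (TConvB_w_nonneg hζ hmono i j)
          rw [← pathE_condE_self hβ hζ j (n + 1) i hH (Tame.exp hβ hm2)]
          refine pathE_mono hβ hζ (n + 1) i hH (hVe j)
            (condE_tame hβ hζ j (n + 1) i hH (Tame.exp hβ hm2)) fun ω => ?_
          have := TConvB_condE_exp_jensen hβ hζ j (n + 1) i hH hm2 ω (m := m)
          rwa [condE_mul] at this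
      _ = pathE m ζ (n + 1) i H (fun ω => Real.exp (-2 * U ω)) := by
          rw [← Finset.sum_mul, TConvB_w_sum, hlast, one_mul]
  have hA : 0 ≤ pathE m ζ (n + 1) i H (fun ω => Φ ω ^ 2 * Real.exp (2 * U ω)) := by
    refine TConvB_pathE_nonneg hβ hζ (n + 1) i hH ?_ fun ω => by positivity
    have := Tame.mul hβ (Tame.mul hβ hΦ hΦ) (Tame.exp hβ (hU.const_mul 2))
    simpa [sq] using this
  calc pathE m ζ (n + 1) i (fun ω => H ω + U ω) Φ ^ 2
      ≤ _ := pow_le_pow_left₀ hP0 step1 2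
    _ ≤ _ := step2
    _ ≤ _ := mul_le_mul_of_nonneg_left step3 hA

/-- the same bounds for pairs: each path contributes a factor; `|U| ≤ A` gives `exp (4A)`. -/
theorem pairE_density_le (hβ : Dom m β) (hζ : Exps ζ) (hmono : Monotone ζ) (r n i : ℕ)
    {H U : (Fin n → E) → ℝ} {Φ : (Fin n → E) → (Fin n → E) → ℝ} (hH : Ham β H) (hU : Ham β U)
    (hΦ : Tame2 β Φ) (h0 : ∀ ω ω', 0 ≤ Φ ω ω') {A : ℝ} (hA : ∀ ω, |U ω| ≤ A) :
    pairE m ζ r n i (fun ω => H ω + U ω) Φ ≤ Real.exp (4 * A) * pairE m ζ r n i H Φ := by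
  obtain ⟨ω₀⟩ : Nonempty (Fin n → E) := by
    have : Nonempty E := by
      by_contra hne
      rw [not_nonempty_iff] at hne
      have := measure_univ (μ := m)
      rw [Set.eq_empty_of_isEmpty (Set.univ : Set E), measure_empty] at this
      exact zero_ne_one this
    infer_instance
  have hA0 : 0 ≤ A := (abs_nonneg _).trans (hA ω₀)
  refine (TConvB_pairE_aux hβ hζ hmono r n i hH hU hΦ h0 hA0 hA).trans ?_
  refine mul_le_mul_of_nonneg_right (Real.exp_le_exp.2 ?_)
    (TConvB_pairE_nonneg hβ hζ r n i hH hΦ h0)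
  have h1 := abs_le.1 (TConvB_nest_diff_le hβ hζ n i hH hU hA)
  nlinarith [mul_le_mul_of_nonneg_left h1.1 (hζ i).1]

end Crest.Agent.RI
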