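import Crest.Agent.RI.TDerA
import Crest.Agent.RI.TPairB

/-!
# Row 164, tower: derivative of pair expectations along C¹ families.
-/

set_option autoImplicit false
set_option maxHeartbeats 1600000
set_option linter.unusedSectionVars false
set_option linter.unusedVariables false

namespace Crest.Agent.RI
open MeasureTheory ProbabilityTheory

variable {E : Type} [MeasurableSpace E]
variable {m : Measure E} [IsProbabilityMeasure m] {ζ : ℕ → ℝ} {β : E → ℝ}

private theorem tderb_expo_mono {C C' S : ℝ} (hC : 0 ≤ C) (h : C ≤ C') (hS : 0 ≤ S) :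
    C * Real.exp (C * S) ≤ C' * Real.exp (C' * S) := by
  apply mul_le_mul h _ (Real.exp_pos _).le (hC.trans h)
  exact Real.exp_le_exp.mpr (mul_le_mul_of_nonneg_right h hS)

private theorem tderb_ham_mono (hβ : Dom m β) {n : ℕ} {C C' : ℝ} {H : (Fin n → E) → ℝ}
    (hC : 0 ≤ C) (h : C ≤ C') (hH : HamC C β H) : HamC C' β H := by
  refine ⟨hH.meas, fun ω => (hH.bound ω).trans ?_⟩
  apply mul_le_mul_of_nonneg_right h
  have := Finset.sum_nonneg (fun i (_ : i ∈ Finset.univ) => hβ.nonneg (ω i))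
  linarith

private theorem tderb_tame_mono (hβ : Dom m β) {n : ℕ} {C C' : ℝ} {H : (Fin n → E) → ℝ}
    (hC : 0 ≤ C) (h : C ≤ C') (hH : TameC C β H) : TameC C' β H := by
  refine ⟨hH.meas, fun ω => (hH.bound ω).trans ?_⟩
  exact tderb_expo_mono hC h (Finset.sum_nonneg (fun i (_ : i ∈ Finset.univ) => hβ.nonneg (ω i)))

private theorem tderb_meas_cons {n : ℕ} :
    Measurable (fun p : E × (Fin n → E) => (Fin.cons p.1 p.2 : Fin (n + 1) → E)) := by
  apply measurable_pi_lambda
  intro j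
  refine Fin.cases ?_ ?_ j
  · simp only [Fin.cons_zero]
    exact measurable_fst
  · intro k
    simp only [Fin.cons_succ]
    exact (measurable_pi_apply k).comp measurable_snd

private theorem tderb_integrable (hβ : Dom m β) {f : E → ℝ} {K : ℝ} (hf : Measurable f)
    (h : ∀ e, |f e| ≤ K * Real.exp (K * β e)) : Integrable f m := by
  refine Integrable.mono' ((hβ.int K).const_mul K) hf.aestronglyMeasurable ?_
  exact Filter.Eventually.of_forall (fun e => by rw [Real.norm_eq_abs]; exact h e)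

/-- fixing the first coordinate: explicit constants -/
private theorem tderb_ham_cons (hβ : Dom m β) {n : ℕ} {C : ℝ} {H : (Fin (n + 1) → E) → ℝ}
    (hC : 0 ≤ C) (hH : HamC C β H) (e : E) (ω : Fin n → E) :
    |H (Fin.cons e ω)| ≤ C * (1 + β e) + C * ∑ j, β (ω j) := by
  have := hH.bound (Fin.cons e ω)
  rw [Fin.sum_univ_succ] at this
  simp only [Fin.cons_zero, Fin.cons_succ] at this
  linarith

private theorem tderb_tame_cons (hβ : Dom m β) {n : ℕ} {C : ℝ} {H : (Fin (n + 1) → E) → ℝ}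
    (hC : 0 ≤ C) (hH : TameC C β H) (e : E) (ω : Fin n → E) :
    |H (Fin.cons e ω)| ≤ C * Real.exp (C * β e) * Real.exp (C * ∑ j, β (ω j)) := by
  have := hH.bound (Fin.cons e ω)
  rw [Fin.sum_univ_succ] at this
  simp only [Fin.cons_zero, Fin.cons_succ] at this
  rw [mul_add, Real.exp_add] at this
  linarith

private theorem tderb_tame2_cons (hβ : Dom m β) {n : ℕ} {C : ℝ}
    {H : (Fin (n + 1) → E) → (Fin (n + 1) → E) → ℝ}
    (hC : 0 ≤ C) (hH : Tame2C C β H) (e : E) (ω ω' : Fin n → E) :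
    |H (Fin.cons e ω) (Fin.cons e ω')| ≤
      C * Real.exp (2 * C * β e) * Real.exp (C * ∑ j, (β (ω j) + β (ω' j))) := by
  have := hH.bound (Fin.cons e ω) (Fin.cons e ω')
  rw [Fin.sum_univ_succ] at this
  simp only [Fin.cons_zero, Fin.cons_succ] at this
  rw [mul_add, Real.exp_add] at this
  have e1 : C * (β e + β e) = 2 * C * β e := by ring
  rw [e1] at this
  linarith

/-- the constant of the sliced families -/
private noncomputable def tderbC (C b : ℝ) : ℝ := C * (1 + b) + C * Real.exp (2 * C * b)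

private theorem tderbC_le {C b : ℝ} (hC : 0 ≤ C) (hb : 0 ≤ b) :
    C ≤ tderbC C b ∧ C * (1 + b) ≤ tderbC C b ∧ C * Real.exp (C * b) ≤ tderbC C b ∧
      C * Real.exp (2 * C * b) ≤ tderbC C b := by
  have h1 : 0 ≤ C * Real.exp (2 * C * b) := by positivity
  have h2 : 0 ≤ C * b := by positivity
  have h3 : C * Real.exp (C * b) ≤ C * Real.exp (2 * C * b) := by
    apply mul_le_mul_of_nonneg_left _ hC
    apply Real.exp_le_exp.mpr
    nlinarith
  have h4 : 0 ≤ C * (1 + b) := by positivity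
  unfold tderbC
  refine ⟨by linarith, by linarith, by linarith, by linarith⟩

private theorem tderb_slice_ham (hβ : Dom m β) {n : ℕ} {C : ℝ} {H : (Fin (n + 1) → E) → ℝ}
    (hC : 0 ≤ C) (hH : HamC C β H) (e : E) :
    HamC (tderbC C (β e)) β (fun ω : Fin n → E => H (Fin.cons e ω)) := by
  refine ⟨hH.meas.comp (tderb_meas_cons.comp (measurable_prodMk_left)), fun ω => ?_⟩
  refine (tderb_ham_cons hβ hC hH e ω).trans ?_
  obtain ⟨h1, h2, -, -⟩ := tderbC_le hC (hβ.nonneg e)
  have h3 := Finset.sum_nonneg (fun i (_ : i ∈ Finset.univ) => hβ.nonneg (ω i))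
  nlinarith

private theorem tderb_slice_tame (hβ : Dom m β) {n : ℕ} {C : ℝ} {H : (Fin (n + 1) → E) → ℝ}
    (hC : 0 ≤ C) (hH : TameC C β H) (e : E) :
    TameC (tderbC C (β e)) β (fun ω : Fin n → E => H (Fin.cons e ω)) := by
  refine ⟨hH.meas.comp (tderb_meas_cons.comp (measurable_prodMk_left)), fun ω => ?_⟩
  refine (tderb_tame_cons hβ hC hH e ω).trans ?_
  obtain ⟨h1, -, h2, -⟩ := tderbC_le hC (hβ.nonneg e)
  have h3 := Finset.sum_nonneg (fun i (_ : i ∈ Finset.univ) => hβ.nonneg (ω i))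
  apply mul_le_mul h2 _ (Real.exp_pos _).le (hC.trans h1)
  exact Real.exp_le_exp.mpr (mul_le_mul_of_nonneg_right h1 h3)

private theorem tderb_slice_tame2 (hβ : Dom m β) {n : ℕ} {C : ℝ}
    {H : (Fin (n + 1) → E) → (Fin (n + 1) → E) → ℝ}
    (hC : 0 ≤ C) (hH : Tame2C C β H) (e : E) :
    Tame2C (tderbC C (β e)) β
      (fun ω ω' : Fin n → E => H (Fin.cons e ω) (Fin.cons e ω')) := by
  refine ⟨?_, fun ω ω' => ?_⟩
  · have h1 : Measurable (fun p : (Fin n → E) × (Fin n → E) =>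
        ((Fin.cons e p.1 : Fin (n + 1) → E), (Fin.cons e p.2 : Fin (n + 1) → E))) :=
      ((tderb_meas_cons.comp measurable_prodMk_left).comp measurable_fst).prodMk
        ((tderb_meas_cons.comp measurable_prodMk_left).comp measurable_snd)
    exact hH.meas.comp h1
  · refine (tderb_tame2_cons hβ hC hH e ω ω').trans ?_
    obtain ⟨h1, -, -, h2⟩ := tderbC_le hC (hβ.nonneg e)
    have h3 : 0 ≤ ∑ i, (β (ω i) + β (ω' i)) :=
      Finset.sum_nonneg (fun i _ => add_nonneg (hβ.nonneg _) (hβ.nonneg _))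
    apply mul_le_mul h2 _ (Real.exp_pos _).le (hC.trans h1)
    exact Real.exp_le_exp.mpr (mul_le_mul_of_nonneg_right h1 h3)

/-- uniform exponential bounds for families -/
private def tderbU (β : E → ℝ) (S : Set ℝ) (f : ℝ → E → ℝ) : Prop :=
  ∃ K : ℝ, 0 ≤ K ∧ ∀ u ∈ S, ∀ e, |f u e| ≤ K * Real.exp (K * β e)

private theorem tderbU_add (hβ : Dom m β) {S : Set ℝ} {f g : ℝ → E → ℝ} (hf : tderbU β S f)
    (hg : tderbU β S g) : tderbU β S (fun u e => f u e + g u e) := by
  obtain ⟨K, hK, h⟩ := hf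
  obtain ⟨K', hK', h'⟩ := hg
  refine ⟨K + K', add_nonneg hK hK', fun u hu e => ?_⟩
  refine (abs_add_le _ _).trans ?_
  have h1 := (h u hu e).trans (mul_le_mul_of_nonneg_left (Real.exp_le_exp.mpr
    (mul_le_mul_of_nonneg_right (le_add_of_nonneg_right hK' : K ≤ K + K') (hβ.nonneg e))) hK)
  have h2 := (h' u hu e).trans (mul_le_mul_of_nonneg_left (Real.exp_le_exp.mpr
    (mul_le_mul_of_nonneg_right (le_add_of_nonneg_left hK : K' ≤ K + K') (hβ.nonneg e))) hK')
  rw [add_mul]
  exact add_le_add h1 h2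

private theorem tderbU_mul (hβ : Dom m β) {S : Set ℝ} {f g : ℝ → E → ℝ} (hf : tderbU β S f)
    (hg : tderbU β S g) : tderbU β S (fun u e => f u e * g u e) := by
  obtain ⟨K, hK, h⟩ := hf
  obtain ⟨K', hK', h'⟩ := hg
  have hKK := mul_nonneg hK hK'
  refine ⟨K * K' + (K + K'), by positivity, fun u hu e => ?_⟩
  rw [abs_mul]
  calc |f u e| * |g u e| ≤ (K * Real.exp (K * β e)) * (K' * Real.exp (K' * β e)) :=
        mul_le_mul (h u hu e) (h' u hu e) (abs_nonneg _) (by positivity)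
    _ = (K * K') * Real.exp ((K + K') * β e) := by rw [add_mul, Real.exp_add]; ring
    _ ≤ _ := by
        apply mul_le_mul (by linarith) _ (Real.exp_pos _).le (by positivity)
        apply Real.exp_le_exp.mpr
        apply mul_le_mul_of_nonneg_right (by linarith) (hβ.nonneg e)

private theorem tderbU_of (hβ : Dom m β) {S : Set ℝ} {f : ℝ → E → ℝ} {a b : ℝ} (ha : 0 ≤ a)
    (hb : 0 ≤ b) (h : ∀ u ∈ S, ∀ e, |f u e| ≤ a * Real.exp (b * β e)) : tderbU β S f := by
  refine ⟨a + b, by positivity, fun u hu e => (h u hu e).trans ?_⟩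
  apply mul_le_mul (by linarith) _ (Real.exp_pos _).le (by positivity)
  apply Real.exp_le_exp.mpr
  apply mul_le_mul_of_nonneg_right (by linarith) (hβ.nonneg e)

private theorem tderbU_const (hβ : Dom m β) {S : Set ℝ} (c : ℝ → ℝ) {k : ℝ}
    (h : ∀ u ∈ S, |c u| ≤ k) (hk : 0 ≤ k) : tderbU β S (fun u _ => c u) := by
  refine tderbU_of hβ hk le_rfl (fun u hu e => ?_)
  simp only [zero_mul, Real.exp_zero, mul_one]
  exact h u hu

private theorem tderbU_wgt (hβ : Dom m β) (hζ : Exps ζ) (n i : ℕ) {S : Set ℝ}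
    {H : ℝ → (Fin (n + 1) → E) → ℝ} {C : ℝ} (hC : 0 ≤ C) (hH : ∀ u ∈ S, HamC C β (H u)) :
    tderbU β S (fun u e => wgt m ζ n i (H u) e) := by
  obtain ⟨K1, hK1, h1⟩ := nest_bound hβ n C hC
  obtain ⟨K2, hK2, h2⟩ := nest_bound hβ (n + 1) C hC
  refine tderbU_of hβ (a := Real.exp (2 * C + K1 + K2)) (b := C) (by positivity) hC
    (fun u hu e => ?_)
  have hb := hβ.nonneg e
  have h3 := h1 ζ hζ (i + 1) (C * (1 + β e)) (by positivity) (fun ω => H u (Fin.cons e ω))
    ((hH u hu).meas.comp (tderb_meas_cons.comp measurable_prodMk_left))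
    (tderb_ham_cons hβ hC (hH u hu) e)
  have h4 := h2 ζ hζ i C hC (H u) (hH u hu).meas (fun ω => by
    have := (hH u hu).bound ω
    linarith)
  unfold wgt
  rw [abs_of_pos (Real.exp_pos _), ← Real.exp_add]
  apply Real.exp_le_exp.mpr
  have h5 : |nest m ζ n (i + 1) (fun ω => H u (Fin.cons e ω)) - nest m ζ (n + 1) i (H u)| ≤
      2 * C + K1 + K2 + C * β e := by
    refine (abs_sub _ _).trans ?_
    linarith
  have h6 := hζ i
  calc ζ i * (nest m ζ n (i + 1) (fun ω => H u (Fin.cons e ω)) - nest m ζ (n + 1) i (H u))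
      ≤ ζ i * |nest m ζ n (i + 1) (fun ω => H u (Fin.cons e ω)) - nest m ζ (n + 1) i (H u)| :=
        mul_le_mul_of_nonneg_left (le_abs_self _) h6.1
    _ ≤ 1 * |nest m ζ n (i + 1) (fun ω => H u (Fin.cons e ω)) - nest m ζ (n + 1) i (H u)| :=
        mul_le_mul_of_nonneg_right h6.2 (abs_nonneg _)
    _ ≤ _ := by rw [one_mul]; exact h5

private theorem tderbU_path (hβ : Dom m β) (hζ : Exps ζ) (n i : ℕ) {S : Set ℝ}
    {H V : ℝ → (Fin (n + 1) → E) → ℝ} {C : ℝ} (hC : 0 ≤ C) (hH : ∀ u ∈ S, HamC C β (H u))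
    (hV : ∀ u ∈ S, TameC C β (V u)) :
    tderbU β S (fun u e => pathE m ζ n (i + 1) (fun ω => H u (Fin.cons e ω))
      (fun ω => V u (Fin.cons e ω))) := by
  obtain ⟨K, hK, h⟩ := pathE_bound hβ n C C hC hC
  refine tderbU_of hβ (a := C * K * Real.exp (K * C)) (b := C + K * C) (by positivity)
    (by positivity) (fun u hu e => ?_)
  have hb := hβ.nonneg e
  have h3 := h ζ hζ (i + 1) (C * (1 + β e)) (C * Real.exp (C * β e)) (by positivity) (by positivity)
    (fun ω => H u (Fin.cons e ω)) (fun ω => V u (Fin.cons e ω))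
    ((hH u hu).meas.comp (tderb_meas_cons.comp measurable_prodMk_left))
    ((hV u hu).meas.comp (tderb_meas_cons.comp measurable_prodMk_left))
    (tderb_ham_cons hβ hC (hH u hu) e) (tderb_tame_cons hβ hC (hV u hu) e)
  refine h3.trans (le_of_eq ?_)
  rw [show K * (C * (1 + β e)) = K * C + K * C * β e by ring, Real.exp_add, add_mul, Real.exp_add]
  ring

private theorem tderb_path_const (hβ : Dom m β) (hζ : Exps ζ) (n i : ℕ) {S : Set ℝ}
    {H V : ℝ → (Fin n → E) → ℝ} {C : ℝ} (hC : 0 ≤ C) (hH : ∀ u ∈ S, HamC C β (H u))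
    (hV : ∀ u ∈ S, TameC C β (V u)) :
    ∃ k : ℝ, 0 ≤ k ∧ ∀ u ∈ S, |pathE m ζ n i (H u) (V u)| ≤ k := by
  obtain ⟨K, hK, h⟩ := pathE_bound hβ n C C hC hC
  refine ⟨C * (K * Real.exp (K * C)), by positivity, fun u hu => ?_⟩
  exact h ζ hζ i C C hC hC (H u) (V u) (hH u hu).meas (hV u hu).meas
    (fun ω => by have := (hH u hu).bound ω; linarith) (hV u hu).bound

private theorem tderbU_pair (hβ : Dom m β) (hζ : Exps ζ) (r n i : ℕ) {S : Set ℝ}
    {H : ℝ → (Fin (n + 1) → E) → ℝ} {Φ : ℝ → E → (Fin n → E) → (Fin n → E) → ℝ}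
    {C K0 : ℝ} (hC : 0 ≤ C) (hK0 : 0 ≤ K0) (hH : ∀ u ∈ S, HamC C β (H u))
    (hΦm : ∀ u ∈ S, ∀ e, Measurable (Function.uncurry (Φ u e)))
    (hΦ : ∀ u ∈ S, ∀ e ω ω', |Φ u e ω ω'| ≤
      K0 * Real.exp (K0 * β e) * Real.exp (K0 * ∑ j, (β (ω j) + β (ω' j)))) :
    tderbU β S (fun u e => pairE m ζ r n (i + 1) (fun ω => H u (Fin.cons e ω)) (Φ u e)) := by
  obtain ⟨K, hK, h⟩ := pairE_bound hβ n C K0 hC hK0
  refine tderbU_of hβ (a := K0 * K * Real.exp (K * C)) (b := K0 + K * C) (by positivity)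
    (by positivity) (fun u hu e => ?_)
  have hb := hβ.nonneg e
  have h3 := h ζ hζ r (i + 1) (C * (1 + β e)) (K0 * Real.exp (K0 * β e)) (by positivity)
    (by positivity) (fun ω => H u (Fin.cons e ω)) (Φ u e)
    ((hH u hu).meas.comp (tderb_meas_cons.comp measurable_prodMk_left))
    (hΦm u hu e) (tderb_ham_cons hβ hC (hH u hu) e) (hΦ u hu e)
  refine h3.trans (le_of_eq ?_)
  rw [show K * (C * (1 + β e)) = K * C + K * C * β e by ring, Real.exp_add, add_mul, Real.exp_add]
  ring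

/-! ### scores -/

private theorem tderb_condE_cons (r n i : ℕ) (H Φ : (Fin (n + 1) → E) → ℝ) (e : E)
    (ω : Fin n → E) :
    condE m ζ (r + 1) (n + 1) i H Φ (Fin.cons e ω) =
      condE m ζ r n (i + 1) (fun ω' => H (Fin.cons e ω')) (fun ω' => Φ (Fin.cons e ω')) ω := by
  simp only [condE, Fin.cons_zero, Fin.tail_cons]

private theorem tderb_condE_zero (n i : ℕ) (H Φ : (Fin n → E) → ℝ) (ω : Fin n → E) :
    condE m ζ 0 n i H Φ ω = pathE m ζ n i H Φ := by
  cases n <;> rfl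

private theorem tderb_score2_cons (r n i : ℕ) (H V : (Fin (n + 1) → E) → ℝ) (e : E)
    (ω ω' : Fin n → E) :
    score2 m ζ (r + 1) (n + 1) i H V (Fin.cons e ω) (Fin.cons e ω') =
      ζ i * (pathE m ζ n (i + 1) (fun ω => H (Fin.cons e ω)) (fun ω => V (Fin.cons e ω)) -
        pathE m ζ (n + 1) i H V) +
      score2 m ζ r n (i + 1) (fun ω => H (Fin.cons e ω)) (fun ω => V (Fin.cons e ω)) ω ω' := by
  unfold score2
  rw [Finset.sum_range_succ', add_comm]
  congr 1
  · rw [tderb_condE_cons, tderb_condE_zero, tderb_condE_zero]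
    simp
  · apply Finset.sum_congr rfl
    intro j _
    rw [tderb_condE_cons, tderb_condE_cons, tderb_condE_cons, tderb_condE_cons,
      show i + (j + 1) = i + 1 + j by ring]
    simp only [Nat.add_le_add_iff_right]

private theorem tderb_score2_zero (n i : ℕ) (H V : (Fin n → E) → ℝ) (ω ω' : Fin n → E) :
    score2 m ζ 0 n i H V ω ω' = score m ζ n i H V ω + score m ζ n i H V ω' := by
  unfold score2 score
  rw [← Finset.sum_add_distrib]
  apply Finset.sum_congr rfl
  intro j _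
  simp only [Nat.zero_le, if_true]
  ring

private theorem tderb_meas_score2 (r n i : ℕ) {A : Type} [MeasurableSpace A]
    {H V : A → (Fin n → E) → ℝ} (hH : Measurable (Function.uncurry H))
    (hV : Measurable (Function.uncurry V)) :
    Measurable (fun p : A × (Fin n → E) × (Fin n → E) =>
      score2 m ζ r n i (H p.1) (V p.1) p.2.1 p.2.2) := by
  unfold score2
  have h1 : ∀ k, Measurable (fun p : A × (Fin n → E) × (Fin n → E) =>
      condE m ζ k n i (H p.1) (V p.1) p.2.1) := fun k =>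
    (measurable_condE m ζ n k i hH hV).comp
      (measurable_fst.prodMk (measurable_fst.comp measurable_snd))
  have h2 : ∀ k, Measurable (fun p : A × (Fin n → E) × (Fin n → E) =>
      condE m ζ k n i (H p.1) (V p.1) p.2.2) := fun k =>
    (measurable_condE m ζ n k i hH hV).comp
      (measurable_fst.prodMk (measurable_snd.comp measurable_snd))
  apply Finset.measurable_sum
  intro j _
  apply Measurable.const_mul
  apply ((h1 _).sub (h1 _)).add
  split_ifs
  · exact (h2 _).sub (h2 _)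
  · exact measurable_const

private theorem tderb_meas_score (n i : ℕ) {H V : (Fin n → E) → ℝ} (hH : Measurable H)
    (hV : Measurable V) : Measurable (score m ζ n i H V) := by
  unfold score
  have h1 : ∀ k, Measurable (fun ω : Fin n → E => condE m ζ k n i H V ω) := fun k =>
    (measurable_condE m ζ n k i (A := Unit) (H := fun _ => H) (Φ := fun _ => V)
      (hH.comp measurable_snd) (hV.comp measurable_snd)).comp
      ((measurable_const (a := ())).prodMk measurable_id)
  apply Finset.measurable_sum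
  intro j _
  apply Measurable.const_mul
  exact (h1 _).sub (h1 _)

private theorem tderb_score_bound (hβ : Dom m β) (hζ : Exps ζ) (n i : ℕ) {C : ℝ} (hC : 0 ≤ C) :
    ∃ K : ℝ, 0 ≤ K ∧ ∀ H V : (Fin n → E) → ℝ, HamC C β H → TameC C β V → ∀ ω,
      |score m ζ n i H V ω| ≤ K * Real.exp (K * ∑ j, β (ω j)) := by
  obtain ⟨K, hK, h⟩ := condE_tameC hβ n C hC
  refine ⟨2 * n * K + K, by positivity, fun H V hH hV ω => ?_⟩
  have hS : 0 ≤ ∑ j, β (ω j) := Finset.sum_nonneg (fun i _ => hβ.nonneg _)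
  unfold score
  have h1 : ∀ j ∈ Finset.range n, |ζ (i + j) * (condE m ζ (j + 1) n i H V ω -
      condE m ζ j n i H V ω)| ≤ 2 * K * Real.exp (K * ∑ j, β (ω j)) := by
    intro j _
    rw [abs_mul, abs_of_nonneg (hζ _).1]
    have h2 := (h ζ hζ (j + 1) i H V hH hV).bound ω
    have h3 := (h ζ hζ j i H V hH hV).bound ω
    calc ζ (i + j) * |condE m ζ (j + 1) n i H V ω - condE m ζ j n i H V ω|
        ≤ 1 * |condE m ζ (j + 1) n i H V ω - condE m ζ j n i H V ω| :=
          mul_le_mul_of_nonneg_right (hζ _).2 (abs_nonneg _)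
      _ ≤ _ := by rw [one_mul]; refine (abs_sub _ _).trans ?_; linarith
  refine (Finset.abs_sum_le_sum_abs _ _).trans ((Finset.sum_le_sum h1).trans ?_)
  rw [Finset.sum_const, Finset.card_range, nsmul_eq_mul]
  have h4 : (n : ℝ) * (2 * K * Real.exp (K * ∑ j, β (ω j))) =
      2 * n * K * Real.exp (K * ∑ j, β (ω j)) := by ring
  rw [h4]
  apply mul_le_mul (by linarith) _ (Real.exp_pos _).le (by positivity)
  apply Real.exp_le_exp.mpr
  apply mul_le_mul_of_nonneg_right _ hS
  have : 0 ≤ 2 * (n : ℝ) * K := by positivity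
  linarith

private theorem tderb_score2_bound (hβ : Dom m β) (hζ : Exps ζ) (r n i : ℕ) {C : ℝ} (hC : 0 ≤ C) :
    ∃ K : ℝ, 0 ≤ K ∧ ∀ H V : (Fin (n + 1) → E) → ℝ, HamC C β H → TameC C β V → ∀ e ω ω',
      |score2 m ζ r n (i + 1) (fun ω => H (Fin.cons e ω)) (fun ω => V (Fin.cons e ω)) ω ω'| ≤
        K * Real.exp (K * β e) * Real.exp (K * ∑ j, (β (ω j) + β (ω' j))) := by
  obtain ⟨K, hK, h⟩ := condE_tameC hβ (n + 1) C hC
  refine ⟨4 * n * K + K, by positivity, fun H V hH hV e ω ω' => ?_⟩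
  have hb := hβ.nonneg e
  have hS : ∀ ω : Fin n → E, 0 ≤ ∑ j, β (ω j) := fun ω =>
    Finset.sum_nonneg (fun i _ => hβ.nonneg _)
  have hc : ∀ k, ∀ ω : Fin n → E, |condE m ζ k n (i + 1) (fun ω => H (Fin.cons e ω))
      (fun ω => V (Fin.cons e ω)) ω| ≤ K * Real.exp (K * β e) * Real.exp (K * ∑ j, β (ω j)) := by
    intro k ω
    rw [← tderb_condE_cons]
    have h2 := (h ζ hζ (k + 1) i H V hH hV).bound (Fin.cons e ω)
    rw [Fin.sum_univ_succ] at h2
    simp only [Fin.cons_zero, Fin.cons_succ] at h2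
    rw [mul_add, Real.exp_add] at h2
    linarith
  have hc' : ∀ k, ∀ ω ω₁ : Fin n → E, ∑ j, β (ω j) ≤ ∑ j, β (ω₁ j) →
      |condE m ζ k n (i + 1) (fun ω => H (Fin.cons e ω))
      (fun ω => V (Fin.cons e ω)) ω| ≤ K * Real.exp (K * β e) * Real.exp (K * ∑ j, β (ω₁ j)) := by
    intro k ω ω₁ hle
    refine (hc k ω).trans ?_
    apply mul_le_mul_of_nonneg_left _ (by positivity)
    exact Real.exp_le_exp.mpr (mul_le_mul_of_nonneg_left hle hK)
  obtain ⟨B, hB⟩ : ∃ B, B = K * Real.exp (K * β e) *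
    Real.exp (K * ∑ j, (β (ω j) + β (ω' j))) := ⟨_, rfl⟩
  have hsum : ∑ j, (β (ω j) + β (ω' j)) = ∑ j, β (ω j) + ∑ j, β (ω' j) :=
    Finset.sum_add_distrib
  have hB1 : ∀ k, |condE m ζ k n (i + 1) (fun ω => H (Fin.cons e ω))
      (fun ω => V (Fin.cons e ω)) ω| ≤ B := by
    intro k
    refine (hc k ω).trans ?_
    rw [hB, hsum]
    apply mul_le_mul_of_nonneg_left _ (by positivity)
    apply Real.exp_le_exp.mpr
    apply mul_le_mul_of_nonneg_left _ hK
    linarith [hS ω']
  have hB2 : ∀ k, |condE m ζ k n (i + 1) (fun ω => H (Fin.cons e ω))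
      (fun ω => V (Fin.cons e ω)) ω'| ≤ B := by
    intro k
    refine (hc k ω').trans ?_
    rw [hB, hsum]
    apply mul_le_mul_of_nonneg_left _ (by positivity)
    apply Real.exp_le_exp.mpr
    apply mul_le_mul_of_nonneg_left _ hK
    linarith [hS ω]
  have hB0 : 0 ≤ B := (abs_nonneg _).trans (hB1 0)
  unfold score2
  have h1 : ∀ j ∈ Finset.range n, |ζ (i + 1 + j) *
      ((condE m ζ (j + 1) n (i + 1) (fun ω => H (Fin.cons e ω)) (fun ω => V (Fin.cons e ω)) ω -
        condE m ζ j n (i + 1) (fun ω => H (Fin.cons e ω)) (fun ω => V (Fin.cons e ω)) ω) +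
      (if r ≤ j then
        condE m ζ (j + 1) n (i + 1) (fun ω => H (Fin.cons e ω)) (fun ω => V (Fin.cons e ω)) ω' -
        condE m ζ j n (i + 1) (fun ω => H (Fin.cons e ω)) (fun ω => V (Fin.cons e ω)) ω'
        else 0))| ≤ 4 * B := by
    intro j _
    rw [abs_mul, abs_of_nonneg (hζ _).1]
    have a1 := hB1 (j + 1)
    have a2 := hB1 j
    have a3 := hB2 (j + 1)
    have a4 := hB2 j
    refine (mul_le_mul_of_nonneg_right (hζ _).2 (abs_nonneg _)).trans ?_
    rw [one_mul]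
    refine (abs_add_le _ _).trans ?_
    have b1 := abs_sub (condE m ζ (j + 1) n (i + 1) (fun ω => H (Fin.cons e ω))
      (fun ω => V (Fin.cons e ω)) ω) (condE m ζ j n (i + 1) (fun ω => H (Fin.cons e ω))
      (fun ω => V (Fin.cons e ω)) ω)
    split_ifs with hr
    · have b2 := abs_sub (condE m ζ (j + 1) n (i + 1) (fun ω => H (Fin.cons e ω))
        (fun ω => V (Fin.cons e ω)) ω') (condE m ζ j n (i + 1) (fun ω => H (Fin.cons e ω))
        (fun ω => V (Fin.cons e ω)) ω')
      linarith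
    · rw [abs_zero]
      linarith
  refine (Finset.abs_sum_le_sum_abs _ _).trans ((Finset.sum_le_sum h1).trans ?_)
  rw [Finset.sum_const, Finset.card_range, nsmul_eq_mul, hB]
  have hK' : K ≤ 4 * n * K + K := by
    have : 0 ≤ 4 * (n : ℝ) * K := by positivity
    linarith
  have hS2 : 0 ≤ ∑ j, (β (ω j) + β (ω' j)) := by rw [hsum]; linarith [hS ω, hS ω']
  calc (n : ℝ) * (4 * (K * Real.exp (K * β e) * Real.exp (K * ∑ j, (β (ω j) + β (ω' j)))))
      = (4 * n * K) * (Real.exp (K * β e)) * Real.exp (K * ∑ j, (β (ω j) + β (ω' j))) := by ring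
    _ ≤ _ := by
      apply mul_le_mul _ _ (Real.exp_pos _).le (by positivity)
      · apply mul_le_mul (by linarith) _ (Real.exp_pos _).le (by positivity)
        exact Real.exp_le_exp.mpr (mul_le_mul_of_nonneg_right hK' hb)
      · exact Real.exp_le_exp.mpr (mul_le_mul_of_nonneg_right hK' hS2)

private theorem tderb_split {n : ℕ} (ω ω' : Fin n → E) (C : ℝ) :
    C * Real.exp (C * ∑ i, (β (ω i) + β (ω' i))) =
      C * Real.exp (C * ∑ i, β (ω i)) * Real.exp (C * ∑ i, β (ω' i)) := by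
  rw [Finset.sum_add_distrib, mul_add, Real.exp_add]
  ring

private theorem tderb_base (hβ : Dom m β) (hζ : Exps ζ) (n i : ℕ) {H V : ℝ → (Fin n → E) → ℝ}
    {Φ Φ' : ℝ → (Fin n → E) → (Fin n → E) → ℝ} {C c d t : ℝ} (hC : 0 ≤ C)
    (ht : t ∈ Set.Ioo c d) (hH : ∀ u ∈ Set.Ioo c d, HamC C β (H u))
    (hV : ∀ u ∈ Set.Ioo c d, TameC C β (V u)) (hΦ : ∀ u ∈ Set.Ioo c d, Tame2C C β (Φ u))
    (hΦ' : ∀ u ∈ Set.Ioo c d, Tame2C C β (Φ' u))
    (hd : ∀ u ∈ Set.Ioo c d, ∀ ω, HasDerivAt (fun s => H s ω) (V u ω) u)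
    (hd' : ∀ u ∈ Set.Ioo c d, ∀ ω ω', HasDerivAt (fun s => Φ s ω ω') (Φ' u ω ω') u) :
    HasDerivAt (fun s => pathE m ζ n i (H s) (fun ω => pathE m ζ n i (H s) (Φ s ω)))
      (pathE m ζ n i (H t) (fun ω => pathE m ζ n i (H t) (Φ' t ω)) +
        pathE m ζ n i (H t) (fun ω => pathE m ζ n i (H t)
          (fun ω' => Φ t ω ω' * score2 m ζ 0 n i (H t) (V t) ω ω'))) t := by
  have hS : ∀ ω : Fin n → E, 0 ≤ ∑ j, β (ω j) := fun ω =>
    Finset.sum_nonneg (fun i _ => hβ.nonneg _)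
  obtain ⟨K1, hK1, h1⟩ := tderb_score_bound (m := m) (ζ := ζ) hβ hζ n i hC
  -- the two kinds of inner functions
  have hm1 : ∀ u ∈ Set.Ioo c d, ∀ ω, Measurable (Φ u ω) := fun u hu ω =>
    (hΦ u hu).meas.comp measurable_prodMk_left
  have hm2 : ∀ u ∈ Set.Ioo c d, ∀ ω, Measurable (Φ' u ω) := fun u hu ω =>
    (hΦ' u hu).meas.comp measurable_prodMk_left
  have hms : ∀ u ∈ Set.Ioo c d, Measurable (score m ζ n i (H u) (V u)) := fun u hu =>
    tderb_meas_score n i (hH u hu).meas (hV u hu).meas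
  -- bounds
  have hb1 : ∀ u ∈ Set.Ioo c d, ∀ ω ω', |Φ u ω ω'| ≤
      C * Real.exp (C * ∑ i, β (ω i)) * Real.exp (C * ∑ i, β (ω' i)) := fun u hu ω ω' => by
    rw [← tderb_split]; exact (hΦ u hu).bound ω ω'
  have hb2 : ∀ u ∈ Set.Ioo c d, ∀ ω ω', |Φ' u ω ω'| ≤
      C * Real.exp (C * ∑ i, β (ω i)) * Real.exp (C * ∑ i, β (ω' i)) := fun u hu ω ω' => by
    rw [← tderb_split]; exact (hΦ' u hu).bound ω ω'
  have hb3 : ∀ u ∈ Set.Ioo c d, ∀ ω ω', |Φ u ω ω' * score m ζ n i (H u) (V u) ω'| ≤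
      C * K1 * Real.exp (C * ∑ i, β (ω i)) * Real.exp ((C + K1) * ∑ i, β (ω' i)) := by
    intro u hu ω ω'
    rw [abs_mul]
    refine (mul_le_mul (hb1 u hu ω ω') (h1 _ _ (hH u hu) (hV u hu) ω') (abs_nonneg _)
      (by positivity)).trans (le_of_eq ?_)
    rw [add_mul, Real.exp_add]
    ring
  -- derivative of the inner function
  obtain ⟨K2, hK2, h2⟩ := pathE_bound hβ n C C hC hC
  obtain ⟨K3, hK3, h3⟩ := pathE_bound hβ n C (C + K1) hC (by positivity)
  have hham : ∀ u ∈ Set.Ioo c d, ∀ ω, |H u ω| ≤ C + C * ∑ j, β (ω j) := fun u hu ω => by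
    have := (hH u hu).bound ω
    linarith
  have hder : ∀ u ∈ Set.Ioo c d, ∀ ω, HasDerivAt (fun s => pathE m ζ n i (H s) (Φ s ω))
      (pathE m ζ n i (H u) (Φ' u ω) + pathE m ζ n i (H u)
        (fun ω' => Φ u ω ω' * score m ζ n i (H u) (V u) ω')) u := by
    intro u hu ω
    obtain ⟨C', hC'⟩ : ∃ C', C' = C + C * Real.exp (C * ∑ i, β (ω i)) := ⟨_, rfl⟩
    have hCC' : C ≤ C' := by rw [hC']; have : 0 ≤ C * Real.exp (C * ∑ i, β (ω i)) := by positivity
                             linarith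
    have hC0 : 0 ≤ C' := hC.trans hCC'
    have key : ∀ (Ψ : (Fin n → E) → ℝ), Measurable Ψ → (∀ ω', |Ψ ω'| ≤
        C * Real.exp (C * ∑ i, β (ω i)) * Real.exp (C * ∑ i, β (ω' i))) → TameC C' β Ψ := by
      intro Ψ hΨ hb
      refine ⟨hΨ, fun ω' => (hb ω').trans ?_⟩
      apply mul_le_mul (by rw [hC']; linarith) _ (Real.exp_pos _).le hC0
      exact Real.exp_le_exp.mpr (mul_le_mul_of_nonneg_right hCC' (hS ω'))
    exact pathE_hasDerivAt' hβ hζ n i (H := H) (V := V) (Φ := fun s => Φ s ω)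
      (Φ' := fun s => Φ' s ω) hC0 hu
      (fun u hu => tderb_ham_mono hβ hC hCC' (hH u hu))
      (fun u hu => tderb_tame_mono hβ hC hCC' (hV u hu))
      (fun u hu => key _ (hm1 u hu ω) (hb1 u hu ω))
      (fun u hu => key _ (hm2 u hu ω) (hb2 u hu ω)) hd (fun u hu ω' => hd' u hu ω ω')
  -- classes
  have hc1 : ∀ u ∈ Set.Ioo c d, ∀ ω, |pathE m ζ n i (H u) (Φ u ω)| ≤
      C * Real.exp (C * ∑ i, β (ω i)) * (K2 * Real.exp (K2 * C)) := fun u hu ω =>
    h2 ζ hζ i C _ hC (by positivity) (H u) (Φ u ω) (hH u hu).meas (hm1 u hu ω) (hham u hu)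
      (hb1 u hu ω)
  have hc2 : ∀ u ∈ Set.Ioo c d, ∀ ω, |pathE m ζ n i (H u) (Φ' u ω)| ≤
      C * Real.exp (C * ∑ i, β (ω i)) * (K2 * Real.exp (K2 * C)) := fun u hu ω =>
    h2 ζ hζ i C _ hC (by positivity) (H u) (Φ' u ω) (hH u hu).meas (hm2 u hu ω) (hham u hu)
      (hb2 u hu ω)
  have hc3 : ∀ u ∈ Set.Ioo c d, ∀ ω, |pathE m ζ n i (H u)
      (fun ω' => Φ u ω ω' * score m ζ n i (H u) (V u) ω')| ≤
      C * K1 * Real.exp (C * ∑ i, β (ω i)) * (K3 * Real.exp (K3 * C)) := fun u hu ω =>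
    h3 ζ hζ i C _ hC (by positivity) (H u) _ (hH u hu).meas ((hm1 u hu ω).mul (hms u hu))
      (hham u hu) (hb3 u hu ω)
  obtain ⟨L, hL⟩ : ∃ L, L = C + C * (K2 * Real.exp (K2 * C)) +
    C * K1 * (K3 * Real.exp (K3 * C)) := ⟨_, rfl⟩
  have q1 : 0 ≤ C * (K2 * Real.exp (K2 * C)) := by positivity
  have q2 : 0 ≤ C * K1 * (K3 * Real.exp (K3 * C)) := by positivity
  have hCL : C ≤ L := by rw [hL]; linarith
  have hL0 : 0 ≤ L := hC.trans hCL
  have hmono : ∀ ω : Fin n → E, Real.exp (C * ∑ i, β (ω i)) ≤ Real.exp (L * ∑ i, β (ω i)) :=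
    fun ω => Real.exp_le_exp.mpr (mul_le_mul_of_nonneg_right hCL (hS ω))
  have hmH : ∀ u ∈ Set.Ioo c d, Measurable (Function.uncurry (fun _ : Fin n → E => H u)) :=
    fun u hu => (hH u hu).meas.comp measurable_snd
  have hT1 : ∀ u ∈ Set.Ioo c d, TameC L β (fun ω => pathE m ζ n i (H u) (Φ u ω)) := by
    intro u hu
    refine ⟨measurable_pathE m ζ n i (hmH u hu) (hΦ u hu).meas, fun ω => (hc1 u hu ω).trans ?_⟩
    calc C * Real.exp (C * ∑ i, β (ω i)) * (K2 * Real.exp (K2 * C))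
        = (C * (K2 * Real.exp (K2 * C))) * Real.exp (C * ∑ i, β (ω i)) := by ring
      _ ≤ L * Real.exp (L * ∑ i, β (ω i)) :=
          mul_le_mul (by rw [hL]; linarith) (hmono ω) (Real.exp_pos _).le hL0
  have hmP3 : ∀ u ∈ Set.Ioo c d, Measurable (fun ω => pathE m ζ n i (H u)
      (fun ω' => Φ u ω ω' * score m ζ n i (H u) (V u) ω')) := fun u hu =>
    measurable_pathE m ζ n i (hmH u hu) ((hΦ u hu).meas.mul ((hms u hu).comp measurable_snd))
  have hT2 : ∀ u ∈ Set.Ioo c d, TameC L β (fun ω => pathE m ζ n i (H u) (Φ' u ω) +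
      pathE m ζ n i (H u) (fun ω' => Φ u ω ω' * score m ζ n i (H u) (V u) ω')) := by
    intro u hu
    refine ⟨(measurable_pathE m ζ n i (hmH u hu) (hΦ' u hu).meas).add (hmP3 u hu),
      fun ω => (abs_add_le _ _).trans ?_⟩
    refine (add_le_add (hc2 u hu ω) (hc3 u hu ω)).trans ?_
    calc C * Real.exp (C * ∑ i, β (ω i)) * (K2 * Real.exp (K2 * C)) +
          C * K1 * Real.exp (C * ∑ i, β (ω i)) * (K3 * Real.exp (K3 * C))
        = (C * (K2 * Real.exp (K2 * C)) + C * K1 * (K3 * Real.exp (K3 * C))) *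
            Real.exp (C * ∑ i, β (ω i)) := by ring
      _ ≤ L * Real.exp (L * ∑ i, β (ω i)) :=
          mul_le_mul (by rw [hL]; linarith) (hmono ω) (Real.exp_pos _).le hL0
  have hmain := pathE_hasDerivAt' hβ hζ n i (H := H) (V := V)
    (Φ := fun s ω => pathE m ζ n i (H s) (Φ s ω))
    (Φ' := fun u ω => pathE m ζ n i (H u) (Φ' u ω) +
      pathE m ζ n i (H u) (fun ω' => Φ u ω ω' * score m ζ n i (H u) (V u) ω'))
    hL0 ht (fun u hu => tderb_ham_mono hβ hC hCL (hH u hu))
    (fun u hu => tderb_tame_mono hβ hC hCL (hV u hu)) hT1 hT2 hd hder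
  refine hmain.congr_deriv ?_
  -- algebra
  have hHt : Ham β (H t) := HamC.ham hC (hH t ht)
  have t1 : ∀ ω, Tame β (Φ t ω) := fun ω => ⟨hm1 t ht ω,
    C + C * Real.exp (C * ∑ i, β (ω i)), by positivity, fun ω' => by
      refine (hb1 t ht ω ω').trans ?_
      have : 0 ≤ C * Real.exp (C * ∑ i, β (ω i)) := by positivity
      apply mul_le_mul (by linarith) _ (Real.exp_pos _).le (by positivity)
      exact Real.exp_le_exp.mpr (mul_le_mul_of_nonneg_right (by linarith) (hS ω'))⟩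
  have tsc : Tame β (score m ζ n i (H t) (V t)) := ⟨hms t ht, K1, hK1, h1 _ _ (hH t ht) (hV t ht)⟩
  have e1 : ∀ ω, pathE m ζ n i (H t) (fun ω' => Φ t ω ω' * score2 m ζ 0 n i (H t) (V t) ω ω') =
      pathE m ζ n i (H t) (Φ t ω) * score m ζ n i (H t) (V t) ω +
      pathE m ζ n i (H t) (fun ω' => Φ t ω ω' * score m ζ n i (H t) (V t) ω') := by
    intro ω
    have e2 : (fun ω' => Φ t ω ω' * score2 m ζ 0 n i (H t) (V t) ω ω') =
        fun ω' => score m ζ n i (H t) (V t) ω * Φ t ω ω' +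
          Φ t ω ω' * score m ζ n i (H t) (V t) ω' := by
      funext ω'
      rw [tderb_score2_zero]
      ring
    rw [e2, pathE_add hβ hζ n i hHt ((Tame.const hβ _).mul hβ (t1 ω)) ((t1 ω).mul hβ tsc),
      pathE_mul, mul_comm]
  simp only [e1]
  have tA : Tame β (fun ω => pathE m ζ n i (H t) (Φ' t ω)) := by
    refine ⟨measurable_pathE m ζ n i (hmH t ht) (hΦ' t ht).meas, L, hL0,
      fun ω => (hc2 t ht ω).trans ?_⟩
    calc C * Real.exp (C * ∑ i, β (ω i)) * (K2 * Real.exp (K2 * C))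
        = (C * (K2 * Real.exp (K2 * C))) * Real.exp (C * ∑ i, β (ω i)) := by ring
      _ ≤ L * Real.exp (L * ∑ i, β (ω i)) :=
          mul_le_mul (by rw [hL]; linarith) (hmono ω) (Real.exp_pos _).le hL0
  have tB : Tame β (fun ω => pathE m ζ n i (H t)
      (fun ω' => Φ t ω ω' * score m ζ n i (H t) (V t) ω')) := by
    refine ⟨hmP3 t ht, L, hL0, fun ω => (hc3 t ht ω).trans ?_⟩
    calc C * K1 * Real.exp (C * ∑ i, β (ω i)) * (K3 * Real.exp (K3 * C))
        = (C * K1 * (K3 * Real.exp (K3 * C))) * Real.exp (C * ∑ i, β (ω i)) := by ring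
      _ ≤ L * Real.exp (L * ∑ i, β (ω i)) :=
          mul_le_mul (by rw [hL]; linarith) (hmono ω) (Real.exp_pos _).le hL0
  have tC : Tame β (fun ω => pathE m ζ n i (H t) (Φ t ω) * score m ζ n i (H t) (V t) ω) :=
    ((hT1 t ht).tame hL0).mul hβ tsc
  rw [pathE_add hβ hζ n i hHt tA tB, pathE_add hβ hζ n i hHt tC tB]
  ring

private theorem tderb_score2_nil (r i : ℕ) (H V : (Fin 0 → E) → ℝ) (ω ω' : Fin 0 → E) :
    score2 m ζ r 0 i H V ω ω' = 0 := by
  simp [score2]

/-- (DER2) for pairs. -/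
theorem pairE_hasDerivAt' (hβ : Dom m β) (hζ : Exps ζ) (r n i : ℕ) {H V : ℝ → (Fin n → E) → ℝ}
    {Φ Φ' : ℝ → (Fin n → E) → (Fin n → E) → ℝ} {C c d t : ℝ} (hC : 0 ≤ C)
    (ht : t ∈ Set.Ioo c d) (hH : ∀ u ∈ Set.Ioo c d, HamC C β (H u))
    (hV : ∀ u ∈ Set.Ioo c d, TameC C β (V u)) (hΦ : ∀ u ∈ Set.Ioo c d, Tame2C C β (Φ u))
    (hΦ' : ∀ u ∈ Set.Ioo c d, Tame2C C β (Φ' u))
    (hd : ∀ u ∈ Set.Ioo c d, ∀ ω, HasDerivAt (fun s => H s ω) (V u ω) u)
    (hd' : ∀ u ∈ Set.Ioo c d, ∀ ω ω', HasDerivAt (fun s => Φ s ω ω') (Φ' u ω ω') u) :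
    HasDerivAt (fun s => pairE m ζ r n i (H s) (Φ s))
      (pairE m ζ r n i (H t) (Φ' t) +
        pairE m ζ r n i (H t) (fun ω ω' => Φ t ω ω' * score2 m ζ r n i (H t) (V t) ω ω')) t := by
  induction r generalizing n i H V Φ Φ' C t with
  | zero =>
    have h := tderb_base hβ hζ n i hC ht hH hV hΦ hΦ' hd hd'
    have e : ∀ (H : (Fin n → E) → ℝ) (Φ : (Fin n → E) → (Fin n → E) → ℝ),
        pairE m ζ 0 n i H Φ = pathE m ζ n i H (fun ω => pathE m ζ n i H (fun ω' => Φ ω ω')) := by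
      intro H Φ
      cases n <;> rfl
    simp only [e]
    exact h
  | succ r ih =>
    cases n with
    | zero =>
      have e : ∀ (H : (Fin 0 → E) → ℝ) (Φ : (Fin 0 → E) → (Fin 0 → E) → ℝ),
        pairE m ζ (r + 1) 0 i H Φ = Φ Fin.elim0 Fin.elim0 := fun _ _ => rfl
      simp only [e, tderb_score2_nil, mul_zero, add_zero]
      exact hd' t ht _ _
    | succ n =>
      have e : ∀ (H : (Fin (n + 1) → E) → ℝ) (Φ : (Fin (n + 1) → E) → (Fin (n + 1) → E) → ℝ),
        pairE m ζ (r + 1) (n + 1) i H Φ = ∫ e, wgt m ζ n i H e *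
          pairE m ζ r n (i + 1) (fun ω => H (Fin.cons e ω))
            (fun ω ω' => Φ (Fin.cons e ω) (Fin.cons e ω')) ∂m := fun _ _ => rfl
      simp only [e]
      -- notation
      obtain ⟨K1, hK1, h1⟩ := tderb_score2_bound (m := m) (ζ := ζ) hβ hζ r n i hC
      have hmc : Measurable (fun p : E × (Fin n → E) => (Fin.cons p.1 p.2 : Fin (n + 1) → E)) :=
        tderb_meas_cons
      have hmc2 : Measurable (fun p : E × (Fin n → E) × (Fin n → E) =>
          ((Fin.cons p.1 p.2.1 : Fin (n + 1) → E), (Fin.cons p.1 p.2.2 : Fin (n + 1) → E))) :=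
        (hmc.comp (measurable_fst.prodMk (measurable_fst.comp measurable_snd))).prodMk
          (hmc.comp (measurable_fst.prodMk (measurable_snd.comp measurable_snd)))
      have hmHs : ∀ u ∈ Set.Ioo c d,
          Measurable (Function.uncurry (fun (e : E) (ω : Fin n → E) => H u (Fin.cons e ω))) :=
        fun u hu => (hH u hu).meas.comp hmc
      have hmVs : ∀ u ∈ Set.Ioo c d,
          Measurable (Function.uncurry (fun (e : E) (ω : Fin n → E) => V u (Fin.cons e ω))) :=
        fun u hu => (hV u hu).meas.comp hmc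
      have hmΦs : ∀ u ∈ Set.Ioo c d, Measurable (fun p : E × (Fin n → E) × (Fin n → E) =>
          Φ u (Fin.cons p.1 p.2.1) (Fin.cons p.1 p.2.2)) := fun u hu => (hΦ u hu).meas.comp hmc2
      have hmΦs' : ∀ u ∈ Set.Ioo c d, Measurable (fun p : E × (Fin n → E) × (Fin n → E) =>
          Φ' u (Fin.cons p.1 p.2.1) (Fin.cons p.1 p.2.2)) := fun u hu => (hΦ' u hu).meas.comp hmc2
      have hmS : ∀ u ∈ Set.Ioo c d, Measurable (fun p : E × (Fin n → E) × (Fin n → E) =>
          score2 m ζ r n (i + 1) (fun ω => H u (Fin.cons p.1 ω)) (fun ω => V u (Fin.cons p.1 ω))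
            p.2.1 p.2.2) := fun u hu => tderb_meas_score2 r n (i + 1) (hmHs u hu) (hmVs u hu)
      -- measurability in `e`
      have M1 : ∀ u ∈ Set.Ioo c d, Measurable (wgt m ζ n i (H u)) := by
        intro u hu
        unfold wgt
        exact (((measurable_nest m ζ n (i + 1) (hmHs u hu)).sub measurable_const).const_mul _).exp
      have M2 : ∀ u ∈ Set.Ioo c d, Measurable (fun e => pathE m ζ n (i + 1)
          (fun ω => H u (Fin.cons e ω)) (fun ω => V u (Fin.cons e ω))) := fun u hu =>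
        measurable_pathE m ζ n (i + 1) (hmHs u hu) (hmVs u hu)
      have M3 : ∀ u ∈ Set.Ioo c d, Measurable (fun e => pairE m ζ r n (i + 1)
          (fun ω => H u (Fin.cons e ω)) (fun ω ω' => Φ u (Fin.cons e ω) (Fin.cons e ω'))) :=
        fun u hu => measurable_pairE m ζ n r (i + 1) (hmHs u hu) (hmΦs u hu)
      have M4 : ∀ u ∈ Set.Ioo c d, Measurable (fun e => pairE m ζ r n (i + 1)
          (fun ω => H u (Fin.cons e ω)) (fun ω ω' => Φ' u (Fin.cons e ω) (Fin.cons e ω'))) :=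
        fun u hu => measurable_pairE m ζ n r (i + 1) (hmHs u hu) (hmΦs' u hu)
      have M5 : ∀ u ∈ Set.Ioo c d, Measurable (fun e => pairE m ζ r n (i + 1)
          (fun ω => H u (Fin.cons e ω)) (fun ω ω' => Φ u (Fin.cons e ω) (Fin.cons e ω') *
            score2 m ζ r n (i + 1) (fun ω => H u (Fin.cons e ω)) (fun ω => V u (Fin.cons e ω))
              ω ω')) :=
        fun u hu => measurable_pairE m ζ n r (i + 1) (hmHs u hu)
          ((hmΦs u hu).mul (hmS u hu))
      -- uniform bounds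
      obtain ⟨K0, hK0⟩ : ∃ K0, K0 = 2 * C + (C * K1 + (2 * C + K1)) := ⟨_, rfl⟩
      have hCK1 : 0 ≤ C * K1 := mul_nonneg hC hK1
      have hK00 : 0 ≤ K0 := by rw [hK0]; positivity
      have hSS : ∀ ω ω' : Fin n → E, 0 ≤ ∑ j, (β (ω j) + β (ω' j)) := fun ω ω' =>
        Finset.sum_nonneg (fun i _ => add_nonneg (hβ.nonneg _) (hβ.nonneg _))
      have up : ∀ (e : E) (ω ω' : Fin n → E) (a b k : ℝ), 0 ≤ a → a ≤ K0 → b ≤ K0 → k ≤ K0 →
          a * Real.exp (b * β e) * Real.exp (k * ∑ j, (β (ω j) + β (ω' j))) ≤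
          K0 * Real.exp (K0 * β e) * Real.exp (K0 * ∑ j, (β (ω j) + β (ω' j))) := by
        intro e ω ω' a b k ha hab hb hk
        apply mul_le_mul _ _ (Real.exp_pos _).le (by positivity)
        · apply mul_le_mul hab _ (Real.exp_pos _).le hK00
          exact Real.exp_le_exp.mpr (mul_le_mul_of_nonneg_right hb (hβ.nonneg e))
        · exact Real.exp_le_exp.mpr (mul_le_mul_of_nonneg_right hk (hSS ω ω'))
      have B3 : ∀ u ∈ Set.Ioo c d, ∀ e ω ω', |Φ u (Fin.cons e ω) (Fin.cons e ω')| ≤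
          K0 * Real.exp (K0 * β e) * Real.exp (K0 * ∑ j, (β (ω j) + β (ω' j))) :=
        fun u hu e ω ω' => (tderb_tame2_cons hβ hC (hΦ u hu) e ω ω').trans
          (up e ω ω' _ _ _ hC (by rw [hK0]; linarith) (by rw [hK0]; linarith)
            (by rw [hK0]; linarith))
      have B4 : ∀ u ∈ Set.Ioo c d, ∀ e ω ω', |Φ' u (Fin.cons e ω) (Fin.cons e ω')| ≤
          K0 * Real.exp (K0 * β e) * Real.exp (K0 * ∑ j, (β (ω j) + β (ω' j))) :=
        fun u hu e ω ω' => (tderb_tame2_cons hβ hC (hΦ' u hu) e ω ω').trans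
          (up e ω ω' _ _ _ hC (by rw [hK0]; linarith) (by rw [hK0]; linarith)
            (by rw [hK0]; linarith))
      have B5 : ∀ u ∈ Set.Ioo c d, ∀ e ω ω', |Φ u (Fin.cons e ω) (Fin.cons e ω') *
          score2 m ζ r n (i + 1) (fun ω => H u (Fin.cons e ω)) (fun ω => V u (Fin.cons e ω))
              ω ω'| ≤
          K0 * Real.exp (K0 * β e) * Real.exp (K0 * ∑ j, (β (ω j) + β (ω' j))) := by
        intro u hu e ω ω'
        rw [abs_mul]
        refine (mul_le_mul (tderb_tame2_cons hβ hC (hΦ u hu) e ω ω')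
          (h1 (H u) (V u) (hH u hu) (hV u hu) e ω ω') (abs_nonneg _) (by positivity)).trans ?_
        refine (le_of_eq ?_).trans (up e ω ω' (C * K1) (2 * C + K1) (C + K1) hCK1
          (by rw [hK0]; linarith) (by rw [hK0]; linarith) (by rw [hK0]; linarith))
        rw [add_mul, Real.exp_add, add_mul (a := C) (b := K1), Real.exp_add]
        ring
      have U1 := tderbU_wgt hβ hζ n i hC hH
      have U2 := tderbU_path hβ hζ n i hC hH hV
      obtain ⟨k0, hk0, hk⟩ := tderb_path_const hβ hζ (n + 1) i hC hH hV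
      have U2' : tderbU β (Set.Ioo c d) (fun u (_ : E) => ζ i) := by
        refine tderbU_const hβ _ (k := 1) (fun u _ => ?_) zero_le_one
        rw [abs_of_nonneg (hζ i).1]
        exact (hζ i).2
      have U2'' : tderbU β (Set.Ioo c d) (fun u (_ : E) => -pathE m ζ (n + 1) i (H u) (V u)) :=
        tderbU_const hβ _ (fun u hu => by rw [abs_neg]; exact hk u hu) hk0
      have hslice2 : ∀ (F : E × (Fin n → E) × (Fin n → E) → ℝ), Measurable F → ∀ e,
          Measurable (Function.uncurry (fun ω ω' : Fin n → E => F (e, ω, ω'))) := fun F hF e =>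
        hF.comp (measurable_const.prodMk measurable_id)
      have U3 := tderbU_pair (m := m) (ζ := ζ) hβ hζ r n i (H := H)
        (Φ := fun u e ω ω' => Φ u (Fin.cons e ω) (Fin.cons e ω')) hC hK00 hH
        (fun u hu e => hslice2 _ (hmΦs u hu) e) B3
      have U4 := tderbU_pair (m := m) (ζ := ζ) hβ hζ r n i (H := H)
        (Φ := fun u e ω ω' => Φ' u (Fin.cons e ω) (Fin.cons e ω')) hC hK00 hH
        (fun u hu e => hslice2 _ (hmΦs' u hu) e) B4
      have U5 := tderbU_pair (m := m) (ζ := ζ) hβ hζ r n i (H := H)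
        (Φ := fun u e ω ω' => Φ u (Fin.cons e ω) (Fin.cons e ω') *
          score2 m ζ r n (i + 1) (fun ω => H u (Fin.cons e ω)) (fun ω => V u (Fin.cons e ω))
              ω ω') hC hK00 hH
        (fun u hu e => hslice2 _ ((hmΦs u hu).mul (hmS u hu)) e) B5
      -- the derivative of the integrand
      have hF : ∀ e, ∀ u ∈ Set.Ioo c d, HasDerivAt
          (fun s => wgt m ζ n i (H s) e * pairE m ζ r n (i + 1) (fun ω => H s (Fin.cons e ω))
            (fun ω ω' => Φ s (Fin.cons e ω) (Fin.cons e ω')))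
          (wgt m ζ n i (H u) e * (ζ i * (pathE m ζ n (i + 1) (fun ω => H u (Fin.cons e ω))
              (fun ω => V u (Fin.cons e ω)) + -pathE m ζ (n + 1) i (H u) (V u))) *
            pairE m ζ r n (i + 1) (fun ω => H u (Fin.cons e ω))
              (fun ω ω' => Φ u (Fin.cons e ω) (Fin.cons e ω')) +
           wgt m ζ n i (H u) e * (pairE m ζ r n (i + 1) (fun ω => H u (Fin.cons e ω))
              (fun ω ω' => Φ' u (Fin.cons e ω) (Fin.cons e ω')) +
            pairE m ζ r n (i + 1) (fun ω => H u (Fin.cons e ω))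
              (fun ω ω' => Φ u (Fin.cons e ω) (Fin.cons e ω') *
                score2 m ζ r n (i + 1) (fun ω => H u (Fin.cons e ω))
                  (fun ω => V u (Fin.cons e ω)) ω ω'))) u := by
        intro e u hu
        have hCe : 0 ≤ tderbC C (β e) := hC.trans (tderbC_le hC (hβ.nonneg e)).1
        have d1 := nest_hasDerivAt' hβ hζ n (i + 1)
          (H := fun s (ω : Fin n → E) => H s (Fin.cons e ω))
          (V := fun s (ω : Fin n → E) => V s (Fin.cons e ω)) hCe hu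
          (fun u hu => tderb_slice_ham hβ hC (hH u hu) e)
          (fun u hu => tderb_slice_tame hβ hC (hV u hu) e)
          (fun u hu ω => hd u hu (Fin.cons e ω))
        have d2 := nest_hasDerivAt' hβ hζ (n + 1) i hC hu hH hV hd
        have d3 := (((d1.sub d2).const_mul (ζ i)).exp)
        have d4 := ih n (i + 1) (H := fun s (ω : Fin n → E) => H s (Fin.cons e ω))
          (V := fun s (ω : Fin n → E) => V s (Fin.cons e ω))
          (Φ := fun s (ω ω' : Fin n → E) => Φ s (Fin.cons e ω) (Fin.cons e ω'))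
          (Φ' := fun s (ω ω' : Fin n → E) => Φ' s (Fin.cons e ω) (Fin.cons e ω')) hCe hu
          (fun u hu => tderb_slice_ham hβ hC (hH u hu) e)
          (fun u hu => tderb_slice_tame hβ hC (hV u hu) e)
          (fun u hu => tderb_slice_tame2 hβ hC (hΦ u hu) e)
          (fun u hu => tderb_slice_tame2 hβ hC (hΦ' u hu) e)
          (fun u hu ω => hd u hu (Fin.cons e ω))
          (fun u hu ω ω' => hd' u hu (Fin.cons e ω) (Fin.cons e ω'))
        exact d3.mul d4
      obtain ⟨KF, hKF, hUF⟩ := tderbU_add hβ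
        (tderbU_mul hβ (tderbU_mul hβ U1 (tderbU_mul hβ U2' (tderbU_add hβ U2 U2''))) U3)
        (tderbU_mul hβ U1 (tderbU_add hβ U4 U5))
      obtain ⟨KG, hKG, hUG⟩ := tderbU_mul hβ U1 U3
      have hnhds : Set.Ioo c d ∈ nhds t := Ioo_mem_nhds ht.1 ht.2
      have hmain := hasDerivAt_integral_of_dominated_loc_of_deriv_le (μ := m)
        (F := fun s e => wgt m ζ n i (H s) e * pairE m ζ r n (i + 1)
          (fun ω => H s (Fin.cons e ω)) (fun ω ω' => Φ s (Fin.cons e ω) (Fin.cons e ω')))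
        (bound := fun e => KF * Real.exp (KF * β e)) hnhds
        (Filter.eventually_of_mem hnhds
          (fun u hu => ((M1 u hu).mul (M3 u hu)).aestronglyMeasurable))
        (tderb_integrable hβ ((M1 t ht).mul (M3 t ht)) (fun e => hUG t ht e))
        (((((M1 t ht).mul (((M2 t ht).add measurable_const).const_mul (ζ i))).mul (M3 t ht)).add
          ((M1 t ht).mul ((M4 t ht).add (M5 t ht)))).aestronglyMeasurable)
        (Filter.Eventually.of_forall (fun e u hu => by
          rw [Real.norm_eq_abs]; exact hUF u hu e))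
        ((hβ.int KF).const_mul KF)
        (Filter.Eventually.of_forall (fun e u hu => hF e u hu))
      refine hmain.2.congr_deriv ?_
      -- algebra
      have hHt : ∀ e, Ham β (fun ω : Fin n → E => H t (Fin.cons e ω)) := fun e =>
        (tderb_slice_ham hβ hC (hH t ht) e).ham (hC.trans (tderbC_le hC (hβ.nonneg e)).1)
      have T3 : ∀ e, Tame2 β (fun ω ω' : Fin n → E => Φ t (Fin.cons e ω) (Fin.cons e ω')) :=
        fun e => ⟨hslice2 _ (hmΦs t ht) e, K0 * Real.exp (K0 * β e) + K0, by positivity,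
          fun ω ω' => by
            refine (B3 t ht e ω ω').trans ?_
            have : 0 ≤ K0 * Real.exp (K0 * β e) := by positivity
            apply mul_le_mul (by linarith) _ (Real.exp_pos _).le (by positivity)
            exact Real.exp_le_exp.mpr (mul_le_mul_of_nonneg_right (by linarith) (hSS ω ω'))⟩
      have T5 : ∀ e, Tame2 β (fun ω ω' : Fin n → E => Φ t (Fin.cons e ω) (Fin.cons e ω') *
          score2 m ζ r n (i + 1) (fun ω => H t (Fin.cons e ω)) (fun ω => V t (Fin.cons e ω))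
              ω ω') :=
        fun e => ⟨hslice2 _ ((hmΦs t ht).mul (hmS t ht)) e, K0 * Real.exp (K0 * β e) + K0,
          by positivity,
          fun ω ω' => by
            refine (B5 t ht e ω ω').trans ?_
            have : 0 ≤ K0 * Real.exp (K0 * β e) := by positivity
            apply mul_le_mul (by linarith) _ (Real.exp_pos _).le (by positivity)
            exact Real.exp_le_exp.mpr (mul_le_mul_of_nonneg_right (by linarith) (hSS ω ω'))⟩
      obtain ⟨κ, hκ⟩ : ∃ κ : E → ℝ, κ = fun e => ζ i * (pathE m ζ n (i + 1)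
        (fun ω => H t (Fin.cons e ω)) (fun ω => V t (Fin.cons e ω)) +
          -pathE m ζ (n + 1) i (H t) (V t)) := ⟨_, rfl⟩
      have e5 : ∀ e, pairE m ζ r n (i + 1) (fun ω => H t (Fin.cons e ω))
          (fun ω ω' => Φ t (Fin.cons e ω) (Fin.cons e ω') *
            score2 m ζ (r + 1) (n + 1) i (H t) (V t) (Fin.cons e ω) (Fin.cons e ω')) =
          κ e * pairE m ζ r n (i + 1) (fun ω => H t (Fin.cons e ω))
            (fun ω ω' => Φ t (Fin.cons e ω) (Fin.cons e ω')) +
          pairE m ζ r n (i + 1) (fun ω => H t (Fin.cons e ω))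
            (fun ω ω' => Φ t (Fin.cons e ω) (Fin.cons e ω') *
              score2 m ζ r n (i + 1) (fun ω => H t (Fin.cons e ω))
                (fun ω => V t (Fin.cons e ω)) ω ω') := by
        intro e
        have e6 : (fun ω ω' : Fin n → E => Φ t (Fin.cons e ω) (Fin.cons e ω') *
            score2 m ζ (r + 1) (n + 1) i (H t) (V t) (Fin.cons e ω) (Fin.cons e ω')) =
            fun ω ω' => κ e * Φ t (Fin.cons e ω) (Fin.cons e ω') +
              Φ t (Fin.cons e ω) (Fin.cons e ω') *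
              score2 m ζ r n (i + 1) (fun ω => H t (Fin.cons e ω))
                (fun ω => V t (Fin.cons e ω)) ω ω' := by
          funext ω ω'
          rw [tderb_score2_cons, hκ]
          ring
        have T6 : Tame2 β (fun ω ω' : Fin n → E => κ e * Φ t (Fin.cons e ω) (Fin.cons e ω')) := by
          obtain ⟨C1, hC1, hb⟩ := (T3 e).bound
          refine ⟨(T3 e).meas.const_mul _, |κ e| * C1 + C1, by positivity, fun ω ω' => ?_⟩
          rw [abs_mul]
          have h6 := mul_le_mul_of_nonneg_left (hb ω ω') (abs_nonneg (κ e))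
          refine h6.trans ?_
          rw [← mul_assoc]
          have h7 : 0 ≤ |κ e| * C1 := by positivity
          apply mul_le_mul (by linarith) _ (Real.exp_pos _).le (by positivity)
          exact Real.exp_le_exp.mpr (mul_le_mul_of_nonneg_right (by linarith) (hSS ω ω'))
        rw [e6, pairE_add hβ hζ r n (i + 1) (hHt e) T6 (T5 e), pairE_cmul]
      simp only [e5]
      obtain ⟨KA, hKA, hUA⟩ := tderbU_mul hβ U1 U4
      obtain ⟨KB, hKB, hUB⟩ := tderbU_mul hβ U1 (tderbU_add hβ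
        (tderbU_mul hβ (tderbU_mul hβ U2' (tderbU_add hβ U2 U2'')) U3) U5)
      have hmκ : Measurable κ := by
        rw [hκ]
        exact ((M2 t ht).add measurable_const).const_mul (ζ i)
      have I1 : Integrable (fun e => wgt m ζ n i (H t) e *
          pairE m ζ r n (i + 1) (fun ω => H t (Fin.cons e ω))
            (fun ω ω' => Φ' t (Fin.cons e ω) (Fin.cons e ω'))) m :=
        tderb_integrable hβ ((M1 t ht).mul (M4 t ht)) (fun e => hUA t ht e)
      have I2 : Integrable (fun e => wgt m ζ n i (H t) e *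
          (κ e * pairE m ζ r n (i + 1) (fun ω => H t (Fin.cons e ω))
            (fun ω ω' => Φ t (Fin.cons e ω) (Fin.cons e ω')) +
          pairE m ζ r n (i + 1) (fun ω => H t (Fin.cons e ω))
            (fun ω ω' => Φ t (Fin.cons e ω) (Fin.cons e ω') *
              score2 m ζ r n (i + 1) (fun ω => H t (Fin.cons e ω))
                (fun ω => V t (Fin.cons e ω)) ω ω'))) m :=
        tderb_integrable hβ (K := KB)
          ((M1 t ht).mul ((hmκ.mul (M3 t ht)).add (M5 t ht))) (fun e => by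
            rw [hκ]; exact hUB t ht e)
      rw [← integral_add I1 I2]
      apply integral_congr_ae
      refine Filter.Eventually.of_forall (fun e => ?_)
      simp only [hκ]
      ring

end Crest.Agent.RI
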