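import Crest.Agent.RI.TMeasC

/-!
# Row 164, tower: level-wise measure preserving maps.
-/

set_option autoImplicit false

namespace Crest.Agent.RI
open MeasureTheory ProbabilityTheory

variable {E : Type} [MeasurableSpace E]
variable {m : Measure E} [IsProbabilityMeasure m] {ζ : ℕ → ℝ} {β : E → ℝ}
variable {E' : Type} [MeasurableSpace E'] {m' : Measure E'} [IsProbabilityMeasure m'] {β' : E' → ℝ}

private theorem TMapA_int {T : E → E'} (hT : MeasurePreserving T m m') {g : E' → ℝ}
    (hg : Measurable g) : ∫ e, g (T e) ∂m = ∫ e, g e ∂m' := by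
  rw [← hT.map_eq]
  exact (integral_map hT.measurable.aemeasurable hg.aestronglyMeasurable).symm

private theorem TMapA_TT {T : E → E'} (hT : MeasurePreserving T m m') (z : ℝ) {g : E' → ℝ}
    (hg : Measurable g) : TT m z (fun e => g (T e)) = TT m' z g := by
  unfold TT
  split_ifs with h
  · exact TMapA_int hT hg
  · rw [TMapA_int hT (g := fun e => Real.exp (z * g e))
      (Real.measurable_exp.comp (hg.const_mul z))]

private theorem TMapA_cons (T : E → E') {n : ℕ} (e : E) (ω : Fin n → E) :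
    (fun j => T ((Fin.cons e ω : Fin (n + 1) → E) j)) =
      (Fin.cons (T e) (fun j => T (ω j)) : Fin (n + 1) → E') := by
  funext j
  refine Fin.cases ?_ (fun k => ?_) j
  · simp
  · simp

private theorem TMapA_elim (T : E → E') (ω : Fin 0 → E) :
    (fun j => T (ω j)) = (Fin.elim0 : Fin 0 → E') := by
  funext j
  exact j.elim0

private theorem TMapA_mcons {n : ℕ} :
    Measurable (fun p : E' × (Fin n → E') => (Fin.cons p.1 p.2 : Fin (n + 1) → E')) := by
  refine measurable_pi_iff.2 (fun j => ?_)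
  refine Fin.cases ?_ (fun k => ?_) j
  · simpa using measurable_fst
  · have h : Measurable (fun p : E' × (Fin n → E') => p.2 k) :=
      (measurable_pi_apply k).comp measurable_snd
    simpa using h

private theorem TMapA_mH {n : ℕ} {H : (Fin (n + 1) → E') → ℝ} (hH : Measurable H) :
    Measurable (Function.uncurry fun (e : E') (ω : Fin n → E') => H (Fin.cons e ω)) :=
  hH.comp TMapA_mcons

private theorem TMapA_mHe {n : ℕ} {H : (Fin (n + 1) → E') → ℝ} (hH : Measurable H) (e : E') :
    Measurable (fun (ω : Fin n → E') => H (Fin.cons e ω)) :=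
  (TMapA_mH hH).comp measurable_prodMk_left

private theorem TMapA_mN {n : ℕ} (i : ℕ) {H : (Fin (n + 1) → E') → ℝ} (hH : Measurable H) :
    Measurable (fun e => nest m' ζ n i (fun ω => H (Fin.cons e ω))) :=
  measurable_nest m' ζ n i (TMapA_mH hH)

private theorem TMapA_mP {n : ℕ} (i : ℕ) {H Φ : (Fin (n + 1) → E') → ℝ} (hH : Measurable H)
    (hΦ : Measurable Φ) :
    Measurable (fun e => pathE m' ζ n i (fun ω => H (Fin.cons e ω)) (fun ω => Φ (Fin.cons e ω))) :=
  measurable_pathE m' ζ n i (TMapA_mH hH) (TMapA_mH hΦ)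

private theorem TMapA_mW {n : ℕ} (i : ℕ) {H : (Fin (n + 1) → E') → ℝ} (hH : Measurable H) :
    Measurable (wgt m' ζ n i H) := by
  unfold wgt
  exact Real.measurable_exp.comp (((TMapA_mN (i + 1) hH).sub_const _).const_mul _)

/-- the same measure preserving map at all levels.  PROOF: induction on `n`, `MeasurePreserving.integral_comp'`-like
change of variables (`integral_map`, measurability of the inner functions from `measurable_nest`). -/
theorem nest_map {T : E → E'} (hT : MeasurePreserving T m m') (n i : ℕ) {H : (Fin n → E') → ℝ}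
    (hH : Measurable H) :
    nest m ζ n i (fun ω => H (fun j => T (ω j))) = nest m' ζ n i H := by
  induction n generalizing i with
  | zero =>
    simp only [nest]
    rw [TMapA_elim]
  | succ n ih =>
    simp only [nest]
    simp only [TMapA_cons]
    rw [← TMapA_TT hT (ζ i) (TMapA_mN (i + 1) hH)]
    congr 1
    funext e
    exact ih (i + 1) (TMapA_mHe hH (T e))

private theorem TMapA_wgt {T : E → E'} (hT : MeasurePreserving T m m') (n i : ℕ)
    {H : (Fin (n + 1) → E') → ℝ} (hH : Measurable H) (e : E) :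
    wgt m ζ n i (fun ω => H (fun j => T (ω j))) e = wgt m' ζ n i H (T e) := by
  unfold wgt
  rw [nest_map hT (n + 1) i hH]
  simp only [TMapA_cons]
  rw [nest_map hT n (i + 1) (TMapA_mHe hH (T e))]

theorem pathE_map {T : E → E'} (hT : MeasurePreserving T m m') (n i : ℕ) {H Φ : (Fin n → E') → ℝ}
    (hH : Measurable H) (hΦ : Measurable Φ) :
    pathE m ζ n i (fun ω => H (fun j => T (ω j))) (fun ω => Φ (fun j => T (ω j))) =
      pathE m' ζ n i H Φ := by
  induction n generalizing i with
  | zero =>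
    simp only [pathE]
    rw [TMapA_elim]
  | succ n ih =>
    simp only [pathE]
    simp only [TMapA_wgt hT n i hH, TMapA_cons]
    refine Eq.trans ?_ (TMapA_int hT ((TMapA_mW (m' := m') (ζ := ζ) i hH).mul (TMapA_mP (m' := m') (ζ := ζ) (i + 1) hH hΦ)))
    congr 1
    funext e
    rw [ih (i + 1) (TMapA_mHe hH (T e)) (TMapA_mHe hΦ (T e))]

theorem condE_map {T : E → E'} (hT : MeasurePreserving T m m') (r n i : ℕ)
    {H Φ : (Fin n → E') → ℝ} (hH : Measurable H) (hΦ : Measurable Φ) (ω : Fin n → E) :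
    condE m ζ r n i (fun ω => H (fun j => T (ω j))) (fun ω => Φ (fun j => T (ω j))) ω =
      condE m' ζ r n i H Φ (fun j => T (ω j)) := by
  induction n generalizing i r with
  | zero =>
    cases r with
    | zero => simp only [condE]; exact pathE_map hT 0 i hH hΦ
    | succ r => simp only [condE]
  | succ n ih =>
    cases r with
    | zero => simp only [condE]; exact pathE_map hT (n + 1) i hH hΦ
    | succ r =>
      simp only [condE, TMapA_cons]
      exact ih r (i + 1) (TMapA_mHe hH (T (ω 0))) (TMapA_mHe hΦ (T (ω 0))) (Fin.tail ω)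

private theorem TMapA_mPh {n : ℕ} {Φ : (Fin (n + 1) → E') → (Fin (n + 1) → E') → ℝ}
    (hΦ : Measurable (Function.uncurry Φ)) :
    Measurable (fun p : E' × (Fin n → E') × (Fin n → E') =>
      Φ (Fin.cons p.1 p.2.1) (Fin.cons p.1 p.2.2)) := by
  have h1 : Measurable (fun p : E' × (Fin n → E') × (Fin n → E') =>
      ((Fin.cons p.1 p.2.1 : Fin (n + 1) → E'), (Fin.cons p.1 p.2.2 : Fin (n + 1) → E'))) :=
    (TMapA_mcons.comp (measurable_fst.prodMk (measurable_fst.comp measurable_snd))).prodMk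
      (TMapA_mcons.comp (measurable_fst.prodMk (measurable_snd.comp measurable_snd)))
  exact hΦ.comp h1

private theorem TMapA_mPhe {n : ℕ} {Φ : (Fin (n + 1) → E') → (Fin (n + 1) → E') → ℝ}
    (hΦ : Measurable (Function.uncurry Φ)) (e : E') :
    Measurable (Function.uncurry fun ω ω' : Fin n → E' =>
      Φ (Fin.cons e ω) (Fin.cons e ω')) :=
  (TMapA_mPh hΦ).comp measurable_prodMk_left

private theorem TMapA_mPair {n : ℕ} (r i : ℕ) {H : (Fin (n + 1) → E') → ℝ}
    {Φ : (Fin (n + 1) → E') → (Fin (n + 1) → E') → ℝ} (hH : Measurable H)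
    (hΦ : Measurable (Function.uncurry Φ)) :
    Measurable (fun e => pairE m' ζ r n i (fun ω => H (Fin.cons e ω))
        (fun ω ω' => Φ (Fin.cons e ω) (Fin.cons e ω'))) :=
  measurable_pairE m' ζ n r i (TMapA_mH hH) (TMapA_mPh hΦ)

private theorem TMapA_left {n : ℕ} {Φ : (Fin n → E') → (Fin n → E') → ℝ}
    (hΦ : Measurable (Function.uncurry Φ)) (ω : Fin n → E') : Measurable (Φ ω) :=
  hΦ.comp measurable_prodMk_left

private theorem TMapA_pair0 {T : E → E'} (hT : MeasurePreserving T m m') (n i : ℕ)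
    {H : (Fin n → E') → ℝ}
    {Φ : (Fin n → E') → (Fin n → E') → ℝ} (hH : Measurable H)
    (hΦ : Measurable (Function.uncurry Φ)) :
    pathE m ζ n i (fun ω => H (fun j => T (ω j))) (fun ω =>
      pathE m ζ n i (fun ω => H (fun j => T (ω j)))
      (fun ω' => Φ (fun j => T (ω j)) (fun j => T (ω' j)))) =
    pathE m' ζ n i H (fun ω => pathE m' ζ n i H (fun ω' => Φ ω ω')) := by
  rw [← pathE_map hT n i (Φ := fun ω => pathE m' ζ n i H (fun ω' => Φ ω ω')) hH
    (measurable_pathE m' ζ n i (hH.comp measurable_snd) hΦ)]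
  congr 1
  funext ω
  exact pathE_map hT n i hH (TMapA_left hΦ _)

theorem pairE_map {T : E → E'} (hT : MeasurePreserving T m m') (r n i : ℕ) {H : (Fin n → E') → ℝ}
    {Φ : (Fin n → E') → (Fin n → E') → ℝ} (hH : Measurable H)
    (hΦ : Measurable (Function.uncurry Φ)) :
    pairE m ζ r n i (fun ω => H (fun j => T (ω j)))
      (fun ω ω' => Φ (fun j => T (ω j)) (fun j => T (ω' j))) = pairE m' ζ r n i H Φ := by
  induction n generalizing i r with
  | zero =>
    cases r with
    | zero => simp only [pairE]; exact TMapA_pair0 hT 0 i hH hΦ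
    | succ r => simp only [pairE]; rw [TMapA_elim]
  | succ n ih =>
    cases r with
    | zero => simp only [pairE]; exact TMapA_pair0 hT (n + 1) i hH hΦ
    | succ r =>
      simp only [pairE, TMapA_wgt hT n i hH, TMapA_cons]
      refine Eq.trans ?_ (TMapA_int hT ((TMapA_mW (m' := m') (ζ := ζ) i hH).mul (TMapA_mPair (m' := m') (ζ := ζ) r (i + 1) hH hΦ)))
      congr 1
      funext e
      rw [ih r (i + 1) (TMapA_mHe hH (T e)) (TMapA_mPhe hΦ (T e))]

private theorem TMapA_hd {T0 : E → E'} {T : E → E → E'} {n : ℕ} (e : E) (ω : Fin n → E) :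
    (Fin.cons (T0 ((Fin.cons e ω : Fin (n + 1) → E) 0))
      (fun j => T ((Fin.cons e ω : Fin (n + 1) → E) 0)
        ((Fin.cons e ω : Fin (n + 1) → E) (Fin.succ j))) : Fin (n + 1) → E') =
      Fin.cons (T0 e) (fun j => T e (ω j)) := by
  simp

/-- a map `T0` at the first level and maps `T e` (depending on the first coordinate) at the others -/
theorem nest_map_head {T0 : E → E'} (hT0 : MeasurePreserving T0 m m') {T : E → E → E'}
    (hT : ∀ e, MeasurePreserving (T e) m m') (n i : ℕ)
    {H : (Fin (n + 1) → E') → ℝ} (hH : Measurable H) :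
    nest m ζ (n + 1) i (fun ω => H (Fin.cons (T0 (ω 0)) (fun j => T (ω 0) (ω j.succ)))) =
      nest m' ζ (n + 1) i H := by
  simp only [nest, TMapA_hd]
  rw [← TMapA_TT hT0 (ζ i) (TMapA_mN (i + 1) hH)]
  congr 1
  funext e
  exact nest_map (hT e) n (i + 1) (TMapA_mHe hH (T0 e))

private theorem TMapA_wgt_hd {T0 : E → E'} (hT0 : MeasurePreserving T0 m m') {T : E → E → E'}
    (hT : ∀ e, MeasurePreserving (T e) m m') (n i : ℕ)
    {H : (Fin (n + 1) → E') → ℝ} (hH : Measurable H) (e : E) :
    wgt m ζ n i (fun ω => H (Fin.cons (T0 (ω 0)) (fun j => T (ω 0) (ω j.succ)))) e =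
      wgt m' ζ n i H (T0 e) := by
  unfold wgt
  rw [nest_map_head hT0 hT n i hH]
  simp only [TMapA_hd]
  rw [nest_map (hT e) n (i + 1) (TMapA_mHe hH (T0 e))]

theorem pathE_map_head {T0 : E → E'} (hT0 : MeasurePreserving T0 m m') {T : E → E → E'}
    (hT : ∀ e, MeasurePreserving (T e) m m') (n i : ℕ)
    {H Φ : (Fin (n + 1) → E') → ℝ} (hH : Measurable H) (hΦ : Measurable Φ) :
    pathE m ζ (n + 1) i (fun ω => H (Fin.cons (T0 (ω 0)) (fun j => T (ω 0) (ω j.succ))))
      (fun ω => Φ (Fin.cons (T0 (ω 0)) (fun j => T (ω 0) (ω j.succ)))) =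
      pathE m' ζ (n + 1) i H Φ := by
  simp only [pathE]
  simp only [TMapA_wgt_hd hT0 hT n i hH, TMapA_hd]
  refine Eq.trans ?_ (TMapA_int hT0 ((TMapA_mW (m' := m') (ζ := ζ) i hH).mul (TMapA_mP (m' := m') (ζ := ζ) (i + 1) hH hΦ)))
  congr 1
  funext e
  rw [pathE_map (hT e) n (i + 1) (TMapA_mHe hH (T0 e)) (TMapA_mHe hΦ (T0 e))]

theorem pairE_map_head {T0 : E → E'} (hT0 : MeasurePreserving T0 m m') {T : E → E → E'}
    (hT : ∀ e, MeasurePreserving (T e) m m') (r n i : ℕ)
    {H : (Fin (n + 1) → E') → ℝ} {Φ : (Fin (n + 1) → E') → (Fin (n + 1) → E') → ℝ}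
    (hH : Measurable H) (hΦ : Measurable (Function.uncurry Φ)) :
    pairE m ζ (r + 1) (n + 1) i (fun ω => H (Fin.cons (T0 (ω 0)) (fun j => T (ω 0) (ω j.succ))))
      (fun ω ω' => Φ (Fin.cons (T0 (ω 0)) (fun j => T (ω 0) (ω j.succ)))
        (Fin.cons (T0 (ω' 0)) (fun j => T (ω' 0) (ω' j.succ)))) =
      pairE m' ζ (r + 1) (n + 1) i H Φ := by
  simp only [pairE]
  simp only [TMapA_wgt_hd hT0 hT n i hH, TMapA_hd]
  refine Eq.trans ?_ (TMapA_int hT0 ((TMapA_mW (m' := m') (ζ := ζ) i hH).mul (TMapA_mPair (m' := m') (ζ := ζ) r (i + 1) hH hΦ)))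
  congr 1
  funext e
  rw [pairE_map (hT e) r n (i + 1) (TMapA_mHe hH (T0 e)) (TMapA_mPhe hΦ (T0 e))]

end Crest.Agent.RI
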