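import Crest.Agent.RI.Tower

/-!
# Row 164, tower: measurability in parameters. All proofs: induction on `n`, peeling the first level.
-/

set_option autoImplicit false

namespace Crest.Agent.RI
open MeasureTheory ProbabilityTheory

variable {E : Type} [MeasurableSpace E]
variable {m : Measure E} [IsProbabilityMeasure m] {ζ : ℕ → ℝ} {β : E → ℝ}

private theorem TMeasA_cons (n : ℕ) :
    Measurable (fun q : E × (Fin n → E) => (Fin.cons q.1 q.2 : Fin (n + 1) → E)) := by
  rw [measurable_pi_iff]
  intro j
  refine Fin.cases ?_ (fun j => ?_) j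
  · simpa using measurable_fst
  · have h : Measurable (fun q : E × (Fin n → E) => q.2 j) :=
      (measurable_pi_apply j).comp measurable_snd
    simpa using h

private theorem TMeasA_tail (n : ℕ) :
    Measurable (fun q : Fin (n + 1) → E => (Fin.tail q : Fin n → E)) := by
  rw [measurable_pi_iff]
  intro j
  exact measurable_pi_apply _

private theorem TMeasA_H {A : Type} [MeasurableSpace A] {n : ℕ} {H : A → (Fin (n + 1) → E) → ℝ}
    (hH : Measurable (Function.uncurry H)) :
    Measurable (Function.uncurry (fun (p : A × E) (ω : Fin n → E) => H p.1 (Fin.cons p.2 ω))) := by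
  have h1 : Measurable (fun q : (A × E) × (Fin n → E) =>
      ((q.1.1, (Fin.cons q.1.2 q.2 : Fin (n + 1) → E)) : A × (Fin (n + 1) → E))) :=
    (measurable_fst.comp measurable_fst).prodMk
      ((TMeasA_cons n).comp ((measurable_snd.comp measurable_fst).prodMk measurable_snd))
  exact hH.comp h1

/-- measurability of the nested functional in a parameter.  PROOF: induction on `n` (for all parameter
spaces at once): the inner function is measurable on `A × E` by the induction hypothesis applied with the
parameter space `A × E`; then `StronglyMeasurable.integral_prod_right'` (and `Real.measurable_exp`,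
`Real.measurable_log`). -/
theorem measurable_nest (m : Measure E) [IsProbabilityMeasure m] (ζ : ℕ → ℝ) (n : ℕ) :
    ∀ (i : ℕ) {A : Type} [MeasurableSpace A] {H : A → (Fin n → E) → ℝ},
      Measurable (Function.uncurry H) → Measurable (fun a => nest m ζ n i (H a)) := by
  induction n with
  | zero =>
    intro i A _ H hH
    exact hH.comp (measurable_id.prodMk measurable_const)
  | succ n ih =>
    intro i A _ H hH
    have hg := ih (i + 1) (TMeasA_H hH)
    by_cases h0 : ζ i = 0
    · have h1 : Measurable (fun a => ∫ e, nest m ζ n (i + 1) (fun ω => H a (Fin.cons e ω)) ∂m) :=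
        (hg.stronglyMeasurable.integral_prod_right' (ν := m)).measurable
      simpa only [nest, TT, h0, if_true] using h1
    · have h2 : Measurable (fun p : A × E =>
          Real.exp (ζ i * nest m ζ n (i + 1) (fun ω => H p.1 (Fin.cons p.2 ω)))) :=
        Real.measurable_exp.comp (hg.const_mul _)
      have h3 : Measurable (fun a => ∫ e,
          Real.exp (ζ i * nest m ζ n (i + 1) (fun ω => H a (Fin.cons e ω))) ∂m) :=
        (h2.stronglyMeasurable.integral_prod_right' (ν := m)).measurable
      have h4 : Measurable (fun a => (ζ i)⁻¹ * Real.log (∫ e,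
          Real.exp (ζ i * nest m ζ n (i + 1) (fun ω => H a (Fin.cons e ω))) ∂m)) :=
        (Real.measurable_log.comp h3).const_mul (ζ i)⁻¹
      simpa only [nest, TT, h0, if_false] using h4

private theorem TMeasA_wgt (m : Measure E) [IsProbabilityMeasure m] (ζ : ℕ → ℝ) (n i : ℕ)
    {A : Type} [MeasurableSpace A] {H : A → (Fin (n + 1) → E) → ℝ}
    (hH : Measurable (Function.uncurry H)) :
    Measurable (fun p : A × E => wgt m ζ n i (H p.1) p.2) := by
  have h1 := measurable_nest m ζ n (i + 1) (TMeasA_H hH)
  have h2 : Measurable (fun p : A × E => nest m ζ (n + 1) i (H p.1)) :=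
    (measurable_nest m ζ (n + 1) i hH).comp measurable_fst
  exact Real.measurable_exp.comp ((h1.sub h2).const_mul _)

theorem measurable_pathE (m : Measure E) [IsProbabilityMeasure m] (ζ : ℕ → ℝ) (n : ℕ) :
    ∀ (i : ℕ) {A : Type} [MeasurableSpace A] {H Φ : A → (Fin n → E) → ℝ},
      Measurable (Function.uncurry H) → Measurable (Function.uncurry Φ) →
      Measurable (fun a => pathE m ζ n i (H a) (Φ a)) := by
  induction n with
  | zero =>
    intro i A _ H Φ hH hΦ
    exact hΦ.comp (measurable_id.prodMk measurable_const)
  | succ n ih =>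
    intro i A _ H Φ hH hΦ
    have h1 := ih (i + 1) (TMeasA_H hH) (TMeasA_H hΦ)
    have h2 := (TMeasA_wgt m ζ n i hH).mul h1
    exact (h2.stronglyMeasurable.integral_prod_right' (ν := m)).measurable

theorem measurable_condE (m : Measure E) [IsProbabilityMeasure m] (ζ : ℕ → ℝ) (n : ℕ) :
    ∀ (r i : ℕ) {A : Type} [MeasurableSpace A] {H Φ : A → (Fin n → E) → ℝ},
      Measurable (Function.uncurry H) → Measurable (Function.uncurry Φ) →
      Measurable (fun p : A × (Fin n → E) => condE m ζ r n i (H p.1) (Φ p.1) p.2) := by
  induction n with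
  | zero =>
    intro r i A _ H Φ hH hΦ
    cases r with
    | zero =>
      simp only [condE]
      exact (measurable_pathE m ζ 0 i hH hΦ).comp measurable_fst
    | succ r =>
      simp only [condE]
      exact hΦ
  | succ n ih =>
    intro r i A _ H Φ hH hΦ
    cases r with
    | zero =>
      simp only [condE]
      exact (measurable_pathE m ζ (n + 1) i hH hΦ).comp measurable_fst
    | succ r =>
      simp only [condE]
      have h1 := ih r (i + 1) (TMeasA_H hH) (TMeasA_H hΦ)
      have h2 : Measurable (fun p : A × (Fin (n + 1) → E) =>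
          (((p.1, p.2 0), Fin.tail p.2) : (A × E) × (Fin n → E))) :=
        (measurable_fst.prodMk ((measurable_pi_apply 0).comp measurable_snd)).prodMk
          ((TMeasA_tail n).comp measurable_snd)
      exact h1.comp h2

theorem measurable_pairE (m : Measure E) [IsProbabilityMeasure m] (ζ : ℕ → ℝ) (n : ℕ) :
    ∀ (r i : ℕ) {A : Type} [MeasurableSpace A] {H : A → (Fin n → E) → ℝ}
      {Φ : A → (Fin n → E) → (Fin n → E) → ℝ},
      Measurable (Function.uncurry H) →
      Measurable (fun p : A × (Fin n → E) × (Fin n → E) => Φ p.1 p.2.1 p.2.2) →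
      Measurable (fun a => pairE m ζ r n i (H a) (Φ a)) := by
  have base : ∀ (n i : ℕ) {A : Type} [MeasurableSpace A] {H : A → (Fin n → E) → ℝ}
      {Φ : A → (Fin n → E) → (Fin n → E) → ℝ},
      Measurable (Function.uncurry H) →
      Measurable (fun p : A × (Fin n → E) × (Fin n → E) => Φ p.1 p.2.1 p.2.2) →
      Measurable (fun a => pairE m ζ 0 n i (H a) (Φ a)) := by
    intro n i A _ H Φ hH hΦ
    simp only [pairE]
    have h1 : Measurable (Function.uncurry
        (fun (p : A × (Fin n → E)) (ω : Fin n → E) => H p.1 ω)) :=
      hH.comp ((measurable_fst.comp measurable_fst).prodMk measurable_snd)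
    have h2 : Measurable (Function.uncurry
        (fun (p : A × (Fin n → E)) (ω : Fin n → E) => Φ p.1 p.2 ω)) :=
      hΦ.comp ((measurable_fst.comp measurable_fst).prodMk
        ((measurable_snd.comp measurable_fst).prodMk measurable_snd))
    have h3 := measurable_pathE m ζ n i h1 h2
    exact measurable_pathE m ζ n i (Φ := fun a ω => pathE m ζ n i (H a) (fun ω' => Φ a ω ω'))
      hH h3
  induction n with
  | zero =>
    intro r i A _ H Φ hH hΦ
    cases r with
    | zero => exact base 0 i hH hΦ
    | succ r =>
      simp only [pairE]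
      exact hΦ.comp (measurable_id.prodMk (measurable_const.prodMk measurable_const))
  | succ n ih =>
    intro r i A _ H Φ hH hΦ
    cases r with
    | zero => exact base (n + 1) i hH hΦ
    | succ r =>
      simp only [pairE]
      have h0 : Measurable (fun p : (A × E) × (Fin n → E) × (Fin n → E) =>
          Φ p.1.1 (Fin.cons p.1.2 p.2.1) (Fin.cons p.1.2 p.2.2)) := by
        have h1 : Measurable (fun p : (A × E) × (Fin n → E) × (Fin n → E) =>
            ((p.1.1, ((Fin.cons p.1.2 p.2.1 : Fin (n + 1) → E),
              (Fin.cons p.1.2 p.2.2 : Fin (n + 1) → E))) :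
              A × (Fin (n + 1) → E) × (Fin (n + 1) → E))) := by
          refine (measurable_fst.comp measurable_fst).prodMk (Measurable.prodMk ?_ ?_)
          · exact (TMeasA_cons n).comp ((measurable_snd.comp measurable_fst).prodMk
              (measurable_fst.comp measurable_snd))
          · exact (TMeasA_cons n).comp ((measurable_snd.comp measurable_fst).prodMk
              (measurable_snd.comp measurable_snd))
        exact hΦ.comp h1
      have h1 := ih r (i + 1) (TMeasA_H hH)
        (Φ := fun (p : A × E) ω ω' => Φ p.1 (Fin.cons p.2 ω) (Fin.cons p.2 ω')) h0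
      have h2 := (TMeasA_wgt m ζ n i hH).mul h1
      exact (h2.stronglyMeasurable.integral_prod_right' (ν := m)).measurable

end Crest.Agent.RI
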