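import Crest.Agent.RI.TBasicA

/-!
# Row 164, tower: pair expectations, basics.
-/

set_option autoImplicit false
set_option linter.unusedSectionVars false
set_option linter.unusedVariables false

namespace Crest.Agent.RI
open MeasureTheory ProbabilityTheory

variable {E : Type} [MeasurableSpace E]
variable {m : Measure E} [IsProbabilityMeasure m] {ζ : ℕ → ℝ} {β : E → ℝ}

/-! ## Auxiliary lemmas -/

theorem TPairA_measurable_cons {A : Type} [MeasurableSpace A] {n : ℕ} {f : A → E}
    {g : A → (Fin n → E)} (hf : Measurable f) (hg : Measurable g) :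
    Measurable (fun a => (Fin.cons (f a) (g a) : Fin (n + 1) → E)) := by
  refine measurable_pi_iff.2 (Fin.cases ?_ (fun j => ?_))
  · simpa using hf
  · simpa [Function.comp_def] using (measurable_pi_apply j).comp hg

theorem TPairA_sum_nonneg (hβ : Dom m β) {n : ℕ} (ω : Fin n → E) : 0 ≤ ∑ j, β (ω j) :=
  Finset.sum_nonneg fun j _ => hβ.nonneg _

theorem TPairA_sum2_nonneg (hβ : Dom m β) {n : ℕ} (ω ω' : Fin n → E) :
    0 ≤ ∑ j, (β (ω j) + β (ω' j)) :=
  Finset.sum_nonneg fun j _ => add_nonneg (hβ.nonneg _) (hβ.nonneg _)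

theorem TPairA_mono_K {K K' a : ℝ} (h0 : 0 ≤ K) (h : K ≤ K') (ha : 0 ≤ a) :
    K * Real.exp (K * a) ≤ K' * Real.exp (K' * a) :=
  mul_le_mul h (Real.exp_le_exp.2 (mul_le_mul_of_nonneg_right h ha)) (Real.exp_pos _).le
    (h0.trans h)

/-- weights have exponential moments -/
theorem TPairA_wgt_exp (hβ : Dom m β) (hζ : Exps ζ) (n i : ℕ) {H : (Fin (n + 1) → E) → ℝ}
    (hH : Ham β H) (c : ℝ) (hc : 0 ≤ c) :
    Integrable (fun e => wgt m ζ n i H e * Real.exp (c * β e)) m := by
  have hT : Tame β (fun ω : Fin (n + 1) → E => Real.exp (c * β (ω 0))) := by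
    refine ⟨Real.measurable_exp.comp ((hβ.meas.comp (measurable_pi_apply 0)).const_mul c),
      c + 1, by linarith, fun ω => ?_⟩
    rw [abs_of_pos (Real.exp_pos _)]
    have h1 : c * β (ω 0) ≤ (c + 1) * ∑ j, β (ω j) := by
      have h2 : β (ω 0) ≤ ∑ j, β (ω j) :=
        Finset.single_le_sum (f := fun j => β (ω j)) (fun j _ => hβ.nonneg _) (Finset.mem_univ 0)
      have h3 : 0 ≤ β (ω 0) := hβ.nonneg _
      nlinarith
    calc Real.exp (c * β (ω 0)) ≤ Real.exp ((c + 1) * ∑ j, β (ω j)) := Real.exp_le_exp.2 h1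
      _ ≤ (c + 1) * Real.exp ((c + 1) * ∑ j, β (ω j)) :=
        le_mul_of_one_le_left (Real.exp_pos _).le (by linarith)
  have h := integrable_wgt_pathE hβ hζ n i hH hT
  refine h.congr (Filter.Eventually.of_forall fun e => ?_)
  simp only [Fin.cons_zero]
  rw [pathE_const hβ hζ n (i + 1) (hH.cons hβ e)]

theorem TPairA_wgt_meas {n i : ℕ} {H : (Fin (n + 1) → E) → ℝ} (hH : Measurable H) :
    Measurable (wgt m ζ n i H) := by
  have h := measurable_nest m ζ n (i + 1) (A := E) (H := fun e ω => H (Fin.cons e ω))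
    (hH.comp (TPairA_measurable_cons measurable_fst measurable_snd))
  unfold wgt
  exact Real.measurable_exp.comp ((h.sub_const _).const_mul _)

/-- first-coordinate form of the bound of `H` -/
theorem TPairA_cons_bound {n : ℕ} {H : (Fin (n + 1) → E) → ℝ} {a C : ℝ}
    (h : ∀ ω, |H ω| ≤ a + C * ∑ j, β (ω j)) (e : E) (ω : Fin n → E) :
    |H (Fin.cons e ω)| ≤ (a + C * β e) + C * ∑ j, β (ω j) := by
  have := h (Fin.cons e ω)
  rw [Fin.sum_univ_succ] at this
  simp only [Fin.cons_zero, Fin.cons_succ] at this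
  linarith

theorem TPairA_Ham_of {n : ℕ} {H : (Fin n → E) → ℝ} {a C : ℝ} (hβ : Dom m β) (hm : Measurable H)
    (ha : 0 ≤ a) (hC : 0 ≤ C)
    (h : ∀ ω, |H ω| ≤ a + C * ∑ j, β (ω j)) : Ham β H := by
  refine ⟨hm, a + C, by positivity, fun ω => (h ω).trans ?_⟩
  have := TPairA_sum_nonneg hβ ω
  nlinarith

/-- `∫ wgt * exp (c β)` uniformly -/
theorem TPairA_wgt_exp_bound (hβ : Dom m β) (n : ℕ) (C c : ℝ) (hC : 0 ≤ C) (hc : 0 ≤ c) :
    ∃ K : ℝ, 0 ≤ K ∧ ∀ (ζ : ℕ → ℝ), Exps ζ → ∀ (i : ℕ) (a : ℝ), 0 ≤ a →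
      ∀ (H : (Fin (n + 1) → E) → ℝ), Measurable H → (∀ ω, |H ω| ≤ a + C * ∑ j, β (ω j)) →
      ∫ e, wgt m ζ n i H e * Real.exp (c * β e) ∂m ≤ K * Real.exp (K * a) := by
  obtain ⟨K, hK0, hK⟩ := pathE_bound hβ (n + 1) C c hC hc
  refine ⟨K, hK0, fun ζ hζ i a ha H hHm hH => ?_⟩
  have hHam : Ham β H := TPairA_Ham_of hβ hHm ha hC hH
  have h := hK ζ hζ i a 1 ha zero_le_one H (fun ω => Real.exp (c * β (ω 0))) hHm
    (Real.measurable_exp.comp ((hβ.meas.comp (measurable_pi_apply 0)).const_mul c)) hH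
    (fun ω => by
      rw [abs_of_pos (Real.exp_pos _), one_mul]
      refine Real.exp_le_exp.2 (mul_le_mul_of_nonneg_left ?_ hc)
      exact Finset.single_le_sum (f := fun j => β (ω j)) (fun j _ => hβ.nonneg _)
        (Finset.mem_univ 0))
  rw [one_mul] at h
  refine le_trans (le_of_eq ?_) ((le_abs_self _).trans h)
  simp only [pathE, Fin.cons_zero]
  refine integral_congr_ae (Filter.Eventually.of_forall fun e => ?_)
  simp only
  rw [pathE_const hβ hζ n (i + 1) (hHam.cons hβ e)]

/-! ### Closure properties of `Tame2` -/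

theorem TPairA_t2_of {n : ℕ} {Φ : (Fin n → E) → (Fin n → E) → ℝ} (hβ : Dom m β) {b B : ℝ}
    (hb : 0 ≤ b) (hB : 0 ≤ B) (hm : Measurable (Function.uncurry Φ))
    (h : ∀ ω ω', |Φ ω ω'| ≤ b * Real.exp (B * ∑ j, (β (ω j) + β (ω' j)))) : Tame2 β Φ := by
  refine ⟨hm, b + B, by positivity, fun ω ω' => (h ω ω').trans ?_⟩
  have := TPairA_sum2_nonneg hβ ω ω'
  exact mul_le_mul (by linarith) (Real.exp_le_exp.2 (mul_le_mul_of_nonneg_right (by linarith) this))
    (Real.exp_pos _).le (by positivity)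

theorem TPairA_t2_cons {n : ℕ} {Φ : (Fin (n + 1) → E) → (Fin (n + 1) → E) → ℝ} (hβ : Dom m β)
    (h : Tame2 β Φ) (e : E) :
    Tame2 β (fun (ω ω' : Fin n → E) => Φ (Fin.cons e ω) (Fin.cons e ω')) := by
  obtain ⟨C, hC, hb⟩ := h.bound
  refine TPairA_t2_of hβ (b := C * Real.exp (C * (2 * β e))) (B := C) (by positivity) hC ?_ ?_
  · exact h.meas.comp ((TPairA_measurable_cons measurable_const measurable_fst).prodMk
      (TPairA_measurable_cons measurable_const measurable_snd))
  · intro ω ω'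
    refine (hb _ _).trans (le_of_eq ?_)
    rw [Fin.sum_univ_succ, mul_assoc, ← Real.exp_add]
    simp only [Fin.cons_zero, Fin.cons_succ]
    congr 2
    ring

theorem TPairA_t2_swap {n : ℕ} {Φ : (Fin n → E) → (Fin n → E) → ℝ}
    (h : Tame2 β Φ) : Tame2 β (fun ω ω' => Φ ω' ω) := by
  obtain ⟨C, hC, hb⟩ := h.bound
  refine ⟨h.meas.comp measurable_swap, C, hC, fun ω ω' => (hb ω' ω).trans (le_of_eq ?_)⟩
  simp only [add_comm]

theorem TPairA_t2_abs {n : ℕ} {Φ : (Fin n → E) → (Fin n → E) → ℝ}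
    (h : Tame2 β Φ) : Tame2 β (fun ω ω' => |Φ ω ω'|) := by
  obtain ⟨C, hC, hb⟩ := h.bound
  refine ⟨?_, C, hC, fun ω ω' => by rw [abs_abs]; exact hb ω ω'⟩
  exact measurable_abs.comp h.meas

theorem TPairA_t2_cmul {n : ℕ} {Φ : (Fin n → E) → (Fin n → E) → ℝ} (hβ : Dom m β)
    (h : Tame2 β Φ) (c : ℝ) : Tame2 β (fun ω ω' => c * Φ ω ω') := by
  obtain ⟨C, hC, hb⟩ := h.bound
  refine TPairA_t2_of hβ (b := |c| * C) (B := C) (by positivity) hC (h.meas.const_mul c)
    fun ω ω' => ?_
  rw [abs_mul, mul_assoc]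
  exact mul_le_mul_of_nonneg_left (hb ω ω') (abs_nonneg c)

theorem TPairA_t2_add {n : ℕ} {Φ Ψ : (Fin n → E) → (Fin n → E) → ℝ} (hβ : Dom m β)
    (h : Tame2 β Φ) (h' : Tame2 β Ψ) : Tame2 β (fun ω ω' => Φ ω ω' + Ψ ω ω') := by
  obtain ⟨C, hC, hb⟩ := h.bound
  obtain ⟨D, hD, hd⟩ := h'.bound
  refine TPairA_t2_of hβ (b := C + D) (B := C + D) (by positivity) (by positivity)
    (h.meas.add h'.meas) fun ω ω' => ?_
  have hs := TPairA_sum2_nonneg hβ ω ω'
  have h1 : Real.exp (C * ∑ j, (β (ω j) + β (ω' j))) ≤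
      Real.exp ((C + D) * ∑ j, (β (ω j) + β (ω' j))) :=
    Real.exp_le_exp.2 (mul_le_mul_of_nonneg_right (by linarith) hs)
  have h2 : Real.exp (D * ∑ j, (β (ω j) + β (ω' j))) ≤
      Real.exp ((C + D) * ∑ j, (β (ω j) + β (ω' j))) :=
    Real.exp_le_exp.2 (mul_le_mul_of_nonneg_right (by linarith) hs)
  calc |Φ ω ω' + Ψ ω ω'| ≤ |Φ ω ω'| + |Ψ ω ω'| := abs_add_le _ _
    _ ≤ C * Real.exp (C * ∑ j, (β (ω j) + β (ω' j))) +
        D * Real.exp (D * ∑ j, (β (ω j) + β (ω' j))) := add_le_add (hb _ _) (hd _ _)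
    _ ≤ (C + D) * Real.exp ((C + D) * ∑ j, (β (ω j) + β (ω' j))) := by
        rw [add_mul]
        exact add_le_add (mul_le_mul_of_nonneg_left h1 hC) (mul_le_mul_of_nonneg_left h2 hD)

theorem TPairA_t2_mul {n : ℕ} {Φ Ψ : (Fin n → E) → (Fin n → E) → ℝ} (hβ : Dom m β)
    (h : Tame2 β Φ) (h' : Tame2 β Ψ) : Tame2 β (fun ω ω' => Φ ω ω' * Ψ ω ω') := by
  obtain ⟨C, hC, hb⟩ := h.bound
  obtain ⟨D, hD, hd⟩ := h'.bound
  refine TPairA_t2_of hβ (b := C * D) (B := C + D) (by positivity) (by positivity)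
    (h.meas.mul h'.meas) fun ω ω' => ?_
  rw [abs_mul]
  calc |Φ ω ω'| * |Ψ ω ω'| ≤ (C * Real.exp (C * ∑ j, (β (ω j) + β (ω' j)))) *
        (D * Real.exp (D * ∑ j, (β (ω j) + β (ω' j)))) :=
        mul_le_mul (hb _ _) (hd _ _) (abs_nonneg _) (by positivity)
    _ = C * D * Real.exp ((C + D) * ∑ j, (β (ω j) + β (ω' j))) := by
        rw [add_mul C D, Real.exp_add]; ring

theorem TPairA_t2_const {n : ℕ} (c : ℝ) (hβ : Dom m β) :
    Tame2 β (fun _ _ : Fin n → E => c) := by
  refine TPairA_t2_of hβ (b := |c|) (B := 0) (abs_nonneg c) le_rfl measurable_const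
    fun ω ω' => by simp

theorem TPairA_t2_right {n : ℕ} {Φ : (Fin n → E) → (Fin n → E) → ℝ} (hβ : Dom m β)
    (h : Tame2 β Φ) (ω : Fin n → E) : Tame β (Φ ω) := by
  obtain ⟨C, hC, hb⟩ := h.bound
  have hs := TPairA_sum_nonneg hβ ω
  have he : 1 ≤ Real.exp (C * ∑ j, β (ω j)) := Real.one_le_exp (by positivity)
  refine ⟨h.meas.comp (measurable_const.prodMk measurable_id),
    C * Real.exp (C * ∑ j, β (ω j)), by positivity, fun ω' => (hb ω ω').trans ?_⟩
  have hs' := TPairA_sum_nonneg hβ ω'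
  rw [Finset.sum_add_distrib, mul_add, Real.exp_add, ← mul_assoc]
  refine mul_le_mul_of_nonneg_left (Real.exp_le_exp.2 (mul_le_mul_of_nonneg_right ?_ hs'))
    (by positivity)
  exact le_mul_of_one_le_right hC he

theorem TPairA_ham_bd {n : ℕ} {H : (Fin n → E) → ℝ} (hH : Ham β H) :
    ∃ C, 0 ≤ C ∧ ∀ ω, |H ω| ≤ C + C * ∑ j, β (ω j) := by
  obtain ⟨C, hC, hb⟩ := hH.bound
  exact ⟨C, hC, fun ω => by have := hb ω; rwa [mul_add, mul_one] at this⟩

theorem TPairA_t2_inner {n : ℕ} {Φ : (Fin n → E) → (Fin n → E) → ℝ} (hβ : Dom m β) (hζ : Exps ζ)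
    (i : ℕ) {H : (Fin n → E) → ℝ} (hH : Ham β H)
    (h : Tame2 β Φ) : Tame β (fun ω => pathE m ζ n i H (Φ ω)) := by
  obtain ⟨C, hC, hb⟩ := h.bound
  obtain ⟨A, hA, hHb⟩ := TPairA_ham_bd hH
  obtain ⟨K, hK0, hK⟩ := pathE_bound hβ n A C hA hC
  have hmeas : Measurable (fun ω => pathE m ζ n i H (Φ ω)) :=
    measurable_pathE m ζ n i (A := Fin n → E) (H := fun _ => H) (Φ := Φ)
      (hH.meas.comp measurable_snd) h.meas
  refine ⟨hmeas, C * (K * Real.exp (K * A)) + C, by positivity, fun ω => ?_⟩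
  have hs := TPairA_sum_nonneg hβ ω
  have h1 := hK ζ hζ i A (C * Real.exp (C * ∑ j, β (ω j))) hA (by positivity) H (Φ ω) hH.meas
    (h.meas.comp (measurable_const.prodMk measurable_id)) hHb (fun ω' => by
      refine (hb ω ω').trans (le_of_eq ?_)
      rw [Finset.sum_add_distrib, mul_add, Real.exp_add, ← mul_assoc])
  refine h1.trans ?_
  have h2 : Real.exp (C * ∑ j, β (ω j)) ≤
      Real.exp ((C * (K * Real.exp (K * A)) + C) * ∑ j, β (ω j)) := by
    refine Real.exp_le_exp.2 (mul_le_mul_of_nonneg_right ?_ hs)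
    have : 0 ≤ C * (K * Real.exp (K * A)) := by positivity
    linarith
  calc C * Real.exp (C * ∑ j, β (ω j)) * (K * Real.exp (K * A))
      = (C * (K * Real.exp (K * A))) * Real.exp (C * ∑ j, β (ω j)) := by ring
    _ ≤ (C * (K * Real.exp (K * A)) + C) *
        Real.exp ((C * (K * Real.exp (K * A)) + C) * ∑ j, β (ω j)) :=
        mul_le_mul (by linarith) h2 (Real.exp_pos _).le (by positivity)

/-- a priori bound for pairs (uniform) -/
theorem pairE_bound (hβ : Dom m β) (n : ℕ) (C B : ℝ) (hC : 0 ≤ C) (hB : 0 ≤ B) :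
    ∃ K : ℝ, 0 ≤ K ∧ ∀ (ζ : ℕ → ℝ), Exps ζ → ∀ (r i : ℕ) (a b : ℝ), 0 ≤ a → 0 ≤ b →
      ∀ (H : (Fin n → E) → ℝ) (Φ : (Fin n → E) → (Fin n → E) → ℝ), Measurable H →
      Measurable (Function.uncurry Φ) → (∀ ω, |H ω| ≤ a + C * ∑ j, β (ω j)) →
      (∀ ω ω', |Φ ω ω'| ≤ b * Real.exp (B * ∑ j, (β (ω j) + β (ω' j)))) →
      |pairE m ζ r n i H Φ| ≤ b * (K * Real.exp (K * a)) := by
  induction n with
  | zero =>
    refine ⟨1, zero_le_one, fun ζ hζ r i a b ha hb H Φ hHm hΦm hH hΦ => ?_⟩
    have h1 : pairE m ζ r 0 i H Φ = Φ Fin.elim0 Fin.elim0 := by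
      cases r with
      | zero => simp [pairE, pathE]
      | succ r => simp [pairE]
    rw [h1]
    refine (hΦ _ _).trans ?_
    rw [Finset.univ_eq_empty, Finset.sum_empty, mul_zero, Real.exp_zero, one_mul, one_mul]
    exact mul_le_mul_of_nonneg_left (Real.one_le_exp ha) hb
  | succ n ih =>
    obtain ⟨K0, hK0, h0⟩ := pathE_bound hβ (n + 1) C B hC hB
    obtain ⟨K1, hK1, h1⟩ := ih
    obtain ⟨K2, hK2, h2⟩ := TPairA_wgt_exp_bound hβ n C (2 * B + K1 * C) hC (by positivity)
    refine ⟨(K0 * K0 + (K0 + K0)) + (K1 * K2 + (K1 + K2)), by positivity,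
      fun ζ hζ r i a b ha hb H Φ hHm hΦm hH hΦ => ?_⟩
    have hHam : Ham β H := TPairA_Ham_of hβ hHm ha hC hH
    have hΦt : Tame2 β Φ := TPairA_t2_of hβ hb hB hΦm hΦ
    cases r with
    | zero =>
      have hmeas : Measurable (fun ω => pathE m ζ (n + 1) i H (Φ ω)) :=
        measurable_pathE m ζ (n + 1) i (A := Fin (n + 1) → E) (H := fun _ => H) (Φ := Φ)
          (hHm.comp measurable_snd) hΦm
      have hin : ∀ ω, |pathE m ζ (n + 1) i H (Φ ω)| ≤
          (b * (K0 * Real.exp (K0 * a))) * Real.exp (B * ∑ j, β (ω j)) := by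
        intro ω
        have := h0 ζ hζ i a (b * Real.exp (B * ∑ j, β (ω j))) ha (by positivity) H (Φ ω) hHm
          (hΦm.comp (measurable_const.prodMk measurable_id)) hH (fun ω' => by
            refine (hΦ ω ω').trans (le_of_eq ?_)
            rw [Finset.sum_add_distrib, mul_add, Real.exp_add, ← mul_assoc])
        refine this.trans (le_of_eq (by ring))
      have hout := h0 ζ hζ i a (b * (K0 * Real.exp (K0 * a))) ha (by positivity) H
        (fun ω => pathE m ζ (n + 1) i H (Φ ω)) hHm hmeas hH hin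
      have heq : pairE m ζ 0 (n + 1) i H Φ =
          pathE m ζ (n + 1) i H (fun ω => pathE m ζ (n + 1) i H (Φ ω)) := rfl
      rw [heq]
      refine hout.trans ?_
      rw [mul_assoc]
      refine mul_le_mul_of_nonneg_left ?_ hb
      have hexp : K0 * Real.exp (K0 * a) * (K0 * Real.exp (K0 * a)) =
          K0 * K0 * Real.exp ((K0 + K0) * a) := by
        rw [add_mul, Real.exp_add]; ring
      rw [hexp]
      refine mul_le_mul ?_ (Real.exp_le_exp.2 (mul_le_mul_of_nonneg_right ?_ ha))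
        (Real.exp_pos _).le (by positivity)
      · nlinarith [mul_nonneg hK1 hK2]
      · nlinarith [mul_nonneg hK1 hK2, mul_nonneg hK0 hK0]
    | succ r =>
      have hbd : ∀ e, |pairE m ζ r n (i + 1) (fun ω => H (Fin.cons e ω))
          (fun ω ω' => Φ (Fin.cons e ω) (Fin.cons e ω'))| ≤
          (b * (K1 * Real.exp (K1 * a))) * Real.exp ((2 * B + K1 * C) * β e) := by
        intro e
        have hβe := hβ.nonneg e
        have := h1 ζ hζ r (i + 1) (a + C * β e) (b * Real.exp (B * (2 * β e))) (by positivity)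
          (by positivity) (fun ω => H (Fin.cons e ω))
          (fun ω ω' => Φ (Fin.cons e ω) (Fin.cons e ω'))
          (hHm.comp (TPairA_measurable_cons measurable_const measurable_id))
          (hΦm.comp ((TPairA_measurable_cons measurable_const measurable_fst).prodMk
            (TPairA_measurable_cons measurable_const measurable_snd)))
          (fun ω => TPairA_cons_bound hH e ω)
          (fun ω ω' => by
            refine (hΦ _ _).trans (le_of_eq ?_)
            rw [Fin.sum_univ_succ, mul_assoc, ← Real.exp_add]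
            simp only [Fin.cons_zero, Fin.cons_succ]
            congr 2
            ring)
        refine this.trans (le_of_eq ?_)
        have e1 : Real.exp (K1 * (a + C * β e)) = Real.exp (K1 * a) * Real.exp (K1 * C * β e) := by
          rw [← Real.exp_add]; congr 1; ring
        have e2 : Real.exp ((2 * B + K1 * C) * β e) =
            Real.exp (B * (2 * β e)) * Real.exp (K1 * C * β e) := by
          rw [← Real.exp_add]; congr 1; ring
        rw [e1, e2]; ring
      have hI : Integrable (fun e => wgt m ζ n i H e *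
          ((b * (K1 * Real.exp (K1 * a))) * Real.exp ((2 * B + K1 * C) * β e))) m := by
        have := (TPairA_wgt_exp hβ hζ n i hHam (2 * B + K1 * C) (by positivity)).const_mul
          (b * (K1 * Real.exp (K1 * a)))
        refine this.congr (Filter.Eventually.of_forall fun e => ?_)
        simp only
        ring
      have heq : pairE m ζ (r + 1) (n + 1) i H Φ = ∫ e, wgt m ζ n i H e *
          pairE m ζ r n (i + 1) (fun ω => H (Fin.cons e ω))
            (fun ω ω' => Φ (Fin.cons e ω) (Fin.cons e ω')) ∂m := rfl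
      rw [heq, ← Real.norm_eq_abs]
      refine (norm_integral_le_of_norm_le hI (Filter.Eventually.of_forall fun e => ?_)).trans ?_
      · rw [Real.norm_eq_abs, abs_mul, abs_of_pos (wgt_pos m ζ n i H e)]
        exact mul_le_mul_of_nonneg_left (hbd e) (wgt_pos m ζ n i H e).le
      · have h3 := h2 ζ hζ i a ha H hHm hH
        have h4 : ∫ e, wgt m ζ n i H e *
            ((b * (K1 * Real.exp (K1 * a))) * Real.exp ((2 * B + K1 * C) * β e)) ∂m =
            (b * (K1 * Real.exp (K1 * a))) *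
              ∫ e, wgt m ζ n i H e * Real.exp ((2 * B + K1 * C) * β e) ∂m := by
          rw [← integral_const_mul]
          refine integral_congr_ae (Filter.Eventually.of_forall fun e => ?_)
          simp only
          ring
        rw [h4]
        refine (mul_le_mul_of_nonneg_left h3 (by positivity)).trans ?_
        rw [mul_assoc]
        refine mul_le_mul_of_nonneg_left ?_ hb
        have hexp : K1 * Real.exp (K1 * a) * (K2 * Real.exp (K2 * a)) =
            K1 * K2 * Real.exp ((K1 + K2) * a) := by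
          rw [add_mul, Real.exp_add]; ring
        rw [hexp]
        refine mul_le_mul ?_ (Real.exp_le_exp.2 (mul_le_mul_of_nonneg_right ?_ ha))
          (Real.exp_pos _).le (by positivity)
        · nlinarith [mul_nonneg hK0 hK0]
        · nlinarith [mul_nonneg hK1 hK2, mul_nonneg hK0 hK0]

/-- integrability needed in every induction step -/
theorem TPairA_integrable (hβ : Dom m β) (hζ : Exps ζ) (r n i : ℕ) {H : (Fin (n + 1) → E) → ℝ}
    {Φ : (Fin (n + 1) → E) → (Fin (n + 1) → E) → ℝ} (hH : Ham β H) (hΦ : Tame2 β Φ) :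
    Integrable (fun e => wgt m ζ n i H e *
      pairE m ζ r n (i + 1) (fun ω => H (Fin.cons e ω))
        (fun ω ω' => Φ (Fin.cons e ω) (Fin.cons e ω'))) m := by
  obtain ⟨B, hB, hb⟩ := hΦ.bound
  obtain ⟨A, hA, hHb⟩ := TPairA_ham_bd hH
  obtain ⟨K, hK0, hK⟩ := pairE_bound hβ n A B hA hB
  have hI := (TPairA_wgt_exp hβ hζ n i hH (2 * B + K * A) (by positivity)).const_mul
    (B * (K * Real.exp (K * A)))
  have hm1 : Measurable (fun e => pairE m ζ r n (i + 1) (fun ω => H (Fin.cons e ω))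
        (fun ω ω' => Φ (Fin.cons e ω) (Fin.cons e ω'))) := by
    refine measurable_pairE m ζ n r (i + 1) (A := E) (H := fun e ω => H (Fin.cons e ω))
      (Φ := fun e ω ω' => Φ (Fin.cons e ω) (Fin.cons e ω')) ?_ ?_
    · exact hH.meas.comp (TPairA_measurable_cons measurable_fst measurable_snd)
    · exact hΦ.meas.comp ((TPairA_measurable_cons measurable_fst
        (measurable_fst.comp measurable_snd)).prodMk
        (TPairA_measurable_cons measurable_fst (measurable_snd.comp measurable_snd)))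
  refine hI.mono' ((TPairA_wgt_meas hH.meas).mul hm1).aestronglyMeasurable
    (Filter.Eventually.of_forall fun e => ?_)
  have hβe := hβ.nonneg e
  have := hK ζ hζ r (i + 1) (A + A * β e) (B * Real.exp (B * (2 * β e))) (by positivity)
    (by positivity) (fun ω => H (Fin.cons e ω))
    (fun ω ω' => Φ (Fin.cons e ω) (Fin.cons e ω'))
    (hH.meas.comp (TPairA_measurable_cons measurable_const measurable_id))
    (hΦ.meas.comp ((TPairA_measurable_cons measurable_const measurable_fst).prodMk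
      (TPairA_measurable_cons measurable_const measurable_snd)))
    (fun ω => TPairA_cons_bound hHb e ω)
    (fun ω ω' => by
      refine (hb _ _).trans (le_of_eq ?_)
      rw [Fin.sum_univ_succ, mul_assoc, ← Real.exp_add]
      simp only [Fin.cons_zero, Fin.cons_succ]
      congr 2
      ring)
  rw [Real.norm_eq_abs, abs_mul, abs_of_pos (wgt_pos m ζ n i H e)]
  have hw := (wgt_pos m ζ n i H e).le
  refine (mul_le_mul_of_nonneg_left this hw).trans (le_of_eq ?_)
  have e1 : Real.exp (K * (A + A * β e)) = Real.exp (K * A) * Real.exp (K * A * β e) := by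
    rw [← Real.exp_add]; congr 1; ring
  have e2 : Real.exp ((2 * B + K * A) * β e) =
      Real.exp (B * (2 * β e)) * Real.exp (K * A * β e) := by
    rw [← Real.exp_add]; congr 1; ring
  rw [e1, e2]; ring

theorem pairE_add (hβ : Dom m β) (hζ : Exps ζ) (r n i : ℕ) {H : (Fin n → E) → ℝ}
    {Φ Ψ : (Fin n → E) → (Fin n → E) → ℝ} (hH : Ham β H) (hΦ : Tame2 β Φ) (hΨ : Tame2 β Ψ) :
    pairE m ζ r n i H (fun ω ω' => Φ ω ω' + Ψ ω ω') =
      pairE m ζ r n i H Φ + pairE m ζ r n i H Ψ := by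
  induction n generalizing r i with
  | zero =>
    cases r with
    | zero => simp [pairE, pathE]
    | succ r => simp [pairE]
  | succ n ih =>
    cases r with
    | zero =>
      show pathE m ζ (n + 1) i H (fun ω => pathE m ζ (n + 1) i H (fun ω' => Φ ω ω' + Ψ ω ω')) =
        pathE m ζ (n + 1) i H (fun ω => pathE m ζ (n + 1) i H (Φ ω)) +
        pathE m ζ (n + 1) i H (fun ω => pathE m ζ (n + 1) i H (Ψ ω))
      rw [← pathE_add hβ hζ (n + 1) i hH (TPairA_t2_inner hβ hζ i hH hΦ)
        (TPairA_t2_inner hβ hζ i hH hΨ)]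
      congr 1
      funext ω
      exact pathE_add hβ hζ (n + 1) i hH (TPairA_t2_right hβ hΦ ω) (TPairA_t2_right hβ hΨ ω)
    | succ r =>
      simp only [pairE]
      rw [← integral_add (TPairA_integrable hβ hζ r n i hH hΦ) (TPairA_integrable hβ hζ r n i hH hΨ)]
      refine integral_congr_ae (Filter.Eventually.of_forall fun e => ?_)
      simp only
      rw [ih r (i + 1) (hH.cons hβ e) (TPairA_t2_cons hβ hΦ e) (TPairA_t2_cons hβ hΨ e), mul_add]

theorem pairE_cmul (r n i : ℕ) (H : (Fin n → E) → ℝ) (Φ : (Fin n → E) → (Fin n → E) → ℝ) (c : ℝ) :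
    pairE m ζ r n i H (fun ω ω' => c * Φ ω ω') = c * pairE m ζ r n i H Φ := by
  induction n generalizing r i with
  | zero =>
    cases r with
    | zero => simp [pairE, pathE]
    | succ r => simp [pairE]
  | succ n ih =>
    cases r with
    | zero =>
      show pathE m ζ (n + 1) i H (fun ω => pathE m ζ (n + 1) i H (fun ω' => c * Φ ω ω')) =
        c * pathE m ζ (n + 1) i H (fun ω => pathE m ζ (n + 1) i H (Φ ω))
      rw [← pathE_mul]
      congr 1
      funext ω
      exact pathE_mul (n + 1) i H (Φ ω) c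
    | succ r =>
      simp only [pairE]
      rw [← integral_const_mul]
      refine integral_congr_ae (Filter.Eventually.of_forall fun e => ?_)
      simp only
      rw [ih r (i + 1) _ (fun ω ω' => Φ (Fin.cons e ω) (Fin.cons e ω'))]
      ring

theorem pairE_mono (hβ : Dom m β) (hζ : Exps ζ) (r n i : ℕ) {H : (Fin n → E) → ℝ}
    {Φ Ψ : (Fin n → E) → (Fin n → E) → ℝ} (hH : Ham β H) (hΦ : Tame2 β Φ) (hΨ : Tame2 β Ψ)
    (h : ∀ ω ω', Φ ω ω' ≤ Ψ ω ω') : pairE m ζ r n i H Φ ≤ pairE m ζ r n i H Ψ := by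
  induction n generalizing r i with
  | zero =>
    cases r with
    | zero => simpa [pairE, pathE] using h _ _
    | succ r => simpa [pairE] using h _ _
  | succ n ih =>
    cases r with
    | zero =>
      show pathE m ζ (n + 1) i H (fun ω => pathE m ζ (n + 1) i H (Φ ω)) ≤
        pathE m ζ (n + 1) i H (fun ω => pathE m ζ (n + 1) i H (Ψ ω))
      refine pathE_mono hβ hζ (n + 1) i hH (TPairA_t2_inner hβ hζ i hH hΦ)
        (TPairA_t2_inner hβ hζ i hH hΨ) fun ω => ?_
      exact pathE_mono hβ hζ (n + 1) i hH (TPairA_t2_right hβ hΦ ω) (TPairA_t2_right hβ hΨ ω)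
        (h ω)
    | succ r =>
      simp only [pairE]
      refine integral_mono (TPairA_integrable hβ hζ r n i hH hΦ)
        (TPairA_integrable hβ hζ r n i hH hΨ) fun e => ?_
      exact mul_le_mul_of_nonneg_left (ih r (i + 1) (hH.cons hβ e) (TPairA_t2_cons hβ hΦ e)
        (TPairA_t2_cons hβ hΨ e) fun ω ω' => h _ _) (wgt_pos m ζ n i H e).le

theorem pairE_const (hβ : Dom m β) (hζ : Exps ζ) (r n i : ℕ) {H : (Fin n → E) → ℝ} (hH : Ham β H)
    (c : ℝ) : pairE m ζ r n i H (fun _ _ => c) = c := by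
  induction n generalizing r i with
  | zero =>
    cases r with
    | zero => simp [pairE, pathE]
    | succ r => simp [pairE]
  | succ n ih =>
    cases r with
    | zero =>
      show pathE m ζ (n + 1) i H (fun ω => pathE m ζ (n + 1) i H (fun _ => c)) = c
      rw [pathE_const hβ hζ (n + 1) i hH c, pathE_const hβ hζ (n + 1) i hH c]
    | succ r =>
      simp only [pairE]
      have h1 : ∀ e, wgt m ζ n i H e * pairE m ζ r n (i + 1) (fun ω => H (Fin.cons e ω))
          (fun _ _ => c) = wgt m ζ n i H e * c := fun e => by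
        rw [ih r (i + 1) (hH.cons hβ e)]
      simp only [h1]
      rw [integral_mul_const, (wgt_integral hβ hζ n i hH).2, one_mul]

theorem pairE_abs_le (hβ : Dom m β) (hζ : Exps ζ) (r n i : ℕ) {H : (Fin n → E) → ℝ}
    {Φ : (Fin n → E) → (Fin n → E) → ℝ} (hH : Ham β H) (hΦ : Tame2 β Φ) :
    |pairE m ζ r n i H Φ| ≤ pairE m ζ r n i H (fun ω ω' => |Φ ω ω'|) := by
  rw [abs_le]
  constructor
  · have h1 := pairE_cmul (m := m) (ζ := ζ) r n i H (fun ω ω' => |Φ ω ω'|) (-1)
    have h2 := pairE_mono hβ hζ r n i hH (TPairA_t2_cmul hβ (TPairA_t2_abs hΦ) (-1)) hΦ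
      (fun ω ω' => by have := neg_abs_le (Φ ω ω'); linarith)
    linarith
  · exact pairE_mono hβ hζ r n i hH hΦ (TPairA_t2_abs hΦ) fun ω ω' => le_abs_self _

theorem pairE_cs (hβ : Dom m β) (hζ : Exps ζ) (r n i : ℕ) {H : (Fin n → E) → ℝ}
    {Φ Ψ : (Fin n → E) → (Fin n → E) → ℝ} (hH : Ham β H) (hΦ : Tame2 β Φ) (hΨ : Tame2 β Ψ) :
    pairE m ζ r n i H (fun ω ω' => Φ ω ω' * Ψ ω ω') ^ 2 ≤
      pairE m ζ r n i H (fun ω ω' => Φ ω ω' ^ 2) * pairE m ζ r n i H (fun ω ω' => Ψ ω ω' ^ 2) := by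
  set A := pairE m ζ r n i H (fun ω ω' => Φ ω ω' * Ψ ω ω') with hA
  set P := pairE m ζ r n i H (fun ω ω' => Φ ω ω' ^ 2) with hP
  set Q := pairE m ζ r n i H (fun ω ω' => Ψ ω ω' ^ 2) with hQ
  have tΦ2 : Tame2 β (fun ω ω' => Φ ω ω' ^ 2) := by
    simpa only [sq] using TPairA_t2_mul hβ hΦ hΦ
  have tΨ2 : Tame2 β (fun ω ω' => Ψ ω ω' ^ 2) := by
    simpa only [sq] using TPairA_t2_mul hβ hΨ hΨ
  have tΦΨ := TPairA_t2_mul hβ hΦ hΨ
  have key : ∀ x : ℝ, 0 ≤ P * (x * x) + (2 * A) * x + Q := by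
    intro x
    have h1 : pairE m ζ r n i H (fun ω ω' => (x * x) * Φ ω ω' ^ 2 +
        ((2 * x) * (Φ ω ω' * Ψ ω ω') + Ψ ω ω' ^ 2)) = (x * x) * P + ((2 * x) * A + Q) := by
      rw [pairE_add hβ hζ r n i hH (TPairA_t2_cmul hβ tΦ2 (x * x))
        (TPairA_t2_add hβ (TPairA_t2_cmul hβ tΦΨ (2 * x)) tΨ2),
        pairE_add hβ hζ r n i hH (TPairA_t2_cmul hβ tΦΨ (2 * x)) tΨ2, pairE_cmul, pairE_cmul]
    have h2 : pairE m ζ r n i H (fun _ _ => (0 : ℝ)) ≤ pairE m ζ r n i H
        (fun ω ω' => (x * x) * Φ ω ω' ^ 2 + ((2 * x) * (Φ ω ω' * Ψ ω ω') + Ψ ω ω' ^ 2)) := by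
      refine pairE_mono hβ hζ r n i hH (TPairA_t2_const 0 hβ)
        (TPairA_t2_add hβ (TPairA_t2_cmul hβ tΦ2 (x * x))
        (TPairA_t2_add hβ (TPairA_t2_cmul hβ tΦΨ (2 * x)) tΨ2)) fun ω ω' => ?_
      nlinarith [sq_nonneg (x * Φ ω ω' + Ψ ω ω')]
    rw [pairE_const hβ hζ r n i hH, h1] at h2
    linarith
  have := discrim_le_zero key
  rw [discrim] at this
  nlinarith

/-- exchange of `pathE` and an integral over `E` -/
theorem TPairA_pathE_integral (hβ : Dom m β) (hζ : Exps ζ) (w : E → ℝ) (hwm : Measurable w)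
    (hw0 : ∀ e, 0 ≤ w e)
    (hw : ∀ c : ℝ, 0 ≤ c → Integrable (fun e => w e * Real.exp (c * β e)) m) (n : ℕ) :
    ∀ (i : ℕ) {H : (Fin n → E) → ℝ}, Ham β H → ∀ (F : E → (Fin n → E) → ℝ),
      Measurable (Function.uncurry F) → ∀ (C D : ℝ), 0 ≤ C → 0 ≤ D →
      (∀ e ω, |F e ω| ≤ D * Real.exp (C * (β e + ∑ j, β (ω j)))) →
      pathE m ζ n i H (fun ω => ∫ e, w e * F e ω ∂m) = ∫ e, w e * pathE m ζ n i H (F e) ∂m := by
  induction n with
  | zero => intro i H hH F hF C D hC hD hb; simp [pathE]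
  | succ n ih =>
    intro i H hH F hF C D hC hD hb
    obtain ⟨A, hA, hHb⟩ := TPairA_ham_bd hH
    obtain ⟨K, hK0, hK⟩ := pathE_bound hβ n A C hA hC
    have hb' : ∀ e' e (ω : Fin n → E), |F e (Fin.cons e' ω)| ≤
        (D * Real.exp (C * β e')) * Real.exp (C * (β e + ∑ j, β (ω j))) := by
      intro e' e ω
      refine (hb _ _).trans (le_of_eq ?_)
      rw [Fin.sum_univ_succ, mul_assoc, ← Real.exp_add]
      simp only [Fin.cons_zero, Fin.cons_succ]
      congr 2
      ring
    have hFm : ∀ e', Measurable (Function.uncurry (fun e (ω : Fin n → E) => F e (Fin.cons e' ω))) :=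
      fun e' => hF.comp (measurable_fst.prodMk
        (TPairA_measurable_cons measurable_const measurable_snd))
    have step : ∀ e', pathE m ζ n (i + 1) (fun ω => H (Fin.cons e' ω))
        (fun ω => ∫ e, w e * F e (Fin.cons e' ω) ∂m) =
        ∫ e, w e * pathE m ζ n (i + 1) (fun ω => H (Fin.cons e' ω))
          (fun ω => F e (Fin.cons e' ω)) ∂m := fun e' =>
      ih (i + 1) (hH.cons hβ e') (fun e ω => F e (Fin.cons e' ω)) (hFm e') C
        (D * Real.exp (C * β e')) hC (by positivity) (hb' e')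
    simp only [pathE, step]
    have hmeasG : Measurable (fun p : E × E => pathE m ζ n (i + 1) (fun ω => H (Fin.cons p.1 ω))
        (fun ω => F p.2 (Fin.cons p.1 ω))) := by
      refine measurable_pathE m ζ n (i + 1) (A := E × E) (H := fun p ω => H (Fin.cons p.1 ω))
        (Φ := fun p ω => F p.2 (Fin.cons p.1 ω)) ?_ ?_
      · exact hH.meas.comp (TPairA_measurable_cons (measurable_fst.comp measurable_fst)
          measurable_snd)
      · exact hF.comp ((measurable_snd.comp measurable_fst).prodMk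
          (TPairA_measurable_cons (measurable_fst.comp measurable_fst) measurable_snd))
    have hInt : Integrable (Function.uncurry (fun e' e => wgt m ζ n i H e' * (w e *
        pathE m ζ n (i + 1) (fun ω => H (Fin.cons e' ω)) (fun ω => F e (Fin.cons e' ω)))))
        (m.prod m) := by
      have hI := ((TPairA_wgt_exp hβ hζ n i hH (C + K * A) (by positivity)).const_mul
        (D * (K * Real.exp (K * A)))).mul_prod (hw C hC)
      refine hI.mono' ?_ (Filter.Eventually.of_forall fun p => ?_)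
      · exact (((TPairA_wgt_meas hH.meas).comp measurable_fst).mul
          ((hwm.comp measurable_snd).mul hmeasG)).aestronglyMeasurable
      · obtain ⟨e', e⟩ := p
        have hβe := hβ.nonneg e
        have hβe' := hβ.nonneg e'
        have h1 := hK ζ hζ (i + 1) (A + A * β e') ((D * Real.exp (C * β e')) * Real.exp (C * β e))
          (by positivity) (by positivity) (fun ω => H (Fin.cons e' ω))
          (fun ω => F e (Fin.cons e' ω))
          (hH.meas.comp (TPairA_measurable_cons measurable_const measurable_id))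
          ((hFm e').comp (measurable_const.prodMk measurable_id))
          (fun ω => TPairA_cons_bound hHb e' ω)
          (fun ω => by
            refine (hb' e' e ω).trans (le_of_eq ?_)
            rw [mul_add C, Real.exp_add]; ring)
        simp only [Function.uncurry_apply_pair]
        rw [Real.norm_eq_abs, abs_mul, abs_mul, abs_of_pos (wgt_pos m ζ n i H e'),
          abs_of_nonneg (hw0 e)]
        have hw1 := (wgt_pos m ζ n i H e').le
        refine (mul_le_mul_of_nonneg_left (mul_le_mul_of_nonneg_left h1 (hw0 e)) hw1).trans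
          (le_of_eq ?_)
        have e1 : Real.exp (K * (A + A * β e')) = Real.exp (K * A) * Real.exp (K * A * β e') := by
          rw [← Real.exp_add]; congr 1; ring
        have e2 : Real.exp ((C + K * A) * β e') =
            Real.exp (C * β e') * Real.exp (K * A * β e') := by
          rw [← Real.exp_add]; congr 1; ring
        rw [e1, e2]; ring
    have hswap := integral_integral_swap hInt
    calc ∫ e', wgt m ζ n i H e' * ∫ e, w e * pathE m ζ n (i + 1) (fun ω => H (Fin.cons e' ω))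
          (fun ω => F e (Fin.cons e' ω)) ∂m ∂m
        = ∫ e', ∫ e, wgt m ζ n i H e' * (w e * pathE m ζ n (i + 1) (fun ω => H (Fin.cons e' ω))
          (fun ω => F e (Fin.cons e' ω))) ∂m ∂m := by
          refine integral_congr_ae (Filter.Eventually.of_forall fun e' => ?_)
          simp only
          rw [integral_const_mul]
      _ = ∫ e, ∫ e', wgt m ζ n i H e' * (w e * pathE m ζ n (i + 1) (fun ω => H (Fin.cons e' ω))
          (fun ω => F e (Fin.cons e' ω))) ∂m ∂m := hswap
      _ = ∫ e, w e * ∫ e', wgt m ζ n i H e' * pathE m ζ n (i + 1) (fun ω => H (Fin.cons e' ω))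
          (fun ω => F e (Fin.cons e' ω)) ∂m ∂m := by
          refine integral_congr_ae (Filter.Eventually.of_forall fun e => ?_)
          simp only
          rw [← integral_const_mul]
          refine integral_congr_ae (Filter.Eventually.of_forall fun e' => ?_)
          simp only
          ring

/-- Fubini for two path expectations -/
theorem TPairA_fubini (hβ : Dom m β) (hζ : Exps ζ) (n' i' : ℕ) {H' : (Fin n' → E) → ℝ}
    (hH' : Ham β H') (n : ℕ) :
    ∀ (i : ℕ) {H : (Fin n → E) → ℝ}, Ham β H → ∀ (Φ : (Fin n → E) → (Fin n' → E) → ℝ),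
      Measurable (Function.uncurry Φ) → ∀ (C D : ℝ), 0 ≤ C → 0 ≤ D →
      (∀ ω ω', |Φ ω ω'| ≤ D * Real.exp (C * (∑ j, β (ω j) + ∑ j, β (ω' j)))) →
      pathE m ζ n i H (fun ω => pathE m ζ n' i' H' (Φ ω)) =
        pathE m ζ n' i' H' (fun ω' => pathE m ζ n i H (fun ω => Φ ω ω')) := by
  induction n with
  | zero => intro i H hH Φ hΦ C D hC hD hb; simp [pathE]
  | succ n ih =>
    intro i H hH Φ hΦ C D hC hD hb
    obtain ⟨A, hA, hHb⟩ := TPairA_ham_bd hH
    obtain ⟨K, hK0, hK⟩ := pathE_bound hβ n A C hA hC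
    have hb' : ∀ e (ω : Fin n → E) (ω' : Fin n' → E), |Φ (Fin.cons e ω) ω'| ≤
        (D * Real.exp (C * β e)) * Real.exp (C * (∑ j, β (ω j) + ∑ j, β (ω' j))) := by
      intro e ω ω'
      refine (hb _ _).trans (le_of_eq ?_)
      rw [Fin.sum_univ_succ, mul_assoc, ← Real.exp_add]
      simp only [Fin.cons_zero, Fin.cons_succ]
      congr 2
      ring
    have hΦm : ∀ e, Measurable (Function.uncurry (fun (ω : Fin n → E) ω' => Φ (Fin.cons e ω) ω')) :=
      fun e => hΦ.comp ((TPairA_measurable_cons measurable_const measurable_fst).prodMk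
        measurable_snd)
    have step : ∀ e, pathE m ζ n (i + 1) (fun ω => H (Fin.cons e ω))
        (fun ω => pathE m ζ n' i' H' (Φ (Fin.cons e ω))) =
        pathE m ζ n' i' H' (fun ω' => pathE m ζ n (i + 1) (fun ω => H (Fin.cons e ω))
          (fun ω => Φ (Fin.cons e ω) ω')) := fun e =>
      ih (i + 1) (hH.cons hβ e) (fun ω ω' => Φ (Fin.cons e ω) ω') (hΦm e) C
        (D * Real.exp (C * β e)) hC (by positivity) (hb' e)
    have hmeasF : Measurable (Function.uncurry (fun e (ω' : Fin n' → E) =>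
        pathE m ζ n (i + 1) (fun ω => H (Fin.cons e ω)) (fun ω => Φ (Fin.cons e ω) ω'))) := by
      refine measurable_pathE m ζ n (i + 1) (A := E × (Fin n' → E))
        (H := fun p ω => H (Fin.cons p.1 ω)) (Φ := fun p ω => Φ (Fin.cons p.1 ω) p.2) ?_ ?_
      · exact hH.meas.comp (TPairA_measurable_cons (measurable_fst.comp measurable_fst)
          measurable_snd)
      · exact hΦ.comp ((TPairA_measurable_cons (measurable_fst.comp measurable_fst)
          measurable_snd).prodMk (measurable_snd.comp measurable_fst))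
    have hFb : ∀ e (ω' : Fin n' → E), |pathE m ζ n (i + 1) (fun ω => H (Fin.cons e ω))
        (fun ω => Φ (Fin.cons e ω) ω')| ≤ (D * (K * Real.exp (K * A))) *
        Real.exp ((C + K * A) * (β e + ∑ j, β (ω' j))) := by
      intro e ω'
      have hβe := hβ.nonneg e
      have hs' := TPairA_sum_nonneg hβ ω'
      have h1 := hK ζ hζ (i + 1) (A + A * β e)
        ((D * Real.exp (C * β e)) * Real.exp (C * ∑ j, β (ω' j)))
        (by positivity) (by positivity) (fun ω => H (Fin.cons e ω))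
        (fun ω => Φ (Fin.cons e ω) ω')
        (hH.meas.comp (TPairA_measurable_cons measurable_const measurable_id))
        ((hΦm e).comp (measurable_id.prodMk measurable_const))
        (fun ω => TPairA_cons_bound hHb e ω)
        (fun ω => by
          refine (hb' e ω ω').trans (le_of_eq ?_)
          rw [mul_add C, Real.exp_add]; ring)
      refine h1.trans ?_
      have e1 : Real.exp (K * (A + A * β e)) = Real.exp (K * A) * Real.exp (K * A * β e) := by
        rw [← Real.exp_add]; congr 1; ring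
      have e2 : D * Real.exp (C * β e) * Real.exp (C * ∑ j, β (ω' j)) *
          (K * (Real.exp (K * A) * Real.exp (K * A * β e))) =
          (D * (K * Real.exp (K * A))) *
            Real.exp (C * β e + C * ∑ j, β (ω' j) + K * A * β e) := by
        rw [Real.exp_add, Real.exp_add]; ring
      rw [e1, e2]
      refine mul_le_mul_of_nonneg_left (Real.exp_le_exp.2 ?_) (by positivity)
      have : 0 ≤ K * A * ∑ j, β (ω' j) := by positivity
      nlinarith
    have hx := TPairA_pathE_integral hβ hζ (wgt m ζ n i H) (TPairA_wgt_meas hH.meas)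
      (fun e => (wgt_pos m ζ n i H e).le) (fun c hc => TPairA_wgt_exp hβ hζ n i hH c hc) n' i' hH'
      (fun e ω' => pathE m ζ n (i + 1) (fun ω => H (Fin.cons e ω)) (fun ω => Φ (Fin.cons e ω) ω'))
      hmeasF (C + K * A) (D * (K * Real.exp (K * A))) (by positivity) (by positivity) hFb
    simp only [pathE, step]
    exact hx.symm

/-- symmetry -/
theorem pairE_swap (hβ : Dom m β) (hζ : Exps ζ) (r n i : ℕ) {H : (Fin n → E) → ℝ}
    {Φ : (Fin n → E) → (Fin n → E) → ℝ} (hH : Ham β H) (hΦ : Tame2 β Φ) :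
    pairE m ζ r n i H (fun ω ω' => Φ ω' ω) = pairE m ζ r n i H Φ := by
  induction n generalizing r i with
  | zero =>
    cases r with
    | zero => simp [pairE, pathE]
    | succ r => simp [pairE]
  | succ n ih =>
    cases r with
    | zero =>
      show pathE m ζ (n + 1) i H (fun ω => pathE m ζ (n + 1) i H (fun ω' => Φ ω' ω)) =
        pathE m ζ (n + 1) i H (fun ω => pathE m ζ (n + 1) i H (Φ ω))
      obtain ⟨C, hC, hb⟩ := hΦ.bound
      exact (TPairA_fubini hβ hζ (n + 1) i hH (n + 1) i hH Φ hΦ.meas C C hC hC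
        (fun ω ω' => by
          refine (hb ω ω').trans (le_of_eq ?_)
          rw [Finset.sum_add_distrib])).symm
    | succ r =>
      simp only [pairE]
      refine integral_congr_ae (Filter.Eventually.of_forall fun e => ?_)
      simp only
      rw [ih r (i + 1) (hH.cons hβ e) (TPairA_t2_cons hβ hΦ e)]

end Crest.Agent.RI
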