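import Crest.Agent.RI.UBTow
import Crest.Agent.RI.HaarON
import Crest.Agent.RI.RhoFacts
import Crest.Agent.RI.IbpFacts
import Crest.Agent.RI.SyncLoop
import Crest.Agent.RI.RBTheta
import Crest.Agent.RI.RBClo

/-!
# Row 164, Part 6: statements used from the other modules (sorry here; to be replaced by imports)
-/

set_option autoImplicit false

namespace Crest.Agent.RI

open MeasureTheory ProbabilityTheory
open Crest.ProbabilityR.InvariantGlass

/-! (I2, helper44) `loops_UB` is proved in `RI/SyncLoop.lean`. -/

/-! (I3) `closure_eps` is proved in `RI/RBClo.lean` (helper50). -/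

section system

variable {N K : ℕ}

/-- (helper33) from the law on arrays to the subtype. -/
theorem IsHaar.toON {P : Measure (Fin N → Fin N → ℝ)} (hP : IsHaar P) :
    HaarO (P.comap (Subtype.val : ON N → (Fin N → Fin N → ℝ))) ∧
      ∀ F : (Fin N → Fin N → ℝ) → ℝ, ∫ U, F U ∂P =
        ∫ U : ON N, F U.1 ∂(P.comap (Subtype.val : ON N → (Fin N → Fin N → ℝ))) :=
  ⟨hP.haarO, fun F => (hP.integral_comap F).symm⟩

end system

end Crest.Agent.RI
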