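import Crest.Agent.RI.TanA
import Crest.Agent.RI.UBIface

/-!
# Row 164, tangent module B: directional derivative of the one-site value
-/

set_option autoImplicit false

namespace Crest.Agent.RI

open MeasureTheory ProbabilityTheory
open Crest.ProbabilityR.InvariantGlass

/-- `C¹` parametrization (in `r`) of the square roots of `τ + r² δ`. -/
noncomputable def vr (τ δ : ℕ → ℝ) (r : ℝ) (i : ℕ) : ℝ :=
  if τ i = 0 then r * Real.sqrt (δ i) else Real.sqrt (τ i + r ^ 2 * δ i)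

noncomputable def vr' (τ δ : ℕ → ℝ) (r : ℝ) (i : ℕ) : ℝ :=
  if τ i = 0 then Real.sqrt (δ i) else r * δ i / Real.sqrt (τ i + r ^ 2 * δ i)

section vr

variable {τ δ : ℕ → ℝ}

theorem vr_pos_aux {r : ℝ} (hr : |r| < 1 / 2) {i : ℕ} (hτ : 0 ≤ τ i) (hδ : 0 ≤ τ i + δ i) :
    (3 / 4) * τ i ≤ τ i + r ^ 2 * δ i := by
  have h1 : r ^ 2 ≤ 1 / 4 := by
    rw [← sq_abs]; nlinarith [abs_nonneg r]
  nlinarith [sq_nonneg r]

theorem vr_sq {r : ℝ} (hr : |r| < 1 / 2) {i : ℕ} (hτ : 0 ≤ τ i) (hδ : 0 ≤ τ i + δ i) :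
    vr τ δ r i ^ 2 = τ i + r ^ 2 * δ i := by
  unfold vr
  split_ifs with h
  · rw [h, zero_add] at hδ
    rw [mul_pow, Real.sq_sqrt hδ, h, zero_add]
  · exact Real.sq_sqrt ((by positivity : 0 ≤ (3 / 4) * τ i).trans (vr_pos_aux hr hτ hδ))

theorem vr_zero (i : ℕ) : vr τ δ 0 i = Real.sqrt (τ i) := by
  unfold vr
  split_ifs with h
  · rw [h]; simp
  · simp

theorem vr_deriv {r : ℝ} (hr : |r| < 1 / 2) {i : ℕ} (hτ : 0 ≤ τ i) (hδ : 0 ≤ τ i + δ i) :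
    HasDerivAt (fun r => vr τ δ r i) (vr' τ δ r i) r := by
  unfold vr vr'
  split_ifs with h
  · simpa using (hasDerivAt_id r).mul_const (Real.sqrt (δ i))
  · have hp : 0 < τ i + r ^ 2 * δ i :=
      lt_of_lt_of_le (by have := lt_of_le_of_ne hτ (Ne.symm h); positivity) (vr_pos_aux hr hτ hδ)
    have h1 : HasDerivAt (fun r : ℝ => τ i + r ^ 2 * δ i) (2 * r * δ i) r := by
      have := ((hasDerivAt_pow 2 r).mul_const (δ i)).const_add (τ i)
      simpa using this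
    have h2 := h1.sqrt hp.ne'
    refine h2.congr_deriv ?_
    have : Real.sqrt (τ i + r ^ 2 * δ i) ≠ 0 := (Real.sqrt_pos.mpr hp).ne'
    field_simp

theorem vr_mul {r : ℝ} (hr : |r| < 1 / 2) {i : ℕ} (hτ : 0 ≤ τ i) (hδ : 0 ≤ τ i + δ i) :
    vr' τ δ r i * vr τ δ r i = r * δ i := by
  unfold vr vr'
  split_ifs with h
  · rw [h, zero_add] at hδ
    have := Real.mul_self_sqrt hδ
    linear_combination r * this
  · have hp : 0 < τ i + r ^ 2 * δ i :=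
      lt_of_lt_of_le (by have := lt_of_le_of_ne hτ (Ne.symm h); positivity) (vr_pos_aux hr hτ hδ)
    have : Real.sqrt (τ i + r ^ 2 * δ i) ≠ 0 := (Real.sqrt_pos.mpr hp).ne'
    field_simp

theorem vr_bound {r : ℝ} (hr : |r| < 1 / 2) (i : ℕ) : |vr τ δ r i| ≤ Real.sqrt (|τ i| + |δ i|) := by
  have hr2 : r ^ 2 ≤ 1 := by
    rw [← sq_abs]; nlinarith [abs_nonneg r]
  unfold vr
  split_ifs with h
  · rw [abs_mul, h, abs_zero, zero_add, abs_of_nonneg (Real.sqrt_nonneg _)]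
    calc |r| * Real.sqrt (δ i) ≤ 1 * Real.sqrt (δ i) :=
          mul_le_mul_of_nonneg_right (by linarith) (Real.sqrt_nonneg _)
      _ ≤ Real.sqrt |δ i| := by rw [one_mul]; exact Real.sqrt_le_sqrt (le_abs_self _)
  · rw [abs_of_nonneg (Real.sqrt_nonneg _)]
    refine Real.sqrt_le_sqrt ?_
    have h1 := le_abs_self (τ i)
    have h2 : r ^ 2 * δ i ≤ |δ i| := by
      calc r ^ 2 * δ i ≤ r ^ 2 * |δ i| := mul_le_mul_of_nonneg_left (le_abs_self _) (sq_nonneg _)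
        _ ≤ 1 * |δ i| := mul_le_mul_of_nonneg_right hr2 (abs_nonneg _)
        _ = |δ i| := one_mul _
    linarith

theorem vr'_bound {r : ℝ} (hr : |r| < 1 / 2) {i : ℕ} (hτ : 0 ≤ τ i) (hδ : 0 ≤ τ i + δ i) :
    |vr' τ δ r i| ≤ Real.sqrt |δ i| + 2 * |δ i| / Real.sqrt (τ i) := by
  unfold vr'
  split_ifs with h
  · rw [abs_of_nonneg (Real.sqrt_nonneg _)]
    have h1 : Real.sqrt (δ i) ≤ Real.sqrt |δ i| := Real.sqrt_le_sqrt (le_abs_self _)
    have h2 : 0 ≤ 2 * |δ i| / Real.sqrt (τ i) := by positivity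
    linarith
  · have hτp : 0 < τ i := lt_of_le_of_ne hτ (Ne.symm h)
    have hp := vr_pos_aux hr hτ hδ
    have h3 : Real.sqrt (τ i) / 2 ≤ Real.sqrt (τ i + r ^ 2 * δ i) := by
      rw [div_le_iff₀ (by norm_num), mul_comm]
      have : (2 : ℝ) = Real.sqrt 4 := by
        rw [show (4 : ℝ) = 2 ^ 2 by norm_num, Real.sqrt_sq (by norm_num)]
      rw [this, ← Real.sqrt_mul (by norm_num)]
      refine Real.sqrt_le_sqrt ?_
      nlinarith
    have h4 : 0 < Real.sqrt (τ i) := Real.sqrt_pos.mpr hτp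
    rw [abs_div, abs_mul, abs_of_nonneg (Real.sqrt_nonneg (τ i + r ^ 2 * δ i))]
    calc |r| * |δ i| / Real.sqrt (τ i + r ^ 2 * δ i) ≤ 1 * |δ i| / (Real.sqrt (τ i) / 2) := by
          gcongr
          linarith
      _ = 2 * |δ i| / Real.sqrt (τ i) := by field_simp
      _ ≤ _ := by have := Real.sqrt_nonneg |δ i|; linarith

end vr

theorem HN_siteθ' (k : ℕ) (v : ℕ → ℝ) (b : ℝ) (ω : Fin (k + 1) → EN 1) :
    HN k (siteθ v b) ω = b * spin ((ω (Fin.last k)).2.2.2 0) + ∑ i : Fin k, v i * gs k i ω := by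
  rw [HN_siteθ, add_mul, Finset.sum_mul]
  congr 1
  refine Finset.sum_congr rfl fun i _ => ?_
  unfold gs
  simp only [Finset.univ_unique, Finset.sum_singleton]
  have : (default : Fin 1) = 0 := rfl
  rw [this]; ring

theorem gs_bound (k : ℕ) (i : Fin k) (ω : Fin (k + 1) → EN 1) : |gs k i ω| ≤ ∑ j, βN (ω j) := by
  unfold gs
  simp only [Finset.univ_unique, Finset.sum_singleton]
  rw [abs_mul, abs_spin, mul_one]
  have h1 : |(ω i.castSucc).2.1 default| ≤ βN (ω i.castSucc) := by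
    unfold βN
    simp only [Finset.univ_unique, Finset.sum_singleton]
    have := abs_nonneg ((ω i.castSucc).2.2.1 default)
    linarith
  refine h1.trans ?_
  refine Finset.single_le_sum (f := fun j => βN (ω j)) (fun j _ => ?_) (Finset.mem_univ _)
  unfold βN
  positivity

/-- overlap `q_j` of the one-site tower -/
noncomputable def siteQ (ζ τ : ℕ → ℝ) (k : ℕ) (b : ℝ) (j : ℕ) : ℝ :=
  pN P1 (unifA 1) ζ k (siteθ (fun i => Real.sqrt (τ i)) b) j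

/-- `Σ_{i ≤ j < k} (ζ_{j+1} - ζ_j) q_j` -/
noncomputable def siteTail (ζ τ : ℕ → ℝ) (k : ℕ) (b : ℝ) (i : ℕ) : ℝ :=
  ∑ j ∈ Finset.Ico i k, (ζ (j + 1) - ζ j) * siteQ ζ τ k b j

/-- the direction field -/
noncomputable def Vr (τ δ : ℕ → ℝ) (k : ℕ) (r : ℝ) (ω : Fin (k + 1) → EN 1) : ℝ :=
  ∑ i : Fin k, vr' τ δ r i * gs k i ω

theorem Vr_hasDerivAt {τ δ : ℕ → ℝ} (hτ : ∀ i, 0 ≤ τ i) (hδ : ∀ i, 0 ≤ τ i + δ i) (k : ℕ) (b : ℝ)
    {r : ℝ} (hr : |r| < 1 / 2) (ω : Fin (k + 1) → EN 1) :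
    HasDerivAt (fun r => HN k (siteθ (vr τ δ r) b) ω) (Vr τ δ k r ω) r := by
  simp only [HN_siteθ']
  unfold Vr
  refine HasDerivAt.const_add _ ?_
  exact HasDerivAt.fun_sum fun i _ => (vr_deriv hr (hτ i) (hδ i)).mul_const _

/-- common constant -/
theorem Vr_consts (τ δ : ℕ → ℝ) (hτ : ∀ i, 0 ≤ τ i) (hδ : ∀ i, 0 ≤ τ i + δ i) (k : ℕ) (b : ℝ) :
    ∃ C : ℝ, 0 ≤ C ∧ (∀ r ∈ Set.Ioo (-(1 / 2) : ℝ) (1 / 2), HamC C (βN (N := 1)) (HN k (siteθ (vr τ δ r) b))) ∧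
      (∀ r ∈ Set.Ioo (-(1 / 2) : ℝ) (1 / 2), TameC C (βN (N := 1)) (Vr τ δ k r)) := by
  set C1 := |b| + ∑ i : Fin k, Real.sqrt (|τ i| + |δ i|) with hC1
  set C2 := ∑ i : Fin k, (Real.sqrt |δ i| + 2 * |δ i| / Real.sqrt (τ i)) with hC2
  have h1 : 0 ≤ C1 := by positivity
  have h2 : 0 ≤ C2 := Finset.sum_nonneg fun i _ => by positivity
  have hβ : ∀ ω : Fin (k + 1) → EN 1, 0 ≤ ∑ j, βN (ω j) := fun ω =>
    Finset.sum_nonneg fun j _ => by unfold βN; positivity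
  refine ⟨C1 + C2 + 1, by positivity, fun r hr => ⟨(HN_ham k _).meas, fun ω => ?_⟩,
    fun r hr => ⟨?_, fun ω => ?_⟩⟩
  · have hr' : |r| < 1 / 2 := abs_lt.mpr ⟨hr.1, hr.2⟩
    rw [HN_siteθ']
    have e1 : |b * spin ((ω (Fin.last k)).2.2.2 0)| = |b| := by rw [abs_mul, abs_spin, mul_one]
    have e2 : |∑ i : Fin k, vr τ δ r i * gs k i ω| ≤
        (∑ i : Fin k, Real.sqrt (|τ i| + |δ i|)) * ∑ j, βN (ω j) := by
      rw [Finset.sum_mul]
      refine (Finset.abs_sum_le_sum_abs _ _).trans (Finset.sum_le_sum fun i _ => ?_)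
      rw [abs_mul]
      exact mul_le_mul (vr_bound hr' i) (gs_bound k i ω) (abs_nonneg _) (Real.sqrt_nonneg _)
    have e3 := abs_add_le (b * spin ((ω (Fin.last k)).2.2.2 0)) (∑ i : Fin k, vr τ δ r i * gs k i ω)
    have e4 := hβ ω
    have e5 : 0 ≤ ∑ i : Fin k, Real.sqrt (|τ i| + |δ i|) := Finset.sum_nonneg fun i _ => Real.sqrt_nonneg _
    have e6 : C1 * (1 + ∑ j, βN (ω j)) ≤ (C1 + C2 + 1) * (1 + ∑ j, βN (ω j)) :=
      mul_le_mul_of_nonneg_right (by linarith) (by linarith)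
    refine le_trans ?_ e6
    rw [hC1]
    nlinarith [abs_nonneg b, mul_nonneg (abs_nonneg b) e4]
  · unfold Vr
    exact Finset.measurable_sum _ fun i _ => ((ham_gs k i).meas).const_mul _
  · have hr' : |r| < 1 / 2 := abs_lt.mpr ⟨hr.1, hr.2⟩
    have e2 : |Vr τ δ k r ω| ≤ C2 * ∑ j, βN (ω j) := by
      unfold Vr
      rw [hC2, Finset.sum_mul]
      refine (Finset.abs_sum_le_sum_abs _ _).trans (Finset.sum_le_sum fun i _ => ?_)
      rw [abs_mul]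
      exact mul_le_mul (vr'_bound hr' (hτ i) (hδ i)) (gs_bound k i ω) (abs_nonneg _) (by positivity)
    have e4 := hβ ω
    set S := ∑ j, βN (ω j) with hS
    have e5 : S ≤ Real.exp ((C1 + C2 + 1) * S) := by
      calc S ≤ S + 1 := by linarith
        _ ≤ Real.exp S := Real.add_one_le_exp S
        _ ≤ _ := Real.exp_le_exp.mpr (by nlinarith)
    calc |Vr τ δ k r ω| ≤ C2 * S := e2
      _ ≤ (C1 + C2 + 1) * Real.exp ((C1 + C2 + 1) * S) :=
          mul_le_mul (by linarith) e5 e4 (by positivity)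

theorem dom1 : Dom (m1) (βN (N := 1)) := dom_mN haarO_P1 (unifA 1)

theorem pathE_Vr {ζ : ℕ → ℝ} (hζ : Exps ζ) {k : ℕ} (hk : ζ k = 1) {τ δ : ℕ → ℝ} (hτ : ∀ i, 0 ≤ τ i)
    (hδ : ∀ i, 0 ≤ τ i + δ i) (b : ℝ) {r : ℝ} (hr : |r| < 1 / 2) :
    pathE m1 ζ (k + 1) 0 (HN k (siteθ (vr τ δ r) b)) (Vr τ δ k r) =
      ∑ i ∈ Finset.range k, r * δ i * (1 - ∑ j ∈ Finset.Ico i k, (ζ (j + 1) - ζ j) *
        pN P1 (unifA 1) ζ k (siteθ (vr τ δ r) b) j) := by
  have hH := HN_ham (N := 1) k (siteθ (vr τ δ r) b)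
  set f : ℕ → (Fin (k + 1) → EN 1) → ℝ := fun i ω =>
    if h : i < k then vr' τ δ r i * gs k ⟨i, h⟩ ω else 0 with hf
  have e1 : Vr τ δ k r = fun ω => ∑ i ∈ Finset.range k, f i ω := by
    funext ω
    unfold Vr
    rw [Finset.sum_range]
    refine Finset.sum_congr rfl fun i _ => ?_
    simp only [hf, i.2, dif_pos]
  have ht : ∀ i ∈ Finset.range k, Tame (βN (N := 1)) (f i) := by
    intro i hi
    have hik := Finset.mem_range.mp hi
    have : f i = fun ω => vr' τ δ r i * gs k ⟨i, hik⟩ ω := by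
      funext ω; simp only [hf, dif_pos hik]
    rw [this]
    exact TVar_tame_cmul dom1 _ ((ham_gs k ⟨i, hik⟩).tame dom1)
  rw [e1, TVar_pathE_sum dom1 hζ (k + 1) 0 hH _ ht]
  refine Finset.sum_congr rfl fun i hi => ?_
  have hik := Finset.mem_range.mp hi
  have : f i = fun ω => vr' τ δ r i * gs k ⟨i, hik⟩ ω := by
    funext ω; simp only [hf, dif_pos hik]
  rw [this, pathE_mul, pathE_gs haarO_P1 hζ hk]
  have e2 : (siteθ (vr τ δ r) b).v (⟨i, hik⟩ : Fin k) = vr τ δ r i := rfl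
  rw [e2, Nat.cast_one, ← vr_mul hr (hτ i) (hδ i)]
  ring

/-- derivative in `r` of the one-site value along `τ + r² δ`. -/
theorem siteVal_r_hasDerivAt {ζ : ℕ → ℝ} (hζ : Exps ζ) {k : ℕ} (hk : ζ k = 1) {τ δ : ℕ → ℝ}
    (hτ : ∀ i, 0 ≤ τ i) (hδ : ∀ i, 0 ≤ τ i + δ i) (b : ℝ) {r : ℝ} (hr : |r| < 1 / 2) :
    HasDerivAt (fun r => siteVal ζ (fun i => τ i + r ^ 2 * δ i) k b)
      (-r * ∑ i ∈ Finset.range k, δ i * ∑ j ∈ Finset.Ico i k, (ζ (j + 1) - ζ j) *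
        pN P1 (unifA 1) ζ k (siteθ (vr τ δ r) b) j) r := by
  obtain ⟨C, hC, h1, h2⟩ := Vr_consts τ δ hτ hδ k b
  have hmem : r ∈ Set.Ioo (-(1 / 2) : ℝ) (1 / 2) := ⟨(abs_lt.mp hr).1, (abs_lt.mp hr).2⟩
  have h3 := nest_hasDerivAt' (m := m1) dom1 hζ (k + 1) 0 hC hmem h1 h2
    (fun u hu ω => Vr_hasDerivAt hτ hδ k b (abs_lt.mpr ⟨hu.1, hu.2⟩) ω)
  rw [pathE_Vr hζ hk hτ hδ b hr] at h3
  have h4 : HasDerivAt (fun r : ℝ => (1 / 2 : ℝ) * ∑ i ∈ Finset.range k, (τ i + r ^ 2 * δ i))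
      (∑ i ∈ Finset.range k, r * δ i) r := by
    have h5 : HasDerivAt (fun r : ℝ => ∑ i ∈ Finset.range k, (τ i + r ^ 2 * δ i))
        (∑ i ∈ Finset.range k, 2 * r * δ i) r := by
      refine HasDerivAt.fun_sum fun i _ => ?_
      have := ((hasDerivAt_pow 2 r).mul_const (δ i)).const_add (τ i)
      simpa using this
    refine (h5.const_mul (1 / 2 : ℝ)).congr_deriv ?_
    rw [Finset.mul_sum]
    exact Finset.sum_congr rfl fun i _ => by ring
  have h6 := h3.sub h4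
  refine (h6.congr_deriv ?_).congr_of_eventuallyEq ?_
  · rw [← Finset.sum_sub_distrib, Finset.mul_sum]
    exact Finset.sum_congr rfl fun i _ => by ring
  · have : ∀ᶠ u in nhds r, |u| < 1 / 2 := by
      have := (continuous_abs.tendsto r).eventually (gt_mem_nhds hr)
      exact this
    filter_upwards [this] with u hu
    have e1 : (fun i => τ i + u ^ 2 * δ i) = fun i => vr τ δ u i ^ 2 := by
      funext i; rw [vr_sq hu (hτ i) (hδ i)]
    rw [e1, siteVal_eq_nest ζ (vr τ δ u) (fun i => (hζ i).1) k hk b]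
    simp only [Pi.sub_apply]
    congr 2
    exact Finset.sum_congr rfl fun i _ => vr_sq hu (hτ i) (hδ i)

end Crest.Agent.RI
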