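import Crest.Agent.RI.TanB

/-!
# Row 164, tangent module C: right derivative of the one-site value along a segment, overlaps
-/

set_option autoImplicit false

namespace Crest.Agent.RI

open MeasureTheory ProbabilityTheory
open Crest.ProbabilityR.InvariantGlass

theorem pN_continuousAt {ζ : ℕ → ℝ} (hζ : Exps ζ) (k : ℕ) {τ δ : ℕ → ℝ}
    (hτ : ∀ i, 0 ≤ τ i) (hδ : ∀ i, 0 ≤ τ i + δ i) (b : ℝ) (j : ℕ) :
    ContinuousAt (fun r => pN P1 (unifA 1) ζ k (siteθ (vr τ δ r) b) j) 0 := by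
  unfold pN rhoOv
  have hmem : (0 : ℝ) ∈ Set.Ioo (-(1 / 2) : ℝ) (1 / 2) := by constructor <;> norm_num
  obtain ⟨C, hC, h1, h2⟩ := Vr_consts τ δ hτ hδ k b
  have hβ : ∀ (ω ω' : Fin (k + 1) → EN 1), 0 ≤ ∑ j, (βN (ω j) + βN (ω' j)) := fun ω ω' =>
    Finset.sum_nonneg fun j _ => by unfold βN; positivity
  refine tendsto_finsetSum _ fun l _ => ?_
  have h1' : ∀ u ∈ Set.Ioo (-(1 / 2) : ℝ) (1 / 2), HamC (C + 1) (βN (N := 1)) (HN k (siteθ (vr τ δ u) b)) :=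
    fun u hu => TDerA_hamC_mono dom1 (h1 u hu) (by linarith)
  have h2' : ∀ u ∈ Set.Ioo (-(1 / 2) : ℝ) (1 / 2), TameC (C + 1) (βN (N := 1)) (Vr τ δ k u) :=
    fun u hu => TDerA_tameC_mono dom1 hC (h2 u hu) (by linarith)
  have h3 := pairE_hasDerivAt' (m := m1) (Φ := fun _ ω ω' => ovl k (fun _ => 0) l ω ω')
    (Φ' := fun _ _ _ => 0) dom1 hζ (j + 1) (k + 1) 0 (by linarith : (0:ℝ) ≤ C + 1) hmem h1' h2'
    (fun u _ => ⟨measurable_ovl k (fun _ => 0) l, fun ω ω' => by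
      have e1 := abs_ovl_le k (fun _ : Fin 1 => (0 : Fin 1)) l ω ω'
      have e2 := hβ ω ω'
      have e3 : 1 ≤ Real.exp ((C + 1) * ∑ j, (βN (ω j) + βN (ω' j))) :=
        Real.one_le_exp (mul_nonneg (by linarith) e2)
      nlinarith⟩)
    (fun u _ => ⟨measurable_const, fun ω ω' => by rw [abs_zero]; positivity⟩)
    (fun u hu ω => Vr_hasDerivAt hτ hδ k b (abs_lt.mpr ⟨hu.1, hu.2⟩) ω)
    (fun u _ ω ω' => hasDerivAt_const _ _)
  exact h3.continuousAt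

/-- at `r = 0` -/
theorem siteθ_vr_zero {τ δ : ℕ → ℝ} (b : ℝ) :
    siteθ (vr τ δ 0) b = siteθ (fun i => Real.sqrt (τ i)) b := by
  have : vr τ δ 0 = fun i => Real.sqrt (τ i) := by funext i; exact vr_zero i
  rw [this]

/-- second order expansion in `r` at `0`, from a derivative of the form `-r S(r)`. -/
theorem expansion_aux {f S : ℝ → ℝ} {S0 : ℝ} (hf : ∀ r : ℝ, |r| < 1 / 2 → HasDerivAt f (-r * S r) r)
    (hS : ContinuousAt S 0) (h0 : S 0 = S0) {ε : ℝ} (hε : 0 < ε) :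
    ∃ ρ : ℝ, 0 < ρ ∧ ∀ r : ℝ, 0 < r → r ≤ ρ → |f r - f 0 + r ^ 2 / 2 * S0| ≤ ε * r ^ 2 := by
  rw [Metric.continuousAt_iff] at hS
  obtain ⟨ρ, hρ, h⟩ := hS ε hε
  refine ⟨min (ρ / 2) (1 / 4), by positivity, fun r hr hr' => ?_⟩
  have hr1 : r < ρ := by have := min_le_left (ρ / 2) (1 / 4 : ℝ); linarith
  have hr2 : r < 1 / 2 := by have := min_le_right (ρ / 2) (1 / 4 : ℝ); linarith
  set g : ℝ → ℝ := fun u => f u + u ^ 2 / 2 * S0 with hg
  have hd : ∀ u ∈ Set.Icc (0:ℝ) r, HasDerivWithinAt g (-u * (S u - S0)) (Set.Icc (0:ℝ) r) u := by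
    intro u hu
    have h1 := hf u (by rw [abs_of_nonneg hu.1]; linarith [hu.2])
    have h2 : HasDerivAt (fun u : ℝ => u ^ 2 / 2 * S0) (u * S0) u := by
      have := ((hasDerivAt_pow 2 u).div_const 2).mul_const S0
      refine this.congr_deriv ?_
      simp
    refine ((h1.add h2).congr_deriv ?_).hasDerivWithinAt
    ring
  have hb : ∀ u ∈ Set.Ico (0:ℝ) r, ‖-u * (S u - S0)‖ ≤ r * ε := by
    intro u hu
    rw [Real.norm_eq_abs, abs_mul, abs_neg, abs_of_nonneg hu.1]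
    have h3 : |S u - S0| ≤ ε := by
      rw [← h0]
      have := h (x := u) (by rw [Real.dist_eq, sub_zero, abs_of_nonneg hu.1]; linarith [hu.2])
      rw [Real.dist_eq] at this
      exact this.le
    exact mul_le_mul hu.2.le h3 (abs_nonneg _) hr.le
  have h5 := norm_image_sub_le_of_norm_deriv_le_segment' hd hb r ⟨hr.le, le_refl _⟩
  rw [Real.norm_eq_abs] at h5
  have e : g r - g 0 = f r - f 0 + r ^ 2 / 2 * S0 := by
    simp only [hg]; ring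
  rw [e] at h5
  calc _ ≤ r * ε * (r - 0) := h5
    _ = ε * r ^ 2 := by ring

/-- directional derivative at `0+` of the one-site value. -/
theorem siteVal_dir {ζ : ℕ → ℝ} (hζ : Exps ζ) {k : ℕ} (hk : ζ k = 1) {τ δ : ℕ → ℝ}
    (hτ : ∀ i, 0 ≤ τ i) (hδ : ∀ i, 0 ≤ τ i + δ i) (b : ℝ) {ε : ℝ} (hε : 0 < ε) :
    ∃ ρ : ℝ, 0 < ρ ∧ ∀ s : ℝ, 0 < s → s ≤ ρ →
      |siteVal ζ (fun i => τ i + s * δ i) k b - siteVal ζ τ k b +
        s / 2 * ∑ i ∈ Finset.range k, δ i * siteTail ζ τ k b i| ≤ ε * s := by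
  obtain ⟨ρ, hρ, h⟩ := expansion_aux (f := fun r => siteVal ζ (fun i => τ i + r ^ 2 * δ i) k b)
    (S := fun r => ∑ i ∈ Finset.range k, δ i * ∑ j ∈ Finset.Ico i k, (ζ (j + 1) - ζ j) *
        pN P1 (unifA 1) ζ k (siteθ (vr τ δ r) b) j)
    (S0 := ∑ i ∈ Finset.range k, δ i * siteTail ζ τ k b i)
    (fun r hr => siteVal_r_hasDerivAt hζ hk hτ hδ b hr)
    (by
      refine tendsto_finsetSum _ fun i _ => ?_
      refine Filter.Tendsto.const_mul _ ?_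
      refine tendsto_finsetSum _ fun j _ => ?_
      exact Filter.Tendsto.const_mul _ (pN_continuousAt hζ k hτ hδ b j))
    (by simp only [siteθ_vr_zero]; rfl) hε
  refine ⟨ρ ^ 2, by positivity, fun s hs hs' => ?_⟩
  have h1 := h (Real.sqrt s) (Real.sqrt_pos.mpr hs) (by
    rw [Real.sqrt_le_left hρ.le]; exact hs')
  rw [Real.sq_sqrt hs.le] at h1
  simpa using h1

/-! ### elementary properties of the overlaps -/

theorem siteQ_eq (ζ τ : ℕ → ℝ) (k : ℕ) (b : ℝ) (j : ℕ) :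
    siteQ ζ τ k b j = rhoOv P1 (unifA 1) ζ k (siteθ (fun i => Real.sqrt (τ i)) b) 0 j := by
  unfold siteQ pN
  simp

theorem siteQ_nonneg {ζ : ℕ → ℝ} (hζ : Exps ζ) (τ : ℕ → ℝ) {k : ℕ} (b : ℝ) {j : ℕ} (hj : j < k) :
    0 ≤ siteQ ζ τ k b j := by
  rw [siteQ_eq]
  exact rho_nonneg haarO_P1 hζ _ 0 hj

theorem siteQ_mono {ζ : ℕ → ℝ} (hζ : Exps ζ) (τ : ℕ → ℝ) {k : ℕ} (b : ℝ) {i j : ℕ} (hij : i ≤ j)
    (hj : j < k) : siteQ ζ τ k b i ≤ siteQ ζ τ k b j := by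
  rw [siteQ_eq, siteQ_eq]
  exact rho_mono haarO_P1 hζ _ 0 hij hj

theorem siteQ_le_one {ζ : ℕ → ℝ} (hζ : Exps ζ) (τ : ℕ → ℝ) {k : ℕ} (b : ℝ) {j : ℕ} (hj : j < k) :
    siteQ ζ τ k b j ≤ 1 := by
  rw [siteQ_eq]
  refine (rho_le_self haarO_P1 hζ _ 0 hj).trans ?_
  have h := sum_self one_pos haarO_P1 (A := unifA 1) (k := k) hζ (siteθ (fun i => Real.sqrt (τ i)) b)
  simp at h
  exact h.le

/-! ### derivative in the field -/

/-- magnetisation of the one-site tower -/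
noncomputable def siteM (ζ τ : ℕ → ℝ) (k : ℕ) (b : ℝ) : ℝ :=
  pathE m1 ζ (k + 1) 0 (HN k (siteθ (fun i => Real.sqrt (τ i)) b))
    (fun ω => spin ((ω (Fin.last k)).2.2.2 0))

theorem ham_sp (k : ℕ) : Ham (βN (N := 1)) (fun ω : Fin (k + 1) → EN 1 => spin ((ω (Fin.last k)).2.2.2 0)) := by
  refine ⟨?_, 1, zero_le_one, fun ω => ?_⟩
  · exact (measurable_of_countable spin).comp ((measurable_pi_apply 0).comp
      ((measurable_snd.comp (measurable_snd.comp measurable_snd)).comp (measurable_pi_apply (Fin.last k))))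
  · rw [abs_spin, one_mul]
    have : 0 ≤ ∑ j, βN (ω j) := Finset.sum_nonneg fun j _ => by unfold βN; positivity
    linarith

theorem siteVal_deriv {ζ : ℕ → ℝ} (hζ : Exps ζ) {k : ℕ} (hk : ζ k = 1) {τ : ℕ → ℝ} (hτ : ∀ i, 0 ≤ τ i)
    (b : ℝ) : HasDerivAt (siteVal ζ τ k) (siteM ζ τ k b) b := by
  have h := nest_hasDerivAt (m := m1) dom1 hζ (k + 1) 0
    (HN_ham k (siteθ (fun i => Real.sqrt (τ i)) 0)) (ham_sp k) b
  have e : ∀ b, (fun ω => HN k (siteθ (fun i => Real.sqrt (τ i)) 0) ω +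
      b * spin ((ω (Fin.last k)).2.2.2 0)) = HN k (siteθ (fun i => Real.sqrt (τ i)) b) := by
    intro b
    funext ω
    rw [HN_siteθ', HN_siteθ']; ring
  rw [e] at h
  unfold siteM
  refine (h.sub_const ((1 / 2) * ∑ i ∈ Finset.range k, τ i)).congr_of_eventuallyEq
    (Filter.Eventually.of_forall fun b' => ?_)
  have e2 := siteVal_eq_nest ζ (fun i => Real.sqrt (τ i)) (fun i => (hζ i).1) k hk b'
  have e3 : (fun j => Real.sqrt (τ j) ^ 2) = τ := by funext j; exact Real.sq_sqrt (hτ j)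
  rw [e3] at e2
  rw [e2]
  simp only [e]

end Crest.Agent.RI
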