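import Crest.Agent.RI.TanC
import Crest.Agent.RI.SiteConc

/-!
# Row 164, tangent module D: tangent inequality for a fixed list of levels
-/

set_option autoImplicit false

namespace Crest.Agent.RI

open MeasureTheory ProbabilityTheory
open Crest.ProbabilityR.InvariantGlass

/-- `siteVal` in the finset representation. -/
theorem siteVal_eq_FVal {ζ : ℕ → ℝ} {n : ℕ} (hζ : ∀ i j, i < j → j < n → ζ i < ζ j) (F : ℝ → ℝ) (b : ℝ) :
    siteVal ζ (fun i => F (ζ i)) n b = FVal ((Finset.range n).image ζ) F b := by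
  have hinj : Set.InjOn ζ (Finset.range n : Set ℕ) := by
    intro i hi j hj h
    simp only [Finset.coe_range, Set.mem_Iio] at hi hj
    rcases lt_trichotomy i j with h1 | h1 | h1
    · exact absurd h (hζ i j h1 hj).ne
    · exact h1
    · exact absurd h (hζ j i h1 hi).ne'
  unfold siteVal FVal
  rw [Finset.sum_image hinj]
  congr 1
  unfold FRec
  have e1 : (Finset.range n).image ζ = Finset.univ.image (fun i : Fin n => ζ i) := by
    ext t
    simp only [Finset.mem_image, Finset.mem_range, Finset.mem_univ, true_and]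
    constructor
    · rintro ⟨i, hi, rfl⟩; exact ⟨⟨i, hi⟩, rfl⟩
    · rintro ⟨i, rfl⟩; exact ⟨i, i.2, rfl⟩
  rw [e1, sort_image (f := fun i : Fin n => ζ i) (fun i j hij => hζ i j hij j.2)]
  unfold LRec
  rw [List.foldr_map, recT_eq_foldr, ← List.range_eq_range', ← List.map_coe_finRange_eq_range,
    List.foldr_map]

theorem siteVal_congr {ζ ζ' τ τ' : ℕ → ℝ} {n : ℕ} (h : ∀ i < n, ζ i = ζ' i ∧ τ i = τ' i) (b : ℝ) :
    siteVal ζ τ n b = siteVal ζ' τ' n b := by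
  unfold siteVal
  rw [recT_congr lch (i := 0) (i' := 0) (ζ' := ζ') (τ' := τ') (fun j hj => by simpa using h j hj)]
  congr 2
  exact Finset.sum_congr rfl fun i hi => (h i (Finset.mem_range.mp hi)).2

theorem siteVal_SF {ζ : ℕ → ℝ} (hζ : ∀ i, 0 ≤ ζ i) (τ : ℕ → ℝ) (n : ℕ) : SF (siteVal ζ τ n) := by
  have := (recT_SF (τ := τ) hζ SF.lch n 0).add_const (-((1 / 2) * ∑ i ∈ Finset.range n, τ i))
  exact this

/-- Inverse of an injective family of positions, to transfer jumps. -/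
theorem exists_jump {ζ : ℕ → ℝ} {n : ℕ} (hζ : ∀ i j, i < j → j < n → ζ i < ζ j) (τ : ℕ → ℝ) :
    ∃ F : ℝ → ℝ, (∀ i < n, F (ζ i) = τ i) ∧ ∀ t, t ∉ (Finset.range n).image ζ → F t = 0 := by
  refine ⟨fun t => ∑ i ∈ Finset.range n, if ζ i = t then τ i else 0, fun i hi => ?_, fun t ht => ?_⟩
  · simp only
    rw [Finset.sum_eq_single i]
    · simp
    · intro j hj hne
      rw [Finset.mem_range] at hj
      rw [if_neg]
      intro h
      rcases lt_trichotomy i j with h1 | h1 | h1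
      · exact absurd h (hζ i j h1 hj).ne'
      · exact hne h1.symm
      · exact absurd h (hζ j i h1 hi).ne
    · intro h; exact absurd (Finset.mem_range.mpr hi) h
  · refine Finset.sum_eq_zero fun i hi => ?_
    rw [if_neg]
    intro h
    exact ht (Finset.mem_image.mpr ⟨i, hi, h⟩)

theorem sExps_strict {ζ : ℕ → ℝ} {n : ℕ} (h : SExps ζ n) : ∀ i j, i < j → j < n → ζ i < ζ j := by
  intro i j hij hj
  induction j, hij using Nat.le_induction with
  | base => exact h.2 i hj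
  | succ j hij ih => exact (ih (by omega)).trans (h.2 j hj)

theorem siteLeg_bdd {ζ : ℕ → ℝ} {n : ℕ} (h : SExps ζ n) {τ : ℕ → ℝ} (hτ : ∀ i, 0 ≤ τ i) {m : ℝ}
    (hm : |m| ≤ 1) : BddBelow (Set.range fun b : ℝ => siteVal ζ τ n b - b * m) := by
  obtain ⟨F, hF, hF0⟩ := exists_jump (sExps_strict h) τ
  have e : ∀ b, siteVal ζ τ n b = FVal ((Finset.range n).image ζ) F b := by
    intro b
    rw [← siteVal_eq_FVal (sExps_strict h) F b]
    exact siteVal_congr (fun i hi => ⟨rfl, (hF i hi).symm⟩) b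
  simp only [e]
  refine FLeg_bdd ?_ ?_ hm
  · intro t ht
    obtain ⟨i, hi, rfl⟩ := Finset.mem_image.mp ht
    exact h.1 i (Finset.mem_range.mp hi)
  · intro t ht
    obtain ⟨i, hi, rfl⟩ := Finset.mem_image.mp ht
    rw [hF i (Finset.mem_range.mp hi)]; exact hτ i

theorem siteLeg_eq_FLeg {ζ : ℕ → ℝ} {n : ℕ} (hζ : ∀ i j, i < j → j < n → ζ i < ζ j) (F : ℝ → ℝ) (m : ℝ) :
    siteLeg ζ (fun i => F (ζ i)) n m = FLeg ((Finset.range n).image ζ) F m := by
  unfold siteLeg FLeg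
  simp only [siteVal_eq_FVal hζ]

/-- at the critical point -/
theorem siteLeg_crit {ζ : ℕ → ℝ} (hζ : Exps ζ) {n : ℕ} (h : SExps ζ n) (hn : ζ n = 1) {τ : ℕ → ℝ}
    (hτ : ∀ i, 0 ≤ τ i) (b : ℝ) (hm : |siteM ζ τ n b| ≤ 1) :
    siteLeg ζ τ n (siteM ζ τ n b) = siteVal ζ τ n b - b * siteM ζ τ n b := by
  refine le_antisymm (ciInf_le (siteLeg_bdd h hτ hm) b) (le_ciInf fun b' => ?_)
  have hd := siteVal_deriv hζ hn hτ b
  have hc := (siteVal_SF (fun i => (hζ i).1) τ n).conv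
  have key : siteVal ζ τ n b + siteM ζ τ n b * (b' - b) ≤ siteVal ζ τ n b' := by
    rcases lt_trichotomy b b' with h1 | h1 | h1
    · have := hc.le_slope_of_hasDerivAt (Set.mem_univ _) (Set.mem_univ _) h1 hd
      rw [slope_def_field, le_div_iff₀ (by linarith)] at this
      linarith
    · subst h1; simp
    · have := hc.slope_le_of_hasDerivAt (Set.mem_univ _) (Set.mem_univ _) h1 hd
      rw [slope_def_field, div_le_iff₀ (by linarith)] at this
      linarith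
  linarith [key]

/-- TANGENT inequality, fixed levels. -/
theorem siteLeg_tangent {ζ : ℕ → ℝ} (hζ : Exps ζ) {n : ℕ} (h : SExps ζ n) (hn : ζ n = 1)
    {τ₀ τ₁ : ℕ → ℝ} (h0 : ∀ i, 0 ≤ τ₀ i) (h1 : ∀ i, 0 ≤ τ₁ i) (b : ℝ) (hm : |siteM ζ τ₀ n b| < 1) :
    siteLeg ζ τ₁ n (siteM ζ τ₀ n b) ≤ siteLeg ζ τ₀ n (siteM ζ τ₀ n b) -
      (1 / 2) * ∑ i ∈ Finset.range n, (τ₁ i - τ₀ i) * siteTail ζ τ₀ n b i := by
  set m := siteM ζ τ₀ n b with hmdef
  set D := ∑ i ∈ Finset.range n, (τ₁ i - τ₀ i) * siteTail ζ τ₀ n b i with hD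
  refine le_of_forall_pos_le_add fun ε hε => ?_
  obtain ⟨ρ, hρ, hd⟩ := siteVal_dir hζ hn (τ := τ₀) (δ := fun i => τ₁ i - τ₀ i) h0
    (fun i => by have := h1 i; linarith) b hε
  set s := min ρ 1 with hs
  have hs0 : 0 < s := lt_min hρ one_pos
  have hs1 : s ≤ 1 := min_le_right _ _
  have h2 := hd s hs0 (min_le_left _ _)
  have h3 := siteLeg_concave h hm h0 h1 hs0.le hs1
  have e1 : (fun i => (1 - s) * τ₀ i + s * τ₁ i) = fun i => τ₀ i + s * (τ₁ i - τ₀ i) := by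
    funext i; ring
  rw [e1] at h3
  have hpos : ∀ i, 0 ≤ τ₀ i + s * (τ₁ i - τ₀ i) := by
    intro i
    have : τ₀ i + s * (τ₁ i - τ₀ i) = (1 - s) * τ₀ i + s * τ₁ i := by ring
    rw [this]
    exact add_nonneg (mul_nonneg (by linarith) (h0 i)) (mul_nonneg hs0.le (h1 i))
  have h4 : siteLeg ζ (fun i => τ₀ i + s * (τ₁ i - τ₀ i)) n m ≤
      siteVal ζ (fun i => τ₀ i + s * (τ₁ i - τ₀ i)) n b - b * m :=
    ciInf_le (siteLeg_bdd h hpos hm.le) b
  have h5 := siteLeg_crit hζ h hn h0 b hm.le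
  rw [← hmdef] at h5
  have h6 := (abs_le.mp h2).2
  have h7 : s * (siteLeg ζ τ₁ n m - siteLeg ζ τ₀ n m) ≤ s * (-(1 / 2) * D + ε) := by
    nlinarith
  have h8 := le_of_mul_le_mul_left h7 hs0
  linarith

end Crest.Agent.RI
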