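import Crest.Agent.RI.TanD

/-!
# Row 164, tangent module E: tangent inequality for all step fields (`SBsite`)
-/

set_option autoImplicit false

namespace Crest.Agent.RI

open MeasureTheory ProbabilityTheory
open Crest.ProbabilityR.InvariantGlass

/-- enumeration of a finite set of positions, completed by `1`. -/
noncomputable def enm (S : Finset ℝ) (j : ℕ) : ℝ :=
  if h : j < S.card then S.orderEmbOfFin rfl ⟨j, h⟩ else 1

theorem enm_lt {S : Finset ℝ} : ∀ i j, i < j → j < S.card → enm S i < enm S j := by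
  intro i j hij hj
  unfold enm
  rw [dif_pos hj, dif_pos (hij.trans hj)]
  exact (S.orderEmbOfFin rfl).strictMono (by simpa using hij)

theorem enm_mem {S : Finset ℝ} {j : ℕ} (hj : j < S.card) : enm S j ∈ S := by
  unfold enm
  rw [dif_pos hj]
  exact Finset.orderEmbOfFin_mem S rfl _

theorem enm_card (S : Finset ℝ) : enm S S.card = 1 := by
  unfold enm
  rw [dif_neg (lt_irrefl _)]

theorem image_enm (S : Finset ℝ) : (Finset.range S.card).image (enm S) = S := by
  ext t
  simp only [Finset.mem_image, Finset.mem_range]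
  constructor
  · rintro ⟨i, hi, rfl⟩; exact enm_mem hi
  · intro ht
    have := Finset.range_orderEmbOfFin S rfl
    have h2 : t ∈ Set.range (S.orderEmbOfFin rfl) := by rw [this]; exact ht
    obtain ⟨i, hi⟩ := h2
    refine ⟨i, i.2, ?_⟩
    unfold enm
    rw [dif_pos i.2]
    exact hi

theorem enm_exps {S : Finset ℝ} (hS : Pos S) : Exps (enm S) := by
  intro j
  by_cases h : j < S.card
  · have := hS _ (enm_mem h)
    exact ⟨this.1, this.2.le⟩
  · unfold enm
    rw [dif_neg h]; exact ⟨zero_le_one, le_refl _⟩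

theorem enm_sexps {S : Finset ℝ} (hS : Pos S) : SExps (enm S) S.card := by
  refine ⟨fun i hi => hS _ (enm_mem hi), fun i hi => enm_lt i (i + 1) (Nat.lt_succ_self i) hi⟩

theorem enm_mono {S : Finset ℝ} (hS : Pos S) : Monotone (enm S) := by
  refine monotone_nat_of_le_succ fun i => ?_
  by_cases h : i + 1 < S.card
  · exact (enm_lt i (i + 1) (Nat.lt_succ_self i) h).le
  · have e : enm S (i + 1) = 1 := by unfold enm; rw [dif_neg h]
    rw [e]
    exact (enm_exps hS i).2

/-- magnetisation and tails in the finset representation -/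
noncomputable def fM (S : Finset ℝ) (F : ℝ → ℝ) (b : ℝ) : ℝ :=
  siteM (enm S) (fun j => F (enm S j)) S.card b

noncomputable def fTail (S : Finset ℝ) (F : ℝ → ℝ) (b : ℝ) (t : ℝ) : ℝ :=
  ∑ i ∈ Finset.range S.card, if enm S i = t then siteTail (enm S) (fun j => F (enm S j)) S.card b i else 0

theorem fTail_enm {S : Finset ℝ} (F : ℝ → ℝ) (b : ℝ) {i : ℕ} (hi : i < S.card) :
    fTail S F b (enm S i) = siteTail (enm S) (fun j => F (enm S j)) S.card b i := by
  unfold fTail
  rw [Finset.sum_eq_single i]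
  · simp
  · intro j hj hne
    rw [Finset.mem_range] at hj
    rw [if_neg]
    intro h
    rcases lt_trichotomy i j with h1 | h1 | h1
    · exact absurd h (enm_lt i j h1 hj).ne'
    · exact hne h1.symm
    · exact absurd h (enm_lt j i h1 hi).ne
  · intro h; exact absurd (Finset.mem_range.mpr hi) h

theorem exists_enm {S : Finset ℝ} {t : ℝ} (ht : t ∈ S) : ∃ i < S.card, enm S i = t := by
  rw [← image_enm S] at ht
  obtain ⟨i, hi, h⟩ := Finset.mem_image.mp ht
  exact ⟨i, Finset.mem_range.mp hi, h⟩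

theorem sum_enm (S : Finset ℝ) (G : ℝ → ℝ) : ∑ i ∈ Finset.range S.card, G (enm S i) = ∑ t ∈ S, G t := by
  conv_rhs => rw [← image_enm S]
  rw [Finset.sum_image]
  intro i hi j hj h
  simp only [Finset.coe_range, Set.mem_Iio] at hi hj
  rcases lt_trichotomy i j with h1 | h1 | h1
  · exact absurd h (enm_lt i j h1 hj).ne
  · exact h1
  · exact absurd h (enm_lt j i h1 hi).ne'

theorem FVal_eq_siteVal (S : Finset ℝ) (F : ℝ → ℝ) (b : ℝ) :
    FVal S F b = siteVal (enm S) (fun j => F (enm S j)) S.card b := by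
  rw [siteVal_eq_FVal enm_lt, image_enm]

theorem FLeg_eq_siteLeg (S : Finset ℝ) (F : ℝ → ℝ) (m : ℝ) :
    FLeg S F m = siteLeg (enm S) (fun j => F (enm S j)) S.card m := by
  rw [siteLeg_eq_FLeg enm_lt, image_enm]

/-- the jumps, made nonnegative outside `S` -/
theorem siteVal_nonneg_ext {S : Finset ℝ} {F : ℝ → ℝ} :
    (fun t => if t ∈ S then F t else 0) = fun t => if t ∈ S then F t else 0 := rfl

/-- tangent inequality in the finset representation. -/
theorem FLeg_tangent {S : Finset ℝ} (hS : Pos S) {F₀ F₁ : ℝ → ℝ} (h0 : ∀ t, 0 ≤ F₀ t) (h1 : ∀ t, 0 ≤ F₁ t)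
    (b : ℝ) (hm : |fM S F₀ b| < 1) :
    FLeg S F₁ (fM S F₀ b) ≤ FLeg S F₀ (fM S F₀ b) -
      (1 / 2) * ∑ t ∈ S, (F₁ t - F₀ t) * fTail S F₀ b t := by
  rw [FLeg_eq_siteLeg, FLeg_eq_siteLeg]
  have h := siteLeg_tangent (enm_exps hS) (enm_sexps hS) (enm_card S)
    (τ₀ := fun j => F₀ (enm S j)) (τ₁ := fun j => F₁ (enm S j)) (fun i => h0 _) (fun i => h1 _) b hm
  refine h.trans (le_of_eq ?_)
  unfold fM
  congr 2
  rw [← sum_enm S (fun t => (F₁ t - F₀ t) * fTail S F₀ b t)]
  exact Finset.sum_congr rfl fun i hi => by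
    rw [fTail_enm F₀ b (Finset.mem_range.mp hi)]

/-- `fM` is the derivative in `b`. -/
theorem fM_deriv {S : Finset ℝ} (hS : Pos S) {F : ℝ → ℝ} (h0 : ∀ t, 0 ≤ F t) (b : ℝ) :
    HasDerivAt (FVal S F) (fM S F b) b := by
  have h := siteVal_deriv (enm_exps hS) (enm_card S) (τ := fun j => F (enm S j)) (fun i => h0 _) b
  have e : FVal S F = siteVal (enm S) (fun j => F (enm S j)) S.card := by
    funext b; exact FVal_eq_siteVal S F b
  rw [e]; exact h

/-- `fTail` is `-2` times the right derivative in the direction `t`. -/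
theorem fTail_dir {S : Finset ℝ} (hS : Pos S) {F : ℝ → ℝ} (h0 : ∀ t, 0 ≤ F t) (b : ℝ) {t : ℝ}
    (ht : t ∈ S) {ε : ℝ} (hε : 0 < ε) : ∃ ρ : ℝ, 0 < ρ ∧ ∀ s : ℝ, 0 < s → s ≤ ρ →
      |FVal S (fun u => F u + s * (if u = t then 1 else 0)) b - FVal S F b +
        s / 2 * fTail S F b t| ≤ ε * s := by
  obtain ⟨i, hi, rfl⟩ := exists_enm ht
  obtain ⟨ρ, hρ, h⟩ := siteVal_dir (enm_exps hS) (enm_card S) (τ := fun j => F (enm S j))
    (δ := fun j => if enm S j = enm S i then 1 else 0) (fun j => h0 _)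
    (fun j => add_nonneg (h0 _) (by split_ifs <;> norm_num)) b hε
  refine ⟨ρ, hρ, fun s hs hs' => ?_⟩
  have h1 := h s hs hs'
  rw [FVal_eq_siteVal, FVal_eq_siteVal]
  have e : ∑ j ∈ Finset.range S.card, (if enm S j = enm S i then (1:ℝ) else 0) *
      siteTail (enm S) (fun j => F (enm S j)) S.card b j = fTail S F b (enm S i) := by
    unfold fTail
    exact Finset.sum_congr rfl fun j _ => by split_ifs <;> ring
  rw [e] at h1
  exact h1

/-- independence of the partition: tails -/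
theorem fTail_superset {S S' : Finset ℝ} (hS' : Pos S') (hss : S ⊆ S') {F : ℝ → ℝ} (h0 : ∀ t, 0 ≤ F t)
    (hF : ∀ t, t ∉ S → F t = 0) (b : ℝ) {t : ℝ} (ht : t ∈ S) : fTail S' F b t = fTail S F b t := by
  have hS : Pos S := fun u hu => hS' u (hss hu)
  by_contra hne
  set ε := |fTail S' F b t - fTail S F b t| / 8 with hε
  have hε0 : 0 < ε := by
    rw [hε]; have := abs_pos.mpr (sub_ne_zero.mpr hne); positivity
  obtain ⟨ρ, hρ, h⟩ := fTail_dir hS h0 b ht hε0
  obtain ⟨ρ', hρ', h'⟩ := fTail_dir hS' h0 b (hss ht) hε0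
  set s := min ρ ρ' with hs
  have hs0 : 0 < s := lt_min hρ hρ'
  have e1 := h s hs0 (min_le_left _ _)
  have e2 := h' s hs0 (min_le_right _ _)
  have e3 : FVal S' F = FVal S F := FVal_superset hss (fun u _ hu => hF u hu)
  have e4 : FVal S' (fun u => F u + s * (if u = t then 1 else 0)) =
      FVal S (fun u => F u + s * (if u = t then 1 else 0)) := by
    refine FVal_superset hss (fun u _ hu => ?_)
    rw [hF u hu, if_neg]
    · ring
    · rintro rfl; exact hu ht
  rw [e3, e4] at e2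
  rw [abs_le] at e1 e2
  have e5 : |s / 2 * (fTail S' F b t - fTail S F b t)| ≤ 2 * (ε * s) := by
    rw [abs_le]; constructor <;> linarith [e1.1, e1.2, e2.1, e2.2]
  rw [abs_mul, abs_of_pos (by positivity : 0 < s / 2)] at e5
  have e6 : |fTail S' F b t - fTail S F b t| = 8 * ε := by rw [hε]; ring
  rw [e6] at e5
  nlinarith

theorem fM_superset {S S' : Finset ℝ} (hS' : Pos S') (hss : S ⊆ S') {F : ℝ → ℝ} (h0 : ∀ t, 0 ≤ F t)
    (hF : ∀ t, t ∉ S → F t = 0) (b : ℝ) : fM S' F b = fM S F b := by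
  have hS : Pos S := fun u hu => hS' u (hss hu)
  have h1 := fM_deriv hS h0 b
  have h2 := fM_deriv hS' h0 b
  have e3 : FVal S' F = FVal S F := FVal_superset hss (fun u _ hu => hF u hu)
  rw [e3] at h2
  exact h2.unique h1

/-! ### concavity of the tails -/

theorem siteTail_diff (ζ τ : ℕ → ℝ) (n : ℕ) (b : ℝ) {i j : ℕ} (hij : i ≤ j) (hj : j ≤ n) :
    siteTail ζ τ n b i - siteTail ζ τ n b j =
      ∑ l ∈ Finset.Ico i j, (ζ (l + 1) - ζ l) * siteQ ζ τ n b l := by
  unfold siteTail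
  rw [← Finset.sum_Ico_consecutive _ hij hj]
  ring

theorem siteTail_last (ζ τ : ℕ → ℝ) (n : ℕ) (b : ℝ) : siteTail ζ τ n b n = 0 := by
  unfold siteTail
  simp

theorem siteTail_diff_ge {ζ τ : ℕ → ℝ} (hζ : Exps ζ) (hmono : Monotone ζ) {n : ℕ} (b : ℝ) {i j : ℕ}
    (hij : i ≤ j) (hj : j ≤ n) (hi : i < n) :
    (ζ j - ζ i) * siteQ ζ τ n b i ≤ siteTail ζ τ n b i - siteTail ζ τ n b j := by
  rw [siteTail_diff ζ τ n b hij hj, ← Finset.sum_Ico_sub ζ hij, Finset.sum_mul]
  refine Finset.sum_le_sum fun l hl => ?_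
  obtain ⟨h1, h2⟩ := Finset.mem_Ico.mp hl
  exact mul_le_mul_of_nonneg_left (siteQ_mono hζ τ b h1 (by omega))
    (by have := hmono (Nat.le_succ l); simp only [Nat.succ_eq_add_one] at this; linarith)

theorem siteTail_diff_le {ζ τ : ℕ → ℝ} (hζ : Exps ζ) (hmono : Monotone ζ) {n : ℕ} (b : ℝ) {i j : ℕ}
    (hij : i ≤ j) (hj : j < n) :
    siteTail ζ τ n b i - siteTail ζ τ n b j ≤ (ζ j - ζ i) * siteQ ζ τ n b j := by
  rw [siteTail_diff ζ τ n b hij hj.le, ← Finset.sum_Ico_sub ζ hij, Finset.sum_mul]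
  refine Finset.sum_le_sum fun l hl => ?_
  obtain ⟨h1, h2⟩ := Finset.mem_Ico.mp hl
  exact mul_le_mul_of_nonneg_left (siteQ_mono hζ τ b h2.le hj)
    (by have := hmono (Nat.le_succ l); simp only [Nat.succ_eq_add_one] at this; linarith)

/-- concavity of the tail: three positions `i ≤ j < l ≤ n`. -/
theorem siteTail_concave {ζ τ : ℕ → ℝ} (hζ : Exps ζ) (hmono : Monotone ζ) {n : ℕ} (b : ℝ) {i j l : ℕ}
    (hij : i ≤ j) (hjl : j < l) (hl : l ≤ n) :
    (ζ l - ζ j) * (siteTail ζ τ n b i - siteTail ζ τ n b j) ≤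
      (ζ j - ζ i) * (siteTail ζ τ n b j - siteTail ζ τ n b l) := by
  have h1 := siteTail_diff_le (τ := τ) hζ hmono b hij (by omega : j < n)
  have h2 := siteTail_diff_ge (τ := τ) hζ hmono b hjl.le hl (by omega : j < n)
  have h3 : 0 ≤ ζ l - ζ j := by have := hmono hjl.le; linarith
  have h4 : 0 ≤ ζ j - ζ i := by have := hmono hij; linarith
  calc (ζ l - ζ j) * (siteTail ζ τ n b i - siteTail ζ τ n b j)
      ≤ (ζ l - ζ j) * ((ζ j - ζ i) * siteQ ζ τ n b j) := mul_le_mul_of_nonneg_left h1 h3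
    _ = (ζ j - ζ i) * ((ζ l - ζ j) * siteQ ζ τ n b j) := by ring
    _ ≤ _ := mul_le_mul_of_nonneg_left h2 h4

end Crest.Agent.RI
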