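import Crest.Agent.RI.TanE

/-!
# Row 164, tangent module F: `SB` at the self-consistent point
-/

set_option autoImplicit false

namespace Crest.Agent.RI

open MeasureTheory ProbabilityTheory
open Crest.ProbabilityR.InvariantGlass

theorem siteM_eq_fM {ζ τ : ℕ → ℝ} (hζ : Exps ζ) {k : ℕ} (h : SExps ζ k) (hk : ζ k = 1) {F : ℝ → ℝ}
    (hτ : ∀ i, 0 ≤ τ i) (hF0 : ∀ t, 0 ≤ F t) (hF : ∀ i < k, F (ζ i) = τ i) (b : ℝ) :
    siteM ζ τ k b = fM ((Finset.range k).image ζ) F b := by
  have hS : Pos ((Finset.range k).image ζ) := by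
    intro t ht
    obtain ⟨i, hi, rfl⟩ := Finset.mem_image.mp ht
    exact h.1 i (Finset.mem_range.mp hi)
  have h1 := siteVal_deriv hζ hk hτ b
  have h2 := fM_deriv hS hF0 b
  have e : FVal ((Finset.range k).image ζ) F = siteVal ζ τ k := by
    funext b
    rw [← siteVal_eq_FVal (sExps_strict h) F b]
    exact siteVal_congr (fun i hi => ⟨rfl, hF i hi⟩) b
  rw [e] at h2
  exact h1.unique h2

theorem siteTail_eq_fTail {ζ τ : ℕ → ℝ} (hζ : Exps ζ) {k : ℕ} (h : SExps ζ k) (hk : ζ k = 1) {F : ℝ → ℝ}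
    (hτ : ∀ i, 0 ≤ τ i) (hF0 : ∀ t, 0 ≤ F t) (hF : ∀ i < k, F (ζ i) = τ i) (b : ℝ) {i : ℕ} (hi : i < k) :
    siteTail ζ τ k b i = fTail ((Finset.range k).image ζ) F b (ζ i) := by
  have hS : Pos ((Finset.range k).image ζ) := by
    intro t ht
    obtain ⟨i, hi, rfl⟩ := Finset.mem_image.mp ht
    exact h.1 i (Finset.mem_range.mp hi)
  by_contra hne
  set ε := |siteTail ζ τ k b i - fTail ((Finset.range k).image ζ) F b (ζ i)| / 8 with hε
  have hε0 : 0 < ε := by
    rw [hε]; have := abs_pos.mpr (sub_ne_zero.mpr hne); positivity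
  obtain ⟨ρ, hρ, h1⟩ := siteVal_dir hζ hk (τ := τ) (δ := fun j => if j = i then 1 else 0) hτ
    (fun j => add_nonneg (hτ j) (by split_ifs <;> norm_num)) b hε0
  obtain ⟨ρ', hρ', h2⟩ := fTail_dir hS hF0 b
    (Finset.mem_image.mpr ⟨i, Finset.mem_range.mpr hi, rfl⟩ : ζ i ∈ (Finset.range k).image ζ) hε0
  set s := min ρ ρ' with hs
  have hs0 : 0 < s := lt_min hρ hρ'
  have e1 := h1 s hs0 (min_le_left _ _)
  have e2 := h2 s hs0 (min_le_right _ _)
  have hst := sExps_strict h
  rw [← siteVal_eq_FVal hst, ← siteVal_eq_FVal hst] at e2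
  have e3 : siteVal ζ (fun j => F (ζ j) + s * (if ζ j = ζ i then 1 else 0)) k b =
      siteVal ζ (fun j => τ j + s * (if j = i then 1 else 0)) k b := by
    refine siteVal_congr (fun j hj => ⟨rfl, ?_⟩) b
    rw [hF j hj]
    congr 2
    by_cases hji : j = i
    · rw [hji]; simp
    · rw [if_neg hji, if_neg]
      intro hh
      rcases lt_trichotomy i j with h3 | h3 | h3
      · exact absurd hh (hst i j h3 hj).ne'
      · exact hji h3.symm
      · exact absurd hh (hst j i h3 hi).ne
  have e4 : siteVal ζ (fun j => F (ζ j)) k b = siteVal ζ τ k b :=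
    siteVal_congr (fun j hj => ⟨rfl, hF j hj⟩) b
  rw [e3, e4] at e2
  have e5 : ∑ j ∈ Finset.range k, (if j = i then (1:ℝ) else 0) * siteTail ζ τ k b j =
      siteTail ζ τ k b i := by
    rw [Finset.sum_eq_single i]
    · simp
    · intro j _ hj; simp [hj]
    · intro hni; exact absurd (Finset.mem_range.mpr hi) hni
  rw [e5] at e1
  rw [abs_le] at e1 e2
  have e6 : |s / 2 * (siteTail ζ τ k b i - fTail ((Finset.range k).image ζ) F b (ζ i))| ≤ 2 * (ε * s) := by
    rw [abs_le]; constructor <;> linarith [e1.1, e1.2, e2.1, e2.2]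
  rw [abs_mul, abs_of_pos (by positivity : 0 < s / 2)] at e6
  have e7 : |siteTail ζ τ k b i - fTail ((Finset.range k).image ζ) F b (ζ i)| = 8 * ε := by
    rw [hε]; ring
  rw [e7] at e6
  nlinarith

/-! ### the grid `i/k` -/

theorem ζLB_lt {k i : ℕ} (hi : i ≤ k) (hk : 0 < k) : ζLB k i = (i : ℝ) / k := by
  unfold ζLB
  refine min_eq_right ?_
  rw [div_le_one (by exact_mod_cast hk)]
  exact_mod_cast hi

theorem ζLB_last {k : ℕ} (hk : 0 < k) : ζLB k k = 1 := by
  rw [ζLB_lt le_rfl hk]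
  exact div_self (by positivity)

theorem sExps_LB {k : ℕ} (hk : 0 < k) : SExps (ζLB k) k := by
  have hk' : (0 : ℝ) < k := by exact_mod_cast hk
  refine ⟨fun i hi => ?_, fun i hi => ?_⟩
  · rw [ζLB_lt hi.le hk]
    refine ⟨by positivity, ?_⟩
    rw [div_lt_one hk']
    exact_mod_cast hi
  · rw [ζLB_lt (by omega) hk, ζLB_lt hi.le hk]
    rw [div_lt_div_iff_of_pos_right hk']
    push_cast; linarith

theorem ζLB_mono (k : ℕ) : Monotone (ζLB k) := by
  intro i j hij
  unfold ζLB
  refine min_le_min le_rfl ?_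
  gcongr

theorem ζLB_diff {k i : ℕ} (hi : i < k) : ζLB k (i + 1) - ζLB k i = 1 / k := by
  have hk : 0 < k := by omega
  rw [ζLB_lt (by omega) hk, ζLB_lt hi.le hk]
  push_cast; ring

/-- tail function of a step path -/
theorem integral_stepK_tail {k : ℕ} (q : ℕ → ℝ) {i : ℕ} (hi : i < k) {t : ℝ}
    (h1 : (i : ℝ) / k ≤ t) (h2 : t ≤ ((i : ℝ) + 1) / k) :
    ∫ u in Set.Ioc t 1, stepK k q u =
      (((i : ℝ) + 1) / k - t) * q i + ∑ l ∈ Finset.Ico (i + 1) k, (1 / (k : ℝ)) * q l := by
  have hk : 0 < k := by omega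
  have hk' : (0 : ℝ) < k := by exact_mod_cast hk
  have hle : ∀ l < k, ((l : ℝ) + 1) / k ≤ 1 := by
    intro l hl
    rw [div_le_one hk']
    exact_mod_cast hl
  have e1 : ∀ u, stepK k q u = ∑ l ∈ Finset.range k,
      (Set.Ioc ((l : ℝ) / k) (((l : ℝ) + 1) / k)).indicator (fun _ => q l) u := by
    intro u
    unfold stepK
    refine Finset.sum_congr rfl fun l _ => ?_
    simp only [Set.indicator, Set.mem_Ioc]
  simp only [e1]
  rw [integral_finsetSum]
  swap
  · intro l _
    exact (integrable_const _).indicator measurableSet_Ioc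
  have e2 : ∀ l ∈ Finset.range k, ∫ u in Set.Ioc t 1,
      (Set.Ioc ((l : ℝ) / k) (((l : ℝ) + 1) / k)).indicator (fun _ => q l) u =
      if l < i then 0 else if l = i then (((i : ℝ) + 1) / k - t) * q i else (1 / (k : ℝ)) * q l := by
    intro l hl
    have hl' := Finset.mem_range.mp hl
    rw [setIntegral_indicator measurableSet_Ioc, Set.Ioc_inter_Ioc, setIntegral_const]
    have e3 : min (1 : ℝ) (((l : ℝ) + 1) / k) = ((l : ℝ) + 1) / k := min_eq_right (hle l hl')
    rw [e3]
    have hv : (volume.real (Set.Ioc (max t ((l : ℝ) / k)) (((l : ℝ) + 1) / k))) =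
        max (((l : ℝ) + 1) / k - max t ((l : ℝ) / k)) 0 := by
      rw [Measure.real, Real.volume_Ioc, ENNReal.toReal_ofReal']
    rw [hv, smul_eq_mul]
    split_ifs with h3 h4
    · have h5 : ((l : ℝ) + 1) / k ≤ (i : ℝ) / k := by
        gcongr
        exact_mod_cast h3
      have h6 : ((l : ℝ) + 1) / k - max t ((l : ℝ) / k) ≤ 0 := by
        have := le_max_left t ((l : ℝ) / k)
        linarith
      rw [max_eq_right h6, zero_mul]
    · subst h4
      rw [max_eq_left h1, max_eq_left (by linarith)]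
    · have h5 : i + 1 ≤ l := by omega
      have h6 : ((i : ℝ) + 1) / k ≤ (l : ℝ) / k := by
        gcongr
        exact_mod_cast h5
      rw [max_eq_right (by linarith : t ≤ (l : ℝ) / k)]
      have e4 : ((l : ℝ) + 1) / k - (l : ℝ) / k = 1 / k := by ring
      rw [e4, max_eq_left (by positivity)]
  rw [Finset.sum_congr rfl e2]
  have e5 : Finset.range k = Finset.Ico 0 k := by rw [Finset.range_eq_Ico]
  rw [e5, ← Finset.sum_Ico_consecutive _ (Nat.zero_le i) hi.le, Finset.sum_eq_sum_Ico_succ_bot hi]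
  have e6 : ∑ l ∈ Finset.Ico 0 i, (if l < i then (0:ℝ) else if l = i then (((i : ℝ) + 1) / k - t) * q i
      else (1 / (k : ℝ)) * q l) = 0 :=
    Finset.sum_eq_zero fun l hl => if_pos (Finset.mem_Ico.mp hl).2
  rw [e6, zero_add]
  simp only [lt_irrefl, if_false, if_true]
  congr 1
  refine Finset.sum_congr rfl fun l hl => ?_
  have := (Finset.mem_Ico.mp hl).1
  rw [if_neg (by omega), if_neg (by omega)]

theorem measurable_stepK (k : ℕ) (q : ℕ → ℝ) : Measurable (stepK k q) := by
  unfold stepK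
  refine Finset.measurable_sum _ fun l _ => ?_
  exact Measurable.ite (measurableSet_Ioc (a := (l : ℝ) / k) (b := ((l : ℝ) + 1) / k))
    measurable_const measurable_const

theorem stepK_integrableOn (k : ℕ) (q : ℕ → ℝ) (s : Set ℝ) (hs : volume s ≠ ⊤) :
    IntegrableOn (stepK k q) s := by
  have : IsFiniteMeasure (volume.restrict s) := ⟨by
    rw [Measure.restrict_apply_univ]; exact lt_top_iff_ne_top.mpr hs⟩
  refine Integrable.of_bound (C := ∑ l ∈ Finset.range k, |q l|) (measurable_stepK k q).aestronglyMeasurable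
    (Filter.Eventually.of_forall fun u => ?_)
  unfold stepK
  rw [Real.norm_eq_abs]
  refine (Finset.abs_sum_le_sum_abs _ _).trans (Finset.sum_le_sum fun l _ => ?_)
  split_ifs
  · exact le_refl _
  · rw [abs_zero]; exact abs_nonneg _

/-- `∫ q h = Σ_t F(t) ∫_t^1 q` -/
theorem integral_stepK_FH (k : ℕ) (q : ℕ → ℝ) {S : Finset ℝ} (hS : Pos S) (F : ℝ → ℝ) :
    ∫ u in Set.Ioo (0 : ℝ) 1, stepK k q u * FH S F u = ∑ t ∈ S, F t * ∫ u in Set.Ioc t 1, stepK k q u := by
  rw [← integral_Ioc_eq_integral_Ioo]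
  have e1 : ∀ u, stepK k q u * FH S F u = ∑ t ∈ S, F t * (Set.Ioi t).indicator (stepK k q) u := by
    intro u
    unfold FH
    rw [Finset.mul_sum]
    refine Finset.sum_congr rfl fun t _ => ?_
    by_cases h : t < u
    · rw [if_pos h, Set.indicator_of_mem (Set.mem_Ioi.mpr h)]; ring
    · rw [if_neg h, Set.indicator_of_notMem (fun h' => h (Set.mem_Ioi.mp h'))]; ring
  simp only [e1]
  have hint : IntegrableOn (stepK k q) (Set.Ioc (0:ℝ) 1) :=
    stepK_integrableOn k q _ (by simp)
  rw [integral_finsetSum]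
  · refine Finset.sum_congr rfl fun t ht => ?_
    have hset : Set.Ioc (0 : ℝ) 1 ∩ Set.Ioi t = Set.Ioc t 1 := by
      ext u
      simp only [Set.mem_inter_iff, Set.mem_Ioc, Set.mem_Ioi]
      constructor
      · rintro ⟨⟨_, h2⟩, h3⟩; exact ⟨h3, h2⟩
      · rintro ⟨h3, h2⟩; exact ⟨⟨lt_of_le_of_lt (hS t ht).1 h3, h2⟩, h3⟩
    rw [integral_const_mul, setIntegral_indicator measurableSet_Ioi, hset]
  · intro t _
    exact (hint.indicator measurableSet_Ioi).const_mul _


/-- the tail of the refined tower dominates the tail of the step path -/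
theorem fTail_ge {k : ℕ} (hk : 0 < k) {τ : ℕ → ℝ} (hτ : ∀ i, 0 ≤ τ i) {F : ℝ → ℝ} (hF0 : ∀ t, 0 ≤ F t)
    (hF : ∀ i < k, F (ζLB k i) = τ i) (hFz : ∀ t, t ∉ (Finset.range k).image (ζLB k) → F t = 0)
    {S : Finset ℝ} (hS : Pos S) (hss : (Finset.range k).image (ζLB k) ⊆ S) (b : ℝ) {t : ℝ} (ht : t ∈ S) :
    ∫ u in Set.Ioc t 1, stepK k (siteQ (ζLB k) τ k b) u ≤ fTail S F b t := by
  have hk' : (0 : ℝ) < k := by exact_mod_cast hk
  obtain ⟨ht0, ht1⟩ := hS t ht
  -- the block
  set i := ⌊t * k⌋₊ with hi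
  have hi1 : (i : ℝ) ≤ t * k := Nat.floor_le (by positivity)
  have hi2 : t * k < i + 1 := Nat.lt_floor_add_one _
  have hik : i < k := by
    have : (i : ℝ) < k := lt_of_le_of_lt hi1 (by nlinarith)
    exact_mod_cast this
  have h1 : (i : ℝ) / k ≤ t := by rw [div_le_iff₀ hk']; exact hi1
  have h2 : t < ((i : ℝ) + 1) / k := by rw [lt_div_iff₀ hk']; exact hi2
  rw [integral_stepK_tail _ hik h1 h2.le]
  -- indices in `enm S`
  have hmem : ∀ l < k, ζLB k l ∈ S := fun l hl => hss (Finset.mem_image.mpr ⟨l, Finset.mem_range.mpr hl, rfl⟩)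
  obtain ⟨ia, hia, hia'⟩ := exists_enm (hmem i hik)
  obtain ⟨it, hit, hit'⟩ := exists_enm ht
  have hζi : ζLB k i = (i : ℝ) / k := ζLB_lt hik.le hk
  have hmono := enm_mono hS
  have hstrict : ∀ x y, x < S.card → enm S x ≤ enm S y → x ≤ y := by
    intro x y hx hxy
    by_contra hc
    push Not at hc
    exact absurd (enm_lt y x hc hx) (not_lt.mpr hxy)
  have hiat : ia ≤ it := hstrict ia it hia (by rw [hia', hit', hζi]; exact h1)
  set Fs := fun j => F (enm S j) with hFs
  -- value at the grid points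
  have hgrid : ∀ l < k, fTail S F b (ζLB k l) = siteTail (ζLB k) τ k b l := by
    intro l hl
    rw [fTail_superset hS hss hF0 hFz b (Finset.mem_image.mpr ⟨l, Finset.mem_range.mpr hl, rfl⟩)]
    exact (siteTail_eq_fTail (exps_LB k) (sExps_LB hk) (ζLB_last hk) hτ hF0 hF b hl).symm
  -- right end
  have hright : ∃ ib, it < ib ∧ ib ≤ S.card ∧ enm S ib = ((i : ℝ) + 1) / k ∧
      siteTail (enm S) Fs S.card b ib = siteTail (ζLB k) τ k b (i + 1) := by
    by_cases hl : i + 1 < k
    · obtain ⟨ib, hib, hib'⟩ := exists_enm (hmem (i + 1) hl)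
      have e : ζLB k (i + 1) = ((i : ℝ) + 1) / k := by rw [ζLB_lt hl.le hk]; push_cast; ring
      refine ⟨ib, ?_, hib.le, by rw [hib', e], ?_⟩
      · by_contra hc
        push Not at hc
        have := hmono hc
        rw [hib', hit', e] at this
        linarith
      · rw [← fTail_enm F b hib, hib', hgrid (i + 1) hl]
    · have hke : k = i + 1 := by omega
      refine ⟨S.card, hit, le_rfl, ?_, ?_⟩
      · rw [enm_card, eq_div_iff hk'.ne', one_mul, hke]; push_cast; ring
      · rw [siteTail_last]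
        have : siteTail (ζLB k) τ k b (i + 1) = 0 := by
          unfold siteTail; rw [← hke]; simp
        rw [this]
  obtain ⟨ib, hib1, hib2, hib3, hib4⟩ := hright
  have hconc := siteTail_concave (τ := Fs) (enm_exps hS) hmono b hiat hib1 hib2
  have ea : siteTail (enm S) Fs S.card b ia = siteTail (ζLB k) τ k b i := by
    rw [← fTail_enm F b hia, hia', hgrid i hik]
  have et : siteTail (enm S) Fs S.card b it = fTail S F b t := by
    rw [← fTail_enm F b hit, hit']
  rw [ea, et, hib4, hib3, hit', hia', hζi] at hconc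
  have hT : siteTail (ζLB k) τ k b i = (1 / (k : ℝ)) * siteQ (ζLB k) τ k b i +
      siteTail (ζLB k) τ k b (i + 1) := by
    have h3 := siteTail_diff (ζLB k) τ k b (Nat.le_succ i) (by omega : i.succ ≤ k)
    rw [Nat.Ico_succ_singleton, Finset.sum_singleton, ζLB_diff hik] at h3
    simp only [Nat.succ_eq_add_one] at h3
    linarith
  have hsum : ∑ l ∈ Finset.Ico (i + 1) k, (1 / (k : ℝ)) * siteQ (ζLB k) τ k b l =
      siteTail (ζLB k) τ k b (i + 1) := by
    unfold siteTail
    refine Finset.sum_congr rfl fun l hl => ?_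
    rw [ζLB_diff (Finset.mem_Ico.mp hl).2]
  rw [hsum]
  rw [hT] at hconc
  set q := siteQ (ζLB k) τ k b i
  set T := siteTail (ζLB k) τ k b (i + 1)
  set X := fTail S F b t
  -- (b-t)((1/k) q + T - X) ≤ (t-a)(X - T)
  have e1 : ((i : ℝ) + 1) / k = (i : ℝ) / k + 1 / k := by ring
  rw [e1] at hconc ⊢
  set a := (i : ℝ) / k
  have hkk : (0 : ℝ) < 1 / k := by positivity
  have e2 : (1 / (k : ℝ)) * ((a + 1 / k - t) * q + T) ≤ (1 / (k : ℝ)) * X := by nlinarith
  exact le_of_mul_le_mul_left e2 hkk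

/-- `SB` at a self-consistent point. -/
theorem SB_site {J : ℕ} (γ bb : Fin J → ℝ) (hγ : ∀ j, 0 ≤ γ j) {k : ℕ} (hk : 0 < k) {τ : ℕ → ℝ}
    (hτ : ∀ i, 0 ≤ τ i) (hm : ∀ j, |siteM (ζLB k) τ k (bb j)| < 1) :
    SB γ (fun j => siteM (ζLB k) τ k (bb j))
      (stepK k (fun i => ∑ j, γ j * siteQ (ζLB k) τ k (bb j) i))
      (∑ j, γ j * siteLeg (ζLB k) τ k (siteM (ζLB k) τ k (bb j)) +
        (1 / 2) * ((1 / (k : ℝ)) * ∑ i ∈ Finset.range k,
          (∑ j, γ j * siteQ (ζLB k) τ k (bb j) i) * hh τ i)) := by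
  intro n w hv hw
  have hk' : (0 : ℝ) < k := by exact_mod_cast hk
  have hstr := sExps_strict (sExps_LB hk)
  obtain ⟨F, hF, hFz⟩ := exists_jump hstr τ
  have hF0 : ∀ t, 0 ≤ F t := by
    intro t
    by_cases ht : t ∈ (Finset.range k).image (ζLB k)
    · obtain ⟨i, hi, rfl⟩ := Finset.mem_image.mp ht
      rw [hF i (Finset.mem_range.mp hi)]; exact hτ i
    · rw [hFz t ht]
  set S0 := (Finset.range k).image (ζLB k) with hS0
  set S := S0 ∪ fS w with hS
  have hss : S0 ⊆ S := Finset.subset_union_left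
  have hss' : fS w ⊆ S := Finset.subset_union_right
  have hPos : Pos S := by
    intro t ht
    rcases Finset.mem_union.mp ht with h | h
    · obtain ⟨i, hi, rfl⟩ := Finset.mem_image.mp h
      exact (sExps_LB hk).1 i (Finset.mem_range.mp hi)
    · exact fS_pos hw t h
  have hG0 : ∀ t, 0 ≤ fτ w hv t := fτ_nonneg hw
  have hGz : ∀ t ∈ S, t ∉ fS w → fτ w hv t = 0 := by
    intro t _ ht
    unfold fτ
    refine Finset.sum_eq_zero fun i _ => ?_
    rw [if_neg]
    rintro rfl
    exact ht (Finset.mem_image.mpr ⟨i, Finset.mem_univ _, rfl⟩)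
  -- magnetisations
  have hM : ∀ b, siteM (ζLB k) τ k b = fM S F b := by
    intro b
    rw [siteM_eq_fM (exps_LB k) (sExps_LB hk) (ζLB_last hk) hτ hF0 hF b]
    exact (fM_superset hPos hss hF0 (fun t ht => hFz t ht) b).symm
  have hL0 : ∀ m, siteLeg (ζLB k) τ k m = FLeg S F m := by
    intro m
    have e1 : siteLeg (ζLB k) τ k m = siteLeg (ζLB k) (fun i => F (ζLB k i)) k m := by
      unfold siteLeg
      congr 1
      funext b
      rw [siteVal_congr (fun i hi => ⟨rfl, (hF i hi).symm⟩) b]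
    rw [e1, siteLeg_eq_FLeg hstr, FLeg_superset hss (fun t _ ht => hFz t ht)]
  -- tangent inequality for every class
  have htan : ∀ j, FLeg S (fτ w hv) (siteM (ζLB k) τ k (bb j)) ≤
      siteLeg (ζLB k) τ k (siteM (ζLB k) τ k (bb j)) -
        (1 / 2) * ∑ t ∈ S, (fτ w hv t - F t) * fTail S F (bb j) t := by
    intro j
    rw [hL0, hM]
    exact FLeg_tangent hPos hF0 hG0 (bb j) (by rw [← hM]; exact hm j)
  -- the F-part
  have hFsum : ∀ b, ∑ t ∈ S, F t * fTail S F b t =
      (1 / (k : ℝ)) * ∑ i ∈ Finset.range k, siteQ (ζLB k) τ k b i * hh τ i := by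
    intro b
    have e1 : ∑ t ∈ S, F t * fTail S F b t = ∑ t ∈ S0, F t * fTail S F b t := by
      symm
      refine Finset.sum_subset hss fun t _ ht => ?_
      rw [hFz t ht, zero_mul]
    rw [e1, hS0, Finset.sum_image]
    swap
    · intro i hi j hj h
      simp only [Finset.coe_range, Set.mem_Iio] at hi hj
      rcases lt_trichotomy i j with h1 | h1 | h1
      · exact absurd h (hstr i j h1 hj).ne
      · exact h1
      · exact absurd h (hstr j i h1 hi).ne'
    have e2 : ∀ i ∈ Finset.range k, F (ζLB k i) * fTail S F b (ζLB k i) =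
        ∑ l ∈ Finset.range k, if i ≤ l then (1 / (k : ℝ)) * (τ i * siteQ (ζLB k) τ k b l) else 0 := by
      intro i hi
      have hi' := Finset.mem_range.mp hi
      rw [hF i hi', fTail_superset hPos hss hF0 (fun t ht => hFz t ht) b
        (Finset.mem_image.mpr ⟨i, hi, rfl⟩),
        ← siteTail_eq_fTail (exps_LB k) (sExps_LB hk) (ζLB_last hk) hτ hF0 hF b hi']
      unfold siteTail
      rw [Finset.mul_sum, ← Finset.sum_filter]
      have e3 : (Finset.range k).filter (fun l => i ≤ l) = Finset.Ico i k := by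
        ext l; simp only [Finset.mem_filter, Finset.mem_range, Finset.mem_Ico]; tauto
      rw [e3]
      refine Finset.sum_congr rfl fun l hl => ?_
      rw [ζLB_diff (Finset.mem_Ico.mp hl).2]; ring
    rw [Finset.sum_congr rfl e2, Finset.sum_comm, Finset.mul_sum]
    refine Finset.sum_congr rfl fun l hl => ?_
    rw [← Finset.sum_filter]
    have e4 : (Finset.range k).filter (fun i => i ≤ l) = Finset.range (l + 1) := by
      ext i
      simp only [Finset.mem_filter, Finset.mem_range] at hl ⊢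
      omega
    rw [e4]
    unfold hh
    rw [Finset.mul_sum, Finset.mul_sum]
    exact Finset.sum_congr rfl fun i _ => by ring
  -- the integral
  have hint : ∫ u in Set.Ioo (0 : ℝ) 1, stepK k (fun i => ∑ j, γ j * siteQ (ζLB k) τ k (bb j) i) u *
      stepFn w hv u = ∑ j, γ j * ∑ t ∈ S, fτ w hv t *
        ∫ u in Set.Ioc t 1, stepK k (siteQ (ζLB k) τ k (bb j)) u := by
    have e1 : ∫ u in Set.Ioo (0 : ℝ) 1, stepK k (fun i => ∑ j, γ j * siteQ (ζLB k) τ k (bb j) i) u *
        stepFn w hv u = ∫ u in Set.Ioo (0 : ℝ) 1,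
        ∑ j, γ j * (stepK k (siteQ (ζLB k) τ k (bb j)) u * FH S (fτ w hv) u) := by
      refine setIntegral_congr_fun measurableSet_Ioo fun u hu => ?_
      rw [stepFn_eq_FH hw hu, FH_superset hss' hGz]
      unfold stepK
      simp only [Finset.sum_mul, Finset.mul_sum]
      rw [Finset.sum_comm]
      refine Finset.sum_congr rfl fun i _ => ?_
      split_ifs
      · rw [Finset.sum_mul]
        exact Finset.sum_congr rfl fun j _ => by ring
      · simp
    rw [e1, integral_finsetSum]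
    · refine Finset.sum_congr rfl fun j _ => ?_
      rw [integral_const_mul, integral_stepK_FH k _ hPos]
    · intro j _
      refine Integrable.const_mul ?_ _
      have h1 : Measurable (FH S (fτ w hv)) := by
        unfold FH
        refine Finset.measurable_sum _ fun t _ => ?_
        exact Measurable.ite measurableSet_Ioi measurable_const measurable_const
      have : IsFiniteMeasure ((volume : Measure ℝ).restrict (Set.Ioo (0:ℝ) 1)) := ⟨by
        rw [Measure.restrict_apply_univ]; simp⟩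
      refine Integrable.bdd_mul (c := ∑ l ∈ Finset.range k, |siteQ (ζLB k) τ k (bb j) l|) ?_
        (measurable_stepK k _).aestronglyMeasurable ?_
      · refine Integrable.of_bound (C := ∑ t ∈ S, |fτ w hv t|) h1.aestronglyMeasurable
          (Filter.Eventually.of_forall fun u => ?_)
        unfold FH
        rw [Real.norm_eq_abs]
        refine (Finset.abs_sum_le_sum_abs _ _).trans (Finset.sum_le_sum fun t _ => ?_)
        split_ifs
        · exact le_refl _
        · rw [abs_zero]; exact abs_nonneg _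
      · refine Filter.Eventually.of_forall fun u => ?_
        unfold stepK
        rw [Real.norm_eq_abs]
        refine (Finset.abs_sum_le_sum_abs _ _).trans (Finset.sum_le_sum fun l _ => ?_)
        split_ifs
        · exact le_refl _
        · rw [abs_zero]; exact abs_nonneg _
  rw [hint]
  have e1 : ∀ j, (⨅ b : ℝ, (fieldValueAt b w hv - b * siteM (ζLB k) τ k (bb j))) =
      FLeg S (fτ w hv) (siteM (ζLB k) τ k (bb j)) := by
    intro j
    have : (⨅ b : ℝ, (fieldValueAt b w hv - b * siteM (ζLB k) τ k (bb j))) =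
        FLeg (fS w) (fτ w hv) (siteM (ζLB k) τ k (bb j)) := by
      unfold FLeg
      simp only [fieldValueAt_eq_FVal hw.2.1]
    rw [this, FLeg_superset hss' hGz]
  simp only [e1]
  -- combine
  have h1 : ∑ j, γ j * FLeg S (fτ w hv) (siteM (ζLB k) τ k (bb j)) ≤
      ∑ j, γ j * (siteLeg (ζLB k) τ k (siteM (ζLB k) τ k (bb j)) -
        (1 / 2) * ∑ t ∈ S, (fτ w hv t - F t) * fTail S F (bb j) t) :=
    Finset.sum_le_sum fun j _ => mul_le_mul_of_nonneg_left (htan j) (hγ j)
  have h2 : ∑ j, γ j * ∑ t ∈ S, fτ w hv t * (∫ u in Set.Ioc t 1, stepK k (siteQ (ζLB k) τ k (bb j)) u) ≤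
      ∑ j, γ j * ∑ t ∈ S, fτ w hv t * fTail S F (bb j) t :=
    Finset.sum_le_sum fun j _ => mul_le_mul_of_nonneg_left
      (Finset.sum_le_sum fun t ht => mul_le_mul_of_nonneg_left
        (fTail_ge hk hτ hF0 hF (fun t ht => hFz t ht) hPos hss (bb j) ht) (hG0 t)) (hγ j)
  have h3 : ∑ j, γ j * (siteLeg (ζLB k) τ k (siteM (ζLB k) τ k (bb j)) -
        (1 / 2) * ∑ t ∈ S, (fτ w hv t - F t) * fTail S F (bb j) t) =
      ∑ j, γ j * siteLeg (ζLB k) τ k (siteM (ζLB k) τ k (bb j)) -
        (1 / 2) * (∑ j, γ j * ∑ t ∈ S, fτ w hv t * fTail S F (bb j) t) +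
        (1 / 2) * (∑ j, γ j * ∑ t ∈ S, F t * fTail S F (bb j) t) := by
    rw [Finset.mul_sum, Finset.mul_sum, ← Finset.sum_sub_distrib, ← Finset.sum_add_distrib]
    refine Finset.sum_congr rfl fun j _ => ?_
    have : ∑ t ∈ S, (fτ w hv t - F t) * fTail S F (bb j) t =
        ∑ t ∈ S, fτ w hv t * fTail S F (bb j) t - ∑ t ∈ S, F t * fTail S F (bb j) t := by
      rw [← Finset.sum_sub_distrib]
      exact Finset.sum_congr rfl fun t _ => by ring
    rw [this]; ring
  have h4 : ∑ j, γ j * ∑ t ∈ S, F t * fTail S F (bb j) t =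
      (1 / (k : ℝ)) * ∑ i ∈ Finset.range k, (∑ j, γ j * siteQ (ζLB k) τ k (bb j) i) * hh τ i := by
    simp only [hFsum]
    rw [Finset.mul_sum]
    simp only [Finset.sum_mul, Finset.mul_sum]
    rw [Finset.sum_comm]
    refine Finset.sum_congr rfl fun i _ => Finset.sum_congr rfl fun j _ => by ring
  rw [h3, h4] at h1
  linarith

end Crest.Agent.RI
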