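import Crest.Agent.RI.TeleT

/-!
# Row 164, Part 9: growth of the averaged free energy
-/

set_option autoImplicit false

namespace Crest.Agent.RI

open MeasureTheory ProbabilityTheory

variable {J : ℕ}

private theorem Tele_telescope (F : ℕ → ℝ) (N₁ : ℕ) (a δ : ℝ) (hδ : 0 < δ)
    (h : ∀ n ≥ N₁, a ≤ F (n + 1) - F n) : ∃ N₂ : ℕ, ∀ N ≥ N₂, (a - δ) * N ≤ F N := by
  have h1 : ∀ n : ℕ, F N₁ + a * n ≤ F (N₁ + n) := by
    intro n
    induction n with
    | zero => simp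
    | succ n ih =>
      have h2 := h (N₁ + n) (Nat.le_add_right _ _)
      rw [← add_assoc]
      push_cast
      nlinarith
  obtain ⟨N₂, hN₂⟩ := exists_nat_ge ((a * N₁ - F N₁) / δ)
  refine ⟨max N₁ N₂, fun N hN => ?_⟩
  have hN1 : N₁ ≤ N := (le_max_left _ _).trans hN
  have hN2 : (N₂ : ℝ) ≤ N := by exact_mod_cast (le_max_right _ _).trans hN
  obtain ⟨n, rfl⟩ := Nat.exists_eq_add_of_le hN1
  have h2 := h1 n
  have h3 : a * N₁ - F N₁ ≤ δ * ((N₁ + n : ℕ) : ℝ) := by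
    rw [div_le_iff₀ hδ] at hN₂
    nlinarith
  push_cast at h3 ⊢
  nlinarith

private theorem Tele_avg {A B : Type} [Fintype A] [Fintype B] (w : A → ℝ) (w' : B → ℝ)
    (h0 : ∀ x, 0 ≤ w x) (h0' : ∀ x, 0 ≤ w' x) (h1 : ∑ x, w x = 1) (h1' : ∑ x, w' x = 1)
    (f : A → B → ℝ) (g : A → ℝ) (g' : B → ℝ) (a b : ℝ)
    (hf : ∀ x y, a - b * (g x + g' y) ≤ f x y) :
    a - b * (∑ x, w x * g x + ∑ y, w' y * g' y) ≤ ∑ x, w x * ∑ y, w' y * f x y := by
  have e : a - b * (∑ x, w x * g x + ∑ y, w' y * g' y) =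
      ∑ x, w x * ∑ y, w' y * (a - b * (g x + g' y)) := by
    have e1 : ∀ x, ∑ y, w' y * (a - b * (g x + g' y)) =
        a - b * g x - b * ∑ y, w' y * g' y := by
      intro x
      have : ∀ y, w' y * (a - b * (g x + g' y)) = (a - b * g x) * w' y - b * (w' y * g' y) := by
        intro y; ring
      rw [Finset.sum_congr rfl fun y _ => this y, Finset.sum_sub_distrib, ← Finset.mul_sum,
        ← Finset.mul_sum, h1', mul_one]
    have e2 : ∀ x, w x * ∑ y, w' y * (a - b * (g x + g' y)) =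
        (a - b * ∑ y, w' y * g' y) * w x - b * (w x * g x) := by
      intro x
      rw [e1]
      ring
    rw [Finset.sum_congr rfl fun x _ => e2 x, Finset.sum_sub_distrib, ← Finset.mul_sum,
      ← Finset.mul_sum, h1]
    ring
  rw [e]
  refine Finset.sum_le_sum fun x _ => mul_le_mul_of_nonneg_left ?_ (h0 x)
  exact Finset.sum_le_sum fun y _ => mul_le_mul_of_nonneg_left (hf x y) (h0' y)

/-- GROWTH.  PROOF: `Fbar_succ`, `incF_typ` (with `ε/2`), `incF_all`, `Wt_atyp` for both label sequences; then sum over `N` (telescoping),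
`(A - ε) N ≤ Fbar N` for large `N`. -/
theorem Fbar_lower (D : Blk) (γ c m : Fin J → ℝ) (hγ : ∀ j, 0 < γ j) (hs : ∑ j, γ j = 1)
    (hm : ∀ j, |m j| < 1) {V ε : ℝ} (hε : 0 < ε) (hV : VLe D γ m V) :
    ∃ K₀ : ℝ, 0 < K₀ ∧ ∃ n : ℕ, 0 < n ∧ ∃ k₀ : ℕ, ∀ k ≥ k₀, 0 < k →
    ∃ s₀ : ℝ, 0 < s₀ ∧ ∀ s : ℝ, 0 < s → s ≤ s₀ → ∃ N₀ : ℕ, ∀ N ≥ N₀,
      (∑ j, γ j * c j * m j + V - ε) * N ≤ Fbar D γ c m K₀ n k s N := by
  classical
  obtain ⟨K₀, hK, n, hn, k₀, H⟩ := incF_typ D γ c m hγ hs hm (half_pos hε) hV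
  refine ⟨K₀, hK, n, hn, k₀, fun k hk hk0 => ?_⟩
  obtain ⟨s₀, hs₀, H1⟩ := H k hk hk0
  have hkp : (0 : ℝ) < 1 + k := by positivity
  refine ⟨min s₀ (1 / (1 + k)), lt_min hs₀ (by positivity), fun s h0 hle => ?_⟩
  obtain ⟨N₀, η, hη, H2⟩ := H1 s h0 (hle.trans (min_le_left _ _))
  have h1 : s * (1 + k) ≤ 1 := by
    have h2 := hle.trans (min_le_right _ _)
    rwa [le_div_iff₀ hkp] at h2
  obtain ⟨C, hC, H3⟩ := incF_all D γ c m hγ hs hm hK hn hk0 h0 h1
  set A : ℝ := ∑ j, γ j * c j * m j + V - ε / 2 with hA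
  set B : ℝ := |A| + C with hB
  have hB0 : 0 ≤ B := by positivity
  have hηη : 0 < η ^ 2 := by positivity
  -- the increments
  obtain ⟨M, hM⟩ := exists_nat_ge (B * ((D.K : ℝ) + J) / (η ^ 2) / (ε / 4))
  have inc : ∀ N ≥ N₀ + M + 1, A - ε / 4 ≤ Fbar D γ c m K₀ n k s (N + 1) -
      Fbar D γ c m K₀ n k s N := by
    intro N hN
    obtain ⟨N', rfl⟩ : ∃ N', N = N' + 1 := ⟨N - 1, by omega⟩
    rw [Fbar_succ D γ c m hs]
    set g : (Fin (N' + 1) → Fin D.K) → ℝ := fun κ => if D.Close η κ then 0 else 1 with hg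
    set g' : (Fin (N' + 1) → Fin J) → ℝ := fun lab => if LClose γ η lab then 0 else 1 with hg'
    have key : ∀ κ lab, A - B * (g κ + g' lab) ≤
        incF D γ c m K₀ n k s (N := N' + 1) κ lab := by
      intro κ lab
      by_cases hκ : D.Close η κ
      · by_cases hl : LClose γ η lab
        · have h2 := H2 N' (by omega) κ lab hκ hl
          simp only [hg, hg', if_pos hκ, if_pos hl]
          linarith
        · have h2 := H3 (N' + 1) (by omega) κ lab
          simp only [hg, hg', if_pos hκ, if_neg hl]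
          have := le_abs_self A
          linarith
      · have h2 := H3 (N' + 1) (by omega) κ lab
        have h3 : 0 ≤ g' lab := by simp only [hg']; split_ifs <;> norm_num
        simp only [hg, if_neg hκ]
        have := le_abs_self A
        have h4 := mul_nonneg hB0 h3
        linarith
    have hgs : ∑ κ : Fin (N' + 1) → Fin D.K, Wt D.α κ * g κ ≤
        (D.K : ℝ) / (((N' + 1 : ℕ) : ℝ) * η ^ 2) := by
      have h2 := Wt_atyp (fun l => (D.pos l).le) D.sum hη (Nat.succ_pos N') g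
        (fun κ => by simp only [hg]; split_ifs <;> norm_num)
        (fun κ => by simp only [hg]; split_ifs <;> norm_num)
        (fun κ h => if_pos (fun l => h l))
      rwa [Fintype.card_fin] at h2
    have hgs' : ∑ lab : Fin (N' + 1) → Fin J, Wt γ lab * g' lab ≤
        (J : ℝ) / (((N' + 1 : ℕ) : ℝ) * η ^ 2) := by
      have h2 := Wt_atyp (fun l => (hγ l).le) hs hη (Nat.succ_pos N') g'
        (fun κ => by simp only [hg']; split_ifs <;> norm_num)
        (fun κ => by simp only [hg']; split_ifs <;> norm_num)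
        (fun κ h => if_pos (fun l => h l))
      rwa [Fintype.card_fin] at h2
    have h4 := Tele_avg (fun κ : Fin (N' + 1) → Fin D.K => Wt D.α κ)
      (fun lab : Fin (N' + 1) → Fin J => Wt γ lab)
      (fun κ => Wt_nonneg (fun l => (D.pos l).le) κ) (fun κ => Wt_nonneg (fun l => (hγ l).le) κ)
      (Wt_sum D.sum (N' + 1)) (Wt_sum hs (N' + 1)) _ g g' A B key
    refine le_trans ?_ h4
    have h5 : B * (∑ κ : Fin (N' + 1) → Fin D.K, Wt D.α κ * g κ +
        ∑ lab : Fin (N' + 1) → Fin J, Wt γ lab * g' lab) ≤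
        B * ((D.K : ℝ) / (((N' + 1 : ℕ) : ℝ) * η ^ 2) + (J : ℝ) / (((N' + 1 : ℕ) : ℝ) * η ^ 2)) :=
      mul_le_mul_of_nonneg_left (add_le_add hgs hgs') hB0
    have h6 : B * ((D.K : ℝ) / (((N' + 1 : ℕ) : ℝ) * η ^ 2) +
        (J : ℝ) / (((N' + 1 : ℕ) : ℝ) * η ^ 2)) ≤ ε / 4 := by
      have hNpos : (0 : ℝ) < ((N' + 1 : ℕ) : ℝ) := by positivity
      have e : B * ((D.K : ℝ) / (((N' + 1 : ℕ) : ℝ) * η ^ 2) +
        (J : ℝ) / (((N' + 1 : ℕ) : ℝ) * η ^ 2)) = B * ((D.K : ℝ) + J) / η ^ 2 / ((N' + 1 : ℕ) : ℝ) := by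
        field_simp
      rw [e, div_le_iff₀ hNpos]
      rw [div_le_iff₀ (by positivity)] at hM
      have h7 : (M : ℝ) ≤ ((N' + 1 : ℕ) : ℝ) := by exact_mod_cast (show M ≤ N' + 1 by omega)
      nlinarith
    linarith
  obtain ⟨N₂, hN₂⟩ := Tele_telescope (Fbar D γ c m K₀ n k s) (N₀ + M + 1) (A - ε / 4) (ε / 4)
    (by linarith) inc
  refine ⟨N₂, fun N hN => ?_⟩
  have h8 := hN₂ N hN
  have e : ∑ j, γ j * c j * m j + V - ε = A - ε / 4 - ε / 4 := by rw [hA]; ring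
  rw [e]
  exact h8

end Crest.Agent.RI
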