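import Crest.Agent.RI.GrowA
import Crest.Agent.RI.IIDw

/-!
# Row 164, Part 9: averaged free energy, definitions
-/

set_option autoImplicit false

namespace Crest.Agent.RI

open MeasureTheory ProbabilityTheory

variable {J : ℕ}

/-- a Haar law for every size -/
noncomputable def PH (N : ℕ) : Measure (ON N) := Classical.choose (exists_haarO N)

theorem PH_haar (N : ℕ) : HaarO (PH N) := Classical.choose_spec (exists_haarO N)

/-- free energy averaged over the penalties `K₀ 2^{i+1}`, `i < n`, and the parameters -/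
noncomputable def Fhat (D : Blk) (γ c m : Fin J → ℝ) (K₀ : ℝ) (n k : ℕ) (s : ℝ) {N : ℕ}
    (κ : Fin N → Fin D.K) (lab : Fin N → Fin J) : ℝ :=
  (1 / (n : ℝ)) * ∑ i ∈ Finset.range n,
    ∫ x, FL (PH N) D ⟨γ, c, m, K₀ * 2 ^ (i + 1)⟩ k s x κ lab ∂(cubeM k D.K J)

/-- average over iid labels -/
noncomputable def Fbar (D : Blk) (γ c m : Fin J → ℝ) (K₀ : ℝ) (n k : ℕ) (s : ℝ) (N : ℕ) : ℝ :=
  ∑ κ : Fin N → Fin D.K, Wt D.α κ * ∑ lab : Fin N → Fin J, Wt γ lab *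
    Fhat D γ c m K₀ n k s κ lab

/-- averaged increment of `Fhat` -/
noncomputable def incF (D : Blk) (γ c m : Fin J → ℝ) (K₀ : ℝ) (n k : ℕ) (s : ℝ) {N : ℕ}
    (κ : Fin N → Fin D.K) (lab : Fin N → Fin J) : ℝ :=
  ∑ l, ∑ j, D.α l * γ j * (Fhat D γ c m K₀ n k s (kc l κ) (Fin.cons j lab : Fin (N + 1) → Fin J) -
    Fhat D γ c m K₀ n k s κ lab)

theorem TeleD_alg {A B C : Type} [Fintype A] [Fintype B] [Fintype C] (a : A → ℝ) (b : B → ℝ)
    (w : C → ℝ) (W : ℝ) (F : A → B → C → ℝ) :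
    ∑ l, a l * (W * ∑ j, ∑ c, b j * (w c * F l j c)) =
      W * ∑ c, w c * ∑ l, ∑ j, a l * b j * F l j c := by
  simp only [Finset.mul_sum]
  rw [Finset.sum_comm (s := (Finset.univ : Finset C)) (t := (Finset.univ : Finset A))]
  refine Finset.sum_congr rfl fun l _ => ?_
  rw [Finset.sum_comm]
  refine Finset.sum_congr rfl fun c _ => Finset.sum_congr rfl fun j _ => ?_
  ring

theorem TeleD_swap {X : Type} [MeasurableSpace X] {μ : Measure X} {A B : Type} [Fintype A]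
    [Fintype B] (w : A → B → ℝ) (f : A → B → X → ℝ) (g : X → ℝ)
    (hf : ∀ a b, Integrable (f a b) μ) (hg : Integrable g μ) :
    ∫ x, ∑ a, ∑ b, w a b * (f a b x - g x) ∂μ =
      ∑ a, ∑ b, w a b * ((∫ x, f a b x ∂μ) - ∫ x, g x ∂μ) := by
  have h1 : ∀ a b, Integrable (fun x => w a b * (f a b x - g x)) μ := fun a b =>
    ((hf a b).sub hg).const_mul _
  rw [integral_finsetSum _ fun a _ => integrable_finsetSum _ fun b _ => h1 a b]
  refine Finset.sum_congr rfl fun a _ => ?_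
  rw [integral_finsetSum _ fun b _ => h1 a b]
  refine Finset.sum_congr rfl fun b _ => ?_
  rw [integral_const_mul, integral_sub (hf a b) hg]

theorem TeleD_alg2 {A B : Type} [Fintype A] [Fintype B] (s : Finset ℕ) (w : A → B → ℝ) (q : ℝ)
    (F : A → B → ℕ → ℝ) (G : ℕ → ℝ) :
    ∑ a, ∑ b, w a b * (q * ∑ i ∈ s, F a b i - q * ∑ i ∈ s, G i) =
      q * ∑ i ∈ s, ∑ a, ∑ b, w a b * (F a b i - G i) := by
  have h1 : ∑ i ∈ s, ∑ a, ∑ b, w a b * (F a b i - G i) =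
      ∑ a, ∑ b, w a b * (∑ i ∈ s, F a b i - ∑ i ∈ s, G i) := by
    rw [Finset.sum_comm]
    refine Finset.sum_congr rfl fun a _ => ?_
    rw [Finset.sum_comm]
    refine Finset.sum_congr rfl fun b _ => ?_
    rw [← Finset.mul_sum, Finset.sum_sub_distrib]
  have h2 : ∀ a b, w a b * (q * ∑ i ∈ s, F a b i - q * ∑ i ∈ s, G i) =
      q * (w a b * (∑ i ∈ s, F a b i - ∑ i ∈ s, G i)) := fun a b => by ring
  rw [h1]
  simp only [h2]
  rw [Finset.mul_sum]
  refine Finset.sum_congr rfl fun a _ => ?_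
  rw [Finset.mul_sum]

/-- PROOF: `Wt_succ` twice, `Wt_sum`. -/
theorem Fbar_succ (D : Blk) (γ c m : Fin J → ℝ) (hs : ∑ j, γ j = 1) (K₀ : ℝ) (n k : ℕ) (s : ℝ)
    (N : ℕ) : Fbar D γ c m K₀ n k s (N + 1) - Fbar D γ c m K₀ n k s N =
      ∑ κ : Fin N → Fin D.K, Wt D.α κ * ∑ lab : Fin N → Fin J, Wt γ lab *
        incF D γ c m K₀ n k s κ lab := by
  have h1 : Fbar D γ c m K₀ n k s (N + 1) = ∑ κ : Fin N → Fin D.K, Wt D.α κ *
      ∑ lab : Fin N → Fin J, Wt γ lab * ∑ l, ∑ j, D.α l * γ j *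
        Fhat D γ c m K₀ n k s (kc l κ) (Fin.cons j lab : Fin (N + 1) → Fin J) := by
    unfold Fbar
    rw [Wt_succ D.α (fun κ' : Fin (N + 1) → Fin D.K =>
      ∑ lab : Fin (N + 1) → Fin J, Wt γ lab * Fhat D γ c m K₀ n k s κ' lab), Finset.sum_comm]
    refine Finset.sum_congr rfl fun κ _ => ?_
    have e : ∀ l : Fin D.K, ∑ lab : Fin (N + 1) → Fin J, Wt γ lab *
        Fhat D γ c m K₀ n k s (Fin.cons l κ : Fin (N + 1) → Fin D.K) lab =
        ∑ j, ∑ lab : Fin N → Fin J, γ j * (Wt γ lab *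
          Fhat D γ c m K₀ n k s (kc l κ) (Fin.cons j lab : Fin (N + 1) → Fin J)) := fun l =>
      Wt_succ γ (fun lab : Fin (N + 1) → Fin J =>
        Fhat D γ c m K₀ n k s (Fin.cons l κ : Fin (N + 1) → Fin D.K) lab)
    simp only [e]
    exact TeleD_alg D.α γ (fun lab : Fin N → Fin J => Wt γ lab) (Wt D.α κ)
      (fun l j lab => Fhat D γ c m K₀ n k s (kc l κ) (Fin.cons j lab : Fin (N + 1) → Fin J))
  have h2 : ∀ (κ : Fin N → Fin D.K) (lab : Fin N → Fin J), incF D γ c m K₀ n k s κ lab =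
      (∑ l, ∑ j, D.α l * γ j *
        Fhat D γ c m K₀ n k s (kc l κ) (Fin.cons j lab : Fin (N + 1) → Fin J)) -
      Fhat D γ c m K₀ n k s κ lab := by
    intro κ lab
    have e : ∑ l, ∑ j, D.α l * γ j * Fhat D γ c m K₀ n k s κ lab =
        Fhat D γ c m K₀ n k s κ lab := by
      have e2 : ∑ l, ∑ j, D.α l * γ j * Fhat D γ c m K₀ n k s κ lab =
          (∑ l, D.α l) * (∑ j, γ j) * Fhat D γ c m K₀ n k s κ lab := by
        rw [Finset.sum_mul_sum, Finset.sum_mul]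
        exact Finset.sum_congr rfl fun l _ => (Finset.sum_mul _ _ _).symm
      rw [e2, hs, D.sum, one_mul, one_mul]
    unfold incF
    simp only [mul_sub, Finset.sum_sub_distrib]
    rw [e]
  rw [h1]
  unfold Fbar
  rw [← Finset.sum_sub_distrib]
  refine Finset.sum_congr rfl fun κ _ => ?_
  rw [← mul_sub, ← Finset.sum_sub_distrib]
  congr 1
  refine Finset.sum_congr rfl fun lab _ => ?_
  rw [h2, mul_sub]

theorem TeleD_FL_bdd {N k : ℕ} (hN : 0 < N) {P : Measure (ON N)} (hP : HaarO P) (D : Blk)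
    (L : LBd J) (s : ℝ) (κ : Fin N → Fin D.K) (lab : Fin N → Fin J) :
    ∃ B : ℝ, ∀ x : XI k D.K J → ℝ, InC x → |FL P D L k s x κ lab| ≤ B := by
  have := prob_mN hP (unifA N)
  have hβ := dom_mN hP (unifA N)
  obtain ⟨C0, hC0, hb0⟩ := (HN_ham k (θL D L k s 0 κ lab)).bound
  choose C hC hb using fun i : XI k D.K J => (dirV_ham (N := N) κ lab i).bound
  set A : ℝ := C0 + ∑ i, 2 * (|s * N| * C i) with hA
  have hA0 : 0 ≤ A := by
    have : 0 ≤ ∑ i, 2 * (|s * N| * C i) := Finset.sum_nonneg fun i _ => by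
      have := hC i
      positivity
    linarith
  obtain ⟨B, hB0, hB⟩ := nest_bound hβ (k + 1) A hA0
  refine ⟨A + B, fun x hx => ?_⟩
  refine hB (ζLB k) (exps_LB k) 0 A hA0 _ (HN_ham k _).meas fun ω => ?_
  rw [HN_lin hN]
  set S : ℝ := ∑ j, βN (ω j) with hS
  have hS0 : 0 ≤ S := Finset.sum_nonneg fun j _ => hβ.nonneg _
  have h1 : |∑ i, x i * ((s * N) * dirV k κ lab i ω)| ≤
      (∑ i, 2 * (|s * N| * C i)) * (1 + S) := by
    refine (Finset.abs_sum_le_sum_abs _ _).trans ?_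
    rw [Finset.sum_mul]
    refine Finset.sum_le_sum fun i _ => ?_
    rw [abs_mul, abs_mul]
    have h2 : |x i| ≤ 2 := abs_le.2 ⟨by linarith [(hx i).1], (hx i).2⟩
    calc |x i| * (|s * N| * |dirV k κ lab i ω|) ≤ 2 * (|s * N| * (C i * (1 + S))) :=
          mul_le_mul h2 (mul_le_mul_of_nonneg_left (hb i ω) (abs_nonneg _)) (by positivity)
            (by norm_num)
      _ = 2 * (|s * N| * C i) * (1 + S) := by ring
  have h3 := hb0 ω
  calc _ ≤ |HN k (θL D L k s 0 κ lab) ω| + |∑ i, x i * ((s * N) * dirV k κ lab i ω)| :=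
        abs_add_le _ _
    _ ≤ C0 * (1 + S) + (∑ i, 2 * (|s * N| * C i)) * (1 + S) := add_le_add h3 h1
    _ = A + A * S := by rw [hA]; ring

theorem TeleD_FL_int {N k : ℕ} (hN : 0 < N) {P : Measure (ON N)} (hP : HaarO P) (D : Blk)
    (L : LBd J) (s : ℝ) (κ : Fin N → Fin D.K) (lab : Fin N → Fin J) :
    Integrable (fun x : XI k D.K J → ℝ => FL P D L k s x κ lab) (cubeM k D.K J) := by
  obtain ⟨B, hB⟩ := TeleD_FL_bdd (k := k) hN hP D L s κ lab
  exact cube_integrable (measurable_FLx hP D L s κ lab) hB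

theorem TeleD_incL_int {N k : ℕ} (hN : 0 < N) {P : Measure (ON N)} (hP : HaarO P)
    {P' : Measure (ON (N + 1))} (hP' : HaarO P') (D : Blk)
    (L : LBd J) (s : ℝ) (κ : Fin N → Fin D.K) (lab : Fin N → Fin J) :
    Integrable (fun x : XI k D.K J → ℝ => incL P P' D L k s x κ lab) (cubeM k D.K J) := by
  unfold incL
  exact integrable_finsetSum _ fun l _ => integrable_finsetSum _ fun j _ =>
    ((TeleD_FL_int (Nat.succ_pos N) hP' D L s _ _).sub
      (TeleD_FL_int hN hP D L s κ lab)).const_mul _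

/-- `incF = (1/n) Σ_i ∫ incL` -/
theorem TeleD_incF_eq {N : ℕ} (hN : 0 < N) (D : Blk) (γ c m : Fin J → ℝ) (K₀ : ℝ) (n k : ℕ)
    (s : ℝ) (κ : Fin N → Fin D.K) (lab : Fin N → Fin J) :
    incF D γ c m K₀ n k s κ lab = (1 / (n : ℝ)) * ∑ i ∈ Finset.range n,
      ∫ x, incL (PH N) (PH (N + 1)) D ⟨γ, c, m, K₀ * 2 ^ (i + 1)⟩ k s x κ lab
        ∂(cubeM k D.K J) := by
  have h1 : ∀ i : ℕ, ∫ x, incL (PH N) (PH (N + 1)) D ⟨γ, c, m, K₀ * 2 ^ (i + 1)⟩ k s x κ lab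
        ∂(cubeM k D.K J) = ∑ l, ∑ j, D.α l * γ j *
      ((∫ x, FL (PH (N + 1)) D ⟨γ, c, m, K₀ * 2 ^ (i + 1)⟩ k s x (kc l κ)
          (Fin.cons j lab : Fin (N + 1) → Fin J) ∂(cubeM k D.K J)) -
        ∫ x, FL (PH N) D ⟨γ, c, m, K₀ * 2 ^ (i + 1)⟩ k s x κ lab ∂(cubeM k D.K J)) := by
    intro i
    have hi1 := fun (l : Fin D.K) (j : Fin J) => TeleD_FL_int (k := k) (Nat.succ_pos N)
      (PH_haar (N + 1)) D (⟨γ, c, m, K₀ * 2 ^ (i + 1)⟩ : LBd J) s (kc l κ)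
      (Fin.cons j lab : Fin (N + 1) → Fin J)
    have hi0 := TeleD_FL_int (k := k) hN (PH_haar N) D (⟨γ, c, m, K₀ * 2 ^ (i + 1)⟩ : LBd J) s
      κ lab
    unfold incL
    exact TeleD_swap (fun (l : Fin D.K) (j : Fin J) => D.α l * γ j)
      (fun l j x => FL (PH (N + 1)) D ⟨γ, c, m, K₀ * 2 ^ (i + 1)⟩ k s x (kc l κ)
          (Fin.cons j lab : Fin (N + 1) → Fin J))
      (fun x => FL (PH N) D ⟨γ, c, m, K₀ * 2 ^ (i + 1)⟩ k s x κ lab) hi1 hi0
  simp only [h1]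
  unfold incF Fhat
  exact TeleD_alg2 (Finset.range n) (fun (l : Fin D.K) (j : Fin J) => D.α l * γ j) (1 / (n : ℝ))
    (fun l j i => ∫ x, FL (PH (N + 1)) D ⟨γ, c, m, K₀ * 2 ^ (i + 1)⟩ k s x (kc l κ)
          (Fin.cons j lab : Fin (N + 1) → Fin J) ∂(cubeM k D.K J))
    (fun i => ∫ x, FL (PH N) D ⟨γ, c, m, K₀ * 2 ^ (i + 1)⟩ k s x κ lab ∂(cubeM k D.K J))

/-- ALL LABELS.  PROOF: `incL_ge` with `Km = K₀ 2^n`. -/
theorem incF_all (D : Blk) (γ c m : Fin J → ℝ) (hγ : ∀ j, 0 < γ j) (hs : ∑ j, γ j = 1)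
    (hm : ∀ j, |m j| < 1) {K₀ : ℝ} (hK : 0 < K₀) {n k : ℕ} (hn : 0 < n) (hk : 0 < k) {s : ℝ}
    (h0 : 0 < s) (h1 : s * (1 + k) ≤ 1) : ∃ C : ℝ, 0 ≤ C ∧ ∀ N : ℕ, 1 ≤ N →
    ∀ (κ : Fin N → Fin D.K) (lab : Fin N → Fin J), - C ≤ incF D γ c m K₀ n k s κ lab := by
  obtain ⟨C, hC0, hC⟩ := incL_ge D γ hγ hs (K₀ * 2 ^ n) (∑ j, |c j|) (by positivity)
    (Finset.sum_nonneg fun _ _ => abs_nonneg _)
  refine ⟨C, hC0, fun N hN κ lab => ?_⟩
  rw [TeleD_incF_eq hN]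
  have hnr : (0 : ℝ) < n := by exact_mod_cast hn
  have h2 : ∀ i ∈ Finset.range n, -C ≤ ∫ x, incL (PH N) (PH (N + 1)) D
      ⟨γ, c, m, K₀ * 2 ^ (i + 1)⟩ k s x κ lab ∂(cubeM k D.K J) := by
    intro i hi
    have hin : i + 1 ≤ n := Finset.mem_range.1 hi
    have hL : LOK (⟨γ, c, m, K₀ * 2 ^ (i + 1)⟩ : LBd J) (K₀ * 2 ^ n) (∑ j, |c j|) := by
      refine ⟨by positivity, ?_, fun j => ?_, fun j => ?_⟩
      · exact mul_le_mul_of_nonneg_left (pow_le_pow_right₀ (by norm_num) hin) hK.le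
      · have hg1 : γ j ≤ 1 := by
          rw [← hs]
          exact Finset.single_le_sum (f := γ) (fun j _ => (hγ j).le) (Finset.mem_univ j)
        show |γ j * m j| ≤ 1
        rw [abs_mul, abs_of_pos (hγ j)]
        nlinarith [hm j, abs_nonneg (m j), hγ j]
      · exact Finset.single_le_sum (f := fun j => |c j|) (fun j _ => abs_nonneg _)
          (Finset.mem_univ j)
    have := cubeM_prob k D.K J
    calc -C = ∫ _x, -C ∂(cubeM k D.K J) := by simp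
      _ ≤ _ := by
        refine integral_mono_ae (integrable_const _)
          (TeleD_incL_int hN (PH_haar N) (PH_haar (N + 1)) D _ s κ lab) ?_
        filter_upwards [cubeM_ae k D.K J] with x hx
        exact hC k hk N hN (PH N) (PH (N + 1)) (PH_haar N) (PH_haar (N + 1)) _ hL rfl s h0.le h1
          x hx.xok κ lab
  have h3 := Finset.sum_le_sum h2
  rw [Finset.sum_const, Finset.card_range, nsmul_eq_mul] at h3
  have h4 : -C = (1 / (n : ℝ)) * (n * -C) := by field_simp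
  rw [h4]
  exact mul_le_mul_of_nonneg_left h3 (by positivity)

end Crest.Agent.RI
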