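import Crest.Agent.RI.TeleD
import Crest.Agent.RI.GrowAvg
import Crest.Agent.RI.KapSum

/-!
# Row 164, Part 9: increment for typical labels
-/

set_option autoImplicit false

namespace Crest.Agent.RI

open MeasureTheory ProbabilityTheory

variable {J : ℕ}

private theorem TeleT_close {D : Blk} {N : ℕ} {κ : Fin N → Fin D.K} {η η' : ℝ} (h : η ≤ η')
    (hc : D.Close η κ) : D.Close η' κ := fun l => (hc l).trans h

private theorem TeleT_lclose {γ : Fin J → ℝ} {N : ℕ} {lab : Fin N → Fin J} {η η' : ℝ}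
    (h : η ≤ η') (hc : LClose γ η lab) : LClose γ η' lab := fun j => (hc j).trans h

/-- integrability of the free energy over the parameters -/
private theorem TeleT_int {N k : ℕ} (hk : 0 < k) (hN : 0 < N) {P : Measure (ON N)} (hP : HaarO P)
    (D : Blk) (L : LBd J) {s : ℝ} (hs : 0 ≤ s) (hs1 : 3 * s ≤ 1)
    (κ : Fin N → Fin D.K) (lab : Fin N → Fin J) :
    Integrable (fun x : XI k D.K J → ℝ => FL P D L k s x κ lab) (cubeM k D.K J) := by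
  refine cube_integrable (measurable_FLx hP D L s κ lab)
    (B := 3 * s * N * ((D.K : ℝ) + J + k * D.K) + |FL P D L k s 0 κ lab|) fun x hx => ?_
  have h := FL_pert hk hN hP D L hs hs1 hx.xok κ lab
  have h2 := abs_sub_abs_le_abs_sub (FL P D L k s x κ lab) (FL P D L k s 0 κ lab)
  linarith

private theorem TeleT_swap {K J n : ℕ} (a : ℝ) (w : Fin K → ℝ) (g : Fin J → ℝ)
    (A : ℕ → Fin K → Fin J → ℝ) (B : ℕ → ℝ) :
    ∑ l, ∑ j, w l * g j * (a * ∑ i ∈ Finset.range n, A i l j - a * ∑ i ∈ Finset.range n, B i) =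
      a * ∑ i ∈ Finset.range n, ∑ l, ∑ j, w l * g j * (A i l j - B i) := by
  calc ∑ l, ∑ j, w l * g j * (a * ∑ i ∈ Finset.range n, A i l j - a * ∑ i ∈ Finset.range n, B i)
      = ∑ l, ∑ j, ∑ i ∈ Finset.range n, a * (w l * g j * (A i l j - B i)) := by
        refine Finset.sum_congr rfl fun l _ => Finset.sum_congr rfl fun j _ => ?_
        rw [← mul_sub, ← Finset.sum_sub_distrib, Finset.mul_sum, Finset.mul_sum]
        refine Finset.sum_congr rfl fun i _ => ?_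
        ring
    _ = ∑ l, ∑ i ∈ Finset.range n, ∑ j, a * (w l * g j * (A i l j - B i)) :=
        Finset.sum_congr rfl fun l _ => Finset.sum_comm
    _ = ∑ i ∈ Finset.range n, ∑ l, ∑ j, a * (w l * g j * (A i l j - B i)) := Finset.sum_comm
    _ = a * ∑ i ∈ Finset.range n, ∑ l, ∑ j, w l * g j * (A i l j - B i) := by
        rw [Finset.mul_sum]
        refine Finset.sum_congr rfl fun i _ => ?_
        rw [Finset.mul_sum]
        refine Finset.sum_congr rfl fun l _ => ?_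
        rw [Finset.mul_sum]

/-- the increment of `Fhat` is the average of the increments -/
private theorem TeleT_inc (D : Blk) (γ c m : Fin J → ℝ) (K₀ : ℝ) {n k : ℕ} (hk : 0 < k) {s : ℝ}
    (hs : 0 ≤ s) (hs1 : 3 * s ≤ 1) {N : ℕ} (hN : 0 < N) (κ : Fin N → Fin D.K)
    (lab : Fin N → Fin J) :
    incF D γ c m K₀ n k s κ lab = (1 / (n : ℝ)) * ∑ i ∈ Finset.range n,
      ∫ x, incL (PH N) (PH (N + 1)) D ⟨γ, c, m, K₀ * 2 ^ (i + 1)⟩ k s x κ lab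
        ∂(cubeM k D.K J) := by
  have hN1 : 0 < N + 1 := Nat.succ_pos N
  have e1 : ∀ i : ℕ, ∫ x, incL (PH N) (PH (N + 1)) D ⟨γ, c, m, K₀ * 2 ^ (i + 1)⟩ k s x κ lab
        ∂(cubeM k D.K J) = ∑ l, ∑ j, D.α l * γ j *
      ((∫ x, FL (PH (N + 1)) D ⟨γ, c, m, K₀ * 2 ^ (i + 1)⟩ k s x (kc l κ)
        (Fin.cons j lab : Fin (N + 1) → Fin J) ∂(cubeM k D.K J)) -
      ∫ x, FL (PH N) D ⟨γ, c, m, K₀ * 2 ^ (i + 1)⟩ k s x κ lab ∂(cubeM k D.K J)) := by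
    intro i
    have hI : ∀ l j, Integrable (fun x : XI k D.K J → ℝ =>
        FL (PH (N + 1)) D ⟨γ, c, m, K₀ * 2 ^ (i + 1)⟩ k s x (kc l κ)
        (Fin.cons j lab : Fin (N + 1) → Fin J)) (cubeM k D.K J) := fun l j =>
      TeleT_int hk hN1 (PH_haar (N + 1)) D _ hs hs1 _ _
    have hI0 : Integrable (fun x : XI k D.K J → ℝ =>
        FL (PH N) D ⟨γ, c, m, K₀ * 2 ^ (i + 1)⟩ k s x κ lab) (cubeM k D.K J) :=
      TeleT_int hk hN (PH_haar N) D _ hs hs1 _ _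
    have hD : ∀ l j, Integrable (fun x : XI k D.K J → ℝ => D.α l * γ j *
        (FL (PH (N + 1)) D ⟨γ, c, m, K₀ * 2 ^ (i + 1)⟩ k s x (kc l κ)
          (Fin.cons j lab : Fin (N + 1) → Fin J) -
          FL (PH N) D ⟨γ, c, m, K₀ * 2 ^ (i + 1)⟩ k s x κ lab)) (cubeM k D.K J) := fun l j =>
      ((hI l j).sub hI0).const_mul _
    unfold incL
    change ∫ x, ∑ l, ∑ j, D.α l * γ j *
        (FL (PH (N + 1)) D ⟨γ, c, m, K₀ * 2 ^ (i + 1)⟩ k s x (kc l κ)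
          (Fin.cons j lab : Fin (N + 1) → Fin J) -
          FL (PH N) D ⟨γ, c, m, K₀ * 2 ^ (i + 1)⟩ k s x κ lab) ∂(cubeM k D.K J) = _
    rw [integral_finset_sum _ fun l _ => integrable_finset_sum _ fun j _ => hD l j]
    refine Finset.sum_congr rfl fun l _ => ?_
    rw [integral_finset_sum _ fun j _ => hD l j]
    refine Finset.sum_congr rfl fun j _ => ?_
    rw [integral_const_mul, integral_sub (hI l j) hI0]
  rw [Finset.sum_congr rfl fun i _ => e1 i]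
  unfold incF Fhat
  exact TeleT_swap _ _ _ _ _

/-- TYPICAL LABELS.  PROOF: `Cδ` from `growth_avg` (with `ε/2`), `K₀ = Cδ + 1`, `C₁` from `kap_sum`, `n` with `2 C₁ / n ≤ ε/2`, `Km = K₀ 2^n`;
`incF = (1/n) Σ_i ∫ incL`, `(Cδ + kap) ≤ 2 kap`. -/
theorem incF_typ (D : Blk) (γ c m : Fin J → ℝ) (hγ : ∀ j, 0 < γ j) (hs : ∑ j, γ j = 1)
    (hm : ∀ j, |m j| < 1) {V ε : ℝ} (hε : 0 < ε) (hV : VLe D γ m V) :
    ∃ K₀ : ℝ, 0 < K₀ ∧ ∃ n : ℕ, 0 < n ∧ ∃ k₀ : ℕ, ∀ k ≥ k₀, 0 < k →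
    ∃ s₀ : ℝ, 0 < s₀ ∧ ∀ s : ℝ, 0 < s → s ≤ s₀ → ∃ (N₀ : ℕ) (η : ℝ), 0 < η ∧ ∀ N ≥ N₀,
    ∀ (κ : Fin (N + 1) → Fin D.K) (lab : Fin (N + 1) → Fin J), D.Close η κ → LClose γ η lab →
      ∑ j, γ j * c j * m j + V - ε ≤ incF D γ c m K₀ n k s κ lab := by
  obtain ⟨Cδ, hCδ, hg⟩ := growth_avg D γ c m hγ hs hm (half_pos hε) hV
  obtain ⟨C₁, hC₁, hks⟩ := kap_sum D γ c m hγ hs hm
  have hK₀ : 0 < Cδ + 1 := by linarith
  obtain ⟨n0, hn0⟩ := exists_nat_gt (4 * C₁ / ε)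
  have hn : 0 < n0 + 1 := Nat.succ_pos n0
  have hnR : (0 : ℝ) < ((n0 + 1 : ℕ) : ℝ) := by exact_mod_cast hn
  have hnC : 2 * C₁ / ((n0 + 1 : ℕ) : ℝ) ≤ ε / 2 := by
    rw [div_le_iff₀ hnR]
    rw [div_lt_iff₀ hε] at hn0
    push_cast
    nlinarith
  refine ⟨Cδ + 1, hK₀, n0 + 1, hn, ?_⟩
  obtain ⟨k₀, hk₀⟩ := hg ((Cδ + 1) * 2 ^ (n0 + 1)) (by positivity)
  refine ⟨k₀, fun k hk hk0 => ?_⟩
  obtain ⟨s₀, hs₀, hs₀'⟩ := hk₀ k hk hk0
  have hkR : (0 : ℝ) < 3 * (1 + (k : ℝ)) := by positivity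
  refine ⟨min s₀ (1 / (3 * (1 + (k : ℝ)))), lt_min hs₀ (by positivity), fun s hs0 hs1 => ?_⟩
  have hsa : s ≤ s₀ := hs1.trans (min_le_left _ _)
  have hsb : 3 * s * (1 + (k : ℝ)) ≤ 1 := by
    have h := hs1.trans (min_le_right _ _)
    rw [le_div_iff₀ hkR] at h
    linarith
  have hsc : 3 * s ≤ 1 := by
    have : 0 ≤ 3 * s * (k : ℝ) := by positivity
    nlinarith
  obtain ⟨N₁, η₁, hη₁, hA⟩ := hs₀' s hs0 hsa
  obtain ⟨N₂, η₂, hη₂, hB⟩ := hks (Cδ + 1) hK₀ (n0 + 1)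
  refine ⟨max N₁ N₂, min η₁ η₂, lt_min hη₁ hη₂, fun N hN κ lab hκ hlab => ?_⟩
  have hN1 : N₁ ≤ N := (le_max_left _ _).trans hN
  have hN2 : N₂ ≤ N + 1 := ((le_max_right _ _).trans hN).trans (Nat.le_succ N)
  rw [TeleT_inc D γ c m (Cδ + 1) hk0 hs0.le hsc (Nat.succ_pos N) κ lab]
  -- the squares
  set S : ℕ → (XI k D.K J → ℝ) → ℝ := fun i x =>
    ∑ j, (tLB (PH (N + 1)) D ⟨γ, c, m, (Cδ + 1) * 2 ^ (i + 1)⟩ k s x κ lab j -
      γ j * m j) ^ 2 with hS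
  have hS0 : ∀ i x, 0 ≤ S i x := fun i x => Finset.sum_nonneg fun j _ => sq_nonneg _
  have hKp : ∀ i : ℕ, 0 < (Cδ + 1) * 2 ^ (i + 1) := fun i => by positivity
  have hB' : ∀ x : XI k D.K J → ℝ, XOK x → ∑ i ∈ Finset.range (n0 + 1),
      ((Cδ + 1) * 2 ^ (i + 1)) * S i x ≤ C₁ := fun x hx =>
    hB (N + 1) hN2 (Nat.succ_pos N) (PH (N + 1)) (PH_haar (N + 1)) k hk0 s hs0.le hsb κ lab
      (TeleT_lclose (min_le_right _ _) hlab) x hx
  have hSi : ∀ i ∈ Finset.range (n0 + 1), Integrable (S i) (cubeM k D.K J) := by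
    intro i hi
    refine cube_integrable (B := C₁ / ((Cδ + 1) * 2 ^ (i + 1))) ?_ fun x hx => ?_
    · exact Finset.measurable_sum _ fun j _ =>
        ((measurable_tLBx (PH_haar (N + 1)) D _ s κ lab j).sub_const _).pow_const 2
    · rw [abs_of_nonneg (hS0 i x), le_div_iff₀ (hKp i), mul_comm]
      refine le_trans ?_ (hB' x hx.xok)
      exact Finset.single_le_sum (f := fun i => ((Cδ + 1) * 2 ^ (i + 1)) * S i x)
        (fun i _ => mul_nonneg (hKp i).le (hS0 i x)) hi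
  have := cubeM_prob k D.K J
  have hsum : ∑ i ∈ Finset.range (n0 + 1), ((Cδ + 1) * 2 ^ (i + 1)) *
      ∫ x, S i x ∂(cubeM k D.K J) ≤ C₁ := by
    have e : ∑ i ∈ Finset.range (n0 + 1), ((Cδ + 1) * 2 ^ (i + 1)) *
        ∫ x, S i x ∂(cubeM k D.K J) = ∫ x, ∑ i ∈ Finset.range (n0 + 1),
        ((Cδ + 1) * 2 ^ (i + 1)) * S i x ∂(cubeM k D.K J) := by
      rw [integral_finset_sum _ fun i hi => (hSi i hi).const_mul _]
      refine Finset.sum_congr rfl fun i _ => ?_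
      rw [integral_const_mul]
    rw [e]
    calc ∫ x, ∑ i ∈ Finset.range (n0 + 1), ((Cδ + 1) * 2 ^ (i + 1)) * S i x ∂(cubeM k D.K J)
        ≤ ∫ _x, C₁ ∂(cubeM k D.K J) := by
          refine integral_mono_ae (integrable_finset_sum _ fun i hi => (hSi i hi).const_mul _)
            (integrable_const _) ?_
          filter_upwards [cubeM_ae k D.K J] with x hx
          exact hB' x hx.xok
      _ = C₁ := by simp
  -- the increments
  have hinc : ∀ i ∈ Finset.range (n0 + 1), ∑ j, γ j * c j * m j + V - ε / 2 -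
      2 * (((Cδ + 1) * 2 ^ (i + 1)) * ∫ x, S i x ∂(cubeM k D.K J)) ≤
      ∫ x, incL (PH (N + 1)) (PH (N + 1 + 1)) D ⟨γ, c, m, (Cδ + 1) * 2 ^ (i + 1)⟩ k s x κ lab
        ∂(cubeM k D.K J) := by
    intro i hi
    have hi' : i + 1 ≤ n0 + 1 := Finset.mem_range.1 hi
    have hle : (Cδ + 1) * 2 ^ (i + 1) ≤ (Cδ + 1) * 2 ^ (n0 + 1) :=
      mul_le_mul_of_nonneg_left (pow_le_pow_right₀ (by norm_num) hi') hK₀.le
    have h := hA N hN1 (PH (N + 1)) (PH (N + 1 + 1)) (PH_haar _) (PH_haar _)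
      ((Cδ + 1) * 2 ^ (i + 1)) (hKp i).le hle κ lab (TeleT_close (min_le_left _ _) hκ)
      (TeleT_lclose (min_le_left _ _) hlab)
    have hI0 : 0 ≤ ∫ x, S i x ∂(cubeM k D.K J) := integral_nonneg fun x => hS0 i x
    have hCk : Cδ ≤ (Cδ + 1) * 2 ^ (i + 1) := by
      have : (1 : ℝ) ≤ 2 ^ (i + 1) := one_le_pow₀ (by norm_num)
      nlinarith
    have h2 : (Cδ + (Cδ + 1) * 2 ^ (i + 1)) * ∫ x, S i x ∂(cubeM k D.K J) ≤
        2 * (((Cδ + 1) * 2 ^ (i + 1)) * ∫ x, S i x ∂(cubeM k D.K J)) := by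
      rw [← mul_assoc]
      exact mul_le_mul_of_nonneg_right (by linarith) hI0
    refine le_trans ?_ h
    simp only [hS] at h2 ⊢
    linarith
  have htot := Finset.sum_le_sum hinc
  rw [Finset.sum_sub_distrib, Finset.sum_const, Finset.card_range, nsmul_eq_mul,
    ← Finset.mul_sum] at htot
  have hfin : ((n0 + 1 : ℕ) : ℝ) * (∑ j, γ j * c j * m j + V - ε / 2) - 2 * C₁ ≤
      ∑ i ∈ Finset.range (n0 + 1), ∫ x, incL (PH (N + 1)) (PH (N + 1 + 1)) D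
        ⟨γ, c, m, (Cδ + 1) * 2 ^ (i + 1)⟩ k s x κ lab ∂(cubeM k D.K J) := by
    refine le_trans ?_ htot
    linarith
  rw [one_div, ← div_eq_inv_mul, le_div_iff₀ hnR]
  refine le_trans ?_ hfin
  have h3 : 2 * C₁ ≤ ε / 2 * ((n0 + 1 : ℕ) : ℝ) := by
    rwa [div_le_iff₀ hnR] at hnC
  nlinarith

end Crest.Agent.RI
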