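import Crest.Agent.RI.TowRot
import Crest.Agent.RI.PathSwap
import Crest.Agent.RI.GaussTilt

/-!
# Row 164, Part 7 (H6): fourth moments of the fields, fixed level-0 matrix
-/

set_option autoImplicit false

namespace Crest.Agent.RI

open MeasureTheory ProbabilityTheory

variable {N K : ℕ}

/-- Lipschitz dependence on the perturbation fields -/
def LipG (L : ℝ) (n : ℕ) (H : (Fin n → EN N) → ℝ) : Prop :=
  ∀ ω ω' : Fin n → EN N, (∀ j, (ω j).1 = (ω' j).1 ∧ (ω j).2.1 = (ω' j).2.1 ∧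
    (ω j).2.2.2 = (ω' j).2.2.2) →
    |H ω - H ω'| ≤ L * ∑ j, Real.sqrt (∑ a, ((ω j).2.2.1 a - (ω' j).2.2.1 a) ^ 2)

private theorem TowMomA_HN (k : ℕ) (θ : Par N K) {D : ℝ} (hD0 : 0 ≤ D)
    (hc : ∀ (i : ℕ) l, |θ.c i l| ≤ D) (z z' : Fin (k + 1) → EN N)
    (h : ∀ j, (z j).1 = (z' j).1 ∧ (z j).2.1 = (z' j).2.1 ∧ (z j).2.2.2 = (z' j).2.2.2) :
    |HN k θ z - HN k θ z'| ≤ (D * Real.sqrt N) *
      ∑ j, Real.sqrt (∑ a, ((z j).2.2.1 a - (z' j).2.2.1 a) ^ 2) := by
  have hy : ∀ a, yv k z a = yv k z' a := by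
    intro a
    unfold yv
    rw [(h 0).1, (h (Fin.last k)).2.2]
  have hdiff : HN k θ z - HN k θ z' = ∑ i : Fin k, ∑ a : Fin N,
      ((z i.castSucc).2.2.1 a - (z' i.castSucc).2.2.1 a) * (θ.c i (θ.κ a) * yv k z' a) := by
    unfold HN
    have h1 : ∑ a : Fin N, θ.e (θ.κ a) * yv k z a ^ 2 = ∑ a : Fin N, θ.e (θ.κ a) * yv k z' a ^ 2 :=
      Finset.sum_congr rfl fun a _ => by rw [hy a]
    have h2 : ∑ i : Fin k, θ.v i * ∑ r : Fin N, (z i.castSucc).2.1 r * spin ((z (Fin.last k)).2.2.2 r) =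
        ∑ i : Fin k, θ.v i * ∑ r : Fin N, (z' i.castSucc).2.1 r * spin ((z' (Fin.last k)).2.2.2 r) :=
      Finset.sum_congr rfl fun i _ => by rw [(h i.castSucc).2.1, (h (Fin.last k)).2.2]
    have h3 : θ.B (z (Fin.last k)).2.2.2 = θ.B (z' (Fin.last k)).2.2.2 := by
      rw [(h (Fin.last k)).2.2]
    rw [h1, h2, h3]
    have h4 : ∑ i : Fin k, ∑ a : Fin N,
        ((z i.castSucc).2.2.1 a - (z' i.castSucc).2.2.1 a) * (θ.c i (θ.κ a) * yv k z' a) =
        ∑ i : Fin k, ∑ a : Fin N, θ.c i (θ.κ a) * (z i.castSucc).2.2.1 a * yv k z a -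
        ∑ i : Fin k, ∑ a : Fin N, θ.c i (θ.κ a) * (z' i.castSucc).2.2.1 a * yv k z' a := by
      rw [← Finset.sum_sub_distrib]
      refine Finset.sum_congr rfl fun i _ => ?_
      rw [← Finset.sum_sub_distrib]
      refine Finset.sum_congr rfl fun a _ => ?_
      rw [hy a]
      ring
    rw [h4]
    ring
  rw [hdiff]
  have hcy : ∀ i : Fin k, Real.sqrt (∑ a, (θ.c i (θ.κ a) * yv k z' a) ^ 2) ≤ D * Real.sqrt N := by
    intro i
    rw [Real.sqrt_le_left (by positivity), mul_pow, Real.sq_sqrt (by positivity),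
      ← sum_yv_sq k z', Finset.mul_sum]
    refine Finset.sum_le_sum fun a _ => ?_
    rw [mul_pow]
    refine mul_le_mul_of_nonneg_right ?_ (sq_nonneg _)
    rw [← sq_abs (θ.c i (θ.κ a))]
    exact pow_le_pow_left₀ (abs_nonneg _) (hc _ _) 2
  have hone : ∀ i : Fin k, |∑ a : Fin N,
      ((z i.castSucc).2.2.1 a - (z' i.castSucc).2.2.1 a) * (θ.c i (θ.κ a) * yv k z' a)| ≤
      (D * Real.sqrt N) *
        Real.sqrt (∑ a, ((z i.castSucc).2.2.1 a - (z' i.castSucc).2.2.1 a) ^ 2) := by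
    intro i
    have h5 : |∑ a : Fin N,
      ((z i.castSucc).2.2.1 a - (z' i.castSucc).2.2.1 a) * (θ.c i (θ.κ a) * yv k z' a)| ≤
      Real.sqrt (∑ a, ((z i.castSucc).2.2.1 a - (z' i.castSucc).2.2.1 a) ^ 2) *
        Real.sqrt (∑ a, (θ.c i (θ.κ a) * yv k z' a) ^ 2) := by
      rw [abs_le]
      constructor
      · have := Real.sum_mul_le_sqrt_mul_sqrt Finset.univ
          (fun a => -((z i.castSucc).2.2.1 a - (z' i.castSucc).2.2.1 a))
          (fun a => θ.c i (θ.κ a) * yv k z' a)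
        simp only [neg_mul, Finset.sum_neg_distrib, neg_sq] at this
        linarith
      · exact Real.sum_mul_le_sqrt_mul_sqrt _ _ _
    refine h5.trans ?_
    rw [mul_comm]
    exact mul_le_mul_of_nonneg_right (hcy i) (Real.sqrt_nonneg _)
  calc |∑ i : Fin k, ∑ a : Fin N,
      ((z i.castSucc).2.2.1 a - (z' i.castSucc).2.2.1 a) * (θ.c i (θ.κ a) * yv k z' a)|
      ≤ ∑ i : Fin k, |∑ a : Fin N,
      ((z i.castSucc).2.2.1 a - (z' i.castSucc).2.2.1 a) * (θ.c i (θ.κ a) * yv k z' a)| :=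
        Finset.abs_sum_le_sum_abs _ _
    _ ≤ ∑ i : Fin k, (D * Real.sqrt N) *
        Real.sqrt (∑ a, ((z i.castSucc).2.2.1 a - (z' i.castSucc).2.2.1 a) ^ 2) :=
        Finset.sum_le_sum fun i _ => hone i
    _ = (D * Real.sqrt N) * ∑ i : Fin k,
        Real.sqrt (∑ a, ((z i.castSucc).2.2.1 a - (z' i.castSucc).2.2.1 a) ^ 2) := by
        rw [Finset.mul_sum]
    _ ≤ _ := by
        refine mul_le_mul_of_nonneg_left ?_ (by positivity)
        rw [Fin.sum_univ_castSucc]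
        have := Real.sqrt_nonneg (∑ a, ((z (Fin.last k)).2.2.1 a - (z' (Fin.last k)).2.2.1 a) ^ 2)
        linarith

private theorem TowMomA_cons (L : ℝ) (n : ℕ) (e e' : EN N) (ω ω' : Fin n → EN N) :
    ∑ j, Real.sqrt (∑ a, (((Fin.cons e ω : Fin (n + 1) → EN N) j).2.2.1 a -
      ((Fin.cons e' ω' : Fin (n + 1) → EN N) j).2.2.1 a) ^ 2) =
    Real.sqrt (∑ a, (e.2.2.1 a - e'.2.2.1 a) ^ 2) +
      ∑ j, Real.sqrt (∑ a, ((ω j).2.2.1 a - (ω' j).2.2.1 a) ^ 2) := by
  rw [Fin.sum_univ_succ]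
  simp only [Fin.cons_zero, Fin.cons_succ]

/-- PROOF: Cauchy-Schwarz, `|C_i x| ≤ D |x|`, `|y| = √N`. -/
theorem LipG_HU (k : ℕ) (θ : Par N K) {D : ℝ} (hD0 : 0 ≤ D) (hc : ∀ (i : ℕ) l, |θ.c i l| ≤ D)
    (U : ON N) : LipG (D * Real.sqrt N) k (HU k θ U) := by
  intro ω ω' h
  unfold HU
  have h1 := TowMomA_HN k θ hD0 hc (Fin.cons (e0 U) ω) (Fin.cons (e0 U) ω') (by
    intro j
    refine Fin.cases ?_ (fun j => ?_) j
    · simp
    · simpa using h j)
  rw [TowMomA_cons 0] at h1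
  simpa using h1

private theorem TowMomA_stable {L : ℝ} (n : ℕ) (H : (Fin (n + 1) → EN N) → ℝ)
    (h : LipG L (n + 1) H) (e : EN N) : LipG L n (fun ω => H (Fin.cons e ω)) := by
  intro ω ω' hω
  have h1 := h (Fin.cons e ω) (Fin.cons e ω') (by
    intro j
    refine Fin.cases ?_ (fun j => ?_) j
    · simp
    · simpa using hω j)
  rw [TowMomA_cons 0] at h1
  simpa using h1

private theorem TowMomA_sq (x : Fin N → ℝ) : ∑ a, x a ^ 2 ≤ (∑ a, |x a|) ^ 2 := by
  rw [sq, Finset.sum_mul]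
  refine Finset.sum_le_sum fun a _ => ?_
  rw [← sq_abs, sq]
  exact mul_le_mul_of_nonneg_left
    (Finset.single_le_sum (f := fun a => |x a|) (fun _ _ => abs_nonneg _) (Finset.mem_univ a))
    (abs_nonneg _)

private theorem TowMomA_Fb (e : EN N) :
    (∑ a, e.2.2.1 a ^ 2) ^ 2 ≤ 24 * Real.exp (24 * βN e) := by
  have hb : 0 ≤ βN e := by unfold βN; positivity
  have h0 : ∑ a, |e.2.2.1 a| ≤ βN e := by
    unfold βN
    have : 0 ≤ ∑ a, |e.2.1 a| := by positivity
    linarith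
  have h1 : ∑ a, e.2.2.1 a ^ 2 ≤ βN e ^ 2 :=
    (TowMomA_sq _).trans (pow_le_pow_left₀ (by positivity) h0 2)
  have h2 : (∑ a, e.2.2.1 a ^ 2) ^ 2 ≤ (βN e ^ 2) ^ 2 :=
    pow_le_pow_left₀ (by positivity) h1 2
  have h3 := Real.pow_div_factorial_le_exp (βN e) hb 4
  have h4 : ((4 : ℕ).factorial : ℝ) = 24 := by norm_num [Nat.factorial]
  rw [h4, div_le_iff₀ (by norm_num)] at h3
  have h5 : Real.exp (βN e) ≤ Real.exp (24 * βN e) := Real.exp_le_exp.2 (by linarith)
  nlinarith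

private def TowMomA_phi (x : (ON N × (Fin N → ℝ) × (Fin N → Bool)) × (Fin N → ℝ)) : EN N :=
  (x.1.1, x.1.2.1, x.2, x.1.2.2)

private theorem TowMomA_mp (P : Measure (ON N)) [IsProbabilityMeasure P]
    (A : Measure (Fin N → Bool)) [IsProbabilityMeasure A] :
    MeasurePreserving (TowMomA_phi (N := N)) ((P.prod ((gvec N).prod A)).prod (gvec N))
      (mN P A) := by
  have mp1 := measurePreserving_prodAssoc P ((gvec N).prod A) (gvec N)
  have mp2 := measurePreserving_prodAssoc (gvec N) A (gvec N)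
  have mp3 : MeasurePreserving Prod.swap (A.prod (gvec N)) ((gvec N).prod A) :=
    Measure.measurePreserving_swap
  exact ((MeasurePreserving.id P).prod (((MeasurePreserving.id (gvec N)).prod mp3).comp mp2)).comp mp1

private theorem TowMomA_tr {X Y : Type} [MeasurableSpace X] [MeasurableSpace Y] {μ : Measure X}
    {ν : Measure Y} {φ : X → Y} (h : MeasurePreserving φ μ ν) (f : Y → ℝ)
    (hf : AEStronglyMeasurable f ν) : ∫ y, f y ∂ν = ∫ x, f (φ x) ∂μ := by
  obtain ⟨hm, rfl⟩ := h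
  exact integral_map hm.aemeasurable hf

private theorem TowMomA_mcons (E : Type) [MeasurableSpace E] (n : ℕ) :
    Measurable (fun q : E × (Fin n → E) => (Fin.cons q.1 q.2 : Fin (n + 1) → E)) := by
  rw [measurable_pi_iff]
  intro j
  refine Fin.cases ?_ (fun j => ?_) j
  · exact measurable_fst
  · exact (measurable_pi_apply j).comp measurable_snd

private theorem TowMomA_level {P : Measure (ON N)} (hP : HaarO P) (A : Measure (Fin N → Bool))
    [IsProbabilityMeasure A] {ζ : ℕ → ℝ} (hζ : Exps ζ) {D : ℝ} (hD0 : 0 ≤ D) (n i : ℕ)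
    (H : (Fin (n + 1) → EN N) → ℝ) (hH : Ham (βN (N := N)) H)
    (hL : LipG (D * Real.sqrt N) (n + 1) H) :
    ∫ e, (∑ a, e.2.2.1 a ^ 2) ^ 2 *
      Real.exp (ζ i * nest (mN P A) ζ n (i + 1) (fun ω => H (Fin.cons e ω))) ∂(mN P A) ≤
    64 * (2 * ((3 * D ^ 2 + 2) * N) ^ 2 + 4) *
      ∫ e, Real.exp (ζ i * nest (mN P A) ζ n (i + 1) (fun ω => H (Fin.cons e ω))) ∂(mN P A) := by
  have := hP.prob
  have := prob_mN hP A
  have hβ := dom_mN hP A
  set m := mN P A with hm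
  have hunc : Measurable (Function.uncurry (fun (e : EN N) (ω : Fin n → EN N) =>
      H (Fin.cons e ω))) := hH.meas.comp (TowMomA_mcons (EN N) n)
  have hg : Measurable (fun e => nest m ζ n (i + 1) (fun ω => H (Fin.cons e ω))) :=
    measurable_nest m ζ n (i + 1) hunc
  have hG : Measurable (fun e => Real.exp (ζ i * nest m ζ n (i + 1) (fun ω => H (Fin.cons e ω)))) :=
    (hg.const_mul _).exp
  have hFm : Measurable (fun e : EN N => (∑ a, e.2.2.1 a ^ 2) ^ 2) := by fun_prop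
  -- integrability on the product
  have hZ : 0 < ∫ e, Real.exp (ζ i * nest m ζ n (i + 1) (fun ω => H (Fin.cons e ω))) ∂m := by
    by_contra hcon
    have h0 : ∫ e, Real.exp (ζ i * nest m ζ n (i + 1) (fun ω => H (Fin.cons e ω))) ∂m = 0 :=
      le_antisymm (not_lt.1 hcon) (integral_nonneg fun e => (Real.exp_pos _).le)
    have h1 := (wgt_integral hβ hζ n i hH).2
    have h2 : ∀ e, wgt m ζ n i H e = 0 := fun e => by
      rw [wgt_eq hβ hζ n i hH e, h0, div_zero]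
    rw [show (fun e => wgt m ζ n i H e) = fun _ => 0 from funext h2] at h1
    simp at h1
  have hGw : ∀ e, Real.exp (ζ i * nest m ζ n (i + 1) (fun ω => H (Fin.cons e ω))) =
      wgt m ζ n i H e *
        ∫ e, Real.exp (ζ i * nest m ζ n (i + 1) (fun ω => H (Fin.cons e ω))) ∂m := fun e => by
    rw [wgt_eq hβ hζ n i hH e, div_mul_cancel₀ _ hZ.ne']
  have hGi : Integrable (fun e =>
      Real.exp (ζ i * nest m ζ n (i + 1) (fun ω => H (Fin.cons e ω)))) m := by
    refine ((wgt_integral hβ hζ n i hH).1.mul_const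
      (∫ e, Real.exp (ζ i * nest m ζ n (i + 1) (fun ω => H (Fin.cons e ω))) ∂m)).congr
      (Filter.Eventually.of_forall fun e => (hGw e).symm)
  have hFGi : Integrable (fun e : EN N => (∑ a, e.2.2.1 a ^ 2) ^ 2 *
      Real.exp (ζ i * nest m ζ n (i + 1) (fun ω => H (Fin.cons e ω)))) m := by
    have hΦ : Tame (βN (N := N)) (fun ω : Fin (n + 1) → EN N => (∑ a, (ω 0).2.2.1 a ^ 2) ^ 2) := by
      refine ⟨hFm.comp (measurable_pi_apply 0), 24, by norm_num, fun ω => ?_⟩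
      rw [abs_of_nonneg (by positivity)]
      refine (TowMomA_Fb (ω 0)).trans ?_
      have h1 : βN (ω 0) ≤ ∑ i, βN (ω i) :=
        Finset.single_le_sum (f := fun i => βN (ω i)) (fun i _ => hβ.nonneg _) (Finset.mem_univ 0)
      have h2 : Real.exp (24 * βN (ω 0)) ≤ Real.exp (24 * ∑ i, βN (ω i)) :=
        Real.exp_le_exp.2 (by linarith)
      linarith
    have h1 := integrable_wgt_pathE hβ hζ n i hH hΦ
    have h2 := h1.mul_const
      (∫ e, Real.exp (ζ i * nest m ζ n (i + 1) (fun ω => H (Fin.cons e ω))) ∂m)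
    refine h2.congr (Filter.Eventually.of_forall fun e => ?_)
    have h3 : pathE m ζ n (i + 1) (fun ω => H (Fin.cons e ω))
        (fun ω => (∑ a, ((Fin.cons e ω : Fin (n + 1) → EN N) 0).2.2.1 a ^ 2) ^ 2) =
        (∑ a, e.2.2.1 a ^ 2) ^ 2 := by
      simp only [Fin.cons_zero]
      exact pathE_const hβ hζ n (i + 1) (Ham.cons hβ hH e) _
    show wgt m ζ n i H e * pathE m ζ n (i + 1) (fun ω => H (Fin.cons e ω))
        (fun ω => (∑ a, ((Fin.cons e ω : Fin (n + 1) → EN N) 0).2.2.1 a ^ 2) ^ 2) *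
      (∫ e, Real.exp (ζ i * nest m ζ n (i + 1) (fun ω => H (Fin.cons e ω))) ∂m) =
      (∑ a, e.2.2.1 a ^ 2) ^ 2 *
        Real.exp (ζ i * nest m ζ n (i + 1) (fun ω => H (Fin.cons e ω)))
    rw [h3, hGw e]
    ring
  -- transport to the product
  have hφ := TowMomA_mp P A
  have hφ' : MeasurePreserving (TowMomA_phi (N := N)) ((P.prod ((gvec N).prod A)).prod (gvec N)) m :=
    hφ
  have i1 := (hφ'.integrable_comp hGi.aestronglyMeasurable).2 hGi
  have i2 := (hφ'.integrable_comp hFGi.aestronglyMeasurable).2 hFGi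
  have e1 : ∫ e, Real.exp (ζ i * nest m ζ n (i + 1) (fun ω => H (Fin.cons e ω))) ∂m =
      ∫ x, ∫ g, Real.exp (ζ i * nest m ζ n (i + 1)
        (fun ω => H (Fin.cons (TowMomA_phi (x, g)) ω))) ∂gvec N ∂(P.prod ((gvec N).prod A)) := by
    have h1 := integral_prod _ i1
    rw [TowMomA_tr hφ' _ hGi.aestronglyMeasurable]
    exact h1
  have e2 : ∫ e, (∑ a, e.2.2.1 a ^ 2) ^ 2 *
      Real.exp (ζ i * nest m ζ n (i + 1) (fun ω => H (Fin.cons e ω))) ∂m =
      ∫ x, ∫ g, (∑ a, g a ^ 2) ^ 2 * Real.exp (ζ i * nest m ζ n (i + 1)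
        (fun ω => H (Fin.cons (TowMomA_phi (x, g)) ω))) ∂gvec N ∂(P.prod ((gvec N).prod A)) := by
    have h1 := integral_prod _ i2
    rw [TowMomA_tr hφ' _ hFGi.aestronglyMeasurable]
    exact h1
  rw [e1, e2, ← integral_const_mul]
  refine integral_mono i2.integral_prod_left (i1.integral_prod_left.const_mul _) fun x => ?_
  have hgx : Measurable (fun g : Fin N → ℝ => TowMomA_phi (x, g)) := by
    unfold TowMomA_phi
    fun_prop
  have key := gauss_tilt (N := N) (L := D * Real.sqrt N) (by positivity)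
    (f := fun g => ζ i * nest m ζ n (i + 1) (fun ω => H (Fin.cons (TowMomA_phi (x, g)) ω)))
    ((hg.comp hgx).const_mul _) (by
      intro g g'
      have h1 : |nest m ζ n (i + 1) (fun ω => H (Fin.cons (TowMomA_phi (x, g)) ω)) -
          nest m ζ n (i + 1) (fun ω => H (Fin.cons (TowMomA_phi (x, g')) ω))| ≤
          (D * Real.sqrt N) * Real.sqrt (∑ a, (g a - g' a) ^ 2) := by
        refine nest_lip hβ hζ n (i + 1) (Ham.cons hβ hH _) (Ham.cons hβ hH _) fun ω => ?_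
        have h2 := hL (Fin.cons (TowMomA_phi (x, g)) ω) (Fin.cons (TowMomA_phi (x, g')) ω) (by
          intro j
          refine Fin.cases ?_ (fun j => ?_) j
          · simp [TowMomA_phi]
          · simp)
        rw [TowMomA_cons 0] at h2
        simpa [TowMomA_phi] using h2
      rw [← mul_sub, abs_mul, abs_of_nonneg (hζ i).1]
      calc ζ i * |nest m ζ n (i + 1) (fun ω => H (Fin.cons (TowMomA_phi (x, g)) ω)) -
          nest m ζ n (i + 1) (fun ω => H (Fin.cons (TowMomA_phi (x, g')) ω))|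
          ≤ 1 * |nest m ζ n (i + 1) (fun ω => H (Fin.cons (TowMomA_phi (x, g)) ω)) -
          nest m ζ n (i + 1) (fun ω => H (Fin.cons (TowMomA_phi (x, g')) ω))| :=
            mul_le_mul_of_nonneg_right (hζ i).2 (abs_nonneg _)
        _ ≤ _ := by rw [one_mul]; exact h1)
  have hc : 64 * (2 * (3 * (D * Real.sqrt N) ^ 2 + 2 * (N : ℝ)) ^ 2 + 4) =
      64 * (2 * ((3 * D ^ 2 + 2) * N) ^ 2 + 4) := by
    rw [mul_pow, Real.sq_sqrt (by positivity)]
    ring
  rw [hc] at key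
  exact key

/-- fourth moments of the perturbation fields.  PROOF.  For `i = 0` the field is `0`.  For `i ≥ 1` it is the field of the coordinate `i-1` of `ω`:
`pathE_level_le` with `Good n H = LipG (D√N) n H`, `F e = (Σ_a (e.2.2.1 a)²)²`; the one-level estimate: Fubini for `mN = P × gvec × gvec × A`: for fixed other
components the function `gt ↦ ζ_i nest(H(cons (U,g,gt,σ) ·))` is `D√N`-Lipschitz (`nest_lip`, `ζ_i ≤ 1`): `gauss_tilt` with `L = D√N`, `L² = D² N`. -/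
theorem pathE_gU4 {P : Measure (ON N)} (hP : HaarO P) (A : Measure (Fin N → Bool))
    [IsProbabilityMeasure A] {ζ : ℕ → ℝ} (hζ : Exps ζ) (k : ℕ) (θ : Par N K) {D : ℝ} (hD0 : 0 ≤ D)
    (hc : ∀ (i : ℕ) l, |θ.c i l| ≤ D) (i : Fin k) (U : ON N) :
    pathE (mN P A) ζ k 1 (HU k θ U) (fun ω => (∑ a, gU k i U ω a ^ 2) ^ 2) ≤
      64 * (2 * ((3 * D ^ 2 + 2) * N) ^ 2 + 4) := by
  have := hP.prob
  have := prob_mN hP A
  have hβ := dom_mN hP A
  obtain ⟨k', rfl⟩ : ∃ k', k = k' + 1 := ⟨k - 1, by have := i.2; omega⟩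
  refine Fin.cases ?_ (fun i' => ?_) i
  · have h1 : (fun ω => (∑ a, gU (k' + 1) 0 U ω a ^ 2) ^ 2) =
        fun _ : Fin (k' + 1) → EN N => (0 : ℝ) := by
      funext ω
      have : ∀ a, gU (k' + 1) 0 U ω a = 0 := fun a => rfl
      simp [this]
    rw [h1, pathE_const hβ hζ (k' + 1) 1 (HU_ham (k' + 1) θ U)]
    positivity
  · have h1 : (fun ω : Fin (k' + 1) → EN N => (∑ a, gU (k' + 1) i'.succ U ω a ^ 2) ^ 2) =
        fun ω : Fin (k' + 1) → EN N => (fun e : EN N => (∑ a, e.2.2.1 a ^ 2) ^ 2) (ω i'.castSucc) := by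
      funext ω
      have : ∀ a, gU (k' + 1) i'.succ U ω a = (ω i'.castSucc).2.2.1 a := fun a => rfl
      simp only [this]
    rw [h1]
    exact pathE_level_le hβ hζ (F := fun e : EN N => (∑ a, e.2.2.1 a ^ 2) ^ 2)
      (fun e => by positivity) (by fun_prop) (C := 24) (by norm_num) TowMomA_Fb
      (fun n H => LipG (D * Real.sqrt N) n H) (fun n H h e => TowMomA_stable n H h e)
      (fun n i H hH hL => TowMomA_level hP A hζ hD0 n i H hH hL)
      (k' + 1) 1 i'.castSucc (HU_ham (k' + 1) θ U) (LipG_HU (k' + 1) θ hD0 hc U)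

end Crest.Agent.RI
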