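import Crest.Agent.RI.TowDefs

/-!
# Row 164, Part 7 (H6): rotations of the tower
-/

set_option autoImplicit false

namespace Crest.Agent.RI

open MeasureTheory ProbabilityTheory

variable {N K : ℕ}

private theorem TowRot_cons_meas (k : ℕ) : Measurable (fun x : ON N × (Fin k → EN N) =>
    (Fin.cons (e0 x.1) x.2 : Fin (k + 1) → EN N)) := by
  rw [measurable_pi_iff]
  intro j
  refine Fin.cases ?_ (fun j => ?_) j
  · simp only [Fin.cons_zero]
    exact measurable_fst.prodMk measurable_const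
  · simp only [Fin.cons_succ]
    exact (measurable_pi_apply j).comp measurable_snd

private theorem TowRot_βN_e0 (U : ON N) : βN (e0 U) = 0 := by
  simp [βN, e0]

theorem measurable_HU (k : ℕ) (θ : Par N K) :
    Measurable (fun x : ON N × (Fin k → EN N) => HU k θ x.1 x.2) :=
  (HN_ham k θ).meas.comp (TowRot_cons_meas k)

/-- PROOF: `HN_ham` and `βN (e0 U) = 0`, with a constant independent of `U`. -/
theorem HU_bound (k : ℕ) (θ : Par N K) : ∃ C : ℝ, 0 ≤ C ∧ ∀ (U : ON N) (ω : Fin k → EN N),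
    |HU k θ U ω| ≤ C * (1 + ∑ i, βN (ω i)) := by
  obtain ⟨C, hC, hb⟩ := (HN_ham k θ).bound
  refine ⟨C, hC, fun U ω => ?_⟩
  have h := hb (Fin.cons (e0 U) ω)
  rw [Fin.sum_univ_succ] at h
  simp only [Fin.cons_zero, Fin.cons_succ, TowRot_βN_e0, zero_add] at h
  exact h

private theorem TowRot_meas_sec (k : ℕ) (θ : Par N K) (U : ON N) :
    Measurable (fun ω : Fin k → EN N => HU k θ U ω) := by
  have h : Measurable (fun ω : Fin k → EN N => ((U, ω) : ON N × (Fin k → EN N))) :=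
    measurable_prodMk_left
  have h2 := (measurable_HU k θ).comp h
  exact h2

theorem HU_ham (k : ℕ) (θ : Par N K) (U : ON N) : Ham (βN (N := N)) (HU k θ U) := by
  obtain ⟨C, hC, hb⟩ := HU_bound k θ
  constructor
  · exact TowRot_meas_sec k θ U
  · exact ⟨C, hC, fun ω => hb U ω⟩

/-- if the fields of level `0` have coefficient `0` then only the matrix of level `0` matters -/
theorem HN_cons_eq (k : ℕ) (θ : Par N K) (hk : 1 ≤ k) (hv : θ.v 0 = 0) (hc : ∀ l, θ.c 0 l = 0)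
    (e : EN N) (ω : Fin k → EN N) : HN k θ (Fin.cons e ω) = HU k θ e.1 ω := by
  obtain ⟨k, rfl⟩ : ∃ m, k = m + 1 := ⟨k - 1, by omega⟩
  have hlast : ∀ e' : EN N, (Fin.cons e' ω : Fin (k + 1 + 1) → EN N) (Fin.last (k + 1)) =
      ω (Fin.last k) := by
    intro e'
    rw [← Fin.succ_last, Fin.cons_succ]
  have hy : ∀ a, yv (k + 1) (Fin.cons e ω : Fin (k + 1 + 1) → EN N) a =
      yv (k + 1) (Fin.cons (e0 e.1) ω : Fin (k + 1 + 1) → EN N) a := by
    intro a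
    unfold yv
    rw [hlast, hlast]
    rfl
  unfold HU HN
  rw [Fin.sum_univ_succ, Fin.sum_univ_succ, Fin.sum_univ_succ, Fin.sum_univ_succ]
  simp only [hy, hlast, Fin.castSucc_zero, Fin.val_zero, hv, hc, zero_mul,
    Finset.sum_const_zero, zero_add, Fin.castSucc_succ, Fin.cons_succ]

/-- the rotation of the perturbation field preserves the law of a level (`gvec_map_avec`) -/
theorem rotL_mp {P : Measure (ON N)} (hP : HaarO P) (A : Measure (Fin N → Bool))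
    [IsProbabilityMeasure A] {V : Fin N → Fin N → ℝ} (hV : IsO V) :
    MeasurePreserving (rotL V) (mN P A) (mN P A) := by
  have := hP.prob
  have hm : Measurable (avec V) :=
    measurable_avec.comp (measurable_const.prodMk measurable_id)
  have h1 : MeasurePreserving (avec V) (gvec N) (gvec N) := ⟨hm, gvec_map_avec hV⟩
  have h2 : MeasurePreserving (Prod.map (avec V) (id : (Fin N → Bool) → _))
      ((gvec N).prod A) ((gvec N).prod A) := h1.prod (MeasurePreserving.id A)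
  have h3 : MeasurePreserving (Prod.map (id : (Fin N → ℝ) → _)
      (Prod.map (avec V) (id : (Fin N → Bool) → _)))
      ((gvec N).prod ((gvec N).prod A)) ((gvec N).prod ((gvec N).prod A)) :=
    (MeasurePreserving.id (gvec N)).prod h2
  have h4 : MeasurePreserving (Prod.map (id : ON N → _) (Prod.map (id : (Fin N → ℝ) → _)
      (Prod.map (avec V) (id : (Fin N → Bool) → _)))) (mN P A) (mN P A) :=
    (MeasurePreserving.id P).prod h3
  exact h4

private theorem TowRot_rot_mul (V U : ON N) (σ : Fin N → Bool) (a : Fin N) :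
    rot (ON.mul V U) σ a = avec V.1 (rot U σ) a := by
  unfold rot avec
  rw [HaarON_mul_val]
  unfold amul
  simp only [Finset.sum_mul, Finset.mul_sum]
  rw [Finset.sum_comm]
  refine Finset.sum_congr rfl fun i _ => Finset.sum_congr rfl fun j _ => ?_
  ring

private theorem TowRot_conf (k : ℕ) (V U : ON N) (ω : Fin k → EN N) (j : Fin (k + 1)) :
    ((Fin.cons (e0 (ON.mul V U)) (fun j => rotL V.1 (ω j)) : Fin (k + 1) → EN N) j).2.2.2 =
      ((Fin.cons (e0 U) ω : Fin (k + 1) → EN N) j).2.2.2 := by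
  refine Fin.cases ?_ (fun j => ?_) j
  · simp only [Fin.cons_zero]; rfl
  · simp only [Fin.cons_succ]; rfl

private theorem TowRot_g1 (k : ℕ) (V U : ON N) (ω : Fin k → EN N) (j : Fin (k + 1)) :
    ((Fin.cons (e0 (ON.mul V U)) (fun j => rotL V.1 (ω j)) : Fin (k + 1) → EN N) j).2.1 =
      ((Fin.cons (e0 U) ω : Fin (k + 1) → EN N) j).2.1 := by
  refine Fin.cases ?_ (fun j => ?_) j
  · simp only [Fin.cons_zero]; rfl
  · simp only [Fin.cons_succ]; rfl

private theorem TowRot_g2 (k : ℕ) (V U : ON N) (ω : Fin k → EN N) (j : Fin (k + 1)) :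
    ((Fin.cons (e0 (ON.mul V U)) (fun j => rotL V.1 (ω j)) : Fin (k + 1) → EN N) j).2.2.1 =
      avec V.1 ((Fin.cons (e0 U) ω : Fin (k + 1) → EN N) j).2.2.1 := by
  refine Fin.cases ?_ (fun j => ?_) j
  · simp only [Fin.cons_zero]
    funext i
    simp [e0, avec]
  · simp only [Fin.cons_succ]; rfl

theorem yU_rot (k : ℕ) (V U : ON N) (ω : Fin k → EN N) :
    yU k (ON.mul V U) (fun j => rotL V.1 (ω j)) = avec V.1 (yU k U ω) := by
  funext a
  show rot (ON.mul V U) _ a = avec V.1 (fun a => rot U _ a) a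
  rw [TowRot_conf]
  exact TowRot_rot_mul V U _ a

theorem gU_rot (k : ℕ) (i : Fin k) (V U : ON N) (ω : Fin k → EN N) :
    gU k i (ON.mul V U) (fun j => rotL V.1 (ω j)) = avec V.1 (gU k i U ω) :=
  TowRot_g2 k V U ω i.castSucc

theorem sum_yU_sq (k : ℕ) (U : ON N) (ω : Fin k → EN N) : ∑ a, yU k U ω a ^ 2 = N :=
  sum_yv_sq k _

private theorem TowRot_HU_eq (k : ℕ) (θ : Par N K) (U : ON N) (ω : Fin k → EN N) :
    HU k θ U ω = (1 / 2) * ∑ a : Fin N, θ.e (θ.κ a) * yU k U ω a ^ 2 +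
      ∑ i : Fin k, θ.v i * ∑ r : Fin N,
        ((Fin.cons (e0 U) ω : Fin (k + 1) → EN N) i.castSucc).2.1 r *
          spin (((Fin.cons (e0 U) ω : Fin (k + 1) → EN N) (Fin.last k)).2.2.2 r) +
      ∑ i : Fin k, ∑ a : Fin N, θ.c i (θ.κ a) * gU k i U ω a * yU k U ω a +
      θ.B ((Fin.cons (e0 U) ω : Fin (k + 1) → EN N) (Fin.last k)).2.2.2 := rfl

/-- the Hamiltonian after a rotation -/
theorem HU_rot (k : ℕ) (θ : Par N K) (V U : ON N) (ω : Fin k → EN N) :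
    HU k θ (ON.mul V U) (fun j => rotL V.1 (ω j)) - HU k θ U ω =
      (1 / 2) * (∑ a, θ.e (θ.κ a) * avec V.1 (yU k U ω) a ^ 2 -
        ∑ a, θ.e (θ.κ a) * yU k U ω a ^ 2) +
      ∑ i : Fin k, (∑ a, θ.c i (θ.κ a) * avec V.1 (gU k i U ω) a * avec V.1 (yU k U ω) a -
        ∑ a, θ.c i (θ.κ a) * gU k i U ω a * yU k U ω a) := by
  rw [TowRot_HU_eq, TowRot_HU_eq]
  simp only [yU_rot, gU_rot, TowRot_conf, TowRot_g1]
  rw [Finset.sum_sub_distrib]
  ring

/-- block rotations do not change the Hamiltonian.  PROOF: `HU_rot`; the coefficients are constant on `S = {a | κ a = κ b}`, `Fixes.sum_mul`,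
`Fixes.avec_off`. -/
private theorem TowRot_block (κ : Fin N → Fin K) (d : Fin K → ℝ) (b : Fin N)
    {V : Fin N → Fin N → ℝ} (hV : Fixes (Finset.univ.filter (fun a => κ a = κ b)) V)
    (x y : Fin N → ℝ) :
    ∑ a, d (κ a) * avec V x a * avec V y a = ∑ a, d (κ a) * x a * y a := by
  rw [← Finset.sum_filter_add_sum_filter_not Finset.univ (fun a => κ a = κ b),
    ← Finset.sum_filter_add_sum_filter_not Finset.univ (fun a => κ a = κ b)
      (fun a => d (κ a) * x a * y a)]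
  congr 1
  · have h1 : ∀ z w : Fin N → ℝ, ∑ a ∈ Finset.univ.filter (fun a => κ a = κ b),
        d (κ a) * z a * w a = d (κ b) * ∑ a ∈ Finset.univ.filter (fun a => κ a = κ b),
          z a * w a := by
      intro z w
      rw [Finset.mul_sum]
      refine Finset.sum_congr rfl fun a ha => ?_
      rw [(Finset.mem_filter.1 ha).2, mul_assoc]
    rw [h1, h1, hV.sum_mul]
  · refine Finset.sum_congr rfl fun a ha => ?_
    have h2 : a ∉ Finset.univ.filter (fun a => κ a = κ b) := by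
      intro h
      exact (Finset.mem_filter.1 ha).2 (Finset.mem_filter.1 h).2
    rw [hV.avec_off x h2, hV.avec_off y h2]

theorem HU_block (k : ℕ) (θ : Par N K) (b : Fin N) (V U : ON N)
    (hV : Fixes (Finset.univ.filter (fun a => θ.κ a = θ.κ b)) V.1) (ω : Fin k → EN N) :
    HU k θ (ON.mul V U) (fun j => rotL V.1 (ω j)) = HU k θ U ω := by
  have h := HU_rot k θ V U ω
  have h1 := TowRot_block θ.κ θ.e b hV (yU k U ω) (yU k U ω)
  have h2 : ∀ i : Fin k, ∑ a, θ.c i (θ.κ a) * avec V.1 (gU k i U ω) a * avec V.1 (yU k U ω) a =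
      ∑ a, θ.c i (θ.κ a) * gU k i U ω a * yU k U ω a := fun i =>
    TowRot_block θ.κ (θ.c i) b hV (gU k i U ω) (yU k U ω)
  have h3 : ∑ a, θ.e (θ.κ a) * avec V.1 (yU k U ω) a ^ 2 =
      ∑ a, θ.e (θ.κ a) * yU k U ω a ^ 2 := by
    simpa only [pow_two, mul_assoc] using h1
  simp only [h2, h3, sub_self, Finset.sum_const_zero, mul_zero, add_zero] at h
  linarith

/-- effect of a reflection, `E`, `C_i` = `blk θ.κ θ.e`, `blk θ.κ (θ.c i)` -/
private theorem TowRot_refl_form (κ : Fin N → Fin K) (d : Fin K → ℝ) (q x y : Fin N → ℝ) :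
    ∑ a, d (κ a) * avec (refl q) x a * avec (refl q) y a - ∑ a, d (κ a) * x a * y a =
      -2 * ip q x * ip q (blk κ d y) - 2 * ip q y * ip q (blk κ d x) +
        4 * ip q x * ip q y * ip q (blk κ d q) := by
  rw [avec_refl, avec_refl, ← Finset.sum_sub_distrib]
  have h1 : ∀ z : Fin N → ℝ, ip q (blk κ d z) = ∑ a, d (κ a) * (q a * z a) := by
    intro z
    unfold ip blk
    refine Finset.sum_congr rfl fun a _ => by ring
  rw [h1, h1, h1, Finset.mul_sum, Finset.mul_sum, Finset.mul_sum, ← Finset.sum_sub_distrib,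
    ← Finset.sum_add_distrib]
  refine Finset.sum_congr rfl fun a _ => ?_
  ring

theorem HU_refl (k : ℕ) (θ : Par N K) {q : Fin N → ℝ} (hq : UZ q) (U : ON N) (ω : Fin k → EN N) :
    HU k θ (ON.mul (ON.refl q) U) (fun j => rotL (refl q) (ω j)) - HU k θ U ω =
      -2 * ip q (yU k U ω) * ip q (blk θ.κ θ.e (yU k U ω)) +
        2 * ip q (yU k U ω) ^ 2 * ip q (blk θ.κ θ.e q) +
      ∑ i : Fin k, (-2 * ip q (gU k i U ω) * ip q (blk θ.κ (θ.c i) (yU k U ω)) -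
        2 * ip q (yU k U ω) * ip q (blk θ.κ (θ.c i) (gU k i U ω)) +
        4 * ip q (gU k i U ω) * ip q (yU k U ω) * ip q (blk θ.κ (θ.c i) q)) := by
  have h := HU_rot k θ (ON.refl q) U ω
  rw [ON.refl_val hq] at h
  rw [h]
  congr 1
  · have h1 := TowRot_refl_form θ.κ θ.e q (yU k U ω) (yU k U ω)
    have h2 : ∀ z : Fin N → ℝ, ∑ a, θ.e (θ.κ a) * z a ^ 2 =
        ∑ a, θ.e (θ.κ a) * z a * z a := by
      intro z
      refine Finset.sum_congr rfl fun a _ => by ring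
    rw [h2, h2, h1]
    ring
  · exact Finset.sum_congr rfl fun i _ => TowRot_refl_form θ.κ (θ.c i) q (gU k i U ω) (yU k U ω)

/-- bounding function for the square -/
noncomputable def bdT (D : ℝ) (k : ℕ) (θ : Par N K) (q : Fin N → ℝ) (U : ON N)
    (ω : Fin k → EN N) : ℝ :=
  (2 + 4 * (k : ℝ)) * ((1 + 2 * D) ^ 2 * ip q (yU k U ω) ^ 4 +
    ip q (blk θ.κ θ.e (yU k U ω)) ^ 4 +
    ∑ i : Fin k, ((1 + 2 * D) ^ 2 * ip q (gU k i U ω) ^ 4 +
      ip q (blk θ.κ (θ.c i) (yU k U ω)) ^ 4 + (1 + 2 * D) ^ 2 * ip q (yU k U ω) ^ 4 +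
      ip q (blk θ.κ (θ.c i) (gU k i U ω)) ^ 4))

private theorem TowRot_qEq (κ : Fin N → Fin K) (d : Fin K → ℝ) {D : ℝ} (hD0 : 0 ≤ D)
    (hd : ∀ l, |d l| ≤ D) {q : Fin N → ℝ} (hq : UZ q) : |ip q (blk κ d q)| ≤ D := by
  have hq1 : ip q q ≤ 1 := by
    rcases hq with h | h
    · exact h.le
    · rw [h]; simp [ip]
  calc |ip q (blk κ d q)| ≤ ∑ a, |q a * blk κ d q a| := Finset.abs_sum_le_sum_abs _ _
    _ ≤ ∑ a, D * (q a * q a) := by
        refine Finset.sum_le_sum fun a _ => ?_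
        unfold blk
        rw [abs_mul, abs_mul]
        have h1 := hd (κ a)
        have h2 : |q a| * |q a| = q a * q a := abs_mul_abs_self _
        calc |q a| * (|d (κ a)| * |q a|) = |d (κ a)| * (|q a| * |q a|) := by ring
          _ ≤ D * (q a * q a) := by
            rw [h2]
            exact mul_le_mul_of_nonneg_right h1 (mul_self_nonneg _)
    _ = D * ip q q := by rw [← Finset.mul_sum]; rfl
    _ ≤ D * 1 := mul_le_mul_of_nonneg_left hq1 hD0
    _ = D := mul_one D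

private theorem TowRot_r1 {D A B Q : ℝ} (hQb : |Q| ≤ D) :
    |-2 * A * B + 2 * A ^ 2 * Q| ≤ (1 + 2 * D) * A ^ 2 + B ^ 2 := by
  have hQ1 := abs_le.1 hQb
  have m1 := mul_nonneg (sq_nonneg A) (by linarith [hQ1.1] : 0 ≤ D + Q)
  have m2 := mul_nonneg (sq_nonneg A) (by linarith [hQ1.2] : 0 ≤ D - Q)
  have s1 := sq_nonneg (A - B)
  have s2 := sq_nonneg (A + B)
  rw [abs_le]
  constructor <;> nlinarith

private theorem TowRot_r2 {D A g b c r : ℝ} (hr : |r| ≤ D) :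
    |-2 * g * b - 2 * A * c + 4 * g * A * r| ≤
      ((1 + 2 * D) * g ^ 2 + b ^ 2) + ((1 + 2 * D) * A ^ 2 + c ^ 2) := by
  have hr1 := abs_le.1 hr
  have m1 := mul_nonneg (sq_nonneg (g + A)) (by linarith [hr1.1] : 0 ≤ D + r)
  have m2 := mul_nonneg (sq_nonneg (g + A)) (by linarith [hr1.2] : 0 ≤ D - r)
  have m3 := mul_nonneg (sq_nonneg (g - A)) (by linarith [hr1.1] : 0 ≤ D + r)
  have m4 := mul_nonneg (sq_nonneg (g - A)) (by linarith [hr1.2] : 0 ≤ D - r)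
  have s1 := sq_nonneg (g - b)
  have s2 := sq_nonneg (g + b)
  have s3 := sq_nonneg (A - c)
  have s4 := sq_nonneg (A + c)
  rw [abs_le]
  constructor <;> nlinarith

private theorem TowRot_r4 (x1 x2 x3 x4 : ℝ) : (x1 + x2 + (x3 + x4)) ^ 2 ≤
    4 * (x1 ^ 2 + x2 ^ 2 + x3 ^ 2 + x4 ^ 2) := by
  nlinarith [sq_nonneg (x1 - x2), sq_nonneg (x1 - x3), sq_nonneg (x1 - x4),
    sq_nonneg (x2 - x3), sq_nonneg (x2 - x4), sq_nonneg (x3 - x4)]

private theorem TowRot_r5 {x z t k' : ℝ} (hk : 0 ≤ k') (ht : t ^ 2 ≤ (4 * k') * z) (hz : 0 ≤ z) :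
    (x + t) ^ 2 ≤ (2 + 4 * k') * (x ^ 2 / 2 + z) := by
  rcases eq_or_lt_of_le hk with hk0 | hk0
  · have ht0 : t = 0 := by
      have : t ^ 2 ≤ 0 := by rw [← hk0] at ht; linarith
      exact pow_eq_zero_iff (two_ne_zero) |>.1 (le_antisymm this (sq_nonneg _))
    rw [ht0, ← hk0]
    nlinarith
  · have e1 : (x + t) ^ 2 ≤ (1 + 2 * k') * x ^ 2 + (1 + 1 / (2 * k')) * t ^ 2 := by
      have e2 : 2 * x * t ≤ 2 * k' * x ^ 2 + 1 / (2 * k') * t ^ 2 := by
        have e3 : 0 ≤ (1 / (2 * k')) * (2 * k' * x - t) ^ 2 := by positivity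
        have e4 : (1 / (2 * k')) * (2 * k' * x - t) ^ 2 =
            2 * k' * x ^ 2 - 2 * x * t + 1 / (2 * k') * t ^ 2 := by
          field_simp
          ring
        linarith
      nlinarith
    have e5 : (1 + 1 / (2 * k')) * t ^ 2 ≤ (1 + 1 / (2 * k')) * ((4 * k') * z) :=
      mul_le_mul_of_nonneg_left ht (by positivity)
    have e6 : (1 + 1 / (2 * k')) * ((4 * k') * z) = (2 + 4 * k') * z := by
      field_simp
      ring
    nlinarith

/-- the bound in terms of real numbers -/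
private theorem TowRot_sq (k : ℕ) {D : ℝ} (hD0 : 0 ≤ D) {A B Q : ℝ} (hQb : |Q| ≤ D)
    (g b c r : Fin k → ℝ) (hrb : ∀ i, |r i| ≤ D) :
    ((-2 * A * B + 2 * A ^ 2 * Q) +
      ∑ i, (-2 * g i * b i - 2 * A * c i + 4 * g i * A * r i)) ^ 2 ≤
    (2 + 4 * (k : ℝ)) * ((1 + 2 * D) ^ 2 * A ^ 4 + B ^ 4 +
      ∑ i : Fin k, ((1 + 2 * D) ^ 2 * g i ^ 4 + b i ^ 4 + (1 + 2 * D) ^ 2 * A ^ 4 + c i ^ 4)) := by
  obtain ⟨S, hS⟩ : ∃ S : ℝ, S = ∑ i, (-2 * g i * b i - 2 * A * c i + 4 * g i * A * r i) :=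
    ⟨_, rfl⟩
  obtain ⟨T, hT⟩ : ∃ T : ℝ, T =
      ∑ i, (((1 + 2 * D) * g i ^ 2 + b i ^ 2) + ((1 + 2 * D) * A ^ 2 + c i ^ 2)) := ⟨_, rfl⟩
  obtain ⟨Z, hZ⟩ : ∃ Z : ℝ, Z = ∑ i : Fin k, ((1 + 2 * D) ^ 2 * g i ^ 4 + b i ^ 4 +
      (1 + 2 * D) ^ 2 * A ^ 4 + c i ^ 4) := ⟨_, rfl⟩
  have h3 : |S| ≤ T := by
    rw [hS, hT]
    exact (Finset.abs_sum_le_sum_abs _ _).trans (Finset.sum_le_sum fun i _ => TowRot_r2 (hrb i))
  have h4 : |(-2 * A * B + 2 * A ^ 2 * Q) + S| ≤ ((1 + 2 * D) * A ^ 2 + B ^ 2) + T :=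
    (abs_add_le _ _).trans (add_le_add (TowRot_r1 hQb) h3)
  have h5 : ((-2 * A * B + 2 * A ^ 2 * Q) + S) ^ 2 ≤ (((1 + 2 * D) * A ^ 2 + B ^ 2) + T) ^ 2 := by
    rw [← sq_abs]
    exact pow_le_pow_left₀ (abs_nonneg _) h4 2
  have hCS : T ^ 2 ≤ (4 * (k : ℝ)) * Z := by
    have e1 := Finset.sum_mul_sq_le_sq_mul_sq Finset.univ (fun _ : Fin k => (1 : ℝ))
      (fun i => (((1 + 2 * D) * g i ^ 2 + b i ^ 2) + ((1 + 2 * D) * A ^ 2 + c i ^ 2)))
    simp only [one_mul, one_pow, Finset.sum_const, Finset.card_univ, Fintype.card_fin,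
      nsmul_eq_mul, mul_one] at e1
    rw [hT]
    refine e1.trans ?_
    rw [mul_comm (4 : ℝ) (k : ℝ), mul_assoc]
    refine mul_le_mul_of_nonneg_left ?_ (Nat.cast_nonneg k)
    rw [hZ, Finset.mul_sum]
    refine Finset.sum_le_sum fun i _ => ?_
    refine (TowRot_r4 _ _ _ _).trans (le_of_eq ?_)
    ring
  have hz : 0 ≤ Z := by
    rw [hZ]
    exact Finset.sum_nonneg fun i _ => by positivity
  have h6 := TowRot_r5 (x := (1 + 2 * D) * A ^ 2 + B ^ 2) (Nat.cast_nonneg k) hCS hz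
  rw [← hS, ← hZ]
  refine (h5.trans h6).trans ?_
  refine mul_le_mul_of_nonneg_left ?_ (by positivity)
  have h7 : ((1 + 2 * D) * A ^ 2 + B ^ 2) ^ 2 / 2 ≤ (1 + 2 * D) ^ 2 * A ^ 4 + B ^ 4 := by
    nlinarith [sq_nonneg ((1 + 2 * D) * A ^ 2 - B ^ 2)]
  exact add_le_add h7 le_rfl

/-- PROOF.  `|<q, E q>| ≤ D`, `2|uv| ≤ u² + v²`: the difference is at most
`(1+2D)<q,y>² + <q,Ey>² + Σ_i ((1+2D)<q,g_i>² + <q,C_i y>² + (1+2D)<q,y>² + <q,C_i g_i>²)`, a sum of `2 + 4k` terms; Cauchy-Schwarz. -/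
theorem HU_refl_sq (k : ℕ) (θ : Par N K) {D : ℝ} (hD0 : 0 ≤ D) (he : ∀ l, |θ.e l| ≤ D)
    (hc : ∀ (i : ℕ) l, |θ.c i l| ≤ D) {q : Fin N → ℝ} (hq : UZ q) (U : ON N) (ω : Fin k → EN N) :
    (HU k θ (ON.mul (ON.refl q) U) (fun j => rotL (refl q) (ω j)) - HU k θ U ω) ^ 2 ≤
      bdT D k θ q U ω := by
  rw [HU_refl k θ hq U ω]
  exact TowRot_sq k hD0 (TowRot_qEq θ.κ θ.e hD0 he hq)
    (fun i => ip q (gU k i U ω)) (fun i => ip q (blk θ.κ (θ.c i) (yU k U ω)))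
    (fun i => ip q (blk θ.κ (θ.c i) (gU k i U ω))) (fun i => ip q (blk θ.κ (θ.c i) q))
    (fun i => TowRot_qEq θ.κ (θ.c i) hD0 (hc i) hq)

end Crest.Agent.RI
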