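import Mathlib

/-!
# Row 164, the tower (blueprint Part 1)

Abstract nested free energy over a probability space `(E, m)`: levels `i, i+1, …, i+n-1` with
exponents `ζ i, …`.  In the applications there are `k + 1` levels `0, …, k`, the last one (`k`) is the
leaf (it carries the spin configuration) with `ζ k = 1`.  All levels use the SAME space `E`
(product of orthogonal matrix, Gaussian vectors, configuration); `H` only looks at the components it
needs.
-/

set_option autoImplicit false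

namespace Crest.Agent.RI

open MeasureTheory

variable {E : Type*} [MeasurableSpace E]

/-- One level: `ζ⁻¹ log ∫ exp (ζ f)`, plain integral for `ζ = 0`. -/
noncomputable def TT (m : Measure E) (ζ : ℝ) (f : E → ℝ) : ℝ :=
  if ζ = 0 then ∫ e, f e ∂m else ζ⁻¹ * Real.log (∫ e, Real.exp (ζ * f e) ∂m)

/-- Nested functional of the levels `i, …, i+n-1`. -/
noncomputable def nest (m : Measure E) (ζ : ℕ → ℝ) : (n i : ℕ) → ((Fin n → E) → ℝ) → ℝ
  | 0, _, H => H Fin.elim0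
  | n + 1, i, H => TT m (ζ i) (fun e => nest m ζ n (i + 1) (fun ω => H (Fin.cons e ω)))

/-- Weight of the first level. -/
noncomputable def wgt (m : Measure E) (ζ : ℕ → ℝ) (n i : ℕ) (H : (Fin (n + 1) → E) → ℝ) (e : E) : ℝ :=
  Real.exp (ζ i * (nest m ζ n (i + 1) (fun ω => H (Fin.cons e ω)) - nest m ζ (n + 1) i H))

/-- Path expectation `E_Q`. -/
noncomputable def pathE (m : Measure E) (ζ : ℕ → ℝ) :
    (n i : ℕ) → ((Fin n → E) → ℝ) → ((Fin n → E) → ℝ) → ℝ
  | 0, _, _, Φ => Φ Fin.elim0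
  | n + 1, i, H, Φ => ∫ e, wgt m ζ n i H e *
      pathE m ζ n (i + 1) (fun ω => H (Fin.cons e ω)) (fun ω => Φ (Fin.cons e ω)) ∂m

/-- Conditional expectation given the first `r` coordinates. (`V_{j}` of the blueprint is `r = j+1`.) -/
noncomputable def condE (m : Measure E) (ζ : ℕ → ℝ) :
    (r n i : ℕ) → ((Fin n → E) → ℝ) → ((Fin n → E) → ℝ) → (Fin n → E) → ℝ
  | 0, n, i, H, Φ, _ => pathE m ζ n i H Φ
  | _ + 1, 0, _, _, Φ, ω => Φ ω
  | r + 1, n + 1, i, H, Φ, ω =>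
      condE m ζ r n (i + 1) (fun ω' => H (Fin.cons (ω 0) ω')) (fun ω' => Φ (Fin.cons (ω 0) ω'))
        (Fin.tail ω)

/-- Pair expectation: the two paths share the first `r` coordinates and are then independent.
("split at level `i`" of the blueprint is `r = i+1`.) -/
noncomputable def pairE (m : Measure E) (ζ : ℕ → ℝ) :
    (r n i : ℕ) → ((Fin n → E) → ℝ) → ((Fin n → E) → (Fin n → E) → ℝ) → ℝ
  | 0, n, i, H, Φ => pathE m ζ n i H (fun ω => pathE m ζ n i H (fun ω' => Φ ω ω'))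
  | _ + 1, 0, _, _, Φ => Φ Fin.elim0 Fin.elim0
  | r + 1, n + 1, i, H, Φ => ∫ e, wgt m ζ n i H e *
      pairE m ζ r n (i + 1) (fun ω => H (Fin.cons e ω))
        (fun ω ω' => Φ (Fin.cons e ω) (Fin.cons e ω')) ∂m

/-- The score of a perturbation `V` of `H`: `Σ_j ζ_j (V_j - V_{j-1})`. -/
noncomputable def score (m : Measure E) (ζ : ℕ → ℝ) (n i : ℕ) (H V : (Fin n → E) → ℝ)
    (ω : Fin n → E) : ℝ :=
  ∑ j ∈ Finset.range n, ζ (i + j) * (condE m ζ (j + 1) n i H V ω - condE m ζ j n i H V ω)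

/-- The score of a pair sharing the first `r` coordinates. -/
noncomputable def score2 (m : Measure E) (ζ : ℕ → ℝ) (r n i : ℕ) (H V : (Fin n → E) → ℝ)
    (ω ω' : Fin n → E) : ℝ :=
  ∑ j ∈ Finset.range n, ζ (i + j) * ((condE m ζ (j + 1) n i H V ω - condE m ζ j n i H V ω) +
    (if r ≤ j then condE m ζ (j + 1) n i H V ω' - condE m ζ j n i H V ω' else 0))

/-- (VAR) `Σ_j ζ_j E_Q (V_j - V_{j-1})²` -/
noncomputable def Jvar (m : Measure E) (ζ : ℕ → ℝ) (n i : ℕ) (H V : (Fin n → E) → ℝ) : ℝ :=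
  ∑ j ∈ Finset.range n, ζ (i + j) * pathE m ζ n i H
    (fun ω => (condE m ζ (j + 1) n i H V ω - condE m ζ j n i H V ω) ^ 2)

/-- Dominating function with all exponential moments. -/
structure Dom (m : Measure E) (β : E → ℝ) : Prop where
  meas : Measurable β
  nonneg : ∀ e, 0 ≤ β e
  int : ∀ c : ℝ, Integrable (fun e => Real.exp (c * β e)) m

/-- `Φ` is measurable and `|Φ| ≤ C exp (C Σ β)`, explicit constant. -/
structure TameC (C : ℝ) (β : E → ℝ) {n : ℕ} (Φ : (Fin n → E) → ℝ) : Prop where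
  meas : Measurable Φ
  bound : ∀ ω, |Φ ω| ≤ C * Real.exp (C * ∑ i, β (ω i))

/-- Admissible Hamiltonian with explicit constant. -/
structure HamC (C : ℝ) (β : E → ℝ) {n : ℕ} (H : (Fin n → E) → ℝ) : Prop where
  meas : Measurable H
  bound : ∀ ω, |H ω| ≤ C * (1 + ∑ i, β (ω i))

/-- `Φ` is measurable and `|Φ| ≤ C exp (C Σ β)`. -/
structure Tame (β : E → ℝ) {n : ℕ} (Φ : (Fin n → E) → ℝ) : Prop where
  meas : Measurable Φ
  bound : ∃ C : ℝ, 0 ≤ C ∧ ∀ ω, |Φ ω| ≤ C * Real.exp (C * ∑ i, β (ω i))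

/-- Tame functions of a pair of paths. -/
structure Tame2 (β : E → ℝ) {n : ℕ} (Φ : (Fin n → E) → (Fin n → E) → ℝ) : Prop where
  meas : Measurable (Function.uncurry Φ)
  bound : ∃ C : ℝ, 0 ≤ C ∧ ∀ ω ω', |Φ ω ω'| ≤ C * Real.exp (C * ∑ i, (β (ω i) + β (ω' i)))

/-- Tame functions of a pair of paths, explicit constant. -/
structure Tame2C (C : ℝ) (β : E → ℝ) {n : ℕ} (Φ : (Fin n → E) → (Fin n → E) → ℝ) : Prop where
  meas : Measurable (Function.uncurry Φ)
  bound : ∀ ω ω', |Φ ω ω'| ≤ C * Real.exp (C * ∑ i, (β (ω i) + β (ω' i)))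

/-- Admissible Hamiltonian: measurable, `|H| ≤ C (1 + Σ β)`. -/
structure Ham (β : E → ℝ) {n : ℕ} (H : (Fin n → E) → ℝ) : Prop where
  meas : Measurable H
  bound : ∃ C : ℝ, 0 ≤ C ∧ ∀ ω, |H ω| ≤ C * (1 + ∑ i, β (ω i))

/-- Admissible exponents: `0 ≤ ζ ≤ 1`. -/
def Exps (ζ : ℕ → ℝ) : Prop := ∀ i, 0 ≤ ζ i ∧ ζ i ≤ 1

/-- A Gaussian coordinate of the level space: `g e` its value, `set e t` replaces it by `t`. -/
structure GCoord (m : Measure E) (β : E → ℝ) (g : E → ℝ) (set : E → ℝ → E) : Prop where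
  gm : Measurable g
  sm : Measurable (Function.uncurry set)
  g_set : ∀ e t, g (set e t) = t
  set_g : ∀ e, set e (g e) = e
  set_set : ∀ e t t', set (set e t) t' = set e t'
  law : (m.prod (ProbabilityTheory.gaussianReal 0 1)).map (Function.uncurry set) = m
  bd : ∃ c : ℝ, 0 ≤ c ∧ (∀ e, |g e| ≤ c * (1 + β e)) ∧ ∀ e t, β (set e t) ≤ β e + c * |t|

end Crest.Agent.RI
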