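import Crest.Agent.RI.UBIface
import Crest.Agent.RI.TConvA

/-!
# Row 164, Part 6, chunk UBAff (medium): continuity in the parameters (a finite convex function on `ℝ^n`
is continuous)
-/

set_option autoImplicit false

namespace Crest.Agent.RI

open MeasureTheory ProbabilityTheory
open Crest.ProbabilityR.InvariantGlass

section abs
variable {E : Type} [MeasurableSpace E] {m : Measure E} [IsProbabilityMeasure m] {ζ : ℕ → ℝ}
  {β : E → ℝ}

private theorem UBAff_ham_sum (hβ : Dom m β) {n : ℕ} {ι : Type*} (s : Finset ι)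
    {V : ι → (Fin n → E) → ℝ} (hV : ∀ j, Ham β (V j)) (z : ι → ℝ) :
    Ham β (fun ω => ∑ j ∈ s, z j * V j ω) :=
  Ham.sum hβ.nonneg s (fun j _ => Ham.const_mul (z j) (hV j))

private theorem UBAff_convex (hβ : Dom m β) (hζ : Exps ζ) (n i : ℕ) {ι : Type*} [Fintype ι]
    {H0 : (Fin n → E) → ℝ} {V : ι → (Fin n → E) → ℝ} (hH : Ham β H0) (hV : ∀ j, Ham β (V j)) :
    ConvexOn ℝ Set.univ
      (fun z : ι → ℝ => nest m ζ n i (fun ω => H0 ω + ∑ j, z j * V j ω)) := by
  refine ⟨convex_univ, ?_⟩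
  intro z1 _ z2 _ a b ha hb hab
  set z : ι → ℝ := a • z1 + b • z2 with hz
  have hHz : Ham β (fun ω => H0 ω + ∑ j, z j * V j ω) :=
    Ham.add hβ hH (UBAff_ham_sum hβ Finset.univ hV z)
  have hU : ∀ y : ι → ℝ, Ham β (fun ω => ∑ j, (y j - z j) * V j ω) :=
    fun y => UBAff_ham_sum hβ Finset.univ hV (fun j => y j - z j)
  have key : ∀ y : ι → ℝ,
      nest m ζ n i (fun ω => H0 ω + ∑ j, z j * V j ω) +
        pathE m ζ n i (fun ω => H0 ω + ∑ j, z j * V j ω) (fun ω => ∑ j, (y j - z j) * V j ω) ≤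
      nest m ζ n i (fun ω => H0 ω + ∑ j, y j * V j ω) := by
    intro y
    have h := nest_tangent hβ hζ n i hHz (hU y)
    have e : (fun ω => (H0 ω + ∑ j, z j * V j ω) + ∑ j, (y j - z j) * V j ω) =
        fun ω => H0 ω + ∑ j, y j * V j ω := by
      funext ω
      rw [add_assoc, ← Finset.sum_add_distrib]
      congr 1
      refine Finset.sum_congr rfl fun j _ => ?_
      ring
    rw [e] at h
    exact h
  have h1 := key z1
  have h2 := key z2
  have hsum : a * pathE m ζ n i (fun ω => H0 ω + ∑ j, z j * V j ω)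
        (fun ω => ∑ j, (z1 j - z j) * V j ω) +
      b * pathE m ζ n i (fun ω => H0 ω + ∑ j, z j * V j ω)
        (fun ω => ∑ j, (z2 j - z j) * V j ω) = 0 := by
    rw [← pathE_mul n i _ _ a, ← pathE_mul n i _ _ b,
      ← pathE_add hβ hζ n i hHz (Ham.tame hβ (Ham.const_mul a (hU z1)))
        (Ham.tame hβ (Ham.const_mul b (hU z2)))]
    have e0 : (fun ω : Fin n → E => a * (∑ j, (z1 j - z j) * V j ω) +
        b * ∑ j, (z2 j - z j) * V j ω) = fun _ => 0 := by
      funext ω
      rw [Finset.mul_sum, Finset.mul_sum, ← Finset.sum_add_distrib]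
      refine Finset.sum_eq_zero fun j _ => ?_
      have : z j = a * z1 j + b * z2 j := by
        rw [hz]; simp
      rw [this]
      have hb' : b = 1 - a := by linarith
      rw [hb']
      ring
    rw [e0]
    exact pathE_const hβ hζ n i hHz 0
  have e3 : nest m ζ n i (fun ω => H0 ω + ∑ j, z j * V j ω) =
      a * nest m ζ n i (fun ω => H0 ω + ∑ j, z j * V j ω) +
        b * nest m ζ n i (fun ω => H0 ω + ∑ j, z j * V j ω) := by
    rw [← add_mul, hab, one_mul]
  have h1' := mul_le_mul_of_nonneg_left h1 ha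
  have h2' := mul_le_mul_of_nonneg_left h2 hb
  simp only [smul_eq_mul]
  linarith

/-- PROOF. Convex: for `z = λ z1 + μ z2`, `nest_tangent` at `H_z` with `U = H_{z1} - H_z` and `U = H_{z2} - H_z`
(affine in `z`), multiply by `λ, μ`, add: the `pathE` terms cancel (linearity of `pathE`). Then
`ConvexOn.continuousOn` on `univ` (finite dimension). -/
theorem nest_affine_continuous (hβ : Dom m β) (hζ : Exps ζ) (n i : ℕ) {ι : Type*} [Fintype ι]
    {H0 : (Fin n → E) → ℝ} {V : ι → (Fin n → E) → ℝ} (hH : Ham β H0) (hV : ∀ j, Ham β (V j)) :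
    Continuous (fun z : ι → ℝ => nest m ζ n i (fun ω => H0 ω + ∑ j, z j * V j ω)) := by
  have h := (UBAff_convex hβ hζ n i hH hV).continuousOn_interior
  rw [interior_univ] at h
  exact continuousOn_univ.1 h

end abs

variable {N K : ℕ} {P : Measure (ON N)} {A : Measure (Fin N → Bool)}

/-- the coordinates of the parameter -/
private def UBAff_phi (k K : ℕ) (z : ZU k K) : Fin k ⊕ (Fin K ⊕ (Fin k × Fin K)) → ℝ :=
  Sum.elim z.1 (Sum.elim z.2.1 (fun p => z.2.2 p.1 p.2))

private theorem UBAff_phi_continuous (k K : ℕ) : Continuous (UBAff_phi k K) := by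
  refine continuous_pi fun j => ?_
  rcases j with i | l | p
  · exact (continuous_apply i).comp continuous_fst
  · exact (continuous_apply l).comp (continuous_fst.comp continuous_snd)
  · exact (continuous_apply p.2).comp ((continuous_apply p.1).comp
      (continuous_snd.comp continuous_snd))

private noncomputable def UBAff_V (κ : Fin N → Fin K) (k : ℕ) (s : ℝ) :
    Fin k ⊕ (Fin K ⊕ (Fin k × Fin K)) → (Fin (k + 1) → EN N) → ℝ :=
  Sum.elim (fun i => gs k i) (Sum.elim (fun l ω => (s / 2 * N) * ovl k κ l ω ω)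
    (fun p ω => (if (p.1 : ℕ) = 0 then 0 else s * N) * gy k κ p.1 p.2 ω))

private theorem UBAff_V_ham (κ : Fin N → Fin K) (k : ℕ) (s : ℝ)
    (j : Fin k ⊕ (Fin K ⊕ (Fin k × Fin K))) : Ham (βN (N := N)) (UBAff_V κ k s j) := by
  rcases j with i | l | p
  · exact ham_gs k i
  · exact Ham.const_mul _ (ham_ovl_self k κ l)
  · exact Ham.const_mul _ (ham_gy k κ p.1 p.2)

private theorem UBAff_sum_label (κ : Fin N → Fin K) (x : Fin K → ℝ) (f : Fin N → ℝ) :
    ∑ l, x l * ∑ a, (if κ a = l then f a else 0) = ∑ a, x (κ a) * f a := by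
  simp_rw [Finset.mul_sum]
  rw [Finset.sum_comm]
  refine Finset.sum_congr rfl fun a _ => ?_
  simp

private theorem UBAff_HN (hN : 0 < N) (κ : Fin N → Fin K)
    (d : Fin K → ℝ) (k : ℕ) (s t : ℝ) (z : ZU k K) (ω : Fin (k + 1) → EN N) :
    HN k (θU κ d k s t z) ω = HN k (θU κ d k s t 0) ω +
      ∑ j, UBAff_phi k K z j * UBAff_V κ k s j ω := by
  have hN' : (N : ℝ) ≠ 0 := by exact_mod_cast hN.ne'
  rw [Fintype.sum_sum_type, Fintype.sum_sum_type, Fintype.sum_prod_type]
  have e1 : ∑ i : Fin k, UBAff_phi k K z (Sum.inl i) * UBAff_V κ k s (Sum.inl i) ω =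
      ∑ i : Fin k, (θU κ d k s t z).v i *
        ∑ r : Fin N, (ω i.castSucc).2.1 r * spin ((ω (Fin.last k)).2.2.2 r) := by
    refine Finset.sum_congr rfl fun i _ => ?_
    simp only [UBAff_phi, UBAff_V, Sum.elim_inl, θU, gs, i.2, dif_pos, Fin.eta]
  have e2 : ∑ l : Fin K, UBAff_phi k K z (Sum.inr (Sum.inl l)) *
        UBAff_V κ k s (Sum.inr (Sum.inl l)) ω =
      (1 / 2) * ∑ a : Fin N, (s * z.2.1 (κ a)) * yv k ω a ^ 2 := by
    have h := UBAff_sum_label κ (fun l => s / 2 * z.2.1 l) (fun a => yv k ω a * yv k ω a)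
    have h2 : ∑ l : Fin K, UBAff_phi k K z (Sum.inr (Sum.inl l)) *
        UBAff_V κ k s (Sum.inr (Sum.inl l)) ω =
        ∑ l, (s / 2 * z.2.1 l) * ∑ a, (if κ a = l then yv k ω a * yv k ω a else 0) := by
      refine Finset.sum_congr rfl fun l _ => ?_
      simp only [UBAff_phi, UBAff_V, Sum.elim_inl, Sum.elim_inr, ovl]
      field_simp
    rw [h2, h, Finset.mul_sum]
    refine Finset.sum_congr rfl fun a _ => ?_
    ring
  have e3 : ∑ i : Fin k, ∑ l : Fin K, UBAff_phi k K z (Sum.inr (Sum.inr (i, l))) *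
        UBAff_V κ k s (Sum.inr (Sum.inr (i, l))) ω =
      ∑ i : Fin k, ∑ a : Fin N, (θU κ d k s t z).c i (κ a) * (ω i.castSucc).2.2.1 a *
        yv k ω a := by
    refine Finset.sum_congr rfl fun i _ => ?_
    have h := UBAff_sum_label κ (fun l => (if (i : ℕ) = 0 then 0 else s * z.2.2 i l))
      (fun a => (ω i.castSucc).2.2.1 a * yv k ω a)
    have h2 : ∑ l : Fin K, UBAff_phi k K z (Sum.inr (Sum.inr (i, l))) *
        UBAff_V κ k s (Sum.inr (Sum.inr (i, l))) ω =
        ∑ l, (if (i : ℕ) = 0 then 0 else s * z.2.2 i l) *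
          ∑ a, (if κ a = l then (ω i.castSucc).2.2.1 a * yv k ω a else 0) := by
      refine Finset.sum_congr rfl fun l _ => ?_
      simp only [UBAff_phi, UBAff_V, Sum.elim_inr, gy]
      by_cases h0 : (i : ℕ) = 0
      · simp [h0]
      · simp only [h0, if_false]
        field_simp
    rw [h2, h]
    refine Finset.sum_congr rfl fun a _ => ?_
    simp only [θU, i.2, dif_pos, Fin.eta]
    ring
  rw [e1, e2, e3]
  have z1 : ∑ i : Fin k, (θU κ d k s t (0 : ZU k K)).v i *
        ∑ r : Fin N, (ω i.castSucc).2.1 r * spin ((ω (Fin.last k)).2.2.2 r) = 0 := by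
    refine Finset.sum_eq_zero fun i _ => ?_
    simp [θU]
  have z3 : ∑ i : Fin k, ∑ a : Fin N, (θU κ d k s t (0 : ZU k K)).c i (κ a) *
        (ω i.castSucc).2.2.1 a * yv k ω a = 0 := by
    refine Finset.sum_eq_zero fun i _ => Finset.sum_eq_zero fun a _ => ?_
    simp [θU]
  have hd0 : HN k (θU κ d k s t 0) ω = (1 / 2) * ∑ a : Fin N, (t * d (κ a)) * yv k ω a ^ 2 := by
    unfold HN
    have hk : (θU κ d k s t (0 : ZU k K)).κ = κ := rfl
    have hB : (θU κ d k s t (0 : ZU k K)).B (ω (Fin.last k)).2.2.2 = 0 := rfl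
    rw [hk, z1, z3, hB, add_zero, add_zero, add_zero]
    congr 1
    refine Finset.sum_congr rfl fun a _ => ?_
    simp [θU]
  have hdz : HN k (θU κ d k s t z) ω = (1 / 2) * ∑ a : Fin N, (t * d (κ a)) * yv k ω a ^ 2 +
      (1 / 2) * ∑ a : Fin N, (s * z.2.1 (κ a)) * yv k ω a ^ 2 +
      ∑ i : Fin k, (θU κ d k s t z).v i *
        ∑ r : Fin N, (ω i.castSucc).2.1 r * spin ((ω (Fin.last k)).2.2.2 r) +
      ∑ i : Fin k, ∑ a : Fin N, (θU κ d k s t z).c i (κ a) * (ω i.castSucc).2.2.1 a *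
        yv k ω a := by
    unfold HN
    have hk : (θU κ d k s t z).κ = κ := rfl
    have hB : (θU κ d k s t z).B (ω (Fin.last k)).2.2.2 = 0 := rfl
    rw [hk, hB, add_zero, ← mul_add, ← Finset.sum_add_distrib]
    congr 3
    refine Finset.sum_congr rfl fun a _ => ?_
    simp only [θU]
    ring
  rw [hd0, hdz]
  ring

/-- PROOF. `nest_affine_continuous` with `ι = Fin k ⊕ Fin K ⊕ (Fin k × Fin K)`, `V` = `gs k i`,
`ω ↦ s * (1/2) * N * ovl k κ l ω ω`, `ω ↦ s * N * gy k κ i l ω` (`0` for `i = 0`); compose with the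
continuous map `ZU k K → (ι → ℝ)`. -/
theorem fU_continuous (hN : 0 < N) (hP : HaarO P) [IsProbabilityMeasure A] (κ : Fin N → Fin K)
    (d : Fin K → ℝ) (k : ℕ) (s t : ℝ) : Continuous (fU P A κ d k s t) := by
  have := prob_mN hP A
  have h1 := nest_affine_continuous (dom_mN hP A) (exps_UB k) (k + 1) 0
    (HN_ham k (θU κ d k s t (0 : ZU k K))) (UBAff_V_ham κ k s)
  have h2 := h1.comp (UBAff_phi_continuous k K)
  have h3 : (fun z : ZU k K => nest (mN P A) (ζUB k) (k + 1) 0 (HN k (θU κ d k s t z))) =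
      (fun y : Fin k ⊕ (Fin K ⊕ (Fin k × Fin K)) → ℝ => nest (mN P A) (ζUB k) (k + 1) 0
        (fun ω => HN k (θU κ d k s t 0) ω + ∑ j, y j * UBAff_V κ k s j ω)) ∘ UBAff_phi k K := by
    funext z
    simp only [Function.comp]
    congr 1
    funext ω
    exact UBAff_HN hN κ d k s t z ω
  rw [← h3] at h2
  have h4 : Continuous (fun z : ZU k K => ∑ i ∈ Finset.range k, (θU κ d k s t z).v i ^ 2) := by
    refine continuous_finsetSum _ fun i _ => Continuous.pow ?_ 2
    simp only [θU]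
    by_cases h : i < k
    · simp only [h, dif_pos]
      exact (continuous_apply _).comp continuous_fst
    · simp only [h, dif_neg, not_false_eq_true]
      exact continuous_const
  have h5 : fU P A κ d k s t = fun z : ZU k K =>
      (1 / (N : ℝ)) * nest (mN P A) (ζUB k) (k + 1) 0 (HN k (θU κ d k s t z)) -
        (1 / 2) * ∑ i ∈ Finset.range k, (θU κ d k s t z).v i ^ 2 := by
    funext z
    rfl
  rw [h5]
  exact (continuous_const.mul h2).sub (continuous_const.mul h4)

end Crest.Agent.RI
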