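import Mathlib

/-!
Row 164, Part 6 (upper bound): the real-variable lemmas of the contact argument.
-/

set_option autoImplicit false

namespace Crest.Agent.RI

open MeasureTheory Set

/-- Riemann sum of a monotone function. -/
theorem riemann_mono {g : ℝ → ℝ} (hg : MonotoneOn g (Icc 0 1)) {n : ℕ} (hn : 0 < n) :
    (1 / (n : ℝ)) * ∑ j ∈ Finset.range n, g (((j : ℝ) + 1) / n) ≤
      (∫ t in (0 : ℝ)..1, g t) + (g 1 - g 0) / n := by
  have hn' : (0 : ℝ) < n := by exact_mod_cast hn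
  have h1 : MonotoneOn (fun x : ℝ => g (x / n)) (Icc (0 : ℝ) (0 + (n : ℕ))) := by
    intro x hx y hy hxy
    simp only [zero_add] at hx hy
    apply hg
    · exact ⟨div_nonneg hx.1 hn'.le, (div_le_one hn').2 hx.2⟩
    · exact ⟨div_nonneg hy.1 hn'.le, (div_le_one hn').2 hy.2⟩
    · exact div_le_div_of_nonneg_right hxy hn'.le
  have h2 := h1.sum_le_integral
  simp only [zero_add] at h2
  have h3 : ∫ x in (0 : ℝ)..(n : ℝ), g (x / n) = n * ∫ t in (0 : ℝ)..1, g t := by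
    rw [intervalIntegral.integral_comp_div (fun x => g x) hn'.ne']
    simp [hn'.ne']
  rw [h3] at h2
  have h4 : ∑ j ∈ Finset.range n, g (((j : ℝ) + 1) / n) =
      (∑ j ∈ Finset.range n, g ((j : ℝ) / n)) + g 1 - g 0 := by
    have := Finset.sum_range_succ (fun j : ℕ => g ((j : ℝ) / n)) n
    have h5 := Finset.sum_range_succ' (fun j : ℕ => g ((j : ℝ) / n)) n
    rw [this] at h5
    simp only [Nat.cast_add, Nat.cast_one, Nat.cast_zero, zero_div, div_self hn'.ne'] at h5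
    linarith
  rw [h4]
  have : (1 / (n : ℝ)) * ∑ j ∈ Finset.range n, g ((j : ℝ) / n) ≤ ∫ t in (0 : ℝ)..1, g t := by
    rw [div_mul_eq_mul_div, one_mul, div_le_iff₀ hn']
    linarith
  calc (1 / (n : ℝ)) * ((∑ j ∈ Finset.range n, g ((j : ℝ) / n)) + g 1 - g 0)
      = (1 / (n : ℝ)) * ∑ j ∈ Finset.range n, g ((j : ℝ) / n) + (g 1 - g 0) / n := by
        field_simp
        ring
    _ ≤ _ := by linarith

/-- Telescoping along maximizers. `S` = admissible parameters. -/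
theorem contact {Z : Type*} (S : Set Z) (f : ℝ → Z → ℝ) (pen : Z → ℝ) (dt : ℝ → Z → ℝ)
    (g : ℝ → ℝ) (ε M0 : ℝ) {n : ℕ} (hn : 0 < n) (hg : MonotoneOn g (Icc 0 1))
    (htan : ∀ t t' : ℝ, 0 ≤ t → t < t' → t' ≤ 1 → ∀ z ∈ S, f t' z - f t z ≤ (t' - t) * dt t' z)
    (hmax : ∀ j : ℕ, j < n → ∃ z ∈ S,
      (∀ z' ∈ S, f (((j : ℝ) + 1) / n) z' + pen z' ≤ f (((j : ℝ) + 1) / n) z + pen z) ∧
        dt (((j : ℝ) + 1) / n) z ≤ g (((j : ℝ) + 1) / n) + ε)
    (h0 : ∀ z ∈ S, f 0 z + pen z ≤ M0) (z : Z) (hz : z ∈ S) :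
    f 1 z + pen z ≤ M0 + (∫ t in (0 : ℝ)..1, g t) + (g 1 - g 0) / n + ε := by
  have hn' : (0 : ℝ) < n := by exact_mod_cast hn
  have key : ∀ j : ℕ, j ≤ n → ∀ z ∈ S, f ((j : ℝ) / n) z + pen z ≤
      M0 + (1 / (n : ℝ)) * ∑ i ∈ Finset.range j, (g (((i : ℝ) + 1) / n) + ε) := by
    intro j
    induction j with
    | zero => intro _ z hz; simpa using h0 z hz
    | succ j ih =>
      intro hj z hz
      obtain ⟨z', hz', hm, hd⟩ := hmax j (by omega)
      have h1 := hm z hz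
      have h2 := ih (by omega) z' hz'
      have hj' : ((j : ℝ) + 1) ≤ n := by exact_mod_cast hj
      have h3 := htan ((j : ℝ) / n) (((j : ℝ) + 1) / n) (by positivity)
        (div_lt_div_of_pos_right (by linarith) hn') ((div_le_one hn').2 hj') z' hz'
      have h4 : ((j : ℝ) + 1) / n - (j : ℝ) / n = 1 / n := by
        field_simp
        ring
      rw [h4] at h3
      rw [Finset.sum_range_succ, mul_add]
      have h5 : (1 / (n : ℝ)) * dt (((j : ℝ) + 1) / n) z' ≤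
          (1 / (n : ℝ)) * (g (((j : ℝ) + 1) / n) + ε) :=
        mul_le_mul_of_nonneg_left hd (by positivity)
      push_cast
      linarith
  have h1 := key n le_rfl z hz
  rw [div_self hn'.ne', Finset.sum_add_distrib, Finset.sum_const, Finset.card_range, nsmul_eq_mul,
    mul_add, ← mul_assoc, one_div, inv_mul_cancel₀ hn'.ne', one_mul] at h1
  have h2 := riemann_mono hg hn
  rw [one_div] at h2
  linarith

theorem exists_right_of_deriv_pos {ψ : ℝ → ℝ} {x d b : ℝ} (h : HasDerivAt ψ d x) (hd : 0 < d)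
    (hb : x < b) : ∃ y ∈ Ioo x b, ψ x < ψ y := by
  have h1 := (hasDerivAt_iff_tendsto_slope.1 h).mono_left
    (nhdsWithin_mono x (fun y (hy : x < y) => ne_of_gt hy))
  have h2 : ∀ᶠ y in nhdsWithin x (Ioi x), 0 < slope ψ x y := h1.eventually (lt_mem_nhds hd)
  have h3 : ∀ᶠ y in nhdsWithin x (Ioi x), y ∈ Ioo x b := Ioo_mem_nhdsGT hb
  obtain ⟨y, hy1, hy2⟩ := (h2.and h3).exists
  refine ⟨y, hy2, ?_⟩
  rw [slope_def_field, div_pos_iff_of_pos_right (by linarith [hy2.1])] at hy1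
  linarith

theorem exists_left_of_deriv_neg {ψ : ℝ → ℝ} {x d a : ℝ} (h : HasDerivAt ψ d x) (hd : d < 0)
    (ha : a < x) : ∃ y ∈ Ioo a x, ψ x < ψ y := by
  have h1 := (hasDerivAt_iff_tendsto_slope.1 h).mono_left
    (nhdsWithin_mono x (fun y (hy : y < x) => ne_of_lt hy))
  have h2 : ∀ᶠ y in nhdsWithin x (Iio x), slope ψ x y < 0 := h1.eventually (gt_mem_nhds hd)
  have h3 : ∀ᶠ y in nhdsWithin x (Iio x), y ∈ Ioo a x := Ioo_mem_nhdsLT ha
  obtain ⟨y, hy1, hy2⟩ := (h2.and h3).exists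
  refine ⟨y, hy2, ?_⟩
  rw [slope_def_field] at hy1
  have h4 : y - x < 0 := by linarith [hy2.2]
  by_contra hc
  push Not at hc
  have : 0 ≤ (ψ y - ψ x) / (y - x) := div_nonneg_of_nonpos (by linarith) h4.le
  linarith

theorem hasDerivAt_pen {φ : ℝ → ℝ} {x d : ℝ} (hd : HasDerivAt φ d x) :
    HasDerivAt (fun y => φ y - (y - 3 / 2) ^ 2) (d - 2 * (x - 3 / 2)) x := by
  have h := hd.fun_sub (((hasDerivAt_id x).sub_const (3 / 2 : ℝ)).fun_pow 2)
  simpa [mul_comm] using h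

/-- At a maximum over `[1,2]` of `φ x - (x - 3/2)^2` with `-1 < φ' < 1` the point is interior. -/
theorem interior_of_max {φ : ℝ → ℝ} {x d : ℝ} (hx : x ∈ Icc (1 : ℝ) 2) (hd : HasDerivAt φ d x)
    (h1 : -1 < d) (h2 : d < 1)
    (hmax : ∀ y ∈ Icc (1 : ℝ) 2, φ y - (y - 3 / 2) ^ 2 ≤ φ x - (x - 3 / 2) ^ 2) : x ∈ Ioo (1 : ℝ) 2 := by
  have hψ := hasDerivAt_pen hd
  rcases eq_or_lt_of_le hx.1 with e | hlt
  · exfalso
    subst e
    obtain ⟨y, hy, hlt⟩ := exists_right_of_deriv_pos hψ (by linarith) (show (1 : ℝ) < 2 by norm_num)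
    have := hmax y ⟨hy.1.le, hy.2.le⟩
    linarith
  · rcases eq_or_lt_of_le hx.2 with e | hlt2
    · exfalso
      subst e
      obtain ⟨y, hy, hlt⟩ := exists_left_of_deriv_neg hψ (by linarith) (show (1 : ℝ) < 2 by norm_num)
      have := hmax y ⟨hy.1.le, hy.2.le⟩
      linarith
    · exact ⟨hlt, hlt2⟩

/-- Second order condition at an interior maximum. -/
theorem second_of_max {φ φ' : ℝ → ℝ} {x J : ℝ} (hx : x ∈ Ioo (1 : ℝ) 2)
    (hd : ∀ y, HasDerivAt φ (φ' y) y) (hJ : HasDerivAt φ' J x)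
    (hmax : ∀ y ∈ Icc (1 : ℝ) 2, φ y - (y - 3 / 2) ^ 2 ≤ φ x - (x - 3 / 2) ^ 2) : J ≤ 2 := by
  by_contra hc
  push Not at hc
  set ψ : ℝ → ℝ := fun y => φ y - (y - 3 / 2) ^ 2 with hψdef
  have hψ : ∀ y, HasDerivAt ψ (φ' y - 2 * (y - 3 / 2)) y := fun y => hasDerivAt_pen (hd y)
  have hloc : IsLocalMax ψ x := by
    filter_upwards [Ioo_mem_nhds hx.1 hx.2] with y hy
    exact hmax y ⟨hy.1.le, hy.2.le⟩
  have h0 : φ' x - 2 * (x - 3 / 2) = 0 := hloc.hasDerivAt_eq_zero (hψ x)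
  have hderiv : deriv ψ = fun y => φ' y - 2 * (y - 3 / 2) := funext fun y => (hψ y).deriv
  have hJ2 : HasDerivAt (fun y => φ' y - 2 * (y - 3 / 2)) (J - 2) x := by
    have h := hJ.fun_sub (((hasDerivAt_id x).sub_const (3 / 2 : ℝ)).const_mul 2)
    simpa using h
  -- the derivative is positive to the right of x
  have hs := (hasDerivAt_iff_tendsto_slope.1 hJ2).mono_left
    (nhdsWithin_mono x (fun y (hy : x < y) => ne_of_gt hy))
  have h2 : ∀ᶠ y in nhdsWithin x (Ioi x), 0 < slope (fun y => φ' y - 2 * (y - 3 / 2)) x y :=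
    hs.eventually (lt_mem_nhds (by linarith))
  obtain ⟨b, hb, hbs⟩ := (mem_nhdsGT_iff_exists_Ioo_subset).1 h2
  have hb' : x < b := hb
  set b' := min b 2 with hb'def
  have hxb' : x < b' := lt_min hb' hx.2
  have hmono : StrictMonoOn ψ (Icc x b') := by
    apply strictMonoOn_of_deriv_pos (convex_Icc _ _)
    · exact fun y _ => (hψ y).continuousAt.continuousWithinAt
    · intro y hy
      rw [interior_Icc] at hy
      have h3 := hbs ⟨hy.1, lt_of_lt_of_le hy.2 (min_le_left _ _)⟩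
      simp only [mem_ofPred_eq, slope_def_field, h0, sub_zero] at h3
      rw [hderiv]
      rw [div_pos_iff_of_pos_right (by linarith [hy.1])] at h3
      exact h3
  have h4 := hmono (left_mem_Icc.2 hxb'.le) (right_mem_Icc.2 hxb'.le) hxb'
  have h5 := hmax b' ⟨by linarith [hx.1], min_le_right _ _⟩
  simp only [hψdef] at h4
  linarith

/-- First order condition in the direction `v` when the derivative is `v * Kf v`. -/
theorem first_of_max {φ Kf : ℝ → ℝ} {x : ℝ} (hd : ∀ y, HasDerivAt φ (y * Kf y) y)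
    (hK : ContinuousAt Kf x) (hmax : ∀ y, φ y ≤ φ x) : Kf x ≤ 0 := by
  have hloc : IsLocalMax φ x := Filter.Eventually.of_forall hmax
  have h0 := hloc.hasDerivAt_eq_zero (hd x)
  rcases eq_or_ne x 0 with e | hne
  · subst e
    by_contra hc
    push Not at hc
    have h1 : ∀ᶠ y in nhdsWithin (0 : ℝ) (Ioi 0), 0 < Kf y :=
      (hK.eventually (lt_mem_nhds hc)).filter_mono nhdsWithin_le_nhds
    obtain ⟨b, hb, hbs⟩ := (mem_nhdsGT_iff_exists_Ioo_subset).1 h1
    have hb' : (0 : ℝ) < b := hb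
    have hmono : StrictMonoOn φ (Icc 0 b) := by
      apply strictMonoOn_of_deriv_pos (convex_Icc _ _)
      · exact fun y _ => (hd y).continuousAt.continuousWithinAt
      · intro y hy
        rw [interior_Icc] at hy
        rw [(hd y).deriv]
        exact mul_pos hy.1 (hbs hy)
    have h4 := hmono (left_mem_Icc.2 hb'.le) (right_mem_Icc.2 hb'.le) hb'
    exact absurd (hmax b) (not_le.2 h4)
  · have := (mul_eq_zero.1 h0).resolve_left hne
    exact this.le

end Crest.Agent.RI
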