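import Crest.Agent.RI.UBDer
import Crest.Agent.RI.UBReal

/-!
# Row 164, Part 6, chunk UBAtMax (medium): what holds at a maximizer
-/

set_option autoImplicit false

namespace Crest.Agent.RI

open MeasureTheory ProbabilityTheory
open Crest.ProbabilityR.InvariantGlass

variable {N K : ℕ} {P : Measure (ON N)} {A : Measure (Fin N → Bool)}

/-- `z` is a maximizer -/
def IsMaxU (P : Measure (ON N)) (A : Measure (Fin N → Bool)) (κ : Fin N → Fin K) (d : Fin K → ℝ)
    (k : ℕ) (s t : ℝ) (p : ℕ → ℝ) (z : ZU k K) : Prop :=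
  z ∈ SU k K ∧ ∀ z' ∈ SU k K, fU P A κ d k s t z' + penU k p z' ≤ fU P A κ d k s t z + penU k p z

private theorem atmax_tame_sub {E : Type} [MeasurableSpace E] {m : Measure E}
    [IsProbabilityMeasure m] {β : E → ℝ}
    (hβ : Dom m β) {n : ℕ} {Φ : (Fin n → E) → ℝ} (h : Ham β Φ) (c : ℝ) :
    Tame β (fun ω => Φ ω - c) := by
  have h1 := Tame.add hβ (h.tame hβ) (Tame.const (n := n) hβ (-c))
  simpa [sub_eq_add_neg] using h1

private theorem atmax_tame_abs {E : Type} [MeasurableSpace E] {β : E → ℝ}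
    {n : ℕ} {Φ : (Fin n → E) → ℝ} (h : Tame β Φ) :
    Tame β (fun ω => |Φ ω|) := by
  obtain ⟨C, h0, h1⟩ := h.bound
  exact ⟨h.meas.abs, C, h0, fun ω => by rw [abs_abs]; exact h1 ω⟩

/-- `E|X| ≤ √(E X²)` -/
private theorem atmax_abs_le {E : Type} [MeasurableSpace E] {m : Measure E} [IsProbabilityMeasure m]
    {ζ : ℕ → ℝ} {β : E → ℝ} (hβ : Dom m β) (hζ : Exps ζ) (n i : ℕ) {H X : (Fin n → E) → ℝ}
    (hH : Ham β H) (hX : Tame β X) {c : ℝ} (hc : pathE m ζ n i H (fun ω => X ω ^ 2) ≤ c) :
    pathE m ζ n i H (fun ω => |X ω|) ≤ Real.sqrt c := by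
  have h := pathE_cs hβ hζ n i hH (atmax_tame_abs hX) (Tame.const (n := n) hβ 1)
  simp only [mul_one, sq_abs, one_pow] at h
  rw [pathE_one hβ hζ n i hH, mul_one] at h
  exact Real.le_sqrt_of_sq_le (h.trans hc)

/-- variance bound from the second order condition -/
private theorem atmax_var {E : Type} [MeasurableSpace E] {m : Measure E} [IsProbabilityMeasure m]
    {ζ : ℕ → ℝ} {β : E → ℝ} (hβ : Dom m β) (hζ : Exps ζ) (n i : ℕ) {H X : (Fin n → E) → ℝ}
    (hH : Ham β H) (hX : Ham β X) {x a M : ℝ} (hx : ∀ j < n, x ≤ ζ (i + j)) (hx0 : 0 < x)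
    (ha : 0 < a) (hJ : Jvar m ζ n i H (fun ω => a * X ω) ≤ M) :
    pathE m ζ n i H (fun ω => |X ω - pathE m ζ n i H X|) ≤ Real.sqrt (M / (x * a ^ 2)) := by
  have h1 := Jvar_ge hβ hζ n i hH (Ham.smul hX a) hx hx0.le
  have h2 : (fun ω => (a * X ω - pathE m ζ n i H (fun ω => a * X ω)) ^ 2) =
      fun ω => a ^ 2 * (X ω - pathE m ζ n i H X) ^ 2 := by
    funext ω
    rw [pathE_mul]
    ring
  rw [h2, pathE_mul] at h1
  refine atmax_abs_le hβ hζ n i hH (atmax_tame_sub hβ hX _) ?_
  rw [le_div_iff₀ (by positivity)]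
  linarith

private theorem atmax_x (k : ℕ) : ∀ j < k + 1, 1 / ((k : ℝ) + 1) ≤ ζUB k (0 + j) := by
  intro j hj
  unfold ζUB
  rw [zero_add]
  refine le_min ?_ ?_
  · rw [div_le_one (by positivity)]
    have : (0 : ℝ) ≤ k := Nat.cast_nonneg k
    linarith
  · gcongr
    have : (0 : ℝ) ≤ j := Nat.cast_nonneg j
    linarith

/-- penalty along `x'_l` -/
private theorem atmax_pen_self (k : ℕ) (p : ℕ → ℝ) (z : ZU k K) (l : Fin K) (y : ℝ) :
    penU k p (z.1, Function.update z.2.1 l y, z.2.2) =
      penU k p z + (z.2.1 l - 3 / 2) ^ 2 - (y - 3 / 2) ^ 2 := by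
  have h1 : ∑ l', (Function.update z.2.1 l y l' - 3 / 2) ^ 2 =
      ∑ l', (z.2.1 l' - 3 / 2) ^ 2 + ((y - 3 / 2) ^ 2 - (z.2.1 l - 3 / 2) ^ 2) := by
    have h2 : (y - 3 / 2) ^ 2 - (z.2.1 l - 3 / 2) ^ 2 =
        ∑ l', if l' = l then (y - 3 / 2) ^ 2 - (z.2.1 l' - 3 / 2) ^ 2 else 0 := by simp
    rw [h2, ← Finset.sum_add_distrib]
    refine Finset.sum_congr rfl fun l' _ => ?_
    by_cases h : l' = l
    · subst h
      simp
    · simp [h]
  simp only [penU, hU]
  rw [h1]
  ring

/-- penalty along `x_{i,l}` -/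
private theorem atmax_pen_gy (k : ℕ) (p : ℕ → ℝ) (z : ZU k K) (i : Fin k) (l : Fin K) (y : ℝ) :
    penU k p (z.1, z.2.1, Function.update z.2.2 i (Function.update (z.2.2 i) l y)) =
      penU k p z + (z.2.2 i l - 3 / 2) ^ 2 - (y - 3 / 2) ^ 2 := by
  have h1 : ∑ i', ∑ l', (Function.update z.2.2 i (Function.update (z.2.2 i) l y) i' l' - 3 / 2) ^ 2 =
      ∑ i', ∑ l', (z.2.2 i' l' - 3 / 2) ^ 2 + ((y - 3 / 2) ^ 2 - (z.2.2 i l - 3 / 2) ^ 2) := by
    have h2 : (y - 3 / 2) ^ 2 - (z.2.2 i l - 3 / 2) ^ 2 =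
        ∑ i' : Fin k, if i' = i then
          (∑ l', if l' = l then (y - 3 / 2) ^ 2 - (z.2.2 i' l' - 3 / 2) ^ 2 else 0) else 0 := by
      simp
    rw [h2, ← Finset.sum_add_distrib]
    refine Finset.sum_congr rfl fun i' _ => ?_
    by_cases hi : i' = i
    · subst hi
      simp only [if_true, Function.update_self]
      rw [← Finset.sum_add_distrib]
      refine Finset.sum_congr rfl fun l' _ => ?_
      by_cases h : l' = l
      · subst h
        simp
      · simp [h]
    · simp [hi]
  simp only [penU, hU]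
  rw [h1]
  ring

/-- PROOF. For `self`: `φ y = fU (z.1, update z.2.1 l y, z.2.2)`, `fU_deriv_self` (derivative in `[0, s/2]`, `self_nonneg`,
`sum_self`), `interior_of_max`, `second_of_max` with `self_deriv`: `(1/N) J ≤ 2` (`Function.update_eq_self`). By `Jvar_ge`
(`ζUB k j ≥ 1/(k+1)`): `(1/(k+1)) E (V - E V)² ≤ 2 N`, `V = (s/2) N ovl`, so `E (ovl - c_l)² ≤ 8 (k+1)/(s² N)`, and
`E |X| ≤ (E X²)^{1/2}` (`pathE` is an expectation: use `2|x| ≤ x²/c + c` with `c = √(8(k+1)/(s²N))`, linearity,
monotonicity of `pathE`, `pathE_one`). For `gy`, `i ≥ 1`: the same with `fU_deriv_gy`, `gy_deriv`, `gy_bound` (for the point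
`y = z.2.2 i l`) and `V = s N gy`; derivative in `[0, 2 s²] ⊂ (-1, 1)`. -/
theorem conc_at_max (hN : 0 < N) (hP : HaarO P) [IsProbabilityMeasure A] (κ : Fin N → Fin K)
    (d : Fin K → ℝ) (k : ℕ) {s : ℝ} (hs : 0 < s) (hs1 : s ≤ 1 / 2) (t : ℝ) {p : ℕ → ℝ} {z : ZU k K}
    (hz : IsMaxU P A κ d k s t p z) :
    Conc P A (ζUB k) k (θU κ d k s t z) (Real.sqrt (8 * ((k : ℝ) + 1) / (s ^ 2 * N))) := by
  have hN' : (0 : ℝ) < N := by exact_mod_cast hN
  have := prob_mN hP A
  have hβ := dom_mN hP A
  constructor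
  · intro l
    have e1 : ((z.1, Function.update z.2.1 l (z.2.1 l), z.2.2) : ZU k K) = z := by
      rw [Function.update_eq_self]
    have hmax : ∀ y ∈ Set.Icc (1 : ℝ) 2,
        fU P A κ d k s t (z.1, Function.update z.2.1 l y, z.2.2) - (y - 3 / 2) ^ 2 ≤
        fU P A κ d k s t (z.1, Function.update z.2.1 l (z.2.1 l), z.2.2) -
          (z.2.1 l - 3 / 2) ^ 2 := by
      intro y hy
      have hmem : ((z.1, Function.update z.2.1 l y, z.2.2) : ZU k K) ∈ SU k K := by
        refine ⟨fun l' => ?_, hz.1.2⟩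
        by_cases h : l' = l
        · subst h
          simpa using hy
        · simpa [h] using hz.1.1 l'
      have h1 := hz.2 _ hmem
      rw [atmax_pen_self] at h1
      rw [e1]
      linarith
    have hd0 := fU_deriv_self (P := P) (A := A) hN hP κ d k s t z l (z.2.1 l)
    have hself0 : 0 ≤ selfOv P A (ζUB k) k
        (θU κ d k s t (z.1, Function.update z.2.1 l (z.2.1 l), z.2.2)) l :=
      self_nonneg hP (exps_UB k) _ l
    have hself1 : selfOv P A (ζUB k) k
        (θU κ d k s t (z.1, Function.update z.2.1 l (z.2.1 l), z.2.2)) l ≤ 1 :=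
      ubx_self_le_one hN hP (exps_UB k) k _ l
    have hint := interior_of_max (φ := fun y =>
      fU P A κ d k s t (z.1, Function.update z.2.1 l y, z.2.2)) (hz.1.1 l) hd0
      (by nlinarith) (by nlinarith) hmax
    have hJ := second_of_max (φ := fun y =>
      fU P A κ d k s t (z.1, Function.update z.2.1 l y, z.2.2)) hint
      (fun y => fU_deriv_self (P := P) (A := A) hN hP κ d k s t z l y)
      (self_deriv (P := P) (A := A) hN hP κ d k s t z l (z.2.1 l)) hmax
    rw [e1] at hJ
    have hJ2 : Jvar (mN P A) (ζUB k) (k + 1) 0 (HN k (θU κ d k s t z))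
        (fun ω => (s / 2 * N) * ovl k κ l ω ω) ≤ 2 * N := by
      rw [one_div, inv_mul_le_iff₀ hN'] at hJ
      linarith
    have h3 := atmax_var hβ (exps_UB k) (k + 1) 0 (HN_ham k (θU κ d k s t z))
      (ham_ovl_self k κ l) (atmax_x k) (by positivity) (by positivity) hJ2
    refine h3.trans (le_of_eq ?_)
    congr 1
    field_simp
    ring
  · intro i hi l
    have e1 : ((z.1, z.2.1, Function.update z.2.2 i (Function.update (z.2.2 i) l (z.2.2 i l))) :
        ZU k K) = z := by
      rw [Function.update_eq_self, Function.update_eq_self]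
    have hmax : ∀ y ∈ Set.Icc (1 : ℝ) 2,
        fU P A κ d k s t (z.1, z.2.1, Function.update z.2.2 i (Function.update (z.2.2 i) l y)) -
          (y - 3 / 2) ^ 2 ≤
        fU P A κ d k s t
          (z.1, z.2.1, Function.update z.2.2 i (Function.update (z.2.2 i) l (z.2.2 i l))) -
          (z.2.2 i l - 3 / 2) ^ 2 := by
      intro y hy
      have hmem : ((z.1, z.2.1, Function.update z.2.2 i (Function.update (z.2.2 i) l y)) :
          ZU k K) ∈ SU k K := by
        refine ⟨hz.1.1, fun i' l' => ?_⟩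
        by_cases hii : i' = i
        · subst hii
          by_cases h : l' = l
          · subst h
            simpa using hy
          · simpa [h] using hz.1.2 i' l'
        · simpa [hii] using hz.1.2 i' l'
      have h1 := hz.2 _ hmem
      rw [atmax_pen_gy] at h1
      rw [e1]
      linarith
    have hd0 := fU_deriv_gy (P := P) (A := A) hN hP κ d k s t z i hi l (z.2.2 i l)
    have hself1 : selfOv P A (ζUB k) k (θU κ d k s t z) l ≤ 1 :=
      ubx_self_le_one hN hP (exps_UB k) k _ l
    have hg := gy_bound (P := P) (A := A) hN hP κ d k hs.le t hz.1 i l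
    have hg0 := hg.1
    have hg1 : pathE (mN P A) (ζUB k) (k + 1) 0 (HN k (θU κ d k s t z)) (gy k κ i l) ≤ 2 * s := by
      refine hg.2.trans ?_
      have : 2 * s * selfOv P A (ζUB k) k (θU κ d k s t z) l ≤ 2 * s * 1 :=
        mul_le_mul_of_nonneg_left hself1 (by positivity)
      linarith
    have hint := interior_of_max (φ := fun y =>
      fU P A κ d k s t (z.1, z.2.1, Function.update z.2.2 i (Function.update (z.2.2 i) l y)))
      (hz.1.2 i l) hd0 (by rw [e1]; nlinarith) (by rw [e1]; nlinarith) hmax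
    have hJ := second_of_max (φ := fun y =>
      fU P A κ d k s t (z.1, z.2.1, Function.update z.2.2 i (Function.update (z.2.2 i) l y))) hint
      (fun y => fU_deriv_gy (P := P) (A := A) hN hP κ d k s t z i hi l y)
      (gy_deriv (P := P) (A := A) hN hP κ d k s t z i hi l (z.2.2 i l)) hmax
    rw [e1] at hJ
    have hJ2 : Jvar (mN P A) (ζUB k) (k + 1) 0 (HN k (θU κ d k s t z))
        (fun ω => (s * N) * gy k κ i l ω) ≤ 2 * N := by
      rw [one_div, inv_mul_le_iff₀ hN'] at hJ
      linarith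
    have h3 := atmax_var hβ (exps_UB k) (k + 1) 0 (HN_ham k (θU κ d k s t z))
      (ham_gy k κ i l) (atmax_x k) (by positivity) (by positivity) hJ2
    refine h3.trans (Real.sqrt_le_sqrt ?_)
    have h4 : 2 * (N : ℝ) / (1 / ((k : ℝ) + 1) * (s * N) ^ 2) = 2 * ((k : ℝ) + 1) / (s ^ 2 * N) := by
      field_simp
    rw [h4]
    gcongr
    norm_num

/-- PROOF. `φ y = fU (update z.1 i y, z.2) + penU k p (update z.1 i y, z.2)`; the penalty is
`½ w ∑_{j≥i} p_j y² + const`, so `φ' y = y Kf y`, `Kf y = w ∑_{i≤j<k} (p_j - pN_j(y))`; `first_of_max` with `pN_continuous_v`. -/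
theorem cone_at_max (hN : 0 < N) (hP : HaarO P) [IsProbabilityMeasure A] (κ : Fin N → Fin K)
    (d : Fin K → ℝ) (k : ℕ) (s t : ℝ) {p : ℕ → ℝ} {z : ZU k K}
    (hz : IsMaxU P A κ d k s t p z) (i : ℕ) (hi : i < k) :
    ∑ j ∈ Finset.Ico i k, (p j - pN P A (ζUB k) k (θU κ d k s t z) j) ≤ 0 := by
  set i' : Fin k := ⟨i, hi⟩ with hi'
  set w : ℝ := 1 / ((k : ℝ) + 1) with hw
  have hw0 : 0 < w := by positivity
  have e1 : ((Function.update z.1 i' (z.1 i'), z.2) : ZU k K) = z := by
    rw [Function.update_eq_self]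
  -- the penalty
  have hpen : ∀ y, HasDerivAt (fun y => penU k p ((Function.update z.1 i' y, z.2) : ZU k K))
      (y * (w * ∑ j ∈ Finset.Ico i k, p j)) y := by
    intro y
    have hh : ∀ j ∈ Finset.range k, ∀ y, hU k ((Function.update z.1 i' y, z.2) : ZU k K) j =
        hU k ((Function.update z.1 i' 0, z.2) : ZU k K) j + (if i ≤ j then y ^ 2 else 0) := by
      intro j hj y
      have hjk := Finset.mem_range.1 hj
      have h2 : (if i ≤ j then y ^ 2 else 0) =
          ∑ j' ∈ Finset.range (j + 1), if j' = i then y ^ 2 else 0 := by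
        rw [Finset.sum_ite_eq']
        simp
      rw [h2]
      simp only [hU]
      rw [← Finset.sum_add_distrib]
      refine Finset.sum_congr rfl fun j' hj' => ?_
      have hj'k : j' < k := by
        have := Finset.mem_range.1 hj'
        omega
      by_cases h : j' = i
      · subst h
        simp [hi, hi']
      · have : (⟨j', hj'k⟩ : Fin k) ≠ i' := by
          intro h3
          exact h (by simpa [hi'] using congrArg Fin.val h3)
        simp [hj'k, this, h]
    have h3 : ∀ y, penU k p ((Function.update z.1 i' y, z.2) : ZU k K) =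
        penU k p ((Function.update z.1 i' 0, z.2) : ZU k K) +
          (1 / 2) * (w * ((∑ j ∈ Finset.Ico i k, p j) * y ^ 2)) := by
      intro y
      have h4 : ∑ j ∈ Finset.range k, p j * hU k ((Function.update z.1 i' y, z.2) : ZU k K) j =
          ∑ j ∈ Finset.range k, p j * hU k ((Function.update z.1 i' 0, z.2) : ZU k K) j +
            (∑ j ∈ Finset.Ico i k, p j) * y ^ 2 := by
        have h5 : (∑ j ∈ Finset.Ico i k, p j) * y ^ 2 =
            ∑ j ∈ Finset.range k, p j * (if i ≤ j then y ^ 2 else 0) := by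
          rw [Finset.sum_mul]
          have h6 : Finset.Ico i k = (Finset.range k).filter (fun j => i ≤ j) := by
            ext j
            simp [and_comm]
          rw [h6, Finset.sum_filter]
          refine Finset.sum_congr rfl fun j _ => ?_
          split_ifs <;> simp
        rw [h5, ← Finset.sum_add_distrib]
        refine Finset.sum_congr rfl fun j hj => ?_
        rw [hh j hj y]
        ring
      simp only [penU]
      rw [h4]
      ring
    have h7 : HasDerivAt (fun y : ℝ => penU k p ((Function.update z.1 i' 0, z.2) : ZU k K) +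
          (1 / 2) * (w * ((∑ j ∈ Finset.Ico i k, p j) * y ^ 2)))
        (y * (w * ∑ j ∈ Finset.Ico i k, p j)) y := by
      have h8 := ((((hasDerivAt_id y).fun_pow 2).const_mul (∑ j ∈ Finset.Ico i k, p j)).const_mul
        w).const_mul (1 / 2 : ℝ)
      have h9 := h8.const_add (penU k p ((Function.update z.1 i' 0, z.2) : ZU k K))
      refine h9.congr_deriv ?_
      simp only [id]
      push_cast
      ring
    exact h7.congr_of_eventuallyEq (Filter.Eventually.of_forall fun y' => h3 y')
  have hd : ∀ y, HasDerivAt (fun y => fU P A κ d k s t (Function.update z.1 i' y, z.2) +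
      penU k p ((Function.update z.1 i' y, z.2) : ZU k K))
      (y * (w * ∑ j ∈ Finset.Ico i k, (p j -
        pN P A (ζUB k) k (θU κ d k s t (Function.update z.1 i' y, z.2)) j))) y := by
    intro y
    have h := (fU_deriv_v (P := P) (A := A) hN hP κ d k s t z i' y).fun_add (hpen y)
    refine h.congr_deriv ?_
    rw [Finset.sum_sub_distrib]
    ring
  have hK : ContinuousAt (fun y => w * ∑ j ∈ Finset.Ico i k, (p j -
        pN P A (ζUB k) k (θU κ d k s t (Function.update z.1 i' y, z.2)) j)) (z.1 i') := by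
    refine Continuous.continuousAt ?_
    refine continuous_const.mul (continuous_finsetSum _ fun j _ => continuous_const.sub ?_)
    exact pN_continuous_v hP κ d k s t z i' j
  have hfirst := first_of_max hd hK (fun y => by
    have h1 := hz.2 ((Function.update z.1 i' y, z.2) : ZU k K) hz.1
    rw [e1]
    exact h1)
  rw [e1] at hfirst
  by_contra hc
  push Not at hc
  exact absurd (mul_pos hw0 hc) (not_lt.2 hfirst)

end Crest.Agent.RI
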