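import Crest.Agent.RI.UBIface
import Crest.Agent.RI.TBasicA

/-!
# Row 164, Part 6, chunk UBCoer (medium): coercivity in the main field
-/

set_option autoImplicit false

namespace Crest.Agent.RI

open MeasureTheory ProbabilityTheory
open Crest.ProbabilityR.InvariantGlass

section abs
variable {E : Type*} [MeasurableSpace E] {m : Measure E} [IsProbabilityMeasure m] {ζ : ℕ → ℝ}
  {β : E → ℝ}

omit [IsProbabilityMeasure m] in
private theorem ubc_int_beta (hβ : Dom m β) : Integrable β m := by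
  refine Integrable.mono' (hβ.int 1) hβ.meas.aestronglyMeasurable ?_
  refine Filter.Eventually.of_forall fun e => ?_
  rw [Real.norm_eq_abs, abs_of_nonneg (hβ.nonneg e), one_mul]
  have := Real.add_one_le_exp (β e)
  linarith

private theorem ubc_int (hβ : Dom m β) {f : E → ℝ} (hf : Measurable f)
    (hb : ∃ C : ℝ, ∀ e, |f e| ≤ C * (1 + β e)) : Integrable f m := by
  obtain ⟨C, hC⟩ := hb
  refine Integrable.mono' (((integrable_const (1 : ℝ)).add (ubc_int_beta hβ)).const_mul C)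
    hf.aestronglyMeasurable ?_
  exact Filter.Eventually.of_forall fun e => by simpa [Real.norm_eq_abs] using hC e

omit [IsProbabilityMeasure m] in
private theorem ubc_expint (hβ : Dom m β) {f : E → ℝ} (hf : Measurable f)
    (hb : ∃ C : ℝ, ∀ e, |f e| ≤ C * (1 + β e)) (z : ℝ) :
    Integrable (fun e => Real.exp (z * f e)) m := by
  obtain ⟨C, hC⟩ := hb
  refine Integrable.mono' ((hβ.int (|z| * C)).const_mul (Real.exp (|z| * C)))
    (Real.measurable_exp.comp (hf.const_mul z)).aestronglyMeasurable ?_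
  refine Filter.Eventually.of_forall fun e => ?_
  rw [Real.norm_eq_abs, Real.abs_exp, ← Real.exp_add]
  refine Real.exp_le_exp.2 ?_
  calc z * f e ≤ |z * f e| := le_abs_self _
    _ = |z| * |f e| := abs_mul _ _
    _ ≤ |z| * (C * (1 + β e)) := mul_le_mul_of_nonneg_left (hC e) (abs_nonneg _)
    _ = |z| * C + |z| * C * β e := by ring

private theorem ubc_TT_add (hβ : Dom m β) {f : E → ℝ} (hf : Measurable f)
    (hb : ∃ C : ℝ, ∀ e, |f e| ≤ C * (1 + β e)) (z c : ℝ) :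
    TT m z (fun e => f e + c) = TT m z f + c := by
  unfold TT
  split_ifs with h
  · rw [integral_add (ubc_int hβ hf hb) (integrable_const c)]
    simp
  · have h1 : ∫ e, Real.exp (z * (f e + c)) ∂m = Real.exp (z * c) * ∫ e, Real.exp (z * f e) ∂m := by
      rw [← integral_const_mul]
      refine integral_congr_ae (Filter.Eventually.of_forall fun e => ?_)
      show Real.exp (z * (f e + c)) = Real.exp (z * c) * Real.exp (z * f e)
      rw [← Real.exp_add]
      ring_nf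
    have h2 : 0 < ∫ e, Real.exp (z * f e) ∂m := integral_exp_pos (ubc_expint hβ hf hb z)
    rw [h1, Real.log_mul (Real.exp_pos _).ne' h2.ne', Real.log_exp]
    field_simp
    ring

private theorem ubc_nest (hβ : Dom m β) (n : ℕ) : ∀ (i : ℕ) (φ : ℕ → E → ℝ)
    (_ : ∀ j, Measurable (φ j)) (_ : ∀ j, ∃ C : ℝ, ∀ e, |φ j e| ≤ C * (1 + β e)) (c : ℝ),
    nest m ζ n i (fun ω => c + ∑ j : Fin n, φ j (ω j)) =
      c + ∑ j ∈ Finset.range n, TT m (ζ (i + j)) (φ j) := by
  induction n with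
  | zero => intro i φ hφ hb c; simp [nest]
  | succ n ih =>
    intro i φ hφ hb c
    have h1 : ∀ e, nest m ζ n (i + 1)
        (fun ω => c + ∑ j : Fin (n + 1), φ j ((Fin.cons e ω : Fin (n + 1) → E) j)) =
        φ 0 e + (c + ∑ j ∈ Finset.range n, TT m (ζ (i + 1 + j)) (φ (j + 1))) := by
      intro e
      have h2 := ih (i + 1) (fun j => φ (j + 1)) (fun j => hφ _) (fun j => hb _) (φ 0 e + c)
      have h3 : (fun ω : Fin n → E => c + ∑ j : Fin (n + 1), φ j ((Fin.cons e ω : Fin (n + 1) → E) j))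
          = fun ω => φ 0 e + c + ∑ j : Fin n, φ (j + 1) (ω j) := by
        funext ω
        rw [Fin.sum_univ_succ]
        simp only [Fin.cons_zero, Fin.cons_succ, Fin.val_zero, Fin.val_succ]
        ring
      rw [h3, h2]
      ring
    show TT m (ζ i) (fun e => nest m ζ n (i + 1)
        (fun ω => c + ∑ j : Fin (n + 1), φ j ((Fin.cons e ω : Fin (n + 1) → E) j))) = _
    simp only [h1]
    rw [ubc_TT_add hβ (hφ 0) (hb 0), Finset.sum_range_succ']
    simp only [Nat.add_zero]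
    have h4 : ∀ j, i + 1 + j = i + (j + 1) := fun j => by ring
    simp only [h4]
    ring

/-- The nested functional of a sum of functions of the single coordinates. PROOF: induction on `n`,
`TT m ζ (f + c) = TT m ζ f + c`. -/
theorem nest_sum_coord (hβ : Dom m β) (hζ : Exps ζ) (n i : ℕ) (φ : ℕ → E → ℝ)
    (hφ : ∀ j, Measurable (φ j)) (hb : ∀ j, ∃ C : ℝ, ∀ e, |φ j e| ≤ C * (1 + β e)) :
    nest m ζ n i (fun ω => ∑ j : Fin n, φ j (ω j)) = ∑ j ∈ Finset.range n, TT m (ζ (i + j)) (φ j) := by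
  have h := ubc_nest (ζ := ζ) hβ n i φ hφ hb 0
  simpa using h

end abs

variable {N K : ℕ} {P : Measure (ON N)} {A : Measure (Fin N → Bool)}

private theorem ubc_one_int (c : ℝ) :
    Integrable (fun x : ℝ => Real.exp (c * |x|)) (gaussianReal 0 1) :=
  integrable_exp_mul_abs (X := fun x : ℝ => x) (t := c)
    (integrable_exp_mul_gaussianReal c) (integrable_exp_mul_gaussianReal (-c))

private theorem ubc_one_le (c : ℝ) :
    ∫ x : ℝ, Real.exp (c * |x|) ∂(gaussianReal 0 1) ≤ 2 * Real.exp (c ^ 2 / 2) := by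
  have h : ∀ t : ℝ, ∫ x : ℝ, Real.exp (t * x) ∂(gaussianReal 0 1) = Real.exp (t ^ 2 / 2) := by
    intro t
    have h1 := congrFun (mgf_id_gaussianReal (μ := 0) (v := 1)) t
    simpa [mgf] using h1
  calc ∫ x : ℝ, Real.exp (c * |x|) ∂(gaussianReal 0 1)
      ≤ ∫ x : ℝ, (Real.exp (c * x) + Real.exp (-c * x)) ∂(gaussianReal 0 1) := by
        refine integral_mono (ubc_one_int c)
          ((integrable_exp_mul_gaussianReal c).add (integrable_exp_mul_gaussianReal (-c))) ?_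
        intro x
        show Real.exp (c * |x|) ≤ Real.exp (c * x) + Real.exp (-c * x)
        rcases abs_cases x with ⟨h1, _⟩ | ⟨h1, _⟩
        · rw [h1]
          exact le_add_of_nonneg_right (Real.exp_pos _).le
        · rw [h1]
          have : c * -x = -c * x := by ring
          rw [this]
          exact le_add_of_nonneg_left (Real.exp_pos _).le
    _ = 2 * Real.exp (c ^ 2 / 2) := by
        rw [integral_add (integrable_exp_mul_gaussianReal c)
          (integrable_exp_mul_gaussianReal (-c)), h, h]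
        rw [neg_sq]
        ring

private theorem ubc_gvec (c : ℝ) :
    ∫ x : Fin N → ℝ, Real.exp (c * ∑ a, |x a|) ∂(gvec N) =
      (∫ x : ℝ, Real.exp (c * |x|) ∂(gaussianReal 0 1)) ^ N := by
  have e : (fun x : Fin N → ℝ => Real.exp (c * ∑ a, |x a|)) =
      fun x : Fin N → ℝ => ∏ i, Real.exp (c * |x i|) := by
    funext x
    rw [← Real.exp_sum, Finset.mul_sum]
  rw [e]
  unfold gvec
  have h := integral_fintype_prod_eq_prod (𝕜 := ℝ) (ι := Fin N) (E := fun _ => ℝ)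
    (μ := fun _ => gaussianReal 0 1) (fun _ x => Real.exp (c * |x|))
  rw [h]
  simp

/-- the function `α Σ|g| + γ Σ|gt|` -/
private noncomputable def ubcφ (α γ : ℝ) (x : EN N) : ℝ := α * ∑ r, |x.2.1 r| + γ * ∑ a, |x.2.2.1 a|

private theorem ubcφ_meas (α γ : ℝ) : Measurable (ubcφ (N := N) α γ) := by
  unfold ubcφ
  fun_prop

private theorem ubcφ_bound (α γ : ℝ) : ∃ C : ℝ, ∀ e : EN N, |ubcφ α γ e| ≤ C * (1 + βN e) := by
  refine ⟨|α| + |γ|, fun e => ?_⟩
  have h1 : 0 ≤ ∑ r, |e.2.1 r| := Finset.sum_nonneg fun _ _ => abs_nonneg _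
  have h2 : 0 ≤ ∑ a, |e.2.2.1 a| := Finset.sum_nonneg fun _ _ => abs_nonneg _
  unfold ubcφ βN
  set x := ∑ r, |e.2.1 r|
  set y := ∑ a, |e.2.2.1 a|
  calc |α * x + γ * y| ≤ |α * x| + |γ * y| := abs_add_le _ _
    _ = |α| * x + |γ| * y := by
        rw [abs_mul, abs_mul, abs_of_nonneg h1, abs_of_nonneg h2]
    _ ≤ _ := by
        nlinarith [mul_nonneg (abs_nonneg α) h2, mul_nonneg (abs_nonneg γ) h1, abs_nonneg α,
          abs_nonneg γ]

private theorem ubcφ_integral (hP : HaarO P) [IsProbabilityMeasure A] (c α γ : ℝ) :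
    ∫ x, Real.exp (c * ubcφ (N := N) α γ x) ∂(mN P A) =
      (∫ x : ℝ, Real.exp (c * α * |x|) ∂(gaussianReal 0 1)) ^ N *
      (∫ x : ℝ, Real.exp (c * γ * |x|) ∂(gaussianReal 0 1)) ^ N := by
  have := hP.prob
  unfold mN
  let F3 : (Fin N → ℝ) × (Fin N → Bool) → ℝ := fun w => Real.exp (c * γ * ∑ r, |w.1 r|) * 1
  let F2 : (Fin N → ℝ) × (Fin N → ℝ) × (Fin N → Bool) → ℝ := fun y =>
    Real.exp (c * α * ∑ r, |y.1 r|) * F3 y.2
  have e : (fun x : EN N => Real.exp (c * ubcφ (N := N) α γ x)) = fun x : EN N =>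
      (1 : ℝ) * F2 x.2 := by
    funext x
    simp only [ubcφ, F2, F3, one_mul, mul_one]
    rw [← Real.exp_add]
    ring_nf
  have i1 : ∫ x : EN N, (1 : ℝ) * F2 x.2 ∂(P.prod ((gvec N).prod ((gvec N).prod A))) =
      (∫ _ : ON N, (1 : ℝ) ∂P) * ∫ y, F2 y ∂((gvec N).prod ((gvec N).prod A)) :=
    integral_prod_mul (fun _ : ON N => (1 : ℝ)) F2
  have i2 : ∫ y, F2 y ∂((gvec N).prod ((gvec N).prod A)) =
      (∫ g : Fin N → ℝ, Real.exp (c * α * ∑ r, |g r|) ∂(gvec N)) * ∫ w, F3 w ∂((gvec N).prod A) :=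
    integral_prod_mul (fun g : Fin N → ℝ => Real.exp (c * α * ∑ r, |g r|)) F3
  have i3 : ∫ w, F3 w ∂((gvec N).prod A) =
      (∫ g : Fin N → ℝ, Real.exp (c * γ * ∑ r, |g r|) ∂(gvec N)) * ∫ _ : Fin N → Bool, (1 : ℝ) ∂A :=
    integral_prod_mul (fun g : Fin N → ℝ => Real.exp (c * γ * ∑ r, |g r|))
      (fun _ : Fin N → Bool => (1 : ℝ))
  rw [e, i1, i2, i3, ubc_gvec, ubc_gvec]
  simp

private theorem ubcφ_TT (hP : HaarO P) [IsProbabilityMeasure A] {z : ℝ} (hz : 0 < z) (α γ : ℝ) :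
    TT (mN P A) z (ubcφ (N := N) α γ) ≤
      N * (2 * Real.log 2 / z + z * α ^ 2 / 2 + z * γ ^ 2 / 2) := by
  unfold TT
  rw [if_neg hz.ne', ubcφ_integral hP]
  have hpos : ∀ c : ℝ, 0 < ∫ x : ℝ, Real.exp (c * |x|) ∂(gaussianReal 0 1) := fun c =>
    integral_exp_pos (ubc_one_int c)
  have hlog : ∀ c : ℝ, Real.log (∫ x : ℝ, Real.exp (c * |x|) ∂(gaussianReal 0 1)) ≤
      Real.log 2 + c ^ 2 / 2 := by
    intro c
    have h1 := Real.log_le_log (hpos c) (ubc_one_le c)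
    rwa [Real.log_mul two_ne_zero (Real.exp_pos _).ne', Real.log_exp] at h1
  rw [Real.log_mul (pow_pos (hpos _) _).ne' (pow_pos (hpos _) _).ne', Real.log_pow, Real.log_pow]
  have h1 := hlog (z * α)
  have h2 := hlog (z * γ)
  have hN : (0 : ℝ) ≤ N := Nat.cast_nonneg N
  have h3 : z⁻¹ * (N * Real.log (∫ x : ℝ, Real.exp (z * α * |x|) ∂(gaussianReal 0 1)) +
      N * Real.log (∫ x : ℝ, Real.exp (z * γ * |x|) ∂(gaussianReal 0 1))) ≤
      z⁻¹ * (N * (Real.log 2 + (z * α) ^ 2 / 2) + N * (Real.log 2 + (z * γ) ^ 2 / 2)) := by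
    refine mul_le_mul_of_nonneg_left ?_ (inv_nonneg.2 hz.le)
    exact add_le_add (mul_le_mul_of_nonneg_left h1 hN) (mul_le_mul_of_nonneg_left h2 hN)
  refine h3.trans (le_of_eq ?_)
  field_simp
  ring

private theorem ubc_TT_const (z c : ℝ) (m : Measure (EN N)) [IsProbabilityMeasure m] :
    TT m z (fun _ => c) = c := by
  unfold TT
  split_ifs with h
  · simp
  · simp
    field_simp

private theorem ubc_zeta_pos (k i : ℕ) : 0 < ζUB k i := by
  unfold ζUB
  refine lt_min one_pos ?_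
  positivity

/-- PROOF. `|y_a| ≤ N`, `|σ| = 1`, `z.2.1, z.2.2 ∈ [1,2]`: `HN ≤ C₀ + ∑_{i<k} (|v_i| ∑_r |g_r^i| + C₁ ∑_a |gt_a^i|)`
(`C₀, C₁` depending on `N, d, t, s, k, K`). By `nest_mono` and `nest_sum_coord`
`nest ≤ C₀ + ∑_{i<k} TT (mN P A) ζ_i (|v_i| ∑|g| + C₁ ∑|gt|)` and for `0 < ζ ≤ 1`
`TT ≤ N (ζ v²/2 + log 2/ζ) + N (ζ C₁²/2 + log 2/ζ)` since `E exp(ζ|v||g|) ≤ 2 exp(ζ²v²/2)` and independence
of the coordinates. Divide by `N`. -/
theorem fU_coercive (hN : 0 < N) (hP : HaarO P) [IsProbabilityMeasure A] (κ : Fin N → Fin K)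
    (d : Fin K → ℝ) (k : ℕ) (s t : ℝ) : ∃ C : ℝ, ∀ z ∈ SU k K,
      fU P A κ d k s t z ≤ C - (1 / 2) * ∑ i : Fin k, (1 - ζUB k i) * z.1 i ^ 2 := by
  have hprob : IsProbabilityMeasure (mN P A) := prob_mN hP A
  have hdom : Dom (mN P A) (βN (N := N)) := dom_mN hP A
  have hNpos : (0 : ℝ) < N := by exact_mod_cast hN
  have hN0 : (0 : ℝ) ≤ N := hNpos.le
  set C₀ : ℝ := (1 / 2) * ∑ a : Fin N, (|t| * |d (κ a)| + |s| * 2) * (N : ℝ) ^ 2 with hC₀
  set C₁ : ℝ := |s| * 2 * N with hC₁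
  have hC₁' : 0 ≤ C₁ := by positivity
  refine ⟨(1 / N) * C₀ + ∑ i : Fin k, (2 * Real.log 2 / ζUB k i + ζUB k i * C₁ ^ 2 / 2),
    fun z hz => ?_⟩
  -- the dominating functions
  set φ : ℕ → EN N → ℝ := fun j => if h : j < k then ubcφ |z.1 ⟨j, h⟩| C₁ else fun _ => C₀ with hφ
  have hφm : ∀ j, Measurable (φ j) := by
    intro j
    simp only [hφ]
    split_ifs
    · exact ubcφ_meas _ _
    · exact measurable_const
  have hφb : ∀ j, ∃ C : ℝ, ∀ e, |φ j e| ≤ C * (1 + βN e) := by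
    intro j
    simp only [hφ]
    split_ifs
    · exact ubcφ_bound _ _
    · refine ⟨|C₀|, fun e => ?_⟩
      have h1 := hdom.nonneg e
      nlinarith [abs_nonneg C₀, mul_nonneg (abs_nonneg C₀) h1]
  have hham : Ham (βN (N := N)) (fun ω : Fin (k + 1) → EN N => ∑ j : Fin (k + 1), φ j (ω j)) := by
    choose C hC using hφb
    refine ⟨Finset.measurable_sum _ fun j _ => (hφm j).comp (measurable_pi_apply j),
      ∑ j : Fin (k + 1), |C j|, Finset.sum_nonneg fun _ _ => abs_nonneg _, fun ω => ?_⟩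
    rw [Finset.sum_mul]
    refine (Finset.abs_sum_le_sum_abs _ _).trans (Finset.sum_le_sum fun j _ => ?_)
    have h1 := hC j (ω j)
    have h2 : βN (ω j) ≤ ∑ i, βN (ω i) :=
      Finset.single_le_sum (f := fun i => βN (ω i)) (fun i _ => hdom.nonneg _) (Finset.mem_univ j)
    have h3 := hdom.nonneg (ω j)
    calc |φ j (ω j)| ≤ C j * (1 + βN (ω j)) := h1
      _ ≤ |C j| * (1 + βN (ω j)) := mul_le_mul_of_nonneg_right (le_abs_self _) (by linarith)
      _ ≤ |C j| * (1 + ∑ i, βN (ω i)) := mul_le_mul_of_nonneg_left (by linarith) (abs_nonneg _)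
  have hle : ∀ ω : Fin (k + 1) → EN N, HN k (θU κ d k s t z) ω ≤
      ∑ j : Fin (k + 1), φ j (ω j) := by
    intro ω
    rw [Fin.sum_univ_castSucc]
    have hlast : φ ((Fin.last k : Fin (k + 1)) : ℕ) (ω (Fin.last k)) = C₀ := by
      simp [hφ]
    have hcast : ∀ i : Fin k, φ ((i.castSucc : Fin (k + 1)) : ℕ) (ω i.castSucc) =
        |z.1 i| * ∑ r, |(ω i.castSucc).2.1 r| + C₁ * ∑ a, |(ω i.castSucc).2.2.1 a| := by
      intro i
      have : ((i.castSucc : Fin (k + 1)) : ℕ) < k := i.2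
      simp only [hφ, Fin.val_castSucc, i.2, dif_pos, ubcφ]
    rw [hlast]
    simp only [hcast]
    unfold HN
    have h1 : (1 / 2) * ∑ a : Fin N, (θU κ d k s t z).e ((θU κ d k s t z).κ a) * yv k ω a ^ 2
        ≤ C₀ := by
      rw [hC₀]
      refine mul_le_mul_of_nonneg_left (Finset.sum_le_sum fun a _ => ?_) (by norm_num)
      show (t * d (κ a) + s * z.2.1 (κ a)) * yv k ω a ^ 2 ≤ _
      have h2 : yv k ω a ^ 2 ≤ (N : ℝ) ^ 2 := by
        have := abs_yv_le k ω a
        nlinarith [abs_nonneg (yv k ω a), sq_abs (yv k ω a)]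
      have h3 : t * d (κ a) + s * z.2.1 (κ a) ≤ |t| * |d (κ a)| + |s| * 2 := by
        refine add_le_add ?_ ?_
        · rw [← abs_mul]; exact le_abs_self _
        · refine (le_abs_self _).trans ?_
          rw [abs_mul]
          refine mul_le_mul_of_nonneg_left ?_ (abs_nonneg _)
          have h4 := hz.1 (κ a)
          rw [abs_of_nonneg (by linarith [h4.1])]
          exact h4.2
      have h5 : 0 ≤ |t| * |d (κ a)| + |s| * 2 := by positivity
      calc (t * d (κ a) + s * z.2.1 (κ a)) * yv k ω a ^ 2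
          ≤ (|t| * |d (κ a)| + |s| * 2) * yv k ω a ^ 2 :=
            mul_le_mul_of_nonneg_right h3 (sq_nonneg _)
        _ ≤ _ := mul_le_mul_of_nonneg_left h2 h5
    have h2 : ∑ i : Fin k, (θU κ d k s t z).v i * ∑ r : Fin N, (ω i.castSucc).2.1 r *
        spin ((ω (Fin.last k)).2.2.2 r) ≤ ∑ i : Fin k, |z.1 i| * ∑ r, |(ω i.castSucc).2.1 r| := by
      refine Finset.sum_le_sum fun i _ => ?_
      have hv : (θU κ d k s t z).v i = z.1 i := by
        simp [θU]
      rw [hv]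
      refine (le_abs_self _).trans ?_
      rw [abs_mul]
      refine mul_le_mul_of_nonneg_left ?_ (abs_nonneg _)
      refine (Finset.abs_sum_le_sum_abs _ _).trans (Finset.sum_le_sum fun r _ => ?_)
      rw [abs_mul, abs_spin, mul_one]
    have h3 : ∑ i : Fin k, ∑ a : Fin N, (θU κ d k s t z).c i ((θU κ d k s t z).κ a) *
        (ω i.castSucc).2.2.1 a * yv k ω a ≤ ∑ i : Fin k, C₁ * ∑ a, |(ω i.castSucc).2.2.1 a| := by
      refine Finset.sum_le_sum fun i _ => ?_
      rw [Finset.mul_sum]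
      refine Finset.sum_le_sum fun a _ => ?_
      refine (le_abs_self _).trans ?_
      rw [abs_mul, abs_mul]
      have hc : |(θU κ d k s t z).c i ((θU κ d k s t z).κ a)| ≤ |s| * 2 := by
        show |(if h : (i : ℕ) < k then (if (i : ℕ) = 0 then 0 else s * z.2.2 ⟨i, h⟩ (κ a)) else 0)|
          ≤ _
        rw [dif_pos i.2]
        split_ifs
        · rw [abs_zero]; positivity
        · rw [abs_mul]
          refine mul_le_mul_of_nonneg_left ?_ (abs_nonneg _)
          have h4 := hz.2 ⟨i, i.2⟩ (κ a)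
          rw [abs_of_nonneg (by linarith [h4.1])]
          exact h4.2
      have hy := abs_yv_le k ω a
      calc |(θU κ d k s t z).c i ((θU κ d k s t z).κ a)| * |(ω i.castSucc).2.2.1 a| * |yv k ω a|
          ≤ (|s| * 2) * |(ω i.castSucc).2.2.1 a| * N := by
            refine mul_le_mul (mul_le_mul_of_nonneg_right hc (abs_nonneg _)) hy (abs_nonneg _)
              (by positivity)
        _ = C₁ * |(ω i.castSucc).2.2.1 a| := by rw [hC₁]; ring
    have h4 : (θU κ d k s t z).B (ω (Fin.last k)).2.2.2 = 0 := rfl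
    rw [h4, Finset.sum_add_distrib]
    linarith
  have hnest : nest (mN P A) (ζUB k) (k + 1) 0 (HN k (θU κ d k s t z)) ≤
      C₀ + ∑ i : Fin k, (N : ℝ) * (2 * Real.log 2 / ζUB k i + ζUB k i * z.1 i ^ 2 / 2 +
        ζUB k i * C₁ ^ 2 / 2) := by
    refine (nest_mono hdom (exps_UB k) (k + 1) 0 (HN_ham k _) hham hle).trans ?_
    rw [nest_sum_coord hdom (exps_UB k) (k + 1) 0 φ hφm hφb, Finset.sum_range_succ]
    have h1 : TT (mN P A) (ζUB k (0 + k)) (φ k) = C₀ := by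
      have : φ k = fun _ => C₀ := by simp [hφ]
      rw [this, ubc_TT_const]
    rw [h1, add_comm, ← Fin.sum_univ_eq_sum_range (fun j => TT (mN P A) (ζUB k (0 + j)) (φ j)) k]
    refine add_le_add le_rfl (Finset.sum_le_sum fun i _ => ?_)
    have h2 : φ (i : ℕ) = ubcφ |z.1 i| C₁ := by
      simp only [hφ, i.2, dif_pos]
    rw [h2, zero_add]
    have h3 := ubcφ_TT (A := A) hP (ubc_zeta_pos k i) |z.1 i| C₁
    rwa [sq_abs] at h3
  unfold fU fN
  have hv : ∑ i ∈ Finset.range k, (θU κ d k s t z).v i ^ 2 = ∑ i : Fin k, z.1 i ^ 2 := by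
    rw [← Fin.sum_univ_eq_sum_range (fun j => (θU κ d k s t z).v j ^ 2) k]
    refine Finset.sum_congr rfl fun i _ => ?_
    simp [θU]
  rw [hv]
  have h5 : (1 / (N : ℝ)) * nest (mN P A) (ζUB k) (k + 1) 0 (HN k (θU κ d k s t z)) ≤
      (1 / N) * (C₀ + ∑ i : Fin k, (N : ℝ) * (2 * Real.log 2 / ζUB k i +
        ζUB k i * z.1 i ^ 2 / 2 + ζUB k i * C₁ ^ 2 / 2)) :=
    mul_le_mul_of_nonneg_left hnest (by positivity)
  have h6 : (1 / (N : ℝ)) * (C₀ + ∑ i : Fin k, (N : ℝ) * (2 * Real.log 2 / ζUB k i +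
        ζUB k i * z.1 i ^ 2 / 2 + ζUB k i * C₁ ^ 2 / 2)) =
      (1 / N) * C₀ + ∑ i : Fin k, (2 * Real.log 2 / ζUB k i + ζUB k i * C₁ ^ 2 / 2) +
        ∑ i : Fin k, ζUB k i * z.1 i ^ 2 / 2 := by
    rw [mul_add, ← Finset.mul_sum, ← mul_assoc (1 / (N : ℝ)) (N : ℝ),
      one_div_mul_cancel hNpos.ne', one_mul, add_assoc, ← Finset.sum_add_distrib]
    congr 1
    refine Finset.sum_congr rfl fun i _ => ?_
    ring
  have h7 : (1 / 2 : ℝ) * ∑ i : Fin k, (1 - ζUB k i) * z.1 i ^ 2 =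
      (1 / 2) * ∑ i : Fin k, z.1 i ^ 2 - ∑ i : Fin k, ζUB k i * z.1 i ^ 2 / 2 := by
    rw [Finset.mul_sum, Finset.mul_sum, ← Finset.sum_sub_distrib]
    refine Finset.sum_congr rfl fun i _ => ?_
    ring
  rw [h7]
  linarith

end Crest.Agent.RI
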