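import Crest.Agent.RI.UBIface
import Crest.Agent.RI.TDerA

/-!
# Row 164, Part 6, chunk UBDerV: derivative in the direction `v_i`
-/

set_option autoImplicit false

namespace Crest.Agent.RI

open MeasureTheory ProbabilityTheory
open Crest.ProbabilityR.InvariantGlass

variable {N K : ℕ} {P : Measure (ON N)} {A : Measure (Fin N → Bool)}

private theorem HN_update_v (κ : Fin N → Fin K) (d : Fin K → ℝ) (k : ℕ) (s t : ℝ) (z : ZU k K)
    (i : Fin k) (y : ℝ) :
    HN k (θU κ d k s t (Function.update z.1 i y, z.2)) =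
      fun ω => HN k (θU κ d k s t (Function.update z.1 i 0, z.2)) ω + y * gs k i ω := by
  funext ω
  have h2 : ∑ j : Fin k, (θU κ d k s t (Function.update z.1 i y, z.2)).v j *
        (∑ r : Fin N, (ω j.castSucc).2.1 r * spin ((ω (Fin.last k)).2.2.2 r)) =
      ∑ j : Fin k, (θU κ d k s t (Function.update z.1 i 0, z.2)).v j *
        (∑ r : Fin N, (ω j.castSucc).2.1 r * spin ((ω (Fin.last k)).2.2.2 r)) + y * gs k i ω := by
    have h3 : y * gs k i ω = ∑ j : Fin k, if j = i then y * gs k i ω else 0 := by simp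
    rw [h3, ← Finset.sum_add_distrib]
    refine Finset.sum_congr rfl fun j _ => ?_
    by_cases hj : j = i
    · subst hj
      simp [θU, gs]
    · simp [θU, hj]
  have h1 : (θU κ d k s t (Function.update z.1 i y, z.2)).e =
      (θU κ d k s t (Function.update z.1 i 0, z.2)).e := rfl
  unfold HN
  rw [h2]
  simp only [θU]
  ring

private theorem ζUB_last (k : ℕ) : ζUB k k = 1 := by
  unfold ζUB
  have : ((k : ℝ) + 1) / ((k : ℝ) + 1) = 1 := div_self (by positivity)
  rw [this]
  simp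

private theorem ζUB_diff (k j : ℕ) (hj : j < k) : ζUB k (j + 1) - ζUB k j = 1 / ((k : ℝ) + 1) := by
  unfold ζUB
  have hk : (0 : ℝ) < (k : ℝ) + 1 := by positivity
  have h1 : (((j + 1 : ℕ) : ℝ) + 1) / ((k : ℝ) + 1) ≤ 1 := by
    rw [div_le_one hk]
    have : ((j + 1 : ℕ) : ℝ) ≤ k := by exact_mod_cast hj
    linarith
  have h2 : ((j : ℝ) + 1) / ((k : ℝ) + 1) ≤ 1 := by
    rw [div_le_one hk]
    have : (j : ℝ) ≤ k := by exact_mod_cast hj.le
    linarith
  rw [min_eq_right h1, min_eq_right h2]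
  push_cast
  field_simp
  ring

private theorem sum_update_sq (k : ℕ) (κ : Fin N → Fin K) (d : Fin K → ℝ) (s t : ℝ) (z : ZU k K)
    (i : Fin k) (y : ℝ) :
    ∑ j ∈ Finset.range k, (θU κ d k s t (Function.update z.1 i y, z.2)).v j ^ 2 =
      ∑ j ∈ Finset.range k, (θU κ d k s t (Function.update z.1 i 0, z.2)).v j ^ 2 + y ^ 2 := by
  rw [← Fin.sum_univ_eq_sum_range (fun j => (θU κ d k s t (Function.update z.1 i y, z.2)).v j ^ 2),
    ← Fin.sum_univ_eq_sum_range (fun j => (θU κ d k s t (Function.update z.1 i 0, z.2)).v j ^ 2)]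
  have h3 : y ^ 2 = ∑ j : Fin k, if j = i then y ^ 2 else 0 := by simp
  rw [h3, ← Finset.sum_add_distrib]
  refine Finset.sum_congr rfl fun j _ => ?_
  by_cases hj : j = i
  · subst hj
    simp [θU]
  · simp [θU, hj]

/-- direction `v_i`. PROOF: `HN k (θU .. (update z.1 i y, z.2)) = HN (.. update z.1 i 0 ..) + y * gs k i`; `nest_hasDerivAt`,
`pathE_gs` (`ζ_{j+1} - ζ_j = 1/(k+1)` for `j < k`, `ζUB k k = 1`), and the derivative `-y` of `-½ Σ v²`. -/
theorem fU_deriv_v (hN : 0 < N) (hP : HaarO P) [IsProbabilityMeasure A] (κ : Fin N → Fin K)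
    (d : Fin K → ℝ) (k : ℕ) (s t : ℝ) (z : ZU k K) (i : Fin k) (y : ℝ) :
    HasDerivAt (fun y => fU P A κ d k s t (Function.update z.1 i y, z.2))
      (-(y * ((1 / ((k : ℝ) + 1)) * ∑ j ∈ Finset.Ico (i : ℕ) k,
        pN P A (ζUB k) k (θU κ d k s t (Function.update z.1 i y, z.2)) j))) y := by
  have hprob := prob_mN hP A
  have hN' : (N : ℝ) ≠ 0 := by positivity
  have h1 := nest_hasDerivAt (m := mN P A) (dom_mN hP A) (exps_UB k) (k + 1) 0
    (HN_ham k (θU κ d k s t (Function.update z.1 i 0, z.2))) (ham_gs (N := N) k i) y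
  rw [← HN_update_v κ d k s t z i y, pathE_gs hP (exps_UB k) (ζUB_last k)] at h1
  have h2 : HasDerivAt (fun y : ℝ => (1 / 2 : ℝ) *
      (∑ j ∈ Finset.range k, (θU κ d k s t (Function.update z.1 i 0, z.2)).v j ^ 2 + y ^ 2)) y y := by
    have h3 := ((hasDerivAt_pow 2 y).const_add
      (∑ j ∈ Finset.range k, (θU κ d k s t (Function.update z.1 i 0, z.2)).v j ^ 2)).const_mul
      (1 / 2 : ℝ)
    refine h3.congr_deriv ?_
    simp
  have h4 := (h1.const_mul (1 / (N : ℝ))).sub h2
  have hv : (θU κ d k s t (Function.update z.1 i y, z.2)).v i = y := by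
    simp [θU]
  have hs : ∑ j ∈ Finset.Ico (i : ℕ) k, (ζUB k (j + 1) - ζUB k j) *
        pN P A (ζUB k) k (θU κ d k s t (Function.update z.1 i y, z.2)) j =
      (1 / ((k : ℝ) + 1)) * ∑ j ∈ Finset.Ico (i : ℕ) k,
        pN P A (ζUB k) k (θU κ d k s t (Function.update z.1 i y, z.2)) j := by
    rw [Finset.mul_sum]
    refine Finset.sum_congr rfl fun j hj => ?_
    rw [ζUB_diff k j (Finset.mem_Ico.1 hj).2]
  rw [hs, hv] at h4
  refine (h4.congr_deriv ?_).congr_of_eventuallyEq (Filter.Eventually.of_forall fun w => ?_)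
  · field_simp
    ring
  · show fU P A κ d k s t (Function.update z.1 i w, z.2) = _
    unfold fU fN
    rw [sum_update_sq, HN_update_v κ d k s t z i w]
    rfl

/-- PROOF: `pairE_continuous` and `abs_ovl_le`, `measurable_ovl`. -/
theorem pN_continuous_v (hP : HaarO P) [IsProbabilityMeasure A] (κ : Fin N → Fin K)
    (d : Fin K → ℝ) (k : ℕ) (s t : ℝ) (z : ZU k K) (i : Fin k) (j : ℕ) :
    Continuous (fun y => pN P A (ζUB k) k (θU κ d k s t (Function.update z.1 i y, z.2)) j) := by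
  have hprob := prob_mN hP A
  unfold pN
  refine continuous_finsetSum _ fun l _ => ?_
  unfold rhoOv
  have h := pairE_continuous (m := mN P A) (dom_mN hP A) (exps_UB k) (j + 1) (k + 1) 0
    (HN_ham k (θU κ d k s t (Function.update z.1 i 0, z.2))) (ham_gs (N := N) k i)
    (measurable_ovl k κ l) (C := 1) (fun ω ω' => abs_ovl_le k κ l ω ω')
  refine h.congr fun y => ?_
  rw [HN_update_v κ d k s t z i y]
  rfl

end Crest.Agent.RI
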