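import Crest.Agent.RI.UBIface
import Crest.Agent.RI.TVar

/-!
# Row 164, Part 6, chunk UBDer (medium): derivatives in the parameters (part X: self and gy directions)
-/

set_option autoImplicit false

namespace Crest.Agent.RI

open MeasureTheory ProbabilityTheory
open Crest.ProbabilityR.InvariantGlass

variable {N K : ℕ} {P : Measure (ON N)} {A : Measure (Fin N → Bool)}

theorem ubx_HN_self (hN : 0 < N) (κ : Fin N → Fin K)
    (d : Fin K → ℝ) (k : ℕ) (s t : ℝ) (z : ZU k K) (l : Fin K) (y : ℝ) :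
    HN k (θU κ d k s t (z.1, Function.update z.2.1 l y, z.2.2)) =
      fun ω => HN k (θU κ d k s t (z.1, Function.update z.2.1 l 0, z.2.2)) ω +
        y * ((s / 2) * N * ovl k κ l ω ω) := by
  have hN' : (N : ℝ) ≠ 0 := by positivity
  funext ω
  have h1 : ∑ a : Fin N, (t * d (κ a) + s * Function.update z.2.1 l y (κ a)) * yv k ω a ^ 2 =
      ∑ a : Fin N, (t * d (κ a) + s * Function.update z.2.1 l 0 (κ a)) * yv k ω a ^ 2 +
        y * s * ∑ a : Fin N, (if κ a = l then yv k ω a * yv k ω a else 0) := by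
    rw [Finset.mul_sum, ← Finset.sum_add_distrib]
    refine Finset.sum_congr rfl fun a _ => ?_
    by_cases h : κ a = l
    · subst h
      simp only [Function.update_self, if_true]
      ring
    · simp only [Function.update_of_ne h, h, if_false]
      ring
  simp only [HN, θU, ovl]
  rw [h1]
  field_simp
  ring

theorem ubx_HN_gy (hN : 0 < N) (κ : Fin N → Fin K)
    (d : Fin K → ℝ) (k : ℕ) (s t : ℝ) (z : ZU k K) (i : Fin k) (hi : 1 ≤ (i : ℕ)) (l : Fin K)
    (y : ℝ) :
    HN k (θU κ d k s t (z.1, z.2.1, Function.update z.2.2 i (Function.update (z.2.2 i) l y))) =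
      fun ω => HN k (θU κ d k s t
          (z.1, z.2.1, Function.update z.2.2 i (Function.update (z.2.2 i) l 0))) ω +
        y * (s * N * gy k κ i l ω) := by
  have hN' : (N : ℝ) ≠ 0 := by positivity
  funext ω
  have h1 : ∑ i' : Fin k, ∑ a : Fin N, (if h : (i' : ℕ) < k then (if (i' : ℕ) = 0 then 0 else
        s * Function.update z.2.2 i (Function.update (z.2.2 i) l y) ⟨i', h⟩ (κ a)) else 0) *
          (ω i'.castSucc).2.2.1 a * yv k ω a =
      ∑ i' : Fin k, ∑ a : Fin N, (if h : (i' : ℕ) < k then (if (i' : ℕ) = 0 then 0 else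
        s * Function.update z.2.2 i (Function.update (z.2.2 i) l 0) ⟨i', h⟩ (κ a)) else 0) *
          (ω i'.castSucc).2.2.1 a * yv k ω a +
      y * s * ∑ a : Fin N, (if κ a = l then (ω i.castSucc).2.2.1 a * yv k ω a else 0) := by
    have h2 : y * s * ∑ a : Fin N, (if κ a = l then (ω i.castSucc).2.2.1 a * yv k ω a else 0) =
        ∑ i' : Fin k, if i' = i then
          (∑ a : Fin N, y * s * (if κ a = l then (ω i'.castSucc).2.2.1 a * yv k ω a else 0))
          else 0 := by
      rw [Finset.sum_ite_eq' Finset.univ i]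
      simp [Finset.mul_sum]
    rw [h2, ← Finset.sum_add_distrib]
    refine Finset.sum_congr rfl fun i' _ => ?_
    by_cases hii : i' = i
    · subst hii
      have h0 : ¬ ((i' : ℕ) = 0) := by omega
      simp only [if_true, i'.2, dif_pos, h0, if_false, Fin.eta, Function.update_self]
      rw [← Finset.sum_add_distrib]
      refine Finset.sum_congr rfl fun a _ => ?_
      by_cases h : κ a = l
      · subst h
        simp only [Function.update_self, if_true]
        ring
      · simp only [Function.update_of_ne h, h, if_false]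
        ring
    · simp only [hii, if_false, add_zero, Fin.eta, Function.update_of_ne hii]
  simp only [HN, θU, gy]
  rw [h1]
  field_simp
  ring

theorem ubx_hamV_self (k : ℕ) (κ : Fin N → Fin K) (l : Fin K) (c : ℝ) :
    Ham (βN (N := N)) (fun ω => c * N * ovl k κ l ω ω) := (ham_ovl_self k κ l).smul (c * N)

theorem ubx_hamV_gy (k : ℕ) (κ : Fin N → Fin K) (i : Fin k) (l : Fin K) (c : ℝ) :
    Ham (βN (N := N)) (fun ω => c * N * gy k κ i l ω) := (ham_gy k κ i l).smul (c * N)

/-- direction `x'_l`. -/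
theorem fU_deriv_self (hN : 0 < N) (hP : HaarO P) [IsProbabilityMeasure A] (κ : Fin N → Fin K)
    (d : Fin K → ℝ) (k : ℕ) (s t : ℝ) (z : ZU k K) (l : Fin K) (y : ℝ) :
    HasDerivAt (fun y => fU P A κ d k s t (z.1, Function.update z.2.1 l y, z.2.2))
      ((s / 2) * selfOv P A (ζUB k) k
        (θU κ d k s t (z.1, Function.update z.2.1 l y, z.2.2)) l) y := by
  have hN' : (N : ℝ) ≠ 0 := by positivity
  have := prob_mN hP A
  have hβ := dom_mN hP A
  have h := nest_hasDerivAt hβ (exps_UB k) (k + 1) 0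
    (HN_ham k (θU κ d k s t (z.1, Function.update z.2.1 l 0, z.2.2)))
    (ubx_hamV_self (N := N) k κ l (s / 2)) y
  have h2 := (h.const_mul (1 / (N : ℝ))).sub_const
    ((1 / 2) * ∑ i ∈ Finset.range k,
      (θU κ d k s t (z.1, Function.update z.2.1 l 0, z.2.2)).v i ^ 2)
  refine (h2.congr_deriv ?_).congr_of_eventuallyEq (Filter.Eventually.of_forall fun y' => ?_)
  · rw [pathE_mul, ← ubx_HN_self hN κ d k s t z l y]
    unfold selfOv
    have e : (θU κ d k s t (z.1, Function.update z.2.1 l y, z.2.2)).κ = κ := rfl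
    rw [e]
    field_simp
  · simp only [fU, fN]
    rw [ubx_HN_self hN κ d k s t z l y']
    rfl

/-- second derivative in the direction `x'_l`. -/
theorem self_deriv (hN : 0 < N) (hP : HaarO P) [IsProbabilityMeasure A] (κ : Fin N → Fin K)
    (d : Fin K → ℝ) (k : ℕ) (s t : ℝ) (z : ZU k K) (l : Fin K) (y : ℝ) :
    HasDerivAt (fun y => (s / 2) * selfOv P A (ζUB k) k
        (θU κ d k s t (z.1, Function.update z.2.1 l y, z.2.2)) l)
      ((1 / (N : ℝ)) * Jvar (mN P A) (ζUB k) (k + 1) 0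
        (HN k (θU κ d k s t (z.1, Function.update z.2.1 l y, z.2.2)))
        (fun ω => (s / 2) * N * ovl k κ l ω ω)) y := by
  have hN' : (N : ℝ) ≠ 0 := by positivity
  have := prob_mN hP A
  have hβ := dom_mN hP A
  have h := pathE_V_hasDerivAt hβ (exps_UB k) (k + 1) 0
    (HN_ham k (θU κ d k s t (z.1, Function.update z.2.1 l 0, z.2.2)))
    (ubx_hamV_self (N := N) k κ l (s / 2)) y
  have h2 := h.const_mul (1 / (N : ℝ))
  rw [← ubx_HN_self hN κ d k s t z l y] at h2
  refine h2.congr_of_eventuallyEq (Filter.Eventually.of_forall fun y' => ?_)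
  simp only
  rw [pathE_mul, ← ubx_HN_self hN κ d k s t z l y']
  unfold selfOv
  have e : (θU κ d k s t (z.1, Function.update z.2.1 l y', z.2.2)).κ = κ := rfl
  rw [e]
  field_simp

/-- direction `x_{i,l}`, `i ≥ 1`. -/
theorem fU_deriv_gy (hN : 0 < N) (hP : HaarO P) [IsProbabilityMeasure A] (κ : Fin N → Fin K)
    (d : Fin K → ℝ) (k : ℕ) (s t : ℝ) (z : ZU k K) (i : Fin k) (hi : 1 ≤ (i : ℕ)) (l : Fin K)
    (y : ℝ) :
    HasDerivAt (fun y => fU P A κ d k s t
        (z.1, z.2.1, Function.update z.2.2 i (Function.update (z.2.2 i) l y)))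
      (s * pathE (mN P A) (ζUB k) (k + 1) 0 (HN k (θU κ d k s t
        (z.1, z.2.1, Function.update z.2.2 i (Function.update (z.2.2 i) l y)))) (gy k κ i l)) y := by
  have hN' : (N : ℝ) ≠ 0 := by positivity
  have := prob_mN hP A
  have hβ := dom_mN hP A
  have h := nest_hasDerivAt hβ (exps_UB k) (k + 1) 0
    (HN_ham k (θU κ d k s t
      (z.1, z.2.1, Function.update z.2.2 i (Function.update (z.2.2 i) l 0))))
    (ubx_hamV_gy (N := N) k κ i l s) y
  have h2 := (h.const_mul (1 / (N : ℝ))).sub_const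
    ((1 / 2) * ∑ i' ∈ Finset.range k, (θU κ d k s t
      (z.1, z.2.1, Function.update z.2.2 i (Function.update (z.2.2 i) l 0))).v i' ^ 2)
  refine (h2.congr_deriv ?_).congr_of_eventuallyEq (Filter.Eventually.of_forall fun y' => ?_)
  · rw [pathE_mul, ← ubx_HN_gy hN κ d k s t z i hi l y]
    field_simp
  · simp only [fU, fN]
    rw [ubx_HN_gy hN κ d k s t z i hi l y']
    rfl

/-- second derivative in the direction `x_{i,l}`. -/
theorem gy_deriv (hN : 0 < N) (hP : HaarO P) [IsProbabilityMeasure A] (κ : Fin N → Fin K)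
    (d : Fin K → ℝ) (k : ℕ) (s t : ℝ) (z : ZU k K) (i : Fin k) (hi : 1 ≤ (i : ℕ)) (l : Fin K)
    (y : ℝ) :
    HasDerivAt (fun y => s * pathE (mN P A) (ζUB k) (k + 1) 0 (HN k (θU κ d k s t
        (z.1, z.2.1, Function.update z.2.2 i (Function.update (z.2.2 i) l y)))) (gy k κ i l))
      ((1 / (N : ℝ)) * Jvar (mN P A) (ζUB k) (k + 1) 0 (HN k (θU κ d k s t
        (z.1, z.2.1, Function.update z.2.2 i (Function.update (z.2.2 i) l y))))
        (fun ω => s * N * gy k κ i l ω)) y := by
  have hN' : (N : ℝ) ≠ 0 := by positivity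
  have := prob_mN hP A
  have hβ := dom_mN hP A
  have h := pathE_V_hasDerivAt hβ (exps_UB k) (k + 1) 0
    (HN_ham k (θU κ d k s t
      (z.1, z.2.1, Function.update z.2.2 i (Function.update (z.2.2 i) l 0))))
    (ubx_hamV_gy (N := N) k κ i l s) y
  have h2 := h.const_mul (1 / (N : ℝ))
  rw [← ubx_HN_gy hN κ d k s t z i hi l y] at h2
  refine h2.congr_of_eventuallyEq (Filter.Eventually.of_forall fun y' => ?_)
  simp only
  rw [pathE_mul, ← ubx_HN_gy hN κ d k s t z i hi l y']
  field_simp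

theorem ubx_ζUB_k (k : ℕ) : ζUB k k = 1 := by
  unfold ζUB
  rw [div_self (by positivity), min_self]

theorem ubx_ζUB_mono (k : ℕ) : Monotone (ζUB k) := by
  intro i j hij
  unfold ζUB
  refine min_le_min le_rfl ?_
  have : (i : ℝ) ≤ j := by exact_mod_cast hij
  gcongr

theorem ubx_self_le_one (hN : 0 < N) (hP : HaarO P) [IsProbabilityMeasure A] {ζ : ℕ → ℝ}
    (hζ : Exps ζ) (k : ℕ) (θ : Par N K) (l : Fin K) : selfOv P A ζ k θ l ≤ 1 := by
  have h := sum_self (P := P) (A := A) (k := k) hN hP hζ θ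
  rw [← h]
  exact Finset.single_le_sum (f := fun l => selfOv P A ζ k θ l)
    (fun l _ => self_nonneg hP hζ θ l) (Finset.mem_univ l)

/-- PROOF. `pathE_gy`, `rho_nonneg`, `rho_le_self`, `self ≤ 1` (`sum_self`, `self_nonneg`), `Σ_{j≥i} (ζ_{j+1}-ζ_j) ≤ 1`:
the value is `s y (c_l - Σ..) ∈ [0, 2s]`. -/
theorem gy_bound (hN : 0 < N) (hP : HaarO P) [IsProbabilityMeasure A] (κ : Fin N → Fin K)
    (d : Fin K → ℝ) (k : ℕ) {s : ℝ} (hs : 0 ≤ s) (t : ℝ) {z : ZU k K} (hz : z ∈ SU k K) (i : Fin k)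
    (l : Fin K) :
    0 ≤ pathE (mN P A) (ζUB k) (k + 1) 0 (HN k (θU κ d k s t z)) (gy k κ i l) ∧
      pathE (mN P A) (ζUB k) (k + 1) 0 (HN k (θU κ d k s t z)) (gy k κ i l) ≤
        2 * s * selfOv P A (ζUB k) k (θU κ d k s t z) l := by
  have h := pathE_gy (P := P) (A := A) hP (exps_UB k) (ubx_ζUB_k k) (θU κ d k s t z) i l
  have e : (θU κ d k s t z).κ = κ := rfl
  rw [e] at h
  rw [h]
  set S := selfOv P A (ζUB k) k (θU κ d k s t z) l with hS
  have hS0 : 0 ≤ S := self_nonneg hP (exps_UB k) _ l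
  set R := ∑ j ∈ Finset.Ico (i : ℕ) k, (ζUB k (j + 1) - ζUB k j) *
    rhoOv P A (ζUB k) k (θU κ d k s t z) l j with hR
  have hR0 : 0 ≤ R := by
    refine Finset.sum_nonneg fun j hj => mul_nonneg ?_ ?_
    · exact sub_nonneg.2 (ubx_ζUB_mono k (Nat.le_succ j))
    · exact rho_nonneg hP (exps_UB k) _ l (Finset.mem_Ico.1 hj).2
  have hR1 : R ≤ S := by
    calc R ≤ ∑ j ∈ Finset.Ico (i : ℕ) k, (ζUB k (j + 1) - ζUB k j) * S := by
          refine Finset.sum_le_sum fun j hj => mul_le_mul_of_nonneg_left ?_ ?_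
          · exact rho_le_self hP (exps_UB k) _ l (Finset.mem_Ico.1 hj).2
          · exact sub_nonneg.2 (ubx_ζUB_mono k (Nat.le_succ j))
      _ = (ζUB k k - ζUB k i) * S := by
          rw [← Finset.sum_mul, Finset.sum_Ico_sub (ζUB k) (by omega)]
      _ ≤ 1 * S := by
          refine mul_le_mul_of_nonneg_right ?_ hS0
          rw [ubx_ζUB_k]
          have := (exps_UB k i).1
          linarith
      _ = S := one_mul S
  have hc : 0 ≤ (θU κ d k s t z).c i l ∧ (θU κ d k s t z).c i l ≤ 2 * s := by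
    simp only [θU, i.2, dif_pos, Fin.eta]
    split_ifs
    · constructor <;> linarith
    · have h2 := hz.2 i l
      constructor
      · exact mul_nonneg hs (by linarith [h2.1])
      · nlinarith [h2.2]
  constructor
  · exact mul_nonneg hc.1 (by linarith)
  · exact mul_le_mul hc.2 (by linarith) (by linarith) (by linarith)

end Crest.Agent.RI
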