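import Crest.Agent.RI.UBIface
import Crest.Agent.RI.TConvA

/-!
# Row 164, Part 6, chunk UBEnd (medium): the end point `t = 1`
-/

set_option autoImplicit false

namespace Crest.Agent.RI

open MeasureTheory ProbabilityTheory
open Crest.ProbabilityR.InvariantGlass

variable {N K : ℕ} {P : Measure (ON N)} {A : Measure (Fin N → Bool)}

private theorem UBEnd_TT_const {E : Type} [MeasurableSpace E] (m : Measure E)
    [IsProbabilityMeasure m] (z c : ℝ) : TT m z (fun _ => c) = c := by
  unfold TT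
  split_ifs with h
  · simp
  · simp only [integral_const, probReal_univ, smul_eq_mul, one_mul, Real.log_exp]
    field_simp

private theorem UBEnd_nest_last {E : Type} [MeasurableSpace E] (m : Measure E)
    [IsProbabilityMeasure m] (ζ : ℕ → ℝ) (G : E → ℝ) (n i : ℕ) :
    nest m ζ (n + 1) i (fun ω => G (ω (Fin.last n))) = TT m (ζ (i + n)) G := by
  induction n generalizing i with
  | zero =>
    simp only [nest]
    rfl
  | succ n ih =>
    have h1 : nest m ζ (n + 1 + 1) i (fun ω => G (ω (Fin.last (n + 1)))) =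
        TT m (ζ i) (fun e => nest m ζ (n + 1) (i + 1) (fun ω : Fin (n + 1) → E =>
          G ((Fin.cons e ω : Fin (n + 1 + 1) → E) (Fin.last (n + 1))))) := rfl
    rw [h1]
    have h2 : ∀ (e : E) (ω : Fin (n + 1) → E),
        (Fin.cons e ω : Fin (n + 1 + 1) → E) (Fin.last (n + 1)) = ω (Fin.last n) := by
      intro e ω
      rw [← Fin.succ_last, Fin.cons_succ]
    simp only [h2, ih (i + 1)]
    rw [UBEnd_TT_const]
    congr 1
    congr 1
    omega

private theorem UBEnd_int_cfg {P : Measure (ON N)} (hP : HaarO P) [IsProbabilityMeasure A]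
    (f : (Fin N → Bool) → ℝ) : ∫ e, f e.2.2.2 ∂(mN P A) = ∫ σ, f σ ∂A := by
  have := hP.prob
  have h : MeasurePreserving (fun e : EN N => e.2.2.2) (mN P A) A := by
    have h1 : MeasurePreserving (Prod.snd : EN N → _) (mN P A) ((gvec N).prod ((gvec N).prod A)) :=
      measurePreserving_snd
    have h2 : MeasurePreserving (Prod.snd : (Fin N → ℝ) × (Fin N → ℝ) × (Fin N → Bool) → _)
      ((gvec N).prod ((gvec N).prod A)) ((gvec N).prod A) := measurePreserving_snd
    have h3 : MeasurePreserving (Prod.snd : (Fin N → ℝ) × (Fin N → Bool) → _)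
      ((gvec N).prod A) A := measurePreserving_snd
    exact h3.comp (h2.comp h1)
  have h' := integral_map (μ := mN P A) (φ := fun e : EN N => e.2.2.2) h.measurable.aemeasurable
    (f := f) (Measurable.of_discrete (f := f)).aestronglyMeasurable
  rw [h.map_eq] at h'
  exact h'.symm

private theorem UBEnd_int_mat {P : Measure (ON N)} (hP : HaarO P) [IsProbabilityMeasure A]
    {f : ON N → ℝ} (hf : Measurable f) : ∫ e, f e.1 ∂(mN P A) = ∫ U, f U ∂P := by
  have := hP.prob
  have h : MeasurePreserving (Prod.fst : EN N → ON N) (mN P A) P := measurePreserving_fst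
  have h' := integral_map (μ := mN P A) (φ := (Prod.fst : EN N → ON N)) h.measurable.aemeasurable
    (f := f) hf.aestronglyMeasurable
  rw [h.map_eq] at h'
  exact h'.symm

/-- Without fields only the level `0` and the leaf matter. PROOF: unfold `nest`: at the levels `1..k-1` the
function does not depend on the coordinate (`TT m ζ (const) = const`), leaf exponent `ζUB k k = 1`, level `0` exponent
`1/(k+1)` (`k ≥ 1`); the Gaussian components integrate out. -/
theorem nest_nofield (hP : HaarO P) [IsProbabilityMeasure A] (κ : Fin N → Fin K) (d : Fin K → ℝ)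
    {k : ℕ} (hk : 1 ≤ k) :
    nest (mN P A) (ζUB k) (k + 1) 0 (HN k ⟨κ, d, fun _ => 0, fun _ _ => 0, fun _ => 0⟩) =
      ((k : ℝ) + 1) * Real.log (∫ U, Real.exp ((1 / ((k : ℝ) + 1)) *
        Real.log (∫ σ, Real.exp ((1 / 2) * ∑ a, d (κ a) * rot U σ a ^ 2) ∂A)) ∂P) := by
  have hprob := prob_mN hP A
  have := hP.prob
  obtain ⟨k', rfl⟩ : ∃ k', k = k' + 1 := ⟨k - 1, by omega⟩
  set m := mN P A with hm
  set F : ON N → (Fin N → Bool) → ℝ := fun U σ => (1 / 2) * ∑ a, d (κ a) * rot U σ a ^ 2 with hF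
  have hFm : Measurable (fun x : ON N × (Fin N → Bool) => F x.1 x.2) := by
    refine Measurable.const_mul (Finset.measurable_sum _ fun a _ => ?_) _
    exact ((measurable_rot a).pow_const 2).const_mul _
  have h0 : nest m (ζUB (k' + 1)) (k' + 1 + 1) 0
      (HN (k' + 1) (⟨κ, d, fun _ => 0, fun _ _ => 0, fun _ => 0⟩ : Par N K)) =
      TT m (ζUB (k' + 1) 0) (fun e => nest m (ζUB (k' + 1)) (k' + 1) (0 + 1)
        (fun ω : Fin (k' + 1) → EN N => F e.1 (ω (Fin.last k')).2.2.2)) := by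
    show TT m (ζUB (k' + 1) 0) (fun e => nest m (ζUB (k' + 1)) (k' + 1) (0 + 1)
        (fun ω : Fin (k' + 1) → EN N => HN (k' + 1) (⟨κ, d, fun _ => 0, fun _ _ => 0,
          fun _ => 0⟩ : Par N K) (Fin.cons e ω))) = _
    congr 1
    funext e
    congr 1
    funext ω
    have h2 : (Fin.cons e ω : Fin (k' + 1 + 1) → EN N) (Fin.last (k' + 1)) = ω (Fin.last k') := by
      rw [← Fin.succ_last, Fin.cons_succ]
    simp only [HN, yv, Fin.cons_zero, h2, zero_mul, Finset.sum_const_zero, add_zero, hF]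
  rw [h0]
  have hζ1 : ζUB (k' + 1) (0 + 1 + k') = 1 := by
    unfold ζUB
    apply min_eq_left
    rw [le_div_iff₀ (by positivity)]
    push_cast
    linarith
  have hζ0 : ζUB (k' + 1) 0 = 1 / (((k' + 1 : ℕ) : ℝ) + 1) := by
    unfold ζUB
    rw [min_eq_right]
    · simp
    · rw [div_le_iff₀ (by positivity)]
      push_cast
      have : (0 : ℝ) ≤ k' := Nat.cast_nonneg _
      linarith
  have h1 : ∀ e : EN N, nest m (ζUB (k' + 1)) (k' + 1) (0 + 1)
      (fun ω : Fin (k' + 1) → EN N => F e.1 (ω (Fin.last k')).2.2.2) =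
      Real.log (∫ σ, Real.exp (F e.1 σ) ∂A) := by
    intro e
    rw [UBEnd_nest_last m (ζUB (k' + 1)) (fun e' : EN N => F e.1 e'.2.2.2) k' (0 + 1), hζ1]
    unfold TT
    rw [if_neg one_ne_zero, inv_one, one_mul]
    simp only [one_mul]
    rw [hm, UBEnd_int_cfg hP (fun σ => Real.exp (F e.1 σ))]
  simp only [h1, hζ0]
  unfold TT
  have hne : (1 / (((k' + 1 : ℕ) : ℝ) + 1)) ≠ 0 := by positivity
  rw [if_neg hne, one_div, inv_inv]
  congr 2
  have hgm : Measurable (fun U : ON N => Real.exp ((((k' + 1 : ℕ) : ℝ) + 1)⁻¹ *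
      Real.log (∫ σ, Real.exp (F U σ) ∂A))) := by
    refine Real.measurable_exp.comp (Measurable.const_mul (Real.measurable_log.comp ?_) _)
    exact ((Real.measurable_exp.comp hFm).stronglyMeasurable.integral_prod_right').measurable
  rw [hm, UBEnd_int_mat hP hgm]

/-- PROOF. `nest_tangent` at `H = HN ⟨κ, d, 0, 0, 0⟩` with `U ω = (s/2) N ∑ (3/2) ovl_l + s N ∑_{i≥1,l} (3/2) gy_{i,l}`; `E_Q U ≥ 0` because
`ovl_self_nonneg` and `pathE gy = 0` (`pathE_gy` with `c = 0`). -/
theorem end_ineq (hN : 0 < N) (hP : HaarO P) [IsProbabilityMeasure A] (κ : Fin N → Fin K)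
    (d : Fin K → ℝ) {k : ℕ} (hk : 1 ≤ k) {s : ℝ} (hs : 0 ≤ s) :
    (1 / (N : ℝ)) * (((k : ℝ) + 1) * Real.log (∫ U, Real.exp ((1 / ((k : ℝ) + 1)) *
        Real.log (∫ σ, Real.exp ((1 / 2) * ∑ a, d (κ a) * rot U σ a ^ 2) ∂A)) ∂P)) ≤
      fU P A κ d k s 1 (0, fun _ => 3 / 2, fun _ _ => 3 / 2) := by
  have hprob := prob_mN hP A
  have hβ := dom_mN (N := N) hP A
  have hζ := exps_UB k
  have hζk : ζUB k k = 1 := by
    unfold ζUB
    apply min_eq_left
    rw [le_div_iff₀ (by positivity)]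
    linarith
  have hNpos : (0 : ℝ) < N := by exact_mod_cast hN
  set θ0 : Par N K := ⟨κ, d, fun _ => 0, fun _ _ => 0, fun _ => 0⟩ with hθ0
  set θ1 : Par N K := θU κ d k s 1 ((0 : Fin k → ℝ), (fun _ => 3 / 2 : Fin K → ℝ),
    (fun _ _ => 3 / 2 : Fin k → Fin K → ℝ)) with hθ1
  have hH0 := HN_ham k θ0
  -- the perturbation
  set U1 : (Fin (k + 1) → EN N) → ℝ := fun ω => (s * (3 / 2) / 2) * ∑ a, yv k ω a ^ 2 with hU1
  set U2 : (Fin (k + 1) → EN N) → ℝ := fun ω => ∑ i : Fin k, ∑ l : Fin K,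
    (if (i : ℕ) = 0 then 0 else s * (3 / 2)) * N * gy k κ i l ω with hU2
  have hU1H : Ham (βN (N := N)) U1 := by
    have : U1 = fun _ => (s * (3 / 2) / 2) * N := by
      funext ω
      simp only [hU1, sum_yv_sq]
    rw [this]
    exact Ham.const hβ.nonneg _
  have hU2H : Ham (βN (N := N)) U2 :=
    Ham.sum hβ.nonneg _ fun i _ => Ham.sum hβ.nonneg _ fun l _ => Ham.smul (ham_gy k κ i l) _
  have hUH : Ham (βN (N := N)) (fun ω => U1 ω + U2 ω) := Ham.add0 hβ.nonneg hU1H hU2H
  -- decomposition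
  have hdec : ∀ ω, HN k θ1 ω = HN k θ0 ω + (U1 ω + U2 ω) := by
    intro ω
    have hgy : ∀ i : Fin k, ∑ l : Fin K, (if (i : ℕ) = 0 then 0 else s * (3 / 2)) * N *
        gy k κ i l ω = ∑ a : Fin N, (if (i : ℕ) = 0 then 0 else s * (3 / 2)) *
          ((ω i.castSucc).2.2.1 a * yv k ω a) := by
      intro i
      unfold gy
      have e1 : ∀ l : Fin K, (if (i : ℕ) = 0 then 0 else s * (3 / 2)) * (N : ℝ) *
          ((1 / (N : ℝ)) * ∑ a : Fin N,
            if κ a = l then (ω i.castSucc).2.2.1 a * yv k ω a else 0) =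
          ∑ a : Fin N, (if κ a = l then (if (i : ℕ) = 0 then 0 else s * (3 / 2)) *
            ((ω i.castSucc).2.2.1 a * yv k ω a) else 0) := by
        intro l
        rw [show (if (i : ℕ) = 0 then 0 else s * (3 / 2)) * (N : ℝ) *
          ((1 / (N : ℝ)) * ∑ a : Fin N,
            if κ a = l then (ω i.castSucc).2.2.1 a * yv k ω a else 0) =
            (if (i : ℕ) = 0 then 0 else s * (3 / 2)) * ∑ a : Fin N,
            (if κ a = l then (ω i.castSucc).2.2.1 a * yv k ω a else 0) by field_simp,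
          Finset.mul_sum]
        refine Finset.sum_congr rfl fun a _ => ?_
        rw [mul_ite, mul_zero]
      rw [Finset.sum_congr rfl fun l _ => e1 l, Finset.sum_comm]
      refine Finset.sum_congr rfl fun a _ => ?_
      rw [Finset.sum_ite_eq Finset.univ (κ a)]
      simp
    have hHN1 : HN k θ1 ω = (1 / 2) * ∑ a : Fin N, (1 * d (κ a) + s * (3 / 2)) * yv k ω a ^ 2 +
        ∑ i : Fin k, 0 * ∑ r : Fin N, (ω i.castSucc).2.1 r * spin ((ω (Fin.last k)).2.2.2 r) +
        ∑ i : Fin k, ∑ a : Fin N, (if (i : ℕ) = 0 then 0 else s * (3 / 2)) *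
          (ω i.castSucc).2.2.1 a * yv k ω a + 0 := by
      simp only [HN, hθ1, θU, Fin.is_lt, dite_true, Pi.zero_apply]
    have hHN0 : HN k θ0 ω = (1 / 2) * ∑ a : Fin N, d (κ a) * yv k ω a ^ 2 := by
      simp only [HN, hθ0, zero_mul, Finset.sum_const_zero, add_zero]
    rw [hHN1, hHN0]
    simp only [hU1, hU2, hgy, zero_mul, Finset.sum_const_zero, add_zero]
    have e2 : ∑ a : Fin N, (1 * d (κ a) + s * (3 / 2)) * yv k ω a ^ 2 =
        ∑ a : Fin N, d (κ a) * yv k ω a ^ 2 + s * (3 / 2) * ∑ a : Fin N, yv k ω a ^ 2 := by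
      rw [Finset.mul_sum, ← Finset.sum_add_distrib]
      refine Finset.sum_congr rfl fun a _ => ?_
      ring
    rw [e2]
    have e3 : ∑ i : Fin k, ∑ a : Fin N, (if (i : ℕ) = 0 then 0 else s * (3 / 2)) *
          (ω i.castSucc).2.2.1 a * yv k ω a = ∑ i : Fin k, ∑ a : Fin N,
          (if (i : ℕ) = 0 then 0 else s * (3 / 2)) * ((ω i.castSucc).2.2.1 a * yv k ω a) := by
      refine Finset.sum_congr rfl fun i _ => Finset.sum_congr rfl fun a _ => ?_
      ring
    rw [e3]
    ring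
  -- expectation of the perturbation
  have hE2 : pathE (mN P A) (ζUB k) (k + 1) 0 (HN k θ0) U2 = 0 := by
    have hsum2 : ∀ (i : Fin k) (S : Finset (Fin K)),
        pathE (mN P A) (ζUB k) (k + 1) 0 (HN k θ0) (fun ω => ∑ l ∈ S,
          (if (i : ℕ) = 0 then 0 else s * (3 / 2)) * N * gy k κ i l ω) = 0 := by
      intro i S
      classical
      induction S using Finset.induction_on with
      | empty =>
        simp only [Finset.sum_empty]
        exact pathE_const hβ hζ (k + 1) 0 hH0 0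
      | insert l S hl ih =>
        simp only [Finset.sum_insert hl]
        rw [pathE_add hβ hζ (k + 1) 0 hH0
          ((Ham.smul (ham_gy k κ i l) _).tame0 hβ.nonneg)
          ((Ham.sum hβ.nonneg S fun l _ => Ham.smul (ham_gy k κ i l) _).tame0 hβ.nonneg), ih,
          pathE_mul]
        have h1 := pathE_gy (A := A) hP hζ hζk θ0 i l
        have h2 : θ0.c i l = 0 := rfl
        rw [h2, zero_mul] at h1
        have h3 : θ0.κ = κ := rfl
        rw [h3] at h1
        rw [h1, mul_zero, add_zero]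
    have hsum1 : ∀ (S : Finset (Fin k)),
        pathE (mN P A) (ζUB k) (k + 1) 0 (HN k θ0) (fun ω => ∑ i ∈ S, ∑ l : Fin K,
          (if (i : ℕ) = 0 then 0 else s * (3 / 2)) * N * gy k κ i l ω) = 0 := by
      intro S
      classical
      induction S using Finset.induction_on with
      | empty =>
        simp only [Finset.sum_empty]
        exact pathE_const hβ hζ (k + 1) 0 hH0 0
      | insert i S hi ih =>
        simp only [Finset.sum_insert hi]
        rw [pathE_add hβ hζ (k + 1) 0 hH0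
          ((Ham.sum hβ.nonneg Finset.univ fun l _ => Ham.smul (ham_gy k κ i l) _).tame0 hβ.nonneg)
          ((Ham.sum hβ.nonneg S fun i _ => Ham.sum hβ.nonneg Finset.univ fun l _ =>
            Ham.smul (ham_gy k κ i l) _).tame0 hβ.nonneg), ih, hsum2, add_zero]
    exact hsum1 Finset.univ
  have hE1 : 0 ≤ pathE (mN P A) (ζUB k) (k + 1) 0 (HN k θ0) U1 := by
    have h1 := pathE_mono hβ hζ (k + 1) 0 hH0 ((Ham.const hβ.nonneg 0).tame0 hβ.nonneg)
      (hU1H.tame0 hβ.nonneg) (fun ω => by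
        show (0 : ℝ) ≤ (s * (3 / 2) / 2) * ∑ a, yv k ω a ^ 2
        positivity)
    rwa [pathE_const hβ hζ (k + 1) 0 hH0 0] at h1
  have hE : 0 ≤ pathE (mN P A) (ζUB k) (k + 1) 0 (HN k θ0) (fun ω => U1 ω + U2 ω) := by
    rw [pathE_add hβ hζ (k + 1) 0 hH0 (hU1H.tame0 hβ.nonneg) (hU2H.tame0 hβ.nonneg), hE2, add_zero]
    exact hE1
  have htan := nest_tangent hβ hζ (k + 1) 0 hH0 hUH
  have hle : nest (mN P A) (ζUB k) (k + 1) 0 (HN k θ0) ≤
      nest (mN P A) (ζUB k) (k + 1) 0 (HN k θ1) := by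
    have e : HN k θ1 = fun ω => HN k θ0 ω + (U1 ω + U2 ω) := funext hdec
    rw [e]
    linarith
  rw [← nest_nofield hP κ d hk]
  have hfU : fU P A κ d k s 1 (0, fun _ => 3 / 2, fun _ _ => 3 / 2) =
      (1 / (N : ℝ)) * nest (mN P A) (ζUB k) (k + 1) 0 (HN k θ1) := by
    unfold fU fN
    rw [← hθ1]
    have : ∑ i ∈ Finset.range k, θ1.v i ^ 2 = 0 := by
      refine Finset.sum_eq_zero fun i hi => ?_
      simp [hθ1, θU]
    rw [this]
    ring
  rw [hfU]
  exact mul_le_mul_of_nonneg_left hle (by positivity)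

end Crest.Agent.RI
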