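import Crest.Agent.RI.UBG
import Crest.Agent.RI.UBAtMax

/-!
# Row 164, Part 6, chunk UBErr (medium, assembly): the error at a maximizer
-/

set_option autoImplicit false

namespace Crest.Agent.RI

open MeasureTheory ProbabilityTheory
open Crest.ProbabilityR.InvariantGlass

theorem Conc.mono {N K : ℕ} {P : Measure (ON N)} {A : Measure (Fin N → Bool)} {ζ : ℕ → ℝ} {k : ℕ}
    {θ : Par N K} {δ δ' : ℝ} (h : Conc P A ζ k θ δ) (hδ : δ ≤ δ') : Conc P A ζ k θ δ' :=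
  ⟨fun l => (h.self l).trans hδ, fun i hi l => (h.gy i hi l).trans hδ⟩

private theorem exps_UB' (k : ℕ) : Exps (ζUB k) := by
  intro i
  refine ⟨le_min zero_le_one (by positivity), min_le_left _ _⟩

/-- PROOF. `closure_eps (D.scale t _)` with `ε' = 2 t ε` gives `δ`; `loops_UB D` with `ε := δ` gives `k₀, s₀, δ₀, N₀`; take
`s₀' = min s₀ (1/2)`, `η = δ`, `N₀'` with `√(8(k+1)/(s²N)) ≤ δ₀` for `N ≥ N₀'`, `N ≥ 1`. At a maximizer `conc_at_max` gives
`Conc .. δ₀`, so `loops_UB` applies. With `ρ l = stepUB k (rhoOv .. l)`, `c = selfOv`, `a = prop κ` (`DF_step`, `integral_eF_step`,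
`stepUB_*`, `lamF_nonneg`, `rho_nonneg`, `rho_mono`, `rho_le_self`, `sum_self`, `self_nonneg`) `closure_eps` gives
`∑ t d_l c_l ≤ ∫ Θ_t(D_{pN}) + 2 t ε = t ∫ Θ(t D_{pN}) + 2 t ε` (`Blk.Θ_scale`, `stepUB_sum`), i.e. `½ ∑ d_l c_l ≤ gD D k pN t + ε`, and
`cone_at_max` + `deficit_step_mono` + `gD_le_of_deficit` give `gD D k pN t ≤ gD D k p t`. -/
theorem err_le (D : Blk) {ε t : ℝ} (hε : 0 < ε) (ht : 0 < t) (ht1 : t ≤ 1) :
    ∃ k₀ : ℕ, ∀ k ≥ k₀, ∃ s₀ : ℝ, 0 < s₀ ∧ ∀ s : ℝ, 0 < s → s ≤ s₀ →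
      ∃ (N₀ : ℕ) (η : ℝ), 0 < η ∧ ∀ N ≥ N₀, ∀ κ : Fin N → Fin D.K, D.Close η κ →
      ∀ P : Measure (ON N), HaarO P → ∀ A : Measure (Fin N → Bool), IsProbabilityMeasure A →
      ∀ p : ℕ → ℝ, Monotone p → (∀ i, 0 ≤ p i ∧ p i ≤ 1) →
      ∀ z : ZU k D.K, IsMaxU P A κ D.d k s t p z →
        (1 / 2) * ∑ l, D.d l * selfOv P A (ζUB k) k (θU κ D.d k s t z) l ≤ gD D k p t + ε := by
  have hε' : 0 < 2 * t * ε := by positivity
  obtain ⟨δ, hδ, hclo⟩ := closure_eps (D.scale t ht.ne') hε'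
  obtain ⟨k₀, hk₀⟩ := loops_UB D hδ ht
  refine ⟨k₀, fun k hk => ?_⟩
  obtain ⟨s₀, hs₀, hs⟩ := hk₀ k hk
  refine ⟨min s₀ (1 / 2), lt_min hs₀ (by norm_num), fun s hs0 hsle => ?_⟩
  obtain ⟨δ₀, N₀, hδ₀, hN⟩ := hs s hs0 (hsle.trans (min_le_left _ _))
  have hs2 : s ≤ 1 / 2 := hsle.trans (min_le_right _ _)
  refine ⟨max N₀ (⌈8 * ((k : ℝ) + 1) / (s ^ 2 * δ₀ ^ 2)⌉₊ + 1), δ, hδ, ?_⟩
  intro N hNge κ hclose P hP A hA p hpm hp z hz
  have hNge0 : N₀ ≤ N := (le_max_left _ _).trans hNge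
  have hNge1 : ⌈8 * ((k : ℝ) + 1) / (s ^ 2 * δ₀ ^ 2)⌉₊ + 1 ≤ N := (le_max_right _ _).trans hNge
  have hNpos : 0 < N := by omega
  have hNR : (0 : ℝ) < N := by exact_mod_cast hNpos
  set θ := θU κ D.d k s t z with hθ
  -- concentration
  have hsq : Real.sqrt (8 * ((k : ℝ) + 1) / (s ^ 2 * N)) ≤ δ₀ := by
    rw [Real.sqrt_le_left hδ₀.le]
    have h1 : 8 * ((k : ℝ) + 1) / (s ^ 2 * δ₀ ^ 2) ≤ N := by
      refine (Nat.le_ceil _).trans ?_
      exact_mod_cast (Nat.le_succ _).trans hNge1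
    rw [div_le_iff₀ (by positivity)] at h1 ⊢
    nlinarith [h1]
  have hconc : Conc P A (ζUB k) k θ δ₀ := (conc_at_max hNpos hP κ D.d k hs0 hs2 t hz).mono hsq
  obtain ⟨hD, hE⟩ := hN N hNge0 κ P hP A hA z hz.1 hconc
  have hζ := exps_UB' k
  -- facts on the overlaps
  have hself0 : ∀ l, 0 ≤ selfOv P A (ζUB k) k θ l := fun l => self_nonneg hP hζ θ l
  have hsum1 : ∑ l, selfOv P A (ζUB k) k θ l = 1 := sum_self hNpos hP hζ θ
  have hself1 : ∀ l, selfOv P A (ζUB k) k θ l ≤ 1 := by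
    intro l
    rw [← hsum1]
    exact Finset.single_le_sum (fun i _ => hself0 i) (Finset.mem_univ l)
  have hrho : ∀ l, ∀ i < k, 0 ≤ rhoOv P A (ζUB k) k θ l i ∧
      rhoOv P A (ζUB k) k θ l i ≤ selfOv P A (ζUB k) k θ l := fun l i hi =>
    ⟨rho_nonneg hP hζ θ l hi, rho_le_self hP hζ θ l hi⟩
  have hpN0 : ∀ i < k, 0 ≤ pN P A (ζUB k) k θ i ∧ pN P A (ζUB k) k θ i ≤ 1 := by
    intro i hi
    refine ⟨Finset.sum_nonneg fun l _ => (hrho l i hi).1, ?_⟩
    rw [← hsum1]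
    exact Finset.sum_le_sum fun l _ => (hrho l i hi).2
  have key := hclo (fun l => stepUB k (rhoOv P A (ζUB k) k θ l)) (selfOv P A (ζUB k) k θ) (prop κ)
    (fun l => stepUB_measurable k _)
    (fun l => stepUB_mono (fun i hi => (hrho l i hi).1)
      (fun i j hij hj => rho_mono hP hζ θ l hij hj))
    (fun l s _ => stepUB_range zero_le_one
      (fun i hi => ⟨(hrho l i hi).1, ((hrho l i hi).2).trans (hself1 l)⟩) s)
    (fun l => ⟨hself0 l, hself1 l⟩) hsum1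
    (fun l s hs => lamF_nonneg (fun i hi => hrho l i hi) (hself0 l) hs)
    (fun l => hclose l)
    (fun l l' => by
      have := hD l l'
      rw [DF_step]
      have e : (D.scale t ht.ne').d l - (D.scale t ht.ne').d l' = t * (D.d l - D.d l') := by
        simp only [Blk.scale]; ring
      rw [e]
      exact this)
    (fun l l' => by
      have := hE l l'
      rw [integral_eF_step]
      have e : (D.scale t ht.ne').d l - (D.scale t ht.ne').d l' = t * (D.d l - D.d l') := by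
        simp only [Blk.scale]; ring
      rw [e]
      exact this)
  -- the total path
  have hpath : (fun s => ∑ l, stepUB k (rhoOv P A (ζUB k) k θ l) s) =
      stepUB k (pN P A (ζUB k) k θ) := by
    funext s
    exact stepUB_sum k (fun l => rhoOv P A (ζUB k) k θ l) s
  have hint : ∫ r in Set.Ioo (0 : ℝ) 1, (D.scale t ht.ne').Θ
      (deficit (fun s => ∑ l, stepUB k (rhoOv P A (ζUB k) k θ l) s) r) =
      t * ∫ r in Set.Ioo (0 : ℝ) 1, D.Θ (t * deficit (stepUB k (pN P A (ζUB k) k θ)) r) := by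
    rw [hpath, ← integral_const_mul]
    refine setIntegral_congr_fun measurableSet_Ioo fun r hr => ?_
    have hmem := deficit_step_mem (k := k) (p := pN P A (ζUB k) k θ) hpN0
      (Set.Ioo_subset_Icc_self hr)
    exact D.Θ_scale ht ht1 hmem.1 hmem.2
  have hsumd : ∑ l, (D.scale t ht.ne').d l * selfOv P A (ζUB k) k θ l =
      t * ∑ l, D.d l * selfOv P A (ζUB k) k θ l := by
    rw [Finset.mul_sum]
    refine Finset.sum_congr rfl fun l _ => ?_
    simp only [Blk.scale]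
    ring
  have h1 : (1 / 2) * ∑ l, D.d l * selfOv P A (ζUB k) k θ l ≤
      gD D k (pN P A (ζUB k) k θ) t + ε := by
    have h2 := (abs_le.mp key).2
    have h3 : t * ∑ l, D.d l * selfOv P A (ζUB k) k θ l -
        t * ∫ r in Set.Ioo (0 : ℝ) 1, D.Θ (t * deficit (stepUB k (pN P A (ζUB k) k θ)) r) ≤
        2 * t * ε := by
      rw [← hsumd, ← hint]
      exact h2
    unfold gD
    have h4 : t * (∑ l, D.d l * selfOv P A (ζUB k) k θ l -
        ∫ r in Set.Ioo (0 : ℝ) 1, D.Θ (t * deficit (stepUB k (pN P A (ζUB k) k θ)) r)) ≤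
        t * (2 * ε) := by linarith
    have h5 := le_of_mul_le_mul_left h4 ht
    linarith
  refine h1.trans ?_
  have hcone := fun i hi => cone_at_max hNpos hP κ D.d k s t hz i hi
  have hdef : ∀ r ∈ Set.Ioo (0 : ℝ) 1, deficit (stepUB k (pN P A (ζUB k) k θ)) r ≤
      deficit (stepUB k p) r := fun r hr =>
    deficit_step_mono (fun i j hij _ => hpm hij) hcone hr.1.le
  have := gD_le_of_deficit D (fun i _ => hp i) hpN0 hdef (t := t) ⟨ht.le, ht1⟩
  linarith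

end Crest.Agent.RI
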