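import Crest.Agent.RI.FieldNest
import Crest.Agent.RI.IDefs

/-!
# Row 164, Part 11.1: magnetisation classes (helper50)
-/

set_option autoImplicit false

namespace Crest.Agent.RI.FN

open MeasureTheory ProbabilityTheory
open Crest.ProbabilityR.InvariantGlass
open Crest.Agent.RI

variable {N J : ℕ}

/-- Size of a class. -/
def nC (lab : Fin N → Fin J) (j : Fin J) : ℕ := (Finset.univ.filter (fun r => lab r = j)).card

/-- Number of plus spins in each class. -/
def plusC (lab : Fin N → Fin J) (σ : Fin N → Bool) (j : Fin J) : Fin (N + 1) :=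
  ⟨(Finset.univ.filter (fun r => lab r = j ∧ σ r = true)).card, by
    have := Finset.card_le_univ (Finset.univ.filter (fun r => lab r = j ∧ σ r = true))
    rw [Fintype.card_fin] at this
    omega⟩

/-- Class of configurations with given numbers of plus spins. -/
def cls (lab : Fin N → Fin J) (t : Fin J → Fin (N + 1)) : Finset (Fin N → Bool) :=
  Finset.univ.filter (fun σ => plusC lab σ = t)

/-- The magnetisation (sum of spins) of the class `j`. -/
def magS (lab : Fin N → Fin J) (t : Fin J → Fin (N + 1)) (j : Fin J) : ℝ :=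
  2 * ((t j : ℕ) : ℝ) - nC lab j

/-- The mean spin of the class `j`. -/
def magm (lab : Fin N → Fin J) (t : Fin J → Fin (N + 1)) (j : Fin J) : ℚ :=
  (2 * ((t j : ℕ) : ℚ) - nC lab j) / nC lab j

theorem sum_spin_class {lab : Fin N → Fin J} {t : Fin J → Fin (N + 1)} {σ : Fin N → Bool}
    (hσ : σ ∈ cls lab t) (j : Fin J) :
    ∑ r ∈ Finset.univ.filter (fun r => lab r = j), spin (σ r) = magS lab t j := by
  have ht : plusC lab σ = t := by simpa [cls] using hσ
  have h1 : ∀ r, spin (σ r) = 2 * (if σ r = true then 1 else 0) - 1 := by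
    intro r
    unfold spin
    by_cases h : σ r = true <;> simp [h]
    norm_num
  simp only [h1]
  rw [Finset.sum_sub_distrib, ← Finset.mul_sum, ← Finset.sum_filter, Finset.filter_filter]
  simp only [Finset.sum_const, nsmul_eq_mul, mul_one]
  unfold magS nC
  rw [← ht]
  rfl

theorem sum_lab (lab : Fin N → Fin J) (f : Fin N → ℝ) (β : Fin J → ℝ) :
    ∑ r, β (lab r) * f r = ∑ j, β j * ∑ r ∈ Finset.univ.filter (fun r => lab r = j), f r := by
  rw [← Finset.sum_fiberwise Finset.univ lab]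
  apply Finset.sum_congr rfl
  intro j _
  rw [Finset.mul_sum]
  apply Finset.sum_congr rfl
  intro r hr
  rw [(Finset.mem_filter.1 hr).2]

theorem sum_lab_const (lab : Fin N → Fin J) (β : Fin J → ℝ) :
    ∑ r, β (lab r) = ∑ j, (nC lab j : ℝ) * β j := by
  have h := sum_lab lab (fun _ => 1) β
  simp only [mul_one] at h
  rw [h]
  apply Finset.sum_congr rfl
  intro j _
  simp [nC, mul_comm]

theorem sum_nC (lab : Fin N → Fin J) : ∑ j, (nC lab j : ℝ) = N := by
  have := sum_lab_const lab (fun _ => 1)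
  simp only [mul_one] at this
  rw [← this]
  simp

theorem sum_spin_cls {lab : Fin N → Fin J} {t : Fin J → Fin (N + 1)} (β : Fin J → ℝ)
    {σ : Fin N → Bool} (hσ : σ ∈ cls lab t) :
    ∑ r, β (lab r) * spin (σ r) = ∑ j, β j * magS lab t j := by
  rw [sum_lab]
  apply Finset.sum_congr rfl
  intro j _
  rw [sum_spin_class hσ]

theorem magS_abs {lab : Fin N → Fin J} {t : Fin J → Fin (N + 1)} (ht : (cls lab t).Nonempty)
    (j : Fin J) : |magS lab t j| ≤ nC lab j := by
  obtain ⟨σ, hσ⟩ := ht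
  rw [← sum_spin_class hσ]
  refine (Finset.abs_sum_le_sum_abs _ _).trans ?_
  simp only [abs_spin]
  simp [nC]

theorem nC_mul_magm {lab : Fin N → Fin J} {t : Fin J → Fin (N + 1)} (ht : (cls lab t).Nonempty)
    (j : Fin J) : (nC lab j : ℝ) * ((magm lab t j : ℚ) : ℝ) = magS lab t j := by
  by_cases h : nC lab j = 0
  · have := magS_abs ht j
    rw [h] at this
    simp only [Nat.cast_zero] at this
    have h2 : magS lab t j = 0 := abs_eq_zero.1 (le_antisymm this (abs_nonneg _))
    rw [h2, h]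
    simp
  · have h2 : (nC lab j : ℝ) ≠ 0 := by exact_mod_cast h
    unfold magm magS
    push_cast
    field_simp

theorem magm_abs {lab : Fin N → Fin J} {t : Fin J → Fin (N + 1)} (ht : (cls lab t).Nonempty)
    (j : Fin J) : |((magm lab t j : ℚ) : ℝ)| ≤ 1 := by
  by_cases h : nC lab j = 0
  · unfold magm
    rw [h]
    simp
  · have h2 : (0 : ℝ) < nC lab j := by exact_mod_cast Nat.pos_of_ne_zero h
    have h3 := nC_mul_magm ht j
    have h4 := magS_abs ht j
    rw [← h3, abs_mul, abs_of_pos h2] at h4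
    exact le_of_mul_le_mul_left (by simpa using h4) h2

/-- Chernoff bound for the configuration tower of a class. -/
theorem siteA_cls {lab : Fin N → Fin J} (hN : 0 < N) {t : Fin J → Fin (N + 1)}
    (ht : (cls lab t).Nonempty) (k : ℕ) (τ : ℕ → ℝ) :
    siteA (unifS (cls lab t)) k τ ≤ (1 / (N : ℝ)) * Real.log (2 ^ N / ((cls lab t).card : ℝ)) +
      ∑ j, ((nC lab j : ℝ) / N) * siteLeg (ζUB k) τ k ((magm lab t j : ℚ) : ℝ) := by
  have hN' : (0 : ℝ) < N := by exact_mod_cast hN
  apply le_of_forall_pos_le_add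
  intro ε hε
  -- optimal `β`
  have hβ : ∀ j, ∃ β : ℝ, siteVal (ζUB k) τ k β - β * ((magm lab t j : ℚ) : ℝ) <
      siteLeg (ζUB k) τ k ((magm lab t j : ℚ) : ℝ) + ε := by
    intro j
    exact exists_lt_of_ciInf_lt (lt_add_of_pos_right _ hε)
  choose β hβ using hβ
  have h1 := nest_unifS_le ht k τ (fun r => β (lab r)) (∑ j, β j * magS lab t j)
    (fun σ hσ => sum_spin_cls β hσ)
  have h2 : ∑ a : Fin N, recT (ζUB k) τ k 0 lch (β (lab a)) =
      ∑ j, (nC lab j : ℝ) * recT (ζUB k) τ k 0 lch (β j) :=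
    sum_lab_const lab (fun j => recT (ζUB k) τ k 0 lch (β j))
  rw [h2] at h1
  unfold siteA
  set X := nest ((gvec N).prod (unifS (cls lab t))) (ζUB k) (k + 1) 0
      (fun ω => ∑ i : Fin k, Real.sqrt (τ i) *
        ∑ a : Fin N, (ω i.castSucc).1 a * spin ((ω (Fin.last k)).2 a)) with hX
  set L := Real.log (2 ^ N / ((cls lab t).card : ℝ)) with hL
  set T := ∑ i ∈ Finset.range k, τ i with hT
  have h3 : (1 / (N : ℝ)) * X ≤ (1 / (N : ℝ)) * (L - ∑ j, β j * magS lab t j +
      ∑ j, (nC lab j : ℝ) * recT (ζUB k) τ k 0 lch (β j)) :=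
    mul_le_mul_of_nonneg_left h1 (by positivity)
  have h4 : (1 / (N : ℝ)) * (L - ∑ j, β j * magS lab t j +
      ∑ j, (nC lab j : ℝ) * recT (ζUB k) τ k 0 lch (β j)) - (1 / 2) * T =
      (1 / (N : ℝ)) * L + ∑ j, ((nC lab j : ℝ) / N) *
        (siteVal (ζUB k) τ k (β j) - β j * ((magm lab t j : ℚ) : ℝ)) := by
    have h5 : ∑ j, ((nC lab j : ℝ) / N) *
        (siteVal (ζUB k) τ k (β j) - β j * ((magm lab t j : ℚ) : ℝ)) =
        (1 / (N : ℝ)) * ∑ j, (nC lab j : ℝ) * recT (ζUB k) τ k 0 lch (β j) -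
        (1 / (N : ℝ)) * ∑ j, β j * magS lab t j - (1 / (N : ℝ)) * ((∑ j, (nC lab j : ℝ)) *
          ((1 / 2) * T)) := by
      rw [Finset.sum_mul, Finset.mul_sum, Finset.mul_sum, Finset.mul_sum,
        ← Finset.sum_sub_distrib, ← Finset.sum_sub_distrib]
      apply Finset.sum_congr rfl
      intro j _
      rw [← nC_mul_magm ht j]
      unfold siteVal
      rw [← hT]
      ring
    rw [h5, sum_nC]
    field_simp
    ring
  have h6 : ∑ j, ((nC lab j : ℝ) / N) *
        (siteVal (ζUB k) τ k (β j) - β j * ((magm lab t j : ℚ) : ℝ)) ≤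
      ∑ j, ((nC lab j : ℝ) / N) * siteLeg (ζUB k) τ k ((magm lab t j : ℚ) : ℝ) + ε := by
    calc _ ≤ ∑ j, ((nC lab j : ℝ) / N) *
          (siteLeg (ζUB k) τ k ((magm lab t j : ℚ) : ℝ) + ε) := by
          apply Finset.sum_le_sum
          intro j _
          exact mul_le_mul_of_nonneg_left (hβ j).le (by positivity)
      _ = _ := by
          simp only [mul_add, Finset.sum_add_distrib]
          congr 1
          rw [← Finset.sum_mul, ← Finset.sum_div, sum_nC, div_self hN'.ne', one_mul]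
  linarith

/-- Decomposition of a sum over configurations. -/
theorem sum_cls (lab : Fin N → Fin J) (f : (Fin N → Bool) → ℝ) :
    ∑ σ, f σ = ∑ t ∈ Finset.univ.image (plusC lab), ∑ σ ∈ cls lab t, f σ := by
  unfold cls
  rw [Finset.sum_fiberwise_of_maps_to]
  intro σ _
  exact Finset.mem_image_of_mem _ (Finset.mem_univ _)

theorem cls_nonempty {lab : Fin N → Fin J} {t : Fin J → Fin (N + 1)}
    (ht : t ∈ Finset.univ.image (plusC lab)) : (cls lab t).Nonempty := by
  obtain ⟨σ, _, hσ⟩ := Finset.mem_image.1 ht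
  exact ⟨σ, by simp [cls, hσ]⟩

theorem card_image_le (lab : Fin N → Fin J) :
    (((Finset.univ : Finset (Fin N → Bool)).image (plusC lab)).card : ℝ) ≤ ((N : ℝ) + 1) ^ J := by
  have h := Finset.card_le_univ ((Finset.univ : Finset (Fin N → Bool)).image (plusC lab))
  rw [Fintype.card_fun, Fintype.card_fin, Fintype.card_fin] at h
  exact_mod_cast h

end Crest.Agent.RI.FN
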