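import Crest.Agent.RI.UBDefs

/-!
# Row 164, Part 6, chunk UBStep, first part: elementary facts on the step functions `stepUB`
-/

set_option autoImplicit false

namespace Crest.Agent.RI

open MeasureTheory ProbabilityTheory
open Crest.ProbabilityR.InvariantGlass

theorem stepUB_measurable (k : ℕ) (p : ℕ → ℝ) : Measurable (stepUB k p) := by
  unfold stepUB
  refine Finset.measurable_fun_sum _ (fun i _ => ?_)
  exact Measurable.ite measurableSet_Ioc measurable_const measurable_const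

/-- value on the block `i` -/
theorem stepUB_block {k i : ℕ} (hi : i < k) (p : ℕ → ℝ) {s : ℝ}
    (h1 : ((i : ℝ) + 1) / (k + 1) < s) (h2 : s ≤ ((i : ℝ) + 2) / (k + 1)) : stepUB k p s = p i := by
  unfold stepUB
  have hk : (0 : ℝ) < (k : ℝ) + 1 := by positivity
  rw [Finset.sum_eq_single i]
  · rw [if_pos ⟨h1, h2⟩]
  · intro j _ hj
    rw [if_neg]
    rintro ⟨h3, h4⟩
    apply hj
    rw [div_lt_iff₀ hk] at h1 h3
    rw [le_div_iff₀ hk] at h2 h4
    have h5 : (i : ℝ) < (j : ℝ) + 1 := by linarith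
    have h6 : (j : ℝ) < (i : ℝ) + 1 := by linarith
    have h7 : i < j + 1 := by exact_mod_cast h5
    have h8 : j < i + 1 := by exact_mod_cast h6
    omega
  · intro h
    exact absurd (Finset.mem_range.2 hi) h

theorem stepUB_zero {k : ℕ} (p : ℕ → ℝ) {s : ℝ} (h : s ≤ 1 / ((k : ℝ) + 1)) : stepUB k p s = 0 := by
  unfold stepUB
  have hk : (0 : ℝ) < (k : ℝ) + 1 := by positivity
  apply Finset.sum_eq_zero
  intro i _
  rw [if_neg]
  rintro ⟨h1, _⟩
  rw [div_lt_iff₀ hk] at h1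
  rw [le_div_iff₀ hk] at h
  have : (0 : ℝ) ≤ (i : ℝ) := by positivity
  linarith

theorem stepUB_sum {ι : Type*} [Fintype ι] (k : ℕ) (p : ι → ℕ → ℝ) (s : ℝ) :
    ∑ l, stepUB k (p l) s = stepUB k (fun i => ∑ l, p l i) s := by
  unfold stepUB
  rw [Finset.sum_comm]
  refine Finset.sum_congr rfl (fun i _ => ?_)
  split_ifs
  · rfl
  · simp

/-- either some block contains `s`, or the value is zero -/
theorem stepUB_eq_or (k : ℕ) (p : ℕ → ℝ) (s : ℝ) :
    stepUB k p s = 0 ∨ ∃ i < k, stepUB k p s = p i := by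
  by_cases h : ∃ i < k, ((i : ℝ) + 1) / (k + 1) < s ∧ s ≤ ((i : ℝ) + 2) / (k + 1)
  · obtain ⟨i, hi, h1, h2⟩ := h
    exact Or.inr ⟨i, hi, stepUB_block hi p h1 h2⟩
  · left
    unfold stepUB
    apply Finset.sum_eq_zero
    intro i hi
    rw [if_neg]
    intro hc
    exact h ⟨i, Finset.mem_range.1 hi, hc⟩

/-- every `s ≤ 1` is in the first block or in the block `i < k` -/
theorem stepUB_cases (k : ℕ) {s : ℝ} (hs : s ≤ 1) :
    s ≤ 1 / ((k : ℝ) + 1) ∨
      ∃ i < k, ((i : ℝ) + 1) / (k + 1) < s ∧ s ≤ ((i : ℝ) + 2) / (k + 1) := by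
  have hk : (0 : ℝ) < (k : ℝ) + 1 := by positivity
  by_cases h : s ≤ 1 / ((k : ℝ) + 1)
  · exact Or.inl h
  · right
    push Not at h
    rw [div_lt_iff₀ hk] at h
    set m := ⌈s * ((k : ℝ) + 1)⌉₊ with hm
    have h1 : 1 < m := by
      rw [hm, Nat.lt_ceil]
      exact_mod_cast h
    have h2 : m ≤ k + 1 := by
      rw [hm, Nat.ceil_le]
      push_cast
      nlinarith
    have h3 : ((m - 2 : ℕ) : ℝ) = (m : ℝ) - 2 := by
      rw [Nat.cast_sub (by omega)]
      norm_num
    refine ⟨m - 2, by omega, ?_, ?_⟩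
    · rw [div_lt_iff₀ hk, h3]
      have h4 : m - 1 < m := by omega
      rw [hm, Nat.lt_ceil, ← hm, Nat.cast_sub (by omega)] at h4
      push_cast at h4
      linarith
    · rw [le_div_iff₀ hk, h3]
      have := Nat.le_ceil (s * ((k : ℝ) + 1))
      rw [← hm] at this
      linarith

theorem stepUB_mono {k : ℕ} {p : ℕ → ℝ} (h0 : ∀ i < k, 0 ≤ p i)
    (hm : ∀ i j, i ≤ j → j < k → p i ≤ p j) : MonotoneOn (stepUB k p) (Set.Ioo 0 1) := by
  intro s hs t ht hst
  have hk : (0 : ℝ) < (k : ℝ) + 1 := by positivity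
  rcases stepUB_cases k hs.2.le with h | ⟨i, hi, h1, h2⟩
  · rw [stepUB_zero p h]
    rcases stepUB_eq_or k p t with h' | ⟨i, hi, h'⟩
    · rw [h']
    · rw [h']; exact h0 i hi
  · rcases stepUB_cases k ht.2.le with h | ⟨j, hj, h3, h4⟩
    · exfalso
      rw [div_lt_iff₀ hk] at h1
      rw [le_div_iff₀ hk] at h
      have : (0 : ℝ) ≤ (i : ℝ) := by positivity
      nlinarith
    · rw [stepUB_block hi p h1 h2, stepUB_block hj p h3 h4]
      apply hm _ _ _ hj
      rw [div_lt_iff₀ hk] at h1 h3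
      rw [le_div_iff₀ hk] at h2 h4
      have h5 : s * ((k : ℝ) + 1) ≤ t * ((k : ℝ) + 1) := mul_le_mul_of_nonneg_right hst hk.le
      have h6 : (i : ℝ) < (j : ℝ) + 1 := by linarith
      have h7 : i < j + 1 := by exact_mod_cast h6
      omega

theorem stepUB_range {k : ℕ} {p : ℕ → ℝ} {b : ℝ} (hb : 0 ≤ b) (h0 : ∀ i < k, 0 ≤ p i ∧ p i ≤ b)
    (s : ℝ) : 0 ≤ stepUB k p s ∧ stepUB k p s ≤ b := by
  rcases stepUB_eq_or k p s with h | ⟨i, hi, h⟩
  · rw [h]; exact ⟨le_rfl, hb⟩
  · rw [h]; exact h0 i hi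

/-- integral of a function of a step function; PROOF: the blocks `(j/(k+1), (j+1)/(k+1)]` partition `(0,1]`. -/
theorem integral_stepUB (k : ℕ) (p : ℕ → ℝ) (F : ℝ → ℝ) :
    ∫ s in Set.Ioo (0 : ℝ) 1, F (stepUB k p s) =
      (1 / ((k : ℝ) + 1)) * (F 0 + ∑ i ∈ Finset.range k, F (p i)) := by
  have hk : (0 : ℝ) < (k : ℝ) + 1 := by positivity
  -- the value on the `j`-th interval
  set v : ℕ → ℝ := fun j => if j = 0 then F 0 else F (p (j - 1)) with hv
  have hval : ∀ j < k + 1, ∀ s ∈ Set.Ioc ((j : ℝ) / (k + 1)) (((j + 1 : ℕ) : ℝ) / (k + 1)),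
      F (stepUB k p s) = v j := by
    intro j hj s hs
    rcases Nat.eq_zero_or_pos j with h0 | h0
    · subst h0
      have : s ≤ 1 / ((k : ℝ) + 1) := by
        have := hs.2
        push_cast at this
        simpa using this
      simp [hv, stepUB_zero p this]
    · obtain ⟨i, rfl⟩ : ∃ i, j = i + 1 := ⟨j - 1, by omega⟩
      have h1 : ((i : ℝ) + 1) / (k + 1) < s := by
        have := hs.1
        push_cast at this
        exact this
      have h2 : s ≤ ((i : ℝ) + 2) / (k + 1) := by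
        have := hs.2
        push_cast at this
        have h3 : (i : ℝ) + 1 + 1 = (i : ℝ) + 2 := by ring
        rwa [h3] at this
      simp [hv, stepUB_block (by omega : i < k) p h1 h2]
  have hle : ∀ j : ℕ, (j : ℝ) / ((k : ℝ) + 1) ≤ ((j + 1 : ℕ) : ℝ) / ((k : ℝ) + 1) := by
    intro j
    rw [div_le_div_iff_of_pos_right hk]
    push_cast
    linarith
  have hint : ∀ j < k + 1, IntervalIntegrable (fun s => F (stepUB k p s)) volume
      ((j : ℝ) / ((k : ℝ) + 1)) (((j + 1 : ℕ) : ℝ) / ((k : ℝ) + 1)) := by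
    intro j hj
    rw [intervalIntegrable_iff_integrableOn_Ioc_of_le (hle j)]
    refine IntegrableOn.congr_fun (f := fun _ => v j) ?_ (fun s hs => (hval j hj s hs).symm)
      measurableSet_Ioc
    exact integrableOn_const (by simp)
  have hsum := intervalIntegral.sum_integral_adjacent_intervals
    (f := fun s => F (stepUB k p s)) (μ := volume) (a := fun j : ℕ => (j : ℝ) / ((k : ℝ) + 1))
    (n := k + 1) hint
  have hone : (((k + 1 : ℕ) : ℝ)) / ((k : ℝ) + 1) = 1 := by
    push_cast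
    exact div_self hk.ne'
  have hzero : ((0 : ℕ) : ℝ) / ((k : ℝ) + 1) = 0 := by simp
  simp only [hone, hzero] at hsum
  rw [← integral_Ioc_eq_integral_Ioo, ← intervalIntegral.integral_of_le zero_le_one, ← hsum]
  have hterm : ∀ j ∈ Finset.range (k + 1),
      ∫ s in ((j : ℝ) / ((k : ℝ) + 1))..(((j + 1 : ℕ) : ℝ) / ((k : ℝ) + 1)), F (stepUB k p s) =
        (1 / ((k : ℝ) + 1)) * v j := by
    intro j hj
    rw [intervalIntegral.integral_of_le (hle j),
      setIntegral_congr_fun measurableSet_Ioc (hval j (Finset.mem_range.1 hj)),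
      ← intervalIntegral.integral_of_le (hle j), intervalIntegral.integral_const, smul_eq_mul]
    push_cast
    field_simp
    ring
  rw [Finset.sum_congr rfl hterm, ← Finset.mul_sum, Finset.sum_range_succ']
  have e0 : v 0 = F 0 := by simp [hv]
  have e1 : ∀ i, v (i + 1) = F (p i) := by intro i; simp [hv]
  simp only [e0, e1]
  rw [add_comm (∑ x ∈ Finset.range k, F (p x)) (F 0)]

theorem lamF_nonneg {k : ℕ} {ρ : ℕ → ℝ} {c : ℝ} (h0 : ∀ i < k, 0 ≤ ρ i ∧ ρ i ≤ c) (hc : 0 ≤ c)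
    {s : ℝ} (hs : s ∈ Set.Ioo (0 : ℝ) 1) : 0 ≤ lamF c (stepUB k ρ) s := by
  unfold lamF
  have h1 := fun u => stepUB_range hc h0 u
  have h2 : ∫ u in Set.Ioo s 1, stepUB k ρ u ≤ ∫ _u in Set.Ioo s 1, c := by
    refine setIntegral_mono_on ?_ ?_ measurableSet_Ioo (fun u _ => (h1 u).2)
    · refine Measure.integrableOn_of_bounded (M := c) (by simp)
        (stepUB_measurable k ρ).aestronglyMeasurable ?_
      filter_upwards with u
      rw [Real.norm_of_nonneg (h1 u).1]
      exact (h1 u).2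
    · exact integrableOn_const (by simp)
  have h3 : ∫ _u in Set.Ioo s 1, c = (1 - s) * c := by
    rw [setIntegral_const, smul_eq_mul, Measure.real, Real.volume_Ioo,
      ENNReal.toReal_ofReal (by linarith [hs.2])]
  have h4 : s * stepUB k ρ s ≤ s * c := mul_le_mul_of_nonneg_left (h1 s).2 hs.1.le
  rw [h3] at h2
  nlinarith

end Crest.Agent.RI
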