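import Crest.Agent.RI.UBFpath
import Crest.Agent.RI.UBStepA

/-!
# Row 164, Part 11.1: distance of a trial path and its block averages (helper50)
-/

set_option autoImplicit false

namespace Crest.Agent.RI.FN

open MeasureTheory ProbabilityTheory
open Crest.ProbabilityR.InvariantGlass
open Crest.Agent.RI

variable {k : ℕ} {δ : ℝ} {q : ℝ → ℝ}

theorem stepUB_trial (hδ0 : 0 ≤ δ) (hδ1 : δ ≤ 1) (hq : IsTrialPath q)
    (hle : ∀ u ∈ Set.Ioo (0 : ℝ) 1, q u ≤ 1 - δ) : IsTrialPath (stepUB k (pUB k δ q)) := by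
  have hr := fun i => pUB_range (k := k) hδ1 (trial_integrableOn hq) (fun u hu => (hq.2.2 u hu).1)
    hle i
  have hm := pUB_mono (k := k) (trial_integrableOn hq) hq.2.1 hle
  refine ⟨stepUB_measurable k _, stepUB_mono (fun i _ => (hr i).1) (fun i j hij _ => hm hij),
    fun s _ => ?_⟩
  exact stepUB_range zero_le_one (fun i _ => ⟨(hr i).1, (hr i).2.trans (by linarith)⟩) s

theorem pdist_stepUB (hδ0 : 0 ≤ δ) (hδ1 : δ ≤ 1) (hq : IsTrialPath q)
    (hle : ∀ u ∈ Set.Ioo (0 : ℝ) 1, q u ≤ 1 - δ) :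
    PDist q (stepUB k (pUB k δ q)) (1 / ((k : ℝ) + 1)) := by
  have hk : (0 : ℝ) < (k : ℝ) + 1 := by positivity
  set p := pUB k δ q with hp
  have ht : IsTrialPath (stepUB k p) := stepUB_trial hδ0 hδ1 hq hle
  set g : ℝ → ℝ := fun u => q u - stepUB k p u with hg
  have hgint : IntegrableOn g (Set.Ioo (0 : ℝ) 1) :=
    (trial_integrableOn hq).sub (trial_integrableOn ht)
  have hgint' : IntegrableOn g (Set.Ioc (0 : ℝ) 1) := by
    rwa [integrableOn_Ioc_iff_integrableOn_Ioo]
  have hii : ∀ a b : ℝ, 0 ≤ a → a ≤ b → b ≤ 1 → IntervalIntegrable g volume a b := by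
    intro a b ha hab hb
    rw [intervalIntegrable_iff_integrableOn_Ioc_of_le hab]
    exact hgint'.mono_set (Set.Ioc_subset_Ioc ha hb)
  have hbd : ∀ u ∈ Set.Ioo (0 : ℝ) 1, |g u| ≤ 1 := by
    intro u hu
    have h1 := hq.2.2 u hu
    have h2 := ht.2.2 u hu
    rw [hg, abs_le]
    constructor <;> dsimp only <;> linarith [h1.1, h1.2, h2.1, h2.2]
  -- block integrals vanish
  have hblock : ∀ i < k, ∫ u in (((i : ℝ) + 1) / ((k : ℝ) + 1))..(((i : ℝ) + 2) / ((k : ℝ) + 1)),
      g u = 0 := by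
    intro i hi
    rw [intervalIntegral.integral_of_le (block_lt i).le]
    have h1 : ∫ u in Set.Ioc (((i : ℝ) + 1) / ((k : ℝ) + 1)) (((i : ℝ) + 2) / ((k : ℝ) + 1)), g u =
        ∫ u in Set.Ioc (((i : ℝ) + 1) / ((k : ℝ) + 1)) (((i : ℝ) + 2) / ((k : ℝ) + 1)),
          (q u - p i) := by
      refine setIntegral_congr_fun measurableSet_Ioc fun u hu => ?_
      simp only [hg]
      rw [stepUB_block hi p hu.1 hu.2]
    have hqi : IntegrableOn q
        (Set.Ioc (((i : ℝ) + 1) / ((k : ℝ) + 1)) (((i : ℝ) + 2) / ((k : ℝ) + 1))) := by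
      rw [integrableOn_Ioc_iff_integrableOn_Ioo]
      exact (trial_integrableOn hq).mono_set (block_sub hi)
    rw [h1, integral_sub hqi (integrableOn_const (by simp)), setIntegral_const,
      Real.volume_real_Ioc, block_len, max_eq_left (by positivity), smul_eq_mul, hp]
    unfold pUB
    rw [if_pos hi]
    field_simp
    ring
  -- the tail integral vanishes at the grid points
  have hgrid : ∀ n, n ≤ k → ∫ u in ((((k - n : ℕ) : ℝ) + 1) / ((k : ℝ) + 1))..1, g u = 0 := by
    intro n
    induction n with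
    | zero =>
      intro _
      rw [Nat.sub_zero, div_self hk.ne']
      simp
    | succ n ih =>
      intro hn
      have hi : k - (n + 1) < k := by omega
      have e1 : (((k - n : ℕ) : ℝ) + 1) / ((k : ℝ) + 1) =
          (((k - (n + 1) : ℕ) : ℝ) + 2) / ((k : ℝ) + 1) := by
        have : k - n = (k - (n + 1)) + 1 := by omega
        rw [this]
        push_cast
        ring
      have hi' : ((k - (n + 1) : ℕ) : ℝ) + 1 ≤ k := by exact_mod_cast hi
      have h1 : (((k - (n + 1) : ℕ) : ℝ) + 2) / ((k : ℝ) + 1) ≤ 1 := by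
        rw [div_le_one hk]
        linarith
      rw [← intervalIntegral.integral_add_adjacent_intervals
        (b := (((k - (n + 1) : ℕ) : ℝ) + 2) / ((k : ℝ) + 1))
        (hii _ _ (by positivity) (block_lt _).le h1) (hii _ _ (by positivity) h1 le_rfl),
        hblock _ hi, zero_add, ← e1]
      exact ih (by omega)
  have hgrid' : ∀ i, i ≤ k → ∫ u in (((i : ℝ) + 1) / ((k : ℝ) + 1))..1, g u = 0 := by
    intro i hi
    have := hgrid (k - i) (by omega)
    rwa [show k - (k - i) = i by omega] at this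
  -- general point
  have hpart : ∀ a b : ℝ, 0 ≤ a → a ≤ b → b ≤ 1 → b - a ≤ 1 / ((k : ℝ) + 1) →
      ∫ u in b..1, g u = 0 → |∫ u in Set.Ioo a 1, g u| ≤ 1 / ((k : ℝ) + 1) := by
    intro a b ha hab hb hlen h0
    rw [← integral_Ioc_eq_integral_Ioo, ← intervalIntegral.integral_of_le (hab.trans hb),
      ← intervalIntegral.integral_add_adjacent_intervals (hii a b ha hab hb)
        (hii b 1 (ha.trans hab) hb le_rfl), h0, add_zero, intervalIntegral.integral_of_le hab,
      integral_Ioc_eq_integral_Ioo]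
    have h1 : ‖∫ u in Set.Ioo a b, g u‖ ≤ 1 * (volume.real (Set.Ioo a b)) := by
      apply norm_setIntegral_le_of_norm_le_const (by simp)
      intro u hu
      rw [Real.norm_eq_abs]
      exact hbd u ⟨lt_of_le_of_lt ha hu.1, lt_of_lt_of_le hu.2 hb⟩
    rw [Real.norm_eq_abs, Real.volume_real_Ioo, max_eq_left (by linarith), one_mul] at h1
    linarith
  intro s hs
  change |∫ u in Set.Ioo s 1, g u| ≤ _
  rcases stepUB_cases k hs.2 with h | ⟨i, hi, h1, h2⟩
  · apply hpart s (1 / ((k : ℝ) + 1)) hs.1 h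
    · rw [div_le_one hk]
      have : (0 : ℝ) ≤ k := by positivity
      linarith
    · linarith [hs.1]
    · have := hgrid' 0 (Nat.zero_le k)
      simpa using this
  · have hi' : (i : ℝ) + 1 ≤ k := by exact_mod_cast hi
    apply hpart s (((i : ℝ) + 2) / ((k : ℝ) + 1)) hs.1 h2
    · rw [div_le_one hk]
      linarith
    · have := block_len (k := k) i
      linarith
    · have := hgrid' (i + 1) hi
      have e : (((i + 1 : ℕ) : ℝ) + 1) = (i : ℝ) + 2 := by push_cast; ring
      rwa [e] at this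

end Crest.Agent.RI.FN
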