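import Crest.Agent.RI.W1Seq

/-!
# Row 164, Part 12: Lipschitz bound and integrability of the pressure
-/

set_option autoImplicit false

namespace Crest.Agent.RI

open MeasureTheory Set Crest.ProbabilityR.InvariantGlass

theorem spinVec_abs {N : ℕ} (σ : Fin N → Bool) (i : Fin N) : |spinVec σ i| = 1 := by
  unfold spinVec
  split_ifs <;> simp

theorem pressureField_le {N : ℕ} (eig : Fin N → ℝ) (U : Matrix (Fin N) (Fin N) ℝ)
    (c c' : Fin N → ℝ) :
    pressureFieldN eig U c ≤ pressureFieldN eig U c' + (1 / (N : ℝ)) * ∑ r, |c r - c' r| := by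
  unfold pressureFieldN
  rw [← mul_add]
  apply mul_le_mul_of_nonneg_left _ (by positivity)
  set K := ∑ r, |c r - c' r| with hK
  have h1 : ∀ σ : Fin N → Bool, Real.exp ((1 / 2) * (∑ i : Fin N, eig i * (U.mulVec (spinVec σ) i) ^ 2) +
      ∑ r : Fin N, c r * spinVec σ r) ≤ Real.exp K *
      Real.exp ((1 / 2) * (∑ i : Fin N, eig i * (U.mulVec (spinVec σ) i) ^ 2) +
      ∑ r : Fin N, c' r * spinVec σ r) := by
    intro σ
    rw [← Real.exp_add, Real.exp_le_exp]
    have h2 : ∑ r : Fin N, c r * spinVec σ r - ∑ r : Fin N, c' r * spinVec σ r ≤ K := by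
      rw [← Finset.sum_sub_distrib, hK]
      refine Finset.sum_le_sum fun r _ => ?_
      rw [← sub_mul]
      refine (le_abs_self _).trans ?_
      rw [abs_mul, spinVec_abs, mul_one]
    linarith
  have hpos : ∀ c : Fin N → ℝ, 0 < (1 / 2 : ℝ) ^ N * ∑ σ : Fin N → Bool,
      Real.exp ((1 / 2) * (∑ i : Fin N, eig i * (U.mulVec (spinVec σ) i) ^ 2) +
      ∑ r : Fin N, c r * spinVec σ r) := fun c =>
    mul_pos (by positivity) (Finset.sum_pos (fun σ _ => Real.exp_pos _) Finset.univ_nonempty)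
  have h3 : (1 / 2 : ℝ) ^ N * ∑ σ : Fin N → Bool,
      Real.exp ((1 / 2) * (∑ i : Fin N, eig i * (U.mulVec (spinVec σ) i) ^ 2) +
      ∑ r : Fin N, c r * spinVec σ r) ≤ Real.exp K * ((1 / 2 : ℝ) ^ N * ∑ σ : Fin N → Bool,
      Real.exp ((1 / 2) * (∑ i : Fin N, eig i * (U.mulVec (spinVec σ) i) ^ 2) +
      ∑ r : Fin N, c' r * spinVec σ r)) := by
    refine (mul_le_mul_of_nonneg_left (Finset.sum_le_sum fun σ _ => h1 σ)
      (by positivity : (0 : ℝ) ≤ (1 / 2) ^ N)).trans (le_of_eq ?_)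
    rw [← Finset.mul_sum]
    ring
  have h4 := Real.log_le_log (hpos c) h3
  rw [Real.log_mul (Real.exp_pos K).ne' (hpos c').ne', Real.log_exp] at h4
  linarith

theorem pressureField_lip {N : ℕ} (eig : Fin N → ℝ) (U : Matrix (Fin N) (Fin N) ℝ)
    (c c' : Fin N → ℝ) :
    |pressureFieldN eig U c - pressureFieldN eig U c'| ≤ (1 / (N : ℝ)) * ∑ r, |c r - c' r| := by
  have h1 := pressureField_le eig U c c'
  have h2 := pressureField_le eig U c' c
  have h3 : ∑ r, |c' r - c r| = ∑ r, |c r - c' r| :=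
    Finset.sum_congr rfl fun r _ => abs_sub_comm _ _
  rw [h3] at h2
  rw [abs_sub_le_iff]
  constructor <;> linarith

theorem pressureField_continuous {N : ℕ} (eig c : Fin N → ℝ) :
    Continuous (fun U : Fin N → Fin N → ℝ => pressureFieldN eig (Matrix.of U) c) := by
  unfold pressureFieldN
  refine continuous_const.mul (Continuous.log ?_ ?_)
  · refine continuous_const.mul (continuous_finsetSum _ fun σ _ => Real.continuous_exp.comp ?_)
    refine Continuous.add (continuous_const.mul (continuous_finsetSum _ fun i _ =>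
      continuous_const.mul (Continuous.pow ?_ 2))) continuous_const
    unfold Matrix.mulVec dotProduct
    refine continuous_finsetSum _ fun j _ => Continuous.mul ?_ continuous_const
    exact (continuous_apply j).comp (continuous_apply i)
  · intro U
    exact (mul_pos (by positivity)
      (Finset.sum_pos (fun σ _ => Real.exp_pos _) Finset.univ_nonempty)).ne'

theorem sum_sq_orth {N : ℕ} {U : Matrix (Fin N) (Fin N) ℝ}
    (hU : U ∈ Matrix.orthogonalGroup (Fin N) ℝ) (v : Fin N → ℝ) :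
    ∑ i, (U.mulVec v i) ^ 2 = ∑ i, v i ^ 2 := by
  rw [Matrix.mem_orthogonalGroup_iff'] at hU
  have h : (U.mulVec v) ⬝ᵥ (U.mulVec v) = v ⬝ᵥ v := by
    rw [Matrix.dotProduct_mulVec, ← Matrix.mulVec_transpose, Matrix.mulVec_mulVec]
    have : U.transpose * U = 1 := by
      rw [← hU]
    rw [this, Matrix.one_mulVec]
  simpa [dotProduct, sq] using h

theorem pressureField_bound {N : ℕ} (eig c : Fin N → ℝ) {U : Matrix (Fin N) (Fin N) ℝ}
    (hU : U ∈ Matrix.orthogonalGroup (Fin N) ℝ) :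
    |pressureFieldN eig U c| ≤ (1 / (N : ℝ)) * ((1 / 2) * (∑ i, |eig i| * N) + ∑ r, |c r|) := by
  unfold pressureFieldN
  rw [abs_mul, abs_of_nonneg (by positivity : (0 : ℝ) ≤ 1 / N)]
  apply mul_le_mul_of_nonneg_left _ (by positivity)
  set K := (1 / 2) * (∑ i, |eig i| * N) + ∑ r, |c r| with hK
  have h1 : ∀ σ : Fin N → Bool, |(1 / 2) * (∑ i : Fin N, eig i * (U.mulVec (spinVec σ) i) ^ 2) +
      ∑ r : Fin N, c r * spinVec σ r| ≤ K := by
    intro σ
    have hs : ∑ i, (U.mulVec (spinVec σ) i) ^ 2 = N := by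
      rw [sum_sq_orth hU]
      have : ∀ i, spinVec σ i ^ 2 = 1 := fun i => by
        rw [← sq_abs, spinVec_abs, one_pow]
      simp [this]
    refine (abs_add_le _ _).trans (add_le_add ?_ ?_)
    · rw [abs_mul, abs_of_pos (by norm_num : (0 : ℝ) < 1 / 2)]
      apply mul_le_mul_of_nonneg_left _ (by norm_num)
      refine (Finset.abs_sum_le_sum_abs _ _).trans (Finset.sum_le_sum fun i _ => ?_)
      rw [abs_mul, abs_of_nonneg (sq_nonneg (U.mulVec (spinVec σ) i))]
      apply mul_le_mul_of_nonneg_left _ (abs_nonneg _)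
      rw [← hs]
      exact Finset.single_le_sum (f := fun i => (U.mulVec (spinVec σ) i) ^ 2)
        (fun i _ => sq_nonneg _) (Finset.mem_univ i)
    · refine (Finset.abs_sum_le_sum_abs _ _).trans (Finset.sum_le_sum fun i _ => ?_)
      rw [abs_mul, spinVec_abs, mul_one]
  have hc : ∀ x : ℝ, (1 / 2 : ℝ) ^ N * ∑ _σ : Fin N → Bool, x = x := by
    intro x
    rw [Finset.sum_const, Finset.card_univ, Fintype.card_fun, Fintype.card_bool, Fintype.card_fin,
      nsmul_eq_mul, ← mul_assoc]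
    push_cast
    rw [← mul_pow]
    norm_num
  have hpos : 0 < (1 / 2 : ℝ) ^ N * ∑ σ : Fin N → Bool,
      Real.exp ((1 / 2) * (∑ i : Fin N, eig i * (U.mulVec (spinVec σ) i) ^ 2) +
      ∑ r : Fin N, c r * spinVec σ r) :=
    mul_pos (by positivity) (Finset.sum_pos (fun σ _ => Real.exp_pos _) Finset.univ_nonempty)
  rw [abs_le]
  constructor
  · rw [Real.le_log_iff_exp_le hpos]
    calc Real.exp (-K) = (1 / 2 : ℝ) ^ N * ∑ _σ : Fin N → Bool, Real.exp (-K) := (hc _).symm
      _ ≤ _ := mul_le_mul_of_nonneg_left (Finset.sum_le_sum fun σ _ =>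
        Real.exp_le_exp.2 (abs_le.1 (h1 σ)).1) (by positivity)
  · rw [Real.log_le_iff_le_exp hpos]
    calc _ ≤ (1 / 2 : ℝ) ^ N * ∑ _σ : Fin N → Bool, Real.exp K :=
          mul_le_mul_of_nonneg_left (Finset.sum_le_sum fun σ _ =>
            Real.exp_le_exp.2 (abs_le.1 (h1 σ)).2) (by positivity)
      _ = Real.exp K := hc _

theorem pressureField_integrable {N : ℕ} (eig c : Fin N → ℝ) {Ω : Type} [MeasurableSpace Ω]
    {P : Measure Ω} [IsProbabilityMeasure P] {U : Ω → (Fin N → Fin N → ℝ)} (hU : Measurable U)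
    (horth : ∀ᵐ ω ∂P, Matrix.of (U ω) ∈ Matrix.orthogonalGroup (Fin N) ℝ) :
    Integrable (fun ω => pressureFieldN eig (Matrix.of (U ω)) c) P := by
  refine Integrable.of_bound ((pressureField_continuous eig c).measurable.comp hU).aestronglyMeasurable
    ((1 / (N : ℝ)) * ((1 / 2) * (∑ i, |eig i| * N) + ∑ r, |c r|)) ?_
  filter_upwards [horth] with ω hω
  rw [Real.norm_eq_abs]
  exact pressureField_bound eig c hω

end Crest.Agent.RI
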