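import Crest.Agent.RI.UBFcls
import Crest.Agent.RI.W1Pres

/-!
# Row 164, Part 11.1: the union bound over the magnetisation classes (helper50)
-/

set_option autoImplicit false

namespace Crest.Agent.RI.FN

open MeasureTheory ProbabilityTheory
open Crest.ProbabilityR.InvariantGlass
open Crest.Agent.RI

theorem log_sum_le {ι : Type*} {s : Finset ι} (hs : s.Nonempty) {z : ℝ} (hz0 : 0 < z)
    (hz1 : z ≤ 1) (u : ι → ℝ) :
    Real.log (∑ t ∈ s, Real.exp (u t)) ≤ z⁻¹ * Real.log (∑ t ∈ s, Real.exp (z * u t)) := by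
  have hpos : 0 < ∑ t ∈ s, Real.exp (u t) := Finset.sum_pos (fun _ _ => Real.exp_pos _) hs
  have hpos' : 0 < ∑ t ∈ s, Real.exp (z * u t) := Finset.sum_pos (fun _ _ => Real.exp_pos _) hs
  set L := Real.log (∑ t ∈ s, Real.exp (u t)) with hL
  have hle : ∀ t ∈ s, u t ≤ L := by
    intro t ht
    rw [hL, Real.le_log_iff_exp_le hpos]
    exact Finset.single_le_sum (f := fun t => Real.exp (u t)) (fun _ _ => (Real.exp_pos _).le) ht
  have h1 : (1 : ℝ) ≤ ∑ t ∈ s, Real.exp (z * (u t - L)) := by
    have h2 : ∑ t ∈ s, Real.exp (u t - L) = 1 := by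
      have : ∀ t, Real.exp (u t - L) = Real.exp (u t) * Real.exp (-L) := by
        intro t; rw [← Real.exp_add]; ring_nf
      simp only [this]
      rw [← Finset.sum_mul, Real.exp_neg, hL, Real.exp_log hpos]
      exact mul_inv_cancel₀ hpos.ne'
    rw [← h2]
    apply Finset.sum_le_sum
    intro t ht
    rw [Real.exp_le_exp]
    have := hle t ht
    nlinarith
  have h3 : ∑ t ∈ s, Real.exp (z * (u t - L)) = Real.exp (-(z * L)) *
      ∑ t ∈ s, Real.exp (z * u t) := by
    rw [Finset.mul_sum]
    apply Finset.sum_congr rfl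
    intro t _
    rw [← Real.exp_add]; ring_nf
  rw [h3] at h1
  have h4 : Real.exp (z * L) ≤ ∑ t ∈ s, Real.exp (z * u t) := by
    have := mul_le_mul_of_nonneg_left h1 (Real.exp_pos (z * L)).le
    rw [mul_one, ← mul_assoc, ← Real.exp_add, add_neg_cancel, Real.exp_zero, one_mul] at this
    exact this
  rw [← Real.le_log_iff_exp_le hpos'] at h4
  rw [inv_mul_eq_div, le_div_iff₀ hz0]
  linarith

/-- Jensen for the logarithm. -/
theorem integral_log_le {Ω : Type*} [MeasurableSpace Ω] {P : Measure Ω} [IsProbabilityMeasure P]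
    {X : Ω → ℝ} (hpos : ∀ ω, 0 < X ω) (hX : Integrable X P)
    (hl : Integrable (fun ω => Real.log (X ω)) P) :
    ∫ ω, Real.log (X ω) ∂P ≤ Real.log (∫ ω, X ω ∂P) := by
  have hE : 0 < ∫ ω, X ω ∂P := by
    rw [integral_pos_iff_support_of_nonneg (fun ω => (hpos ω).le) hX]
    have : Function.support X = Set.univ := by
      ext ω; simp [(hpos ω).ne']
    rw [this]
    simp
  set c := ∫ ω, X ω ∂P with hc
  have h1 : ∀ ω, Real.log (X ω) ≤ X ω / c - 1 + Real.log c := by
    intro ω
    have := Real.log_le_sub_one_of_pos (div_pos (hpos ω) hE)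
    rw [Real.log_div (hpos ω).ne' hE.ne'] at this
    linarith
  have h2 : ∀ ω, Real.log (X ω) ≤ X ω / c + (Real.log c - 1) := by
    intro ω; linarith [h1 ω]
  calc ∫ ω, Real.log (X ω) ∂P ≤ ∫ ω, (X ω / c + (Real.log c - 1)) ∂P :=
        integral_mono hl ((hX.div_const c).add (integrable_const _)) h2
    _ = Real.log c := by
        rw [integral_add (hX.div_const c) (integrable_const _), integral_div, ← hc,
          div_self hE.ne']
        simp

variable {N J : ℕ}

/-- The Hamiltonian. -/
def HU (eig : Fin N → ℝ) (U : Fin N → Fin N → ℝ) (σ : Fin N → Bool) : ℝ :=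
  ∑ a, eig a * (∑ r, U a r * spin (σ r)) ^ 2

theorem spinVec_eq (σ : Fin N → Bool) (r : Fin N) : spinVec σ r = spin (σ r) := rfl

theorem HU_eq (eig : Fin N → ℝ) (U : Fin N → Fin N → ℝ) (σ : Fin N → Bool) :
    HU eig U σ = ∑ i, eig i * ((Matrix.of U).mulVec (spinVec σ) i) ^ 2 := by
  unfold HU
  apply Finset.sum_congr rfl
  intro i _
  rfl

theorem HU_bound (eig : Fin N → ℝ) {U : Fin N → Fin N → ℝ}
    (hU : Matrix.of U ∈ Matrix.orthogonalGroup (Fin N) ℝ) (σ : Fin N → Bool) :
    |HU eig U σ| ≤ ∑ i, |eig i| * N := by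
  rw [HU_eq]
  have hs : ∑ i, ((Matrix.of U).mulVec (spinVec σ) i) ^ 2 = N := by
    rw [sum_sq_orth hU]
    have : ∀ i, spinVec σ i ^ 2 = 1 := fun i => by
      rw [← sq_abs, spinVec_abs, one_pow]
    simp [this]
  refine (Finset.abs_sum_le_sum_abs _ _).trans (Finset.sum_le_sum fun i _ => ?_)
  rw [abs_mul, abs_of_nonneg (sq_nonneg ((Matrix.of U).mulVec (spinVec σ) i))]
  apply mul_le_mul_of_nonneg_left _ (abs_nonneg _)
  rw [← hs]
  exact Finset.single_le_sum (f := fun i => ((Matrix.of U).mulVec (spinVec σ) i) ^ 2)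
    (fun i _ => sq_nonneg _) (Finset.mem_univ i)

theorem HU_measurable (eig : Fin N → ℝ) (σ : Fin N → Bool) :
    Measurable (fun U : Fin N → Fin N → ℝ => HU eig U σ) := by
  unfold HU
  fun_prop

/-- Partition function of a set of configurations. -/
noncomputable def ZS (eig : Fin N → ℝ) (S : Finset (Fin N → Bool)) (U : Fin N → Fin N → ℝ) : ℝ :=
  (S.card : ℝ)⁻¹ * ∑ σ ∈ S, Real.exp ((1 / 2) * HU eig U σ)

theorem ZS_eq (eig : Fin N → ℝ) (S : Finset (Fin N → Bool)) (U : Fin N → Fin N → ℝ) :
    ∫ σ, Real.exp ((1 / 2) * ∑ a, eig a * (∑ r, U a r * spin (σ r)) ^ 2) ∂(unifS S) =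
      ZS eig S U := by
  rw [integral_unifS]
  rfl

theorem ZS_pos (eig : Fin N → ℝ) {S : Finset (Fin N → Bool)} (hS : S.Nonempty)
    (U : Fin N → Fin N → ℝ) : 0 < ZS eig S U := by
  unfold ZS
  have hc : (0 : ℝ) < S.card := by exact_mod_cast hS.card_pos
  exact mul_pos (inv_pos.2 hc) (Finset.sum_pos (fun _ _ => Real.exp_pos _) hS)

theorem ZS_measurable (eig : Fin N → ℝ) (S : Finset (Fin N → Bool)) :
    Measurable (ZS eig S) := by
  unfold ZS
  refine measurable_const.mul (Finset.measurable_sum _ fun σ _ => ?_)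
  exact Real.measurable_exp.comp (measurable_const.mul (HU_measurable eig σ))

theorem log_ZS_bound (eig : Fin N → ℝ) {S : Finset (Fin N → Bool)} (hS : S.Nonempty)
    {U : Fin N → Fin N → ℝ} (hU : Matrix.of U ∈ Matrix.orthogonalGroup (Fin N) ℝ) :
    |Real.log (ZS eig S U)| ≤ (1 / 2) * ∑ i, |eig i| * N := by
  set K := (1 / 2) * ∑ i, |eig i| * N with hK
  have hc : (0 : ℝ) < S.card := by exact_mod_cast hS.card_pos
  have h1 : ∀ σ, |(1 / 2) * HU eig U σ| ≤ K := by
    intro σ
    rw [abs_mul, abs_of_pos (by norm_num : (0 : ℝ) < 1 / 2)]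
    exact mul_le_mul_of_nonneg_left (HU_bound eig hU σ) (by norm_num)
  have hconst : ∀ x : ℝ, (S.card : ℝ)⁻¹ * ∑ _σ ∈ S, x = x := by
    intro x
    rw [Finset.sum_const, nsmul_eq_mul, ← mul_assoc, inv_mul_cancel₀ hc.ne', one_mul]
  rw [abs_le]
  constructor
  · rw [Real.le_log_iff_exp_le (ZS_pos eig hS U), ← hconst (Real.exp (-K))]
    exact mul_le_mul_of_nonneg_left (Finset.sum_le_sum fun σ _ =>
      Real.exp_le_exp.2 (abs_le.1 (h1 σ)).1) (by positivity)
  · rw [Real.log_le_iff_le_exp (ZS_pos eig hS U), ← hconst (Real.exp K)]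
    exact mul_le_mul_of_nonneg_left (Finset.sum_le_sum fun σ _ =>
      Real.exp_le_exp.2 (abs_le.1 (h1 σ)).2) (by positivity)

theorem integrable_exp_logZ (eig : Fin N → ℝ) {S : Finset (Fin N → Bool)} (hS : S.Nonempty)
    {P : Measure (Fin N → Fin N → ℝ)} (hP : IsHaar P) (z b : ℝ) :
    Integrable (fun U => Real.exp (z * (b + Real.log (ZS eig S U)))) P := by
  have := hP.prob
  refine Integrable.of_bound (Real.measurable_exp.comp (measurable_const.mul
    (measurable_const.add (Real.measurable_log.comp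
      (ZS_measurable eig S))))).aestronglyMeasurable
    (Real.exp (|z| * (|b| + (1 / 2) * ∑ i, |eig i| * N))) ?_
  filter_upwards [hP.orth] with U hU
  rw [Real.norm_eq_abs, abs_of_pos (Real.exp_pos _), Real.exp_le_exp]
  refine (le_abs_self _).trans ?_
  rw [abs_mul]
  apply mul_le_mul_of_nonneg_left _ (abs_nonneg _)
  exact (abs_add_le _ _).trans (add_le_add le_rfl (log_ZS_bound eig hS hU))

/-- Decomposition of the pressure with field. -/
theorem pressure_decomp (eig : Fin N → ℝ) (lab : Fin N → Fin J) (c : Fin J → ℝ)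
    (U : Fin N → Fin N → ℝ) :
    pressureFieldN eig (Matrix.of U) (fun r => c (lab r)) =
      (1 / (N : ℝ)) * Real.log (∑ t ∈ Finset.univ.image (plusC lab),
        Real.exp ((∑ j, c j * magS lab t j - Real.log (2 ^ N / ((cls lab t).card : ℝ))) +
          Real.log (ZS eig (cls lab t) U))) := by
  unfold pressureFieldN
  congr 2
  rw [sum_cls lab, Finset.mul_sum]
  apply Finset.sum_congr rfl
  intro t ht
  have hS := cls_nonempty ht
  have hc : (0 : ℝ) < (cls lab t).card := by exact_mod_cast hS.card_pos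
  rw [Real.exp_add, Real.exp_sub, Real.exp_log (ZS_pos eig hS U), Real.exp_log (by positivity)]
  unfold ZS
  have h1 : ∀ σ ∈ cls lab t, Real.exp ((1 / 2) *
      (∑ i : Fin N, eig i * ((Matrix.of U).mulVec (spinVec σ) i) ^ 2) +
      ∑ r : Fin N, c (lab r) * spinVec σ r) = Real.exp (∑ j, c j * magS lab t j) *
        Real.exp ((1 / 2) * HU eig U σ) := by
    intro σ hσ
    rw [← Real.exp_add, HU_eq]
    congr 1
    rw [add_comm]
    congr 1
    exact sum_spin_cls c hσ
  rw [Finset.sum_congr rfl h1, ← Finset.mul_sum]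
  have h2 : (1 / 2 : ℝ) ^ N = (2 ^ N)⁻¹ := by rw [one_div, inv_pow]
  rw [h2]
  field_simp

/-- The union bound. -/
theorem union_bound (hN : 0 < N) (eig : Fin N → ℝ) (lab : Fin N → Fin J) (c : Fin J → ℝ)
    {P : Measure (Fin N → Fin N → ℝ)} (hP : IsHaar P) (k : ℕ) (B : ℝ)
    (hB : ∀ t ∈ Finset.univ.image (plusC lab),
      (1 / (N : ℝ)) * (∑ j, c j * magS lab t j) -
        (1 / (N : ℝ)) * Real.log (2 ^ N / ((cls lab t).card : ℝ)) +
        (1 / (N : ℝ)) * (((k : ℝ) + 1) * Real.log (∫ U, Real.exp ((1 / ((k : ℝ) + 1)) *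
          Real.log (∫ σ, Real.exp ((1 / 2) * ∑ a, eig a *
            (∑ r, U a r * spin (σ r)) ^ 2) ∂(unifS (cls lab t)))) ∂P)) ≤ B) :
    ∫ U, pressureFieldN eig (Matrix.of U) (fun r => c (lab r)) ∂P ≤
      B + ((k : ℝ) + 1) * (J * Real.log ((N : ℝ) + 1)) / N := by
  have hprob := hP.prob
  have hN' : (0 : ℝ) < N := by exact_mod_cast hN
  set z : ℝ := 1 / ((k : ℝ) + 1) with hz
  have hz0 : 0 < z := by positivity
  have hz1 : z ≤ 1 := by
    rw [hz, div_le_one (by positivity)]
    have : (0 : ℝ) ≤ k := by positivity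
    linarith
  have hzi : z⁻¹ = (k : ℝ) + 1 := by rw [hz, one_div, inv_inv]
  set T := (Finset.univ : Finset (Fin N → Bool)).image (plusC lab) with hT
  have hTne : T.Nonempty := Finset.univ_nonempty.image _
  set β : (Fin J → Fin (N + 1)) → ℝ := fun t =>
    ∑ j, c j * magS lab t j - Real.log (2 ^ N / ((cls lab t).card : ℝ)) with hβ
  -- the random variable
  set X : (Fin N → Fin N → ℝ) → ℝ := fun U =>
    ∑ t ∈ T, Real.exp (z * (β t + Real.log (ZS eig (cls lab t) U))) with hX
  have hXpos : ∀ U, 0 < X U := fun U => Finset.sum_pos (fun _ _ => Real.exp_pos _) hTne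
  have hXint : Integrable X P :=
    integrable_finsetSum _ fun t ht => integrable_exp_logZ eig (cls_nonempty ht) hP z (β t)
  have hXmeas : Measurable X := by
    refine Finset.measurable_sum _ fun t _ => ?_
    exact Real.measurable_exp.comp (measurable_const.mul
      (measurable_const.add (Real.measurable_log.comp (ZS_measurable eig _))))
  -- integrability of `log X`
  have hlog : Integrable (fun U => Real.log (X U)) P := by
    obtain ⟨t₀, ht₀⟩ := hTne
    set K := (1 / 2) * ∑ i, |eig i| * (N : ℝ) with hK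
    set M := ∑ t ∈ T, (|z| * (|β t| + K)) with hM
    refine Integrable.of_bound (Real.measurable_log.comp hXmeas).aestronglyMeasurable
      (M + |Real.log (T.card)|) ?_
    filter_upwards [hP.orth] with U hU
    have hb : ∀ t ∈ T, |z * (β t + Real.log (ZS eig (cls lab t) U))| ≤ |z| * (|β t| + K) := by
      intro t ht
      rw [abs_mul]
      apply mul_le_mul_of_nonneg_left _ (abs_nonneg _)
      exact (abs_add_le _ _).trans (add_le_add le_rfl (log_ZS_bound eig (cls_nonempty ht) hU))
    have hnn : ∀ t ∈ T, 0 ≤ |z| * (|β t| + K) := fun t ht => (abs_nonneg _).trans (hb t ht)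
    have hb2 : ∀ t ∈ T, |z| * (|β t| + K) ≤ M := fun t ht =>
      Finset.single_le_sum (f := fun t => |z| * (|β t| + K)) hnn ht
    have hMnn : 0 ≤ M := Finset.sum_nonneg hnn
    have hcard : (0 : ℝ) < T.card := by exact_mod_cast (Finset.card_pos.2 ⟨t₀, ht₀⟩)
    rw [Real.norm_eq_abs, abs_le]
    constructor
    · have h1 : Real.exp (-M) ≤ X U := by
        calc Real.exp (-M) ≤ Real.exp (z * (β t₀ + Real.log (ZS eig (cls lab t₀) U))) := by
              rw [Real.exp_le_exp]
              have := (abs_le.1 (hb t₀ ht₀)).1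
              linarith [hb2 t₀ ht₀]
          _ ≤ X U := Finset.single_le_sum
              (f := fun t => Real.exp (z * (β t + Real.log (ZS eig (cls lab t) U))))
              (fun _ _ => (Real.exp_pos _).le) ht₀
      have := (Real.le_log_iff_exp_le (hXpos U)).2 h1
      linarith [abs_nonneg (Real.log (T.card : ℝ))]
    · have h1 : X U ≤ T.card * Real.exp M := by
        calc X U ≤ ∑ _t ∈ T, Real.exp M := by
              apply Finset.sum_le_sum
              intro t ht
              rw [Real.exp_le_exp]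
              exact ((abs_le.1 (hb t ht)).2).trans (hb2 t ht)
          _ = _ := by rw [Finset.sum_const, nsmul_eq_mul]
      have h2 := Real.log_le_log (hXpos U) h1
      rw [Real.log_mul hcard.ne' (Real.exp_pos _).ne', Real.log_exp] at h2
      linarith [le_abs_self (Real.log (T.card : ℝ))]
  -- pointwise bound
  have hpt : ∀ U, pressureFieldN eig (Matrix.of U) (fun r => c (lab r)) ≤
      (1 / (N : ℝ)) * (z⁻¹ * Real.log (X U)) := by
    intro U
    rw [pressure_decomp]
    apply mul_le_mul_of_nonneg_left _ (by positivity)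
    exact log_sum_le hTne hz0 hz1 _
  have hpint : Integrable (fun U => pressureFieldN eig (Matrix.of U) (fun r => c (lab r))) P :=
    by
      refine Integrable.of_bound
        (pressureField_continuous eig _).measurable.aestronglyMeasurable
        ((1 / (N : ℝ)) * ((1 / 2) * (∑ i, |eig i| * N) + ∑ r, |c (lab r)|)) ?_
      filter_upwards [hP.orth] with U hU
      rw [Real.norm_eq_abs]
      exact pressureField_bound eig _ hU
  -- expectation of `X`
  have hEX : ∫ U, X U ∂P ≤ T.card * Real.exp (z * (N * B)) := by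
    rw [hX, integral_finsetSum _ fun t ht => integrable_exp_logZ eig (cls_nonempty ht) hP z (β t)]
    calc _ ≤ ∑ _t ∈ T, Real.exp (z * (N * B)) := by
          apply Finset.sum_le_sum
          intro t ht
          have hS := cls_nonempty ht
          have h1 : ∀ U, Real.exp (z * (β t + Real.log (ZS eig (cls lab t) U))) =
              Real.exp (z * β t) * Real.exp (z * Real.log (ZS eig (cls lab t) U)) := by
            intro U; rw [← Real.exp_add]; ring_nf
          simp only [h1]
          rw [integral_const_mul]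
          have h2 := hB t ht
          simp only [ZS_eq] at h2
          have hIpos : 0 < ∫ U, Real.exp (z * Real.log (ZS eig (cls lab t) U)) ∂P := by
            apply integral_exp_pos
            have := integrable_exp_logZ eig hS hP z 0
            simpa using this
          set I := ∫ U, Real.exp (z * Real.log (ZS eig (cls lab t) U)) ∂P with hI
          have h3 : I = Real.exp (Real.log I) := (Real.exp_log hIpos).symm
          rw [h3, ← Real.exp_add, Real.exp_le_exp]
          have h4 : (1 / (N : ℝ)) * β t + (1 / (N : ℝ)) * (z⁻¹ * Real.log I) ≤ B := by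
            rw [hzi]
            simp only [hβ]
            linarith
          have h5 : z * (N * ((1 / (N : ℝ)) * β t + (1 / (N : ℝ)) * (z⁻¹ * Real.log I))) =
              z * β t + Real.log I := by
            field_simp
          rw [← h5]
          exact mul_le_mul_of_nonneg_left (mul_le_mul_of_nonneg_left h4 hN'.le) hz0.le
      _ = _ := by rw [Finset.sum_const, nsmul_eq_mul]
  have hcard : (0 : ℝ) < T.card := by exact_mod_cast (Finset.card_pos.2 hTne)
  have hEXpos : 0 < ∫ U, X U ∂P := by
    rw [integral_pos_iff_support_of_nonneg (fun ω => (hXpos ω).le) hXint]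
    have : Function.support X = Set.univ := by
      ext ω; simp [(hXpos ω).ne']
    rw [this]
    simp
  have hlogEX : Real.log (∫ U, X U ∂P) ≤ J * Real.log ((N : ℝ) + 1) + z * (N * B) := by
    have h1 := Real.log_le_log hEXpos hEX
    rw [Real.log_mul hcard.ne' (Real.exp_pos _).ne', Real.log_exp] at h1
    have h2 := Real.log_le_log hcard (card_image_le lab)
    rw [Real.log_pow] at h2
    linarith
  calc ∫ U, pressureFieldN eig (Matrix.of U) (fun r => c (lab r)) ∂P ≤
        ∫ U, (1 / (N : ℝ)) * (z⁻¹ * Real.log (X U)) ∂P :=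
        integral_mono hpint ((hlog.const_mul _).const_mul _) hpt
    _ = (1 / (N : ℝ)) * (z⁻¹ * ∫ U, Real.log (X U) ∂P) := by
        rw [integral_const_mul, integral_const_mul]
    _ ≤ (1 / (N : ℝ)) * (z⁻¹ * (J * Real.log ((N : ℝ) + 1) + z * (N * B))) := by
        apply mul_le_mul_of_nonneg_left _ (by positivity)
        apply mul_le_mul_of_nonneg_left _ (by positivity)
        exact (integral_log_le hXpos hXint hlog).trans hlogEX
    _ = _ := by
        rw [← hzi]
        field_simp
        ring

end Crest.Agent.RI.FN
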