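import Crest.Agent.RI.UBFdist
import Crest.Agent.RI.UBFunion

/-!
# Row 164, Part 11.1: the upper bound with field (helper50)
-/

set_option autoImplicit false

namespace Crest.Agent.RI

open MeasureTheory ProbabilityTheory
open Crest.ProbabilityR.InvariantGlass
open Crest.Agent.RI.FN

theorem tendsto_log_div : Filter.Tendsto (fun N : ℕ => Real.log ((N : ℝ) + 1) / (N : ℝ))
    Filter.atTop (nhds 0) := by
  have h1 : Filter.Tendsto (fun x : ℝ => Real.log x / x) Filter.atTop (nhds 0) := by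
    have := Real.isLittleO_log_id_atTop.tendsto_div_nhds_zero
    simpa using this
  have h2 : Filter.Tendsto (fun N : ℕ => (N : ℝ) + 1) Filter.atTop Filter.atTop :=
    Filter.tendsto_atTop_add_const_right _ _ tendsto_natCast_atTop_atTop
  have h3 := h1.comp h2
  have h4 : Filter.Tendsto (fun N : ℕ => 2 * (Real.log ((N : ℝ) + 1) / ((N : ℝ) + 1)))
      Filter.atTop (nhds 0) := by
    have := h3.const_mul 2
    simpa using this
  refine squeeze_zero' ?_ ?_ h4
  · filter_upwards with N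
    have h0 : (0 : ℝ) ≤ N := by positivity
    exact div_nonneg (Real.log_nonneg (by linarith)) h0
  · filter_upwards [Filter.eventually_ge_atTop 1] with N hN
    have hN' : (1 : ℝ) ≤ N := by exact_mod_cast hN
    have hl : 0 ≤ Real.log ((N : ℝ) + 1) := Real.log_nonneg (by linarith)
    rw [← mul_div_assoc, div_le_div_iff₀ (by linarith) (by linarith)]
    nlinarith

/-- Upper bound with field (Part 11.1). -/
theorem UBfield (D : Blk) (hUB : UBmainStmt D) {C : ℝ} (hG : GLip D C) {J : ℕ} (γ : Fin J → ℝ)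
    (hγ : ∀ j, 0 < γ j) (hs : ∑ j, γ j = 1) (c : Fin J → ℝ) {F ε : ℝ} (hε : 0 < ε)
    (hF : ∀ m : Fin J → ℚ, (∀ j, (-1 : ℚ) < m j ∧ m j < 1) → ∀ V : ℝ,
      VLe D γ (fun j => ((m j : ℚ) : ℝ)) V → ∑ j, γ j * c j * ((m j : ℚ) : ℝ) + V ≤ F) :
    ∃ (N₀ : ℕ) (η : ℝ), 0 < η ∧ ∀ N ≥ N₀, ∀ κ : Fin N → Fin D.K, D.Close η κ →
      ∀ lab : Fin N → Fin J,
      (∀ j, |((Finset.univ.filter (fun r => lab r = j)).card : ℝ) / (N : ℝ) - γ j| ≤ η) →
      ∀ P : Measure (Fin N → Fin N → ℝ), IsHaar P →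
      ∫ U, pressureFieldN (fun a => D.d (κ a)) (Matrix.of U) (fun r => c (lab r)) ∂P ≤ F + ε := by
  obtain ⟨hC, hG⟩ := hG
  set ε' : ℝ := ε / 8 with hε'
  have hε'0 : 0 < ε' := by positivity
  have hlog2 : 0 < Real.log 2 := Real.log_pos (by norm_num)
  set Cc : ℝ := ∑ j, |c j| with hCc
  have hCc0 : 0 ≤ Cc := Finset.sum_nonneg fun _ _ => abs_nonneg _
  have hγ1 : ∀ j, γ j ≤ 1 := by
    intro j
    rw [← hs]
    exact Finset.single_le_sum (f := γ) (fun i _ => (hγ i).le) (Finset.mem_univ j)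
  have hγc : ∑ j, γ j * |c j| ≤ Cc := by
    apply Finset.sum_le_sum
    intro j _
    have := mul_le_mul_of_nonneg_right (hγ1 j) (abs_nonneg (c j))
    linarith
  -- `θ₀`
  obtain ⟨θ₀, hθ₀0, hθ₀1⟩ : ∃ θ₀ : ℚ, (0 : ℝ) < (θ₀ : ℝ) ∧ (θ₀ : ℝ) < min 1 (ε' / (Cc + 1)) :=
    exists_rat_btwn (lt_min one_pos (by positivity))
  have hθ₀a : (θ₀ : ℝ) < 1 := hθ₀1.trans_le (min_le_left _ _)
  have hθ₀b : (θ₀ : ℝ) * Cc ≤ ε' := by
    calc (θ₀ : ℝ) * Cc ≤ (ε' / (Cc + 1)) * (Cc + 1) := by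
          apply mul_le_mul (hθ₀1.le.trans (min_le_right _ _)) (by linarith) hCc0 (by positivity)
      _ = ε' := by field_simp
  -- `δ`
  set δ : ℝ := min (1 / 2) (ε' / (C + 1)) with hδ
  have hδ0 : 0 < δ := lt_min (by norm_num) (by positivity)
  have hδ1 : δ ≤ 1 := (min_le_left _ _).trans (by norm_num)
  have hCδ : C * δ ≤ ε' := by
    calc C * δ ≤ (C + 1) * (ε' / (C + 1)) := by
          apply mul_le_mul (by linarith) (min_le_right _ _) hδ0.le (by linarith)
      _ = ε' := by field_simp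
  -- `θ`
  set M : ℝ := Real.log 2 / δ + Real.log 2 with hM
  have hM0 : 0 < M := by positivity
  set θ : ℝ := min 1 (ε' / M) with hθ
  have hθ0 : 0 < θ := lt_min one_pos (by positivity)
  have hθ1 : θ ≤ 1 := min_le_left _ _
  have hθM : θ * M ≤ ε' := by
    calc θ * M ≤ (ε' / M) * M := mul_le_mul_of_nonneg_right (min_le_right _ _) hM0.le
      _ = ε' := by field_simp
  -- `k`
  obtain ⟨k₀, hk₀⟩ := hUB hε'0 hδ0
  obtain ⟨k₁, hk₁⟩ := exists_nat_gt (C / ε')
  set k := max k₀ k₁ with hk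
  have hkpos : (0 : ℝ) < (k : ℝ) + 1 := by positivity
  have hCk : C * (1 / ((k : ℝ) + 1)) ≤ ε' := by
    have h1 : (k₁ : ℝ) ≤ k := by exact_mod_cast le_max_right k₀ k₁
    rw [mul_one_div, div_le_iff₀ hkpos]
    rw [div_lt_iff₀ hε'0] at hk₁
    nlinarith
  obtain ⟨N₀, η₀, hη₀, hN₀⟩ := hk₀ k (le_max_left _ _)
  -- `N` large
  have hlim : Filter.Tendsto (fun N : ℕ => ((k : ℝ) + 1) * (J * Real.log ((N : ℝ) + 1)) / N)
      Filter.atTop (nhds 0) := by
    have h1 := tendsto_log_div.const_mul (((k : ℝ) + 1) * J)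
    rw [mul_zero] at h1
    refine h1.congr fun N => ?_
    ring
  obtain ⟨N₁, hN₁⟩ := Filter.eventually_atTop.1 (hlim.eventually_le_const hε'0)
  -- `η`
  obtain ⟨η₁, hη₁0, hη₁⟩ : ∃ η₁ : ℝ, 0 < η₁ ∧ ∀ j, η₁ ≤ θ * γ j := by
    have h1 : ∀ᶠ x : ℝ in nhdsWithin 0 (Set.Ioi 0), ∀ j, x < θ * γ j := by
      rw [Filter.eventually_all]
      intro j
      have h2 : Filter.Tendsto (fun x : ℝ => x) (nhdsWithin 0 (Set.Ioi 0)) (nhds 0) :=
        nhdsWithin_le_nhds
      exact h2.eventually_lt_const (mul_pos hθ0 (hγ j))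
    obtain ⟨x, hx⟩ := (h1.and self_mem_nhdsWithin).exists
    exact ⟨x, hx.2, fun j => (hx.1 j).le⟩
  refine ⟨max (max N₀ N₁) 1, min η₀ (min η₁ (ε' / (Cc + 1))),
    lt_min hη₀ (lt_min hη₁0 (by positivity)), ?_⟩
  intro N hN κ hκ lab hlab P hP
  have hNa : N₀ ≤ N := (le_max_left _ _).trans ((le_max_left _ _).trans hN)
  have hNb : N₁ ≤ N := (le_max_right _ _).trans ((le_max_left _ _).trans hN)
  have hNc : 0 < N := lt_of_lt_of_le one_pos ((le_max_right _ _).trans hN)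
  have hN' : (0 : ℝ) < N := by exact_mod_cast hNc
  have hκ' : D.Close η₀ κ := fun l => (hκ l).trans (min_le_left _ _)
  have hlabη₁ : ∀ j, |(nC lab j : ℝ) / N - γ j| ≤ η₁ := fun j =>
    (hlab j).trans ((min_le_right _ _).trans (min_le_left _ _))
  have hlabη₂ : ∀ j, |(nC lab j : ℝ) / N - γ j| ≤ ε' / (Cc + 1) := fun j =>
    (hlab j).trans ((min_le_right _ _).trans (min_le_right _ _))
  have hprop : ∀ j, (1 - θ) * γ j ≤ (nC lab j : ℝ) / N := by
    intro j
    have h1 := (abs_le.1 (hlabη₁ j)).1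
    have h2 := hη₁ j
    linarith
  refine (union_bound hNc (fun a => D.d (κ a)) lab c hP k (F + 7 * ε') ?_).trans ?_
  · intro t ht
    have htne := cls_nonempty ht
    set m' : Fin J → ℚ := magm lab t with hm'
    have hm'1 : ∀ j, |((m' j : ℚ) : ℝ)| ≤ 1 := fun j => magm_abs htne j
    set m : Fin J → ℚ := fun j => (1 - θ₀) * m' j with hm
    have hmcast : ∀ j, ((m j : ℚ) : ℝ) = (1 - (θ₀ : ℝ)) * ((m' j : ℚ) : ℝ) := by
      intro j; simp only [hm]; push_cast; ring
    have hmrange : ∀ j, (-1 : ℚ) < m j ∧ m j < 1 := by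
      intro j
      have h1 : |((m j : ℚ) : ℝ)| < 1 := by
        rw [hmcast, abs_mul, abs_of_pos (by linarith : (0 : ℝ) < 1 - θ₀)]
        have := mul_le_mul_of_nonneg_left (hm'1 j) (by linarith : (0 : ℝ) ≤ 1 - θ₀)
        linarith
      have h2 := abs_lt.1 h1
      constructor
      · exact_mod_cast h2.1
      · exact_mod_cast h2.2
    -- a good trial path
    set Sm : ℝ := ∑ j, γ j * c j * ((m j : ℚ) : ℝ) with hSm
    have hex : ∃ p : ℝ → ℝ, IsTrialPath p ∧ ∃ s : ℝ,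
        SB γ (fun j => ((m j : ℚ) : ℝ)) p s ∧ s + D.G p < F - Sm + ε' := by
      by_contra hcon
      push Not at hcon
      have h1 : VLe D γ (fun j => ((m j : ℚ) : ℝ)) (F - Sm + ε') := fun p hp s hsb =>
        hcon p hp s hsb
      have h2 := hF m hmrange _ h1
      linarith
    obtain ⟨p, hp, s, hsb, hps⟩ := hex
    have hq := pcut_trial hδ1 hδ0.le hp
    have hle : ∀ u ∈ Set.Ioo (0 : ℝ) 1, pcut δ p u ≤ 1 - δ := fun u _ => pcut_le' δ p u
    have hs0 : -Real.log 2 ≤ s := by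
      refine SB_ge (fun j => (hγ j).le) hs (fun j => ?_) hsb
      rw [hmcast, abs_mul, abs_of_pos (by linarith : (0 : ℝ) < 1 - θ₀)]
      have := mul_le_mul_of_nonneg_left (hm'1 j) (by linarith : (0 : ℝ) ≤ 1 - θ₀)
      linarith
    have hA : IsProbabilityMeasure (unifS (cls lab t)) := isProb_unifS htne
    set Lg : ℝ := (1 / (N : ℝ)) * Real.log (2 ^ N / ((cls lab t).card : ℝ)) with hLg
    have hmain := hN₀ N hNa κ hκ' P hP (unifS (cls lab t)) hA (pUB k δ (pcut δ p))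
      (pUB_mono (trial_integrableOn hq) hq.2.1 hle)
      (fun i => pUB_range hδ1 (trial_integrableOn hq) (fun u hu => (hq.2.2 u hu).1) hle i)
      (Lg + (1 - θ) * s + θ * (Real.log 2 / δ))
      (fun τ hτ => class_bound hNc htne k hδ0 hδ1 hθ₀0.le hθ₀a.le (fun j => (hγ j).le) hs hθ0.le
        hθ1 hprop hp (by
          have e : (fun j => (1 - (θ₀ : ℝ)) * ((magm lab t j : ℚ) : ℝ)) =
              fun j => ((m j : ℚ) : ℝ) := by
            funext j; rw [hmcast]
          rw [e]; exact hsb) hτ)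
    have hG1 := abs_le.1 (hG p (pcut δ p) hp hq δ hδ0.le (pdist_pcut hδ0.le hp))
    have hG2 := abs_le.1 (hG (pcut δ p) (stepUB k (pUB k δ (pcut δ p))) hq
      (stepUB_trial hδ0.le hδ1 hq hle) (1 / ((k : ℝ) + 1)) (by positivity)
      (pdist_stepUB hδ0.le hδ1 hq hle))
    have hθs : (1 - θ) * s + θ * (Real.log 2 / δ) ≤ s + ε' := by
      have h1 : θ * (-s) ≤ θ * Real.log 2 := mul_le_mul_of_nonneg_left (by linarith) hθ0.le
      rw [hM] at hθM
      linarith
    -- magnetic part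
    have hmag : (1 / (N : ℝ)) * (∑ j, c j * magS lab t j) ≤ Sm + 2 * ε' := by
      have h1 : (1 / (N : ℝ)) * (∑ j, c j * magS lab t j) =
          ∑ j, ((nC lab j : ℝ) / N) * (c j * ((m' j : ℚ) : ℝ)) := by
        rw [Finset.mul_sum]
        apply Finset.sum_congr rfl
        intro j _
        rw [← nC_mul_magm htne j]
        ring
      have h2 : Sm = ∑ j, γ j * (c j * ((m' j : ℚ) : ℝ)) -
          (θ₀ : ℝ) * ∑ j, γ j * (c j * ((m' j : ℚ) : ℝ)) := by
        rw [hSm, Finset.mul_sum, ← Finset.sum_sub_distrib]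
        apply Finset.sum_congr rfl
        intro j _
        rw [hmcast]; ring
      have hcm : ∀ j, |c j * ((m' j : ℚ) : ℝ)| ≤ |c j| := by
        intro j
        rw [abs_mul]
        have := mul_le_mul_of_nonneg_left (hm'1 j) (abs_nonneg (c j))
        linarith
      have h3 : ∑ j, ((nC lab j : ℝ) / N) * (c j * ((m' j : ℚ) : ℝ)) -
          ∑ j, γ j * (c j * ((m' j : ℚ) : ℝ)) ≤ ε' := by
        rw [← Finset.sum_sub_distrib]
        calc ∑ j, (((nC lab j : ℝ) / N) * (c j * ((m' j : ℚ) : ℝ)) -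
              γ j * (c j * ((m' j : ℚ) : ℝ))) ≤ ∑ j, (ε' / (Cc + 1)) * |c j| := by
              apply Finset.sum_le_sum
              intro j _
              rw [← sub_mul]
              refine (le_abs_self _).trans ?_
              rw [abs_mul]
              exact mul_le_mul (hlabη₂ j) (hcm j) (abs_nonneg _) (by positivity)
          _ = (ε' / (Cc + 1)) * Cc := by rw [← Finset.mul_sum]
          _ ≤ (ε' / (Cc + 1)) * (Cc + 1) := mul_le_mul_of_nonneg_left (by linarith) (by positivity)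
          _ = ε' := by field_simp
      have h4 : (θ₀ : ℝ) * ∑ j, γ j * (c j * ((m' j : ℚ) : ℝ)) ≤ ε' := by
        calc (θ₀ : ℝ) * ∑ j, γ j * (c j * ((m' j : ℚ) : ℝ)) ≤ (θ₀ : ℝ) * Cc := by
              apply mul_le_mul_of_nonneg_left _ hθ₀0.le
              refine le_trans ?_ hγc
              apply Finset.sum_le_sum
              intro j _
              exact mul_le_mul_of_nonneg_left ((le_abs_self _).trans (hcm j)) (hγ j).le
          _ ≤ ε' := hθ₀b
      rw [h1]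
      linarith
    linarith [hG1.1, hG1.2, hG2.1, hG2.2]
  · have h1 := hN₁ N hNb
    have h2 : 8 * ε' = ε := by rw [hε']; ring
    linarith

end Crest.Agent.RI
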