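import Crest.Agent.RI.VCont
import Crest.Agent.RI.UBFcls

/-!
# Row 164, Part 11.1: block averages of a trial path and the bound for one class (helper50)
-/

set_option autoImplicit false

namespace Crest.Agent.RI.FN

open MeasureTheory ProbabilityTheory
open Crest.ProbabilityR.InvariantGlass
open Crest.Agent.RI

/-! ### siteLeg in terms of step fields -/

theorem siteVal_ζUB (k : ℕ) (τ : ℕ → ℝ) (b : ℝ) :
    siteVal (ζUB k) τ k b =
      fieldValueAt b (fun _ : Fin (k + 1) => 1 / ((k : ℝ) + 1)) (hvUB k τ) := by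
  rw [← siteVal_UB]
  unfold siteVal
  congr 1
  refine congrFun (recT_congr _ fun j hj => ?_) b
  simp only [Nat.zero_add]
  refine ⟨?_, trivial⟩
  unfold ζUB
  apply min_eq_right
  rw [div_le_one (by positivity)]
  have : (j : ℝ) + 1 ≤ k := by exact_mod_cast hj
  linarith

theorem siteLeg_ζUB (k : ℕ) (τ : ℕ → ℝ) (m : ℝ) :
    siteLeg (ζUB k) τ k m =
      fLeg (fun _ : Fin (k + 1) => 1 / ((k : ℝ) + 1)) (hvUB k τ) m := by
  unfold siteLeg fLeg
  simp only [siteVal_ζUB]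

/-- `ℓ^[m]` decreases in `|m|`. -/
theorem fLeg_anti {k : ℕ} {w hv : Fin k → ℝ} (h : IsStepField w hv) {m θ : ℝ} (hm : |m| ≤ 1)
    (hθ0 : 0 ≤ θ) (hθ1 : θ ≤ 1) : fLeg w hv m ≤ fLeg w hv ((1 - θ) * m) := by
  refine le_ciInf fun b => ?_
  have h1 := fLeg_le h hm b
  have h2 := fLeg_le h hm (-b)
  have h3 : fieldValueAt (-b) w hv = fieldValueAt b w hv := by
    rw [fieldValueAt_eq_FVal h.2.1, fieldValueAt_eq_FVal h.2.1]
    exact (FVal_SF (fS_pos h) _).even b
  rw [h3] at h2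
  have h4 : fieldValueAt b w hv - b * ((1 - θ) * m) =
      (1 - θ / 2) * (fieldValueAt b w hv - b * m) + (θ / 2) * (fieldValueAt b w hv - -b * m) := by
    ring
  rw [h4]
  have h5 := mul_le_mul_of_nonneg_left h1 (by linarith : 0 ≤ 1 - θ / 2)
  have h6 := mul_le_mul_of_nonneg_left h2 (by linarith : 0 ≤ θ / 2)
  linarith

/-! ### Block averages -/

/-- Block averages of `q` over the blocks `((i+1)/(k+1), (i+2)/(k+1)]`. -/
noncomputable def pUB (k : ℕ) (δ : ℝ) (q : ℝ → ℝ) (i : ℕ) : ℝ :=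
  if i < k then ((k : ℝ) + 1) *
    ∫ u in Set.Ioc (((i : ℝ) + 1) / ((k : ℝ) + 1)) (((i : ℝ) + 2) / ((k : ℝ) + 1)), q u
  else 1 - δ

section

variable {k : ℕ} {δ : ℝ} {q : ℝ → ℝ}

theorem block_sub {i : ℕ} (hi : i < k) :
    Set.Ioo (((i : ℝ) + 1) / ((k : ℝ) + 1)) (((i : ℝ) + 2) / ((k : ℝ) + 1)) ⊆ Set.Ioo (0 : ℝ) 1 := by
  intro u hu
  have hi' : (i : ℝ) + 1 ≤ k := by exact_mod_cast hi
  refine ⟨lt_trans (by positivity) hu.1, lt_of_lt_of_le hu.2 ?_⟩
  rw [div_le_one (by positivity)]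
  linarith

theorem block_len (i : ℕ) :
    ((i : ℝ) + 2) / ((k : ℝ) + 1) - ((i : ℝ) + 1) / ((k : ℝ) + 1) = 1 / ((k : ℝ) + 1) := by
  rw [← sub_div]
  congr 1
  ring

theorem block_lt (i : ℕ) : ((i : ℝ) + 1) / ((k : ℝ) + 1) < ((i : ℝ) + 2) / ((k : ℝ) + 1) := by
  apply div_lt_div_of_pos_right _ (by positivity)
  linarith

theorem average_bounds {a b : ℝ} {i : ℕ} (hi : i < k) (hq : IntegrableOn q (Set.Ioo 0 1))
    (h : ∀ u ∈ Set.Ioo (((i : ℝ) + 1) / ((k : ℝ) + 1)) (((i : ℝ) + 2) / ((k : ℝ) + 1)),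
      a ≤ q u ∧ q u ≤ b) :
    a ≤ pUB k δ q i ∧ pUB k δ q i ≤ b := by
  unfold pUB
  rw [if_pos hi, integral_Ioc_eq_integral_Ioo]
  have hk : (0 : ℝ) < (k : ℝ) + 1 := by positivity
  have hint : IntegrableOn q (Set.Ioo (((i : ℝ) + 1) / ((k : ℝ) + 1))
    (((i : ℝ) + 2) / ((k : ℝ) + 1))) := hq.mono_set (block_sub hi)
  have hc : ∀ c : ℝ, ∫ _u in Set.Ioo (((i : ℝ) + 1) / ((k : ℝ) + 1))
      (((i : ℝ) + 2) / ((k : ℝ) + 1)), c = c / ((k : ℝ) + 1) := by
    intro c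
    rw [setIntegral_const, Real.volume_real_Ioo, block_len, max_eq_left (by positivity),
      smul_eq_mul]
    ring
  have h1 : a / ((k : ℝ) + 1) ≤ ∫ u in Set.Ioo (((i : ℝ) + 1) / ((k : ℝ) + 1))
      (((i : ℝ) + 2) / ((k : ℝ) + 1)), q u := by
    rw [← hc a]
    exact setIntegral_mono_on (integrableOn_const (by simp)) hint measurableSet_Ioo
      fun u hu => (h u hu).1
  have h2 : ∫ u in Set.Ioo (((i : ℝ) + 1) / ((k : ℝ) + 1))
      (((i : ℝ) + 2) / ((k : ℝ) + 1)), q u ≤ b / ((k : ℝ) + 1) := by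
    rw [← hc b]
    exact setIntegral_mono_on hint (integrableOn_const (by simp)) measurableSet_Ioo
      fun u hu => (h u hu).2
  rw [div_le_iff₀ hk] at h1
  rw [le_div_iff₀ hk] at h2
  constructor <;> linarith

/-- A point of the next block. -/
theorem pUB_mono (hq : IntegrableOn q (Set.Ioo 0 1)) (hmono : MonotoneOn q (Set.Ioo 0 1))
    (hle : ∀ u ∈ Set.Ioo (0 : ℝ) 1, q u ≤ 1 - δ) : Monotone (pUB k δ q) := by
  apply monotone_nat_of_le_succ
  intro i
  by_cases hi : i + 1 < k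
  · have hi0 : i < k := by omega
    set c := ((i : ℝ) + 2) / ((k : ℝ) + 1) with hc
    have hcm : c ∈ Set.Ioo (0 : ℝ) 1 := by
      have hi' : (i : ℝ) + 1 + 1 ≤ k := by exact_mod_cast hi
      refine ⟨by positivity, ?_⟩
      rw [hc, div_lt_one (by positivity)]
      linarith
    have h1 : pUB k δ q i ≤ q c := by
      have h2 : ∀ u ∈ Set.Ioo (((i : ℝ) + 1) / ((k : ℝ) + 1)) (((i : ℝ) + 2) / ((k : ℝ) + 1)),
          (fun u => min (q u) (q c)) u = q u := by
        intro u hu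
        exact min_eq_left (hmono (block_sub hi0 hu) hcm hu.2.le)
      -- upper bound by monotonicity
      unfold pUB
      rw [if_pos hi0, integral_Ioc_eq_integral_Ioo]
      have hk : (0 : ℝ) < (k : ℝ) + 1 := by positivity
      have hint : IntegrableOn q (Set.Ioo (((i : ℝ) + 1) / ((k : ℝ) + 1))
        (((i : ℝ) + 2) / ((k : ℝ) + 1))) := hq.mono_set (block_sub hi0)
      have h3 : ∫ u in Set.Ioo (((i : ℝ) + 1) / ((k : ℝ) + 1))
          (((i : ℝ) + 2) / ((k : ℝ) + 1)), q u ≤ q c / ((k : ℝ) + 1) := by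
        have h4 : ∫ _u in Set.Ioo (((i : ℝ) + 1) / ((k : ℝ) + 1))
            (((i : ℝ) + 2) / ((k : ℝ) + 1)), q c = q c / ((k : ℝ) + 1) := by
          rw [setIntegral_const, Real.volume_real_Ioo, block_len, max_eq_left (by positivity),
            smul_eq_mul]
          ring
        rw [← h4]
        exact setIntegral_mono_on hint (integrableOn_const (by simp)) measurableSet_Ioo
          fun u hu => hmono (block_sub hi0 hu) hcm hu.2.le
      rw [le_div_iff₀ hk] at h3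
      linarith
    have h5 : q c ≤ pUB k δ q (i + 1) := by
      unfold pUB
      rw [if_pos hi, integral_Ioc_eq_integral_Ioo]
      have hk : (0 : ℝ) < (k : ℝ) + 1 := by positivity
      have hint := hq.mono_set (block_sub hi)
      have h4 : ∫ _u in Set.Ioo ((((i + 1 : ℕ) : ℝ) + 1) / ((k : ℝ) + 1))
          ((((i + 1 : ℕ) : ℝ) + 2) / ((k : ℝ) + 1)), q c = q c / ((k : ℝ) + 1) := by
        rw [setIntegral_const, Real.volume_real_Ioo, block_len, max_eq_left (by positivity),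
          smul_eq_mul]
        ring
      have h3 : q c / ((k : ℝ) + 1) ≤ ∫ u in Set.Ioo ((((i + 1 : ℕ) : ℝ) + 1) / ((k : ℝ) + 1))
          ((((i + 1 : ℕ) : ℝ) + 2) / ((k : ℝ) + 1)), q u := by
        rw [← h4]
        refine setIntegral_mono_on (integrableOn_const (by simp)) hint measurableSet_Ioo
          fun u hu => hmono hcm (block_sub hi hu) ?_
        have : c = (((i + 1 : ℕ) : ℝ) + 1) / ((k : ℝ) + 1) := by
          rw [hc]; push_cast; ring
        rw [this]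
        exact hu.1.le
      rw [div_le_iff₀ hk] at h3
      linarith
    exact h1.trans h5
  · -- the value beyond the last block is `1 - δ`
    have h6 : pUB k δ q (i + 1) = 1 - δ := by unfold pUB; rw [if_neg hi]
    rw [h6]
    by_cases hi0 : i < k
    · unfold pUB
      rw [if_pos hi0, integral_Ioc_eq_integral_Ioo]
      have hk : (0 : ℝ) < (k : ℝ) + 1 := by positivity
      have hint := hq.mono_set (block_sub hi0)
      have h4 : ∫ _u in Set.Ioo (((i : ℝ) + 1) / ((k : ℝ) + 1))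
          (((i : ℝ) + 2) / ((k : ℝ) + 1)), (1 - δ) = (1 - δ) / ((k : ℝ) + 1) := by
        rw [setIntegral_const, Real.volume_real_Ioo, block_len, max_eq_left (by positivity),
          smul_eq_mul]
        ring
      have h3 : ∫ u in Set.Ioo (((i : ℝ) + 1) / ((k : ℝ) + 1))
          (((i : ℝ) + 2) / ((k : ℝ) + 1)), q u ≤ (1 - δ) / ((k : ℝ) + 1) := by
        rw [← h4]
        exact setIntegral_mono_on hint (integrableOn_const (by simp)) measurableSet_Ioo
          fun u hu => hle u (block_sub hi0 hu)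
      rw [le_div_iff₀ hk] at h3
      linarith
    · unfold pUB
      rw [if_neg hi0]

theorem pUB_range (hδ1 : δ ≤ 1) (hq : IntegrableOn q (Set.Ioo 0 1))
    (h0 : ∀ u ∈ Set.Ioo (0 : ℝ) 1, 0 ≤ q u)
    (hle : ∀ u ∈ Set.Ioo (0 : ℝ) 1, q u ≤ 1 - δ) (i : ℕ) :
    0 ≤ pUB k δ q i ∧ pUB k δ q i ≤ 1 - δ := by
  by_cases hi : i < k
  · exact average_bounds hi hq fun u hu => ⟨h0 u (block_sub hi hu), hle u (block_sub hi hu)⟩
  · unfold pUB
    rw [if_neg hi]
    constructor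
    · linarith
    · exact le_rfl

/-- `(1/(k+1)) Σ p_i h_i = ∫ q h`. -/
theorem sum_pUB (hq : IntegrableOn q (Set.Ioo 0 1)) {τ : ℕ → ℝ} (hτ : ∀ i, 0 ≤ τ i) :
    (1 / ((k : ℝ) + 1)) * ∑ i ∈ Finset.range k, pUB k δ q i * hh τ i =
      ∫ u in Set.Ioo (0 : ℝ) 1,
        q u * stepFn (fun _ : Fin (k + 1) => 1 / ((k : ℝ) + 1)) (hvUB k τ) u := by
  rw [integral_mul_stepFn_UB k hτ hq, Finset.mul_sum]
  apply Finset.sum_congr rfl
  intro i hi
  unfold pUB
  rw [if_pos (Finset.mem_range.1 hi)]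
  have hk : (k : ℝ) + 1 ≠ 0 := by positivity
  field_simp

end

/-! ### The bound for one class -/

theorem class_bound {N J : ℕ} {lab : Fin N → Fin J} (hN : 0 < N) {t : Fin J → Fin (N + 1)}
    (ht : (cls lab t).Nonempty) (k : ℕ) {δ θ₀ θ : ℝ} (hδ0 : 0 < δ) (hδ1 : δ ≤ 1)
    (hθ0 : 0 ≤ θ₀) (hθ01 : θ₀ ≤ 1) {γ : Fin J → ℝ} (hγ : ∀ j, 0 ≤ γ j)
    (hs : ∑ j, γ j = 1) (hθ0' : 0 ≤ θ) (hθ1 : θ ≤ 1) (hprop : ∀ j, (1 - θ) * γ j ≤ (nC lab j : ℝ) / N)
    {p : ℝ → ℝ} (hp : IsTrialPath p) {s : ℝ}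
    (hsb : SB γ (fun j => (1 - θ₀) * ((magm lab t j : ℚ) : ℝ)) p s) {τ : ℕ → ℝ}
    (hτ : ∀ i, 0 ≤ τ i) :
    siteA (unifS (cls lab t)) k τ +
      (1 / 2) * ((1 / ((k : ℝ) + 1)) * ∑ i ∈ Finset.range k, pUB k δ (pcut δ p) i * hh τ i) ≤
      (1 / (N : ℝ)) * Real.log (2 ^ N / ((cls lab t).card : ℝ)) + (1 - θ) * s +
        θ * (Real.log 2 / δ) := by
  have hN' : (0 : ℝ) < N := by exact_mod_cast hN
  have hq := pcut_trial hδ1 hδ0.le hp
  rw [sum_pUB (trial_integrableOn hq) hτ]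
  have hfield := isStepField_UB k hτ
  set w : Fin (k + 1) → ℝ := fun _ => 1 / ((k : ℝ) + 1) with hw
  set hv := hvUB k τ with hhv
  set X := ∫ u in Set.Ioo (0 : ℝ) 1, pcut δ p u * stepFn w hv u with hX
  have h1 := siteA_cls hN ht k τ
  simp only [siteLeg_ζUB] at h1
  rw [← hw, ← hhv] at h1
  have h2 : ∑ j, ((nC lab j : ℝ) / N) * fLeg w hv ((magm lab t j : ℚ) : ℝ) ≤
      (1 - θ) * ∑ j, γ j * fLeg w hv ((1 - θ₀) * ((magm lab t j : ℚ) : ℝ)) +
        θ * (Real.log 2 / δ - (1 / 2) * ((1 - δ) * area w hv)) := by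
    set Y := Real.log 2 / δ - (1 / 2) * ((1 - δ) * area w hv) with hY
    calc ∑ j, ((nC lab j : ℝ) / N) * fLeg w hv ((magm lab t j : ℚ) : ℝ) ≤
          ∑ j, ((1 - θ) * (γ j * fLeg w hv ((1 - θ₀) * ((magm lab t j : ℚ) : ℝ))) +
            ((nC lab j : ℝ) / N - (1 - θ) * γ j) * Y) := by
          apply Finset.sum_le_sum
          intro j _
          have hm := magm_abs ht j
          have h6 : fLeg w hv ((magm lab t j : ℚ) : ℝ) ≤ Y := fLeg_grow hfield hm hδ0 hδ1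
          have h7 : fLeg w hv ((magm lab t j : ℚ) : ℝ) ≤
              fLeg w hv ((1 - θ₀) * ((magm lab t j : ℚ) : ℝ)) := fLeg_anti hfield hm hθ0 hθ01
          have h8 := hprop j
          have h9 : ((nC lab j : ℝ) / N) * fLeg w hv ((magm lab t j : ℚ) : ℝ) =
              (1 - θ) * (γ j * fLeg w hv ((magm lab t j : ℚ) : ℝ)) +
              ((nC lab j : ℝ) / N - (1 - θ) * γ j) * fLeg w hv ((magm lab t j : ℚ) : ℝ) := by
            ring
          rw [h9]
          apply add_le_add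
          · apply mul_le_mul_of_nonneg_left _ (by linarith)
            exact mul_le_mul_of_nonneg_left h7 (hγ j)
          · exact mul_le_mul_of_nonneg_left h6 (by linarith)
      _ = _ := by
          rw [Finset.sum_add_distrib, ← Finset.mul_sum, ← Finset.sum_mul,
            Finset.sum_sub_distrib, ← Finset.sum_div, sum_nC, div_self hN'.ne', ← Finset.mul_sum,
            hs]
          ring
  have h3 := hsb (k + 1) w hv hfield
  change ∑ j, γ j * fLeg w hv ((1 - θ₀) * ((magm lab t j : ℚ) : ℝ)) +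
    (1 / 2) * ∫ u in Set.Ioo (0 : ℝ) 1, p u * stepFn w hv u ≤ s at h3
  have h4 := integral_pcut_le hfield hδ1 hδ0.le hp
  have h5 := integral_pcut_area hfield hδ1 hδ0.le hp
  rw [← hX] at h4 h5
  set Sg := ∑ j, γ j * fLeg w hv ((1 - θ₀) * ((magm lab t j : ℚ) : ℝ)) with hSg
  have h10 : (1 - θ) * (Sg + (1 / 2) * X) ≤ (1 - θ) * s := by
    apply mul_le_mul_of_nonneg_left _ (by linarith)
    linarith
  have h11 : θ * (Real.log 2 / δ - (1 / 2) * ((1 - δ) * area w hv) + (1 / 2) * X) ≤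
      θ * (Real.log 2 / δ) := by
    apply mul_le_mul_of_nonneg_left _ hθ0'
    linarith
  linarith

end Crest.Agent.RI.FN
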