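import Crest.Agent.RI.UBMono
import Crest.Agent.RI.UBIface

/-!
# Row 164, Part 6, chunk UBG (medium): the function `g_t(p)`
-/

set_option autoImplicit false

namespace Crest.Agent.RI

open MeasureTheory ProbabilityTheory
open Crest.ProbabilityR.InvariantGlass

variable (D : Blk) {k : ℕ} {p : ℕ → ℝ}

/-- monotone extension of `Θ` -/
private noncomputable def ThE (x : ℝ) : ℝ := D.Θ (max 0 (min 1 x))

private theorem clamp_mem (x : ℝ) : max 0 (min 1 x) ∈ Set.Icc (0 : ℝ) 1 :=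
  ⟨le_max_left _ _, max_le zero_le_one (min_le_left _ _)⟩

private theorem ThE_mono : Monotone (ThE D) := by
  intro x y hxy
  refine D.Θ_mono (clamp_mem x) (clamp_mem y) ?_
  exact max_le_max le_rfl (min_le_min le_rfl hxy)

private theorem ThE_eq {x : ℝ} (hx : x ∈ Set.Icc (0 : ℝ) 1) : ThE D x = D.Θ x := by
  unfold ThE
  rw [min_eq_right hx.2, max_eq_right hx.1]

private theorem ThE_bound (x : ℝ) : ‖ThE D x‖ ≤ max |D.Θ 0| |D.Θ 1| := by
  have h1 : D.Θ 0 ≤ ThE D x := D.Θ_mono ⟨le_rfl, zero_le_one⟩ (clamp_mem x) (clamp_mem x).1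
  have h2 : ThE D x ≤ D.Θ 1 := D.Θ_mono (clamp_mem x) ⟨zero_le_one, le_rfl⟩ (clamp_mem x).2
  rw [Real.norm_eq_abs]
  exact abs_le_max_abs_abs h1 h2

private theorem ThE_int {f : ℝ → ℝ} (hf : Measurable f) :
    Integrable (fun r => ThE D (f r)) (volume.restrict (Set.Ioo (0 : ℝ) 1)) :=
  Integrable.of_bound ((ThE_mono D).measurable.comp hf).aestronglyMeasurable
    (max |D.Θ 0| |D.Θ 1|) (Filter.Eventually.of_forall (fun r => ThE_bound D (f r)))

private theorem deficit_mem' (hp : ∀ i < k, 0 ≤ p i ∧ p i ≤ 1) {r : ℝ}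
    (hr : r ∈ Set.Ioo (0 : ℝ) 1) : deficit (stepUB k p) r ∈ Set.Icc (0 : ℝ) 1 :=
  deficit_step_mem hp ⟨hr.1.le, hr.2.le⟩

private theorem mul_mem' {t x : ℝ} (ht : t ∈ Set.Icc (0 : ℝ) 1) (hx : x ∈ Set.Icc (0 : ℝ) 1) :
    t * x ∈ Set.Icc (0 : ℝ) 1 :=
  ⟨mul_nonneg ht.1 hx.1, mul_le_one₀ ht.2 hx.1 hx.2⟩

private theorem gD_eq (hp : ∀ i < k, 0 ≤ p i ∧ p i ≤ 1) {t : ℝ} (ht : t ∈ Set.Icc (0 : ℝ) 1) :
    gD D k p t =
      (1 / 2) * ∫ r in Set.Ioo (0 : ℝ) 1, ThE D (t * deficit (stepUB k p) r) := by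
  unfold gD
  congr 1
  refine setIntegral_congr_fun measurableSet_Ioo ?_
  intro r hr
  exact (ThE_eq D (mul_mem' ht (deficit_mem' hp hr))).symm

private theorem int_meas (t : ℝ) : Measurable (fun r => t * deficit (stepUB k p) r) :=
  (deficit_step_measurable k p).const_mul t

private theorem integral_const_Ioo (c : ℝ) : ∫ _ in Set.Ioo (0 : ℝ) 1, c = c := by
  simp

/-- PROOF: `Blk.Θ_mono`, `deficit_step_mem`; the integrands are bounded and measurable (a monotone function on `Icc 0 1`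
composed with a measurable function with values there). -/
theorem gD_mono (hp : ∀ i < k, 0 ≤ p i ∧ p i ≤ 1) : MonotoneOn (gD D k p) (Set.Icc 0 1) := by
  intro t ht t' ht' htt'
  rw [gD_eq D hp ht, gD_eq D hp ht']
  refine mul_le_mul_of_nonneg_left ?_ (by norm_num)
  refine setIntegral_mono_on (ThE_int D (int_meas t)) (ThE_int D (int_meas t')) measurableSet_Ioo ?_
  intro r hr
  exact ThE_mono D (mul_le_mul_of_nonneg_right htt' (deficit_mem' hp hr).1)

theorem gD_diff (hp : ∀ i < k, 0 ≤ p i ∧ p i ≤ 1) :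
    gD D k p 1 - gD D k p 0 ≤ (1 / 2) * (D.Θ 1 - D.Θ 0) := by
  rw [gD_eq D hp ⟨zero_le_one, le_rfl⟩, gD_eq D hp ⟨le_rfl, zero_le_one⟩]
  have h1 : ∫ r in Set.Ioo (0 : ℝ) 1, ThE D (1 * deficit (stepUB k p) r) ≤ D.Θ 1 := by
    rw [← integral_const_Ioo (D.Θ 1)]
    refine setIntegral_mono_on (ThE_int D (int_meas 1)) (integrable_const _) measurableSet_Ioo ?_
    intro r hr
    rw [← ThE_eq D (⟨zero_le_one, le_rfl⟩ : (1:ℝ) ∈ Set.Icc (0:ℝ) 1)]
    exact ThE_mono D (mul_mem' ⟨zero_le_one, le_rfl⟩ (deficit_mem' hp hr)).2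
  have h2 : D.Θ 0 ≤ ∫ r in Set.Ioo (0 : ℝ) 1, ThE D (0 * deficit (stepUB k p) r) := by
    have h3 : ∀ r : ℝ, ThE D (0 * deficit (stepUB k p) r) = D.Θ 0 := by
      intro r
      rw [zero_mul]
      exact ThE_eq D (⟨le_rfl, zero_le_one⟩ : (0:ℝ) ∈ Set.Icc (0:ℝ) 1)
    simp only [h3]
    rw [integral_const_Ioo]
  linarith

/-- comparison of two paths -/
theorem gD_le_of_deficit {q : ℕ → ℝ} (hp : ∀ i < k, 0 ≤ p i ∧ p i ≤ 1)
    (hq : ∀ i < k, 0 ≤ q i ∧ q i ≤ 1)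
    (h : ∀ r ∈ Set.Ioo (0 : ℝ) 1, deficit (stepUB k q) r ≤ deficit (stepUB k p) r) {t : ℝ}
    (ht : t ∈ Set.Icc (0 : ℝ) 1) : gD D k q t ≤ gD D k p t := by
  rw [gD_eq D hp ht, gD_eq D hq ht]
  refine mul_le_mul_of_nonneg_left ?_ (by norm_num)
  refine setIntegral_mono_on (ThE_int D (int_meas t)) (ThE_int D (int_meas t)) measurableSet_Ioo ?_
  intro r hr
  exact ThE_mono D (mul_le_mul_of_nonneg_left (h r hr) ht.1)

/-- PROOF: Fubini and `Blk.integral_Θ`; `Blk.G` is `spectralPart`. -/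
theorem gD_integral (hp : ∀ i < k, 0 ≤ p i ∧ p i ≤ 1) :
    ∫ t in (0 : ℝ)..1, gD D k p t = D.G (stepUB k p) := by
  rw [intervalIntegral.integral_of_le zero_le_one]
  have h1 : ∫ t in Set.Ioc (0 : ℝ) 1, gD D k p t =
      ∫ t in Set.Ioc (0 : ℝ) 1,
        (1 / 2) * ∫ r in Set.Ioo (0 : ℝ) 1, ThE D (t * deficit (stepUB k p) r) := by
    refine setIntegral_congr_fun measurableSet_Ioc ?_
    intro t ht
    exact gD_eq D hp ⟨ht.1.le, ht.2⟩
  rw [h1, integral_const_mul]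
  have h2 : Integrable (Function.uncurry (fun t r => ThE D (t * deficit (stepUB k p) r)))
      ((volume.restrict (Set.Ioc (0 : ℝ) 1)).prod (volume.restrict (Set.Ioo (0 : ℝ) 1))) := by
    refine Integrable.of_bound ?_ (max |D.Θ 0| |D.Θ 1|)
      (Filter.Eventually.of_forall (fun r => ThE_bound D _))
    refine ((ThE_mono D).measurable.comp ?_).aestronglyMeasurable
    exact measurable_fst.mul ((deficit_step_measurable k p).comp measurable_snd)
  rw [integral_integral_swap h2]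
  unfold Blk.G spectralPart
  congr 1
  refine setIntegral_congr_fun measurableSet_Ioo ?_
  intro r hr
  have hd := deficit_mem' hp hr
  have h3 := D.integral_Θ hd.1 hd.2
  rw [intervalIntegral.integral_of_le zero_le_one] at h3
  change ∫ t in Set.Ioc (0 : ℝ) 1, ThE D (t * deficit (stepUB k p) r) = D.R (deficit (stepUB k p) r)
  rw [← h3]
  refine setIntegral_congr_fun measurableSet_Ioc ?_
  intro t ht
  exact ThE_eq D (mul_mem' ⟨ht.1.le, ht.2⟩ hd)

end Crest.Agent.RI
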