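import Crest.Agent.RI.UBAff
import Crest.Agent.RI.UBCoer

/-!
# Row 164, Part 6, chunk UBMaxEx (medium): existence of maximizers
-/

set_option autoImplicit false

namespace Crest.Agent.RI

open MeasureTheory ProbabilityTheory
open Crest.ProbabilityR.InvariantGlass

private lemma ubm_zeta (k j : ℕ) (hj : j < k) : 1 - ζUB k j = ((k : ℝ) - j) / ((k : ℝ) + 1) := by
  unfold ζUB
  have hk : (0 : ℝ) < (k : ℝ) + 1 := by positivity
  have h1 : ((j : ℝ) + 1) / ((k : ℝ) + 1) ≤ 1 := by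
    rw [div_le_one hk]
    have : (j : ℝ) < k := by exact_mod_cast hj
    linarith
  rw [min_eq_right h1]
  field_simp
  ring

/-- `½ Σ w p_i h_i ≤ ½ (1-δ) Σ (1-ζ_i) v_i²`. PROOF: `∑_{i<k} p_i ∑_{j≤i} v_j² ≤ (1-δ) ∑_j v_j² (k - j)`, `1 - ζUB k j = (k-j)/(k+1)`
for `j < k`. -/
theorem penU_le (k : ℕ) {K : ℕ} {p : ℕ → ℝ} {δ : ℝ} (hp : ∀ i, 0 ≤ p i ∧ p i ≤ 1 - δ) (z : ZU k K) :
    penU k p z ≤ (1 / 2) * (1 - δ) * ∑ i : Fin k, (1 - ζUB k i) * z.1 i ^ 2 := by
  have hk : (0 : ℝ) < (k : ℝ) + 1 := by positivity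
  have h1 : ∑ i ∈ Finset.range k, p i * hU k z i ≤
      (1 - δ) * ∑ i ∈ Finset.range k, hU k z i := by
    rw [Finset.mul_sum]
    refine Finset.sum_le_sum fun i _ => ?_
    refine mul_le_mul_of_nonneg_right (hp i).2 ?_
    unfold hU
    exact Finset.sum_nonneg fun j _ => sq_nonneg _
  have h2 : ∑ i ∈ Finset.range k, hU k z i =
      ((k : ℝ) + 1) * ∑ i : Fin k, (1 - ζUB k i) * z.1 i ^ 2 := by
    unfold hU
    rw [Finset.sum_comm' (t' := Finset.range k) (s' := fun j => Finset.Ico j k) (by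
      intro i j
      simp only [Finset.mem_range, Finset.mem_Ico]
      omega)]
    rw [Finset.sum_range, Finset.mul_sum]
    refine Finset.sum_congr rfl fun j _ => ?_
    rw [Finset.sum_const, Nat.card_Ico, ubm_zeta k j j.2, dif_pos j.2, nsmul_eq_mul,
      Nat.cast_sub j.2.le]
    have : (⟨(j : ℕ), j.2⟩ : Fin k) = j := rfl
    rw [this]
    field_simp
  have h3 : (0 : ℝ) ≤ ∑ l, (z.2.1 l - 3 / 2) ^ 2 := Finset.sum_nonneg fun _ _ => sq_nonneg _
  have h4 : (0 : ℝ) ≤ ∑ i, ∑ l, (z.2.2 i l - 3 / 2) ^ 2 :=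
    Finset.sum_nonneg fun _ _ => Finset.sum_nonneg fun _ _ => sq_nonneg _
  rw [h2] at h1
  have h5 : (1 / ((k : ℝ) + 1)) * ∑ i ∈ Finset.range k, p i * hU k z i ≤
      (1 / ((k : ℝ) + 1)) * ((1 - δ) * (((k : ℝ) + 1) * ∑ i : Fin k, (1 - ζUB k i) * z.1 i ^ 2)) :=
    mul_le_mul_of_nonneg_left h1 (by positivity)
  have h6 : (1 / ((k : ℝ) + 1)) * ((1 - δ) * (((k : ℝ) + 1) *
      ∑ i : Fin k, (1 - ζUB k i) * z.1 i ^ 2)) =
      (1 - δ) * ∑ i : Fin k, (1 - ζUB k i) * z.1 i ^ 2 := by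
    field_simp
  rw [h6] at h5
  unfold penU
  linarith

variable {N K : ℕ} {P : Measure (ON N)} {A : Measure (Fin N → Bool)}

/-- PROOF. The function `F z = fU .. z + penU k p z` is continuous (`fU_continuous`), and for `z ∈ SU`
`F z ≤ C - (δ/2) ∑ (1-ζ_i) v_i² ≤ C - δ/(2(k+1)) ∑ v_i²` (`fU_coercive`, `penU_le`). So outside of the compact set
`{z ∈ SU | ∀ i, |z.1 i| ≤ R}` (`R` large) `F z < F z0`, `z0 = (0, 3/2, 3/2)`; `IsCompact.exists_isMaxOn`. -/
theorem exists_max (hN : 0 < N) (hP : HaarO P) [IsProbabilityMeasure A] (κ : Fin N → Fin K)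
    (d : Fin K → ℝ) (k : ℕ) (s t : ℝ) {p : ℕ → ℝ} {δ : ℝ} (hδ : 0 < δ)
    (hp : ∀ i, 0 ≤ p i ∧ p i ≤ 1 - δ) :
    ∃ z ∈ SU k K, ∀ z' ∈ SU k K,
      fU P A κ d k s t z' + penU k p z' ≤ fU P A κ d k s t z + penU k p z := by
  obtain ⟨C, hC⟩ := fU_coercive hN hP (A := A) κ d k s t
  have hk : (0 : ℝ) < (k : ℝ) + 1 := by positivity
  have hcont : Continuous (fun z : ZU k K => fU P A κ d k s t z + penU k p z) := by
    refine (fU_continuous hN hP κ d k s t).add ?_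
    have hv : ∀ j : ℕ, Continuous (fun z : ZU k K => (if h : j < k then z.1 ⟨j, h⟩ else 0 : ℝ)) := by
      intro j
      by_cases h : j < k
      · simp only [h, dif_pos]
        exact (continuous_apply _).comp continuous_fst
      · simp only [h, dif_neg, not_false_iff]
        exact continuous_const
    have hh : ∀ i : ℕ, Continuous (fun z : ZU k K => hU k z i) := by
      intro i
      unfold hU
      exact continuous_finset_sum _ fun j _ => (hv j).pow 2
    unfold penU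
    refine Continuous.sub (Continuous.sub ?_ ?_) ?_
    · exact continuous_const.mul (continuous_const.mul
        (continuous_finset_sum _ fun i _ => continuous_const.mul (hh i)))
    · exact continuous_finset_sum _ fun l _ => by fun_prop
    · exact continuous_finset_sum _ fun i _ => continuous_finset_sum _ fun l _ => by fun_prop
  -- upper bound
  have hub : ∀ z ∈ SU k K, ∀ i : Fin k,
      fU P A κ d k s t z + penU k p z ≤ C - δ / (2 * ((k : ℝ) + 1)) * z.1 i ^ 2 := by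
    intro z hz i
    have h1 := hC z hz
    have h2 := penU_le k hp z
    have h3 : (1 / ((k : ℝ) + 1)) * z.1 i ^ 2 ≤ ∑ i : Fin k, (1 - ζUB k i) * z.1 i ^ 2 := by
      have h4 : ∀ j : Fin k, 1 / ((k : ℝ) + 1) ≤ 1 - ζUB k j := by
        intro j
        rw [ubm_zeta k j j.2]
        refine div_le_div_of_nonneg_right ?_ hk.le
        have : ((j : ℕ) : ℝ) + 1 ≤ k := by exact_mod_cast j.2
        linarith
      calc (1 / ((k : ℝ) + 1)) * z.1 i ^ 2 ≤ (1 - ζUB k i) * z.1 i ^ 2 :=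
            mul_le_mul_of_nonneg_right (h4 i) (sq_nonneg _)
        _ ≤ ∑ i : Fin k, (1 - ζUB k i) * z.1 i ^ 2 :=
            Finset.single_le_sum (f := fun i : Fin k => (1 - ζUB k i) * z.1 i ^ 2)
              (fun j _ => mul_nonneg (le_trans (by positivity) (h4 j)) (sq_nonneg _))
              (Finset.mem_univ i)
    have h5 : δ / (2 * ((k : ℝ) + 1)) * z.1 i ^ 2 =
        (δ / 2) * ((1 / ((k : ℝ) + 1)) * z.1 i ^ 2) := by
      field_simp
    rw [h5]
    have h6 : (δ / 2) * ((1 / ((k : ℝ) + 1)) * z.1 i ^ 2) ≤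
        (δ / 2) * ∑ i : Fin k, (1 - ζUB k i) * z.1 i ^ 2 :=
      mul_le_mul_of_nonneg_left h3 (by positivity)
    nlinarith
  -- the base point
  obtain ⟨z0, hz0⟩ : ∃ z0 : ZU k K, z0 = (fun _ => 0, fun _ => 3 / 2, fun _ _ => 3 / 2) := ⟨_, rfl⟩
  have hz0S : z0 ∈ SU k K := by
    rw [hz0]
    exact ⟨fun l => by constructor <;> norm_num, fun i l => by constructor <;> norm_num⟩
  obtain ⟨R, hR⟩ : ∃ R : ℝ, R = 1 + |C - (fU P A κ d k s t z0 + penU k p z0)| *
      (2 * ((k : ℝ) + 1) / δ) := ⟨_, rfl⟩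
  have hR1 : 1 ≤ R := by
    rw [hR]
    have : 0 ≤ |C - (fU P A κ d k s t z0 + penU k p z0)| * (2 * ((k : ℝ) + 1) / δ) := by positivity
    linarith
  -- compact set
  obtain ⟨Q, hQ⟩ : ∃ Q : Set (ZU k K), Q = (Set.univ.pi fun _ => Set.Icc (-R) R) ×ˢ
      ((Set.univ.pi fun _ => Set.Icc (1 : ℝ) 2) ×ˢ
        (Set.univ.pi fun _ => Set.univ.pi fun _ => Set.Icc (1 : ℝ) 2)) := ⟨_, rfl⟩
  have hQc : IsCompact Q := by
    rw [hQ]
    exact (isCompact_univ_pi fun _ => isCompact_Icc).prod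
      ((isCompact_univ_pi fun _ => isCompact_Icc).prod
        (isCompact_univ_pi fun _ => isCompact_univ_pi fun _ => isCompact_Icc))
  have hQm : ∀ z : ZU k K, z ∈ Q ↔ (∀ i, z.1 i ∈ Set.Icc (-R) R) ∧ z ∈ SU k K := by
    intro z
    rw [hQ]
    simp only [Set.mem_prod, Set.mem_univ_pi, SU, Set.mem_setOf_eq]
  have hz0Q : z0 ∈ Q := by
    rw [hQm]
    refine ⟨fun i => ?_, hz0S⟩
    rw [hz0]
    constructor <;> simp only <;> linarith
  obtain ⟨z, hzQ, hzmax⟩ := hQc.exists_isMaxOn ⟨z0, hz0Q⟩ hcont.continuousOn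
  refine ⟨z, ((hQm z).1 hzQ).2, fun z' hz' => ?_⟩
  by_cases h : z' ∈ Q
  · exact hzmax h
  · have h1 : ¬ ∀ i, z'.1 i ∈ Set.Icc (-R) R := fun hc => h ((hQm z').2 ⟨hc, hz'⟩)
    push Not at h1
    obtain ⟨i, hi⟩ := h1
    have h2 : R ≤ |z'.1 i| := by
      by_contra hc
      push Not at hc
      have := abs_lt.1 hc
      exact hi ⟨this.1.le, this.2.le⟩
    have h3 : R ≤ z'.1 i ^ 2 := by
      rw [← sq_abs]
      nlinarith
    have h4 := hub z' hz' i
    have h5 : |C - (fU P A κ d k s t z0 + penU k p z0)| ≤ δ / (2 * ((k : ℝ) + 1)) * z'.1 i ^ 2 := by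
      have h6 : |C - (fU P A κ d k s t z0 + penU k p z0)| * (2 * ((k : ℝ) + 1) / δ) ≤
          z'.1 i ^ 2 := by
        rw [hR] at h3
        linarith
      have h7 := mul_le_mul_of_nonneg_left h6 (show 0 ≤ δ / (2 * ((k : ℝ) + 1)) by positivity)
      have h8 : δ / (2 * ((k : ℝ) + 1)) * (|C - (fU P A κ d k s t z0 + penU k p z0)| *
          (2 * ((k : ℝ) + 1) / δ)) = |C - (fU P A κ d k s t z0 + penU k p z0)| := by
        field_simp
      rw [h8] at h7
      exact h7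
    have h6 := le_abs_self (C - (fU P A κ d k s t z0 + penU k p z0))
    have h7 : fU P A κ d k s t z0 + penU k p z0 ≤ fU P A κ d k s t z + penU k p z := hzmax hz0Q
    linarith

end Crest.Agent.RI
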