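import Crest.Agent.RI.UBDefs
import Crest.Agent.RI.TMeasA
import Crest.Agent.RI.SysBasic

/-!
# Row 164, Part 6, chunk UBSite: at `e = 0`, `c = 0` only the main field is left
-/

set_option autoImplicit false

namespace Crest.Agent.RI

open MeasureTheory ProbabilityTheory
open Crest.ProbabilityR.InvariantGlass

section levelmap

variable {E : Type} [MeasurableSpace E] {m : Measure E} [IsProbabilityMeasure m] {ζ : ℕ → ℝ}
variable {E' : Type} [MeasurableSpace E'] {m' : Measure E'} [IsProbabilityMeasure m']

private theorem ubsite_TT {T : E → E'} (hT : MeasurePreserving T m m') (z : ℝ) {g : E' → ℝ}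
    (hg : Measurable g) : TT m z (fun e => g (T e)) = TT m' z g := by
  have key : ∀ {f : E' → ℝ}, Measurable f → ∫ e, f (T e) ∂m = ∫ e, f e ∂m' := by
    intro f hf
    rw [← hT.map_eq]
    exact (integral_map hT.measurable.aemeasurable hf.aestronglyMeasurable).symm
  unfold TT
  split_ifs with h
  · exact key hg
  · rw [key (f := fun e => Real.exp (z * g e)) (Real.measurable_exp.comp (hg.const_mul z))]

/-- measure preserving maps depending on the level -/
theorem nest_map_level {φ : ℕ → E → E'} (hφ : ∀ j, MeasurePreserving (φ j) m m') (n : ℕ) :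
    ∀ (i : ℕ) {H : (Fin n → E') → ℝ}, Measurable H →
    nest m ζ n i (fun ω => H (fun j => φ (i + j) (ω j))) = nest m' ζ n i H := by
  induction n with
  | zero =>
    intro i H _
    simp only [nest]
    congr 1
    funext j
    exact j.elim0
  | succ n ih =>
    intro i H hH
    have hcons : Measurable (fun p : E' × (Fin n → E') => (Fin.cons p.1 p.2 : Fin (n + 1) → E')) := by
      refine measurable_pi_iff.2 (fun j => ?_)
      refine Fin.cases ?_ (fun k => ?_) j
      · simpa using measurable_fst
      · have h : Measurable (fun p : E' × (Fin n → E') => p.2 k) :=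
          (measurable_pi_apply k).comp measurable_snd
        simpa using h
    have hH2 : Measurable (Function.uncurry fun (e : E') (ω : Fin n → E') => H (Fin.cons e ω)) :=
      hH.comp hcons
    simp only [nest]
    have hc : ∀ (e : E) (ω : Fin n → E),
        (fun j : Fin (n + 1) => φ (i + j) ((Fin.cons e ω : Fin (n + 1) → E) j)) =
        (Fin.cons (φ i e) (fun j : Fin n => φ (i + 1 + j) (ω j)) : Fin (n + 1) → E') := by
      intro e ω
      funext j
      refine Fin.cases ?_ (fun k => ?_) j
      · simp
      · simp only [Fin.cons_succ, Fin.val_succ]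
        congr 1
        omega
    simp only [hc]
    rw [← ubsite_TT (hφ i) (ζ i) (measurable_nest m' ζ n (i + 1) hH2)]
    congr 1
    funext e
    exact ih (i + 1) (hH2.comp measurable_prodMk_left)

end levelmap

variable {N K : ℕ} {P : Measure (ON N)} {A : Measure (Fin N → Bool)}

private theorem ubsite_gvec_sign (s : ℝ) (hs : s = 1 ∨ s = -1) :
    MeasurePreserving (fun g : Fin N → ℝ => fun a => s * g a) (gvec N) (gvec N) := by
  unfold gvec
  refine measurePreserving_pi (fun _ => gaussianReal 0 1) (fun _ => gaussianReal 0 1)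
    (f := fun _ x => s * x) (fun a => ⟨by fun_prop, ?_⟩)
  rcases hs with h | h
  · subst h
    simp
  · subst h
    have h1 : (fun x : ℝ => (-1 : ℝ) * x) = fun x => -x := by funext x; ring
    rw [h1, gaussianReal_map_neg]
    simp

private noncomputable def ubsiteMap (v : ℕ → ℝ) (j : ℕ) (x : EN N) : (Fin N → ℝ) × (Fin N → Bool) :=
  ((fun a => (if 0 ≤ v j then (1 : ℝ) else -1) * x.2.1 a), x.2.2.2)

private theorem ubsiteMap_mp (hP : HaarO P) [IsProbabilityMeasure A] (v : ℕ → ℝ) (j : ℕ) :
    MeasurePreserving (ubsiteMap (N := N) v j) (mN P A) ((gvec N).prod A) := by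
  have := hP.prob
  have h1 : MeasurePreserving (Prod.snd : ON N × ((Fin N → ℝ) × (Fin N → ℝ) × (Fin N → Bool)) → _)
      (mN P A) ((gvec N).prod ((gvec N).prod A)) := measurePreserving_snd
  have h2 : MeasurePreserving (Prod.map (fun g : Fin N → ℝ => fun a =>
      (if 0 ≤ v j then (1 : ℝ) else -1) * g a) (Prod.snd : (Fin N → ℝ) × (Fin N → Bool) → _))
      ((gvec N).prod ((gvec N).prod A)) ((gvec N).prod A) := by
    refine MeasurePreserving.prod (ubsite_gvec_sign _ ?_) measurePreserving_snd
    split_ifs
    · exact Or.inl rfl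
    · exact Or.inr rfl
  exact h2.comp h1

/-- At `e = 0`, `c = 0` only the main field is left. PROOF: `nest_map` with `φ j (O, g, gt, σ) = (±g, σ)` (sign of
`v_j`; measure preserving from `mN P A` to `(gvec N).prod A`, the Gaussian is symmetric), `√(v²) = |v|`. -/
theorem site_eq (hP : HaarO P) [IsProbabilityMeasure A] (κ : Fin N → Fin K) (k : ℕ) (v : ℕ → ℝ) :
    fN P A (ζUB k) k ⟨κ, fun _ => 0, v, fun _ _ => 0, fun _ => 0⟩ = siteA A k (fun i => v i ^ 2) := by
  have := hP.prob
  have hprob := prob_mN hP A
  unfold fN siteA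
  have hm : Measurable (fun ω : Fin (k + 1) → (Fin N → ℝ) × (Fin N → Bool) =>
      ∑ i : Fin k, Real.sqrt (v i ^ 2) *
        ∑ a : Fin N, (ω i.castSucc).1 a * spin ((ω (Fin.last k)).2 a)) := by
    refine Finset.measurable_sum _ fun i _ => Measurable.const_mul
      (Finset.measurable_sum _ fun a _ => Measurable.mul ?_ ?_) _
    · exact (measurable_pi_apply a).comp (measurable_fst.comp (measurable_pi_apply _))
    · exact (measurable_from_top (f := spin)).comp ((measurable_pi_apply a).comp
        (measurable_snd.comp (measurable_pi_apply _)))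
  have h := nest_map_level (m := mN P A) (m' := (gvec N).prod A) (ζ := ζUB k)
    (φ := ubsiteMap (N := N) v) (ubsiteMap_mp hP v) (k + 1) 0 hm
  rw [← h]
  have hH : HN k (⟨κ, fun _ => 0, v, fun _ _ => 0, fun _ => 0⟩ : Par N K) =
      fun ω : Fin (k + 1) → EN N => ∑ i : Fin k, Real.sqrt (v i ^ 2) *
        ∑ a : Fin N, (ubsiteMap v (0 + (i.castSucc : Fin (k + 1))) (ω i.castSucc)).1 a *
          spin ((ubsiteMap v (0 + (Fin.last k : Fin (k + 1))) (ω (Fin.last k))).2 a) := by
    funext ω
    unfold HN
    simp only [zero_mul, Finset.sum_const_zero, mul_zero, zero_add, add_zero]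
    refine Finset.sum_congr rfl fun i _ => ?_
    simp only [ubsiteMap, Fin.val_castSucc]
    rw [Finset.mul_sum, Finset.mul_sum]
    refine Finset.sum_congr rfl fun a _ => ?_
    rw [Real.sqrt_sq_eq_abs]
    split_ifs with h0
    · rw [abs_of_nonneg h0]; ring
    · rw [abs_of_neg (not_le.1 h0)]; ring
  rw [hH]

end Crest.Agent.RI
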