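import Crest.Agent.RI.UBIface
import Crest.Agent.RI.UBSite
import Crest.Agent.RI.UBDer
import Crest.Agent.RI.TConvA

/-!
# Row 164, Part 6, chunk UBStart (medium): the two ends of the interpolation
-/

set_option autoImplicit false

namespace Crest.Agent.RI

open MeasureTheory ProbabilityTheory
open Crest.ProbabilityR.InvariantGlass

variable {N K : ℕ} {P : Measure (ON N)} {A : Measure (Fin N → Bool)}

private theorem ubstart_pathE_sum {E : Type} [MeasurableSpace E] {m : Measure E}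
    [IsProbabilityMeasure m] {ζ : ℕ → ℝ} {β : E → ℝ} (hβ : Dom m β) (hζ : Exps ζ) (n i : ℕ)
    {H : (Fin n → E) → ℝ} (hH : Ham β H) {ι : Type} (T : Finset ι) (c : ι → ℝ)
    {V : ι → (Fin n → E) → ℝ} (hV : ∀ j, Ham β (V j)) :
    Ham β (fun ω => ∑ j ∈ T, c j * V j ω) ∧
      pathE m ζ n i H (fun ω => ∑ j ∈ T, c j * V j ω) = ∑ j ∈ T, c j * pathE m ζ n i H (V j) := by
  classical
  refine ⟨Ham.sum hβ.nonneg T fun j _ => (hV j).smul (c j), ?_⟩
  induction T using Finset.induction_on with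
  | empty =>
    simp only [Finset.sum_empty]
    exact pathE_const hβ hζ n i hH 0
  | insert a T ha ih =>
    simp only [Finset.sum_insert ha]
    have h1 : Ham β (fun ω => ∑ j ∈ T, c j * V j ω) :=
      Ham.sum hβ.nonneg T fun j _ => (hV j).smul (c j)
    rw [pathE_add hβ hζ n i hH (((hV a).smul (c a)).tame0 hβ.nonneg) (h1.tame0 hβ.nonneg), ih,
      pathE_mul]

/-- PROOF. `nest_tangent` at `H = HN (θU .. 0 z)` with `-U`, `U ω = (s/2) N ∑ x'_l ovl_l + s N ∑_{i≥1,l} x_{i,l} gy_{i,l}`: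
`nest H - E_Q U ≤ nest (H - U)`, `H - U` = main field only (`site_eq`), `E_Q U ≤ (s/2) N 2 ∑ c_l + s N ∑_{i,l} 2 (2 s c_l) ≤ s N + 4 k s² N`
(`gy_bound`, `sum_self`, `self_nonneg`). -/
theorem start_ineq (hN : 0 < N) (hP : HaarO P) [IsProbabilityMeasure A] (κ : Fin N → Fin K)
    (d : Fin K → ℝ) (k : ℕ) {s : ℝ} (hs : 0 ≤ s) {z : ZU k K} (hz : z ∈ SU k K) :
    fU P A κ d k s 0 z ≤ siteA A k (fun i => (if h : i < k then z.1 ⟨i, h⟩ else 0) ^ 2) +
      s + 4 * k * s ^ 2 := by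
  have hNr : (0 : ℝ) < N := by exact_mod_cast hN
  have : IsProbabilityMeasure (mN P A) := prob_mN hP A
  have hβ : Dom (mN P A) βN := dom_mN hP A
  have hζ : Exps (ζUB k) := exps_UB k
  have hH : Ham βN (HN k (θU κ d k s 0 z)) := HN_ham k _
  have hself0 : ∀ l, 0 ≤ selfOv P A (ζUB k) k (θU κ d k s 0 z) l :=
    fun l => self_nonneg hP hζ _ l
  have hselfs : ∑ l, selfOv P A (ζUB k) k (θU κ d k s 0 z) l = 1 := sum_self hN hP hζ _
  have hgy := fun i l => gy_bound (d := d) hN hP (A := A) κ k hs 0 hz i l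
  -- the two parts of the perturbation
  obtain ⟨hU1, hE1⟩ := ubstart_pathE_sum hβ hζ (k + 1) 0 hH Finset.univ
    (fun l : Fin K => s * z.2.1 l / 2 * N)
    (V := fun l ω => ovl k κ l ω ω) (fun l => ham_ovl_self k κ l)
  obtain ⟨hU2, hE2⟩ := ubstart_pathE_sum hβ hζ (k + 1) 0 hH Finset.univ
    (fun p : Fin k × Fin K => (θU κ d k s 0 z).c p.1 p.2 * N)
    (V := fun p ω => gy k κ p.1 p.2 ω) (fun p => ham_gy k κ p.1 p.2)
  set U1 : (Fin (k + 1) → EN N) → ℝ := fun ω => ∑ l : Fin K, s * z.2.1 l / 2 * N *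
    ovl k κ l ω ω with hU1def
  set U2 : (Fin (k + 1) → EN N) → ℝ := fun ω => ∑ p : Fin k × Fin K,
    (θU κ d k s 0 z).c p.1 p.2 * N * gy k κ p.1 p.2 ω with hU2def
  have hsum : ∀ (g : Fin K → ℝ) (f : Fin N → ℝ), ∑ a, g (κ a) * f a =
      ∑ l, g l * N * ((1 / (N : ℝ)) * ∑ a, if κ a = l then f a else 0) := by
    intro g f
    have h1 : ∀ l, g l * N * ((1 / (N : ℝ)) * ∑ a, if κ a = l then f a else 0) =
        ∑ a, if κ a = l then g (κ a) * f a else 0 := by
      intro l
      have h2 : g l * N * ((1 / (N : ℝ)) * ∑ a, if κ a = l then f a else 0) =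
          g l * ∑ a, if κ a = l then f a else 0 := by
        field_simp
      rw [h2, Finset.mul_sum]
      refine Finset.sum_congr rfl fun a _ => ?_
      split_ifs with h
      · rw [h]
      · ring
    simp only [h1]
    rw [Finset.sum_comm]
    refine Finset.sum_congr rfl fun a _ => ?_
    simp
  have hsplit : ∀ ω, HN k (θU κ d k s 0 z) ω = HN k ⟨κ, fun _ => 0,
      fun i => if h : i < k then z.1 ⟨i, h⟩ else 0, fun _ _ => 0, fun _ => 0⟩ ω +
      (U1 ω + U2 ω) := by
    intro ω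
    have e1 : U1 ω = (1 / 2) * ∑ a : Fin N, (s * z.2.1 (κ a)) * yv k ω a ^ 2 := by
      rw [hsum (fun l => s * z.2.1 l) (fun a => yv k ω a ^ 2), hU1def, Finset.mul_sum]
      refine Finset.sum_congr rfl fun l _ => ?_
      unfold ovl
      simp only [← sq]
      ring
    have e2 : U2 ω = ∑ i : Fin k, ∑ a : Fin N, (θU κ d k s 0 z).c i (κ a) *
        ((ω i.castSucc).2.2.1 a * yv k ω a) := by
      rw [hU2def]
      simp only
      rw [Fintype.sum_prod_type]
      refine Finset.sum_congr rfl fun i _ => ?_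
      rw [hsum (fun l => (θU κ d k s 0 z).c i l) (fun a => (ω i.castSucc).2.2.1 a * yv k ω a)]
      rfl
    rw [e1, e2]
    simp only [HN, θU, zero_mul, zero_add, mul_zero, Finset.sum_const_zero, add_zero, mul_assoc]
    ring
  -- tangent inequality
  have htan := nest_tangent (m := mN P A) hβ hζ (k + 1) 0 hH
    (U := fun ω => (-1) * (U1 ω + U2 ω)) ((hU1.add0 hβ.nonneg hU2).smul (-1))
  rw [pathE_mul, pathE_add hβ hζ (k + 1) 0 hH (hU1.tame0 hβ.nonneg) (hU2.tame0 hβ.nonneg)] at htan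
  have hHU : (fun ω => HN k (θU κ d k s 0 z) ω + (-1) * (U1 ω + U2 ω)) =
      HN k ⟨κ, fun _ => 0, fun i => if h : i < k then z.1 ⟨i, h⟩ else 0, fun _ _ => 0,
        fun _ => 0⟩ := by
    funext ω
    rw [hsplit ω]
    ring
  rw [hHU, hE1, hE2] at htan
  -- bound of the two expectations
  have hB1 : ∑ l : Fin K, s * z.2.1 l / 2 * N *
      pathE (mN P A) (ζUB k) (k + 1) 0 (HN k (θU κ d k s 0 z)) (fun ω => ovl k κ l ω ω) ≤
      s * N := by
    have h1 : ∀ l ∈ (Finset.univ : Finset (Fin K)), s * z.2.1 l / 2 * N *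
        pathE (mN P A) (ζUB k) (k + 1) 0 (HN k (θU κ d k s 0 z)) (fun ω => ovl k κ l ω ω) ≤
        s * N * selfOv P A (ζUB k) k (θU κ d k s 0 z) l := by
      intro l _
      have h2 := (hz.1 l).2
      have h3 := hself0 l
      show s * z.2.1 l / 2 * N * selfOv P A (ζUB k) k (θU κ d k s 0 z) l ≤ _
      refine mul_le_mul_of_nonneg_right (mul_le_mul_of_nonneg_right ?_ hNr.le) h3
      nlinarith
    refine (Finset.sum_le_sum h1).trans (le_of_eq ?_)
    rw [← Finset.mul_sum, hselfs, mul_one]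
  have hB2 : ∑ p : Fin k × Fin K, (θU κ d k s 0 z).c p.1 p.2 * N *
      pathE (mN P A) (ζUB k) (k + 1) 0 (HN k (θU κ d k s 0 z)) (fun ω => gy k κ p.1 p.2 ω) ≤
      4 * k * s ^ 2 * N := by
    rw [Fintype.sum_prod_type]
    have h1 : ∀ i ∈ (Finset.univ : Finset (Fin k)), ∑ l : Fin K,
        (θU κ d k s 0 z).c i l * N *
        pathE (mN P A) (ζUB k) (k + 1) 0 (HN k (θU κ d k s 0 z)) (fun ω => gy k κ i l ω) ≤
        4 * s ^ 2 * N := by
      intro i _
      have h2 : ∀ l ∈ (Finset.univ : Finset (Fin K)), (θU κ d k s 0 z).c i l * N *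
          pathE (mN P A) (ζUB k) (k + 1) 0 (HN k (θU κ d k s 0 z)) (fun ω => gy k κ i l ω) ≤
          4 * s ^ 2 * N * selfOv P A (ζUB k) k (θU κ d k s 0 z) l := by
        intro l _
        obtain ⟨g0, g1⟩ := hgy i l
        have hc0 : 0 ≤ (θU κ d k s 0 z).c i l := by
          simp only [θU]
          split_ifs with h h'
          · exact le_rfl
          · have := (hz.2 ⟨i, h⟩ l).1
            positivity
          · exact le_rfl
        have hc1 : (θU κ d k s 0 z).c i l ≤ 2 * s := by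
          simp only [θU]
          split_ifs with h h'
          · positivity
          · have := (hz.2 ⟨i, h⟩ l).2
            nlinarith
          · positivity
        calc (θU κ d k s 0 z).c i l * N *
            pathE (mN P A) (ζUB k) (k + 1) 0 (HN k (θU κ d k s 0 z)) (fun ω => gy k κ i l ω)
            ≤ (2 * s) * N * (2 * s * selfOv P A (ζUB k) k (θU κ d k s 0 z) l) :=
              mul_le_mul (mul_le_mul_of_nonneg_right hc1 hNr.le) g1 g0 (by positivity)
          _ = 4 * s ^ 2 * N * selfOv P A (ζUB k) k (θU κ d k s 0 z) l := by ring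
      refine (Finset.sum_le_sum h2).trans (le_of_eq ?_)
      rw [← Finset.mul_sum, hselfs, mul_one]
    refine (Finset.sum_le_sum h1).trans (le_of_eq ?_)
    rw [Finset.sum_const, Finset.card_univ, Fintype.card_fin, nsmul_eq_mul]
    ring
  -- conclusion
  rw [← site_eq (P := P) hP κ k (fun i => if h : i < k then z.1 ⟨i, h⟩ else 0)]
  unfold fU fN
  have hv : ∀ i, (θU κ d k s 0 z).v i = if h : i < k then z.1 ⟨i, h⟩ else 0 := fun i => rfl
  simp only [hv]
  have h5 : nest (mN P A) (ζUB k) (k + 1) 0 (HN k (θU κ d k s 0 z)) ≤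
      nest (mN P A) (ζUB k) (k + 1) 0 (HN k ⟨κ, fun _ => 0,
        fun i => if h : i < k then z.1 ⟨i, h⟩ else 0, fun _ _ => 0, fun _ => 0⟩) +
      (s + 4 * k * s ^ 2) * N := by
    linarith
  have h6 := mul_le_mul_of_nonneg_left h5 (by positivity : (0 : ℝ) ≤ 1 / N)
  have h7 : (1 / (N : ℝ)) * (nest (mN P A) (ζUB k) (k + 1) 0 (HN k ⟨κ, fun _ => 0,
        fun i => if h : i < k then z.1 ⟨i, h⟩ else 0, fun _ _ => 0, fun _ => 0⟩) +
      (s + 4 * k * s ^ 2) * N) = (1 / (N : ℝ)) * nest (mN P A) (ζUB k) (k + 1) 0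
        (HN k ⟨κ, fun _ => 0,
        fun i => if h : i < k then z.1 ⟨i, h⟩ else 0, fun _ _ => 0, fun _ => 0⟩) +
      (s + 4 * k * s ^ 2) := by
    field_simp
  rw [h7] at h6
  linarith

end Crest.Agent.RI
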