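import Crest.Agent.RI.UBTan
import Crest.Agent.RI.UBMaxEx
import Crest.Agent.RI.UBErr
import Crest.Agent.RI.UBStart
import Crest.Agent.RI.UBEnd

/-!
# Row 164, Part 6: the upper bound (assembly)
-/

set_option autoImplicit false

namespace Crest.Agent.RI

open MeasureTheory ProbabilityTheory
open Crest.ProbabilityR.InvariantGlass

theorem left_mem_Icc01 : (0 : ℝ) ∈ Set.Icc (0 : ℝ) 1 := ⟨le_rfl, zero_le_one⟩

theorem right_mem_Icc01 : (1 : ℝ) ∈ Set.Icc (0 : ℝ) 1 := ⟨zero_le_one, le_rfl⟩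

theorem Close_mono (D : Blk) {η η' : ℝ} (h : η ≤ η') {N : ℕ} {κ : Fin N → Fin D.K}
    (hκ : D.Close η κ) : D.Close η' κ := fun l => (hκ l).trans h

/-- (UB') -/
theorem UBmain (D : Blk) {ε δ : ℝ} (hε : 0 < ε) (hδ : 0 < δ) :
    ∃ k₀ : ℕ, ∀ k ≥ k₀, ∃ (N₀ : ℕ) (η : ℝ), 0 < η ∧ ∀ N ≥ N₀, ∀ κ : Fin N → Fin D.K, D.Close η κ →
      ∀ P : Measure (Fin N → Fin N → ℝ), IsHaar P →
      ∀ A : Measure (Fin N → Bool), IsProbabilityMeasure A →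
      ∀ p : ℕ → ℝ, Monotone p → (∀ i, 0 ≤ p i ∧ p i ≤ 1 - δ) →
      ∀ s : ℝ, (∀ τ : ℕ → ℝ, (∀ i, 0 ≤ τ i) → siteA A k τ +
        (1 / 2) * ((1 / ((k : ℝ) + 1)) * ∑ i ∈ Finset.range k, p i * hh τ i) ≤ s) →
      (1 / (N : ℝ)) * (((k : ℝ) + 1) * Real.log (∫ U, Real.exp ((1 / ((k : ℝ) + 1)) *
        Real.log (∫ σ, Real.exp ((1 / 2) * ∑ a, D.d (κ a) * (∑ r, U a r * spin (σ r)) ^ 2) ∂A)) ∂P))
        ≤ s + D.G (stepUB k p) + ε := by
  classical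
  set CΘ : ℝ := (1 / 2) * (D.Θ 1 - D.Θ 0) with hCΘ
  have hCΘ0 : 0 ≤ CΘ := by
    have := D.Θ_mono (left_mem_Icc01) (right_mem_Icc01) zero_le_one
    rw [hCΘ]; linarith
  obtain ⟨n, hn⟩ := exists_nat_gt (CΘ / (ε / 4))
  have hn0 : 0 < n := by
    rcases Nat.eq_zero_or_pos n with h | h
    · subst h
      have : 0 ≤ CΘ / (ε / 4) := by positivity
      simp at hn
      linarith
    · exact h
  have hnR : (0 : ℝ) < n := by exact_mod_cast hn0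
  have hCn : CΘ / n ≤ ε / 4 := by
    rw [div_lt_iff₀ (by positivity)] at hn
    rw [div_le_iff₀ hnR]
    linarith
  have herr : ∀ j : ℕ, j < n → _ := fun j hj =>
    err_le D (ε := ε / 4) (t := ((j : ℝ) + 1) / n) (by positivity) (by positivity)
      ((div_le_one hnR).2 (by exact_mod_cast hj))
  choose! k₀ hk₀ using herr
  refine ⟨max 1 ((Finset.range n).sup k₀), fun k hk => ?_⟩
  have hk1 : 1 ≤ k := (le_max_left _ _).trans hk
  have hkj : ∀ j < n, k₀ j ≤ k := fun j hj =>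
    ((Finset.le_sup (f := k₀) (Finset.mem_range.2 hj)).trans (le_max_right _ _)).trans hk
  have hs0 : ∀ j : ℕ, j < n → _ := fun j hj => hk₀ j hj k (hkj j hj)
  choose! s₀ hs₀pos hs₀ using hs0
  have hkR : (0 : ℝ) < 4 * (1 + 4 * (k : ℝ)) := by positivity
  obtain ⟨s, ⟨hsj, hs2⟩, hs3, hs4⟩ : ∃ s : ℝ, ((∀ j ∈ Finset.range n, s ≤ s₀ j) ∧
      s ∈ Set.Ioc (0 : ℝ) 1) ∧ s ≤ ε / (4 * (1 + 4 * (k : ℝ))) ∧ 0 < s := by
    have e1 : ∀ᶠ s : ℝ in nhdsWithin 0 (Set.Ioi 0), ∀ j ∈ Finset.range n, s ≤ s₀ j := by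
      rw [Filter.eventually_all_finset]
      intro j hj
      filter_upwards [Ioc_mem_nhdsGT (hs₀pos j (Finset.mem_range.1 hj))] with s hs using hs.2
    have e2 : ∀ᶠ s : ℝ in nhdsWithin 0 (Set.Ioi 0), s ∈ Set.Ioc (0 : ℝ) 1 :=
      Ioc_mem_nhdsGT one_pos
    have e3 : ∀ᶠ s : ℝ in nhdsWithin 0 (Set.Ioi 0), s ∈ Set.Ioc (0 : ℝ) (ε / (4 * (1 + 4 * (k : ℝ)))) :=
      Ioc_mem_nhdsGT (by positivity)
    obtain ⟨s, ⟨h1, h2⟩, h3⟩ := ((e1.and e2).and e3).exists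
    exact ⟨s, ⟨h1, h2⟩, h3.2, h3.1⟩
  have hsmall : s + 4 * k * s ^ 2 ≤ ε / 4 := by
    have h1 : s * (1 + 4 * k) ≤ ε / 4 := by
      rw [le_div_iff₀ hkR] at hs3
      linarith
    have h2 : s ^ 2 ≤ s := by nlinarith [hs2.2]
    have h3 : (0 : ℝ) ≤ 4 * k := by positivity
    nlinarith
  have hN0 : ∀ j : ℕ, j < n → _ := fun j hj => hs₀ j hj s hs4 (hsj j (Finset.mem_range.2 hj))
  choose! N₀ η hη hmain using hN0
  obtain ⟨η1, hη1j, hη1⟩ : ∃ η1 : ℝ, (∀ j ∈ Finset.range n, η1 ≤ η j) ∧ 0 < η1 := by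
    have e1 : ∀ᶠ s : ℝ in nhdsWithin 0 (Set.Ioi 0), ∀ j ∈ Finset.range n, s ≤ η j := by
      rw [Filter.eventually_all_finset]
      intro j hj
      filter_upwards [Ioc_mem_nhdsGT (hη j (Finset.mem_range.1 hj))] with s hs using hs.2
    have e2 : ∀ᶠ s : ℝ in nhdsWithin 0 (Set.Ioi 0), s ∈ Set.Ioc (0 : ℝ) 1 :=
      Ioc_mem_nhdsGT one_pos
    obtain ⟨s, h1, h2⟩ := (e1.and e2).exists
    exact ⟨s, h1, h2.1⟩
  refine ⟨max 1 ((Finset.range n).sup N₀), η1, hη1, fun N hN κ hκ P' hP' A hA p hp hp01 sb hsb => ?_⟩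
  have hN1 : 0 < N := lt_of_lt_of_le one_pos ((le_max_left _ _).trans hN)
  have hNj : ∀ j < n, N₀ j ≤ N := fun j hj =>
    ((Finset.le_sup (f := N₀) (Finset.mem_range.2 hj)).trans (le_max_right _ _)).trans hN
  obtain ⟨hP, hint⟩ := hP'.toON
  set P : Measure (ON N) := P'.comap (Subtype.val : ON N → (Fin N → Fin N → ℝ)) with hPdef
  have hp1 : ∀ i, 0 ≤ p i ∧ p i ≤ 1 := fun i => ⟨(hp01 i).1, by linarith [(hp01 i).2]⟩
  have hp1' : ∀ i < k, 0 ≤ p i ∧ p i ≤ 1 := fun i _ => hp1 i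
  have h1 := end_ineq hN1 hP (A := A) κ D.d hk1 hs4.le
  have h2 := contact (SU k D.K) (fun t z => fU P A κ D.d k s t z) (penU k p)
    (fun t z => (1 / 2) * ∑ l, D.d l * selfOv P A (ζUB k) k (θU κ D.d k s t z) l) (gD D k p)
    (ε / 4) (sb + ε / 4) hn0 (gD_mono D hp1')
    (fun t t' _ _ _ z _ => fU_tangent hN1 hP κ D.d k s t t' z)
    (fun j hj => by
      obtain ⟨z, hz, hz'⟩ := exists_max hN1 hP (A := A) κ D.d k s (((j : ℝ) + 1) / n) hδ hp01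
      exact ⟨z, hz, hz', hmain j hj N (hNj j hj) κ
        (Close_mono D (hη1j j (Finset.mem_range.2 hj)) hκ) P hP A hA p hp hp1 z ⟨hz, hz'⟩⟩)
    (fun z hz => by
      have h3 := start_ineq hN1 hP (A := A) κ D.d k hs4.le hz
      have h4 := hsb (fun i => (if h : i < k then z.1 ⟨i, h⟩ else 0) ^ 2) (fun i => sq_nonneg _)
      have h5 : penU k p z ≤ (1 / 2) * ((1 / ((k : ℝ) + 1)) * ∑ i ∈ Finset.range k,
          p i * hh (fun i => (if h : i < k then z.1 ⟨i, h⟩ else 0) ^ 2) i) := by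
        have e : ∀ i, hh (fun i => (if h : i < k then z.1 ⟨i, h⟩ else 0) ^ 2) i = hU k z i :=
          fun i => rfl
        simp only [e, penU]
        have a1 : 0 ≤ ∑ l, (z.2.1 l - 3 / 2) ^ 2 := Finset.sum_nonneg fun _ _ => sq_nonneg _
        have a2 : 0 ≤ ∑ i, ∑ l, (z.2.2 i l - 3 / 2) ^ 2 :=
          Finset.sum_nonneg fun _ _ => Finset.sum_nonneg fun _ _ => sq_nonneg _
        linarith
      linarith)
    (0, fun _ => 3 / 2, fun _ _ => 3 / 2)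
    ⟨fun _ => by constructor <;> norm_num, fun _ _ => by constructor <;> norm_num⟩
  have h0 : penU k p ((0, fun _ => 3 / 2, fun _ _ => 3 / 2) : ZU k D.K) = 0 := by
    have e : ∀ i, hU k ((0, fun _ => 3 / 2, fun _ _ => 3 / 2) : ZU k D.K) i = 0 := by
      intro i
      unfold hU
      apply Finset.sum_eq_zero
      intro j _
      split_ifs <;> simp
    simp [penU, e]
  have h3 := gD_integral D hp1'
  have h4 := gD_diff D hp1'
  have h5 : (gD D k p 1 - gD D k p 0) / n ≤ ε / 4 :=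
    (div_le_div_of_nonneg_right h4 hnR.le).trans hCn
  have h6 : (∫ U, Real.exp ((1 / ((k : ℝ) + 1)) *
        Real.log (∫ σ, Real.exp ((1 / 2) * ∑ a, D.d (κ a) * (∑ r, U a r * spin (σ r)) ^ 2) ∂A)) ∂P') =
      ∫ U, Real.exp ((1 / ((k : ℝ) + 1)) *
        Real.log (∫ σ, Real.exp ((1 / 2) * ∑ a, D.d (κ a) * rot U σ a ^ 2) ∂A)) ∂P :=
    hint (fun U => Real.exp ((1 / ((k : ℝ) + 1)) *
        Real.log (∫ σ, Real.exp ((1 / 2) * ∑ a, D.d (κ a) * (∑ r, U a r * spin (σ r)) ^ 2) ∂A)))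
  rw [h6]
  rw [h0, h3] at h2
  linarith

end Crest.Agent.RI
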