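import Crest.Agent.RI.UBStep

/-!
# Row 164, Part 6, chunk UBMono (easy/medium): comparison of deficits
-/

set_option autoImplicit false

namespace Crest.Agent.RI

open MeasureTheory ProbabilityTheory
open Crest.ProbabilityR.InvariantGlass

theorem deficit_stepUB_eq (k : ℕ) (p : ℕ → ℝ) (r : ℝ) :
    deficit (stepUB k p) r = 1 - r - (1 / ((k : ℝ) + 1)) *
      (max (0 - r) 0 + ∑ i ∈ Finset.range k, max (p i - r) 0) := by
  unfold deficit
  rw [integral_stepUB k p (fun x => max (x - r) 0)]

/-- PROOF. `integral_stepUB` with `F x = max (x - r) 0`, `F 0 = 0`; `max (q - r) 0 ≥ max (p - r) 0 + (if r < p then q - p else 0)`,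
and `{i < k | r < p i} = Ico i₀ k` or empty, so the sum of the corrections is `≥ 0` by `hcone`. -/
theorem deficit_step_mono {k : ℕ} {p q : ℕ → ℝ} (hp : ∀ i j, i ≤ j → j < k → p i ≤ p j)
    (hcone : ∀ i < k, ∑ j ∈ Finset.Ico i k, (p j - q j) ≤ 0) {r : ℝ} (hr : 0 ≤ r) :
    deficit (stepUB k q) r ≤ deficit (stepUB k p) r := by
  rw [deficit_stepUB_eq, deficit_stepUB_eq]
  have hk : (0 : ℝ) ≤ 1 / ((k : ℝ) + 1) := by positivity
  have key : ∑ i ∈ Finset.range k, max (p i - r) 0 ≤ ∑ i ∈ Finset.range k, max (q i - r) 0 := by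
    by_cases hex : ∃ i, i < k ∧ r < p i
    · classical
      set i0 := Nat.find hex with hi0
      obtain ⟨hi0k, hi0r⟩ := Nat.find_spec hex
      have h1 : ∑ i ∈ Finset.range k, max (p i - r) 0 = ∑ i ∈ Finset.Ico i0 k, (p i - r) := by
        rw [← Finset.sum_subset (s₁ := Finset.Ico i0 k) (s₂ := Finset.range k)]
        · apply Finset.sum_congr rfl
          intro i hi
          rw [Finset.mem_Ico] at hi
          apply max_eq_left
          have := hp i0 i hi.1 hi.2
          have h2 : r < p i0 := hi0r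
          linarith
        · intro i hi
          rw [Finset.mem_Ico] at hi
          rw [Finset.mem_range]; exact hi.2
        · intro i hi hni
          rw [Finset.mem_range] at hi
          rw [Finset.mem_Ico] at hni
          apply max_eq_right
          by_contra hcon
          push Not at hcon
          have h3 : i < k ∧ r < p i := ⟨hi, by linarith⟩
          have h4 := Nat.find_min' hex h3
          exact hni ⟨h4, hi⟩
      have h2 : ∑ i ∈ Finset.Ico i0 k, (p i - r) ≤ ∑ i ∈ Finset.Ico i0 k, (q i - r) := by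
        have h3 := hcone i0 hi0k
        have h4 : ∑ i ∈ Finset.Ico i0 k, (p i - r) - ∑ i ∈ Finset.Ico i0 k, (q i - r) =
            ∑ j ∈ Finset.Ico i0 k, (p j - q j) := by
          rw [← Finset.sum_sub_distrib]
          apply Finset.sum_congr rfl
          intro i _
          ring
        linarith
      have h3 : ∑ i ∈ Finset.Ico i0 k, (q i - r) ≤ ∑ i ∈ Finset.Ico i0 k, max (q i - r) 0 :=
        Finset.sum_le_sum (fun i _ => le_max_left _ _)
      have h4 : ∑ i ∈ Finset.Ico i0 k, max (q i - r) 0 ≤ ∑ i ∈ Finset.range k, max (q i - r) 0 := by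
        apply Finset.sum_le_sum_of_subset_of_nonneg
        · intro i hi
          rw [Finset.mem_Ico] at hi
          rw [Finset.mem_range]; exact hi.2
        · intro i _ _
          exact le_max_right _ _
      linarith
    · push Not at hex
      have h1 : ∑ i ∈ Finset.range k, max (p i - r) 0 = 0 := by
        apply Finset.sum_eq_zero
        intro i hi
        rw [Finset.mem_range] at hi
        apply max_eq_right
        have := hex i hi
        linarith
      rw [h1]
      exact Finset.sum_nonneg (fun i _ => le_max_right _ _)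
  have h5 := mul_le_mul_of_nonneg_left key hk
  have h6 : (1 / ((k : ℝ) + 1)) * (max (0 - r) 0 + ∑ i ∈ Finset.range k, max (p i - r) 0) ≤
      (1 / ((k : ℝ) + 1)) * (max (0 - r) 0 + ∑ i ∈ Finset.range k, max (q i - r) 0) := by
    rw [mul_add, mul_add]
    linarith
  linarith

/-- `0 ≤ D_p(r) ≤ 1` for paths with values in `[0,1]` -/
theorem deficit_step_mem {k : ℕ} {p : ℕ → ℝ} (hp : ∀ i < k, 0 ≤ p i ∧ p i ≤ 1) {r : ℝ}
    (hr : r ∈ Set.Icc (0 : ℝ) 1) : deficit (stepUB k p) r ∈ Set.Icc (0 : ℝ) 1 := by
  rw [deficit_stepUB_eq]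
  have hk : (0 : ℝ) < (k : ℝ) + 1 := by positivity
  have h0 : max (0 - r) 0 = 0 := max_eq_right (by linarith [hr.1])
  rw [h0, zero_add]
  have hnn : 0 ≤ ∑ i ∈ Finset.range k, max (p i - r) 0 :=
    Finset.sum_nonneg (fun i _ => le_max_right _ _)
  have hle : ∑ i ∈ Finset.range k, max (p i - r) 0 ≤ (k : ℝ) * (1 - r) := by
    calc ∑ i ∈ Finset.range k, max (p i - r) 0 ≤ ∑ i ∈ Finset.range k, (1 - r) := by
          apply Finset.sum_le_sum
          intro i hi
          rw [Finset.mem_range] at hi
          exact max_le (by linarith [(hp i hi).2]) (by linarith [hr.2])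
      _ = (k : ℝ) * (1 - r) := by simp; ring
  have h1 : 0 ≤ 1 / ((k : ℝ) + 1) * ∑ i ∈ Finset.range k, max (p i - r) 0 := by positivity
  have h2 : 1 / ((k : ℝ) + 1) * ∑ i ∈ Finset.range k, max (p i - r) 0 ≤ 1 - r := by
    rw [one_div, inv_mul_le_iff₀ hk]
    have : 0 ≤ 1 - r := by linarith [hr.2]
    nlinarith
  constructor
  · linarith
  · linarith [hr.1]

theorem deficit_step_measurable (k : ℕ) (p : ℕ → ℝ) : Measurable (deficit (stepUB k p)) := by
  have h : deficit (stepUB k p) = fun r => 1 - r - (1 / ((k : ℝ) + 1)) *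
      (max (0 - r) 0 + ∑ i ∈ Finset.range k, max (p i - r) 0) := by
    funext r
    exact deficit_stepUB_eq k p r
  rw [h]
  apply Continuous.measurable
  have h2 : Continuous (fun r : ℝ => ∑ i ∈ Finset.range k, max (p i - r) 0) :=
    continuous_finsetSum _ (fun i _ => by fun_prop)
  fun_prop

end Crest.Agent.RI
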