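import Crest.Agent.RI.UBStepA

/-!
# Row 164, Part 6, chunk UBStep (medium): from step data to functions on `(0,1)`
-/

set_option autoImplicit false

namespace Crest.Agent.RI

open MeasureTheory ProbabilityTheory
open Crest.ProbabilityR.InvariantGlass

/-- product of two step functions -/
theorem stepUB_mul (k : ℕ) (p q : ℕ → ℝ) (s : ℝ) :
    stepUB k p s * stepUB k q s = stepUB k (fun i => p i * q i) s := by
  by_cases h : ∃ i, i < k ∧ ((i : ℝ) + 1) / (k + 1) < s ∧ s ≤ ((i : ℝ) + 2) / (k + 1)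
  · obtain ⟨i, hi, h1, h2⟩ := h
    rw [stepUB_block hi p h1 h2, stepUB_block hi q h1 h2, stepUB_block hi _ h1 h2]
  · have h0 : ∀ r : ℕ → ℝ, stepUB k r s = 0 := by
      intro r
      unfold stepUB
      refine Finset.sum_eq_zero fun i hi => ?_
      rw [if_neg]
      intro hh
      exact h ⟨i, Finset.mem_range.mp hi, hh⟩
    rw [h0, h0, h0, zero_mul]

/-- the block containing a point -/
theorem exists_block {k : ℕ} {s : ℝ} (h0 : 1 / ((k : ℝ) + 1) < s) (h1 : s < 1) :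
    ∃ i, i < k ∧ ((i : ℝ) + 1) / (k + 1) < s ∧ s ≤ ((i : ℝ) + 2) / (k + 1) := by
  have hk : (0 : ℝ) < (k : ℝ) + 1 := by positivity
  have hs : 1 < s * ((k : ℝ) + 1) := by
    rwa [div_lt_iff₀ hk] at h0
  set n := ⌈s * ((k : ℝ) + 1)⌉₊ with hn
  have hn1 : s * ((k : ℝ) + 1) ≤ n := Nat.le_ceil _
  have hn2 : (n : ℝ) < s * ((k : ℝ) + 1) + 1 := Nat.ceil_lt_add_one (by linarith)
  have hn3 : 2 ≤ n := by
    have : (1 : ℝ) < n := by linarith
    exact_mod_cast this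
  have hn4 : n < k + 2 := by
    have : (n : ℝ) < (k : ℝ) + 2 := by nlinarith
    exact_mod_cast this
  obtain ⟨i, hi⟩ : ∃ i, n = i + 2 := ⟨n - 2, by omega⟩
  rw [hi] at hn1 hn2 hn4
  refine ⟨i, by omega, ?_, ?_⟩
  · rw [div_lt_iff₀ hk]
    push_cast at hn2
    linarith
  · rw [le_div_iff₀ hk]
    push_cast at hn1
    linarith

theorem integral_ind (a b c d p : ℝ) :
    ∫ s in Set.Ioo a b, (if c < s ∧ s ≤ d then p else 0) =
      p * max (min b d - max a c) 0 := by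
  rw [← integral_Ioc_eq_integral_Ioo]
  have : (fun s : ℝ => if c < s ∧ s ≤ d then p else 0) =
      (Set.Ioc c d).indicator (fun _ => p) := by
    funext s
    by_cases h : c < s ∧ s ≤ d
    · rw [if_pos h, Set.indicator_of_mem (show s ∈ Set.Ioc c d from h)]
    · rw [if_neg h, Set.indicator_of_notMem (show s ∉ Set.Ioc c d from h)]
  rw [this, integral_indicator measurableSet_Ioc, Measure.restrict_restrict measurableSet_Ioc,
    Set.Ioc_inter_Ioc]
  simp only [integral_const, smul_eq_mul, measureReal_restrict_apply_univ, Real.volume_real_Ioc]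
  rw [mul_comm, min_comm, max_comm c a]

theorem integrableOn_ind (a b c d p : ℝ) :
    IntegrableOn (fun s : ℝ => if c < s ∧ s ≤ d then p else 0) (Set.Ioo a b) := by
  have : (fun s : ℝ => if c < s ∧ s ≤ d then p else 0) =
      (Set.Ioc c d).indicator (fun _ => p) := by
    funext s
    by_cases h : c < s ∧ s ≤ d
    · rw [if_pos h, Set.indicator_of_mem (show s ∈ Set.Ioc c d from h)]
    · rw [if_neg h, Set.indicator_of_notMem (show s ∉ Set.Ioc c d from h)]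
  rw [this]
  exact (integrableOn_const (by simp)).indicator measurableSet_Ioc

theorem integral_stepUB_Ioo (k : ℕ) (q : ℕ → ℝ) (a b : ℝ) :
    ∫ s in Set.Ioo a b, stepUB k q s = ∑ j ∈ Finset.range k,
      q j * max (min b (((j : ℝ) + 2) / (k + 1)) - max a (((j : ℝ) + 1) / (k + 1))) 0 := by
  unfold stepUB
  rw [integral_finset_sum]
  · exact Finset.sum_congr rfl fun j _ => integral_ind _ _ _ _ _
  · intro j _
    exact integrableOn_ind _ _ _ _ _

theorem sum_range_split {k i : ℕ} (hi : i < k) (f : ℕ → ℝ) :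
    ∑ j ∈ Finset.range k, f j =
      ∑ j ∈ Finset.range i, f j + f i + ∑ j ∈ Finset.Ioo i k, f j := by
  rw [← Finset.sum_range_succ, ← Finset.sum_range_add_sum_Ico f (Nat.succ_le_of_lt hi)]
  rfl

theorem integral_right {k i : ℕ} (hi : i < k) (ρ : ℕ → ℝ) {s : ℝ}
    (h1 : ((i : ℝ) + 1) / (k + 1) < s) (h2 : s ≤ ((i : ℝ) + 2) / (k + 1)) :
    ∫ u in Set.Ioo s 1, stepUB k ρ u =
      (((i : ℝ) + 2) / (k + 1) - s) * ρ i +
        (1 / ((k : ℝ) + 1)) * ∑ j ∈ Finset.Ioo i k, ρ j := by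
  have hk : (0 : ℝ) < (k : ℝ) + 1 := by positivity
  rw [integral_stepUB_Ioo, sum_range_split hi]
  have e1 : ∑ j ∈ Finset.range i, ρ j *
      max (min 1 (((j : ℝ) + 2) / (k + 1)) - max s (((j : ℝ) + 1) / (k + 1))) 0 = 0 := by
    refine Finset.sum_eq_zero fun j hj => ?_
    have hj' : (j : ℝ) + 1 ≤ i := by exact_mod_cast Finset.mem_range.mp hj
    have : ((j : ℝ) + 2) / (k + 1) ≤ ((i : ℝ) + 1) / (k + 1) := by
      apply div_le_div_of_nonneg_right _ hk.le; linarith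
    rw [max_eq_right, mul_zero]
    have := min_le_right (1 : ℝ) (((j : ℝ) + 2) / (k + 1))
    have := le_max_left s (((j : ℝ) + 1) / (k + 1))
    linarith
  have e2 : max (min 1 (((i : ℝ) + 2) / (k + 1)) - max s (((i : ℝ) + 1) / (k + 1))) 0 =
      ((i : ℝ) + 2) / (k + 1) - s := by
    have hi' : (i : ℝ) + 1 ≤ k := by exact_mod_cast hi
    have : ((i : ℝ) + 2) / (k + 1) ≤ 1 := by
      rw [div_le_one hk]; linarith
    rw [min_eq_right this, max_eq_left h1.le, max_eq_left]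
    linarith
  have e3 : ∀ j ∈ Finset.Ioo i k, ρ j *
      max (min 1 (((j : ℝ) + 2) / (k + 1)) - max s (((j : ℝ) + 1) / (k + 1))) 0 =
        (1 / ((k : ℝ) + 1)) * ρ j := by
    intro j hj
    rw [Finset.mem_Ioo] at hj
    have hj1 : (i : ℝ) + 1 ≤ j := by exact_mod_cast hj.1
    have hj2 : (j : ℝ) + 1 ≤ k := by exact_mod_cast hj.2
    have a1 : ((j : ℝ) + 2) / (k + 1) ≤ 1 := by
      rw [div_le_one hk]; linarith
    have a2 : ((i : ℝ) + 2) / (k + 1) ≤ ((j : ℝ) + 1) / (k + 1) := by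
      apply div_le_div_of_nonneg_right _ hk.le; linarith
    rw [min_eq_right a1, max_eq_right (h2.trans a2)]
    have a3 : ((j : ℝ) + 2) / (k + 1) - ((j : ℝ) + 1) / (k + 1) = 1 / ((k : ℝ) + 1) := by
      field_simp; ring
    rw [a3, max_eq_left (by positivity), mul_comm]
  rw [e1, e2, Finset.sum_congr rfl e3, ← Finset.mul_sum]
  ring

theorem integral_left {k i : ℕ} (hi : i < k) (ρ : ℕ → ℝ) {s : ℝ}
    (h1 : ((i : ℝ) + 1) / (k + 1) < s) (h2 : s ≤ ((i : ℝ) + 2) / (k + 1)) :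
    ∫ u in Set.Ioo 0 s, stepUB k ρ u =
      (s - ((i : ℝ) + 1) / (k + 1)) * ρ i +
        (1 / ((k : ℝ) + 1)) * ∑ j ∈ Finset.range i, ρ j := by
  have hk : (0 : ℝ) < (k : ℝ) + 1 := by positivity
  rw [integral_stepUB_Ioo, sum_range_split hi]
  have e1 : ∀ j ∈ Finset.range i, ρ j *
      max (min s (((j : ℝ) + 2) / (k + 1)) - max 0 (((j : ℝ) + 1) / (k + 1))) 0 =
        (1 / ((k : ℝ) + 1)) * ρ j := by
    intro j hj
    have hj' : (j : ℝ) + 1 ≤ i := by exact_mod_cast Finset.mem_range.mp hj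
    have : ((j : ℝ) + 2) / (k + 1) ≤ ((i : ℝ) + 1) / (k + 1) := by
      apply div_le_div_of_nonneg_right _ hk.le; linarith
    rw [min_eq_right (by linarith), max_eq_right (a := (0 : ℝ)) (by positivity)]
    have a3 : ((j : ℝ) + 2) / (k + 1) - ((j : ℝ) + 1) / (k + 1) = 1 / ((k : ℝ) + 1) := by
      field_simp; ring
    rw [a3, max_eq_left (by positivity), mul_comm]
  have e2 : max (min s (((i : ℝ) + 2) / (k + 1)) - max 0 (((i : ℝ) + 1) / (k + 1))) 0 =
      s - ((i : ℝ) + 1) / (k + 1) := by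
    rw [min_eq_left h2, max_eq_right (a := (0 : ℝ)) (by positivity), max_eq_left]
    linarith
  have e3 : ∑ j ∈ Finset.Ioo i k, ρ j *
      max (min s (((j : ℝ) + 2) / (k + 1)) - max 0 (((j : ℝ) + 1) / (k + 1))) 0 = 0 := by
    refine Finset.sum_eq_zero fun j hj => ?_
    rw [Finset.mem_Ioo] at hj
    have hj1 : (i : ℝ) + 1 ≤ j := by exact_mod_cast hj.1
    have a2 : ((i : ℝ) + 2) / (k + 1) ≤ ((j : ℝ) + 1) / (k + 1) := by
      apply div_le_div_of_nonneg_right _ hk.le; linarith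
    rw [max_eq_right, mul_zero]
    have := min_le_left s (((j : ℝ) + 2) / (k + 1))
    have := le_max_right 0 (((j : ℝ) + 1) / (k + 1))
    linarith
  rw [Finset.sum_congr rfl e1, e2, e3, ← Finset.mul_sum]
  ring

theorem integral_left_zero {k : ℕ} (ρ : ℕ → ℝ) {s : ℝ} (h : s ≤ 1 / ((k : ℝ) + 1)) :
    ∫ u in Set.Ioo 0 s, stepUB k ρ u = 0 := by
  have hk : (0 : ℝ) < (k : ℝ) + 1 := by positivity
  rw [integral_stepUB_Ioo]
  refine Finset.sum_eq_zero fun j hj => ?_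
  have a2 : 1 / ((k : ℝ) + 1) ≤ ((j : ℝ) + 1) / (k + 1) := by
    apply div_le_div_of_nonneg_right _ hk.le
    have : (0 : ℝ) ≤ j := Nat.cast_nonneg j
    linarith
  rw [max_eq_right, mul_zero]
  have := min_le_left s (((j : ℝ) + 2) / (k + 1))
  have := le_max_right 0 (((j : ℝ) + 1) / (k + 1))
  linarith

theorem DF_step (k : ℕ) (τ a a' c c' : ℝ) (ρ ρ' : ℕ → ℝ) :
    DF τ a a' c c' (stepUB k ρ) (stepUB k ρ') = Dst k (1 / ((k : ℝ) + 1)) τ a a' c c' ρ ρ' := by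
  unfold DF Dst
  have h : ∫ u in Set.Ioo (0 : ℝ) 1, stepUB k ρ u * stepUB k ρ' u =
      ∑ j ∈ Finset.range k, 1 / ((k : ℝ) + 1) * (ρ j * ρ' j) := by
    simp_rw [stepUB_mul]
    rw [integral_stepUB k _ (fun x => x), zero_add, Finset.mul_sum]
  rw [h]

/-- PROOF. For `s` in the block `i < k`: `∫_s^1 ρ = ((i+2)/(k+1) - s) ρ_i + w ∑_{j>i} ρ_j`, `∫_0^s ρρ' = w ∑_{j<i} ρ_j ρ'_j + (s - (i+1)/(k+1)) ρ_i ρ'_i`;
`ζUB k (i+1) = (i+2)/(k+1)`, `ζUB k i = (i+1)/(k+1)`; both sides agree (`ring`). -/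
theorem eF_step {k i : ℕ} (hi : i < k) (τ a a' c c' : ℝ) (ρ ρ' : ℕ → ℝ) {s : ℝ}
    (h1 : ((i : ℝ) + 1) / (k + 1) < s) (h2 : s ≤ ((i : ℝ) + 2) / (k + 1)) (h3 : s < 1) :
    eF τ a a' c c' (stepUB k ρ) (stepUB k ρ') s =
      Est (ζUB k) k (1 / ((k : ℝ) + 1)) τ a a' c c' ρ ρ' i := by
  have hk : (0 : ℝ) < (k : ℝ) + 1 := by positivity
  have hi' : (i : ℝ) + 1 ≤ k := by exact_mod_cast hi
  have z0 : ζUB k i = ((i : ℝ) + 1) / (k + 1) := by
    unfold ζUB
    rw [min_eq_right]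
    rw [div_le_one hk]; linarith
  have z1 : ζUB k (i + 1) = ((i : ℝ) + 2) / (k + 1) := by
    unfold ζUB
    push_cast
    rw [show (i : ℝ) + 1 + 1 = i + 2 by ring, min_eq_right]
    rw [div_le_one hk]; linarith
  unfold eF Est lamF
  simp_rw [stepUB_mul]
  rw [integral_right hi ρ h1 h2, integral_right hi ρ' h1 h2, integral_left hi _ h1 h2,
    stepUB_block hi ρ h1 h2, stepUB_block hi ρ' h1 h2, stepUB_block hi _ h1 h2, z0, z1]
  have s1 : ∑ j ∈ Finset.Ioo i k, 1 / ((k : ℝ) + 1) * (ρ j * ρ' i + ρ i * ρ' j) =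
      1 / ((k : ℝ) + 1) * (∑ j ∈ Finset.Ioo i k, ρ j) * ρ' i +
        1 / ((k : ℝ) + 1) * (∑ j ∈ Finset.Ioo i k, ρ' j) * ρ i := by
    rw [mul_assoc, mul_assoc, Finset.sum_mul, Finset.sum_mul, Finset.mul_sum, Finset.mul_sum,
      ← Finset.sum_add_distrib]
    refine Finset.sum_congr rfl fun j _ => ?_
    ring
  rw [s1, ← Finset.mul_sum]
  ring

theorem eF_step_zero {k : ℕ} (τ a a' c c' : ℝ) (ρ ρ' : ℕ → ℝ) {s : ℝ} (h0 : 0 < s)
    (h : s ≤ 1 / ((k : ℝ) + 1)) : eF τ a a' c c' (stepUB k ρ) (stepUB k ρ') s = 0 := by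
  unfold eF
  simp_rw [stepUB_mul]
  rw [integral_left_zero _ h, stepUB_zero ρ h, stepUB_zero ρ' h, stepUB_zero _ h]
  ring

theorem integral_eF_step (k : ℕ) (τ a a' c c' : ℝ) (ρ ρ' : ℕ → ℝ) :
    ∫ s in Set.Ioo (0 : ℝ) 1, |eF τ a a' c c' (stepUB k ρ) (stepUB k ρ') s| =
      (1 / ((k : ℝ) + 1)) * ∑ i ∈ Finset.range k,
        |Est (ζUB k) k (1 / ((k : ℝ) + 1)) τ a a' c c' ρ ρ' i| := by
  have h : ∀ s ∈ Set.Ioo (0 : ℝ) 1, |eF τ a a' c c' (stepUB k ρ) (stepUB k ρ') s| =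
      stepUB k (fun i => |Est (ζUB k) k (1 / ((k : ℝ) + 1)) τ a a' c c' ρ ρ' i|) s := by
    intro s hs
    rcases le_or_gt s (1 / ((k : ℝ) + 1)) with h0 | h0
    · rw [eF_step_zero τ a a' c c' ρ ρ' hs.1 h0, stepUB_zero _ h0, abs_zero]
    · obtain ⟨i, hi, h1, h2⟩ := exists_block h0 hs.2
      rw [eF_step hi τ a a' c c' ρ ρ' h1 h2 hs.2, stepUB_block hi _ h1 h2]
  rw [setIntegral_congr_fun measurableSet_Ioo h, integral_stepUB k _ (fun x => x), zero_add]

end Crest.Agent.RI
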