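import Crest.Agent.RI.UBMain
import Crest.Agent.RI.IDefs

/-!
# Row 164: the statement `UBmainStmt` from the theorem `UBmain` (helper70)
-/

set_option autoImplicit false

namespace Crest.Agent.RI

theorem UBmain_stmt (D : Blk) : UBmainStmt D := fun hε hδ => UBmain D hε hδ

end Crest.Agent.RI
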