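import Crest.Agent.RI.UBIface
import Crest.Agent.RI.TConvA

/-!
# Row 164, Part 6, chunk UBTan (easy/medium): tangent inequality in the time `t`
-/

set_option autoImplicit false

namespace Crest.Agent.RI

open MeasureTheory ProbabilityTheory
open Crest.ProbabilityR.InvariantGlass

variable {N K : ℕ} {P : Measure (ON N)} {A : Measure (Fin N → Bool)}

private theorem ubTan_pathE_sum {E : Type} [MeasurableSpace E] {m : Measure E}
    [IsProbabilityMeasure m] {ζ : ℕ → ℝ} {β : E → ℝ} (hβ : Dom m β) (hζ : Exps ζ) (n i : ℕ)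
    {H : (Fin n → E) → ℝ} (hH : Ham β H) {ι : Type*} (s : Finset ι) (c : ι → ℝ)
    {Φ : ι → (Fin n → E) → ℝ} (hΦ : ∀ j, Ham β (Φ j)) :
    Ham β (fun ω => ∑ j ∈ s, c j * Φ j ω) ∧
    pathE m ζ n i H (fun ω => ∑ j ∈ s, c j * Φ j ω) = ∑ j ∈ s, c j * pathE m ζ n i H (Φ j) := by
  classical
  induction s using Finset.induction_on with
  | empty =>
    refine ⟨?_, ?_⟩
    · simpa using Ham.const (n := n) (fun e => hβ.nonneg e) 0
    · simpa using pathE_const hβ hζ n i hH 0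
  | insert a s ha ih =>
    obtain ⟨ih1, ih2⟩ := ih
    have h1 : Ham β (fun ω => c a * Φ a ω) := (hΦ a).const_mul (c a)
    refine ⟨?_, ?_⟩
    · simpa [Finset.sum_insert ha] using h1.add hβ ih1
    · simp only [Finset.sum_insert ha]
      rw [pathE_add hβ hζ n i hH (h1.tame hβ) (ih1.tame hβ), pathE_mul, ih2]

private theorem ubTan_pt (hN : 0 < N) (κ : Fin N → Fin K) (d : Fin K → ℝ) (k : ℕ)
    (ω : Fin (k + 1) → EN N) :
    ∑ a, d (κ a) * yv k ω a ^ 2 = (N : ℝ) * ∑ l, d l * ovl k κ l ω ω := by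
  have hN' : (N : ℝ) ≠ 0 := by positivity
  unfold ovl
  have h : ∀ l : Fin K, d l * ((1 / (N : ℝ)) * ∑ a : Fin N,
      (if κ a = l then yv k ω a * yv k ω a else 0)) =
      (1 / (N : ℝ)) * ∑ a : Fin N, (if κ a = l then d l * (yv k ω a * yv k ω a) else 0) := by
    intro l
    rw [mul_left_comm, Finset.mul_sum]
    congr 1
    refine Finset.sum_congr rfl fun a _ => ?_
    split_ifs <;> simp
  rw [Finset.sum_congr rfl (fun l _ => h l), ← Finset.mul_sum, ← mul_assoc,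
    mul_one_div_cancel hN', one_mul, Finset.sum_comm]
  refine Finset.sum_congr rfl fun a _ => ?_
  rw [Finset.sum_ite_eq Finset.univ (κ a)]
  simp [sq]

/-- PROOF. `nest_tangent` (with `dom_mN`, `exps_UB`, `HN_ham`) for `H = HN k (θU κ d k s t' z)`,
`U ω = (t - t') * ((1/2) * ∑ a, d (κ a) * yv k ω a ^ 2)`, `H + U = HN k (θU κ d k s t z)`. Pointwise
`∑ a, d (κ a) * yv k ω a ^ 2 = N * ∑ l, d l * ovl k κ l ω ω`, and `pathE` is linear (prove/borrow
`pathE` of finite linear combinations of `Ham` functions; `ham_ovl_self`). -/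
theorem fU_tangent (hN : 0 < N) (hP : HaarO P) [IsProbabilityMeasure A] (κ : Fin N → Fin K)
    (d : Fin K → ℝ) (k : ℕ) (s t t' : ℝ) (z : ZU k K) :
    fU P A κ d k s t' z - fU P A κ d k s t z ≤
      (t' - t) * ((1 / 2) * ∑ l, d l * selfOv P A (ζUB k) k (θU κ d k s t' z) l) := by
  have hN' : (0 : ℝ) < N := by exact_mod_cast hN
  have := prob_mN hP A
  have hβ := dom_mN hP A
  have hζ := exps_UB k
  set θ' := θU κ d k s t' z with hθ'
  set θ := θU κ d k s t z with hθ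
  have hH := HN_ham (N := N) k θ'
  obtain ⟨hS, hSe⟩ := ubTan_pathE_sum hβ hζ (k + 1) 0 hH Finset.univ d
    (Φ := fun l ω => ovl k κ l ω ω) (fun l => ham_ovl_self k κ l)
  have hU := hS.const_mul ((t - t') * ((1 / 2) * N))
  have h1 := nest_tangent hβ hζ (k + 1) 0 hH hU
  have h2 : (fun ω => HN k θ' ω + (t - t') * ((1 / 2) * N) * ∑ l, d l * ovl k κ l ω ω) =
      HN k θ := by
    funext ω
    have hpt := ubTan_pt hN κ d k ω
    have e : (t - t') * ((1 / 2) * (N : ℝ)) * ∑ l, d l * ovl k κ l ω ω =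
        (t - t') * ((1 / 2) * ∑ a, d (κ a) * yv k ω a ^ 2) := by
      rw [hpt]; ring
    rw [e]
    unfold HN
    have e2 : ∑ a : Fin N, θ.e (θ.κ a) * yv k ω a ^ 2 =
        ∑ a : Fin N, θ'.e (θ'.κ a) * yv k ω a ^ 2 + (t - t') * ∑ a, d (κ a) * yv k ω a ^ 2 := by
      rw [Finset.mul_sum, ← Finset.sum_add_distrib]
      refine Finset.sum_congr rfl fun a _ => ?_
      simp only [hθ, hθ', θU]
      ring
    rw [e2]
    have e3 : θ.v = θ'.v := rfl
    have e4 : θ.c = θ'.c := rfl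
    have e5 : θ.B = θ'.B := rfl
    have e6 : θ.κ = θ'.κ := rfl
    rw [e3, e4, e5, e6]
    ring
  rw [h2, pathE_mul, hSe] at h1
  have hself : ∀ l, selfOv P A (ζUB k) k θ' l =
      pathE (mN P A) (ζUB k) (k + 1) 0 (HN k θ') (fun ω => ovl k κ l ω ω) := fun l => rfl
  simp only [hself]
  unfold fU fN
  have e3 : θ.v = θ'.v := rfl
  rw [← hθ', ← hθ, e3]
  set X := nest (mN P A) (ζUB k) (k + 1) 0 (HN k θ')
  set Y := nest (mN P A) (ζUB k) (k + 1) 0 (HN k θ)
  set S := ∑ l, d l * pathE (mN P A) (ζUB k) (k + 1) 0 (HN k θ') (fun ω => ovl k κ l ω ω)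
  have h3 : X - Y ≤ (N : ℝ) * ((t' - t) * ((1 / 2) * S)) := by
    have : (t - t') * ((1 / 2) * (N : ℝ)) * S = -((N : ℝ) * ((t' - t) * ((1 / 2) * S))) := by ring
    linarith
  have h4 : (1 / (N : ℝ)) * (X - Y) ≤ (1 / (N : ℝ)) * ((N : ℝ) * ((t' - t) * ((1 / 2) * S))) :=
    mul_le_mul_of_nonneg_left h3 (by positivity)
  have h5 : (1 / (N : ℝ)) * ((N : ℝ) * ((t' - t) * ((1 / 2) * S))) = (t' - t) * ((1 / 2) * S) := by
    field_simp
  rw [h5] at h4
  linarith

end Crest.Agent.RI
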