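import Crest.Agent.RI.UBDefs
import Crest.Agent.RI.SysBasic
import Crest.Agent.RI.TowerAPI

/-!
# Row 164, Part 6: tower facts in the form used by the upper bound
-/

set_option autoImplicit false

namespace Crest.Agent.RI

open MeasureTheory ProbabilityTheory

/-- (helper20) the second derivative dominates the variance. -/
theorem Jvar_ge {E : Type} [MeasurableSpace E] {m : Measure E} [IsProbabilityMeasure m] {ζ : ℕ → ℝ}
    {β : E → ℝ} (hβ : Dom m β) (hζ : Exps ζ) (n i : ℕ) {H V : (Fin n → E) → ℝ} (hH : Ham β H)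
    (hV : Ham β V) {x : ℝ} (hx : ∀ j < n, x ≤ ζ (i + j)) (hx0 : 0 ≤ x) :
    x * pathE m ζ n i H (fun ω => (V ω - pathE m ζ n i H V) ^ 2) ≤ Jvar m ζ n i H V := by
  have hVt : Tame β V := Ham.tame hβ hV
  have h0 : pathE m ζ n i H (fun ω => (V ω - pathE m ζ n i H V) ^ 2) =
      pathE m ζ n i H (fun ω => V ω ^ 2) - pathE m ζ n i H V ^ 2 := by
    set e := pathE m ζ n i H V with he
    have h1 : (fun ω => (V ω - e) ^ 2) = (fun ω => V ω ^ 2 + ((-(2 * e)) * V ω + e ^ 2)) := by
      funext ω; ring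
    rw [h1, pathE_add hβ hζ n i hH (TVar_tame_sq hβ hVt)
      (Tame.add hβ (TVar_tame_cmul hβ _ hVt) (Tame.const hβ _)),
      pathE_add hβ hζ n i hH (TVar_tame_cmul hβ _ hVt) (Tame.const hβ _), pathE_mul,
      pathE_const hβ hζ n i hH, ← he]
    ring
  have h1 : x * ∑ j ∈ Finset.range n, pathE m ζ n i H
      (fun ω => (condE m ζ (j + 1) n i H V ω - condE m ζ j n i H V ω) ^ 2) ≤ Jvar m ζ n i H V := by
    unfold Jvar
    rw [Finset.mul_sum]
    refine Finset.sum_le_sum fun j hj => ?_
    exact mul_le_mul_of_nonneg_right (hx j (Finset.mem_range.1 hj)) (TVar_pathE_nonneg hβ hζ n i hH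
      (TVar_tame_sq hβ (TVar_tame_incr hβ hζ j n i hH hVt)) fun ω => sq_nonneg _)
  have h2 : ∑ j ∈ Finset.range n, pathE m ζ n i H
      (fun ω => (condE m ζ (j + 1) n i H V ω - condE m ζ j n i H V ω) ^ 2) =
      pathE m ζ n i H (fun ω => V ω ^ 2) - pathE m ζ n i H V ^ 2 := by
    rw [Finset.sum_congr rfl fun j _ => TVar_incr_sq hβ hζ j n i hH hVt,
      Finset.sum_range_sub (fun j => pathE m ζ n i H (fun ω => condE m ζ j n i H V ω ^ 2))]
    congr 1
    · congr 1
      funext ω
      rw [condE_all n i H V n le_rfl ω]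
    · have : (fun ω => condE m ζ 0 n i H V ω ^ 2) = (fun _ : Fin n → E => pathE m ζ n i H V ^ 2) := by
        funext ω
        rw [condE]
      rw [this, pathE_const hβ hζ n i hH]
  rw [h0, ← h2]
  exact h1

/-- (helper20) level-wise measure preserving maps. -/
theorem nest_map_lv {E E' : Type} [MeasurableSpace E] [MeasurableSpace E'] {m : Measure E}
    {m' : Measure E'} [IsProbabilityMeasure m] [IsProbabilityMeasure m'] {ζ : ℕ → ℝ} {β' : E' → ℝ}
    (hβ' : Dom m' β') (hζ : Exps ζ) (n i : ℕ) {φ : Fin n → E → E'}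
    (hφ : ∀ j, MeasurePreserving (φ j) m m') {H : (Fin n → E') → ℝ} (hH : Ham β' H) :
    nest m ζ n i (fun ω => H (fun j => φ j (ω j))) = nest m' ζ n i H := by
  have hm : ∀ (n i : ℕ) (φ : Fin n → E → E') (_ : ∀ j, MeasurePreserving (φ j) m m')
      (H : (Fin n → E') → ℝ) (_ : Measurable H),
      nest m ζ n i (fun ω => H (fun j => φ j (ω j))) = nest m' ζ n i H := by
    intro n
    induction n with
    | zero =>
      intro i φ hφ H hH
      simp only [nest]
      congr 1
      funext j
      exact j.elim0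
    | succ n ih =>
      intro i φ hφ H hH
      simp only [nest]
      have hcons : ∀ (e : E) (ω : Fin n → E),
          (fun j => φ j ((Fin.cons e ω : Fin (n + 1) → E) j)) =
            (Fin.cons (φ 0 e) (fun j => φ j.succ (ω j)) : Fin (n + 1) → E') := by
        intro e ω
        funext j
        refine Fin.cases ?_ (fun k => ?_) j
        · simp
        · simp
      simp only [hcons]
      have hmc : Measurable (fun p : E' × (Fin n → E') => (Fin.cons p.1 p.2 : Fin (n + 1) → E')) := by
        refine measurable_pi_iff.2 (fun j => ?_)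
        refine Fin.cases ?_ (fun k => ?_) j
        · simpa using measurable_fst
        · have h : Measurable (fun p : E' × (Fin n → E') => p.2 k) :=
            (measurable_pi_apply k).comp measurable_snd
          simpa using h
      have hmH : Measurable (Function.uncurry fun (e : E') (ω : Fin n → E') => H (Fin.cons e ω)) :=
        hH.comp hmc
      have hin : ∀ e' : E', nest m ζ n (i + 1) (fun ω => H (Fin.cons e' fun j => φ j.succ (ω j))) =
          nest m' ζ n (i + 1) (fun ω => H (Fin.cons e' ω)) := fun e' =>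
        ih (i + 1) (fun j => φ j.succ) (fun j => hφ j.succ) (fun ω => H (Fin.cons e' ω))
          (hmH.comp measurable_prodMk_left)
      simp only [hin]
      set g : E' → ℝ := fun e' => nest m' ζ n (i + 1) (fun ω => H (Fin.cons e' ω)) with hg
      have hgm : Measurable g := measurable_nest m' ζ n (i + 1) hmH
      have hint : ∀ F : E' → ℝ, Measurable F → ∫ e, F (φ 0 e) ∂m = ∫ e, F e ∂m' := by
        intro F hF
        rw [← (hφ 0).map_eq]
        exact (integral_map (hφ 0).measurable.aemeasurable hF.aestronglyMeasurable).symm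
      show TT m (ζ i) (fun e => g (φ 0 e)) = TT m' (ζ i) g
      unfold TT
      split_ifs with h
      · exact hint g hgm
      · rw [hint (fun e => Real.exp (ζ i * g e)) (Real.measurable_exp.comp (hgm.const_mul _))]
  exact hm n i φ hφ H hH.meas

/-- (helper20) continuity of pair expectations. -/
theorem pairE_continuous {E : Type} [MeasurableSpace E] {m : Measure E} [IsProbabilityMeasure m]
    {ζ : ℕ → ℝ} {β : E → ℝ} (hβ : Dom m β) (hζ : Exps ζ) (r n i : ℕ) {H V : (Fin n → E) → ℝ}
    (hH : Ham β H) (hV : Ham β V) {Φ : (Fin n → E) → (Fin n → E) → ℝ}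
    (hΦ : Measurable (fun x : (Fin n → E) × (Fin n → E) => Φ x.1 x.2)) {C : ℝ}
    (hC : ∀ ω ω', |Φ ω ω'| ≤ C) :
    Continuous (fun t => pairE m ζ r n i (fun ω => H ω + t * V ω) Φ) := by
  rw [continuous_iff_continuousAt]
  intro t
  obtain ⟨D, hD, h1, h2⟩ := TDerA_line hβ hH hV t
  have ht : t ∈ Set.Ioo (t - 1) (t + 1) := ⟨by linarith, by linarith⟩
  have hC0 : 0 ≤ |C| := abs_nonneg C
  have hsum : ∀ ω ω' : Fin n → E, 0 ≤ ∑ i, (β (ω i) + β (ω' i)) := fun ω ω' =>
    Finset.sum_nonneg fun i _ => add_nonneg (hβ.nonneg _) (hβ.nonneg _)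
  have hΦt : Tame2C (D + |C|) β Φ := by
    refine ⟨hΦ, fun ω ω' => ?_⟩
    have e1 : (1 : ℝ) ≤ Real.exp ((D + |C|) * ∑ i, (β (ω i) + β (ω' i))) :=
      Real.one_le_exp (mul_nonneg (by positivity) (hsum ω ω'))
    calc |Φ ω ω'| ≤ C := hC ω ω'
      _ ≤ D + |C| := by linarith [le_abs_self C]
      _ = (D + |C|) * 1 := (mul_one _).symm
      _ ≤ _ := mul_le_mul_of_nonneg_left e1 (by positivity)
  have h0 : Tame2C (D + |C|) β (fun _ _ : Fin n → E => (0 : ℝ)) := by
    refine ⟨measurable_const, fun ω ω' => ?_⟩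
    rw [abs_zero]
    positivity
  have h := pairE_hasDerivAt' hβ hζ r n i (H := fun s ω => H ω + s * V ω) (V := fun _ => V)
    (Φ := fun _ => Φ) (Φ' := fun _ _ _ => 0) (C := D + |C|) (by positivity) ht
    (fun u hu => TDerA_hamC_mono hβ (h1 u hu) (by linarith))
    (fun _ _ => TDerA_tameC_mono hβ hD h2 (by linarith)) (fun _ _ => hΦt) (fun _ _ => h0)
    (fun u _ ω => TDerA_line_deriv u ω) (fun u _ ω ω' => hasDerivAt_const u _)
  exact h.continuousAt

end Crest.Agent.RI
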