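import Crest.Agent.RI.SiteGrow

/-!
# Row 164, Part 11.3: continuity of `V(m)` (helper50)
-/

set_option autoImplicit false

namespace Crest.Agent.RI

open MeasureTheory ProbabilityTheory
open Crest.ProbabilityR.InvariantGlass

/-- `G` is Lipschitz for the metric `‖p - q‖_*`. -/
def GLip (D : Blk) (C : ℝ) : Prop :=
  0 ≤ C ∧ ∀ p q : ℝ → ℝ, IsTrialPath p → IsTrialPath q → ∀ ε : ℝ, 0 ≤ ε → PDist p q ε →
    |D.G p - D.G q| ≤ C * ε

/-- Truncated path. -/
noncomputable def pcut (δ : ℝ) (p : ℝ → ℝ) (u : ℝ) : ℝ := min (p u) (1 - δ)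

theorem pcut_trial {δ : ℝ} (hδ1 : δ ≤ 1) (hδ0 : 0 ≤ δ) {p : ℝ → ℝ} (hp : IsTrialPath p) :
    IsTrialPath (pcut δ p) := by
  refine ⟨hp.1.min measurable_const, ?_, ?_⟩
  · intro x hx y hy hxy
    exact min_le_min (hp.2.1 hx hy hxy) le_rfl
  · intro s hs
    refine ⟨le_min (hp.2.2 s hs).1 (by linarith), (min_le_right _ _).trans (by linarith)⟩

theorem pcut_le (δ : ℝ) (p : ℝ → ℝ) (u : ℝ) : pcut δ p u ≤ p u := min_le_left _ _

theorem pcut_le' (δ : ℝ) (p : ℝ → ℝ) (u : ℝ) : pcut δ p u ≤ 1 - δ := min_le_right _ _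

theorem trial_integrableOn {p : ℝ → ℝ} (hp : IsTrialPath p) :
    IntegrableOn p (Set.Ioo (0 : ℝ) 1) := by
  refine Measure.integrableOn_of_bounded (M := 1) (by simp) hp.1.aestronglyMeasurable ?_
  refine (ae_restrict_iff' measurableSet_Ioo).2 (Filter.Eventually.of_forall fun u hu => ?_)
  rw [Real.norm_eq_abs, abs_of_nonneg (hp.2.2 u hu).1]
  exact (hp.2.2 u hu).2

theorem abs_integral_Ioo_le {f : ℝ → ℝ} {s c : ℝ} (hs : s ∈ Set.Icc (0 : ℝ) 1) (hc : 0 ≤ c)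
    (h : ∀ u ∈ Set.Ioo s 1, |f u| ≤ c) : |∫ u in Set.Ioo s 1, f u| ≤ c := by
  have h1 : ‖∫ u in Set.Ioo s 1, f u‖ ≤ c * (volume.real (Set.Ioo s 1)) := by
    apply norm_setIntegral_le_of_norm_le_const (by simp)
    intro u hu
    rw [Real.norm_eq_abs]
    exact h u hu
  rw [Real.norm_eq_abs, Real.volume_real_Ioo, max_eq_left (by linarith [hs.2])] at h1
  have := hs.1
  nlinarith

theorem pdist_pcut {δ : ℝ} (hδ0 : 0 ≤ δ) {p : ℝ → ℝ} (hp : IsTrialPath p) :
    PDist p (pcut δ p) δ := by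
  intro s hs
  apply abs_integral_Ioo_le hs hδ0
  intro u hu
  have hu' : u ∈ Set.Ioo (0 : ℝ) 1 := ⟨lt_of_le_of_lt hs.1 hu.1, hu.2⟩
  have h1 := (hp.2.2 u hu').2
  rw [abs_of_nonneg (sub_nonneg.2 (pcut_le δ p u))]
  unfold pcut
  rcases min_cases (p u) (1 - δ) with ⟨h, _⟩ | ⟨h, _⟩ <;> rw [h] <;> linarith

/-- `∫ p_δ h ≤ ∫ p h`. -/
theorem integral_pcut_le {k : ℕ} {w hv : Fin k → ℝ} (h : IsStepField w hv) {δ : ℝ} (hδ1 : δ ≤ 1)
    (hδ0 : 0 ≤ δ) {p : ℝ → ℝ} (hp : IsTrialPath p) :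
    ∫ u in Set.Ioo (0 : ℝ) 1, pcut δ p u * stepFn w hv u ≤
      ∫ u in Set.Ioo (0 : ℝ) 1, p u * stepFn w hv u := by
  have hq := pcut_trial hδ1 hδ0 hp
  refine integral_mul_stepFn_mono h hq.1 hp.1 (C := 1)
    (fun s hs => by rw [abs_of_nonneg (hq.2.2 s hs).1]; exact (hq.2.2 s hs).2)
    (fun s hs => by rw [abs_of_nonneg (hp.2.2 s hs).1]; exact (hp.2.2 s hs).2)
    (fun s _ => pcut_le δ p s)

theorem integral_pcut_area {k : ℕ} {w hv : Fin k → ℝ} (h : IsStepField w hv) {δ : ℝ} (hδ1 : δ ≤ 1)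
    (hδ0 : 0 ≤ δ) {p : ℝ → ℝ} (hp : IsTrialPath p) :
    ∫ u in Set.Ioo (0 : ℝ) 1, pcut δ p u * stepFn w hv u ≤ (1 - δ) * area w hv := by
  have hq := pcut_trial hδ1 hδ0 hp
  exact integral_mul_stepFn_le_area h hq.1 (fun s hs => (hq.2.2 s hs).1) (fun s _ => pcut_le' δ p s)

/-- Comparison of `ℓ^[m]` and `ℓ^[m']`. -/
theorem fLeg_compare {k : ℕ} {w hv : Fin k → ℝ} (h : IsStepField w hv) {m m' g H η : ℝ}
    (hg : 0 < g) (hm : |m| ≤ 1) (hm' : |m'| ≤ 1 - g) (hH : area w hv ≤ H) (hη : 0 < η)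
    (hη1 : η ≤ 1) :
    fLeg w hv m ≤ fLeg w hv m' + η + (1 / g) * (1 + Real.log 2 + (1 / 2) * H) * |m' - m| := by
  have hm1 : |m'| ≤ 1 := by linarith
  obtain ⟨b, hb⟩ : ∃ b : ℝ, fieldValueAt b w hv - b * m' < fLeg w hv m' + η :=
    exists_lt_of_ciInf_lt (lt_add_of_pos_right _ hη)
  have h1 := fLeg_le h hm b
  have h2 := le_fieldValueAt h b
  have h3 := fLeg_le_zero h hm1
  have h4 : b * m' ≤ |b| * (1 - g) := by
    calc b * m' ≤ |b * m'| := le_abs_self _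
      _ = |b| * |m'| := abs_mul _ _
      _ ≤ |b| * (1 - g) := mul_le_mul_of_nonneg_left hm' (abs_nonneg _)
  have h5 : |b| * g ≤ 1 + Real.log 2 + (1 / 2) * H := by nlinarith
  have h6 : |b| ≤ (1 / g) * (1 + Real.log 2 + (1 / 2) * H) := by
    rw [one_div, inv_mul_eq_div, le_div_iff₀ hg]
    exact h5
  have h7 : b * (m' - m) ≤ (1 / g) * (1 + Real.log 2 + (1 / 2) * H) * |m' - m| := by
    calc b * (m' - m) ≤ |b * (m' - m)| := le_abs_self _
      _ = |b| * |m' - m| := abs_mul _ _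
      _ ≤ _ := mul_le_mul_of_nonneg_right h6 (abs_nonneg _)
  have h8 : fieldValueAt b w hv - b * m = (fieldValueAt b w hv - b * m') + b * (m' - m) := by ring
  linarith

/-- Continuity of `V(m)` (Part 11.3). -/
theorem VLe_cont_of (D : Blk) {C : ℝ} (hG : GLip D C) {J : ℕ} (γ m : Fin J → ℝ)
    (hγ : ∀ j, 0 ≤ γ j) (hs : ∑ j, γ j = 1)
    (hm : ∀ j, |m j| < 1) {V ε : ℝ} (hε : 0 < ε) (hV : VLe D γ m V) :
    ∃ δ : ℝ, 0 < δ ∧ ∀ m' : Fin J → ℝ, (∀ j, |m' j - m j| ≤ δ) → VLe D γ m' (V - ε) := by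
  obtain ⟨hC, hG⟩ := hG
  -- truncation
  set δ₁ : ℝ := min (1 / 2) (ε / (4 * (C + 1))) with hδ₁
  have hδ₁0 : 0 < δ₁ := lt_min (by norm_num) (by positivity)
  have hδ₁1 : δ₁ ≤ 1 / 2 := min_le_left _ _
  have hCδ : C * δ₁ ≤ ε / 4 := by
    calc C * δ₁ ≤ (C + 1) * (ε / (4 * (C + 1))) := by
          apply mul_le_mul (by linarith) (min_le_right _ _) hδ₁0.le (by linarith)
      _ = ε / 4 := by field_simp
  set H : ℝ := (4 / δ₁) * (Real.log 2 / (δ₁ / 2) + Real.log 2) with hH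
  -- gap
  obtain ⟨g, hg0, hg⟩ : ∃ g : ℝ, 0 < g ∧ ∀ j, |m j| ≤ 1 - 2 * g := by
    have h1 : ∀ᶠ g : ℝ in nhdsWithin 0 (Set.Ioi 0), ∀ j, |m j| < 1 - 2 * g := by
      rw [Filter.eventually_all]
      intro j
      have h2 : Filter.Tendsto (fun g : ℝ => 1 - 2 * g) (nhdsWithin 0 (Set.Ioi 0)) (nhds 1) := by
        have : Filter.Tendsto (fun g : ℝ => 1 - 2 * g) (nhds 0) (nhds (1 - 2 * 0)) := by
          exact (continuous_const.sub (continuous_const.mul continuous_id)).tendsto 0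
        rw [mul_zero, sub_zero] at this
        exact this.mono_left nhdsWithin_le_nhds
      exact h2.eventually_const_lt (hm j)
    obtain ⟨g, hg⟩ := (h1.and self_mem_nhdsWithin).exists
    exact ⟨g, hg.2, fun j => (hg.1 j).le⟩
  have hlog2 : 0 < Real.log 2 := Real.log_pos (by norm_num)
  have hHpos : 0 < H := by positivity
  set K : ℝ := (1 / g) * (1 + Real.log 2 + (1 / 2) * H) with hK
  have hKpos : 0 < K := by positivity
  refine ⟨min g (ε / (4 * K)), lt_min hg0 (by positivity), ?_⟩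
  intro m' hm'
  have hm'1 : ∀ j, |m' j| ≤ 1 - g := by
    intro j
    have h1 := (hm' j).trans (min_le_left _ _)
    have h2 := hg j
    have h3 : |m' j| ≤ |m j| + |m' j - m j| := by
      have := abs_add_le (m j) (m' j - m j)
      rwa [add_sub_cancel] at this
    linarith
  intro p hp s hsb
  have hp' := pcut_trial (by linarith : δ₁ ≤ 1) hδ₁0.le hp
  have hSB : SB γ m (pcut δ₁ p) (s + ε / 2) := by
    intro k w hv h
    change ∑ j, γ j * fLeg w hv (m j) + _ ≤ _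
    have hs0 := SB_ge hγ hs (fun j => (hm'1 j).trans (by linarith)) hsb
    have h1 := hsb k w hv h
    change ∑ j, γ j * fLeg w hv (m' j) + _ ≤ _ at h1
    have h2 := integral_pcut_le h (by linarith : δ₁ ≤ 1) hδ₁0.le hp
    have h3 := integral_pcut_area h (by linarith : δ₁ ≤ 1) hδ₁0.le hp
    have hgrow : ∑ j, γ j * fLeg w hv (m j) ≤
        Real.log 2 / (δ₁ / 2) - (1 / 2) * ((1 - δ₁ / 2) * area w hv) := by
      calc ∑ j, γ j * fLeg w hv (m j) ≤
            ∑ j, γ j * (Real.log 2 / (δ₁ / 2) - (1 / 2) * ((1 - δ₁ / 2) * area w hv)) := by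
            apply Finset.sum_le_sum
            intro j _
            exact mul_le_mul_of_nonneg_left
              (fLeg_grow h (hm j).le (by positivity) (by linarith)) (hγ j)
        _ = _ := by rw [← Finset.sum_mul, hs, one_mul]
    by_cases hcase : area w hv ≤ H
    · -- compare with `m'`
      have h4 : ∀ j, fLeg w hv (m j) ≤ fLeg w hv (m' j) + ε / 2 := by
        intro j
        have hη : 0 < min 1 (ε / 4) := lt_min one_pos (by positivity)
        have h5 := fLeg_compare h hg0 (hm j).le (hm'1 j) hcase hη (min_le_left _ _)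
        have h6 : K * |m' j - m j| ≤ ε / 4 := by
          calc K * |m' j - m j| ≤ K * (ε / (4 * K)) :=
                mul_le_mul_of_nonneg_left ((hm' j).trans (min_le_right _ _)) hKpos.le
            _ = ε / 4 := by field_simp
        have h7 : min 1 (ε / 4) ≤ ε / 4 := min_le_right _ _
        rw [← hK] at h5
        linarith
      have h8 : ∑ j, γ j * fLeg w hv (m j) ≤ ∑ j, γ j * fLeg w hv (m' j) + ε / 2 := by
        calc ∑ j, γ j * fLeg w hv (m j) ≤ ∑ j, γ j * (fLeg w hv (m' j) + ε / 2) :=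
              Finset.sum_le_sum fun j _ => mul_le_mul_of_nonneg_left (h4 j) (hγ j)
          _ = _ := by
              simp only [mul_add, Finset.sum_add_distrib]
              rw [← Finset.sum_mul, hs, one_mul]
      linarith
    · -- large area
      push Not at hcase
      have h9 : (δ₁ / 4) * H = Real.log 2 / (δ₁ / 2) + Real.log 2 := by
        rw [hH]; field_simp
      have h10 : (δ₁ / 4) * H ≤ (δ₁ / 4) * area w hv :=
        mul_le_mul_of_nonneg_left hcase.le (by positivity)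
      nlinarith
  have h11 := hV _ hp' _ hSB
  have h12 := abs_le.1 (hG p (pcut δ₁ p) hp hp' δ₁ hδ₁0.le (pdist_pcut hδ₁0.le hp))
  linarith

end Crest.Agent.RI
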