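import Crest.Agent.RI.FLink

/-!
# Row 164: `EReal` bookkeeping for `constrainedEntropyPart`, `entropyPart`, `magneticValue`
-/

set_option autoImplicit false

namespace Crest.Agent.RI

open MeasureTheory ProbabilityTheory
open Crest.ProbabilityR.InvariantGlass

/-! ### the constrained field value is real -/

theorem coe_ciInf {ι : Type*} [Nonempty ι] {f : ι → ℝ} (hf : BddBelow (Set.range f)) :
    (⨅ i, ((f i : ℝ) : EReal)) = ((⨅ i, f i : ℝ) : EReal) := by
  refine le_antisymm ?_ ?_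
  · have h0 : ∀ i, (⨅ i, ((f i : ℝ) : EReal)) ≤ ((f i : ℝ) : EReal) := fun i => iInf_le _ i
    induction h : (⨅ i, ((f i : ℝ) : EReal)) with
    | bot => exact bot_le
    | top =>
      obtain ⟨i⟩ := ‹Nonempty ι›
      have := h0 i
      rw [h] at this
      exact absurd this (not_le.mpr (EReal.coe_lt_top _))
    | coe r =>
      rw [EReal.coe_le_coe_iff]
      refine le_ciInf fun i => ?_
      have := h0 i
      rw [h, EReal.coe_le_coe_iff] at this
      exact this
  · refine le_iInf fun i => ?_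
    exact EReal.coe_le_coe_iff.mpr (ciInf_le hf i)

theorem ereal_coe_sum {ι : Type*} (s : Finset ι) (f : ι → ℝ) :
    ((∑ i ∈ s, f i : ℝ) : EReal) = ∑ i ∈ s, ((f i : ℝ) : EReal) := by
  classical
  induction s using Finset.induction_on with
  | empty => simp
  | insert a s ha ih => rw [Finset.sum_insert ha, Finset.sum_insert ha, EReal.coe_add, ih]

theorem fieldLeg_bdd {k : ℕ} {w hv : Fin k → ℝ} (h : IsStepField w hv) {m : ℝ} (hm : |m| ≤ 1) :
    BddBelow (Set.range fun b : ℝ => fieldValueAt b w hv - b * m) := by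
  have h1 := FLeg_bdd (fS_pos h) (fun t _ => fτ_nonneg h t) hm
  simp only [fieldValueAt_eq_FVal h.2.1]
  exact h1

theorem constrainedFieldValue_eq {k : ℕ} {w hv : Fin k → ℝ} (h : IsStepField w hv) {m : ℝ}
    (hm : |m| ≤ 1) :
    constrainedFieldValue m w hv = ((⨅ b : ℝ, (fieldValueAt b w hv - b * m) : ℝ) : EReal) :=
  coe_ciInf (fieldLeg_bdd h hm)

theorem fieldLeg_eq_FLeg {k : ℕ} {w hv : Fin k → ℝ} (h : IsStepField w hv) (m : ℝ) :
    (⨅ b : ℝ, (fieldValueAt b w hv - b * m)) = FLeg (fS w) (fτ w hv) m := by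
  unfold FLeg
  simp only [fieldValueAt_eq_FVal h.2.1]

theorem groupFieldValue_eq {J k : ℕ} (γ m : Fin J → ℚ) {w hv : Fin k → ℝ} (h : IsStepField w hv)
    (hm : ∀ j, |((m j : ℚ) : ℝ)| ≤ 1) :
    groupFieldValue γ m w hv =
      ((∑ j, ((γ j : ℚ) : ℝ) * (⨅ b : ℝ, (fieldValueAt b w hv - b * ((m j : ℚ) : ℝ))) : ℝ) : EReal) := by
  unfold groupFieldValue
  rw [ereal_coe_sum]
  refine Finset.sum_congr rfl fun j _ => ?_
  rw [constrainedFieldValue_eq h (hm j), EReal.coe_mul]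

theorem constrainedEntropyPart_le_iff {J : ℕ} {γ m : Fin J → ℚ} {p : ℝ → ℝ} {s : ℝ}
    (hm : ∀ j, |((m j : ℚ) : ℝ)| ≤ 1) :
    constrainedEntropyPart γ m p ≤ (s : EReal) ↔
      SB (fun j => ((γ j : ℚ) : ℝ)) (fun j => ((m j : ℚ) : ℝ)) p s := by
  unfold constrainedEntropyPart SB
  simp only [iSup_le_iff]
  constructor
  · intro H k w hv h
    have := H k w hv h
    rw [groupFieldValue_eq γ m h hm, ← EReal.coe_add, EReal.coe_le_coe_iff] at this
    exact this
  · intro H k w hv h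
    have := H k w hv h
    rw [groupFieldValue_eq γ m h hm, ← EReal.coe_add, EReal.coe_le_coe_iff]
    exact this

theorem isStepField_one : IsStepField (fun _ : Fin 1 => (1 : ℝ)) (fun _ => 0) := by
  refine ⟨by norm_num, fun _ => one_pos, by simp, fun _ _ _ => le_refl _, fun _ => le_refl _⟩

theorem constrainedEntropyPart_ne_bot {J : ℕ} {γ m : Fin J → ℚ} {p : ℝ → ℝ}
    (hm : ∀ j, |((m j : ℚ) : ℝ)| ≤ 1) : constrainedEntropyPart γ m p ≠ ⊥ := by
  intro h0
  have h1 : groupFieldValue γ m (fun _ : Fin 1 => (1 : ℝ)) (fun _ => 0) +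
      (((1 / 2) * ∫ s in Set.Ioo (0 : ℝ) 1, p s * stepFn (fun _ : Fin 1 => (1 : ℝ)) (fun _ => 0) s : ℝ)
        : EReal) ≤ constrainedEntropyPart γ m p := by
    unfold constrainedEntropyPart
    exact le_iSup_of_le 1 (le_iSup_of_le _ (le_iSup_of_le _ (le_iSup_of_le isStepField_one le_rfl)))
  rw [h0, groupFieldValue_eq γ m isStepField_one hm, ← EReal.coe_add] at h1
  exact absurd h1 (not_le.mpr (EReal.bot_lt_coe _))

/-- the inner value at `m` -/
noncomputable def innerV (μ : Measure ℝ) (lamPlus : ℝ) {J : ℕ} (γ m : Fin J → ℚ) : EReal :=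
  ⨅ (p : ℝ → ℝ) (_ : IsTrialPath p),
    constrainedEntropyPart γ m p + ((spectralPart μ lamPlus p : ℝ) : EReal)

theorem le_innerV_iff (D : Blk) {J : ℕ} {γ m : Fin J → ℚ} (hm : ∀ j, |((m j : ℚ) : ℝ)| ≤ 1) {V : ℝ} :
    (V : EReal) ≤ innerV D.mu D.top γ m ↔
      VLe D (fun j => ((γ j : ℚ) : ℝ)) (fun j => ((m j : ℚ) : ℝ)) V := by
  unfold innerV VLe
  simp only [le_iInf_iff]
  constructor
  · intro H p hp s hs
    have h1 := H p hp
    have h2 := (constrainedEntropyPart_le_iff hm).mpr hs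
    have h3 : constrainedEntropyPart γ m p + ((spectralPart D.mu D.top p : ℝ) : EReal) ≤
        (s : EReal) + ((spectralPart D.mu D.top p : ℝ) : EReal) := add_le_add_left h2 _
    have h4 := h1.trans h3
    rw [← EReal.coe_add, EReal.coe_le_coe_iff] at h4
    exact h4
  · intro H p hp
    induction h : constrainedEntropyPart γ m p with
    | bot => exact absurd h (constrainedEntropyPart_ne_bot hm)
    | top => rw [EReal.top_add_coe]; exact le_top
    | coe s =>
      have := H p hp s ((constrainedEntropyPart_le_iff hm).mp h.le)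
      rw [← EReal.coe_add, EReal.coe_le_coe_iff]
      exact this

/-- zero path -/
theorem isTrialPath_zero : IsTrialPath (fun _ => (0 : ℝ)) :=
  ⟨measurable_const, fun _ _ _ _ _ => le_refl _, fun _ _ => ⟨le_refl _, zero_le_one⟩⟩

theorem SB_zero_path {J : ℕ} {γ m : Fin J → ℝ} (hγ : ∀ j, 0 ≤ γ j) (hm : ∀ j, |m j| ≤ 1) :
    SB γ m (fun _ => 0) 0 := by
  intro k w hv h
  have h1 : ∑ j, γ j * (⨅ b : ℝ, (fieldValueAt b w hv - b * m j)) ≤ 0 := by
    refine Finset.sum_nonpos fun j _ => ?_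
    rw [fieldLeg_eq_FLeg h]
    exact mul_nonpos_of_nonneg_of_nonpos (hγ j)
      (FLeg_le_zero (fS_pos h) (fun t _ => fτ_nonneg h t) (hm j))
  simpa using h1

theorem SB_ge {J : ℕ} {γ m : Fin J → ℝ} (hγ : ∀ j, 0 ≤ γ j) (hs : ∑ j, γ j = 1)
    (hm : ∀ j, |m j| ≤ 1) {p : ℝ → ℝ} {s : ℝ} (h : SB γ m p s) : - Real.log 2 ≤ s := by
  have h1 := h 1 _ _ isStepField_one
  have h2 : ∀ u, stepFn (fun _ : Fin 1 => (1 : ℝ)) (fun _ => 0) u = 0 := by
    intro u
    unfold stepFn
    simp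
  simp only [h2, mul_zero, integral_zero, add_zero] at h1
  refine le_trans ?_ h1
  have h3 : ∀ j, - Real.log 2 ≤
      ⨅ b : ℝ, (fieldValueAt b (fun _ : Fin 1 => (1 : ℝ)) (fun _ => 0) - b * m j) := by
    intro j
    rw [fieldLeg_eq_FLeg isStepField_one]
    refine le_trans ?_ (le_FLeg (fS_pos isStepField_one) (fun t _ => fτ_nonneg isStepField_one t) (hm j))
    have : ∑ t ∈ fS (fun _ : Fin 1 => (1 : ℝ)), (1 - t) * fτ (fun _ : Fin 1 => (1 : ℝ)) (fun _ => 0) t = 0 := by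
      refine Finset.sum_eq_zero fun t _ => ?_
      have : fτ (fun _ : Fin 1 => (1 : ℝ)) (fun _ => 0) t = 0 := by
        unfold fτ
        refine Finset.sum_eq_zero fun i _ => ?_
        unfold increment
        simp
      rw [this, mul_zero]
    rw [this]
    simp
  calc - Real.log 2 = ∑ j, γ j * (- Real.log 2) := by rw [← Finset.sum_mul, hs, one_mul]
    _ ≤ _ := Finset.sum_le_sum fun j _ => mul_le_mul_of_nonneg_left (h3 j) (hγ j)

/-- the inner value is real. -/
theorem innerV_real (D : Blk) {J : ℕ} {γ m : Fin J → ℚ} (hγ : ∀ j, 0 ≤ γ j) (hs : ∑ j, γ j = 1)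
    (hm : ∀ j, |((m j : ℚ) : ℝ)| ≤ 1) {C : ℝ} (hC : ∀ p, IsTrialPath p → |D.G p| ≤ C) :
    ∃ v : ℝ, innerV D.mu D.top γ m = (v : EReal) ∧ - Real.log 2 - C ≤ v ∧ v ≤ C := by
  have hγ' : ∀ j, (0 : ℝ) ≤ ((γ j : ℚ) : ℝ) := fun j => by exact_mod_cast hγ j
  have hs' : ∑ j, ((γ j : ℚ) : ℝ) = 1 := by exact_mod_cast hs
  have h1 : ((- Real.log 2 - C : ℝ) : EReal) ≤ innerV D.mu D.top γ m := by
    rw [le_innerV_iff D hm]
    intro p hp s hsb
    have h2 := SB_ge hγ' hs' hm hsb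
    have h3 := abs_le.mp (hC p hp)
    linarith
  have h2 : innerV D.mu D.top γ m ≤ (C : EReal) := by
    unfold innerV
    refine (iInf₂_le (fun _ => (0 : ℝ)) isTrialPath_zero).trans ?_
    have h3 := (constrainedEntropyPart_le_iff hm).mpr (SB_zero_path hγ' hm)
    have h4 := (abs_le.mp (hC _ isTrialPath_zero)).2
    calc constrainedEntropyPart γ m (fun _ => 0) + ((spectralPart D.mu D.top (fun _ => 0) : ℝ) : EReal)
        ≤ ((0 : ℝ) : EReal) + ((C : ℝ) : EReal) := add_le_add h3 (EReal.coe_le_coe_iff.mpr h4)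
      _ = (C : EReal) := by simp
  induction h : innerV D.mu D.top γ m with
  | bot => rw [h] at h1; exact absurd h1 (not_le.mpr (EReal.bot_lt_coe _))
  | top => rw [h] at h2; exact absurd h2 (not_le.mpr (EReal.coe_lt_top _))
  | coe v =>
    rw [h] at h1 h2
    exact ⟨v, rfl, EReal.coe_le_coe_iff.mp h1, EReal.coe_le_coe_iff.mp h2⟩

theorem magneticValue_eq (μ : Measure ℝ) (lamPlus : ℝ) {J : ℕ} (c : Fin J → ℝ) (γ : Fin J → ℚ) :
    magneticValue μ lamPlus c γ = ⨆ (m : Fin J → ℚ) (_ : ∀ j, (-1 : ℚ) < m j ∧ m j < 1),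
      (((∑ j : Fin J, ((γ j : ℚ) : ℝ) * c j * ((m j : ℚ) : ℝ) : ℝ) : EReal) +
        innerV μ lamPlus γ m) := rfl

/-! ### zero field -/

theorem fieldValue_eq_at {k : ℕ} (w hv : Fin k → ℝ) : fieldValue w hv = fieldValueAt 0 w hv := rfl

theorem fieldLeg_zero {k : ℕ} {w hv : Fin k → ℝ} (h : IsStepField w hv) :
    (⨅ b : ℝ, (fieldValueAt b w hv - b * 0)) = fieldValue w hv := by
  rw [fieldLeg_eq_FLeg h, FLeg_zero (fS_pos h) (fun t _ => fτ_nonneg h t), fieldValue_eq_at,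
    fieldValueAt_eq_FVal h.2.1]

theorem fieldLeg_le_zero {k : ℕ} {w hv : Fin k → ℝ} (h : IsStepField w hv) {m : ℝ} (hm : |m| ≤ 1) :
    (⨅ b : ℝ, (fieldValueAt b w hv - b * m)) ≤ fieldValue w hv := by
  refine (ciInf_le (fieldLeg_bdd h hm) 0).trans (le_of_eq ?_)
  rw [fieldValue_eq_at]; ring

/-- `S_m(p) = S(p)` for one class and `m = 0` -/
theorem constrainedEntropyPart_one (p : ℝ → ℝ) :
    constrainedEntropyPart (fun _ : Fin 1 => (1 : ℚ)) (fun _ => 0) p = entropyPart p := by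
  unfold constrainedEntropyPart entropyPart
  refine iSup_congr fun k => iSup_congr fun w => iSup_congr fun hv => iSup_congr fun h => ?_
  rw [groupFieldValue_eq _ _ h (by simp), ← EReal.coe_add]
  congr 2
  simp only [Finset.univ_unique, Finset.sum_singleton, Rat.cast_one, Rat.cast_zero, one_mul]
  exact fieldLeg_zero h

theorem constrainedEntropyPart_one_le (m : Fin 1 → ℚ) (hm : ∀ j, |((m j : ℚ) : ℝ)| ≤ 1) (p : ℝ → ℝ) :
    constrainedEntropyPart (fun _ : Fin 1 => (1 : ℚ)) m p ≤ entropyPart p := by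
  unfold constrainedEntropyPart entropyPart
  refine iSup_mono fun k => iSup_mono fun w => iSup_mono fun hv => iSup_mono fun h => ?_
  rw [groupFieldValue_eq _ _ h hm, ← EReal.coe_add, EReal.coe_le_coe_iff]
  refine add_le_add_left ?_ _
  simp only [Finset.univ_unique, Finset.sum_singleton, Rat.cast_one, one_mul]
  exact fieldLeg_le_zero h (hm _)

/-- zero field value -/
theorem magneticValue_zero (μ : Measure ℝ) (lamPlus : ℝ) :
    magneticValue μ lamPlus (fun _ : Fin 1 => (0 : ℝ)) (fun _ => 1) = variationalValue μ lamPlus := by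
  rw [magneticValue_eq]
  refine le_antisymm ?_ ?_
  · refine iSup₂_le fun m hm => ?_
    have hm' : ∀ j, |((m j : ℚ) : ℝ)| ≤ 1 := fun j => by
      rw [abs_le]
      have := hm j
      constructor
      · have h1 : (-1 : ℚ) ≤ m j := this.1.le
        exact_mod_cast h1
      · exact_mod_cast this.2.le
    have e : ((∑ j : Fin 1, (((1 : ℚ)) : ℝ) * (0:ℝ) * ((m j : ℚ) : ℝ) : ℝ) : EReal) = 0 := by simp
    rw [e, zero_add]
    unfold innerV variationalValue
    exact iInf₂_mono fun p _ => add_le_add_left (constrainedEntropyPart_one_le m hm' p) _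
  · refine le_iSup₂_of_le (fun _ => (0 : ℚ)) (fun _ => by norm_num) ?_
    have e : ((∑ j : Fin 1, (((1 : ℚ)) : ℝ) * (0:ℝ) * (((0 : ℚ)) : ℝ) : ℝ) : EReal) = 0 := by simp
    rw [e, zero_add]
    unfold innerV variationalValue
    refine iInf₂_mono fun p _ => ?_
    rw [constrainedEntropyPart_one]

end Crest.Agent.RI
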