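import Crest.Agent.RI.TTIface
import Crest.Agent.RI.TanH
import Crest.Agent.RI.VEReal
import Crest.Agent.RI.BlockField
import Crest.Agent.RI.MidD

/-!
# Row 164, Part 9: elementary estimates for the variational inequality
-/

set_option autoImplicit false

namespace Crest.Agent.RI

open MeasureTheory ProbabilityTheory

variable {J : ℕ}

/-- `|G|` is bounded on trial paths. -/
theorem G_bdd (D : Blk) : ∃ C : ℝ, 0 ≤ C ∧
    ∀ p : ℝ → ℝ, Crest.ProbabilityR.InvariantGlass.IsTrialPath p → |D.G p| ≤ C := by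
  obtain ⟨C, hC⟩ := D.G_lip
  refine ⟨|D.G (fun _ => 0)| + C, add_nonneg (abs_nonneg _) hC.1, fun p hp => hC.bound hp⟩

theorem ValA_swap (k : ℕ) (τ d : ℕ → ℝ) :
    ∑ i ∈ Finset.range k, d i * hh τ i =
      ∑ j ∈ Finset.range k, τ j * ∑ i ∈ Finset.Ico j k, d i := by
  induction k with
  | zero => simp
  | succ k ih =>
    have h1 : ∀ j ∈ Finset.range (k + 1), τ j * ∑ i ∈ Finset.Ico j (k + 1), d i =
        τ j * ∑ i ∈ Finset.Ico j k, d i + d k * τ j := by
      intro j hj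
      have hj' : j ≤ k := by
        have := Finset.mem_range.1 hj
        omega
      rw [Finset.sum_Ico_succ_top hj']
      ring
    rw [Finset.sum_range_succ, ih, Finset.sum_congr rfl h1, Finset.sum_add_distrib,
      ← Finset.mul_sum]
    unfold hh
    rw [Finset.sum_range_succ (fun j => τ j * ∑ i ∈ Finset.Ico j k, d i)]
    simp

/-- Abel summation.  `hh τ i = Σ_{j ≤ i} τ_j`. -/
theorem abel_hh {k : ℕ} (τ d : ℕ → ℝ) (hτ : ∀ i, 0 ≤ τ i) {ε : ℝ}
    (h : ∀ i < k, |∑ q ∈ Finset.Ico i k, d q| ≤ ε) :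
    |∑ i ∈ Finset.range k, d i * hh τ i| ≤ ε * ∑ i ∈ Finset.range k, τ i := by
  rw [ValA_swap, Finset.mul_sum]
  refine (Finset.abs_sum_le_sum_abs _ _).trans (Finset.sum_le_sum fun j hj => ?_)
  rw [abs_mul, abs_of_nonneg (hτ j), mul_comm ε]
  exact mul_le_mul_of_nonneg_left (h j (Finset.mem_range.1 hj)) (hτ j)

/-- tails of step paths.  PROOF: `∫_t^1` is affine on each step, so it is a convex combination of two tail sums (`integral_stepK_tail`). -/
theorem pdist_stepK {k : ℕ} (hk : 0 < k) (p q : ℕ → ℝ) {ε : ℝ} (hε : 0 ≤ ε)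
    (h : ∀ i < k, |∑ j ∈ Finset.Ico i k, (1 / (k : ℝ)) * (p j - q j)| ≤ ε) :
    PDist (stepK k p) (stepK k q) ε := by
  have hk' : (0 : ℝ) < k := by exact_mod_cast hk
  have h' : ∀ i ≤ k, |∑ j ∈ Finset.Ico i k, (1 / (k : ℝ)) * (p j - q j)| ≤ ε := by
    intro i hi
    rcases hi.lt_or_eq with h1 | h1
    · exact h i h1
    · rw [h1]
      simpa using hε
  intro s hs
  rcases hs.2.lt_or_eq with hs1 | hs1
  swap
  · rw [hs1]
    simpa using hε
  have e1 : ∫ u in Set.Ioo s 1, (stepK k p u - stepK k q u) =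
      ∫ u in Set.Ioc s 1, stepK k (fun j => p j - q j) u := by
    rw [← integral_Ioc_eq_integral_Ioo]
    refine integral_congr_ae (Filter.Eventually.of_forall fun u => ?_)
    show stepK k p u - stepK k q u = stepK k (fun j => p j - q j) u
    unfold stepK
    rw [← Finset.sum_sub_distrib]
    refine Finset.sum_congr rfl fun j _ => ?_
    split_ifs
    · rfl
    · simp
  have h0 : 0 ≤ s * k := mul_nonneg hs.1 hk'.le
  set i : ℕ := ⌊s * k⌋₊ with hi
  have hi1 : (i : ℝ) ≤ s * k := Nat.floor_le h0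
  have hi2 : s * k < (i : ℝ) + 1 := Nat.lt_floor_add_one _
  have hik : i < k := by
    have h2 : (i : ℝ) < k := lt_of_le_of_lt hi1 (by nlinarith)
    exact_mod_cast h2
  rw [e1, integral_stepK_tail _ hik ((div_le_iff₀ hk').2 hi1) ((le_div_iff₀ hk').2 hi2.le)]
  have hA := h' i hik.le
  have hB := h' (i + 1) hik
  rw [Finset.sum_eq_sum_Ico_succ_bot hik] at hA
  set T : ℝ := ∑ j ∈ Finset.Ico (i + 1) k, (1 / (k : ℝ)) * (p j - q j) with hT
  set c : ℝ := (i : ℝ) + 1 - s * k with hc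
  have hc0 : 0 ≤ c := by linarith
  have hc1 : c ≤ 1 := by linarith
  have e2 : (((i : ℝ) + 1) / k - s) * (p i - q i) + T =
      c * (1 / (k : ℝ) * (p i - q i) + T) + (1 - c) * T := by
    rw [hc]
    field_simp
    ring
  rw [e2]
  refine (abs_add_le _ _).trans ?_
  rw [abs_mul, abs_mul, abs_of_nonneg hc0, abs_of_nonneg (by linarith : 0 ≤ 1 - c)]
  nlinarith [mul_le_mul_of_nonneg_left hA hc0,
    mul_le_mul_of_nonneg_left hB (by linarith : 0 ≤ 1 - c)]

end Crest.Agent.RI
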