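import Crest.Prelude.Def_InvariantGlass

/-!
# Row 164, Part 12: transport cost and distribution functions
-/

set_option autoImplicit false

namespace Crest.Agent.RI

open MeasureTheory Set Crest.ProbabilityR.InvariantGlass

/-- indicator of `x ≤ t` -/
noncomputable def stp (x t : ℝ) : ℝ := if x ≤ t then 1 else 0

theorem stp_measurable2 : Measurable (fun p : ℝ × ℝ => stp p.1 p.2) :=
  Measurable.ite (measurableSet_le measurable_fst measurable_snd) measurable_const measurable_const

theorem lintegral_stp (x y : ℝ) : ∫⁻ t, ‖stp x t - stp y t‖ₑ = ‖x - y‖ₑ := by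
  have h : (fun t => ‖stp x t - stp y t‖ₑ) = (Ico (min x y) (max x y)).indicator (fun _ => 1) := by
    funext t
    unfold stp
    by_cases hx : x ≤ t <;> by_cases hy : y ≤ t
    · rw [if_pos hx, if_pos hy, Set.indicator_of_notMem]
      · simp
      · intro h
        rcases max_choice x y with h' | h' <;> rw [mem_Ico, h'] at h <;> linarith [h.2]
    · rw [if_pos hx, if_neg hy, Set.indicator_of_mem]
      · simp
      · exact ⟨(min_le_left _ _).trans hx, lt_of_lt_of_le (not_le.1 hy) (le_max_right _ _)⟩
    · rw [if_neg hx, if_pos hy, Set.indicator_of_mem]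
      · simp
      · exact ⟨(min_le_right _ _).trans hy, lt_of_lt_of_le (not_le.1 hx) (le_max_left _ _)⟩
    · rw [if_neg hx, if_neg hy, Set.indicator_of_notMem]
      · simp
      · intro h
        rcases min_choice x y with h' | h' <;> rw [mem_Ico, h'] at h <;> linarith [h.1]
  rw [h, lintegral_indicator measurableSet_Ico, lintegral_const, one_mul,
    Measure.restrict_apply MeasurableSet.univ, univ_inter, Real.volume_Ico, max_sub_min_eq_abs',
    ← Real.enorm_eq_ofReal_abs]

/-- `L¹` distance of the distribution functions -/
noncomputable def cdfd (a b : Measure ℝ) : ENNReal := ∫⁻ t, ‖a.real (Iic t) - b.real (Iic t)‖ₑ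

theorem real_Iic_measurable (a : Measure ℝ) [IsFiniteMeasure a] :
    Measurable (fun t => a.real (Iic t)) := by
  apply Monotone.measurable
  intro s t hst
  exact measureReal_mono (Iic_subset_Iic.2 hst)

theorem cdfd_comm (a b : Measure ℝ) : cdfd a b = cdfd b a := by
  unfold cdfd
  congr 1
  funext t
  rw [← enorm_neg, neg_sub]

theorem cdfd_triangle (a b c : Measure ℝ) [IsFiniteMeasure a] [IsFiniteMeasure b]
    [IsFiniteMeasure c] : cdfd a c ≤ cdfd a b + cdfd b c := by
  unfold cdfd
  rw [← lintegral_add_left]
  · apply lintegral_mono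
    intro t
    have : a.real (Iic t) - c.real (Iic t) =
        (a.real (Iic t) - b.real (Iic t)) + (b.real (Iic t) - c.real (Iic t)) := by ring
    simp only
    rw [this]
    exact enorm_add_le _ _
  · exact ((real_Iic_measurable a).sub (real_Iic_measurable b)).enorm

theorem cdfd_le_transportCost (a b : Measure ℝ) [IsFiniteMeasure a] [IsFiniteMeasure b] :
    cdfd a b ≤ transportCost a b := by
  unfold transportCost
  refine le_iInf₂ ?_
  rintro π ⟨h1, h2⟩
  have hfin : IsFiniteMeasure π := by
    constructor
    have : π univ = a univ := by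
      rw [← h1, Measure.map_apply measurable_fst MeasurableSet.univ, preimage_univ]
    rw [this]
    exact measure_lt_top a univ
  have key : ∀ t, ‖a.real (Iic t) - b.real (Iic t)‖ₑ ≤ ∫⁻ z, ‖stp z.1 t - stp z.2 t‖ₑ ∂π := by
    intro t
    have e1 : a.real (Iic t) = ∫ z, stp z.1 t ∂π := by
      rw [← h1, measureReal_def, Measure.map_apply measurable_fst measurableSet_Iic]
      have : (fun z : ℝ × ℝ => stp z.1 t) = (Prod.fst ⁻¹' (Iic t)).indicator 1 := by
        funext z
        by_cases h : z.1 ≤ t <;> simp [stp, h, Set.indicator]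
      rw [this, integral_indicator_one (measurable_fst measurableSet_Iic), measureReal_def]
    have e2 : b.real (Iic t) = ∫ z, stp z.2 t ∂π := by
      rw [← h2, measureReal_def, Measure.map_apply measurable_snd measurableSet_Iic]
      have : (fun z : ℝ × ℝ => stp z.2 t) = (Prod.snd ⁻¹' (Iic t)).indicator 1 := by
        funext z
        by_cases h : z.2 ≤ t <;> simp [stp, h, Set.indicator]
      rw [this, integral_indicator_one (measurable_snd measurableSet_Iic), measureReal_def]
    have i1 : Integrable (fun z : ℝ × ℝ => stp z.1 t) π := by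
      refine Integrable.of_bound (C := 1) ?_ ?_
      · exact (stp_measurable2.comp (measurable_fst.prodMk measurable_const)).aestronglyMeasurable
      · exact Filter.Eventually.of_forall fun z => by unfold stp; split_ifs <;> simp
    have i2 : Integrable (fun z : ℝ × ℝ => stp z.2 t) π := by
      refine Integrable.of_bound (C := 1) ?_ ?_
      · exact (stp_measurable2.comp (measurable_snd.prodMk measurable_const)).aestronglyMeasurable
      · exact Filter.Eventually.of_forall fun z => by unfold stp; split_ifs <;> simp
    rw [e1, e2, ← integral_sub i1 i2]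
    exact enorm_integral_le_lintegral_enorm _
  calc cdfd a b ≤ ∫⁻ t, ∫⁻ z, ‖stp z.1 t - stp z.2 t‖ₑ ∂π := lintegral_mono key
    _ = ∫⁻ z, ∫⁻ t, ‖stp z.1 t - stp z.2 t‖ₑ ∂volume ∂π := by
        apply lintegral_lintegral_swap
        apply Measurable.aemeasurable
        exact ((stp_measurable2.comp ((measurable_fst.comp measurable_snd).prodMk measurable_fst)).sub
          (stp_measurable2.comp ((measurable_snd.comp measurable_snd).prodMk measurable_fst))).enorm
    _ = ∫⁻ z, ‖z.1 - z.2‖ₑ ∂π := by
        simp only [lintegral_stp]

end Crest.Agent.RI
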