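import Crest.Agent.RI.W1Pres

/-!
# Row 164, Part 12: S0249 from S0248
-/

set_option autoImplicit false

namespace Crest.Agent.RI

open MeasureTheory Set Filter Crest.ProbabilityR.InvariantGlass

/-- every empirical law is the law of a finite alphabet with rational weights -/
theorem exists_alphabet {N : ℕ} (hN : 0 < N) (c : Fin N → ℝ) :
    ∃ (J : ℕ) (cval : Fin J → ℝ) (γ : Fin J → ℚ), Function.Injective cval ∧ (∀ j, 0 < γ j) ∧
      ∑ j, γ j = 1 ∧ alphaLaw cval γ = empiricalLaw c := by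
  classical
  set s := Finset.univ.image c with hs
  have hNq : (0 : ℚ) < N := by exact_mod_cast hN
  refine ⟨s.card, fun j => (s.equivFin.symm j : ℝ),
    fun j => ((Finset.univ.filter fun r => c r = (s.equivFin.symm j : ℝ)).card : ℚ) / N, ?_, ?_, ?_, ?_⟩
  · intro i j h
    exact s.equivFin.symm.injective (Subtype.ext h)
  · intro j
    apply div_pos _ hNq
    have h1 := (s.equivFin.symm j).2
    obtain ⟨r, _, hr⟩ := Finset.mem_image.1 h1
    have : 0 < (Finset.univ.filter fun r => c r = (s.equivFin.symm j : ℝ)).card :=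
      Finset.card_pos.2 ⟨r, by rw [Finset.mem_filter]; exact ⟨Finset.mem_univ _, hr⟩⟩
    exact_mod_cast this
  · rw [← Finset.sum_div]
    have e1 : ∑ j : Fin s.card, ((Finset.univ.filter fun r => c r = (s.equivFin.symm j : ℝ)).card : ℚ) =
        ∑ x ∈ s, ((Finset.univ.filter fun r => c r = x).card : ℚ) := by
      rw [← Finset.sum_coe_sort s (fun x => ((Finset.univ.filter fun r => c r = x).card : ℚ))]
      exact Equiv.sum_comp s.equivFin.symm
        (fun x : s => ((Finset.univ.filter fun r => c r = (x : ℝ)).card : ℚ))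
    have e2 : ∑ x ∈ s, (Finset.univ.filter fun r => c r = x).card = N := by
      rw [hs, ← Finset.card_eq_sum_card_image, Finset.card_univ, Fintype.card_fin]
    rw [e1]
    have e3 : ∑ x ∈ s, ((Finset.univ.filter fun r => c r = x).card : ℚ) = N := by exact_mod_cast e2
    rw [e3]
    exact div_self hNq.ne'
  · unfold alphaLaw empiricalLaw
    have e1 : ∑ r : Fin N, Measure.dirac (c r) =
        ∑ x ∈ s, (Finset.univ.filter fun r => c r = x).card • Measure.dirac x := by
      rw [hs]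
      exact Finset.sum_comp (fun x => Measure.dirac x) c
    rw [e1, Finset.smul_sum]
    rw [← Finset.sum_coe_sort s (fun x => ((N : ENNReal)⁻¹) •
      ((Finset.univ.filter fun r => c r = x).card • Measure.dirac x))]
    rw [← Equiv.sum_comp s.equivFin.symm (fun x : s => ((N : ENNReal)⁻¹) •
      ((Finset.univ.filter fun r => c r = (x : ℝ)).card • Measure.dirac (x : ℝ)))]
    refine Finset.sum_congr rfl fun j _ => ?_
    rw [← Nat.cast_smul_eq_nsmul ENNReal, smul_smul]
    congr 1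
    push_cast
    rw [ENNReal.ofReal_div_of_pos (by exact_mod_cast hN), ENNReal.ofReal_natCast,
      ENNReal.ofReal_natCast, ENNReal.div_eq_inv_mul]

variable {μ : Measure ℝ} {lamPlus : ℝ} {eig : (N : ℕ) → Fin N → ℝ} {ν : Measure ℝ}
  [IsProbabilityMeasure ν] {c : (N : ℕ) → Fin N → ℝ} {Ω : Type} [MeasurableSpace Ω]
  {P : Measure Ω} [IsProbabilityMeasure P] {Us : (N : ℕ) → Ω → (Fin N → Fin N → ℝ)}

/-- eventually the cost is at most the distance plus `ε` -/
theorem eventually_cost (hW : Tendsto (fun N : ℕ => transportCost (empiricalLaw (c N)) ν) atTop (nhds 0))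
    {J : ℕ} {cval : Fin J → ℝ} {γ : Fin J → ℚ} {lab : (N : ℕ) → Fin N → Fin J}
    (hfin : cdfd ν (alphaLaw cval γ) ≠ ⊤)
    (hlab : ∀ N : ℕ, 0 < N → ENNReal.ofReal ((1 / (N : ℝ)) * ∑ r, |c N r - cval (lab N r)|) ≤
        cdfd (empiricalLaw (c N)) (alphaLaw cval γ) + ENNReal.ofReal (2 * (∑ j, |cval j|) / N))
    {ε : ℝ} (hε : 0 < ε) :
    ∀ᶠ N : ℕ in atTop, (1 / (N : ℝ)) * ∑ r, |c N r - cval (lab N r)| ≤
      (cdfd ν (alphaLaw cval γ)).toReal + ε := by
  have h1 : ∀ᶠ N : ℕ in atTop, transportCost (empiricalLaw (c N)) ν ≤ ENNReal.ofReal (ε / 2) :=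
    hW.eventually (eventually_le_nhds (by rw [ENNReal.ofReal_pos]; linarith))
  have h2 : ∀ᶠ N : ℕ in atTop, 2 * (∑ j, |cval j|) / (N : ℝ) ≤ ε / 2 :=
    (tendsto_const_div_atTop_nhds_zero_nat (2 * ∑ j, |cval j|)).eventually
      (eventually_le_nhds (by linarith))
  filter_upwards [h1, h2, eventually_gt_atTop 0] with N h1 h2 hN
  have h3 := hlab N hN
  have h4 : ENNReal.ofReal ((1 / (N : ℝ)) * ∑ r, |c N r - cval (lab N r)|) ≤
      ENNReal.ofReal ((cdfd ν (alphaLaw cval γ)).toReal + ε) := by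
    refine h3.trans ?_
    rw [ENNReal.ofReal_add ENNReal.toReal_nonneg hε.le, ENNReal.ofReal_toReal hfin]
    calc cdfd (empiricalLaw (c N)) (alphaLaw cval γ) + ENNReal.ofReal (2 * (∑ j, |cval j|) / N)
        ≤ (cdfd (empiricalLaw (c N)) ν + cdfd ν (alphaLaw cval γ)) + ENNReal.ofReal (ε / 2) :=
          add_le_add (cdfd_triangle _ _ _) (ENNReal.ofReal_le_ofReal h2)
      _ ≤ (ENNReal.ofReal (ε / 2) + cdfd ν (alphaLaw cval γ)) + ENNReal.ofReal (ε / 2) := by
          gcongr
          exact (cdfd_le_transportCost _ _).trans h1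
      _ = cdfd ν (alphaLaw cval γ) + ENNReal.ofReal ε := by
          rw [add_comm (ENNReal.ofReal (ε / 2)) (cdfd ν (alphaLaw cval γ)), add_assoc,
            ← ENNReal.ofReal_add (by linarith) (by linarith)]
          congr 2
          ring
  exact (ENNReal.ofReal_le_ofReal_iff (by positivity)).1 h4

/-- the conclusion of S0248 for all alphabets -/
def FieldLimits (μ : Measure ℝ) (lamPlus : ℝ) (eig : (N : ℕ) → Fin N → ℝ) {Ω : Type}
    [MeasurableSpace Ω] (P : Measure Ω) (Us : (N : ℕ) → Ω → (Fin N → Fin N → ℝ)) : Prop :=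
  ∀ (J : ℕ) (cval : Fin J → ℝ), Function.Injective cval → ∀ (γ : Fin J → ℚ), (∀ j, 0 < γ j) →
    ∑ j, γ j = 1 → ∀ (lab : (N : ℕ) → Fin N → Fin J),
    (∀ j : Fin J, Filter.Tendsto
      (fun N : ℕ => ((Finset.univ.filter fun r : Fin N => lab N r = j).card : ℝ) / (N : ℝ))
      Filter.atTop (nhds ((γ j : ℚ) : ℝ))) →
    ∃ F : ℝ, magneticValue μ lamPlus cval γ = (F : EReal) ∧
      Filter.Tendsto (fun N : ℕ => ∫ ω, pressureFieldN (eig N) (Matrix.of (Us N ω))
          (fun r => cval (lab N r)) ∂P) Filter.atTop (nhds F) ∧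
      ∀ᵐ ω ∂P, Filter.Tendsto (fun N : ℕ => pressureFieldN (eig N) (Matrix.of (Us N ω))
          (fun r => cval (lab N r))) Filter.atTop (nhds F)

theorem near_alphabet (hmeas : ∀ N, Measurable (Us N))
    (horth : ∀ N, ∀ᵐ ω ∂P, Matrix.of (Us N ω) ∈ Matrix.orthogonalGroup (Fin N) ℝ)
    (hW : Tendsto (fun N : ℕ => transportCost (empiricalLaw (c N)) ν) atTop (nhds 0))
    (H : FieldLimits μ lamPlus eig P Us)
    {J : ℕ} {cval : Fin J → ℝ} {γ : Fin J → ℚ} (hinj : Function.Injective cval)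
    (hγ : ∀ j, 0 < γ j) (hsum : ∑ j, γ j = 1) (hfin : cdfd ν (alphaLaw cval γ) ≠ ⊤) :
    ∃ F : ℝ, magneticValue μ lamPlus cval γ = (F : EReal) ∧
      (∀ ε > 0, ∀ᶠ N : ℕ in atTop,
        |(∫ ω, pressureFieldN (eig N) (Matrix.of (Us N ω)) (c N) ∂P) - F| ≤
          (cdfd ν (alphaLaw cval γ)).toReal + ε) ∧
      ∀ᵐ ω ∂P, ∀ ε > 0, ∀ᶠ N : ℕ in atTop,
        |pressureFieldN (eig N) (Matrix.of (Us N ω)) (c N) - F| ≤
          (cdfd ν (alphaLaw cval γ)).toReal + ε := by
  obtain ⟨lab, hl1, hl2⟩ := exists_lab_seq c cval hinj γ hγ hsum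
  obtain ⟨F, hF1, hF2, hF3⟩ := H J cval hinj γ hγ hsum lab hl1
  refine ⟨F, hF1, ?_, ?_⟩
  · intro ε hε
    have h1 := eventually_cost hW hfin hl2 (half_pos hε)
    have h2 := Metric.tendsto_nhds.1 hF2 (ε / 2) (half_pos hε)
    filter_upwards [h1, h2] with N h1 h2
    rw [Real.dist_eq] at h2
    have i1 := pressureField_integrable (eig N) (c N) (hmeas N) (horth N)
    have i2 := pressureField_integrable (eig N) (fun r => cval (lab N r)) (hmeas N) (horth N)
    have h3 : |(∫ ω, pressureFieldN (eig N) (Matrix.of (Us N ω)) (c N) ∂P) -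
        ∫ ω, pressureFieldN (eig N) (Matrix.of (Us N ω)) (fun r => cval (lab N r)) ∂P| ≤
        (1 / (N : ℝ)) * ∑ r, |c N r - cval (lab N r)| := by
      rw [← integral_sub i1 i2]
      refine (abs_integral_le_integral_abs).trans ?_
      calc _ ≤ ∫ _ω : Ω, (1 / (N : ℝ)) * ∑ r, |c N r - cval (lab N r)| ∂P := by
            refine integral_mono (i1.sub i2).abs (integrable_const _) fun ω => ?_
            exact pressureField_lip _ _ _ _
        _ = _ := by simp
    have h4 := abs_sub_le (∫ ω, pressureFieldN (eig N) (Matrix.of (Us N ω)) (c N) ∂P)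
      (∫ ω, pressureFieldN (eig N) (Matrix.of (Us N ω)) (fun r => cval (lab N r)) ∂P) F
    linarith
  · filter_upwards [hF3] with ω hω
    intro ε hε
    have h1 := eventually_cost hW hfin hl2 (half_pos hε)
    have h2 := Metric.tendsto_nhds.1 hω (ε / 2) (half_pos hε)
    filter_upwards [h1, h2] with N h1 h2
    rw [Real.dist_eq] at h2
    have h3 := pressureField_lip (eig N) (Matrix.of (Us N ω)) (c N) (fun r => cval (lab N r))
    have h4 := abs_sub_le (pressureFieldN (eig N) (Matrix.of (Us N ω)) (c N))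
      (pressureFieldN (eig N) (Matrix.of (Us N ω)) (fun r => cval (lab N r))) F
    linarith

/-- S0249 from S0248 -/
theorem s249_core (hmeas : ∀ N, Measurable (Us N))
    (horth : ∀ N, ∀ᵐ ω ∂P, Matrix.of (Us N ω) ∈ Matrix.orthogonalGroup (Fin N) ℝ)
    (hW : Tendsto (fun N : ℕ => transportCost (empiricalLaw (c N)) ν) atTop (nhds 0))
    (H : FieldLimits μ lamPlus eig P Us) :
    ∃ F : ℝ,
      (∀ (Jq : ℕ → ℕ) (cq : (q : ℕ) → Fin (Jq q) → ℝ) (γq : (q : ℕ) → Fin (Jq q) → ℚ),
        (∀ q, Function.Injective (cq q) ∧ (∀ j, 0 < γq q j) ∧ ∑ j, γq q j = 1) →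
        Filter.Tendsto (fun q : ℕ => transportCost
            (∑ j : Fin (Jq q), ENNReal.ofReal ((γq q j : ℚ) : ℝ) • MeasureTheory.Measure.dirac (cq q j)) ν)
          Filter.atTop (nhds 0) →
        Filter.Tendsto (fun q : ℕ => magneticValue μ lamPlus (cq q) (γq q))
          Filter.atTop (nhds (F : EReal))) ∧
      Filter.Tendsto (fun N : ℕ => ∫ ω, pressureFieldN (eig N) (Matrix.of (Us N ω)) (c N) ∂P)
        Filter.atTop (nhds F) ∧
      ∀ᵐ ω ∂P, Filter.Tendsto (fun N : ℕ => pressureFieldN (eig N) (Matrix.of (Us N ω)) (c N))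
        Filter.atTop (nhds F) := by
  -- approximating alphabets
  have hA : ∀ k : ℕ, ∃ (J : ℕ) (cval : Fin J → ℝ) (γ : Fin J → ℚ), Function.Injective cval ∧
      (∀ j, 0 < γ j) ∧ ∑ j, γ j = 1 ∧
      cdfd ν (alphaLaw cval γ) ≤ ENNReal.ofReal (1 / ((k : ℝ) + 1)) := by
    intro k
    have h1 : ∀ᶠ N : ℕ in atTop, transportCost (empiricalLaw (c N)) ν ≤
        ENNReal.ofReal (1 / ((k : ℝ) + 1)) :=
      hW.eventually (eventually_le_nhds (by rw [ENNReal.ofReal_pos]; positivity))
    obtain ⟨N, hN1, hN2⟩ := (h1.and (eventually_gt_atTop 0)).exists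
    obtain ⟨J, cval, γ, h2, h3, h4, h5⟩ := exists_alphabet hN2 (c N)
    refine ⟨J, cval, γ, h2, h3, h4, ?_⟩
    rw [cdfd_comm, h5]
    exact (cdfd_le_transportCost _ _).trans hN1
  choose J cval γ hinj hγ hsum hd using hA
  have hfin : ∀ k, cdfd ν (alphaLaw (cval k) (γ k)) ≠ ⊤ := fun k =>
    ne_top_of_le_ne_top ENNReal.ofReal_ne_top (hd k)
  have hdr : ∀ k, (cdfd ν (alphaLaw (cval k) (γ k))).toReal ≤ 1 / ((k : ℝ) + 1) := fun k =>
    ENNReal.toReal_le_of_le_ofReal (by positivity) (hd k)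
  have hF : ∀ k, _ := fun k => near_alphabet hmeas horth hW H (hinj k) (hγ k) (hsum k) (hfin k)
  choose Fk hF1 hF2 hF3 using hF
  set a : ℕ → ℝ := fun N => ∫ ω, pressureFieldN (eig N) (Matrix.of (Us N ω)) (c N) ∂P with ha
  -- a general fact
  have hk : ∀ ε > (0 : ℝ), ∃ k : ℕ, 1 / ((k : ℝ) + 1) < ε := fun ε hε =>
    exists_nat_one_div_lt hε
  have hcau : CauchySeq a := by
    rw [Metric.cauchySeq_iff']
    intro ε hε
    obtain ⟨k, hk⟩ := hk (ε / 4) (by linarith)
    obtain ⟨N0, hN0⟩ := eventually_atTop.1 (hF2 k (ε / 8) (by linarith))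
    refine ⟨N0, fun n hn => ?_⟩
    have h1 := hN0 n hn
    have h2 := hN0 N0 le_rfl
    have h3 := hdr k
    rw [Real.dist_eq]
    have h4 := abs_sub_le (a n) (Fk k) (a N0)
    rw [abs_sub_comm (Fk k) (a N0)] at h4
    simp only [ha] at h4 h1 h2 ⊢
    linarith
  obtain ⟨F, hFlim⟩ := cauchySeq_tendsto_of_complete hcau
  -- distance of the values
  have hdist : ∀ (G d : ℝ), (∀ ε > 0, ∀ᶠ N : ℕ in atTop, |a N - G| ≤ d + ε) → |F - G| ≤ d := by
    intro G d h
    apply le_of_forall_pos_le_add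
    intro ε hε
    have h1 : Tendsto (fun N => |a N - G|) atTop (nhds |F - G|) :=
      (hFlim.sub_const G).abs
    exact le_of_tendsto h1 (h ε hε)
  refine ⟨F, ?_, hFlim, ?_⟩
  · intro Jq cq γq hq hqW
    have hev : ∀ᶠ q : ℕ in atTop, transportCost (alphaLaw (cq q) (γq q)) ν ≤ 1 :=
      hqW.eventually (eventually_le_nhds one_pos)
    have hval : ∀ᶠ q : ℕ in atTop, ∃ G : ℝ, magneticValue μ lamPlus (cq q) (γq q) = (G : EReal) ∧
        |F - G| ≤ (transportCost (alphaLaw (cq q) (γq q)) ν).toReal := by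
      filter_upwards [hev] with q hq1
      have hle : cdfd ν (alphaLaw (cq q) (γq q)) ≤ transportCost (alphaLaw (cq q) (γq q)) ν := by
        rw [cdfd_comm]
        exact cdfd_le_transportCost _ _
      have hne : transportCost (alphaLaw (cq q) (γq q)) ν ≠ ⊤ :=
        ne_top_of_le_ne_top ENNReal.one_ne_top hq1
      obtain ⟨G, hG1, hG2, _⟩ := near_alphabet hmeas horth hW H (hq q).1 (hq q).2.1 (hq q).2.2
        (ne_top_of_le_ne_top hne hle)
      refine ⟨G, hG1, (hdist G _ hG2).trans ?_⟩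
      exact ENNReal.toReal_mono hne hle
    have hr : Tendsto (fun q => (magneticValue μ lamPlus (cq q) (γq q)).toReal) atTop (nhds F) := by
      rw [tendsto_iff_dist_tendsto_zero]
      have h0 : Tendsto (fun q => (transportCost (alphaLaw (cq q) (γq q)) ν).toReal) atTop
          (nhds 0) := by
        have := (ENNReal.tendsto_toReal ENNReal.zero_ne_top).comp hqW
        rw [ENNReal.toReal_zero] at this
        exact this
      refine squeeze_zero' (Eventually.of_forall fun _ => dist_nonneg) ?_ h0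
      filter_upwards [hval] with q hq2
      obtain ⟨G, hG1, hG2⟩ := hq2
      rw [hG1, EReal.toReal_coe, Real.dist_eq, abs_sub_comm]
      exact hG2
    have h2 : Tendsto (fun q => (((magneticValue μ lamPlus (cq q) (γq q)).toReal : ℝ) : EReal))
        atTop (nhds (F : EReal)) := (continuous_coe_real_ereal.tendsto F).comp hr
    refine h2.congr' ?_
    filter_upwards [hval] with q hq2
    obtain ⟨G, hG1, _⟩ := hq2
    rw [hG1, EReal.toReal_coe]
  · have hFk : ∀ k, |F - Fk k| ≤ 1 / ((k : ℝ) + 1) := fun k =>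
      (hdist (Fk k) _ (hF2 k)).trans (hdr k)
    filter_upwards [ae_all_iff.2 hF3] with ω hω
    rw [Metric.tendsto_nhds]
    intro ε hε
    obtain ⟨k, hk⟩ := hk (ε / 4) (by linarith)
    filter_upwards [hω k (ε / 4) (by linarith)] with N hN
    rw [Real.dist_eq]
    have h1 := abs_sub_le (pressureFieldN (eig N) (Matrix.of (Us N ω)) (c N)) (Fk k) F
    rw [abs_sub_comm (Fk k) F] at h1
    have h2 := hFk k
    have h3 := hdr k
    linarith

end Crest.Agent.RI
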