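import Crest.Agent.RI.W1

/-!
# Row 164, Part 12: labels adapted to a field vector
-/

set_option autoImplicit false

namespace Crest.Agent.RI

open MeasureTheory Set Crest.ProbabilityR.InvariantGlass

theorem stp_mono {x t t' : ℝ} (h : t ≤ t') : stp x t ≤ stp x t' := by
  unfold stp
  split_ifs with h1 h2
  · exact le_rfl
  · exact absurd (h1.trans h) h2
  · exact zero_le_one
  · exact le_rfl

theorem stp_nonneg (x t : ℝ) : 0 ≤ stp x t := by
  unfold stp; split_ifs <;> norm_num

theorem stp_le_one (x t : ℝ) : stp x t ≤ 1 := by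
  unfold stp; split_ifs <;> norm_num

/-- the number of naturals below `x` -/
theorem sum_lt_bound {N : ℕ} {x : ℝ} (h0 : 0 ≤ x) (hN : x ≤ N) :
    |(∑ i : Fin N, if ((i : ℕ) : ℝ) < x then (1 : ℝ) else 0) - x| ≤ 1 := by
  have h1 : (∑ i : Fin N, if ((i : ℕ) : ℝ) < x then (1 : ℝ) else 0) = (⌈x⌉₊ : ℝ) := by
    rw [Fin.sum_univ_eq_sum_range (fun i : ℕ => if (i : ℝ) < x then (1 : ℝ) else 0) N,
      ← Finset.sum_filter, Finset.sum_const, nsmul_eq_mul, mul_one]
    congr 1
    have : (Finset.range N).filter (fun i : ℕ => (i : ℝ) < x) = Finset.range ⌈x⌉₊ := by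
      ext i
      rw [Finset.mem_filter, Finset.mem_range, Finset.mem_range, Nat.lt_ceil]
      constructor
      · exact fun h => h.2
      · intro h
        refine ⟨?_, h⟩
        have : (i : ℝ) < N := lt_of_lt_of_le h hN
        exact_mod_cast this
    rw [this, Finset.card_range]
  rw [h1, abs_le]
  have h2 := Nat.le_ceil x
  have h3 := Nat.ceil_lt_add_one h0
  constructor <;> linarith

/-- LABELS. -/
theorem exists_lab {N J : ℕ} (c : Fin N → ℝ) (cval : Fin J → ℝ) (γ : Fin J → ℝ)
    (hγ : ∀ j, 0 ≤ γ j) (hsum : ∑ j, γ j = 1) :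
    ∃ lab : Fin N → Fin J,
      (∀ t, |∑ r, stp (cval (lab r)) t - N * ∑ j, γ j * stp (cval j) t| ≤ 1) ∧
      (∀ t, (∀ r, stp (c r) t ≤ stp (cval (lab r)) t) ∨
        (∀ r, stp (cval (lab r)) t ≤ stp (c r) t)) := by
  classical
  set G : ℝ → ℝ := fun t => ∑ j, γ j * stp (cval j) t with hG
  have hGmono : ∀ {t t' : ℝ}, t ≤ t' → G t ≤ G t' := by
    intro t t' h
    exact Finset.sum_le_sum fun j _ => mul_le_mul_of_nonneg_left (stp_mono h) (hγ j)
  have hG0 : ∀ t, 0 ≤ G t := fun t =>
    Finset.sum_nonneg fun j _ => mul_nonneg (hγ j) (stp_nonneg _ _)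
  have hG1 : ∀ t, G t ≤ 1 := by
    intro t
    rw [← hsum]
    exact Finset.sum_le_sum fun j _ => by
      have := mul_le_mul_of_nonneg_left (stp_le_one (cval j) t) (hγ j)
      simpa using this
  have hJ : (Finset.univ : Finset (Fin J)).Nonempty := by
    rw [Finset.univ_nonempty_iff]
    by_contra hc
    rw [not_nonempty_iff] at hc
    rw [Finset.univ_eq_empty, Finset.sum_empty] at hsum
    exact zero_ne_one hsum
  have hex : ∀ i : Fin N, ∃ j, ((i : ℕ) : ℝ) < N * G (cval j) ∧
      ∀ j', ((i : ℕ) : ℝ) < N * G (cval j') → cval j ≤ cval j' := by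
    intro i
    obtain ⟨jm, _, hjm⟩ := Finset.exists_max_image Finset.univ cval hJ
    have h1 : G (cval jm) = 1 := by
      rw [← hsum]
      refine Finset.sum_congr rfl fun j _ => ?_
      rw [stp, if_pos (hjm j (Finset.mem_univ j)), mul_one]
    have hne : (Finset.univ.filter fun j => ((i : ℕ) : ℝ) < N * G (cval j)).Nonempty := by
      refine ⟨jm, ?_⟩
      rw [Finset.mem_filter, h1, mul_one]
      exact ⟨Finset.mem_univ _, by exact_mod_cast i.2⟩
    obtain ⟨j, hj, hmin⟩ := Finset.exists_min_image _ cval hne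
    rw [Finset.mem_filter] at hj
    refine ⟨j, hj.2, fun j' hj' => hmin j' ?_⟩
    rw [Finset.mem_filter]
    exact ⟨Finset.mem_univ _, hj'⟩
  choose jj hjj1 hjj2 using hex
  have key : ∀ i t, cval (jj i) ≤ t ↔ ((i : ℕ) : ℝ) < N * G t := by
    intro i t
    constructor
    · intro h
      exact lt_of_lt_of_le (hjj1 i) (mul_le_mul_of_nonneg_left (hGmono h) (Nat.cast_nonneg N))
    · intro h
      have hne : (Finset.univ.filter fun j => cval j ≤ t).Nonempty := by
        by_contra hc
        rw [Finset.not_nonempty_iff_eq_empty] at hc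
        have : G t = 0 := by
          refine Finset.sum_eq_zero fun j _ => ?_
          have hj : ¬ cval j ≤ t := by
            intro hj
            have : j ∈ (Finset.univ.filter fun j => cval j ≤ t) := by
              rw [Finset.mem_filter]; exact ⟨Finset.mem_univ _, hj⟩
            rw [hc] at this
            exact absurd this (Finset.notMem_empty _)
          rw [stp, if_neg hj, mul_zero]
        rw [this, mul_zero] at h
        exact absurd h (not_lt.2 (Nat.cast_nonneg _))
      obtain ⟨j0, hj0, hmax⟩ := Finset.exists_max_image _ cval hne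
      rw [Finset.mem_filter] at hj0
      have e : G t = G (cval j0) := by
        refine Finset.sum_congr rfl fun j _ => ?_
        congr 1
        unfold stp
        by_cases hj : cval j ≤ t
        · rw [if_pos hj, if_pos]
          exact hmax j (by rw [Finset.mem_filter]; exact ⟨Finset.mem_univ _, hj⟩)
        · rw [if_neg hj, if_neg]
          exact fun hc => hj (hc.trans hj0.2)
      rw [e] at h
      exact (hjj2 i j0 h).trans hj0.2
  set σ := Tuple.sort c with hσ
  have hmono : Monotone (c ∘ σ) := Tuple.monotone_sort c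
  refine ⟨fun r => jj (σ.symm r), ?_, ?_⟩
  · intro t
    have e1 : ∑ r, stp (cval (jj (σ.symm r))) t =
        ∑ i : Fin N, if ((i : ℕ) : ℝ) < N * G t then (1 : ℝ) else 0 := by
      rw [Equiv.sum_comp σ.symm (fun i => stp (cval (jj i)) t)]
      refine Finset.sum_congr rfl fun i _ => ?_
      unfold stp
      simp only [key i t]
    rw [e1]
    apply sum_lt_bound (mul_nonneg (Nat.cast_nonneg N) (hG0 t))
    have := mul_le_mul_of_nonneg_left (hG1 t) (Nat.cast_nonneg (α := ℝ) N)
    linarith
  · intro t
    by_cases h : ∃ i, c (σ i) ≤ t ∧ ¬ ((i : ℕ) : ℝ) < N * G t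
    · right
      obtain ⟨i0, hi1, hi2⟩ := h
      intro r
      unfold stp
      by_cases h1 : cval (jj (σ.symm r)) ≤ t
      · have h2 : c r ≤ t := by
          rw [key] at h1
          have h3 : (σ.symm r) ≤ i0 := by
            rw [Fin.le_def]
            have : ((σ.symm r : ℕ) : ℝ) < (i0 : ℕ) := lt_of_lt_of_le h1 (not_lt.1 hi2)
            exact_mod_cast this.le
          have h4 := hmono h3
          simp only [Function.comp_apply, Equiv.apply_symm_apply] at h4
          exact h4.trans hi1
        rw [if_pos h1, if_pos h2]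
      · rw [if_neg h1]
        split_ifs <;> norm_num
    · left
      push Not at h
      intro r
      unfold stp
      by_cases h1 : c r ≤ t
      · have h2 := h (σ.symm r) (by rw [Equiv.apply_symm_apply]; exact h1)
        rw [if_pos h1, if_pos ((key _ t).2 h2)]
      · rw [if_neg h1]
        split_ifs <;> norm_num

/-- law of a finite alphabet -/
noncomputable def alphaLaw {J : ℕ} (cval : Fin J → ℝ) (γ : Fin J → ℚ) : Measure ℝ :=
  ∑ j : Fin J, ENNReal.ofReal ((γ j : ℚ) : ℝ) • Measure.dirac (cval j)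

instance {J : ℕ} (cval : Fin J → ℝ) (γ : Fin J → ℚ) : IsFiniteMeasure (alphaLaw cval γ) := by
  unfold alphaLaw
  constructor
  rw [Measure.finsetSum_apply]
  refine ENNReal.sum_lt_top.2 fun j _ => ?_
  rw [Measure.smul_apply, smul_eq_mul]
  exact ENNReal.mul_lt_top ENNReal.ofReal_lt_top (measure_lt_top _ _)

instance {N : ℕ} (c : Fin N → ℝ) : IsFiniteMeasure (empiricalLaw c) := by
  unfold empiricalLaw
  rcases Nat.eq_zero_or_pos N with rfl | hN
  · simp only [Finset.univ_eq_empty, Finset.sum_empty, smul_zero]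
    infer_instance
  · constructor
    rw [Measure.smul_apply, smul_eq_mul]
    refine ENNReal.mul_lt_top ?_ (measure_lt_top _ _)
    rw [ENNReal.inv_lt_top]
    exact_mod_cast hN

theorem dirac_real_Iic (x t : ℝ) : (Measure.dirac x).real (Iic t) = stp x t := by
  rw [measureReal_def, Measure.dirac_apply' _ measurableSet_Iic]
  unfold stp
  by_cases h : x ≤ t
  · rw [if_pos h, Set.indicator_of_mem (by exact h)]
    simp
  · rw [if_neg h, Set.indicator_of_notMem (by exact h)]
    simp

theorem alphaLaw_real {J : ℕ} (cval : Fin J → ℝ) (γ : Fin J → ℚ) (hγ : ∀ j, 0 ≤ γ j) (t : ℝ) :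
    (alphaLaw cval γ).real (Iic t) = ∑ j, (γ j : ℝ) * stp (cval j) t := by
  unfold alphaLaw
  rw [measureReal_def, Measure.finsetSum_apply, ENNReal.toReal_sum]
  · refine Finset.sum_congr rfl fun j _ => ?_
    rw [Measure.smul_apply, smul_eq_mul, ENNReal.toReal_mul,
      ENNReal.toReal_ofReal (by exact_mod_cast hγ j), ← measureReal_def, dirac_real_Iic]
  · intro j _
    rw [Measure.smul_apply, smul_eq_mul]
    exact (ENNReal.mul_lt_top ENNReal.ofReal_lt_top (measure_lt_top _ _)).ne

theorem empiricalLaw_real {N : ℕ} (c : Fin N → ℝ) (t : ℝ) :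
    (empiricalLaw c).real (Iic t) = (1 / (N : ℝ)) * ∑ r, stp (c r) t := by
  unfold empiricalLaw
  rw [measureReal_def, Measure.smul_apply, smul_eq_mul, ENNReal.toReal_mul,
    Measure.finsetSum_apply, ENNReal.toReal_sum]
  · rw [ENNReal.toReal_inv, ENNReal.toReal_natCast, one_div]
    congr 1
    refine Finset.sum_congr rfl fun r _ => ?_
    rw [← measureReal_def, dirac_real_Iic]
  · intro j _
    exact (measure_lt_top _ _).ne

end Crest.Agent.RI
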