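import Crest.Agent.RI.W1Lab

/-!
# Row 164, Part 12: the cost of adapted labels
-/

set_option autoImplicit false

namespace Crest.Agent.RI

open MeasureTheory Set Crest.ProbabilityR.InvariantGlass

theorem stp_diff_measurable (x y : ℝ) : Measurable (fun t => ‖stp x t - stp y t‖ₑ) :=
  ((stp_measurable2.comp (measurable_const.prodMk measurable_id)).sub
    (stp_measurable2.comp (measurable_const.prodMk measurable_id))).enorm

/-- the cost of a comonotone assignment is the distance of the distribution functions -/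
theorem cost_eq {N : ℕ} (c v : Fin N → ℝ)
    (h : ∀ t, (∀ r, stp (c r) t ≤ stp (v r) t) ∨ (∀ r, stp (v r) t ≤ stp (c r) t)) :
    ENNReal.ofReal ((1 / (N : ℝ)) * ∑ r, |c r - v r|) =
      cdfd (empiricalLaw c) (empiricalLaw v) := by
  have hN0 : (0 : ℝ) ≤ 1 / (N : ℝ) := by positivity
  have e1 : ∀ t, ‖(empiricalLaw c).real (Iic t) - (empiricalLaw v).real (Iic t)‖ₑ =
      ENNReal.ofReal (1 / (N : ℝ)) * ∑ r, ‖stp (c r) t - stp (v r) t‖ₑ := by
    intro t
    have e2 : |∑ r, stp (c r) t - ∑ r, stp (v r) t| = ∑ r, |stp (c r) t - stp (v r) t| := by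
      rw [← Finset.sum_sub_distrib]
      rcases h t with h1 | h1
      · rw [abs_of_nonpos (Finset.sum_nonpos fun r _ => sub_nonpos.2 (h1 r)), ← Finset.sum_neg_distrib]
        exact Finset.sum_congr rfl fun r _ => (abs_of_nonpos (sub_nonpos.2 (h1 r))).symm
      · rw [abs_of_nonneg (Finset.sum_nonneg fun r _ => sub_nonneg.2 (h1 r))]
        exact Finset.sum_congr rfl fun r _ => (abs_of_nonneg (sub_nonneg.2 (h1 r))).symm
    rw [empiricalLaw_real, empiricalLaw_real, ← mul_sub, Real.enorm_eq_ofReal_abs, abs_mul,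
      abs_of_nonneg hN0, e2, ENNReal.ofReal_mul hN0,
      ENNReal.ofReal_sum_of_nonneg (fun r _ => abs_nonneg _)]
    congr 1
    exact Finset.sum_congr rfl fun r _ => (Real.enorm_eq_ofReal_abs _).symm
  unfold cdfd
  simp only [e1]
  rw [lintegral_const_mul _ (Finset.measurable_sum _ fun r _ => stp_diff_measurable _ _),
    lintegral_finsetSum _ (fun r _ => stp_diff_measurable _ _)]
  simp only [lintegral_stp]
  rw [ENNReal.ofReal_mul hN0, ENNReal.ofReal_sum_of_nonneg (fun r _ => abs_nonneg _)]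
  congr 1
  exact Finset.sum_congr rfl fun r _ => (Real.enorm_eq_ofReal_abs _).symm

theorem close_law {N J : ℕ} (hN : 0 < N) (cval : Fin J → ℝ) (γ : Fin J → ℚ) (hγ : ∀ j, 0 ≤ γ j)
    (hsum : ∑ j, (γ j : ℝ) = 1) (lab : Fin N → Fin J)
    (hlab : ∀ t, |∑ r, stp (cval (lab r)) t - N * ∑ j, (γ j : ℝ) * stp (cval j) t| ≤ 1) :
    cdfd (alphaLaw cval γ) (empiricalLaw (fun r => cval (lab r))) ≤
      ENNReal.ofReal (2 * (∑ j, |cval j|) / N) := by
  set M := ∑ j, |cval j| with hM
  have hNr : (0 : ℝ) < N := by exact_mod_cast hN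
  have hcM : ∀ j, |cval j| ≤ M := fun j =>
    Finset.single_le_sum (f := fun j => |cval j|) (fun i _ => abs_nonneg _) (Finset.mem_univ j)
  have key : ∀ t, ‖(alphaLaw cval γ).real (Iic t) -
      (empiricalLaw (fun r => cval (lab r))).real (Iic t)‖ₑ ≤
      (Ico (-M) M).indicator (fun _ => ENNReal.ofReal (1 / N)) t := by
    intro t
    rw [alphaLaw_real cval γ hγ, empiricalLaw_real]
    by_cases ht : t ∈ Ico (-M) M
    · rw [Set.indicator_of_mem ht, Real.enorm_eq_ofReal_abs]
      apply ENNReal.ofReal_le_ofReal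
      have h1 := hlab t
      have e : ∑ j, (γ j : ℝ) * stp (cval j) t - (1 / (N : ℝ)) * ∑ r, stp (cval (lab r)) t =
          -((1 / (N : ℝ)) * (∑ r, stp (cval (lab r)) t - N * ∑ j, (γ j : ℝ) * stp (cval j) t)) := by
        field_simp
        ring
      rw [e, abs_neg, abs_mul, abs_of_pos (by positivity : (0 : ℝ) < 1 / N)]
      have h2 := mul_le_mul_of_nonneg_left h1 (by positivity : (0 : ℝ) ≤ 1 / N)
      rwa [mul_one] at h2
    · rw [Set.indicator_of_notMem ht]
      have : ∑ j, (γ j : ℝ) * stp (cval j) t - (1 / (N : ℝ)) * ∑ r, stp (cval (lab r)) t = 0 := by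
        rcases lt_or_ge t (-M) with h1 | h1
        · have h2 : ∀ j, stp (cval j) t = 0 := by
            intro j
            rw [stp, if_neg]
            intro hc
            have := neg_abs_le (cval j)
            linarith [hcM j]
          simp [h2]
        · have h3 : M ≤ t := by
            by_contra hc
            exact ht ⟨h1, not_le.1 hc⟩
          have h2 : ∀ j, stp (cval j) t = 1 := by
            intro j
            rw [stp, if_pos]
            exact (le_abs_self _).trans ((hcM j).trans h3)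
          simp only [h2, mul_one, hsum, Finset.sum_const, Finset.card_univ, Fintype.card_fin,
            nsmul_eq_mul]
          field_simp
          ring
      rw [this]
      simp
  unfold cdfd
  calc _ ≤ ∫⁻ t, (Ico (-M) M).indicator (fun _ => ENNReal.ofReal (1 / N)) t := lintegral_mono key
    _ = ENNReal.ofReal (2 * M / N) := by
      rw [lintegral_indicator measurableSet_Ico, lintegral_const,
        Measure.restrict_apply MeasurableSet.univ, univ_inter, Real.volume_Ico,
        ← ENNReal.ofReal_mul (by positivity)]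
      congr 1
      ring

theorem lab_count {N J : ℕ} (hN : 0 < N) (cval : Fin J → ℝ) (hinj : Function.Injective cval)
    (γ : Fin J → ℝ) (lab : Fin N → Fin J)
    (hlab : ∀ t, |∑ r, stp (cval (lab r)) t - N * ∑ j, γ j * stp (cval j) t| ≤ 1) (j : Fin J) :
    |((Finset.univ.filter fun r : Fin N => lab r = j).card : ℝ) / N - γ j| ≤ 2 / N := by
  classical
  have hNr : (0 : ℝ) < N := by exact_mod_cast hN
  obtain ⟨t', ht1, ht2⟩ : ∃ t', t' < cval j ∧ ∀ j', cval j' < cval j → cval j' ≤ t' := by
    by_cases hne : (Finset.univ.filter fun j' => cval j' < cval j).Nonempty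
    · obtain ⟨j0, hj0, hmax⟩ := Finset.exists_max_image _ cval hne
      rw [Finset.mem_filter] at hj0
      refine ⟨cval j0, hj0.2, fun j' hj' => hmax j' ?_⟩
      rw [Finset.mem_filter]
      exact ⟨Finset.mem_univ _, hj'⟩
    · refine ⟨cval j - 1, by linarith, fun j' hj' => ?_⟩
      exfalso
      apply hne
      exact ⟨j', by rw [Finset.mem_filter]; exact ⟨Finset.mem_univ _, hj'⟩⟩
  have e0 : ∀ j', stp (cval j') (cval j) - stp (cval j') t' = if j' = j then 1 else 0 := by
    intro j'
    unfold stp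
    by_cases h : j' = j
    · subst h
      rw [if_pos le_rfl, if_neg (not_le.2 ht1), if_pos rfl]
      ring
    · rw [if_neg h]
      rcases lt_trichotomy (cval j') (cval j) with h1 | h1 | h1
      · rw [if_pos h1.le, if_pos (ht2 _ h1)]
        ring
      · exact absurd (hinj h1) h
      · rw [if_neg (not_le.2 h1), if_neg (not_le.2 (ht1.trans h1))]
        ring
  have e1 : ((Finset.univ.filter fun r : Fin N => lab r = j).card : ℝ) =
      ∑ r, stp (cval (lab r)) (cval j) - ∑ r, stp (cval (lab r)) t' := by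
    rw [← Finset.sum_sub_distrib]
    simp only [e0]
    rw [← Finset.sum_filter, Finset.sum_const, nsmul_eq_mul, mul_one]
  have e2 : γ j = ∑ j', γ j' * stp (cval j') (cval j) - ∑ j', γ j' * stp (cval j') t' := by
    rw [← Finset.sum_sub_distrib]
    simp only [← mul_sub, e0, mul_ite, mul_one, mul_zero]
    rw [Finset.sum_ite_eq' Finset.univ j]
    simp
  have h1 := hlab (cval j)
  have h2 := hlab t'
  have e3 : ((Finset.univ.filter fun r : Fin N => lab r = j).card : ℝ) / N - γ j =
      (1 / N) * ((∑ r, stp (cval (lab r)) (cval j) - N * ∑ j', γ j' * stp (cval j') (cval j)) -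
        (∑ r, stp (cval (lab r)) t' - N * ∑ j', γ j' * stp (cval j') t')) := by
    rw [e1]
    conv_lhs => rw [e2]
    field_simp
    ring
  rw [e3, abs_mul, abs_of_pos (by positivity : (0 : ℝ) < 1 / N)]
  have h3 : |(∑ r, stp (cval (lab r)) (cval j) - N * ∑ j', γ j' * stp (cval j') (cval j)) -
        (∑ r, stp (cval (lab r)) t' - N * ∑ j', γ j' * stp (cval j') t')| ≤ 2 := by
    refine (abs_sub _ _).trans ?_
    linarith
  have h4 := mul_le_mul_of_nonneg_left h3 (by positivity : (0 : ℝ) ≤ 1 / N)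
  calc _ ≤ 1 / (N : ℝ) * 2 := h4
    _ = 2 / N := by ring

/-- ADAPTED LABELS -/
theorem exists_lab_seq (c : (N : ℕ) → Fin N → ℝ) {J : ℕ} (cval : Fin J → ℝ)
    (hinj : Function.Injective cval) (γ : Fin J → ℚ) (hγ : ∀ j, 0 < γ j) (hsum : ∑ j, γ j = 1) :
    ∃ lab : (N : ℕ) → Fin N → Fin J,
      (∀ j : Fin J, Filter.Tendsto
        (fun N : ℕ => ((Finset.univ.filter fun r : Fin N => lab N r = j).card : ℝ) / (N : ℝ))
        Filter.atTop (nhds ((γ j : ℚ) : ℝ))) ∧
      ∀ N : ℕ, 0 < N → ENNReal.ofReal ((1 / (N : ℝ)) * ∑ r, |c N r - cval (lab N r)|) ≤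
        cdfd (empiricalLaw (c N)) (alphaLaw cval γ) +
          ENNReal.ofReal (2 * (∑ j, |cval j|) / N) := by
  have hsum' : ∑ j, ((γ j : ℚ) : ℝ) = 1 := by exact_mod_cast hsum
  have hγ' : ∀ j, (0 : ℝ) ≤ ((γ j : ℚ) : ℝ) := fun j => by exact_mod_cast (hγ j).le
  have h : ∀ N : ℕ, ∃ lab : Fin N → Fin J,
      (∀ t, |∑ r, stp (cval (lab r)) t - (N : ℝ) * ∑ j, ((γ j : ℚ) : ℝ) * stp (cval j) t| ≤ 1) ∧
      (∀ t, (∀ r, stp (c N r) t ≤ stp (cval (lab r)) t) ∨
        (∀ r, stp (cval (lab r)) t ≤ stp (c N r) t)) := fun N =>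
    exists_lab (c N) cval (fun j => ((γ j : ℚ) : ℝ)) hγ' hsum'
  choose lab h1 h2 using h
  refine ⟨lab, ?_, ?_⟩
  · intro j
    rw [tendsto_iff_dist_tendsto_zero]
    refine squeeze_zero' (Filter.Eventually.of_forall fun N => dist_nonneg) ?_
      (tendsto_const_div_atTop_nhds_zero_nat (2 : ℝ))
    filter_upwards [Filter.eventually_gt_atTop 0] with N hN
    rw [Real.dist_eq]
    exact lab_count hN cval hinj _ (lab N) (h1 N) j
  · intro N hN
    rw [cost_eq (c N) (fun r => cval (lab N r)) (h2 N)]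
    refine (cdfd_triangle _ (alphaLaw cval γ) _).trans ?_
    gcongr
    exact close_law hN cval γ (fun j => (hγ j).le) hsum' (lab N) (h1 N)

end Crest.Agent.RI
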