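import Crest.Agent.RI.VEReal

/-!
# Row 164: S0247 from S0248 (`J = 1`, field value `0`)
-/

set_option autoImplicit false

namespace Crest.Agent.RI

open MeasureTheory ProbabilityTheory
open Crest.ProbabilityR.InvariantGlass

theorem pressureFieldN_zero {N : ℕ} (eig : Fin N → ℝ) (U : Matrix (Fin N) (Fin N) ℝ) :
    pressureFieldN eig U (fun _ => 0) = pressureN eig U := by
  unfold pressureFieldN pressureN
  simp

theorem zero_of_field (μ : Measure ℝ) (lamPlus : ℝ) (eig : (N : ℕ) → Fin N → ℝ)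
    (Ω : Type) [MeasurableSpace Ω] (P : Measure Ω) (Us : (N : ℕ) → Ω → (Fin N → Fin N → ℝ))
    (H : ∃ F : ℝ, magneticValue μ lamPlus (fun _ : Fin 1 => (0 : ℝ)) (fun _ => 1) = (F : EReal) ∧
      Filter.Tendsto (fun N : ℕ => ∫ ω, pressureFieldN (eig N) (Matrix.of (Us N ω))
          (fun r => (fun _ : Fin 1 => (0 : ℝ)) ((fun (N : ℕ) (_ : Fin N) => (0 : Fin 1)) N r)) ∂P)
          Filter.atTop (nhds F) ∧
      ∀ᵐ ω ∂P, Filter.Tendsto (fun N : ℕ => pressureFieldN (eig N) (Matrix.of (Us N ω))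
          (fun r => (fun _ : Fin 1 => (0 : ℝ)) ((fun (N : ℕ) (_ : Fin N) => (0 : Fin 1)) N r)))
          Filter.atTop (nhds F)) :
    ∃ F : ℝ, variationalValue μ lamPlus = (F : EReal) ∧
      Filter.Tendsto (fun N : ℕ => ∫ ω, pressureN (eig N) (Matrix.of (Us N ω)) ∂P)
        Filter.atTop (nhds F) ∧
      ∀ᵐ ω ∂P, Filter.Tendsto (fun N : ℕ => pressureN (eig N) (Matrix.of (Us N ω)))
        Filter.atTop (nhds F) := by
  obtain ⟨F, h1, h2, h3⟩ := H
  refine ⟨F, ?_, ?_, ?_⟩
  · rw [← magneticValue_zero]; exact h1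
  · simpa only [pressureFieldN_zero] using h2
  · simpa only [pressureFieldN_zero] using h3

/-- proportions of the single label -/
theorem prop_one (j : Fin 1) : Filter.Tendsto
    (fun N : ℕ => ((Finset.univ.filter fun r : Fin N => (fun (N : ℕ) (_ : Fin N) => (0 : Fin 1)) N r = j).card : ℝ)
      / (N : ℝ)) Filter.atTop (nhds ((((fun _ : Fin 1 => (1 : ℚ)) j : ℚ) : ℝ))) := by
  have hj : j = 0 := Subsingleton.elim _ _
  subst hj
  simp only [Finset.filter_true, Finset.card_univ, Fintype.card_fin, Rat.cast_one]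
  refine tendsto_const_nhds.congr' ?_
  filter_upwards [Filter.eventually_gt_atTop 0] with N hN
  have : (N : ℝ) ≠ 0 := by positivity
  rw [div_self this]

end Crest.Agent.RI
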